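import Crest.Agent.R249.Sch1_104

/-!
# R249, D1 (helper104): pointwise algebra of nonnegative sectional curvature

If `secNumer g x u v ≥ 0` for all `u v` (coordinate form), then with `s = scalarCurv g x`
* `ricF_nonneg`, `scal_nonneg`, `ricF_le : Ric(v,v) ≤ s |v|²`;
* `curv_bound : |⟨R(u,v)w,z⟩| ≤ (4/3) s |u||v||w||z|` and the coordinate form `curv_bound'`.
-/

set_option autoImplicit false
set_option maxSynthPendingDepth 3
set_option linter.unusedSectionVars false

open scoped ContDiff Topology Manifold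
open Filter Set
open Crest.GeometryTopology.CoordMetric Crest.GeometryTopology.ChartCurvature
  Crest.GeometryTopology.PointedLimit Crest.GeometryTopology.RicciEnergy
open Crest.Agent.R202.Tens Crest.Agent.R247.Bo84
open Crest.Agent.R249.Bia1_104 Crest.Agent.R249.Bia3_104

noncomputable section

namespace Crest.Agent.R249.Alg1_104

variable {n : ℕ}

local notation "𝔼" => EuclideanSpace ℝ (Fin n)

variable {g : MetricField n} {U : Set (EuclideanSpace ℝ (Fin n))} {x : EuclideanSpace ℝ (Fin n)}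

lemma bil_nonneg (hg : IsRiemannianOn g U) (hx : x ∈ U) (v : 𝔼) : 0 ≤ bil (g x) v v := by
  by_cases h : v = 0
  · simp [h]
  · exact (bil_pos hg hx h).le

/-- polarization bound for a symmetric bilinear form. -/
lemma polar_bound (hg : IsRiemannianOn g U) (hx : x ∈ U) {P : 𝔼 → 𝔼 → ℝ}
    (hs : ∀ v w, P v w = P w v) (ha : ∀ v w w', P v (w + w') = P v w + P v w')
    (hm : ∀ v w (c : ℝ), P v (c • w) = c * P v w) {K : ℝ}
    (hK : ∀ v, |P v v| ≤ K * bil (g x) v v) (v w : 𝔼) :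
    |P v w| ≤ K * √(bil (g x) v v) * √(bil (g x) w w) := by
  have h0 : ∀ v, P v 0 = 0 := fun v => by
    have := hm v 0 0
    simpa using this
  by_cases hv : v = 0
  · rw [hv, hs, h0]; simp
  by_cases hw : w = 0
  · rw [hw, h0]; simp
  set a := √(bil (g x) v v) with haa
  set b := √(bil (g x) w w) with hbb
  have hap : 0 < a := Real.sqrt_pos.2 (bil_pos hg hx hv)
  have hbp : 0 < b := Real.sqrt_pos.2 (bil_pos hg hx hw)
  have ha2 : a ^ 2 = bil (g x) v v := Real.sq_sqrt (bil_nonneg hg hx v)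
  have hb2 : b ^ 2 = bil (g x) w w := Real.sq_sqrt (bil_nonneg hg hx w)
  -- `Q(b v ± a w)`
  have hQ : ∀ (c d : ℝ), bil (g x) (c • v + d • w) (c • v + d • w) =
      c ^ 2 * a ^ 2 + 2 * c * d * bil (g x) v w + d ^ 2 * b ^ 2 := by
    intro c d
    rw [ha2, hb2]
    simp only [map_add, map_smul, add_apply, smul_apply, smul_eq_mul, bil_symm hg hx w v]
    ring
  have hPm : ∀ v w (c : ℝ), P (c • v) w = c * P v w := fun v w c => by rw [hs, hm, hs]
  have hPa : ∀ v v' w, P (v + v') w = P v w + P v' w := fun v v' w => by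
    rw [hs, ha, hs w v, hs w v']
  have hP : ∀ (c d : ℝ), P (c • v + d • w) (c • v + d • w) =
      c ^ 2 * P v v + 2 * c * d * P v w + d ^ 2 * P w w := by
    intro c d
    rw [ha, hPa, hPa, hm, hm, hPm, hPm, hPm, hPm, hm, hm, hs w v]
    ring
  have h1 := hK (b • v + a • w)
  have h2 := hK (b • v + (-a) • w)
  rw [hP, hQ] at h1 h2
  have h3 : |4 * a * b * P v w| ≤ K * (4 * a ^ 2 * b ^ 2) := by
    have e : 4 * a * b * P v w = (b ^ 2 * P v v + 2 * b * a * P v w + a ^ 2 * P w w) -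
        (b ^ 2 * P v v + 2 * b * (-a) * P v w + (-a) ^ 2 * P w w) := by ring
    rw [e]
    refine (abs_sub _ _).trans ((add_le_add h1 h2).trans_eq ?_)
    ring
  rw [abs_mul, abs_of_pos (by positivity : (0:ℝ) < 4 * a * b)] at h3
  have h4 : 4 * a * b * |P v w| ≤ 4 * a * b * (K * a * b) := by
    refine h3.trans_eq ?_; ring
  exact le_of_mul_le_mul_left h4 (by positivity)

/-- a nonnegative form is at most its trace. -/
lemma psd_le_trace (hg : IsRiemannianOn g U) (hx : x ∈ U) {P : 𝔼 → 𝔼 → ℝ}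
    (hs : ∀ v w, P v w = P w v) (ha : ∀ v w w', P v (w + w') = P v w + P v w')
    (hm : ∀ v w (c : ℝ), P v (c • w) = c * P v w) (h0 : ∀ v, 0 ≤ P v v)
    {ξ : Fin n → 𝔼} (h : IsFrame (g x) ξ) (u : 𝔼) :
    P u u ≤ (∑ a, P (ξ a) (ξ a)) * bil (g x) u u := by
  set c : Fin n → ℝ := fun a => bil (g x) u (ξ a) with hc
  have hsum : ∀ (v : 𝔼) (s : Finset (Fin n)) (f : Fin n → 𝔼), P v (∑ a ∈ s, f a) =
      ∑ a ∈ s, P v (f a) := by
    classical
    intro v s f
    induction s using Finset.induction_on with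
    | empty =>
      have := hm v 0 0
      simpa using this
    | insert b s hb ih => rw [Finset.sum_insert hb, ha, ih, Finset.sum_insert hb]
  have hPm : ∀ v w (c : ℝ), P (c • v) w = c * P v w := fun v w c => by rw [hs, hm, hs]
  have hu : u = ∑ a, c a • ξ a := h.expand hg hx u
  have e1 : P u u = ∑ a, ∑ b, c a * c b * P (ξ a) (ξ b) := by
    have e2 : ∀ b, P u (ξ b) = ∑ a, c a * P (ξ a) (ξ b) := by
      intro b
      rw [hs]
      conv_lhs => rw [hu]
      rw [hsum]
      exact Finset.sum_congr rfl fun a _ => by rw [hm, hs]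
    have e3 : P u u = ∑ b, c b * P u (ξ b) := by
      conv_lhs => rw [hu, hsum, ← hu]
      exact Finset.sum_congr rfl fun a _ => by rw [hm]
    rw [e3]
    simp only [e2, Finset.mul_sum]
    rw [Finset.sum_comm]
    refine Finset.sum_congr rfl fun a _ => Finset.sum_congr rfl fun b _ => by ring
  have e4 : bil (g x) u u = ∑ a, c a ^ 2 := by
    rw [h.bil_eq hg hx u u]
    exact Finset.sum_congr rfl fun a _ => by rw [sq]
  have key : ∀ a b, 2 * (c a * c b * P (ξ a) (ξ b)) ≤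
      c a ^ 2 * P (ξ b) (ξ b) + c b ^ 2 * P (ξ a) (ξ a) := by
    intro a b
    have h1 := h0 (c a • ξ b + (-c b) • ξ a)
    have hPa : ∀ v v' w, P (v + v') w = P v w + P v' w := fun v v' w => by
      rw [hs, ha, hs w v, hs w v']
    rw [ha, hPa, hPa, hm, hm, hPm, hPm, hm, hm, hPm, hPm, hs (ξ b) (ξ a)] at h1
    nlinarith [h1]
  have h2 : ∑ a, ∑ b, 2 * (c a * c b * P (ξ a) (ξ b)) ≤
      ∑ a, ∑ b, (c a ^ 2 * P (ξ b) (ξ b) + c b ^ 2 * P (ξ a) (ξ a)) :=
    Finset.sum_le_sum fun a _ => Finset.sum_le_sum fun b _ => key a b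
  have e5 : ∑ a, ∑ b, (c a ^ 2 * P (ξ b) (ξ b) + c b ^ 2 * P (ξ a) (ξ a)) =
      2 * ((∑ a, P (ξ a) (ξ a)) * ∑ a, c a ^ 2) := by
    simp only [Finset.sum_add_distrib]
    have e6 : ∑ a, ∑ b, c a ^ 2 * P (ξ b) (ξ b) = (∑ a, P (ξ a) (ξ a)) * ∑ a, c a ^ 2 := by
      rw [Finset.sum_mul_sum, Finset.sum_comm]
      refine Finset.sum_congr rfl fun a _ => Finset.sum_congr rfl fun b _ => by ring
    have e7 : ∑ a, ∑ b, c b ^ 2 * P (ξ a) (ξ a) = (∑ a, P (ξ a) (ξ a)) * ∑ a, c a ^ 2 := by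
      rw [Finset.sum_mul_sum]
      refine Finset.sum_congr rfl fun a _ => Finset.sum_congr rfl fun b _ => by ring
    rw [e6, e7]
    ring
  have e8 : ∑ a, ∑ b, 2 * (c a * c b * P (ξ a) (ξ b)) = 2 * P u u := by
    rw [e1, Finset.mul_sum]
    exact Finset.sum_congr rfl fun a _ => by rw [Finset.mul_sum]
  rw [e5, e8] at h2
  rw [e4]
  linarith

/-! ### the curvature tensor -/

/-- the curvature tensor as a 4-form. -/
def Rm (g : MetricField n) (x X W Y Z : EuclideanSpace ℝ (Fin n)) : ℝ :=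
  bil (g x) (curv (Gam g) x X W Y) Z

lemma Rm_swap (X W Y Z : 𝔼) : Rm g x X W Y Z = - Rm g x W X Y Z := by
  rw [Rm, Rm, curv_swap]; simp

lemma Rm_pair (hg : IsRiemannianOn g U) (hx : x ∈ U) (X W Y Z : 𝔼) :
    Rm g x X W Y Z = Rm g x Z Y W X := curv_pair hg hx X W Y Z

lemma Rm_skew (hg : IsRiemannianOn g U) (hx : x ∈ U) (X W Y Z : 𝔼) :
    Rm g x X W Y Z = - Rm g x X W Z Y := curv_skew hg hx X W Y Z

lemma Rm_first (hg : IsRiemannianOn g U) (hx : x ∈ U) (X W Y Z : 𝔼) :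
    Rm g x X W Y Z + Rm g x W Y X Z + Rm g x Y X W Z = 0 := by
  have h := curv_first hg hx X W Y
  have h2 : bil (g x) (curv (Gam g) x X W Y + curv (Gam g) x W Y X + curv (Gam g) x Y X W) Z = 0 := by
    rw [h]; simp
  simpa [map_add, add_apply, Rm] using h2

lemma Rm_add3 (X W Y Y' Z : 𝔼) : Rm g x X W (Y + Y') Z = Rm g x X W Y Z + Rm g x X W Y' Z := by
  rw [Rm, curv_add3]; simp [Rm]

lemma Rm_smul3 (c : ℝ) (X W Y Z : 𝔼) : Rm g x X W (c • Y) Z = c * Rm g x X W Y Z := by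
  rw [Rm, curv_smul3]; simp [Rm]

lemma Rm_add4 (X W Y Z Z' : 𝔼) : Rm g x X W Y (Z + Z') = Rm g x X W Y Z + Rm g x X W Y Z' := by
  simp [Rm]

lemma Rm_smul4 (c : ℝ) (X W Y Z : 𝔼) : Rm g x X W Y (c • Z) = c * Rm g x X W Y Z := by
  simp [Rm]

lemma Rm_add1 (X X' W Y Z : 𝔼) : Rm g x (X + X') W Y Z = Rm g x X W Y Z + Rm g x X' W Y Z := by
  rw [Rm, curv_add1]; simp [Rm]

lemma Rm_smul1 (c : ℝ) (X W Y Z : 𝔼) : Rm g x (c • X) W Y Z = c * Rm g x X W Y Z := by
  rw [Rm, curv_smul1]; simp [Rm]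

section pos

variable (hg : IsRiemannianOn g U) (hx : x ∈ U) (hpos : ∀ u v, 0 ≤ secNumer g x u v)

include hg hx

lemma ricF_frame' {ξ : Fin n → 𝔼} (h : IsFrame (g x) ξ) (v w : 𝔼) :
    ricF g x v w = ∑ a, Rm g x (ξ a) v w (ξ a) := ricF_frame hg hx h v w

lemma ricF_add (v w w' : 𝔼) : ricF g x v (w + w') = ricF g x v w + ricF g x v w' := by
  obtain ⟨ξ, h⟩ := exists_frame hg hx
  rw [ricF_frame' hg hx h, ricF_frame' hg hx h, ricF_frame' hg hx h, ← Finset.sum_add_distrib]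
  exact Finset.sum_congr rfl fun a _ => Rm_add3 _ _ _ _ _

lemma ricF_smul (v w : 𝔼) (c : ℝ) : ricF g x v (c • w) = c * ricF g x v w := by
  obtain ⟨ξ, h⟩ := exists_frame hg hx
  rw [ricF_frame' hg hx h, ricF_frame' hg hx h, Finset.mul_sum]
  exact Finset.sum_congr rfl fun a _ => Rm_smul3 _ _ _ _ _

include hpos

lemma Rm_nonneg (u v : 𝔼) : 0 ≤ Rm g x u v v u := by
  have := hpos u v
  rwa [secNumer_eq hg hx] at this

theorem ricF_nonneg (v : 𝔼) : 0 ≤ ricF g x v v := by
  obtain ⟨ξ, h⟩ := exists_frame hg hx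
  rw [ricF_frame' hg hx h]
  exact Finset.sum_nonneg fun a _ => Rm_nonneg hg hx hpos _ _

theorem scal_nonneg : 0 ≤ scalarCurv g x := by
  obtain ⟨ξ, h⟩ := exists_frame hg hx
  rw [Crest.Agent.R249.Sch1_104.scal_frame hg hx h]
  exact Finset.sum_nonneg fun a _ => ricF_nonneg hg hx hpos _

theorem ricF_le (v : 𝔼) : ricF g x v v ≤ scalarCurv g x * bil (g x) v v := by
  obtain ⟨ξ, h⟩ := exists_frame hg hx
  rw [Crest.Agent.R249.Sch1_104.scal_frame hg hx h]
  exact psd_le_trace hg hx (ricF_symm hg hx) (ricF_add hg hx) (ricF_smul hg hx)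
    (ricF_nonneg hg hx hpos) h v

theorem sec_le (u v : 𝔼) :
    Rm g x u v v u ≤ scalarCurv g x * bil (g x) u u * bil (g x) v v := by
  obtain ⟨ξ, h⟩ := exists_frame hg hx
  have h1 := psd_le_trace hg hx (P := fun u u' => Rm g x u v v u')
    (fun u u' => Rm_pair hg hx _ _ _ _) (fun _ _ _ => Rm_add4 _ _ _ _ _)
    (fun _ _ _ => Rm_smul4 _ _ _ _ _) (fun u => Rm_nonneg hg hx hpos u v) h u
  rw [← ricF_frame' hg hx h] at h1
  have h2 := mul_le_mul_of_nonneg_right (ricF_le hg hx hpos v) (bil_nonneg hg hx u)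
  nlinarith [h1, h2]

theorem curv_bound (u v w z : 𝔼) : |Rm g x u v w z| ≤ (4/3) * scalarCurv g x *
    √(bil (g x) u u) * √(bil (g x) v v) * √(bil (g x) w w) * √(bil (g x) z z) := by
  have hs0 := scal_nonneg hg hx hpos
  -- step A
  have hA : ∀ u v w : 𝔼, |Rm g x u v w u| ≤
      (scalarCurv g x * bil (g x) u u) * √(bil (g x) v v) * √(bil (g x) w w) := by
    intro u v w
    refine polar_bound hg hx (P := fun v w => Rm g x u v w u)
      (fun v w => Rm_pair hg hx _ _ _ _) (fun _ _ _ => Rm_add3 _ _ _ _ _)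
      (fun _ _ _ => Rm_smul3 _ _ _ _ _) (fun v => ?_) v w
    rw [abs_of_nonneg (Rm_nonneg hg hx hpos u v)]
    exact sec_le hg hx hpos u v
  -- step B
  have hB : ∀ u v w z : 𝔼, |Rm g x u v w z + Rm g x z v w u| ≤
      (2 * scalarCurv g x * √(bil (g x) v v) * √(bil (g x) w w)) *
        √(bil (g x) u u) * √(bil (g x) z z) := by
    intro u v w z
    refine polar_bound hg hx (P := fun u z => Rm g x u v w z + Rm g x z v w u)
      (fun u z => by ring) (fun _ _ _ => ?_) (fun _ _ _ => ?_) (fun u => ?_) u z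
    · simp only [Rm_add4, Rm_add1]; ring
    · simp only [Rm_smul4, Rm_smul1]; ring
    · have h1 := hA u v w
      have e : Rm g x u v w u + Rm g x u v w u = 2 * Rm g x u v w u := by ring
      rw [e, abs_mul, abs_two]
      refine (mul_le_mul_of_nonneg_left h1 (by norm_num)).trans_eq ?_
      ring
  have e3 : 3 * Rm g x u v w z = (Rm g x u v w z + Rm g x z v w u) -
      (Rm g x v u w z + Rm g x z u w v) := by
    have h1 := Rm_first hg hx u v w z
    have h2 := Rm_pair hg hx z v w u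
    have h3 := Rm_pair hg hx z u w v
    have h4 := Rm_swap (g := g) (x := x) u w v z
    have h5 := Rm_swap (g := g) (x := x) v u w z
    linarith
  have h6 := hB u v w z
  have h7 := hB v u w z
  have h8 : |3 * Rm g x u v w z| ≤ 3 * ((4/3) * scalarCurv g x *
    √(bil (g x) u u) * √(bil (g x) v v) * √(bil (g x) w w) * √(bil (g x) z z)) := by
    rw [e3]
    refine (abs_sub _ _).trans ((add_le_add h6 h7).trans_eq ?_)
    ring
  rw [abs_mul, abs_of_pos (by norm_num : (0:ℝ) < 3)] at h8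
  exact le_of_mul_le_mul_left h8 (by norm_num)

/-- the coordinate form of the curvature bound. -/
theorem curv_bound' (u v w z : 𝔼) :
    |∑ l, ∑ m, g x l m * (∑ k, ∑ i, ∑ j, riemann g x l k i j * w k * u i * v j) * z m| ≤
      (4/3) * scalarCurv g x * √(quadForm g x u) * √(quadForm g x v) *
        √(quadForm g x w) * √(quadForm g x z) := by
  have h1 := curv_bound hg hx hpos u v w z
  have e : Rm g x u v w z =
      ∑ l, ∑ m, g x l m * (∑ k, ∑ i, ∑ j, riemann g x l k i j * w k * u i * v j) * z m := by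
    rw [Rm, bil_apply]
    refine Finset.sum_congr rfl fun l _ => Finset.sum_congr rfl fun m _ => ?_
    rw [curv_apply fun k i j => differentiableAt_christoffel hg hx k i j]
  rw [← e]
  simpa only [quadForm_eq] using h1

end pos

end Crest.Agent.R249.Alg1_104
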