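import Crest.Agent.R249.Alg1_104
import Crest.Agent.R249.Diam1_709

/-!
# R249, D1 (helper104): pointwise consequences on the manifold

* `ricBound_of_sec : HasNonnegSectionalCurvature n M → HasRicciLowerBound n M 0`;
* `mScal_nonneg`; `curv_bound_M` (the hypothesis of `IdxStmt` with `B = (4/3) mScal`);
* `ricGe_dev : RicGe n M c (fun x => √(mRicDev n M c x))`.
-/

set_option autoImplicit false
set_option maxSynthPendingDepth 3
set_option linter.unusedSectionVars false

open scoped ContDiff Topology Manifold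
open Filter Set Bundle
open Crest.GeometryTopology.CoordMetric Crest.GeometryTopology.ChartCurvature
  Crest.GeometryTopology.PointedLimit Crest.GeometryTopology.RicciEnergy
open Crest.Agent.R202.Tens Crest.Agent.R247.Bo84
open Crest.Agent.R249.Bia1_104 Crest.Agent.R249.Bia3_104 Crest.Agent.R249.D1Def104
open Crest.Agent.R249.Alg1_104 Crest.Agent.R249.Sch1_104

noncomputable section

namespace Crest.Agent.R249.Alg2_104

section coord

variable {n : ℕ}

local notation "𝔼" => EuclideanSpace ℝ (Fin n)

variable {g : MetricField n} {U : Set (EuclideanSpace ℝ (Fin n))} {x : EuclideanSpace ℝ (Fin n)}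

lemma ric_dev_bound (hg : IsRiemannianOn g U) (hx : x ∈ U) (c : ℝ) (v : 𝔼) :
    |ricF g x v v - c * bil (g x) v v| ≤ √(ricDev c g x) * bil (g x) v v := by
  obtain ⟨ξ, h⟩ := exists_frame hg hx
  set a : Fin n → ℝ := fun i => bil (g x) v (ξ i) with ha
  have hv : v = ∑ i, a i • ξ i := h.expand hg hx v
  have hQ : bil (g x) v v = ∑ i, a i ^ 2 := by
    rw [h.bil_eq hg hx v v]
    exact Finset.sum_congr rfl fun i _ => by rw [sq]
  have hsum : ∀ (v : 𝔼) (s : Finset (Fin n)) (f : Fin n → 𝔼), ricF g x v (∑ a ∈ s, f a) =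
      ∑ a ∈ s, ricF g x v (f a) := by
    classical
    intro v s f
    induction s using Finset.induction_on with
    | empty =>
      have := ricF_smul hg hx v 0 0
      simpa using this
    | insert b s hb ih => rw [Finset.sum_insert hb, ricF_add hg hx, ih, Finset.sum_insert hb]
  have hR : ricF g x v v = ∑ i, ∑ j, a i * a j * ricF g x (ξ i) (ξ j) := by
    have e2 : ∀ b, ricF g x v (ξ b) = ∑ i, a i * ricF g x (ξ i) (ξ b) := by
      intro b
      rw [ricF_symm hg hx]
      conv_lhs => rw [hv]
      rw [hsum]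
      exact Finset.sum_congr rfl fun i _ => by rw [ricF_smul hg hx, ricF_symm hg hx]
    have e3 : ricF g x v v = ∑ b, a b * ricF g x v (ξ b) := by
      conv_lhs => rw [hv, hsum, ← hv]
      exact Finset.sum_congr rfl fun i _ => by rw [ricF_smul hg hx]
    rw [e3]
    simp only [e2, Finset.mul_sum]
    rw [Finset.sum_comm]
    refine Finset.sum_congr rfl fun i _ => Finset.sum_congr rfl fun b _ => by ring
  have hD : ricF g x v v - c * bil (g x) v v =
      ∑ i, ∑ j, (a i * a j) * (ricF g x (ξ i) (ξ j) - c * (if i = j then 1 else 0)) := by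
    rw [hR, hQ, Finset.mul_sum, ← Finset.sum_sub_distrib]
    refine Finset.sum_congr rfl fun i _ => ?_
    have e : ∀ j, (a i * a j) * (ricF g x (ξ i) (ξ j) - c * (if i = j then 1 else 0)) =
        a i * a j * ricF g x (ξ i) (ξ j) - (if i = j then c * (a i * a j) else 0) := by
      intro j
      split_ifs <;> ring
    simp only [e, Finset.sum_sub_distrib, Finset.sum_ite_eq, Finset.mem_univ, if_true]
    ring
  have hCS : (∑ i, ∑ j, (a i * a j) *
      (ricF g x (ξ i) (ξ j) - c * (if i = j then 1 else 0))) ^ 2 ≤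
      (∑ i, ∑ j, (a i * a j) ^ 2) * ricDev c g x := by
    rw [ricDev_frame hg hx h c]
    have h1 := Finset.sum_mul_sq_le_sq_mul_sq (Finset.univ : Finset (Fin n × Fin n))
      (fun p => a p.1 * a p.2)
      (fun p => ricF g x (ξ p.1) (ξ p.2) - c * (if p.1 = p.2 then 1 else 0))
    simpa only [Fintype.sum_prod_type] using h1
  have hQ2 : ∑ i, ∑ j, (a i * a j) ^ 2 = bil (g x) v v ^ 2 := by
    rw [hQ, sq, Finset.sum_mul_sum]
    refine Finset.sum_congr rfl fun i _ => Finset.sum_congr rfl fun j _ => by ring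
  rw [hQ2, ← hD] at hCS
  have h0 := bil_nonneg hg hx v
  have h1 := Real.abs_le_sqrt hCS
  rw [Real.sqrt_mul (sq_nonneg _), Real.sqrt_sq h0] at h1
  linarith

end coord

variable {n : ℕ} {M : Type*} [MetricSpace M] [ChartedSpace (EuclideanSpace ℝ (Fin n)) M]
  [IsManifold (𝓡 n) ∞ M]
  [RiemannianBundle (fun p : M => TangentSpace (𝓡 n) p)]
  [IsContMDiffRiemannianBundle (𝓡 n) ∞ (EuclideanSpace ℝ (Fin n))
    (fun p : M => TangentSpace (𝓡 n) p)]

local notation "𝔼" => EuclideanSpace ℝ (Fin n)

theorem ricBound_of_sec (h : HasNonnegSectionalCurvature n M) : HasRicciLowerBound n M 0 := by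
  intro p v
  have hg := Crest.Agent.R247.Bo84.isRiemannianOn_chartMetric (n := n) p
  rw [zero_mul, ← ricF_eq' hg (centre_mem p)]
  exact ricF_nonneg hg (centre_mem p) (h p) v

theorem mScal_nonneg (h : HasNonnegSectionalCurvature n M) (p : M) : 0 ≤ mScal n M p :=
  scal_nonneg (Crest.Agent.R247.Bo84.isRiemannianOn_chartMetric (n := n) p) (centre_mem p) (h p)

theorem curv_bound_M (h : HasNonnegSectionalCurvature n M) (p : M) (u v w z : 𝔼) :
    |∑ l, ∑ m, chartMetric n M p (chartCentre n M p) l m *
        (∑ k, ∑ i, ∑ j, riemann (chartMetric n M p) (chartCentre n M p) l k i j *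
          w k * u i * v j) * z m| ≤
      ((4/3) * mScal n M p) * Real.sqrt (quadForm (chartMetric n M p) (chartCentre n M p) u) *
        Real.sqrt (quadForm (chartMetric n M p) (chartCentre n M p) v) *
        Real.sqrt (quadForm (chartMetric n M p) (chartCentre n M p) w) *
        Real.sqrt (quadForm (chartMetric n M p) (chartCentre n M p) z) :=
  curv_bound' (Crest.Agent.R247.Bo84.isRiemannianOn_chartMetric (n := n) p) (centre_mem p) (h p)
    u v w z

theorem ricGe_dev (c : ℝ) : Crest.Agent.R249.Diam709.RicGe n M c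
    (fun x => √(mRicDev n M c x)) := by
  intro p v
  have hg := Crest.Agent.R247.Bo84.isRiemannianOn_chartMetric (n := n) p
  have h1 := ric_dev_bound hg (centre_mem p) c v
  rw [← ricF_eq' hg (centre_mem p), quadForm_eq]
  have h2 := (abs_le.1 h1).1
  change (c - √(ricDev c (chartMetric n M p) (chartCentre n M p))) *
    bil (chartMetric n M p (chartCentre n M p)) v v ≤ _
  linarith

end Crest.Agent.R249.Alg2_104
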