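import Crest.Agent.R249.ModB_40

/-!
# R249, B3 (helper40): curvature of manifolds locally covered by the three models

* `sphere_data`, `proj_data`, `prod_data`: the curvature at every point in an orthonormal frame;
* `secNumer_of_sphere`, `le_secNumer_of_proj`, `exists_zero_of_prod`, `einstein_of_prod`;
* `einstein_pos`: positive sectional curvature and Einstein with constant `c` give `0 < c`.
-/

set_option autoImplicit false
set_option maxSynthPendingDepth 3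
set_option linter.unusedSectionVars false

open Real Bundle Set Filter Metric Topology
open scoped ContDiff Manifold InnerProductSpace
open Crest.GeometryTopology.CoordMetric Crest.GeometryTopology.ChartCurvature
open Crest.Agent.R202.Tens
open Crest.Agent.R249.Pb40 Crest.Agent.R249.MyS40 Crest.Agent.R249.Mod40
open Crest.Agent.R249.TrigS_662 Crest.Agent.R249.MdlP_850

noncomputable section

namespace Crest.Agent.R249.B3a40

section Gen

variable {n : ℕ} {M : Type*} [MetricSpace M] [ChartedSpace (EuclideanSpace ℝ (Fin n)) M]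
  [IsManifold (𝓡 n) ∞ M]
  [RiemannianBundle (fun p : M => TangentSpace (𝓡 n) p)]
  [IsContMDiffRiemannianBundle (𝓡 n) ∞ (EuclideanSpace ℝ (Fin n)) (fun p : M => TangentSpace (𝓡 n) p)]
  [IsRiemannianManifold (𝓡 n) M] [CompactSpace M]

local notation "𝔼" => EuclideanSpace ℝ (Fin n)

/-- curvature data of `M` at `x` in an orthonormal frame -/
def CurvData (n : ℕ) (M : Type*) [MetricSpace M] [ChartedSpace (EuclideanSpace ℝ (Fin n)) M]
    [RiemannianBundle (fun p : M => TangentSpace (𝓡 n) p)] (x : M)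
    (S : EuclideanSpace ℝ (Fin n) → EuclideanSpace ℝ (Fin n) → ℝ) : Prop :=
  ∃ L : EuclideanSpace ℝ (Fin n) ≃ₗ[ℝ] EuclideanSpace ℝ (Fin n),
    (∀ u v, bil (chartMetric n M x (chartCentre n M x)) (L u) (L v) = inner ℝ u v) ∧
    (∀ u v, secNumer (chartMetric n M x) (chartCentre n M x) (L u) (L v) = S u v) ∧
    (∀ u v, gramDet (chartMetric n M x) (chartCentre n M x) (L u) (L v) =
      ‖u‖ ^ 2 * ‖v‖ ^ 2 - inner ℝ u v ^ 2) ∧
    (∀ v, ∑ i, ∑ j, ricci (chartMetric n M x) (chartCentre n M x) i j * (L v) i * (L v) j =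
      ∑ k, S (EuclideanSpace.single k 1) v)

theorem curvData_of_model (x : M) {r δ a : ℝ} (hr : 0 < r) (ha : 0 < a) (hδ : 0 < δ)
    {D S : 𝔼 → 𝔼 → ℝ} (hD : ModMet n r D S) (hS : ∀ (c : ℝ) (v ξ : 𝔼), S (c • v) ξ = c ^ 2 * S v ξ)
    {F : 𝔼 → M} (hF0 : F 0 = x)
    (hF : ∀ v w : 𝔼, ‖v‖ < δ → ‖w‖ < δ → dist (F v) (F w) = D v w / √a) :
    CurvData n M x (fun v ξ => a * S v ξ) := by
  have hs : 0 < √a := Real.sqrt_pos.2 ha
  have h1 := modMet_scale hD hs (hS (√a))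
  have h2 := h1.mono (min_le_left (r / √a) (δ / √a))
  have hpos : 0 < min (r / √a) (δ / √a) := lt_min (by positivity) (by positivity)
  have hlt : ∀ v : 𝔼, ‖v‖ < min (r / √a) (δ / √a) → ‖√a • v‖ < δ := by
    intro v hv
    rw [norm_smul, Real.norm_eq_abs, abs_of_pos hs, mul_comm]
    exact (lt_div_iff₀ hs).1 (hv.trans_le (min_le_right _ _))
  have h3 := curvature_of_model x hpos h2 (F := fun v => F (√a • v)) (by simp [hF0])
    (fun v w hv hw => hF _ _ (hlt v hv) (hlt w hw))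
  rw [Real.sq_sqrt ha.le] at h3
  exact h3

theorem CurvData.secNumer_eq {x : M} {S : 𝔼 → 𝔼 → ℝ} (h : CurvData n M x S) {P : ℝ → ℝ → Prop}
    (hP : ∀ u v : 𝔼, P (‖u‖ ^ 2 * ‖v‖ ^ 2 - inner ℝ u v ^ 2) (S u v)) (u v : 𝔼) :
    P (gramDet (chartMetric n M x) (chartCentre n M x) u v)
      (secNumer (chartMetric n M x) (chartCentre n M x) u v) := by
  obtain ⟨L, -, h2, h3, -⟩ := h
  have := hP (L.symm u) (L.symm v)
  rw [← h2, ← h3, L.apply_symm_apply, L.apply_symm_apply] at this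
  exact this

theorem CurvData.einstein {x : M} {S : 𝔼 → 𝔼 → ℝ} (h : CurvData n M x S) {c : ℝ}
    (hE : IsEinsteinWith n M c) (v : 𝔼) : c * ‖v‖ ^ 2 = ∑ k, S (EuclideanSpace.single k 1) v := by
  obtain ⟨L, h1, -, -, h4⟩ := h
  rw [← h4 v, ← real_inner_self_eq_norm_sq, ← h1, bil_apply, Finset.mul_sum]
  refine Finset.sum_congr rfl fun i _ => ?_
  rw [Finset.mul_sum]
  refine Finset.sum_congr rfl fun j _ => ?_
  rw [hE x i j]
  ring

end Gen

section Sphere

variable {n : ℕ} {M : Type*} [MetricSpace M] [ChartedSpace (EuclideanSpace ℝ (Fin n)) M]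
  [IsManifold (𝓡 n) ∞ M]
  [RiemannianBundle (fun p : M => TangentSpace (𝓡 n) p)]
  [IsContMDiffRiemannianBundle (𝓡 n) ∞ (EuclideanSpace ℝ (Fin n)) (fun p : M => TangentSpace (𝓡 n) p)]
  [IsRiemannianManifold (𝓡 n) M] [CompactSpace M]

theorem exists_delta {n : ℕ} {V : Type*} [NormedAddCommGroup V] [InnerProductSpace ℝ V] (p : V)
    (ι : EuclideanSpace ℝ (Fin n) →ₗᵢ[ℝ] V) {ε : ℝ} (hε : 0 < ε) :
    ∃ δ : ℝ, 0 < δ ∧ ∀ v : EuclideanSpace ℝ (Fin n), ‖v‖ < δ → dist p (ee p ι v) < ε := by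
  have h1 : ContinuousAt (ee p ι) 0 := (contDiff_ee p ι).continuous.continuousAt
  obtain ⟨δ, hδ, h2⟩ := Metric.continuousAt_iff.1 h1 ε hε
  refine ⟨δ, hδ, fun v hv => ?_⟩
  have := h2 (x := v) (by simpa using hv)
  rwa [ee_zero, dist_comm] at this

/-- the curvature of a manifold locally covered by the round sphere -/
theorem sphere_data {a : ℝ} (h : IsLocallyCoveredByRoundSphere M n a) (x : M) :
    CurvData n M x (fun v ξ => a * (‖v‖ ^ 2 * ‖ξ‖ ^ 2 - ⟪v, ξ⟫_ℝ ^ 2)) := by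
  obtain ⟨ha, Φ, hsurj, hloc⟩ := h
  obtain ⟨p, hp⟩ := hsurj x
  obtain ⟨ε, hε, hd⟩ := hloc p
  have hp1 : ‖(p : EuclideanSpace ℝ (Fin (n + 1)))‖ = 1 := mem_sphere_zero_iff_norm.1 p.2
  obtain ⟨ι, hι⟩ := exists_iota (p : EuclideanSpace ℝ (Fin (n + 1))) hp1
  obtain ⟨δ, hδ, hδ'⟩ := exists_delta (p : EuclideanSpace ℝ (Fin (n + 1))) ι hε
  have hmem : ∀ v, ee (p : EuclideanSpace ℝ (Fin (n + 1))) ι v ∈
      Metric.sphere (0 : EuclideanSpace ℝ (Fin (n + 1))) 1 := by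
    intro v
    rw [mem_sphere_zero_iff_norm]
    exact norm_ee hp1 hι v
  refine curvData_of_model x (by positivity) ha hδ (modMet_sphere hp1 hι) ?_
    (F := fun v => Φ ⟨ee (p : EuclideanSpace ℝ (Fin (n + 1))) ι v, hmem v⟩) ?_ ?_
  · intro c v ξ
    rw [norm_smul, real_inner_smul_left, mul_pow, Real.norm_eq_abs, sq_abs]
    ring
  · rw [← hp]
    congr 1
    apply Subtype.ext
    exact ee_zero _ _
  · intro v w hv hw
    exact hd _ _ (hδ' v hv) (hδ' w hw)

theorem secNumer_of_sphere {a : ℝ} (h : IsLocallyCoveredByRoundSphere M n a) (x : M)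
    (u v : EuclideanSpace ℝ (Fin n)) :
    secNumer (chartMetric n M x) (chartCentre n M x) u v =
      a * gramDet (chartMetric n M x) (chartCentre n M x) u v :=
  (sphere_data h x).secNumer_eq (P := fun s t => t = a * s) (fun _ _ => rfl) u v

end Sphere

section Proj

variable {m : ℕ} {M : Type*} [MetricSpace M] [ChartedSpace (EuclideanSpace ℝ (Fin (2 * m))) M]
  [IsManifold (𝓡 (2 * m)) ∞ M]
  [RiemannianBundle (fun p : M => TangentSpace (𝓡 (2 * m)) p)]
  [IsContMDiffRiemannianBundle (𝓡 (2 * m)) ∞ (EuclideanSpace ℝ (Fin (2 * m)))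
    (fun p : M => TangentSpace (𝓡 (2 * m)) p)]
  [IsRiemannianManifold (𝓡 (2 * m)) M] [CompactSpace M]

section Loc

attribute [local instance] InnerProductSpace.complexToReal

/-- the curvature of a manifold locally covered by complex projective space -/
theorem proj_data {a : ℝ} (h : IsLocallyCoveredByComplexProjective M m a) (x : M) :
    ∃ κ : EuclideanSpace ℝ (Fin (2 * m)) → EuclideanSpace ℝ (Fin (2 * m)) → ℝ,
      CurvData (2 * m) M x
        (fun v ξ => a * (‖v‖ ^ 2 * ‖ξ‖ ^ 2 - ⟪v, ξ⟫_ℝ ^ 2 + 3 * κ v ξ ^ 2)) := by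
  obtain ⟨ha, Φ, hsurj, hloc⟩ := h
  obtain ⟨p, hp⟩ := hsurj x
  obtain ⟨ε, hε, hd⟩ := hloc p
  have hp1 : ‖(p : EuclideanSpace ℂ (Fin (m + 1)))‖ = 1 := mem_sphere_zero_iff_norm.1 p.2
  obtain ⟨ι, hι⟩ := exists_iota_complex (m := m) finrank_euclideanSpace_fin
    (p : EuclideanSpace ℂ (Fin (m + 1))) hp1
  obtain ⟨δ, hδ, hδ'⟩ := exists_delta (p : EuclideanSpace ℂ (Fin (m + 1))) ι hε
  have hmem : ∀ v, ee (p : EuclideanSpace ℂ (Fin (m + 1))) ι v ∈
      Metric.sphere (0 : EuclideanSpace ℂ (Fin (m + 1))) 1 := by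
    intro v
    rw [mem_sphere_zero_iff_norm]
    exact norm_ee hp1 (hιr hι) v
  refine ⟨kf ι, curvData_of_model x (by positivity) ha hδ (modMet_proj hp1 hι) ?_
    (F := fun v => Φ ⟨ee (p : EuclideanSpace ℂ (Fin (m + 1))) ι v, hmem v⟩) ?_ ?_⟩
  · intro c v ξ
    rw [norm_smul, real_inner_smul_left, mul_pow, Real.norm_eq_abs, sq_abs, kf_smul_left]
    ring
  · rw [← hp]
    congr 1
    apply Subtype.ext
    exact ee_zero _ _
  · intro v w hv hw
    exact hd _ _ (hδ' v hv) (hδ' w hw)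

end Loc

theorem le_secNumer_of_proj' {a : ℝ} (h : IsLocallyCoveredByComplexProjective M m a) (x : M)
    (u v : EuclideanSpace ℝ (Fin (2 * m))) :
    a * gramDet (chartMetric (2 * m) M x) (chartCentre (2 * m) M x) u v ≤
      secNumer (chartMetric (2 * m) M x) (chartCentre (2 * m) M x) u v := by
  obtain ⟨κ, hκ⟩ := proj_data h x
  have ha : 0 < a := h.1
  refine hκ.secNumer_eq (P := fun s t => a * s ≤ t) (fun u v => ?_) u v
  have : 0 ≤ a * (3 * κ u v ^ 2) := by positivity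
  linarith

end Proj

section Prod

section Two

variable {M : Type*} [MetricSpace M] [ChartedSpace (EuclideanSpace ℝ (Fin (2 + 2))) M]
  [IsManifold (𝓡 (2 + 2)) ∞ M]
  [RiemannianBundle (fun p : M => TangentSpace (𝓡 (2 + 2)) p)]
  [IsContMDiffRiemannianBundle (𝓡 (2 + 2)) ∞ (EuclideanSpace ℝ (Fin (2 + 2)))
    (fun p : M => TangentSpace (𝓡 (2 + 2)) p)]
  [IsRiemannianManifold (𝓡 (2 + 2)) M] [CompactSpace M]

theorem p1_zero : p1 2 2 0 = 0 := map_zero _

theorem p2_zero : p2 2 2 0 = 0 := map_zero _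

/-- the curvature of a manifold locally covered by `S² × S²` -/
theorem prod_data {a : ℝ} (h : IsLocallyCoveredBySphereProduct M a) (x : M) :
    CurvData (2 + 2) M x (fun v ξ => a *
      ((‖p1 2 2 v‖ ^ 2 * ‖p1 2 2 ξ‖ ^ 2 - ⟪p1 2 2 v, p1 2 2 ξ⟫_ℝ ^ 2) +
        (‖p2 2 2 v‖ ^ 2 * ‖p2 2 2 ξ‖ ^ 2 - ⟪p2 2 2 v, p2 2 2 ξ⟫_ℝ ^ 2))) := by
  obtain ⟨ha, Φ, hsurj, hloc⟩ := h
  obtain ⟨p, hp⟩ := hsurj x
  obtain ⟨ε, hε, hd⟩ := hloc p
  obtain ⟨P, Q⟩ := p
  have hp1 : ‖(P : EuclideanSpace ℝ (Fin 3))‖ = 1 := mem_sphere_zero_iff_norm.1 P.2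
  have hp2 : ‖(Q : EuclideanSpace ℝ (Fin 3))‖ = 1 := mem_sphere_zero_iff_norm.1 Q.2
  obtain ⟨ι, hι⟩ : ∃ ι : EuclideanSpace ℝ (Fin 2) →ₗᵢ[ℝ] EuclideanSpace ℝ (Fin 3),
      ∀ w, ⟪(P : EuclideanSpace ℝ (Fin 3)), ι w⟫_ℝ = 0 := exists_iota (n := 2) _ hp1
  obtain ⟨ι', hι'⟩ : ∃ ι : EuclideanSpace ℝ (Fin 2) →ₗᵢ[ℝ] EuclideanSpace ℝ (Fin 3),
      ∀ w, ⟪(Q : EuclideanSpace ℝ (Fin 3)), ι w⟫_ℝ = 0 := exists_iota (n := 2) _ hp2
  obtain ⟨δ, hδ, hδ'⟩ := exists_delta (P : EuclideanSpace ℝ (Fin 3)) ι hε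
  obtain ⟨δ₂, hδ₂, hδ₂'⟩ := exists_delta (Q : EuclideanSpace ℝ (Fin 3)) ι' hε
  let F1 : EuclideanSpace ℝ (Fin 2) → Metric.sphere (0 : EuclideanSpace ℝ (Fin 3)) 1 := fun v =>
    ⟨ee (P : EuclideanSpace ℝ (Fin 3)) ι v, by
      rw [mem_sphere_zero_iff_norm]; exact norm_ee hp1 hι v⟩
  let F2 : EuclideanSpace ℝ (Fin 2) → Metric.sphere (0 : EuclideanSpace ℝ (Fin 3)) 1 := fun v =>
    ⟨ee (Q : EuclideanSpace ℝ (Fin 3)) ι' v, by
      rw [mem_sphere_zero_iff_norm]; exact norm_ee hp2 hι' v⟩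
  have hF1 : F1 0 = P := Subtype.ext (ee_zero _ _)
  have hF2 : F2 0 = Q := Subtype.ext (ee_zero _ _)
  refine curvData_of_model x (by positivity) ha (lt_min hδ hδ₂)
    (modMet_prod (modMet_sphere hp1 hι) (modMet_sphere hp2 hι')) ?_
    (F := fun v => Φ (F1 (p1 2 2 v), F2 (p2 2 2 v))) ?_ ?_
  · intro c v ξ
    simp only [map_smul, norm_smul, real_inner_smul_left, mul_pow, Real.norm_eq_abs, sq_abs]
    ring
  · show Φ (F1 (p1 2 2 0), F2 (p2 2 2 0)) = x
    rw [p1_zero, p2_zero, hF1, hF2, hp]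
  · intro v w hv hw
    refine hd _ _ ?_ ?_
    · rw [Prod.dist_eq]
      exact max_lt (hδ' _ ((norm_p1_le v).trans_lt (hv.trans_le (min_le_left _ _))))
        (hδ₂' _ ((norm_p2_le v).trans_lt (hv.trans_le (min_le_right _ _))))
    · rw [Prod.dist_eq]
      exact max_lt (hδ' _ ((norm_p1_le w).trans_lt (hw.trans_le (min_le_left _ _))))
        (hδ₂' _ ((norm_p2_le w).trans_lt (hw.trans_le (min_le_right _ _))))

/-- the first basis vector of `ℝ²` -/
def e0 : EuclideanSpace ℝ (Fin 2) := EuclideanSpace.single 0 1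

theorem norm_e0 : ‖e0‖ = 1 := by simp [e0]

theorem exists_zero_of_prod' {a : ℝ} (h : IsLocallyCoveredBySphereProduct M a) (x : M) :
    ∃ u v : EuclideanSpace ℝ (Fin (2 + 2)),
      0 < gramDet (chartMetric (2 + 2) M x) (chartCentre (2 + 2) M x) u v ∧
        secNumer (chartMetric (2 + 2) M x) (chartCentre (2 + 2) M x) u v = 0 := by
  obtain ⟨L, -, h2, h3, -⟩ := prod_data h x
  refine ⟨L (i1 2 2 e0), L (i2 2 2 e0), ?_, ?_⟩
  · rw [h3, norm_sq_eq, norm_sq_eq (i2 2 2 e0), inner_eq, p1_i1, p2_i1, p1_i2, p2_i2, norm_e0,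
      norm_zero, inner_zero_right, inner_zero_left]
    norm_num
  · rw [h2]
    beta_reduce
    rw [p1_i1, p2_i1, p1_i2, p2_i2, norm_e0, norm_zero, inner_zero_right, inner_zero_left]
    norm_num

theorem sum_prod_aux (a : ℝ) : ∑ k : Fin (2 + 2), a *
      ((‖p1 2 2 (EuclideanSpace.single k (1:ℝ))‖ ^ 2 * ‖p1 2 2 (i1 2 2 e0)‖ ^ 2 -
          ⟪p1 2 2 (EuclideanSpace.single k (1:ℝ)), p1 2 2 (i1 2 2 e0)⟫_ℝ ^ 2) +
        (‖p2 2 2 (EuclideanSpace.single k (1:ℝ))‖ ^ 2 * ‖p2 2 2 (i1 2 2 e0)‖ ^ 2 -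
          ⟪p2 2 2 (EuclideanSpace.single k (1:ℝ)), p2 2 2 (i1 2 2 e0)⟫_ℝ ^ 2)) = a := by
  rw [Fin.sum_univ_add]
  simp only [p1_i1, p2_i1, norm_e0, norm_zero, inner_zero_right]
  have h1 : ∀ k : Fin 2, p1 2 2 (EuclideanSpace.single (Fin.castAdd 2 k) (1:ℝ)) =
      EuclideanSpace.single k 1 := by
    intro k
    ext i
    rw [p1_apply, PiLp.single_apply, PiLp.single_apply]
    by_cases hik : i = k
    · rw [hik, if_pos rfl, if_pos rfl]
    · rw [if_neg hik, if_neg]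
      intro h
      exact hik (Fin.castAdd_injective 2 2 h)
  have h2 : ∀ k : Fin 2, p1 2 2 (EuclideanSpace.single (Fin.natAdd 2 k) (1:ℝ)) = 0 := by
    intro k
    ext i
    rw [p1_apply]
    have : Fin.castAdd 2 i ≠ Fin.natAdd 2 k := by
      intro h
      have := congrArg Fin.val h
      simp at this
      omega
    rw [PiLp.single_apply, if_neg this]
    rfl
  have h3 : ⟪(EuclideanSpace.single 0 1 : EuclideanSpace ℝ (Fin 2)), e0⟫_ℝ = 1 := by
    rw [e0, EuclideanSpace.inner_single_right]; simp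
  have h4 : ⟪(EuclideanSpace.single 1 1 : EuclideanSpace ℝ (Fin 2)), e0⟫_ℝ = 0 := by
    rw [e0, EuclideanSpace.inner_single_right]; simp
  simp only [h1, h2, Fin.sum_univ_two, h3, h4, norm_zero, inner_zero_left]
  simp

theorem einstein_of_prod' [Nonempty M] {a c : ℝ} (h : IsLocallyCoveredBySphereProduct M a)
    (hE : IsEinsteinWith (2 + 2) M c) : c = a := by
  obtain ⟨x⟩ := ‹Nonempty M›
  have h1 := (prod_data h x).einstein hE (i1 2 2 e0)
  have h2 : ‖i1 2 2 e0‖ ^ 2 = 1 := by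
    rw [norm_sq_eq, p1_i1, p2_i1, norm_e0, norm_zero]; norm_num
  rw [h2, mul_one] at h1
  rw [h1]
  exact sum_prod_aux a

end Two

variable {N : ℕ} {M : Type*} [MetricSpace M] [ChartedSpace (EuclideanSpace ℝ (Fin N)) M]
  [IsManifold (𝓡 N) ∞ M]
  [RiemannianBundle (fun p : M => TangentSpace (𝓡 N) p)]
  [IsContMDiffRiemannianBundle (𝓡 N) ∞ (EuclideanSpace ℝ (Fin N)) (fun p : M => TangentSpace (𝓡 N) p)]
  [IsRiemannianManifold (𝓡 N) M] [CompactSpace M]

theorem exists_zero_of_prod (hN : N = 2 + 2) {a : ℝ} (h : IsLocallyCoveredBySphereProduct M a)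
    (x : M) : ∃ u v : EuclideanSpace ℝ (Fin N),
      0 < gramDet (chartMetric N M x) (chartCentre N M x) u v ∧
        secNumer (chartMetric N M x) (chartCentre N M x) u v = 0 := by
  subst hN
  exact exists_zero_of_prod' h x

theorem einstein_of_prod (hN : N = 2 + 2) [Nonempty M] {a c : ℝ}
    (h : IsLocallyCoveredBySphereProduct M a) (hE : IsEinsteinWith N M c) : c = a := by
  subst hN
  exact einstein_of_prod' h hE

theorem le_secNumer_of_proj {m : ℕ} (hN : N = 2 * m) {a : ℝ}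
    (h : IsLocallyCoveredByComplexProjective M m a) (x : M) (u v : EuclideanSpace ℝ (Fin N)) :
    a * gramDet (chartMetric N M x) (chartCentre N M x) u v ≤
      secNumer (chartMetric N M x) (chartCentre N M x) u v := by
  subst hN
  exact le_secNumer_of_proj' h x u v

end Prod

section Pos

variable {n : ℕ} {M : Type*} [MetricSpace M] [ChartedSpace (EuclideanSpace ℝ (Fin n)) M]
  [IsManifold (𝓡 n) ∞ M]
  [RiemannianBundle (fun p : M => TangentSpace (𝓡 n) p)]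
  [IsContMDiffRiemannianBundle (𝓡 n) ∞ (EuclideanSpace ℝ (Fin n)) (fun p : M => TangentSpace (𝓡 n) p)]

local notation "𝔼" => EuclideanSpace ℝ (Fin n)

/-- every point has an orthonormal frame, in which the Ricci form is the trace of the curvature -/
theorem exists_frame (x : M) : ∃ L : 𝔼 ≃L[ℝ] 𝔼,
    (∀ u v, bil (chartMetric n M x (chartCentre n M x)) (L u) (L v) = inner ℝ u v) ∧
    (∀ v, ∑ i, ∑ j, ricci (chartMetric n M x) (chartCentre n M x) i j * (L v) i * (L v) j =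
      ∑ k, secNumer (chartMetric n M x) (chartCentre n M x) (L (EuclideanSpace.single k 1)) (L v)) := by
  have ha : chartCentre n M x ∈ (chartAt 𝔼 x).target := mem_chart_target 𝔼 x
  obtain ⟨A, hA, -⟩ := Crest.Agent.R247.Ms322.exists_isometry x ha
  set a0 : 𝔼 := chartCentre n M x with ha0
  set Φ : 𝔼 → 𝔼 := fun y => A.symm y + a0 with hΦ
  have hΦd : ∀ y, HasFDerivAt Φ (A.symm : 𝔼 →L[ℝ] 𝔼) y := fun y =>
    ((A.symm : 𝔼 →L[ℝ] 𝔼).hasFDerivAt).add_const a0
  have hΦf : ∀ y, fderiv ℝ Φ y = (A.symm : 𝔼 →L[ℝ] 𝔼) := fun y => (hΦd y).fderiv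
  have hΦ0 : Φ 0 = a0 := by simp [hΦ]
  set V : Set 𝔼 := Φ ⁻¹' (chartAt 𝔼 x).target with hV
  have hΦs : ContDiff ℝ ∞ Φ := (A.symm.contDiff).add contDiff_const
  have h0 : (0:𝔼) ∈ V := by
    show Φ 0 ∈ (chartAt 𝔼 x).target
    rw [hΦ0]; exact ha
  set g' : MetricField n := fun y => Matrix.of fun i j => ∑ a, ∑ b,
    chartMetric n M x (Φ y) a b * (fderiv ℝ Φ y (EuclideanSpace.single i 1)) a *
      (fderiv ℝ Φ y (EuclideanSpace.single j 1)) b with hg'
  have hP : Pull g' (chartMetric n M x) Φ V (chartAt 𝔼 x).target :=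
    { isOpen := (chartAt 𝔼 x).open_target.preimage hΦs.continuous
      riem := Crest.Agent.R247.Bo84.isRiemannianOn_chartMetric x
      maps := fun y hy => hy
      smooth := hΦs.contDiffOn
      pull := fun y hy i j => rfl
      inj := fun y hy => by rw [hΦf]; exact A.symm.injective }
  have hb : ∀ u v : 𝔼, bil (chartMetric n M x a0) (A.symm u) (A.symm v) = inner ℝ u v := by
    intro u v
    have h1 := hA (A.symm u) (A.symm v)
    rw [A.apply_symm_apply, A.apply_symm_apply] at h1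
    rw [h1, Crest.Agent.R247.Bo84.bil_chartMetric, Crest.Agent.R226.ChartMet842.gm_apply]
    rfl
  refine ⟨A.symm, hb, fun v => ?_⟩
  have h1 : ∀ u v : 𝔼, bil (g' 0) u v = inner ℝ u v := by
    intro u v
    rw [hP.bil_eq h0, hΦf, hΦ0]
    exact hb u v
  have h2 := ricci_eq_sum_secNumer hP.riem' h0 h1 v
  have h3 := hP.ricci_pull h0 v v
  rw [hΦf, hΦ0] at h3
  refine Eq.trans h3.symm (h2.trans ?_)
  refine Finset.sum_congr rfl fun k _ => ?_
  have h4 := hP.secNumer_pull h0 (EuclideanSpace.single k 1) v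
  rw [hΦf, hΦ0] at h4
  exact h4

theorem secNumer_self {g : MetricField n} {U : Set (EuclideanSpace ℝ (Fin n))}
    (hg : IsRiemannianOn g U) {x : 𝔼} (hx : x ∈ U) (u : 𝔼) : secNumer g x u u = 0 := by
  rw [secNumer_eq hg hx]
  have : curv (Gam g) x u u u = 0 := by
    unfold curv; simp
  rw [this]; simp

theorem einstein_pos [Nonempty M] (hn : 2 ≤ n) {c : ℝ} (hE : IsEinsteinWith n M c)
    (hK : HasPosSectionalCurvature n M) : 0 < c := by
  obtain ⟨x⟩ := ‹Nonempty M›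
  obtain ⟨L, h1, h2⟩ := exists_frame (n := n) x
  have hg := Crest.Agent.R247.Bo84.isRiemannianOn_chartMetric (n := n) x
  have ha : chartCentre n M x ∈ (chartAt 𝔼 x).target := mem_chart_target 𝔼 x
  let i0 : Fin n := ⟨0, by omega⟩
  let i1 : Fin n := ⟨1, by omega⟩
  set e : 𝔼 := EuclideanSpace.single i0 1 with he
  have hc : c = ∑ k, secNumer (chartMetric n M x) (chartCentre n M x)
      (L (EuclideanSpace.single k 1)) (L e) := by
    rw [← h2 e]
    have h3 : c = c * bil (chartMetric n M x (chartCentre n M x)) (L e) (L e) := by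
      rw [h1, he]
      simp
    conv_lhs => rw [h3]
    rw [bil_apply, Finset.mul_sum]
    refine Finset.sum_congr rfl fun i _ => ?_
    rw [Finset.mul_sum]
    refine Finset.sum_congr rfl fun j _ => ?_
    rw [hE x i j]
    ring
  have hgram : ∀ k, k ≠ i0 → 0 < secNumer (chartMetric n M x) (chartCentre n M x)
      (L (EuclideanSpace.single k 1)) (L e) := by
    intro k hk
    apply hK
    have h3 : ⟪(EuclideanSpace.single k 1 : 𝔼), e⟫_ℝ = 0 := by
      rw [he, EuclideanSpace.inner_single_right]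
      simp [hk.symm]
    have h4 : ⟪(EuclideanSpace.single k 1 : 𝔼), (EuclideanSpace.single k 1 : 𝔼)⟫_ℝ = 1 := by
      rw [EuclideanSpace.inner_single_right]
      simp
    have h5 : ⟪e, e⟫_ℝ = 1 := by
      rw [he, EuclideanSpace.inner_single_right]
      simp
    rw [gramDet_eq, h1, h1, h1, h3, h4, h5]
    norm_num
  rw [hc]
  refine Finset.sum_pos' (fun k _ => ?_) ⟨i1, Finset.mem_univ _, hgram i1 ?_⟩
  · by_cases hk : k = i0
    · rw [hk, ← he, secNumer_self hg ha]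
    · exact (hgram k hk).le
  · intro h
    have := congrArg Fin.val h
    simp [i0, i1] at this

end Pos

end Crest.Agent.R249.B3a40
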