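import Crest.Agent.R249.B3a_40

/-!
# R249, B3 (helper40): S0384 and S0385 from S0383

`s384_of`: S0384 from the conclusion of S0383.
`s385_of`: S0385 from S0383 and the two global theorems T1, T2 (helper802).
-/

set_option autoImplicit false
set_option maxSynthPendingDepth 3
set_option linter.unusedSectionVars false

open Real Bundle Set Filter Metric Topology
open scoped ContDiff Manifold InnerProductSpace
open Crest.GeometryTopology.CoordMetric Crest.GeometryTopology.ChartCurvature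
open Crest.Agent.R202.Tens
open Crest.Agent.R249.Pb40 Crest.Agent.R249.B3a40

noncomputable section

namespace Crest.Agent.R249.B3f40

section Nonneg

variable {n : ℕ} {M : Type*} [MetricSpace M] [ChartedSpace (EuclideanSpace ℝ (Fin n)) M]
  [IsManifold (𝓡 n) ∞ M]
  [RiemannianBundle (fun p : M => TangentSpace (𝓡 n) p)]
  [IsContMDiffRiemannianBundle (𝓡 n) ∞ (EuclideanSpace ℝ (Fin n)) (fun p : M => TangentSpace (𝓡 n) p)]

local notation "𝔼" => EuclideanSpace ℝ (Fin n)

theorem secNumer_smul_right {g : MetricField n} {U : Set (EuclideanSpace ℝ (Fin n))}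
    (hg : IsRiemannianOn g U) {x : 𝔼} (hx : x ∈ U) (u : 𝔼) (t : ℝ) : secNumer g x u (t • u) = 0 := by
  rw [secNumer_eq hg hx]
  have : curv (Gam g) x u (t • u) (t • u) = 0 := by
    unfold curv
    simp only [map_smul, smul_apply]
    simp
  rw [this]; simp

theorem secNumer_zero_left {g : MetricField n} {U : Set (EuclideanSpace ℝ (Fin n))}
    (hg : IsRiemannianOn g U) {x : 𝔼} (hx : x ∈ U) (v : 𝔼) : secNumer g x 0 v = 0 := by
  rw [secNumer_eq hg hx]
  simp

/-- a dependent pair has zero curvature numerator -/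
theorem secNumer_eq_zero_of_gramDet (x : M) {u v : 𝔼}
    (h : ¬ 0 < gramDet (chartMetric n M x) (chartCentre n M x) u v) :
    secNumer (chartMetric n M x) (chartCentre n M x) u v = 0 := by
  obtain ⟨L, h1, -⟩ := exists_frame (n := n) x
  have hg := Crest.Agent.R247.Bo84.isRiemannianOn_chartMetric (n := n) x
  have ha : chartCentre n M x ∈ (chartAt 𝔼 x).target := mem_chart_target 𝔼 x
  obtain ⟨u', rfl⟩ := L.surjective u
  obtain ⟨v', rfl⟩ := L.surjective v
  rw [gramDet_eq, h1, h1, h1, real_inner_self_eq_norm_sq, real_inner_self_eq_norm_sq] at h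
  by_cases hu : u' = 0
  · rw [hu, map_zero]
    exact secNumer_zero_left hg ha _
  · have hu0 : 0 < ‖u'‖ := norm_pos_iff.2 hu
    have h2 : v' = (⟪u', v'⟫_ℝ / ‖u'‖ ^ 2) • u' := by
      have h3 : ‖v' - (⟪u', v'⟫_ℝ / ‖u'‖ ^ 2) • u'‖ ^ 2 ≤ 0 := by
        rw [norm_sub_sq_real, real_inner_smul_right, norm_smul, real_inner_comm u' v', mul_pow,
          Real.norm_eq_abs, sq_abs]
        have h4 : ‖v'‖ ^ 2 - 2 * (⟪u', v'⟫_ℝ / ‖u'‖ ^ 2 * ⟪u', v'⟫_ℝ) +
            (⟪u', v'⟫_ℝ / ‖u'‖ ^ 2) ^ 2 * ‖u'‖ ^ 2 =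
            (‖u'‖ ^ 2 * ‖v'‖ ^ 2 - ⟪u', v'⟫_ℝ ^ 2) / ‖u'‖ ^ 2 := by
          field_simp
          ring
        rw [h4]
        exact div_nonpos_of_nonpos_of_nonneg (not_lt.1 h) (by positivity)
      have h5 : ‖v' - (⟪u', v'⟫_ℝ / ‖u'‖ ^ 2) • u'‖ = 0 := by
        have := sq_nonneg ‖v' - (⟪u', v'⟫_ℝ / ‖u'‖ ^ 2) • u'‖
        nlinarith
      exact sub_eq_zero.1 (norm_eq_zero.1 h5)
    rw [h2, map_smul]
    exact secNumer_smul_right hg ha _ _

theorem nonneg_of_pos (hK : HasPosSectionalCurvature n M) : HasNonnegSectionalCurvature n M := by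
  intro x u v
  by_cases h : 0 < gramDet (chartMetric n M x) (chartCentre n M x) u v
  · exact (hK x u v h).le
  · rw [secNumer_eq_zero_of_gramDet x h]

end Nonneg

section Four

variable {M : Type*} [MetricSpace M] [ChartedSpace (EuclideanSpace ℝ (Fin 4)) M]
  [IsManifold 𝓘(ℝ, EuclideanSpace ℝ (Fin 4)) ∞ M] [CompactSpace M] [ConnectedSpace M]
  [RiemannianBundle (fun x : M => TangentSpace 𝓘(ℝ, EuclideanSpace ℝ (Fin 4)) x)]
  [IsContMDiffRiemannianBundle 𝓘(ℝ, EuclideanSpace ℝ (Fin 4)) ∞ (EuclideanSpace ℝ (Fin 4))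
    (fun x : M => TangentSpace 𝓘(ℝ, EuclideanSpace ℝ (Fin 4)) x)]
  [IsRiemannianManifold 𝓘(ℝ, EuclideanSpace ℝ (Fin 4)) M]

theorem pos_of_sphere {a : ℝ} (h : IsLocallyCoveredByRoundSphere M 4 a) :
    HasPosSectionalCurvature 4 M := by
  intro x u v huv
  rw [secNumer_of_sphere h x]
  exact mul_pos h.1 huv

theorem pos_of_proj {a : ℝ} (h : IsLocallyCoveredByComplexProjective M 2 a) :
    HasPosSectionalCurvature 4 M := by
  intro x u v huv
  exact (mul_pos h.1 huv).trans_le (le_secNumer_of_proj (N := 4) (m := 2) rfl h x u v)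

theorem not_pos_of_prod {a : ℝ} (h : IsLocallyCoveredBySphereProduct M a) :
    ¬ HasPosSectionalCurvature 4 M := by
  intro hK
  obtain ⟨x⟩ : Nonempty M := inferInstance
  obtain ⟨u, v, h1, h2⟩ := exists_zero_of_prod (N := 4) rfl h x
  exact (hK x u v h1).ne' h2

/-- S0384 from the conclusion of S0383 -/
theorem s384_of {c : ℝ} (hE : IsEinsteinWith 4 M c)
    (h383 : ∃ a : ℝ, 0 < a ∧ (IsLocallyCoveredByRoundSphere M 4 a ∨
      IsLocallyCoveredByComplexProjective M 2 a ∨ IsLocallyCoveredBySphereProduct M a))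
    (h0 : ∃ x : M, ∃ u v : EuclideanSpace ℝ (Fin 4),
      0 < gramDet (chartMetric 4 M x) (chartCentre 4 M x) u v ∧
        secNumer (chartMetric 4 M x) (chartCentre 4 M x) u v = 0) :
    IsLocallyCoveredBySphereProduct M c := by
  obtain ⟨a, -, h | h | h⟩ := h383
  · obtain ⟨x, u, v, h1, h2⟩ := h0
    exact absurd h2 (pos_of_sphere h x u v h1).ne'
  · obtain ⟨x, u, v, h1, h2⟩ := h0
    exact absurd h2 (pos_of_proj h x u v h1).ne'
  · rw [einstein_of_prod (N := 4) rfl h hE]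
    exact h

/-- S0385 from S0383 and the global theorems for the round and the projective case -/
theorem s385_of (hE : IsEinstein 4 M) (hK : HasPosSectionalCurvature 4 M)
    (h383 : ∀ c : ℝ, 0 < c → IsEinsteinWith 4 M c → HasNonnegSectionalCurvature 4 M →
      ∃ a : ℝ, 0 < a ∧ (IsLocallyCoveredByRoundSphere M 4 a ∨
        IsLocallyCoveredByComplexProjective M 2 a ∨ IsLocallyCoveredBySphereProduct M a))
    (T1 : ∀ a : ℝ, IsLocallyCoveredByRoundSphere M 4 a →
      IsHomotheticToRoundSphere M 4 a ∨ IsHomotheticToRealProjective M 4 a)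
    (T2 : ∀ a : ℝ, IsLocallyCoveredByComplexProjective M 2 a → IsHomotheticToComplexProjective M 2 a) :
    ∃ a : ℝ, 0 < a ∧ (IsHomotheticToRoundSphere M 4 a ∨
      IsHomotheticToComplexProjective M 2 a ∨ IsHomotheticToRealProjective M 4 a) := by
  obtain ⟨c, hc⟩ := hE
  have hpos : 0 < c := einstein_pos (n := 4) (by norm_num) hc hK
  obtain ⟨a, ha, h | h | h⟩ := h383 c hpos hc (nonneg_of_pos hK)
  · refine ⟨a, ha, ?_⟩
    rcases T1 a h with h1 | h1
    · exact Or.inl h1
    · exact Or.inr (Or.inr h1)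
  · exact ⟨a, ha, Or.inr (Or.inl (T2 a h))⟩
  · exact absurd hK (not_pos_of_prod h)

end Four

end Crest.Agent.R249.B3f40
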