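import Crest.Agent.R249.Bia4_104
import Crest.Agent.R247.Bs1_84

/-!
# R249, D1 (helper104): Ricci and scalar curvature in the measurable orthonormal frame

With `Ricf z`, `Hf u z : S n` (matrices in the frame `fr z`, `R247.Bs1_84`):
* `tr_Ricf` : `tr (Ricf z) = mScal n M z`; `norm_Ricf_sq`; `Ricf_symm`;
* `mRicDev_eq` : `mRicDev n M c z = ‖Ricf z - c • idm n‖²`;
* `density_eq` : `tracefreeRicciDensity n M z = ‖Ricf z‖² - (mScal n M z)² / n`;
* `scalarCurv_chart`, `trL_chart` : the scalar curvature and `tr (Ric ∘ Hess f)` in every chart;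
* `contMDiff_mScal`.
-/

set_option autoImplicit false
set_option maxSynthPendingDepth 3
set_option linter.unusedSectionVars false

open scoped ContDiff Topology Manifold RealInnerProductSpace
open Filter Set Bundle
open Crest.GeometryTopology.CoordMetric Crest.GeometryTopology.ChartCurvature
  Crest.GeometryTopology.PointedLimit Crest.GeometryTopology.RicciEnergy
open Crest.Agent.R202.Tens Crest.Agent.R247.Bo84 Crest.Agent.R247.Ms322
open Crest.Agent.R247.Hes124 (F S mv tr idm)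
open Crest.Agent.R247.Bs84
open Crest.Agent.R249.Bia3_104 Crest.Agent.R249.Bia4_104 Crest.Agent.R249.D1Def104

noncomputable section

namespace Crest.Agent.R249.Sch1_104

/-! ### coordinate facts in a frame -/

section coord
variable {n : ℕ}

local notation "𝔼" => EuclideanSpace ℝ (Fin n)

variable {g : MetricField n} {U : Set (EuclideanSpace ℝ (Fin n))} {x : EuclideanSpace ℝ (Fin n)}

/-- the bilinear form `Σ ricci i j u_i v_j` is the Ricci form. -/
lemma ricF_eq' (hg : IsRiemannianOn g U) (hx : x ∈ U) (X Y : 𝔼) :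
    ricF g x X Y = ∑ i, ∑ j, ricci g x i j * X i * Y j := by
  rw [ricF_symm hg hx, ricF_eq hg hx]

lemma scal_frame (hg : IsRiemannianOn g U) (hx : x ∈ U) {ξ : Fin n → 𝔼}
    (h : IsFrame (g x) ξ) : scalarCurv g x = ∑ a, ricF g x (ξ a) (ξ a) := by
  rw [← trL_ricE g x hg hx, h.trL_eq hg hx]
  exact Finset.sum_congr rfl fun a _ => bil_ricE hg hx _ _

lemma trL_frame (hg : IsRiemannianOn g U) (hx : x ∈ U) {f : 𝔼 → ℝ} (hf : ContDiffAt ℝ 2 f x)
    {ξ : Fin n → 𝔼} (h : IsFrame (g x) ξ) :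
    trL ((ricE g x).comp (hessE g f x)) =
      ∑ a, ∑ b, ricF g x (ξ a) (ξ b) * hess g f x (ξ a) (ξ b) := by
  rw [h.trL_eq hg hx]
  refine Finset.sum_congr rfl fun a _ => ?_
  rw [ContinuousLinearMap.comp_apply, bil_ricE hg hx, ricF_symm hg hx, ← bil_ricE hg hx,
    h.bil_eq hg hx]
  refine Finset.sum_congr rfl fun b _ => ?_
  rw [bil_ricE hg hx, bil_hessE hg hx hf]

/-- `Σ g^{ia} g^{jb} E_ij E_ab` in a frame. -/
lemma normSq_frame {ξ : Fin n → 𝔼} (h : IsFrame (g x) ξ) (E : Fin n → Fin n → ℝ) :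
    ∑ i, ∑ j, ∑ a, ∑ b, inverseField g x i a * inverseField g x j b * E i j * E a b =
      ∑ c, ∑ d, (∑ i, ∑ j, E i j * ξ c i * ξ d j) ^ 2 := by
  have h1 : ∀ i a : Fin n, inverseField g x i a = ∑ c, ξ c i * ξ c a := h.inv
  simp only [h1]
  have h2 : ∀ c d : Fin n, (∑ i, ∑ j, E i j * ξ c i * ξ d j) ^ 2 =
      ∑ i, ∑ j, ∑ a, ∑ b, (E i j * ξ c i * ξ d j) * (E a b * ξ c a * ξ d b) := by
    intro c d
    rw [sq, Finset.sum_mul]
    refine Finset.sum_congr rfl fun i _ => ?_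
    rw [Finset.sum_mul]
    refine Finset.sum_congr rfl fun j _ => ?_
    rw [Finset.mul_sum]
    refine Finset.sum_congr rfl fun a _ => ?_
    rw [Finset.mul_sum]
  simp only [h2]
  -- move the frame sums inside
  have h3 : ∀ i j a b : Fin n, (∑ c, ξ c i * ξ c a) * (∑ c, ξ c j * ξ c b) * E i j * E a b =
      ∑ c, ∑ d, (E i j * ξ c i * ξ d j) * (E a b * ξ c a * ξ d b) := by
    intro i j a b
    rw [Finset.sum_mul_sum, Finset.sum_mul, Finset.sum_mul]
    refine Finset.sum_congr rfl fun c _ => ?_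
    rw [Finset.sum_mul, Finset.sum_mul]
    refine Finset.sum_congr rfl fun d _ => by ring
  simp only [h3]
  rw [Finset.sum_comm' (t' := Finset.univ) (s' := fun _ => Finset.univ) (by simp)]
  have key : ∀ (G : Fin n → Fin n → Fin n → Fin n → Fin n → Fin n → ℝ),
      ∑ j, ∑ i, ∑ a, ∑ b, ∑ c, ∑ d, G i j a b c d =
        ∑ c, ∑ d, ∑ i, ∑ j, ∑ a, ∑ b, G i j a b c d := by
    intro G
    have e1 : ∀ i j, ∑ a, ∑ b, ∑ c, ∑ d, G i j a b c d = ∑ c, ∑ d, ∑ a, ∑ b, G i j a b c d := by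
      intro i j
      calc ∑ a, ∑ b, ∑ c, ∑ d, G i j a b c d
          = ∑ a, ∑ c, ∑ b, ∑ d, G i j a b c d :=
            Finset.sum_congr rfl fun a _ => Finset.sum_comm
        _ = ∑ c, ∑ a, ∑ b, ∑ d, G i j a b c d := Finset.sum_comm
        _ = ∑ c, ∑ a, ∑ d, ∑ b, G i j a b c d :=
            Finset.sum_congr rfl fun c _ => Finset.sum_congr rfl fun a _ => Finset.sum_comm
        _ = ∑ c, ∑ d, ∑ a, ∑ b, G i j a b c d :=
            Finset.sum_congr rfl fun c _ => Finset.sum_comm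
    simp only [e1]
    calc ∑ j, ∑ i, ∑ c, ∑ d, ∑ a, ∑ b, G i j a b c d
        = ∑ i, ∑ j, ∑ c, ∑ d, ∑ a, ∑ b, G i j a b c d := Finset.sum_comm
      _ = ∑ i, ∑ c, ∑ j, ∑ d, ∑ a, ∑ b, G i j a b c d :=
          Finset.sum_congr rfl fun i _ => Finset.sum_comm
      _ = ∑ c, ∑ i, ∑ j, ∑ d, ∑ a, ∑ b, G i j a b c d := Finset.sum_comm
      _ = ∑ c, ∑ i, ∑ d, ∑ j, ∑ a, ∑ b, G i j a b c d :=
          Finset.sum_congr rfl fun c _ => Finset.sum_congr rfl fun i _ => Finset.sum_comm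
      _ = ∑ c, ∑ d, ∑ i, ∑ j, ∑ a, ∑ b, G i j a b c d :=
          Finset.sum_congr rfl fun c _ => Finset.sum_comm
  exact key fun i j a b c d => (E i j * ξ c i * ξ d j) * (E a b * ξ c a * ξ d b)

lemma ricDev_frame (hg : IsRiemannianOn g U) (hx : x ∈ U) {ξ : Fin n → 𝔼}
    (h : IsFrame (g x) ξ) (c : ℝ) :
    ricDev c g x = ∑ a, ∑ b, (ricF g x (ξ a) (ξ b) - c * (if a = b then 1 else 0)) ^ 2 := by
  unfold ricDev
  rw [normSq_frame h (fun i j => ricci g x i j - c * g x i j)]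
  refine Finset.sum_congr rfl fun a _ => Finset.sum_congr rfl fun b _ => ?_
  congr 1
  rw [ricF_eq' hg hx, ← h.orth a b, bil_apply, Finset.mul_sum, ← Finset.sum_sub_distrib]
  refine Finset.sum_congr rfl fun i _ => ?_
  rw [Finset.mul_sum, ← Finset.sum_sub_distrib]
  refine Finset.sum_congr rfl fun j _ => by ring

lemma tracefree_eq_ricDev (g : MetricField n) (x : 𝔼) :
    tracefreeRicciNormSq g x = ricDev (scalarCurv g x / n) g x := rfl

end coord

/-! ### on the manifold -/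

variable {n : ℕ} {M : Type*} [MetricSpace M] [ChartedSpace (EuclideanSpace ℝ (Fin n)) M]
  [IsManifold (𝓡 n) ∞ M]
  [RiemannianBundle (fun p : M => TangentSpace (𝓡 n) p)]
  [IsContMDiffRiemannianBundle (𝓡 n) ∞ (EuclideanSpace ℝ (Fin n))
    (fun p : M => TangentSpace (𝓡 n) p)]
  [SecondCountableTopology M] [Nonempty M]

local notation "𝔼" => EuclideanSpace ℝ (Fin n)

/-- the frame `fr z` read in the chart at `x₀` -/
def frc (x₀ z : M) (a : Fin n) : EuclideanSpace ℝ (Fin n) := dCh x₀ z (fr z a)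

lemma isFrame_frc (x₀ : M) {y : 𝔼} (hy : y ∈ (chartAt 𝔼 x₀).target) :
    IsFrame (chartMetric n M x₀ y) (frc x₀ ((chartAt 𝔼 x₀).symm y)) := by
  refine isFrame_of_orth (g := chartMetric n M x₀) (x := y) fun a b => ?_
  have h1 := inner_eq_bil x₀ ((chartAt 𝔼 x₀).map_target hy)
    (fr ((chartAt 𝔼 x₀).symm y) a) (fr ((chartAt 𝔼 x₀).symm y) b)
  rw [(chartAt 𝔼 x₀).right_inv hy] at h1
  rw [← fr_orth ((chartAt 𝔼 x₀).symm y) a b]
  exact h1.symm

lemma dSy_frc (x₀ : M) {y : 𝔼} (hy : y ∈ (chartAt 𝔼 x₀).target) (a : Fin n) :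
    dSy x₀ y (frc x₀ ((chartAt 𝔼 x₀).symm y) a) = fr ((chartAt 𝔼 x₀).symm y) a := by
  have h1 := dSy_dCh x₀ ((chartAt 𝔼 x₀).map_target hy) (fr ((chartAt 𝔼 x₀).symm y) a)
  rw [(chartAt 𝔼 x₀).right_inv hy] at h1
  exact h1

/-- the Ricci form in the frame is the Ricci form in the chart -/
lemma ricF_frc (x₀ : M) {y : 𝔼} (hy : y ∈ (chartAt 𝔼 x₀).target) (a b : Fin n) :
    ricF (chartMetric n M x₀) y (frc x₀ ((chartAt 𝔼 x₀).symm y) a)
      (frc x₀ ((chartAt 𝔼 x₀).symm y) b) = Ricf (n := n) ((chartAt 𝔼 x₀).symm y) (a, b) := by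
  rw [ricF_eq' (Crest.Agent.R247.Bo84.isRiemannianOn_chartMetric (n := n) x₀) hy, ← mRic_chart hy, dSy_frc x₀ hy,
    dSy_frc x₀ hy, Ricf_apply]

lemma hess_frc (x₀ : M) {y : 𝔼} (hy : y ∈ (chartAt 𝔼 x₀).target) {f : M → ℝ}
    (hf : ContMDiffAt (𝓡 n) 𝓘(ℝ, ℝ) 2 f ((chartAt 𝔼 x₀).symm y)) (a b : Fin n) :
    hess (chartMetric n M x₀) (inCh n x₀ f) y (frc x₀ ((chartAt 𝔼 x₀).symm y) a)
      (frc x₀ ((chartAt 𝔼 x₀).symm y) b) = Hf (n := n) f ((chartAt 𝔼 x₀).symm y) (a, b) := by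
  rw [← mHess_chart hy hf, dSy_frc x₀ hy, dSy_frc x₀ hy, Hf_apply]

lemma inner_S (A B : S n) : ⟪A, B⟫ = ∑ a, ∑ b, A (a, b) * B (a, b) := by
  rw [PiLp.inner_apply, Fintype.sum_prod_type]
  refine Finset.sum_congr rfl fun a _ => Finset.sum_congr rfl fun b _ => ?_
  simp only [RCLike.inner_apply, conj_trivial]
  ring

lemma centre_symm (z : M) : (chartAt 𝔼 z).symm (chartCentre n M z) = z :=
  (chartAt 𝔼 z).left_inv (mem_chart_source 𝔼 z)

/-- the scalar curvature in every chart -/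
theorem scalarCurv_chart (x₀ : M) {y : 𝔼} (hy : y ∈ (chartAt 𝔼 x₀).target) :
    scalarCurv (chartMetric n M x₀) y = tr (Ricf (n := n) ((chartAt 𝔼 x₀).symm y)) := by
  rw [scal_frame (Crest.Agent.R247.Bo84.isRiemannianOn_chartMetric (n := n) x₀) hy (isFrame_frc x₀ hy)]
  exact Finset.sum_congr rfl fun a _ => ricF_frc x₀ hy a a

theorem tr_Ricf (z : M) : tr (Ricf (n := n) z) = mScal n M z := by
  have h := scalarCurv_chart z (centre_mem (n := n) z)
  rw [centre_symm] at h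
  exact h.symm

theorem mScal_chart (x₀ : M) {y : 𝔼} (hy : y ∈ (chartAt 𝔼 x₀).target) :
    mScal n M ((chartAt 𝔼 x₀).symm y) = scalarCurv (chartMetric n M x₀) y := by
  rw [scalarCurv_chart x₀ hy, tr_Ricf]

/-- `tr (Ric ∘ Hess f)` in every chart -/
theorem trL_chart (x₀ : M) {y : 𝔼} (hy : y ∈ (chartAt 𝔼 x₀).target) {f : M → ℝ}
    (hf : ContMDiffAt (𝓡 n) 𝓘(ℝ, ℝ) 2 f ((chartAt 𝔼 x₀).symm y)) :
    trL ((ricE (chartMetric n M x₀) y).comp (hessE (chartMetric n M x₀) (inCh n x₀ f) y)) =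
      ⟪Ricf (n := n) ((chartAt 𝔼 x₀).symm y), Hf (n := n) f ((chartAt 𝔼 x₀).symm y)⟫ := by
  rw [trL_frame (Crest.Agent.R247.Bo84.isRiemannianOn_chartMetric (n := n) x₀) hy (contDiffAt_inCh two_le_infty hy hf)
    (isFrame_frc x₀ hy), inner_S]
  exact Finset.sum_congr rfl fun a _ => Finset.sum_congr rfl fun b _ => by
    rw [ricF_frc x₀ hy, hess_frc x₀ hy hf]

lemma Ricf_symm (z : M) (a b : Fin n) : Ricf (n := n) z (a, b) = Ricf z (b, a) := by
  have h1 := ricF_frc z (centre_mem (n := n) z) a b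
  have h2 := ricF_frc z (centre_mem (n := n) z) b a
  rw [centre_symm] at h1 h2
  rw [← h1, ← h2, ricF_symm (Crest.Agent.R247.Bo84.isRiemannianOn_chartMetric (n := n) z) (centre_mem z)]

/-- `|Ric - c g|²` in the frame -/
theorem mRicDev_eq (c : ℝ) (z : M) : mRicDev n M c z = ‖Ricf (n := n) z - c • idm n‖ ^ 2 := by
  have h1 := ricDev_frame (Crest.Agent.R247.Bo84.isRiemannianOn_chartMetric (n := n) z) (centre_mem (n := n) z)
    (isFrame_frc z (centre_mem (n := n) z)) c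
  rw [mRicDev, h1, Crest.Agent.R247.Hes124.norm_sq_S]
  refine Finset.sum_congr rfl fun a _ => Finset.sum_congr rfl fun b _ => ?_
  rw [ricF_frc z (centre_mem (n := n) z), centre_symm]
  rfl

theorem mRicDev_expand (c : ℝ) (z : M) :
    mRicDev n M c z = ‖Ricf (n := n) z‖ ^ 2 - 2 * c * mScal n M z + c ^ 2 * n := by
  rw [mRicDev_eq, norm_sub_sq_real, norm_smul, mul_pow, Crest.Agent.R247.Hes124.norm_idm_sq,
    inner_smul_right, Crest.Agent.R247.Hes124.inner_idm, tr_Ricf, Real.norm_eq_abs, sq_abs]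
  ring

theorem density_eq (hn : n ≠ 0) (z : M) : tracefreeRicciDensity n M z =
    ‖Ricf (n := n) z‖ ^ 2 - mScal n M z ^ 2 / n := by
  have h1 : tracefreeRicciDensity n M z = mRicDev n M (mScal n M z / n) z := rfl
  have hn' : (n : ℝ) ≠ 0 := by exact_mod_cast hn
  rw [h1, mRicDev_expand]
  field_simp
  ring

theorem density_nonneg (z : M) : 0 ≤ tracefreeRicciDensity n M z := by
  have h1 : tracefreeRicciDensity n M z = mRicDev n M (mScal n M z / n) z := rfl
  rw [h1, mRicDev_eq]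
  positivity

theorem mRicDev_nonneg (c : ℝ) (z : M) : 0 ≤ mRicDev n M c z := by
  rw [mRicDev_eq]; positivity

/-- `|Ric - c g|² = |Ric₀|² + (s - n c)² / n`. -/
theorem mRicDev_split (hn : n ≠ 0) (c : ℝ) (z : M) : mRicDev n M c z =
    tracefreeRicciDensity n M z + (mScal n M z - n * c) ^ 2 / n := by
  have hn' : (n : ℝ) ≠ 0 := by exact_mod_cast hn
  rw [mRicDev_expand, density_eq hn]
  field_simp
  ring

/-- the scalar curvature is smooth -/
theorem contMDiff_mScal : ContMDiff (𝓡 n) 𝓘(ℝ, ℝ) ∞ (mScal n M) := by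
  intro p
  refine contMDiffAt_of_inCh le_rfl (mem_chart_source 𝔼 p) ?_
  have h1 : inCh n p (mScal n M) =ᶠ[𝓝 (chartAt 𝔼 p p)] scalarCurv (chartMetric n M p) := by
    filter_upwards [(chartAt 𝔼 p).open_target.mem_nhds (mem_chart_target 𝔼 p)] with y hy
    exact mScal_chart p hy
  exact (contDiffAt_scalarCurv (Crest.Agent.R247.Bo84.isRiemannianOn_chartMetric (n := n) p)
    (mem_chart_target 𝔼 p)).congr_of_eventuallyEq h1

theorem continuous_mScal : Continuous (mScal n M) := contMDiff_mScal.continuous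

/-! ### continuity of the densities -/

lemma continuousAt_of_chart {φ : M → ℝ} {p : M} {G : 𝔼 → ℝ}
    (h : ∀ y ∈ (chartAt 𝔼 p).target, φ ((chartAt 𝔼 p).symm y) = G y)
    (hG : ContinuousAt G (chartAt 𝔼 p p)) : ContinuousAt φ p := by
  have h1 : φ =ᶠ[𝓝 p] fun q => G (chartAt 𝔼 p q) := by
    filter_upwards [(chartAt 𝔼 p).open_source.mem_nhds (mem_chart_source 𝔼 p)] with q hq
    rw [← h _ ((chartAt 𝔼 p).map_source hq), (chartAt 𝔼 p).left_inv hq]
  exact (hG.comp ((chartAt 𝔼 p).continuousAt (mem_chart_source 𝔼 p))).congr_of_eventuallyEq h1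

/-- `|Ric - c g|²` in every chart -/
theorem mRicDev_chart (c : ℝ) (x₀ : M) {y : 𝔼} (hy : y ∈ (chartAt 𝔼 x₀).target) :
    mRicDev n M c ((chartAt 𝔼 x₀).symm y) = ricDev c (chartMetric n M x₀) y := by
  rw [ricDev_frame (Crest.Agent.R247.Bo84.isRiemannianOn_chartMetric (n := n) x₀) hy (isFrame_frc x₀ hy) c,
    mRicDev_eq, Crest.Agent.R247.Hes124.norm_sq_S]
  refine Finset.sum_congr rfl fun a _ => Finset.sum_congr rfl fun b _ => ?_
  rw [ricF_frc x₀ hy]
  rfl

lemma contDiffAt_ricDev {g : MetricField n} {U : Set 𝔼} {x : 𝔼} (hg : IsRiemannianOn g U)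
    (hx : x ∈ U) (c : ℝ) : ContDiffAt ℝ ∞ (ricDev c g) x := by
  unfold ricDev
  have h : ∀ i j : Fin n, ContDiffAt ℝ ∞ (fun y => ricci g y i j - c * g y i j) x := fun i j =>
    (contDiffAt_ricci hg hx i j).sub (contDiffAt_const.mul (contDiffAt_entry hg hx i j))
  exact ContDiffAt.sum fun i _ => ContDiffAt.sum fun j _ => ContDiffAt.sum fun a _ =>
    ContDiffAt.sum fun b _ => (((contDiffAt_inv hg hx i a).mul (contDiffAt_inv hg hx j b)).mul
      (h i j)).mul (h a b)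

theorem continuous_mRicDev (c : ℝ) : Continuous (mRicDev n M c) := by
  rw [continuous_iff_continuousAt]
  intro p
  refine continuousAt_of_chart (G := ricDev c (chartMetric n M p))
    (fun y hy => mRicDev_chart c p hy) ?_
  exact (contDiffAt_ricDev (Crest.Agent.R247.Bo84.isRiemannianOn_chartMetric (n := n) p) (mem_chart_target 𝔼 p)
    c).continuousAt

theorem continuous_density (hn : n ≠ 0) : Continuous (tracefreeRicciDensity n M) := by
  have h : tracefreeRicciDensity n M = fun z => mRicDev n M 0 z - mScal n M z ^ 2 / n := by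
    funext z
    rw [mRicDev_expand, density_eq hn]
    ring
  rw [h]
  exact (continuous_mRicDev 0).sub ((continuous_mScal.pow 2).div_const _)

end Crest.Agent.R249.Sch1_104
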