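import Crest.Agent.R249.Vf6_281
import Crest.Agent.R249.Sch1_104
import Crest.Agent.R247.Bs2_84

/-!
Row 249 (helper281), D3-LIM/BD part 1: pointwise bounds and continuity for harmonic
`u : M → ℝ^m` with `|du| ≤ 2`: `F`, `P`, `|dF|²`, `ΔF`, `S`, `R`, and
`|Ric(df,dh) - c ⟨df,dh⟩| ≤ |Ric - c g| |df| |dh|`.
-/

set_option autoImplicit false
set_option maxSynthPendingDepth 3
set_option linter.unusedSectionVars false

open scoped ContDiff Topology Manifold
open Filter Set Bundle MeasureTheory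
open Crest.GeometryTopology.CoordMetric Crest.GeometryTopology.ChartCurvature
  Crest.GeometryTopology.PointedLimit
open Crest.Agent.R202.Tens
open Crest.Agent.R247.Bo84
open Crest.Agent.R247
open Crest.Agent.R249.Vf281
open Crest.Agent.R249.D1Def104

noncomputable section

namespace Crest.Agent.R249.BD281

section Ric

variable {n : ℕ} {M : Type*} [MetricSpace M] [ChartedSpace (EuclideanSpace ℝ (Fin n)) M]
  [IsManifold (𝓡 n) ∞ M]
  [RiemannianBundle (fun p : M => TangentSpace (𝓡 n) p)]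
  [IsContMDiffRiemannianBundle (𝓡 n) ∞ (EuclideanSpace ℝ (Fin n)) (fun p : M => TangentSpace (𝓡 n) p)]
  [SecondCountableTopology M] [Nonempty M]

theorem abs_mRic_sub_le (c : ℝ) (f h : M → ℝ) (z : M) :
    |mRic n z (mgrad n f z) (mgrad n h z) - c * mGam n f h z| ≤
      √(mRicDev n M c z) * (√(mGam n f f z) * √(mGam n h h z)) := by
  set g : Fin n → ℝ := fun i => Ms322.Gr (n := n) f z i with hg
  set k : Fin n → ℝ := fun i => Ms322.Gr (n := n) h z i with hk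
  set r : Fin n → Fin n → ℝ := fun i j => Bs84.Ricf (n := n) z (i, j) - c * (if i = j then 1 else 0)
    with hr
  have e1 : mRic n z (mgrad n f z) (mgrad n h z) =
      ∑ i, ∑ j, g i * k j * Bs84.Ricf (n := n) z (i, j) := by
    rw [← Bs84.vf_Gr f z, ← Bs84.vf_Gr h z, Bs84.mRic_vf_left]
    refine Finset.sum_congr rfl fun i _ => ?_
    rw [Bs84.mRic_vf_right, Finset.mul_sum]
    exact Finset.sum_congr rfl fun j _ => by rw [Bs84.Ricf_apply]; ring
  have e2 : mGam n f h z = ∑ i, ∑ j, g i * k j * (if i = j then 1 else 0) := by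
    rw [← Bs84.inner_Gr_eq, PiLp.inner_apply]
    refine Finset.sum_congr rfl fun i _ => ?_
    simp only [mul_ite, mul_one, mul_zero, Finset.sum_ite_eq, Finset.mem_univ, if_true]
    simp [hg, hk, mul_comm]
  have e3 : mRic n z (mgrad n f z) (mgrad n h z) - c * mGam n f h z =
      ∑ p : Fin n × Fin n, (g p.1 * k p.2) * r p.1 p.2 := by
    rw [Fintype.sum_prod_type, e1, e2, Finset.mul_sum, ← Finset.sum_sub_distrib]
    refine Finset.sum_congr rfl fun i _ => ?_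
    rw [Finset.mul_sum, ← Finset.sum_sub_distrib]
    exact Finset.sum_congr rfl fun j _ => by simp only [hr]; ring
  have e4 : ∑ p : Fin n × Fin n, (g p.1 * k p.2) ^ 2 = mGam n f f z * mGam n h h z := by
    rw [Fintype.sum_prod_type, ← Bs84.norm_Gr_sq_eq, ← Bs84.norm_Gr_sq_eq,
      EuclideanSpace.real_norm_sq_eq, EuclideanSpace.real_norm_sq_eq, Finset.sum_mul_sum]
    exact Finset.sum_congr rfl fun i _ => Finset.sum_congr rfl fun j _ => by
      rw [mul_pow]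
  have e5 : ∑ p : Fin n × Fin n, r p.1 p.2 ^ 2 = mRicDev n M c z := by
    rw [Fintype.sum_prod_type, Sch1_104.mRicDev_eq, Crest.Agent.R247.Hes124.norm_sq_S]
    rfl
  have e6 := Finset.sum_mul_sq_le_sq_mul_sq Finset.univ (fun p : Fin n × Fin n => g p.1 * k p.2)
    (fun p => r p.1 p.2)
  rw [e4, e5, ← e3] at e6
  rw [← Real.sqrt_mul (mGam_self_nonneg _ _), ← Real.sqrt_mul (Sch1_104.mRicDev_nonneg c z)]
  refine Real.abs_le_sqrt ?_
  linarith [mul_comm (mRicDev n M c z) (mGam n f f z * mGam n h h z)]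

end Ric

section Pt

variable {n : ℕ} {M : Type*} [MetricSpace M] [ChartedSpace (EuclideanSpace ℝ (Fin n)) M]
  [IsManifold (𝓡 n) ∞ M]
  [RiemannianBundle (fun p : M => TangentSpace (𝓡 n) p)]
  [IsContMDiffRiemannianBundle (𝓡 n) ∞ (EuclideanSpace ℝ (Fin n)) (fun p : M => TangentSpace (𝓡 n) p)]
  {m : ℕ} {u : M → EuclideanSpace ℝ (Fin m)} {z : M}

/-- `∑ |Hess u^a|²`. -/
def hs (n : ℕ) {M : Type*} [TopologicalSpace M] [ChartedSpace (EuclideanSpace ℝ (Fin n)) M]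
    [RiemannianBundle (fun p : M => TangentSpace (𝓡 n) p)]
    {m : ℕ} (u : M → EuclideanSpace ℝ (Fin m)) (z : M) : ℝ :=
  ∑ a, mHessSq n (fun q => u q a) z

/-- `∑ |Hess u^a|⁴`. -/
def hs2 (n : ℕ) {M : Type*} [TopologicalSpace M] [ChartedSpace (EuclideanSpace ℝ (Fin n)) M]
    [RiemannianBundle (fun p : M => TangentSpace (𝓡 n) p)]
    {m : ℕ} (u : M → EuclideanSpace ℝ (Fin m)) (z : M) : ℝ :=
  ∑ a, mHessSq n (fun q => u q a) z ^ 2

lemma hs2_nonneg (u : M → EuclideanSpace ℝ (Fin m)) (z : M) : 0 ≤ hs2 n u z :=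
  Finset.sum_nonneg fun _ _ => sq_nonneg _

lemma hs_nonneg (hu : ∀ c, ContMDiffAt (𝓡 n) 𝓘(ℝ, ℝ) 2 (fun q => u q c) z) : 0 ≤ hs n u z :=
  Finset.sum_nonneg fun c _ => mHessSq_nonneg (hu c)

lemma le_hs (hu : ∀ c, ContMDiffAt (𝓡 n) 𝓘(ℝ, ℝ) 2 (fun q => u q c) z) (a : Fin m) :
    mHessSq n (fun q => u q a) z ≤ hs n u z :=
  Finset.single_le_sum (f := fun a => mHessSq n (fun q => u q a) z)
    (fun c _ => mHessSq_nonneg (hu c)) (Finset.mem_univ a)

lemma sq_le_hs2 (u : M → EuclideanSpace ℝ (Fin m)) (z : M) (a : Fin m) :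
    mHessSq n (fun q => u q a) z ^ 2 ≤ hs2 n u z :=
  Finset.single_le_sum (f := fun a => mHessSq n (fun q => u q a) z ^ 2)
    (fun c _ => sq_nonneg _) (Finset.mem_univ a)

lemma abs_FF_le (hb : ∀ a, FF n u a a z ≤ 4) (a b : Fin m) : |FF n u a b z| ≤ 4 := by
  have h1 : FF n u a b z ^ 2 ≤ FF n u a a z * FF n u b b z := mGam_sq_le _ _ _
  have h2 : 0 ≤ FF n u a a z := mGam_self_nonneg _ _
  have h3 : 0 ≤ FF n u b b z := mGam_self_nonneg _ _
  have h4 := hb a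
  have h5 := hb b
  refine abs_le_of_sq_le_sq (a := FF n u a b z) (b := 4) ?_ (by norm_num)
  nlinarith [mul_le_mul h4 h5 h3 (by norm_num : (0:ℝ) ≤ 4)]

lemma DD_le (hu : ∀ c, ContMDiffAt (𝓡 n) 𝓘(ℝ, ℝ) 2 (fun q => u q c) z)
    (hb : ∀ a, FF n u a a z ≤ 4) (a b : Fin m) :
    mGam n (FF n u a b) (FF n u a b) z ≤ 16 * hs n u z := by
  have h1 : mGam n (FF n u a b) (FF n u a b) z ≤
      2 * (mHessSq n (fun q => u q a) z * FF n u b b z +
        mHessSq n (fun q => u q b) z * FF n u a a z) := mGam_mGam_self_le (hu a) (hu b)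
  have h2 := le_hs hu a
  have h3 := le_hs hu b
  have h4 : 0 ≤ mHessSq n (fun q => u q a) z := mHessSq_nonneg (hu a)
  have h5 : 0 ≤ mHessSq n (fun q => u q b) z := mHessSq_nonneg (hu b)
  have h6 := mul_le_mul_of_nonneg_left (hb b) h4
  have h7 := mul_le_mul_of_nonneg_left (hb a) h5
  linarith

lemma PP_sq_le (hu : ∀ c, ContMDiffAt (𝓡 n) 𝓘(ℝ, ℝ) 2 (fun q => u q c) z)
    (hb : ∀ a, FF n u a a z ≤ 4) (a b c : Fin m) :
    PP n u a b c z ^ 2 ≤ 64 * hs n u z := by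
  have h1 : PP n u a b c z ^ 2 ≤ mGam n (FF n u a b) (FF n u a b) z * FF n u c c z :=
    mGam_sq_le _ _ _
  have h2 := DD_le hu hb a b
  have h3 : 0 ≤ mGam n (FF n u a b) (FF n u a b) z := mGam_self_nonneg _ _
  have h4 := mul_le_mul_of_nonneg_left (hb c) h3
  linarith

lemma SS_sq_le (hu : ∀ c, ContMDiffAt (𝓡 n) 𝓘(ℝ, ℝ) 2 (fun q => u q c) z) (a b : Fin m) :
    SS n u a b z ^ 2 ≤ hs2 n u z := by
  have h1 : SS n u a b z ^ 2 ≤ mHessSq n (fun q => u q a) z * mHessSq n (fun q => u q b) z :=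
    mHessIn_sq_le (hu a) (hu b)
  have h2 := sq_le_hs2 (n := n) u z a
  have h3 := sq_le_hs2 (n := n) u z b
  nlinarith [sq_nonneg (mHessSq n (fun q => u q a) z - mHessSq n (fun q => u q b) z)]

variable [SecondCountableTopology M] [Nonempty M]

lemma abs_RR_sub_le (hb : ∀ a, FF n u a a z ≤ 4) (c : ℝ) (a b : Fin m) :
    |RR n u a b z - c * FF n u a b z| ≤ 4 * √(mRicDev n M c z) := by
  have h1 := abs_mRic_sub_le (n := n) c (fun q => u q a) (fun q => u q b) z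
  have h2 : √(mGam n (fun q => u q a) (fun q => u q a) z) ≤ 2 := by
    rw [Real.sqrt_le_left (by norm_num)]
    have := hb a
    rw [FF] at this
    linarith
  have h3 : √(mGam n (fun q => u q b) (fun q => u q b) z) ≤ 2 := by
    rw [Real.sqrt_le_left (by norm_num)]
    have := hb b
    rw [FF] at this
    linarith
  have h4 : √(mGam n (fun q => u q a) (fun q => u q a) z) *
      √(mGam n (fun q => u q b) (fun q => u q b) z) ≤ 2 * 2 :=
    mul_le_mul h2 h3 (Real.sqrt_nonneg _) (by norm_num)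
  have h5 := mul_le_mul_of_nonneg_left h4 (Real.sqrt_nonneg (mRicDev n M c z))
  calc |RR n u a b z - c * FF n u a b z| ≤ _ := h1
    _ ≤ √(mRicDev n M c z) * (2 * 2) := h5
    _ = 4 * √(mRicDev n M c z) := by ring

lemma RR_sq_le (hb : ∀ a, FF n u a a z ≤ 4) (c : ℝ) (a b : Fin m) :
    RR n u a b z ^ 2 ≤ 32 * mRicDev n M c z + 32 * c ^ 2 := by
  have h1 := abs_RR_sub_le hb c a b
  have h2 := abs_FF_le hb a b
  have h3 := Real.sq_sqrt (Sch1_104.mRicDev_nonneg (n := n) c z)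
  have h4 : (RR n u a b z - c * FF n u a b z) ^ 2 ≤ 16 * mRicDev n M c z := by
    have := sq_le_sq' (by linarith [(abs_le.1 h1).1]) (abs_le.1 h1).2
    nlinarith
  have h5 : (c * FF n u a b z) ^ 2 ≤ 16 * c ^ 2 := by
    rw [mul_pow]
    have h6 : FF n u a b z ^ 2 ≤ 4 ^ 2 := sq_le_sq' (abs_le.1 h2).1 (abs_le.1 h2).2
    nlinarith [sq_nonneg c]
  nlinarith [sq_nonneg (RR n u a b z - 2 * (c * FF n u a b z))]

end Pt

section Cont

variable {n : ℕ} {M : Type*} [MetricSpace M] [ChartedSpace (EuclideanSpace ℝ (Fin n)) M]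
  [IsManifold (𝓡 n) ∞ M]
  [RiemannianBundle (fun p : M => TangentSpace (𝓡 n) p)]
  [IsContMDiffRiemannianBundle (𝓡 n) ∞ (EuclideanSpace ℝ (Fin n)) (fun p : M => TangentSpace (𝓡 n) p)]
  {m : ℕ} {u : M → EuclideanSpace ℝ (Fin m)} {W : Set M}

lemma cont_FF (hu : ∀ z ∈ W, ∀ c, ContMDiffAt (𝓡 n) 𝓘(ℝ, ℝ) ∞ (fun q => u q c) z) (a b : Fin m) :
    ContinuousOn (FF n u a b) W := fun z hz =>
  (contMDiffAt_FF (k := ∞) (hu z hz) (by simp) le_rfl a b).continuousAt.continuousWithinAt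

lemma smooth_FF (hu : ∀ z ∈ W, ∀ c, ContMDiffAt (𝓡 n) 𝓘(ℝ, ℝ) ∞ (fun q => u q c) z)
    (a b : Fin m) : ∀ z ∈ W, ContMDiffAt (𝓡 n) 𝓘(ℝ, ℝ) ∞ (FF n u a b) z := fun z hz =>
  contMDiffAt_FF (k := ∞) (hu z hz) (by simp) le_rfl a b

lemma cont_PP (hu : ∀ z ∈ W, ∀ c, ContMDiffAt (𝓡 n) 𝓘(ℝ, ℝ) ∞ (fun q => u q c) z)
    (a b c : Fin m) : ContinuousOn (PP n u a b c) W := fun z hz =>
  (contMDiffAt_mGam (m := ∞) (smooth_FF hu a b z hz) (hu z hz c) (by simp)
    le_rfl).continuousAt.continuousWithinAt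

lemma cont_DD (hu : ∀ z ∈ W, ∀ c, ContMDiffAt (𝓡 n) 𝓘(ℝ, ℝ) ∞ (fun q => u q c) z)
    (a b : Fin m) : ContinuousOn (mGam n (FF n u a b) (FF n u a b)) W := fun z hz =>
  (contMDiffAt_mGam (m := ∞) (smooth_FF hu a b z hz) (smooth_FF hu a b z hz) (by simp)
    le_rfl).continuousAt.continuousWithinAt

lemma cont_GG (hu : ∀ z ∈ W, ∀ c, ContMDiffAt (𝓡 n) 𝓘(ℝ, ℝ) ∞ (fun q => u q c) z)
    (a b : Fin m) : ContinuousOn (mLap n (FF n u a b)) W := fun z hz =>
  (contMDiffAt_mLap (m := 0) ((smooth_FF hu a b z hz).of_le two_le_infty) (by norm_num)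
    two_le_infty).continuousAt.continuousWithinAt

lemma cont_hess {f : M → ℝ} (hf : ∀ z ∈ W, ContMDiffAt (𝓡 n) 𝓘(ℝ, ℝ) ∞ f z) :
    ContinuousOn (mHessSq n f) W := fun z hz =>
  (Bs84.continuousAt_mHessSq ((hf z hz).of_le two_le_infty)).continuousWithinAt

lemma cont_SS (hu : ∀ z ∈ W, ∀ c, ContMDiffAt (𝓡 n) 𝓘(ℝ, ℝ) ∞ (fun q => u q c) z)
    (a b : Fin m) : ContinuousOn (SS n u a b) W := by
  have h1 : ContinuousOn (mHessSq n (fun q => u q a + u q b)) W :=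
    cont_hess fun z hz => (hu z hz a).add (hu z hz b)
  have h2 : ContinuousOn (mHessSq n (fun q => u q a)) W := cont_hess fun z hz => hu z hz a
  have h3 : ContinuousOn (mHessSq n (fun q => u q b)) W := cont_hess fun z hz => hu z hz b
  refine (((h1.sub h2).sub h3).div_const 2).congr fun z hz => ?_
  have h4 := mHessSq_add ((hu z hz a).of_le two_le_infty) ((hu z hz b).of_le two_le_infty)
  have h5 : SS n u a b z = mHessIn n (fun q => u q a) (fun q => u q b) z := rfl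
  rw [h5]
  simp only [Pi.sub_apply]
  linarith

lemma GG_eq (hW : IsOpen W)
    (hu : ∀ z ∈ W, ∀ c, ContMDiffAt (𝓡 n) 𝓘(ℝ, ℝ) ∞ (fun q => u q c) z)
    (hH : ∀ z ∈ W, ∀ c, mLap n (fun q => u q c) z = 0) {z : M} (hz : z ∈ W) (a b : Fin m) :
    mLap n (FF n u a b) z = 2 * SS n u a b z + 2 * RR n u a b z :=
  mLap_FF hW (fun z hz c => (hu z hz c).of_le three_le_infty) hH hz a b

lemma cont_RR (hW : IsOpen W)
    (hu : ∀ z ∈ W, ∀ c, ContMDiffAt (𝓡 n) 𝓘(ℝ, ℝ) ∞ (fun q => u q c) z)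
    (hH : ∀ z ∈ W, ∀ c, mLap n (fun q => u q c) z = 0) (a b : Fin m) :
    ContinuousOn (RR n u a b) W := by
  refine (((cont_GG hu a b).sub ((cont_SS hu a b).const_smul (2:ℝ))).div_const 2).congr
    fun z hz => ?_
  have h1 := GG_eq hW hu hH hz a b
  simp only [Pi.sub_apply, Pi.smul_apply, smul_eq_mul]
  linarith

lemma cont_hs (hu : ∀ z ∈ W, ∀ c, ContMDiffAt (𝓡 n) 𝓘(ℝ, ℝ) ∞ (fun q => u q c) z) :
    ContinuousOn (hs n u) W :=
  continuousOn_finsetSum _ fun a _ => cont_hess fun z hz => hu z hz a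

lemma cont_hs2 (hu : ∀ z ∈ W, ∀ c, ContMDiffAt (𝓡 n) 𝓘(ℝ, ℝ) ∞ (fun q => u q c) z) :
    ContinuousOn (hs2 n u) W :=
  continuousOn_finsetSum _ fun a _ => (cont_hess fun z hz => hu z hz a).pow 2

end Cont

end Crest.Agent.R249.BD281
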