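import Crest.Prelude.Def_RicciEnergy
import Crest.Agent.R247.Scal4_386

/-!
# R249 (S0386), D1: interfaces (helper104)

* `ricDev c g x` = `|Ric - c g|²` in coordinates, `mRicDev n M c p` on the manifold;
* `Good v D a X` : volume `≥ v`, diameter `≤ D`, `∫ |Ric - 3g|² ≤ a`;
* `D1Stmt` : the output of D1 (for the rescaled manifold `R247.Scal386.Sc r M`);
* behaviour of compactness, simple connectedness, sectional curvature, `tracefreeRicciEnergy` and the
  volume under `Sc`.
-/

set_option autoImplicit false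
noncomputable section
open Set Filter Topology Bundle MeasureTheory
open scoped ContDiff Manifold ENNReal NNReal
open Crest.GeometryTopology.CoordMetric Crest.GeometryTopology.ChartCurvature
  Crest.GeometryTopology.RicciEnergy Crest.GeometryTopology.PointedLimit
open Crest.Agent.R247.Scal386

namespace Crest.Agent.R249.D1Def104

/-- `|Ric - c g|²` in coordinates. -/
def ricDev {n : ℕ} (c : ℝ) (g : MetricField n) (x : EuclideanSpace ℝ (Fin n)) : ℝ :=
  ∑ i, ∑ j, ∑ a, ∑ b, inverseField g x i a * inverseField g x j b *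
    (ricci g x i j - c * g x i j) * (ricci g x a b - c * g x a b)

section mfd
variable (n : ℕ) (M : Type*) [TopologicalSpace M] [ChartedSpace (EuclideanSpace ℝ (Fin n)) M]
  [RiemannianBundle (fun x : M => TangentSpace 𝓘(ℝ, EuclideanSpace ℝ (Fin n)) x)]

/-- `|Ric - c g|²` at a point of the manifold. -/
def mRicDev (c : ℝ) (p : M) : ℝ := ricDev c (chartMetric n M p) (chartCentre n M p)

/-- the scalar curvature of the manifold. -/
def mScal (p : M) : ℝ := scalarCurv (chartMetric n M p) (chartCentre n M p)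

end mfd

/-- volume `≥ v`, diameter `≤ D`, `∫ |Ric - 3g|² ≤ a`. -/
def Good (v D a : ℝ) (X : Type*) [MetricSpace X] [ChartedSpace (EuclideanSpace ℝ (Fin 4)) X]
    [RiemannianBundle (fun x : X => TangentSpace 𝓘(ℝ, EuclideanSpace ℝ (Fin 4)) x)]
    [MeasurableSpace X] [BorelSpace X] : Prop :=
  ENNReal.ofReal v ≤ (μHE[4] : Measure X) univ ∧ (∀ x y : X, dist x y ≤ D) ∧
    ∫⁻ x, ENNReal.ofReal (mRicDev 4 X 3 x) ∂(μHE[4] : Measure X) ≤ ENNReal.ofReal a

/-- **Output of D1.** -/
def D1Stmt : Prop :=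
  ∃ v D C ε₀ : ℝ, 0 < v ∧ 0 < D ∧ 0 < C ∧ 0 < ε₀ ∧
    ∀ (M : Type) [MetricSpace M] [ChartedSpace (EuclideanSpace ℝ (Fin 4)) M]
      [IsManifold 𝓘(ℝ, EuclideanSpace ℝ (Fin 4)) ∞ M] [CompactSpace M] [SimplyConnectedSpace M]
      [RiemannianBundle (fun x : M => TangentSpace 𝓘(ℝ, EuclideanSpace ℝ (Fin 4)) x)]
      [IsContMDiffRiemannianBundle 𝓘(ℝ, EuclideanSpace ℝ (Fin 4)) ∞ (EuclideanSpace ℝ (Fin 4))
        (fun x : M => TangentSpace 𝓘(ℝ, EuclideanSpace ℝ (Fin 4)) x)]
      [IsRiemannianManifold 𝓘(ℝ, EuclideanSpace ℝ (Fin 4)) M]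
      [MeasurableSpace M] [BorelSpace M],
      HasNonnegSectionalCurvature 4 M → ∀ ε : ℝ, 0 < ε → ε ≤ ε₀ →
        tracefreeRicciEnergy 4 M < ENNReal.ofReal ε →
          ∃ r : {r : ℝ // 0 < r}, Good v D (C * ε) (Sc r M)

/-- **Input of D1 from part C (index inequality)**: `1 ≤ C ∫ |Rm|²`. -/
def IdxStmt : Prop :=
  ∃ C : ℝ, 0 < C ∧
    ∀ (M : Type) [MetricSpace M] [ChartedSpace (EuclideanSpace ℝ (Fin 4)) M]
      [IsManifold 𝓘(ℝ, EuclideanSpace ℝ (Fin 4)) ∞ M] [CompactSpace M] [SimplyConnectedSpace M]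
      [RiemannianBundle (fun x : M => TangentSpace 𝓘(ℝ, EuclideanSpace ℝ (Fin 4)) x)]
      [IsContMDiffRiemannianBundle 𝓘(ℝ, EuclideanSpace ℝ (Fin 4)) ∞ (EuclideanSpace ℝ (Fin 4))
        (fun x : M => TangentSpace 𝓘(ℝ, EuclideanSpace ℝ (Fin 4)) x)]
      [IsRiemannianManifold 𝓘(ℝ, EuclideanSpace ℝ (Fin 4)) M]
      [MeasurableSpace M] [BorelSpace M] (B : M → ℝ), Continuous B →
      (∀ p : M, ∀ u v w z : EuclideanSpace ℝ (Fin 4),
        |∑ l, ∑ m, chartMetric 4 M p (chartCentre 4 M p) l m *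
            (∑ k, ∑ i, ∑ j, riemann (chartMetric 4 M p) (chartCentre 4 M p) l k i j *
              w k * u i * v j) * z m| ≤
          B p * Real.sqrt (quadForm (chartMetric 4 M p) (chartCentre 4 M p) u) *
            Real.sqrt (quadForm (chartMetric 4 M p) (chartCentre 4 M p) v) *
            Real.sqrt (quadForm (chartMetric 4 M p) (chartCentre 4 M p) w) *
            Real.sqrt (quadForm (chartMetric 4 M p) (chartCentre 4 M p) z)) →
        1 ≤ ENNReal.ofReal C * ∫⁻ p, ENNReal.ofReal (B p ^ 2) ∂(μHE[4] : Measure M)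

/-! ### rescaling -/

section coord
variable {n : ℕ}

theorem riemann_smul {c : ℝ} (hc : c ≠ 0) (g : MetricField n) (x : EuclideanSpace ℝ (Fin n))
    (l k i j : Fin n) : riemann (fun y => c • g y) x l k i j = riemann g x l k i j := by
  unfold riemann
  simp only [christoffel_smul hc]

theorem secNumer_smul {c : ℝ} (hc : c ≠ 0) (g : MetricField n)
    (x u v : EuclideanSpace ℝ (Fin n)) :
    secNumer (fun y => c • g y) x u v = c * secNumer g x u v := by
  unfold secNumer
  simp only [riemann_smul hc, Matrix.smul_apply, smul_eq_mul, Finset.mul_sum]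
  refine Finset.sum_congr rfl fun l _ => Finset.sum_congr rfl fun m _ => ?_
  simp only [Finset.mul_sum, Finset.sum_mul]
  refine Finset.sum_congr rfl fun _ _ => Finset.sum_congr rfl fun _ _ =>
    Finset.sum_congr rfl fun _ _ => ?_
  ring

theorem inverseField_smul {c : ℝ} (hc : c ≠ 0) (g : MetricField n)
    (x : EuclideanSpace ℝ (Fin n)) (i j : Fin n) :
    inverseField (fun y => c • g y) x i j = c⁻¹ * inverseField g x i j := by
  unfold inverseField
  rw [matrix_inv_smul hc]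
  rfl

theorem scalarCurv_smul {c : ℝ} (hc : c ≠ 0) (g : MetricField n)
    (x : EuclideanSpace ℝ (Fin n)) :
    scalarCurv (fun y => c • g y) x = c⁻¹ * scalarCurv g x := by
  unfold scalarCurv
  simp only [ricci_smul hc, inverseField_smul hc, Finset.mul_sum]
  refine Finset.sum_congr rfl fun _ _ => Finset.sum_congr rfl fun _ _ => ?_
  ring

theorem tracefreeRicci_smul {c : ℝ} (hc : c ≠ 0) (g : MetricField n)
    (x : EuclideanSpace ℝ (Fin n)) (i j : Fin n) :
    tracefreeRicci (fun y => c • g y) x i j = tracefreeRicci g x i j := by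
  unfold tracefreeRicci
  rw [ricci_smul hc, scalarCurv_smul hc]
  simp only [Matrix.smul_apply, smul_eq_mul]
  field_simp

theorem tracefreeRicciNormSq_smul {c : ℝ} (hc : c ≠ 0) (g : MetricField n)
    (x : EuclideanSpace ℝ (Fin n)) :
    tracefreeRicciNormSq (fun y => c • g y) x = (c ^ 2)⁻¹ * tracefreeRicciNormSq g x := by
  unfold tracefreeRicciNormSq
  simp only [tracefreeRicci_smul hc, inverseField_smul hc, Finset.mul_sum]
  refine Finset.sum_congr rfl fun _ _ => Finset.sum_congr rfl fun _ _ =>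
    Finset.sum_congr rfl fun _ _ => Finset.sum_congr rfl fun _ _ => ?_
  field_simp

end coord

section sc
variable {M : Type*} {n : ℕ} (r : {r : ℝ // 0 < r}) [MetricSpace M]

instance instCompactSc [h : CompactSpace M] : CompactSpace (Sc r M) := h

instance instSimplyConnectedSc [h : SimplyConnectedSpace M] : SimplyConnectedSpace (Sc r M) := h

instance instNonemptySc [h : Nonempty M] : Nonempty (Sc r M) := h

variable [ChartedSpace (EuclideanSpace ℝ (Fin n)) M]
  [RiemannianBundle (fun x : M => TangentSpace 𝓘(ℝ, EuclideanSpace ℝ (Fin n)) x)]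

theorem chartMetric_sc' (x : Sc r M) :
    chartMetric n (Sc r M) x = fun y => (r.1 ^ 2)⁻¹ • chartMetric n M (ofSc r x) y :=
  chartMetric_sc r (ofSc r x)

theorem chartCentre_sc (x : Sc r M) :
    chartCentre n (Sc r M) x = chartCentre n M (ofSc r x) := rfl

theorem mScal_sc (x : Sc r M) : mScal n (Sc r M) x = r.1 ^ 2 * mScal n M (ofSc r x) := by
  have hr := r.2
  have hc : (r.1 ^ 2)⁻¹ ≠ 0 := by positivity
  unfold mScal
  rw [chartMetric_sc', chartCentre_sc, scalarCurv_smul hc, inv_inv]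

theorem density_sc (x : Sc r M) : tracefreeRicciDensity n (Sc r M) x =
    r.1 ^ 4 * tracefreeRicciDensity n M (ofSc r x) := by
  have hr := r.2
  have hc : (r.1 ^ 2)⁻¹ ≠ 0 := by positivity
  unfold tracefreeRicciDensity
  rw [chartMetric_sc', chartCentre_sc, tracefreeRicciNormSq_smul hc]
  congr 1
  rw [inv_pow, inv_inv]
  ring

variable [IsManifold 𝓘(ℝ, EuclideanSpace ℝ (Fin n)) ∞ M]
    [IsContMDiffRiemannianBundle 𝓘(ℝ, EuclideanSpace ℝ (Fin n)) ∞ (EuclideanSpace ℝ (Fin n))
      (fun x : M => TangentSpace 𝓘(ℝ, EuclideanSpace ℝ (Fin n)) x)]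

theorem nonnegSec_sc (h : HasNonnegSectionalCurvature n M) :
    HasNonnegSectionalCurvature n (Sc r M) := by
  have hr := r.2
  intro x u v
  have hc : (r.1 ^ 2)⁻¹ ≠ 0 := by positivity
  rw [chartMetric_sc', chartCentre_sc, secNumer_smul hc]
  exact mul_nonneg (by positivity) (h (ofSc r x) u v)

end sc

section measure
variable {M : Type*} (r : {r : ℝ // 0 < r}) [MetricSpace M]

theorem lip_toSc : LipschitzWith (r.1⁻¹).toNNReal (toSc r : M → Sc r M) := by
  have hr := r.2
  refine LipschitzWith.of_dist_le_mul fun x y => ?_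
  rw [Real.coe_toNNReal _ (by positivity), dist_toSc]

variable [MeasurableSpace M] [BorelSpace M]

theorem muHE_sc_ge (n : ℕ) (A : Set (Sc r M)) :
    (μHE[n] : Measure (Sc r M)) A ≤ ENNReal.ofReal ((r.1⁻¹) ^ n) *
      (μHE[n] : Measure M) (toSc r ⁻¹' A : Set M) := by
  have hr := r.2
  have h1 := (lip_toSc (M := M) r).hausdorffMeasure_image_le (d := n) (Nat.cast_nonneg n)
    (toSc r ⁻¹' A)
  have h2 : toSc r '' (toSc r ⁻¹' A : Set M) = A :=
    image_preimage_eq A (fun x => ⟨ofSc r x, rfl⟩)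
  rw [h2] at h1
  rw [Measure.euclideanHausdorffMeasure_def, Measure.euclideanHausdorffMeasure_def,
    Measure.smul_apply, Measure.smul_apply]
  have h3 : (((r.1⁻¹).toNNReal : ℝ≥0∞)) ^ (n : ℝ) = ENNReal.ofReal ((r.1⁻¹) ^ n) := by
    rw [ENNReal.rpow_natCast, ENNReal.ofReal_pow (by positivity)]
    rfl
  rw [h3] at h1
  rw [ENNReal.smul_def, ENNReal.smul_def, smul_eq_mul, smul_eq_mul, mul_left_comm]
  exact mul_le_mul_right h1 _

/-- the volume of the rescaled space, on sets. -/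
theorem muHE_sc_eq (n : ℕ) (A : Set (Sc r M)) :
    (μHE[n] : Measure (Sc r M)) A = ENNReal.ofReal ((r.1⁻¹) ^ n) *
      (μHE[n] : Measure M) (toSc r ⁻¹' A : Set M) := by
  have hr := r.2
  refine le_antisymm (muHE_sc_ge r n A) ?_
  have h1 := muHE_sc r n (toSc r ⁻¹' A : Set M)
  have h2 : (ofSc r ⁻¹' (toSc r ⁻¹' A : Set M) : Set (Sc r M)) = A := rfl
  rw [h2] at h1
  calc ENNReal.ofReal ((r.1⁻¹) ^ n) * (μHE[n] : Measure M) (toSc r ⁻¹' A : Set M)
      ≤ ENNReal.ofReal ((r.1⁻¹) ^ n) * (ENNReal.ofReal (r.1 ^ n) *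
        (μHE[n] : Measure (Sc r M)) A) := by gcongr
    _ = (μHE[n] : Measure (Sc r M)) A := by
      rw [← mul_assoc, ← ENNReal.ofReal_mul (by positivity), ← mul_pow,
        inv_mul_cancel₀ hr.ne', one_pow, ENNReal.ofReal_one, one_mul]

/-- the volume measure of the rescaled space. -/
theorem muHE_sc_map (n : ℕ) :
    (μHE[n] : Measure (Sc r M)) = ENNReal.ofReal ((r.1⁻¹) ^ n) •
      @id (Measure (Sc r M)) (μHE[n] : Measure M) := by
  refine Measure.ext fun A _ => ?_
  rw [muHE_sc_eq]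
  rfl

/-- integrals over the rescaled space. -/
theorem lintegral_sc (n : ℕ) (f : Sc r M → ℝ≥0∞) :
    ∫⁻ x, f x ∂(μHE[n] : Measure (Sc r M)) =
      ENNReal.ofReal ((r.1⁻¹) ^ n) * ∫⁻ x, f (toSc r x) ∂(μHE[n] : Measure M) := by
  rw [muHE_sc_map, lintegral_smul_measure]
  rfl

end measure

/-- the energy is scale invariant in dimension 4. -/
theorem energy_sc {M : Type*} (r : {r : ℝ // 0 < r}) [MetricSpace M]
    [ChartedSpace (EuclideanSpace ℝ (Fin 4)) M]
    [RiemannianBundle (fun x : M => TangentSpace 𝓘(ℝ, EuclideanSpace ℝ (Fin 4)) x)]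
    [MeasurableSpace M] [BorelSpace M] :
    tracefreeRicciEnergy 4 (Sc r M) = tracefreeRicciEnergy 4 M := by
  have hr := r.2
  unfold tracefreeRicciEnergy
  rw [lintegral_sc]
  have h1 : ∀ x : M, ENNReal.ofReal (tracefreeRicciDensity 4 (Sc r M) (toSc r x)) =
      ENNReal.ofReal (r.1 ^ 4) * ENNReal.ofReal (tracefreeRicciDensity 4 M x) := by
    intro x
    rw [density_sc, ENNReal.ofReal_mul (by positivity)]
    rfl
  simp_rw [h1]
  rw [lintegral_const_mul' _ _ ENNReal.ofReal_ne_top, ← mul_assoc,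
    ← ENNReal.ofReal_mul (by positivity), ← mul_pow, inv_mul_cancel₀ hr.ne', one_pow,
    ENNReal.ofReal_one, one_mul]

end Crest.Agent.R249.D1Def104
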