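import Crest.Agent.R247.Iso2_311
import Crest.Agent.R247.Bgr3_546

/-!
# R249, leaf D2-DENS (helper274): density of the volume on small balls

* `dens_ge` : on a Riemannian manifold (template classes), for every `z` and `δ > 0`, eventually for
  `r → 0+`, `(1 - δ) ω_n r^n ≤ μHE[n] (ball z r)`.
* `uniform_dens` : on a compact manifold with `Ric ≥ 0` there is `r₀ > 0` with
  `(1 - δ) ω_n r^n ≤ μHE[n] (ball x r)` for all `x` and all `0 < r ≤ r₀`.
* `theta_anti` : Bishop–Gromov in ratio form.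
-/

set_option autoImplicit false
set_option maxSynthPendingDepth 3
set_option linter.unusedSectionVars false

open Bundle Bornology Set MeasureTheory Manifold Filter Metric Topology
open scoped ENNReal ContDiff Topology NNReal
open Crest.GeometryTopology.CoordMetric Crest.GeometryTopology.ChartCurvature
open Crest.GeometryTopology.PointedLimit
open Crest.Agent.R226.ChartMet842
open Crest.Agent.R247.Ms322

noncomputable section
namespace Crest.Agent.R249.Dens_274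

section euclid

variable {n : ℕ}

local notation "𝔼" => EuclideanSpace ℝ (Fin n)

/-- volume of Euclidean balls -/
theorem vol_ball (x : 𝔼) {r : ℝ} (hr : 0 < r) :
    volume (ball x r) = ENNReal.ofReal (r ^ n) * volume (ball (0 : 𝔼) 1) := by
  rw [Measure.addHaar_ball_of_pos _ x hr, finrank_euclideanSpace_fin]

theorem vol_ball_one_ne_zero : volume (ball (0 : 𝔼) 1) ≠ 0 :=
  (measure_ball_pos _ _ one_pos).ne'

theorem vol_ball_one_ne_top : volume (ball (0 : 𝔼) 1) ≠ ⊤ := measure_ball_lt_top.ne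

/-- choice of a small parameter -/
theorem exists_small (n : ℕ) {δ : ℝ} (hδ : 0 < δ) :
    ∃ η : ℝ≥0, 0 < η ∧ ENNReal.ofReal (1 - δ) * ((1 + η : ℝ≥0) : ℝ≥0∞) ^ (2 * n) ≤ 1 := by
  have hc : Continuous fun t : ℝ => (1 - δ) * (1 + t) ^ (2 * n) := by fun_prop
  have h1 : ∀ᶠ t : ℝ in 𝓝 0, (1 - δ) * (1 + t) ^ (2 * n) < 1 := by
    have := hc.tendsto 0
    simp only [add_zero, one_pow, mul_one] at this
    exact this.eventually (gt_mem_nhds (by linarith))
  obtain ⟨ε, hε, h2⟩ := Metric.eventually_nhds_iff.1 h1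
  refine ⟨Real.toNNReal (ε / 2), Real.toNNReal_pos.2 (by positivity), ?_⟩
  have h3 : (1 - δ) * (1 + ε / 2) ^ (2 * n) < 1 := h2 (by
    rw [Real.dist_eq, sub_zero, abs_of_pos (by positivity)]; linarith)
  have h4 : ((1 + Real.toNNReal (ε / 2) : ℝ≥0) : ℝ≥0∞) = ENNReal.ofReal (1 + ε / 2) := by
    rw [ENNReal.ofReal_add (by norm_num) (by positivity), ENNReal.ofReal_one, ENNReal.coe_add,
      ENNReal.coe_one]
    rfl
  rw [h4, ← ENNReal.ofReal_pow (by positivity)]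
  rcases le_or_gt (1 - δ) 0 with h5 | h5
  · rw [ENNReal.ofReal_of_nonpos h5, zero_mul]; exact zero_le_one
  · rw [← ENNReal.ofReal_mul h5.le]
    rw [← ENNReal.ofReal_one]
    exact ENNReal.ofReal_le_ofReal h3.le

end euclid

variable {n : ℕ} {M : Type*} [MetricSpace M] [ChartedSpace (EuclideanSpace ℝ (Fin n)) M]
  [IsManifold (𝓡 n) ∞ M]
  [RiemannianBundle (fun p : M => TangentSpace (𝓡 n) p)]
  [IsContMDiffRiemannianBundle (𝓡 n) ∞ (EuclideanSpace ℝ (Fin n)) (fun p : M => TangentSpace (𝓡 n) p)]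
  [IsRiemannianManifold (𝓡 n) M] [MeasurableSpace M] [BorelSpace M]

local notation "𝔼" => EuclideanSpace ℝ (Fin n)

/-- **density**: eventually `μHE[n] (ball z r) ≥ (1 - δ) ω_n r^n`. -/
theorem dens_ge (z : M) {δ : ℝ} (hδ : 0 < δ) :
    ∃ r₁ : ℝ, 0 < r₁ ∧ ∀ r : ℝ, 0 < r → r ≤ r₁ →
      ENNReal.ofReal (1 - δ) * volume (ball (0 : 𝔼) r) ≤ (μHE[n] : Measure M) (ball z r) := by
  obtain ⟨η, hη, hη1⟩ := exists_small n hδ
  have ha : chartAt 𝔼 z z ∈ (chartAt 𝔼 z).target := (chartAt 𝔼 z).map_source (mem_chart_source 𝔼 z)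
  obtain ⟨A, hA, -⟩ := exists_isometry z ha
  obtain ⟨r, hr, hb, h1, h2⟩ := exists_bilip z ha hA hη
  set a := chartAt 𝔼 z z with haz
  have hz : (chartAt 𝔼 z).symm a = z := (chartAt 𝔼 z).left_inv (mem_chart_source 𝔼 z)
  -- a ball around `A a` inside the image
  have hopen : IsOpen (A '' ball a r) := A.isOpenMap _ isOpen_ball
  obtain ⟨r₁, hr₁, h3⟩ := Metric.isOpen_iff.1 hopen (A a) ⟨a, mem_ball_self hr, rfl⟩
  refine ⟨r₁, hr₁, fun s hs hs1 => ?_⟩
  set K : ℝ := ((1 + η : ℝ≥0) : ℝ) with hK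
  have hK1 : 1 ≤ K := by rw [hK]; push_cast; linarith [η.2]
  have hK0 : 0 < K := by linarith
  set S : Set M := (fun w => (chartAt 𝔼 z).symm (A.symm w)) '' ball (A a) (s / K) with hS
  have hsub : ball (A a) (s / K) ⊆ A '' ball a r := by
    refine (ball_subset_ball ?_).trans h3
    calc s / K ≤ s := div_le_self hs.le hK1
      _ ≤ r₁ := hs1
  -- `S` is inside `ball z s`
  have hS1 : S ⊆ ball z s := by
    rintro _ ⟨w, hw, rfl⟩
    have m2 : A a ∈ A '' ball a r := ⟨_, mem_ball_self hr, rfl⟩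
    have e1 := h1.dist_le_mul _ (hsub hw) _ m2
    simp only [A.symm_apply_apply, hz] at e1
    rw [mem_ball] at hw ⊢
    calc dist ((chartAt 𝔼 z).symm (A.symm w)) z ≤ K * dist w (A a) := e1
      _ < K * (s / K) := by gcongr
      _ = s := by field_simp
  -- `S` is inside the domain of the second estimate
  have hS2 : S ⊆ (chartAt 𝔼 z).symm '' ball a r := by
    rintro _ ⟨w, hw, rfl⟩
    obtain ⟨b, hb1, hb2⟩ := hsub hw
    refine ⟨b, hb1, ?_⟩
    simp [← hb2]
  have himg : ball (A a) (s / K) ⊆ (fun y => A (chartAt 𝔼 z y)) '' S := by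
    intro w hw
    refine ⟨_, ⟨w, hw, rfl⟩, ?_⟩
    obtain ⟨b, hb1, hb2⟩ := hsub hw
    have : A.symm w = b := by rw [← hb2, A.symm_apply_apply]
    simp only [this]
    rw [(chartAt 𝔼 z).right_inv (hb hb1), hb2]
  have e2 := muHE_image_le (n := n) (h2.mono hS2)
  rw [EuclideanSpace.euclideanHausdorffMeasure_eq_volume] at e2
  have e3 : volume (ball (A a) (s / K)) ≤ ((1 + η : ℝ≥0) : ℝ≥0∞) ^ n * μHE[n] (ball z s) :=
    (measure_mono himg).trans (e2.trans (by gcongr))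
  rw [vol_ball _ (by positivity)] at e3
  rw [vol_ball _ hs]
  -- final arithmetic
  have hKe : ((1 + η : ℝ≥0) : ℝ≥0∞) = ENNReal.ofReal K := by
    rw [hK, ENNReal.ofReal_coe_nnreal]
  rw [hKe] at e3 hη1
  have e4 : ENNReal.ofReal (s ^ n) = ENNReal.ofReal K ^ n * ENNReal.ofReal ((s / K) ^ n) := by
    rw [← ENNReal.ofReal_pow hK0.le, ← ENNReal.ofReal_mul (by positivity), ← mul_pow]
    congr 2
    field_simp
  calc ENNReal.ofReal (1 - δ) * (ENNReal.ofReal (s ^ n) * volume (ball (0 : 𝔼) 1))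
      = ENNReal.ofReal (1 - δ) * ENNReal.ofReal K ^ n *
        (ENNReal.ofReal ((s / K) ^ n) * volume (ball (0 : 𝔼) 1)) := by rw [e4]; ring
    _ ≤ ENNReal.ofReal (1 - δ) * ENNReal.ofReal K ^ n *
        (ENNReal.ofReal K ^ n * μHE[n] (ball z s)) := by gcongr
    _ = (ENNReal.ofReal (1 - δ) * ENNReal.ofReal K ^ (2 * n)) * μHE[n] (ball z s) := by
        rw [two_mul, pow_add]; ring
    _ ≤ 1 * μHE[n] (ball z s) := by gcongr
    _ = _ := one_mul _

/-- volume of Euclidean balls, ratio form -/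
theorem vol_ball_ratio {r R : ℝ} (hr : 0 < r) (hR : 0 < R) :
    volume (ball (0 : 𝔼) R) = ENNReal.ofReal ((R / r) ^ n) * volume (ball (0 : 𝔼) r) := by
  rw [vol_ball _ hR, vol_ball (0 : 𝔼) hr, ← mul_assoc, ← ENNReal.ofReal_mul (by positivity),
    ← mul_pow]
  congr 3
  field_simp

/-- **Bishop–Gromov downwards**: a lower volume bound at the radius `R` passes to smaller radii. -/
theorem ge_of_ge [CompleteSpace M] [ConnectedSpace M] {κ : ℝ} (hκ : 0 ≤ κ)
    (hRic : HasRicciLowerBound n M (-κ)) (x : M) {r R c : ℝ} (hr : 0 < r) (hrR : r ≤ R)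
    (h : ENNReal.ofReal c * volume (ball (0 : 𝔼) R) ≤ (μHE[n] : Measure M) (ball x R)) :
    ENNReal.ofReal (Real.exp (-(κ * R ^ 2 / 2)) * c) * volume (ball (0 : 𝔼) r) ≤
      (μHE[n] : Measure M) (ball x r) := by
  have hR : 0 < R := hr.trans_le hrR
  have h1 := Crest.Agent.R247.Bgr546.bgr_all n κ hκ M x r R hRic hr hrR
  have h2 : ENNReal.ofReal c * (ENNReal.ofReal ((R / r) ^ n) * volume (ball (0 : 𝔼) r)) ≤
      ENNReal.ofReal (Real.exp (κ * R ^ 2 / 2) * (R / r) ^ n) * (μHE[n] : Measure M) (ball x r) := by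
    rw [← vol_ball_ratio hr hR]
    exact h.trans h1
  set q : ℝ := (R / r) ^ n with hq
  have hq0 : 0 < q := by rw [hq]; positivity
  set E : ℝ := Real.exp (κ * R ^ 2 / 2) with hE
  have hE0 : 0 < E := Real.exp_pos _
  have e1 : ENNReal.ofReal (Real.exp (-(κ * R ^ 2 / 2)) * c) =
      ENNReal.ofReal (E⁻¹) * ENNReal.ofReal (q⁻¹) * (ENNReal.ofReal c * ENNReal.ofReal q) := by
    rw [← ENNReal.ofReal_mul (by positivity), mul_comm (ENNReal.ofReal c),
      ← ENNReal.ofReal_mul hq0.le, ← ENNReal.ofReal_mul (by positivity), Real.exp_neg]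
    congr 1
    rw [← hE]
    field_simp
  calc ENNReal.ofReal (Real.exp (-(κ * R ^ 2 / 2)) * c) * volume (ball (0 : 𝔼) r)
      = ENNReal.ofReal (E⁻¹) * ENNReal.ofReal (q⁻¹) *
        (ENNReal.ofReal c * (ENNReal.ofReal q * volume (ball (0 : 𝔼) r))) := by rw [e1]; ring
    _ ≤ ENNReal.ofReal (E⁻¹) * ENNReal.ofReal (q⁻¹) *
        (ENNReal.ofReal (E * q) * (μHE[n] : Measure M) (ball x r)) := by gcongr
    _ = (ENNReal.ofReal (E⁻¹) * ENNReal.ofReal (q⁻¹) * ENNReal.ofReal (E * q)) *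
        (μHE[n] : Measure M) (ball x r) := by ring
    _ = (μHE[n] : Measure M) (ball x r) := by
        rw [← ENNReal.ofReal_mul (by positivity), ← ENNReal.ofReal_mul (by positivity)]
        have : E⁻¹ * q⁻¹ * (E * q) = 1 := by field_simp
        rw [this, ENNReal.ofReal_one, one_mul]

/-- local uniformity -/
theorem local_dens [CompleteSpace M] [ConnectedSpace M] {κ : ℝ} (hκ : 0 ≤ κ)
    (hRic : HasRicciLowerBound n M (-κ)) (x : M) {δ : ℝ} (hδ : 0 < δ) :
    ∃ U ∈ 𝓝 x, ∃ r₀ : ℝ, 0 < r₀ ∧ ∀ y ∈ U, ∀ r : ℝ, 0 < r → r ≤ r₀ →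
      ENNReal.ofReal (1 - δ) * volume (ball (0 : 𝔼) r) ≤ (μHE[n] : Measure M) (ball y r) := by
  rcases le_or_gt 1 δ with h1 | h1
  · refine ⟨univ, univ_mem, 1, one_pos, fun y _ r _ _ => ?_⟩
    rw [ENNReal.ofReal_of_nonpos (by linarith), zero_mul]; exact bot_le
  -- parameters
  obtain ⟨ε, hε, hε1, hε2⟩ : ∃ ε : ℝ, 0 < ε ∧ ε < 1 ∧
      1 - δ ≤ Real.exp (-(κ * ε ^ 2 / 2)) * ((1 - ε) * (1 - ε) ^ n) := by
    have hc : Continuous fun t : ℝ => Real.exp (-(κ * t ^ 2 / 2)) * ((1 - t) * (1 - t) ^ n) := by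
      fun_prop
    have h2 : ∀ᶠ t : ℝ in 𝓝 0,
        1 - δ < Real.exp (-(κ * t ^ 2 / 2)) * ((1 - t) * (1 - t) ^ n) := by
      have := hc.tendsto 0
      simp only [ne_eq, OfNat.ofNat_ne_zero, not_false_eq_true, zero_pow, mul_zero, zero_div,
        neg_zero, Real.exp_zero, sub_zero, one_pow, mul_one] at this
      exact this.eventually (lt_mem_nhds (by linarith))
    obtain ⟨e, he, h3⟩ := Metric.eventually_nhds_iff.1 h2
    refine ⟨min (e / 2) (1 / 2), by positivity, lt_of_le_of_lt (min_le_right _ _) (by norm_num),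
      (h3 ?_).le⟩
    rw [Real.dist_eq, sub_zero, abs_of_pos (by positivity)]
    exact lt_of_le_of_lt (min_le_left _ _) (by linarith)
  obtain ⟨r₁, hr₁, hd⟩ := dens_ge (n := n) x hε
  set R : ℝ := min r₁ ε with hR
  have hR0 : 0 < R := lt_min hr₁ hε
  refine ⟨ball x (ε * R), ball_mem_nhds _ (by positivity), R, hR0, fun y hy r hr hrR => ?_⟩
  have hs : 0 < (1 - ε) * R := mul_pos (by linarith) hR0
  have hs1 : (1 - ε) * R ≤ r₁ := by
    have : R ≤ r₁ := min_le_left _ _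
    nlinarith
  have h4 := hd _ hs hs1
  have h5 : ball x ((1 - ε) * R) ⊆ ball y R := by
    intro w hw
    rw [mem_ball] at hw hy ⊢
    calc dist w y ≤ dist w x + dist x y := dist_triangle _ _ _
      _ < (1 - ε) * R + ε * R := by rw [dist_comm x y]; exact add_lt_add hw hy
      _ = R := by ring
  have h6 : ENNReal.ofReal ((1 - ε) * (1 - ε) ^ n) * volume (ball (0 : 𝔼) R) ≤
      (μHE[n] : Measure M) (ball y R) := by
    refine le_trans ?_ (h4.trans (measure_mono h5))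
    rw [vol_ball_ratio hR0 hs, ENNReal.ofReal_mul (by linarith), mul_assoc]
    have : (1 - ε) * R / R = 1 - ε := by field_simp
    rw [this]
  have h7 := ge_of_ge hκ hRic y hr hrR h6
  refine le_trans ?_ h7
  gcongr
  refine hε2.trans ?_
  have hRε : R ≤ ε := min_le_right _ _
  have h8 : 0 ≤ (1 - ε) * (1 - ε) ^ n :=
    mul_nonneg (by linarith) (pow_nonneg (by linarith) _)
  gcongr

/-- **Uniform density** on a compact manifold. -/
theorem uniform_dens [CompactSpace M] [ConnectedSpace M] {κ : ℝ} (hκ : 0 ≤ κ)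
    (hRic : HasRicciLowerBound n M (-κ)) {δ : ℝ} (hδ : 0 < δ) :
    ∃ r₀ : ℝ, 0 < r₀ ∧ ∀ x : M, ∀ r : ℝ, 0 < r → r ≤ r₀ →
      ENNReal.ofReal (1 - δ) * volume (ball (0 : 𝔼) r) ≤ (μHE[n] : Measure M) (ball x r) := by
  have key : ∃ r₀ : ℝ, 0 < r₀ ∧ ∀ x ∈ (univ : Set M), ∀ r : ℝ, 0 < r → r ≤ r₀ →
      ENNReal.ofReal (1 - δ) * volume (ball (0 : 𝔼) r) ≤ (μHE[n] : Measure M) (ball x r) := by
    refine isCompact_univ.induction_on (p := fun S : Set M => ∃ r₀ : ℝ, 0 < r₀ ∧ ∀ x ∈ S,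
      ∀ r : ℝ, 0 < r → r ≤ r₀ →
      ENNReal.ofReal (1 - δ) * volume (ball (0 : 𝔼) r) ≤ (μHE[n] : Measure M) (ball x r))
      ?_ ?_ ?_ ?_
    · exact ⟨1, one_pos, fun x hx => absurd hx (notMem_empty x)⟩
    · rintro s t hst ⟨r₀, h0, h⟩
      exact ⟨r₀, h0, fun x hx => h x (hst hx)⟩
    · rintro s t ⟨r₀, h0, h⟩ ⟨r₁, h1, h'⟩
      refine ⟨min r₀ r₁, lt_min h0 h1, fun x hx r hr hr1 => ?_⟩
      rcases hx with hx | hx
      · exact h x hx r hr (hr1.trans (min_le_left _ _))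
      · exact h' x hx r hr (hr1.trans (min_le_right _ _))
    · intro x _
      obtain ⟨U, hU, r₀, h0, h⟩ := local_dens (n := n) hκ hRic x hδ
      exact ⟨U, mem_nhdsWithin_of_mem_nhds hU, r₀, h0, h⟩
  obtain ⟨r₀, h0, h⟩ := key
  exact ⟨r₀, h0, fun x r => h x (mem_univ x) r⟩

/-- the volume ratio -/
def theta (n : ℕ) {M : Type*} [MetricSpace M] [MeasurableSpace M] [BorelSpace M] (x : M) (r : ℝ) :
    ℝ≥0∞ :=
  (μHE[n] : Measure M) (ball x r) / volume (ball (0 : EuclideanSpace ℝ (Fin n)) r)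

theorem le_theta_iff (x : M) {r c : ℝ} (hr : 0 < r) :
    ENNReal.ofReal c ≤ theta n x r ↔
      ENNReal.ofReal c * volume (ball (0 : 𝔼) r) ≤ (μHE[n] : Measure M) (ball x r) := by
  unfold theta
  rw [ENNReal.le_div_iff_mul_le (Or.inl (measure_ball_pos _ _ hr).ne')
    (Or.inl measure_ball_lt_top.ne)]

/-- **Bishop–Gromov**, ratio form, `Ric ≥ 0`. -/
theorem theta_anti [CompleteSpace M] [ConnectedSpace M] (hRic : HasRicciLowerBound n M 0) (x : M)
    {r R : ℝ} (hr : 0 < r) (hrR : r ≤ R) : theta n x R ≤ theta n x r := by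
  have hR : 0 < R := hr.trans_le hrR
  have hRic' : HasRicciLowerBound n M (-0) := by simpa using hRic
  have h1 := Crest.Agent.R247.Bgr546.bgr_all n 0 le_rfl M x r R hRic' hr hrR
  have h2 : Real.exp (0 * R ^ 2 / 2) = 1 := by simp
  rw [h2, one_mul] at h1
  unfold theta
  have hv0 : volume (ball (0 : 𝔼) r) ≠ 0 := (measure_ball_pos _ _ hr).ne'
  have hvt : volume (ball (0 : 𝔼) r) ≠ ⊤ := measure_ball_lt_top.ne
  have hq0 : ENNReal.ofReal ((R / r) ^ n) ≠ 0 := by
    rw [Ne, ENNReal.ofReal_eq_zero, not_le]; positivity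
  rw [vol_ball_ratio hr hR]
  calc (μHE[n] : Measure M) (ball x R) / (ENNReal.ofReal ((R / r) ^ n) * volume (ball (0 : 𝔼) r))
      ≤ (ENNReal.ofReal ((R / r) ^ n) * (μHE[n] : Measure M) (ball x r)) /
        (ENNReal.ofReal ((R / r) ^ n) * volume (ball (0 : 𝔼) r)) := by gcongr
    _ = (μHE[n] : Measure M) (ball x r) / volume (ball (0 : 𝔼) r) :=
        ENNReal.mul_div_mul_left _ _ hq0 ENNReal.ofReal_ne_top

/-- **Bishop**: `theta ≤ 1` for `Ric ≥ 0`. -/
theorem theta_le_one [CompleteSpace M] [ConnectedSpace M] (hRic : HasRicciLowerBound n M 0)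
    (x : M) {r : ℝ} (hr : 0 < r) : theta n x r ≤ 1 := by
  have hRic' : HasRicciLowerBound n M (-0) := by simpa using hRic
  have : ProperSpace M := Crest.Agent.R247.HR216.properSpace_of_riemannian n M
  obtain ⟨C⟩ := Crest.Agent.R247.Bgr546.rad_all n 0 le_rfl M hRic'
  have h := Crest.Agent.R247.Iso311.bishop C le_rfl x r
  have h2 : Real.exp (0 * r ^ 2 / 2) = 1 := by simp
  rw [h2, one_mul, ← vol_ball (0 : 𝔼) hr] at h
  unfold theta
  rw [ENNReal.div_le_iff (measure_ball_pos _ _ hr).ne' measure_ball_lt_top.ne, one_mul]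
  exact h

end Crest.Agent.R249.Dens_274
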