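import Crest.Agent.R249.Ul1_174
import Crest.Prelude.Def_PointedLimit

/-!
# R249 (helper174): ultralimits of pointed metric spaces (2)

* `mid_UL` : intermediate points pass to the ultralimit;
* `Pack q`, `Pack.card_le`, `Pack.properSpace` : uniform packing bounds give properness;
* `Pack.approx` : for `om`-almost every `k`, `IsScaledApprox 1 (q k) (UL.base q) R ε`.
-/

set_option autoImplicit false
noncomputable section
open Set Filter Topology Metric
open Crest.GeometryTopology.PointedLimit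

namespace Crest.Agent.R249.Ul174

universe u

variable {M : ℕ → Type u} [∀ k, MetricSpace (M k)] {q : ∀ k, M k}

/-! ### intermediate points -/

/-- existence of intermediate points (`R247.Sm879.ExM`, `R247.Mcp688.ExMid`) -/
def Mid (X : Type*) [MetricSpace X] : Prop :=
  ∀ a b : X, ∀ t ∈ Icc (0 : ℝ) 1, ∃ c, dist a c = t * dist a b ∧ dist c b = (1 - t) * dist a b

theorem mid_UL (h : ∀ᶠ k in om, Mid (M k)) : Mid (UL q) := by
  classical
  intro a b t ht
  obtain ⟨x, hx, rfl⟩ := a.exists_rep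
  obtain ⟨y, hy, rfl⟩ := b.exists_rep
  set z : ∀ k, M k := fun k => if hk : Mid (M k) then Classical.choose (hk (x k) (y k) t ht) else x k
    with hz
  have hz1 : ∀ᶠ k in om, dist (x k) (z k) = t * dist (x k) (y k) ∧
      dist (z k) (y k) = (1 - t) * dist (x k) (y k) := by
    filter_upwards [h] with k hk
    have := Classical.choose_spec (hk (x k) (y k) t ht)
    simp only [hz, dif_pos hk]
    exact this
  obtain ⟨C, hC⟩ := hx.dist_bd hy
  have hzb : Bd q z := by
    refine hx.trans (C := C) ?_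
    filter_upwards [hz1, hC] with k h1 h2
    rw [h1.1]
    have h3 : dist (x k) (y k) ≤ C := (le_abs_self _).trans h2
    have h4 : 0 ≤ dist (x k) (y k) := dist_nonneg
    nlinarith [ht.1, ht.2]
  refine ⟨UL.mk z hzb, ?_, ?_⟩
  · refine UL.dist_eq hx hzb ?_
    refine ((UL.tendsto_dist hx hy).const_mul t).congr' ?_
    filter_upwards [hz1] with k h1
    exact h1.1.symm
  · refine UL.dist_eq hzb hy ?_
    refine ((UL.tendsto_dist hx hy).const_mul (1 - t)).congr' ?_
    filter_upwards [hz1] with k h1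
    exact h1.2.symm

/-! ### separated sets and nets -/

/-- pairwise distances at least `ε` -/
def Sep {X : Type*} [MetricSpace X] (ε : ℝ) (s : Finset X) : Prop :=
  ∀ x ∈ s, ∀ y ∈ s, x ≠ y → ε ≤ dist x y

/-- a bound for the cardinality of separated sets gives a finite net -/
theorem exists_net {X : Type*} [MetricSpace X] {S : Set X} {ε : ℝ} (hε : 0 < ε) {N : ℕ}
    (h : ∀ s : Finset X, (∀ x ∈ s, x ∈ S) → Sep ε s → s.card ≤ N) :
    ∃ s : Finset X, (∀ x ∈ s, x ∈ S) ∧ Sep ε s ∧ ∀ x ∈ S, ∃ y ∈ s, dist x y < ε := by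
  classical
  by_contra hc
  push Not at hc
  have h1 : ∀ m : ℕ, ∃ s : Finset X, (∀ x ∈ s, x ∈ S) ∧ Sep ε s ∧ s.card = m := by
    intro m
    induction m with
    | zero => exact ⟨∅, by simp, by intro x hx; simp at hx, rfl⟩
    | succ m ih =>
      obtain ⟨s, hs1, hs2, hs3⟩ := ih
      obtain ⟨x, hx, hx2⟩ := hc s hs1 hs2
      have hxs : x ∉ s := by
        intro hxs
        have := hx2 x hxs
        rw [dist_self] at this
        linarith
      refine ⟨insert x s, ?_, ?_, ?_⟩
      · intro y hy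
        rcases Finset.mem_insert.1 hy with rfl | hy
        · exact hx
        · exact hs1 y hy
      · intro y hy z hz hyz
        rcases Finset.mem_insert.1 hy with hy1 | hy1
        · rcases Finset.mem_insert.1 hz with hz1 | hz1
          · exact absurd (hy1.trans hz1.symm) hyz
          · rw [hy1]; exact hx2 z hz1
        · rcases Finset.mem_insert.1 hz with hz1 | hz1
          · rw [hz1, dist_comm]; exact hx2 y hy1
          · exact hs2 y hy1 z hz1 hyz
      · rw [Finset.card_insert_of_notMem hxs, hs3]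
  obtain ⟨s, hs1, hs2, hs3⟩ := h1 (N + 1)
  have := h s hs1 hs2
  omega

/-- **uniform packing bounds** for the pointed spaces `(M k, q k)` -/
def Pack (q : ∀ k, M k) : Prop :=
  ∀ R ε : ℝ, 0 < ε → ∃ N : ℕ, ∀ᶠ k in om, ∀ s : Finset (M k),
    (∀ x ∈ s, dist (q k) x ≤ R) → Sep ε s → s.card ≤ N

/-- representatives of finitely many points of the ultralimit -/
theorem exists_reps (s : Finset (UL q)) :
    ∃ x : UL q → ∀ k, M k, ∃ hx : ∀ y, Bd q (x y), (∀ y, UL.mk (x y) (hx y) = y) ∧
      ∀ δ : ℝ, 0 < δ → ∀ᶠ k in om, ∀ y ∈ s, ∀ z ∈ s,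
        |dist (x y k) (x z k) - dist y z| < δ := by
  have h := fun y : UL q => y.exists_rep
  choose x hx hxy using h
  refine ⟨x, hx, hxy, fun δ hδ => ?_⟩
  rw [eventually_all_finset]
  intro y _
  rw [eventually_all_finset]
  intro z _
  have h1 := UL.tendsto_dist (hx y) (hx z)
  rw [hxy y, hxy z] at h1
  have h2 := (Metric.tendsto_nhds.1 h1) δ hδ
  filter_upwards [h2] with k hk
  rwa [Real.dist_eq] at hk

/-- separated sets of the ultralimit come from separated sets of the spaces -/
theorem exists_sep {R ε : ℝ} {s : Finset (UL q)}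
    (h1 : ∀ y ∈ s, dist (UL.base q) y ≤ R) (h2 : Sep ε s) {δ : ℝ} (hδ : 0 < δ) (hδε : δ < ε) :
    ∀ᶠ k in om, ∃ t : Finset (M k), (∀ x ∈ t, dist (q k) x ≤ R + δ) ∧ Sep (ε - δ) t ∧
      t.card = s.card := by
  classical
  obtain ⟨x, hx, hxy, hd⟩ := exists_reps s
  have h3 : ∀ᶠ k in om, ∀ y ∈ s, dist (q k) (x y k) < R + δ := by
    rw [eventually_all_finset]
    intro y hy
    refine UL.ev_lt (Bd.refl q) (hx y) ?_
    rw [hxy y]
    have := h1 y hy
    change dist (UL.base q) y < R + δ
    linarith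
  filter_upwards [hd δ hδ, h3] with k hk1 hk2
  have hinj : Set.InjOn (fun y => x y k) (s : Set (UL q)) := by
    intro y hy z hz hyz
    by_contra hne
    have h4 := hk1 y hy z hz
    have h5 := h2 y hy z hz hne
    simp only at hyz
    rw [hyz, dist_self] at h4
    have := (abs_lt.1 h4).1
    linarith
  refine ⟨s.image (fun y => x y k), ?_, ?_, Finset.card_image_of_injOn hinj⟩
  · intro z hz
    obtain ⟨y, hy, rfl⟩ := Finset.mem_image.1 hz
    exact (hk2 y hy).le
  · intro z hz z' hz' hne
    obtain ⟨y, hy, rfl⟩ := Finset.mem_image.1 hz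
    obtain ⟨y', hy', rfl⟩ := Finset.mem_image.1 hz'
    have hyy : y ≠ y' := fun h => hne (by rw [h])
    have h4 := hk1 y hy y' hy'
    have h5 := h2 y hy y' hy' hyy
    have := (abs_lt.1 h4).1
    linarith

theorem Pack.card_le (h : Pack q) (R : ℝ) {ε : ℝ} (hε : 0 < ε) :
    ∃ N : ℕ, ∀ s : Finset (UL q), (∀ y ∈ s, dist (UL.base q) y ≤ R) → Sep ε s → s.card ≤ N := by
  obtain ⟨N, hN⟩ := h (R + ε / 2) (ε / 2) (by positivity)
  refine ⟨N, fun s h1 h2 => ?_⟩
  obtain ⟨k, hk1, t, ht1, ht2, ht3⟩ :=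
    (hN.and (exists_sep h1 h2 (δ := ε / 2) (by positivity) (by linarith))).exists
  rw [← ht3]
  refine hk1 t ht1 ?_
  rwa [show ε - ε / 2 = ε / 2 by ring] at ht2

/-- a finite `ε`-net of a ball of the ultralimit, containing the base point -/
theorem Pack.exists_net (h : Pack q) (R : ℝ) {ε : ℝ} (hε : 0 < ε) :
    ∃ s : Finset (UL q), ∀ y, dist (UL.base q) y ≤ R → ∃ z ∈ s, dist y z < ε := by
  obtain ⟨N, hN⟩ := h.card_le R hε
  obtain ⟨s, -, -, hs⟩ := Ul174.exists_net (S := {y | dist (UL.base q) y ≤ R}) hε hN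
  exact ⟨s, hs⟩

theorem Pack.properSpace (h : Pack q) : ProperSpace (UL q) := by
  have hcb : ∀ R : ℝ, IsCompact (closedBall (UL.base q) R) := by
    intro R
    refine isCompact_iff_totallyBounded_isComplete.2 ⟨?_, isClosed_closedBall.isComplete⟩
    rw [Metric.totallyBounded_iff]
    intro ε hε
    obtain ⟨s, hs⟩ := h.exists_net R hε
    refine ⟨s, s.finite_toSet, fun y hy => ?_⟩
    obtain ⟨z, hz, hyz⟩ := hs y (by rw [dist_comm]; exact hy)
    exact mem_iUnion₂.2 ⟨z, hz, hyz⟩
  refine ⟨fun y r => ?_⟩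
  refine (hcb (dist y (UL.base q) + r)).of_isClosed_subset isClosed_closedBall ?_
  exact closedBall_subset_closedBall' (by linarith)

/-- **Approximation**: for almost every `k` the ball of radius `R` about `q k` is `ε`-close to the
ball about the base point of the ultralimit. -/
theorem Pack.approx (h : Pack q) {R ε : ℝ} (hR : 0 < R) (hε : 0 < ε) :
    ∀ᶠ k in om, IsScaledApprox 1 (q k) (UL.base q) R ε := by
  classical
  obtain ⟨s₀, hs₀⟩ := h.exists_net R (ε := ε / 4) (by positivity)
  set s := insert (UL.base q) s₀ with hs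
  obtain ⟨x', hx', hxy', hd'⟩ := exists_reps s
  -- modify the representative of the base point
  set x : UL q → ∀ k, M k := fun y => if y = UL.base q then q else x' y with hx_def
  have hxb : x (UL.base q) = q := by simp [hx_def]
  have hx : ∀ y, Bd q (x y) := by
    intro y
    by_cases hy : y = UL.base q
    · rw [hy, hxb]; exact Bd.refl q
    · simp only [hx_def, if_neg hy]; exact hx' y
  have hxy : ∀ y, UL.mk (x y) (hx y) = y := by
    intro y
    by_cases hy : y = UL.base q
    · subst hy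
      simp only [hxb]
      rfl
    · simp only [hx_def, if_neg hy]; exact hxy' y
  have hd : ∀ δ : ℝ, 0 < δ → ∀ᶠ k in om, ∀ y ∈ s, ∀ z ∈ s,
        |dist (x y k) (x z k) - dist y z| < δ := by
    intro δ hδ
    rw [eventually_all_finset]
    intro y _
    rw [eventually_all_finset]
    intro z _
    have h1 := UL.tendsto_dist (hx y) (hx z)
    rw [hxy y, hxy z] at h1
    have h2 := (Metric.tendsto_nhds.1 h1) δ hδ
    filter_upwards [h2] with k hk
    rwa [Real.dist_eq] at hk
  -- the representatives form a net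
  have hnet : ∀ᶠ k in om, ∀ z : M k, dist (q k) z < R → ∃ y ∈ s, dist z (x y k) ≤ ε / 3 := by
    rcases ev_or_not (fun k => ∀ z : M k, dist (q k) z < R → ∃ y ∈ s, dist z (x y k) ≤ ε / 3)
      with h1 | h1
    · exact h1
    exfalso
    have h2 : ∀ k, ∃ z : M k, (¬ ∀ z : M k, dist (q k) z < R → ∃ y ∈ s, dist z (x y k) ≤ ε / 3) →
        dist (q k) z < R ∧ ∀ y ∈ s, ε / 3 < dist z (x y k) := by
      intro k
      by_cases hk : ∀ z : M k, dist (q k) z < R → ∃ y ∈ s, dist z (x y k) ≤ ε / 3
      · exact ⟨q k, fun h => absurd hk h⟩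
      · have hk' := hk
        push Not at hk
        obtain ⟨z, hz1, hz2⟩ := hk
        exact ⟨z, fun _ => ⟨hz1, hz2⟩⟩
    choose z hz using h2
    have h3 : ∀ᶠ k in om, dist (q k) (z k) < R ∧ ∀ y ∈ s, ε / 3 < dist (z k) (x y k) := by
      filter_upwards [h1] with k hk
      exact hz k hk
    have hzb : Bd q z := Bd.of_lt (h3.mono fun _ hk => hk.1)
    obtain ⟨y, hy, hyz⟩ := hs₀ (UL.mk z hzb)
      (UL.dist_le (Bd.refl q) hzb (h3.mono fun _ hk => hk.1.le))
    have h4 : ε / 3 ≤ dist (UL.mk z hzb) (UL.mk (x y) (hx y)) :=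
      UL.le_dist _ _ (h3.mono fun _ hk => (hk.2 y (Finset.mem_insert_of_mem hy)).le)
    rw [hxy y] at h4
    linarith
  filter_upwards [hnet, hd (ε / 8) (by positivity)] with k hk1 hk2
  have hb : UL.base q ∈ s := Finset.mem_insert_self _ _
  -- the map
  have hch : ∀ z : M k, ∃ y ∈ s, dist (q k) z < R → dist z (x y k) ≤ ε / 3 := by
    intro z
    by_cases hz : dist (q k) z < R
    · obtain ⟨y, hy, hyz⟩ := hk1 z hz
      exact ⟨y, hy, fun _ => hyz⟩
    · exact ⟨UL.base q, hb, fun h => absurd h hz⟩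
  choose g hg1 hg2 using hch
  set f : M k → UL q := fun z => if z = q k then UL.base q else g z with hf
  have hfs : ∀ z, f z ∈ s := by
    intro z
    by_cases hz : z = q k
    · simp only [hf, if_pos hz]; exact hb
    · simp only [hf, if_neg hz]; exact hg1 z
  have hfd : ∀ z, dist (q k) z < R → dist z (x (f z) k) ≤ ε / 3 := by
    intro z hzR
    by_cases hz : z = q k
    · have h0 : f z = UL.base q := by simp only [hf, if_pos hz]
      rw [h0, hxb, hz, dist_self]
      positivity
    · simp only [hf, if_neg hz]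
      exact hg2 z hzR
  refine ⟨f, by simp [hf], ?_, ?_⟩
  · intro z z' hz hz'
    simp only [one_mul] at hz hz' ⊢
    have h1 := hfd z hz
    have h2 := hfd z' hz'
    have h3 := abs_lt.1 (hk2 (f z) (hfs z) (f z') (hfs z'))
    have h4 := abs_le.1 (abs_dist_sub_le z (x (f z) k) z')
    have h5 := abs_le.1 (abs_dist_sub_le z' (x (f z') k) (x (f z) k))
    rw [dist_comm z' (x (f z) k), dist_comm (x (f z') k) (x (f z) k)] at h5
    rw [dist_comm (x (f z) k) z'] at h5
    rw [dist_comm (x (f z) k) z'] at h4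
    rw [abs_le]
    constructor <;> linarith [h3.1, h3.2, h4.1, h4.2, h5.1, h5.2]
  · intro y hy
    simp only [one_mul]
    obtain ⟨w, hw, hyw⟩ := hs₀ y (by linarith)
    have hw' : w ∈ s := Finset.mem_insert_of_mem hw
    have h1 := abs_lt.1 (hk2 (UL.base q) hb w hw')
    rw [hxb] at h1
    have h2 : dist (UL.base q) w ≤ dist (UL.base q) y + dist y w := dist_triangle _ _ _
    have h3 : dist (q k) (x w k) < R := by linarith [h1.2]
    refine ⟨x w k, h3, ?_⟩
    have h4 := hfd _ h3
    have h5 := abs_lt.1 (hk2 (f (x w k)) (hfs _) w hw')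
    have h6 : dist (f (x w k)) y ≤ dist (f (x w k)) w + dist y w := dist_triangle_right _ _ _
    rw [dist_comm (x w k)] at h4
    linarith [h5.1]

/-- approximation to an isometric model -/
theorem Pack.approx_of_isometry (h : Pack q) {Y : Type*} [MetricSpace Y] (e : UL q ≃ᵢ Y) {R ε : ℝ}
    (hR : 0 < R) (hε : 0 < ε) : ∀ᶠ k in om, IsScaledApprox 1 (q k) (e (UL.base q)) R ε := by
  filter_upwards [h.approx hR hε] with k hk
  obtain ⟨f, hf0, hf1, hf2⟩ := hk
  refine ⟨fun z => e (f z), congrArg e hf0, ?_, ?_⟩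
  · intro z z' hz hz'
    rw [e.dist_eq]
    exact hf1 z z' hz hz'
  · intro y hy
    obtain ⟨z, hz1, hz2⟩ := hf2 (e.symm y) (by
      rw [← e.dist_eq, e.apply_symm_apply]
      exact hy)
    refine ⟨z, hz1, ?_⟩
    rwa [← e.dist_eq, e.apply_symm_apply] at hz2

end Crest.Agent.R249.Ul174
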