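import Crest.Agent.R249.Fl2_174
import Crest.Agent.R249.Ul2_174

/-!
# R249 (helper174), leaf D2-FLAT (3): locally Euclidean + Euclidean packing growth ⇒ Euclidean

`flat_isometric` : `Y` proper, with intermediate points, locally isometric to `ℝⁿ`, with at least
`c Rⁿ` points at mutual distances `≥ ρ₀` in every large ball about `y₀` : then `Y` is isometric to
`ℝⁿ`.
-/

set_option autoImplicit false
noncomputable section
open Set Filter Topology Metric MeasureTheory
open scoped ENNReal

namespace Crest.Agent.R249.Fl174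

open Crest.Agent.R249.Ul174

variable {n : ℕ} {Y : Type*} [MetricSpace Y]

/-- a globally defined local isometry is an isometry on the full size of the charts -/
theorem LI.ext_of_cht (hY : ∀ z : Y, ∃ ρ > 0, Cht n z ρ) {D : E n → Y} (hD : LI univ D)
    {x : E n} {r : ℝ} (hr : 0 < r) (hc : Cht n (D x) r) : Ext D x r := by
  obtain ⟨G, hG1, hG2⟩ := exists_ext hr (hD.isoAt (mem_univ x)) hc
  refine hG1.congr hr fun v hv => ?_
  exact (eq_on_convex hY (convex_ball x r) (fun y hy => hG1.isoAt hy)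
    (fun y _ => hD.isoAt (mem_univ y)) (mem_ball_self hr) hG2 hv).symm

/-- **lifting**: the developing map attains distances -/
theorem LI.lift [ProperSpace Y] (hY : ∀ z : Y, ∃ ρ > 0, Cht n z ρ) (hM : Mid Y) {D : E n → Y}
    (hD : LI univ D) (a : E n) (y : Y) : ∃ x, D x = y ∧ dist a x ≤ dist (D a) y := by
  set K : Set Y := closedBall (D a) (dist (D a) y) with hK
  obtain ⟨r, hr, hu⟩ := exists_uniform hY (isCompact_closedBall (D a) (dist (D a) y))
  have hstep : ∀ m : ℕ, ∀ a' : E n, dist (D a') y ≤ m * (r / 2) →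
      dist (D a) (D a') + dist (D a') y ≤ dist (D a) y →
      ∃ x, D x = y ∧ dist a' x ≤ dist (D a') y := by
    intro m
    induction m with
    | zero =>
      intro a' h _
      refine ⟨a', ?_, ?_⟩
      · apply dist_le_zero.1
        simpa using h
      · rw [dist_self]; exact dist_nonneg
    | succ m ih =>
      intro a' h h'
      by_cases hsm : dist (D a') y < r
      · have hcht : Cht n (D a') r := hu _ (by
          rw [mem_closedBall, dist_comm]
          linarith [dist_nonneg (x := D a') (y := y)])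
        have hE := hD.ext_of_cht hY hr hcht
        obtain ⟨x, hx, rfl⟩ := hE.surj (show y ∈ ball (D a') r by rwa [mem_ball, dist_comm])
        refine ⟨x, rfl, ?_⟩
        rw [hE.isom a' (mem_ball_self hr) x hx]
      · push Not at hsm
        set R := dist (D a') y with hR
        have hR0 : 0 < R := lt_of_lt_of_le hr hsm
        obtain ⟨c, hc1, hc2⟩ := hM (D a') y ((r / 2) / R)
          ⟨by positivity, by rw [div_le_one hR0]; linarith⟩
        rw [← hR] at hc1 hc2
        have hc1' : dist (D a') c = r / 2 := by rw [hc1]; field_simp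
        have hc2' : dist c y = R - r / 2 := by rw [hc2]; field_simp
        have hcht : Cht n (D a') r := hu _ (by
          rw [mem_closedBall, dist_comm]
          linarith)
        have hE := hD.ext_of_cht hY hr hcht
        obtain ⟨b, hb, hbc⟩ := hE.surj (show c ∈ ball (D a') r by
          rw [mem_ball, dist_comm, hc1']; linarith)
        have hab : dist a' b = r / 2 := by
          rw [← hE.isom a' (mem_ball_self hr) b hb, hbc, hc1']
        obtain ⟨x, hx1, hx2⟩ := ih b (by
          rw [hbc, hc2']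
          push_cast at h
          linarith) (by
          rw [hbc, hc2']
          have := dist_triangle (D a) (D a') c
          linarith)
        refine ⟨x, hx1, ?_⟩
        rw [hbc, hc2'] at hx2
        have := dist_triangle a' b x
        linarith
  obtain ⟨m, hm⟩ := exists_nat_ge (dist (D a) y / (r / 2))
  rw [div_le_iff₀ (by positivity)] at hm
  exact hstep m a hm (by rw [dist_self, zero_add])

theorem LI.lip {D : E n → Y} (hD : LI univ D) (a b : E n) : dist (D a) (D b) ≤ dist a b :=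
  lip_of_isoAt convex_univ (fun x _ => hD.isoAt (mem_univ x)) (mem_univ a) (mem_univ b)

/-- an injective developing map is an isometry -/
theorem LI.isometry_of_injective [ProperSpace Y] (hY : ∀ z : Y, ∃ ρ > 0, Cht n z ρ) (hM : Mid Y)
    {D : E n → Y} (hD : LI univ D) (hi : Function.Injective D) :
    ∃ e : E n ≃ᵢ Y, ∀ x, e x = D x := by
  have hiso : Isometry D := by
    refine Isometry.of_dist_eq fun a b => le_antisymm (hD.lip a b) ?_
    obtain ⟨x, hx, hxd⟩ := hD.lift hY hM a (D b)
    rw [← hi hx]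
    rw [hi hx] at hxd ⊢
    exact hxd
  have hs : Function.Surjective D := fun y => by
    obtain ⟨x, hx, -⟩ := hD.lift hY hM 0 y
    exact ⟨x, hx⟩
  exact ⟨IsometryEquiv.mk' D (Function.surjInv hs) (Function.surjInv_eq hs) hiso, fun x => rfl⟩

/-- **deck transformations**: if `D a = D b` there is a rigid motion `v ↦ b + L (v - a)` with
`D ∘ g = D`. -/
theorem LI.deck (hY : ∀ z : Y, ∃ ρ > 0, Cht n z ρ) {D : E n → Y} (hD : LI univ D) {a b : E n}
    (hab : D a = D b) : ∃ L : E n ≃ₗᵢ[ℝ] E n, ∀ v, D (b + L (v - a)) = D v := by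
  obtain ⟨ρ, hρ, φ, hφ⟩ := hY (D a)
  obtain ⟨r₁, hr₁, -, hE₁⟩ := hD a (mem_univ a)
  obtain ⟨r₂, hr₂, -, hE₂⟩ := hD b (mem_univ b)
  set r := min (min r₁ r₂) ρ with hr
  have hr0 : 0 < r := lt_min (lt_min hr₁ hr₂) hρ
  have hE₁' := hE₁.mono (show r ≤ r₁ from (min_le_left _ _).trans (min_le_left _ _))
  have hE₂' := hE₂.mono (show r ≤ r₂ from (min_le_left _ _).trans (min_le_right _ _))
  obtain ⟨L₁, hL₁⟩ := factor hE₁'.isom hr0 (min_le_right _ _) hφ
  obtain ⟨L₂, hL₂⟩ := factor (φ := φ) hE₂'.isom hr0 (min_le_right _ _) (by rw [← hab]; exact hφ)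
  set L : E n ≃ₗᵢ[ℝ] E n := L₁.trans L₂.symm with hL
  refine ⟨L, ?_⟩
  set g : E n → E n := fun v => b + L (v - a) with hg
  have hgd : ∀ v w, dist (g v) (g w) = dist v w := by
    intro v w
    simp only [hg]
    rw [dist_add_left, L.dist_map, dist_sub_right]
  have hiso : ∀ x ∈ (univ : Set (E n)), IsoAt (fun v => D (g v)) x := by
    intro x _
    obtain ⟨s, hs, hi⟩ := hD.isoAt (mem_univ (g x))
    refine ⟨s, hs, fun v hv w hw => ?_⟩
    rw [hi _ (by rw [mem_ball, hgd]; exact hv) _ (by rw [mem_ball, hgd]; exact hw), hgd]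
  have h0 : (fun v => D (g v)) =ᶠ[𝓝 a] D := by
    filter_upwards [ball_mem_nhds a hr0] with v hv
    have h1 : g v ∈ ball b r := by
      have : dist (g v) (g a) < r := by rw [hgd]; exact hv
      simpa [hg] using this
    rw [hL₂ _ h1, hL₁ v hv]
    simp [hg, hL]
  intro v
  exact eq_on_convex hY convex_univ hiso (fun x _ => hD.isoAt (mem_univ x)) (mem_univ a) h0
    (mem_univ v)

/-- Euclidean packing bound -/
theorem card_le_euclidean {p : E n} {R ρ : ℝ} (hρ : 0 < ρ) (hR : 0 ≤ R) (s : Finset (E n))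
    (hs : ∀ x ∈ s, dist p x ≤ R) (hsep : Sep ρ s) :
    (s.card : ℝ) ≤ ((2 * R + ρ) / ρ) ^ n := by
  have hdisj : (s : Set (E n)).PairwiseDisjoint fun a => ball a (ρ / 2) := by
    intro a ha b hb hab
    apply ball_disjoint_ball
    have := hsep a ha b hb hab
    linarith
  have hsub : ⋃ a ∈ s, ball a (ρ / 2) ⊆ ball p (R + ρ / 2) := by
    intro z hz
    simp only [mem_iUnion, mem_ball, exists_prop] at hz ⊢
    obtain ⟨a, ha, hz⟩ := hz
    have h2 := hs a ha
    have h3 := dist_triangle z a p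
    rw [dist_comm a p] at h3
    linarith
  have hsum : ∑ a ∈ s, volume (ball a (ρ / 2)) ≤ volume (ball p (R + ρ / 2)) := by
    rw [← measure_biUnion_finset hdisj fun a _ => measurableSet_ball]
    exact measure_mono hsub
  have hv : ∀ (a : E n) (r : ℝ), 0 < r → volume (ball a r) =
      ENNReal.ofReal (r ^ n) * volume (ball (0 : E n) 1) := by
    intro a r hr
    have := Measure.addHaar_ball_of_pos (volume : Measure (E n)) a hr
    simpa using this
  have h1 : (s.card : ℝ≥0∞) * (ENNReal.ofReal ((ρ / 2) ^ n) * volume (ball (0 : E n) 1)) ≤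
      ENNReal.ofReal ((R + ρ / 2) ^ n) * volume (ball (0 : E n) 1) := by
    rw [← hv p (R + ρ / 2) (by positivity)]
    refine le_trans (le_of_eq ?_) hsum
    rw [Finset.sum_congr rfl fun a _ => hv a (ρ / 2) (by positivity), Finset.sum_const,
      nsmul_eq_mul]
  rw [← mul_assoc] at h1
  have h2 := (ENNReal.mul_le_mul_iff_left (measure_ball_pos volume (0 : E n) one_pos).ne'
    measure_ball_lt_top.ne).1 h1
  have h3 : (s.card : ℝ) * (ρ / 2) ^ n ≤ (R + ρ / 2) ^ n := by
    rw [← ENNReal.ofReal_natCast, ← ENNReal.ofReal_mul (by positivity)] at h2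
    exact (ENNReal.ofReal_le_ofReal_iff (by positivity)).1 h2
  have h4 : ((2 * R + ρ) / ρ) ^ n = (R + ρ / 2) ^ n / (ρ / 2) ^ n := by
    rw [← div_pow]
    congr 1
    field_simp
  rw [h4, le_div_iff₀ (by positivity)]
  exact h3

/-- Euclidean packing growth at `y₀` -/
def Growth (n : ℕ) (y₀ : Y) : Prop :=
  ∃ c ρ₀ : ℝ, 0 < c ∧ 0 < ρ₀ ∧ ∃ R₁ : ℝ, ∀ R : ℝ, R₁ ≤ R → ∃ s : Finset Y,
    (∀ y ∈ s, dist y₀ y ≤ R) ∧ Sep ρ₀ s ∧ c * R ^ n ≤ s.card

/-- the developing map of a space of Euclidean packing growth is injective -/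
theorem LI.injective_of_growth [ProperSpace Y] (hY : ∀ z : Y, ∃ ρ > 0, Cht n z ρ) (hM : Mid Y)
    {D : E n → Y} (hD : LI univ D) {y₀ : Y} (hG : Growth n y₀) : Function.Injective D := by
  classical
  intro a b hab
  by_contra hne
  obtain ⟨L, hL⟩ := hD.deck hY hab
  set c : E n := b - L a with hc
  have hg : ∀ v, b + L (v - a) = L v + c := by
    intro v
    rw [hc, map_sub]
    abel
  have hDg : ∀ v, D (L v + c) = D v := fun v => by rw [← hg]; exact hL v
  -- the fixed part of the translation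
  set S : Submodule ℝ (E n) := LinearMap.range
    (LinearMap.id - (L.toLinearEquiv : E n →ₗ[ℝ] E n)) with hS
  obtain ⟨c₁, hc₁, c₀, hc₀, hcc⟩ := Submodule.exists_add_mem_mem_orthogonal (K := S) c
  obtain ⟨p, hp⟩ := hc₁
  have hp' : p - L p = c₁ := by simpa using hp
  have hc₀L : L c₀ = c₀ := by
    have h1 : inner ℝ (c₀ - L c₀) c₀ = 0 := by
      refine hc₀ (c₀ - L c₀) ⟨c₀, by simp⟩
    have h2 : ‖L c₀ - c₀‖ ^ 2 = 0 := by
      rw [@norm_sub_sq_real, L.norm_map]
      rw [inner_sub_left, real_inner_self_eq_norm_sq] at h1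
      linarith
    have h3 : ‖L c₀ - c₀‖ = 0 := by simpa using h2
    exact sub_eq_zero.1 (norm_eq_zero.1 h3)
  -- the conjugated motion
  have hgp : ∀ x : E n, L (p + x) + c = p + (L x + c₀) := by
    intro x
    rw [map_add, hcc, ← hp']
    abel
  have hDp : ∀ x : E n, D (p + (L x + c₀)) = D (p + x) := by
    intro x
    rw [← hgp, hDg]
  have hc₀0 : c₀ ≠ 0 := by
    intro h0
    -- `p` is a fixed point: `D` is injective near `p`, so the motion is the identity
    obtain ⟨r, hr, hi⟩ := hD.isoAt (mem_univ p)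
    have hLid : ∀ x : E n, L x = x := by
      have h2 : ∀ x : E n, ‖x‖ < r → L x = x := by
        intro x hx
        have h3 := hDp x
        rw [h0, add_zero] at h3
        have h4 := hi (p + L x) (by rw [mem_ball, dist_eq_norm, add_sub_cancel_left, L.norm_map]; exact hx)
          (p + x) (by rw [mem_ball, dist_eq_norm, add_sub_cancel_left]; exact hx)
        rw [h3, dist_self] at h4
        have h5 := dist_eq_zero.1 h4.symm
        exact add_left_cancel h5
      intro x
      set t : ℝ := r / (2 * (‖x‖ + 1)) with ht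
      have ht0 : 0 < t := by positivity
      have h3 := h2 (t • x) (by
        rw [norm_smul, Real.norm_eq_abs, abs_of_pos ht0, ht, div_mul_eq_mul_div,
          div_lt_iff₀ (by positivity)]
        nlinarith [norm_nonneg x])
      rw [map_smul] at h3
      exact smul_right_injective _ ht0.ne' h3
    have h6 : c = 0 := by
      rw [hcc, h0, ← hp', hLid p]
      simp
    apply hne
    rw [hc, hLid a, sub_eq_zero] at h6
    exact h6.symm
  have hc₀n : 0 < ‖c₀‖ := norm_pos_iff.2 hc₀0
  -- powers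
  have hpow : ∀ (k : ℕ) (x : E n), ∃ x' : E n, ‖x'‖ ≤ ‖x‖ + k * ‖c₀‖ ∧
      inner ℝ x' c₀ = inner ℝ x c₀ + k * ‖c₀‖ ^ 2 ∧ D (p + x') = D (p + x) := by
    intro k
    induction k with
    | zero => intro x; exact ⟨x, by simp, by simp, rfl⟩
    | succ k ih =>
      intro x
      obtain ⟨x', h1, h2, h3⟩ := ih x
      refine ⟨L x' + c₀, ?_, ?_, ?_⟩
      · have := norm_add_le (L x') c₀
        rw [L.norm_map] at this
        push_cast
        linarith
      · rw [inner_add_left, real_inner_self_eq_norm_sq]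
        have h4 : inner ℝ (L x') c₀ = inner ℝ x' c₀ := by
          conv_lhs => rw [← hc₀L]
          exact L.inner_map_map x' c₀
        rw [h4, h2]
        push_cast
        ring
      · rw [hDp, h3]
  choose P hP1 hP2 hP3 using hpow
  -- the growth
  obtain ⟨cg, ρ₀, hcg, hρ₀, R₁, hgr⟩ := hG
  obtain ⟨m, hm⟩ := exists_nat_gt (ρ₀ / ‖c₀‖)
  rw [div_lt_iff₀ hc₀n] at hm
  have hm0 : (0:ℝ) < m := by
    by_contra h
    have : (m:ℝ) = 0 := le_antisymm (not_lt.1 h) (by positivity)
    rw [this, zero_mul] at hm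
    linarith
  set δ : ℝ := m * ‖c₀‖ with hδ
  have hδ0 : 0 < δ := by positivity
  set d₁ : ℝ := dist (D p) y₀ with hd₁
  -- key inequality
  have hkey : ∀ R : ℝ, R₁ ≤ R → 0 ≤ R → ∀ K : ℕ, (K : ℝ) * δ ≤ R →
      (K : ℝ) * (cg * R ^ n) ≤ ((2 * (2 * R + d₁) + ρ₀) / ρ₀) ^ n := by
    intro R hR hR0 K hK
    obtain ⟨s, hs1, hs2, hs3⟩ := hgr R hR
    have hlift : ∀ y : Y, ∃ x : E n, D (p + x) = y ∧ ‖x‖ ≤ dist (D p) y := by
      intro y
      obtain ⟨x, hx1, hx2⟩ := hD.lift hY hM p y
      refine ⟨x - p, by rwa [add_sub_cancel], ?_⟩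
      rwa [dist_comm, dist_eq_norm] at hx2
    choose X hX1 hX2 using hlift
    set f : Y × ℕ → E n := fun z => p + P (m * z.2) (X z.1) with hf
    have hDf : ∀ z, D (f z) = z.1 := by
      intro z
      simp only [hf]
      rw [hP3, hX1]
    set T : Finset (Y × ℕ) := s ×ˢ Finset.range K with hT
    have hsepf : ∀ z ∈ T, ∀ w ∈ T, z ≠ w → ρ₀ ≤ dist (f z) (f w) := by
      intro z hz w hw hzw
      rw [hT, Finset.mem_product] at hz hw
      by_cases h1 : z.1 = w.1
      · have h2 : z.2 ≠ w.2 := fun h2 => hzw (Prod.ext h1 h2)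
        have h3 : inner ℝ (f z - f w) c₀ = (m : ℝ) * ((z.2 : ℝ) - w.2) * ‖c₀‖ ^ 2 := by
          simp only [hf, add_sub_add_left_eq_sub]
          rw [inner_sub_left, hP2, hP2, h1]
          push_cast
          ring
        have h4 := abs_real_inner_le_norm (f z - f w) c₀
        rw [h3, abs_mul, abs_mul, abs_of_pos hm0, abs_of_pos (by positivity : 0 < ‖c₀‖ ^ 2)] at h4
        have h5 : (1 : ℝ) ≤ |(z.2 : ℝ) - w.2| := by
          have h6 : (1 : ℤ) ≤ |(z.2 : ℤ) - w.2| := by
            apply Int.one_le_abs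
            intro h7
            apply h2
            omega
          exact_mod_cast h6
        rw [dist_eq_norm]
        have h6 : (m : ℝ) * ‖c₀‖ ^ 2 ≤ ‖f z - f w‖ * ‖c₀‖ := by
          calc (m : ℝ) * ‖c₀‖ ^ 2 = m * 1 * ‖c₀‖ ^ 2 := by ring
            _ ≤ m * |(z.2 : ℝ) - w.2| * ‖c₀‖ ^ 2 := by gcongr
            _ ≤ _ := h4
        have h7 : (m : ℝ) * ‖c₀‖ ≤ ‖f z - f w‖ := by
          rw [pow_two, ← mul_assoc] at h6
          exact le_of_mul_le_mul_right h6 hc₀n
        linarith
      · have h2 := hD.lip (f z) (f w)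
        rw [hDf, hDf] at h2
        exact (hs2 _ hz.1 _ hw.1 h1).trans h2
    have hinj : Set.InjOn f (T : Set (Y × ℕ)) := by
      intro z hz w hw hzw
      by_contra h
      have := hsepf z hz w hw h
      rw [hzw, dist_self] at this
      linarith
    have hcard : (T.image f).card = T.card := Finset.card_image_of_injOn hinj
    have hTc : T.card = s.card * K := by
      rw [hT, Finset.card_product, Finset.card_range]
    have hball : ∀ x ∈ T.image f, dist p x ≤ 2 * R + d₁ := by
      intro x hx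
      obtain ⟨z, hz, rfl⟩ := Finset.mem_image.1 hx
      rw [hT, Finset.mem_product, Finset.mem_range] at hz
      simp only [hf]
      rw [dist_eq_norm, sub_add_cancel_left, norm_neg]
      have h1 := hP1 (m * z.2) (X z.1)
      have h2 := hX2 z.1
      have h3 := hs1 _ hz.1
      have h4 := dist_triangle (D p) y₀ z.1
      have h5 : ((m * z.2 : ℕ) : ℝ) * ‖c₀‖ ≤ K * δ := by
        have h6 : (z.2 : ℝ) ≤ K := by exact_mod_cast hz.2.le
        push_cast
        rw [hδ]
        calc (m : ℝ) * z.2 * ‖c₀‖ = z.2 * (m * ‖c₀‖) := by ring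
          _ ≤ K * (m * ‖c₀‖) := by gcongr
      linarith
    have hsep' : Sep ρ₀ (T.image f) := by
      intro x hx y hy hxy
      obtain ⟨z, hz, rfl⟩ := Finset.mem_image.1 hx
      obtain ⟨w, hw, rfl⟩ := Finset.mem_image.1 hy
      exact hsepf z hz w hw fun h => hxy (by rw [h])
    have h1 := card_le_euclidean hρ₀ (by positivity) (T.image f) hball hsep'
    rw [hcard, hTc] at h1
    refine le_trans ?_ h1
    push_cast
    rw [mul_comm]
    gcongr
  -- conclusion
  set C : ℝ := ((4 + 2 * d₁ + ρ₀) / ρ₀) ^ n with hC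
  have hC0 : 0 < C := by positivity
  obtain ⟨K, hK⟩ := exists_nat_gt (C / cg)
  rw [div_lt_iff₀ hcg] at hK
  set R : ℝ := max (max R₁ (K * δ)) 1 with hR
  have hR1 : 1 ≤ R := le_max_right _ _
  have h1 := hkey R ((le_max_left _ _).trans (le_max_left _ _)) (by linarith) K
    ((le_max_right _ _).trans (le_max_left _ _))
  have h2 : ((2 * (2 * R + d₁) + ρ₀) / ρ₀) ^ n ≤ C * R ^ n := by
    rw [hC, ← mul_pow]
    have h3 : (2 * (2 * R + d₁) + ρ₀) / ρ₀ ≤ (4 + 2 * d₁ + ρ₀) / ρ₀ * R := by
      rw [div_mul_eq_mul_div]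
      gcongr
      have h4 : 0 ≤ d₁ := dist_nonneg
      nlinarith
    gcongr
  have h3 : (K : ℝ) * cg * R ^ n ≤ C * R ^ n := by
    rw [mul_assoc]
    exact h1.trans h2
  have h4 := le_of_mul_le_mul_right h3 (by positivity)
  linarith

/-- **D2b**: a proper locally Euclidean length space of Euclidean packing growth is Euclidean. -/
theorem flat_isometric [ProperSpace Y] (hY : ∀ z : Y, ∃ ρ > 0, Cht n z ρ) (hM : Mid Y) (y₀ : Y)
    (hG : Growth n y₀) : ∃ e : Y ≃ᵢ EuclideanSpace ℝ (Fin n), e y₀ = 0 := by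
  obtain ⟨D, hD, hD0⟩ := exists_developing hY y₀
  obtain ⟨e, he⟩ := hD.isometry_of_injective hY hM (hD.injective_of_growth hY hM hG)
  refine ⟨e.symm, ?_⟩
  rw [IsometryEquiv.symm_apply_eq, he, hD0]

end Crest.Agent.R249.Fl174
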