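import Crest.Agent.R247.Fin_550
import Crest.Agent.R247.Kt13_328

/-!
# R249 (helper274): near isometries from volume pinching, unconditional form of baseline results

* `glue40 n : GluM923.GlueDataT 40 n`
* `nearIso40 n : GluM923.NearIso 40 n` : for every `η > 0` there are `ρ, R₀, δ` such that volume
  pinching `≥ 1 - δ` at all points of `ball q R₀` and all radii `≤ 40`, with `Ric ≥ -δ`, gives a
  map `F` with `|c * dist (F x) (F z) - dist x z| ≤ η * dist x z` on `ball q (4 ρ)`.
* `eff2T40 n : GluM923.EFF2T 40 n`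
-/

set_option autoImplicit false

noncomputable section

namespace Crest.Agent.R249.Near_274

open Crest.Agent.R247

universe u

theorem glue40 (n : ℕ) : GluM923.GlueDataT.{u} 40 n :=
  Last550.glue_of_pkP n fun hn => Fin550.pkP_of hn (Kt328.d2HP n) (Kt328.d2gP n)
    (Kt328.d2qP n) (Kt328.d2kP n) (Kt328.d2n2P n) (Kt328.d2n1P n)

theorem nearIso40 (n : ℕ) : GluM923.NearIso.{u} 40 n :=
  GluM923.nearIso_of_glueDataT (by norm_num) (Bgr546.bgr_all n) (glue40 n)

theorem eff2T40 (n : ℕ) : GluM923.EFF2T.{u} 40 n :=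
  GluM923.eff2T_of_glueDataT (by norm_num) (Bgr546.bgr_all n) (glue40 n)

theorem vc (n : ℕ) : Asm951.VC.{u} n := Top546.vc_all n

theorem bgr (n : ℕ) : Asm951.BGr.{u} n := Bgr546.bgr_all n

end Crest.Agent.R249.Near_274
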