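import Crest.Agent.R249.Dens_274
import Crest.Agent.R249.Near_274
import Crest.Agent.R247.Asm3_951

/-!
# R249, leaf D3-LIM/L-VM (helper274): almost Euclidean volume of a smaller ball from one
Gromov–Hausdorff approximation to `ℝⁿ`

`vol_of_near n (e) (c)` : there is `t₀ > 0` such that for every `0 < t ≤ t₀` there is `δ > 0` such
that on every complete connected `M` with `Ric ≥ -κ`, `κ s² ≤ δ`, `c · ω_n s^n ≤ μ (ball x s)` and a
map `G : M → ℝⁿ` with `|dist (G y) (G y') - dist y y'| ≤ δ s` on `ball x s` and every point of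
`ball (G x) (s / 2)` within `δ s` of `G (ball x s)` :
`(1 - e) ω_n (t s)^n ≤ μ (ball x (t s))`.
-/

set_option autoImplicit false
set_option maxSynthPendingDepth 3

noncomputable section
open Set Filter Topology MeasureTheory Metric Bundle
open scoped ContDiff Manifold ENNReal NNReal
open Crest.GeometryTopology.CoordMetric Crest.GeometryTopology.ChartCurvature
  Crest.GeometryTopology.PointedLimit
open Crest.Agent.R247.Scal386

namespace Crest.Agent.R249.Vm_274

universe u

section sc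
variable {M : Type u} (r : {r : ℝ // 0 < r}) [MetricSpace M]

theorem lip_toSc : LipschitzWith (r.1⁻¹).toNNReal (toSc r : M → Sc r M) := by
  have hr := r.2
  refine LipschitzWith.of_dist_le_mul fun x y => ?_
  rw [Real.coe_toNNReal _ (inv_nonneg.2 hr.le), dist_toSc]

variable [MeasurableSpace M] [BorelSpace M]

/-- scaling of the volume (the inequality complementary to `Scal386.muHE_sc`). -/
theorem muHE_sc_le (n : ℕ) (A : Set M) :
    ENNReal.ofReal (r.1 ^ n) *
      Measure.euclideanHausdorffMeasure n (ofSc r ⁻¹' A : Set (Sc r M)) ≤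
      Measure.euclideanHausdorffMeasure n A := by
  have hr := r.2
  have h1 := (lip_toSc (M := M) r).hausdorffMeasure_image_le (d := n) (Nat.cast_nonneg n) A
  have h2 : (toSc r '' A : Set (Sc r M)) = ofSc r ⁻¹' A := by
    ext z
    constructor
    · rintro ⟨y, hy, rfl⟩
      exact hy
    · intro hz
      exact ⟨ofSc r z, hz, rfl⟩
  rw [h2] at h1
  rw [Measure.euclideanHausdorffMeasure_def, Measure.euclideanHausdorffMeasure_def,
    Measure.smul_apply, Measure.smul_apply]
  have h3 : (((r.1⁻¹).toNNReal : ℝ≥0∞)) ^ (n : ℝ) = ENNReal.ofReal ((r.1 ^ n)⁻¹) := by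
    rw [ENNReal.rpow_natCast, ← inv_pow, ENNReal.ofReal_pow (inv_nonneg.2 r.2.le)]
    rfl
  rw [h3] at h1
  have h4 : ENNReal.ofReal (r.1 ^ n) * ENNReal.ofReal ((r.1 ^ n)⁻¹) = 1 := by
    rw [← ENNReal.ofReal_mul (by positivity), mul_inv_cancel₀ (by positivity),
      ENNReal.ofReal_one]
  rw [ENNReal.smul_def, ENNReal.smul_def, smul_eq_mul, smul_eq_mul, mul_left_comm]
  refine mul_le_mul_right ?_ _
  calc ENNReal.ofReal (r.1 ^ n) * Measure.hausdorffMeasure (n : ℝ) (ofSc r ⁻¹' A : Set (Sc r M))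
      ≤ ENNReal.ofReal (r.1 ^ n) * (ENNReal.ofReal ((r.1 ^ n)⁻¹) *
        Measure.hausdorffMeasure (n : ℝ) A) := mul_le_mul_right h1 _
    _ = Measure.hausdorffMeasure (n : ℝ) A := by rw [← mul_assoc, h4, one_mul]

/-- scaling of the volume. -/
theorem muHE_sc_eq (n : ℕ) (A : Set M) :
    ENNReal.ofReal (r.1 ^ n) *
      Measure.euclideanHausdorffMeasure n (ofSc r ⁻¹' A : Set (Sc r M)) =
      Measure.euclideanHausdorffMeasure n A :=
  le_antisymm (muHE_sc_le r n A) (muHE_sc r n A)

end sc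

/-- **L-VM.** -/
theorem vol_of_near (n : ℕ) {e c : ℝ} (he : 0 < e) (hc : 0 < c) :
    ∃ t₀ : ℝ, 0 < t₀ ∧ t₀ ≤ 1 ∧ ∀ t : ℝ, 0 < t → t ≤ t₀ → ∃ δ : ℝ, 0 < δ ∧ δ ≤ 1 ∧
    ∀ (M : Type u) [MetricSpace M] [CompleteSpace M] [ConnectedSpace M]
      [ChartedSpace (EuclideanSpace ℝ (Fin n)) M]
      [IsManifold 𝓘(ℝ, EuclideanSpace ℝ (Fin n)) ∞ M]
      [RiemannianBundle (fun x : M => TangentSpace 𝓘(ℝ, EuclideanSpace ℝ (Fin n)) x)]
      [IsContMDiffRiemannianBundle 𝓘(ℝ, EuclideanSpace ℝ (Fin n)) ∞ (EuclideanSpace ℝ (Fin n))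
        (fun x : M => TangentSpace 𝓘(ℝ, EuclideanSpace ℝ (Fin n)) x)]
      [IsRiemannianManifold 𝓘(ℝ, EuclideanSpace ℝ (Fin n)) M]
      [MeasurableSpace M] [BorelSpace M] (x : M) (s κ : ℝ) (G : M → EuclideanSpace ℝ (Fin n)),
      0 < s → 0 ≤ κ → κ * s ^ 2 ≤ δ → HasRicciLowerBound n M (-κ) →
      (∀ y ∈ ball x s, ∀ y' ∈ ball x s, |dist (G y) (G y') - dist y y'| ≤ δ * s) →
      (∀ w ∈ ball (G x) (s / 2), ∃ y ∈ ball x s, dist (G y) w ≤ δ * s) →
      ENNReal.ofReal c * volume (ball (0 : EuclideanSpace ℝ (Fin n)) s) ≤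
        Measure.euclideanHausdorffMeasure n (ball x s) →
      ENNReal.ofReal (1 - e) * volume (ball (0 : EuclideanSpace ℝ (Fin n)) (t * s)) ≤
        Measure.euclideanHausdorffMeasure n (ball x (t * s)) := by
  set w₁ : ℝ := (volume (ball (0 : EuclideanSpace ℝ (Fin n)) 1)).toReal with hw₁
  have hw₁0 : 0 < w₁ := ENNReal.toReal_pos Dens_274.vol_ball_one_ne_zero
    Dens_274.vol_ball_one_ne_top
  have hw₁e : ENNReal.ofReal w₁ = volume (ball (0 : EuclideanSpace ℝ (Fin n)) 1) :=
    ENNReal.ofReal_toReal Dens_274.vol_ball_one_ne_top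
  obtain ⟨ε, hε, hVC⟩ := Near_274.vc.{u} n (c / 2 * w₁) e (by positivity) he
  refine ⟨min 1 (ε / 2), lt_min one_pos (by positivity), min_le_left _ _, fun t ht htt => ?_⟩
  have ht1 : t ≤ 1 := htt.trans (min_le_left _ _)
  have htε : t ≤ ε / 2 := htt.trans (min_le_right _ _)
  refine ⟨min 1 (min ε (ε * t / 2)), lt_min one_pos (lt_min hε (by positivity)),
    min_le_left _ _, ?_⟩
  intro M _ _ _ _ _ _ _ _ _ _ x s κ G hs hκ hκs hRic hG hGs hv
  set δ : ℝ := min 1 (min ε (ε * t / 2)) with hδ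
  have hδ0 : 0 < δ := lt_min one_pos (lt_min hε (by positivity))
  have hδ1 : δ ≤ 1 := min_le_left _ _
  have hδ2 : δ ≤ ε := (min_le_right _ _).trans (min_le_left _ _)
  have hδ3 : δ ≤ ε * t / 2 := (min_le_right _ _).trans (min_le_right _ _)
  have hts : 0 < t * s := by positivity
  have htss : t * s ≤ s := by nlinarith
  set r : {r : ℝ // 0 < r} := ⟨t * s, hts⟩ with hr
  have hr1 : r.1 = t * s := rfl
  -- Ricci curvature of the rescaled manifold
  have hRic' : HasRicciLowerBound n (Sc r M) (-ε) := by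
    refine ricciLB_mono (ricciLB_sc r hRic) ?_
    rw [hr1]
    have h1 : κ * (t * s) ^ 2 ≤ ε := by
      calc κ * (t * s) ^ 2 = (κ * s ^ 2) * t ^ 2 := by ring
        _ ≤ δ * 1 := by
            refine mul_le_mul hκs ?_ (by positivity) hδ0.le
            nlinarith
        _ ≤ ε := by linarith
    linarith
  -- the approximation
  have happ : IsScaledApprox 1 (toSc r x) (0 : EuclideanSpace ℝ (Fin n)) (1 / ε) ε := by
    have hball : ∀ z : Sc r M, 1 * dist (toSc r x) z < 1 / ε → ofSc r z ∈ ball x s := by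
      intro z hz
      rw [one_mul, show z = toSc r (ofSc r z) from rfl, dist_toSc, hr1,
        inv_mul_lt_iff₀ hts] at hz
      rw [mem_ball, dist_comm]
      refine hz.trans_le ?_
      rw [mul_one_div, div_le_iff₀ hε]
      nlinarith
    have hdiv : δ * s / (t * s) ≤ ε / 2 := by
      rw [div_le_iff₀ hts]
      nlinarith
    refine ⟨fun z => (t * s)⁻¹ • (G (ofSc r z) - G x), ?_, ?_, ?_⟩
    · show (t * s)⁻¹ • (G x - G x) = 0
      rw [sub_self, smul_zero]
    · intro z z' hz hz'
      have h1 := hG _ (hball z hz) _ (hball z' hz')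
      have h2 : dist ((t * s)⁻¹ • (G (ofSc r z) - G x)) ((t * s)⁻¹ • (G (ofSc r z') - G x)) =
          (t * s)⁻¹ * dist (G (ofSc r z)) (G (ofSc r z')) := by
        rw [dist_smul₀, Real.norm_eq_abs, abs_of_pos (inv_pos.2 hts), dist_sub_right]
      have h3 : dist z z' = (t * s)⁻¹ * dist (ofSc r z) (ofSc r z') := dist_sc r z z'
      rw [h2, one_mul, h3, ← mul_sub, abs_mul, abs_of_pos (inv_pos.2 hts), inv_mul_le_iff₀ hts]
      refine h1.trans ?_
      have h4 : 0 < ε * (t * s) := by positivity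
      nlinarith
    · intro y hy
      rw [dist_zero_left] at hy
      have hy' : G x + (t * s) • y ∈ ball (G x) (s / 2) := by
        rw [mem_ball, dist_eq_norm, add_sub_cancel_left, norm_smul, Real.norm_eq_abs,
          abs_of_pos hts]
        have h1 : (t * s) * ‖y‖ < (t * s) * (1 / ε) := by
          refine mul_lt_mul_of_pos_left (by linarith) hts
        refine h1.trans_le ?_
        rw [mul_one_div, div_le_iff₀ hε]
        nlinarith
      obtain ⟨z, hz, hz'⟩ := hGs _ hy'
      refine ⟨toSc r z, ?_, ?_⟩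
      · have h1 := hG x (mem_ball_self hs) z hz
        have h2 := (abs_le.1 h1).1
        have h3 : dist (G x) (G z) ≤ (t * s) * ‖y‖ + δ * s := by
          have h4 := dist_triangle (G x) (G x + (t * s) • y) (G z)
          have h5 : dist (G x) (G x + (t * s) • y) = (t * s) * ‖y‖ := by
            rw [dist_comm, dist_eq_norm, add_sub_cancel_left, norm_smul, Real.norm_eq_abs,
              abs_of_pos hts]
          rw [dist_comm (G x + (t * s) • y)] at h4
          linarith
        have h6 : dist x z ≤ (t * s) * ‖y‖ + 2 * (δ * s) := by linarith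
        rw [one_mul, dist_toSc, hr1, inv_mul_lt_iff₀ hts]
        have h7 : (t * s) * ‖y‖ < (t * s) * (1 / ε - ε) := mul_lt_mul_of_pos_left hy hts
        have h8 : 2 * (δ * s) ≤ (t * s) * ε := by nlinarith
        have h9 : (t * s) * (1 / ε - ε) = t * s * (1 / ε) - (t * s) * ε := by ring
        linarith
      · show dist ((t * s)⁻¹ • (G z - G x)) y ≤ ε
        have h1 : (t * s)⁻¹ • (G z - G x) - y = (t * s)⁻¹ • (G z - (G x + (t * s) • y)) := by
          rw [sub_add_eq_sub_sub, smul_sub (t * s)⁻¹ (G z - G x), smul_smul,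
            inv_mul_cancel₀ hts.ne', one_smul]
        rw [dist_eq_norm, h1, norm_smul, Real.norm_eq_abs, abs_of_pos (inv_pos.2 hts),
          inv_mul_le_iff₀ hts, ← dist_eq_norm]
        refine hz'.trans ?_
        have h4 : 0 < ε * (t * s) := by positivity
        nlinarith
  -- volume
  have hvol := Dens_274.ge_of_ge hκ hRic x hts htss hv
  have hexp : (1 : ℝ) / 2 ≤ Real.exp (-(κ * s ^ 2 / 2)) := by
    have h1 : -(κ * s ^ 2 / 2) ≥ -(1 / 2) := by linarith
    have h2 := Real.add_one_le_exp (-(κ * s ^ 2 / 2))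
    linarith
  have hvol' : ENNReal.ofReal (c / 2 * w₁ * r.1 ^ n) ≤
      Measure.euclideanHausdorffMeasure n (ball x r.1) := by
    refine le_trans ?_ hvol
    rw [Dens_274.vol_ball (0 : EuclideanSpace ℝ (Fin n)) hts, ← hw₁e,
      ← ENNReal.ofReal_mul (by positivity), ← ENNReal.ofReal_mul (by positivity)]
    refine ENNReal.ofReal_le_ofReal ?_
    rw [hr1]
    have h3 : 0 ≤ w₁ * (t * s) ^ n * c := by positivity
    nlinarith
  have hvolS := vol_sc r n x hvol'
  have hfin := hVC (Sc r M) (toSc r x) hRic' happ hvolS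
  -- back to `M`
  have h5 := muHE_sc_le r n (ball x (r.1 * 1))
  rw [ball_sc, mul_one] at h5
  refine le_trans ?_ h5
  rw [hr1, Dens_274.vol_ball (0 : EuclideanSpace ℝ (Fin n)) hts, mul_left_comm]
  exact mul_le_mul_right hfin _

end Crest.Agent.R249.Vm_274
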