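import Crest.Agent.R249.Ul4_174
import Crest.Agent.R249.Fl3_174
import Crest.Agent.R249.Vm_274
import Crest.Agent.R249.Dens_274
import Crest.Agent.R249.D1Def_104

/-!
# R249 (helper174), D2 (1): tools for the first bad scale

* `cht_rebase`, `cht_of_isometry` : Euclidean balls under isometries;
* `exists_sep_UL` : separated sets of bounded cardinality pass to the ultralimit;
* `mRicDev_sc`, `lintegral_mRicDev_sc` : scaling of `|Ric - c g|²` and scale invariance (`n = 4`);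
* `growth_UL` : `vol(ball (q k) R) ≥ v Rⁿ` and `vol(ball y 1) ≤ w` give packing growth of `UL q`.
-/

set_option autoImplicit false
noncomputable section
open Set Filter Topology Metric MeasureTheory
open scoped ContDiff Manifold ENNReal
open Bundle Crest.GeometryTopology.CoordMetric Crest.GeometryTopology.ChartCurvature
  Crest.GeometryTopology.PointedLimit Crest.GeometryTopology.RicciEnergy

namespace Crest.Agent.R249.Bad174

open Crest.Agent.R249.Ul174 Crest.Agent.R249.Fl174 Crest.Agent.R249.D1Def104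
open Crest.Agent.R247.Scal386

universe u

/-! ### Euclidean balls under isometries -/

theorem cht_of_isometry {n : ℕ} {Y Z : Type*} [MetricSpace Y] [MetricSpace Z] (e : Y ≃ᵢ Z) {z : Y}
    {ρ : ℝ} (h : Cht n z ρ) : Cht n (e z) ρ := by
  obtain ⟨φ, hφ⟩ := h
  refine ⟨fun v => e (φ v), by rw [hφ.zero], ?_, ?_⟩
  · intro v hv w hw
    rw [e.dist_eq]
    exact hφ.isom v hv w hw
  · intro y hy
    have h1 : e.symm y ∈ ball z ρ := by
      rw [mem_ball, ← e.dist_eq, e.apply_symm_apply]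
      exact hy
    obtain ⟨v, hv, hvy⟩ := hφ.surj h1
    exact ⟨v, hv, by
      change e (φ v) = y
      rw [hvy, e.apply_symm_apply]⟩

variable {M : ℕ → Type u} [∀ k, MetricSpace (M k)] {q : ∀ k, M k}

/-- Euclidean balls of the ultralimit may be found after a change of the base point -/
theorem cht_rebase {n : ℕ} {y : ∀ k, M k} (hy : Bd q y) {ρ : ℝ} (h : Cht n (UL.base y) ρ) :
    Cht n (UL.mk y hy) ρ := by
  have h1 := cht_of_isometry (UL.rebase hy).symm h
  have h2 : (UL.rebase hy).symm (UL.base y) = UL.mk y hy := by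
    rw [IsometryEquiv.symm_apply_eq, UL.rebase_base]
  rwa [h2] at h1

/-! ### separated sets pass to the ultralimit -/

theorem exists_sep_UL {R ε : ℝ} (hε : 0 < ε) {N : ℕ}
    (h : ∀ᶠ k in om, ∃ s : Finset (M k), (∀ x ∈ s, dist (q k) x ≤ R) ∧ Sep ε s ∧ N ≤ s.card) :
    ∃ s : Finset (UL q), (∀ y ∈ s, dist (UL.base q) y ≤ R) ∧ Sep ε s ∧ N ≤ s.card := by
  classical
  -- enumerate
  have h1 : ∀ k, ∃ f : Fin N → M k,
      (∃ s : Finset (M k), (∀ x ∈ s, dist (q k) x ≤ R) ∧ Sep ε s ∧ N ≤ s.card) →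
      (∀ i, dist (q k) (f i) ≤ R) ∧ ∀ i j, i ≠ j → ε ≤ dist (f i) (f j) := by
    intro k
    by_cases hk : ∃ s : Finset (M k), (∀ x ∈ s, dist (q k) x ≤ R) ∧ Sep ε s ∧ N ≤ s.card
    · obtain ⟨s, hs1, hs2, hs3⟩ := hk
      obtain ⟨t, hts, htc⟩ := Finset.exists_subset_card_eq hs3
      set e := (t.equivFinOfCardEq htc).symm with he
      refine ⟨fun i => (e i : M k), fun _ => ⟨fun i => hs1 _ (hts (e i).2), fun i j hij => ?_⟩⟩
      refine hs2 _ (hts (e i).2) _ (hts (e j).2) fun h => hij ?_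
      exact e.injective (Subtype.ext h)
    · exact ⟨fun _ => q k, fun h => absurd h hk⟩
  choose f hf using h1
  have hb : ∀ i, Bd q (fun k => f k i) := fun i =>
    ⟨R, h.mono fun k hk => (hf k hk).1 i⟩
  set F : Fin N → UL q := fun i => UL.mk (fun k => f k i) (hb i) with hF
  have hFd : ∀ i j, i ≠ j → ε ≤ dist (F i) (F j) := fun i j hij =>
    UL.le_dist _ _ (h.mono fun k hk => (hf k hk).2 i j hij)
  have hinj : Function.Injective F := by
    intro i j hij
    by_contra hne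
    have := hFd i j hne
    rw [hij, dist_self] at this
    linarith
  refine ⟨Finset.univ.image F, ?_, ?_, ?_⟩
  · intro y hy
    obtain ⟨i, -, rfl⟩ := Finset.mem_image.1 hy
    exact UL.dist_le (Bd.refl q) _ (h.mono fun k hk => (hf k hk).1 i)
  · intro x hx y hy hxy
    obtain ⟨i, -, rfl⟩ := Finset.mem_image.1 hx
    obtain ⟨j, -, rfl⟩ := Finset.mem_image.1 hy
    exact hFd i j fun h => hxy (by rw [h])
  · rw [Finset.card_image_of_injective _ hinj, Finset.card_univ, Fintype.card_fin]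

/-- covering by unit balls: many separated points -/
theorem exists_sep_of_volume {X : Type*} [MetricSpace X] [MeasurableSpace X] [BorelSpace X]
    (μ : Measure X) {q : X} {R v w : ℝ} (hw : 0 < w) {N₀ : ℕ}
    (hup : ∀ y : X, μ (ball y 1) ≤ ENNReal.ofReal w)
    (hlo : ENNReal.ofReal v ≤ μ (ball q R))
    (hpack : ∀ s : Finset X, (∀ y ∈ s, dist q y < R) → Sep 1 s → s.card ≤ N₀) :
    ∃ s : Finset X, (∀ x ∈ s, dist q x ≤ R) ∧ Sep 1 s ∧ v / w ≤ s.card := by
  obtain ⟨s, hs1, hs2, hs3⟩ := exists_net (S := {y | dist q y < R}) one_pos hpack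
  refine ⟨s, fun x hx => (hs1 x hx).le, hs2, ?_⟩
  have h1 : ball q R ⊆ ⋃ y ∈ s, ball y 1 := by
    intro x hx
    obtain ⟨y, hy, hxy⟩ := hs3 x (by rw [mem_ball, dist_comm] at hx; exact hx)
    exact mem_iUnion₂.2 ⟨y, hy, hxy⟩
  have h2 : ENNReal.ofReal v ≤ (s.card : ℝ≥0∞) * ENNReal.ofReal w := by
    calc ENNReal.ofReal v ≤ μ (ball q R) := hlo
      _ ≤ μ (⋃ y ∈ s, ball y 1) := measure_mono h1
      _ ≤ ∑ y ∈ s, μ (ball y 1) := measure_biUnion_finset_le _ _
      _ ≤ ∑ _y ∈ s, ENNReal.ofReal w := Finset.sum_le_sum fun y _ => hup y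
      _ = (s.card : ℝ≥0∞) * ENNReal.ofReal w := by rw [Finset.sum_const, nsmul_eq_mul]
  rw [← ENNReal.ofReal_natCast, ← ENNReal.ofReal_mul (by positivity)] at h2
  have h3 := (ENNReal.ofReal_le_ofReal_iff (by positivity)).1 h2
  rw [div_le_iff₀ hw]
  exact h3

/-- **packing growth of the ultralimit** -/
theorem growth_UL {n : ℕ} [∀ k, MeasurableSpace (M k)] [∀ k, BorelSpace (M k)]
    (μ : ∀ k, Measure (M k)) (hP : Pack q) {v w : ℝ} (hv : 0 < v) (hw : 0 < w)
    (hup : ∀ᶠ k in om, ∀ y : M k, μ k (ball y 1) ≤ ENNReal.ofReal w)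
    (hlo : ∀ R : ℝ, 1 ≤ R → ∀ᶠ k in om, ENNReal.ofReal (v * R ^ n) ≤ μ k (ball (q k) R)) :
    Growth n (UL.base q) := by
  refine ⟨v / w, 1, by positivity, one_pos, 1, fun R hR => ?_⟩
  obtain ⟨N₀, hN₀⟩ := hP R 1 one_pos
  set N : ℕ := ⌈v * R ^ n / w⌉₊ with hN
  have h1 : ∀ᶠ k in om, ∃ s : Finset (M k), (∀ x ∈ s, dist (q k) x ≤ R) ∧ Sep 1 s ∧
      N ≤ s.card := by
    filter_upwards [hup, hlo R hR, hN₀] with k hk1 hk2 hk3
    obtain ⟨s, hs1, hs2, hs3⟩ := exists_sep_of_volume (μ k) hw hk1 hk2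
      (fun s hs hs' => hk3 s (fun y hy => (hs y hy).le) hs')
    exact ⟨s, hs1, hs2, Nat.ceil_le.2 hs3⟩
  obtain ⟨s, hs1, hs2, hs3⟩ := exists_sep_UL one_pos h1
  refine ⟨s, hs1, hs2, ?_⟩
  calc v / w * R ^ n = v * R ^ n / w := by ring
    _ ≤ N := Nat.le_ceil _
    _ ≤ s.card := by exact_mod_cast hs3

/-! ### scaling of the Ricci deviation -/

theorem ricDev_smul {n : ℕ} {c : ℝ} (hc : c ≠ 0) (l : ℝ) (g : MetricField n)
    (x : EuclideanSpace ℝ (Fin n)) :
    ricDev l (fun y => c • g y) x = (c ^ 2)⁻¹ * ricDev (l * c) g x := by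
  unfold ricDev
  simp only [inverseField_smul hc, ricci_smul hc, Matrix.smul_apply, smul_eq_mul, Finset.mul_sum]
  refine Finset.sum_congr rfl fun _ _ => Finset.sum_congr rfl fun _ _ =>
    Finset.sum_congr rfl fun _ _ => Finset.sum_congr rfl fun _ _ => ?_
  field_simp

theorem mRicDev_sc {n : ℕ} {X : Type*} (r : {r : ℝ // 0 < r}) [MetricSpace X]
    [ChartedSpace (EuclideanSpace ℝ (Fin n)) X]
    [RiemannianBundle (fun x : X => TangentSpace 𝓘(ℝ, EuclideanSpace ℝ (Fin n)) x)] (l : ℝ)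
    (x : Sc r X) : mRicDev n (Sc r X) (l * r.1 ^ 2) x = r.1 ^ 4 * mRicDev n X l (ofSc r x) := by
  have hr := r.2
  have hc : (r.1 ^ 2)⁻¹ ≠ 0 := by positivity
  unfold mRicDev
  rw [chartMetric_sc', chartCentre_sc, ricDev_smul hc]
  have h1 : l * r.1 ^ 2 * (r.1 ^ 2)⁻¹ = l := by field_simp
  rw [h1]
  congr 1
  rw [inv_pow, inv_inv]
  ring

/-- scale invariance of `∫ |Ric - c g|²` in dimension four -/
theorem lintegral_mRicDev_sc {X : Type*} (r : {r : ℝ // 0 < r}) [MetricSpace X]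
    [ChartedSpace (EuclideanSpace ℝ (Fin 4)) X]
    [RiemannianBundle (fun x : X => TangentSpace 𝓘(ℝ, EuclideanSpace ℝ (Fin 4)) x)]
    [MeasurableSpace X] [BorelSpace X] (l : ℝ) :
    ∫⁻ x, ENNReal.ofReal (mRicDev 4 (Sc r X) (l * r.1 ^ 2) x) ∂(μHE[4] : Measure (Sc r X)) =
      ∫⁻ x, ENNReal.ofReal (mRicDev 4 X l x) ∂(μHE[4] : Measure X) := by
  have hr := r.2
  rw [lintegral_sc]
  have h1 : ∀ x : X, ENNReal.ofReal (mRicDev 4 (Sc r X) (l * r.1 ^ 2) (toSc r x)) =
      ENNReal.ofReal (r.1 ^ 4) * ENNReal.ofReal (mRicDev 4 X l x) := by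
    intro x
    rw [mRicDev_sc, ENNReal.ofReal_mul (by positivity)]
    rfl
  simp_rw [h1]
  rw [lintegral_const_mul' _ _ ENNReal.ofReal_ne_top, ← mul_assoc,
    ← ENNReal.ofReal_mul (by positivity), ← mul_pow, inv_mul_cancel₀ hr.ne', one_pow,
    ENNReal.ofReal_one, one_mul]

end Crest.Agent.R249.Bad174
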