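import Crest.Agent.R249.Bad1_174

/-!
# R249 (helper174), D2 (2): no collapse of the volume ratio — the first bad scale

* `FlatR` : the local structure theorem in the case `λ → 0` (interface D3 → D2);
* `RicNN` : `K ≥ 0 ⇒ Ric ≥ 0`;
* `pinching` : for a sequence of closed 4-manifolds with `K ≥ 0`, `∫ |Ric - 3g|² → 0`, volume `≥ v`,
  diameter `≤ D`, and every `δ > 0` there is `r₀ > 0` such that for almost every `k` ALL balls of
  radius `≤ r₀` have volume ratio `≥ 1 - δ`.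
-/

set_option autoImplicit false
noncomputable section
open Set Filter Topology Metric MeasureTheory
open scoped ContDiff Manifold ENNReal
open Bundle Crest.GeometryTopology.CoordMetric Crest.GeometryTopology.ChartCurvature
  Crest.GeometryTopology.PointedLimit Crest.GeometryTopology.RicciEnergy

namespace Crest.Agent.R249.Bad174

open Crest.Agent.R249.Ul174 Crest.Agent.R249.Fl174 Crest.Agent.R249.D1Def104
open Crest.Agent.R247.Scal386

/-- all balls of radius `≤ T` with centre in `S` have volume ratio `≥ 1 - δ` -/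
def Pinch (n : ℕ) {X : Type*} [MetricSpace X] [MeasurableSpace X] [BorelSpace X] (S : Set X)
    (T δ : ℝ) : Prop :=
  ∀ x ∈ S, ∀ r : ℝ, 0 < r → r ≤ T →
    ENNReal.ofReal (1 - δ) * volume (ball (0 : EuclideanSpace ℝ (Fin n)) r) ≤
      (μHE[n] : Measure X) (ball x r)

/-- **Local structure theorem, flat case** (interface D3 → D2). -/
def FlatR : Prop :=
  ∃ δ₀ T R : ℝ, 0 < δ₀ ∧ 0 < T ∧ 0 < R ∧
    ∀ (M : ℕ → Type) [∀ k, MetricSpace (M k)] [∀ k, CompactSpace (M k)]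
      [∀ k, ConnectedSpace (M k)] [∀ k, ChartedSpace (EuclideanSpace ℝ (Fin 4)) (M k)]
      [∀ k, IsManifold 𝓘(ℝ, EuclideanSpace ℝ (Fin 4)) ∞ (M k)]
      [∀ k, RiemannianBundle (fun x : M k => TangentSpace 𝓘(ℝ, EuclideanSpace ℝ (Fin 4)) x)]
      [∀ k, IsContMDiffRiemannianBundle 𝓘(ℝ, EuclideanSpace ℝ (Fin 4)) ∞
        (EuclideanSpace ℝ (Fin 4)) (fun x : M k => TangentSpace 𝓘(ℝ, EuclideanSpace ℝ (Fin 4)) x)]
      [∀ k, IsRiemannianManifold 𝓘(ℝ, EuclideanSpace ℝ (Fin 4)) (M k)]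
      [∀ k, MeasurableSpace (M k)] [∀ k, BorelSpace (M k)] (q : ∀ k, M k) (lam : ℕ → ℝ),
      (∀ k, HasNonnegSectionalCurvature 4 (M k)) → Tendsto lam om (𝓝 0) →
      Tendsto (fun k => ∫⁻ x in ball (q k) R, ENNReal.ofReal (mRicDev 4 (M k) (lam k) x)
        ∂(μHE[4] : Measure (M k))) om (𝓝 0) →
      (∀ᶠ k in om, Pinch 4 (ball (q k) R) T δ₀) →
      ∃ ρ > 0, Cht 4 (UL.base q) ρ

/-- `K ≥ 0 ⇒ Ric ≥ 0` -/
def RicNN : Prop :=
  ∀ (M : Type) [MetricSpace M] [CompactSpace M] [ConnectedSpace M]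
    [ChartedSpace (EuclideanSpace ℝ (Fin 4)) M]
    [IsManifold 𝓘(ℝ, EuclideanSpace ℝ (Fin 4)) ∞ M]
    [RiemannianBundle (fun x : M => TangentSpace 𝓘(ℝ, EuclideanSpace ℝ (Fin 4)) x)]
    [IsContMDiffRiemannianBundle 𝓘(ℝ, EuclideanSpace ℝ (Fin 4)) ∞ (EuclideanSpace ℝ (Fin 4))
      (fun x : M => TangentSpace 𝓘(ℝ, EuclideanSpace ℝ (Fin 4)) x)]
    [IsRiemannianManifold 𝓘(ℝ, EuclideanSpace ℝ (Fin 4)) M],
    HasNonnegSectionalCurvature 4 M → HasRicciLowerBound 4 M 0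

theorem toSc_preimage_ball {X : Type*} [MetricSpace X] (r : {r : ℝ // 0 < r}) (x : Sc r X)
    (s : ℝ) : (toSc r ⁻¹' (ball x s) : Set X) = ball (ofSc r x) (r.1 * s) := by
  have hr := r.2
  ext y
  rw [mem_preimage, mem_ball, mem_ball, dist_sc, inv_mul_lt_iff₀ hr]
  rfl

/-- volume ratios are scale invariant -/
theorem ratio_sc {n : ℕ} {X : Type*} [MetricSpace X] [MeasurableSpace X] [BorelSpace X]
    (r : {r : ℝ // 0 < r}) (x : Sc r X) {s c : ℝ} (hs : 0 < s) :
    ENNReal.ofReal c * volume (ball (0 : EuclideanSpace ℝ (Fin n)) s) ≤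
      (μHE[n] : Measure (Sc r X)) (ball x s) ↔
    ENNReal.ofReal c * volume (ball (0 : EuclideanSpace ℝ (Fin n)) (r.1 * s)) ≤
      (μHE[n] : Measure X) (ball (ofSc r x) (r.1 * s)) := by
  have hr := r.2
  rw [D1Def104.muHE_sc_eq, toSc_preimage_ball, Dens_274.vol_ball 0 hs,
    Dens_274.vol_ball 0 (mul_pos hr hs), mul_pow, ENNReal.ofReal_mul (by positivity)]
  set V := volume (ball (0 : EuclideanSpace ℝ (Fin n)) 1)
  set m := (μHE[n] : Measure X) (ball (ofSc r x) (r.1 * s))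
  have h1 : ENNReal.ofReal (r.1⁻¹ ^ n) * ENNReal.ofReal (r.1 ^ n) = 1 := by
    rw [← ENNReal.ofReal_mul (by positivity), ← mul_pow, inv_mul_cancel₀ hr.ne', one_pow,
      ENNReal.ofReal_one]
  have h2 : ENNReal.ofReal (r.1 ^ n) * ENNReal.ofReal (r.1⁻¹ ^ n) = 1 := by
    rw [mul_comm]; exact h1
  constructor
  · intro h
    calc ENNReal.ofReal c * (ENNReal.ofReal (r.1 ^ n) * ENNReal.ofReal (s ^ n) * V)
        = ENNReal.ofReal (r.1 ^ n) * (ENNReal.ofReal c * (ENNReal.ofReal (s ^ n) * V)) := by ring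
      _ ≤ ENNReal.ofReal (r.1 ^ n) * (ENNReal.ofReal (r.1⁻¹ ^ n) * m) := by gcongr
      _ = m := by rw [← mul_assoc, h2, one_mul]
  · intro h
    calc ENNReal.ofReal c * (ENNReal.ofReal (s ^ n) * V)
        = (ENNReal.ofReal (r.1⁻¹ ^ n) * ENNReal.ofReal (r.1 ^ n)) *
          (ENNReal.ofReal c * (ENNReal.ofReal (s ^ n) * V)) := by rw [h1, one_mul]
      _ = ENNReal.ofReal (r.1⁻¹ ^ n) *
          (ENNReal.ofReal c * (ENNReal.ofReal (r.1 ^ n) * ENNReal.ofReal (s ^ n) * V)) := by ring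
      _ ≤ ENNReal.ofReal (r.1⁻¹ ^ n) * m := by gcongr

section one
variable {n : ℕ} {M : Type} [MetricSpace M] [CompactSpace M] [ConnectedSpace M]
    [ChartedSpace (EuclideanSpace ℝ (Fin n)) M]
    [IsManifold 𝓘(ℝ, EuclideanSpace ℝ (Fin n)) ∞ M]
    [RiemannianBundle (fun x : M => TangentSpace 𝓘(ℝ, EuclideanSpace ℝ (Fin n)) x)]
    [IsContMDiffRiemannianBundle 𝓘(ℝ, EuclideanSpace ℝ (Fin n)) ∞ (EuclideanSpace ℝ (Fin n))
      (fun x : M => TangentSpace 𝓘(ℝ, EuclideanSpace ℝ (Fin n)) x)]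
    [IsRiemannianManifold 𝓘(ℝ, EuclideanSpace ℝ (Fin n)) M] [MeasurableSpace M] [BorelSpace M]

/-- lower volume ratios pass to smaller radii -/
theorem ratio_mono (hRic : HasRicciLowerBound n M 0) (x : M) {r R c : ℝ} (hr : 0 < r)
    (hrR : r ≤ R)
    (h : ENNReal.ofReal c * volume (ball (0 : EuclideanSpace ℝ (Fin n)) R) ≤
      (μHE[n] : Measure M) (ball x R)) :
    ENNReal.ofReal c * volume (ball (0 : EuclideanSpace ℝ (Fin n)) r) ≤
      (μHE[n] : Measure M) (ball x r) := by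
  have h1 := Dens_274.ge_of_ge (κ := 0) le_rfl (by simpa using hRic) x hr hrR h
  simpa using h1

/-- a lower volume ratio at all scales from total volume and diameter -/
theorem ratio_of_volume (hRic : HasRicciLowerBound n M 0) {v D : ℝ} (hv : 0 < v) (hD : 0 < D)
    (hvol : ENNReal.ofReal v ≤ (μHE[n] : Measure M) univ) (hdiam : ∀ x y : M, dist x y ≤ D)
    (x : M) {r : ℝ} (hr : 0 < r) (hrD : r ≤ D + 1) :
    ENNReal.ofReal (v / ((D + 1) ^ n * (volume (ball (0 : EuclideanSpace ℝ (Fin n)) 1)).toReal)) *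
      volume (ball (0 : EuclideanSpace ℝ (Fin n)) r) ≤ (μHE[n] : Measure M) (ball x r) := by
  refine ratio_mono hRic x hr hrD ?_
  have hb : ball x (D + 1) = univ := by
    refine eq_univ_of_forall fun y => ?_
    rw [mem_ball]
    linarith [hdiam y x]
  rw [hb]
  refine le_trans (le_of_eq ?_) hvol
  have hV0 := Dens_274.vol_ball_one_ne_zero (n := n)
  have hVt := Dens_274.vol_ball_one_ne_top (n := n)
  have hV : 0 < (volume (ball (0 : EuclideanSpace ℝ (Fin n)) 1)).toReal :=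
    ENNReal.toReal_pos hV0 hVt
  rw [Dens_274.vol_ball 0 (by linarith : (0:ℝ) < D + 1)]
  conv_lhs => rw [← ENNReal.ofReal_toReal hVt]
  rw [← ENNReal.ofReal_mul (by positivity), ← ENNReal.ofReal_mul (by positivity),
    ENNReal.toReal_ofReal hV.le]
  congr 1
  field_simp

end one

/-- **D2**: no small balls of small volume ratio. -/
theorem pinching (hF : FlatR) (hN : RicNN) {v D : ℝ} (hv : 0 < v) (hD : 0 < D)
    (M : ℕ → Type) [∀ k, MetricSpace (M k)] [∀ k, CompactSpace (M k)]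
    [∀ k, ConnectedSpace (M k)] [∀ k, ChartedSpace (EuclideanSpace ℝ (Fin 4)) (M k)]
    [∀ k, IsManifold 𝓘(ℝ, EuclideanSpace ℝ (Fin 4)) ∞ (M k)]
    [∀ k, RiemannianBundle (fun x : M k => TangentSpace 𝓘(ℝ, EuclideanSpace ℝ (Fin 4)) x)]
    [∀ k, IsContMDiffRiemannianBundle 𝓘(ℝ, EuclideanSpace ℝ (Fin 4)) ∞
      (EuclideanSpace ℝ (Fin 4)) (fun x : M k => TangentSpace 𝓘(ℝ, EuclideanSpace ℝ (Fin 4)) x)]
    [∀ k, IsRiemannianManifold 𝓘(ℝ, EuclideanSpace ℝ (Fin 4)) (M k)]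
    [∀ k, MeasurableSpace (M k)] [∀ k, BorelSpace (M k)]
    (hK : ∀ k, HasNonnegSectionalCurvature 4 (M k)) {a : ℕ → ℝ} (ha : Tendsto a om (𝓝 0))
    (hG : ∀ᶠ k in om, Good v D (a k) (M k)) {δ : ℝ} (hδ : 0 < δ) :
    ∃ r₀ > 0, ∀ᶠ k in om, Pinch 4 (univ : Set (M k)) r₀ δ := by
  classical
  obtain ⟨δ₀, T, R, hδ₀, hT, hR, hF⟩ := hF
  set δ₁ : ℝ := min δ δ₀ with hδ₁
  have hδ₁0 : 0 < δ₁ := lt_min hδ hδ₀
  have hRic : ∀ k, HasRicciLowerBound 4 (M k) 0 := fun k => hN (M k) (hK k)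
  suffices H : ∃ r₀ > 0, ∀ᶠ k in om, Pinch 4 (univ : Set (M k)) r₀ δ₁ by
    obtain ⟨r₀, hr₀, h⟩ := H
    refine ⟨r₀, hr₀, h.mono fun k hk x hx r hr hr' => le_trans ?_ (hk x hx r hr hr')⟩
    gcongr
    exact min_le_left _ _
  by_contra hcon
  have hcon : ∀ r₀ : ℝ, 0 < r₀ → ¬ ∀ᶠ k in om, Pinch 4 (univ : Set (M k)) r₀ δ₁ :=
    fun r₀ h h' => hcon ⟨r₀, h, h'⟩
  -- dyadic first good scale
  have hex : ∀ k, ∃ j : ℕ, Pinch 4 (univ : Set (M k)) ((1 / 2 : ℝ) ^ j) δ₁ := by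
    intro k
    obtain ⟨r₀, hr₀, h⟩ := Dens_274.uniform_dens (M := M k) (κ := 0) le_rfl
      (by simpa using hRic k) hδ₁0
    obtain ⟨j, hj⟩ := exists_pow_lt_of_lt_one hr₀ (by norm_num : (1 / 2 : ℝ) < 1)
    exact ⟨j, fun x _ r hr hrj => h x r hr (hrj.trans hj.le)⟩
  set j : ℕ → ℕ := fun k => Nat.find (hex k) with hj
  have hjP : ∀ k, Pinch 4 (univ : Set (M k)) ((1 / 2 : ℝ) ^ j k) δ₁ := fun k =>
    Nat.find_spec (hex k)
  have hjm : ∀ m : ℕ, ∀ᶠ k in om, m < j k := by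
    intro m
    have h1 : ∀ᶠ k in om, ¬ Pinch 4 (univ : Set (M k)) ((1 / 2 : ℝ) ^ m) δ₁ := by
      rcases ev_or_not (fun k => Pinch 4 (univ : Set (M k)) ((1 / 2 : ℝ) ^ m) δ₁) with h | h
      · exact absurd h (hcon ((1 / 2 : ℝ) ^ m) (by positivity))
      · exact h
    filter_upwards [h1] with k hk
    by_contra hle
    push Not at hle
    refine hk fun x hx r hr hrm => hjP k x hx r hr (hrm.trans ?_)
    exact pow_le_pow_of_le_one (by norm_num) (by norm_num) hle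
  set ρ : ℕ → ℝ := fun k => (1 / 2 : ℝ) ^ j k with hρ
  have hρ0 : ∀ k, 0 < ρ k := fun k => by simp only [hρ]; positivity
  have hρlim : Tendsto ρ om (𝓝 0) := by
    rw [Metric.tendsto_nhds]
    intro ε hε
    obtain ⟨m, hm⟩ := exists_pow_lt_of_lt_one hε (by norm_num : (1 / 2 : ℝ) < 1)
    filter_upwards [hjm m] with k hk
    rw [Real.dist_eq, sub_zero, abs_of_pos (hρ0 k)]
    refine lt_of_le_of_lt ?_ hm
    exact pow_le_pow_of_le_one (by norm_num) (by norm_num) hk.le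
  -- the bad points
  have hbad : ∀ k, ∃ x : M k, 0 < j k →
      (μHE[4] : Measure (M k)) (ball x (2 * ρ k)) <
        ENNReal.ofReal (1 - δ₁) * volume (ball (0 : EuclideanSpace ℝ (Fin 4)) (2 * ρ k)) := by
    intro k
    by_cases hk : 0 < j k
    · have h1 : ¬ Pinch 4 (univ : Set (M k)) ((1 / 2 : ℝ) ^ (j k - 1)) δ₁ :=
        Nat.find_min (hex k) (show j k - 1 < j k by omega)
      have h2 : ((1 / 2 : ℝ)) ^ (j k - 1) = 2 * ρ k := by
        simp only [hρ]
        obtain ⟨i, hi⟩ : ∃ i, j k = i + 1 := ⟨j k - 1, by omega⟩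
        rw [hi, Nat.add_sub_cancel, pow_succ]
        ring
      rw [h2] at h1
      unfold Pinch at h1
      push Not at h1
      obtain ⟨x, -, s, hs, hs2, h3⟩ := h1
      refine ⟨x, fun _ => ?_⟩
      by_contra hle
      push Not at hle
      exact absurd (ratio_mono (hRic k) x hs hs2 hle) (not_le.2 h3)
    · obtain ⟨x⟩ := (inferInstance : Nonempty (M k))
      exact ⟨x, fun h => absurd h hk⟩
  choose x hx using hbad
  -- the rescaled manifolds
  set σ : ℕ → {r : ℝ // 0 < r} := fun k => ⟨ρ k / T, div_pos (hρ0 k) hT⟩ with hσ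
  have hσT : ∀ k, (σ k).1 * T = ρ k := fun k => by
    change ρ k / T * T = ρ k
    field_simp
  have hσlim : Tendsto (fun k => (σ k).1) om (𝓝 0) := by
    have := hρlim.div_const T
    simpa using this
  set q : ∀ k, Sc (σ k) (M k) := fun k => toSc (σ k) (x k) with hq
  have hK' : ∀ k, HasNonnegSectionalCurvature 4 (Sc (σ k) (M k)) := fun k =>
    nonnegSec_sc (σ k) (hK k)
  have hRic' : ∀ k, HasRicciLowerBound 4 (Sc (σ k) (M k)) 0 := fun k =>
    hN (Sc (σ k) (M k)) (hK' k)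
  have hlam : Tendsto (fun k => 3 * (σ k).1 ^ 2) om (𝓝 0) := by
    have := (hσlim.pow 2).const_mul 3
    simpa using this
  have hint : ∀ y : ∀ k, Sc (σ k) (M k), Tendsto (fun k => ∫⁻ z in ball (y k) R,
      ENNReal.ofReal (mRicDev 4 (Sc (σ k) (M k)) (3 * (σ k).1 ^ 2) z)
        ∂(μHE[4] : Measure (Sc (σ k) (M k)))) om (𝓝 0) := by
    intro y
    have h0 : Tendsto (fun k => ENNReal.ofReal (a k)) om (𝓝 0) := by
      have := (ENNReal.continuous_ofReal.tendsto 0).comp ha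
      rw [ENNReal.ofReal_zero] at this
      exact this
    refine tendsto_of_tendsto_of_tendsto_of_le_of_le' tendsto_const_nhds h0
      (Eventually.of_forall fun _ => bot_le) ?_
    filter_upwards [hG] with k hk
    refine (setLIntegral_le_lintegral _ _).trans ?_
    rw [lintegral_mRicDev_sc]
    exact hk.2.2
  have hpin : ∀ k, Pinch 4 (univ : Set (Sc (σ k) (M k))) T δ₁ := by
    intro k z _ s hs hsT
    rw [ratio_sc (σ k) z hs]
    refine hjP k _ (mem_univ _) _ (mul_pos (σ k).2 hs) ?_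
    calc (σ k).1 * s ≤ (σ k).1 * T := mul_le_mul_of_nonneg_left hsT (σ k).2.le
      _ = ρ k := hσT k
  have hpin' : ∀ (y : ∀ k, Sc (σ k) (M k)), ∀ᶠ k in om, Pinch 4 (ball (y k) R) T δ₀ := by
    intro y
    refine Eventually.of_forall fun k z _ s hs hsT => le_trans ?_ (hpin k z (mem_univ _) s hs hsT)
    gcongr
    exact min_le_right _ _
  -- the ultralimit
  have hpack : Pack q := pack_of_ricci (n := 4) (κ := 0) le_rfl q
    (Eventually.of_forall fun k => by simpa using hRic' k)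
  have hprop : ProperSpace (UL q) := hpack.properSpace
  have hmid : Mid (UL q) := mid_UL (Eventually.of_forall fun k => mid_of_riemannian 4 _)
  have hcht : ∀ z : UL q, ∃ r > 0, Cht 4 z r := by
    intro z
    obtain ⟨y, hy, rfl⟩ := z.exists_rep
    obtain ⟨r, hr, h⟩ := hF (fun k => Sc (σ k) (M k)) y (fun k => 3 * (σ k).1 ^ 2) hK' hlam
      (hint y) (hpin' y)
    exact ⟨r, hr, cht_rebase hy h⟩
  set V : ℝ := (volume (ball (0 : EuclideanSpace ℝ (Fin 4)) 1)).toReal with hV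
  have hV0 : 0 < V := ENNReal.toReal_pos Dens_274.vol_ball_one_ne_zero
    Dens_274.vol_ball_one_ne_top
  set c : ℝ := v / ((D + 1) ^ 4 * V) with hc
  have hc0 : 0 < c := by positivity
  have hlow : ∀ s : ℝ, 0 < s → ∀ᶠ k in om, ENNReal.ofReal c *
      volume (ball (0 : EuclideanSpace ℝ (Fin 4)) s) ≤
        (μHE[4] : Measure (Sc (σ k) (M k))) (ball (q k) s) := by
    intro s hs
    have h1 : ∀ᶠ k in om, (σ k).1 * s < D + 1 := by
      have := hσlim.mul_const s
      rw [zero_mul] at this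
      exact this.eventually_lt_const (by linarith)
    filter_upwards [h1, hG] with k hk hk'
    rw [ratio_sc (σ k) (q k) hs]
    exact ratio_of_volume (hRic k) hv hD hk'.1 hk'.2.1 _ (mul_pos (σ k).2 hs) hk.le
  have hgrow : Growth 4 (UL.base q) := by
    refine growth_UL (fun k => (μHE[4] : Measure (Sc (σ k) (M k)))) hpack (v := c * V) (w := V)
      (by positivity) hV0 ?_ ?_
    · refine Eventually.of_forall fun k y => ?_
      have h1 := Dens_274.theta_le_one (hRic' k) y one_pos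
      unfold Dens_274.theta at h1
      rw [ENNReal.div_le_iff Dens_274.vol_ball_one_ne_zero Dens_274.vol_ball_one_ne_top,
        one_mul] at h1
      rw [hV, ENNReal.ofReal_toReal Dens_274.vol_ball_one_ne_top]
      exact h1
    · intro r hr
      filter_upwards [hlow r (by linarith)] with k hk
      refine le_trans (le_of_eq ?_) hk
      rw [Dens_274.vol_ball 0 (by linarith : (0:ℝ) < r)]
      conv_rhs => rw [← ENNReal.ofReal_toReal (Dens_274.vol_ball_one_ne_top (n := 4))]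
      rw [← ENNReal.ofReal_mul (by positivity), ← ENNReal.ofReal_mul hc0.le]
      congr 1
      ring
  obtain ⟨e, he⟩ := flat_isometric hcht hmid (UL.base q) hgrow
  -- volume convergence
  obtain ⟨t₀, ht₀, ht₀1, hvol⟩ := Vm_274.vol_of_near.{0} 4 (e := δ₁ / 2) (c := c) (by positivity) hc0
  obtain ⟨η, hη, hη1, hvol⟩ := hvol t₀ ht₀ le_rfl
  set s : ℝ := 2 * T / t₀ with hs
  have hs0 : 0 < s := by positivity
  have happ := hpack.approx_of_isometry e (R := s) (ε := η * s / 2) hs0 (by positivity)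
  obtain ⟨k, hk1, hk2, hk3⟩ := (happ.and ((hlow s hs0).and (hjm 0))).exists
  rw [he] at hk1
  obtain ⟨f, hf0, hf1, hf2⟩ := hk1
  simp only [one_mul] at hf1 hf2
  have hη2 : η * s / 2 ≤ η * s := by
    have : 0 < η * s := by positivity
    linarith
  have hfin := hvol (Sc (σ k) (M k)) (q k) s 0 f hs0 le_rfl (by simpa using hη.le)
    (by simpa using hRic' k)
    (fun y hy y' hy' => (hf1 y y' (by rw [dist_comm]; exact hy)
      (by rw [dist_comm]; exact hy')).trans hη2)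
    (fun w hw => by
      rw [hf0, mem_ball] at hw
      obtain ⟨y, hy1, hy2⟩ := hf2 w (by
        rw [dist_comm]
        nlinarith)
      exact ⟨y, by rw [mem_ball, dist_comm]; exact hy1, hy2.trans hη2⟩)
    hk2
  have hts : t₀ * s = 2 * T := by
    rw [hs]
    field_simp
  rw [hts, ratio_sc (σ k) (q k) (by positivity)] at hfin
  have h2ρ : (σ k).1 * (2 * T) = 2 * ρ k := by
    rw [← hσT k]
    ring
  rw [h2ρ] at hfin
  have hbad := hx k hk3
  have hlt : ENNReal.ofReal (1 - δ₁) * volume (ball (0 : EuclideanSpace ℝ (Fin 4)) (2 * ρ k)) ≤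
      ENNReal.ofReal (1 - δ₁ / 2) *
        volume (ball (0 : EuclideanSpace ℝ (Fin 4)) (2 * ρ k)) := by
    gcongr
    linarith
  exact absurd (hlt.trans hfin) (not_le.2 hbad)

end Crest.Agent.R249.Bad174
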