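import Crest.Agent.R247.Bo2_84

/-!
# R249, D1 (helper104): Bianchi identities in coordinates, index free

For `IsRiemannianOn g U`, `x ∈ U`, `R(W,X)Y = curv (Gam g) x W X Y`:
* `curv_swap`, `curv_skew` (`⟨R(X,W)Y,Z⟩ = -⟨R(X,W)Z,Y⟩`), `curv_first` (first Bianchi),
  `curv_pair` (pair symmetry);
* `covR` : covariant derivative of the curvature, `covR_second` (second Bianchi identity),
  `covR_skew`.
-/

set_option autoImplicit false

open scoped ContDiff Topology
open Filter Set
open Crest.GeometryTopology.CoordMetric Crest.GeometryTopology.ChartCurvature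
open Crest.Agent.R202.Tens Crest.Agent.R247.Bo84

noncomputable section

namespace Crest.Agent.R249.Bia1_104

variable {n : ℕ}

local notation "𝔼" => EuclideanSpace ℝ (Fin n)

variable {g : MetricField n} {U : Set (EuclideanSpace ℝ (Fin n))} {x : EuclideanSpace ℝ (Fin n)}

/-! ### algebraic symmetries -/

lemma curv_swap (g : MetricField n) (x W X Y : 𝔼) :
    curv (Gam g) x W X Y = - curv (Gam g) x X W Y := by
  simp only [curv]
  abel

lemma curv_self (g : MetricField n) (x W Y : 𝔼) : curv (Gam g) x W W Y = 0 := by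
  simp [curv]

lemma differentiableAt_Gam (hg : IsRiemannianOn g U) (hx : x ∈ U) :
    DifferentiableAt ℝ (Gam g) x := (contDiffAt_Gam hg hx).differentiableAt (by simp)

lemma fderiv_Gam_const (hg : IsRiemannianOn g U) (hx : x ∈ U) (V X Y : 𝔼) :
    fderiv ℝ (fun y => Gam g y X Y) x V = fderiv ℝ (Gam g) x V X Y := by
  have h1 := fderiv_apply2 (G := Gam g) (Φ := fun z => z) (u := fun _ => X) (v := fun _ => Y)
    (y := x) (differentiableAt_Gam hg hx) differentiableAt_id (differentiableAt_const _)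
    (differentiableAt_const _) V
  simpa using h1

lemma fderiv_Gam_symm (hg : IsRiemannianOn g U) (hx : x ∈ U) (V X Y : 𝔼) :
    fderiv ℝ (Gam g) x V X Y = fderiv ℝ (Gam g) x V Y X := by
  rw [← fderiv_Gam_const hg hx, ← fderiv_Gam_const hg hx]
  have : (fun y => Gam g y X Y) =ᶠ[𝓝 x] fun y => Gam g y Y X := by
    filter_upwards [hg.isOpen.mem_nhds hx] with y hy using Gam_symm hg hy X Y
  rw [this.fderiv_eq]

/-- first Bianchi identity. -/
theorem curv_first (hg : IsRiemannianOn g U) (hx : x ∈ U) (W X Y : 𝔼) :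
    curv (Gam g) x W X Y + curv (Gam g) x X Y W + curv (Gam g) x Y W X = 0 := by
  simp only [curv]
  rw [fderiv_Gam_symm hg hx W Y X, fderiv_Gam_symm hg hx X W Y, fderiv_Gam_symm hg hx Y X W,
    Gam_symm hg hx Y X, Gam_symm hg hx W Y, Gam_symm hg hx X W]
  abel

/-- skew symmetry in the last two arguments. -/
theorem curv_skew (hg : IsRiemannianOn g U) (hx : x ∈ U) (X W Y Z : 𝔼) :
    bil (g x) (curv (Gam g) x X W Y) Z = - bil (g x) (curv (Gam g) x X W Z) Y := by
  -- `φ = ⟨Y, Z⟩` for constant fields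
  have hU := hg.isOpen.mem_nhds hx
  -- first derivative
  have h1 : ∀ W : 𝔼, ∀ y ∈ U, fderiv ℝ (fun y => bil (g y) Y Z) y W =
      bil (g y) (Gam g y W Y) Z + bil (g y) Y (Gam g y W Z) := by
    intro W y hy
    have := fderiv_bil hg hy (differentiableAt_const Y) (differentiableAt_const Z) W
    rw [this, cov_apply, cov_apply]
    simp
  have hd : ∀ W Y : 𝔼, DifferentiableAt ℝ (fun y => Gam g y W Y) x := fun W Y =>
    ((differentiableAt_Gam hg hx).clm_apply (differentiableAt_const _)).clm_apply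
      (differentiableAt_const _)
  have hcv : ∀ X W Y : 𝔼, cov g (fun y => Gam g y W Y) x X =
      fderiv ℝ (Gam g) x X W Y + Gam g x X (Gam g x W Y) := by
    intro X W Y
    rw [cov_apply, fderiv_Gam_const hg hx]
  -- second derivative
  have h2 : ∀ X W : 𝔼, fderiv ℝ (fun y => fderiv ℝ (fun y => bil (g y) Y Z) y W) x X =
      (bil (g x) (fderiv ℝ (Gam g) x X W Y + Gam g x X (Gam g x W Y)) Z +
        bil (g x) (Gam g x W Y) (Gam g x X Z)) +
      (bil (g x) (Gam g x X Y) (Gam g x W Z) +
        bil (g x) Y (fderiv ℝ (Gam g) x X W Z + Gam g x X (Gam g x W Z))) := by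
    intro X W
    have e : (fun y => fderiv ℝ (fun y => bil (g y) Y Z) y W) =ᶠ[𝓝 x]
        fun y => bil (g y) (Gam g y W Y) Z + bil (g y) Y (Gam g y W Z) := by
      filter_upwards [hU] with y hy using h1 W y hy
    rw [e.fderiv_eq]
    have d0 : ∀ V W : 𝔼 → 𝔼, DifferentiableAt ℝ V x → DifferentiableAt ℝ W x →
        DifferentiableAt ℝ (fun y => bil (g y) (V y) (W y)) x := by
      intro V W hV hW
      have : DifferentiableAt ℝ (fun y => Gf g y (V y) (W y)) x :=
        ((differentiableAt_Gf hg hx).clm_apply hV).clm_apply hW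
      exact this
    rw [fderiv_fun_add (d0 _ _ (hd W Y) (differentiableAt_const Z))
      (d0 _ _ (differentiableAt_const Y) (hd W Z)), add_apply,
      fderiv_bil hg hx (hd W Y) (differentiableAt_const Z),
      fderiv_bil hg hx (differentiableAt_const Y) (hd W Z), hcv, hcv]
    simp only [cov_apply, fderiv_fun_const, Pi.zero_apply, zero_apply, zero_add]
  have hC : ContDiffAt ℝ 2 (fun y => bil (g y) Y Z) x := by
    have : (fun y => bil (g y) Y Z) = fun y => ∑ i, ∑ j, g y i j * Y i * Z j := by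
      funext y; rw [bil_apply]
    rw [this]
    refine ContDiffAt.sum fun i _ => ContDiffAt.sum fun j _ => ?_
    exact (((contDiffAt_entry hg hx i j).of_le (WithTop.coe_le_coe.2 le_top)).mul
      contDiffAt_const).mul contDiffAt_const
  have hs := hC.isSymmSndFDerivAt (by simp)
  have hdd : DifferentiableAt ℝ (fderiv ℝ fun y => bil (g y) Y Z) x :=
    (hC.fderiv_right (m := 1) (by norm_num)).differentiableAt (by norm_num)
  have h3 : ∀ X W : 𝔼, fderiv ℝ (fun y => fderiv ℝ (fun y => bil (g y) Y Z) y W) x X =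
      fderiv ℝ (fderiv ℝ fun y => bil (g y) Y Z) x X W := by
    intro X W
    rw [fderiv_clm_apply hdd (differentiableAt_const _)]
    simp
  have h4 := h2 X W
  have h5 := h2 W X
  rw [h3] at h4 h5
  have h6 := hs.eq X W
  rw [h4, h5] at h6
  have b1 := bil_symm hg hx Y (curv (Gam g) x X W Z)
  have b2 := bil_symm hg hx (Gam g x W Y) (Gam g x X Z)
  rw [← b1]
  simp only [curv, map_add, map_sub, add_apply, sub_apply] at h6 ⊢
  linarith

/-- pair symmetry. -/
theorem curv_pair (hg : IsRiemannianOn g U) (hx : x ∈ U) (X W Y Z : 𝔼) :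
    bil (g x) (curv (Gam g) x X W Y) Z = bil (g x) (curv (Gam g) x Z Y W) X := by
  -- octahedron
  have A : ∀ a b c d : 𝔼, bil (g x) (curv (Gam g) x a b c) d +
      bil (g x) (curv (Gam g) x b c a) d + bil (g x) (curv (Gam g) x c a b) d = 0 := by
    intro a b c d
    have := congrArg (fun v => bil (g x) v d) (curv_first hg hx a b c)
    simpa [map_add, add_apply] using this
  have S1 : ∀ a b c d : 𝔼, bil (g x) (curv (Gam g) x a b c) d =
      - bil (g x) (curv (Gam g) x b a c) d := by
    intro a b c d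
    rw [curv_swap, map_neg, neg_apply]
  have S2 : ∀ a b c d : 𝔼, bil (g x) (curv (Gam g) x a b c) d =
      - bil (g x) (curv (Gam g) x a b d) c := fun a b c d => curv_skew hg hx a b c d
  have a1 := A X W Y Z
  have a2 := A W Y Z X
  have a3 := A Y Z X W
  have a4 := A Z X W Y
  have s1 := S1 X W Y Z
  have t1 := S2 X W Y Z
  have t2 := S2 W Y X Z
  have t3 := S2 Y X W Z
  have t4 := S2 W Y Z X
  have t5 := S2 Y Z W X
  have t6 := S2 Z W Y X
  have t7 := S2 Y Z X W
  have t8 := S2 Z X Y W
  have t9 := S2 X Y Z W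
  have u1 := S1 X W Z Y
  have u2 := S1 Z Y W X
  have u3 := S1 Y X W Z
  have u4 := S1 W Z Y X
  have u5 := S1 Z X W Y
  have u6 := S1 X Y Z W
  have u7 := S1 Z W Y X
  have u8 := S1 Z X Y W
  have u9 := S1 W X Z Y
  have v1 := S2 Z X W Y
  have v2 := S2 X W Z Y
  have v3 := S2 W Z X Y
  have v4 := S1 W Z X Y
  have v5 := S1 W Y Z X
  linarith

end Crest.Agent.R249.Bia1_104
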