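import Crest.Agent.R249.Bia1_104

/-!
# R249, D1 (helper104): second Bianchi identity in coordinates, index free

`covR g x V W X Y = (∇_V R)(W, X) Y`; `covR_second` : the cyclic sum over `V, W, X` vanishes;
`covR_skew` : `⟨(∇_V R)(W,X)Y, Z⟩ = -⟨(∇_V R)(W,X)Z, Y⟩`.
-/

set_option autoImplicit false
set_option maxSynthPendingDepth 3

open scoped ContDiff Topology
open Filter Set
open Crest.GeometryTopology.CoordMetric Crest.GeometryTopology.ChartCurvature
open Crest.Agent.R202.Tens Crest.Agent.R247.Bo84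

noncomputable section

namespace Crest.Agent.R249.Bia2_104

open Crest.Agent.R249.Bia1_104

variable {n : ℕ}

local notation "𝔼" => EuclideanSpace ℝ (Fin n)

variable {g : MetricField n} {U : Set (EuclideanSpace ℝ (Fin n))} {x : EuclideanSpace ℝ (Fin n)}

/-- `(∇_V R)(W, X) Y`. -/
def covR (g : MetricField n) (x V W X Y : EuclideanSpace ℝ (Fin n)) : EuclideanSpace ℝ (Fin n) :=
  fderiv ℝ (fun y => curv (Gam g) y W X Y) x V + Gam g x V (curv (Gam g) x W X Y)
    - curv (Gam g) x (Gam g x V W) X Y - curv (Gam g) x W (Gam g x V X) Y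
    - curv (Gam g) x W X (Gam g x V Y)

lemma differentiableAt_fderiv_Gam (hg : IsRiemannianOn g U) (hx : x ∈ U) :
    DifferentiableAt ℝ (fderiv ℝ (Gam g)) x :=
  ((contDiffAt_Gam hg hx).fderiv_right (m := 1)
    (by norm_cast)).differentiableAt (by norm_num)

lemma differentiableAt_curv (hg : IsRiemannianOn g U) (hx : x ∈ U) (W X Y : 𝔼) :
    DifferentiableAt ℝ (fun y => curv (Gam g) y W X Y) x := by
  have h1 := differentiableAt_fderiv_Gam hg hx
  have h2 := differentiableAt_Gam hg hx
  have c : ∀ V : 𝔼, DifferentiableAt ℝ (fun _ : 𝔼 => V) x := fun V => differentiableAt_const V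
  unfold curv
  exact ((((h1.clm_apply (c W)).clm_apply (c X)).clm_apply (c Y)).sub
    (((h1.clm_apply (c X)).clm_apply (c W)).clm_apply (c Y))).add
    ((h2.clm_apply (c W)).clm_apply ((h2.clm_apply (c X)).clm_apply (c Y))) |>.sub
    ((h2.clm_apply (c X)).clm_apply ((h2.clm_apply (c W)).clm_apply (c Y)))

/-- the derivative of the curvature. -/
lemma fderiv_curv (hg : IsRiemannianOn g U) (hx : x ∈ U) (V W X Y : 𝔼) :
    fderiv ℝ (fun y => curv (Gam g) y W X Y) x V =
      fderiv ℝ (fderiv ℝ (Gam g)) x V W X Y - fderiv ℝ (fderiv ℝ (Gam g)) x V X W Y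
      + (fderiv ℝ (Gam g) x V W (Gam g x X Y) + Gam g x W (fderiv ℝ (Gam g) x V X Y))
      - (fderiv ℝ (Gam g) x V X (Gam g x W Y) + Gam g x X (fderiv ℝ (Gam g) x V W Y)) := by
  have h1 := differentiableAt_fderiv_Gam hg hx
  have h2 := differentiableAt_Gam hg hx
  have c : ∀ V : 𝔼, DifferentiableAt ℝ (fun _ : 𝔼 => V) x := fun V => differentiableAt_const V
  have k1 : ∀ W X : 𝔼, DifferentiableAt ℝ (fun y => fderiv ℝ (Gam g) y W X Y) x := fun W X =>
    ((h1.clm_apply (c W)).clm_apply (c X)).clm_apply (c Y)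
  have k2 : ∀ W X : 𝔼, DifferentiableAt ℝ (fun y => Gam g y W (Gam g y X Y)) x := fun W X =>
    (h2.clm_apply (c W)).clm_apply ((h2.clm_apply (c X)).clm_apply (c Y))
  have e1 : ∀ W X : 𝔼, fderiv ℝ (fun y => fderiv ℝ (Gam g) y W X Y) x V =
      fderiv ℝ (fderiv ℝ (Gam g)) x V W X Y := by
    intro W X
    rw [fderiv_clm_apply ((h1.clm_apply (c W)).clm_apply (c X)) (c Y)]
    simp only [add_apply, ContinuousLinearMap.comp_apply, ContinuousLinearMap.flip_apply,
      fderiv_fun_const, Pi.zero_apply, zero_apply, map_zero, zero_add]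
    rw [fderiv_clm_apply (h1.clm_apply (c W)) (c X)]
    simp only [add_apply, ContinuousLinearMap.comp_apply, ContinuousLinearMap.flip_apply,
      fderiv_fun_const, Pi.zero_apply, zero_apply, map_zero, zero_add]
    rw [fderiv_clm_apply h1 (c W)]
    simp only [add_apply, ContinuousLinearMap.comp_apply, ContinuousLinearMap.flip_apply,
      fderiv_fun_const, Pi.zero_apply, zero_apply, map_zero, zero_add]
  have e2 : ∀ W X : 𝔼, fderiv ℝ (fun y => Gam g y W (Gam g y X Y)) x V =
      fderiv ℝ (Gam g) x V W (Gam g x X Y) + Gam g x W (fderiv ℝ (Gam g) x V X Y) := by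
    intro W X
    have := fderiv_apply2 (G := Gam g) (Φ := fun z => z) (u := fun _ => W)
      (v := fun y => Gam g y X Y) (y := x) h2 differentiableAt_id (c W)
      ((h2.clm_apply (c X)).clm_apply (c Y)) V
    rw [fderiv_Gam_const hg hx] at this
    simpa using this
  have e0 : (fun y => curv (Gam g) y W X Y) = fun y =>
      fderiv ℝ (Gam g) y W X Y - fderiv ℝ (Gam g) y X W Y + Gam g y W (Gam g y X Y)
        - Gam g y X (Gam g y W Y) := rfl
  have e3 := ((((k1 W X).hasFDerivAt.fun_sub (k1 X W).hasFDerivAt).fun_add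
    (k2 W X).hasFDerivAt).fun_sub (k2 X W).hasFDerivAt).fderiv
  rw [e0, e3]
  simp only [add_apply, sub_apply]
  rw [e1, e1, e2, e2]

lemma fderiv2_Gam_symm (hg : IsRiemannianOn g U) (hx : x ∈ U) (V W : 𝔼) :
    fderiv ℝ (fderiv ℝ (Gam g)) x V W = fderiv ℝ (fderiv ℝ (Gam g)) x W V := by
  have h := ((contDiffAt_Gam hg hx).of_le (m := 2)
    (WithTop.coe_le_coe.2 le_top)).isSymmSndFDerivAt (by simp)
  exact h.eq V W

/-- **second Bianchi identity.** -/
theorem covR_second (hg : IsRiemannianOn g U) (hx : x ∈ U) (V W X Y : 𝔼) :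
    covR g x V W X Y + covR g x W X V Y + covR g x X V W Y = 0 := by
  simp only [covR, fderiv_curv hg hx]
  simp only [curv]
  rw [fderiv2_Gam_symm hg hx W V, fderiv2_Gam_symm hg hx X V, fderiv2_Gam_symm hg hx X W,
    Gam_symm hg hx W V, Gam_symm hg hx X V, Gam_symm hg hx X W]
  simp only [map_add, map_sub]
  abel

/-- the covariant derivative of the curvature is skew in the last two arguments. -/
theorem covR_skew (hg : IsRiemannianOn g U) (hx : x ∈ U) (V W X Y Z : 𝔼) :
    bil (g x) (covR g x V W X Y) Z = - bil (g x) (covR g x V W X Z) Y := by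
  have hU := hg.isOpen.mem_nhds hx
  have h0 : (fun y => bil (g y) (curv (Gam g) y W X Y) Z) =ᶠ[𝓝 x]
      fun y => - bil (g y) (curv (Gam g) y W X Z) Y := by
    filter_upwards [hU] with y hy using curv_skew hg hy W X Y Z
  have h1 := congrArg (fun L : 𝔼 →L[ℝ] ℝ => L V) h0.fderiv_eq
  have d : ∀ Y Z : 𝔼, DifferentiableAt ℝ (fun y => bil (g y) (curv (Gam g) y W X Y) Z) x := by
    intro Y Z
    have : DifferentiableAt ℝ (fun y => Gf g y (curv (Gam g) y W X Y) Z) x :=
      ((differentiableAt_Gf hg hx).clm_apply (differentiableAt_curv hg hx W X Y)).clm_apply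
        (differentiableAt_const _)
    exact this
  have h2 : fderiv ℝ (fun y => - bil (g y) (curv (Gam g) y W X Z) Y) x V =
      - fderiv ℝ (fun y => bil (g y) (curv (Gam g) y W X Z) Y) x V := by
    rw [fderiv_fun_neg]
    rfl
  rw [h2, fderiv_bil hg hx (differentiableAt_curv hg hx W X Y) (differentiableAt_const Z),
    fderiv_bil hg hx (differentiableAt_curv hg hx W X Z) (differentiableAt_const Y)] at h1
  simp only [cov_apply, fderiv_fun_const, Pi.zero_apply, zero_apply, zero_add] at h1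
  have s1 := curv_skew hg hx W X Y (Gam g x V Z)
  have s2 := curv_skew hg hx W X Z (Gam g x V Y)
  have s3 := curv_skew hg hx (Gam g x V W) X Y Z
  have s4 := curv_skew hg hx W (Gam g x V X) Y Z
  simp only [covR, map_add, map_sub, add_apply, sub_apply] at h1 ⊢
  linarith

end Crest.Agent.R249.Bia2_104
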