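import Crest.Agent.R249.Bia2_104
import Crest.Agent.R249.D1Def_104

/-!
# R249, D1 (helper104): contracted Bianchi identity and the divergence of `Ric(∇f)`

* `ricF g x X Y = Ric(X, Y)`, `ricE g x` : the Ricci endomorphism;
* `contracted` : `2 Σ_a (∇_{e_a} Ric)(V, e_a) = ds(V)`;
* `divg_ricE` : `div (Ric ∇f) = ½ ⟨ds, df⟩ + tr (Ric ∘ Hess f)`.
-/

set_option autoImplicit false
set_option maxSynthPendingDepth 3

open scoped ContDiff Topology
open Filter Set
open Crest.GeometryTopology.CoordMetric Crest.GeometryTopology.ChartCurvature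
  Crest.GeometryTopology.RicciEnergy
open Crest.Agent.R202.Tens Crest.Agent.R247.Bo84

noncomputable section

namespace Crest.Agent.R249.Bia3_104

open Crest.Agent.R249.Bia1_104 Crest.Agent.R249.Bia2_104

variable {n : ℕ}

local notation "𝔼" => EuclideanSpace ℝ (Fin n)

variable {g : MetricField n} {U : Set (EuclideanSpace ℝ (Fin n))} {x : EuclideanSpace ℝ (Fin n)}

/-! ### linear traces -/

/-- trace of a map `𝔼 → 𝔼` (meaningful for linear maps) -/
def trF (T : EuclideanSpace ℝ (Fin n) → EuclideanSpace ℝ (Fin n)) : ℝ :=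
  ∑ k, T (EuclideanSpace.single k 1) k

lemma trF_eq_trL (T : 𝔼 →L[ℝ] 𝔼) : trF (fun X => T X) = trL T := (trL_apply T).symm

/-- a linear map as a continuous linear map -/
def mkL (T : EuclideanSpace ℝ (Fin n) → EuclideanSpace ℝ (Fin n))
    (h1 : ∀ X Y, T (X + Y) = T X + T Y) (h2 : ∀ (c : ℝ) X, T (c • X) = c • T X) :
    EuclideanSpace ℝ (Fin n) →L[ℝ] EuclideanSpace ℝ (Fin n) :=
  LinearMap.toContinuousLinearMap ⟨⟨T, h1⟩, h2⟩

@[simp] lemma mkL_apply {T : 𝔼 → 𝔼} (h1 : ∀ X Y, T (X + Y) = T X + T Y)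
    (h2 : ∀ (c : ℝ) X, T (c • X) = c • T X) (X : 𝔼) : mkL T h1 h2 X = T X := rfl

/-- trace in a frame. -/
lemma trF_frame (hg : IsRiemannianOn g U) (hx : x ∈ U) {ξ : Fin n → 𝔼} (h : IsFrame (g x) ξ)
    {T : 𝔼 → 𝔼} (h1 : ∀ X Y, T (X + Y) = T X + T Y) (h2 : ∀ (c : ℝ) X, T (c • X) = c • T X) :
    trF T = ∑ a, bil (g x) (T (ξ a)) (ξ a) := by
  have := h.trL_eq hg hx (mkL T h1 h2)
  rw [← trF_eq_trL] at this
  exact this

lemma trF_comm {T : 𝔼 → 𝔼} (h1 : ∀ X Y, T (X + Y) = T X + T Y)
    (h2 : ∀ (c : ℝ) X, T (c • X) = c • T X) (S : 𝔼 →L[ℝ] 𝔼) :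
    trF (fun X => S (T X)) = trF (fun X => T (S X)) := by
  have := trL_comp_comm S (mkL T h1 h2)
  rw [← trF_eq_trL, ← trF_eq_trL] at this
  exact this

lemma trF_add (S T : 𝔼 → 𝔼) : trF (fun X => S X + T X) = trF S + trF T := by
  simp [trF, Finset.sum_add_distrib]

lemma trF_sub (S T : 𝔼 → 𝔼) : trF (fun X => S X - T X) = trF S - trF T := by
  simp [trF, Finset.sum_sub_distrib]

/-! ### linearity of `curv` and `covR` -/

lemma curv_add1 (g : MetricField n) (x W W' X Y : 𝔼) :
    curv (Gam g) x (W + W') X Y = curv (Gam g) x W X Y + curv (Gam g) x W' X Y := by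
  simp only [curv, map_add, add_apply]; abel

lemma curv_smul1 (g : MetricField n) (c : ℝ) (x W X Y : 𝔼) :
    curv (Gam g) x (c • W) X Y = c • curv (Gam g) x W X Y := by
  simp only [curv, map_smul, smul_apply, smul_sub, smul_add]

lemma curv_add2 (g : MetricField n) (x W X X' Y : 𝔼) :
    curv (Gam g) x W (X + X') Y = curv (Gam g) x W X Y + curv (Gam g) x W X' Y := by
  simp only [curv, map_add, add_apply]; abel

lemma curv_smul2 (g : MetricField n) (c : ℝ) (x W X Y : 𝔼) :
    curv (Gam g) x W (c • X) Y = c • curv (Gam g) x W X Y := by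
  simp only [curv, map_smul, smul_apply, smul_sub, smul_add]

lemma curv_add3 (g : MetricField n) (x W X Y Y' : 𝔼) :
    curv (Gam g) x W X (Y + Y') = curv (Gam g) x W X Y + curv (Gam g) x W X Y' := by
  simp only [curv, map_add]; abel

lemma curv_smul3 (g : MetricField n) (c : ℝ) (x W X Y : 𝔼) :
    curv (Gam g) x W X (c • Y) = c • curv (Gam g) x W X Y := by
  simp only [curv, map_smul, smul_sub, smul_add]

lemma covR_swap (g : MetricField n) (x V W X Y : 𝔼) :
    covR g x V W X Y = - covR g x V X W Y := by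
  have e : (fun y => curv (Gam g) y W X Y) = fun y => - curv (Gam g) y X W Y := by
    funext y; exact curv_swap g y W X Y
  have e2 : fderiv ℝ (fun y => curv (Gam g) y W X Y) x V =
      - fderiv ℝ (fun y => curv (Gam g) y X W Y) x V := by
    rw [e, fderiv_fun_neg]; rfl
  simp only [covR]
  rw [e2, curv_swap g x W X Y, curv_swap g x (Gam g x V W) X Y,
    curv_swap g x W (Gam g x V X) Y, curv_swap g x W X (Gam g x V Y), map_neg]
  abel

lemma fderiv_curv_add1 (hg : IsRiemannianOn g U) (hx : x ∈ U) (V W W' X Y : 𝔼) :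
    fderiv ℝ (fun y => curv (Gam g) y (W + W') X Y) x V =
      fderiv ℝ (fun y => curv (Gam g) y W X Y) x V +
        fderiv ℝ (fun y => curv (Gam g) y W' X Y) x V := by
  simp only [curv_add1]
  rw [fderiv_fun_add (differentiableAt_curv hg hx W X Y) (differentiableAt_curv hg hx W' X Y)]
  rfl

lemma fderiv_curv_smul1 (hg : IsRiemannianOn g U) (hx : x ∈ U) (c : ℝ) (V W X Y : 𝔼) :
    fderiv ℝ (fun y => curv (Gam g) y (c • W) X Y) x V =
      c • fderiv ℝ (fun y => curv (Gam g) y W X Y) x V := by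
  simp only [curv_smul1]
  rw [fderiv_fun_const_smul (differentiableAt_curv hg hx W X Y)]
  rfl

lemma covR_add2 (hg : IsRiemannianOn g U) (hx : x ∈ U) (V W W' X Y : 𝔼) :
    covR g x V (W + W') X Y = covR g x V W X Y + covR g x V W' X Y := by
  simp only [covR]
  rw [fderiv_curv_add1 hg hx]
  simp only [map_add, curv_add1]
  abel

lemma covR_smul2 (hg : IsRiemannianOn g U) (hx : x ∈ U) (c : ℝ) (V W X Y : 𝔼) :
    covR g x V (c • W) X Y = c • covR g x V W X Y := by
  simp only [covR]
  rw [fderiv_curv_smul1 hg hx]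
  simp only [map_smul, curv_smul1, smul_sub, smul_add]

lemma covR_add1 (g : MetricField n) (x V V' W X Y : 𝔼) :
    covR g x (V + V') W X Y = covR g x V W X Y + covR g x V' W X Y := by
  simp only [covR, map_add, add_apply, curv_add1, curv_add2, curv_add3]
  abel

lemma covR_smul1 (g : MetricField n) (c : ℝ) (x V W X Y : 𝔼) :
    covR g x (c • V) W X Y = c • covR g x V W X Y := by
  simp only [covR, map_smul, smul_apply, curv_smul1, curv_smul2, curv_smul3, smul_sub, smul_add]

/-! ### the Ricci form -/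

/-- the Ricci form -/
def ricF (g : MetricField n) (x X Y : EuclideanSpace ℝ (Fin n)) : ℝ :=
  trF (fun W => curv (Gam g) x W X Y)

lemma ricF_eq (hg : IsRiemannianOn g U) (hx : x ∈ U) (X Y : 𝔼) :
    ricF g x X Y = ∑ i, ∑ j, ricci g x i j * Y i * X j := (ricci_form hg hx X Y).symm

lemma ricF_frame (hg : IsRiemannianOn g U) (hx : x ∈ U) {ξ : Fin n → 𝔼} (h : IsFrame (g x) ξ)
    (X Y : 𝔼) : ricF g x X Y = ∑ a, bil (g x) (curv (Gam g) x (ξ a) X Y) (ξ a) :=
  trF_frame hg hx h (fun W W' => curv_add1 g x W W' X Y) (fun c W => curv_smul1 g c x W X Y)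

lemma ricF_symm (hg : IsRiemannianOn g U) (hx : x ∈ U) (X Y : 𝔼) :
    ricF g x X Y = ricF g x Y X := by
  obtain ⟨ξ, h⟩ := exists_frame hg hx
  rw [ricF_frame hg hx h, ricF_frame hg hx h]
  exact Finset.sum_congr rfl fun a _ => curv_pair hg hx _ _ _ _

lemma ricci_symm (hg : IsRiemannianOn g U) (hx : x ∈ U) (i j : Fin n) :
    ricci g x i j = ricci g x j i := by
  have h := ricF_symm hg hx (EuclideanSpace.single i 1) (EuclideanSpace.single j 1)
  rw [ricF_eq hg hx, ricF_eq hg hx] at h
  have key : ∀ a b : Fin n, ∑ i, ∑ j, ricci g x i j *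
      (EuclideanSpace.single b (1:ℝ) : 𝔼) i * (EuclideanSpace.single a (1:ℝ) : 𝔼) j =
      ricci g x b a := by
    intro a b
    rw [Finset.sum_eq_single b, Finset.sum_eq_single a]
    · simp
    · intro c _ hc; simp [hc]
    · simp
    · intro c _ hc
      refine Finset.sum_eq_zero fun d _ => ?_
      simp [hc]
    · simp
  rw [key, key] at h
  exact h.symm

/-- `(∇_V Ric)(X, Y)` -/
def covRic (g : MetricField n) (x V X Y : EuclideanSpace ℝ (Fin n)) : ℝ :=
  fderiv ℝ (fun y => ricF g y X Y) x V - ricF g x (Gam g x V X) Y - ricF g x X (Gam g x V Y)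

lemma differentiableAt_ricF (hg : IsRiemannianOn g U) (hx : x ∈ U) (X Y : 𝔼) :
    DifferentiableAt ℝ (fun y => ricF g y X Y) x := by
  unfold ricF trF
  refine DifferentiableAt.fun_sum fun k _ => ?_
  exact (EuclideanSpace.proj k : 𝔼 →L[ℝ] ℝ).differentiableAt.comp x
    (differentiableAt_curv hg hx (EuclideanSpace.single k 1) X Y)

lemma fderiv_ricF (hg : IsRiemannianOn g U) (hx : x ∈ U) (V X Y : 𝔼) :
    fderiv ℝ (fun y => ricF g y X Y) x V =
      trF (fun W => fderiv ℝ (fun y => curv (Gam g) y W X Y) x V) := by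
  have h1 : ∀ k : Fin n, HasFDerivAt
      (fun y => curv (Gam g) y (EuclideanSpace.single k (1:ℝ)) X Y k)
      ((EuclideanSpace.proj k : 𝔼 →L[ℝ] ℝ).comp
        (fderiv ℝ (fun y => curv (Gam g) y (EuclideanSpace.single k (1:ℝ)) X Y) x)) x := fun k =>
    (EuclideanSpace.proj k : 𝔼 →L[ℝ] ℝ).hasFDerivAt.comp x
      (differentiableAt_curv hg hx (EuclideanSpace.single k 1) X Y).hasFDerivAt
  have h2 := (HasFDerivAt.fun_sum (u := Finset.univ) fun k _ => h1 k).fderiv
  unfold ricF trF
  rw [h2]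
  simp only [sum_apply, ContinuousLinearMap.comp_apply]
  rfl

/-- the trace of `(∇_V R)(·, X)Y` is `(∇_V Ric)(X, Y)`. -/
lemma trF_covR (hg : IsRiemannianOn g U) (hx : x ∈ U) (V X Y : 𝔼) :
    trF (fun W => covR g x V W X Y) = covRic g x V X Y := by
  have h1 := trF_comm (T := fun W => curv (Gam g) x W X Y) (fun W W' => curv_add1 g x W W' X Y)
    (fun c W => curv_smul1 g c x W X Y) (Gam g x V)
  have e : (fun W => covR g x V W X Y) = fun W =>
      ((((fderiv ℝ (fun y => curv (Gam g) y W X Y) x V) + Gam g x V (curv (Gam g) x W X Y))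
        - curv (Gam g) x (Gam g x V W) X Y) - curv (Gam g) x W (Gam g x V X) Y)
        - curv (Gam g) x W X (Gam g x V Y) := rfl
  rw [e, trF_sub, trF_sub, trF_sub, trF_add, ← fderiv_ricF hg hx]
  simp only [covRic, ricF]
  rw [h1]
  ring

lemma covRic_symm (hg : IsRiemannianOn g U) (hx : x ∈ U) (V X Y : 𝔼) :
    covRic g x V X Y = covRic g x V Y X := by
  have h : (fun y => ricF g y X Y) =ᶠ[𝓝 x] fun y => ricF g y Y X := by
    filter_upwards [hg.isOpen.mem_nhds hx] with y hy using ricF_symm hg hy X Y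
  rw [covRic, covRic, h.fderiv_eq, ricF_symm hg hx (Gam g x V X) Y,
    ricF_symm hg hx X (Gam g x V Y)]
  ring

/-- **contracted Bianchi identity.** -/
theorem contracted (hg : IsRiemannianOn g U) (hx : x ∈ U) {ξ : Fin n → 𝔼}
    (h : IsFrame (g x) ξ) (V : 𝔼) :
    2 * ∑ a, covRic g x (ξ a) V (ξ a) = ∑ b, covRic g x V (ξ b) (ξ b) := by
  -- first trace
  have B1 : ∀ X Y : 𝔼, ∑ a, bil (g x) (covR g x (ξ a) X V Y) (ξ a) =
      covRic g x X V Y - covRic g x V X Y := by
    intro X Y
    have h1 : trF (fun W => covR g x V W X Y + covR g x W X V Y + covR g x X V W Y) = 0 := by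
      have : (fun W => covR g x V W X Y + covR g x W X V Y + covR g x X V W Y) =
          fun _ => (0 : 𝔼) := by
        funext W; exact covR_second hg hx V W X Y
      rw [this]; simp [trF]
    rw [trF_add, trF_add, trF_covR hg hx] at h1
    have h3 : trF (fun W => covR g x X V W Y) = - covRic g x X V Y := by
      rw [← trF_covR hg hx]
      have : (fun W => covR g x X V W Y) = fun W => - covR g x X W V Y := by
        funext W; exact covR_swap g x X V W Y
      rw [this]
      simp [trF]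
    have h2 := trF_frame hg hx h (T := fun W => covR g x W X V Y)
      (fun W W' => covR_add1 g x W W' X V Y) (fun c W => covR_smul1 g c x W X V Y)
    rw [h3, h2] at h1
    linarith
  -- second trace
  have B2 : ∑ b, ∑ a, bil (g x) (covR g x (ξ a) (ξ b) V (ξ b)) (ξ a) =
      ∑ b, (covRic g x (ξ b) V (ξ b) - covRic g x V (ξ b) (ξ b)) :=
    Finset.sum_congr rfl fun b _ => B1 (ξ b) (ξ b)
  have B3 : ∑ b, ∑ a, bil (g x) (covR g x (ξ a) (ξ b) V (ξ b)) (ξ a) =
      - ∑ a, covRic g x (ξ a) V (ξ a) := by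
    rw [Finset.sum_comm, ← Finset.sum_neg_distrib]
    refine Finset.sum_congr rfl fun a _ => ?_
    rw [← trF_covR hg hx, trF_frame hg hx h (T := fun W => covR g x (ξ a) W V (ξ a))
      (fun W W' => covR_add2 hg hx (ξ a) W W' V (ξ a)) (fun c W => covR_smul2 hg hx c (ξ a) W V (ξ a)),
      ← Finset.sum_neg_distrib]
    exact Finset.sum_congr rfl fun b _ => covR_skew hg hx _ _ _ _ _
  rw [B3, Finset.sum_sub_distrib] at B2
  linarith

/-! ### the Ricci endomorphism -/

/-- the Ricci endomorphism -/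
def ricE (g : MetricField n) (x : EuclideanSpace ℝ (Fin n)) :
    EuclideanSpace ℝ (Fin n) →L[ℝ] EuclideanSpace ℝ (Fin n) :=
  ∑ i, ∑ k, (∑ j, inverseField g x i j * ricci g x j k) •
    (EuclideanSpace.proj k : EuclideanSpace ℝ (Fin n) →L[ℝ] ℝ).smulRight
      (EuclideanSpace.single i (1:ℝ))

lemma ricE_apply (g : MetricField n) (x X : 𝔼) (i : Fin n) :
    ricE g x X i = ∑ k, (∑ j, inverseField g x i j * ricci g x j k) * X k := by
  simp only [ricE, sum_apply, smul_apply, ContinuousLinearMap.smulRight_apply, prj_apply,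
    PiLp.smul_apply, smul_eq_mul, WithLp.ofLp_sum, Finset.sum_apply, PiLp.single_apply]
  rw [Finset.sum_eq_single i]
  · refine Finset.sum_congr rfl fun k _ => ?_
    simp
  · intro b _ hb
    refine Finset.sum_eq_zero fun k _ => ?_
    simp [hb.symm]
  · simp

lemma trL_ricE (g : MetricField n) (x : 𝔼) (hg : IsRiemannianOn g U) (hx : x ∈ U) :
    trL (ricE g x) = scalarCurv g x := by
  rw [trL_apply, scalarCurv]
  refine Finset.sum_congr rfl fun k _ => ?_
  rw [ricE_apply, Finset.sum_eq_single k]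
  · simp only [PiLp.single_apply, if_true, mul_one]
    refine Finset.sum_congr rfl fun j _ => ?_
    rw [ricci_symm hg hx j k]
  · intro b _ hb; simp [hb]
  · simp

lemma bil_ricE (hg : IsRiemannianOn g U) (hx : x ∈ U) (X Y : 𝔼) :
    bil (g x) (ricE g x X) Y = ricF g x X Y := by
  rw [ricF_eq hg hx, bil_apply]
  have h1 : ∀ a : Fin n, ∑ b, g x b a * ricE g x X b = ∑ k, ricci g x a k * X k := by
    intro a
    simp only [ricE_apply, Finset.mul_sum]
    rw [Finset.sum_comm]
    refine Finset.sum_congr rfl fun k _ => ?_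
    have h2 : ∀ b : Fin n, g x b a * ((∑ j, inverseField g x b j * ricci g x j k) * X k) =
        ∑ j, g x a b * inverseField g x b j * (ricci g x j k * X k) := by
      intro b
      rw [metric_symm hg hx b a, Finset.sum_mul, Finset.mul_sum]
      refine Finset.sum_congr rfl fun j _ => by ring
    simp only [h2]
    rw [Finset.sum_comm]
    have h3 : ∀ j : Fin n, ∑ b, g x a b * inverseField g x b j * (ricci g x j k * X k) =
        (if a = j then 1 else 0) * (ricci g x j k * X k) := by
      intro j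
      rw [← Finset.sum_mul, mul_inv_apply hg hx]
    simp only [h3]
    simp
  calc ∑ i, ∑ j, g x i j * ricE g x X i * Y j
      = ∑ j, (∑ i, g x i j * ricE g x X i) * Y j := by
        rw [Finset.sum_comm]
        refine Finset.sum_congr rfl fun j _ => ?_
        rw [Finset.sum_mul]
    _ = ∑ j, (∑ k, ricci g x j k * X k) * Y j := by simp only [h1]
    _ = ∑ i, ∑ j, ricci g x i j * Y i * X j := by
        refine Finset.sum_congr rfl fun i _ => ?_
        rw [Finset.sum_mul]
        refine Finset.sum_congr rfl fun j _ => by ring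

end Crest.Agent.R249.Bia3_104
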