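import Crest.Agent.R249.Bia3_104

/-!
# R249, D1 (helper104): the divergence of `Ric(∇f)`

* `contDiffAt_ricci`, `contDiffAt_scalarCurv`, `contDiffAt_ricE` : smoothness;
* `fderiv_scal` : `ds(V) = Σ_b (∇_V Ric)(e_b, e_b)`;
* `divg_ricE` : `div (Ric ∇f) = ½ ⟨ds, df⟩ + tr (Ric ∘ Hess f)`;
* `divg_key` : `div (Ric ∇f - ½ s ∇f) = tr (Ric ∘ Hess f) - ½ s Δ f`.
-/

set_option autoImplicit false
set_option maxSynthPendingDepth 3

open scoped ContDiff Topology
open Filter Set
open Crest.GeometryTopology.CoordMetric Crest.GeometryTopology.ChartCurvature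
  Crest.GeometryTopology.RicciEnergy
open Crest.Agent.R202.Tens Crest.Agent.R247.Bo84

noncomputable section

namespace Crest.Agent.R249.Bia4_104

open Crest.Agent.R249.Bia1_104 Crest.Agent.R249.Bia2_104 Crest.Agent.R249.Bia3_104

variable {n : ℕ}

local notation "𝔼" => EuclideanSpace ℝ (Fin n)

variable {g : MetricField n} {U : Set (EuclideanSpace ℝ (Fin n))} {x : EuclideanSpace ℝ (Fin n)}

/-! ### smoothness -/

lemma contDiffAt_christoffel (hg : IsRiemannianOn g U) (hx : x ∈ U) (k i j : Fin n) :
    ContDiffAt ℝ ∞ (fun y => christoffel g y k i j) x :=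
  (contDiffOn_christoffel hg k i j).contDiffAt (hg.isOpen.mem_nhds hx)

lemma contDiffAt_pderiv_inf {f : 𝔼 → ℝ} (hf : ContDiffAt ℝ ∞ f x) (i : Fin n) :
    ContDiffAt ℝ ∞ (pderiv i f) x := contDiffAt_pderiv hf (by norm_cast) i

lemma contDiffAt_ricci (hg : IsRiemannianOn g U) (hx : x ∈ U) (i j : Fin n) :
    ContDiffAt ℝ ∞ (fun y => ricci g y i j) x := by
  unfold ricci
  have h := contDiffAt_christoffel hg hx
  refine ContDiffAt.sub (ContDiffAt.add (ContDiffAt.sub ?_ ?_) ?_) ?_
  · exact ContDiffAt.sum fun k _ => contDiffAt_pderiv_inf (h k i j) k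
  · exact contDiffAt_pderiv_inf (ContDiffAt.sum fun k _ => h k k i) j
  · exact ContDiffAt.sum fun k _ => ContDiffAt.sum fun l _ => (h k k l).mul (h l i j)
  · exact ContDiffAt.sum fun k _ => ContDiffAt.sum fun l _ => (h k j l).mul (h l k i)

lemma contDiffAt_scalarCurv (hg : IsRiemannianOn g U) (hx : x ∈ U) :
    ContDiffAt ℝ ∞ (scalarCurv g) x := by
  unfold scalarCurv
  exact ContDiffAt.sum fun i _ => ContDiffAt.sum fun j _ =>
    (contDiffAt_inv hg hx i j).mul (contDiffAt_ricci hg hx i j)

lemma contDiffAt_ricE (hg : IsRiemannianOn g U) (hx : x ∈ U) :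
    ContDiffAt ℝ ∞ (ricE g) x := by
  unfold ricE
  refine ContDiffAt.sum fun i _ => ContDiffAt.sum fun k _ => ?_
  exact (ContDiffAt.sum fun j _ => (contDiffAt_inv hg hx i j).mul
    (contDiffAt_ricci hg hx j k)).smul contDiffAt_const

lemma differentiableAt_ricE (hg : IsRiemannianOn g U) (hx : x ∈ U) :
    DifferentiableAt ℝ (ricE g) x := (contDiffAt_ricE hg hx).differentiableAt (by simp)

/-! ### covariant derivative of the Ricci endomorphism -/

/-- `(∇_V P) X` for the Ricci endomorphism `P`. -/
def covE (g : MetricField n) (x V X : EuclideanSpace ℝ (Fin n)) : EuclideanSpace ℝ (Fin n) :=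
  fderiv ℝ (ricE g) x V X + Gam g x V (ricE g x X) - ricE g x (Gam g x V X)

lemma bil_covE (hg : IsRiemannianOn g U) (hx : x ∈ U) (V X Y : 𝔼) :
    bil (g x) (covE g x V X) Y = covRic g x V X Y := by
  have hP : DifferentiableAt ℝ (fun y => ricE g y X) x :=
    (differentiableAt_ricE hg hx).clm_apply (differentiableAt_const _)
  have h1 := fderiv_bil hg hx hP (differentiableAt_const Y) V
  have h2 : (fun y => bil (g y) (ricE g y X) Y) =ᶠ[𝓝 x] fun y => ricF g y X Y := by
    filter_upwards [hg.isOpen.mem_nhds hx] with y hy using bil_ricE hg hy X Y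
  have h3 : fderiv ℝ (fun y => ricE g y X) x V = fderiv ℝ (ricE g) x V X := by
    rw [fderiv_clm_apply (differentiableAt_ricE hg hx) (differentiableAt_const _)]
    simp
  rw [h2.fderiv_eq] at h1
  simp only [cov_apply, fderiv_fun_const, Pi.zero_apply, zero_apply, zero_add] at h1
  rw [h3] at h1
  rw [covRic, h1, covE]
  simp only [map_add, map_sub, add_apply, sub_apply]
  rw [bil_ricE hg hx, bil_ricE hg hx]
  ring

lemma covE_add2 (g : MetricField n) (x V X X' : 𝔼) :
    covE g x V (X + X') = covE g x V X + covE g x V X' := by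
  simp only [covE, map_add]; abel

lemma covE_smul2 (g : MetricField n) (c : ℝ) (x V X : 𝔼) :
    covE g x V (c • X) = c • covE g x V X := by
  simp only [covE, map_smul, smul_add, smul_sub]

lemma covE_add1 (g : MetricField n) (x V V' X : 𝔼) :
    covE g x (V + V') X = covE g x V X + covE g x V' X := by
  simp only [covE, map_add, add_apply]; abel

lemma covE_smul1 (g : MetricField n) (c : ℝ) (x V X : 𝔼) :
    covE g x (c • V) X = c • covE g x V X := by
  simp only [covE, map_smul, smul_apply, smul_add, smul_sub]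

/-- the derivative of the scalar curvature -/
lemma fderiv_scal (hg : IsRiemannianOn g U) (hx : x ∈ U) {ξ : Fin n → 𝔼}
    (h : IsFrame (g x) ξ) (V : 𝔼) :
    fderiv ℝ (scalarCurv g) x V = ∑ b, covRic g x V (ξ b) (ξ b) := by
  have h1 : scalarCurv g =ᶠ[𝓝 x] fun y => trL (ricE g y) := by
    filter_upwards [hg.isOpen.mem_nhds hx] with y hy using (trL_ricE g y hg hy).symm
  have h2 : fderiv ℝ (fun y => trL (ricE g y)) x = (trL (n := n)).comp (fderiv ℝ (ricE g) x) :=
    ((trL (n := n)).hasFDerivAt.comp x (differentiableAt_ricE hg hx).hasFDerivAt).fderiv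
  have h3 : trL (fderiv ℝ (ricE g) x V) = trF (covE g x V) := by
    have e : covE g x V = fun X => (fderiv ℝ (ricE g) x V X + (Gam g x V).comp (ricE g x) X)
        - (ricE g x).comp (Gam g x V) X := rfl
    rw [e, trF_sub, trF_add, trF_eq_trL, trF_eq_trL, trF_eq_trL,
      trL_comp_comm (Gam g x V) (ricE g x)]
    ring
  rw [h1.fderiv_eq, h2, ContinuousLinearMap.comp_apply, h3,
    trF_frame hg hx h (covE_add2 g x V) (fun c X => covE_smul2 g c x V X)]
  exact Finset.sum_congr rfl fun b _ => bil_covE hg hx _ _ _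

/-- the divergence of the Ricci endomorphism is half of the differential of the scalar curvature -/
lemma trF_covE (hg : IsRiemannianOn g U) (hx : x ∈ U) (Z : 𝔼) :
    trF (fun W => covE g x W Z) = (1 / 2) * fderiv ℝ (scalarCurv g) x Z := by
  obtain ⟨ξ, h⟩ := exists_frame hg hx
  rw [trF_frame hg hx h (T := fun W => covE g x W Z) (fun W W' => covE_add1 g x W W' Z)
    (fun c W => covE_smul1 g c x W Z), fderiv_scal hg hx h, ← contracted hg hx h]
  simp only [bil_covE hg hx]
  ring

/-- **divergence of `Ric(∇ f)`.** -/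
theorem divg_ricE (hg : IsRiemannianOn g U) (hx : x ∈ U) {f : 𝔼 → ℝ} (hf : ContDiffAt ℝ 2 f x) :
    divg g (fun y => ricE g y (grad g f y)) x =
      (1 / 2) * gam g (scalarCurv g) f x + trL ((ricE g x).comp (hessE g f x)) := by
  have hgr : DifferentiableAt ℝ (grad g f) x :=
    (contDiffAt_grad hg hx (m := 1) hf (by norm_num) (by simp)).differentiableAt (by norm_num)
  have hP := differentiableAt_ricE hg hx
  have hV : DifferentiableAt ℝ (fun y => ricE g y (grad g f y)) x := hP.clm_apply hgr
  rw [divg_eq_trL hg hx hV, ← trF_eq_trL]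
  have e : (fun W => cov g (fun y => ricE g y (grad g f y)) x W) = fun W =>
      covE g x W (grad g f x) + (ricE g x).comp (hessE g f x) W := by
    funext W
    rw [cov_apply, fderiv_clm_apply hP hgr]
    simp only [add_apply, ContinuousLinearMap.comp_apply, ContinuousLinearMap.flip_apply, covE,
      hessE_apply]
    change ricE g x (fderiv ℝ (grad g f) x W) + fderiv ℝ (ricE g) x W (grad g f x) +
      Gam g x W (ricE g x (grad g f x)) = fderiv ℝ (ricE g) x W (grad g f x) +
      Gam g x W (ricE g x (grad g f x)) - ricE g x (Gam g x W (grad g f x)) +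
      ricE g x (fderiv ℝ (grad g f) x W + Gam g x W (grad g f x))
    rw [map_add]
    abel
  rw [e, trF_add, trF_covE hg hx, trF_eq_trL, ← gam_eq_fderiv_grad]

/-- divergence of `φ ∇ f` -/
lemma divg_smul_grad (hg : IsRiemannianOn g U) (hx : x ∈ U) {f φ : 𝔼 → ℝ}
    (hf : ContDiffAt ℝ 2 f x) (hφ : DifferentiableAt ℝ φ x) :
    divg g (fun y => φ y • grad g f y) x = gam g φ f x + φ x * laplaceBeltrami g f x := by
  have hgr : DifferentiableAt ℝ (grad g f) x :=
    (contDiffAt_grad hg hx (m := 1) hf (by norm_num) (by simp)).differentiableAt (by norm_num)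
  rw [divg_eq_trL hg hx (hφ.fun_smul hgr), lap_eq_trL hg hx hf, ← trF_eq_trL, ← trF_eq_trL]
  have e : (fun W => cov g (fun y => φ y • grad g f y) x W) = fun W =>
      (fderiv ℝ φ x W • grad g f x) + φ x • hessE g f x W := by
    funext W
    rw [cov_apply, hessE_apply, fderiv_fun_smul hφ hgr]
    simp only [add_apply, smul_apply, ContinuousLinearMap.smulRight_apply, map_smul, smul_add]
    abel
  rw [e, trF_add, gam_eq_fderiv_grad, fderiv_eq_sum φ x (grad g f x)]
  congr 1
  · simp only [trF, PiLp.smul_apply, smul_eq_mul]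
    refine Finset.sum_congr rfl fun k _ => ?_
    rw [mul_comm]; rfl
  · simp only [trF, PiLp.smul_apply, smul_eq_mul, Finset.mul_sum]

/-- **the key divergence identity** (contracted Bianchi): `div (Ric ∇f - ½ s ∇f) =
tr (Ric ∘ Hess f) - ½ s Δ f`. -/
theorem divg_key (hg : IsRiemannianOn g U) (hx : x ∈ U) {f : 𝔼 → ℝ} (hf : ContDiffAt ℝ 2 f x) :
    divg g (fun y => ricE g y (grad g f y) - ((1 / 2) * scalarCurv g y) • grad g f y) x =
      trL ((ricE g x).comp (hessE g f x)) -
        (1 / 2) * scalarCurv g x * laplaceBeltrami g f x := by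
  have hgr : DifferentiableAt ℝ (grad g f) x :=
    (contDiffAt_grad hg hx (m := 1) hf (by norm_num) (by simp)).differentiableAt (by norm_num)
  have hP := differentiableAt_ricE hg hx
  have hV : DifferentiableAt ℝ (fun y => ricE g y (grad g f y)) x := hP.clm_apply hgr
  have hs : DifferentiableAt ℝ (fun y => (1 / 2) * scalarCurv g y) x :=
    ((contDiffAt_scalarCurv hg hx).differentiableAt (by simp)).const_mul _
  have hW : DifferentiableAt ℝ (fun y => ((1 / 2) * scalarCurv g y) • grad g f y) x :=
    hs.smul hgr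
  have h1 := divg_ricE hg hx hf
  have h2 := divg_smul_grad hg hx hf hs
  rw [divg_eq_trL hg hx hV] at h1
  rw [divg_eq_trL hg hx hW] at h2
  rw [divg_eq_trL hg hx (hV.fun_sub hW)]
  have e : cov g (fun y => ricE g y (grad g f y) - ((1 / 2) * scalarCurv g y) • grad g f y) x =
      cov g (fun y => ricE g y (grad g f y)) x -
        cov g (fun y => ((1 / 2) * scalarCurv g y) • grad g f y) x := by
    ext1 W
    rw [sub_apply, cov_apply, cov_apply, cov_apply, fderiv_fun_sub hV hW]
    simp only [sub_apply, map_sub]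
    abel
  have h3 : gam g (fun y => (1 / 2) * scalarCurv g y) f x =
      (1 / 2) * gam g (scalarCurv g) f x := by
    rw [gam_eq_fderiv_grad, gam_eq_fderiv_grad,
      fderiv_const_mul ((contDiffAt_scalarCurv hg hx).differentiableAt (by simp)), smul_apply,
      smul_eq_mul]
  rw [h3] at h2
  rw [e, map_sub, h1, h2]
  ring

end Crest.Agent.R249.Bia4_104
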