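import Crest.Agent.R249.PenG_806

/-!
R249, part A2 v3 (helper806), file 2: the penalised pair for a general obstacle region
`{Γ(φ-ψ) ≥ (φ+ψ)/2}` and a general nonlinearity `f` on the box `[g, B]²`.

* `Ob g B` : the obstacle region, `Ob.k`;
* `DatG`, `PenSolG` : the data and the penalised pair;
* `exists_penG` : existence.
-/

set_option autoImplicit false
set_option linter.unusedVariables false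
set_option linter.unusedSectionVars false

open MeasureTheory Set Filter Topology Matrix
open scoped ContDiff

noncomputable section

namespace Crest.Agent.R249.PenH_806

open Calc_806 Calc_806.Calc Pen_806 PenG_806

/-! ### the obstacle region -/

/-- the obstacle region `{k ≥ 0}`, `k(u, v) = Γ (u - v) - (u + v) / 2`, in the box `[g, B]²`. -/
structure Ob (g B : ℝ) where
  Γ : ℝ → ℝ
  c : ℝ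
  g_pos : 0 < g
  g_lt : g < B
  smooth : ContDiff ℝ ∞ Γ
  even : ∀ η, Γ (-η) = Γ η
  c_pos : 0 < c
  slope : ∀ η, |η| ≤ B - g → |deriv Γ η| ≤ 1 / 2 - c
  corner : Γ (B - g) < (B + g) / 2

namespace Ob

variable {g B : ℝ} (O : Ob g B)

/-- the defining function -/
def k (u v : ℝ) : ℝ := O.Γ (u - v) - (u + v) / 2

/-- `∂k/∂u` -/
def k1 (u v : ℝ) : ℝ := deriv O.Γ (u - v) - 1 / 2

/-- `∂k/∂v` -/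
def k2 (u v : ℝ) : ℝ := - deriv O.Γ (u - v) - 1 / 2

/-- `E_k`, `P = |dφ - dψ|²` -/
def E (f : ℝ → ℝ) (u v P : ℝ) : ℝ :=
  O.k1 u v * f u + O.k2 u v * f v + deriv (deriv O.Γ) (u - v) * P

end Ob

variable {X : Type*} [TopologicalSpace X] [CompactSpace X] [MeasurableSpace X]
  [OpensMeasurableSpace X] {μ : Measure X} [IsFiniteMeasure μ]

/-- the data: a pair of smooth subsolutions (up to `η₀`) inside the region. -/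
structure DatG (C : Calc X μ) {g B : ℝ} (O : Ob g B) (f : ℝ → ℝ) (η₀ t₀ : ℝ) (φ₀ ψ₀ : X → ℝ) :
    Prop where
  sφ : C.Sm φ₀
  sψ : C.Sm ψ₀
  φge : ∀ x, g ≤ φ₀ x
  ψge : ∀ x, g ≤ ψ₀ x
  φle : ∀ x, φ₀ x ≤ B
  ψle : ∀ x, ψ₀ x ≤ B
  kge : ∀ x, t₀ ≤ O.k (φ₀ x) (ψ₀ x)
  subφ : ∀ x, f (φ₀ x) - η₀ ≤ C.L φ₀ x
  subψ : ∀ x, f (ψ₀ x) - η₀ ≤ C.L ψ₀ x

/-- the penalised pair. -/
structure PenSolG (C : Calc X μ) {g B : ℝ} (O : Ob g B) (f : ℝ → ℝ) (η₀ : ℝ) (φ₀ ψ₀ : X → ℝ)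
    (K e ε : ℝ) where
  φ : X → ℝ
  ψ : X → ℝ
  h₁ : X → ℝ
  h₂ : X → ℝ
  m₁ : X → ℝ
  m₂ : X → ℝ
  g₁ : X → ℝ
  g₂ : X → ℝ
  r₁ : X → ℝ
  r₂ : X → ℝ
  sφ : C.Sm φ
  sψ : C.Sm ψ
  sh₁ : C.Sm h₁
  sh₂ : C.Sm h₂
  sm₁ : C.Sm m₁
  sm₂ : C.Sm m₂
  sg₁ : C.Sm g₁
  sg₂ : C.Sm g₂
  sr₁ : C.Sm r₁
  sr₂ : C.Sm r₂
  h₁ge : ∀ x, g ≤ h₁ x
  h₂ge : ∀ x, g ≤ h₂ x
  h₁le : ∀ x, h₁ x + 2 * e ≤ B
  h₂le : ∀ x, h₂ x + 2 * e ≤ B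
  kh₁ : ∀ x, O.k (h₁ x) (ψ₀ x) = 4 * e
  kh₂ : ∀ x, O.k (φ x) (h₂ x) = 0
  φge : ∀ x, φ₀ x ≤ φ x
  φle : ∀ x, φ x ≤ h₁ x + 2 * e
  ψge : ∀ x, ψ₀ x ≤ ψ x
  ψle : ∀ x, ψ x ≤ h₂ x + 2 * e
  eqφ : ∀ x, C.L φ x = (f (φ x) - η₀) + m₁ x + g₁ x
  eqψ : ∀ x, C.L ψ x = (f (ψ x) - η₀) + m₂ x + g₂ x
  m₁nn : ∀ x, 0 ≤ m₁ x
  m₂nn : ∀ x, 0 ≤ m₂ x
  m₁le : ∀ x, m₁ x ≤ max 0 (C.L h₁ x - (f (h₁ x) - η₀)) + e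
  m₂le : ∀ x, m₂ x ≤ max 0 (C.L h₂ x - (f (h₂ x) - η₀)) + e
  m₁sup : ∀ x, m₁ x ≠ 0 → h₁ x - φ x ≤ e
  m₂sup : ∀ x, m₂ x ≠ 0 → h₂ x - ψ x ≤ e
  g₁le : ∀ x, |g₁ x| ≤ K * e + |r₁ x|
  g₂le : ∀ x, |g₂ x| ≤ K * e + |r₂ x|
  r₁int : ∫ x, r₁ x ^ 4 ∂μ ≤ ε
  r₂int : ∫ x, r₂ x ^ 4 ∂μ ≤ ε

end Crest.Agent.R249.PenH_806
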