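import Crest.Agent.R249.Eta3b_467
import Crest.Agent.R249.PenH_806

/-!
# R249 (helper467), A2-ETA part 4: from the `3 × 3`, `2 × 2` forms to the integrand

* `IntAt`, `VtxAt` : the inequalities delivered by the exact checks (plain real inequalities);
* `IE_ge_int`, `IE_ge_con` : the integrand on exact jets, in the interior and at contact;
* `cert_eta` : the certificate.
-/

set_option autoImplicit false
set_option linter.unusedVariables false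
set_option linter.unusedSectionVars false

open MeasureTheory Set Filter Topology Matrix
open scoped ContDiff

noncomputable section

namespace Crest.Agent.R249.Eta467

open Calc_806 Calc_806.Calc DivC467 Lim621 PenH_806

attribute [local instance] Matrix.frobeniusNormedAddCommGroup Matrix.frobeniusNormedSpace

/-! ### the forms at a point -/

/-- the `3 × 3` form of the field `(A, B, W)` at the point `z = (η, m, G)`. -/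
def F3 (θ : ℝ) (A B W : ℝ × ℝ × ℝ → ℝ) (z : ℝ × ℝ × ℝ) (X K q h k : ℝ) : ℝ :=
  Q3 θ (A z) (pd1 A z) (pd2 A z) (pd3 A z) (B z) (pd1 B z) (pd2 B z) (pd3 B z)
    (W z) (pd1 W z) (pd2 W z) (pd3 W z) X K q h k

/-- the `2 × 2` form. -/
def F2 (θ : ℝ) (B W : ℝ × ℝ × ℝ → ℝ) (z : ℝ × ℝ × ℝ) (q ss sw ww : ℝ) : ℝ :=
  Q2 θ (pd2 B z) (pd3 B z) (W z) (pd2 W z) (pd3 W z) q ss sw ww

/-- `f φ - f ψ`. -/
def X0 (f : ℝ → ℝ) (z : ℝ × ℝ × ℝ) : ℝ := f (z.2.1 + z.1 / 2) - f (z.2.1 - z.1 / 2)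

/-- `(f φ + f ψ)/2`. -/
def K0 (f : ℝ → ℝ) (z : ℝ × ℝ × ℝ) : ℝ := (f (z.2.1 + z.1 / 2) + f (z.2.1 - z.1 / 2)) / 2

/-- the interior inequalities at `z`, `q² = G`. -/
structure IntAt (f : ℝ → ℝ) (θ : ℝ) (A B W o0 o2 : ℝ × ℝ × ℝ → ℝ) (z : ℝ × ℝ × ℝ) (q : ℝ) :
    Prop where
  f3 : ∀ h k, o0 z + o2 z * k ^ 2 ≤ F3 θ A B W z (X0 f z) (K0 f z) q h k
  f2 : ∀ ss sw ww, 0 ≤ ss → 0 ≤ ww → sw ^ 2 ≤ ss * ww → o2 z * ww ≤ F2 θ B W z q ss sw ww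

/-- the contact inequality at `z` for `dm = σ dη`, with `Lη = X0 + x`, `Lm = K0 + y`. -/
def VtxAt (f : ℝ → ℝ) (θ : ℝ) (A B W o0 o2 : ℝ × ℝ × ℝ → ℝ) (z : ℝ × ℝ × ℝ) (q σ x y : ℝ) : Prop :=
  ∀ h, o0 z + o2 z * (σ * q) ^ 2 ≤ F3 θ A B W z (X0 f z + x) (K0 f z + y) q h (σ * q)

lemma IntAt.vtx {f : ℝ → ℝ} {θ : ℝ} {A B W o0 o2 : ℝ × ℝ × ℝ → ℝ} {z : ℝ × ℝ × ℝ} {q : ℝ}
    (H : IntAt f θ A B W o0 o2 z q) (σ : ℝ) : VtxAt f θ A B W o0 o2 z q σ 0 0 := by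
  intro h
  rw [add_zero, add_zero]
  exact H.f3 h _

/-- concavity of the `3 × 3` form in `(X, K)`. -/
lemma F3_concave {θ : ℝ} {A B W : ℝ × ℝ × ℝ → ℝ} {z : ℝ × ℝ × ℝ} (hθ : 0 ≤ θ) (hW : 0 ≤ W z)
    {q h k X0 K0 X1 K1 X2 K2 l0 l1 l2 o : ℝ} (h0 : 0 ≤ l0) (h1 : 0 ≤ l1) (h2 : 0 ≤ l2)
    (hl : l0 + l1 + l2 = 1) (g0 : o ≤ F3 θ A B W z X0 K0 q h k) (g1 : o ≤ F3 θ A B W z X1 K1 q h k)
    (g2 : o ≤ F3 θ A B W z X2 K2 q h k) :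
    o ≤ F3 θ A B W z (l0 * X0 + l1 * X1 + l2 * X2) (l0 * K0 + l1 * K1 + l2 * K2) q h k := by
  have e : F3 θ A B W z (l0 * X0 + l1 * X1 + l2 * X2) (l0 * K0 + l1 * K1 + l2 * K2) q h k =
      l0 * F3 θ A B W z X0 K0 q h k + l1 * F3 θ A B W z X1 K1 q h k +
        l2 * F3 θ A B W z X2 K2 q h k + (2 + θ) / 3 * W z *
        (l0 * l1 * (X0 - X1) ^ 2 + l0 * l2 * (X0 - X2) ^ 2 + l1 * l2 * (X1 - X2) ^ 2) := by
    have hl0 : l0 = 1 - l1 - l2 := by linarith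
    subst hl0
    simp only [F3, Q3]
    ring
  have hp : 0 ≤ (2 + θ) / 3 * W z *
      (l0 * l1 * (X0 - X1) ^ 2 + l0 * l2 * (X0 - X2) ^ 2 + l1 * l2 * (X1 - X2) ^ 2) := by
    positivity
  have m0 := mul_le_mul_of_nonneg_left g0 h0
  have m1 := mul_le_mul_of_nonneg_left g1 h1
  have m2 := mul_le_mul_of_nonneg_left g2 h2
  have e2 : l0 * o + l1 * o + l2 * o = o := by rw [← add_mul, ← add_mul, hl, one_mul]
  rw [e]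
  linarith

/-! ### jets -/

lemma bJ_phi (j : Jet E4 H4) : (bJ j).2.1 + (bJ j).1 / 2 = j.f := by
  simp only [bJ]; ring

lemma bJ_psi (j : Jet E4 H4) : (bJ j).2.1 - (bJ j).1 / 2 = j.g := by
  simp only [bJ]; ring

/-- general reduction: any jet, `X = tr`, `K = Lm`. -/
theorem IE_ge {θ : ℝ} {A B W : ℝ × ℝ × ℝ → ℝ} {j : Jet E4 H4} (hθ : θ ≤ 1) (hW : 0 ≤ W (bJ j))
    {e : Fin 4 → ℝ} {q h k : ℝ} {s w : Fin 4 → ℝ} (J : Adp (uJ j) (vJ j) (sJ j) e q h k s w) :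
    F3 θ A B W (bJ j) (xJ j) (kJ j) q h k + F2 θ B W (bJ j) q (s ⬝ᵥ s) (s ⬝ᵥ w) (w ⬝ᵥ w) +
      θ * W (bJ j) * (∑ a, ∑ b, sJ j a b ^ 2) ≤ IE A B W j := by
  have := NN_ge (A := A (bJ j)) (A1 := pd1 A (bJ j)) (A2 := pd2 A (bJ j)) (A3 := pd3 A (bJ j))
    (B := B (bJ j)) (B1 := pd1 B (bJ j)) (B2 := pd2 B (bJ j)) (B3 := pd3 B (bJ j))
    (C := W (bJ j)) (C1 := pd1 W (bJ j)) (C2 := pd2 W (bJ j)) (C3 := pd3 W (bJ j))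
    (K := kJ j) (ρ := ∑ a, ∑ b, sJ j a b ^ 2) hθ hW J le_rfl
  rw [trace_sJ] at this
  exact this

lemma cs_dot (s w : Fin 4 → ℝ) : (s ⬝ᵥ w) ^ 2 ≤ (s ⬝ᵥ s) * (w ⬝ᵥ w) := by
  have := Finset.sum_mul_sq_le_sq_mul_sq Finset.univ s w
  simp only [dotProduct]
  refine this.trans (le_of_eq ?_)
  congr 1 <;> exact Finset.sum_congr rfl fun i _ => by ring

lemma dot_nonneg (s : Fin 4 → ℝ) : 0 ≤ s ⬝ᵥ s := Finset.sum_nonneg fun i _ => mul_self_nonneg _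

/-- **interior.** -/
theorem IE_ge_int {f : ℝ → ℝ} {θ : ℝ} {A B W o0 o2 : ℝ × ℝ × ℝ → ℝ} {j : Jet E4 H4} (hθ : θ ≤ 1)
    (hW : 0 ≤ W (bJ j)) (hP : j.P ∈ SyH) (h1 : j.P.1 = f j.f) (h2 : j.Q.1 = f j.g)
    (H : ∀ q, 0 ≤ q → q ^ 2 = uJ j ⬝ᵥ uJ j → IntAt f θ A B W o0 o2 (bJ j) q) :
    o0 (bJ j) + o2 (bJ j) * (vJ j ⬝ᵥ vJ j) + θ * W (bJ j) * (∑ a, ∑ b, sJ j a b ^ 2) ≤
      IE A B W j := by
  obtain ⟨e, q, h, k, s, w, J⟩ := exists_Adp (uJ j) (vJ j) (symm_sJ hP)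
  have hI := H q J.q0 J.uu.symm
  have hx : xJ j = X0 f (bJ j) := by rw [X0, bJ_phi, bJ_psi, xJ, h1, h2]
  have hk : kJ j = K0 f (bJ j) := by rw [K0, bJ_phi, bJ_psi, kJ, h1, h2]; ring
  have h3 := hI.f3 h k
  have h4 := hI.f2 _ _ _ (dot_nonneg s) (dot_nonneg w) (cs_dot s w)
  have h5 := IE_ge (A := A) (B := B) hθ hW J
  rw [hx, hk] at h5
  rw [J.vv]
  linarith

/-- **contact.** -/
theorem IE_ge_con {f : ℝ → ℝ} {θ : ℝ} {A B W o0 o2 : ℝ × ℝ × ℝ → ℝ} {j : Jet E4 H4} (hθ0 : 0 ≤ θ)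
    (hθ : θ ≤ 1) (hW : 0 ≤ W (bJ j)) (hP : j.P ∈ SyH) {m₁ m₂ : ℝ} (h1 : j.P.1 = f j.f + m₁)
    (h2 : j.Q.1 = f j.g + m₂) {σ κ₁ κ₂ E : ℝ} (hv : vJ j = σ • uJ j) (hm₁ : 0 ≤ m₁)
    (hm₂ : 0 ≤ m₂) (hκ₁ : 0 < κ₁) (hκ₂ : 0 < κ₂) (hE : κ₁ * m₁ + κ₂ * m₂ ≤ max E 0)
    (H0 : ∀ q, 0 ≤ q → q ^ 2 = uJ j ⬝ᵥ uJ j → VtxAt f θ A B W o0 o2 (bJ j) q σ 0 0)
    (H1 : 0 < E → ∀ q, 0 ≤ q → q ^ 2 = uJ j ⬝ᵥ uJ j →
      VtxAt f θ A B W o0 o2 (bJ j) q σ (E / κ₁) (E / κ₁ / 2))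
    (H2 : 0 < E → ∀ q, 0 ≤ q → q ^ 2 = uJ j ⬝ᵥ uJ j →
      VtxAt f θ A B W o0 o2 (bJ j) q σ (-(E / κ₂)) (E / κ₂ / 2))
    (Hs : ∀ q, 0 ≤ q → q ^ 2 = uJ j ⬝ᵥ uJ j → ∀ ss, 0 ≤ ss → 0 ≤ F2 θ B W (bJ j) q ss 0 0) :
    o0 (bJ j) + o2 (bJ j) * (vJ j ⬝ᵥ vJ j) + θ * W (bJ j) * (∑ a, ∑ b, sJ j a b ^ 2) ≤
      IE A B W j := by
  obtain ⟨e, q, h, k, s, w, J⟩ := exists_Adp (uJ j) (vJ j) (symm_sJ hP)
  have hx : xJ j = X0 f (bJ j) + (m₁ - m₂) := by rw [X0, bJ_phi, bJ_psi, xJ, h1, h2]; ring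
  have hkk : kJ j = K0 f (bJ j) + (m₁ + m₂) / 2 := by rw [K0, bJ_phi, bJ_psi, kJ, h1, h2]; ring
  have h5 := IE_ge (A := A) (B := B) hθ hW J
  -- `k = σ q`, `w = 0`
  have hk : k = σ * q := by
    have e1 : e ⬝ᵥ vJ j = k := by
      rw [J.hv, dotProduct_add, dotProduct_smul, J.ee, J.ew, smul_eq_mul]; ring
    have e2 : e ⬝ᵥ vJ j = σ * q := by
      rw [hv, dotProduct_smul, smul_eq_mul]
      have : e ⬝ᵥ uJ j = q := by rw [J.hu, dotProduct_smul, J.ee, smul_eq_mul, mul_one]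
      rw [this]
    rw [← e1, e2]
  have hw : w = 0 := by
    have e1 : k • e + w = (σ * q) • e := by
      rw [← J.hv, hv]
      conv_lhs => rw [J.hu]
      rw [smul_smul]
    rw [hk] at e1
    exact add_eq_left.1 e1
  have hvv : vJ j ⬝ᵥ vJ j = (σ * q) ^ 2 := by
    rw [J.vv, hk, hw]; simp
  have hs0 : s ⬝ᵥ w = 0 := by rw [hw]; simp
  have hw0 : w ⬝ᵥ w = 0 := by rw [hw]; simp
  rw [hx, hkk, hk, hs0, hw0] at h5
  have h6 := Hs q J.q0 J.uu.symm _ (dot_nonneg s)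
  rw [hvv]
  have key : o0 (bJ j) + o2 (bJ j) * (σ * q) ^ 2 ≤
      F3 θ A B W (bJ j) (X0 f (bJ j) + (m₁ - m₂)) (K0 f (bJ j) + (m₁ + m₂) / 2) q h (σ * q) := by
    have v0 := H0 q J.q0 J.uu.symm h
    rcases le_or_gt E 0 with hE0 | hE0
    · rw [max_eq_right hE0] at hE
      have a1 : 0 ≤ κ₁ * m₁ := by positivity
      have a2 : 0 ≤ κ₂ * m₂ := by positivity
      have b1 : m₁ = 0 := by
        have : κ₁ * m₁ = 0 := by linarith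
        rcases mul_eq_zero.1 this with h | h
        · exact absurd h hκ₁.ne'
        · exact h
      have b2 : m₂ = 0 := by
        have : κ₂ * m₂ = 0 := by linarith
        rcases mul_eq_zero.1 this with h | h
        · exact absurd h hκ₂.ne'
        · exact h
      rw [b1, b2]
      simpa using v0
    · rw [max_eq_left hE0.le] at hE
      have v1 := H1 hE0 q J.q0 J.uu.symm h
      have v2 := H2 hE0 q J.q0 J.uu.symm h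
      have hl1 : 0 ≤ κ₁ * m₁ / E := by positivity
      have hl2 : 0 ≤ κ₂ * m₂ / E := by positivity
      have hl0 : 0 ≤ 1 - κ₁ * m₁ / E - κ₂ * m₂ / E := by
        have : κ₁ * m₁ / E + κ₂ * m₂ / E ≤ 1 := by
          rw [← add_div, div_le_one hE0]; exact hE
        linarith
      have := F3_concave hθ0 hW hl0 hl1 hl2 (by ring) v0 v1 v2
      refine this.trans (le_of_eq ?_)
      congr 1 <;> · field_simp; ring
  linarith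

end Crest.Agent.R249.Eta467
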