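import Crest.Agent.R249.Ker11_254
import Crest.Agent.R249.Eta4_467

/-!
# Row 249, part A (helper133): bridge from coefficient lists to the forms `F3`, `F2`

Class: `R = G + c (1 - m) m²`, `A = η nA / (m^p R²)`, `B = nB / (m^p R²)`, `W = nW / (m^p R²)`,
`nA nB nW` coefficient lists in `(η², m, G)`.
-/

set_option autoImplicit false

open Set Filter Topology
open scoped ContDiff

noncomputable section

namespace Crest.Agent.R249.Brg133

open Ker254 DivC467 Eta467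

/-- `R = G + c (1 - m) m²` -/
def RR (c m G : ℝ) : ℝ := G + c * (1 - m) * m ^ 2

/-- `∂R/∂m` -/
def RM (c m : ℝ) : ℝ := c * (2 * m - 3 * m ^ 2)

/-- `N / (m^p R²)` -/
def qf2 (N : P3) (p : ℕ) (c : ℝ) (y m G : ℝ) : ℝ := ev3 y m G N / (m ^ p * RR c m G ^ 2)

/-- even coefficient function -/
def cE (N : P3) (p : ℕ) (c : ℝ) (z : ℝ × ℝ × ℝ) : ℝ := qf2 N p c (z.1 ^ 2) z.2.1 z.2.2

/-- odd coefficient function -/
def cO (N : P3) (p : ℕ) (c : ℝ) (z : ℝ × ℝ × ℝ) : ℝ := z.1 * cE N p c z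

/-- the denominator `m^(p+1) R³` -/
def SS (p : ℕ) (c m G : ℝ) : ℝ := m ^ (p + 1) * RR c m G ^ 3

/-- numerator of `∂/∂m` -/
def N2 (N : P3) (p : ℕ) (c y m G : ℝ) : ℝ :=
  m * RR c m G * ev3 y m G (dY N) - p * RR c m G * ev3 y m G N - 2 * m * RM c m * ev3 y m G N

/-- numerator of `∂/∂G` -/
def N3 (N : P3) (c y m G : ℝ) : ℝ :=
  m * (RR c m G * ev3 y m G (dZ N) - 2 * ev3 y m G N)

section

variable {N : P3} {p : ℕ} {c : ℝ} {z : ℝ × ℝ × ℝ}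

lemma hasDerivAt_RR_m (c m G : ℝ) : HasDerivAt (fun m => RR c m G) (RM c m) m := by
  have h1 : HasDerivAt (fun m : ℝ => 1 - m) (-1) m := by
    simpa using (hasDerivAt_id m).const_sub 1
  have h2 := ((h1.const_mul c).mul (hasDerivAt_pow 2 m)).const_add G
  refine h2.congr_deriv ?_
  simp only [RM]
  push_cast
  ring

lemma hasDerivAt_RR_G (c m G : ℝ) : HasDerivAt (fun G => RR c m G) 1 G := by
  exact (hasDerivAt_id G).add_const _

lemma contDiff_RR : ContDiff ℝ ∞ (fun z : ℝ × ℝ × ℝ => RR c z.2.1 z.2.2) := by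
  unfold RR; fun_prop

lemma contDiff_num (N : P3) : ContDiff ℝ ∞ (fun z : ℝ × ℝ × ℝ => ev3 (z.1 ^ 2) z.2.1 z.2.2 N) := by
  have h : ContDiff ℝ ∞ (fun z : ℝ × ℝ × ℝ => ((z.1 ^ 2, z.2.1, z.2.2) : ℝ × ℝ × ℝ)) := by fun_prop
  exact (contDiff_ev3 (n := ∞) N).comp h

lemma contDiffAt_cE (hm : z.2.1 ≠ 0) (hR : RR c z.2.1 z.2.2 ≠ 0) : ContDiffAt ℝ ∞ (cE N p c) z := by
  have h1 := (contDiff_num N).contDiffAt (x := z)
  have h2 : ContDiffAt ℝ ∞ (fun z : ℝ × ℝ × ℝ => z.2.1 ^ p * RR c z.2.1 z.2.2 ^ 2) z := by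
    have : ContDiff ℝ ∞ (fun z : ℝ × ℝ × ℝ => z.2.1 ^ p * RR c z.2.1 z.2.2 ^ 2) :=
      (by fun_prop : ContDiff ℝ ∞ fun z : ℝ × ℝ × ℝ => z.2.1 ^ p).mul (contDiff_RR.pow 2)
    exact this.contDiffAt
  exact h1.div h2 (mul_ne_zero (pow_ne_zero _ hm) (pow_ne_zero _ hR))

lemma hasDerivAt_num_eta (N : P3) (η m G : ℝ) :
    HasDerivAt (fun η => ev3 (η ^ 2) m G N) (2 * η * ev3 (η ^ 2) m G (dX N)) η := by
  have h := (ev3_hasDerivAt_x N (η ^ 2) m G).comp η (hasDerivAt_pow 2 η)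
  refine h.congr_deriv ?_
  push_cast
  ring

variable (hm : z.2.1 ≠ 0) (hR : RR c z.2.1 z.2.2 ≠ 0)

include hm hR

lemma hS : SS p c z.2.1 z.2.2 ≠ 0 := mul_ne_zero (pow_ne_zero _ hm) (pow_ne_zero _ hR)

lemma cE_mul : cE N p c z * SS p c z.2.1 z.2.2 =
    z.2.1 * RR c z.2.1 z.2.2 * ev3 (z.1 ^ 2) z.2.1 z.2.2 N := by
  unfold cE qf2 SS
  have h1 := pow_ne_zero p hm
  have h2 := pow_ne_zero 2 hR
  rw [div_mul_eq_mul_div, div_eq_iff (mul_ne_zero h1 h2)]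
  ring

/-- the Fréchet derivative of the even functions. -/
lemma fderiv_cE (v : ℝ × ℝ × ℝ) : fderiv ℝ (cE N p c) z v =
    (2 * z.1 * (z.2.1 * RR c z.2.1 z.2.2 * ev3 (z.1 ^ 2) z.2.1 z.2.2 (dX N)) /
      SS p c z.2.1 z.2.2) * v.1 +
    (N2 N p c (z.1 ^ 2) z.2.1 z.2.2 / SS p c z.2.1 z.2.2) * v.2.1 +
    (N3 N c (z.1 ^ 2) z.2.1 z.2.2 / SS p c z.2.1 z.2.2) * v.2.2 := by
  obtain ⟨η, m, G⟩ := z
  have hm' : m ≠ 0 := hm
  have hR' : RR c m G ≠ 0 := hR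
  have h1 := pow_ne_zero p hm'
  have h2 := pow_ne_zero 2 hR'
  refine fderiv_of_partials ((contDiffAt_cE hm hR).differentiableAt (by simp)) ?_ ?_ ?_ v
  · have h := (hasDerivAt_num_eta N η m G).div_const (m ^ p * RR c m G ^ 2)
    refine h.congr_deriv ?_
    show _ = 2 * η * (m * RR c m G * ev3 (η ^ 2) m G (dX N)) / (m ^ (p + 1) * RR c m G ^ 3)
    rw [div_eq_div_iff (mul_ne_zero h1 h2) (mul_ne_zero (pow_ne_zero _ hm') (pow_ne_zero _ hR'))]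
    ring
  · have hd : HasDerivAt (fun m => m ^ p * RR c m G ^ 2)
        ((p * m ^ (p - 1)) * RR c m G ^ 2 + m ^ p * (2 * RR c m G * RM c m)) m := by
      have a := (hasDerivAt_pow p m).fun_mul ((hasDerivAt_RR_m c m G).fun_pow 2)
      refine a.congr_deriv ?_
      push_cast
      ring
    have h := (ev3_hasDerivAt_y N (η ^ 2) m G).fun_div hd (mul_ne_zero h1 h2)
    refine h.congr_deriv ?_
    show _ = N2 N p c (η ^ 2) m G / (m ^ (p + 1) * RR c m G ^ 3)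
    rw [div_eq_div_iff (pow_ne_zero 2 (mul_ne_zero h1 h2))
      (mul_ne_zero (pow_ne_zero _ hm') (pow_ne_zero _ hR'))]
    unfold N2
    have hp : (p : ℝ) * m ^ (p - 1) * m = p * m ^ p := by
      cases p with
      | zero => simp
      | succ n => rw [Nat.add_sub_cancel]; ring
    have e : m ^ (p + 1) = m ^ p * m := pow_succ m p
    rw [e]
    linear_combination (-(ev3 (η ^ 2) m G N) * RR c m G ^ 2 * (m ^ p * RR c m G ^ 3)) * hp
  · have hd : HasDerivAt (fun G => m ^ p * RR c m G ^ 2) (m ^ p * (2 * RR c m G * 1)) G := by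
      have a := ((hasDerivAt_RR_G c m G).fun_pow 2).const_mul (m ^ p)
      refine a.congr_deriv ?_
      push_cast
      ring
    have h := (ev3_hasDerivAt_z N (η ^ 2) m G).fun_div hd (mul_ne_zero h1 h2)
    refine h.congr_deriv ?_
    show _ = N3 N c (η ^ 2) m G / (m ^ (p + 1) * RR c m G ^ 3)
    rw [div_eq_div_iff (pow_ne_zero 2 (mul_ne_zero h1 h2))
      (mul_ne_zero (pow_ne_zero _ hm') (pow_ne_zero _ hR'))]
    unfold N3
    ring

lemma pd1_cE : pd1 (cE N p c) z * SS p c z.2.1 z.2.2 =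
    2 * z.1 * (z.2.1 * RR c z.2.1 z.2.2 * ev3 (z.1 ^ 2) z.2.1 z.2.2 (dX N)) := by
  rw [pd1, fderiv_cE hm hR]
  have := hS (p := p) hm hR
  simp only
  field_simp
  ring

lemma pd2_cE : pd2 (cE N p c) z * SS p c z.2.1 z.2.2 = N2 N p c (z.1 ^ 2) z.2.1 z.2.2 := by
  rw [pd2, fderiv_cE hm hR]
  have := hS (p := p) hm hR
  simp only
  field_simp
  ring

lemma pd3_cE : pd3 (cE N p c) z * SS p c z.2.1 z.2.2 = N3 N c (z.1 ^ 2) z.2.1 z.2.2 := by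
  rw [pd3, fderiv_cE hm hR]
  have := hS (p := p) hm hR
  simp only
  field_simp
  ring

lemma fderiv_cO (v : ℝ × ℝ × ℝ) : fderiv ℝ (cO N p c) z v =
    z.1 * fderiv ℝ (cE N p c) z v + v.1 * cE N p c z := by
  have h1 : DifferentiableAt ℝ (cE N p c) z := (contDiffAt_cE hm hR).differentiableAt (by simp)
  have h2 : HasFDerivAt (fun z : ℝ × ℝ × ℝ => z.1) (ContinuousLinearMap.fst ℝ ℝ (ℝ × ℝ)) z :=
    (ContinuousLinearMap.fst ℝ ℝ (ℝ × ℝ)).hasFDerivAt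
  have h3 := h2.mul h1.hasFDerivAt
  have h4 : fderiv ℝ (cO N p c) z = _ := h3.fderiv
  rw [h4]
  simp only [_root_.add_apply, _root_.smul_apply, smul_eq_mul, ContinuousLinearMap.coe_fst']
  ring

lemma cO_mul : cO N p c z * SS p c z.2.1 z.2.2 =
    z.1 * (z.2.1 * RR c z.2.1 z.2.2 * ev3 (z.1 ^ 2) z.2.1 z.2.2 N) := by
  rw [cO, mul_assoc, cE_mul hm hR]

lemma pd1_cO : pd1 (cO N p c) z * SS p c z.2.1 z.2.2 =
    z.2.1 * RR c z.2.1 z.2.2 * (ev3 (z.1 ^ 2) z.2.1 z.2.2 N +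
      2 * z.1 ^ 2 * ev3 (z.1 ^ 2) z.2.1 z.2.2 (dX N)) := by
  have h1 := pd1_cE (N := N) (p := p) hm hR
  have h2 := cE_mul (N := N) (p := p) hm hR
  rw [pd1] at h1 ⊢
  rw [fderiv_cO hm hR]
  linear_combination z.1 * h1 + h2

lemma pd2_cO : pd2 (cO N p c) z * SS p c z.2.1 z.2.2 = z.1 * N2 N p c (z.1 ^ 2) z.2.1 z.2.2 := by
  have h1 := pd2_cE (N := N) (p := p) hm hR
  rw [pd2] at h1 ⊢
  rw [fderiv_cO hm hR]
  linear_combination z.1 * h1

lemma pd3_cO : pd3 (cO N p c) z * SS p c z.2.1 z.2.2 = z.1 * N3 N c (z.1 ^ 2) z.2.1 z.2.2 := by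
  have h1 := pd3_cE (N := N) (p := p) hm hR
  rw [pd3] at h1 ⊢
  rw [fderiv_cO hm hR]
  linear_combination z.1 * h1

end

end Crest.Agent.R249.Brg133
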