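import Crest.Agent.R249.Brg1_133

/-!
# Row 249, part A (helper133): bridge, part 2: the forms `F3`, `F2` times `m^(p+1) R³`

`form_F3` : `F3 0 A B W z X K q h k * S` as a polynomial in the lists.
-/

set_option autoImplicit false

open Set Filter Topology
open scoped ContDiff

noncomputable section

namespace Crest.Agent.R249.Brg133

open Ker254 DivC467 Eta467

/-- the data: three coefficient lists in `(η², m, G)`, the power of `m`, the constant of `R`. -/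
structure Crt where
  nA : P3
  nB : P3
  nW : P3
  p : ℕ
  c : ℕ

namespace Crt

variable (C : Crt)

/-- the coefficient of `dη` -/
def A (z : ℝ × ℝ × ℝ) : ℝ := cO C.nA C.p C.c z
/-- the coefficient of `dm` -/
def B (z : ℝ × ℝ × ℝ) : ℝ := cE C.nB C.p C.c z
/-- the coefficient of `J` -/
def W (z : ℝ × ℝ × ℝ) : ℝ := cE C.nW C.p C.c z

/-- `S = m^(p+1) R³` -/
def S (m G : ℝ) : ℝ := SS C.p C.c m G

/-- the scaled entries; `X = η δ + x`, `K = κ + x'`: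
`11`-entry with general `X = η X'`, `K`, `(k = σ q)`-terms excluded -/
def e11 (η y m G X K : ℝ) : ℝ :=
  -(η * (m * RR C.c m G * ev3 y m G C.nA)) * X
  - m * RR C.c m G * (ev3 y m G C.nA + 2 * y * ev3 y m G (dX C.nA)) * G
  - m * RR C.c m G * ev3 y m G C.nB * K
  + m * RR C.c m G * ev3 y m G C.nW * (G - 2 / 3 * X ^ 2)
  - 2 * η * (m * RR C.c m G * ev3 y m G (dX C.nW)) * G * X

/-- coefficient of `h` -/
def eh (η y m G X : ℝ) : ℝ :=
  -(2 * η * N3 C.nA C.c y m G) * G - 2 * X * N3 C.nW C.c y m G * G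
  + 2 * η * (m * RR C.c m G * ev3 y m G (dX C.nW)) * G
  - 2 / 3 * (m * RR C.c m G * ev3 y m G C.nW) * X

/-- coefficient of `h²` -/
def ehh (y m G : ℝ) : ℝ :=
  4 / 3 * (m * RR C.c m G * ev3 y m G C.nW) + 2 * N3 C.nW C.c y m G * G

/-- coefficient of `q k` -/
def ek (η y m G X : ℝ) : ℝ :=
  -(η * N2 C.nA C.p C.c y m G + 2 * η * (m * RR C.c m G * ev3 y m G (dX C.nB)))
  - X * N2 C.nW C.p C.c y m G

/-- coefficient of `q h k` -/
def ehk (y m G : ℝ) : ℝ := N2 C.nW C.p C.c y m G - 2 * N3 C.nB C.c y m G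

/-- coefficient of `k²` -/
def ekk (y m G : ℝ) : ℝ := - N2 C.nB C.p C.c y m G

variable {C} {z : ℝ × ℝ × ℝ}

theorem form_F3 (hm : z.2.1 ≠ 0) (hR : RR C.c z.2.1 z.2.2 ≠ 0) {q : ℝ} (hq : q ^ 2 = z.2.2)
    (X K h k : ℝ) : F3 0 C.A C.B C.W z X K q h k * C.S z.2.1 z.2.2 =
      C.e11 z.1 (z.1 ^ 2) z.2.1 z.2.2 X K + C.eh z.1 (z.1 ^ 2) z.2.1 z.2.2 X * h +
      C.ehh (z.1 ^ 2) z.2.1 z.2.2 * h ^ 2 + C.ek z.1 (z.1 ^ 2) z.2.1 z.2.2 X * (q * k) +
      C.ehk (z.1 ^ 2) z.2.1 z.2.2 * (q * h * k) + C.ekk (z.1 ^ 2) z.2.1 z.2.2 * k ^ 2 := by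
  have a0 := cO_mul (N := C.nA) (p := C.p) hm hR
  have a1 := pd1_cO (N := C.nA) (p := C.p) hm hR
  have a2 := pd2_cO (N := C.nA) (p := C.p) hm hR
  have a3 := pd3_cO (N := C.nA) (p := C.p) hm hR
  have b0 := cE_mul (N := C.nB) (p := C.p) hm hR
  have b1 := pd1_cE (N := C.nB) (p := C.p) hm hR
  have b2 := pd2_cE (N := C.nB) (p := C.p) hm hR
  have b3 := pd3_cE (N := C.nB) (p := C.p) hm hR
  have w0 := cE_mul (N := C.nW) (p := C.p) hm hR
  have w1 := pd1_cE (N := C.nW) (p := C.p) hm hR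
  have w2 := pd2_cE (N := C.nW) (p := C.p) hm hR
  have w3 := pd3_cE (N := C.nW) (p := C.p) hm hR
  change (C.A z) * C.S z.2.1 z.2.2 = _ at a0
  change (pd1 C.A z) * C.S z.2.1 z.2.2 = _ at a1
  change (pd2 C.A z) * C.S z.2.1 z.2.2 = _ at a2
  change (pd3 C.A z) * C.S z.2.1 z.2.2 = _ at a3
  change (C.B z) * C.S z.2.1 z.2.2 = _ at b0
  change (pd1 C.B z) * C.S z.2.1 z.2.2 = _ at b1
  change (pd2 C.B z) * C.S z.2.1 z.2.2 = _ at b2
  change (pd3 C.B z) * C.S z.2.1 z.2.2 = _ at b3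
  change (C.W z) * C.S z.2.1 z.2.2 = _ at w0
  change (pd1 C.W z) * C.S z.2.1 z.2.2 = _ at w1
  change (pd2 C.W z) * C.S z.2.1 z.2.2 = _ at w2
  change (pd3 C.W z) * C.S z.2.1 z.2.2 = _ at w3
  simp only [F3, Q3, e11, eh, ehh, ek, ehk, ekk]
  rw [← hq] at *
  generalize C.A z = A0 at *
  generalize pd1 C.A z = A1 at *
  generalize pd2 C.A z = A2 at *
  generalize pd3 C.A z = A3 at *
  generalize C.B z = B0 at *
  generalize pd1 C.B z = B1 at *
  generalize pd2 C.B z = B2 at *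
  generalize pd3 C.B z = B3 at *
  generalize C.W z = W0 at *
  generalize pd1 C.W z = W1 at *
  generalize pd2 C.W z = W2 at *
  generalize pd3 C.W z = W3 at *
  generalize C.S z.2.1 (q ^ 2) = S at *
  linear_combination (-X) * a0 - q ^ 2 * a1 - q * k * a2 - 2 * q ^ 2 * h * a3 - K * b0
    - q * k * b1 - k ^ 2 * b2 - 2 * q * k * h * b3
    + (-(X ^ 2) + q ^ 2 + h ^ 2 + (X - h) ^ 2 / 3) * w0
    + (-(X * q ^ 2) + q ^ 2 * h) * w1 + (-(X * (q * k)) + q * k * h) * w2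
    + (-(X * (2 * q ^ 2 * h)) + 2 * q ^ 2 * h ^ 2) * w3

end Crt

end Crest.Agent.R249.Brg133
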