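import Crest.Agent.R249.Brg2_133

/-!
# Row 249, part A (helper133): bridge, part 3: the six polynomials of the interior form

Nonlinearity `f0 u = u - u³`, `k = k' + (η/(4m)) q`.  `Zx C i` : expressions (`254`-`Ex`) in
`(y, m, G)`, `y = η²`.  `form_Z` : `384 m² S F3 = Z00 + 2 η Z01 h + 2 η q Z02 k' + ...`.
-/

set_option autoImplicit false

open Set Filter Topology
open scoped ContDiff

noncomputable section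

namespace Crest.Agent.R249.Brg133

open Ker254 DivC467 Eta467

/-- the scaled nonlinearity -/
def f0 (u : ℝ) : ℝ := u - u ^ 3

end Crest.Agent.R249.Brg133

end

namespace Crest.Agent.R249.Ker254

/-- substitution -/
def Ex.sb (E : Ex) (a b c : Ex) : Ex :=
  match E with
  | .cst n => .cst n
  | .vx => a
  | .vy => b
  | .vz => c
  | .add e f => .add (e.sb a b c) (f.sb a b c)
  | .sub e f => .sub (e.sb a b c) (f.sb a b c)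
  | .mul e f => .mul (e.sb a b c) (f.sb a b c)
  | .pw e n => .pw (e.sb a b c) n
  | .pc p e f g => .pc p (e.sb a b c) (f.sb a b c) (g.sb a b c)

theorem Ex.ev_sb {R : Type*} [CommRing R] (a b c : Ex) (u v w : R) (E : Ex) :
    (E.sb a b c).ev u v w = E.ev (a.ev u v w) (b.ev u v w) (c.ev u v w) := by
  induction E with
  | cst n => rfl
  | vx => rfl
  | vy => rfl
  | vz => rfl
  | add e f ihe ihf => simp [Ex.sb, Ex.ev, ihe, ihf]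
  | sub e f ihe ihf => simp [Ex.sb, Ex.ev, ihe, ihf]
  | mul e f ihe ihf => simp [Ex.sb, Ex.ev, ihe, ihf]
  | pw e n ihe => simp [Ex.sb, Ex.ev, ihe]
  | pc p e f g ihe ihf ihg => simp [Ex.sb, Ex.ev, ihe, ihf, ihg]

end Crest.Agent.R249.Ker254

namespace Crest.Agent.R249.Brg133

open Ker254 DivC467 Eta467 Ex

local infixl:65 " +ₓ " => Ex.add
local infixl:65 " -ₓ " => Ex.sub
local infixl:70 " *ₓ " => Ex.mul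

/-- `R` -/
def xR (c : ℕ) : Ex := vz +ₓ cst c *ₓ (cst 1 -ₓ vy) *ₓ pw vy 2
/-- `∂R/∂m` -/
def xRM (c : ℕ) : Ex := cst c *ₓ (cst 2 *ₓ vy -ₓ cst 3 *ₓ pw vy 2)
/-- `4 δ` -/
def xD : Ex := cst 4 -ₓ cst 12 *ₓ pw vy 2 -ₓ vx
/-- `4 κ` -/
def xK : Ex := vy *ₓ (cst 4 -ₓ cst 4 *ₓ pw vy 2 -ₓ cst 3 *ₓ vx)
/-- a list -/
def xL (N : P3) : Ex := pc N vx vy vz
/-- `N2` -/
def xN2 (N : P3) (p c : ℕ) : Ex :=
  vy *ₓ xR c *ₓ xL (dY N) -ₓ cst p *ₓ xR c *ₓ xL N -ₓ cst 2 *ₓ vy *ₓ xRM c *ₓ xL N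
/-- `N3` -/
def xN3 (N : P3) (c : ℕ) : Ex := vy *ₓ (xR c *ₓ xL (dZ N) -ₓ cst 2 *ₓ xL N)

namespace Crt

variable (C : Crt)

/-- `24 e11` -/
def x11 : Ex :=
  cst (-6) *ₓ (vy *ₓ xR C.c *ₓ xL C.nA *ₓ vx *ₓ xD)
  -ₓ cst 24 *ₓ (vy *ₓ xR C.c *ₓ (xL C.nA +ₓ cst 2 *ₓ vx *ₓ xL (dX C.nA)) *ₓ vz)
  -ₓ cst 6 *ₓ (vy *ₓ xR C.c *ₓ xL C.nB *ₓ xK)
  +ₓ vy *ₓ xR C.c *ₓ xL C.nW *ₓ (cst 24 *ₓ vz -ₓ vx *ₓ pw xD 2)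
  -ₓ cst 12 *ₓ (vy *ₓ xR C.c *ₓ xL (dX C.nW) *ₓ vz *ₓ vx *ₓ xD)
/-- `24 eh / η` -/
def x1h : Ex :=
  cst (-48) *ₓ (xN3 C.nA C.c *ₓ vz) -ₓ cst 12 *ₓ (xD *ₓ xN3 C.nW C.c *ₓ vz)
  +ₓ cst 48 *ₓ (vy *ₓ xR C.c *ₓ xL (dX C.nW) *ₓ vz) -ₓ cst 4 *ₓ (vy *ₓ xR C.c *ₓ xL C.nW *ₓ xD)
/-- `24 ehh` -/
def xhh : Ex := cst 32 *ₓ (vy *ₓ xR C.c *ₓ xL C.nW) +ₓ cst 48 *ₓ (xN3 C.nW C.c *ₓ vz)
/-- `24 ek / η` -/
def x1k : Ex :=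
  cst (-24) *ₓ (xN2 C.nA C.p C.c +ₓ cst 2 *ₓ (vy *ₓ xR C.c *ₓ xL (dX C.nB)))
  -ₓ cst 6 *ₓ (xD *ₓ xN2 C.nW C.p C.c)
/-- `24 ehk` -/
def xhk : Ex := cst 24 *ₓ xN2 C.nW C.p C.c -ₓ cst 48 *ₓ xN3 C.nB C.c
/-- `24 ekk` -/
def xkk : Ex := cst (-24) *ₓ xN2 C.nB C.p C.c

/-- the six polynomials -/
def Z00 : Ex := cst 16 *ₓ pw vy 2 *ₓ C.x11 +ₓ cst 4 *ₓ vy *ₓ vx *ₓ vz *ₓ C.x1k +ₓ vx *ₓ vz *ₓ C.xkk
def Z01 : Ex := cst 8 *ₓ pw vy 2 *ₓ C.x1h +ₓ cst 2 *ₓ vy *ₓ vz *ₓ C.xhk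
def Z02 : Ex := cst 8 *ₓ pw vy 2 *ₓ C.x1k +ₓ cst 4 *ₓ vy *ₓ C.xkk
def Z11 : Ex := cst 16 *ₓ pw vy 2 *ₓ C.xhh
def Z12 : Ex := cst 8 *ₓ pw vy 2 *ₓ C.xhk
def Z22 : Ex := cst 16 *ₓ pw vy 2 *ₓ C.xkk

end Crt

end Crest.Agent.R249.Brg133

noncomputable section

namespace Crest.Agent.R249.Brg133

open Ker254 DivC467 Eta467

lemma ev_xR (c : ℕ) (y m G : ℝ) : (xR c).ev y m G = RR c m G := by
  simp only [xR, Ex.ev, RR]; push_cast; ring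
lemma ev_xRM (c : ℕ) (y m G : ℝ) : (xRM c).ev y m G = RM c m := by
  simp only [xRM, Ex.ev, RM]; push_cast; ring
lemma ev_xL (N : P3) (y m G : ℝ) : (xL N).ev y m G = ev3 y m G N := by
  simp only [xL, Ex.ev, h3_eq]
lemma ev_xN2 (N : P3) (p c : ℕ) (y m G : ℝ) : (xN2 N p c).ev y m G = Brg133.N2 N p c y m G := by
  simp only [xN2, Ex.ev, ev_xR, ev_xRM, ev_xL, Brg133.N2]; push_cast; ring
lemma ev_xN3 (N : P3) (c : ℕ) (y m G : ℝ) : (xN3 N c).ev y m G = Brg133.N3 N c y m G := by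
  simp only [xN3, Ex.ev, ev_xR, ev_xL, Brg133.N3]; push_cast; ring

lemma X0_f0 (z : ℝ × ℝ × ℝ) : Eta467.X0 f0 z = z.1 * (1 - 3 * z.2.1 ^ 2 - z.1 ^ 2 / 4) := by
  simp only [Eta467.X0, f0]; ring
lemma K0_f0 (z : ℝ × ℝ × ℝ) : Eta467.K0 f0 z = z.2.1 * (1 - z.2.1 ^ 2 - 3 / 4 * z.1 ^ 2) := by
  simp only [Eta467.K0, f0]; ring

/-- the form -/
def ZF (C : Crt) (η q y m G h k : ℝ) : ℝ :=
  C.Z00.ev y m G + 2 * (η * C.Z01.ev y m G) * h + 2 * (η * q * C.Z02.ev y m G) * k +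
    C.Z11.ev y m G * h ^ 2 + 2 * (q * C.Z12.ev y m G) * h * k + C.Z22.ev y m G * k ^ 2

theorem form_Z {C : Crt} {z : ℝ × ℝ × ℝ} (hm : z.2.1 ≠ 0) (hR : RR C.c z.2.1 z.2.2 ≠ 0) {q : ℝ}
    (hq : q ^ 2 = z.2.2) (h k : ℝ) :
    384 * z.2.1 ^ 2 * (F3 0 C.A C.B C.W z (Eta467.X0 f0 z) (Eta467.K0 f0 z) q h (k + z.1 / (4 * z.2.1) * q) *
      C.S z.2.1 z.2.2) = ZF C z.1 q (z.1 ^ 2) z.2.1 z.2.2 h k := by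
  rw [Crt.form_F3 hm hR hq]
  obtain ⟨η, m, G⟩ := z
  simp only at hm hR hq ⊢
  rw [X0_f0, K0_f0]
  simp only [ZF, Crt.Z00, Crt.Z01, Crt.Z02, Crt.Z11, Crt.Z12, Crt.Z22, Crt.x11, Crt.x1h, Crt.xhh,
    Crt.x1k, Crt.xhk, Crt.xkk, Ex.ev, ev_xR, ev_xL, ev_xN2, ev_xN3, xD, xK, Crt.e11, Crt.eh,
    Crt.ehh, Crt.ek, Crt.ehk, Crt.ekk]
  push_cast
  obtain ⟨l, hl⟩ : ∃ l, l = η / (4 * m) := ⟨_, rfl⟩
  have hl' : l * (4 * m) = η := by rw [hl]; field_simp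
  rw [← hl]
  subst hq
  generalize Brg133.N2 C.nA C.p C.c (η ^ 2) m (q ^ 2) = a2
  generalize Brg133.N3 C.nA C.c (η ^ 2) m (q ^ 2) = a3
  generalize Brg133.N2 C.nB C.p C.c (η ^ 2) m (q ^ 2) = b2
  generalize Brg133.N3 C.nB C.c (η ^ 2) m (q ^ 2) = b3
  generalize Brg133.N2 C.nW C.p C.c (η ^ 2) m (q ^ 2) = w2
  generalize Brg133.N3 C.nW C.c (η ^ 2) m (q ^ 2) = w3
  generalize ev3 (η ^ 2) m (q ^ 2) C.nA = a0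
  generalize ev3 (η ^ 2) m (q ^ 2) (dX C.nA) = a1
  generalize ev3 (η ^ 2) m (q ^ 2) C.nB = b0
  generalize ev3 (η ^ 2) m (q ^ 2) (dX C.nB) = b1
  generalize ev3 (η ^ 2) m (q ^ 2) C.nW = w0
  generalize ev3 (η ^ 2) m (q ^ 2) (dX C.nW) = w1
  generalize RR C.c m (q ^ 2) = R
  subst hl'
  ring

end Crest.Agent.R249.Brg133
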