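import Crest.Agent.R249.Brg3_133

/-!
# Row 249, part A (helper133): bridge, part 4: charts

A chart: expressions `ya ma Ga` (values of `η²`, `m`, `G` in the chart variables), positive factors
`nu l r1 r2 r3`, factors `f ≤ f2`, six lists `P00 .. P22` in the chart variables, margins `e1 e3`,
a nonnegative dropped term `dr`; the six identities `L = R` are checked by `idc`;
`chart_sound` : PSD of the lists at a point gives the inequality `f (e1 S R + e3 S k²) ≤ ZF`.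

* `f = 4 m² - y`, `f2 = 4 m²` : divided form (`qq/μ^ ≥ qq`);
* `f = f2 = 4 m²` : undivided form;
* `20 f2 = 4 m²`, on `y ≥ 0.95 (4 m²)` : strip.
-/

set_option autoImplicit false

open Set Filter Topology
open scoped ContDiff

namespace Crest.Agent.R249.Brg133

open Ker254 DivC467 Eta467 Ex

local infixl:65 " +ₓ " => Ex.add
local infixl:65 " -ₓ " => Ex.sub
local infixl:70 " *ₓ " => Ex.mul

/-- `S = m^(p+1) R³` -/
def Crt.xS (C : Crt) : Ex := pw vy (C.p + 1) *ₓ pw (xR C.c) 3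

/-- `4 m² - y` in `(y, m, G)` -/
def xMu : Ex := cst 4 *ₓ pw vy 2 -ₓ vx

/-- data of a chart -/
structure Chart where
  ya : Ex
  ma : Ex
  Ga : Ex
  f : Ex
  f2 : Ex
  nu : Ex
  l : Ex
  r1 : Ex
  r2 : Ex
  r3 : Ex
  dr : Ex
  e1 : ℕ
  e3 : ℕ
  P00 : P3
  P01 : P3
  P02 : P3
  P11 : P3
  P12 : P3
  P22 : P3

namespace Chart

variable (H : Chart) (C : Crt)

/-- substitution of the chart -/
def s (E : Ex) : Ex := E.sb H.ya H.ma H.Ga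

/-- lists -/
def v (P : P3) : Ex := pc P vx vy vz

def L00 : Ex := H.nu *ₓ H.s (vx *ₓ C.Z00)
def R00 : Ex := H.f *ₓ (H.l *ₓ pw H.r1 2 *ₓ v H.P00 +ₓ
  cst H.e1 *ₓ H.nu *ₓ H.s (vx *ₓ C.xS *ₓ xR C.c))
def L01 : Ex := H.nu *ₓ H.s (vx *ₓ C.Z01)
def R01 : Ex := H.f *ₓ (H.l *ₓ H.r1 *ₓ H.r2 *ₓ v H.P01)
def L02 : Ex := H.nu *ₓ H.s (vx *ₓ vz *ₓ C.Z02)
def R02 : Ex := H.f *ₓ (H.l *ₓ H.r1 *ₓ H.r3 *ₓ v H.P02)
def L11 : Ex := H.nu *ₓ H.s C.Z11
def R11 : Ex := H.f *ₓ (H.l *ₓ pw H.r2 2 *ₓ v H.P11)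
def L12 : Ex := H.nu *ₓ H.s (vz *ₓ C.Z12)
def R12 : Ex := H.f *ₓ (H.l *ₓ H.r2 *ₓ H.r3 *ₓ v H.P12)
def L22 : Ex := H.nu *ₓ H.s (vz *ₓ C.Z22)
def R22 : Ex := H.f2 *ₓ
  (H.l *ₓ pw H.r3 2 *ₓ v H.P22 +ₓ cst H.e3 *ₓ H.nu *ₓ H.s (vz *ₓ C.xS)) +ₓ H.dr

end Chart

end Crest.Agent.R249.Brg133

noncomputable section

namespace Crest.Agent.R249.Brg133

open Ker254 DivC467 Eta467

variable {C : Crt} {H : Chart}

lemma ev_xS (y m G : ℝ) : C.xS.ev y m G = C.S m G := by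
  simp only [Crt.xS, Ex.ev, ev_xR]; rfl

lemma ev_v (P : P3) (a b c : ℝ) : (Chart.v P).ev a b c = ev3 a b c P := by
  simp only [Chart.v, Ex.ev, h3_eq]

/-- the algebra of one chart. -/
theorem chart_alg {η q y G f f2 Z00 Z01 Z02 Z11 Z12 Z22 P00 P01 P02 P11 P12 P22 l r1 r2 r3 t1 t3 : ℝ}
    (hη : η ≠ 0) (hq : q ≠ 0) (hy : η ^ 2 = y) (hG : q ^ 2 = G) (hf : 0 ≤ f) (hff : f ≤ f2)
    (hf2 : 0 < f2) (hl : 0 < l) (ht3 : 0 ≤ t3)
    (h00 : y * Z00 = f * (l * r1 ^ 2 * P00 + y * t1))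
    (h01 : y * Z01 = f * (l * r1 * r2 * P01))
    (h02 : y * G * Z02 = f * (l * r1 * r3 * P02))
    (h11 : Z11 = f * (l * r2 ^ 2 * P11))
    (h12 : G * Z12 = f * (l * r2 * r3 * P12))
    (h22 : f2 * (l * r3 ^ 2 * P22 + G * t3) ≤ G * Z22)
    (hP : ∀ u v s : ℝ, 0 ≤ qf P00 P01 P02 P11 P12 P22 u v s) (h k : ℝ) :
    f * (t1 + t3 * k ^ 2) ≤
      Z00 + 2 * (η * Z01) * h + 2 * (η * q * Z02) * k + Z11 * h ^ 2 + 2 * (q * Z12) * h * k +
        Z22 * k ^ 2 := by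
  have hy0 : 0 < y := by rw [← hy]; positivity
  have hG0 : 0 < G := by rw [← hG]; positivity
  have h1 := hP (r1 / η) (r2 * h) (r3 * k / q)
  have h2 := mul_nonneg hl.le h1
  have h22' : 0 ≤ P22 := by
    have := hP 0 0 1
    simpa [qf] using this
  have hZ22 : 0 ≤ G * Z22 := by
    refine le_trans ?_ h22
    have : 0 ≤ l * r3 ^ 2 * P22 + G * t3 := by positivity
    positivity
  have hZ22' : 0 ≤ Z22 := by
    by_contra hcon
    push Not at hcon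
    nlinarith
  have h3 := mul_nonneg hf h2
  have e1 : f * (l * qf P00 P01 P02 P11 P12 P22 (r1 / η) (r2 * h) (r3 * k / q)) =
      (Z00 - f * t1) + 2 * (η * Z01) * h + 2 * (η * q * Z02) * k + Z11 * h ^ 2 +
        2 * (q * Z12) * h * k + f * (l * r3 ^ 2 * P22) * (k ^ 2 / G) := by
    have c1 : Z00 = f * (l * r1 ^ 2 * P00 + y * t1) / y := by
      rw [← h00]; field_simp
    have c2 : Z01 = f * (l * r1 * r2 * P01) / y := by
      rw [← h01]; field_simp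
    have c3 : Z02 = f * (l * r1 * r3 * P02) / (y * G) := by
      rw [← h02]; field_simp
    have c4 : Z12 = f * (l * r2 * r3 * P12) / G := by
      rw [← h12]; field_simp
    rw [c1, c2, c3, c4, h11, qf, ← hy, ← hG]
    field_simp
    ring
  have e2 : f * (l * r3 ^ 2 * P22) * (k ^ 2 / G) ≤ Z22 * k ^ 2 - f * t3 * k ^ 2 := by
    have a1 : l * r3 ^ 2 * P22 ≤ G * Z22 / f2 - G * t3 := by
      rw [le_sub_iff_add_le, le_div_iff₀ hf2]
      linarith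
    have a2 : f * (l * r3 ^ 2 * P22) ≤ f * (G * Z22 / f2 - G * t3) :=
      mul_le_mul_of_nonneg_left a1 hf
    have a3 : 0 ≤ k ^ 2 / G := by positivity
    have a4 := mul_le_mul_of_nonneg_right a2 a3
    have a5 : f * (G * Z22 / f2 - G * t3) * (k ^ 2 / G) =
        f / f2 * (Z22 * k ^ 2) - f * t3 * k ^ 2 := by
      field_simp
    have a6 : f / f2 ≤ 1 := by
      rw [div_le_one hf2]; exact hff
    have a7 : f / f2 * (Z22 * k ^ 2) ≤ 1 * (Z22 * k ^ 2) :=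
      mul_le_mul_of_nonneg_right a6 (by positivity)
    linarith
  rw [e1] at h3
  linarith

/-- the six identities of a chart, at a point. -/
structure ChartAt (C : Crt) (H : Chart) (a b c : ℝ) : Prop where
  h00 : (H.L00 C).ev a b c = (H.R00 C).ev a b c
  h01 : (H.L01 C).ev a b c = H.R01.ev a b c
  h02 : (H.L02 C).ev a b c = H.R02.ev a b c
  h11 : (H.L11 C).ev a b c = H.R11.ev a b c
  h12 : (H.L12 C).ev a b c = H.R12.ev a b c
  h22 : (H.L22 C).ev a b c = (H.R22 C).ev a b c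

/-- positivity of the factors of a chart, at a point. -/
structure ChartPos (H : Chart) (a b c : ℝ) : Prop where
  f0 : 0 ≤ H.f.ev a b c
  f2 : 0 < H.f2.ev a b c
  ff : H.f.ev a b c ≤ H.f2.ev a b c
  nu : 0 < H.nu.ev a b c
  l : 0 < H.l.ev a b c
  dr : 0 ≤ H.dr.ev a b c

/-- **soundness of a chart.** -/
theorem chart_sound {a b c : ℝ} (hc : ChartAt C H a b c) (hp : ChartPos H a b c) {η q : ℝ}
    (hη : η ≠ 0) (hq : q ≠ 0) (hy : η ^ 2 = H.ya.ev a b c) (hG : q ^ 2 = H.Ga.ev a b c)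
    (hS : 0 ≤ C.S (H.ma.ev a b c) (q ^ 2))
    (hP : ∀ u v s : ℝ, 0 ≤ qf (ev3 a b c H.P00) (ev3 a b c H.P01) (ev3 a b c H.P02)
      (ev3 a b c H.P11) (ev3 a b c H.P12) (ev3 a b c H.P22) u v s) (h k : ℝ) :
    H.f.ev a b c * (H.e1 * (C.S (H.ma.ev a b c) (q ^ 2) * RR C.c (H.ma.ev a b c) (q ^ 2)) +
        H.e3 * C.S (H.ma.ev a b c) (q ^ 2) * k ^ 2) ≤
      ZF C η q (η ^ 2) (H.ma.ev a b c) (q ^ 2) h k := by
  have k00 := hc.h00
  have k01 := hc.h01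
  have k02 := hc.h02
  have k11 := hc.h11
  have k12 := hc.h12
  have k22 := hc.h22
  simp only [Chart.L00, Chart.R00, Chart.L01, Chart.R01, Chart.L02, Chart.R02, Chart.L11,
    Chart.R11, Chart.L12, Chart.R12, Chart.L22, Chart.R22, Chart.s, Ex.ev_sb, Ex.ev, ev_v,
    ev_xS, ev_xR, ← hy, ← hG] at k00 k01 k02 k11 k12 k22
  push_cast at k00 k01 k02 k11 k12 k22
  have hnu := hp.nu
  have hdr := hp.dr
  unfold ZF
  set nu := H.nu.ev a b c with hnu_def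
  have key := chart_alg (Z00 := nu * C.Z00.ev (η ^ 2) (H.ma.ev a b c) (q ^ 2))
    (Z01 := nu * C.Z01.ev (η ^ 2) (H.ma.ev a b c) (q ^ 2))
    (Z02 := nu * C.Z02.ev (η ^ 2) (H.ma.ev a b c) (q ^ 2))
    (Z11 := nu * C.Z11.ev (η ^ 2) (H.ma.ev a b c) (q ^ 2))
    (Z12 := nu * C.Z12.ev (η ^ 2) (H.ma.ev a b c) (q ^ 2))
    (Z22 := nu * C.Z22.ev (η ^ 2) (H.ma.ev a b c) (q ^ 2))
    (r1 := H.r1.ev a b c) (r2 := H.r2.ev a b c) (r3 := H.r3.ev a b c)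
    (t1 := nu * (H.e1 * (C.S (H.ma.ev a b c) (q ^ 2) * RR C.c (H.ma.ev a b c) (q ^ 2))))
    (t3 := nu * (H.e3 * C.S (H.ma.ev a b c) (q ^ 2))) hη hq rfl rfl hp.f0 hp.ff hp.f2 hp.l
    (mul_nonneg hnu.le (mul_nonneg (Nat.cast_nonneg _) hS)) ?_ ?_ ?_ ?_ ?_ ?_ hP h k
  · refine le_of_mul_le_mul_left ?_ hnu
    refine le_trans (le_of_eq ?_) (key.trans (le_of_eq ?_)) <;> ring
  · linear_combination k00
  · linear_combination k01
  · linear_combination k02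
  · linear_combination k11
  · linear_combination k12
  · linarith

/-- from the `Z`-form to `F3`. -/
theorem F3_of_ZF {z : ℝ × ℝ × ℝ} (hm : 0 < z.2.1) (hR : 0 < RR C.c z.2.1 z.2.2) {q : ℝ}
    (hq : q ^ 2 = z.2.2) {e1 e3 f : ℝ} (hf : 4 * z.2.1 ^ 2 - z.1 ^ 2 ≤ f) (he1 : 0 ≤ e1)
    (he3 : 0 ≤ e3)
    (H : ∀ h k, f *
      (e1 * (C.S z.2.1 z.2.2 * RR C.c z.2.1 z.2.2) + e3 * C.S z.2.1 z.2.2 * k ^ 2) ≤
      ZF C z.1 q (z.1 ^ 2) z.2.1 z.2.2 h k) (h k : ℝ) :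
    (4 * z.2.1 ^ 2 - z.1 ^ 2) / (384 * z.2.1 ^ 2) *
      (e1 * RR C.c z.2.1 z.2.2 + e3 * (k - z.1 / (4 * z.2.1) * q) ^ 2) ≤
      F3 0 C.A C.B C.W z (Eta467.X0 f0 z) (Eta467.K0 f0 z) q h k := by
  have hS : 0 < C.S z.2.1 z.2.2 := mul_pos (pow_pos hm _) (pow_pos hR _)
  have h1 := H h (k - z.1 / (4 * z.2.1) * q)
  rw [← form_Z hm.ne' hR.ne' hq, sub_add_cancel] at h1
  have h2 : 0 < 384 * z.2.1 ^ 2 := by positivity
  rw [div_mul_eq_mul_div, div_le_iff₀ h2]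
  refine le_of_mul_le_mul_right ?_ hS
  have h3 : 0 ≤ e1 * (C.S z.2.1 z.2.2 * RR C.c z.2.1 z.2.2) +
      e3 * C.S z.2.1 z.2.2 * (k - z.1 / (4 * z.2.1) * q) ^ 2 := by positivity
  have h4 := mul_le_mul_of_nonneg_right hf h3
  refine le_trans (le_of_eq ?_) ((h4.trans h1).trans (le_of_eq ?_)) <;> ring

end Crest.Agent.R249.Brg133
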