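import Crest.Agent.R249.FrD_129

/-!
Dirac type operators over a frame ring and their Weitzenboeck formula (row 249, part C2 of the
blueprint, helper198).  Any dimension, any pair of bundles.

`E0`, `E1` are bundles with connection matrices `a0`, `a1`; `c i : κ1 × κ0` is the symbol
(Clifford multiplication by the frame vector `e_i`), constant and parallel.
`dir u = ∑ c_i ∇_i u`, `dirs Y = - ∑ c_iᵀ ∇_i Y`.
-/

set_option autoImplicit false
set_option linter.unusedSectionVars false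

namespace Crest.Agent.R249.C2_198

open Finset Matrix
open Crest.Agent.R249.Fr129

variable {n : ℕ} {S : Type*} [CommRing S] [Algebra ℝ S] (F : Frame n S)
variable {κ0 κ1 : Type*} [Fintype κ0] [Fintype κ1] [DecidableEq κ0] [DecidableEq κ1]

/-- `c` is a constant parallel symbol `T ⊗ E0 → E1`. -/
structure Par (a0 : Fin n → Matrix κ0 κ0 S) (a1 : Fin n → Matrix κ1 κ1 S)
    (c : Fin n → Matrix κ1 κ0 S) : Prop where
  const : ∀ m i x y, F.D m (c i x y) = 0
  par : ∀ m i, a1 m * c i = c i * a0 m + ∑ p, F.w m i p • c p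

variable {F} {a0 : Fin n → Matrix κ0 κ0 S} {a1 : Fin n → Matrix κ1 κ1 S}
  {c : Fin n → Matrix κ1 κ0 S}

lemma Par.transpose (h0 : Frame.Skew a0) (h1 : Frame.Skew a1) (h : Par F a0 a1 c) :
    Par F a1 a0 (fun i => (c i)ᵀ) where
  const := fun m i x y => h.const m i y x
  par := by
    intro m i
    have t0 : (a0 m)ᵀ = - a0 m := by
      ext x y; simp only [Matrix.transpose_apply, Matrix.neg_apply]; exact h0 m y x
    have t1 : (a1 m)ᵀ = - a1 m := by
      ext x y; simp only [Matrix.transpose_apply, Matrix.neg_apply]; exact h1 m y x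
    have := congrArg Matrix.transpose (h.par m i)
    rw [Matrix.transpose_mul, Matrix.transpose_add, Matrix.transpose_mul, t0, t1,
      Matrix.transpose_sum] at this
    simp only [Matrix.transpose_smul] at this
    have e : (c i)ᵀ * a1 m = a0 m * (c i)ᵀ - ∑ p, F.w m i p • (c p)ᵀ := by
      have h2 : (c i)ᵀ * -a1 m = - ((c i)ᵀ * a1 m) := by rw [Matrix.mul_neg]
      have h3 : -a0 m * (c i)ᵀ = - (a0 m * (c i)ᵀ) := by rw [Matrix.neg_mul]
      rw [h2, h3] at this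
      have := congrArg Neg.neg this
      rw [neg_neg] at this
      rw [this]; abel
    rw [e]; abel

/-- covariant derivative of `c_i u` -/
lemma Par.cov (h : Par F a0 a1 c) (m i : Fin n) (u : κ0 → S) :
    F.cov a1 m (c i *ᵥ u) = c i *ᵥ F.cov a0 m u + ∑ p, F.w m i p • (c p *ᵥ u) := by
  have hD : (fun x => F.D m ((c i *ᵥ u) x)) = c i *ᵥ (fun y => F.D m (u y)) := by
    funext x
    simp only [Matrix.mulVec, dotProduct]
    rw [Frame.D_sum]
    refine sum_congr rfl fun y _ => ?_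
    rw [Frame.D_mul, h.const]; ring
  have e1 : F.cov a1 m (c i *ᵥ u) = (fun x => F.D m ((c i *ᵥ u) x)) + a1 m *ᵥ (c i *ᵥ u) := by
    funext x; simp only [Frame.cov, Pi.add_apply, Matrix.mulVec, dotProduct]
  have e0 : F.cov a0 m u = (fun y => F.D m (u y)) + a0 m *ᵥ u := by
    funext x; simp only [Frame.cov, Pi.add_apply, Matrix.mulVec, dotProduct]
  rw [e1, e0, hD, Matrix.mulVec_mulVec, h.par, Matrix.add_mulVec, Matrix.mulVec_add,
    Matrix.mulVec_mulVec, Matrix.sum_mulVec]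
  simp only [Matrix.smul_mulVec]
  abel

variable (F) (a0) (a1) (c)

/-- the Dirac type operator `∑ c_i ∇_i` -/
def dir (u : κ0 → S) : κ1 → S := ∑ i, c i *ᵥ F.cov a0 i u

/-- its formal adjoint `- ∑ c_iᵀ ∇_i` -/
def dirs (Y : κ1 → S) : κ0 → S := - ∑ i, (c i)ᵀ *ᵥ F.cov a1 i Y

lemma dirs_eq (Y : κ1 → S) : dirs F a1 c Y = - dir F a1 (fun i => (c i)ᵀ) Y := rfl

/-- divergence of a vector field -/
def dvg (X : Fin n → S) : S := ∑ i, F.cov F.tan i X i

variable {F} {a0} {a1} {c}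

lemma dir_neg (u : κ0 → S) : dir F a0 c (-u) = - dir F a0 c u := by
  simp only [dir, Frame.cov_neg, Matrix.mulVec_neg, sum_neg_distrib]

lemma dir_add (u v : κ0 → S) : dir F a0 c (u + v) = dir F a0 c u + dir F a0 c v := by
  simp only [dir, Frame.cov_add, Matrix.mulVec_add, sum_add_distrib]

/-- Formal adjointness: `⟨D u, Y⟩ - ⟨u, D* Y⟩ = div X`, `X_i = ⟨c_i u, Y⟩`. -/
theorem dir_adj (h1 : Frame.Skew a1) (h : Par F a0 a1 c) (u : κ0 → S)
    (Y : κ1 → S) :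
    dir F a0 c u ⬝ᵥ Y - u ⬝ᵥ dirs F a1 c Y = dvg F (fun i => (c i *ᵥ u) ⬝ᵥ Y) := by
  have hX : ∀ i, F.D i ((c i *ᵥ u) ⬝ᵥ Y)
      = (c i *ᵥ F.cov a0 i u) ⬝ᵥ Y + ∑ p, F.w i i p * ((c p *ᵥ u) ⬝ᵥ Y)
        + (c i *ᵥ u) ⬝ᵥ F.cov a1 i Y := by
    intro i
    have := F.D_dot h1 i (c i *ᵥ u) Y
    simp only [dotProduct] at this ⊢
    rw [this]
    have e := h.cov i i u
    rw [e]
    simp only [Pi.add_apply, Finset.sum_apply, Pi.smul_apply, smul_eq_mul, add_mul,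
      sum_add_distrib, sum_mul, mul_sum]
    rw [sum_comm (f := fun x p => F.w i i p * (c p *ᵥ u) x * Y x)]
    simp only [mul_assoc]
  have hc : dvg F (fun i => (c i *ᵥ u) ⬝ᵥ Y)
      = ∑ i, (F.D i ((c i *ᵥ u) ⬝ᵥ Y) + ∑ p, F.w i p i * ((c p *ᵥ u) ⬝ᵥ Y)) := by
    simp only [dvg, Frame.cov, Frame.tan]
  rw [hc]
  have h2 : ∀ i, F.D i ((c i *ᵥ u) ⬝ᵥ Y) + ∑ p, F.w i p i * ((c p *ᵥ u) ⬝ᵥ Y)
      = (c i *ᵥ F.cov a0 i u) ⬝ᵥ Y + (c i *ᵥ u) ⬝ᵥ F.cov a1 i Y := by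
    intro i
    rw [hX]
    have : ∑ p, F.w i p i * ((c p *ᵥ u) ⬝ᵥ Y) = - ∑ p, F.w i i p * ((c p *ᵥ u) ⬝ᵥ Y) := by
      rw [← sum_neg_distrib]
      exact sum_congr rfl fun p _ => by rw [F.anti i p i]; ring
    rw [this]; ring
  simp_rw [h2, sum_add_distrib]
  rw [dir, dirs, dotProduct_neg, sum_dotProduct, dotProduct_sum, sub_neg_eq_add]
  congr 1
  refine sum_congr rfl fun i _ => ?_
  rw [Matrix.dotProduct_mulVec, Matrix.vecMul_transpose]

/-- `D* D` in terms of the Hessian. -/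
theorem dirs_dir (h : Par F a0 a1 c) (u : κ0 → S) :
    dirs F a1 c (dir F a0 c u) = - ∑ j, ∑ i, ((c j)ᵀ * c i) *ᵥ F.hess a0 j i u := by
  rw [dirs]
  congr 1
  refine sum_congr rfl fun j _ => ?_
  rw [dir, Frame.cov_sum]
  have e : ∀ i, F.cov a1 j (c i *ᵥ F.cov a0 i u)
      = c i *ᵥ F.cov a0 j (F.cov a0 i u) + ∑ p, F.w j i p • (c p *ᵥ F.cov a0 i u) :=
    fun i => h.cov j i _
  simp_rw [e, sum_add_distrib]
  rw [sum_comm (f := fun i p => F.w j i p • (c p *ᵥ F.cov a0 i u)), ← sum_add_distrib,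
    Matrix.mulVec_sum]
  refine sum_congr rfl fun i _ => ?_
  have hh : F.hess a0 j i u = F.cov a0 j (F.cov a0 i u) - ∑ p, F.w j i p • F.cov a0 p u := by
    funext x; simp [Frame.hess, Finset.sum_apply]
  have h2 : ∑ p, F.w j p i • (c i *ᵥ F.cov a0 p u)
      = - (c i *ᵥ ∑ p, F.w j i p • F.cov a0 p u) := by
    rw [Matrix.mulVec_sum, ← sum_neg_distrib]
    refine sum_congr rfl fun p _ => ?_
    rw [F.anti j p i, Matrix.mulVec_smul, neg_smul]
  rw [h2, hh, ← Matrix.mulVec_mulVec, ← sub_eq_add_neg, ← Matrix.mulVec_sub]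

variable (F) (a0) (c)

/-- The zero order term `-(1/2) ∑ c_iᵀ c_j Ω_ij`. -/
noncomputable def Q : Matrix κ0 κ0 S :=
  - (Frame.half (S := S)) • ∑ i, ∑ j, ((c i)ᵀ * c j) * F.curv a0 i j

variable {F} {a0} {c}

/-- Weitzenboeck: `D* D = ∇*∇ + Q`. -/
theorem weitz (h : Par F a0 a1 c)
    (hcl : ∀ i j, (c i)ᵀ * c j + (c j)ᵀ * c i = if i = j then 2 else 0) (u : κ0 → S) :
    dirs F a1 c (dir F a0 c u) = - F.lap a0 u + Q F a0 c *ᵥ u := by
  rw [dirs_dir h]
  have hl : F.lap a0 u = ∑ i, F.hess a0 i i u := by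
    funext x; simp [Frame.lap, Finset.sum_apply]
  -- abbreviate
  have hc : ∀ j i, F.hess a0 j i u - F.hess a0 i j u = F.curv a0 j i *ᵥ u := by
    intro j i; rw [F.hess_comm a0 j i u]; abel
  have key : (2 : S) • ∑ j, ∑ i, ((c j)ᵀ * c i) *ᵥ F.hess a0 j i u
      = (2 : S) • F.lap a0 u + ∑ j, ∑ i, ((c j)ᵀ * c i) *ᵥ (F.curv a0 j i *ᵥ u) := by
    have e1 : ∑ j, ∑ i, ((c j)ᵀ * c i) *ᵥ F.hess a0 j i u
        = ∑ j, ∑ i, ((c i)ᵀ * c j) *ᵥ F.hess a0 i j u := sum_comm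
    have e2 : (2 : S) • ∑ j, ∑ i, ((c j)ᵀ * c i) *ᵥ F.hess a0 j i u
        = ∑ j, ∑ i, (((c j)ᵀ * c i) *ᵥ F.hess a0 j i u + ((c i)ᵀ * c j) *ᵥ F.hess a0 i j u) := by
      simp_rw [sum_add_distrib]
      rw [← e1, two_smul]
    rw [e2, hl]
    have e3 : ∀ j i, ((c j)ᵀ * c i) *ᵥ F.hess a0 j i u + ((c i)ᵀ * c j) *ᵥ F.hess a0 i j u
        = ((c j)ᵀ * c i) *ᵥ (F.curv a0 j i *ᵥ u)
          + (if i = j then (2 : S) • F.hess a0 i i u else 0) := by
      intro j i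
      rw [← hc j i, Matrix.mulVec_sub]
      have : ((c i)ᵀ * c j) = (if i = j then 2 else 0) - (c j)ᵀ * c i := by
        rw [← hcl i j]; abel
      rw [this, Matrix.sub_mulVec]
      by_cases hij : i = j
      · subst hij
        simp only [if_true, sub_self]
        have : (2 : Matrix κ0 κ0 S) *ᵥ F.hess a0 i i u = (2 : S) • F.hess a0 i i u := by
          have h2 : (2 : Matrix κ0 κ0 S) = (2 : S) • (1 : Matrix κ0 κ0 S) := by
            rw [two_smul, one_add_one_eq_two]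
          rw [h2, Matrix.smul_mulVec, Matrix.one_mulVec]
        rw [this]; abel
      · rw [if_neg hij, if_neg hij]
        rw [Matrix.zero_mulVec]; abel
    simp_rw [e3, sum_add_distrib]
    rw [add_comm]
    congr 1
    simp only [sum_ite_eq', mem_univ, if_true, smul_sum]
  have h2 := Frame.two_half (S := S)
  have e : ∑ j, ∑ i, ((c j)ᵀ * c i) *ᵥ F.hess a0 j i u
      = F.lap a0 u + Frame.half (S := S) • ∑ j, ∑ i, ((c j)ᵀ * c i) *ᵥ (F.curv a0 j i *ᵥ u) := by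
    have := congrArg (fun z => Frame.half (S := S) • z) key
    simp only [smul_add, smul_smul] at this
    rw [mul_comm, h2, one_smul, one_smul] at this
    exact this
  rw [e, neg_add, Q]
  congr 1
  rw [Matrix.smul_mulVec, neg_smul, Matrix.sum_mulVec]
  simp only [Matrix.sum_mulVec, Matrix.mulVec_mulVec]

/-- Weitzenboeck for `D D*`. -/
theorem weitz' (h0 : Frame.Skew a0) (h1 : Frame.Skew a1) (h : Par F a0 a1 c)
    (hcl : ∀ i j, c i * (c j)ᵀ + c j * (c i)ᵀ = if i = j then 2 else 0) (Y : κ1 → S) :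
    dir F a0 c (dirs F a1 c Y) = - F.lap a1 Y + Q F a1 (fun i => (c i)ᵀ) *ᵥ Y := by
  rw [← weitz (h.transpose h0 h1) (by simpa using hcl) Y, dirs_eq, dirs_eq, dir_neg]
  simp only [Matrix.transpose_transpose]

end Crest.Agent.R249.C2_198
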