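import Crest.Agent.R249.C2a_198

/-!
Twisting a Dirac type operator by a bundle `G` (row 249, part C2 of the blueprint, helper198).
-/

set_option autoImplicit false
set_option linter.unusedSectionVars false

namespace Crest.Agent.R249.C2_198

open Finset Matrix
open scoped Kronecker
open Crest.Agent.R249.Fr129

variable {n : ℕ} {S : Type*} [CommRing S] [Algebra ℝ S] (F : Frame n S)
variable {κ0 κ1 ι : Type*} [Fintype κ0] [Fintype κ1] [DecidableEq κ0] [DecidableEq κ1]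
  [Fintype ι] [DecidableEq ι]

lemma tens_eq (a : Fin n → Matrix κ0 κ0 S) (g : Fin n → Matrix ι ι S) (k : Fin n) :
    Frame.tens a g k = a k ⊗ₖ (1 : Matrix ι ι S) + (1 : Matrix κ0 κ0 S) ⊗ₖ g k := by
  ext ⟨x1, x2⟩ ⟨y1, y2⟩
  simp only [Frame.tens, Matrix.add_apply, Matrix.kroneckerMap_apply, Matrix.one_apply, mul_ite,
    mul_one, mul_zero, ite_mul, one_mul, zero_mul]

lemma curv_tens_eq (a : Fin n → Matrix κ0 κ0 S) (g : Fin n → Matrix ι ι S) (k l : Fin n) :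
    F.curv (Frame.tens a g) k l
      = F.curv a k l ⊗ₖ (1 : Matrix ι ι S) + (1 : Matrix κ0 κ0 S) ⊗ₖ F.curv g k l := by
  ext ⟨x1, x2⟩ ⟨y1, y2⟩
  rw [F.curv_tens]
  simp only [Matrix.add_apply, Matrix.kroneckerMap_apply, Matrix.one_apply, mul_ite,
    mul_one, mul_zero, ite_mul, one_mul, zero_mul]

/-- twisted symbol -/
def tw (c : Fin n → Matrix κ1 κ0 S) (i : Fin n) : Matrix (κ1 × ι) (κ0 × ι) S :=
  c i ⊗ₖ (1 : Matrix ι ι S)

lemma tw_transpose (c : Fin n → Matrix κ1 κ0 S) :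
    (fun i => (tw (ι := ι) c i)ᵀ) = tw (ι := ι) (fun i => (c i)ᵀ) := by
  funext i
  ext ⟨x1, x2⟩ ⟨y1, y2⟩
  simp only [tw, Matrix.transpose_apply, Matrix.kroneckerMap_apply, Matrix.one_apply,
    eq_comm (a := x2)]

lemma tw_mul {κ2 : Type*} [Fintype κ2] [DecidableEq κ2] (A : Matrix κ1 κ0 S) (B : Matrix κ0 κ2 S) :
    (A ⊗ₖ (1 : Matrix ι ι S)) * (B ⊗ₖ (1 : Matrix ι ι S)) = (A * B) ⊗ₖ (1 : Matrix ι ι S) := by
  rw [← Matrix.mul_kronecker_mul, one_mul]

variable {F} {a0 : Fin n → Matrix κ0 κ0 S} {a1 : Fin n → Matrix κ1 κ1 S}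
  {c : Fin n → Matrix κ1 κ0 S}

lemma sum_kron {τ : Type*} (s : Finset τ) (A : τ → Matrix κ1 κ0 S) (B : Matrix ι ι S) :
    (∑ x ∈ s, A x) ⊗ₖ B = ∑ x ∈ s, A x ⊗ₖ B := by
  classical
  induction s using Finset.induction_on with
  | empty => simp
  | insert x s hx ih => rw [sum_insert hx, sum_insert hx, Matrix.add_kronecker, ih]

/-- The twisted symbol is parallel. -/
theorem Par.tw (h : Par F a0 a1 c) (g : Fin n → Matrix ι ι S) :
    Par F (Frame.tens a0 g) (Frame.tens a1 g) (tw c) where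
  const := by
    rintro m i ⟨x1, x2⟩ ⟨y1, y2⟩
    simp only [C2_198.tw, Matrix.kroneckerMap_apply, Matrix.one_apply]
    split_ifs
    · rw [mul_one]; exact h.const m i x1 y1
    · rw [mul_zero, map_zero]
  par := by
    intro m i
    simp only [C2_198.tw]
    rw [tens_eq, tens_eq, Matrix.add_mul, Matrix.mul_add, tw_mul, tw_mul, h.par,
      ← Matrix.mul_kronecker_mul, ← Matrix.mul_kronecker_mul, one_mul, mul_one, Matrix.one_mul,
      Matrix.mul_one, Matrix.add_kronecker, sum_kron]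
    simp only [Matrix.smul_kronecker]
    abel

lemma clif_tw (hcl : ∀ i j, (c i)ᵀ * c j + (c j)ᵀ * c i = if i = j then 2 else 0)
    (i j : Fin n) :
    (tw (ι := ι) c i)ᵀ * tw (ι := ι) c j + (tw (ι := ι) c j)ᵀ * tw (ι := ι) c i
      = if i = j then 2 else 0 := by
  have ht : ∀ i, (tw (ι := ι) c i)ᵀ = (c i)ᵀ ⊗ₖ (1 : Matrix ι ι S) := fun i =>
    congrFun (tw_transpose (ι := ι) c) i
  rw [ht, ht]
  simp only [tw]
  rw [tw_mul, tw_mul, ← Matrix.add_kronecker, hcl]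
  split_ifs
  · have : (2 : Matrix κ0 κ0 S) = (1 : Matrix κ0 κ0 S) + 1 := one_add_one_eq_two.symm
    rw [this, Matrix.add_kronecker, Matrix.one_kronecker_one, one_add_one_eq_two]
  · rw [Matrix.zero_kronecker]

/-- The zero order term of the twisted operator. -/
theorem Q_tw (g : Fin n → Matrix ι ι S) :
    Q F (Frame.tens a0 g) (tw (ι := ι) c)
      = Q F a0 c ⊗ₖ (1 : Matrix ι ι S)
        + (- Frame.half (S := S)) • ∑ i, ∑ j, ((c i)ᵀ * c j) ⊗ₖ F.curv g i j := by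
  have ht : ∀ i, (tw (ι := ι) c i)ᵀ = (c i)ᵀ ⊗ₖ (1 : Matrix ι ι S) := fun i =>
    congrFun (tw_transpose (ι := ι) c) i
  have e : ∀ i j, ((tw (ι := ι) c i)ᵀ * tw (ι := ι) c j) * F.curv (Frame.tens a0 g) i j
      = (((c i)ᵀ * c j) * F.curv a0 i j) ⊗ₖ (1 : Matrix ι ι S)
        + ((c i)ᵀ * c j) ⊗ₖ F.curv g i j := by
    intro i j
    rw [ht, curv_tens_eq]
    simp only [tw]
    rw [tw_mul, Matrix.mul_add, tw_mul, ← Matrix.mul_kronecker_mul, one_mul, Matrix.mul_one]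
  rw [Q, Q]
  simp_rw [e, sum_add_distrib]
  rw [smul_add, Matrix.smul_kronecker, sum_kron]
  simp_rw [sum_kron]

end Crest.Agent.R249.C2_198
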