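import Crest.Agent.R249.C2c_198

/-!
Products of Clifford symbols, and the zero order terms of the untwisted operator
`ℝ ⊕ Λ⁻ → T` (any metric): `Q₁ = Ric`, `Q₀ = 0 ⊕ 2 (tr C - C)`.
(row 249, part C2 of the blueprint, helper198)
-/

set_option autoImplicit false
set_option linter.unusedSectionVars false
set_option linter.unusedSimpArgs false

namespace Crest.Agent.R249.C2_198

open Finset Matrix
open scoped Kronecker
open Crest.Agent.R249.Fr129

section const

variable (S : Type*) [CommRing S]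

lemma K_map (a : Fin 3) : K S a = (Int.castRingHom S).mapMatrix (K ℤ a) := by
  ext i j
  fin_cases a <;> fin_cases i <;> fin_cases j <;> simp [K]

lemma J_map (a : Fin 3) : J S a = (Int.castRingHom S).mapMatrix (J ℤ a) := by
  ext i j
  fin_cases a <;> fin_cases i <;> fin_cases j <;> simp [J]

/-- table of `c_iᵀ c_j` -/
def ctcT : Fin 4 → Fin 4 → Matrix (Fin 4) (Fin 4) S :=
  ![![1, K S 0, K S 1, K S 2], ![-K S 0, 1, -K S 2, K S 1], ![-K S 1, K S 2, 1, -K S 0],
    ![-K S 2, -K S 1, K S 0, 1]]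

/-- table of `c_i c_jᵀ` -/
def cctT : Fin 4 → Fin 4 → Matrix (Fin 4) (Fin 4) S :=
  ![![1, -J S 0, -J S 1, -J S 2], ![J S 0, 1, -J S 2, J S 1], ![J S 1, J S 2, 1, -J S 0],
    ![J S 2, -J S 1, J S 0, 1]]

lemma ctcZ (i j : Fin 4) : (cZ i)ᵀ * cZ j = ctcT ℤ i j := by revert i j; decide +kernel

lemma cctZ (i j : Fin 4) : cZ i * (cZ j)ᵀ = cctT ℤ i j := by revert i j; decide +kernel

lemma ctcT_map (i j : Fin 4) : ctcT S i j = (Int.castRingHom S).mapMatrix (ctcT ℤ i j) := by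
  fin_cases i <;> fin_cases j <;> simp only [ctcT, Fin.zero_eta, Fin.mk_one, Fin.reduceFinMk,
    Matrix.cons_val_zero, Matrix.cons_val_one, Matrix.cons_val, map_neg, map_one, ← K_map]

lemma cctT_map (i j : Fin 4) : cctT S i j = (Int.castRingHom S).mapMatrix (cctT ℤ i j) := by
  fin_cases i <;> fin_cases j <;> simp only [cctT, Fin.zero_eta, Fin.mk_one, Fin.reduceFinMk,
    Matrix.cons_val_zero, Matrix.cons_val_one, Matrix.cons_val, map_neg, map_one, ← J_map]

lemma ctc (i j : Fin 4) : (cK S i)ᵀ * cK S j = ctcT S i j := by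
  rw [cK_mapMatrix_t, cK_mapMatrix, ← map_mul, ctcZ, ← ctcT_map]

lemma cct (i j : Fin 4) : cK S i * (cK S j)ᵀ = cctT S i j := by
  rw [cK_mapMatrix_t, cK_mapMatrix, ← map_mul, cctZ, ← cctT_map]

end const

section sums

variable {S : Type*} [CommRing S]

/-- `∑ (c_iᵀ c_j) X_ij` for antisymmetric `X` and a bilinear operation. -/
lemma sum_ctc {A B : Type*} [AddCommGroup A] [AddCommGroup B]
    (f : Matrix (Fin 4) (Fin 4) S →+ A →+ B) (X : Fin 4 → Fin 4 → A)
    (hX : ∀ i j, X i j = - X j i) (hX0 : ∀ i, X i i = 0) :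
    ∑ i, ∑ j, f ((cK S i)ᵀ * cK S j) (X i j)
      = 2 • (f (K S 0) (X 0 1 - X 2 3) + f (K S 1) (X 0 2 + X 1 3)
        + f (K S 2) (X 0 3 - X 1 2)) := by
  simp only [ctc, Fin.sum_univ_four, hX0, map_zero, hX 1 0, hX 2 0, hX 3 0, hX 2 1, hX 3 1, hX 3 2,
    ctcT, Matrix.cons_val_zero, Matrix.cons_val_one, Matrix.cons_val, map_neg,
    AddMonoidHom.neg_apply, neg_neg, map_sub, map_add]
  abel

lemma sum_cct {A B : Type*} [AddCommGroup A] [AddCommGroup B]
    (f : Matrix (Fin 4) (Fin 4) S →+ A →+ B) (X : Fin 4 → Fin 4 → A)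
    (hX : ∀ i j, X i j = - X j i) (hX0 : ∀ i, X i i = 0) :
    ∑ i, ∑ j, f (cK S i * (cK S j)ᵀ) (X i j)
      = (-2 : ℤ) • (f (J S 0) (X 0 1 + X 2 3) + f (J S 1) (X 0 2 - X 1 3)
        + f (J S 2) (X 0 3 + X 1 2)) := by
  simp only [cct, Fin.sum_univ_four, hX0, map_zero, hX 1 0, hX 2 0, hX 3 0, hX 2 1, hX 3 1, hX 3 2,
    cctT, Matrix.cons_val_zero, Matrix.cons_val_one, Matrix.cons_val, map_neg,
    AddMonoidHom.neg_apply, neg_neg, map_sub, map_add]
  abel

end sums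

variable {S : Type*} [CommRing S] [Algebra ℝ S] (F : Frame 4 S)

lemma half_two : (Frame.half : S) * 2 = 1 := by rw [mul_comm]; exact Frame.two_half

section
variable {κ : Type*} [Fintype κ] [DecidableEq κ] (a : Fin 4 → Matrix κ κ S)

lemma curv_anti' (k l : Fin 4) : F.curv a k l = - F.curv a l k := by
  ext i j; exact F.curv_anti a k l i j

lemma curv_self' (k : Fin 4) : F.curv a k k = 0 := by
  ext i j
  exact Frame.eq_zero_of_two (by have := F.curv_anti a k k i j; linear_combination this)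

/-- anti-self-dual part of the curvature: components along `K` -/
def cm (a : Fin 4 → Matrix κ κ S) : Fin 3 → Matrix κ κ S :=
  ![F.curv a 0 1 - F.curv a 2 3, F.curv a 0 2 + F.curv a 1 3, F.curv a 0 3 - F.curv a 1 2]

/-- self-dual part of the curvature: components along `J` -/
def cp (a : Fin 4 → Matrix κ κ S) : Fin 3 → Matrix κ κ S :=
  ![F.curv a 0 1 + F.curv a 2 3, F.curv a 0 2 - F.curv a 1 3, F.curv a 0 3 + F.curv a 1 2]

/-- twisting term of `Q₀` -/
lemma twist0 : (- Frame.half (S := S)) • ∑ i, ∑ j, ((cK S i)ᵀ * cK S j) ⊗ₖ F.curv a i j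
    = - ∑ b, K S b ⊗ₖ cm F a b := by
  have h := sum_ctc (S := S) (A := Matrix κ κ S) (B := Matrix (Fin 4 × κ) (Fin 4 × κ) S)
    (AddMonoidHom.mk' (fun M => AddMonoidHom.mk' (fun N => M ⊗ₖ N)
      (fun x y => Matrix.kronecker_add _ _ _)) (fun x y => by
        ext1 N; exact Matrix.add_kronecker _ _ _)) (F.curv a) (curv_anti' F a) (curv_self' F a)
  simp only [AddMonoidHom.mk'_apply] at h
  rw [h, Fin.sum_univ_three]
  simp only [cm, Matrix.cons_val_zero, Matrix.cons_val_one, Matrix.cons_val]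
  rw [← Nat.cast_smul_eq_nsmul S, smul_smul, neg_mul, Nat.cast_ofNat, half_two, neg_one_smul]

/-- twisting term of `Q₁` -/
lemma twist1 : (- Frame.half (S := S)) • ∑ i, ∑ j, (cK S i * (cK S j)ᵀ) ⊗ₖ F.curv a i j
    = ∑ b, J S b ⊗ₖ cp F a b := by
  have h := sum_cct (S := S) (A := Matrix κ κ S) (B := Matrix (Fin 4 × κ) (Fin 4 × κ) S)
    (AddMonoidHom.mk' (fun M => AddMonoidHom.mk' (fun N => M ⊗ₖ N)
      (fun x y => Matrix.kronecker_add _ _ _)) (fun x y => by
        ext1 N; exact Matrix.add_kronecker _ _ _)) (F.curv a) (curv_anti' F a) (curv_self' F a)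
  simp only [AddMonoidHom.mk'_apply] at h
  rw [h, Fin.sum_univ_three]
  simp only [cp, Matrix.cons_val_zero, Matrix.cons_val_one, Matrix.cons_val]
  rw [← Int.cast_smul_eq_zsmul S, smul_smul, Int.cast_neg, Int.cast_ofNat, neg_mul_neg, half_two,
    one_smul]

end

/-- `Q₀` of the untwisted operator -/
lemma Q0_eq : Q F (e0 F) (cK S) = - ∑ b, K S b * cm F (e0 F) b := by
  rw [Q]
  have h := sum_ctc (S := S) (A := Matrix (Fin 4) (Fin 4) S) (B := Matrix (Fin 4) (Fin 4) S)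
    AddMonoidHom.mul (F.curv (e0 F)) (curv_anti' F _) (curv_self' F _)
  simp only [AddMonoidHom.mul_apply] at h
  rw [h, Fin.sum_univ_three]
  simp only [cm, Matrix.cons_val_zero, Matrix.cons_val_one, Matrix.cons_val]
  rw [← Nat.cast_smul_eq_nsmul S, smul_smul, neg_mul, Nat.cast_ofNat, half_two, neg_one_smul]

/-- `Q₁` of the untwisted operator -/
lemma Q1_eq : Q F F.tan (fun i => (cK S i)ᵀ) = ∑ b, J S b * cp F F.tan b := by
  rw [Q]
  simp only [Matrix.transpose_transpose]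
  have h := sum_cct (S := S) (A := Matrix (Fin 4) (Fin 4) S) (B := Matrix (Fin 4) (Fin 4) S)
    AddMonoidHom.mul (F.curv F.tan) (curv_anti' F _) (curv_self' F _)
  simp only [AddMonoidHom.mul_apply] at h
  rw [h, Fin.sum_univ_three]
  simp only [cp, Matrix.cons_val_zero, Matrix.cons_val_one, Matrix.cons_val]
  rw [← Int.cast_smul_eq_zsmul S, smul_smul, Int.cast_neg, Int.cast_ofNat, neg_mul_neg, half_two,
    one_smul]

/-- the `Λ⁻`-block of the curvature operator -/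
noncomputable def CC (c d : Fin 3) : S :=
  Frame.half * (![EE F 0 1 c - EE F 2 3 c, EE F 0 2 c + EE F 1 3 c, EE F 0 3 c - EE F 1 2 c] d)

lemma CC_symm (c d : Fin 3) : CC F c d = CC F d c := by
  have hp := F.Rm_pair
  fin_cases c <;> fin_cases d <;> simp [CC, EE]
  · rw [hp 0 1 0 2, hp 0 1 1 3, hp 2 3 0 2, hp 2 3 1 3]; ring
  · rw [hp 0 1 0 3, hp 0 1 1 2, hp 2 3 0 3, hp 2 3 1 2]; ring
  · rw [hp 0 2 0 1, hp 0 2 2 3, hp 1 3 0 1, hp 1 3 2 3]; ring
  · rw [hp 0 2 0 3, hp 0 2 1 2, hp 1 3 0 3, hp 1 3 1 2]; ring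
  · rw [hp 0 3 0 1, hp 0 3 2 3, hp 1 2 0 1, hp 1 2 2 3]; ring
  · rw [hp 0 3 0 2, hp 0 3 1 3, hp 1 2 0 2, hp 1 2 1 3]; ring

lemma two_CC (c d : Fin 3) : 2 * CC F c d =
    ![EE F 0 1 c - EE F 2 3 c, EE F 0 2 c + EE F 1 3 c, EE F 0 3 c - EE F 1 2 c] d := by
  rw [CC, ← mul_assoc, Frame.two_half, one_mul]

lemma cm_asc (b : Fin 3) : cm F (asc F) b = cr (fun c => 2 * CC F c b) := by
  fin_cases b <;> ext i j <;> fin_cases i <;> fin_cases j <;>
    simp [cm, curv_asc, cr, two_CC] <;> ring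

lemma cm_e0 (b : Fin 3) : cm F (e0 F) b = cr4 (fun c => 2 * CC F c b) := by
  fin_cases b <;> ext i j <;> fin_cases i <;> fin_cases j <;>
    simp [cm, curv_e0, cr4, two_CC] <;> ring

/-- `Q₀ = 0 ⊕ 2 (tr C - C)` -/
theorem Q0_val : Q F (e0 F) (cK S) =
    !![0, 0, 0, 0;
      0, 2 * (CC F 1 1 + CC F 2 2), -2 * CC F 0 1, -2 * CC F 0 2;
      0, -2 * CC F 0 1, 2 * (CC F 0 0 + CC F 2 2), -2 * CC F 1 2;
      0, -2 * CC F 0 2, -2 * CC F 1 2, 2 * (CC F 0 0 + CC F 1 1)] := by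
  rw [Q0_eq]
  simp only [cm_e0, Fin.sum_univ_three]
  have h10 := CC_symm F 1 0
  have h20 := CC_symm F 2 0
  have h21 := CC_symm F 2 1
  ext i j
  fin_cases i <;> fin_cases j <;>
    simp [K, cr4, Matrix.mul_apply, Fin.sum_univ_four, h10, h20, h21] <;> ring

/-- the Ricci matrix -/
def RicM : Matrix (Fin 4) (Fin 4) S := fun j k => F.Ric j k

/-- `Q₁ = Ric` -/
theorem Q1_val : Q F F.tan (fun i => (cK S i)ᵀ) = RicM F := by
  rw [Q1_eq]
  simp only [cp, Fin.sum_univ_three]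
  have e : ∀ k l i j, F.curv F.tan k l j i = F.Rm k l i j := fun k l i j => F.curv_tan k l i j
  have hb : ∀ m, (F.Rm 1 2 3 m + F.Rm 2 3 1 m + F.Rm 3 1 2 m = 0) ∧
      (F.Rm 0 2 3 m + F.Rm 2 3 0 m + F.Rm 3 0 2 m = 0) ∧
      (F.Rm 0 1 3 m + F.Rm 1 3 0 m + F.Rm 3 0 1 m = 0) ∧
      (F.Rm 0 1 2 m + F.Rm 1 2 0 m + F.Rm 2 0 1 m = 0) := fun m =>
    ⟨F.bianchi1 1 2 3 m, F.bianchi1 0 2 3 m, F.bianchi1 0 1 3 m, F.bianchi1 0 1 2 m⟩
  ext i j
  have hj := hb j
  simp only [Matrix.add_apply, Matrix.sub_apply, Matrix.mul_apply, Fin.sum_univ_four,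
    Matrix.cons_val_zero, Matrix.cons_val_one, Matrix.cons_val, e, RicM, Frame.Ric]
  fin_cases i <;> fin_cases j <;>
    simp [J, Frame.Rm_self12,
      Frame.Rm_self34, Frame.R10, Frame.R20, Frame.R30, Frame.R21, Frame.R31, Frame.R32,
      Frame.L10, Frame.L20, Frame.L30, Frame.L21, Frame.L31, Frame.L32] at hj ⊢ <;>
    obtain ⟨h0, h1, h2, h3⟩ := hj
  · linear_combination h0
  · linear_combination h0
  · linear_combination h0
  · linear_combination h0
  · linear_combination -h1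
  · linear_combination -h1
  · linear_combination -h1
  · linear_combination -h1
  · linear_combination h2
  · linear_combination h2
  · linear_combination h2
  · linear_combination h2
  · linear_combination -h3
  · linear_combination -h3
  · linear_combination -h3
  · linear_combination -h3

end Crest.Agent.R249.C2_198
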