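import Crest.Agent.R249.C2d_198

/-!
Einstein metrics: the curvature of `Λ⁻` is anti-self-dual. (row 249, part C2 of the blueprint,
helper198)
-/

set_option autoImplicit false
set_option linter.unusedSectionVars false
set_option linter.unusedSimpArgs false

namespace Crest.Agent.R249.C2_198

open Finset Matrix
open scoped Kronecker
open Crest.Agent.R249.Fr129

variable {S : Type*} [CommRing S] [Algebra ℝ S] (F : Frame 4 S)

/-- Einstein: the curvature of `Λ⁻` is anti-self-dual. -/
lemma EE_asd {c : S} (hE : F.Einstein c) (i : Fin 3) :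
    EE F 2 3 i = - EE F 0 1 i ∧ EE F 1 3 i = EE F 0 2 i ∧ EE F 1 2 i = - EE F 0 3 i := by
  have h00 := hE 0 0
  have h11 := hE 1 1
  have h22 := hE 2 2
  have h33 := hE 3 3
  have h01 := hE 0 1
  have h02 := hE 0 2
  have h03 := hE 0 3
  have h12 := hE 1 2
  have h13 := hE 1 3
  have h23 := hE 2 3
  simp [Frame.Ric, Fin.sum_univ_four, Frame.Rm_self12, Frame.R10, Frame.R20, Frame.R30, Frame.R21,
    Frame.R31, Frame.R32, Frame.L10, Frame.L20, Frame.L30,
    Frame.L21, Frame.L31, Frame.L32, Frame.Rm_self34] at h00 h11 h22 h33 h01 h02 h03 h12 h13 h23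
  have hp := F.Rm_pair
  have k1 : F.Rm 2 3 2 3 = F.Rm 0 1 0 1 := by
    apply Frame.eq_of_two
    linear_combination h00 + h11 - h22 - h33
  have k2 : F.Rm 1 3 1 3 = F.Rm 0 2 0 2 := by
    apply Frame.eq_of_two
    linear_combination h00 - h11 + h22 - h33
  have k3 : F.Rm 1 2 1 2 = F.Rm 0 3 0 3 := by
    apply Frame.eq_of_two
    linear_combination h00 - h11 - h22 + h33
  refine ⟨?_, ?_, ?_⟩ <;> fin_cases i <;> simp [EE]
  · rw [hp 2 3 0 1, k1]; try ring
  · rw [hp 2 3 0 2, hp 2 3 1 3]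
    first | linear_combination h12 - h03 | linear_combination h03 - h12
  · rw [hp 2 3 0 3, hp 2 3 1 2]
    first | linear_combination h13 + h02 | linear_combination -h13 - h02
  · rw [hp 1 3 0 1, hp 0 2 0 1]
    first | linear_combination h03 + h12 | linear_combination -h03 - h12
  · rw [hp 1 3 0 2, k2]; ring
  · rw [hp 1 3 0 3, hp 1 3 1 2]
    first | linear_combination h01 - h23 | linear_combination h23 - h01
  · rw [hp 1 2 0 1, hp 0 3 0 1]
    first | linear_combination h02 - h13 | linear_combination h13 - h02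
  · rw [hp 1 2 0 2, hp 0 3 0 2]
    first | linear_combination h01 + h23 | linear_combination -h01 - h23
  · rw [hp 1 2 0 3, k3]; try ring

/-- Einstein: `EE` in terms of the block `C`. -/
lemma EE_eq {c : S} (hE : F.Einstein c) (i : Fin 3) :
    EE F 0 1 i = CC F i 0 ∧ EE F 2 3 i = - CC F i 0 ∧ EE F 0 2 i = CC F i 1 ∧
    EE F 1 3 i = CC F i 1 ∧ EE F 0 3 i = CC F i 2 ∧ EE F 1 2 i = - CC F i 2 := by
  obtain ⟨h1, h2, h3⟩ := EE_asd F hE i
  have hh := Frame.two_half (S := S)
  rw [h1, h2, h3]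
  simp only [CC, h1, h2, h3, Matrix.cons_val_zero, Matrix.cons_val_one, Matrix.cons_val]
  refine ⟨?_, ?_, ?_, ?_, ?_, ?_⟩
  · linear_combination -EE F 0 1 i * hh
  · linear_combination EE F 0 1 i * hh
  · linear_combination -EE F 0 2 i * hh
  · linear_combination -EE F 0 2 i * hh
  · linear_combination -EE F 0 3 i * hh
  · linear_combination EE F 0 3 i * hh

/-- trace of the block `C`, any metric: `4 tr C = s`. -/
lemma CC_trace4 : 4 * (CC F 0 0 + CC F 1 1 + CC F 2 2) = ∑ i, F.Ric i i := by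
  have h0 := two_CC F 0 0
  have h1 := two_CC F 1 1
  have h2 := two_CC F 2 2
  have hb := F.bianchi1 0 1 2 3
  rw [F.Rm_anti12 2 0 1 3] at hb
  have hp1 := F.Rm_pair 2 3 0 1
  have hp2 := F.Rm_pair 1 3 0 2
  have hp3 := F.Rm_pair 1 2 0 3
  simp [EE] at h0 h1 h2
  simp [Frame.Ric, Fin.sum_univ_four, Frame.Rm_self12, Frame.R10, Frame.R20, Frame.R30, Frame.R21,
    Frame.R31, Frame.R32, Frame.L10, Frame.L20, Frame.L30,
    Frame.L21, Frame.L31, Frame.L32, Frame.Rm_self34]
  linear_combination 2 * h0 + 2 * h1 + 2 * h2 + 2 * hp1 - 2 * hp2 - 2 * hp3 + 4 * hb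

/-- trace of the block `C` -/
lemma CC_trace {c : S} (hE : F.Einstein c) : CC F 0 0 + CC F 1 1 + CC F 2 2 = c := by
  have h := CC_trace4 F
  have h2 : ∑ i, F.Ric i i = 4 * c := by
    simp only [Fin.sum_univ_four, hE _ _, if_true]; ring
  rw [h2] at h
  apply Frame.eq_of_two
  apply Frame.eq_of_two
  linear_combination h

end Crest.Agent.R249.C2_198
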