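import Crest.Agent.R249.C2e_198

/-!
Einstein metrics with `W⁻ = 0` (`C = c Id`): zero order terms of the operator
`(ℝ ⊕ Λ⁻) ⊗ G → T ⊗ G` for `G = ℝ` and `G = Λ⁻`.
(row 249, part C2 of the blueprint, helper198)
-/

set_option autoImplicit false
set_option linter.unusedSectionVars false
set_option linter.unusedSimpArgs false

namespace Crest.Agent.R249.C2_198

open Finset Matrix
open scoped Kronecker
open Crest.Agent.R249.Fr129

/-- The integer matrix of the twisted zero order term. -/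
def NZ : Matrix (Fin 4 × Fin 3) (Fin 4 × Fin 3) ℤ :=
  (!![0, 0, 0, 0; 0, 4, 0, 0; 0, 0, 4, 0; 0, 0, 0, 4] : Matrix (Fin 4) (Fin 4) ℤ) ⊗ₖ
      (1 : Matrix (Fin 3) (Fin 3) ℤ)
    - 2 • (K ℤ 0 ⊗ₖ cr ![1, 0, 0] + K ℤ 1 ⊗ₖ cr ![0, 1, 0] + K ℤ 2 ⊗ₖ cr ![0, 0, 1])

/-- `so(3)` generators on `(ℝ ⊕ Λ⁻) ⊗ Λ⁻` -/
def GZ (m : Fin 3) : Matrix (Fin 4 × Fin 3) (Fin 4 × Fin 3) ℤ :=
  cr4 (Pi.single m 1) ⊗ₖ (1 : Matrix (Fin 3) (Fin 3) ℤ)
    + (1 : Matrix (Fin 4) (Fin 4) ℤ) ⊗ₖ cr (Pi.single m 1)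

set_option maxRecDepth 100000 in
lemma NZ_comm (m : Fin 3) : NZ * GZ m = GZ m * NZ := by
  revert m; decide +kernel

set_option maxRecDepth 100000 in
lemma NZ_poly : NZ * (NZ - 4) * ((NZ + 2) * (NZ - 6)) = 0 := by decide +kernel

lemma NZ_trace : NZ.trace = 36 := by decide +kernel

lemma NZ_symm : NZᵀ = NZ := by decide +kernel

set_option maxRecDepth 100000 in
lemma NZ_sq_trace : (NZ * NZ).trace = 240 := by decide +kernel


section const
variable (S : Type*) [CommRing S]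

/-- cast of integer matrices -/
abbrev cast {ι : Type*} [Fintype ι] [DecidableEq ι] : Matrix ι ι ℤ →+* Matrix ι ι S :=
  (Int.castRingHom S).mapMatrix

/-- The twisted zero order term, `c = 1`. -/
def NN : Matrix (Fin 4 × Fin 3) (Fin 4 × Fin 3) S := cast S NZ

lemma cast_kron {κ ι : Type*} [Fintype ι] [DecidableEq ι] [Fintype κ] [DecidableEq κ]
    (A : Matrix κ κ ℤ) (B : Matrix ι ι ℤ) : cast S (A ⊗ₖ B) = cast S A ⊗ₖ cast S B := by
  ext ⟨x1, x2⟩ ⟨y1, y2⟩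
  simp [Matrix.kroneckerMap_apply]

lemma cast_cr (p : Fin 3 → ℤ) : cast S (cr p) = cr (fun i => (p i : S)) := by
  ext i j
  fin_cases i <;> fin_cases j <;> simp [cr]

lemma cast_cr4 (p : Fin 3 → ℤ) : cast S (cr4 p) = cr4 (fun i => (p i : S)) := by
  ext i j
  fin_cases i <;> fin_cases j <;> simp [cr4]

/-- `diag (0,4,4,4)` -/
def D4 : Matrix (Fin 4) (Fin 4) S := !![0, 0, 0, 0; 0, 4, 0, 0; 0, 0, 4, 0; 0, 0, 0, 4]

lemma cast_D4 : cast S (!![0, 0, 0, 0; 0, 4, 0, 0; 0, 0, 4, 0; 0, 0, 0, 4] :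
    Matrix (Fin 4) (Fin 4) ℤ) = D4 S := by
  ext i j
  fin_cases i <;> fin_cases j <;> simp [D4]

lemma NN_eq : NN S = D4 S ⊗ₖ (1 : Matrix (Fin 3) (Fin 3) S)
    - (2 : S) • (K S 0 ⊗ₖ cr ![1, 0, 0] + K S 1 ⊗ₖ cr ![0, 1, 0] + K S 2 ⊗ₖ cr ![0, 0, 1]) := by
  rw [NN, NZ, map_sub, cast_kron, cast_D4, map_one, map_nsmul, map_add, map_add, cast_kron,
    cast_kron, cast_kron, cast_cr, cast_cr, cast_cr]
  simp only [cast, ← K_map]
  have e0 : (fun i => ((![1, 0, 0] : Fin 3 → ℤ) i : S)) = ![1, 0, 0] := by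
    funext i; fin_cases i <;> simp
  have e1 : (fun i => ((![0, 1, 0] : Fin 3 → ℤ) i : S)) = ![0, 1, 0] := by
    funext i; fin_cases i <;> simp
  have e2 : (fun i => ((![0, 0, 1] : Fin 3 → ℤ) i : S)) = ![0, 0, 1] := by
    funext i; fin_cases i <;> simp
  rw [e0, e1, e2, ← Nat.cast_smul_eq_nsmul S, Nat.cast_ofNat]

lemma NN_poly : NN S * (NN S - 4) * ((NN S + 2) * (NN S - 6)) = 0 := by
  have := congrArg (cast S) NZ_poly
  simp only [map_mul, map_sub, map_add, map_ofNat, map_zero] at this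
  exact this

lemma cast_transpose {ι : Type*} [Fintype ι] [DecidableEq ι] (A : Matrix ι ι ℤ) :
    cast S Aᵀ = (cast S A)ᵀ := rfl

lemma NN_symm : (NN S)ᵀ = NN S := by
  rw [NN, ← cast_transpose, NZ_symm]

lemma cast_trace {ι : Type*} [Fintype ι] [DecidableEq ι] (A : Matrix ι ι ℤ) :
    (cast S A).trace = (A.trace : S) := by
  simp [Matrix.trace, Matrix.diag]

lemma NN_trace : (NN S).trace = 36 := by
  rw [NN, cast_trace, NZ_trace]; norm_num

lemma NN_sq_trace : (NN S * NN S).trace = 240 := by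
  rw [NN, ← map_mul, cast_trace, NZ_sq_trace]; norm_num

end const

variable {S : Type*} [CommRing S] [Algebra ℝ S] (F : Frame 4 S)

/-- `W⁻ = 0`: the block `C` is scalar -/
def CScal (c : S) : Prop := ∀ i j, CC F i j = if i = j then c else 0

variable {F}

/-- `Q₀` for `C = c Id` -/
theorem Q0_scal {c : S} (hC : CScal F c) : Q F (e0 F) (cK S) = c • D4 S := by
  rw [Q0_val, D4]
  ext i j
  fin_cases i <;> fin_cases j <;> simp [hC _ _] <;> ring

/-- `Q₁` for Einstein metrics -/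
theorem Q1_ein {lam : S} (hE : F.Einstein lam) :
    Q F F.tan (fun i => (cK S i)ᵀ) = lam • (1 : Matrix (Fin 4) (Fin 4) S) := by
  rw [Q1_val]
  ext i j
  rw [RicM, hE]
  simp [Matrix.one_apply]

/-- Einstein: the self-dual part of the curvature of `Λ⁻` vanishes. -/
lemma cp_asc {lam : S} (hE : F.Einstein lam) (b : Fin 3) : cp F (asc F) b = 0 := by
  have h := fun i => EE_eq F hE i
  have h0 := h 0
  have h1 := h 1
  have h2 := h 2
  fin_cases b <;> ext i j <;> fin_cases i <;> fin_cases j <;>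
    simp [cp, curv_asc, cr, h0, h1, h2]

/-- `C = c Id`: the anti-self-dual part of the curvature of `Λ⁻`. -/
lemma cm_asc_scal {c : S} (hC : CScal F c) (b : Fin 3) :
    cm F (asc F) b = (2 * c) • cr (![![1, 0, 0], ![0, 1, 0], ![0, 0, 1]] b) := by
  rw [cm_asc]
  fin_cases b <;> ext i j <;> fin_cases i <;> fin_cases j <;>
    simp [cr, hC _ _]

/-- **`G = Λ⁻`:** `Q₀ = c N`. -/
theorem Q0_twist {c : S} (hC : CScal F c) :
    Q F (Frame.tens (e0 F) (asc F)) (tw (cK S)) = c • NN S := by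
  rw [Q_tw, twist0, Q0_scal hC, NN_eq, Fin.sum_univ_three, cm_asc_scal hC, cm_asc_scal hC,
    cm_asc_scal hC]
  simp only [Matrix.cons_val_zero, Matrix.cons_val_one, Matrix.cons_val,
    Matrix.kronecker_smul, Matrix.smul_kronecker]
  module

/-- **`G = Λ⁻`:** `Q₁ = lam Id`. -/
theorem Q1_twist {lam : S} (hE : F.Einstein lam) :
    Q F (Frame.tens F.tan (asc F)) (fun i => (tw (ι := Fin 3) (cK S) i)ᵀ)
      = lam • (1 : Matrix (Fin 4 × Fin 3) (Fin 4 × Fin 3) S) := by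
  rw [tw_transpose, Q_tw, Q1_ein hE]
  simp only [Matrix.transpose_transpose]
  rw [twist1]
  simp only [cp_asc hE, Matrix.kronecker_zero, sum_const_zero, add_zero]
  rw [Matrix.smul_kronecker, Matrix.one_kronecker_one]

end Crest.Agent.R249.C2_198
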