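import Crest.Agent.R249.C2f_198

/-!
The constant matrix `N` is parallel; the twistor embedding `Λ⁻ → (ℝ ⊕ Λ⁻) ⊗ Λ⁻` and the twistor
equation; Weitzenboeck formulas for `G = ℝ` and `G = Λ⁻`.
(row 249, part C2 of the blueprint, helper198)
-/

set_option autoImplicit false
set_option linter.unusedSectionVars false
set_option linter.unusedSimpArgs false

namespace Crest.Agent.R249.C2_198

open Finset Matrix
open scoped Kronecker
open Crest.Agent.R249.Fr129

section gen
variable {n : ℕ} {S : Type*} [CommRing S] [Algebra ℝ S] (F : Frame n S)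
variable {κ0 : Type*} [Fintype κ0] [DecidableEq κ0]

/-- derivations vanish on integers -/
lemma D_intCast (k : Fin n) (z : ℤ) : F.D k (z : S) = 0 := by
  have := (F.D k).map_algebraMap (z : ℝ)
  simpa using this

/-- A constant matrix commuting with the connection is parallel. -/
lemma cov_const {a : Fin n → Matrix κ0 κ0 S} {M : Matrix κ0 κ0 S} (k : Fin n)
    (hM : ∀ x y, F.D k (M x y) = 0) (hc : a k * M = M * a k) (u : κ0 → S) :
    F.cov a k (M *ᵥ u) = M *ᵥ F.cov a k u := by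
  rw [F.cov_mulVec]
  have : F.covE a k M = 0 := by
    ext x y
    have h := congrFun (congrFun hc x) y
    simp only [Matrix.mul_apply] at h
    simp only [Frame.covE, hM, sum_sub_distrib, Matrix.zero_apply, h]; ring
  rw [this, Matrix.zero_mulVec, zero_add]

end gen

variable {S : Type*} [CommRing S] [Algebra ℝ S] {F : Frame 4 S}

lemma cr_lin (p : Fin 3 → S) : cr p = ∑ m, p m • cr (Pi.single m (1 : S)) := by
  ext i j
  fin_cases i <;> fin_cases j <;> simp [cr, Fin.sum_univ_three]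

lemma cr4_lin (p : Fin 3 → S) : cr4 p = ∑ m, p m • cr4 (Pi.single m (1 : S)) := by
  ext i j
  fin_cases i <;> fin_cases j <;> simp [cr4, Fin.sum_univ_three]

lemma cast_GZ (m : Fin 3) : cast S (GZ m)
    = cr4 (Pi.single m (1 : S)) ⊗ₖ (1 : Matrix (Fin 3) (Fin 3) S)
      + (1 : Matrix (Fin 4) (Fin 4) S) ⊗ₖ cr (Pi.single m (1 : S)) := by
  have e : (fun i => ((Pi.single m (1 : ℤ) : Fin 3 → ℤ) i : S)) = Pi.single m (1 : S) := by
    funext i
    by_cases h : i = m
    · subst h; simp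
    · simp [Pi.single_eq_of_ne h]
  rw [GZ, map_add, cast_kron, cast_kron, map_one, map_one, cast_cr4, cast_cr, e]

lemma tens_e0_asc (k : Fin 4) : Frame.tens (e0 F) (asc F) k = ∑ m, eta F k m • cast S (GZ m) := by
  rw [tens_eq, e0_eq, asc, cr4_lin (eta F k), cr_lin (eta F k)]
  simp only [cast_GZ, smul_add, sum_add_distrib, sum_kron, Matrix.smul_kronecker]
  congr 1
  simp only [Fin.sum_univ_three, Matrix.kronecker_add, Matrix.kronecker_smul]

/-- `N` commutes with the connection. -/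
lemma NN_comm (k : Fin 4) :
    Frame.tens (e0 F) (asc F) k * NN S = NN S * Frame.tens (e0 F) (asc F) k := by
  rw [tens_e0_asc, Matrix.sum_mul, Matrix.mul_sum]
  refine sum_congr rfl fun m _ => ?_
  rw [Matrix.smul_mul, Matrix.mul_smul]
  congr 1
  rw [NN, ← map_mul, ← map_mul, NZ_comm]

/-- `N` is parallel. -/
lemma cov_NN (k : Fin 4) (u : Fin 4 × Fin 3 → S) :
    F.cov (Frame.tens (e0 F) (asc F)) k (NN S *ᵥ u)
      = NN S *ᵥ F.cov (Frame.tens (e0 F) (asc F)) k u :=
  cov_const F k (fun x y => by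
    have : NN S x y = ((NZ x y : ℤ) : S) := rfl
    rw [this, D_intCast]) (NN_comm k) u

/-! Weitzenboeck formulas. -/

/-- symbol and connections for `G = ℝ` -/
theorem weitz0_R {c : S} (hC : CScal F c) (u : Fin 4 → S) :
    dirs F F.tan (cK S) (dir F (e0 F) (cK S) u) = - F.lap (e0 F) u + c • (D4 S *ᵥ u) := by
  rw [weitz (par_cK F) (clif0 S) u, Q0_scal hC, Matrix.smul_mulVec]

theorem weitz1_R {lam : S} (hE : F.Einstein lam) (Y : Fin 4 → S) :
    dir F (e0 F) (cK S) (dirs F F.tan (cK S) Y) = - F.lap F.tan Y + lam • Y := by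
  rw [weitz' (e0_skew F) (tan_skew F) (par_cK F) (clif1 S) Y, Q1_ein hE, Matrix.smul_mulVec,
    Matrix.one_mulVec]

lemma par_tw : Par F (Frame.tens (e0 F) (asc F)) (Frame.tens F.tan (asc F)) (tw (cK S)) :=
  (par_cK F).tw (asc F)

lemma clif1_tw {ι : Type*} [Fintype ι] [DecidableEq ι] (i j : Fin 4) :
    tw (ι := ι) (cK S) i * (tw (ι := ι) (cK S) j)ᵀ + tw (ι := ι) (cK S) j * (tw (ι := ι) (cK S) i)ᵀ
      = if i = j then 2 else 0 := by
  have h := clif_tw (ι := ι) (c := fun i => (cK S i)ᵀ) (by simpa using clif1 S) i j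
  rw [← tw_transpose] at h
  simpa using h

/-- `G = Λ⁻`: `D* D = ∇*∇ + c N`. -/
theorem weitz0_L {c : S} (hC : CScal F c) (u : Fin 4 × Fin 3 → S) :
    dirs F (Frame.tens F.tan (asc F)) (tw (cK S)) (dir F (Frame.tens (e0 F) (asc F)) (tw (cK S)) u)
      = - F.lap (Frame.tens (e0 F) (asc F)) u + c • (NN S *ᵥ u) := by
  rw [weitz par_tw (clif_tw (clif0 S)) u, Q0_twist hC, Matrix.smul_mulVec]

/-- `G = Λ⁻`: `D D* = ∇*∇ + lam`. -/
theorem weitz1_L {lam : S} (hE : F.Einstein lam) (Y : Fin 4 × Fin 3 → S) :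
    dir F (Frame.tens (e0 F) (asc F)) (tw (cK S)) (dirs F (Frame.tens F.tan (asc F)) (tw (cK S)) Y)
      = - F.lap (Frame.tens F.tan (asc F)) Y + lam • Y := by
  rw [weitz' (Frame.tens_skew (e0_skew F) (asc_skew F)) (Frame.tens_skew (tan_skew F) (asc_skew F))
    par_tw clif1_tw Y, Q1_twist hE, Matrix.smul_mulVec, Matrix.one_mulVec]

/-! The twistor embedding. -/

/-- `σ ↦ (f = 2σ, s_ab = ε_abd σ_d)`, as a constant matrix. -/
def emb (σ : Fin 3 → S) : Fin 4 × Fin 3 → S := fun x =>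
  (![![2 * σ 0, 2 * σ 1, 2 * σ 2], ![0, σ 2, -σ 1], ![-σ 2, 0, σ 0], ![σ 1, -σ 0, 0]] :
    Fin 4 → Fin 3 → S) x.1 x.2

/-- `N (emb σ) = -2 emb σ`. -/
lemma NN_emb (σ : Fin 3 → S) : NN S *ᵥ emb σ = (-2 : S) • emb σ := by
  rw [NN_eq]
  funext ⟨a, b⟩
  rw [Matrix.mulVec, dotProduct, Fintype.sum_prod_type]
  simp only [Fin.sum_univ_four, Fin.sum_univ_three, Matrix.sub_apply, Matrix.smul_apply,
    Matrix.add_apply, Matrix.kroneckerMap_apply, Matrix.one_apply, D4, K, cr, emb, Pi.smul_apply,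
    smul_eq_mul]
  fin_cases a <;> fin_cases b <;> simp <;> ring

/-- `δ_ab t` -/
def embd (t : S) : Fin 4 × Fin 3 → S := fun x =>
  (![![0, 0, 0], ![t, 0, 0], ![0, t, 0], ![0, 0, t]] : Fin 4 → Fin 3 → S) x.1 x.2

/-- `N (embd t) = 0`. -/
lemma NN_embd (t : S) : NN S *ᵥ embd t = 0 := by
  rw [NN_eq]
  funext ⟨a, b⟩
  rw [Matrix.mulVec, dotProduct, Fintype.sum_prod_type]
  simp only [Fin.sum_univ_four, Fin.sum_univ_three, Matrix.sub_apply, Matrix.smul_apply,
    Matrix.add_apply, Matrix.kroneckerMap_apply, Matrix.one_apply, D4, K, cr, embd, Pi.smul_apply,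
    smul_eq_mul, Pi.zero_apply]
  fin_cases a <;> fin_cases b <;> simp <;> ring

end Crest.Agent.R249.C2_198
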