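import Crest.Agent.R249.C2g_198

/-!
The twistor equation, and the linear algebra of the constant matrix `N` over the reals.
(row 249, part C2 of the blueprint, helper198)
-/

set_option autoImplicit false
set_option linter.unusedSectionVars false
set_option linter.unusedSimpArgs false

namespace Crest.Agent.R249.C2_198

open Finset Matrix
open scoped Kronecker
open Crest.Agent.R249.Fr129

section gen
variable {n : ℕ} {S : Type*} [CommRing S] [Algebra ℝ S] {F : Frame n S}
variable {κ0 κ1 ι : Type*} [Fintype κ0] [DecidableEq κ0] [Fintype κ1] [DecidableEq κ1]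
  [Fintype ι] [DecidableEq ι]

lemma tw_mulVec (c : Fin n → Matrix κ1 κ0 S) (i : Fin n) (v : κ0 × ι → S) (x : κ1 × ι) :
    (tw c i *ᵥ v) x = ∑ a, c i x.1 a * v (a, x.2) := by
  obtain ⟨x1, x2⟩ := x
  simp only [Matrix.mulVec, dotProduct, tw, Matrix.kroneckerMap_apply, Matrix.one_apply,
    Fintype.sum_prod_type]
  refine sum_congr rfl fun a _ => ?_
  simp

lemma dir_tw (A : Fin n → Matrix (κ0 × ι) (κ0 × ι) S) (c : Fin n → Matrix κ1 κ0 S)
    (u : κ0 × ι → S) (x : κ1 × ι) :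
    dir F A (tw c) u x = ∑ i, ∑ a, c i x.1 a * F.cov A i u (a, x.2) := by
  rw [dir, Finset.sum_apply]
  exact sum_congr rfl fun i _ => tw_mulVec c i _ x

end gen

variable {S : Type*} [CommRing S] [Algebra ℝ S] {F : Frame 4 S}

/-- the twistor embedding is parallel -/
lemma cov_emb (k : Fin 4) (σ : Fin 3 → S) :
    F.cov (Frame.tens (e0 F) (asc F)) k (emb σ) = emb (F.cov (asc F) k σ) := by
  funext ⟨a, b⟩
  rw [F.cov_tens]
  have h2 : F.D k (2 : S) = 0 := by
    have := D_intCast F k 2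
    simpa using this
  fin_cases a <;> fin_cases b <;>
    simp [emb, Frame.cov, e0, asc, cr, Fin.sum_univ_four, Fin.sum_univ_three, F.D_mul, h2,
      map_neg] <;> ring

lemma cov_embd (k : Fin 4) (t : S) :
    F.cov (Frame.tens (e0 F) (asc F)) k (embd t) = embd (F.D k t) := by
  funext ⟨a, b⟩
  rw [F.cov_tens]
  fin_cases a <;> fin_cases b <;>
    simp [embd, e0, asc, cr, Fin.sum_univ_four, Fin.sum_univ_three] <;> ring

/-- three times the vector field of a twistor section: `V3_j = ∑ (K_a)_ji ∇_i σ_a` -/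
def V3 (F : Frame 4 S) (σ : Fin 3 → S) (j : Fin 4) : S :=
  ∑ a, ∑ i, K S a j i * F.cov (asc F) i σ a

/-- `D (emb σ) = 3 ∇σ + K V3`. -/
theorem dir_emb (σ : Fin 3 → S) (k : Fin 4) (b : Fin 3) :
    dir F (Frame.tens (e0 F) (asc F)) (tw (cK S)) (emb σ) (k, b)
      = 3 * F.cov (asc F) k σ b + ∑ l, K S b k l * V3 F σ l := by
  rw [dir_tw]
  simp only [cov_emb, V3]
  generalize hX : (fun i => F.cov (asc F) i σ) = X
  have hX' : ∀ i, F.cov (asc F) i σ = X i := fun i => congrFun hX i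
  simp only [hX', Fin.sum_univ_four, Fin.sum_univ_three, cK_zero, cK_one, cK_two, cK_three]
  fin_cases k <;> fin_cases b <;>
    simp [emb, K] <;> ring

/-- **Twistor equation.** -/
theorem twistor {σ : Fin 3 → S}
    (h : dir F (Frame.tens (e0 F) (asc F)) (tw (cK S)) (emb σ) = 0) (k : Fin 4) (b : Fin 3) :
    3 * F.cov (asc F) k σ b = - ∑ l, K S b k l * V3 F σ l := by
  have := dir_emb (F := F) σ k b
  rw [h, Pi.zero_apply] at this
  linear_combination -this

/-- a parallel section is killed by `D` -/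
lemma dir_of_parallel {n : ℕ} {F : Frame n S} {κ0 κ1 : Type*} [Fintype κ0] [DecidableEq κ0]
    [Fintype κ1] [DecidableEq κ1] {a : Fin n → Matrix κ0 κ0 S} {c : Fin n → Matrix κ1 κ0 S}
    {u : κ0 → S} (h : ∀ i, F.cov a i u = 0) : dir F a c u = 0 := by
  simp [dir, h]

/-! Linear algebra of `N`. -/

/-- `12 × 3` integer matrix of `emb` -/
def EZ : Matrix (Fin 4 × Fin 3) (Fin 3) ℤ := fun x d =>
  (![![2 * Pi.single (M := fun _ => ℤ) d 1 0, 2 * Pi.single (M := fun _ => ℤ) d 1 1,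
      2 * Pi.single (M := fun _ => ℤ) d 1 2],
    ![0, Pi.single (M := fun _ => ℤ) d 1 2, -Pi.single (M := fun _ => ℤ) d 1 1],
    ![-Pi.single (M := fun _ => ℤ) d 1 2, 0, Pi.single (M := fun _ => ℤ) d 1 0],
    ![Pi.single (M := fun _ => ℤ) d 1 1, -Pi.single (M := fun _ => ℤ) d 1 0, 0]] :
      Fin 4 → Fin 3 → ℤ) x.1 x.2

/-- integer vector `δ` -/
def dZ : Fin 4 × Fin 3 → ℤ := fun x =>
  (![![0, 0, 0], ![1, 0, 0], ![0, 1, 0], ![0, 0, 1]] : Fin 4 → Fin 3 → ℤ) x.1 x.2

set_option maxRecDepth 100000 in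
lemma NZ_m2 : NZ * (NZ - 4) * (NZ - 6) = -16 * (EZ * EZᵀ) := by decide +kernel

set_option maxRecDepth 100000 in
lemma NZ_0 : (NZ - 4) * (NZ + 2) * (NZ - 6) = 16 * (Matrix.vecMulVec dZ dZ) := by decide +kernel

end Crest.Agent.R249.C2_198
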