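import Crest.Agent.R249.C2h_198

/-!
Eigenspaces of `N` in terms of the twistor embedding; positivity.
(row 249, part C2 of the blueprint, helper198)
-/

set_option autoImplicit false
set_option linter.unusedSectionVars false
set_option linter.unusedSimpArgs false

namespace Crest.Agent.R249.C2_198

open Finset Matrix
open scoped Kronecker
open Crest.Agent.R249.Fr129

section ring
variable {S : Type*} [CommRing S]

lemma EZ_mulVec (σ : Fin 3 → S) :
    (EZ.map (Int.cast : ℤ → S)) *ᵥ σ = emb σ := by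
  funext ⟨a, b⟩
  simp only [Matrix.mulVec, dotProduct, Fin.sum_univ_three, Matrix.map_apply]
  fin_cases a <;> fin_cases b <;> simp [EZ, emb]

lemma dZ_vec (t : S) : (fun x => (dZ x : S) * t) = embd t := by
  funext ⟨a, b⟩
  fin_cases a <;> fin_cases b <;> simp [dZ, embd]

/-- the adjoint of the twistor embedding -/
def embT (u : Fin 4 × Fin 3 → S) : Fin 3 → S := fun d => ∑ x, (EZ x d : S) * u x

/-- pairing with `δ` -/
def embdT (u : Fin 4 × Fin 3 → S) : S := ∑ x, (dZ x : S) * u x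

/-- `N (N-4) (N-6) = -16 E Eᵀ` -/
lemma NN_m2 (u : Fin 4 × Fin 3 → S) :
    (NN S * (NN S - 4) * (NN S - 6)) *ᵥ u = (-16 : S) • emb (embT u) := by
  have h := congrArg (cast S) NZ_m2
  simp only [map_mul, map_sub, map_neg, map_ofNat] at h
  have e : NN S * (NN S - 4) * (NN S - 6) = -16 * cast S (EZ * EZᵀ) := h
  rw [e, ← Matrix.mulVec_mulVec]
  have e2 : cast S (EZ * EZᵀ) *ᵥ u = emb (embT u) := by
    have : cast S (EZ * EZᵀ) = EZ.map (Int.cast : ℤ → S) * (EZᵀ).map (Int.cast : ℤ → S) := by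
      have := Matrix.map_mul (L := EZ) (M := EZᵀ) (f := Int.castRingHom S)
      simpa using this
    rw [this, ← Matrix.mulVec_mulVec, EZ_mulVec]
    rfl
  rw [e2]
  have : (-16 : Matrix (Fin 4 × Fin 3) (Fin 4 × Fin 3) S) = (-16 : S) • 1 := by
    ext x y
    by_cases h : x = y
    · subst h; simp [Matrix.ofNat_apply]
    · simp [Matrix.ofNat_apply, h]
  rw [this, Matrix.smul_mulVec, Matrix.one_mulVec]

/-- `(N-4) (N+2) (N-6) = 16 δ δᵀ` -/
lemma NN_0 (u : Fin 4 × Fin 3 → S) :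
    ((NN S - 4) * (NN S + 2) * (NN S - 6)) *ᵥ u = (16 : S) • embd (embdT u) := by
  have h := congrArg (cast S) NZ_0
  simp only [map_mul, map_sub, map_add, map_ofNat] at h
  have e : (NN S - 4) * (NN S + 2) * (NN S - 6) = 16 * cast S (Matrix.vecMulVec dZ dZ) := h
  rw [e, ← Matrix.mulVec_mulVec]
  have e2 : cast S (Matrix.vecMulVec dZ dZ) *ᵥ u = embd (embdT u) := by
    rw [← dZ_vec, embdT]
    funext x
    simp only [Matrix.mulVec, dotProduct, RingHom.mapMatrix_apply, Matrix.map_apply,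
      Matrix.vecMulVec_apply, map_mul, eq_intCast, mul_sum, mul_assoc]
  rw [e2]
  have : (16 : Matrix (Fin 4 × Fin 3) (Fin 4 × Fin 3) S) = (16 : S) • 1 := by
    ext x y
    by_cases h : x = y
    · subst h; simp [Matrix.ofNat_apply]
    · simp [Matrix.ofNat_apply, h]
  rw [this, Matrix.smul_mulVec, Matrix.one_mulVec]

lemma ofNat_mulVec (k : ℕ) [k.AtLeastTwo] (u : Fin 4 × Fin 3 → S) :
    (OfNat.ofNat k : Matrix (Fin 4 × Fin 3) (Fin 4 × Fin 3) S) *ᵥ u = (OfNat.ofNat k : S) • u := by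
  have : (OfNat.ofNat k : Matrix (Fin 4 × Fin 3) (Fin 4 × Fin 3) S) = (OfNat.ofNat k : S) • 1 := by
    ext x y
    by_cases h : x = y
    · subst h
      simp only [Matrix.ofNat_apply, Matrix.smul_apply, Matrix.one_apply_eq, smul_eq_mul, mul_one,
        if_true]
      rfl
    · simp [Matrix.ofNat_apply, h]
  rw [this, Matrix.smul_mulVec, Matrix.one_mulVec]

end ring

section alg
variable {S : Type*} [CommRing S] [Algebra ℝ S]

lemma smul_cancel {κ : Type*} {k : ℕ} (hk : k ≠ 0) {u v : κ → S} (h : (k : S) • u = (k : S) • v) :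
    u = v := by
  have e : algebraMap ℝ S ((k : ℝ)⁻¹) * (k : S) = 1 := by
    rw [← map_natCast (algebraMap ℝ S) k, ← map_mul, inv_mul_cancel₀ (by exact_mod_cast hk),
      map_one]
  have := congrArg (fun z => algebraMap ℝ S ((k : ℝ)⁻¹) • z) h
  simpa only [smul_smul, e, one_smul] using this

/-- The `-2` eigenspace is the image of the twistor embedding. -/
theorem eig_m2 {u : Fin 4 × Fin 3 → S} (h : NN S *ᵥ u = (-2 : S) • u) :
    (6 : S) • u = emb (embT u) := by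
  have a6 : (NN S - 6) *ᵥ u = (-8 : S) • u := by
    rw [Matrix.sub_mulVec, ofNat_mulVec, h, ← sub_smul]; congr 1; ring
  have a4 : (NN S - 4) *ᵥ u = (-6 : S) • u := by
    rw [Matrix.sub_mulVec, ofNat_mulVec, h, ← sub_smul]; congr 1; ring
  have h1 := NN_m2 u
  rw [← Matrix.mulVec_mulVec, ← Matrix.mulVec_mulVec, a6, Matrix.mulVec_smul, a4,
    Matrix.mulVec_smul, Matrix.mulVec_smul, h, smul_smul, smul_smul] at h1
  apply smul_cancel (k := 16) (by norm_num)
  push_cast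
  rw [smul_smul]
  have h2 : (-1 : S) • ((-16 : S) • emb (embT u)) = (16 : S) • emb (embT u) := by
    rw [smul_smul]; congr 1; ring
  rw [← h2, ← h1, smul_smul]
  congr 1
  ring

/-- The kernel of `N` is spanned by `δ`. -/
theorem eig_0 {u : Fin 4 × Fin 3 → S} (h : NN S *ᵥ u = 0) :
    (3 : S) • u = embd (embdT u) := by
  have a6 : (NN S - 6) *ᵥ u = (-6 : S) • u := by
    rw [Matrix.sub_mulVec, ofNat_mulVec, h, zero_sub, neg_smul]
  have a2 : (NN S + 2) *ᵥ u = (2 : S) • u := by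
    rw [Matrix.add_mulVec, ofNat_mulVec, h, zero_add]
  have a4 : (NN S - 4) *ᵥ u = (-4 : S) • u := by
    rw [Matrix.sub_mulVec, ofNat_mulVec, h, zero_sub, neg_smul]
  have h1 := NN_0 u
  rw [← Matrix.mulVec_mulVec, ← Matrix.mulVec_mulVec, a6, Matrix.mulVec_smul, a2,
    Matrix.mulVec_smul, Matrix.mulVec_smul, a4, smul_smul, smul_smul] at h1
  apply smul_cancel (k := 16) (by norm_num)
  push_cast
  rw [← h1, smul_smul]
  congr 1
  ring

end alg

/-- On the sum of the eigenspaces `4` and `6`, `N ≥ 4`. -/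
theorem NN_ge (w : Fin 4 × Fin 3 → ℝ) (h : ((NN ℝ - 4) * (NN ℝ - 6)) *ᵥ w = 0) :
    4 * (w ⬝ᵥ w) ≤ w ⬝ᵥ (NN ℝ *ᵥ w) := by
  -- |N w - 5 w|² = |w|²
  have hs : ∀ u v : Fin 4 × Fin 3 → ℝ, u ⬝ᵥ (NN ℝ *ᵥ v) = (NN ℝ *ᵥ u) ⬝ᵥ v := by
    intro u v
    rw [Matrix.dotProduct_mulVec, ← Matrix.mulVec_transpose, NN_symm]
  set v := NN ℝ *ᵥ w with hv
  have h1 : NN ℝ *ᵥ v = (10 : ℝ) • v - (24 : ℝ) • w := by
    rw [← Matrix.mulVec_mulVec, Matrix.sub_mulVec, Matrix.sub_mulVec, ofNat_mulVec, ofNat_mulVec,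
      Matrix.mulVec_sub, Matrix.mulVec_smul, ← hv] at h
    have h2 : NN ℝ *ᵥ v = (NN ℝ *ᵥ v - (6 : ℝ) • v - (4 : ℝ) • (v - (6 : ℝ) • w))
        + (10 : ℝ) • v - (24 : ℝ) • w := by module
    rw [h2, h, zero_add]
  have h3 : v ⬝ᵥ v = 10 * (w ⬝ᵥ v) - 24 * (w ⬝ᵥ w) := by
    have : v ⬝ᵥ v = w ⬝ᵥ (NN ℝ *ᵥ v) := by rw [hs w v]
    rw [this, h1, dotProduct_sub, dotProduct_smul, dotProduct_smul]; rfl
  have h4 : 0 ≤ (v - (4 : ℝ) • w) ⬝ᵥ (v - (4 : ℝ) • w) := by
    simp only [dotProduct]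
    exact Finset.sum_nonneg fun i _ => mul_self_nonneg _
  have h5 : (v - (4 : ℝ) • w) ⬝ᵥ (v - (4 : ℝ) • w)
      = v ⬝ᵥ v - 8 * (w ⬝ᵥ v) + 16 * (w ⬝ᵥ w) := by
    rw [sub_dotProduct, dotProduct_sub, dotProduct_sub, smul_dotProduct, smul_dotProduct,
      dotProduct_smul, dotProduct_smul, dotProduct_comm v w]
    simp only [smul_eq_mul]; ring
  rw [h5, h3] at h4
  linarith

end Crest.Agent.R249.C2_198
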