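import Crest.Agent.R249.FrG_129

/-!
Reversing a frame vector (orientation), the `Λ⁻`-block, sectional curvature in terms of the blocks.
(row 249, helper129)
-/

set_option autoImplicit false
set_option linter.unusedSimpArgs false
set_option linter.unusedSectionVars false

namespace Crest.Agent.R249.Fr129

open Finset Matrix

namespace Frame

section sign

variable {n : ℕ} {S : Type*} [CommRing S] [Algebra ℝ S] (F : Frame n S)

/-- The frame `e_i' = s_i e_i` for signs `s_i`. -/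
def sign (s : Fin n → ℤ) (hs : ∀ i, s i * s i = 1) : Frame n S where
  D k := s k • F.D k
  w k i j := s k * s i * s j * F.w k i j
  anti k i j := by rw [F.anti k i j]; ring
  tors k l f := by
    simp only [Derivation.coe_smul, Pi.smul_apply, zsmul_eq_mul, D_mul, F.tors' k l f, mul_add]
    have z : ∀ k l, F.D k ((s l : ℤ) : S) = 0 := fun k l => by
      have : ((s l : ℤ) : S) = algebraMap ℝ S (s l : ℝ) := by simp
      rw [this, Derivation.map_algebraMap]
    rw [z, z, mul_sum, mul_sum]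
    simp only [zero_mul, zero_add, mul_zero]
    have : ∀ m, ((s k : ℤ) : S) * (s l * (F.T k l m * F.D m f))
        = (s k * s l * s m * F.w k l m - s l * s k * s m * F.w l k m) * (s m * F.D m f) := by
      intro m
      have h : ((s m : ℤ) : S) * s m = 1 := by exact_mod_cast congrArg (Int.cast (R := S)) (hs m)
      rw [T]
      linear_combination (-(s k : S) * s l * (F.w k l m - F.w l k m) * F.D m f) * h
    simp_rw [this]
    ring
  indep c hc m := by
    have h : ((s m : ℤ) : S) * s m = 1 := by exact_mod_cast congrArg (Int.cast (R := S)) (hs m)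
    have := F.indep (fun m => c m * s m) (fun f => by
      have := hc f
      simp only [Derivation.coe_smul, Pi.smul_apply, zsmul_eq_mul] at this
      rw [← this]; exact sum_congr rfl fun m _ => by ring) m
    calc c m = (c m * s m) * s m := by rw [mul_assoc, h, mul_one]
      _ = 0 := by rw [this, zero_mul]

lemma cast_sq {s : Fin n → ℤ} (hs : ∀ i, s i * s i = 1) (m : Fin n) :
    ((s m : ℤ) : S) * s m = 1 := by exact_mod_cast congrArg (Int.cast (R := S)) (hs m)

lemma Rm_sign (s : Fin n → ℤ) (hs : ∀ i, s i * s i = 1) (i j k l : Fin n) :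
    (F.sign s hs).Rm i j k l = s i * s j * s k * s l * F.Rm i j k l := by
  have z : ∀ k l, F.D k ((s l : ℤ) : S) = 0 := fun k l => by
    have : ((s l : ℤ) : S) = algebraMap ℝ S (s l : ℝ) := by simp
    rw [this, Derivation.map_algebraMap]
  simp only [Rm, T, sign, Derivation.coe_smul, Pi.smul_apply, zsmul_eq_mul, D_mul, z]
  have h1 : ∑ m, (↑(s j) * ↑(s k) * ↑(s m) * F.w j k m * (↑(s i) * ↑(s m) * ↑(s l) * F.w i m l)
      - ↑(s i) * ↑(s k) * ↑(s m) * F.w i k m * (↑(s j) * ↑(s m) * ↑(s l) * F.w j m l))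
      = s i * s j * s k * s l * ∑ m, (F.w j k m * F.w i m l - F.w i k m * F.w j m l) := by
    rw [mul_sum]
    refine sum_congr rfl fun m _ => ?_
    have h := cast_sq (S := S) hs m
    linear_combination ((s i : S) * s j * s k * s l * (F.w j k m * F.w i m l
      - F.w i k m * F.w j m l)) * h
  have h2 : ∑ m, (↑(s i) * ↑(s j) * ↑(s m) * F.w i j m - ↑(s j) * ↑(s i) * ↑(s m) * F.w j i m)
      * (↑(s m) * ↑(s k) * ↑(s l) * F.w m k l)
      = s i * s j * s k * s l * ∑ m, (F.w i j m - F.w j i m) * F.w m k l := by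
    rw [mul_sum]
    refine sum_congr rfl fun m _ => ?_
    have h := cast_sq (S := S) hs m
    linear_combination ((s i : S) * s j * s k * s l * (F.w i j m
      - F.w j i m) * F.w m k l) * h
  rw [h1, h2]; ring

lemma Einstein_sign (s : Fin n → ℤ) (hs : ∀ i, s i * s i = 1) {c : S} (hE : F.Einstein c) :
    (F.sign s hs).Einstein c := by
  intro j k
  have : (F.sign s hs).Ric j k = s j * s k * F.Ric j k := by
    simp only [Ric, Rm_sign, mul_sum]
    refine sum_congr rfl fun i _ => ?_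
    have h := cast_sq (S := S) hs i
    linear_combination ((s j : S) * s k * F.Rm i j k i) * h
  rw [this, hE j k]
  split_ifs with h
  · subst h
    rw [cast_sq hs, one_mul]
  · rw [mul_zero]

end sign

variable {S : Type*} [CommRing S] [Algebra ℝ S] (F : Frame 4 S)

/-- signs of the orientation reversal -/
def e3 : Fin 4 → ℤ := ![1, 1, 1, -1]

lemma e3_sq (i : Fin 4) : e3 i * e3 i = 1 := by fin_cases i <;> rfl

/-- Orientation reversal: `e_3 ↦ - e_3`. -/
def flip : Frame 4 S := F.sign e3 e3_sq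

lemma Rm_flip (i j k l : Fin 4) : F.flip.Rm i j k l = e3 i * e3 j * e3 k * e3 l * F.Rm i j k l :=
  F.Rm_sign e3 e3_sq i j k l

lemma Einstein_flip {c : S} (hE : F.Einstein c) : F.flip.Einstein c := F.Einstein_sign e3 e3_sq hE

lemma flip_D (k : Fin 4) (f : S) : F.flip.D k f = e3 k * F.D k f := by
  simp [flip, sign]

/-- The Laplacian of functions does not see the orientation. -/
lemma flip_lap0 (f : S) : F.flip.lap0 f = F.lap0 f := by
  have z : ∀ k l, F.D k ((e3 l : ℤ) : S) = 0 := fun k l => by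
    have : ((e3 l : ℤ) : S) = algebraMap ℝ S (e3 l : ℝ) := by simp
    rw [this, Derivation.map_algebraMap]
  simp only [lap0, hess0, flip_D, D_mul, z]
  refine sum_congr rfl fun k _ => ?_
  have h := cast_sq (S := S) e3_sq k
  have : ∑ m, F.flip.w k k m * (↑(e3 m) * F.D m f) = ∑ m, F.w k k m * F.D m f := by
    refine sum_congr rfl fun m _ => ?_
    have hm := cast_sq (S := S) e3_sq m
    simp only [flip, sign]
    linear_combination (F.w k k m * F.D m f * ((e3 m : S) * e3 m)) * h + (F.w k k m * F.D m f) * hm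
  rw [this]
  linear_combination (F.D k (F.D k f)) * h

/-- self-dual part of `x ∧ y` -/
def sp (x y : Fin 4 → S) : Fin 3 → S :=
  ![(x 0 * y 1 - x 1 * y 0) + (x 2 * y 3 - x 3 * y 2),
    (x 0 * y 2 - x 2 * y 0) - (x 1 * y 3 - x 3 * y 1),
    (x 0 * y 3 - x 3 * y 0) + (x 1 * y 2 - x 2 * y 1)]

/-- anti-self-dual part of `x ∧ y` -/
def sm (x y : Fin 4 → S) : Fin 3 → S :=
  ![(x 0 * y 1 - x 1 * y 0) - (x 2 * y 3 - x 3 * y 2),
    (x 0 * y 2 - x 2 * y 0) + (x 1 * y 3 - x 3 * y 1),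
    -(x 0 * y 3 - x 3 * y 0) + (x 1 * y 2 - x 2 * y 1)]

/-- `⟨R(x,y)y,x⟩` for an Einstein metric in terms of the blocks. -/
theorem sec_eq {lam : S} (hE : F.Einstein lam) (x y : Fin 4 → S) :
    2 * ∑ i, ∑ j, ∑ k, ∑ l, F.Rm i j k l * x i * y j * y k * x l
      = ∑ a, ∑ b, F.AA a b * sp x y a * sp x y b
        + ∑ a, ∑ b, F.flip.AA a b * sm x y a * sm x y b := by
  have hE' := F.Einstein_flip hE
  have p010 := F.P01 hE 0
  have q010 := F.flip.P01 hE' 0
  have p230 := F.P23 hE 0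
  have q230 := F.flip.P23 hE' 0
  have p020 := F.P02 hE 0
  have q020 := F.flip.P02 hE' 0
  have p130 := F.P13 hE 0
  have q130 := F.flip.P13 hE' 0
  have p030 := F.P03 hE 0
  have q030 := F.flip.P03 hE' 0
  have p120 := F.P12 hE 0
  have q120 := F.flip.P12 hE' 0
  have p011 := F.P01 hE 1
  have q011 := F.flip.P01 hE' 1
  have p231 := F.P23 hE 1
  have q231 := F.flip.P23 hE' 1
  have p021 := F.P02 hE 1
  have q021 := F.flip.P02 hE' 1
  have p131 := F.P13 hE 1
  have q131 := F.flip.P13 hE' 1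
  have p031 := F.P03 hE 1
  have q031 := F.flip.P03 hE' 1
  have p121 := F.P12 hE 1
  have q121 := F.flip.P12 hE' 1
  have p012 := F.P01 hE 2
  have q012 := F.flip.P01 hE' 2
  have p232 := F.P23 hE 2
  have q232 := F.flip.P23 hE' 2
  have p022 := F.P02 hE 2
  have q022 := F.flip.P02 hE' 2
  have p132 := F.P13 hE 2
  have q132 := F.flip.P13 hE' 2
  have p032 := F.P03 hE 2
  have q032 := F.flip.P03 hE' 2
  have p122 := F.P12 hE 2
  have q122 := F.flip.P12 hE' 2
  simp [PP, Rm_flip, e3] at p010 q010 p230 q230 p020 q020 p130 q130 p030 q030 p120 q120 p011 q011 p231 q231 p021 q021 p131 q131 p031 q031 p121 q121 p012 q012 p232 q232 p022 q022 p132 q132 p032 q032 p122 q122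
  simp only [Fin.sum_univ_four, Fin.sum_univ_three, sp, sm, R10, R20, R30, R21, R31, R32, L10, L20,
    L30, L21, L31, L32, Rm_self12, Rm_self34, Matrix.cons_val_zero, Matrix.cons_val_one,
    Matrix.cons_val]
  linear_combination
    -1 * ((x 0 * y 1 - x 1 * y 0) + (x 2 * y 3 - x 3 * y 2)) * ((x 0 * y 1 - x 1 * y 0) * p010 + (x 2 * y 3 - x 3 * y 2) * p230 + (x 0 * y 2 - x 2 * y 0) * p020 + (x 1 * y 3 - x 3 * y 1) * p130 + (x 0 * y 3 - x 3 * y 0) * p030 + (x 1 * y 2 - x 2 * y 1) * p120)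
    - ((x 0 * y 1 - x 1 * y 0) - (x 2 * y 3 - x 3 * y 2)) * ((x 0 * y 1 - x 1 * y 0) * q010 - (x 2 * y 3 - x 3 * y 2) * q230 + (x 0 * y 2 - x 2 * y 0) * q020 - (x 1 * y 3 - x 3 * y 1) * q130 - (x 0 * y 3 - x 3 * y 0) * q030 + (x 1 * y 2 - x 2 * y 1) * q120)
    - ((x 0 * y 2 - x 2 * y 0) - (x 1 * y 3 - x 3 * y 1)) * ((x 0 * y 1 - x 1 * y 0) * p011 + (x 2 * y 3 - x 3 * y 2) * p231 + (x 0 * y 2 - x 2 * y 0) * p021 + (x 1 * y 3 - x 3 * y 1) * p131 + (x 0 * y 3 - x 3 * y 0) * p031 + (x 1 * y 2 - x 2 * y 1) * p121)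
    - ((x 0 * y 2 - x 2 * y 0) + (x 1 * y 3 - x 3 * y 1)) * ((x 0 * y 1 - x 1 * y 0) * q011 - (x 2 * y 3 - x 3 * y 2) * q231 + (x 0 * y 2 - x 2 * y 0) * q021 - (x 1 * y 3 - x 3 * y 1) * q131 - (x 0 * y 3 - x 3 * y 0) * q031 + (x 1 * y 2 - x 2 * y 1) * q121)
    - ((x 0 * y 3 - x 3 * y 0) + (x 1 * y 2 - x 2 * y 1)) * ((x 0 * y 1 - x 1 * y 0) * p012 + (x 2 * y 3 - x 3 * y 2) * p232 + (x 0 * y 2 - x 2 * y 0) * p022 + (x 1 * y 3 - x 3 * y 1) * p132 + (x 0 * y 3 - x 3 * y 0) * p032 + (x 1 * y 2 - x 2 * y 1) * p122)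
    - (-(x 0 * y 3 - x 3 * y 0) + (x 1 * y 2 - x 2 * y 1)) * ((x 0 * y 1 - x 1 * y 0) * q012 - (x 2 * y 3 - x 3 * y 2) * q232 + (x 0 * y 2 - x 2 * y 0) * q022 - (x 1 * y 3 - x 3 * y 1) * q132 - (x 0 * y 3 - x 3 * y 0) * q032 + (x 1 * y 2 - x 2 * y 1) * q122)

end Frame

end Crest.Agent.R249.Fr129
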