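import Crest.Agent.R249.C2i_198
import Crest.Agent.R249.FrH_129

/-!
Traces of the square of the curvature: `∑_ij tr (Ω_ij Ω_ij)` for `Λ⁻`, `ℝ ⊕ Λ⁻`, `T` and tensor
products; the numbers needed in the index formula; the `Λ⁻`-block in terms of `F.flip`.
(row 249, part C2 of the blueprint, helper198)
-/

set_option autoImplicit false
set_option linter.unusedSectionVars false
set_option linter.unusedSimpArgs false

namespace Crest.Agent.R249.C2_198

open Finset Matrix
open scoped Kronecker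
open Crest.Agent.R249.Fr129

section gen
variable {n : ℕ} {S : Type*} [CommRing S] [Algebra ℝ S] (F : Frame n S)
variable {κ ι : Type*} [Fintype κ] [DecidableEq κ] [Fintype ι] [DecidableEq ι]

/-- `∑_ij tr (Ω_ij Ω_ij)` -/
def tO (a : Fin n → Matrix κ κ S) : S := ∑ i, ∑ j, (F.curv a i j * F.curv a i j).trace

lemma curv_trace {a : Fin n → Matrix κ κ S} (ha : Frame.Skew a) (i j : Fin n) :
    (F.curv a i j).trace = 0 := by
  rw [Matrix.trace]
  refine sum_eq_zero fun x _ => ?_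
  exact Frame.eq_zero_of_two (by
    have := F.curv_skew ha i j x x
    rw [Matrix.diag_apply]; linear_combination this)

/-- tensor products -/
theorem tO_tens {a : Fin n → Matrix κ κ S} {g : Fin n → Matrix ι ι S} (ha : Frame.Skew a) :
    tO F (Frame.tens a g) = (Fintype.card ι : S) * tO F a + (Fintype.card κ : S) * tO F g := by
  have key : ∀ i j, (F.curv (Frame.tens a g) i j * F.curv (Frame.tens a g) i j).trace
      = (Fintype.card ι : S) * (F.curv a i j * F.curv a i j).trace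
        + (Fintype.card κ : S) * (F.curv g i j * F.curv g i j).trace := by
    intro i j
    rw [curv_tens_eq, Matrix.add_mul, Matrix.mul_add, Matrix.mul_add, ← Matrix.mul_kronecker_mul,
      ← Matrix.mul_kronecker_mul, ← Matrix.mul_kronecker_mul, ← Matrix.mul_kronecker_mul,
      Matrix.trace_add, Matrix.trace_add, Matrix.trace_add, Matrix.trace_kronecker,
      Matrix.trace_kronecker, Matrix.trace_kronecker, Matrix.trace_kronecker]
    simp only [Matrix.mul_one, Matrix.one_mul, Matrix.trace_one, curv_trace F ha]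
    ring
  simp only [tO, key, sum_add_distrib, mul_sum]

end gen

variable {S : Type*} [CommRing S] [Algebra ℝ S] (F : Frame 4 S)

lemma cr_sq_trace (p : Fin 3 → S) : (cr p * cr p).trace = -2 * ∑ c, p c ^ 2 := by
  rw [Matrix.trace]
  simp only [Fin.sum_univ_three, Matrix.diag_apply, Matrix.mul_apply]
  simp [cr]; ring

lemma cr4_sq_trace (p : Fin 3 → S) : (cr4 p * cr4 p).trace = -2 * ∑ c, p c ^ 2 := by
  rw [Matrix.trace]
  simp only [Fin.sum_univ_three, Fin.sum_univ_four, Matrix.diag_apply, Matrix.mul_apply]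
  simp [cr4]; ring

/-- `|C|²` -/
noncomputable def CC2 : S := ∑ c, ∑ d, CC F c d ^ 2
/-- `|A|²` -/
noncomputable def AA2 : S := ∑ c, ∑ d, F.AA c d ^ 2

lemma EE_self (k : Fin 4) (c : Fin 3) : EE F k k c = 0 :=
  Frame.eq_zero_of_two (by have := EE_anti F k k c; linear_combination this)

lemma sum_EE2 {lam : S} (hE : F.Einstein lam) (c : Fin 3) :
    ∑ i, ∑ j, EE F i j c ^ 2 = 4 * ∑ d, CC F c d ^ 2 := by
  obtain ⟨h1, h2, h3, h4, h5, h6⟩ := EE_eq F hE c
  simp only [Fin.sum_univ_four, Fin.sum_univ_three, EE_self, EE_anti F 1 0, EE_anti F 2 0,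
    EE_anti F 3 0, EE_anti F 2 1, EE_anti F 3 1, EE_anti F 3 2, h1, h2, h3, h4, h5, h6]
  ring

lemma sum_PP2 {lam : S} (hE : F.Einstein lam) (c : Fin 3) :
    ∑ i, ∑ j, F.PP i j c ^ 2 = 4 * ∑ d, F.AA c d ^ 2 := by
  obtain ⟨h1, h2, h3, h4, h5, h6⟩ := F.PP_eq hE c
  simp only [Fin.sum_univ_four, Fin.sum_univ_three, F.PP_self, F.PP_anti 1 0, F.PP_anti 2 0,
    F.PP_anti 3 0, F.PP_anti 2 1, F.PP_anti 3 1, F.PP_anti 3 2, h1, h2, h3, h4, h5, h6]
  ring

/-- `Λ⁻`: `∑ tr Ω² = -8 |C|²` -/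
theorem tO_asc {lam : S} (hE : F.Einstein lam) : tO F (asc F) = -8 * CC2 F := by
  have h := sum_EE2 F hE
  simp only [tO, curv_asc, cr_sq_trace, CC2, ← mul_sum]
  have e : ∑ i, ∑ j, ∑ c, EE F i j c ^ 2 = ∑ c, ∑ i, ∑ j, EE F i j c ^ 2 := by
    rw [Finset.sum_congr rfl fun i _ => Finset.sum_comm, Finset.sum_comm]
  rw [e]
  simp only [h, ← mul_sum]
  ring

/-- `ℝ ⊕ Λ⁻`: `∑ tr Ω² = -8 |C|²` -/
theorem tO_e0 {lam : S} (hE : F.Einstein lam) : tO F (e0 F) = -8 * CC2 F := by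
  have h := sum_EE2 F hE
  simp only [tO, curv_e0, cr4_sq_trace, CC2, ← mul_sum]
  have e : ∑ i, ∑ j, ∑ c, EE F i j c ^ 2 = ∑ c, ∑ i, ∑ j, EE F i j c ^ 2 := by
    rw [Finset.sum_congr rfl fun i _ => Finset.sum_comm, Finset.sum_comm]
  rw [e]
  simp only [h, ← mul_sum]
  ring

lemma Rm_sq (k l : Fin 4) :
    ∑ p, ∑ q, F.Rm k l p q ^ 2 = ∑ c, F.PP k l c ^ 2 + ∑ c, EE F k l c ^ 2 := by
  simp only [Fin.sum_univ_four, Fin.sum_univ_three, Frame.PP, EE, F.Rm_self34, F.R10, F.R20,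
    F.R30, F.R21, F.R31, F.R32]
  simp
  ring

/-- `T`: `∑ tr Ω² = -4 (|A|² + |C|²)` -/
theorem tO_tan {lam : S} (hE : F.Einstein lam) : tO F F.tan = -4 * (AA2 F + CC2 F) := by
  have h1 := sum_EE2 F hE
  have h2 := sum_PP2 F hE
  have e0 : ∀ i j, (F.curv F.tan i j * F.curv F.tan i j).trace
      = - ∑ p, ∑ q, F.Rm i j p q ^ 2 := by
    intro i j
    rw [Matrix.trace, ← sum_neg_distrib]
    refine sum_congr rfl fun p _ => ?_
    rw [Matrix.diag_apply, Matrix.mul_apply, ← sum_neg_distrib]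
    refine sum_congr rfl fun q _ => ?_
    rw [F.curv_tan, F.curv_tan, F.Rm_anti34 i j q p]; ring
  simp only [tO, e0, Rm_sq, sum_neg_distrib, sum_add_distrib, CC2, AA2]
  have e : ∀ f : Fin 4 → Fin 4 → Fin 3 → S,
      ∑ i, ∑ j, ∑ c, f i j c = ∑ c, ∑ i, ∑ j, f i j c := by
    intro f
    rw [Finset.sum_congr rfl fun i _ => Finset.sum_comm, Finset.sum_comm]
  rw [e, e]
  simp only [h1, h2, ← mul_sum]
  ring

/-- the number for `G = ℝ` -/
theorem strO_R {lam : S} (hE : F.Einstein lam) :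
    tO F (e0 F) - tO F F.tan = 4 * (AA2 F - CC2 F) := by
  rw [tO_e0 F hE, tO_tan F hE]; ring

/-- the number for `G = Λ⁻` -/
theorem strO_L {lam : S} (hE : F.Einstein lam) :
    tO F (Frame.tens (e0 F) (asc F)) - tO F (Frame.tens F.tan (asc F))
      = 12 * (AA2 F - CC2 F) := by
  rw [tO_tens F (e0_skew F), tO_tens F (tan_skew F), tO_e0 F hE, tO_tan F hE, tO_asc F hE]
  simp only [Fintype.card_fin]
  push_cast
  ring

/-! Zero order terms. -/

lemma D4_trace : (D4 S).trace = 12 := by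
  rw [Matrix.trace]
  simp only [Fin.sum_univ_four, Matrix.diag_apply]
  simp [D4]; norm_num

lemma D4_sq_trace : (D4 S * D4 S).trace = 48 := by
  rw [Matrix.trace]
  simp only [Fin.sum_univ_four, Matrix.diag_apply, Matrix.mul_apply]
  simp [D4]; norm_num

variable {F}

/-- `G = ℝ`: `tr Q₀ = tr Q₁`, `tr Q₀² - tr Q₁² = 12 c²` (`lam = 3 c`). -/
theorem strQ_R {c : S} (hE : F.Einstein (3 * c)) (hC : CScal F c) :
    (Q F (e0 F) (cK S)).trace = (Q F F.tan (fun i => (cK S i)ᵀ)).trace ∧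
    (Q F (e0 F) (cK S) * Q F (e0 F) (cK S)).trace
      - (Q F F.tan (fun i => (cK S i)ᵀ) * Q F F.tan (fun i => (cK S i)ᵀ)).trace = 12 * c ^ 2 := by
  rw [Q0_scal hC, Q1_ein hE]
  simp only [Matrix.trace_smul, Matrix.smul_mul, Matrix.mul_smul, D4_trace, D4_sq_trace,
    Matrix.mul_one, Matrix.trace_one, Fintype.card_fin, smul_eq_mul]
  constructor <;> push_cast <;> ring

/-- `G = Λ⁻`: `tr Q₀ = tr Q₁`, `tr Q₀² - tr Q₁² = 132 c²` (`lam = 3 c`). -/
theorem strQ_L {c : S} (hE : F.Einstein (3 * c)) (hC : CScal F c) :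
    (Q F (Frame.tens (e0 F) (asc F)) (tw (cK S))).trace
      = (Q F (Frame.tens F.tan (asc F)) (fun i => (tw (ι := Fin 3) (cK S) i)ᵀ)).trace ∧
    (Q F (Frame.tens (e0 F) (asc F)) (tw (cK S))
        * Q F (Frame.tens (e0 F) (asc F)) (tw (cK S))).trace
      - (Q F (Frame.tens F.tan (asc F)) (fun i => (tw (ι := Fin 3) (cK S) i)ᵀ)
        * Q F (Frame.tens F.tan (asc F)) (fun i => (tw (ι := Fin 3) (cK S) i)ᵀ)).trace
      = 132 * c ^ 2 := by
  rw [Q0_twist hC, Q1_twist hE]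
  simp only [Matrix.trace_smul, Matrix.smul_mul, Matrix.mul_smul, NN_trace, NN_sq_trace,
    Matrix.mul_one, Matrix.trace_one, Fintype.card_prod, Fintype.card_fin, smul_eq_mul]
  constructor <;> push_cast <;> ring

/-! `Λ⁻`-block and the flipped frame of `FrH_129`. -/

variable (F)

/-- signs comparing the bases of `Λ⁻` -/
def sgn : Fin 3 → S := ![-1, -1, 1]

lemma CC_flip (c d : Fin 3) : CC F c d = sgn c * sgn d * F.flip.AA c d := by
  fin_cases c <;> fin_cases d <;>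
    simp [CC, EE, sgn, Frame.AA, Frame.PP, F.Rm_flip, Frame.e3] <;> ring

lemma CC2_flip : CC2 F = AA2 F.flip := by
  simp only [CC2, AA2, CC_flip, Fin.sum_univ_three]
  simp [sgn]

/-- `W⁻ = 0` in the form of `FrG_129`. -/
lemma cscal_of_WW {lam : S} (h : ∀ c d, F.flip.WW lam c d = 0) : CScal F (Frame.third * lam) := by
  intro c d
  have := h c d
  rw [Frame.WW, sub_eq_zero] at this
  rw [CC_flip, this]
  fin_cases c <;> fin_cases d <;> simp [sgn]

end Crest.Agent.R249.C2_198
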