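import Crest.Agent.R249.FrF_129

/-!
Bochner formula for `|W⁺|²` of an Einstein metric; `D λ = 0`. (row 249, helper129)
-/

set_option autoImplicit false
set_option linter.unusedSimpArgs false
set_option linter.unusedSectionVars false

namespace Crest.Agent.R249.Fr129

open Finset Matrix

namespace Frame

variable {S : Type*} [CommRing S] [Algebra ℝ S] (F : Frame 4 S)

/-- one third -/
noncomputable def third : S := algebraMap ℝ S (1 / 3)

lemma three_third : (3 : S) * third = 1 := by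
  have : (3 : S) = algebraMap ℝ S 3 := (map_ofNat (algebraMap ℝ S) 3).symm
  rw [third, this, ← map_mul]; norm_num

lemma D_third (k : Fin 4) : F.D k third = 0 := Derivation.map_algebraMap _ _

/-- The self-dual Weyl tensor `W⁺ = A - λ/3`. -/
noncomputable def WW (lam : S) (c d : Fin 3) : S := F.AA c d - if c = d then third * lam else 0

/-- `|W⁺|²` -/
noncomputable def qq (lam : S) : S := ∑ c, ∑ d, F.WW lam c d * F.WW lam c d

lemma WW_symm (lam : S) (c d : Fin 3) : F.WW lam c d = F.WW lam d c := by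
  simp only [WW, F.AA_symm c d, eq_comm (a := c)]

section
variable {lam : S} (hE : F.Einstein lam)
include hE

lemma NN_trace (k : Fin 4) : F.NN k 0 0 + F.NN k 1 1 + F.NN k 2 2 = F.D k lam := by
  rw [← F.AA_trace hE, map_add, map_add]
  simp only [NN_eq, Fin.sum_univ_three, sdc, cr]
  have s10 : F.AA 1 0 = F.AA 0 1 := F.AA_symm 1 0
  have s20 : F.AA 2 0 = F.AA 0 2 := F.AA_symm 2 0
  have s21 : F.AA 2 1 = F.AA 1 2 := F.AA_symm 2 1
  simp [s10, s20, s21]; ring

lemma NN_trace0 (k : Fin 4) : F.NN k 0 0 + F.NN k 1 1 + F.NN k 2 2 = 0 := by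
  have s : ∀ k, F.NN k 1 0 = F.NN k 0 1 := fun k => F.NN_symm k 1 0
  have t : ∀ k, F.NN k 2 0 = F.NN k 0 2 := fun k => F.NN_symm k 2 0
  have r : ∀ k, F.NN k 2 1 = F.NN k 1 2 := fun k => F.NN_symm k 2 1
  fin_cases k <;> simp only [Fin.zero_eta, Fin.mk_one, Fin.reduceFinMk]
  · have h0 := F.z1 hE 0
    have h1 := F.z2 hE 1
    have h2 := F.z3 hE 2
    rw [s] at h1; rw [t, r] at h2
    linear_combination h0 + h1 + h2
  · have h0 := F.z0 hE 0
    have h1 := F.z3 hE 1
    have h2 := F.z2 hE 2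
    rw [s] at h1; rw [t, r] at h2
    linear_combination h0 - h1 + h2
  · have h0 := F.z3 hE 0
    have h1 := F.z0 hE 1
    have h2 := F.z1 hE 2
    rw [s] at h1; rw [t, r] at h2
    linear_combination h0 + h1 - h2
  · have h0 := F.z2 hE 0
    have h1 := F.z1 hE 1
    have h2 := F.z0 hE 2
    rw [s] at h1; rw [t, r] at h2
    linear_combination -h0 + h1 + h2

lemma D_lam (k : Fin 4) : F.D k lam = 0 := by rw [← F.NN_trace hE k, F.NN_trace0 hE k]

lemma WW_trace : F.WW lam 0 0 + F.WW lam 1 1 + F.WW lam 2 2 = 0 := by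
  have h := F.AA_trace hE
  have h3 := three_third (S := S)
  simp only [WW, if_true]
  linear_combination h - lam * h3

/-- `|W|² = |A|² - λ²/3` -/
lemma qq_eq : F.qq lam = ∑ x, F.AV x * F.AV x - third * lam ^ 2 := by
  have h := F.AA_trace hE
  have h3 := three_third (S := S)
  simp only [qq, WW, Fin.sum_univ_three, Fintype.sum_prod_type, AV]
  simp
  linear_combination (-2 * third * lam) * h + (third * lam ^ 2) * h3

/-- `∇_k |W|² = 2 ⟨∇_k W, W⟩` -/
lemma D_qq (k : Fin 4) : F.D k (F.qq lam) = 2 * ∑ c, ∑ d, F.NN k c d * F.WW lam c d := by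
  rw [F.qq_eq hE, map_sub, F.D_dot (tens_skew F.sdc_skew F.sdc_skew), D_mul, pow_two, D_mul,
    F.D_lam hE, D_third]
  have h := F.NN_trace0 hE k
  have e : ∑ x : Fin 3 × Fin 3, F.cov (tens F.sdc F.sdc) k F.AV x * F.AV x
      = ∑ c, ∑ d, F.NN k c d * F.AA c d := by
    rw [Fintype.sum_prod_type]; rfl
  have e' : ∑ x : Fin 3 × Fin 3, F.AV x * F.cov (tens F.sdc F.sdc) k F.AV x
      = ∑ c, ∑ d, F.NN k c d * F.AA c d := by
    rw [← e]; exact sum_congr rfl fun x _ => mul_comm _ _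
  rw [e, e']
  simp only [WW, Fin.sum_univ_three]
  simp
  linear_combination (2 * third * lam) * h

/-- **Bochner formula** `Δ|W|² = 2|∇W|² + 4λ|W|² - 36 det W`. -/
theorem lap_qq : F.lap0 (F.qq lam) = 2 * ∑ k, ∑ c, ∑ d, F.NN k c d ^ 2 + 4 * lam * F.qq lam
    - 36 * (F.WW lam 0 0 * F.WW lam 1 1 * F.WW lam 2 2
      + 2 * F.WW lam 0 1 * F.WW lam 0 2 * F.WW lam 1 2
      - F.WW lam 0 0 * F.WW lam 1 2 ^ 2 - F.WW lam 1 1 * F.WW lam 0 2 ^ 2
      - F.WW lam 2 2 * F.WW lam 0 1 ^ 2) := by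
  have hl : F.lap0 (F.qq lam) = F.lap0 (∑ x, F.AV x * F.AV x) := by
    have : ∑ x, F.AV x * F.AV x = F.qq lam + third * lam ^ 2 := by rw [F.qq_eq hE]; ring
    rw [this, lap0_add]
    have z : ∀ k, F.D k (third * lam ^ 2) = 0 := by
      intro k; rw [D_mul, pow_two, D_mul, F.D_lam hE, D_third]; ring
    have : F.lap0 (third * lam ^ 2) = 0 := by
      simp only [lap0, hess0, z, map_zero, mul_zero, sum_const_zero, sub_zero]
    rw [this, add_zero]
  rw [hl, F.lap0_dot (tens_skew F.sdc_skew F.sdc_skew)]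
  have e1 : ∑ x : Fin 3 × Fin 3, F.lap (tens F.sdc F.sdc) F.AV x * F.AV x
      = ∑ c, ∑ d, F.LL c d * F.AA c d := by
    rw [Fintype.sum_prod_type]; rfl
  have e2 : ∑ x : Fin 3 × Fin 3, F.AV x * F.lap (tens F.sdc F.sdc) F.AV x
      = ∑ c, ∑ d, F.LL c d * F.AA c d := by
    rw [← e1]; exact sum_congr rfl fun x _ => mul_comm _ _
  have e3 : ∑ k, ∑ x : Fin 3 × Fin 3, F.cov (tens F.sdc F.sdc) k F.AV x
        * F.cov (tens F.sdc F.sdc) k F.AV x = ∑ k, ∑ c, ∑ d, F.NN k c d ^ 2 := by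
    refine sum_congr rfl fun k _ => ?_
    rw [Fintype.sum_prod_type]
    exact sum_congr rfl fun c _ => sum_congr rfl fun d _ => (pow_two _).symm
  rw [e1, e2, e3, F.qq_eq hE]
  have s10 : F.AA 1 0 = F.AA 0 1 := F.AA_symm 1 0
  have s20 : F.AA 2 0 = F.AA 0 2 := F.AA_symm 2 0
  have s21 : F.AA 2 1 = F.AA 1 2 := F.AA_symm 2 1
  have h := F.AA_trace hE
  have h3 := three_third (S := S)
  have hl : lam = F.AA 0 0 + F.AA 1 1 + F.AA 2 2 := h.symm
  have ht : third * (3 : S) = 1 := by rw [mul_comm]; exact h3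
  simp only [F.LL_formula hE, Fin.sum_univ_three, Fintype.sum_prod_type, AV, WW, s10, s20, s21]
  simp only [if_true, Fin.isValue, reduceIte, Fin.reduceEq, if_false, sub_zero, zero_ne_one,
    one_ne_zero]
  rw [hl]
  generalize F.AA 0 0 = a
  generalize F.AA 0 1 = b
  generalize F.AA 0 2 = c
  generalize F.AA 1 1 = d
  generalize F.AA 1 2 = e
  generalize F.AA 2 2 = f
  linear_combination (-12 * (a + d + f) * (a * d + a * f + d * f - b ^ 2 - c ^ 2 - e ^ 2)
    - 4 * (third - 1) * (3 * third + 1) * (a + d + f) ^ 3) * ht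

end

end Frame

end Crest.Agent.R249.Fr129
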