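import Crest.Agent.R249.C2j_198
import Crest.Agent.R249.FrG_129

/-!
SELF-DUAL VERSION (mirror image of C2c, C2d, C2f, C2g, C2h, C2j): the operator
`(ℝ ⊕ Λ⁺) ⊗ G → T ⊗ G`, `G = ℝ` or `Λ⁺`, with the bundle `sdc`, the curvature `PP` and the block
`AA` of `FrD_129`.  The anti-self-dual operator is this one for `F.flip`.
(row 249, part C2 of the blueprint, helper198)
-/

set_option autoImplicit false
set_option linter.unusedSectionVars false
set_option linter.unusedSimpArgs false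

namespace Crest.Agent.R249.C2p_198

open Finset
open scoped Matrix Kronecker
open Crest.Agent.R249.Fr129
open Crest.Agent.R249.C2_198 (Par Q K J K_map J_map cr4 cm cp curv_anti' curv_self' half_two RicM)

section const

variable (S : Type*) [CommRing S]

/-- `JJ 0 = 1`, `JJ (a+1) = J a`. -/
def JJ : Fin 4 → Matrix (Fin 4) (Fin 4) S := ![1, J S 0, J S 1, J S 2]

/-- the Clifford symbol: `(c_i (f,s))_k = f δ_ik + ∑ (J_a)_ki s_a` -/
def cJ (i : Fin 4) : Matrix (Fin 4) (Fin 4) S := fun k a => JJ S a k i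

/-- `cJ` as explicit matrices -/
lemma cJ_eq : cJ S = ![!![1, 0, 0, 0; 0, 1, 0, 0; 0, 0, 1, 0; 0, 0, 0, 1],
    !![0, -1, 0, 0; 1, 0, 0, 0; 0, 0, 0, 1; 0, 0, -1, 0],
    !![0, 0, -1, 0; 0, 0, 0, -1; 1, 0, 0, 0; 0, 1, 0, 0],
    !![0, 0, 0, -1; 0, 0, 1, 0; 0, -1, 0, 0; 1, 0, 0, 0]] := by
  funext i
  ext k a
  fin_cases i <;> fin_cases k <;> fin_cases a <;> simp [cJ, JJ, J, Matrix.one_apply]

lemma cJ_zero : cJ S 0 = !![1, 0, 0, 0; 0, 1, 0, 0; 0, 0, 1, 0; 0, 0, 0, 1] := by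
  rw [cJ_eq]; rfl
lemma cJ_one : cJ S 1 = !![0, -1, 0, 0; 1, 0, 0, 0; 0, 0, 0, 1; 0, 0, -1, 0] := by
  rw [cJ_eq]; rfl
lemma cJ_two : cJ S 2 = !![0, 0, -1, 0; 0, 0, 0, -1; 1, 0, 0, 0; 0, 1, 0, 0] := by
  rw [cJ_eq]; rfl
lemma cJ_three : cJ S 3 = !![0, 0, 0, -1; 0, 0, 1, 0; 0, -1, 0, 0; 1, 0, 0, 0] := by
  rw [cJ_eq]; rfl

/-- integer version of the symbol -/
def cJZ : Fin 4 → Matrix (Fin 4) (Fin 4) ℤ :=
  ![!![1, 0, 0, 0; 0, 1, 0, 0; 0, 0, 1, 0; 0, 0, 0, 1],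
    !![0, -1, 0, 0; 1, 0, 0, 0; 0, 0, 0, 1; 0, 0, -1, 0],
    !![0, 0, -1, 0; 0, 0, 0, -1; 1, 0, 0, 0; 0, 1, 0, 0],
    !![0, 0, 0, -1; 0, 0, 1, 0; 0, -1, 0, 0; 1, 0, 0, 0]]

lemma cJ_cast (i : Fin 4) : cJ S i = (cJZ i).map (Int.castRingHom S) := by
  rw [cJ_eq]
  ext k a
  fin_cases i <;> fin_cases k <;> fin_cases a <;> simp [cJZ]

lemma clifZ0 (i j : Fin 4) :
    (cJZ i)ᵀ * cJZ j + (cJZ j)ᵀ * cJZ i = if i = j then 2 else 0 := by
  revert i j; decide +kernel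

lemma clifZ1 (i j : Fin 4) :
    cJZ i * (cJZ j)ᵀ + cJZ j * (cJZ i)ᵀ = if i = j then 2 else 0 := by
  revert i j; decide +kernel

lemma cJ_mapMatrix (i : Fin 4) : cJ S i = (Int.castRingHom S).mapMatrix (cJZ i) := cJ_cast S i

lemma cJ_mapMatrix_t (i : Fin 4) : (cJ S i)ᵀ = (Int.castRingHom S).mapMatrix (cJZ i)ᵀ := by
  rw [cJ_mapMatrix]; rfl

/-- Clifford relations on `ℝ ⊕ Λ⁺`. -/
lemma clif0 (i j : Fin 4) :
    (cJ S i)ᵀ * cJ S j + (cJ S j)ᵀ * cJ S i = if i = j then 2 else 0 := by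
  rw [cJ_mapMatrix_t, cJ_mapMatrix_t, cJ_mapMatrix, cJ_mapMatrix, ← map_mul, ← map_mul, ← map_add,
    clifZ0]
  split_ifs
  · exact map_ofNat _ 2
  · exact map_zero _

/-- Clifford relations on `T`. -/
lemma clif1 (i j : Fin 4) :
    cJ S i * (cJ S j)ᵀ + cJ S j * (cJ S i)ᵀ = if i = j then 2 else 0 := by
  rw [cJ_mapMatrix_t, cJ_mapMatrix_t, cJ_mapMatrix, cJ_mapMatrix, ← map_mul, ← map_mul, ← map_add,
    clifZ1]
  split_ifs
  · exact map_ofNat _ 2
  · exact map_zero _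

/-- table of `c_iᵀ c_j` -/
def ctcT : Fin 4 → Fin 4 → Matrix (Fin 4) (Fin 4) S :=
  ![![1, -K S 0, -K S 1, -K S 2], ![K S 0, 1, -K S 2, K S 1], ![K S 1, K S 2, 1, -K S 0],
    ![K S 2, -K S 1, K S 0, 1]]

/-- table of `c_i c_jᵀ` -/
def cctT : Fin 4 → Fin 4 → Matrix (Fin 4) (Fin 4) S :=
  ![![1, K S 0, K S 1, K S 2], ![-K S 0, 1, -K S 2, K S 1], ![-K S 1, K S 2, 1, -K S 0],
    ![-K S 2, -K S 1, K S 0, 1]]

lemma ctcZ (i j : Fin 4) : (cJZ i)ᵀ * cJZ j = ctcT ℤ i j := by revert i j; decide +kernel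

lemma cctZ (i j : Fin 4) : cJZ i * (cJZ j)ᵀ = cctT ℤ i j := by revert i j; decide +kernel

lemma ctcT_map (i j : Fin 4) : ctcT S i j = (Int.castRingHom S).mapMatrix (ctcT ℤ i j) := by
  fin_cases i <;> fin_cases j <;> simp only [ctcT, Fin.zero_eta, Fin.mk_one, Fin.reduceFinMk,
    Matrix.cons_val_zero, Matrix.cons_val_one, Matrix.cons_val, map_neg, map_one, ← K_map]

lemma cctT_map (i j : Fin 4) : cctT S i j = (Int.castRingHom S).mapMatrix (cctT ℤ i j) := by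
  fin_cases i <;> fin_cases j <;> simp only [cctT, Fin.zero_eta, Fin.mk_one, Fin.reduceFinMk,
    Matrix.cons_val_zero, Matrix.cons_val_one, Matrix.cons_val, map_neg, map_one, ← K_map]

lemma ctc (i j : Fin 4) : (cJ S i)ᵀ * cJ S j = ctcT S i j := by
  rw [cJ_mapMatrix_t, cJ_mapMatrix, ← map_mul, ctcZ, ← ctcT_map]

lemma cct (i j : Fin 4) : cJ S i * (cJ S j)ᵀ = cctT S i j := by
  rw [cJ_mapMatrix_t, cJ_mapMatrix, ← map_mul, cctZ, ← cctT_map]

end const

section sums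

variable {S : Type*} [CommRing S]

/-- `∑ (c_iᵀ c_j) X_ij` for antisymmetric `X` and a bilinear operation. -/
lemma sum_ctc {A B : Type*} [AddCommGroup A] [AddCommGroup B]
    (f : Matrix (Fin 4) (Fin 4) S →+ A →+ B) (X : Fin 4 → Fin 4 → A)
    (hX : ∀ i j, X i j = - X j i) (hX0 : ∀ i, X i i = 0) :
    ∑ i, ∑ j, f ((cJ S i)ᵀ * cJ S j) (X i j)
      = (-2 : ℤ) • (f (K S 0) (X 0 1 + X 2 3) + f (K S 1) (X 0 2 - X 1 3)
        + f (K S 2) (X 0 3 + X 1 2)) := by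
  simp only [ctc, Fin.sum_univ_four, hX0, map_zero, hX 1 0, hX 2 0, hX 3 0, hX 2 1, hX 3 1, hX 3 2,
    ctcT, Matrix.cons_val_zero, Matrix.cons_val_one, Matrix.cons_val, map_neg,
    AddMonoidHom.neg_apply, neg_neg, map_sub, map_add]
  abel

lemma sum_cct {A B : Type*} [AddCommGroup A] [AddCommGroup B]
    (f : Matrix (Fin 4) (Fin 4) S →+ A →+ B) (X : Fin 4 → Fin 4 → A)
    (hX : ∀ i j, X i j = - X j i) (hX0 : ∀ i, X i i = 0) :
    ∑ i, ∑ j, f (cJ S i * (cJ S j)ᵀ) (X i j)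
      = 2 • (f (K S 0) (X 0 1 - X 2 3) + f (K S 1) (X 0 2 + X 1 3)
        + f (K S 2) (X 0 3 - X 1 2)) := by
  simp only [cct, Fin.sum_univ_four, hX0, map_zero, hX 1 0, hX 2 0, hX 3 0, hX 2 1, hX 3 1, hX 3 2,
    cctT, Matrix.cons_val_zero, Matrix.cons_val_one, Matrix.cons_val, map_neg,
    AddMonoidHom.neg_apply, neg_neg, map_sub, map_add]
  abel

end sums

variable {S : Type*} [CommRing S] [Algebra ℝ S] (F : Frame 4 S)

/-- the connection of `ℝ ⊕ Λ⁺` -/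
def f0 (k : Fin 4) : Matrix (Fin 4) (Fin 4) S := cr4 (F.pp k)

lemma cr4_skew (p : Fin 3 → S) (i j : Fin 4) : cr4 p i j = - cr4 p j i := by
  fin_cases i <;> fin_cases j <;> simp [cr4]

lemma f0_skew : Frame.Skew (f0 F) := fun _ i j => cr4_skew _ i j

set_option maxHeartbeats 2000000 in
/-- The Clifford symbol is constant and parallel. -/
theorem par_cJ : Par F (f0 F) F.tan (cJ S) where
  const := by
    intro m i x y
    fin_cases i <;> fin_cases x <;> fin_cases y <;>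
      simp [cJ_zero, cJ_one, cJ_two, cJ_three]
  par := by
    intro m i
    fin_cases i <;>
      simp only [cJ_zero, cJ_one, cJ_two, cJ_three, Fin.zero_eta, Fin.mk_one, Fin.reduceFinMk,
        Fin.sum_univ_four] <;>
      ext x y <;> fin_cases x <;> fin_cases y <;>
      simp [Matrix.mul_apply, Fin.sum_univ_four, Frame.tan, f0, cr4, Frame.pp, Frame.w_self,
        Frame.w10, Frame.w20, Frame.w30, Frame.w21, Frame.w31, Frame.w32] <;> ring

set_option maxHeartbeats 2000000 in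
lemma curv_f0 (k l : Fin 4) : F.curv (f0 F) k l = cr4 (F.PP k l) := by
  ext i j
  fin_cases i <;> fin_cases j <;>
    simp [Frame.curv, f0, cr4, Frame.pp, Frame.PP, Frame.Rm, Fin.sum_univ_four,
      Fin.sum_univ_three, Frame.w_self, Frame.w10, Frame.w20, Frame.w21, Frame.w31, Frame.w32,
      map_add, map_sub, map_neg] <;> ring

section
variable {κ : Type*} [Fintype κ] [DecidableEq κ] (a : Fin 4 → Matrix κ κ S)

/-- twisting term of `Q₀` -/
lemma twist0 : (- Frame.half (S := S)) • ∑ i, ∑ j, ((cJ S i)ᵀ * cJ S j) ⊗ₖ F.curv a i j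
    = ∑ b, K S b ⊗ₖ cp F a b := by
  have h := sum_ctc (S := S) (A := Matrix κ κ S) (B := Matrix (Fin 4 × κ) (Fin 4 × κ) S)
    (AddMonoidHom.mk' (fun M => AddMonoidHom.mk' (fun N => M ⊗ₖ N)
      (fun x y => Matrix.kronecker_add _ _ _)) (fun x y => by
        ext1 N; exact Matrix.add_kronecker _ _ _)) (F.curv a) (curv_anti' F a) (curv_self' F a)
  simp only [AddMonoidHom.mk'_apply] at h
  rw [h, Fin.sum_univ_three]
  simp only [cp, Matrix.cons_val_zero, Matrix.cons_val_one, Matrix.cons_val]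
  rw [← Int.cast_smul_eq_zsmul S, smul_smul, Int.cast_neg, Int.cast_ofNat, neg_mul_neg, half_two,
    one_smul]

/-- twisting term of `Q₁` -/
lemma twist1 : (- Frame.half (S := S)) • ∑ i, ∑ j, (cJ S i * (cJ S j)ᵀ) ⊗ₖ F.curv a i j
    = - ∑ b, K S b ⊗ₖ cm F a b := by
  have h := sum_cct (S := S) (A := Matrix κ κ S) (B := Matrix (Fin 4 × κ) (Fin 4 × κ) S)
    (AddMonoidHom.mk' (fun M => AddMonoidHom.mk' (fun N => M ⊗ₖ N)
      (fun x y => Matrix.kronecker_add _ _ _)) (fun x y => by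
        ext1 N; exact Matrix.add_kronecker _ _ _)) (F.curv a) (curv_anti' F a) (curv_self' F a)
  simp only [AddMonoidHom.mk'_apply] at h
  rw [h, Fin.sum_univ_three]
  simp only [cm, Matrix.cons_val_zero, Matrix.cons_val_one, Matrix.cons_val]
  rw [← Nat.cast_smul_eq_nsmul S, smul_smul, neg_mul, Nat.cast_ofNat, half_two, neg_one_smul]

end

/-- `Q₀` of the untwisted operator -/
lemma Q0_eq : Q F (f0 F) (cJ S) = ∑ b, K S b * cp F (f0 F) b := by
  rw [Q]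
  have h := sum_ctc (S := S) (A := Matrix (Fin 4) (Fin 4) S) (B := Matrix (Fin 4) (Fin 4) S)
    AddMonoidHom.mul (F.curv (f0 F)) (curv_anti' F _) (curv_self' F _)
  simp only [AddMonoidHom.mul_apply] at h
  rw [h, Fin.sum_univ_three]
  simp only [cp, Matrix.cons_val_zero, Matrix.cons_val_one, Matrix.cons_val]
  rw [← Int.cast_smul_eq_zsmul S, smul_smul, Int.cast_neg, Int.cast_ofNat, neg_mul_neg, half_two,
    one_smul]

/-- `Q₁` of the untwisted operator -/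
lemma Q1_eq : Q F F.tan (fun i => (cJ S i)ᵀ) = - ∑ b, K S b * cm F F.tan b := by
  rw [Q]
  simp only [Matrix.transpose_transpose]
  have h := sum_cct (S := S) (A := Matrix (Fin 4) (Fin 4) S) (B := Matrix (Fin 4) (Fin 4) S)
    AddMonoidHom.mul (F.curv F.tan) (curv_anti' F _) (curv_self' F _)
  simp only [AddMonoidHom.mul_apply] at h
  rw [h, Fin.sum_univ_three]
  simp only [cm, Matrix.cons_val_zero, Matrix.cons_val_one, Matrix.cons_val]
  rw [← Nat.cast_smul_eq_nsmul S, smul_smul, neg_mul, Nat.cast_ofNat, half_two, neg_one_smul]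

lemma two_AA (c d : Fin 3) : -2 * F.AA c d =
    ![F.PP 0 1 c + F.PP 2 3 c, F.PP 0 2 c - F.PP 1 3 c, F.PP 0 3 c + F.PP 1 2 c] d := by
  have h := Frame.two_half (S := S)
  rw [Frame.AA, ← mul_assoc, neg_mul_neg, h, one_mul]

lemma cp_sdc (b : Fin 3) : cp F F.sdc b = cr (fun c => -2 * F.AA c b) := by
  fin_cases b <;> ext i j <;> fin_cases i <;> fin_cases j <;>
    simp only [cp, F.curv_sdc, two_AA] <;> simp [cr] <;> ring

lemma cp_f0 (b : Fin 3) : cp F (f0 F) b = cr4 (fun c => -2 * F.AA c b) := by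
  fin_cases b <;> ext i j <;> fin_cases i <;> fin_cases j <;>
    simp only [cp, curv_f0, two_AA] <;> simp [cr4] <;> ring

/-- `Q₀ = 0 ⊕ 2 (tr A - A)` -/
theorem Q0_val : Q F (f0 F) (cJ S) =
    !![0, 0, 0, 0;
      0, 2 * (F.AA 1 1 + F.AA 2 2), -2 * F.AA 0 1, -2 * F.AA 0 2;
      0, -2 * F.AA 0 1, 2 * (F.AA 0 0 + F.AA 2 2), -2 * F.AA 1 2;
      0, -2 * F.AA 0 2, -2 * F.AA 1 2, 2 * (F.AA 0 0 + F.AA 1 1)] := by
  rw [Q0_eq]
  simp only [cp_f0, Fin.sum_univ_three]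
  have h10 := F.AA_symm 1 0
  have h20 := F.AA_symm 2 0
  have h21 := F.AA_symm 2 1
  ext i j
  fin_cases i <;> fin_cases j <;>
    simp [K, cr4, Matrix.mul_apply, Fin.sum_univ_four, h10, h20, h21] <;> ring

/-- `Q₁ = Ric` -/
theorem Q1_val : Q F F.tan (fun i => (cJ S i)ᵀ) = RicM F := by
  rw [Q1_eq]
  simp only [cm, Fin.sum_univ_three]
  have e : ∀ k l i j, F.curv F.tan k l j i = F.Rm k l i j := fun k l i j => F.curv_tan k l i j
  have hb : ∀ m, (F.Rm 1 2 3 m + F.Rm 2 3 1 m + F.Rm 3 1 2 m = 0) ∧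
      (F.Rm 0 2 3 m + F.Rm 2 3 0 m + F.Rm 3 0 2 m = 0) ∧
      (F.Rm 0 1 3 m + F.Rm 1 3 0 m + F.Rm 3 0 1 m = 0) ∧
      (F.Rm 0 1 2 m + F.Rm 1 2 0 m + F.Rm 2 0 1 m = 0) := fun m =>
    ⟨F.bianchi1 1 2 3 m, F.bianchi1 0 2 3 m, F.bianchi1 0 1 3 m, F.bianchi1 0 1 2 m⟩
  ext i j
  have hj := hb j
  simp only [Matrix.add_apply, Matrix.sub_apply, Matrix.neg_apply, Matrix.mul_apply,
    Fin.sum_univ_four, Matrix.cons_val_zero, Matrix.cons_val_one, Matrix.cons_val, e, RicM,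
    Frame.Ric]
  fin_cases i <;> fin_cases j <;>
    simp [K, Frame.Rm_self12,
      Frame.Rm_self34, Frame.R10, Frame.R20, Frame.R30, Frame.R21, Frame.R31, Frame.R32,
      Frame.L10, Frame.L20, Frame.L30, Frame.L21, Frame.L31, Frame.L32] at hj ⊢ <;>
    obtain ⟨h0, h1, h2, h3⟩ := hj
  · linear_combination -h0
  · linear_combination -h0
  · linear_combination -h0
  · linear_combination -h0
  · linear_combination h1
  · linear_combination h1
  · linear_combination h1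
  · linear_combination h1
  · linear_combination -h2
  · linear_combination -h2
  · linear_combination -h2
  · linear_combination -h2
  · linear_combination h3
  · linear_combination h3
  · linear_combination h3
  · linear_combination h3

end Crest.Agent.R249.C2p_198
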