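import Crest.Agent.R249.Kil1_805

/-!
Row 249, part C3 (helper805): twistor sections of `Λ⁺` when the `Λ⁺` block is a constant multiple
of the identity (C3.4 of BP-C3): the associated vector field is Killing.
-/

set_option autoImplicit false
set_option linter.unusedSimpArgs false
set_option linter.unusedSectionVars false

namespace Crest.Agent.R249.Kil4_805

open Finset Matrix Crest.Agent.R249.Fr129 Crest.Agent.R249.Fr129.Frame Crest.Agent.R249.Kil1_805

/-- `jV V a = J_a V`, the three self-dual complex structures applied to a vector. -/
def jV {S : Type*} [CommRing S] (V : Fin 4 → S) (a : Fin 3) (l : Fin 4) : S :=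
  (![![-V 1, V 0, -V 3, V 2], ![-V 2, V 3, V 0, -V 1], ![-V 3, -V 2, V 1, V 0]] : Fin 3 → Fin 4 → S) a l

variable {S : Type*} [CommRing S] [Algebra ℝ S] (F : Frame 4 S)

lemma jV_neg (V : Fin 4 → S) (a : Fin 3) (l : Fin 4) : jV (-V) a l = - jV V a l := by
  fin_cases a <;> fin_cases l <;> simp [jV]

/-- The complex structures are parallel. -/
lemma jV_par (V : Fin 4 → S) (k l : Fin 4) (b : Fin 3) :
    F.cov F.sdc k (fun b => jV V b l) b - ∑ m, F.w k l m * jV V b m
      = jV (BV F V k) b l := by
  fin_cases b <;> fin_cases l <;>
    simp [cov, jV, BV_eq, sdc, cr, pp, Fin.sum_univ_four, Fin.sum_univ_three, w_self, w10, w20, w30,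
      w21, w31, w32] <;> ring

/-- The twistor equation for a section `σ` of `Λ⁺`: `∇_k σ_b = -(J_b V)_k`. -/
def Twist (σ : Fin 3 → S) (V : Fin 4 → S) : Prop := ∀ k b, F.cov F.sdc k σ b = - jV V b k

lemma hess_twist {σ : Fin 3 → S} {V : Fin 4 → S} (h : Twist F σ V) (k l : Fin 4) (b : Fin 3) :
    F.hess F.sdc k l σ b = - jV (BV F V k) b l := by
  have h0 : F.cov F.sdc l σ = - (fun b => jV V b l) := by
    funext b; rw [h l b]; rfl
  rw [hess, h0, F.cov_neg, ← jV_par]
  simp only [h _ _, Pi.neg_apply, mul_neg, sum_neg_distrib]
  ring

lemma twist_eq {σ : Fin 3 → S} {V : Fin 4 → S} (h : Twist F σ V) (k l : Fin 4) (b : Fin 3) :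
    - jV (BV F V k) b l + jV (BV F V l) b k = (cr (F.PP k l) *ᵥ σ) b := by
  have := congrFun (F.hess_comm F.sdc k l σ) b
  rw [Pi.add_apply, hess_twist F h, hess_twist F h, F.curv_sdc] at this
  linear_combination this

/-- C3.4: if `A = κ I` then the vector field of a twistor section is Killing and `p = -κ σ`. -/
theorem twist_killing {lam : S} (hE : F.Einstein lam) {κ : S}
    (hA : ∀ c d, F.AA c d = if c = d then κ else 0) {σ : Fin 3 → S} {V : Fin 4 → S}
    (h : Twist F σ V) : Kill F V ∧ ∀ c, pV F V c = - κ * σ c := by
  have e := twist_eq F h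
  have E01 := e 0 1
  have E02 := e 0 2
  have E03 := e 0 3
  have E12 := e 1 2
  have E13 := e 1 3
  have E23 := e 2 3
  have E010 := E01 0
  have E011 := E01 1
  have E012 := E01 2
  have E020 := E02 0
  have E021 := E02 1
  have E022 := E02 2
  have E030 := E03 0
  have E031 := E03 1
  have E032 := E03 2
  have E120 := E12 0
  have E121 := E12 1
  have E122 := E12 2
  have E130 := E13 0
  have E131 := E13 1
  have E132 := E13 2
  have E230 := E23 0
  have E231 := E23 1
  have E232 := E23 2
  simp [jV, Matrix.mulVec, dotProduct, Fin.sum_univ_three, cr, F.P01 hE, F.P23 hE, F.P02 hE,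
    F.P13 hE, F.P03 hE, F.P12 hE, hA] at E010 E011 E012 E020 E021 E022 E030 E031 E032 E120 E121 E122 E130 E131 E132 E230 E231 E232
  constructor
  · intro k j
    fin_cases k <;> fin_cases j <;> simp only [Fin.zero_eta, Fin.mk_one, Fin.reduceFinMk]
    · linear_combination -E010 - E021 + E122
    · linear_combination E031 - E132
    · linear_combination E012 + E120
    · linear_combination E130 - E011
    · linear_combination E031 - E132
    · linear_combination -E010 - E122 + E021
    · linear_combination -E020 - E011
    · linear_combination -E030 - E012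
    · linear_combination E012 + E120
    · linear_combination -E020 - E011
    · linear_combination -E021 - E122 + E010
    · linear_combination -E031 - E022
    · linear_combination E130 - E011
    · linear_combination -E030 - E012
    · linear_combination -E031 - E022
    · linear_combination -2 * E032 + E010 + E021 - E122
  · intro c
    fin_cases c <;> simp [pV]
    · linear_combination -E022
    · linear_combination E012
    · linear_combination -E011

end Crest.Agent.R249.Kil4_805
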