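import Crest.Agent.R249.C2k_198
import Crest.Agent.R249.Kil4_805

/-!
SELF-DUAL VERSION, continued: Einstein metrics with `A = κ Id` (`W⁺ = 0`): zero order terms of the
operator `(ℝ ⊕ Λ⁺) ⊗ G → T ⊗ G` for `G = ℝ`, `G = Λ⁺`; Weitzenboeck formulas; the twistor embedding
and the twistor equation in the form of `Kil4_805.Twist`.
(row 249, part C2 of the blueprint, helper198)
-/

set_option autoImplicit false
set_option linter.unusedSectionVars false
set_option linter.unusedSimpArgs false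

namespace Crest.Agent.R249.C2p_198

open Finset
open scoped Matrix Kronecker
open Crest.Agent.R249.Fr129
open Crest.Agent.R249.C2_198 (Par Q K J K_map J_map cr4 cm cp curv_anti' curv_self' half_two RicM
  dir dirs tw D4 NN NN_eq GZ cast cast_GZ cr_lin cr4_lin tens_eq sum_kron NZ_comm NZ
  D_intCast cov_const weitz weitz' clif_tw tw_transpose Q_tw emb embd NN_emb NN_embd dir_tw
  smul_cancel embT embdT eig_m2 eig_0)

variable {S : Type*} [CommRing S] [Algebra ℝ S] (F : Frame 4 S)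

/-- `W⁺ = 0`: the block `A` is scalar -/
def AScal (κ : S) : Prop := ∀ i j, F.AA i j = if i = j then κ else 0

variable {F}

/-- `Q₀` for `A = κ Id` -/
theorem Q0_scal {κ : S} (hA : AScal F κ) : Q F (f0 F) (cJ S) = κ • D4 S := by
  rw [Q0_val, D4]
  ext i j
  fin_cases i <;> fin_cases j <;> simp [hA _ _] <;> ring

/-- `Q₁` for Einstein metrics -/
theorem Q1_ein {lam : S} (hE : F.Einstein lam) :
    Q F F.tan (fun i => (cJ S i)ᵀ) = lam • (1 : Matrix (Fin 4) (Fin 4) S) := by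
  rw [Q1_val]
  ext i j
  rw [RicM, hE]
  simp [Matrix.one_apply]

/-- Einstein: the anti-self-dual part of the curvature of `Λ⁺` vanishes. -/
lemma cm_sdc {lam : S} (hE : F.Einstein lam) (b : Fin 3) : cm F F.sdc b = 0 := by
  have e1 : F.PP 0 1 = F.PP 2 3 := by
    funext c; rw [F.P01 hE, F.P23 hE]
  have e2 : F.PP 0 2 = - F.PP 1 3 := by
    funext c; rw [Pi.neg_apply, F.P02 hE, F.P13 hE]
  have e3 : F.PP 0 3 = F.PP 1 2 := by
    funext c; rw [F.P03 hE, F.P12 hE]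
  have hn : ∀ p : Fin 3 → S, cr (-p) + cr p = 0 := by
    intro p
    ext i j
    fin_cases i <;> fin_cases j <;> simp [cr]
  fin_cases b
  · show F.curv F.sdc 0 1 - F.curv F.sdc 2 3 = 0
    rw [F.curv_sdc, F.curv_sdc, e1, sub_self]
  · show F.curv F.sdc 0 2 + F.curv F.sdc 1 3 = 0
    rw [F.curv_sdc, F.curv_sdc, e2, hn]
  · show F.curv F.sdc 0 3 - F.curv F.sdc 1 2 = 0
    rw [F.curv_sdc, F.curv_sdc, e3, sub_self]

/-- `A = κ Id`: the self-dual part of the curvature of `Λ⁺`. -/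
lemma cp_sdc_scal {κ : S} (hA : AScal F κ) (b : Fin 3) :
    cp F F.sdc b = (-(2 * κ)) • cr (![![1, 0, 0], ![0, 1, 0], ![0, 0, 1]] b) := by
  have e : (fun c => -2 * F.AA c b)
      = (-(2 * κ)) • (![![1, 0, 0], ![0, 1, 0], ![0, 0, 1]] b : Fin 3 → S) := by
    funext c
    rw [hA]
    fin_cases b <;> fin_cases c <;> simp
  rw [cp_sdc, e]
  ext i j
  rw [Matrix.smul_apply]
  fin_cases i <;> fin_cases j <;> simp [cr]

/-- **`G = Λ⁺`:** `Q₀ = κ N`. -/
theorem Q0_twist {κ : S} (hA : AScal F κ) :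
    Q F (Frame.tens (f0 F) F.sdc) (tw (cJ S)) = κ • NN S := by
  rw [Q_tw, twist0, Q0_scal hA, NN_eq, Fin.sum_univ_three, cp_sdc_scal hA, cp_sdc_scal hA,
    cp_sdc_scal hA]
  simp only [Matrix.cons_val_zero, Matrix.cons_val_one, Matrix.cons_val,
    Matrix.kronecker_smul, Matrix.smul_kronecker]
  module

/-- **`G = Λ⁺`:** `Q₁ = lam Id`. -/
theorem Q1_twist {lam : S} (hE : F.Einstein lam) :
    Q F (Frame.tens F.tan F.sdc) (fun i => (tw (ι := Fin 3) (cJ S) i)ᵀ)
      = lam • (1 : Matrix (Fin 4 × Fin 3) (Fin 4 × Fin 3) S) := by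
  rw [tw_transpose, Q_tw, Q1_ein hE]
  simp only [Matrix.transpose_transpose]
  rw [twist1]
  simp only [cm_sdc hE, Matrix.kronecker_zero, sum_const_zero, neg_zero, add_zero]
  rw [Matrix.smul_kronecker, Matrix.one_kronecker_one]

lemma tens_f0_sdc (k : Fin 4) :
    Frame.tens (f0 F) F.sdc k = ∑ m, F.pp k m • cast S (GZ m) := by
  rw [tens_eq, f0, Frame.sdc, cr4_lin (F.pp k), cr_lin (F.pp k)]
  simp only [cast_GZ, smul_add, sum_add_distrib, sum_kron, Matrix.smul_kronecker]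
  congr 1
  simp only [Fin.sum_univ_three, Matrix.kronecker_add, Matrix.kronecker_smul]

/-- `N` commutes with the connection. -/
lemma NN_comm (k : Fin 4) :
    Frame.tens (f0 F) F.sdc k * NN S = NN S * Frame.tens (f0 F) F.sdc k := by
  rw [tens_f0_sdc, Matrix.sum_mul, Matrix.mul_sum]
  refine sum_congr rfl fun m _ => ?_
  rw [Matrix.smul_mul, Matrix.mul_smul]
  congr 1
  rw [NN, ← map_mul, ← map_mul, NZ_comm]

/-- `N` is parallel. -/
lemma cov_NN (k : Fin 4) (u : Fin 4 × Fin 3 → S) :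
    F.cov (Frame.tens (f0 F) F.sdc) k (NN S *ᵥ u)
      = NN S *ᵥ F.cov (Frame.tens (f0 F) F.sdc) k u :=
  cov_const F k (fun x y => by
    have : NN S x y = ((NZ x y : ℤ) : S) := rfl
    rw [this, D_intCast]) (NN_comm k) u

/-- `D4` is parallel. -/
lemma D4_comm (k : Fin 4) : f0 F k * D4 S = D4 S * f0 F k := by
  ext i j
  fin_cases i <;> fin_cases j <;>
    simp [D4, f0, cr4, Matrix.mul_apply, Fin.sum_univ_four] <;> ring

/-! Weitzenboeck formulas. -/

/-- `G = ℝ`: `D* D = ∇*∇ + κ diag (0,4,4,4)`. -/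
theorem weitz0_R {κ : S} (hA : AScal F κ) (u : Fin 4 → S) :
    dirs F F.tan (cJ S) (dir F (f0 F) (cJ S) u) = - F.lap (f0 F) u + κ • (D4 S *ᵥ u) := by
  rw [weitz (par_cJ F) (clif0 S) u, Q0_scal hA, Matrix.smul_mulVec]

/-- `G = ℝ`: `D D* = ∇*∇ + lam`. -/
theorem weitz1_R {lam : S} (hE : F.Einstein lam) (Y : Fin 4 → S) :
    dir F (f0 F) (cJ S) (dirs F F.tan (cJ S) Y) = - F.lap F.tan Y + lam • Y := by
  rw [weitz' (f0_skew F) (Crest.Agent.R249.C2_198.tan_skew F) (par_cJ F) (clif1 S) Y, Q1_ein hE,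
    Matrix.smul_mulVec, Matrix.one_mulVec]

lemma par_tw : Par F (Frame.tens (f0 F) F.sdc) (Frame.tens F.tan F.sdc) (tw (cJ S)) :=
  (par_cJ F).tw F.sdc

lemma clif1_tw {ι : Type*} [Fintype ι] [DecidableEq ι] (i j : Fin 4) :
    tw (ι := ι) (cJ S) i * (tw (ι := ι) (cJ S) j)ᵀ + tw (ι := ι) (cJ S) j * (tw (ι := ι) (cJ S) i)ᵀ
      = if i = j then 2 else 0 := by
  have h := clif_tw (ι := ι) (c := fun i => (cJ S i)ᵀ) (by simpa using clif1 S) i j
  rw [← tw_transpose] at h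
  simpa using h

/-- `G = Λ⁺`: `D* D = ∇*∇ + κ N`. -/
theorem weitz0_L {κ : S} (hA : AScal F κ) (u : Fin 4 × Fin 3 → S) :
    dirs F (Frame.tens F.tan F.sdc) (tw (cJ S)) (dir F (Frame.tens (f0 F) F.sdc) (tw (cJ S)) u)
      = - F.lap (Frame.tens (f0 F) F.sdc) u + κ • (NN S *ᵥ u) := by
  rw [weitz par_tw (clif_tw (clif0 S)) u, Q0_twist hA, Matrix.smul_mulVec]

/-- `G = Λ⁺`: `D D* = ∇*∇ + lam`. -/
theorem weitz1_L {lam : S} (hE : F.Einstein lam) (Y : Fin 4 × Fin 3 → S) :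
    dir F (Frame.tens (f0 F) F.sdc) (tw (cJ S)) (dirs F (Frame.tens F.tan F.sdc) (tw (cJ S)) Y)
      = - F.lap (Frame.tens F.tan F.sdc) Y + lam • Y := by
  rw [weitz' (Frame.tens_skew (f0_skew F) F.sdc_skew)
    (Frame.tens_skew (Crest.Agent.R249.C2_198.tan_skew F) F.sdc_skew)
    par_tw clif1_tw Y, Q1_twist hE, Matrix.smul_mulVec, Matrix.one_mulVec]

/-! The twistor embedding. -/

/-- the twistor embedding is parallel -/
lemma cov_emb (k : Fin 4) (σ : Fin 3 → S) :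
    F.cov (Frame.tens (f0 F) F.sdc) k (emb σ) = emb (F.cov F.sdc k σ) := by
  funext ⟨a, b⟩
  rw [F.cov_tens]
  have h2 : F.D k (2 : S) = 0 := by
    have := D_intCast F k 2
    simpa using this
  fin_cases a <;> fin_cases b <;>
    simp [emb, Frame.cov, f0, cr4, Frame.sdc, cr, Fin.sum_univ_four, Fin.sum_univ_three, F.D_mul,
      h2, map_neg] <;> ring

lemma cov_embd (k : Fin 4) (t : S) :
    F.cov (Frame.tens (f0 F) F.sdc) k (embd t) = embd (F.D k t) := by
  funext ⟨a, b⟩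
  rw [F.cov_tens]
  fin_cases a <;> fin_cases b <;>
    simp [embd, f0, cr4, Frame.sdc, cr, Fin.sum_univ_four, Fin.sum_univ_three]

/-- three times the vector field of a twistor section: `V3_j = ∑ (J_a)_ji ∇_i σ_a` -/
def V3 (F : Frame 4 S) (σ : Fin 3 → S) (j : Fin 4) : S :=
  ∑ a, ∑ i, J S a j i * F.cov F.sdc i σ a

/-- `D (emb σ) = 3 ∇σ + J V3`. -/
theorem dir_emb (σ : Fin 3 → S) (k : Fin 4) (b : Fin 3) :
    dir F (Frame.tens (f0 F) F.sdc) (tw (cJ S)) (emb σ) (k, b)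
      = 3 * F.cov F.sdc k σ b + ∑ l, J S b k l * V3 F σ l := by
  rw [dir_tw]
  simp only [cov_emb, V3]
  generalize hX : (fun i => F.cov F.sdc i σ) = X
  have hX' : ∀ i, F.cov F.sdc i σ = X i := fun i => congrFun hX i
  simp only [hX', Fin.sum_univ_four, Fin.sum_univ_three, cJ_zero, cJ_one, cJ_two, cJ_three]
  fin_cases k <;> fin_cases b <;>
    simp [emb, J] <;> ring

lemma jV_eq (V : Fin 4 → S) (a : Fin 3) (k : Fin 4) :
    Crest.Agent.R249.Kil4_805.jV V a k = ∑ l, J S a k l * V l := by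
  fin_cases a <;> fin_cases k <;>
    simp [Crest.Agent.R249.Kil4_805.jV, J, Fin.sum_univ_four]

/-- **Twistor equation**, in the form of `Kil4_805`. -/
theorem twistor {σ : Fin 3 → S}
    (h : dir F (Frame.tens (f0 F) F.sdc) (tw (cJ S)) (emb σ) = 0) :
    Crest.Agent.R249.Kil4_805.Twist F σ (fun j => Frame.third * V3 F σ j) := by
  intro k b
  have h1 := dir_emb (F := F) σ k b
  rw [h, Pi.zero_apply] at h1
  have h3 : (3 : S) * Frame.third = 1 := Frame.three_third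
  rw [jV_eq]
  have e : ∑ l, J S b k l * (Frame.third * V3 F σ l)
      = Frame.third * ∑ l, J S b k l * V3 F σ l := by
    rw [mul_sum]; exact sum_congr rfl fun l _ => by ring
  rw [e]
  linear_combination -Frame.third * h1 - F.cov F.sdc k σ b * h3

/-- A parallel vector/section is killed by the operator. -/
lemma dir_of_parallel {n : ℕ} {F : Frame n S} {κ0 κ1 : Type*} [Fintype κ0] [DecidableEq κ0]
    [Fintype κ1] [DecidableEq κ1] {a : Fin n → Matrix κ0 κ0 S} {c : Fin n → Matrix κ1 κ0 S}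
    {u : κ0 → S} (h : ∀ i, F.cov a i u = 0) : dir F a c u = 0 := by
  simp [dir, h]

end Crest.Agent.R249.C2p_198
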