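import Crest.Agent.R249.C2l_198

/-!
SELF-DUAL VERSION, continued: traces of the square of the curvature for `Λ⁺`, `ℝ ⊕ Λ⁺` and the
tensor products; the numbers needed in the index formula.
(row 249, part C2 of the blueprint, helper198)
-/

set_option autoImplicit false
set_option linter.unusedSectionVars false
set_option linter.unusedSimpArgs false

namespace Crest.Agent.R249.C2p_198

open Finset
open scoped Matrix Kronecker
open Crest.Agent.R249.Fr129
open Crest.Agent.R249.C2_198 (Par Q cr4 dir dirs tw D4 NN tO tO_tens tO_tan cr_sq_trace cr4_sq_trace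
  AA2 CC2 CC2_flip sum_PP2 D4_trace D4_sq_trace NN_trace NN_sq_trace)

variable {S : Type*} [CommRing S] [Algebra ℝ S] (F : Frame 4 S)

/-- `Λ⁺`: `∑ tr Ω² = -8 |A|²` -/
theorem tO_sdc {lam : S} (hE : F.Einstein lam) : tO F F.sdc = -8 * AA2 F := by
  have h := sum_PP2 F hE
  simp only [tO, F.curv_sdc, cr_sq_trace, AA2, ← mul_sum]
  have e : ∑ i, ∑ j, ∑ c, F.PP i j c ^ 2 = ∑ c, ∑ i, ∑ j, F.PP i j c ^ 2 := by
    rw [Finset.sum_congr rfl fun i _ => Finset.sum_comm, Finset.sum_comm]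
  rw [e]
  simp only [h, ← mul_sum]
  ring

/-- `ℝ ⊕ Λ⁺`: `∑ tr Ω² = -8 |A|²` -/
theorem tO_f0 {lam : S} (hE : F.Einstein lam) : tO F (f0 F) = -8 * AA2 F := by
  have h := sum_PP2 F hE
  simp only [tO, curv_f0, cr4_sq_trace, AA2, ← mul_sum]
  have e : ∑ i, ∑ j, ∑ c, F.PP i j c ^ 2 = ∑ c, ∑ i, ∑ j, F.PP i j c ^ 2 := by
    rw [Finset.sum_congr rfl fun i _ => Finset.sum_comm, Finset.sum_comm]
  rw [e]
  simp only [h, ← mul_sum]
  ring

/-- the number for `G = ℝ` -/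
theorem strO_R {lam : S} (hE : F.Einstein lam) :
    tO F (f0 F) - tO F F.tan = 4 * (CC2 F - AA2 F) := by
  rw [tO_f0 F hE, tO_tan F hE]; ring

/-- the number for `G = Λ⁺` -/
theorem strO_L {lam : S} (hE : F.Einstein lam) :
    tO F (Frame.tens (f0 F) F.sdc) - tO F (Frame.tens F.tan F.sdc)
      = 12 * (CC2 F - AA2 F) := by
  rw [tO_tens F (f0_skew F), tO_tens F (Crest.Agent.R249.C2_198.tan_skew F), tO_f0 F hE,
    tO_tan F hE, tO_sdc F hE]
  simp only [Fintype.card_fin]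
  push_cast
  ring

variable {F}

/-- `W⁺ = 0`: `|A|² = 3 κ²` -/
lemma AA2_scal {κ : S} (hA : AScal F κ) : AA2 F = 3 * κ ^ 2 := by
  simp only [AA2, Fin.sum_univ_three, hA _ _]
  simp
  ring

/-- `G = ℝ`: `tr Q₀ = tr Q₁`, `tr Q₀² - tr Q₁² = 12 κ²` (`lam = 3 κ`). -/
theorem strQ_R {κ : S} (hE : F.Einstein (3 * κ)) (hA : AScal F κ) :
    (Q F (f0 F) (cJ S)).trace = (Q F F.tan (fun i => (cJ S i)ᵀ)).trace ∧
    (Q F (f0 F) (cJ S) * Q F (f0 F) (cJ S)).trace
      - (Q F F.tan (fun i => (cJ S i)ᵀ) * Q F F.tan (fun i => (cJ S i)ᵀ)).trace = 12 * κ ^ 2 := by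
  rw [Q0_scal hA, Q1_ein hE]
  simp only [Matrix.trace_smul, Matrix.smul_mul, Matrix.mul_smul, D4_trace, D4_sq_trace,
    Matrix.mul_one, Matrix.trace_one, Fintype.card_fin, smul_eq_mul]
  constructor <;> push_cast <;> ring

/-- `G = Λ⁺`: `tr Q₀ = tr Q₁`, `tr Q₀² - tr Q₁² = 132 κ²` (`lam = 3 κ`). -/
theorem strQ_L {κ : S} (hE : F.Einstein (3 * κ)) (hA : AScal F κ) :
    (Q F (Frame.tens (f0 F) F.sdc) (tw (cJ S))).trace
      = (Q F (Frame.tens F.tan F.sdc) (fun i => (tw (ι := Fin 3) (cJ S) i)ᵀ)).trace ∧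
    (Q F (Frame.tens (f0 F) F.sdc) (tw (cJ S))
        * Q F (Frame.tens (f0 F) F.sdc) (tw (cJ S))).trace
      - (Q F (Frame.tens F.tan F.sdc) (fun i => (tw (ι := Fin 3) (cJ S) i)ᵀ)
        * Q F (Frame.tens F.tan F.sdc) (fun i => (tw (ι := Fin 3) (cJ S) i)ᵀ)).trace
      = 132 * κ ^ 2 := by
  rw [Q0_twist hA, Q1_twist hE]
  simp only [Matrix.trace_smul, Matrix.smul_mul, Matrix.mul_smul, NN_trace, NN_sq_trace,
    Matrix.mul_one, Matrix.trace_one, Fintype.card_prod, Fintype.card_fin, smul_eq_mul]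
  constructor <;> push_cast <;> ring

/-- `W⁺ = 0` in the form of `FrG_129`. -/
lemma ascal_of_WW {lam : S} (h : ∀ c d, F.WW lam c d = 0) : AScal F (Frame.third * lam) := by
  intro c d
  have := h c d
  rw [Frame.WW, sub_eq_zero] at this
  exact this

lemma CC2_flip' : CC2 F = AA2 F.flip := CC2_flip F

end Crest.Agent.R249.C2p_198
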