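import Mathlib

/-!
R249, part A2 (helper806), file 1: an abstract smooth calculus `Calc X μ` on a compact space
(dimension 4, `Ric ≥ 1`): smooth functions, gradient `D`, Hessian `Hs`, Laplacian `L`, `G = ⟨D, D⟩`,
integration by parts, Bochner inequality, resolvents, maximum principle.
Instance: `M` closed with `Ric ≥ lam`, `D = Gr / √lam`, `Hs = Hess / lam`.
-/

set_option autoImplicit false
set_option linter.unusedVariables false
set_option linter.unusedSectionVars false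

open MeasureTheory Set Filter Topology Matrix
open scoped ContDiff

noncomputable section

namespace Crest.Agent.R249.Calc_806

/-- the data of a calculus -/
structure Calc0 (X : Type*) where
  /-- the smooth functions -/
  Sm : (X → ℝ) → Prop
  /-- the gradient in an orthonormal frame -/
  D : (X → ℝ) → X → Fin 4 → ℝ
  /-- the Hessian in an orthonormal frame -/
  Hs : (X → ℝ) → X → Matrix (Fin 4) (Fin 4) ℝ

namespace Calc0

variable {X : Type*} (C : Calc0 X)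

/-- the Laplacian -/
def L (f : X → ℝ) (x : X) : ℝ := (C.Hs f x).trace

/-- `⟨df, dg⟩` -/
def G (f g : X → ℝ) (x : X) : ℝ := C.D f x ⬝ᵥ C.D g x

/-- the squared norm of the Hessian -/
def Q (f : X → ℝ) (x : X) : ℝ := ∑ i, ∑ j, C.Hs f x i j ^ 2

end Calc0

/-- an abstract smooth calculus, dimension 4, `Ric ≥ 1` -/
structure Calc (X : Type*) [TopologicalSpace X] [MeasurableSpace X] (μ : Measure X)
    extends Calc0 X where
  sm_cont : ∀ {f : X → ℝ}, Sm f → Continuous f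
  sm_comp : ∀ {k : ℕ} {F : (Fin k → ℝ) → ℝ} {U : Set (Fin k → ℝ)}, IsOpen U → ContDiffOn ℝ ∞ F U →
    ∀ {f : Fin k → X → ℝ}, (∀ i, Sm (f i)) → (∀ x, (fun i => f i x) ∈ U) →
    Sm (fun x => F (fun i => f i x))
  D_comp : ∀ {k : ℕ} {F : (Fin k → ℝ) → ℝ} {U : Set (Fin k → ℝ)}, IsOpen U → ContDiffOn ℝ ∞ F U →
    ∀ {f : Fin k → X → ℝ}, (∀ i, Sm (f i)) → (∀ x, (fun i => f i x) ∈ U) →
    ∀ x, D (fun x => F (fun i => f i x)) x =
      ∑ i, (fderiv ℝ F (fun j => f j x) (Pi.single i 1)) • D (f i) x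
  sm_G : ∀ {f g : X → ℝ}, Sm f → Sm g → Sm (toCalc0.G f g)
  sm_L : ∀ {f : X → ℝ}, Sm f → Sm (toCalc0.L f)
  hs_symm : ∀ {f : X → ℝ}, Sm f → ∀ x i j, Hs f x i j = Hs f x j i
  D_G : ∀ {f g : X → ℝ}, Sm f → Sm g → ∀ x,
    D (toCalc0.G f g) x = (Hs f x) *ᵥ (D g x) + (Hs g x) *ᵥ (D f x)
  L_const : ∀ (c : ℝ) (x : X), toCalc0.L (fun _ => c) x = 0
  L_add : ∀ {f g : X → ℝ}, Sm f → Sm g → ∀ x,
    toCalc0.L (fun y => f y + g y) x = toCalc0.L f x + toCalc0.L g x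
  L_mul : ∀ {f g : X → ℝ}, Sm f → Sm g → ∀ x,
    toCalc0.L (fun y => f y * g y) x =
      f x * toCalc0.L g x + g x * toCalc0.L f x + 2 * toCalc0.G f g x
  L_comp : ∀ {φ : ℝ → ℝ} {U : Set ℝ}, IsOpen U → ContDiffOn ℝ ∞ φ U →
    ∀ {f : X → ℝ}, Sm f → (∀ x, f x ∈ U) → ∀ x,
    toCalc0.L (fun y => φ (f y)) x =
      deriv φ (f x) * toCalc0.L f x + deriv (deriv φ) (f x) * toCalc0.G f f x
  int_parts : ∀ {u v : X → ℝ}, Sm u → Sm v →
    ∫ x, u x * toCalc0.L v x ∂μ = - ∫ x, toCalc0.G u v x ∂μ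
  bochner : ∀ {f : X → ℝ}, Sm f → ∀ x,
    toCalc0.Q f x + toCalc0.G f (toCalc0.L f) x + toCalc0.G f f x ≤
      (1 / 2) * toCalc0.L (toCalc0.G f f) x
  resolvent : ∀ {c : ℝ}, 0 < c → ∀ {g : X → ℝ}, Sm g → ∃ u, Sm u ∧ ∀ x, toCalc0.L u x - c * u x = g x
  max_pr : ∀ {c : ℝ}, 0 < c → ∀ {u : X → ℝ}, Sm u → (∀ x, 0 ≤ toCalc0.L u x - c * u x) →
    ∀ x, u x ≤ 0
  poisson : ∀ {g : X → ℝ}, Sm g → ∫ x, g x ∂μ = 0 → ∃ u, Sm u ∧ ∀ x, toCalc0.L u x = g x

namespace Calc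

variable {X : Type*} [TopologicalSpace X] [MeasurableSpace X] {μ : Measure X} (C : Calc X μ)

/-! ### smooth functions -/

variable {C} {f g h : X → ℝ}

lemma sm_const (c : ℝ) : C.Sm (fun _ => c) := by
  have := C.sm_comp (k := 0) (F := fun _ => c) (U := univ) isOpen_univ contDiffOn_const
    (f := fun i => i.elim0) (fun i => i.elim0) (fun _ => mem_univ _)
  exact this

/-- one variable -/
lemma sm_comp1 {φ : ℝ → ℝ} {U : Set ℝ} (hU : IsOpen U) (hφ : ContDiffOn ℝ ∞ φ U) (hf : C.Sm f)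
    (hx : ∀ x, f x ∈ U) : C.Sm (fun x => φ (f x)) := by
  have := C.sm_comp (k := 1) (F := fun v => φ (v 0)) (U := (fun v : Fin 1 → ℝ => v 0) ⁻¹' U)
    (hU.preimage (continuous_apply 0))
    (hφ.comp (contDiff_apply ℝ ℝ 0).contDiffOn fun v hv => hv)
    (f := fun _ => f) (fun _ => hf) (fun x => hx x)
  exact this

lemma D_comp1 {φ : ℝ → ℝ} {U : Set ℝ} (hU : IsOpen U) (hφ : ContDiffOn ℝ ∞ φ U) (hf : C.Sm f)
    (hx : ∀ x, f x ∈ U) (x : X) : C.D (fun x => φ (f x)) x = deriv φ (f x) • C.D f x := by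
  have h1 := C.D_comp (k := 1) (F := fun v => φ (v 0)) (U := (fun v : Fin 1 → ℝ => v 0) ⁻¹' U)
    (hU.preimage (continuous_apply 0))
    (hφ.comp (contDiff_apply ℝ ℝ 0).contDiffOn fun v hv => hv)
    (f := fun _ => f) (fun _ => hf) (fun x => hx x) x
  have hd : DifferentiableAt ℝ φ (f x) :=
    (hφ.contDiffAt (hU.mem_nhds (hx x))).differentiableAt (by simp)
  have h2 : HasFDerivAt (fun v : Fin 1 → ℝ => φ (v 0))
      (deriv φ (f x) • (ContinuousLinearMap.proj (R := ℝ) (φ := fun _ : Fin 1 => ℝ) 0))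
      (fun _ => f x) := by
    have h3 : HasDerivAt φ (deriv φ (f x)) ((fun v : Fin 1 → ℝ => v 0) (fun _ => f x)) :=
      hd.hasDerivAt
    exact h3.comp_hasFDerivAt (fun _ : Fin 1 => f x)
      (ContinuousLinearMap.proj (R := ℝ) (φ := fun _ : Fin 1 => ℝ) 0).hasFDerivAt
  rw [h1, h2.fderiv]
  simp

/-- two variables -/
lemma sm_comp2 {φ : ℝ × ℝ → ℝ} {U : Set (ℝ × ℝ)} (hU : IsOpen U) (hφ : ContDiffOn ℝ ∞ φ U)
    (hf : C.Sm f) (hg : C.Sm g) (hx : ∀ x, (f x, g x) ∈ U) : C.Sm (fun x => φ (f x, g x)) := by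
  have hc : ContDiff ℝ ∞ (fun v : Fin 2 → ℝ => (v 0, v 1)) :=
    (contDiff_apply ℝ ℝ 0).prodMk (contDiff_apply ℝ ℝ 1)
  have := C.sm_comp (k := 2) (F := fun v => φ (v 0, v 1))
    (U := (fun v : Fin 2 → ℝ => (v 0, v 1)) ⁻¹' U)
    (hU.preimage hc.continuous) (hφ.comp hc.contDiffOn fun v hv => hv)
    (f := ![f, g]) (fun i => by fin_cases i <;> assumption) (fun x => hx x)
  exact this

lemma D_comp2 {φ : ℝ × ℝ → ℝ} {U : Set (ℝ × ℝ)} (hU : IsOpen U) (hφ : ContDiffOn ℝ ∞ φ U)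
    (hf : C.Sm f) (hg : C.Sm g) (hx : ∀ x, (f x, g x) ∈ U) (x : X) :
    C.D (fun x => φ (f x, g x)) x =
      fderiv ℝ φ (f x, g x) (1, 0) • C.D f x + fderiv ℝ φ (f x, g x) (0, 1) • C.D g x := by
  have hc : ContDiff ℝ ∞ (fun v : Fin 2 → ℝ => (v 0, v 1)) :=
    (contDiff_apply ℝ ℝ 0).prodMk (contDiff_apply ℝ ℝ 1)
  have h1 := C.D_comp (k := 2) (F := fun v => φ (v 0, v 1))
    (U := (fun v : Fin 2 → ℝ => (v 0, v 1)) ⁻¹' U)
    (hU.preimage hc.continuous) (hφ.comp hc.contDiffOn fun v hv => hv)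
    (f := ![f, g]) (fun i => by fin_cases i <;> assumption) (fun x => hx x) x
  have hd : HasFDerivAt φ (fderiv ℝ φ (f x, g x)) (f x, g x) :=
    ((hφ.contDiffAt (hU.mem_nhds (hx x))).differentiableAt (by simp)).hasFDerivAt
  have h2 : HasFDerivAt (fun v : Fin 2 → ℝ => φ (v 0, v 1))
      ((fderiv ℝ φ (f x, g x)).comp
        ((ContinuousLinearMap.proj (R := ℝ) (φ := fun _ : Fin 2 => ℝ) 0).prod
          (ContinuousLinearMap.proj (R := ℝ) (φ := fun _ : Fin 2 => ℝ) 1)))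
      (fun j => (![f, g] : Fin 2 → X → ℝ) j x) := by
    refine HasFDerivAt.comp (g := φ) (f := fun v : Fin 2 → ℝ => (v 0, v 1))
      (fun j => (![f, g] : Fin 2 → X → ℝ) j x) hd ?_
    exact ((ContinuousLinearMap.proj (R := ℝ) (φ := fun _ : Fin 2 => ℝ) 0).prod
          (ContinuousLinearMap.proj (R := ℝ) (φ := fun _ : Fin 2 => ℝ) 1)).hasFDerivAt
  have h3 : C.D (fun x => φ (f x, g x)) x =
      C.D (fun x => (fun v : Fin 2 → ℝ => φ (v 0, v 1)) (fun i => (![f, g] : Fin 2 → X → ℝ) i x)) x :=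
    rfl
  rw [h3, h1, h2.fderiv, Fin.sum_univ_two]
  simp

lemma sm_add (hf : C.Sm f) (hg : C.Sm g) : C.Sm (fun x => f x + g x) :=
  sm_comp2 (φ := fun p => p.1 + p.2) isOpen_univ (contDiff_fst.add contDiff_snd).contDiffOn hf hg
    fun _ => mem_univ _

lemma sm_sub (hf : C.Sm f) (hg : C.Sm g) : C.Sm (fun x => f x - g x) :=
  sm_comp2 (φ := fun p => p.1 - p.2) isOpen_univ (contDiff_fst.sub contDiff_snd).contDiffOn hf hg
    fun _ => mem_univ _

lemma sm_mul (hf : C.Sm f) (hg : C.Sm g) : C.Sm (fun x => f x * g x) :=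
  sm_comp2 (φ := fun p => p.1 * p.2) isOpen_univ (contDiff_fst.mul contDiff_snd).contDiffOn hf hg
    fun _ => mem_univ _

lemma sm_neg (hf : C.Sm f) : C.Sm (fun x => - f x) :=
  sm_comp1 (φ := fun p => - p) isOpen_univ contDiff_neg.contDiffOn hf fun _ => mem_univ _

lemma sm_smul (c : ℝ) (hf : C.Sm f) : C.Sm (fun x => c * f x) := sm_mul (sm_const c) hf

lemma sm_pow (hf : C.Sm f) (n : ℕ) : C.Sm (fun x => f x ^ n) :=
  sm_comp1 (φ := fun p => p ^ n) isOpen_univ (contDiff_id.pow n).contDiffOn hf fun _ => mem_univ _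

lemma sm_inv (hf : C.Sm f) (h0 : ∀ x, f x ≠ 0) : C.Sm (fun x => (f x)⁻¹) :=
  sm_comp1 (φ := fun p => p⁻¹) (U := {0}ᶜ) isOpen_compl_singleton (contDiffOn_inv ℝ) hf h0

lemma sm_div (hf : C.Sm f) (hg : C.Sm g) (h0 : ∀ x, g x ≠ 0) : C.Sm (fun x => f x / g x) := by
  simp only [div_eq_mul_inv]
  exact sm_mul hf (sm_inv hg h0)

lemma sm_log (hf : C.Sm f) (h0 : ∀ x, 0 < f x) : C.Sm (fun x => Real.log (f x)) :=
  sm_comp1 (φ := Real.log) (U := {0}ᶜ) isOpen_compl_singleton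
    (Real.contDiffOn_log) hf fun x => (h0 x).ne'

lemma sm_sqrt (hf : C.Sm f) (h0 : ∀ x, 0 < f x) : C.Sm (fun x => Real.sqrt (f x)) :=
  sm_comp1 (φ := Real.sqrt) (U := {0}ᶜ) isOpen_compl_singleton
    (fun y hy => (Real.contDiffAt_sqrt hy).contDiffWithinAt) hf fun x => (h0 x).ne'

lemma sm_rpow (hf : C.Sm f) (h0 : ∀ x, 0 < f x) (p : ℝ) : C.Sm (fun x => f x ^ p) :=
  sm_comp1 (φ := fun y => y ^ p) (U := {0}ᶜ) isOpen_compl_singleton
    (fun y hy => (Real.contDiffAt_rpow_const_of_ne hy).contDiffWithinAt) hf fun x => (h0 x).ne'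

lemma sm_comp' {φ : ℝ → ℝ} (hφ : ContDiff ℝ ∞ φ) (hf : C.Sm f) : C.Sm (fun x => φ (f x)) :=
  sm_comp1 isOpen_univ hφ.contDiffOn hf fun _ => mem_univ _

/-! ### the gradient -/

lemma D_const (c : ℝ) (x : X) : C.D (fun _ => c) x = 0 := by
  have := C.D_comp (k := 0) (F := fun _ => c) (U := univ) isOpen_univ contDiffOn_const
    (f := fun i => i.elim0) (fun i => i.elim0) (fun _ => mem_univ _) x
  simpa using this

lemma D_add (hf : C.Sm f) (hg : C.Sm g) (x : X) :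
    C.D (fun y => f y + g y) x = C.D f x + C.D g x := by
  have h1 := D_comp2 (C := C) (φ := fun p => p.1 + p.2) isOpen_univ
    (contDiff_fst.add contDiff_snd).contDiffOn hf hg (fun _ => mem_univ _) x
  have h2 : HasFDerivAt (fun p : ℝ × ℝ => p.1 + p.2)
      (ContinuousLinearMap.fst ℝ ℝ ℝ + ContinuousLinearMap.snd ℝ ℝ ℝ) (f x, g x) :=
    hasFDerivAt_fst.add hasFDerivAt_snd
  rw [h1, h2.fderiv]
  simp

lemma D_sub (hf : C.Sm f) (hg : C.Sm g) (x : X) :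
    C.D (fun y => f y - g y) x = C.D f x - C.D g x := by
  have h1 := D_comp2 (C := C) (φ := fun p => p.1 - p.2) isOpen_univ
    (contDiff_fst.sub contDiff_snd).contDiffOn hf hg (fun _ => mem_univ _) x
  have h2 : HasFDerivAt (fun p : ℝ × ℝ => p.1 - p.2)
      (ContinuousLinearMap.fst ℝ ℝ ℝ - ContinuousLinearMap.snd ℝ ℝ ℝ) (f x, g x) :=
    hasFDerivAt_fst.sub hasFDerivAt_snd
  rw [h1, h2.fderiv]
  simp [sub_eq_add_neg]

lemma D_mul (hf : C.Sm f) (hg : C.Sm g) (x : X) :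
    C.D (fun y => f y * g y) x = g x • C.D f x + f x • C.D g x := by
  have h1 := D_comp2 (C := C) (φ := fun p => p.1 * p.2) isOpen_univ
    (contDiff_fst.mul contDiff_snd).contDiffOn hf hg (fun _ => mem_univ _) x
  have h2 : HasFDerivAt (fun p : ℝ × ℝ => p.1 * p.2)
      (f x • ContinuousLinearMap.snd ℝ ℝ ℝ + g x • ContinuousLinearMap.fst ℝ ℝ ℝ) (f x, g x) := by
    have h3 : HasFDerivAt (fun p : ℝ × ℝ => p.1) (ContinuousLinearMap.fst ℝ ℝ ℝ) (f x, g x) :=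
      hasFDerivAt_fst
    have h4 : HasFDerivAt (fun p : ℝ × ℝ => p.2) (ContinuousLinearMap.snd ℝ ℝ ℝ) (f x, g x) :=
      hasFDerivAt_snd
    exact h3.fun_mul h4
  rw [h1, h2.fderiv]
  simp

lemma D_neg (hf : C.Sm f) (x : X) : C.D (fun y => - f y) x = - C.D f x := by
  have h1 := D_comp1 (C := C) (φ := fun p => - p) isOpen_univ contDiff_neg.contDiffOn hf
    (fun _ => mem_univ _) x
  rw [h1]
  simp

lemma D_smul (c : ℝ) (hf : C.Sm f) (x : X) : C.D (fun y => c * f y) x = c • C.D f x := by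
  rw [D_mul (sm_const c) hf, D_const]
  simp

lemma D_pow (hf : C.Sm f) (n : ℕ) (x : X) :
    C.D (fun y => f y ^ n) x = (n * f x ^ (n - 1)) • C.D f x := by
  have h1 := D_comp1 (C := C) (φ := fun p => p ^ n) isOpen_univ (contDiff_id.pow n).contDiffOn hf
    (fun _ => mem_univ _) x
  rw [h1]
  simp

lemma D_inv (hf : C.Sm f) (h0 : ∀ x, f x ≠ 0) (x : X) :
    C.D (fun y => (f y)⁻¹) x = (- (f x ^ 2)⁻¹) • C.D f x := by
  have h1 := D_comp1 (C := C) (φ := fun p => p⁻¹) (U := {0}ᶜ) isOpen_compl_singleton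
    (contDiffOn_inv ℝ) hf h0 x
  rw [h1, deriv_inv]

lemma D_log (hf : C.Sm f) (h0 : ∀ x, 0 < f x) (x : X) :
    C.D (fun y => Real.log (f y)) x = (f x)⁻¹ • C.D f x := by
  have h1 := D_comp1 (C := C) (φ := Real.log) (U := {0}ᶜ) isOpen_compl_singleton
    (Real.contDiffOn_log) hf (fun x => (h0 x).ne') x
  rw [h1, Real.deriv_log]

lemma D_comp' {φ : ℝ → ℝ} (hφ : ContDiff ℝ ∞ φ) (hf : C.Sm f) (x : X) :
    C.D (fun x => φ (f x)) x = deriv φ (f x) • C.D f x :=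
  D_comp1 isOpen_univ hφ.contDiffOn hf (fun _ => mem_univ _) x

/-! ### `G` -/

lemma G_symm (f g : X → ℝ) (x : X) : C.G f g x = C.G g f x := dotProduct_comm _ _

lemma G_self_nonneg (f : X → ℝ) (x : X) : 0 ≤ C.G f f x := by
  rw [Calc0.G, dotProduct]
  exact Finset.sum_nonneg fun i _ => mul_self_nonneg _

lemma G_sq_le (f g : X → ℝ) (x : X) : C.G f g x ^ 2 ≤ C.G f f x * C.G g g x := by
  simp only [Calc0.G, dotProduct]
  have := Finset.sum_mul_sq_le_sq_mul_sq Finset.univ (C.D f x) (C.D g x)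
  simpa [sq] using this

lemma two_G_le (f g : X → ℝ) (x : X) {c : ℝ} (hc : 0 < c) :
    2 * |C.G f g x| ≤ c * C.G f f x + c⁻¹ * C.G g g x := by
  have h1 := G_sq_le (C := C) f g x
  have hf := G_self_nonneg (C := C) f x
  have hg := G_self_nonneg (C := C) g x
  have h2 : |C.G f g x| ≤ Real.sqrt (C.G f f x) * Real.sqrt (C.G g g x) := by
    rw [← Real.sqrt_mul hf]
    exact Real.abs_le_sqrt h1
  have h3 := Real.sq_sqrt hf
  have h4 := Real.sq_sqrt hg
  have h5 : 0 ≤ (Real.sqrt c * Real.sqrt (C.G f f x) -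
      (Real.sqrt c)⁻¹ * Real.sqrt (C.G g g x)) ^ 2 := sq_nonneg _
  have hs : Real.sqrt c ^ 2 = c := Real.sq_sqrt hc.le
  have hs0 : 0 < Real.sqrt c := Real.sqrt_pos.2 hc
  have h6 : (Real.sqrt c * Real.sqrt (C.G f f x) -
      (Real.sqrt c)⁻¹ * Real.sqrt (C.G g g x)) ^ 2 =
      c * C.G f f x + c⁻¹ * C.G g g x -
        2 * (Real.sqrt (C.G f f x) * Real.sqrt (C.G g g x)) := by
    rw [sub_sq, mul_pow, mul_pow, inv_pow, hs, h3, h4]
    field_simp
    ring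
  rw [h6] at h5
  linarith

lemma G_add_left (hf : C.Sm f) (hg : C.Sm g) (h : X → ℝ) (x : X) :
    C.G (fun y => f y + g y) h x = C.G f h x + C.G g h x := by
  simp only [Calc0.G, D_add hf hg, add_dotProduct]

lemma G_sub_left (hf : C.Sm f) (hg : C.Sm g) (h : X → ℝ) (x : X) :
    C.G (fun y => f y - g y) h x = C.G f h x - C.G g h x := by
  simp only [Calc0.G, D_sub hf hg, sub_dotProduct]

lemma G_mul_left (hf : C.Sm f) (hg : C.Sm g) (h : X → ℝ) (x : X) :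
    C.G (fun y => f y * g y) h x = g x * C.G f h x + f x * C.G g h x := by
  simp only [Calc0.G, D_mul hf hg, add_dotProduct, smul_dotProduct, smul_eq_mul]

lemma G_neg_left (hf : C.Sm f) (h : X → ℝ) (x : X) :
    C.G (fun y => - f y) h x = - C.G f h x := by
  simp only [Calc0.G, D_neg hf, neg_dotProduct]

lemma G_smul_left (c : ℝ) (hf : C.Sm f) (h : X → ℝ) (x : X) :
    C.G (fun y => c * f y) h x = c * C.G f h x := by
  simp only [Calc0.G, D_smul c hf, smul_dotProduct, smul_eq_mul]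

lemma G_const_left (c : ℝ) (h : X → ℝ) (x : X) : C.G (fun _ => c) h x = 0 := by
  simp only [Calc0.G, D_const, zero_dotProduct]

lemma G_comp1_left {φ : ℝ → ℝ} {U : Set ℝ} (hU : IsOpen U) (hφ : ContDiffOn ℝ ∞ φ U) (hf : C.Sm f)
    (hx : ∀ x, f x ∈ U) (h : X → ℝ) (x : X) :
    C.G (fun x => φ (f x)) h x = deriv φ (f x) * C.G f h x := by
  simp only [Calc0.G, D_comp1 hU hφ hf hx, smul_dotProduct, smul_eq_mul]

lemma G_comp'_left {φ : ℝ → ℝ} (hφ : ContDiff ℝ ∞ φ) (hf : C.Sm f) (h : X → ℝ) (x : X) :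
    C.G (fun x => φ (f x)) h x = deriv φ (f x) * C.G f h x := by
  simp only [Calc0.G, D_comp' hφ hf, smul_dotProduct, smul_eq_mul]

lemma G_add_right (hf : C.Sm f) (hg : C.Sm g) (h : X → ℝ) (x : X) :
    C.G h (fun y => f y + g y) x = C.G h f x + C.G h g x := by
  rw [G_symm, G_add_left hf hg, G_symm f, G_symm g]

lemma G_sub_right (hf : C.Sm f) (hg : C.Sm g) (h : X → ℝ) (x : X) :
    C.G h (fun y => f y - g y) x = C.G h f x - C.G h g x := by
  rw [G_symm, G_sub_left hf hg, G_symm f, G_symm g]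

lemma G_mul_right (hf : C.Sm f) (hg : C.Sm g) (h : X → ℝ) (x : X) :
    C.G h (fun y => f y * g y) x = g x * C.G h f x + f x * C.G h g x := by
  rw [G_symm, G_mul_left hf hg, G_symm f, G_symm g]

lemma G_smul_right (c : ℝ) (hf : C.Sm f) (h : X → ℝ) (x : X) :
    C.G h (fun y => c * f y) x = c * C.G h f x := by
  rw [G_symm, G_smul_left c hf, G_symm f]

/-! ### the Laplacian -/

lemma L_smul (c : ℝ) (hf : C.Sm f) (x : X) : C.L (fun y => c * f y) x = c * C.L f x := by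
  rw [C.L_mul (sm_const c) hf, C.L_const, G_const_left]
  ring

lemma L_neg (hf : C.Sm f) (x : X) : C.L (fun y => - f y) x = - C.L f x := by
  have h1 := L_smul (C := C) (-1) hf x
  have h2 : (fun y => (-1 : ℝ) * f y) = fun y => - f y := by funext y; ring
  rw [h2] at h1
  rw [h1]; ring

lemma L_sub (hf : C.Sm f) (hg : C.Sm g) (x : X) :
    C.L (fun y => f y - g y) x = C.L f x - C.L g x := by
  have h1 := C.L_add hf (sm_neg hg) x
  rw [L_neg hg] at h1
  simp only [← sub_eq_add_neg] at h1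
  exact h1

lemma L_comp' {φ : ℝ → ℝ} (hφ : ContDiff ℝ ∞ φ) (hf : C.Sm f) (x : X) :
    C.L (fun y => φ (f y)) x =
      deriv φ (f x) * C.L f x + deriv (deriv φ) (f x) * C.G f f x :=
  C.L_comp isOpen_univ hφ.contDiffOn hf (fun _ => mem_univ _) x

/-- the cube -/
lemma L_cube (hf : C.Sm f) (x : X) :
    C.L (fun y => f y ^ 3) x = 3 * f x ^ 2 * C.L f x + 6 * f x * C.G f f x := by
  have h1 := L_comp' (C := C) (φ := fun p => p ^ 3) (contDiff_id.pow 3) hf x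
  have e1 : deriv (fun p : ℝ => p ^ 3) = fun p => 3 * p ^ 2 := by
    funext p; simp
  have e2 : deriv (deriv (fun p : ℝ => p ^ 3)) = fun p => 6 * p := by
    rw [e1]; funext p
    rw [deriv_const_mul _ (by fun_prop)]; simp; ring
  rw [h1, e2, e1]

end Calc

end Crest.Agent.R249.Calc_806
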