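import Crest.Agent.R249.PenD_255
import Crest.Agent.R249.Calc_806

/-!
Row 249, part A2 (helper255): the instance of `Calc_806.Calc` on a closed Riemannian 4-manifold
`M` with `Ric ≥ lam > 0`:
`Sm f = ContMDiff`, `D f x i = (√lam)⁻¹ df(fr x i)`, `Hs f x i j = lam⁻¹ Hess f (fr x i) (fr x j)`,
so `L = lam⁻¹ mLap`, `G f g = lam⁻¹ mGam f g`, `Q = (lam ^ 2)⁻¹ mHessSq`.
The first part is for general `n`.
-/

set_option autoImplicit false
set_option maxSynthPendingDepth 3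
set_option linter.unusedSectionVars false
set_option linter.unusedVariables false

open Bundle Bornology Set MeasureTheory Manifold Filter Metric
open scoped ENNReal ContDiff Topology NNReal Matrix
open Crest.GeometryTopology.CoordMetric Crest.GeometryTopology.ChartCurvature
  Crest.GeometryTopology.PointedLimit
open Crest.Agent.R226.ChartMet842

namespace Crest.Agent.R249.CalM_255

open Crest.Agent.R247 Crest.Agent.R247.Ms322
open Crest.Agent.R249.PenB_255 Crest.Agent.R249.PenC_255 Crest.Agent.R249.PenD_255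

noncomputable section

section General

variable {n : ℕ} {M : Type*} [MetricSpace M] [ChartedSpace (EuclideanSpace ℝ (Fin n)) M]
  [IsManifold (𝓡 n) ∞ M]
  [RiemannianBundle (fun p : M => TangentSpace (𝓡 n) p)]
  [IsContMDiffRiemannianBundle (𝓡 n) ∞ (EuclideanSpace ℝ (Fin n)) (fun p : M => TangentSpace (𝓡 n) p)]

local notation "𝔼" => EuclideanSpace ℝ (Fin n)

/-! ### composition with smooth functions of several variables -/

theorem contMDiffAt_pi {k : ℕ} {f : Fin k → M → ℝ} {x : M}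
    (hf : ∀ i, ContMDiffAt (𝓡 n) 𝓘(ℝ, ℝ) ∞ (f i) x) :
    ContMDiffAt (𝓡 n) 𝓘(ℝ, Fin k → ℝ) ∞ (fun y => fun i => f i y) x :=
  contMDiffAt_pi_space.2 hf

theorem sm_comp {k : ℕ} {F : (Fin k → ℝ) → ℝ} {U : Set (Fin k → ℝ)} (hU : IsOpen U)
    (hF : ContDiffOn ℝ ∞ F U) {f : Fin k → M → ℝ} (hf : ∀ i, Sm n (f i))
    (hx : ∀ x, (fun i => f i x) ∈ U) : Sm n (fun x => F (fun i => f i x)) := by
  intro x
  have h1 : ContMDiffAt 𝓘(ℝ, Fin k → ℝ) 𝓘(ℝ, ℝ) ∞ F (fun i => f i x) :=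
    (hF.contDiffAt (hU.mem_nhds (hx x))).contMDiffAt
  exact ContMDiffAt.comp (g := F) (f := fun y => fun i => f i y) x h1
    (contMDiffAt_pi fun i => hf i x)

theorem mdiff {f : M → ℝ} (hf : Sm n f) (x : M) : MDifferentiableAt (𝓡 n) 𝓘(ℝ) f x :=
  (hf x).mdifferentiableAt (by simp)

/-- chain rule for the differential -/
theorem df_comp_pi {k : ℕ} {F : (Fin k → ℝ) → ℝ} {U : Set (Fin k → ℝ)} (hU : IsOpen U)
    (hF : ContDiffOn ℝ ∞ F U) {f : Fin k → M → ℝ} (hf : ∀ i, Sm n (f i))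
    (hx : ∀ x, (fun i => f i x) ∈ U) (x : M) (v : TangentSpace (𝓡 n) x) :
    df (fun x => F (fun i => f i x)) x v =
      ∑ i, fderiv ℝ F (fun j => f j x) (Pi.single i 1) * df (f i) x v := by
  have hs := mem_chart_source 𝔼 x
  have ha := (chartAt 𝔼 x).map_source hs
  rw [df_eq_fderiv x hs]
  have h1 : ∀ i, HasFDerivAt (fun a => f i ((chartAt 𝔼 x).symm a))
      (fderiv ℝ (fun a => f i ((chartAt 𝔼 x).symm a)) (chartAt 𝔼 x x)) (chartAt 𝔼 x x) := by
    intro i
    have h2 : ContDiffAt ℝ ∞ (Bo84.inCh n x (f i)) (chartAt 𝔼 x x) :=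
      Bo84.contDiffAt_inCh le_rfl ha (hf i _)
    exact (h2.differentiableAt (by simp)).hasFDerivAt
  have h3 : HasFDerivAt (fun a => fun i => f i ((chartAt 𝔼 x).symm a))
      (ContinuousLinearMap.pi fun i =>
        fderiv ℝ (fun a => f i ((chartAt 𝔼 x).symm a)) (chartAt 𝔼 x x)) (chartAt 𝔼 x x) :=
    hasFDerivAt_pi.2 h1
  have h4 : (fun i => f i ((chartAt 𝔼 x).symm (chartAt 𝔼 x x))) = fun i => f i x := by
    rw [(chartAt 𝔼 x).left_inv hs]
  have h5 : HasFDerivAt F (fderiv ℝ F (fun i => f i x))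
      ((fun a => fun i => f i ((chartAt 𝔼 x).symm a)) (chartAt 𝔼 x x)) := by
    show HasFDerivAt F (fderiv ℝ F (fun i => f i x))
      (fun i => f i ((chartAt 𝔼 x).symm (chartAt 𝔼 x x)))
    rw [h4]
    exact ((hF.contDiffAt (hU.mem_nhds (hx x))).differentiableAt (by simp)).hasFDerivAt
  have h6 := (h5.comp (chartAt 𝔼 x x) h3).fderiv
  have e : (fun a => F (fun i => f i ((chartAt 𝔼 x).symm a))) =
      F ∘ fun a => fun i => f i ((chartAt 𝔼 x).symm a) := rfl
  rw [e, h6, ContinuousLinearMap.comp_apply]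
  set w : Fin k → ℝ := (ContinuousLinearMap.pi fun i =>
        fderiv ℝ (fun a => f i ((chartAt 𝔼 x).symm a)) (chartAt 𝔼 x x)) (dC x x v) with hw
  have h7 : w = ∑ i, w i • (Pi.single i (1 : ℝ) : Fin k → ℝ) := by
    funext j
    simp [Finset.sum_apply, Pi.single_apply]
  have h8 : ∀ i, w i = df (f i) x v := by
    intro i
    rw [df_eq_fderiv x hs]
    rfl
  calc fderiv ℝ F (fun i => f i x) w
      = fderiv ℝ F (fun i => f i x) (∑ i, w i • (Pi.single i (1 : ℝ) : Fin k → ℝ)) := by rw [← h7]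
    _ = ∑ i, fderiv ℝ F (fun j => f j x) (Pi.single i 1) * df (f i) x v := by
        rw [map_sum]
        refine Finset.sum_congr rfl fun i _ => ?_
        rw [map_smul, smul_eq_mul, h8 i]
        ring

variable [SecondCountableTopology M] [Nonempty M]

theorem df_mGam {f g : M → ℝ} (hf : Sm n f) (hg : Sm n g) (x : M) (v : TangentSpace (𝓡 n) x) :
    df (Bo84.mGam n f g) x v = ∑ a, (Bo84.mHess n f x v (fr x a) * df g x (fr x a) +
      Bo84.mHess n g x v (fr x a) * df f x (fr x a)) := by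
  have h1 := Bo84.mfderiv_mGam (n := n) (hf.two x) (hg.two x) v
  have h2 : df (Bo84.mGam n f g) x v = mfderiv (𝓡 n) 𝓘(ℝ, ℝ) (Bo84.mGam n f g) x v := rfl
  rw [h2, h1, Finset.sum_add_distrib]
  have h3 : ∀ {f g : M → ℝ}, Sm n f → Bo84.mHess n f x v (Bo84.mgrad n g x) =
      ∑ a, Bo84.mHess n f x v (fr x a) * df g x (fr x a) := by
    intro f g hf
    rw [← Bo84.inner_mHessE (hf.two x), Bo84.inner_frame (fun a b => inner_fr (n := n) x a b)]
    refine Finset.sum_congr rfl fun a _ => ?_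
    rw [Bo84.inner_mHessE (hf.two x), Bo84.inner_mgrad']
    rfl
  rw [h3 hf, h3 hg]

end General

/-! ### the instance -/

section Inst

variable {M : Type*} [MetricSpace M] [ChartedSpace (EuclideanSpace ℝ (Fin 4)) M]
  [IsManifold (𝓡 4) ∞ M]
  [RiemannianBundle (fun p : M => TangentSpace (𝓡 4) p)]
  [IsContMDiffRiemannianBundle (𝓡 4) ∞ (EuclideanSpace ℝ (Fin 4)) (fun p : M => TangentSpace (𝓡 4) p)]

section C0

variable [SecondCountableTopology M] [Nonempty M]

variable (M) in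
/-- the operations -/
def calc0 (lam : ℝ) : Calc_806.Calc0 M where
  Sm f := Sm 4 f
  D f x i := (Real.sqrt lam)⁻¹ * df f x (fr x i)
  Hs f x := Matrix.of fun i j => lam⁻¹ * Bo84.mHess 4 f x (fr x i) (fr x j)

variable {lam : ℝ}

theorem calc0_sm {f : M → ℝ} : (calc0 M lam).Sm f ↔ ContMDiff (𝓡 4) 𝓘(ℝ, ℝ) ∞ f := Iff.rfl

theorem calc0_D (f : M → ℝ) (x : M) (i : Fin 4) :
    (calc0 M lam).D f x i = (Real.sqrt lam)⁻¹ * Gr (n := 4) f x i := rfl

theorem calc0_Hs (f : M → ℝ) (x : M) (i j : Fin 4) :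
    (calc0 M lam).Hs f x i j = lam⁻¹ * Bo84.mHess 4 f x (fr x i) (fr x j) := rfl

theorem calc0_L {f : M → ℝ} (hf : Sm 4 f) (x : M) :
    (calc0 M lam).L f x = lam⁻¹ * Bo84.mLap 4 f x := by
  rw [Bo84.mLap_frame (hf.two x) (fun a b => inner_fr (n := 4) x a b), Finset.mul_sum]
  rfl

theorem calc0_G (h0 : 0 < lam) (f g : M → ℝ) (x : M) :
    (calc0 M lam).G f g x = lam⁻¹ * Bo84.mGam 4 f g x := by
  rw [← inner_Gr_eq_mGam, inner_Gr, Finset.mul_sum]
  show ∑ i, ((Real.sqrt lam)⁻¹ * df f x (fr x i)) * ((Real.sqrt lam)⁻¹ * df g x (fr x i)) = _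
  refine Finset.sum_congr rfl fun i _ => ?_
  have h1 : (Real.sqrt lam)⁻¹ * (Real.sqrt lam)⁻¹ = lam⁻¹ := by
    rw [← mul_inv, Real.mul_self_sqrt h0.le]
  calc _ = ((Real.sqrt lam)⁻¹ * (Real.sqrt lam)⁻¹) * (df f x (fr x i) * df g x (fr x i)) := by ring
    _ = _ := by rw [h1]

theorem calc0_G' (h0 : 0 < lam) (f g : M → ℝ) :
    (calc0 M lam).G f g = fun x => lam⁻¹ * Bo84.mGam 4 f g x :=
  funext fun x => calc0_G h0 f g x

theorem calc0_L' {f : M → ℝ} (hf : Sm 4 f) :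
    (calc0 M lam).L f = fun x => lam⁻¹ * Bo84.mLap 4 f x :=
  funext fun x => calc0_L hf x

theorem calc0_Q {f : M → ℝ} (hf : Sm 4 f) (x : M) :
    (calc0 M lam).Q f x = (lam ^ 2)⁻¹ * Bo84.mHessSq 4 f x := by
  rw [Bo84.mHessSq_frame (hf.two x) (fun a b => inner_fr (n := 4) x a b), Finset.mul_sum]
  show ∑ i, ∑ j, (lam⁻¹ * Bo84.mHess 4 f x (fr x i) (fr x j)) ^ 2 = _
  refine Finset.sum_congr rfl fun i _ => ?_
  rw [Finset.mul_sum]
  refine Finset.sum_congr rfl fun j _ => ?_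
  rw [mul_pow, inv_pow]

theorem sm_smul (c : ℝ) {f : M → ℝ} (hf : Sm 4 f) : Sm 4 (fun x => c * f x) :=
  contMDiff_const.mul hf

end C0

variable [CompactSpace M] [ConnectedSpace M] [IsRiemannianManifold (𝓡 4) M]

/-- the Poisson equation is solvable (helper324) -/
def PoissonStmt (M : Type*) [MetricSpace M] [ChartedSpace (EuclideanSpace ℝ (Fin 4)) M]
    [IsManifold (𝓡 4) ∞ M]
    [RiemannianBundle (fun p : M => TangentSpace (𝓡 4) p)]
    [IsContMDiffRiemannianBundle (𝓡 4) ∞ (EuclideanSpace ℝ (Fin 4))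
      (fun p : M => TangentSpace (𝓡 4) p)] [MeasurableSpace M] [BorelSpace M] : Prop :=
  ∀ g : M → ℝ, Sm 4 g → ∫ x, g x ∂(μHE[4] : Measure M) = 0 →
    ∃ u : M → ℝ, Sm 4 u ∧ ∀ x, Bo84.mLap 4 u x = g x

variable [MeasurableSpace M] [BorelSpace M]

/-- **The calculus of a closed 4-manifold with `Ric ≥ lam > 0`.** -/
def calcOf (lam : ℝ) (h0 : 0 < lam) (hR : HasRicciLowerBound 4 M lam) (hP : PoissonStmt M) :
    Calc_806.Calc M (μHE[4] : Measure M) where
  toCalc0 := calc0 M lam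
  sm_cont hf := Sm.continuous hf
  sm_comp hU hF _ hf hx := sm_comp hU hF hf hx
  D_comp := by
    intro k F U hU hF f hf hx x
    funext i
    show (Real.sqrt lam)⁻¹ * df (fun x => F (fun i => f i x)) x (fr x i) = _
    rw [df_comp_pi hU hF hf hx, Finset.mul_sum, Finset.sum_apply]
    refine Finset.sum_congr rfl fun j _ => ?_
    show _ = fderiv ℝ F (fun j => f j x) (Pi.single j 1) * ((Real.sqrt lam)⁻¹ * df (f j) x (fr x i))
    ring
  sm_G := by
    intro f g hf hg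
    rw [calc0_G' h0]
    exact sm_smul _ (Sm.mGam hf hg)
  sm_L := by
    intro f hf
    rw [calc0_L' hf]
    exact sm_smul _ (Sm.mLap hf)
  hs_symm := by
    intro f hf x i j
    rw [calc0_Hs, calc0_Hs, Bo84.mHess_symm (Sm.two hf x)]
  D_G := by
    intro f g hf hg x
    funext i
    rw [calc0_G' h0]
    show (Real.sqrt lam)⁻¹ * df (fun x => lam⁻¹ * Bo84.mGam 4 f g x) x (fr x i) =
      (∑ a, lam⁻¹ * Bo84.mHess 4 f x (fr x i) (fr x a) * ((Real.sqrt lam)⁻¹ * df g x (fr x a))) +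
      (∑ a, lam⁻¹ * Bo84.mHess 4 g x (fr x i) (fr x a) * ((Real.sqrt lam)⁻¹ * df f x (fr x a)))
    have e : df (fun x => lam⁻¹ * Bo84.mGam 4 f g x) x (fr x i) =
        lam⁻¹ * df (Bo84.mGam 4 f g) x (fr x i) := by
      rw [df_const_mul _ (mdiff (Sm.mGam hf hg) x)]
      rfl
    rw [e, df_mGam hf hg, ← Finset.sum_add_distrib, Finset.mul_sum, Finset.mul_sum]
    refine Finset.sum_congr rfl fun a _ => ?_
    ring
  L_const := by
    intro c x
    rw [calc0_L contMDiff_const, Bo84.mLap_const, mul_zero]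
  L_add := by
    intro f g hf hg x
    have hs : Sm 4 (fun y => f y + g y) := ContMDiff.add hf hg
    rw [calc0_L hf, calc0_L hg, calc0_L hs, Bo84.mLap_add (Sm.two hf x)
      (Sm.two hg x), mul_add]
  L_mul := by
    intro f g hf hg x
    have hs : Sm 4 (fun y => f y * g y) := ContMDiff.mul hf hg
    rw [calc0_L hf, calc0_L hg, calc0_L hs, Bo84.mLap_mul (Sm.two hf x)
      (Sm.two hg x), calc0_G h0]
    ring
  L_comp := by
    intro φ U hU hφ f hf hx x
    have h1 : ContDiffAt ℝ 2 φ (f x) :=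
      (hφ.contDiffAt (hU.mem_nhds (hx x))).of_le Bo84.two_le_infty
    have h2 : Sm 4 (fun y => φ (f y)) := fun y =>
      ContMDiffAt.comp (g := φ) (f := f) y
        (hφ.contDiffAt (hU.mem_nhds (hx y))).contMDiffAt (hf y)
    rw [calc0_L hf, calc0_L h2, Bo84.mLap_comp h1 (Sm.two hf x), calc0_G h0]
    ring
  int_parts := by
    intro u v hu hv
    rw [calc0_L' hv, calc0_G' h0]
    have h1 := integral_mul_mLap (n := 4) (M := M) hv hu
    have h2 : ∀ x, u x * (lam⁻¹ * Bo84.mLap 4 v x) = lam⁻¹ * (u x * Bo84.mLap 4 v x) := by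
      intro x; ring
    simp_rw [h2]
    rw [integral_const_mul, integral_const_mul, h1]
    simp_rw [Bo84.mGam_comm v u]
    ring
  bochner := by
    intro f hf x
    have h1 := Bo84.mBochner_ineq hR ((hf x).of_le Bo84.three_le_infty)
    have h2 : Sm 4 (fun x => lam⁻¹ * Bo84.mGam 4 f f x) := sm_smul _ (Sm.mGam hf hf)
    rw [calc0_Q hf, calc0_L' hf, calc0_G h0, calc0_G' h0, calc0_L h2,
      Bo84.mGam_const_mul_right _ (mdiff (Sm.mLap hf) x),
      Bo84.mLap_const_mul _ (Sm.two (Sm.mGam hf hf) x)]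
    have h3 : 0 < (lam ^ 2)⁻¹ := by positivity
    have h4 := mul_le_mul_of_nonneg_left h1 h3.le
    have h5 : (lam ^ 2)⁻¹ = lam⁻¹ * lam⁻¹ := by rw [sq, mul_inv]
    have h6 : lam⁻¹ * lam = 1 := inv_mul_cancel₀ h0.ne'
    calc (lam ^ 2)⁻¹ * Bo84.mHessSq 4 f x + lam⁻¹ * (lam⁻¹ * Bo84.mGam 4 f (Bo84.mLap 4 f) x) +
          lam⁻¹ * Bo84.mGam 4 f f x
        = (lam ^ 2)⁻¹ * (Bo84.mHessSq 4 f x + Bo84.mGam 4 f (Bo84.mLap 4 f) x +
            lam * Bo84.mGam 4 f f x) := by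
          rw [h5]
          have h7 : lam⁻¹ * lam⁻¹ * (lam * Bo84.mGam 4 f f x) =
            lam⁻¹ * (lam⁻¹ * lam) * Bo84.mGam 4 f f x := by ring
          rw [mul_add, mul_add, h7, h6]
          ring
      _ ≤ (lam ^ 2)⁻¹ * (1 / 2 * Bo84.mLap 4 (Bo84.mGam 4 f f) x) := h4
      _ = _ := by rw [h5]; ring
  resolvent := by
    intro c hc g hg
    obtain ⟨u, hu, hue⟩ := exists_solution (n := 4) (M := M) (c := lam * c) (mul_pos h0 hc)
      (G := fun x => lam * g x) (sm_smul _ hg)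
    refine ⟨u, hu, fun x => ?_⟩
    rw [calc0_L hu]
    have h1 := hue x
    have h2 : Bo84.mLap 4 u x = lam * (g x + c * u x) := by linarith
    rw [h2, ← mul_assoc, inv_mul_cancel₀ h0.ne']
    ring
  max_pr := by
    intro c hc u hu h
    refine max_principle (n := 4) (fun z => Sm.two hu z) (q := fun _ => lam * c)
      (fun _ => mul_pos h0 hc) (fun z => ?_)
    have h1 := h z
    rw [calc0_L hu] at h1
    have h2 : c * u z ≤ lam⁻¹ * Bo84.mLap 4 u z := by linarith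
    have h3 := mul_le_mul_of_nonneg_left h2 h0.le
    rw [← mul_assoc lam lam⁻¹, mul_inv_cancel₀ h0.ne', one_mul] at h3
    linarith
  poisson := by
    intro g hg hi
    obtain ⟨u, hu, hue⟩ := hP (fun x => lam * g x) (sm_smul _ hg) (by
      rw [integral_const_mul, hi, mul_zero])
    refine ⟨u, hu, fun x => ?_⟩
    rw [calc0_L hu, hue x, ← mul_assoc, inv_mul_cancel₀ h0.ne', one_mul]

end Inst

end

end Crest.Agent.R249.CalM_255
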