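import Crest.Agent.R249.Calc_806

/-!
R249, part A2 (helper806), file 2: integration in the abstract calculus `Calc X μ`: integrability,
`∫ L u = 0`, Green, the weighted Bochner identity.
-/

set_option autoImplicit false
set_option linter.unusedVariables false
set_option linter.unusedSectionVars false

open MeasureTheory Set Filter Topology Matrix
open scoped ContDiff

noncomputable section

namespace Crest.Agent.R249.Calc_806

namespace Calc

variable {X : Type*} [TopologicalSpace X] [CompactSpace X] [MeasurableSpace X]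
  [OpensMeasurableSpace X] {μ : Measure X} [IsFiniteMeasure μ] {C : Calc X μ} {f g h u v W : X → ℝ}

lemma integrable_cont (hf : Continuous f) : Integrable f μ :=
  hf.integrable_of_hasCompactSupport (HasCompactSupport.of_compactSpace f)

lemma integrable_sm (hf : C.Sm f) : Integrable f μ := integrable_cont (C.sm_cont hf)

lemma exists_bound (hf : C.Sm f) : ∃ K : ℝ, 0 ≤ K ∧ ∀ x, |f x| ≤ K := by
  obtain ⟨K, hK⟩ := isCompact_univ.exists_bound_of_continuousOn (C.sm_cont hf).continuousOn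
  refine ⟨max K 0, le_max_right _ _, fun x => ?_⟩
  exact (hK x (mem_univ x)).trans (le_max_left _ _)

/-- `∫ L u = 0` -/
theorem int_L (hu : C.Sm u) : ∫ x, C.L u x ∂μ = 0 := by
  have h1 := C.int_parts (sm_const (C := C) 1) hu
  simp only [one_mul] at h1
  rw [h1]
  have h2 : (fun x => C.toCalc0.G (fun _ => (1:ℝ)) u x) = fun _ => 0 := by
    funext x; exact G_const_left 1 u x
  rw [h2]; simp

/-- `∫ ⟨du, dv⟩ = - ∫ u L v` -/
theorem int_G (hu : C.Sm u) (hv : C.Sm v) : ∫ x, C.G u v x ∂μ = - ∫ x, u x * C.L v x ∂μ := by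
  rw [C.int_parts hu hv]; simp

theorem green (hu : C.Sm u) (hv : C.Sm v) : ∫ x, u x * C.L v x ∂μ = ∫ x, v x * C.L u x ∂μ := by
  rw [C.int_parts hu hv, C.int_parts hv hu]
  congr 1
  refine integral_congr_ae (Eventually.of_forall fun x => ?_)
  exact G_symm u v x

theorem int_G_self (hu : C.Sm u) : ∫ x, C.G u u x ∂μ = - ∫ x, u x * C.L u x ∂μ := int_G hu hu

/-- `∫ c L u + ∫ ⟨dc, du⟩ = 0`, the divergence theorem for `c ∇u` -/
theorem int_div (hu : C.Sm u) (hv : C.Sm v) :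
    ∫ x, (u x * C.L v x + C.G u v x) ∂μ = 0 := by
  rw [integral_add (integrable_sm (sm_mul hu (C.sm_L hv))) (integrable_sm (C.sm_G hu hv)),
    int_G hu hv]
  ring

/-- the Bochner remainder `½ L|du|² - ⟨du, dLu⟩ - |du|² ≥ |Hess u|²` -/
def Rb (C : Calc X μ) (f : X → ℝ) (x : X) : ℝ :=
  (1 / 2) * C.L (C.G f f) x - C.G f (C.L f) x - C.G f f x

lemma Q_le_Rb (hf : C.Sm f) (x : X) : C.Q f x ≤ C.Rb f x := by
  have := C.bochner hf x
  simp only [Rb]
  linarith

lemma Q_nonneg (f : X → ℝ) (x : X) : 0 ≤ C.Q f x := by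
  rw [Calc0.Q]
  exact Finset.sum_nonneg fun i _ => Finset.sum_nonneg fun j _ => sq_nonneg _

lemma Rb_nonneg (hf : C.Sm f) (x : X) : 0 ≤ C.Rb f x := (Q_nonneg f x).trans (Q_le_Rb hf x)

lemma sm_Rb (hf : C.Sm f) : C.Sm (C.Rb f) :=
  sm_sub (sm_sub (sm_smul _ (C.sm_L (C.sm_G hf hf))) (C.sm_G hf (C.sm_L hf))) (C.sm_G hf hf)

/-- **weighted Bochner identity**:
`∫ [Lu ⟨dW,du⟩ + W ((Lu)² - Rb u - |du|²) - ½ ⟨dW, d|du|²⟩] = 0`. -/
theorem weighted_bochner (hW : C.Sm W) (hu : C.Sm u) :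
    ∫ x, (C.L u x * C.G W u x + W x * (C.L u x ^ 2 - C.Rb u x - C.G u u x)
      - (1 / 2) * C.G W (C.G u u) x) ∂μ = 0 := by
  have hL := C.sm_L hu
  have hT := C.sm_G hu hu
  have h1 := int_div (C := C) (sm_mul hW hL) hu
  have h2 := int_div (C := C) hW hT
  have e1 : ∀ x, W x * C.L u x * C.L u x + C.G (fun y => W y * C.L u y) u x =
      W x * C.L u x ^ 2 + (C.L u x * C.G W u x + W x * C.G u (C.L u) x) := by
    intro x
    rw [G_mul_left hW hL, G_symm (C.L u) u]
    ring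
  simp only [e1] at h1
  have i1 : Integrable (fun x => W x * C.L u x ^ 2 +
      (C.L u x * C.G W u x + W x * C.G u (C.L u) x)) μ :=
    integrable_sm (sm_add (sm_mul hW (sm_pow hL 2))
      (sm_add (sm_mul hL (C.sm_G hW hu)) (sm_mul hW (C.sm_G hu hL))))
  have i2 : Integrable (fun x => W x * C.L (C.G u u) x + C.G W (C.G u u) x) μ :=
    integrable_sm (sm_add (sm_mul hW (C.sm_L hT)) (C.sm_G hW hT))
  have h3 := integral_sub i1 (i2.const_mul (1 / 2))
  rw [h1, integral_const_mul, h2] at h3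
  simp only [mul_zero, sub_zero] at h3
  rw [← h3]
  refine integral_congr_ae (Eventually.of_forall fun x => ?_)
  simp only [Rb]
  ring

/-- `∫ Rb u = ∫ (Lu)² - ∫ |du|²` -/
theorem int_Rb (hu : C.Sm u) : ∫ x, C.Rb u x ∂μ = ∫ x, C.L u x ^ 2 ∂μ - ∫ x, C.G u u x ∂μ := by
  have h1 := weighted_bochner (C := C) (sm_const 1) hu
  have e1 : ∀ x, C.L u x * C.G (fun _ => (1:ℝ)) u x + 1 * (C.L u x ^ 2 - C.Rb u x - C.G u u x)
      - (1 / 2) * C.G (fun _ => (1:ℝ)) (C.G u u) x = C.L u x ^ 2 - C.G u u x - C.Rb u x := by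
    intro x
    rw [G_const_left, G_const_left]
    ring
  simp only [e1] at h1
  have i1 : Integrable (fun x => C.L u x ^ 2 - C.G u u x) μ :=
    integrable_sm (sm_sub (sm_pow (C.sm_L hu) 2) (C.sm_G hu hu))
  rw [integral_sub i1 (integrable_sm (sm_Rb hu)),
    integral_sub (integrable_sm (sm_pow (C.sm_L hu) 2)) (integrable_sm (C.sm_G hu hu))] at h1
  linarith

/-- `∫ |Hess u|² ≤ ∫ (Lu)²` in the form with `Rb`. -/
theorem int_Rb_le (hu : C.Sm u) : ∫ x, C.Rb u x ∂μ ≤ ∫ x, C.L u x ^ 2 ∂μ := by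
  rw [int_Rb hu]
  have : 0 ≤ ∫ x, C.G u u x ∂μ := integral_nonneg fun x => G_self_nonneg u x
  linarith

/-- the maximum principle for two functions -/
theorem max_pr_sub {c : ℝ} (hc : 0 < c) (hu : C.Sm u) (hv : C.Sm v)
    (h : ∀ x, C.L v x - c * v x ≤ C.L u x - c * u x) : ∀ x, u x ≤ v x := by
  have h1 := C.max_pr hc (sm_sub hu hv) (fun x => by
    rw [L_sub hu hv]; have := h x; simp only [mul_sub]; linarith)
  intro x
  have := h1 x
  linarith

end Calc

end Crest.Agent.R249.Calc_806
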