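import Crest.Agent.R249.Cd2_133

/-!
# Row 249, part A (helper133): the identities of chart VII
-/

set_option autoImplicit false
set_option maxRecDepth 100000

namespace Crest.Agent.R249.Cd133

open Ker254 Brg133

theorem iVII_00 : idcA (chVII.L00 C709) (chVII.R00 C709) = true := by decide +kernel

theorem iVII_01 : idcA (chVII.L01 C709) chVII.R01 = true := by decide +kernel

theorem iVII_02 : idcA (chVII.L02 C709) chVII.R02 = true := by decide +kernel

theorem iVII_11 : idcA (chVII.L11 C709) chVII.R11 = true := by decide +kernel

theorem iVII_12 : idcA (chVII.L12 C709) chVII.R12 = true := by decide +kernel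

theorem iVII_22 : idcA (chVII.L22 C709) (chVII.R22 C709) = true := by decide +kernel

theorem atVII (a b c : ℝ) : ChartAt C709 chVII a b c :=
  ⟨idcA_sound iVII_00 a b c, idcA_sound iVII_01 a b c, idcA_sound iVII_02 a b c, idcA_sound iVII_11 a b c,
    idcA_sound iVII_12 a b c, idcA_sound iVII_22 a b c⟩

end Crest.Agent.R249.Cd133
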