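import Crest.Agent.R249.CovA_621

/-!
# Row 249, part A (helper621): covering of the region of AC* by 324's charts (post #4257)

`cover_cases` : to prove a statement `Goal` about a point `(η², m, G)` of the region with `m < 1`
it is enough to prove it in each chart:
* `IIa` : `m ≤ m₁`, `y = 4 m² Θ`, `Θ ≤ h₁`, `G = c (1-m) m² T`;
* `IIb` : the same with `Θ ≥ h₁`;
* `I`   : `w = 1 - m ≤ 1 - m₁`, `4 y = 25 w Θ`, `G = c w m² T`, `T₀ ≤ T ≤ T₁`;
* `I'`  : the same with `T ≤ T₀`, `Θ ≥ h₀`;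
* `Ia`  : `Θ = T b`, `b ≤ b₀`, `T ≤ T₀`;  `Ib` : `T = Θ a`, `b₀ a ≤ 1`, `Θ ≤ h₀`;
* `VI`  : `G = c m² p`, `w = p s`, `T₁ s ≤ 1`, `p ≤ p₀`;
* `VII` : `G = c m² p`, `p ≥ p₀` (and `p ≥ T₁ w`).
-/

set_option autoImplicit false

namespace Crest.Agent.R249.CovA621

open Sym467

theorem cover_cases {c y m G m1 h1 T0 T1 h0 b0 p0 : ℝ} (hc : 0 < c) (hm : 0 < m) (hm1 : m < 1)
    (hy : 0 ≤ y) (hy4 : y ≤ 4 * m ^ 2) (hk : 0 ≤ 1 - 7 / 40 * y + 1 / 125 * y ^ 2 - m) (hG : 0 ≤ G)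
    (c1 : 7 / 10 ≤ m1) (c2 : 0 < T0) (c4 : 0 < b0) {Goal : Prop}
    (IIa : ∀ Th T, 0 ≤ Th → Th ≤ h1 → Th ≤ 1 → 0 ≤ T → m ≤ m1 → y = 4 * m ^ 2 * Th →
      G = c * (1 - m) * m ^ 2 * T → Goal)
    (IIb : ∀ Th T, h1 ≤ Th → Th ≤ 1 → 0 ≤ T → m ≤ m1 → y = 4 * m ^ 2 * Th →
      G = c * (1 - m) * m ^ 2 * T → Goal)
    (I : ∀ w Th T, 0 < w → w ≤ 1 - m1 → 0 ≤ Th → Th ≤ 1 → T0 ≤ T → T ≤ T1 → m = 1 - w →
      4 * y = 25 * w * Th → G = c * w * m ^ 2 * T → Goal)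
    (I' : ∀ w Th T, 0 < w → w ≤ 1 - m1 → h0 ≤ Th → Th ≤ 1 → 0 ≤ T → T ≤ T0 → m = 1 - w →
      4 * y = 25 * w * Th → G = c * w * m ^ 2 * T → Goal)
    (Ia : ∀ w b T, 0 < w → w ≤ 1 - m1 → 0 ≤ b → b ≤ b0 → 0 < T → T ≤ T0 → m = 1 - w →
      4 * y = 25 * w * (T * b) → G = c * w * m ^ 2 * T → Goal)
    (Ib : ∀ w Th a, 0 < w → w ≤ 1 - m1 → 0 ≤ Th → Th ≤ h0 → 0 ≤ a → b0 * a ≤ 1 → m = 1 - w →
      4 * y = 25 * w * Th → G = c * w * m ^ 2 * (Th * a) → Goal)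
    (VI : ∀ p s Th, 0 < p → p ≤ p0 → 0 < s → T1 * s ≤ 1 → 0 ≤ Th → Th ≤ 1 → p * s ≤ 1 - m1 →
      m = 1 - p * s → 4 * y = 25 * (p * s) * Th → G = c * m ^ 2 * p → Goal)
    (VII : ∀ w Th p, 0 < w → w ≤ 1 - m1 → 0 ≤ Th → Th ≤ 1 → p0 ≤ p → T1 * w ≤ p → m = 1 - w →
      4 * y = 25 * w * Th → G = c * m ^ 2 * p → Goal) : Goal := by
  have hw : 0 < 1 - m := by linarith
  have hden : 0 < c * (1 - m) * m ^ 2 := by positivity
  obtain ⟨T, hTd⟩ : ∃ T, T = G / (c * (1 - m) * m ^ 2) := ⟨_, rfl⟩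
  have hT : 0 ≤ T := by rw [hTd]; positivity
  have hTe : G = c * (1 - m) * m ^ 2 * T := by rw [hTd]; field_simp
  rcases le_total m m1 with h | h
  · obtain ⟨Th, hThd⟩ : ∃ Th, Th = y / (4 * m ^ 2) := ⟨_, rfl⟩
    have hTh : 0 ≤ Th := by rw [hThd]; positivity
    have hTh1 : Th ≤ 1 := by rw [hThd, div_le_one (by positivity)]; exact hy4
    have hye : y = 4 * m ^ 2 * Th := by rw [hThd]; field_simp
    rcases le_total Th h1 with h2 | h2
    · exact IIa Th T hTh h2 hTh1 hT h hye hTe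
    · exact IIb Th T h2 hTh1 hT h hye hTe
  · have hy4' : y ≤ 4 := by nlinarith
    have hbx := boxI_le hy hy4' (c1.trans h) hk
    obtain ⟨w, hwd⟩ : ∃ w, w = 1 - m := ⟨_, rfl⟩
    have hw0 : 0 < w := by rw [hwd]; exact hw
    have hw1 : w ≤ 1 - m1 := by linarith
    have hmw : m = 1 - w := by rw [hwd]; ring
    rw [← hwd] at hbx hTe
    obtain ⟨Th, hThd⟩ : ∃ Th, Th = 4 * y / (25 * w) := ⟨_, rfl⟩
    have hTh : 0 ≤ Th := by rw [hThd]; positivity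
    have hTh1 : Th ≤ 1 := by rw [hThd, div_le_one (by positivity)]; exact hbx
    have hye : 4 * y = 25 * w * Th := by rw [hThd]; field_simp
    rcases le_total T T0 with h2 | h2
    · rcases le_total Th h0 with h3 | h3
      · rcases eq_or_lt_of_le hT with hT0 | hT0
        · exact Ib w Th 0 hw0 hw1 hTh h3 le_rfl (by rw [mul_zero]; exact zero_le_one) hmw hye
            (by rw [hTe, ← hT0]; ring)
        · rcases le_total (b0 * T) Th with h4 | h4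
          · have hThp : 0 < Th := lt_of_lt_of_le (by positivity) h4
            refine Ib w Th (T / Th) hw0 hw1 hTh h3 (by positivity) ?_ hmw hye ?_
            · rw [← mul_div_assoc, div_le_one hThp]; exact h4
            · rw [hTe]; field_simp
          · refine Ia w (Th / T) T hw0 hw1 (by positivity) ?_ hT0 h2 hmw ?_ hTe
            · rw [div_le_iff₀ hT0]; exact h4
            · rw [hye]; field_simp
      · exact I' w Th T hw0 hw1 h3 hTh1 hT h2 hmw hye hTe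
    · rcases le_total T T1 with h3 | h3
      · exact I w Th T hw0 hw1 hTh hTh1 h2 h3 hmw hye hTe
      · have hTp : 0 < T := c2.trans_le h2
        have hGp : G = c * m ^ 2 * (w * T) := by rw [hTe]; ring
        rcases le_total (w * T) p0 with h4 | h4
        · have e : w * T * T⁻¹ = w := by field_simp
          refine VI (w * T) T⁻¹ Th (by positivity) h4 (by positivity) ?_ hTh hTh1 ?_ ?_ ?_ hGp
          · rw [← div_eq_mul_inv, div_le_one hTp]; exact h3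
          · rw [e]; exact hw1
          · rw [e]; exact hmw
          · rw [e]; exact hye
        · refine VII w Th (w * T) hw0 hw1 hTh hTh1 h4 ?_ hmw hye hGp
          rw [mul_comm T1 w]
          exact mul_le_mul_of_nonneg_left h3 hw0.le

end Crest.Agent.R249.CovA621
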