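import Crest.Agent.R249.Sym2_467

/-!
# Row 249, part A (helper621): covering of the region of the contract AC* by the charts

`ACpm` : the parameters `g₁ = 7/40`, `g₂ = 1/125`; `cover` : every point of the region lies in box I
(`w = 1 - m ≤ 3/10`, `η² = (25/4) w Θ`) or in box II (`m ≤ 7/10`, `η² = 4 m² Θ`), `0 ≤ Θ ≤ 1`,
`G = c (1 - m) m² T`, `T ≥ 0`.
`contact_le` : the end of the contact curve.
-/

set_option autoImplicit false

namespace Crest.Agent.R249.CovA621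

open Sym467

/-- the parameters of the contract AC* -/
noncomputable def ACpm : Pm where
  g1 := 7 / 40
  g2 := 1 / 125
  h1 := by norm_num
  h2 := by norm_num
  h3 := by norm_num
  h4 := by norm_num

theorem kf_AC (z : E3) : kf ACpm z = 1 - 7 / 40 * z.1 ^ 2 + 1 / 125 * z.1 ^ 4 - z.2.1 := rfl

/-- `m ≤ 1` on the region; strict where `k > 0` or `η ≠ 0` -/
theorem m_le_one {y m : ℝ} (hy : 0 ≤ y) (hy4 : y ≤ 4) (hk : 0 ≤ 1 - 7 / 40 * y + 1 / 125 * y ^ 2 - m) :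
    m ≤ 1 - 1 / 7 * y := by
  nlinarith

/-- **box I**: for `1 - m ≤ 3/10` the region satisfies `η² ≤ (25/4) (1 - m)`. -/
theorem boxI_le {y m : ℝ} (hy : 0 ≤ y) (hy4 : y ≤ 4) (hm : 7 / 10 ≤ m)
    (hk : 0 ≤ 1 - 7 / 40 * y + 1 / 125 * y ^ 2 - m) : 4 * y ≤ 25 * (1 - m) := by
  by_contra hcon
  push Not at hcon
  -- `(3/200) y < y²/125`
  have h1 : 3 / 200 * y < 1 / 125 * y ^ 2 := by nlinarith
  have h2 : 15 / 8 < y := by
    by_contra h
    push Not at h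
    nlinarith
  nlinarith

/-- the chart variables of box II -/
def InII (c : ℝ) (y m G Th T : ℝ) : Prop :=
  0 ≤ m ∧ 10 * m ≤ 7 ∧ 0 ≤ Th ∧ Th ≤ 1 ∧ 0 ≤ T ∧ y = 4 * m ^ 2 * Th ∧ G = c * (1 - m) * m ^ 2 * T

/-- the chart variables of box I -/
def InI (c : ℝ) (y m G w Th T : ℝ) : Prop :=
  0 ≤ w ∧ 10 * w ≤ 3 ∧ 0 ≤ Th ∧ Th ≤ 1 ∧ 0 ≤ T ∧ m = 1 - w ∧ 4 * y = 25 * w * Th ∧
    G = c * w * m ^ 2 * T

/-- **covering** by the two boxes, for `m < 1`. -/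
theorem cover {c y m G : ℝ} (hc : 0 < c) (hm : 0 < m) (hm1 : m < 1) (hy : 0 ≤ y)
    (hy4 : y ≤ 4 * m ^ 2) (hk : 0 ≤ 1 - 7 / 40 * y + 1 / 125 * y ^ 2 - m) (hG : 0 ≤ G) :
    (∃ Th T, InII c y m G Th T) ∨ ∃ w Th T, InI c y m G w Th T := by
  have hw : 0 < 1 - m := by linarith
  have hden : 0 < c * (1 - m) * m ^ 2 := by positivity
  have hT : 0 ≤ G / (c * (1 - m) * m ^ 2) := by positivity
  have hTe : G = c * (1 - m) * m ^ 2 * (G / (c * (1 - m) * m ^ 2)) := by field_simp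
  rcases le_or_gt m (7 / 10) with h | h
  · refine Or.inl ⟨y / (4 * m ^ 2), G / (c * (1 - m) * m ^ 2), hm.le, by linarith, by positivity,
      ?_, hT, by field_simp, hTe⟩
    rw [div_le_one (by positivity)]
    exact hy4
  · have hy4' : y ≤ 4 := by nlinarith
    have h1 := boxI_le hy hy4' h.le hk
    refine Or.inr ⟨1 - m, 4 * y / (25 * (1 - m)), G / (c * (1 - m) * m ^ 2), hw.le, by linarith,
      by positivity, ?_, hT, by ring, by field_simp, hTe⟩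
    rw [div_le_one (by positivity)]
    exact h1

/-- the same on 467's region, away from `m = 1`. -/
theorem cover_Reg {c : ℝ} (hc : 0 < c) {z : E3} (hz : z ∈ Reg ACpm) (h1 : z.2.1 < 1) :
    (∃ Th T, InII c (z.1 ^ 2) z.2.1 z.2.2 Th T) ∨ ∃ w Th T, InI c (z.1 ^ 2) z.2.1 z.2.2 w Th T := by
  have hk := hz.k0
  rw [kf_AC] at hk
  refine cover hc hz.m0 h1 (sq_nonneg _) ?_ ?_ hz.G0
  · have h2 := abs_le.1 hz.em
    nlinarith [hz.m0]
  · have : (z.1 ^ 2) ^ 2 = z.1 ^ 4 := by ring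
    rw [this]; linarith

/-- `k > 0` gives `m < 1` -/
theorem m_lt_one {z : E3} (hz : z ∈ Reg ACpm) (hk : 0 < kf ACpm z) : z.2.1 < 1 := by
  have h2 := eta_sq_le hz
  rw [kf_AC] at hk
  have e : z.1 ^ 4 = (z.1 ^ 2) ^ 2 := by ring
  rw [e] at hk
  nlinarith [sq_nonneg z.1]

/-- `η ≠ 0` gives `m < 1` -/
theorem m_lt_one' {z : E3} (hz : z ∈ Reg ACpm) (hη : z.1 ≠ 0) : z.2.1 < 1 := by
  have h2 := eta_sq_le hz
  have hk := hz.k0
  rw [kf_AC] at hk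
  have e : z.1 ^ 4 = (z.1 ^ 2) ^ 2 := by ring
  rw [e] at hk
  have h3 : 0 < z.1 ^ 2 := by positivity
  nlinarith

/-- **the end of the contact curve**: `m = Γ(η)`, `0 ≤ η ≤ 2 m` gives `η ≤ 1.3865`. -/
theorem contact_le {η m : ℝ} (h4 : η ^ 2 ≤ 4) (hη : η ≤ 2 * m)
    (hm : m = 1 - 7 / 40 * η ^ 2 + 1 / 125 * η ^ 4) : η ≤ 2773 / 2000 := by
  by_contra hcon
  push Not at hcon
  have h2 : η ≤ 2 := by nlinarith
  rw [hm] at hη
  have h5 : η ^ 4 ≤ 4 * η ^ 2 := by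
    have : η ^ 4 = η ^ 2 * η ^ 2 := by ring
    rw [this]
    exact mul_le_mul_of_nonneg_right h4 (sq_nonneg _)
  nlinarith [mul_pos (sub_pos.2 hcon) (sub_pos.2 hcon)]

/-- the parameter `t = η / 20` of the contact curve -/
theorem contact_param {η m : ℝ} (h0 : 0 ≤ η) (h4 : η ^ 2 ≤ 4) (hη : η ≤ 2 * m)
    (hm : m = 1 - 7 / 40 * η ^ 2 + 1 / 125 * η ^ 4) : ∃ t : ℝ, 0 ≤ t ∧ 40000 * t ≤ 2773 ∧
      η = 20 * t ∧ m = 1 - 70 * t ^ 2 + 1280 * t ^ 4 := by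
  have h := contact_le h4 hη hm
  refine ⟨η / 20, by positivity, by linarith, by ring, ?_⟩
  rw [hm]; ring

/-- for the blow up of a corner: one of two nonnegative numbers is at most the other one -/
theorem ratio {x y : ℝ} (hx : 0 ≤ x) (hy : 0 ≤ y) :
    (∃ b : ℝ, 0 ≤ b ∧ b ≤ 1 ∧ x = y * b) ∨ ∃ a : ℝ, 0 ≤ a ∧ a ≤ 1 ∧ y = x * a := by
  rcases le_total x y with h | h
  · rcases eq_or_lt_of_le hy with h0 | h0
    · exact Or.inl ⟨0, le_rfl, zero_le_one, by rw [mul_zero]; linarith⟩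
    · exact Or.inl ⟨x / y, by positivity, (div_le_one h0).2 h, by field_simp⟩
  · rcases eq_or_lt_of_le hx with h0 | h0
    · exact Or.inr ⟨0, le_rfl, zero_le_one, by rw [mul_zero]; linarith⟩
    · exact Or.inr ⟨y / x, by positivity, (div_le_one h0).2 h, by field_simp⟩

end Crest.Agent.R249.CovA621
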