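import Crest.Agent.R249.StKa_912
import Crest.Agent.R249.CovA_621
import Crest.Agent.R249.Brg4_133

/-!
# Row 249, part A (helper912): the scaled certificate, part 2

From the open inequalities `INT`, `CON` for the lists of helper133's class `Crt` to `ScCert` on the
closed region.
-/

set_option autoImplicit false
set_option linter.unusedVariables false
set_option linter.unusedSectionVars false

open Set Filter Topology
open scoped ContDiff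

noncomputable section

namespace Crest.Agent.R249.StK_912

open DivC467 hiding X0 K0
open Eta467 Sym467 Ker254 CovA621
open Brg133 hiding f0

/-! ### continuity of the numerators -/

@[fun_prop]
lemma ev3_contAt {α : Type*} [TopologicalSpace α] {a : α} {f g h : α → ℝ} (N : P3)
    (hf : ContinuousAt f a) (hg : ContinuousAt g a) (hh : ContinuousAt h a) :
    ContinuousAt (fun x => ev3 (f x) (g x) (h x) N) a := by
  have h1 : Continuous (fun z : ℝ × ℝ × ℝ => ev3 z.1 z.2.1 z.2.2 N) :=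
    (contDiff_ev3 (n := 1) N).continuous
  exact h1.continuousAt.comp (f := fun x => (f x, g x, h x)) (hf.prodMk (hg.prodMk hh))

/-- the numerator of `F3` -/
def EE (C : Crt) (z : E3) (q X K h k : ℝ) : ℝ :=
  C.e11 z.1 (z.1 ^ 2) z.2.1 z.2.2 X K + C.eh z.1 (z.1 ^ 2) z.2.1 z.2.2 X * h +
    C.ehh (z.1 ^ 2) z.2.1 z.2.2 * h ^ 2 + C.ek z.1 (z.1 ^ 2) z.2.1 z.2.2 X * (q * k) +
    C.ehk (z.1 ^ 2) z.2.1 z.2.2 * (q * h * k) + C.ekk (z.1 ^ 2) z.2.1 z.2.2 * k ^ 2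

lemma EE_contAt (C : Crt) {p : E3 × ℝ} {X K k : E3 × ℝ → ℝ} (hX : ContinuousAt X p)
    (hK : ContinuousAt K p) (hk : ContinuousAt k p) (h : ℝ) :
    ContinuousAt (fun p => EE C p.1 p.2 (X p) (K p) h (k p)) p := by
  unfold EE Crt.e11 Crt.eh Crt.ehh Crt.ek Crt.ehk Crt.ekk N2 N3 RR RM
  fun_prop

lemma S_cont (C : Crt) : Continuous (fun z : E3 => C.S z.2.1 z.2.2) := by
  unfold Crt.S SS RR
  fun_prop

/-! ### bounds on the region -/

/-- common bounds -/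
structure WReg (γ : Pm) (z : E3) : Prop where
  m0 : 0 < z.2.1
  m1 : z.2.1 ≤ 1
  ey : z.1 ^ 2 ≤ 4 * z.2.1 ^ 2
  k0 : 0 ≤ kf γ z
  G0 : 0 ≤ z.2.2

section bounds

variable {γ : Pm} {z : E3}

lemma wreg_of_reg (hz : z ∈ Reg γ) : WReg γ z := ⟨hz.m0, m_le hz, eta_sq_le_m hz, hz.k0, hz.G0⟩

lemma sq_le_of_abs {x y : ℝ} (h : |x| < 2 * y) : x ^ 2 ≤ 4 * y ^ 2 := by
  have h0 := abs_nonneg x
  rw [← sq_abs]
  nlinarith

lemma wreg_of_oreg (hz : OReg γ z) : WReg γ z :=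
  ⟨hz.m0, hz.m1.le, sq_le_of_abs hz.em, hz.k0.le, hz.G0.le⟩

lemma wreg_of_ocon (hz : OCon γ z) : WReg γ z :=
  ⟨hz.m0, hz.m1.le, sq_le_of_abs hz.em, hz.k0.ge, hz.G0.le⟩

namespace WReg

lemma y4 (hz : WReg γ z) : z.1 ^ 2 ≤ 4 := by
  have := hz.ey
  have := hz.m0
  have := hz.m1
  nlinarith

lemma n_ge (hz : WReg γ z) : kf γ z + γ.g1 / 2 * z.1 ^ 2 ≤ 1 - z.2.1 := by
  have h1 := hz.y4
  have h2 := γ.h1
  have h3 := γ.h3
  have h4 := γ.h4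
  have h5 : γ.g2 * z.1 ^ 2 ≤ γ.g1 / 2 := by nlinarith
  have h6 : γ.g2 * z.1 ^ 4 ≤ γ.g1 / 2 * z.1 ^ 2 := by
    have : γ.g2 * z.1 ^ 4 = γ.g2 * z.1 ^ 2 * z.1 ^ 2 := by ring
    rw [this]
    exact mul_le_mul_of_nonneg_right h5 (sq_nonneg _)
  unfold kf
  linarith

lemma mu_nonneg (hz : WReg γ z) : 0 ≤ muS z := by
  have := hz.ey
  unfold muS
  linarith

lemma R_ge {c : ℕ} (hc : 1 ≤ c) (hz : WReg γ z) :
    γ.g1 / 4 * z.2.1 ^ 2 * (z.2.2 + z.1 ^ 2 + (1 - z.2.1) ^ 2) ≤ RR c z.2.1 z.2.2 := by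
  have h1 := hz.n_ge
  have hg := γ.h1
  have hg2 := γ.h2
  have h4 := hz.k0
  have hm0 := hz.m0
  have hm1 := hz.m1
  have hG := hz.G0
  have hc' : (1:ℝ) ≤ c := by exact_mod_cast hc
  have hm2 : 0 ≤ z.2.1 ^ 2 := by positivity
  have hm3 : z.2.1 ^ 2 ≤ 1 := by nlinarith
  have a1 : (1 - z.2.1) * z.2.1 ^ 2 ≤ c * (1 - z.2.1) * z.2.1 ^ 2 := by
    have : 0 ≤ (1 - z.2.1) * z.2.1 ^ 2 := mul_nonneg (by linarith) hm2
    nlinarith
  have a2 : (1 - z.2.1) ^ 2 / 2 + γ.g1 / 4 * z.1 ^ 2 ≤ 1 - z.2.1 := by nlinarith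
  have a3 := mul_le_mul_of_nonneg_right a2 hm2
  have a4 : γ.g1 / 4 * z.2.1 ^ 2 * z.2.2 ≤ z.2.2 := by
    have : γ.g1 / 4 * z.2.1 ^ 2 ≤ 1 := by nlinarith
    nlinarith
  have a5 : γ.g1 / 4 * z.2.1 ^ 2 * (1 - z.2.1) ^ 2 ≤ (1 - z.2.1) ^ 2 / 2 * z.2.1 ^ 2 := by
    have : γ.g1 / 4 ≤ 1 / 2 := by linarith
    have h5 : 0 ≤ z.2.1 ^ 2 * (1 - z.2.1) ^ 2 := by positivity
    nlinarith
  unfold RR
  nlinarith

lemma RR_nonneg {c : ℕ} (hc : 1 ≤ c) (hz : WReg γ z) : 0 ≤ RR c z.2.1 z.2.2 := by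
  have h1 := hz.R_ge hc
  have h2 := γ.h1
  have h3 := hz.G0
  refine le_trans ?_ h1
  positivity

/-- `μ^N ≤ μ m^n` -/
lemma mu_pow_le (hz : WReg γ z) {N n : ℕ} (h : n + 1 ≤ N) :
    muS z ^ N ≤ muS z * z.2.1 ^ n := by
  have h0 := hz.mu_nonneg
  have h1 : muS z ≤ z.2.1 ^ 2 := by
    unfold muS
    nlinarith [sq_nonneg z.1]
  have hm0 := hz.m0
  have hm1 := hz.m1
  obtain ⟨l, rfl⟩ : ∃ l, N = l + 1 := ⟨N - 1, by omega⟩
  rw [pow_succ, mul_comm]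
  apply mul_le_mul_of_nonneg_left _ h0
  calc muS z ^ l ≤ (z.2.1 ^ 2) ^ l := pow_le_pow_left₀ h0 h1 l
    _ = z.2.1 ^ (2 * l) := by rw [pow_mul]
    _ ≤ z.2.1 ^ n := pow_le_pow_of_le_one hm0.le hm1 (by omega)

end WReg

lemma one_sub_m_pos (hz : z ∈ Reg γ) (hG : z.2.2 = 0) : z.2.1 < 1 := by
  have h1 := (wreg_of_reg hz).n_ge
  have h2 := γ.h1
  have h3 := hz.ns
  have h4 := hz.k0
  rcases eq_or_ne z.1 0 with h0 | h0
  · rw [h0, hG] at h3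
    have : 0 < kf γ z := by nlinarith
    rw [h0] at h1
    nlinarith
  · have : 0 < z.1 ^ 2 := by positivity
    nlinarith

lemma D_pos (hz : z ∈ Reg γ) : 0 < z.2.2 + z.1 ^ 2 + (1 - z.2.1) ^ 2 := by
  have hG := hz.G0
  rcases hG.lt_or_eq with h | h
  · positivity
  · have := one_sub_m_pos hz h.symm
    have : 0 < (1 - z.2.1) ^ 2 := by
      have : 0 < 1 - z.2.1 := by linarith
      positivity
    positivity

lemma RR_pos {c : ℕ} (hc : 1 ≤ c) (hz : z ∈ Reg γ) : 0 < RR c z.2.1 z.2.2 := by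
  have h1 := (wreg_of_reg hz).R_ge hc
  have h2 := D_pos hz
  have h3 := hz.m0
  have h4 := γ.h1
  refine lt_of_lt_of_le ?_ h1
  positivity

lemma S_pos {C : Crt} (hc : 1 ≤ C.c) (hz : z ∈ Reg γ) : 0 < C.S z.2.1 z.2.2 := by
  have h1 := RR_pos hc hz
  have h3 := hz.m0
  unfold Crt.S SS
  positivity

lemma RR_pos' {c : ℕ} (hc : 1 ≤ c) (hz : WReg γ z) (hG : 0 < z.2.2) : 0 < RR c z.2.1 z.2.2 := by
  have h1 := hz.R_ge hc
  have h3 := hz.m0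
  have h4 := γ.h1
  refine lt_of_lt_of_le ?_ h1
  positivity

lemma S_pos' {C : Crt} (hc : 1 ≤ C.c) (hz : WReg γ z) (hG : 0 < z.2.2) :
    0 < C.S z.2.1 z.2.2 := by
  have h1 := RR_pos' hc hz hG
  have h3 := hz.m0
  unfold Crt.S SS
  positivity

end bounds

/-! ### interior -/

/-- the interior inequality on the open region, as delivered by the exact check (`F3_of_ZF`). -/
def INT (γ : Pm) (C : Crt) (e1 e3 : ℝ) : Prop :=
  ∀ z : E3, OReg γ z → ∀ q : ℝ, 0 < q → q ^ 2 = z.2.2 → ∀ h k : ℝ,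
    (4 * z.2.1 ^ 2 - z.1 ^ 2) / (384 * z.2.1 ^ 2) *
      (e1 * RR C.c z.2.1 z.2.2 + e3 * (k - z.1 / (4 * z.2.1) * q) ^ 2) ≤
      F3 0 C.A C.B C.W z (X0 Fs z) (K0 Fs z) q h k

/-- upper bound of the target -/
lemma tgt_le {γ : Pm} {z : E3} {c : ℝ} {N : ℕ} (hz : WReg γ z) (hc : 0 ≤ c) (hN : 1 ≤ N) (k : ℝ) :
    c * o0 N z + c * o2 N z * k ^ 2 ≤
      2 * c * muS z * (z.2.2 + z.1 ^ 2 + (1 - z.2.1) ^ 2 + k ^ 2) := by
  have hmu := hz.mu_nonneg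
  have hpow := hz.mu_pow_le (n := 0) (N := N) (by omega)
  rw [pow_zero, mul_one] at hpow
  have hG := hz.G0
  obtain ⟨D, hD⟩ : ∃ D, D = z.2.2 + z.1 ^ 2 + (1 - z.2.1) ^ 2 := ⟨_, rfl⟩
  have hD0 : 0 ≤ D := by rw [hD]; positivity
  have e2 : o2 N z = 2 * muS z ^ N := rfl
  have e0 : o0 N z ≤ 2 * muS z ^ N * D := by
    have : o0 N z = muS z ^ N * (z.2.2 / 2 + 2 * (z.2.1 - 1) ^ 2 + z.1 ^ 2 / 2) := rfl
    rw [this, mul_right_comm, mul_comm (muS z ^ N)]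
    apply mul_le_mul_of_nonneg_right _ (by positivity)
    rw [hD]
    nlinarith [sq_nonneg z.1, sq_nonneg (1 - z.2.1)]
  rw [← hD, e2]
  have h1 : c * o0 N z ≤ c * (2 * muS z ^ N * D) := mul_le_mul_of_nonneg_left e0 hc
  calc c * o0 N z + c * (2 * muS z ^ N) * k ^ 2
      ≤ c * (2 * muS z ^ N * D) + c * (2 * muS z ^ N) * k ^ 2 := by linarith
    _ = (2 * c * (D + k ^ 2)) * muS z ^ N := by ring
    _ ≤ (2 * c * (D + k ^ 2)) * muS z := mul_le_mul_of_nonneg_left hpow (by positivity)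
    _ = _ := by ring

/-- upper bound of the target by the margin -/
lemma target_le {γ : Pm} {C : Crt} {z : E3} {e1 e3 c k q : ℝ} {N : ℕ} (hC : 1 ≤ C.c)
    (hz : WReg γ z) (he1 : 0 < e1) (he3 : 0 < e3) (hc0 : 0 < c)
    (hc1 : 1152 * c ≤ γ.g1 * e1) (hc3 : 384 * c ≤ e3) (hN : 1 ≤ N) (hq : q ^ 2 = z.2.2) :
    c * o0 N z + c * o2 N z * k ^ 2 ≤
    (4 * z.2.1 ^ 2 - z.1 ^ 2) / (384 * z.2.1 ^ 2) *
      (e1 * RR C.c z.2.1 z.2.2 + e3 * (k - z.1 / (4 * z.2.1) * q) ^ 2) := by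
  have hm0 := hz.m0
  have hm1 := hz.m1
  have hmu := hz.mu_nonneg
  have hRg := hz.R_ge hC
  have hG := hz.G0
  have hg := γ.h1
  refine (tgt_le hz hc0.le hN k).trans ?_
  obtain ⟨D, hD⟩ : ∃ D, D = z.2.2 + z.1 ^ 2 + (1 - z.2.1) ^ 2 := ⟨_, rfl⟩
  have hD0 : 0 ≤ D := by rw [hD]; positivity
  have hDG : z.2.2 ≤ D := by rw [hD]; nlinarith [sq_nonneg z.1, sq_nonneg (1 - z.2.1)]
  rw [← hD] at hRg ⊢
  obtain ⟨k', hk'⟩ : ∃ k', k' = k - z.1 / (4 * z.2.1) * q := ⟨_, rfl⟩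
  have hk : k ^ 2 ≤ 2 * k' ^ 2 + D / 2 := by
    have h1 : (z.1 / (4 * z.2.1) * q) ^ 2 ≤ z.2.2 / 4 := by
      rw [mul_pow, hq, div_pow, div_mul_eq_mul_div, div_le_iff₀ (by positivity)]
      have := hz.ey
      nlinarith
    have h2 : k = k' + z.1 / (4 * z.2.1) * q := by rw [hk']; ring
    rw [h2]
    nlinarith [sq_nonneg (k' - z.1 / (4 * z.2.1) * q)]
  rw [← hk']
  have hm2 : z.2.1 ^ 2 ≤ 1 := by nlinarith
  have e : (4 * z.2.1 ^ 2 - z.1 ^ 2) / (384 * z.2.1 ^ 2) *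
      (e1 * RR C.c z.2.1 z.2.2 + e3 * k' ^ 2) =
      muS z * ((e1 * RR C.c z.2.1 z.2.2 + e3 * k' ^ 2) / (96 * z.2.1 ^ 2)) := by
    unfold muS
    field_simp
    ring
  rw [e, show 2 * c * muS z * (D + k ^ 2) = muS z * (2 * c * (D + k ^ 2)) by ring]
  apply mul_le_mul_of_nonneg_left _ hmu
  rw [le_div_iff₀ (by positivity)]
  have b1 : 288 * c * z.2.1 ^ 2 * D ≤ e1 * RR C.c z.2.1 z.2.2 := by
    have h1 : (1152 * c) * (γ.g1 / 4 * z.2.1 ^ 2 * D) ≤ (γ.g1 * e1) * RR C.c z.2.1 z.2.2 :=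
      mul_le_mul hc1 hRg (by positivity) (by positivity)
    have h2 : γ.g1 * (288 * c * z.2.1 ^ 2 * D) ≤ γ.g1 * (e1 * RR C.c z.2.1 z.2.2) := by
      refine le_trans (le_of_eq ?_) (h1.trans (le_of_eq ?_)) <;> ring
    exact le_of_mul_le_mul_left h2 hg
  have b3 : 384 * c * z.2.1 ^ 2 * k' ^ 2 ≤ e3 * k' ^ 2 := by
    apply mul_le_mul_of_nonneg_right _ (sq_nonneg _)
    nlinarith
  have b4 : 2 * c * (D + k ^ 2) * (96 * z.2.1 ^ 2) ≤
      2 * c * (3 / 2 * D + 2 * k' ^ 2) * (96 * z.2.1 ^ 2) := by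
    apply mul_le_mul_of_nonneg_right _ (by positivity)
    apply mul_le_mul_of_nonneg_left _ (by positivity)
    linarith
  refine b4.trans ?_
  linarith

/-- **the `3 × 3` inequality on the closed region.** -/
theorem f3_of_INT {γ : Pm} {C : Crt} {e1 e3 c : ℝ} {N : ℕ} (hC : 1 ≤ C.c)
    (he1 : 0 < e1) (he3 : 0 < e3) (hI : INT γ C e1 e3) (hc0 : 0 < c)
    (hc1 : 1152 * c ≤ γ.g1 * e1) (hc3 : 384 * c ≤ e3) (hN : 1 ≤ N)
    {z : E3} (hz : z ∈ Reg γ) {q : ℝ} (hq0 : 0 ≤ q) (hq : q ^ 2 = z.2.2) (h k : ℝ) :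
    c * o0 N z + c * o2 N z * k ^ 2 ≤ F3 0 C.A C.B C.W z (X0 Fs z) (K0 Fs z) q h k := by
  -- the open region
  have hopen : ∀ z' q', OReg γ z' → 0 < q' → q' ^ 2 = z'.2.2 →
      (c * o0 N z' + c * o2 N z' * k ^ 2) * C.S z'.2.1 z'.2.2 ≤
        EE C z' q' (X0 Fs z') (K0 Fs z') h k := by
    intro z' q' hz' hq0' hq'
    have hw := wreg_of_oreg hz'
    have hG' := hz'.G0
    have hRp := RR_pos' hC hw hG'
    have hSp := S_pos' (C := C) hC hw hG'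
    have hm' := hz'.m0
    have h1 := hI z' hz' q' hq0' hq' h k
    have h2 := target_le (C := C) (k := k) hC hw he1 he3 hc0 hc1 hc3 hN hq'
    have h3 := mul_le_mul_of_nonneg_right (h2.trans h1) hSp.le
    have h5 := Crt.form_F3 (C := C) (z := z') hm'.ne' hRp.ne' hq' (X0 Fs z') (K0 Fs z') h k
    unfold EE
    rw [← h5]
    exact h3
  -- closure
  have hcl := le_of_open (γ := γ) (z := z) (q := q)
    (L := fun p => (c * o0 N p.1 + c * o2 N p.1 * k ^ 2) * C.S p.1.2.1 p.1.2.2)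
    (R := fun p => EE C p.1 p.2 (X0 Fs p.1) (K0 Fs p.1) h k) hz hq0 hq ?_ ?_ hopen
  · have hRp := RR_pos hC hz
    have hSp := S_pos (C := C) hC hz
    have h5 := Crt.form_F3 (C := C) (z := z) hz.m0.ne' hRp.ne' hq (X0 Fs z) (K0 Fs z) h k
    have h6 : (c * o0 N z + c * o2 N z * k ^ 2) * C.S z.2.1 z.2.2 ≤
        F3 0 C.A C.B C.W z (X0 Fs z) (K0 Fs z) q h k * C.S z.2.1 z.2.2 := by
      rw [h5]; exact hcl
    exact le_of_mul_le_mul_right h6 hSp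
  · have h1 : Continuous (fun z : E3 => C.S z.2.1 z.2.2) := S_cont C
    have h2 : Continuous (fun p : E3 × ℝ => C.S p.1.2.1 p.1.2.2) := h1.comp continuous_fst
    have h3 : Continuous (fun p : E3 × ℝ => c * o0 N p.1 + c * o2 N p.1 * k ^ 2) := by
      unfold o0 o2
      fun_prop
    exact (h3.mul h2).continuousAt
  · exact EE_contAt C (continuous_X0.comp continuous_fst).continuousAt
      (continuous_K0.comp continuous_fst).continuousAt continuousAt_const h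

/-! ### contact -/

/-- the contact inequalities on the open part of the contact curve, as delivered by the exact
check: vertex `x = E/κ₁`, `y = x/2` and vertex `x = -E/κ₂`, `y = -x/2`. -/
structure CON (C : Crt) (e : ℝ) (a : ℕ) : Prop where
  v1 : ∀ z : E3, OCon ACpm z → 0 < Ec ACpm z → ∀ q : ℝ, 0 < q → q ^ 2 = z.2.2 → ∀ h : ℝ,
    e * muS z ^ a * z.1 ^ 8 ≤ C.S z.2.1 z.2.2 * F3 0 C.A C.B C.W z
      (X0 Fs z + Ec ACpm z / (1 / 2 - dG ACpm z.1))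
      (K0 Fs z + Ec ACpm z / (1 / 2 - dG ACpm z.1) / 2) q h (dG ACpm z.1 * q)
  v2 : ∀ z : E3, OCon ACpm z → 0 < Ec ACpm z → ∀ q : ℝ, 0 < q → q ^ 2 = z.2.2 → ∀ h : ℝ,
    e * muS z ^ a * z.1 ^ 8 ≤ C.S z.2.1 z.2.2 * F3 0 C.A C.B C.W z
      (X0 Fs z + -(Ec ACpm z / (1 / 2 + dG ACpm z.1)))
      (K0 Fs z + Ec ACpm z / (1 / 2 + dG ACpm z.1) / 2) q h (dG ACpm z.1 * q)

/-- `G ≤ 10 η²` where the sources are present -/
lemma G_le_con {z : E3} (hz : WReg ACpm z) (hk : kf ACpm z = 0) (hE : 0 < Ec ACpm z) :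
    z.2.2 ≤ 10 * z.1 ^ 2 := by
  obtain ⟨η, m, G⟩ := z
  have hm0 := hz.m0
  have hm1 := hz.m1
  have hey := hz.ey
  have hG := hz.G0
  simp only [kf_AC] at hk
  simp only at hm0 hm1 hey hG ⊢
  have hy4 : η ^ 2 ≤ 4 := by nlinarith
  have hm : m = 1 - 7 / 40 * η ^ 2 + 1 / 125 * η ^ 4 := by linarith
  have e : Ec ACpm (η, m, G) = η ^ 2 * (-7 / 20 + 4 / 125 * η ^ 2) * (1 - 3 * m ^ 2 - η ^ 2 / 4) -
      m * (1 - m ^ 2 - 3 / 4 * η ^ 2) - (7 / 20 - 12 / 125 * η ^ 2) * G := by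
    simp only [Ec, dG, ddG, Fs, ACpm]
    ring
  rw [e] at hE
  obtain ⟨y, hy⟩ : ∃ y, y = η ^ 2 := ⟨_, rfl⟩
  have hy0 : 0 ≤ y := by rw [hy]; positivity
  have e4 : η ^ 4 = y ^ 2 := by rw [hy]; ring
  rw [e4] at hm
  rw [← hy] at hE hey hy4 hm ⊢
  -- `y ≤ 2`
  have hy2 : y ≤ 2 := by
    by_contra hcon
    push Not at hcon
    have h1 : m ≤ 341 / 500 := by rw [hm]; nlinarith
    nlinarith
  have a1 : 3 / 20 * G ≤ (7 / 20 - 12 / 125 * y) * G := by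
    apply mul_le_mul_of_nonneg_right _ hG
    linarith
  have a2 : y * (-7 / 20 + 4 / 125 * y) * (1 - 3 * m ^ 2 - y / 4) ≤ 7 / 10 * y := by
    have b1 : 0 ≤ 7 / 20 - 4 / 125 * y := by linarith
    have b2 : 3 * m ^ 2 + y / 4 - 1 ≤ 2 := by
      have c1 : y / 4 ≤ 3 * (1 - m) := by rw [hm]; nlinarith
      nlinarith
    have b3 : y * (7 / 20 - 4 / 125 * y) * (3 * m ^ 2 + y / 4 - 1) ≤
        y * (7 / 20 - 4 / 125 * y) * 2 := mul_le_mul_of_nonneg_left b2 (by positivity)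
    nlinarith
  have a3 : -(m * (1 - m ^ 2 - 3 / 4 * y)) ≤ 3 / 4 * y := by
    have b1 : 0 ≤ m * (1 - m ^ 2) := mul_nonneg hm0.le (by nlinarith)
    nlinarith
  linarith

/-- bounds of `R` and of the target weight where the sources are present -/
lemma R_le_con {z : E3} (c : ℕ) (hz : WReg ACpm z) (hk : kf ACpm z = 0) (hE : 0 < Ec ACpm z) :
    RR c z.2.1 z.2.2 ≤ (10 + c) * z.1 ^ 2 ∧
      z.2.2 + z.1 ^ 2 + (1 - z.2.1) ^ 2 ≤ 12 * z.1 ^ 2 := by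
  have h1 := G_le_con hz hk hE
  have hm0 := hz.m0
  have hm1 := hz.m1
  have hy4 := hz.y4
  rw [kf_AC] at hk
  have hm : 1 - z.2.1 ≤ 7 / 40 * z.1 ^ 2 := by
    have : 0 ≤ z.1 ^ 4 := by positivity
    linarith
  have hc : (0:ℝ) ≤ c := Nat.cast_nonneg c
  constructor
  · unfold RR
    have h2 : c * (1 - z.2.1) * z.2.1 ^ 2 ≤ c * (1 * z.1 ^ 2) := by
      rw [mul_assoc]
      apply mul_le_mul_of_nonneg_left _ hc
      have : z.2.1 ^ 2 ≤ 1 := by nlinarith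
      nlinarith [sq_nonneg z.1]
    linarith
  · have : (1 - z.2.1) ^ 2 ≤ 1 - z.2.1 := by nlinarith
    nlinarith [sq_nonneg z.1]

lemma dG_le {z : E3} (hz : WReg ACpm z) (hk : kf ACpm z = 0) : |dG ACpm z.1| ≤ 12 / 25 := by
  obtain ⟨η, m, G⟩ := z
  have hm0 := hz.m0
  have hey := hz.ey
  have hm1 := hz.m1
  simp only [kf_AC] at hk
  simp only at hm0 hm1 hey ⊢
  have hm : m = 1 - 7 / 40 * η ^ 2 + 1 / 125 * η ^ 4 := by linarith
  have hy2 : η ^ 2 ≤ 49 / 25 := by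
    by_contra hcon
    push Not at hcon
    have hy4 : η ^ 2 ≤ 4 := by nlinarith
    have h1 : m ≤ 13775 / 20000 := by
      rw [hm]
      nlinarith
    nlinarith
  have ha : |η| ≤ 7 / 5 := by
    apply abs_le_of_sq_le_sq _ (by norm_num)
    linarith
  have e : dG ACpm η = -(η * (7 / 20 - 4 / 125 * η ^ 2)) := by
    simp only [dG, ACpm]; ring
  rw [e, abs_neg, abs_mul]
  have h0 := abs_nonneg η
  have hs : |η| ^ 2 = η ^ 2 := sq_abs η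
  have h2 : 0 ≤ 7 / 20 - 4 / 125 * η ^ 2 := by linarith
  rw [abs_of_nonneg h2, ← hs]
  rw [← hs] at hy2
  nlinarith [mul_nonneg h0 h0]

/-- domination at contact -/
lemma con_target {C : Crt} {z : E3} {e c q : ℝ} {a N : ℕ} (hC : 1 ≤ C.c) (hz : WReg ACpm z)
    (hk : kf ACpm z = 0) (hE : 0 < Ec ACpm z) (hc0 : 0 < c)
    (hc1 : c * (48 * (10 + C.c) ^ 3) ≤ e) (hN : a + 1 ≤ N) (hq : q ^ 2 = z.2.2) :
    C.S z.2.1 z.2.2 * (c * o0 N z + c * o2 N z * (dG ACpm z.1 * q) ^ 2) ≤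
      e * muS z ^ a * z.1 ^ 8 := by
  obtain ⟨hR, hD⟩ := R_le_con C.c hz hk hE
  have hR0 := hz.RR_nonneg hC
  have hmu := hz.mu_nonneg
  have hm0 := hz.m0
  have hm1 := hz.m1
  have hG := hz.G0
  have hmu1 : muS z ≤ 1 := by
    unfold muS
    nlinarith [sq_nonneg z.1]
  have hd := dG_le hz hk
  have hd2 : (dG ACpm z.1 * q) ^ 2 ≤ z.2.2 + z.1 ^ 2 + (1 - z.2.1) ^ 2 := by
    rw [mul_pow, hq, ← sq_abs (dG ACpm z.1)]
    have h1 : |dG ACpm z.1| ^ 2 ≤ 1 := by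
      have := abs_nonneg (dG ACpm z.1)
      nlinarith
    nlinarith [sq_nonneg z.1, sq_nonneg (1 - z.2.1)]
  obtain ⟨D, hDd⟩ : ∃ D, D = z.2.2 + z.1 ^ 2 + (1 - z.2.1) ^ 2 := ⟨_, rfl⟩
  rw [← hDd] at hD hd2
  have hD0 : 0 ≤ D := by rw [hDd]; positivity
  have hpow : muS z ^ N ≤ muS z ^ a := pow_le_pow_of_le_one hmu hmu1 (by omega)
  have h1 : c * o0 N z + c * o2 N z * (dG ACpm z.1 * q) ^ 2 ≤ 4 * c * muS z ^ a * D := by
    have e2 : o2 N z = 2 * muS z ^ N := rfl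
    have e0 : o0 N z ≤ 2 * muS z ^ N * D := by
      have : o0 N z = muS z ^ N * (z.2.2 / 2 + 2 * (z.2.1 - 1) ^ 2 + z.1 ^ 2 / 2) := rfl
      rw [this, mul_right_comm, mul_comm (muS z ^ N)]
      apply mul_le_mul_of_nonneg_right _ (by positivity)
      rw [hDd]
      nlinarith [sq_nonneg z.1, sq_nonneg (1 - z.2.1)]
    rw [e2]
    have b1 : c * o0 N z ≤ c * (2 * muS z ^ N * D) := mul_le_mul_of_nonneg_left e0 hc0.le
    have b2 : c * (2 * muS z ^ N) * (dG ACpm z.1 * q) ^ 2 ≤ c * (2 * muS z ^ N) * D :=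
      mul_le_mul_of_nonneg_left hd2 (by positivity)
    calc c * o0 N z + c * (2 * muS z ^ N) * (dG ACpm z.1 * q) ^ 2
        ≤ (4 * c * D) * muS z ^ N := by linarith
      _ ≤ (4 * c * D) * muS z ^ a := mul_le_mul_of_nonneg_left hpow (by positivity)
      _ = _ := by ring
  have hS : C.S z.2.1 z.2.2 ≤ ((10 + C.c) * z.1 ^ 2) ^ 3 := by
    have e1 : C.S z.2.1 z.2.2 = z.2.1 ^ (C.p + 1) * RR C.c z.2.1 z.2.2 ^ 3 := rfl
    rw [e1]
    calc z.2.1 ^ (C.p + 1) * RR C.c z.2.1 z.2.2 ^ 3 ≤ 1 * RR C.c z.2.1 z.2.2 ^ 3 :=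
          mul_le_mul_of_nonneg_right (pow_le_one₀ hm0.le hm1) (by positivity)
      _ ≤ _ := by rw [one_mul]; exact pow_le_pow_left₀ hR0 hR 3
  have hS0 : 0 ≤ C.S z.2.1 z.2.2 := by
    have e1 : C.S z.2.1 z.2.2 = z.2.1 ^ (C.p + 1) * RR C.c z.2.1 z.2.2 ^ 3 := rfl
    rw [e1]; positivity
  calc C.S z.2.1 z.2.2 * (c * o0 N z + c * o2 N z * (dG ACpm z.1 * q) ^ 2)
      ≤ C.S z.2.1 z.2.2 * (4 * c * muS z ^ a * D) := mul_le_mul_of_nonneg_left h1 hS0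
    _ ≤ ((10 + C.c) * z.1 ^ 2) ^ 3 * (4 * c * muS z ^ a * (12 * z.1 ^ 2)) := by
        apply mul_le_mul hS _ (by positivity) (by positivity)
        exact mul_le_mul_of_nonneg_left hD (by positivity)
    _ = (c * (48 * (10 + C.c) ^ 3)) * (muS z ^ a * z.1 ^ 8) := by ring
    _ ≤ e * (muS z ^ a * z.1 ^ 8) := mul_le_mul_of_nonneg_right hc1 (by positivity)
    _ = _ := by ring

/-- general closure at contact -/
theorem vtx_of_open {C : Crt} {e c : ℝ} {a N : ℕ} (hC : 1 ≤ C.c) (hc0 : 0 < c)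
    (hc1 : c * (48 * (10 + C.c) ^ 3) ≤ e) (hN : a + 1 ≤ N) {x y : E3 → ℝ}
    (H : ∀ z : E3, OCon ACpm z → 0 < Ec ACpm z → ∀ q : ℝ, 0 < q → q ^ 2 = z.2.2 → ∀ h : ℝ,
      e * muS z ^ a * z.1 ^ 8 ≤ C.S z.2.1 z.2.2 * F3 0 C.A C.B C.W z (X0 Fs z + x z)
        (K0 Fs z + y z) q h (dG ACpm z.1 * q))
    {z : E3} (hx : ContinuousAt x z) (hy : ContinuousAt y z)
    (hz : z ∈ Reg ACpm) (hk : kf ACpm z = 0) (hE : 0 < Ec ACpm z) {q : ℝ} (hq0 : 0 ≤ q)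
    (hq : q ^ 2 = z.2.2) :
    VtxAt Fs 0 C.A C.B C.W (fun z => c * o0 N z) (fun z => c * o2 N z) z q (dG ACpm z.1)
      (x z) (y z) := by
  intro h
  have hopen : ∀ z' q', OCon ACpm z' → 0 < Ec ACpm z' → 0 < q' → q' ^ 2 = z'.2.2 →
      (c * o0 N z' + c * o2 N z' * (dG ACpm z'.1 * q') ^ 2) * C.S z'.2.1 z'.2.2 ≤
        EE C z' q' (X0 Fs z' + x z') (K0 Fs z' + y z') h (dG ACpm z'.1 * q') := by
    intro z' q' hz' hE' hq0' hq'
    have hw := wreg_of_ocon hz'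
    have hG' := hz'.G0
    have hRp := RR_pos' hC hw hG'
    have hm' := hz'.m0
    have h1 := H z' hz' hE' q' hq0' hq' h
    have h2 := con_target (C := C) (a := a) (N := N) (e := e) hC hw hz'.k0 hE' hc0 hc1 hN hq'
    have h5 := Crt.form_F3 (C := C) (z := z') hm'.ne' hRp.ne' hq' (X0 Fs z' + x z')
      (K0 Fs z' + y z') h (dG ACpm z'.1 * q')
    unfold EE
    rw [← h5, mul_comm, mul_comm (F3 _ _ _ _ _ _ _ _ _ _)]
    exact h2.trans h1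
  have hcl := le_of_con (γ := ACpm) (z := z) (q := q)
    (L := fun p => (c * o0 N p.1 + c * o2 N p.1 * (dG ACpm p.1.1 * p.2) ^ 2) *
      C.S p.1.2.1 p.1.2.2)
    (R := fun p => EE C p.1 p.2 (X0 Fs p.1 + x p.1) (K0 Fs p.1 + y p.1) h
      (dG ACpm p.1.1 * p.2)) hz hk hE hq0 hq ?_ ?_ hopen
  · have hRp := RR_pos hC hz
    have hSp := S_pos (C := C) hC hz
    have h5 := Crt.form_F3 (C := C) (z := z) hz.m0.ne' hRp.ne' hq (X0 Fs z + x z)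
      (K0 Fs z + y z) h (dG ACpm z.1 * q)
    refine le_of_mul_le_mul_right ?_ hSp
    rw [h5]; exact hcl
  · have h1 : Continuous (fun z : E3 => C.S z.2.1 z.2.2) := S_cont C
    have h2 : Continuous (fun p : E3 × ℝ => C.S p.1.2.1 p.1.2.2) := h1.comp continuous_fst
    have h3 : Continuous (fun p : E3 × ℝ =>
        c * o0 N p.1 + c * o2 N p.1 * (dG ACpm p.1.1 * p.2) ^ 2) := by
      unfold o0 o2 dG
      fun_prop
    exact (h3.mul h2).continuousAt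
  · have hf : ContinuousAt (Prod.fst : E3 × ℝ → E3) (z, q) := continuousAt_fst
    have hx' : ContinuousAt (fun p : E3 × ℝ => x p.1) (z, q) :=
      ContinuousAt.comp (f := Prod.fst) (g := x) hx hf
    have hy' : ContinuousAt (fun p : E3 × ℝ => y p.1) (z, q) :=
      ContinuousAt.comp (f := Prod.fst) (g := y) hy hf
    have hk' : ContinuousAt (fun p : E3 × ℝ => dG ACpm p.1.1 * p.2) (z, q) := by
      unfold dG
      fun_prop
    exact EE_contAt C ((continuous_X0.comp continuous_fst).continuousAt.add hx')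
      ((continuous_K0.comp continuous_fst).continuousAt.add hy') hk' h

end Crest.Agent.R249.StK_912
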