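import Crest.Agent.R249.Cd3I_133
import Crest.Agent.R249.Cd3Ia_133
import Crest.Agent.R249.Cd3Ib_133
import Crest.Agent.R249.Cd3VI_133
import Crest.Agent.R249.Cd3VII_133
import Crest.Agent.R249.Cd3II_133
import Crest.Agent.R249.CovB_621
import Crest.Agent.R249.StKb_912

/-!
# Row 249, part A (helper133): the interior inequality of the certificate from the `7` PSD statements

`PsdAll` : positive semidefiniteness of the chart matrices on their boxes, where `k > 0`;
`int_of_psd : PsdAll → INT ACpm C709 8 8`.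
-/

set_option autoImplicit false
set_option linter.unusedVariables false

open Set Filter Topology
open scoped ContDiff

noncomputable section

namespace Crest.Agent.R249.Cd133

open Ker254 Brg133 Sym467 CovA621 StK_912

/-- the statements checked by the kernel -/
structure PsdAll : Prop where
  pI : ∀ w v T : ℝ, 0 ≤ w → 10 * w ≤ 3 → 0 ≤ v → 4 * v ≤ 1 → 1 ≤ 10 * T → T ≤ 9 →
    0 < ev3 w v T KI → ∀ u s t : ℝ, 0 ≤ qf (ev3 w v T PI00) (ev3 w v T PI01) (ev3 w v T PI02)
      (ev3 w v T PI11) (ev3 w v T PI12) (ev3 w v T PI22) u s t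
  pI' : ∀ w v T : ℝ, 0 ≤ w → 10 * w ≤ 3 → 1 ≤ 10 * v → 4 * v ≤ 1 → 0 ≤ T → 10 * T ≤ 1 →
    0 < ev3 w v T KI → ∀ u s t : ℝ, 0 ≤ qf (ev3 w v T PI00) (ev3 w v T PI01) (ev3 w v T PI02)
      (ev3 w v T PI11) (ev3 w v T PI12) (ev3 w v T PI22) u s t
  pIa : ∀ w b T : ℝ, 0 ≤ w → 10 * w ≤ 3 → 0 ≤ b → b ≤ 1 → 0 ≤ T → 10 * T ≤ 1 →
    0 < ev3 w b T KIa → ∀ u s t : ℝ, 0 ≤ qf (ev3 w b T PIa00) (ev3 w b T PIa01) (ev3 w b T PIa02)
      (ev3 w b T PIa11) (ev3 w b T PIa12) (ev3 w b T PIa22) u s t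
  pIb : ∀ w v a : ℝ, 0 ≤ w → 10 * w ≤ 3 → 0 ≤ v → 10 * v ≤ 1 → 0 ≤ a → a ≤ 1 →
    0 < ev3 w v a KIb → ∀ u s t : ℝ, 0 ≤ qf (ev3 w v a PIb00) (ev3 w v a PIb01) (ev3 w v a PIb02)
      (ev3 w v a PIb11) (ev3 w v a PIb12) (ev3 w v a PIb22) u s t
  pVI : ∀ p v s : ℝ, 0 ≤ p → 2 * p ≤ 1 → 0 ≤ v → 4 * v ≤ 1 → 0 ≤ s → 9 * s ≤ 1 →
    0 < ev3 p v s KVI → ∀ u a t : ℝ, 0 ≤ qf (ev3 p v s PVI00) (ev3 p v s PVI01) (ev3 p v s PVI02)
      (ev3 p v s PVI11) (ev3 p v s PVI12) (ev3 p v s PVI22) u a t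
  pVII : ∀ w v p : ℝ, 0 ≤ w → 10 * w ≤ 3 → 0 ≤ v → 4 * v ≤ 1 → 1 ≤ 2 * p →
    0 < ev3 w v p KVII → ∀ u s t : ℝ, 0 ≤ qf (ev3 w v p PVII00) (ev3 w v p PVII01)
      (ev3 w v p PVII02) (ev3 w v p PVII11) (ev3 w v p PVII12) (ev3 w v p PVII22) u s t
  pII : ∀ m v T : ℝ, 0 ≤ m → 10 * m ≤ 7 → 0 ≤ v → v ≤ 1 → 0 ≤ T →
    0 < ev3 m v T KII → ∀ u s t : ℝ, 0 ≤ qf (ev3 m v T PII00) (ev3 m v T PII01) (ev3 m v T PII02)
      (ev3 m v T PII11) (ev3 m v T PII12) (ev3 m v T PII22) u s t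

lemma dropI {w : ℝ} (h0 : 0 ≤ w) (h1 : 10 * w ≤ 3) :
    0 ≤ 184256000 - 4915200000 * w + 60039168000 * w ^ 2 - 135561216000 * w ^ 3 +
      109744128000 * w ^ 4 - 29491200000 * w ^ 5 := by
  have a1 : 0 ≤ (3 / 10 - w) * (w - 1 / 20) ^ 2 := mul_nonneg (by linarith) (sq_nonneg _)
  have a2 : 0 ≤ w ^ 4 * (1 - w) := mul_nonneg (by positivity) (by linarith)
  have a3 : 0 ≤ w ^ 4 := by positivity
  nlinarith [sq_nonneg (w - 11 / 250)]

lemma ev_HIa (w b T : ℝ) : ev3 w b T HIa = 184256000 - 4915200000 * w + 60039168000 * w ^ 2 -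
    135561216000 * w ^ 3 + 109744128000 * w ^ 4 - 29491200000 * w ^ 5 := by
  simp only [HIa, ev3, ev2, ev1]; push_cast; ring

lemma ev_HIb (w b T : ℝ) : ev3 w b T HIb = 184256000 - 4915200000 * w + 60039168000 * w ^ 2 -
    135561216000 * w ^ 3 + 109744128000 * w ^ 4 - 29491200000 * w ^ 5 := by
  simp only [HIb, ev3, ev2, ev1]; push_cast; ring

lemma ev_KI (w v T : ℝ) : ev3 w v T KI = 8 - 35 * v + 40 * w * v ^ 2 := by
  simp only [KI, ev3, ev2, ev1]; push_cast; ring
lemma ev_KIb (w v T : ℝ) : ev3 w v T KIb = 8 - 35 * v + 40 * w * v ^ 2 := by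
  simp only [KIb, ev3, ev2, ev1]; push_cast; ring
lemma ev_KVII (w v T : ℝ) : ev3 w v T KVII = 8 - 35 * v + 40 * w * v ^ 2 := by
  simp only [KVII, ev3, ev2, ev1]; push_cast; ring
lemma ev_KIa (w b T : ℝ) : ev3 w b T KIa = 8 - 35 * (T * b) + 40 * w * (T * b) ^ 2 := by
  simp only [KIa, ev3, ev2, ev1]; push_cast; ring
lemma ev_KVI (p v s : ℝ) : ev3 p v s KVI = 8 - 35 * v + 40 * (p * s) * v ^ 2 := by
  simp only [KVI, ev3, ev2, ev1]; push_cast; ring
lemma ev_KII (m v T : ℝ) : ev3 m v T KII = 250 - 250 * m - 175 * m ^ 2 * v + 32 * m ^ 4 * v ^ 2 := by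
  simp only [KII, ev3, ev2, ev1]; push_cast; ring

/-- positivity of `k` in box I -/
lemma kI {y m w v : ℝ} (hk : 0 < 1 - 7 / 40 * y + 1 / 125 * y ^ 2 - m) (hw : 0 < w)
    (hm : m = 1 - w) (hy : y = 25 * w * v) : 0 < 8 - 35 * v + 40 * w * v ^ 2 := by
  have e : 8 * (1 - 7 / 40 * y + 1 / 125 * y ^ 2 - m) = w * (8 - 35 * v + 40 * w * v ^ 2) := by
    rw [hm, hy]; ring
  have h : 0 < w * (8 - 35 * v + 40 * w * v ^ 2) := by rw [← e]; linarith
  exact (mul_pos_iff_of_pos_left hw).1 h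

/-- one chart -/
theorem goal_of_chart {H : Chart} {a b c : ℝ} (hc : ChartAt C709 H a b c) (hp : ChartPos H a b c)
    (he1 : H.e1 = 8) (he3 : H.e3 = 8) {z : E3} (hz : OReg ACpm z) {q : ℝ} (hq : 0 < q)
    (hqG : q ^ 2 = z.2.2) (hm : H.ma.ev a b c = z.2.1) (hy : H.ya.ev a b c = z.1 ^ 2)
    (hG : H.Ga.ev a b c = z.2.2) (hf : 4 * z.2.1 ^ 2 - z.1 ^ 2 ≤ H.f.ev a b c)
    (hP : ∀ u v s : ℝ, 0 ≤ qf (ev3 a b c H.P00) (ev3 a b c H.P01) (ev3 a b c H.P02)
      (ev3 a b c H.P11) (ev3 a b c H.P12) (ev3 a b c H.P22) u v s) (h k : ℝ) :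
    (4 * z.2.1 ^ 2 - z.1 ^ 2) / (384 * z.2.1 ^ 2) *
      (8 * RR C709.c z.2.1 z.2.2 + 8 * (k - z.1 / (4 * z.2.1) * q) ^ 2) ≤
      Eta467.F3 0 C709.A C709.B C709.W z (Eta467.X0 f0 z) (Eta467.K0 f0 z) q h k := by
  have hR : 0 < RR C709.c z.2.1 z.2.2 := by
    have h1 := hz.m0
    have h2 : 0 < 1 - z.2.1 := by linarith [hz.m1]
    have h3 := hz.G0
    show 0 < z.2.2 + ((C709.c : ℕ) : ℝ) * (1 - z.2.1) * z.2.1 ^ 2
    positivity
  have hS : 0 ≤ C709.S (H.ma.ev a b c) (q ^ 2) := by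
    rw [hm, hqG]
    exact (mul_pos (pow_pos hz.m0 _) (pow_pos hR _)).le
  have key := chart_sound hc hp hz.e0 hq.ne' hy.symm (hqG.trans hG.symm) hS hP
  rw [hm, he1, he3, hqG] at key
  exact F3_of_ZF (e1 := 8) (e3 := 8) hz.m0 hR hqG hf (by norm_num) (by norm_num) (fun h k => by
    have := key h k
    push_cast at this
    exact this) h k

/-- **the interior inequality.** -/
theorem int_of_psd (P : PsdAll) : INT ACpm C709 8 8 := by
  intro z hz q hq hqG h k
  have hm0 := hz.m0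
  have hm1 := hz.m1
  have hG0 := hz.G0
  have hy0 : 0 < z.1 ^ 2 := by have := hz.e0; positivity
  have hy4 : z.1 ^ 2 < 4 * z.2.1 ^ 2 := by
    have h1 := sq_lt_sq' (by linarith [abs_nonneg z.1, hz.em] : -(2 * z.2.1) < |z.1|) hz.em
    rw [sq_abs] at h1
    linarith
  have hk : 0 < 1 - 7 / 40 * z.1 ^ 2 + 1 / 125 * (z.1 ^ 2) ^ 2 - z.2.1 := by
    have := hz.k0
    rw [kf_AC] at this
    have e : (z.1 ^ 2) ^ 2 = z.1 ^ 4 := by ring
    rw [e]; exact this
  have hf4 : 4 * z.2.1 ^ 2 - z.1 ^ 2 ≤ 4 := by nlinarith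
  change (4 * z.2.1 ^ 2 - z.1 ^ 2) / (384 * z.2.1 ^ 2) *
      (8 * RR C709.c z.2.1 z.2.2 + 8 * (k - z.1 / (4 * z.2.1) * q) ^ 2) ≤
      Eta467.F3 0 C709.A C709.B C709.W z (Eta467.X0 f0 z) (Eta467.K0 f0 z) q h k
  obtain ⟨y, hy⟩ : ∃ y, y = z.1 ^ 2 := ⟨_, rfl⟩
  obtain ⟨m, hm⟩ : ∃ m, m = z.2.1 := ⟨_, rfl⟩
  obtain ⟨G, hG⟩ : ∃ G, G = z.2.2 := ⟨_, rfl⟩
  have b0 : 0 < m := hm ▸ hm0
  have b1 : m < 1 := hm ▸ hm1
  have b2 : 0 < y := hy ▸ hy0
  have b3 : y < 4 * m ^ 2 := by rw [hy, hm]; exact hy4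
  have b4 : 0 < 1 - 7 / 40 * y + 1 / 125 * y ^ 2 - m := by rw [hy, hm]; exact hk
  have b5 : 0 < G := hG ▸ hG0
  refine cover_cases (c := 20) (m1 := 7 / 10) (h1 := 1) (T0 := 1 / 10) (T1 := 9) (h0 := 2 / 5)
    (b0 := 4) (p0 := 1 / 2) (by norm_num) b0 b1 b2.le b3.le b4.le b5.le le_rfl (by norm_num)
    (by norm_num) ?_ ?_ ?_ ?_ ?_ ?_ ?_ ?_
  · -- II
    intro v T hv _ hv1 hT hm7 e1 e2
    have hv1' : v < 1 := by
      by_contra hcon
      push Not at hcon
      have : v = 1 := le_antisymm hv1 hcon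
      rw [e1, this] at b3
      linarith
    have hT0 : 0 < 1 + T := by linarith
    refine goal_of_chart (H := chII) (a := m) (b := v) (c := T) (atII m v T) ?_ rfl rfl hz hq hqG
      ?_ ?_ ?_ ?_ ?_ h k
    · have h1 : 0 < 1 - v := by linarith
      have h2 : 0 < 1 - m := by linarith
      constructor
      · simp only [chII, Ex.ev]; push_cast; positivity
      · simp only [chII, Ex.ev]; push_cast; positivity
      · exact le_rfl
      · simp only [chII, Ex.ev]; push_cast; positivity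
      · simp only [chII, Ex.ev]; push_cast; positivity
      · simp only [chII, Ex.ev]; push_cast; exact le_rfl
    · simp only [chII, Ex.ev]; rw [hm]
    · simp only [chII, Ex.ev]; push_cast; rw [← hy, e1]
    · simp only [chII, Ex.ev]; push_cast; rw [← hG, e2]
    · rw [← hm, ← hy, e1]; simp only [chII, Ex.ev]; push_cast
      exact le_of_eq (by ring)
    · refine P.pII m v T b0.le (by linarith) hv hv1 hT ?_
      rw [ev_KII]
      rw [e1] at b4
      have e : 250 * (1 - 7 / 40 * (4 * m ^ 2 * v) + 1 / 125 * (4 * m ^ 2 * v) ^ 2 - m) =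
        250 - 250 * m - 175 * m ^ 2 * v + 32 * m ^ 4 * v ^ 2 := by ring
      rw [← e]; linarith
  · -- IIb
    intro v T hv hv1 _ _ e1 _
    have : v = 1 := le_antisymm hv1 hv
    rw [e1, this] at b3
    exact absurd b3 (by linarith)
  · -- I
    intro w Th T hw hw1 hTh hTh1 hT0 hT1 em ey eG
    have hy' : y = 25 * w * (Th / 4) := by linarith
    have hkI := kI b4 hw em hy'
    have hm' : 0 < 1 - w := em ▸ b0
    refine goal_of_chart (H := chI) (a := w) (b := Th / 4) (c := T) (atI w (Th / 4) T) ?_ rfl rfl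
      hz hq hqG ?_ ?_ ?_ ?_ ?_ h k
    · have h1 : 0 < 1 + T := by linarith
      constructor
      · simp only [chI, Ex.ev]; push_cast; positivity
      · simp only [chI, Ex.ev]; push_cast; positivity
      · exact le_rfl
      · simp only [chI, Ex.ev]; push_cast; positivity
      · simp only [chI, Ex.ev]; push_cast; positivity
      · simp only [chI, Ex.ev]; push_cast; exact le_rfl
    · simp only [chI, Ex.ev]; push_cast; rw [← hm, em]
    · simp only [chI, Ex.ev]; push_cast; rw [← hy, hy']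
    · simp only [chI, Ex.ev]; push_cast; rw [← hG, eG, em]
    · simp only [chI, Ex.ev]; push_cast; exact hf4
    · exact P.pI w (Th / 4) T hw.le (by linarith) (by linarith) (by linarith) (by linarith) hT1
        (by rw [ev_KI]; exact hkI)
  · -- I'
    intro w Th T hw hw1 hTh hTh1 hT0 hT1 em ey eG
    have hy' : y = 25 * w * (Th / 4) := by linarith
    have hkI := kI b4 hw em hy'
    have hm' : 0 < 1 - w := em ▸ b0
    refine goal_of_chart (H := chI) (a := w) (b := Th / 4) (c := T) (atI w (Th / 4) T) ?_ rfl rfl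
      hz hq hqG ?_ ?_ ?_ ?_ ?_ h k
    · have h1 : 0 < 1 + T := by linarith
      constructor
      · simp only [chI, Ex.ev]; push_cast; positivity
      · simp only [chI, Ex.ev]; push_cast; positivity
      · exact le_rfl
      · simp only [chI, Ex.ev]; push_cast; positivity
      · simp only [chI, Ex.ev]; push_cast; positivity
      · simp only [chI, Ex.ev]; push_cast; exact le_rfl
    · simp only [chI, Ex.ev]; push_cast; rw [← hm, em]
    · simp only [chI, Ex.ev]; push_cast; rw [← hy, hy']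
    · simp only [chI, Ex.ev]; push_cast; rw [← hG, eG, em]
    · simp only [chI, Ex.ev]; push_cast; exact hf4
    · exact P.pI' w (Th / 4) T hw.le (by linarith) (by linarith) (by linarith) hT0 (by linarith)
        (by rw [ev_KI]; exact hkI)
  · -- Ia
    intro w b T hw hw1 hb hb1 hT0 hT1 em ey eG
    have hy' : y = 25 * w * (T * (b / 4)) := by linarith
    have hkI := kI b4 hw em hy'
    have hm' : 0 < 1 - w := em ▸ b0
    have hd := dropI hw.le (by linarith : 10 * w ≤ 3)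
    refine goal_of_chart (H := chIa) (a := w) (b := b / 4) (c := T) (atIa w (b / 4) T) ?_ rfl rfl
      hz hq hqG ?_ ?_ ?_ ?_ ?_ h k
    · constructor
      · simp only [chIa, Ex.ev]; push_cast; positivity
      · simp only [chIa, Ex.ev]; push_cast; positivity
      · exact le_rfl
      · simp only [chIa, Ex.ev]; push_cast; positivity
      · simp only [chIa, Ex.ev]; push_cast; positivity
      · simp only [chIa, Ex.ev, ev_v, ev_HIa]; push_cast
        refine mul_nonneg ?_ hd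
        positivity
    · simp only [chIa, Ex.ev]; push_cast; rw [← hm, em]
    · simp only [chIa, Ex.ev]; push_cast; rw [← hy, hy']
    · simp only [chIa, Ex.ev]; push_cast; rw [← hG, eG, em]
    · simp only [chIa, Ex.ev]; push_cast; exact hf4
    · exact P.pIa w (b / 4) T hw.le (by linarith) (by linarith) (by linarith) hT0.le (by linarith)
        (by rw [ev_KIa]; exact hkI)
  · -- Ib
    intro w Th a hw hw1 hTh hTh1 ha ha1 em ey eG
    have hy' : y = 25 * w * (Th / 4) := by linarith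
    have hkI := kI b4 hw em hy'
    have hm' : 0 < 1 - w := em ▸ b0
    have hd := dropI hw.le (by linarith : 10 * w ≤ 3)
    refine goal_of_chart (H := chIb) (a := w) (b := Th / 4) (c := 4 * a) (atIb w (Th / 4) (4 * a))
      ?_ rfl rfl hz hq hqG ?_ ?_ ?_ ?_ ?_ h k
    · constructor
      · simp only [chIb, Ex.ev]; push_cast; positivity
      · simp only [chIb, Ex.ev]; push_cast; positivity
      · exact le_rfl
      · simp only [chIb, Ex.ev]; push_cast; positivity
      · simp only [chIb, Ex.ev]; push_cast; positivity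
      · simp only [chIb, Ex.ev, ev_v, ev_HIb]; push_cast
        refine mul_nonneg ?_ hd
        positivity
    · simp only [chIb, Ex.ev]; push_cast; rw [← hm, em]
    · simp only [chIb, Ex.ev]; push_cast; rw [← hy, hy']
    · simp only [chIb, Ex.ev]; push_cast; rw [← hG, eG, em]; ring
    · simp only [chIb, Ex.ev]; push_cast; exact hf4
    · exact P.pIb w (Th / 4) (4 * a) hw.le (by linarith) (by linarith) (by linarith) (by linarith)
        (by linarith) (by rw [ev_KIb]; exact hkI)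
  · -- VI
    intro p s Th hp hp1 hs hs1 hTh hTh1 hps em ey eG
    have hps0 : 0 < p * s := mul_pos hp hs
    have hy' : y = 25 * (p * s) * (Th / 4) := by linarith
    have hkI := kI b4 hps0 em hy'
    have hm' : 0 < 1 - p * s := em ▸ b0
    refine goal_of_chart (H := chVI) (a := p) (b := Th / 4) (c := s) (atVI p (Th / 4) s)
      ?_ rfl rfl hz hq hqG ?_ ?_ ?_ ?_ ?_ h k
    · constructor
      · simp only [chVI, Ex.ev]; push_cast; positivity
      · simp only [chVI, Ex.ev]; push_cast; positivity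
      · exact le_rfl
      · simp only [chVI, Ex.ev]; push_cast; positivity
      · simp only [chVI, Ex.ev]; push_cast; positivity
      · simp only [chVI, Ex.ev]; push_cast; exact le_rfl
    · simp only [chVI, Ex.ev]; push_cast; rw [← hm, em]
    · simp only [chVI, Ex.ev]; push_cast; rw [← hy, hy']
    · simp only [chVI, Ex.ev]; push_cast; rw [← hG, eG, em]
    · simp only [chVI, Ex.ev]; push_cast; exact hf4
    · exact P.pVI p (Th / 4) s hp.le (by linarith) (by linarith) (by linarith) hs.le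
        (by linarith) (by rw [ev_KVI]; exact hkI)
  · -- VII
    intro w Th p hw hw1 hTh hTh1 hp _ em ey eG
    have hy' : y = 25 * w * (Th / 4) := by linarith
    have hkI := kI b4 hw em hy'
    have hm' : 0 < 1 - w := em ▸ b0
    have hp0 : 0 < p := by linarith
    refine goal_of_chart (H := chVII) (a := w) (b := Th / 4) (c := p) (atVII w (Th / 4) p)
      ?_ rfl rfl hz hq hqG ?_ ?_ ?_ ?_ ?_ h k
    · constructor
      · simp only [chVII, Ex.ev]; push_cast; positivity
      · simp only [chVII, Ex.ev]; push_cast; positivity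
      · exact le_rfl
      · simp only [chVII, Ex.ev]; push_cast; positivity
      · simp only [chVII, Ex.ev]; push_cast; positivity
      · simp only [chVII, Ex.ev]; push_cast; exact le_rfl
    · simp only [chVII, Ex.ev]; push_cast; rw [← hm, em]
    · simp only [chVII, Ex.ev]; push_cast; rw [← hy, hy']
    · simp only [chVII, Ex.ev]; push_cast; rw [← hG, eG, em]
    · simp only [chVII, Ex.ev]; push_cast; exact hf4
    · exact P.pVII w (Th / 4) p hw.le (by linarith) (by linarith) (by linarith) (by linarith)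
        (by rw [ev_KVII]; exact hkI)

end Crest.Agent.R249.Cd133
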