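import Mathlib

/-!
# R249 / A-CHK (helper378): straight line programs and kernel evaluation, part 1

`Ex` : expressions in variables `v i` (numerators), `w i` (denominators) and earlier results `r j`.
`evs V W P L` : values of a straight line program in a commutative ring.
`evsK` : the same over `ℤ`, with forced evaluation (fast in the kernel).
-/

set_option autoImplicit false

namespace Crest.Agent.R249.Chk378

/-- expressions -/
inductive Ex : Type
  | cp (n : ℕ)
  | cn (n : ℕ)
  | v (i : ℕ)
  | w (i : ℕ)
  | r (j : ℕ)
  | add (a b : Ex)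
  | sub (a b : Ex)
  | mul (a b : Ex)

/-- list lookup, kernel friendly -/
def nth {α : Type*} (l : List α) (i : ℕ) (d : α) : α :=
  List.rec (motive := fun _ => ℕ → α) (fun _ => d)
    (fun a _ ih i => Nat.rec (motive := fun _ => α) a (fun m _ => ih m) i) l i

@[simp] theorem nth_nil {α : Type*} (i : ℕ) (d : α) : nth ([] : List α) i d = d := rfl
@[simp] theorem nth_cons_zero {α : Type*} (a : α) (l : List α) (d : α) : nth (a :: l) 0 d = a := rfl
@[simp] theorem nth_cons_succ {α : Type*} (a : α) (l : List α) (i : ℕ) (d : α) :
    nth (a :: l) (i + 1) d = nth l i d := rfl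

theorem nth_map {α β : Type*} (f : α → β) (l : List α) (i : ℕ) (d : α) :
    nth (l.map f) i (f d) = f (nth l i d) := by
  induction l generalizing i with
  | nil => rfl
  | cons a l ih => cases i with
    | zero => rfl
    | succ i => simpa using ih i

/-! ## values in a commutative ring -/

section Ring
variable {R : Type*} [CommRing R]

/-- value of an expression -/
def Ex.ev (V W L : List R) : Ex → R
  | .cp n => (n : R)
  | .cn n => -(n : R)
  | .v i => nth V i 0
  | .w i => nth W i 0
  | .r j => nth L j 0
  | .add a b => a.ev V W L + b.ev V W L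
  | .sub a b => a.ev V W L - b.ev V W L
  | .mul a b => a.ev V W L * b.ev V W L

/-- values of a program; the latest value is in front -/
def evs (V W : List R) : List Ex → List R → List R
  | [], L => L
  | e :: P, L => evs V W P (e.ev V W L :: L)

@[simp] theorem evs_nil (V W L : List R) : evs V W [] L = L := rfl
@[simp] theorem evs_cons (V W L : List R) (e : Ex) (P : List Ex) :
    evs V W (e :: P) L = evs V W P (e.ev V W L :: L) := rfl

variable {R' : Type*} [CommRing R']

theorem Ex.ev_map (f : R →+* R') (V W L : List R) (e : Ex) :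
    f (e.ev V W L) = e.ev (V.map f) (W.map f) (L.map f) := by
  have h : ∀ (l : List R) (i : ℕ), nth (l.map f) i 0 = f (nth l i 0) := by
    intro l i
    have := nth_map f l i 0
    rwa [map_zero] at this
  induction e with
  | cp n => simp [Ex.ev]
  | cn n => simp [Ex.ev]
  | v i => simp only [Ex.ev, h]
  | w i => simp only [Ex.ev, h]
  | r j => simp only [Ex.ev, h]
  | add a b iha ihb => simp only [Ex.ev, map_add, iha, ihb]
  | sub a b iha ihb => simp only [Ex.ev, map_sub, iha, ihb]
  | mul a b iha ihb => simp only [Ex.ev, map_mul, iha, ihb]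

theorem evs_map (f : R →+* R') (V W : List R) (P : List Ex) (L : List R) :
    (evs V W P L).map f = evs (V.map f) (W.map f) P (L.map f) := by
  induction P generalizing L with
  | nil => rfl
  | cons e P ih => simp only [evs_cons, ih, List.map_cons, Ex.ev_map]

end Ring

/-! ## values of absolute values in a commutative semiring -/

section Semiring
variable {S : Type*} [CommSemiring S]

/-- upper bound evaluation: every `-` is replaced by `+` -/
def Ex.evA (V W L : List S) : Ex → S
  | .cp n => (n : S)
  | .cn n => (n : S)
  | .v i => nth V i 0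
  | .w i => nth W i 0
  | .r j => nth L j 0
  | .add a b => a.evA V W L + b.evA V W L
  | .sub a b => a.evA V W L + b.evA V W L
  | .mul a b => a.evA V W L * b.evA V W L

/-- upper bound evaluation of a program -/
def evsA (V W : List S) : List Ex → List S → List S
  | [], L => L
  | e :: P, L => evsA V W P (e.evA V W L :: L)

@[simp] theorem evsA_nil (V W L : List S) : evsA V W [] L = L := rfl
@[simp] theorem evsA_cons (V W L : List S) (e : Ex) (P : List Ex) :
    evsA V W (e :: P) L = evsA V W P (e.evA V W L :: L) := rfl

variable {S' : Type*} [CommSemiring S']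

theorem Ex.evA_map (f : S →+* S') (V W L : List S) (e : Ex) :
    f (e.evA V W L) = e.evA (V.map f) (W.map f) (L.map f) := by
  have h : ∀ (l : List S) (i : ℕ), nth (l.map f) i 0 = f (nth l i 0) := by
    intro l i
    have := nth_map f l i 0
    rwa [map_zero] at this
  induction e with
  | cp n => simp [Ex.evA]
  | cn n => simp [Ex.evA]
  | v i => simp only [Ex.evA, h]
  | w i => simp only [Ex.evA, h]
  | r j => simp only [Ex.evA, h]
  | add a b iha ihb => simp only [Ex.evA, map_add, iha, ihb]
  | sub a b iha ihb => simp only [Ex.evA, map_add, iha, ihb]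
  | mul a b iha ihb => simp only [Ex.evA, map_mul, iha, ihb]

theorem evsA_map (f : S →+* S') (V W : List S) (P : List Ex) (L : List S) :
    (evsA V W P L).map f = evsA (V.map f) (W.map f) P (L.map f) := by
  induction P generalizing L with
  | nil => rfl
  | cons e P ih => simp only [evsA_cons, ih, List.map_cons, Ex.evA_map]

end Semiring

/-! ## forced evaluation -/

/-- evaluate a natural number, then continue -/
def frc {α : Type*} (n : ℕ) (k : ℕ → α) : α :=
  Nat.rec (motive := fun _ => α) (k 0) (fun m _ => k (Nat.succ m)) n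

@[simp] theorem frc_eq {α : Type*} (n : ℕ) (k : ℕ → α) : frc n k = k n := by
  cases n <;> rfl

/-- evaluate an integer, then continue -/
noncomputable def frcI {α : Type*} (z : ℤ) (k : ℤ → α) : α :=
  Int.rec (motive := fun _ => α) (fun n => frc n (fun m => k (Int.ofNat m)))
    (fun n => frc n (fun m => k (Int.negSucc m))) z

@[simp] theorem frcI_eq {α : Type*} (z : ℤ) (k : ℤ → α) : frcI z k = k z := by
  cases z with
  | ofNat n => exact frc_eq n (fun m => k (Int.ofNat m))
  | negSucc n => exact frc_eq n (fun m => k (Int.negSucc m))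

/-- forced `-s` -/
noncomputable def ngK {α : Type*} (s : ℕ) (k : ℤ → α) : α :=
  Nat.rec (motive := fun _ => α) (k (Int.ofNat 0)) (fun p _ => k (Int.negSucc p)) s

theorem ngK_eq {α : Type*} (s : ℕ) (k : ℤ → α) : ngK s k = k (-(s : ℤ)) := by
  cases s <;> rfl

/-- forced `m - n` -/
noncomputable def sbK {α : Type*} (m n : ℕ) (k : ℤ → α) : α :=
  Bool.rec (motive := fun _ => α) (ngK (Nat.sub n m) k) (frc (Nat.sub m n) (fun s => k (Int.ofNat s)))
    (Nat.ble n m)

theorem sbK_eq {α : Type*} (m n : ℕ) (k : ℤ → α) : sbK m n k = k ((m : ℤ) - n) := by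
  unfold sbK
  cases h : Nat.ble n m with
  | true =>
    have h1 := Nat.le_of_ble_eq_true h
    show frc (Nat.sub m n) (fun s => k (Int.ofNat s)) = _
    rw [frc_eq]
    congr 1
    show ((m - n : ℕ) : ℤ) = _
    omega
  | false =>
    have h1 : ¬ n ≤ m := fun hc => by
      rw [Nat.ble_eq_true_of_le hc] at h
      exact Bool.noConfusion h
    show ngK (Nat.sub n m) k = _
    rw [ngK_eq]
    congr 1
    show -((n - m : ℕ) : ℤ) = _
    omega

/-- forced addition -/
noncomputable def addK {α : Type*} (x y : ℤ) (k : ℤ → α) : α :=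
  Int.rec (motive := fun _ => α)
    (fun m => Int.rec (motive := fun _ => α)
      (fun n => frc (Nat.add m n) (fun s => k (Int.ofNat s))) (fun n => sbK m (Nat.succ n) k) y)
    (fun m => Int.rec (motive := fun _ => α)
      (fun n => sbK n (Nat.succ m) k)
      (fun n => frc (Nat.add m n) (fun s => k (Int.negSucc (Nat.succ s)))) y) x

theorem addK_eq {α : Type*} (x y : ℤ) (k : ℤ → α) : addK x y k = k (x + y) := by
  cases x with
  | ofNat m => cases y with
    | ofNat n =>
      show frc (Nat.add m n) (fun s => k (Int.ofNat s)) = _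
      rw [frc_eq]
      rfl
    | negSucc n =>
      show sbK m (Nat.succ n) k = _
      rw [sbK_eq]
      congr 1
  | negSucc m => cases y with
    | ofNat n =>
      show sbK n (Nat.succ m) k = _
      rw [sbK_eq]
      congr 1
    | negSucc n =>
      show frc (Nat.add m n) (fun s => k (Int.negSucc (Nat.succ s))) = _
      rw [frc_eq]
      rfl

/-- forced negation -/
noncomputable def negK {α : Type*} (x : ℤ) (k : ℤ → α) : α :=
  Int.rec (motive := fun _ => α) (fun m => ngK m k) (fun m => k (Int.ofNat (Nat.succ m))) x

theorem negK_eq {α : Type*} (x : ℤ) (k : ℤ → α) : negK x k = k (-x) := by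
  cases x with
  | ofNat m =>
    show ngK m k = _
    rw [ngK_eq]
    rfl
  | negSucc m => rfl

/-- forced subtraction -/
noncomputable def subK {α : Type*} (x y : ℤ) (k : ℤ → α) : α := negK y (fun y' => addK x y' k)

theorem subK_eq {α : Type*} (x y : ℤ) (k : ℤ → α) : subK x y k = k (x - y) := by
  unfold subK
  rw [negK_eq, addK_eq, sub_eq_add_neg]

/-- forced multiplication -/
noncomputable def mulK {α : Type*} (x y : ℤ) (k : ℤ → α) : α :=
  Int.rec (motive := fun _ => α)
    (fun m => Int.rec (motive := fun _ => α)
      (fun n => frc (Nat.mul m n) (fun s => k (Int.ofNat s)))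
      (fun n => ngK (Nat.mul m (Nat.succ n)) k) y)
    (fun m => Int.rec (motive := fun _ => α)
      (fun n => ngK (Nat.mul (Nat.succ m) n) k)
      (fun n => frc (Nat.mul (Nat.succ m) (Nat.succ n)) (fun s => k (Int.ofNat s))) y) x

theorem mulK_eq {α : Type*} (x y : ℤ) (k : ℤ → α) : mulK x y k = k (x * y) := by
  cases x with
  | ofNat m => cases y with
    | ofNat n =>
      show frc (Nat.mul m n) (fun s => k (Int.ofNat s)) = _
      rw [frc_eq]
      rfl
    | negSucc n =>
      show ngK (Nat.mul m (Nat.succ n)) k = _
      rw [ngK_eq]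
      congr 1
  | negSucc m => cases y with
    | ofNat n =>
      show ngK (Nat.mul (Nat.succ m) n) k = _
      rw [ngK_eq]
      congr 1
    | negSucc n =>
      show frc (Nat.mul (Nat.succ m) (Nat.succ n)) (fun s => k (Int.ofNat s)) = _
      rw [frc_eq]
      congr 1

/-- forced evaluation over `ℤ` -/
noncomputable def Ex.evK {α : Type*} (V W L : List ℤ) (e : Ex) : (ℤ → α) → α :=
  Ex.rec (motive := fun _ => (ℤ → α) → α)
    (fun n k => k (Int.ofNat n))
    (fun n k => ngK n k)
    (fun i k => frcI (nth V i (Int.ofNat 0)) k)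
    (fun i k => frcI (nth W i (Int.ofNat 0)) k)
    (fun j k => frcI (nth L j (Int.ofNat 0)) k)
    (fun _ _ iha ihb k => iha (fun x => ihb (fun y => addK x y k)))
    (fun _ _ iha ihb k => iha (fun x => ihb (fun y => subK x y k)))
    (fun _ _ iha ihb k => iha (fun x => ihb (fun y => mulK x y k))) e

theorem Ex.evK_eq {α : Type*} (V W L : List ℤ) (e : Ex) (k : ℤ → α) :
    e.evK V W L k = k (e.ev V W L) := by
  induction e generalizing k with
  | cp n => rfl
  | cn n => exact ngK_eq n k
  | v i => exact frcI_eq _ _
  | w i => exact frcI_eq _ _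
  | r j => exact frcI_eq _ _
  | add a b iha ihb =>
    show a.evK V W L (fun x => b.evK V W L (fun y => addK x y k)) = _
    rw [iha, ihb, addK_eq]
    rfl
  | sub a b iha ihb =>
    show a.evK V W L (fun x => b.evK V W L (fun y => subK x y k)) = _
    rw [iha, ihb, subK_eq]
    rfl
  | mul a b iha ihb =>
    show a.evK V W L (fun x => b.evK V W L (fun y => mulK x y k)) = _
    rw [iha, ihb, mulK_eq]
    rfl

/-- forced evaluation of a program -/
noncomputable def evsK {α : Type*} (V W : List ℤ) (P : List Ex) : List ℤ → (List ℤ → α) → α :=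
  List.rec (motive := fun _ => List ℤ → (List ℤ → α) → α) (fun L k => k L)
    (fun e _ ih L k => e.evK V W L (fun z => ih (z :: L) k)) P

theorem evsK_eq {α : Type*} (V W : List ℤ) (P : List Ex) (L : List ℤ) (k : List ℤ → α) :
    evsK V W P L k = k (evs V W P L) := by
  induction P generalizing L with
  | nil => rfl
  | cons e P ih =>
    show e.evK V W L (fun z => evsK V W P (z :: L) k) = _
    rw [Ex.evK_eq, ih]
    rfl

/-- forced upper bound evaluation over `ℕ` -/
noncomputable def Ex.evAK {α : Type*} (V W L : List ℕ) (e : Ex) : (ℕ → α) → α :=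
  Ex.rec (motive := fun _ => (ℕ → α) → α)
    (fun n k => k n)
    (fun n k => k n)
    (fun i k => frc (nth V i 0) k)
    (fun i k => frc (nth W i 0) k)
    (fun j k => frc (nth L j 0) k)
    (fun _ _ iha ihb k => iha (fun x => ihb (fun y => frc (Nat.add x y) k)))
    (fun _ _ iha ihb k => iha (fun x => ihb (fun y => frc (Nat.add x y) k)))
    (fun _ _ iha ihb k => iha (fun x => ihb (fun y => frc (Nat.mul x y) k))) e

theorem Ex.evAK_eq {α : Type*} (V W L : List ℕ) (e : Ex) (k : ℕ → α) :
    e.evAK V W L k = k (e.evA V W L) := by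
  induction e generalizing k with
  | cp n => simp only [Ex.evA, Nat.cast_id]; rfl
  | cn n => simp only [Ex.evA, Nat.cast_id]; rfl
  | v i => exact frc_eq _ _
  | w i => exact frc_eq _ _
  | r j => exact frc_eq _ _
  | add a b iha ihb =>
    show a.evAK V W L (fun x => b.evAK V W L (fun y => frc (Nat.add x y) k)) = _
    rw [iha, ihb, frc_eq]
    rfl
  | sub a b iha ihb =>
    show a.evAK V W L (fun x => b.evAK V W L (fun y => frc (Nat.add x y) k)) = _
    rw [iha, ihb, frc_eq]
    rfl
  | mul a b iha ihb =>
    show a.evAK V W L (fun x => b.evAK V W L (fun y => frc (Nat.mul x y) k)) = _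
    rw [iha, ihb, frc_eq]
    rfl

/-- forced upper bound evaluation of a program -/
noncomputable def evsAK {α : Type*} (V W : List ℕ) (P : List Ex) : List ℕ → (List ℕ → α) → α :=
  List.rec (motive := fun _ => List ℕ → (List ℕ → α) → α) (fun L k => k L)
    (fun e _ ih L k => e.evAK V W L (fun z => ih (z :: L) k)) P

theorem evsAK_eq {α : Type*} (V W : List ℕ) (P : List Ex) (L : List ℕ) (k : List ℕ → α) :
    evsAK V W P L k = k (evsA V W P L) := by
  induction P generalizing L with
  | nil => rfl
  | cons e P ih =>
    show e.evAK V W L (fun z => evsAK V W P (z :: L) k) = _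
    rw [Ex.evAK_eq, ih]
    rfl

end Crest.Agent.R249.Chk378
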