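import Crest.Agent.R249.Chk1_378

/-!
# R249 / A-CHK (helper378), part 2: multi-degrees and homogeneity
-/

set_option autoImplicit false

namespace Crest.Agent.R249.Chk378

/-- unit vector of length `n` -/
def unit (n i : ℕ) : List ℕ := (List.range n).map (fun j => if j = i then 1 else 0)

/-- multi-degree of an expression; `none` if it is not multi-homogeneous -/
def Ex.dg (n : ℕ) (L : List (List ℕ)) : Ex → Option (List ℕ)
  | .cp _ => some (List.replicate n 0)
  | .cn _ => some (List.replicate n 0)
  | .v i => if i < n then some (unit n i) else none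
  | .w i => if i < n then some (unit n i) else none
  | .r j => L[j]?
  | .add a b => (a.dg n L).bind fun d => (b.dg n L).bind fun d' => if d = d' then some d else none
  | .sub a b => (a.dg n L).bind fun d => (b.dg n L).bind fun d' => if d = d' then some d else none
  | .mul a b => (a.dg n L).bind fun d => (b.dg n L).bind fun d' =>
      some (List.zipWith (fun x y => x + y) d d')

/-- multi-degrees of the results of a program -/
def dgs (n : ℕ) : List Ex → List (List ℕ) → Option (List (List ℕ))
  | [], L => some L
  | e :: P, L => (e.dg n L).bind fun d => dgs n P (d :: L)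

/-- `∏ W_i ^ d_i` -/
def wpow {R : Type*} [CommMonoid R] : List R → List ℕ → R
  | w :: W, d :: ds => w ^ d * wpow W ds
  | _, _ => 1

section Wpow
variable {R : Type*} [CommMonoid R]

@[simp] theorem wpow_nil (ds : List ℕ) : wpow ([] : List R) ds = 1 := by cases ds <;> rfl
@[simp] theorem wpow_nil' (W : List R) : wpow W [] = 1 := by cases W <;> rfl
@[simp] theorem wpow_cons (w : R) (W : List R) (d : ℕ) (ds : List ℕ) :
    wpow (w :: W) (d :: ds) = w ^ d * wpow W ds := rfl

theorem wpow_zero (W : List R) (n : ℕ) : wpow W (List.replicate n 0) = 1 := by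
  induction W generalizing n with
  | nil => simp
  | cons w W ih => cases n with
    | zero => simp
    | succ n => simp [List.replicate_succ, ih]

theorem wpow_add (W : List R) (d d' : List ℕ) (h : d.length = d'.length) :
    wpow W (List.zipWith (fun x y => x + y) d d') = wpow W d * wpow W d' := by
  induction W generalizing d d' with
  | nil => simp
  | cons w W ih =>
    cases d with
    | nil => cases d' with
      | nil => simp
      | cons b d' => simp at h
    | cons a d => cases d' with
      | nil => simp at h
      | cons b d' =>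
        simp only [List.length_cons, add_left_inj] at h
        simp only [List.zipWith_cons_cons, wpow_cons, ih d d' h, pow_add]
        rw [mul_mul_mul_comm]

end Wpow

theorem unit_length (n i : ℕ) : (unit n i).length = n := by simp [unit]

theorem unit_zero (n : ℕ) : unit (n + 1) 0 = 1 :: List.replicate n 0 := by
  simp only [unit, List.range_succ_eq_map, List.map_cons, List.map_map, if_true]
  congr 1
  rw [List.eq_replicate_iff]
  simp

theorem unit_succ (n i : ℕ) : unit (n + 1) (i + 1) = 0 :: unit n i := by
  simp only [unit, List.range_succ_eq_map, List.map_cons, List.map_map]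
  congr 1
  apply List.map_congr_left
  intro j _
  simp

theorem wpow_unit {R : Type*} [CommMonoid R] (W : List R) (i : ℕ) (hi : i < W.length) (d : R) :
    wpow W (unit W.length i) = nth W i d := by
  induction W generalizing i with
  | nil => simp at hi
  | cons w W ih =>
    cases i with
    | zero => simp [unit_zero, wpow_zero]
    | succ i =>
      rw [List.length_cons, unit_succ]
      simp only [wpow_cons, pow_zero, one_mul, nth_cons_succ]
      exact ih i (by simpa using hi)

/-! ## homogeneity -/

/-- `L'` is the list `L` scaled by the monomials of the degrees `D` -/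
inductive Sc {R : Type*} [CommRing R] (W : List R) : List (List ℕ) → List R → List R → Prop
  | nil : Sc W [] [] []
  | cons {D : List (List ℕ)} {L L' : List R} (d : List ℕ) (x : R) (h : Sc W D L L') :
      Sc W (d :: D) (x :: L) (wpow W d * x :: L')

theorem Sc.nth {R : Type*} [CommRing R] {W : List R} {D : List (List ℕ)} {L L' : List R}
    (h : Sc W D L L') (j : ℕ) (d : List ℕ) (hd : D[j]? = some d) :
    nth L' j 0 = wpow W d * nth L j 0 := by
  induction h generalizing j with
  | nil => simp at hd
  | cons d' x h ih =>
    cases j with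
    | zero =>
      simp only [List.getElem?_cons_zero, Option.some.injEq] at hd
      subst hd
      rfl
    | succ j =>
      simp only [List.getElem?_cons_succ] at hd
      simpa using ih j hd

theorem Ex.dg_length {n : ℕ} {L : List (List ℕ)} (hL : ∀ d ∈ L, d.length = n) (e : Ex)
    {d : List ℕ} (h : e.dg n L = some d) : d.length = n := by
  induction e generalizing d with
  | cp m => simp only [Ex.dg, Option.some.injEq] at h; subst h; simp
  | cn m => simp only [Ex.dg, Option.some.injEq] at h; subst h; simp
  | v i =>
    simp only [Ex.dg] at h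
    split_ifs at h with hi
    simp only [Option.some.injEq] at h; subst h; exact unit_length _ _
  | w i =>
    simp only [Ex.dg] at h
    split_ifs at h with hi
    simp only [Option.some.injEq] at h; subst h; exact unit_length _ _
  | r j =>
    simp only [Ex.dg] at h
    exact hL d (List.mem_of_getElem? h)
  | add a b iha ihb =>
    simp only [Ex.dg, Option.bind_eq_some_iff] at h
    obtain ⟨x, hx, y, hy, h⟩ := h
    split_ifs at h with hxy
    simp only [Option.some.injEq] at h; subst h; exact iha hx
  | sub a b iha ihb =>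
    simp only [Ex.dg, Option.bind_eq_some_iff] at h
    obtain ⟨x, hx, y, hy, h⟩ := h
    split_ifs at h with hxy
    simp only [Option.some.injEq] at h; subst h; exact iha hx
  | mul a b iha ihb =>
    simp only [Ex.dg, Option.bind_eq_some_iff] at h
    obtain ⟨x, hx, y, hy, h⟩ := h
    simp only [Option.some.injEq] at h; subst h
    simp [iha hx, ihb hy]

/-- scaling of an expression -/
theorem Ex.ev_scale {R : Type*} [CommRing R] {V V' W O : List R} {n : ℕ}
    (hW : W.length = n)
    (hV : ∀ i < n, Chk378.nth V' i 0 = Chk378.nth W i 0 * Chk378.nth V i 0)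
    (hO : ∀ i < n, Chk378.nth O i 0 = 1)
    {D : List (List ℕ)} (hD : ∀ d ∈ D, d.length = n) {L L' : List R} (h : Sc W D L L')
    (e : Ex) {d : List ℕ} (hd : e.dg n D = some d) :
    e.ev V' W L' = wpow W d * e.ev V O L := by
  induction e generalizing d with
  | cp m =>
    simp only [Ex.dg, Option.some.injEq] at hd; subst hd
    simp [Ex.ev, wpow_zero]
  | cn m =>
    simp only [Ex.dg, Option.some.injEq] at hd; subst hd
    simp [Ex.ev, wpow_zero]
  | v i =>
    simp only [Ex.dg] at hd
    split_ifs at hd with hi
    simp only [Option.some.injEq] at hd; subst hd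
    subst hW
    simp only [Ex.ev, wpow_unit W i hi 0, hV i hi]
  | w i =>
    simp only [Ex.dg] at hd
    split_ifs at hd with hi
    simp only [Option.some.injEq] at hd; subst hd
    subst hW
    simp only [Ex.ev, wpow_unit W i hi 0, hO i hi, mul_one]
  | r j =>
    simp only [Ex.dg] at hd
    exact h.nth j d hd
  | add a b iha ihb =>
    simp only [Ex.dg, Option.bind_eq_some_iff] at hd
    obtain ⟨x, hx, y, hy, hd⟩ := hd
    split_ifs at hd with hxy
    simp only [Option.some.injEq] at hd; subst hd; subst hxy
    simp only [Ex.ev, iha hx, ihb hy]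
    ring
  | sub a b iha ihb =>
    simp only [Ex.dg, Option.bind_eq_some_iff] at hd
    obtain ⟨x, hx, y, hy, hd⟩ := hd
    split_ifs at hd with hxy
    simp only [Option.some.injEq] at hd; subst hd; subst hxy
    simp only [Ex.ev, iha hx, ihb hy]
    ring
  | mul a b iha ihb =>
    simp only [Ex.dg, Option.bind_eq_some_iff] at hd
    obtain ⟨x, hx, y, hy, hd⟩ := hd
    simp only [Option.some.injEq] at hd; subst hd
    rw [wpow_add _ _ _ ((Ex.dg_length hD a hx).trans (Ex.dg_length hD b hy).symm)]
    simp only [Ex.ev, iha hx, ihb hy]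
    ring

/-- scaling of a program -/
theorem evs_scale {R : Type*} [CommRing R] {V V' W O : List R} {n : ℕ}
    (hW : W.length = n)
    (hV : ∀ i < n, nth V' i 0 = nth W i 0 * nth V i 0)
    (hO : ∀ i < n, nth O i 0 = 1) (P : List Ex)
    {D : List (List ℕ)} (hD : ∀ d ∈ D, d.length = n) {L L' : List R} (h : Sc W D L L')
    {D' : List (List ℕ)} (hd : dgs n P D = some D') :
    Sc W D' (evs V O P L) (evs V' W P L') ∧ ∀ d ∈ D', d.length = n := by
  induction P generalizing D L L' with
  | nil =>
    simp only [dgs, Option.some.injEq] at hd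
    subst hd
    exact ⟨h, hD⟩
  | cons e P ih =>
    simp only [dgs, Option.bind_eq_some_iff] at hd
    obtain ⟨d, hd, hd'⟩ := hd
    simp only [evs_cons]
    rw [Ex.ev_scale hW hV hO hD h e hd]
    refine ih ?_ (Sc.cons d _ h) hd'
    intro d' hd'
    rcases List.mem_cons.1 hd' with rfl | hd'
    · exact Ex.dg_length hD e hd
    · exact hD d' hd'

/-! ## degree bounds for the polynomial values -/

open MvPolynomial in
/-- degree bound -/
def DB (G : MvPolynomial ℕ ℤ) (d : List ℕ) : Prop := ∀ i, G.degreeOf i ≤ nth d i 0

theorem nth_replicate_zero (n i : ℕ) : nth (List.replicate n 0) i 0 = 0 := by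
  induction n generalizing i with
  | zero => rfl
  | succ n ih => cases i with
    | zero => rfl
    | succ i => simpa [List.replicate_succ] using ih i

theorem nth_unit (n i j : ℕ) (hi : i < n) : nth (unit n i) j 0 = if j = i then 1 else 0 := by
  induction n generalizing i j with
  | zero => omega
  | succ n ih =>
    cases i with
    | zero =>
      rw [unit_zero]
      cases j with
      | zero => rfl
      | succ j => simp [nth_replicate_zero]
    | succ i =>
      rw [unit_succ]
      cases j with
      | zero => simp
      | succ j => simpa using ih i j (by omega)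

theorem nth_zipWith_add (d d' : List ℕ) (h : d.length = d'.length) (i : ℕ) :
    nth (List.zipWith (fun x y => x + y) d d') i 0 = nth d i 0 + nth d' i 0 := by
  induction d generalizing d' i with
  | nil => cases d' with
    | nil => rfl
    | cons b d' => simp at h
  | cons a d ih => cases d' with
    | nil => simp at h
    | cons b d' => cases i with
      | zero => rfl
      | succ i => simpa using ih d' (by simpa using h) i

inductive DBs : List (List ℕ) → List (MvPolynomial ℕ ℤ) → Prop
  | nil : DBs [] []
  | cons {D : List (List ℕ)} {L : List (MvPolynomial ℕ ℤ)} {d : List ℕ} {G : MvPolynomial ℕ ℤ}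
      (hG : DB G d) (h : DBs D L) : DBs (d :: D) (G :: L)

theorem DBs.nth {D : List (List ℕ)} {L : List (MvPolynomial ℕ ℤ)} (h : DBs D L) (j : ℕ)
    {d : List ℕ} (hd : D[j]? = some d) : DB (nth L j 0) d := by
  induction h generalizing j with
  | nil => simp at hd
  | cons hG h ih =>
    cases j with
    | zero =>
      simp only [List.getElem?_cons_zero, Option.some.injEq] at hd
      subst hd
      exact hG
    | succ j =>
      simp only [List.getElem?_cons_succ] at hd
      simpa using ih j hd

theorem Ex.ev_DB {V W : List (MvPolynomial ℕ ℤ)} {n : ℕ}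
    (hV : ∀ i < n, DB (Chk378.nth V i 0) (unit n i))
    (hW : ∀ i < n, DB (Chk378.nth W i 0) (unit n i))
    {D : List (List ℕ)} (hD : ∀ d ∈ D, d.length = n) {L : List (MvPolynomial ℕ ℤ)} (h : DBs D L)
    (e : Ex) {d : List ℕ} (hd : e.dg n D = some d) : DB (e.ev V W L) d := by
  induction e generalizing d with
  | cp m =>
    intro i
    simp only [Ex.dg, Option.some.injEq] at hd; subst hd
    simp only [Ex.ev, nth_replicate_zero, nonpos_iff_eq_zero]
    have : ((m : ℕ) : MvPolynomial ℕ ℤ) = MvPolynomial.C (m : ℤ) := by simp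
    rw [this, MvPolynomial.degreeOf_C]
  | cn m =>
    intro i
    simp only [Ex.dg, Option.some.injEq] at hd; subst hd
    simp only [Ex.ev, nth_replicate_zero, nonpos_iff_eq_zero]
    have : -((m : ℕ) : MvPolynomial ℕ ℤ) = MvPolynomial.C (-(m : ℤ)) := by simp
    rw [this, MvPolynomial.degreeOf_C]
  | v i =>
    simp only [Ex.dg] at hd
    split_ifs at hd with hi
    simp only [Option.some.injEq] at hd; subst hd
    exact hV i hi
  | w i =>
    simp only [Ex.dg] at hd
    split_ifs at hd with hi
    simp only [Option.some.injEq] at hd; subst hd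
    exact hW i hi
  | r j =>
    simp only [Ex.dg] at hd
    exact h.nth j hd
  | add a b iha ihb =>
    simp only [Ex.dg, Option.bind_eq_some_iff] at hd
    obtain ⟨x, hx, y, hy, hd⟩ := hd
    split_ifs at hd with hxy
    simp only [Option.some.injEq] at hd; subst hd; subst hxy
    intro i
    exact (MvPolynomial.degreeOf_add_le i _ _).trans (max_le (iha hx i) (ihb hy i))
  | sub a b iha ihb =>
    simp only [Ex.dg, Option.bind_eq_some_iff] at hd
    obtain ⟨x, hx, y, hy, hd⟩ := hd
    split_ifs at hd with hxy
    simp only [Option.some.injEq] at hd; subst hd; subst hxy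
    intro i
    simp only [Ex.ev, sub_eq_add_neg]
    refine (MvPolynomial.degreeOf_add_le i _ _).trans (max_le (iha hx i) ?_)
    have h1 : (-(b.ev V W L)) = MvPolynomial.C (-1) * b.ev V W L := by simp
    rw [h1]
    exact (MvPolynomial.degreeOf_C_mul_le _ _ _).trans (ihb hy i)
  | mul a b iha ihb =>
    simp only [Ex.dg, Option.bind_eq_some_iff] at hd
    obtain ⟨x, hx, y, hy, hd⟩ := hd
    simp only [Option.some.injEq] at hd; subst hd
    intro i
    rw [nth_zipWith_add _ _ ((Ex.dg_length hD a hx).trans (Ex.dg_length hD b hy).symm)]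
    exact (MvPolynomial.degreeOf_mul_le i _ _).trans (add_le_add (iha hx i) (ihb hy i))

theorem evs_DB {V W : List (MvPolynomial ℕ ℤ)} {n : ℕ}
    (hV : ∀ i < n, DB (nth V i 0) (unit n i))
    (hW : ∀ i < n, DB (nth W i 0) (unit n i)) (P : List Ex)
    {D : List (List ℕ)} (hD : ∀ d ∈ D, d.length = n) {L : List (MvPolynomial ℕ ℤ)} (h : DBs D L)
    {D' : List (List ℕ)} (hd : dgs n P D = some D') : DBs D' (evs V W P L) := by
  induction P generalizing D L with
  | nil =>
    simp only [dgs, Option.some.injEq] at hd
    subst hd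
    exact h
  | cons e P ih =>
    simp only [dgs, Option.bind_eq_some_iff] at hd
    obtain ⟨d, hd, hd'⟩ := hd
    simp only [evs_cons]
    refine ih ?_ (DBs.cons (Ex.ev_DB hV hW hD h e hd) h) hd'
    intro d' hd'
    rcases List.mem_cons.1 hd' with rfl | hd'
    · exact Ex.dg_length hD e hd
    · exact hD d' hd'

/-! ## domination -/

/-- coefficientwise domination -/
def Dom (G : MvPolynomial ℕ ℤ) (A : MvPolynomial ℕ ℕ) : Prop :=
  ∀ m, |G.coeff m| ≤ ((A.coeff m : ℕ) : ℤ)

theorem Dom.add {G G' : MvPolynomial ℕ ℤ} {A A' : MvPolynomial ℕ ℕ} (h : Dom G A)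
    (h' : Dom G' A') : Dom (G + G') (A + A') := by
  intro m
  simp only [MvPolynomial.coeff_add, Nat.cast_add]
  exact (abs_add_le _ _).trans (add_le_add (h m) (h' m))

theorem Dom.neg {G : MvPolynomial ℕ ℤ} {A : MvPolynomial ℕ ℕ} (h : Dom G A) : Dom (-G) A := by
  intro m
  rw [MvPolynomial.coeff_neg, abs_neg]
  exact h m

theorem Dom.sub {G G' : MvPolynomial ℕ ℤ} {A A' : MvPolynomial ℕ ℕ} (h : Dom G A)
    (h' : Dom G' A') : Dom (G - G') (A + A') := by
  rw [sub_eq_add_neg]
  exact h.add h'.neg

theorem Dom.mul {G G' : MvPolynomial ℕ ℤ} {A A' : MvPolynomial ℕ ℕ} (h : Dom G A)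
    (h' : Dom G' A') : Dom (G * G') (A * A') := by
  intro m
  rw [MvPolynomial.coeff_mul, MvPolynomial.coeff_mul, Nat.cast_sum]
  refine (Finset.abs_sum_le_sum_abs _ _).trans (Finset.sum_le_sum fun x _ => ?_)
  rw [abs_mul, Nat.cast_mul]
  exact mul_le_mul (h _) (h' _) (abs_nonneg _) ((abs_nonneg _).trans (h _))

theorem Dom.natCast (n : ℕ) : Dom ((n : ℕ) : MvPolynomial ℕ ℤ) ((n : ℕ) : MvPolynomial ℕ ℕ) := by
  intro m
  have h1 : ((n : ℕ) : MvPolynomial ℕ ℤ) = MvPolynomial.C (n : ℤ) := by simp
  have h2 : ((n : ℕ) : MvPolynomial ℕ ℕ) = MvPolynomial.C n := by simp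
  rw [h1, h2, MvPolynomial.coeff_C, MvPolynomial.coeff_C]
  split_ifs <;> simp

theorem Dom.zero : Dom 0 0 := by
  intro m; simp

inductive Doms : List (MvPolynomial ℕ ℤ) → List (MvPolynomial ℕ ℕ) → Prop
  | nil : Doms [] []
  | cons {L : List (MvPolynomial ℕ ℤ)} {L' : List (MvPolynomial ℕ ℕ)} {G : MvPolynomial ℕ ℤ}
      {A : MvPolynomial ℕ ℕ} (hG : Dom G A) (h : Doms L L') : Doms (G :: L) (A :: L')

theorem Doms.nth {L : List (MvPolynomial ℕ ℤ)} {L' : List (MvPolynomial ℕ ℕ)} (h : Doms L L')
    (j : ℕ) : Dom (nth L j 0) (nth L' j 0) := by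
  induction h generalizing j with
  | nil => exact Dom.zero
  | cons hG h ih =>
    cases j with
    | zero => exact hG
    | succ j => exact ih j

theorem Ex.ev_Dom {V W L : List (MvPolynomial ℕ ℤ)} {V' W' L' : List (MvPolynomial ℕ ℕ)}
    (hV : Doms V V') (hW : Doms W W') (hL : Doms L L') (e : Ex) :
    Dom (e.ev V W L) (e.evA V' W' L') := by
  induction e with
  | cp n => exact Dom.natCast n
  | cn n => exact (Dom.natCast n).neg
  | v i => exact hV.nth i
  | w i => exact hW.nth i
  | r j => exact hL.nth j
  | add a b iha ihb => exact iha.add ihb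
  | sub a b iha ihb => exact iha.sub ihb
  | mul a b iha ihb => exact iha.mul ihb

theorem evs_Dom {V W : List (MvPolynomial ℕ ℤ)} {V' W' : List (MvPolynomial ℕ ℕ)}
    (hV : Doms V V') (hW : Doms W W') (P : List Ex) {L : List (MvPolynomial ℕ ℤ)}
    {L' : List (MvPolynomial ℕ ℕ)} (hL : Doms L L') : Doms (evs V W P L) (evsA V' W' P L') := by
  induction P generalizing L L' with
  | nil => exact hL
  | cons e P ih => exact ih (Doms.cons (Ex.ev_Dom hV hW hL e) hL)

/-- a coefficient is at most the value at `1` -/
theorem coeff_le_eval_one (A : MvPolynomial ℕ ℕ) (m : ℕ →₀ ℕ) :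
    A.coeff m ≤ MvPolynomial.eval (fun _ => 1) A := by
  rw [MvPolynomial.eval_eq]
  simp only [one_pow, Finset.prod_const_one, mul_one]
  by_cases hm : m ∈ A.support
  · exact Finset.single_le_sum (f := fun d => A.coeff d) (fun _ _ => Nat.zero_le _) hm
  · rw [MvPolynomial.notMem_support_iff.1 hm]
    exact Nat.zero_le _

end Crest.Agent.R249.Chk378
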