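import Crest.Agent.R249.Chk2_378

/-!
# R249 / A-CHK (helper378), part 3: Kronecker substitution and digits
-/

set_option autoImplicit false

namespace Crest.Agent.R249.Chk378

open Finset

/-- mixed radix code of the multi-index `m` with bounds `Ds` -/
def phi : List ℕ → (ℕ → ℕ) → ℕ
  | [], _ => 0
  | D :: Ds, m => m 0 + D * phi Ds (fun i => m (i + 1))

theorem phi_lt (Ds : List ℕ) (m : ℕ → ℕ) (h : ∀ i < Ds.length, m i < nth Ds i 0) :
    phi Ds m < Ds.prod := by
  induction Ds generalizing m with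
  | nil => simp [phi]
  | cons D Ds ih =>
    have h0 : m 0 < D := h 0 (by simp)
    have h1 := ih (fun i => m (i + 1)) (fun i hi => h (i + 1) (by simpa using hi))
    simp only [phi, List.prod_cons]
    calc m 0 + D * phi Ds (fun i => m (i + 1)) < D + D * phi Ds (fun i => m (i + 1)) := by omega
      _ = D * (phi Ds (fun i => m (i + 1)) + 1) := by ring
      _ ≤ D * Ds.prod := Nat.mul_le_mul_left _ h1

theorem phi_inj (Ds : List ℕ) (m m' : ℕ → ℕ) (h : ∀ i < Ds.length, m i < nth Ds i 0)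
    (h' : ∀ i < Ds.length, m' i < nth Ds i 0) (he : phi Ds m = phi Ds m') :
    ∀ i < Ds.length, m i = m' i := by
  induction Ds generalizing m m' with
  | nil => intro i hi; simp at hi
  | cons D Ds ih =>
    have h0 : m 0 < D := h 0 (by simp)
    have h0' : m' 0 < D := h' 0 (by simp)
    simp only [phi] at he
    have e0 : m 0 = m' 0 := by
      have := congrArg (· % D) he
      simpa [Nat.add_mul_mod_self_left, Nat.mod_eq_of_lt h0, Nat.mod_eq_of_lt h0'] using this
    have e1 : phi Ds (fun i => m (i + 1)) = phi Ds (fun i => m' (i + 1)) := by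
      have hD : 0 < D := by omega
      rw [e0] at he
      exact Nat.eq_of_mul_eq_mul_left hD (Nat.add_left_cancel he)
    intro i hi
    cases i with
    | zero => exact e0
    | succ i =>
      exact ih (fun i => m (i + 1)) (fun i => m' (i + 1))
        (fun i hi => h (i + 1) (by simpa using hi)) (fun i hi => h' (i + 1) (by simpa using hi))
        e1 i (by simpa using hi)

/-- the points `β, β^{D₀}, β^{D₀D₁}, ...` -/
def qs : List ℕ → ℕ → List ℕ
  | [], _ => []
  | D :: Ds, β => β :: qs Ds (β ^ D)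

theorem qs_length (Ds : List ℕ) (β : ℕ) : (qs Ds β).length = Ds.length := by
  induction Ds generalizing β with
  | nil => rfl
  | cons D Ds ih => simp [qs, ih]

theorem prod_qs (Ds : List ℕ) (β : ℕ) (m : ℕ → ℕ) :
    ∏ i ∈ range Ds.length, (nth (qs Ds β) i 0) ^ m i = β ^ phi Ds m := by
  induction Ds generalizing β m with
  | nil => simp [phi]
  | cons D Ds ih =>
    rw [List.length_cons, Finset.prod_range_succ', phi, pow_add, pow_mul,
      ← ih (β ^ D) (fun i => m (i + 1))]
    simp only [qs, nth_cons_zero, nth_cons_succ]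
    rw [mul_comm]

/-! ## digits -/

/-- the powers `β^(2^(K-1)), ..., β^2, β` -/
def pw (β : ℕ) : ℕ → List ℕ
  | 0 => []
  | K + 1 => β ^ (2 ^ K) :: pw β K

/-- the digit test, divide and conquer -/
def lp (good : List ℕ → Bool) : List ℕ → List ℕ → Bool
  | [], Ms => good Ms
  | p :: ps, Ms => lp good ps (Ms.map (fun M => M % p)) && lp good ps (Ms.map (fun M => M / p))

theorem sum_lt_pow {β : ℕ} (u : ℕ → ℕ) (n : ℕ) (hu : ∀ k < n, u k < β) :
    ∑ k ∈ range n, u k * β ^ k < β ^ n := by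
  induction n with
  | zero => simp
  | succ n ih =>
    rw [Finset.sum_range_succ]
    have h1 := ih (fun k hk => hu k (by omega))
    have h2 : u n + 1 ≤ β := hu n (by omega)
    calc ∑ k ∈ range n, u k * β ^ k + u n * β ^ n < β ^ n + u n * β ^ n := by omega
      _ = (u n + 1) * β ^ n := by ring
      _ ≤ β * β ^ n := Nat.mul_le_mul_right _ h2
      _ = β ^ (n + 1) := by ring

theorem sum_split {β : ℕ} (u : ℕ → ℕ) (n : ℕ) :
    ∑ k ∈ range (n + n), u k * β ^ k =
      β ^ n * (∑ k ∈ range n, u (n + k) * β ^ k) + ∑ k ∈ range n, u k * β ^ k := by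
  rw [Finset.sum_range_add, add_comm, Finset.mul_sum]
  congr 1
  refine Finset.sum_congr rfl fun k _ => ?_
  rw [pow_add]
  ring

theorem lp_sound (good : List ℕ → Bool) (β : ℕ) (hβ : 0 < β) (K : ℕ) (us : List (ℕ → ℕ))
    (hu : ∀ u ∈ us, ∀ k < 2 ^ K, u k < β)
    (h : lp good (pw β K) (us.map (fun u => ∑ k ∈ range (2 ^ K), u k * β ^ k)) = true) :
    ∀ k < 2 ^ K, good (us.map (fun u => u k)) = true := by
  induction K generalizing us with
  | zero =>
    intro k hk
    have hk : k = 0 := by omega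
    subst hk
    simpa [lp, pw] using h
  | succ K ih =>
    have e2 : 2 ^ (K + 1) = 2 ^ K + 2 ^ K := by ring
    simp only [lp, pw, Bool.and_eq_true, List.map_map, e2] at h
    obtain ⟨h1, h2⟩ := h
    have hlt : ∀ u ∈ us, ∑ k ∈ range (2 ^ K), u k * β ^ k < β ^ 2 ^ K := fun u hu' =>
      sum_lt_pow u (2 ^ K) (fun k hk => hu u hu' k (by omega))
    have e1 : (us.map ((fun M => M % β ^ 2 ^ K) ∘
        fun u => ∑ k ∈ range (2 ^ K + 2 ^ K), u k * β ^ k)) =
        us.map (fun u => ∑ k ∈ range (2 ^ K), u k * β ^ k) := by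
      apply List.map_congr_left
      intro u hu'
      simp only [Function.comp]
      rw [sum_split, Nat.mul_add_mod, Nat.mod_eq_of_lt (hlt u hu')]
    have e3 : (us.map ((fun M => M / β ^ 2 ^ K) ∘
        fun u => ∑ k ∈ range (2 ^ K + 2 ^ K), u k * β ^ k)) =
        (us.map (fun u k => u (2 ^ K + k))).map
          (fun u => ∑ k ∈ range (2 ^ K), u k * β ^ k) := by
      rw [List.map_map]
      apply List.map_congr_left
      intro u hu'
      simp only [Function.comp]
      rw [sum_split, Nat.mul_add_div (by positivity), Nat.div_eq_of_lt (hlt u hu'), add_zero]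
    rw [e1] at h1
    rw [e3] at h2
    have g1 := ih us (fun u hu' k hk => hu u hu' k (by omega)) h1
    have g2 := ih (us.map (fun u k => u (2 ^ K + k))) (by
      intro u hu' k hk
      obtain ⟨v, hv, rfl⟩ := List.mem_map.1 hu'
      exact hu v hv (2 ^ K + k) (by omega)) h2
    intro k hk
    by_cases hk' : k < 2 ^ K
    · exact g1 k hk'
    · have := g2 (k - 2 ^ K) (by omega)
      rw [List.map_map] at this
      simp only [Function.comp_def] at this
      have e4 : 2 ^ K + (k - 2 ^ K) = k := by omega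
      simpa only [e4] using this

/-! ## coefficients of the polynomials from the digits -/

/-- multi-indices of `G` have exponents `< Ds` -/
def BB (Ds : List ℕ) (G : MvPolynomial ℕ ℤ) : Prop :=
  ∀ m ∈ G.support, (∀ i < Ds.length, m i < nth Ds i 0) ∧ ∀ i, Ds.length ≤ i → m i = 0

theorem BB_of_DB {Ds d : List ℕ} (hd : d.length = Ds.length)
    (hlt : ∀ i < Ds.length, nth d i 0 < nth Ds i 0) {G : MvPolynomial ℕ ℤ} (h : DB G d) :
    BB Ds G := by
  intro m hm
  have key : ∀ i, m i ≤ nth d i 0 := fun i =>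
    (MvPolynomial.monomial_le_degreeOf i hm).trans (h i)
  refine ⟨fun i hi => (key i).trans_lt (hlt i hi), fun i hi => ?_⟩
  have h0 : nth d i 0 = 0 := by
    have : ∀ (l : List ℕ) (i : ℕ), l.length ≤ i → nth l i 0 = 0 := by
      intro l
      induction l with
      | nil => intro i _; rfl
      | cons a l ih => intro i hi; cases i with
        | zero => simp at hi
        | succ i => simpa using ih i (by simpa using hi)
    exact this d i (by omega)
  have := key i
  omega

theorem eval_qs (Ds : List ℕ) (β : ℕ) (G : MvPolynomial ℕ ℤ) (hG : BB Ds G) :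
    MvPolynomial.eval (fun i => ((nth (qs Ds β) i 0 : ℕ) : ℤ)) G =
      ∑ m ∈ G.support, G.coeff m * (β : ℤ) ^ phi Ds m := by
  rw [MvPolynomial.eval_eq]
  refine Finset.sum_congr rfl fun m hm => ?_
  congr 1
  have h1 : ∏ i ∈ m.support, ((nth (qs Ds β) i 0 : ℕ) : ℤ) ^ m i =
      ∏ i ∈ range Ds.length, ((nth (qs Ds β) i 0 : ℕ) : ℤ) ^ m i := by
    refine Finset.prod_subset ?_ ?_
    · intro i hi
      rw [Finset.mem_range]
      by_contra hc
      have := (hG m hm).2 i (by omega)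
      simp [this] at hi
    · intro i _ hi
      simp only [Finsupp.mem_support_iff, not_not] at hi
      simp [hi]
  rw [h1]
  exact_mod_cast prod_qs Ds β m

/-- the coefficient with code `k` -/
noncomputable def cf (Ds : List ℕ) (G : MvPolynomial ℕ ℤ) (k : ℕ) : ℤ :=
  ∑ m ∈ G.support.filter (fun m : ℕ →₀ ℕ => phi Ds m = k), G.coeff m

theorem phi_injOn (Ds : List ℕ) {m m' : ℕ →₀ ℕ}
    (h : (∀ i < Ds.length, m i < nth Ds i 0) ∧ ∀ i, Ds.length ≤ i → m i = 0)
    (h' : (∀ i < Ds.length, m' i < nth Ds i 0) ∧ ∀ i, Ds.length ≤ i → m' i = 0)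
    (he : phi Ds m = phi Ds m') : m = m' := by
  ext i
  by_cases hi : i < Ds.length
  · exact phi_inj Ds m m' h.1 h'.1 he i hi
  · rw [h.2 i (by omega), h'.2 i (by omega)]

theorem cf_phi (Ds : List ℕ) {G : MvPolynomial ℕ ℤ} (hG : BB Ds G) (m : ℕ →₀ ℕ)
    (hm : (∀ i < Ds.length, m i < nth Ds i 0) ∧ ∀ i, Ds.length ≤ i → m i = 0) :
    cf Ds G (phi Ds m) = G.coeff m := by
  unfold cf
  by_cases hs : m ∈ G.support
  · have : (G.support.filter fun m' : ℕ →₀ ℕ => phi Ds m' = phi Ds m) = {m} := by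
      ext m'
      simp only [Finset.mem_filter, Finset.mem_singleton]
      constructor
      · rintro ⟨h1, h2⟩
        exact phi_injOn Ds (hG m' h1) hm h2
      · rintro rfl
        exact ⟨hs, rfl⟩
    rw [this, Finset.sum_singleton]
  · rw [MvPolynomial.notMem_support_iff.1 hs]
    have : (G.support.filter fun m' : ℕ →₀ ℕ => phi Ds m' = phi Ds m) = ∅ := by
      ext m'
      simp only [Finset.mem_filter, Finset.notMem_empty, iff_false, not_and]
      intro h1 h2
      have := phi_injOn Ds (hG m' h1) hm h2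
      subst this
      exact hs h1
    rw [this, Finset.sum_empty]

theorem cf_abs (Ds : List ℕ) {G : MvPolynomial ℕ ℤ} (hG : BB Ds G) {s : ℕ}
    (hs : ∀ m, |G.coeff m| ≤ (s : ℤ)) (k : ℕ) : |cf Ds G k| ≤ (s : ℤ) := by
  by_cases hk : ∃ m ∈ G.support, phi Ds m = k
  · obtain ⟨m, hm, rfl⟩ := hk
    rw [cf_phi Ds hG m (hG m hm)]
    exact hs m
  · have : (G.support.filter fun m' : ℕ →₀ ℕ => phi Ds m' = k) = ∅ := by
      ext m'
      simp only [Finset.mem_filter, Finset.notMem_empty, iff_false, not_and]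
      intro h1 h2
      exact hk ⟨m', h1, h2⟩
    unfold cf
    rw [this, Finset.sum_empty]
    simp

theorem eval_eq_cf (Ds : List ℕ) (β : ℕ) {G : MvPolynomial ℕ ℤ} (hG : BB Ds G) {N : ℕ}
    (hN : Ds.prod ≤ N) :
    MvPolynomial.eval (fun i => ((nth (qs Ds β) i 0 : ℕ) : ℤ)) G =
      ∑ k ∈ range N, cf Ds G k * (β : ℤ) ^ k := by
  rw [eval_qs Ds β G hG, ← Finset.sum_fiberwise_of_maps_to (s := G.support) (t := range N)
    (g := fun m : ℕ →₀ ℕ => phi Ds m)
    (fun m hm => Finset.mem_range.2 ((phi_lt Ds m (hG m hm).1).trans_le hN))]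
  refine Finset.sum_congr rfl fun k _ => ?_
  unfold cf
  rw [Finset.sum_mul]
  refine Finset.sum_congr rfl fun m hm => ?_
  rw [(Finset.mem_filter.1 hm).2]

/-- offset digits -/
noncomputable def dgt (Ds : List ℕ) (h : ℕ) (G : MvPolynomial ℕ ℤ) (k : ℕ) : ℕ :=
  (cf Ds G k + h).toNat

theorem dgt_cast (Ds : List ℕ) {h : ℕ} {G : MvPolynomial ℕ ℤ} {k : ℕ} (hk : |cf Ds G k| < (h : ℤ)) :
    ((dgt Ds h G k : ℕ) : ℤ) = cf Ds G k + h := by
  unfold dgt
  have := abs_lt.1 hk
  rw [Int.toNat_of_nonneg (by linarith)]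

theorem offset_eq (Ds : List ℕ) {h : ℕ} {G : MvPolynomial ℕ ℤ} (hG : BB Ds G)
    (hk : ∀ k, |cf Ds G k| < (h : ℤ)) (β : ℕ) {N : ℕ} (hN : Ds.prod ≤ N) :
    (MvPolynomial.eval (fun i => ((nth (qs Ds β) i 0 : ℕ) : ℤ)) G +
      ((∑ k ∈ range N, h * β ^ k : ℕ) : ℤ)).toNat =
      ∑ k ∈ range N, dgt Ds h G k * β ^ k := by
  have : MvPolynomial.eval (fun i => ((nth (qs Ds β) i 0 : ℕ) : ℤ)) G +
      ((∑ k ∈ range N, h * β ^ k : ℕ) : ℤ) =
      ((∑ k ∈ range N, dgt Ds h G k * β ^ k : ℕ) : ℤ) := by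
    rw [eval_eq_cf Ds β hG hN]
    push_cast
    rw [← Finset.sum_add_distrib]
    refine Finset.sum_congr rfl fun k _ => ?_
    rw [dgt_cast Ds (hk k)]
    ring
  rw [this, Int.toNat_natCast]

/-- soundness of the digit test for a list of polynomials -/
theorem lp_coeff (Ds : List ℕ) (h : ℕ) (hh : 0 < h) (good : List ℕ → Bool)
    (Gs : List (MvPolynomial ℕ ℤ))
    (hG : ∀ G ∈ Gs, BB Ds G) (hk : ∀ G ∈ Gs, ∀ m, |G.coeff m| < (h : ℤ)) (K : ℕ)
    (hK : Ds.prod ≤ 2 ^ K)
    (hlp : lp good (pw (2 * h) K) (Gs.map fun G =>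
      (MvPolynomial.eval (fun i => ((nth (qs Ds (2 * h)) i 0 : ℕ) : ℤ)) G +
      ((∑ k ∈ range (2 ^ K), h * (2 * h) ^ k : ℕ) : ℤ)).toNat) = true)
    (m : ℕ →₀ ℕ) (hm : (∀ i < Ds.length, m i < nth Ds i 0) ∧ ∀ i, Ds.length ≤ i → m i = 0) :
    good (Gs.map fun G => (G.coeff m + (h : ℤ)).toNat) = true := by
  have hk' : ∀ G ∈ Gs, ∀ k, |cf Ds G k| < (h : ℤ) := by
    intro G hGm k
    have h1 : ∀ m, |G.coeff m| ≤ ((h - 1 : ℕ) : ℤ) := by
      intro m
      have := hk G hGm m
      have h0 : 0 ≤ |G.coeff m| := abs_nonneg _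
      omega
    have h2 := cf_abs Ds (hG G hGm) h1 k
    omega
  have e : (Gs.map fun G =>
      (MvPolynomial.eval (fun i => ((nth (qs Ds (2 * h)) i 0 : ℕ) : ℤ)) G +
      ((∑ k ∈ range (2 ^ K), h * (2 * h) ^ k : ℕ) : ℤ)).toNat) =
      (Gs.map fun G => dgt Ds h G).map (fun u => ∑ k ∈ range (2 ^ K), u k * (2 * h) ^ k) := by
    rw [List.map_map]
    apply List.map_congr_left
    intro G hGm
    exact offset_eq Ds (hG G hGm) (hk' G hGm) (2 * h) hK
  rw [e] at hlp
  have := lp_sound good (2 * h) (by omega) K (Gs.map fun G => dgt Ds h G) (by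
    intro u hu k _
    obtain ⟨G, hGm, rfl⟩ := List.mem_map.1 hu
    have h1 := dgt_cast Ds (hk' G hGm k)
    have h2 := abs_lt.1 (hk' G hGm k)
    have : ((dgt Ds h G k : ℕ) : ℤ) < ((2 * h : ℕ) : ℤ) := by rw [h1]; push_cast; linarith
    exact_mod_cast this) hlp (phi Ds m) ((phi_lt Ds m hm.1).trans_le hK)
  rw [List.map_map] at this
  convert this using 2
  apply List.map_congr_left
  intro G hGm
  simp only [Function.comp, dgt, cf_phi Ds (hG G hGm) m hm]

end Crest.Agent.R249.Chk378
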