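import Crest.Agent.R249.Chk3_378

/-!
# R249 / A-CHK (helper378), part 4: leaves, boxes, subdivision trees (semantic version)
-/

set_option autoImplicit false

namespace Crest.Agent.R249.Chk378

open Finset

/-- a box: `(a, b, c)` stands for `a ≤ c x < b` -/
abbrev Bx := List (ℤ × ℤ × ℕ)

/-- numerators `a + b q` -/
def mkV {R : Type*} [CommRing R] : Bx → List R → List R
  | (a, b, _) :: B, q :: Q => ((a : R) + (b : R) * q) :: mkV B Q
  | _, _ => []

/-- denominators `c + c q` -/
def mkW {R : Type*} [CommRing R] : Bx → List R → List R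
  | (_, _, c) :: B, q :: Q => ((c : R) + (c : R) * q) :: mkW B Q
  | _, _ => []

/-- numerators, absolute version -/
def mkVA {S : Type*} [CommSemiring S] : Bx → List S → List S
  | (a, b, _) :: B, q :: Q => ((a.natAbs : S) + (b.natAbs : S) * q) :: mkVA B Q
  | _, _ => []

/-- denominators, absolute version -/
def mkWA {S : Type*} [CommSemiring S] : Bx → List S → List S
  | (_, _, c) :: B, q :: Q => ((c : S) + (c : S) * q) :: mkWA B Q
  | _, _ => []

section Maps
variable {R R' : Type*} [CommRing R] [CommRing R'] {S S' : Type*} [CommSemiring S]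
  [CommSemiring S']

theorem mkV_map (f : R →+* R') (B : Bx) (Q : List R) :
    (mkV B Q).map f = mkV B (Q.map f) := by
  induction B generalizing Q with
  | nil => rfl
  | cons abc B ih => cases Q with
    | nil => rfl
    | cons q Q => simp [mkV, ih]

theorem mkW_map (f : R →+* R') (B : Bx) (Q : List R) :
    (mkW B Q).map f = mkW B (Q.map f) := by
  induction B generalizing Q with
  | nil => rfl
  | cons abc B ih => cases Q with
    | nil => rfl
    | cons q Q => simp [mkW, ih]

theorem mkVA_map (f : S →+* S') (B : Bx) (Q : List S) :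
    (mkVA B Q).map f = mkVA B (Q.map f) := by
  induction B generalizing Q with
  | nil => rfl
  | cons abc B ih => cases Q with
    | nil => rfl
    | cons q Q => simp [mkVA, ih]

theorem mkWA_map (f : S →+* S') (B : Bx) (Q : List S) :
    (mkWA B Q).map f = mkWA B (Q.map f) := by
  induction B generalizing Q with
  | nil => rfl
  | cons abc B ih => cases Q with
    | nil => rfl
    | cons q Q => simp [mkWA, ih]

end Maps

/-- the variables from `k` on -/
noncomputable def vars (S : Type*) [CommSemiring S] : ℕ → ℕ → List (MvPolynomial ℕ S)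
  | _, 0 => []
  | k, n + 1 => MvPolynomial.X k :: vars S (k + 1) n

theorem vars_length (S : Type*) [CommSemiring S] (k n : ℕ) : (vars S k n).length = n := by
  induction n generalizing k with
  | zero => rfl
  | succ n ih => simp [vars, ih]

theorem vars_map {S T : Type*} [CommSemiring S] [CommSemiring T] (f : MvPolynomial ℕ S →+* T)
    (g : ℕ → T) (hf : ∀ i, f (MvPolynomial.X i) = g i) (k n : ℕ) :
    (vars S k n).map f = (List.range n).map (fun i => g (k + i)) := by
  induction n generalizing k with
  | zero => rfl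
  | succ n ih =>
    simp only [vars, List.map_cons, hf, ih, List.range_succ_eq_map, List.map_map, add_zero]
    congr 1
    apply List.map_congr_left
    intro i _
    simp only [Function.comp]
    congr 1
    omega

theorem map_nth_range {α : Type*} (l : List α) (d : α) :
    (List.range l.length).map (fun i => nth l i d) = l := by
  induction l with
  | nil => rfl
  | cons a l ih =>
    rw [List.length_cons, List.range_succ_eq_map, List.map_cons, List.map_map]
    simp only [nth_cons_zero]
    congr 1

/-! ## degree and domination of the box polynomials -/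

theorem degreeOf_intCast (i : ℕ) (a : ℤ) : ((a : ℤ) : MvPolynomial ℕ ℤ).degreeOf i = 0 := by
  have : ((a : ℤ) : MvPolynomial ℕ ℤ) = MvPolynomial.C a := by simp
  rw [this, MvPolynomial.degreeOf_C]

theorem degreeOf_lin (a b : ℤ) (k i : ℕ) :
    ((a : MvPolynomial ℕ ℤ) + (b : MvPolynomial ℕ ℤ) * MvPolynomial.X k).degreeOf i ≤
      if i = k then 1 else 0 := by
  refine (MvPolynomial.degreeOf_add_le i _ _).trans (max_le ?_ ?_)
  · rw [degreeOf_intCast]; exact Nat.zero_le _
  · refine (MvPolynomial.degreeOf_mul_le i _ _).trans ?_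
    rw [degreeOf_intCast, zero_add, MvPolynomial.degreeOf_X]

theorem mkV_deg (B : Bx) (k : ℕ) (i : ℕ) (hi : i < B.length) (j : ℕ) :
    (nth (mkV B (vars ℤ k B.length)) i 0).degreeOf j ≤ if j = k + i then 1 else 0 := by
  induction B generalizing k i with
  | nil => simp at hi
  | cons abc B ih =>
    obtain ⟨a, b, c⟩ := abc
    cases i with
    | zero => exact degreeOf_lin a b k j
    | succ i =>
      have := ih (k + 1) i (by simpa using hi)
      simp only [List.length_cons, vars, mkV, nth_cons_succ]
      convert this using 2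
      omega

theorem mkW_deg (B : Bx) (k : ℕ) (i : ℕ) (hi : i < B.length) (j : ℕ) :
    (nth (mkW B (vars ℤ k B.length)) i 0).degreeOf j ≤ if j = k + i then 1 else 0 := by
  induction B generalizing k i with
  | nil => simp at hi
  | cons abc B ih =>
    obtain ⟨a, b, c⟩ := abc
    cases i with
    | zero =>
      have := degreeOf_lin (c : ℤ) (c : ℤ) k j
      simp only [Int.cast_natCast] at this
      exact this
    | succ i =>
      have := ih (k + 1) i (by simpa using hi)
      simp only [List.length_cons, vars, mkW, nth_cons_succ]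
      convert this using 2
      omega

theorem Dom.intCast (a : ℤ) :
    Dom ((a : ℤ) : MvPolynomial ℕ ℤ) ((a.natAbs : ℕ) : MvPolynomial ℕ ℕ) := by
  intro m
  have h1 : ((a : ℤ) : MvPolynomial ℕ ℤ) = MvPolynomial.C a := by simp
  have h2 : ((a.natAbs : ℕ) : MvPolynomial ℕ ℕ) = MvPolynomial.C a.natAbs := by simp
  rw [h1, h2, MvPolynomial.coeff_C, MvPolynomial.coeff_C]
  split_ifs <;> simp

theorem Dom.X (k : ℕ) : Dom (MvPolynomial.X k) (MvPolynomial.X k) := by
  classical
  intro m
  rw [MvPolynomial.coeff_X, MvPolynomial.coeff_X]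
  split_ifs <;> simp

theorem mkV_Doms (B : Bx) (k n : ℕ) : Doms (mkV B (vars ℤ k n)) (mkVA B (vars ℕ k n)) := by
  induction B generalizing k n with
  | nil => exact Doms.nil
  | cons abc B ih =>
    obtain ⟨a, b, c⟩ := abc
    cases n with
    | zero => exact Doms.nil
    | succ n =>
      exact Doms.cons ((Dom.intCast a).add ((Dom.intCast b).mul (Dom.X k))) (ih (k + 1) n)

theorem mkW_Doms (B : Bx) (k n : ℕ) : Doms (mkW B (vars ℤ k n)) (mkWA B (vars ℕ k n)) := by
  induction B generalizing k n with
  | nil => exact Doms.nil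
  | cons abc B ih =>
    obtain ⟨a, b, c⟩ := abc
    cases n with
    | zero => exact Doms.nil
    | succ n =>
      exact Doms.cons ((Dom.natCast c).add ((Dom.natCast c).mul (Dom.X k))) (ih (k + 1) n)

/-! ## leaves -/

/-- bound for all coefficients -/
def bnd (n m : ℕ) (P : List Ex) (B : Bx) : ℕ :=
  ((evsA (mkVA B (List.replicate n 1)) (mkWA B (List.replicate n 1)) P ([] : List ℕ)).take m).sum

/-- the list of offset numbers -/
def nums (m : ℕ) (P : List Ex) (B : Bx) (Ds : List ℕ) (h K : ℕ) : List ℕ :=
  ((evs (mkV B ((qs Ds (2 * h)).map (fun q : ℕ => (q : ℤ))))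
    (mkW B ((qs Ds (2 * h)).map (fun q : ℕ => (q : ℤ)))) P ([] : List ℤ)).take m).map
    (fun z => (z + ((∑ k ∈ range (2 ^ K), h * (2 * h) ^ k : ℕ) : ℤ)).toNat)

/-- leaf test -/
def leaf (good : ℕ → List ℕ → Bool) (m : ℕ) (P : List Ex) (Ds : List ℕ) (K : ℕ) (B : Bx) : Bool :=
  let h := 2 ^ (Nat.log2 (bnd Ds.length m P B) + 1)
  lp (good h) (pw (2 * h) K) (nums m P B Ds h K)

/-- global degree test -/
def degOK (n m : ℕ) (P : List Ex) (d : List ℕ) (K : ℕ) : Bool :=
  match dgs n P [] with
  | none => false
  | some D => decide (D.take m = List.replicate m d) && decide (d.length = n) &&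
      decide ((d.map (· + 1)).prod ≤ 2 ^ K)

theorem nth_take {α : Type*} (l : List α) (m i : ℕ) (hi : i < m) (d : α) :
    nth (l.take m) i d = nth l i d := by
  induction l generalizing m i with
  | nil => simp
  | cons a l ih =>
    cases m with
    | zero => omega
    | succ m => cases i with
      | zero => rfl
      | succ i => simpa using ih m i (by omega)

theorem nth_mem {α : Type*} (l : List α) (i : ℕ) (hi : i < l.length) (d : α) : nth l i d ∈ l := by
  induction l generalizing i with
  | nil => simp at hi
  | cons a l ih => cases i with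
    | zero => simp
    | succ i =>
      simp only [nth_cons_succ, List.mem_cons]
      exact Or.inr (ih i (by simpa using hi))

theorem mem_nth {α : Type*} (l : List α) (x : α) (hx : x ∈ l) (d : α) :
    ∃ i < l.length, x = nth l i d := by
  induction l with
  | nil => simp at hx
  | cons a l ih =>
    rcases List.mem_cons.1 hx with rfl | hx
    · exact ⟨0, by simp, rfl⟩
    · obtain ⟨i, hi, rfl⟩ := ih hx
      exact ⟨i + 1, by simpa using hi, rfl⟩

theorem nth_map' {α β : Type*} (f : α → β) (l : List α) (i : ℕ) (hi : i < l.length) (d : α)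
    (d' : β) : nth (l.map f) i d' = f (nth l i d) := by
  induction l generalizing i with
  | nil => simp at hi
  | cons a l ih => cases i with
    | zero => rfl
    | succ i => simpa using ih i (by simpa using hi)

theorem evs_length {R : Type*} [CommRing R] (V W : List R) (P : List Ex) (L : List R) :
    (evs V W P L).length = P.length + L.length := by
  induction P generalizing L with
  | nil => simp
  | cons e P ih => rw [evs_cons, ih]; simp; omega

theorem DBs_length {D : List (List ℕ)} {L : List (MvPolynomial ℕ ℤ)} (h : DBs D L) :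
    D.length = L.length := by
  induction h with
  | nil => rfl
  | cons _ _ ih => simp [ih]

/-- a property of vectors closed under nonnegative combinations, depending on the first `m`
coordinates only -/
structure ConeP (m : ℕ) (Kp : (ℕ → ℝ) → Prop) : Prop where
  zero : Kp 0
  add : ∀ x y, Kp x → Kp y → Kp (x + y)
  smul : ∀ (c : ℝ) x, 0 ≤ c → Kp x → Kp (c • x)
  ext : ∀ x y, (∀ j < m, x j = y j) → Kp x → Kp y

theorem ConeP.sum {m : ℕ} {Kp : (ℕ → ℝ) → Prop} (hK : ConeP m Kp) {ι : Type*} (s : Finset ι)
    (f : ι → ℕ → ℝ) (hf : ∀ i ∈ s, Kp (f i)) : Kp (∑ i ∈ s, f i) := by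
  classical
  induction s using Finset.induction_on with
  | empty => simpa using hK.zero
  | insert a s ha ih =>
    rw [Finset.sum_insert ha]
    exact hK.add _ _ (hf a (Finset.mem_insert_self a s))
      (ih fun i hi => hf i (Finset.mem_insert_of_mem hi))

theorem list_sum_le {l : List ℕ} {x : ℕ} (hx : x ∈ l) : x ≤ l.sum := List.le_sum_of_mem hx

/-- soundness of a leaf in terms of polynomials: for `z ≥ 0` the vector of values of the
polynomials lies in the cone. -/
theorem leaf_sound_poly {m : ℕ} {Kp : (ℕ → ℝ) → Prop} (hK : ConeP m Kp)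
    {good : ℕ → List ℕ → Bool}
    (hgood : ∀ h ds, ds.length = m → good h ds = true → Kp fun j => ((nth ds j 0 : ℕ) : ℝ) - (h : ℝ))
    {n : ℕ} {P : List Ex} {d : List ℕ} {K : ℕ} (hd : degOK n m P d K = true) {B : Bx}
    (hB : B.length = n) (hl : leaf good m P (d.map (· + 1)) K B = true)
    (z : ℕ → ℝ) (hz : ∀ i, 0 ≤ z i) :
    Kp fun j => MvPolynomial.eval₂Hom (Int.castRingHom ℝ) z
      (nth (evs (mkV B (vars ℤ 0 n)) (mkW B (vars ℤ 0 n)) P []) j 0) := by
  classical
  unfold degOK at hd
  cases hD : dgs n P [] with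
  | none => rw [hD] at hd; simp at hd
  | some D =>
    rw [hD] at hd
    simp only [Bool.and_eq_true, decide_eq_true_eq] at hd
    obtain ⟨⟨hd1, hd2⟩, hd3⟩ := hd
    set Ds := d.map (· + 1) with hDs
    have hDl : Ds.length = n := by simp [hDs, hd2]
    set Ls := evs (mkV B (vars ℤ 0 n)) (mkW B (vars ℤ 0 n)) P [] with hLs
    have hDB : DBs D Ls := by
      refine evs_DB (n := n) ?_ ?_ P (by simp) DBs.nil hD
      · intro i hi j
        rw [nth_unit n i j hi]
        have := mkV_deg B 0 i (by omega) j
        rw [hB] at this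
        simpa using this
      · intro i hi j
        rw [nth_unit n i j hi]
        have := mkW_deg B 0 i (by omega) j
        rw [hB] at this
        simpa using this
    have hmD : m ≤ D.length := by
      have := congrArg List.length hd1
      simp only [List.length_take, List.length_replicate] at this
      omega
    have hLl : D.length = Ls.length := DBs_length hDB
    have hdj : ∀ j < m, D[j]? = some d := by
      intro j hj
      have : (D.take m)[j]? = some d := by
        rw [hd1]
        simp [hj]
      rwa [List.getElem?_take_of_lt hj] at this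
    set Gs := Ls.take m with hGs
    have hGl : Gs.length = m := by simp [hGs]; omega
    have hBB : ∀ G ∈ Gs, BB Ds G := by
      intro G hG
      obtain ⟨j, hj, rfl⟩ := mem_nth Gs G hG 0
      rw [hGl] at hj
      rw [hGs, nth_take _ _ _ hj]
      refine BB_of_DB (by simp [hDs]) ?_ (hDB.nth j (hdj j hj))
      intro i hi
      rw [hDs, nth_map' (· + 1) d i (by simpa [hDs] using hi) 0 0]
      omega
    -- the bound
    set s := bnd Ds.length m P B with hs
    set h := 2 ^ (Nat.log2 s + 1) with hh
    have hsh : s < h := Nat.lt_log2_self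
    have hdom : Doms Ls (evsA (mkVA B (vars ℕ 0 n)) (mkWA B (vars ℕ 0 n)) P []) :=
      evs_Dom (mkV_Doms B 0 n) (mkW_Doms B 0 n) P Doms.nil
    have hbd : ∀ G ∈ Gs, ∀ m', |G.coeff m'| < (h : ℤ) := by
      intro G hG m'
      obtain ⟨j, hj, rfl⟩ := mem_nth Gs G hG 0
      rw [hGl] at hj
      rw [hGs, nth_take _ _ _ hj]
      refine (hdom.nth j m').trans_lt ?_
      have h1 := coeff_le_eval_one
        (nth (evsA (mkVA B (vars ℕ 0 n)) (mkWA B (vars ℕ 0 n)) P []) j 0) m'
      have h2 : (evsA (mkVA B (vars ℕ 0 n)) (mkWA B (vars ℕ 0 n)) P []).map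
          (MvPolynomial.eval (fun _ => (1 : ℕ))) =
          evsA (mkVA B (List.replicate n 1)) (mkWA B (List.replicate n 1)) P ([] : List ℕ) := by
        rw [evsA_map, mkVA_map, mkWA_map,
          vars_map _ (fun _ => (1 : ℕ)) (fun i => by simp) 0 n, List.map_const']
        simp
      have h3 : MvPolynomial.eval (fun _ => 1)
          (nth (evsA (mkVA B (vars ℕ 0 n)) (mkWA B (vars ℕ 0 n)) P []) j 0) ≤ s := by
        have e1 := nth_map (MvPolynomial.eval (fun _ => (1 : ℕ)))
          (evsA (mkVA B (vars ℕ 0 n)) (mkWA B (vars ℕ 0 n)) P []) j 0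
        rw [map_zero] at e1
        rw [← e1, h2, hs, bnd, hDl]
        by_cases hj' : j < (evsA (mkVA B (List.replicate n 1)) (mkWA B (List.replicate n 1)) P
            ([] : List ℕ)).length
        · rw [← nth_take _ m j hj]
          exact list_sum_le (nth_mem _ _ (by simp only [List.length_take]; omega) _)
        · have : ∀ (l : List ℕ) (i : ℕ), l.length ≤ i → nth l i 0 = 0 := by
            intro l
            induction l with
            | nil => intro i _; rfl
            | cons a l ih => intro i hi; cases i with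
              | zero => simp at hi
              | succ i => simpa using ih i (by simpa using hi)
          rw [this _ _ (by omega)]
          exact Nat.zero_le _
      have : ((nth (evsA (mkVA B (vars ℕ 0 n)) (mkWA B (vars ℕ 0 n)) P []) j 0).coeff m') < h := by
        omega
      exact_mod_cast this
    -- the digits
    have hev : (evs (mkV B ((qs Ds (2 * h)).map (fun q : ℕ => (q : ℤ))))
        (mkW B ((qs Ds (2 * h)).map (fun q : ℕ => (q : ℤ)))) P ([] : List ℤ)).take m =
        Gs.map (MvPolynomial.eval (fun i => ((nth (qs Ds (2 * h)) i 0 : ℕ) : ℤ))) := by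
      rw [hGs, hLs]
      rw [List.map_take, evs_map, mkV_map, mkW_map,
        vars_map _ (fun i => ((nth (qs Ds (2 * h)) i 0 : ℕ) : ℤ)) (fun i => by simp) 0 n]
      have e1 : (List.range n).map (fun i => ((nth (qs Ds (2 * h)) (0 + i) 0 : ℕ) : ℤ)) =
          (qs Ds (2 * h)).map (fun q : ℕ => (q : ℤ)) := by
        have := map_nth_range (qs Ds (2 * h)) 0
        rw [qs_length, hDl] at this
        conv_rhs => rw [← this]
        rw [List.map_map]
        apply List.map_congr_left
        intro i _
        simp
      rw [e1]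
      simp
    have hlp : lp (good h) (pw (2 * h) K) (Gs.map fun G =>
        (MvPolynomial.eval (fun i => ((nth (qs Ds (2 * h)) i 0 : ℕ) : ℤ)) G +
        ((∑ k ∈ range (2 ^ K), h * (2 * h) ^ k : ℕ) : ℤ)).toNat) = true := by
      have h1 : lp (good h) (pw (2 * h) K) (nums m P B Ds h K) = true := hl
      rw [nums, hev, List.map_map] at h1
      exact h1
    have hcoef := lp_coeff Ds h (by positivity) (good h) Gs hBB hbd K hd3 hlp
    -- assemble
    set S : Finset (ℕ →₀ ℕ) := (Finset.range m).biUnion fun j => (nth Ls j 0).support with hS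
    have hval : ∀ j < m, MvPolynomial.eval₂Hom (Int.castRingHom ℝ) z (nth Ls j 0) =
        ∑ μ ∈ S, (((nth Ls j 0).coeff μ : ℤ) : ℝ) * ∏ i ∈ μ.support, z i ^ μ i := by
      intro j hj
      rw [MvPolynomial.coe_eval₂Hom, MvPolynomial.eval₂_eq]
      refine Finset.sum_subset ?_ ?_
      · intro μ hμ
        exact Finset.mem_biUnion.2 ⟨j, Finset.mem_range.2 hj, hμ⟩
      · intro μ _ hμ
        rw [MvPolynomial.notMem_support_iff.1 hμ]
        simp
    refine hK.ext (∑ μ ∈ S, (∏ i ∈ μ.support, z i ^ μ i) •
      fun j => (((nth Ls j 0).coeff μ : ℤ) : ℝ)) _ ?_ ?_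
    · intro j hj
      rw [hval j hj, Finset.sum_apply]
      refine Finset.sum_congr rfl fun μ _ => ?_
      simp only [Pi.smul_apply, smul_eq_mul]
      ring
    · refine hK.sum S _ fun μ hμ => hK.smul _ _ (Finset.prod_nonneg fun i _ =>
        pow_nonneg (hz i) _) ?_
      obtain ⟨j, hj, hμj⟩ := Finset.mem_biUnion.1 hμ
      rw [Finset.mem_range] at hj
      have hbox := (hBB (nth Ls j 0) (by
        rw [← nth_take _ _ _ hj]; exact nth_mem _ _ (by rw [hGl]; exact hj) _)) μ hμj
      have h1 := hcoef μ hbox
      refine hK.ext _ _ ?_ (hgood h _ (by simp [hGl]) h1)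
      intro j' hj'
      rw [nth_map' _ Gs j' (by omega) 0 0, hGs, nth_take _ _ _ hj']
      have h2 := abs_lt.1 (hbd (nth Ls j' 0) (by
        rw [← nth_take _ _ _ hj']; exact nth_mem _ _ (by rw [hGl]; exact hj') _) μ)
      have h3 : (((nth Ls j' 0).coeff μ + (h : ℤ)).toNat : ℤ) = (nth Ls j' 0).coeff μ + h :=
        Int.toNat_of_nonneg (by linarith)
      have h4 : ((((nth Ls j' 0).coeff μ + (h : ℤ)).toNat : ℕ) : ℝ) =
          (((nth Ls j' 0).coeff μ : ℤ) : ℝ) + (h : ℝ) := by
        have h5 : ((((((nth Ls j' 0).coeff μ + (h : ℤ)).toNat : ℕ) : ℤ)) : ℝ) =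
            (((nth Ls j' 0).coeff μ + (h : ℤ) : ℤ) : ℝ) := by rw [h3]
        rw [Int.cast_natCast] at h5
        rw [h5, Int.cast_add, Int.cast_natCast]
      rw [h4]
      ring

end Crest.Agent.R249.Chk378
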