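import Crest.Agent.R249.Chk4_378

/-!
# R249 / A-CHK (helper378), part 5: soundness on boxes, subdivision trees, closed boxes
-/

set_option autoImplicit false

namespace Crest.Agent.R249.Chk378

open Finset

/-- `xs` lies in the half open box `B` -/
def inB : Bx → List ℝ → Prop
  | [], [] => True
  | (a, b, c) :: B, x :: xs => (0 < c ∧ (a : ℝ) ≤ c * x ∧ c * x < b) ∧ inB B xs
  | _, _ => False

/-- projective coordinates -/
noncomputable def zl : Bx → List ℝ → List ℝ
  | (a, b, c) :: B, x :: xs => ((c * x - a) / (b - c * x)) :: zl B xs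
  | _, _ => []

theorem inB_length {B : Bx} {xs : List ℝ} (h : inB B xs) : xs.length = B.length := by
  induction B generalizing xs with
  | nil => cases xs with
    | nil => rfl
    | cons x xs => exact h.elim
  | cons abc B ih => cases xs with
    | nil => exact h.elim
    | cons x xs =>
      obtain ⟨a, b, c⟩ := abc
      simp [ih h.2]

theorem zl_length {B : Bx} {xs : List ℝ} (h : inB B xs) : (zl B xs).length = B.length := by
  induction B generalizing xs with
  | nil => cases xs with
    | nil => rfl
    | cons x xs => exact h.elim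
  | cons abc B ih => cases xs with
    | nil => exact h.elim
    | cons x xs =>
      obtain ⟨a, b, c⟩ := abc
      simp [zl, ih h.2]

theorem zl_nonneg {B : Bx} {xs : List ℝ} (h : inB B xs) (i : ℕ) : 0 ≤ nth (zl B xs) i 0 := by
  induction B generalizing xs i with
  | nil => cases xs with
    | nil => simp [zl]
    | cons x xs => exact h.elim
  | cons abc B ih => cases xs with
    | nil => exact h.elim
    | cons x xs =>
      obtain ⟨a, b, c⟩ := abc
      cases i with
      | zero =>
        simp only [zl, nth_cons_zero]
        exact div_nonneg (by linarith [h.1.2.1]) (by linarith [h.1.2.2])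
      | succ i => exact ih h.2 i

theorem mkW_length {B : Bx} {xs : List ℝ} (h : inB B xs) : (mkW B (zl B xs)).length = B.length := by
  induction B generalizing xs with
  | nil => cases xs with
    | nil => rfl
    | cons x xs => exact h.elim
  | cons abc B ih => cases xs with
    | nil => exact h.elim
    | cons x xs =>
      obtain ⟨a, b, c⟩ := abc
      simp [zl, mkW, ih h.2]

theorem mkV_eq {B : Bx} {xs : List ℝ} (h : inB B xs) (i : ℕ) (hi : i < B.length) :
    nth (mkV B (zl B xs)) i 0 = nth (mkW B (zl B xs)) i 0 * nth xs i 0 := by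
  induction B generalizing xs i with
  | nil => simp at hi
  | cons abc B ih => cases xs with
    | nil => exact h.elim
    | cons x xs =>
      obtain ⟨a, b, c⟩ := abc
      cases i with
      | zero =>
        simp only [zl, mkV, mkW, nth_cons_zero]
        have : (b : ℝ) - c * x ≠ 0 := by linarith [h.1.2.2]
        field_simp
        ring
      | succ i => exact ih h.2 i (by simpa using hi)

theorem wpow_pos {B : Bx} {xs : List ℝ} (h : inB B xs) (d : List ℕ) :
    0 < wpow (mkW B (zl B xs)) d := by
  induction B generalizing xs d with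
  | nil => cases xs with
    | nil => simp [mkW]
    | cons x xs => exact h.elim
  | cons abc B ih => cases xs with
    | nil => exact h.elim
    | cons x xs =>
      obtain ⟨a, b, c⟩ := abc
      cases d with
      | nil => simp
      | cons e d =>
        simp only [zl, mkW, wpow_cons]
        refine mul_pos (pow_pos ?_ _) (ih h.2 d)
        have h1 : (0 : ℝ) < c := by exact_mod_cast h.1.1
        have h2 : 0 ≤ (c * x - a) / (b - c * x) :=
          div_nonneg (by linarith [h.1.2.1]) (by linarith [h.1.2.2])
        positivity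

theorem nth_replicate_one {R : Type*} [CommRing R] (n i : ℕ) (hi : i < n) :
    nth (List.replicate n (1 : R)) i 0 = 1 := by
  induction n generalizing i with
  | zero => omega
  | succ n ih => cases i with
    | zero => rfl
    | succ i => simpa [List.replicate_succ] using ih i (by omega)

/-- soundness of a leaf -/
theorem leaf_sound {m : ℕ} {Kp : (ℕ → ℝ) → Prop} (hK : ConeP m Kp)
    {good : ℕ → List ℕ → Bool}
    (hgood : ∀ h ds, ds.length = m → good h ds = true → Kp fun j => ((nth ds j 0 : ℕ) : ℝ) - (h : ℝ))
    {n : ℕ} {P : List Ex} {d : List ℕ} {K : ℕ} (hd : degOK n m P d K = true) {B : Bx}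
    (hB : B.length = n) (hl : leaf good m P (d.map (· + 1)) K B = true)
    {xs : List ℝ} (hx : inB B xs) :
    Kp fun j => nth (evs xs (List.replicate n 1) P []) j 0 := by
  have h1 := leaf_sound_poly hK hgood hd hB hl (fun i => nth (zl B xs) i 0) (zl_nonneg hx)
  have e1 : (evs (mkV B (vars ℤ 0 n)) (mkW B (vars ℤ 0 n)) P []).map
      (MvPolynomial.eval₂Hom (Int.castRingHom ℝ) (fun i => nth (zl B xs) i 0)) =
      evs (mkV B (zl B xs)) (mkW B (zl B xs)) P [] := by
    rw [evs_map, mkV_map, mkW_map, vars_map _ (fun i => nth (zl B xs) i 0) (fun i => by simp) 0 n]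
    have e2 : (List.range n).map (fun i => nth (zl B xs) (0 + i) 0) = zl B xs := by
      have := map_nth_range (zl B xs) 0
      rw [zl_length hx, hB] at this
      conv_rhs => rw [← this]
      simp
    rw [e2]
    rfl
  have e3 : ∀ j, MvPolynomial.eval₂Hom (Int.castRingHom ℝ) (fun i => nth (zl B xs) i 0)
      (nth (evs (mkV B (vars ℤ 0 n)) (mkW B (vars ℤ 0 n)) P []) j 0) =
      nth (evs (mkV B (zl B xs)) (mkW B (zl B xs)) P []) j 0 := by
    intro j
    rw [← e1]
    have := nth_map (MvPolynomial.eval₂Hom (Int.castRingHom ℝ) (fun i => nth (zl B xs) i 0))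
      (evs (mkV B (vars ℤ 0 n)) (mkW B (vars ℤ 0 n)) P []) j 0
    rw [map_zero] at this
    exact this.symm
  simp only [e3] at h1
  unfold degOK at hd
  cases hD : dgs n P [] with
  | none => rw [hD] at hd; simp at hd
  | some D =>
    rw [hD] at hd
    simp only [Bool.and_eq_true, decide_eq_true_eq] at hd
    obtain ⟨⟨hd1, hd2⟩, hd3⟩ := hd
    have hdj : ∀ j < m, D[j]? = some d := by
      intro j hj
      have : (D.take m)[j]? = some d := by
        rw [hd1]
        simp [hj]
      rwa [List.getElem?_take_of_lt hj] at this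
    have hs := (evs_scale (V := xs) (V' := mkV B (zl B xs)) (W := mkW B (zl B xs))
      (O := List.replicate n 1) (n := n) ((mkW_length hx).trans hB)
      (fun i hi => mkV_eq hx i (by omega)) (fun i hi => nth_replicate_one n i hi)
      P (by simp) Sc.nil hD).1
    have hw := wpow_pos hx d
    refine hK.ext _ _ ?_ (hK.smul (wpow (mkW B (zl B xs)) d)⁻¹ _ (by positivity) h1)
    intro j hj
    simp only [Pi.smul_apply, smul_eq_mul]
    rw [hs.nth j d (hdj j hj), ← mul_assoc, inv_mul_cancel₀ hw.ne', one_mul]

/-! ## trees -/

/-- subdivision trees -/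
inductive Tr : Type
  | lf
  | sp (i : ℕ) (l r : Tr)

/-- left half -/
def lft : ℕ → Bx → Bx
  | _, [] => []
  | 0, (a, b, c) :: B => (2 * a, a + b, 2 * c) :: B
  | i + 1, x :: B => x :: lft i B

/-- right half -/
def rgt : ℕ → Bx → Bx
  | _, [] => []
  | 0, (a, b, c) :: B => (a + b, 2 * b, 2 * c) :: B
  | i + 1, x :: B => x :: rgt i B

theorem lft_length (i : ℕ) (B : Bx) : (lft i B).length = B.length := by
  induction B generalizing i with
  | nil => cases i <;> rfl
  | cons x B ih => cases i with
    | zero => rfl
    | succ i => simp [lft, ih]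

theorem rgt_length (i : ℕ) (B : Bx) : (rgt i B).length = B.length := by
  induction B generalizing i with
  | nil => cases i <;> rfl
  | cons x B ih => cases i with
    | zero => rfl
    | succ i => simp [rgt, ih]

theorem inB_split (i : ℕ) (B : Bx) (xs : List ℝ) (h : inB B xs) :
    inB (lft i B) xs ∨ inB (rgt i B) xs := by
  induction B generalizing i xs with
  | nil => left; cases i <;> exact h
  | cons abc B ih => cases xs with
    | nil => exact h.elim
    | cons x xs =>
      obtain ⟨a, b, c⟩ := abc
      cases i with
      | zero =>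
        obtain ⟨⟨h1, h2, h3⟩, h4⟩ := h
        by_cases hc : (2 * c : ℝ) * x < a + b
        · left
          refine ⟨⟨by omega, ?_, ?_⟩, h4⟩
          · push_cast; linarith
          · push_cast; exact hc
        · right
          refine ⟨⟨by omega, ?_, ?_⟩, h4⟩
          · push_cast; linarith
          · push_cast; linarith
      | succ i =>
        rcases ih i xs h.2 with h5 | h5
        · left; exact ⟨h.1, h5⟩
        · right; exact ⟨h.1, h5⟩

/-- test of a tree -/
def chk (lt : Bx → Bool) : Tr → Bx → Bool
  | .lf, B => lt B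
  | .sp i l r, B => chk lt l (lft i B) && chk lt r (rgt i B)

theorem chk_sound {lt : Bx → Bool} {n : ℕ} {Q : List ℝ → Prop}
    (h : ∀ B xs, lt B = true → B.length = n → inB B xs → Q xs) (t : Tr) (B : Bx)
    (hB : B.length = n) (hc : chk lt t B = true) (xs : List ℝ) (hx : inB B xs) : Q xs := by
  induction t generalizing B with
  | lf => exact h B xs hc hB hx
  | sp i l r ihl ihr =>
    simp only [chk, Bool.and_eq_true] at hc
    rcases inB_split i B xs hx with h1 | h1
    · exact ihl (lft i B) ((lft_length i B).trans hB) hc.1 h1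
    · exact ihr (rgt i B) ((rgt_length i B).trans hB) hc.2 h1

/-! ## closed boxes -/

/-- `xs` lies in the closed box `B` (with nonempty interior) -/
def inC : Bx → List ℝ → Prop
  | [], [] => True
  | (a, b, c) :: B, x :: xs => (0 < c ∧ a < b ∧ (a : ℝ) ≤ c * x ∧ c * x ≤ b) ∧ inC B xs
  | _, _ => False

/-- path from `xs` to the centre of the box -/
noncomputable def pth : Bx → List ℝ → List C(ℝ, ℝ)
  | (a, b, c) :: B, x :: xs =>
    ⟨fun t => x + t * ((a + b) / (2 * c) - x), by fun_prop⟩ :: pth B xs
  | _, _ => []

theorem pth_map (t : ℝ) (B : Bx) (xs : List ℝ) (h : inC B xs) :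
    (pth B xs).map (fun f : C(ℝ, ℝ) => f 0) = xs ∧ (0 < t → t ≤ 1 →
      inB B ((pth B xs).map (fun f : C(ℝ, ℝ) => f t))) := by
  induction B generalizing xs with
  | nil => cases xs with
    | nil => exact ⟨rfl, fun _ _ => trivial⟩
    | cons x xs => exact h.elim
  | cons abc B ih => cases xs with
    | nil => exact h.elim
    | cons x xs =>
      obtain ⟨a, b, c⟩ := abc
      obtain ⟨⟨h1, h2, h3, h4⟩, h5⟩ := h
      have h6 := ih xs h5
      refine ⟨?_, fun ht ht1 => ?_⟩
      · simp only [pth, List.map_cons, h6.1, ContinuousMap.coe_mk, zero_mul, add_zero]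
      · refine ⟨⟨h1, ?_, ?_⟩, h6.2 ht ht1⟩
        · have hc : (0 : ℝ) < c := by exact_mod_cast h1
          have hab : (a : ℝ) < b := by exact_mod_cast h2
          simp only [ContinuousMap.coe_mk]
          have e : (c : ℝ) * (x + t * ((a + b) / (2 * c) - x)) =
              (1 - t) * (c * x) + t * ((a + b) / 2) := by field_simp; ring
          rw [e]
          nlinarith
        · have hc : (0 : ℝ) < c := by exact_mod_cast h1
          have hab : (a : ℝ) < b := by exact_mod_cast h2
          simp only [ContinuousMap.coe_mk]
          have e : (c : ℝ) * (x + t * ((a + b) / (2 * c) - x)) =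
              (1 - t) * (c * x) + t * ((a + b) / 2) := by field_simp; ring
          rw [e]
          nlinarith

/-- evaluation of continuous functions at `t` -/
noncomputable def evC (t : ℝ) : C(ℝ, ℝ) →+* ℝ :=
  (Pi.evalRingHom (fun _ : ℝ => ℝ) t).comp ContinuousMap.coeFnRingHom

theorem evC_apply (t : ℝ) (f : C(ℝ, ℝ)) : evC t f = f t := rfl

/-- passage to the closed box: `F` is a continuous function of the first outputs -/
theorem closed_of_open {n : ℕ} {P : List Ex} {B : Bx}
    {F : (ℕ → ℝ) → ℝ} (hF : Continuous F)
    (h : ∀ xs, inB B xs → 0 ≤ F fun j => nth (evs xs (List.replicate n 1) P []) j 0)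
    (xs : List ℝ) (hx : inC B xs) :
    0 ≤ F fun j => nth (evs xs (List.replicate n 1) P []) j 0 := by
  set L : List C(ℝ, ℝ) := evs (pth B xs) (List.replicate n 1) P [] with hL
  have key : ∀ t : ℝ, ∀ j, nth (evs ((pth B xs).map (fun f : C(ℝ, ℝ) => f t))
      (List.replicate n 1) P []) j 0 = (nth L j 0) t := by
    intro t j
    have h1 := nth_map (evC t) L j 0
    rw [map_zero] at h1
    rw [← evC_apply, ← h1, hL, evs_map]
    simp only [List.map_replicate, map_one, List.map_nil]
    rfl
  have hcont : Continuous fun t : ℝ => F fun j => (nth L j 0) t :=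
    hF.comp (continuous_pi fun j => (nth L j 0).continuous)
  have h0 : (fun j => nth (evs xs (List.replicate n 1) P []) j 0) = fun j => (nth L j 0) 0 := by
    funext j
    rw [← key 0 j, (pth_map 0 B xs hx).1]
  rw [h0]
  have hev : ∀ᶠ t in nhdsWithin (0 : ℝ) (Set.Ioi 0), 0 ≤ F fun j => (nth L j 0) t := by
    have : Set.Ioc (0 : ℝ) 1 ∈ nhdsWithin (0 : ℝ) (Set.Ioi 0) :=
      Ioc_mem_nhdsGT one_pos
    filter_upwards [this] with t ht
    have := h _ ((pth_map t B xs hx).2 ht.1 ht.2)
    simpa only [key t] using this
  exact ge_of_tendsto ((hcont.tendsto 0).mono_left nhdsWithin_le_nhds) hev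

end Crest.Agent.R249.Chk378
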