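import Crest.Agent.R249.Chk5_378

/-!
# R249 / A-CHK (helper378), part 6: forced (kernel) version of the leaf test
-/

set_option autoImplicit false

namespace Crest.Agent.R249.Chk378

open Finset

/-! ## forced list operations -/

noncomputable section

/-- forced Kronecker points as integers -/
def qsK {α : Type*} (Ds : List ℕ) : ℕ → (List ℤ → α) → α :=
  List.rec (motive := fun _ => ℕ → (List ℤ → α) → α) (fun _ k => k [])
    (fun D _ ih β k => frc (Nat.pow β D) (fun β' => ih β' (fun Q => k (Int.ofNat β :: Q)))) Ds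

theorem qsK_eq {α : Type*} (Ds : List ℕ) (β : ℕ) (k : List ℤ → α) :
    qsK Ds β k = k ((qs Ds β).map (fun q : ℕ => (q : ℤ))) := by
  induction Ds generalizing β k with
  | nil => rfl
  | cons D Ds ih =>
    show frc (Nat.pow β D) (fun β' => qsK Ds β' (fun Q => k (Int.ofNat β :: Q))) = _
    rw [frc_eq, ih]
    rfl

/-- forced numerators -/
def mkVK {α : Type*} (B : Bx) : List ℤ → (List ℤ → α) → α :=
  List.rec (motive := fun _ => List ℤ → (List ℤ → α) → α) (fun _ k => k [])
    (fun abc _ ih Q => List.rec (motive := fun _ => (List ℤ → α) → α) (fun k => k [])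
      (fun q Q' _ k => frcI (Int.add abc.1 (Int.mul abc.2.1 q)) (fun v => ih Q' (fun V => k (v :: V))))
      Q) B

theorem mkVK_eq {α : Type*} (B : Bx) (Q : List ℤ) (k : List ℤ → α) :
    mkVK B Q k = k (mkV B Q) := by
  induction B generalizing Q k with
  | nil => rfl
  | cons abc B ih =>
    obtain ⟨a, b, c⟩ := abc
    cases Q with
    | nil => rfl
    | cons q Q =>
      show frcI (Int.add a (Int.mul b q)) (fun v => mkVK B Q (fun V => k (v :: V))) = _
      rw [frcI_eq, ih]
      rfl

/-- forced denominators -/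
def mkWK {α : Type*} (B : Bx) : List ℤ → (List ℤ → α) → α :=
  List.rec (motive := fun _ => List ℤ → (List ℤ → α) → α) (fun _ k => k [])
    (fun abc _ ih Q => List.rec (motive := fun _ => (List ℤ → α) → α) (fun k => k [])
      (fun q Q' _ k => frcI (Int.add (Int.ofNat abc.2.2) (Int.mul (Int.ofNat abc.2.2) q))
        (fun v => ih Q' (fun V => k (v :: V)))) Q) B

theorem mkWK_eq {α : Type*} (B : Bx) (Q : List ℤ) (k : List ℤ → α) :
    mkWK B Q k = k (mkW B Q) := by
  induction B generalizing Q k with
  | nil => rfl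
  | cons abc B ih =>
    obtain ⟨a, b, c⟩ := abc
    cases Q with
    | nil => rfl
    | cons q Q =>
      show frcI (Int.add (Int.ofNat c) (Int.mul (Int.ofNat c) q))
        (fun v => mkWK B Q (fun V => k (v :: V))) = _
      rw [frcI_eq, ih]
      rfl

/-- forced absolute numerators at `q = 1` -/
def absV {α : Type*} (B : Bx) : (List ℕ → α) → α :=
  List.rec (motive := fun _ => (List ℕ → α) → α) (fun k => k [])
    (fun abc _ ih k => frc (Nat.add (Int.natAbs abc.1) (Int.natAbs abc.2.1))
      (fun v => ih (fun V => k (v :: V)))) B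

theorem absV_eq {α : Type*} (B : Bx) (k : List ℕ → α) :
    absV B k = k (mkVA B (List.replicate B.length 1)) := by
  induction B generalizing k with
  | nil => rfl
  | cons abc B ih =>
    obtain ⟨a, b, c⟩ := abc
    show frc (Nat.add (Int.natAbs a) (Int.natAbs b)) (fun v => absV B (fun V => k (v :: V))) = _
    rw [frc_eq, ih]
    simp [mkVA, List.replicate_succ]

/-- forced absolute denominators at `q = 1` -/
def absW {α : Type*} (B : Bx) : (List ℕ → α) → α :=
  List.rec (motive := fun _ => (List ℕ → α) → α) (fun k => k [])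
    (fun abc _ ih k => frc (Nat.add abc.2.2 abc.2.2) (fun v => ih (fun V => k (v :: V)))) B

theorem absW_eq {α : Type*} (B : Bx) (k : List ℕ → α) :
    absW B k = k (mkWA B (List.replicate B.length 1)) := by
  induction B generalizing k with
  | nil => rfl
  | cons abc B ih =>
    obtain ⟨a, b, c⟩ := abc
    show frc (Nat.add c c) (fun v => absW B (fun V => k (v :: V))) = _
    rw [frc_eq, ih]
    simp [mkWA, List.replicate_succ]

/-- forced sum of the first `m` elements -/
def sumK {α : Type*} (m : ℕ) : List ℕ → (ℕ → α) → α :=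
  Nat.rec (motive := fun _ => List ℕ → (ℕ → α) → α) (fun _ k => k 0)
    (fun _ ih l => List.rec (motive := fun _ => (ℕ → α) → α) (fun k => k 0)
      (fun a l' _ k => ih l' (fun s => frc (Nat.add a s) k)) l) m

theorem sumK_eq {α : Type*} (m : ℕ) (l : List ℕ) (k : ℕ → α) :
    sumK m l k = k (l.take m).sum := by
  induction m generalizing l k with
  | zero => rfl
  | succ m ih =>
    cases l with
    | nil => rfl
    | cons a l =>
      show sumK m l (fun s => frc (Nat.add a s) k) = _
      rw [ih, frc_eq]
      simp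

/-- forced powers -/
def pwK {α : Type*} (β : ℕ) (K : ℕ) : (List ℕ → α) → α :=
  Nat.rec (motive := fun _ => (List ℕ → α) → α) (fun k => k [])
    (fun _ ih k => ih (fun ps => List.rec (motive := fun _ => α) (k [β])
      (fun p _ _ => frc (Nat.mul p p) (fun p2 => k (p2 :: ps))) ps)) K

theorem pwK_eq {α : Type*} (β K : ℕ) (k : List ℕ → α) : pwK β K k = k (pw β K) := by
  induction K generalizing k with
  | zero => rfl
  | succ K ih =>
    show pwK β K (fun ps => List.rec (motive := fun _ => α) (k [β])
      (fun p _ _ => frc (Nat.mul p p) (fun p2 => k (p2 :: ps))) ps) = _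
    rw [ih]
    cases K with
    | zero => simp [pw]
    | succ K =>
      simp only [pw]
      rw [frc_eq]
      congr 2
      show β ^ 2 ^ K * β ^ 2 ^ K = β ^ 2 ^ (K + 1)
      rw [← pow_add]
      congr 1
      ring

/-- the offset `∑ h β^k` from the list of powers -/
def hsK {α : Type*} (h : ℕ) (ps : List ℕ) : (ℕ → α) → α :=
  List.rec (motive := fun _ => (ℕ → α) → α) (fun k => k h)
    (fun p _ ih k => ih (fun s => frc (Nat.add s (Nat.mul p s)) k)) ps

theorem hsK_eq {α : Type*} (h β K : ℕ) (k : ℕ → α) :
    hsK h (pw β K) k = k (∑ j ∈ range (2 ^ K), h * β ^ j) := by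
  induction K generalizing k with
  | zero => simp [hsK, pw]
  | succ K ih =>
    show hsK h (pw β K) (fun s => frc (Nat.add s (Nat.mul (β ^ 2 ^ K) s)) k) = _
    rw [ih, frc_eq]
    congr 1
    have e : 2 ^ (K + 1) = 2 ^ K + 2 ^ K := by ring
    rw [e, sum_split (fun _ => h)]
    show _ + β ^ 2 ^ K * _ = _
    ring

/-- forced offset of the first `m` elements -/
def offK {α : Type*} (H : ℕ) (m : ℕ) : List ℤ → (List ℕ → α) → α :=
  Nat.rec (motive := fun _ => List ℤ → (List ℕ → α) → α) (fun _ k => k [])
    (fun _ ih l => List.rec (motive := fun _ => (List ℕ → α) → α) (fun k => k [])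
      (fun z l' _ k => frc (Int.toNat (Int.add z (Int.ofNat H)))
        (fun M => ih l' (fun Ms => k (M :: Ms)))) l) m

theorem offK_eq {α : Type*} (H m : ℕ) (l : List ℤ) (k : List ℕ → α) :
    offK H m l k = k ((l.take m).map (fun z => (z + (H : ℤ)).toNat)) := by
  induction m generalizing l k with
  | zero => rfl
  | succ m ih =>
    cases l with
    | nil => rfl
    | cons a l =>
      show frc (Int.toNat (Int.add a (Int.ofNat H)))
        (fun M => offK H m l (fun Ms => k (M :: Ms))) = _
      rw [frc_eq, ih]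
      rfl

/-- one step: remainders and quotients -/
def stp {α : Type*} (p : ℕ) (Ms : List ℕ) : (List ℕ → List ℕ → α) → α :=
  List.rec (motive := fun _ => (List ℕ → List ℕ → α) → α) (fun k => k [] [])
    (fun M _ ih k => frc (Nat.mod M p) (fun r => frc (Nat.div M p) (fun q =>
      ih (fun rs qs => k (r :: rs) (q :: qs))))) Ms

theorem stp_eq {α : Type*} (p : ℕ) (Ms : List ℕ) (k : List ℕ → List ℕ → α) :
    stp p Ms k = k (Ms.map (fun M => M % p)) (Ms.map (fun M => M / p)) := by
  induction Ms generalizing k with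
  | nil => rfl
  | cons M Ms ih =>
    show frc (Nat.mod M p) (fun r => frc (Nat.div M p) (fun q =>
      stp p Ms (fun rs qs => k (r :: rs) (q :: qs)))) = _
    rw [frc_eq, frc_eq, ih]
    rfl

/-- Boolean conjunction -/
def bnd2 (a b : Bool) : Bool := Bool.rec (motive := fun _ => Bool) false b a

theorem bnd2_eq (a b : Bool) : bnd2 a b = (a && b) := by cases a <;> rfl

/-- forced digit test -/
def lpK (good : List ℕ → Bool) (ps : List ℕ) : List ℕ → Bool :=
  List.rec (motive := fun _ => List ℕ → Bool) (fun Ms => good Ms)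
    (fun p _ ih Ms => stp p Ms (fun rs qs => bnd2 (ih rs) (ih qs))) ps

theorem lpK_eq (good : List ℕ → Bool) (ps Ms : List ℕ) : lpK good ps Ms = lp good ps Ms := by
  induction ps generalizing Ms with
  | nil => rfl
  | cons p ps ih =>
    show stp p Ms (fun rs qs => bnd2 (lpK good ps rs) (lpK good ps qs)) = _
    rw [stp_eq, bnd2_eq, ih, ih]
    rfl

/-- forced leaf test -/
def leafK (good : ℕ → List ℕ → Bool) (m : ℕ) (P : List Ex) (Ds : List ℕ) (K : ℕ) (B : Bx) : Bool :=
  absV B fun VA => absW B fun WA => evsAK VA WA P [] fun LA => sumK m LA fun s =>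
    frc (Nat.pow 2 (Nat.succ (Nat.log2 s))) fun h => frc (Nat.mul 2 h) fun β =>
      qsK Ds β fun Q => mkVK B Q fun V => mkWK B Q fun W => evsK V W P [] fun L =>
        pwK β K fun ps => hsK h ps fun H => offK H m L fun Ms => lpK (good h) ps Ms

theorem leafK_eq (good : ℕ → List ℕ → Bool) (m : ℕ) (P : List Ex) (Ds : List ℕ) (K : ℕ) (B : Bx)
    (hB : B.length = Ds.length) : leafK good m P Ds K B = leaf good m P Ds K B := by
  unfold leafK
  rw [absV_eq, absW_eq, evsAK_eq, sumK_eq, frc_eq, frc_eq, qsK_eq, mkVK_eq, mkWK_eq, evsK_eq,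
    pwK_eq, hsK_eq, offK_eq, lpK_eq, hB]
  rfl

/-- forced tree test -/
def chkK (lt : Bx → Bool) (t : Tr) : Bx → Bool :=
  Tr.rec (motive := fun _ => Bx → Bool) (fun B => lt B)
    (fun i _ _ ihl ihr B => bnd2 (ihl (lft i B)) (ihr (rgt i B))) t

theorem chkK_eq (lt lt' : Bx → Bool) (n : ℕ) (h : ∀ B : Bx, B.length = n → lt B = lt' B) (t : Tr)
    (B : Bx) (hB : B.length = n) : chkK lt t B = chk lt' t B := by
  induction t generalizing B with
  | lf => exact h B hB
  | sp i l r ihl ihr =>
    show bnd2 (chkK lt l (lft i B)) (chkK lt r (rgt i B)) = _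
    rw [bnd2_eq, ihl _ ((lft_length i B).trans hB), ihr _ ((rgt_length i B).trans hB)]
    rfl

end

/-- **Main soundness theorem**, half open boxes. -/
theorem cone_of_chk {m : ℕ} {Kp : (ℕ → ℝ) → Prop} (hK : ConeP m Kp)
    {good : ℕ → List ℕ → Bool}
    (hgood : ∀ h ds, ds.length = m → good h ds = true → Kp fun j => ((nth ds j 0 : ℕ) : ℝ) - (h : ℝ))
    {n : ℕ} {P : List Ex} {d : List ℕ} {K : ℕ} (hd : degOK n m P d K = true) (t : Tr) (B : Bx)
    (hB : B.length = n) (hc : chkK (leafK good m P (d.map (· + 1)) K) t B = true)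
    {xs : List ℝ} (hx : inB B xs) :
    Kp fun j => nth (evs xs (List.replicate n 1) P []) j 0 := by
  have hdl : d.length = n := by
    unfold degOK at hd
    cases hD : dgs n P [] with
    | none => rw [hD] at hd; simp at hd
    | some D =>
      rw [hD] at hd
      simp only [Bool.and_eq_true, decide_eq_true_eq] at hd
      exact hd.1.2
  have h1 : chk (leaf good m P (d.map (· + 1)) K) t B = true := by
    rw [← chkK_eq (leafK good m P (d.map (· + 1)) K) _ n (fun B hB' =>
      leafK_eq good m P _ K B (by simp [hB', hdl])) t B hB]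
    exact hc
  exact chk_sound (Q := fun xs => Kp fun j => nth (evs xs (List.replicate n 1) P []) j 0)
    (fun B xs hl hB' hx' => leaf_sound hK hgood hd hB' hl hx') t B hB h1 xs hx

end Crest.Agent.R249.Chk378
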