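import Crest.Agent.R249.Chk6_378

/-!
# R249 / A-CHK (helper378), part 7: positivity and positive semidefiniteness tests
-/

set_option autoImplicit false

namespace Crest.Agent.R249.Chk378

open Finset

/-! ## linear algebra -/

theorem psd2_real {A C F : ℝ} (hA : 0 ≤ A) (hC : 0 ≤ C) (h : F ^ 2 ≤ A * C) (x y : ℝ) :
    0 ≤ A * x ^ 2 + 2 * F * x * y + C * y ^ 2 := by
  rcases hA.eq_or_lt with h0 | h0
  · rw [← h0, zero_mul] at h
    have : F = 0 := by nlinarith
    rw [← h0, this]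
    nlinarith [mul_nonneg hC (sq_nonneg y)]
  · have h1 : 0 ≤ A * (A * x ^ 2 + 2 * F * x * y + C * y ^ 2) := by
      have : A * (A * x ^ 2 + 2 * F * x * y + C * y ^ 2) =
          (A * x + F * y) ^ 2 + (A * C - F ^ 2) * y ^ 2 := by ring
      rw [this]
      have := mul_nonneg (sub_nonneg.2 h) (sq_nonneg y)
      positivity
    exact nonneg_of_mul_nonneg_right h1 h0

theorem psd3_real {a b c d e f : ℝ} (ha : 0 ≤ a) (hb : 0 ≤ b) (hc : 0 ≤ c) (hd : d ^ 2 ≤ a * b)
    (he : e ^ 2 ≤ a * c) (hf : f ^ 2 ≤ b * c)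
    (hdet : a * f ^ 2 + b * e ^ 2 + c * d ^ 2 ≤ a * b * c + 2 * (d * (e * f))) (x y z : ℝ) :
    0 ≤ a * x ^ 2 + b * y ^ 2 + c * z ^ 2 + 2 * d * x * y + 2 * e * x * z + 2 * f * y * z := by
  rcases ha.eq_or_lt with h0 | h0
  · rw [← h0, zero_mul] at hd he
    have hd0 : d = 0 := by nlinarith
    have he0 : e = 0 := by nlinarith
    have := psd2_real hb hc hf y z
    rw [← h0, hd0, he0]
    linarith
  · have h1 : 0 ≤ a * (a * x ^ 2 + b * y ^ 2 + c * z ^ 2 + 2 * d * x * y + 2 * e * x * z +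
        2 * f * y * z) := by
      have e1 : a * (a * x ^ 2 + b * y ^ 2 + c * z ^ 2 + 2 * d * x * y + 2 * e * x * z +
          2 * f * y * z) = (a * x + d * y + e * z) ^ 2 +
          ((a * b - d ^ 2) * y ^ 2 + 2 * (a * f - d * e) * y * z + (a * c - e ^ 2) * z ^ 2) := by
        ring
      have h2 : (a * f - d * e) ^ 2 ≤ (a * b - d ^ 2) * (a * c - e ^ 2) := by
        have : (a * b - d ^ 2) * (a * c - e ^ 2) - (a * f - d * e) ^ 2 =
            a * (a * b * c + 2 * (d * (e * f)) - (a * f ^ 2 + b * e ^ 2 + c * d ^ 2)) := by ring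
        nlinarith [mul_nonneg h0.le (sub_nonneg.2 hdet)]
      have := psd2_real (sub_nonneg.2 hd) (sub_nonneg.2 he) h2 y z
      rw [e1]
      nlinarith [sq_nonneg (a * x + d * y + e * z)]
    exact nonneg_of_mul_nonneg_right h1 h0

/-! ## cones -/

/-- all of the first `m` coordinates are nonnegative -/
def KNon (m : ℕ) (x : ℕ → ℝ) : Prop := ∀ j < m, 0 ≤ x j

theorem KNon_cone (m : ℕ) : ConeP m (KNon m) where
  zero := fun _ _ => le_refl _
  add := fun x y hx hy j hj => add_nonneg (hx j hj) (hy j hj)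
  smul := fun c x hc hx j hj => mul_nonneg hc (hx j hj)
  ext := fun x y h hx j hj => by rw [← h j hj]; exact hx j hj

/-- the form with coefficients `x 0, x 1` (diagonal), `x 2` is PSD -/
def KP2 (x : ℕ → ℝ) : Prop :=
  ∀ u v : ℝ, 0 ≤ x 0 * u ^ 2 + x 1 * v ^ 2 + 2 * x 2 * u * v

theorem KP2_cone : ConeP 3 KP2 where
  zero := fun u v => by simp
  add := fun x y hx hy u v => by
    have h1 := hx u v
    have h2 := hy u v
    simp only [Pi.add_apply]
    linarith
  smul := fun c x hc hx u v => by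
    have h1 := mul_nonneg hc (hx u v)
    simp only [Pi.smul_apply, smul_eq_mul]
    linarith
  ext := fun x y h hx u v => by
    rw [← h 0 (by norm_num), ← h 1 (by norm_num), ← h 2 (by norm_num)]
    exact hx u v

/-- the form with coefficients `x 0, x 1, x 2` (diagonal), `x 3 = q₁₂, x 4 = q₁₃, x 5 = q₂₃` is
PSD -/
def KP3 (x : ℕ → ℝ) : Prop :=
  ∀ u v w : ℝ, 0 ≤ x 0 * u ^ 2 + x 1 * v ^ 2 + x 2 * w ^ 2 + 2 * x 3 * u * v + 2 * x 4 * u * w +
    2 * x 5 * v * w

theorem KP3_cone : ConeP 6 KP3 where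
  zero := fun u v w => by simp
  add := fun x y hx hy u v w => by
    have h1 := hx u v w
    have h2 := hy u v w
    simp only [Pi.add_apply]
    linarith
  smul := fun c x hc hx u v w => by
    have h1 := mul_nonneg hc (hx u v w)
    simp only [Pi.smul_apply, smul_eq_mul]
    linarith
  ext := fun x y h hx u v w => by
    rw [← h 0 (by norm_num), ← h 1 (by norm_num), ← h 2 (by norm_num), ← h 3 (by norm_num),
      ← h 4 (by norm_num), ← h 5 (by norm_num)]
    exact hx u v w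

/-! ## tests -/

noncomputable section

/-- all digits are at least `h` -/
def gdN (h : ℕ) (ds : List ℕ) : Bool :=
  List.rec (motive := fun _ => Bool) true (fun a _ ih => bnd2 (Nat.ble h a) ih) ds

theorem gdN_sound (m h : ℕ) (ds : List ℕ) (hl : ds.length = m) (hg : gdN h ds = true) :
    KNon m fun j => ((nth ds j 0 : ℕ) : ℝ) - (h : ℝ) := by
  induction ds generalizing m with
  | nil => intro j hj; simp only [List.length_nil] at hl; omega
  | cons a ds ih =>
    have h1 : (Nat.ble h a && gdN h ds) = true := by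
      rw [← bnd2_eq]; exact hg
    rw [Bool.and_eq_true] at h1
    intro j hj
    cases j with
    | zero =>
      have : (h : ℝ) ≤ a := by exact_mod_cast Nat.le_of_ble_eq_true h1.1
      simpa using this
    | succ j =>
      simp only [List.length_cons] at hl
      exact ih ds.length rfl h1.2 j (by omega)

/-- distance of natural numbers -/
def dst (d h : ℕ) : ℕ := Nat.add (Nat.sub d h) (Nat.sub h d)

theorem dst_cast (d h : ℕ) : ((dst d h : ℕ) : ℝ) = |(d : ℝ) - h| := by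
  unfold dst
  rcases le_total h d with h1 | h1
  · have e : Nat.add (Nat.sub d h) (Nat.sub h d) = d - h := by
      show (d - h) + (h - d) = d - h
      omega
    rw [e, Nat.cast_sub h1, abs_of_nonneg]
    have : (h : ℝ) ≤ d := by exact_mod_cast h1
    linarith
  · have e : Nat.add (Nat.sub d h) (Nat.sub h d) = h - d := by
      show (d - h) + (h - d) = h - d
      omega
    rw [e, Nat.cast_sub h1, abs_of_nonpos]
    · ring
    · have : (d : ℝ) ≤ h := by exact_mod_cast h1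
      linarith

/-- 2x2 test -/
def gd2' (h a b d : ℕ) : Bool :=
  bnd2 (Nat.ble h a) (bnd2 (Nat.ble h b)
    (frc (dst d h) fun D => Nat.ble (Nat.mul D D) (Nat.mul (Nat.sub a h) (Nat.sub b h))))

/-- 2x2 test -/
def gd2 (h : ℕ) (ds : List ℕ) : Bool := gd2' h (nth ds 0 0) (nth ds 1 0) (nth ds 2 0)

theorem sub_cast' {a h : ℕ} (ha : h ≤ a) : ((Nat.sub a h : ℕ) : ℝ) = (a : ℝ) - h := by
  show ((a - h : ℕ) : ℝ) = _
  rw [Nat.cast_sub ha]

theorem gd2_sound (h : ℕ) (ds : List ℕ) (_hl : ds.length = 3) (hg : gd2 h ds = true) :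
    KP2 fun j => ((nth ds j 0 : ℕ) : ℝ) - (h : ℝ) := by
  intro u v
  unfold gd2 gd2' at hg
  simp only []
  generalize nth ds 0 0 = a at hg ⊢
  generalize nth ds 1 0 = b at hg ⊢
  generalize nth ds 2 0 = d at hg ⊢
  rw [bnd2_eq, bnd2_eq, Bool.and_eq_true, Bool.and_eq_true, frc_eq] at hg
  obtain ⟨h1, h2, h3⟩ := hg
  have h1 := Nat.le_of_ble_eq_true h1
  have h2 := Nat.le_of_ble_eq_true h2
  have h3 := Nat.le_of_ble_eq_true h3
  have h4 : ((dst d h : ℕ) : ℝ) * (dst d h : ℕ) ≤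
      ((Nat.sub a h : ℕ) : ℝ) * ((Nat.sub b h : ℕ) : ℝ) := by exact_mod_cast h3
  rw [dst_cast, sub_cast' h1, sub_cast' h2, abs_mul_abs_self] at h4
  have g1 : (h : ℝ) ≤ a := by exact_mod_cast h1
  have g2 : (h : ℝ) ≤ b := by exact_mod_cast h2
  have := psd2_real (A := (a : ℝ) - h) (C := (b : ℝ) - h) (F := (d : ℝ) - h) (by linarith)
    (by linarith) (by nlinarith) u v
  linarith

/-- sign condition and determinant -/
def dtm (s : Bool) (S T U : ℕ) : Bool :=
  Bool.rec (motive := fun _ => Bool) (Nat.ble (Nat.add S U) T) (Nat.ble S (Nat.add T U)) s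

/-- minors, for the sizes `A B C` (diagonal) and `D E F` (off-diagonal) -/
def mnr (s : Bool) (A B C D E F : ℕ) : Bool :=
  frc (Nat.mul D D) fun DD => frc (Nat.mul E E) fun EE => frc (Nat.mul F F) fun FF =>
    bnd2 (Nat.ble DD (Nat.mul A B)) (bnd2 (Nat.ble EE (Nat.mul A C))
      (bnd2 (Nat.ble FF (Nat.mul B C))
        (frc (Nat.add (Nat.add (Nat.mul A FF) (Nat.mul B EE)) (Nat.mul C DD)) fun S =>
          frc (Nat.mul (Nat.mul A B) C) fun T => frc (Nat.mul 2 (Nat.mul D (Nat.mul E F))) fun U =>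
            dtm s S T U)))

/-- 3x3 test; diagonal `a b c`, off-diagonal `d = q₁₂, e = q₁₃, f = q₂₃` -/
def gd3' (h a b c d e f : ℕ) : Bool :=
  bnd2 (Nat.ble h a) (bnd2 (Nat.ble h b) (bnd2 (Nat.ble h c)
    (frc (Nat.sub a h) fun A => frc (Nat.sub b h) fun B => frc (Nat.sub c h) fun C =>
      frc (dst d h) fun D => frc (dst e h) fun E => frc (dst f h) fun F =>
        mnr (Bool.xor (Nat.ble h d) (Bool.xor (Nat.ble h e) (Nat.ble h f))) A B C D E F)))

/-- 3x3 test -/
def gd3 (h : ℕ) (ds : List ℕ) : Bool :=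
  gd3' h (nth ds 0 0) (nth ds 1 0) (nth ds 2 0) (nth ds 3 0) (nth ds 4 0) (nth ds 5 0)

theorem dst_cases (d h : ℕ) :
    (Nat.ble h d = true ∧ (d : ℝ) - h = (dst d h : ℕ)) ∨
      (Nat.ble h d = false ∧ (d : ℝ) - h = -(dst d h : ℕ)) := by
  rw [dst_cast]
  by_cases hc : h ≤ d
  · left
    refine ⟨Nat.ble_eq_true_of_le hc, ?_⟩
    have : (h : ℝ) ≤ d := by exact_mod_cast hc
    rw [abs_of_nonneg (by linarith)]
  · right
    constructor
    · cases hb : Nat.ble h d with
      | false => rfl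
      | true => exact absurd (Nat.le_of_ble_eq_true hb) hc
    · have : (d : ℝ) ≤ h := by exact_mod_cast (by omega : d ≤ h)
      rw [abs_of_nonpos (by linarith)]
      ring

theorem gd3'_sound {h a b c d e f : ℕ} (hg : gd3' h a b c d e f = true) (u v w : ℝ) :
    0 ≤ ((a : ℝ) - h) * u ^ 2 + ((b : ℝ) - h) * v ^ 2 + ((c : ℝ) - h) * w ^ 2 +
      2 * ((d : ℝ) - h) * u * v + 2 * ((e : ℝ) - h) * u * w + 2 * ((f : ℝ) - h) * v * w := by
  unfold gd3' mnr at hg
  simp only [bnd2_eq, Bool.and_eq_true, frc_eq] at hg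
  obtain ⟨h1, h2, h3, h4, h5, h6, h7⟩ := hg
  have h1 := Nat.le_of_ble_eq_true h1
  have h2 := Nat.le_of_ble_eq_true h2
  have h3 := Nat.le_of_ble_eq_true h3
  have h4 := Nat.le_of_ble_eq_true h4
  have h5 := Nat.le_of_ble_eq_true h5
  have h6 := Nat.le_of_ble_eq_true h6
  have hA := sub_cast' h1
  have hB := sub_cast' h2
  have hC := sub_cast' h3
  have g1 : (h : ℝ) ≤ a := by exact_mod_cast h1
  have g2 : (h : ℝ) ≤ b := by exact_mod_cast h2
  have g3 : (h : ℝ) ≤ c := by exact_mod_cast h3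
  have g4 : ((dst d h : ℕ) : ℝ) * (dst d h : ℕ) ≤
      ((Nat.sub a h : ℕ) : ℝ) * ((Nat.sub b h : ℕ) : ℝ) := by exact_mod_cast h4
  have g5 : ((dst e h : ℕ) : ℝ) * (dst e h : ℕ) ≤
      ((Nat.sub a h : ℕ) : ℝ) * ((Nat.sub c h : ℕ) : ℝ) := by exact_mod_cast h5
  have g6 : ((dst f h : ℕ) : ℝ) * (dst f h : ℕ) ≤
      ((Nat.sub b h : ℕ) : ℝ) * ((Nat.sub c h : ℕ) : ℝ) := by exact_mod_cast h6
  -- the determinant condition
  have key : ((Nat.sub a h : ℕ) : ℝ) * ((dst f h : ℕ) : ℝ) ^ 2 +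
      ((Nat.sub b h : ℕ) : ℝ) * ((dst e h : ℕ) : ℝ) ^ 2 +
      ((Nat.sub c h : ℕ) : ℝ) * ((dst d h : ℕ) : ℝ) ^ 2 ≤
      ((Nat.sub a h : ℕ) : ℝ) * ((Nat.sub b h : ℕ) : ℝ) * ((Nat.sub c h : ℕ) : ℝ) +
      2 * (((d : ℝ) - h) * (((e : ℝ) - h) * ((f : ℝ) - h))) := by
    generalize Nat.sub a h = A at h7 ⊢
    generalize Nat.sub b h = B at h7 ⊢
    generalize Nat.sub c h = C at h7 ⊢
    rcases dst_cases d h with ⟨s1, t1⟩ | ⟨s1, t1⟩ <;> rcases dst_cases e h with ⟨s2, t2⟩ | ⟨s2, t2⟩ <;>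
      rcases dst_cases f h with ⟨s3, t3⟩ | ⟨s3, t3⟩ <;> rw [s1, s2, s3] at h7 <;> rw [t1, t2, t3] <;>
      generalize dst d h = D at h7 ⊢ <;> generalize dst e h = E at h7 ⊢ <;>
      generalize dst f h = F at h7 ⊢ <;> have h8 := Nat.le_of_ble_eq_true h7 <;>
      have h9 := (Nat.cast_le (α := ℝ)).2 h8 <;>
      simp only [Nat.add_eq, Nat.mul_eq] at h9 <;> push_cast at h9 <;> linarith [h9]
  rw [hA, hB, hC] at key
  rw [hA, hB] at g4
  rw [hA, hC] at g5
  rw [hB, hC] at g6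
  rw [dst_cast, abs_mul_abs_self] at g4 g5 g6
  rw [dst_cast, dst_cast, dst_cast, sq_abs, sq_abs, sq_abs] at key
  exact psd3_real (by linarith) (by linarith) (by linarith) (by nlinarith) (by nlinarith)
    (by nlinarith) key u v w

theorem gd3_sound (h : ℕ) (ds : List ℕ) (_hl : ds.length = 6) (hg : gd3 h ds = true) :
    KP3 fun j => ((nth ds j 0 : ℕ) : ℝ) - (h : ℝ) := fun u v w => gd3'_sound hg u v w

end

/-! ## final theorems -/

section Final

variable {n : ℕ} {P : List Ex} {d : List ℕ} {K : ℕ}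

/-- scalar positivity of the last `m` results on a closed box -/
theorem nonneg_of_chk {m : ℕ} (hd : degOK n m P d K = true) (t : Tr) (B : Bx) (hB : B.length = n)
    (hc : chkK (leafK gdN m P (d.map (· + 1)) K) t B = true) {xs : List ℝ} (hx : inC B xs)
    (j : ℕ) (hj : j < m) : 0 ≤ nth (evs xs (List.replicate n 1) P []) j 0 := by
  refine closed_of_open (F := fun x => x j) (by fun_prop) ?_ xs hx
  intro xs hx
  exact cone_of_chk (KNon_cone m) (gdN_sound m) hd t B hB hc hx j hj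

/-- positive semidefiniteness of the 2x2 matrix with results `q₁₁, q₂₂, q₁₂` -/
theorem psd2_of_chk (hd : degOK n 3 P d K = true) (t : Tr) (B : Bx) (hB : B.length = n)
    (hc : chkK (leafK gd2 3 P (d.map (· + 1)) K) t B = true) {xs : List ℝ} (hx : inC B xs)
    (u v : ℝ) :
    0 ≤ nth (evs xs (List.replicate n 1) P []) 0 0 * u ^ 2 +
      nth (evs xs (List.replicate n 1) P []) 1 0 * v ^ 2 +
      2 * nth (evs xs (List.replicate n 1) P []) 2 0 * u * v := by
  refine closed_of_open (F := fun x => x 0 * u ^ 2 + x 1 * v ^ 2 + 2 * x 2 * u * v)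
    (by fun_prop) ?_ xs hx
  intro xs hx
  exact cone_of_chk KP2_cone gd2_sound hd t B hB hc hx u v

/-- positive semidefiniteness of the 3x3 matrix with results `q₁₁, q₂₂, q₃₃, q₁₂, q₁₃, q₂₃` -/
theorem psd3_of_chk (hd : degOK n 6 P d K = true) (t : Tr) (B : Bx) (hB : B.length = n)
    (hc : chkK (leafK gd3 6 P (d.map (· + 1)) K) t B = true) {xs : List ℝ} (hx : inC B xs)
    (u v w : ℝ) :
    0 ≤ nth (evs xs (List.replicate n 1) P []) 0 0 * u ^ 2 +
      nth (evs xs (List.replicate n 1) P []) 1 0 * v ^ 2 +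
      nth (evs xs (List.replicate n 1) P []) 2 0 * w ^ 2 +
      2 * nth (evs xs (List.replicate n 1) P []) 3 0 * u * v +
      2 * nth (evs xs (List.replicate n 1) P []) 4 0 * u * w +
      2 * nth (evs xs (List.replicate n 1) P []) 5 0 * v * w := by
  refine closed_of_open (F := fun x => x 0 * u ^ 2 + x 1 * v ^ 2 + x 2 * w ^ 2 +
    2 * x 3 * u * v + 2 * x 4 * u * w + 2 * x 5 * v * w) (by fun_prop) ?_ xs hx
  intro xs hx
  exact cone_of_chk KP3_cone gd3_sound hd t B hB hc hx u v w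

end Final

end Crest.Agent.R249.Chk378
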