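import Crest.Agent.R247.Bo2_84
import Crest.Agent.R247.Bo3_84

/-!
# R249, leaf D3-COD (helper992), file 1: covariant calculus of endomorphism fields

Coordinate level (`IsRiemannianOn g U`).  `covA g A` is the covariant derivative of an endomorphism
field, `covB g B` the covariant derivative of a field of bilinear maps `𝔼 →L 𝔼 →L 𝔼`, `ctr g x β`
the metric trace of a vector valued bilinear map (`= Σ β ξ_a ξ_a` in a frame), parallel:
`cov g (ctr β) X = ctr (∇_X β)`.  Ricci identity for endomorphism fields.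
-/

set_option autoImplicit false

open scoped ContDiff Topology
open Filter Set
open Crest.GeometryTopology.CoordMetric Crest.GeometryTopology.ChartCurvature
open Crest.Agent.R202.Tens Crest.Agent.R247.Bo84

noncomputable section

namespace Crest.Agent.R249.Cod992

variable {n : ℕ}

local notation "𝔼" => EuclideanSpace ℝ (Fin n)

/-- the covariant derivative of a field of endomorphisms. -/
def covA (g : MetricField n)
    (A : EuclideanSpace ℝ (Fin n) → EuclideanSpace ℝ (Fin n) →L[ℝ] EuclideanSpace ℝ (Fin n))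
    (x : EuclideanSpace ℝ (Fin n)) : EuclideanSpace ℝ (Fin n) →L[ℝ]
      EuclideanSpace ℝ (Fin n) →L[ℝ] EuclideanSpace ℝ (Fin n) :=
  fderiv ℝ A x +
    ((ContinuousLinearMap.compL ℝ (EuclideanSpace ℝ (Fin n)) (EuclideanSpace ℝ (Fin n))
      (EuclideanSpace ℝ (Fin n))).flip (A x)).comp (Gam g x) -
    (ContinuousLinearMap.compL ℝ (EuclideanSpace ℝ (Fin n)) (EuclideanSpace ℝ (Fin n))
      (EuclideanSpace ℝ (Fin n)) (A x)).comp (Gam g x)

/-- the covariant derivative, in the direction `X`, of a field of vector valued bilinear maps. -/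
def covB (g : MetricField n)
    (B : EuclideanSpace ℝ (Fin n) → EuclideanSpace ℝ (Fin n) →L[ℝ]
      EuclideanSpace ℝ (Fin n) →L[ℝ] EuclideanSpace ℝ (Fin n))
    (x X : EuclideanSpace ℝ (Fin n)) : EuclideanSpace ℝ (Fin n) →L[ℝ]
      EuclideanSpace ℝ (Fin n) →L[ℝ] EuclideanSpace ℝ (Fin n) :=
  fderiv ℝ B x X +
    (ContinuousLinearMap.compL ℝ (EuclideanSpace ℝ (Fin n)) (EuclideanSpace ℝ (Fin n))
      (EuclideanSpace ℝ (Fin n)) (Gam g x X)).comp (B x) -
    ((ContinuousLinearMap.compL ℝ (EuclideanSpace ℝ (Fin n)) (EuclideanSpace ℝ (Fin n))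
      (EuclideanSpace ℝ (Fin n))).flip (Gam g x X)).comp (B x) -
    (B x).comp (Gam g x X)

/-- the vector `Σ_i g^{ik} ∂_i`. -/
def nv (g : MetricField n) (k : Fin n) (x : EuclideanSpace ℝ (Fin n)) :
    EuclideanSpace ℝ (Fin n) :=
  WithLp.toLp 2 fun i => inverseField g x i k

/-- metric trace of a vector valued bilinear map. -/
def ctr (g : MetricField n) (x : EuclideanSpace ℝ (Fin n))
    (β : EuclideanSpace ℝ (Fin n) →L[ℝ]
      EuclideanSpace ℝ (Fin n) →L[ℝ] EuclideanSpace ℝ (Fin n)) : EuclideanSpace ℝ (Fin n) :=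
  ∑ k, β (nv g k x) (EuclideanSpace.single k 1)

lemma covA_apply (g : MetricField n) (A : 𝔼 → 𝔼 →L[ℝ] 𝔼) (x X Y : 𝔼) :
    covA g A x X Y = fderiv ℝ A x X Y + Gam g x X (A x Y) - A x (Gam g x X Y) := rfl

lemma covB_apply (g : MetricField n) (B : 𝔼 → 𝔼 →L[ℝ] 𝔼 →L[ℝ] 𝔼) (x X Y Z : 𝔼) :
    covB g B x X Y Z = fderiv ℝ B x X Y Z + Gam g x X (B x Y Z) - B x Y (Gam g x X Z) -
      B x (Gam g x X Y) Z := rfl

section Symm

variable {g : MetricField n} {U : Set (EuclideanSpace ℝ (Fin n))} {x : EuclideanSpace ℝ (Fin n)}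

lemma contDiffAt_covA (hg : IsRiemannianOn g U) (hx : x ∈ U) {k m : WithTop ℕ∞}
    {A : 𝔼 → 𝔼 →L[ℝ] 𝔼} (hA : ContDiffAt ℝ k A x) (hmk : m + 1 ≤ k) (hm : m ≤ ∞) :
    ContDiffAt ℝ m (covA g A) x := by
  have h1 : ContDiffAt ℝ m (fderiv ℝ A) x := hA.fderiv_right hmk
  have h2 : ContDiffAt ℝ m (Gam g) x := (contDiffAt_Gam hg hx).of_le hm
  have h3 : ContDiffAt ℝ m A x := hA.of_le (le_trans (by simp) hmk)
  have h4 : ContDiffAt ℝ m (fun y => (ContinuousLinearMap.compL ℝ 𝔼 𝔼 𝔼).flip (A y)) x :=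
    contDiffAt_const.clm_apply h3
  have h5 : ContDiffAt ℝ m (fun y => ContinuousLinearMap.compL ℝ 𝔼 𝔼 𝔼 (A y)) x :=
    contDiffAt_const.clm_apply h3
  exact (h1.add (h4.clm_comp h2)).sub (h5.clm_comp h2)

/-- Leibniz rule for an endomorphism field applied to a vector field. -/
lemma cov_clm_apply (g : MetricField n) {A : 𝔼 → 𝔼 →L[ℝ] 𝔼} {V : 𝔼 → 𝔼}
    (hA : DifferentiableAt ℝ A x) (hV : DifferentiableAt ℝ V x) (X : 𝔼) :
    cov g (fun y => A y (V y)) x X = covA g A x X (V x) + A x (cov g V x X) := by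
  rw [cov_apply, cov_apply, covA_apply, fderiv_clm_apply hA hV]
  simp only [add_apply, ContinuousLinearMap.comp_apply, ContinuousLinearMap.flip_apply, map_add]
  abel

/-- derivative of `⟨A Y, Z⟩`. -/
lemma fderiv_bil_clm (hg : IsRiemannianOn g U) (hx : x ∈ U) {A : 𝔼 → 𝔼 →L[ℝ] 𝔼}
    (hA : DifferentiableAt ℝ A x) (X Y Z : 𝔼) :
    fderiv ℝ (fun y => bil (g y) (A y Y) Z) x X =
      bil (g x) (covA g A x X Y) Z + bil (g x) (A x (Gam g x X Y)) Z +
        bil (g x) (A x Y) (Gam g x X Z) := by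
  have h1 : DifferentiableAt ℝ (fun y => A y Y) x := hA.clm_apply (differentiableAt_const _)
  rw [fderiv_bil hg hx h1 (differentiableAt_const Z), cov_clm_apply g hA (differentiableAt_const _)]
  simp [cov_apply]

/-- `∇_X A` is self-adjoint when `A` is. -/
lemma covA_symm (hg : IsRiemannianOn g U) (hx : x ∈ U) {A : 𝔼 → 𝔼 →L[ℝ] 𝔼}
    (hA : DifferentiableAt ℝ A x)
    (hs : ∀ᶠ y in 𝓝 x, ∀ Y Z, bil (g y) (A y Y) Z = bil (g y) Y (A y Z)) (X Y Z : 𝔼) :
    bil (g x) (covA g A x X Y) Z = bil (g x) Y (covA g A x X Z) := by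
  have h1 := fderiv_bil_clm hg hx hA X Y Z
  have h2 := fderiv_bil_clm hg hx hA X Z Y
  have h3 : (fun y => bil (g y) (A y Y) Z) =ᶠ[𝓝 x] fun y => bil (g y) (A y Z) Y := by
    filter_upwards [hs, hg.isOpen.mem_nhds hx] with y hy hyU
    rw [hy Y Z, bil_symm hg hyU]
  rw [h3.fderiv_eq, h2] at h1
  have h4 := hs.self_of_nhds
  rw [bil_symm hg hx Y, h4 (Gam g x X Y) Z, bil_symm hg hx (Gam g x X Y)] at *
  rw [h4 (Gam g x X Z) Y, bil_symm hg hx (Gam g x X Z)] at h1
  linarith

/-- Leibniz rule for a field of bilinear maps. -/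
lemma cov_bil_apply (g : MetricField n) {B : 𝔼 → 𝔼 →L[ℝ] 𝔼 →L[ℝ] 𝔼} {V W : 𝔼 → 𝔼}
    (hB : DifferentiableAt ℝ B x) (hV : DifferentiableAt ℝ V x) (hW : DifferentiableAt ℝ W x)
    (X : 𝔼) :
    cov g (fun y => B y (V y) (W y)) x X = covB g B x X (V x) (W x) +
      B x (cov g V x X) (W x) + B x (V x) (cov g W x X) := by
  rw [cov_apply, cov_apply, cov_apply, covB_apply, fderiv_clm_apply (hB.clm_apply hV) hW,
    fderiv_clm_apply hB hV]
  simp only [add_apply, ContinuousLinearMap.comp_apply, ContinuousLinearMap.flip_apply, map_add]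
  abel

/-- the value of `covA` on constant vectors as a field. -/
lemma fderiv_covA (hg : IsRiemannianOn g U) (hx : x ∈ U) {A : 𝔼 → 𝔼 →L[ℝ] 𝔼}
    (hA : ContDiffAt ℝ 2 A x) (X Y Z : 𝔼) :
    fderiv ℝ (covA g A) x X Y Z = fderiv ℝ (fderiv ℝ A) x X Y Z +
      (fderiv ℝ (Gam g) x X Y (A x Z) + Gam g x Y (fderiv ℝ A x X Z)) -
      (fderiv ℝ A x X (Gam g x Y Z) + A x (fderiv ℝ (Gam g) x X Y Z)) := by
  have hdA : DifferentiableAt ℝ A x := hA.differentiableAt (by norm_num)
  have hddA : DifferentiableAt ℝ (fderiv ℝ A) x :=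
    (hA.fderiv_right (m := 1) (by norm_num)).differentiableAt (by norm_num)
  have hG : DifferentiableAt ℝ (Gam g) x := (contDiffAt_Gam hg hx).differentiableAt (by simp)
  have hcov : DifferentiableAt ℝ (covA g A) x :=
    (contDiffAt_covA hg hx (m := 1) hA (by norm_num) (by simp)).differentiableAt (by norm_num)
  have e1 : fderiv ℝ (fun y => covA g A y Y Z) x X = fderiv ℝ (covA g A) x X Y Z := by
    rw [fderiv_clm_apply (hcov.clm_apply (differentiableAt_const _)) (differentiableAt_const _),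
      fderiv_clm_apply hcov (differentiableAt_const _)]
    simp
  have e2 : (fun y => covA g A y Y Z) = fun y => fderiv ℝ A y Y Z + Gam g y Y (A y Z) -
      A y (Gam g y Y Z) := rfl
  have hAZ : DifferentiableAt ℝ (fun y => A y Z) x := hdA.clm_apply (differentiableAt_const _)
  have hGY : DifferentiableAt ℝ (fun y => Gam g y Y) x := hG.clm_apply (differentiableAt_const _)
  have hGYZ : DifferentiableAt ℝ (fun y => Gam g y Y Z) x :=
    hGY.clm_apply (differentiableAt_const _)
  have h3 : DifferentiableAt ℝ (fun y => fderiv ℝ A y Y Z) x :=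
    (hddA.clm_apply (differentiableAt_const _)).clm_apply (differentiableAt_const _)
  have h4 : DifferentiableAt ℝ (fun y => Gam g y Y (A y Z)) x := hGY.clm_apply hAZ
  have h5 : DifferentiableAt ℝ (fun y => A y (Gam g y Y Z)) x := hdA.clm_apply hGYZ
  rw [← e1, e2, fderiv_fun_sub (h3.fun_add h4) h5, fderiv_fun_add h3 h4]
  rw [fderiv_clm_apply (hddA.clm_apply (differentiableAt_const _)) (differentiableAt_const _),
    fderiv_clm_apply hddA (differentiableAt_const _), fderiv_clm_apply hGY hAZ,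
    fderiv_clm_apply hG (differentiableAt_const _), fderiv_clm_apply hdA (differentiableAt_const _),
    fderiv_clm_apply hdA hGYZ, fderiv_clm_apply hGY (differentiableAt_const _),
    fderiv_clm_apply hG (differentiableAt_const _)]
  simp only [fderiv_fun_const, Pi.zero_apply, ContinuousLinearMap.comp_zero, zero_add, add_apply,
    sub_apply, ContinuousLinearMap.flip_apply, ContinuousLinearMap.comp_apply]
  abel

/-- **Ricci identity** for endomorphism fields. -/
lemma ricci_identity_A (hg : IsRiemannianOn g U) (hx : x ∈ U) {A : 𝔼 → 𝔼 →L[ℝ] 𝔼}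
    (hA : ContDiffAt ℝ 2 A x) (X Y Z : 𝔼) :
    covB g (covA g A) x X Y Z - covB g (covA g A) x Y X Z =
      curv (Gam g) x X Y (A x Z) - A x (curv (Gam g) x X Y Z) := by
  have hsymm : fderiv ℝ (fderiv ℝ A) x X Y = fderiv ℝ (fderiv ℝ A) x Y X :=
    (hA.isSymmSndFDerivAt (by simp)).eq X Y
  rw [covB_apply, covB_apply, fderiv_covA hg hx hA, fderiv_covA hg hx hA, hsymm,
    Gam_symm hg hx Y X]
  simp only [covA_apply, curv, map_add, map_sub]
  abel

/-! ### the metric trace -/

lemma bil_nv (hg : IsRiemannianOn g U) (hx : x ∈ U) (k : Fin n) (Z : 𝔼) :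
    bil (g x) (nv g k x) Z = Z k := by
  rw [bil_symm hg hx, bil_apply]
  have h1 : ∀ i, ∑ j, g x i j * Z i * nv g k x j = if i = k then Z i else 0 := by
    intro i
    have h2 : ∀ j, g x i j * Z i * nv g k x j = Z i * (g x i j * inverseField g x j k) := by
      intro j
      simp only [nv]
      ring
    simp only [h2]
    rw [← Finset.mul_sum, mul_inv_apply hg hx]
    split_ifs <;> simp
  simp only [h1]
  simp

lemma contDiffAt_nv (hg : IsRiemannianOn g U) (hx : x ∈ U) (k : Fin n) :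
    ContDiffAt ℝ ∞ (nv g k) x :=
  contDiffAt_toLp fun i => contDiffAt_inv hg hx i k

lemma cov_nv (hg : IsRiemannianOn g U) (hx : x ∈ U) (k : Fin n) (X : 𝔼) :
    cov g (nv g k) x X = -∑ j, (Gam g x X (EuclideanSpace.single j 1)) k • nv g j x := by
  refine bil_injective hg hx fun Z => ?_
  have h0 : DifferentiableAt ℝ (nv g k) x := (contDiffAt_nv hg hx k).differentiableAt (by simp)
  have h1 := fderiv_bil hg hx h0 (differentiableAt_const Z) X
  have h2 : (fun y => bil (g y) (nv g k y) Z) =ᶠ[𝓝 x] fun _ => Z k := by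
    filter_upwards [hg.isOpen.mem_nhds hx] with y hy using bil_nv hg hy k Z
  rw [h2.fderiv_eq] at h1
  simp only [fderiv_fun_const, Pi.zero_apply, zero_apply, cov_apply, zero_add] at h1
  rw [bil_nv hg hx] at h1
  rw [map_neg, neg_apply, map_sum, sum_apply]
  simp only [map_smul, smul_apply, smul_eq_mul, bil_nv hg hx]
  have h3 : Gam g x X Z k = ∑ j, (Gam g x X (EuclideanSpace.single j 1)) k * Z j := by
    conv_lhs => rw [eq_sum_single Z]
    rw [map_sum, WithLp.ofLp_sum, Finset.sum_apply]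
    refine Finset.sum_congr rfl fun j _ => ?_
    rw [map_smul, PiLp.smul_apply, smul_eq_mul, mul_comm]
  rw [← h3]
  rw [cov_apply]
  linarith

lemma ctr_frame (hg : IsRiemannianOn g U) (hx : x ∈ U) {ξ : Fin n → 𝔼} (h : IsFrame (g x) ξ)
    (β : 𝔼 →L[ℝ] 𝔼 →L[ℝ] 𝔼) : ctr g x β = ∑ a, β (ξ a) (ξ a) := by
  have h1 : ∀ k, nv g k x = ∑ a, (ξ a k) • ξ a := by
    intro k
    rw [h.expand hg hx (nv g k x)]
    refine Finset.sum_congr rfl fun a _ => ?_
    rw [bil_nv hg hx]
  rw [ctr]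
  simp only [h1, map_sum, sum_apply, map_smul, smul_apply]
  rw [Finset.sum_comm]
  refine Finset.sum_congr rfl fun a _ => ?_
  conv_rhs => rw [eq_sum_single (ξ a)]
  rw [← eq_sum_single (ξ a)]
  conv_rhs => arg 2; rw [eq_sum_single (ξ a)]
  rw [map_sum]
  refine Finset.sum_congr rfl fun k _ => ?_
  rw [map_smul]

/-- the metric trace is parallel. -/
lemma cov_ctr (hg : IsRiemannianOn g U) (hx : x ∈ U) {B : 𝔼 → 𝔼 →L[ℝ] 𝔼 →L[ℝ] 𝔼}
    (hB : DifferentiableAt ℝ B x) (X : 𝔼) :
    cov g (fun y => ctr g y (B y)) x X = ctr g x (covB g B x X) := by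
  have hn : ∀ k, DifferentiableAt ℝ (nv g k) x := fun k =>
    (contDiffAt_nv hg hx k).differentiableAt (by simp)
  have hk : ∀ k, DifferentiableAt ℝ (fun y => B y (nv g k y) (EuclideanSpace.single k 1)) x :=
    fun k => (hB.clm_apply (hn k)).clm_apply (differentiableAt_const _)
  have h1 : cov g (fun y => ctr g y (B y)) x X =
      ∑ k, cov g (fun y => B y (nv g k y) (EuclideanSpace.single k 1)) x X := by
    simp only [cov_apply]
    unfold ctr
    rw [fderiv_fun_sum fun k _ => hk k, sum_apply, map_sum, Finset.sum_add_distrib]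
  rw [h1]
  simp only [cov_bil_apply g hB (hn _) (differentiableAt_const _), cov_nv hg hx]
  rw [Finset.sum_add_distrib, Finset.sum_add_distrib]
  have h2 : ∑ k, B x (-∑ j, (Gam g x X (EuclideanSpace.single j 1)) k • nv g j x)
      (EuclideanSpace.single k 1) = -∑ j, B x (nv g j x) (Gam g x X (EuclideanSpace.single j 1)) := by
    simp only [map_neg, neg_apply, map_sum, sum_apply, map_smul, smul_apply]
    rw [Finset.sum_neg_distrib, Finset.sum_comm]
    congr 1
    refine Finset.sum_congr rfl fun j _ => ?_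
    conv_rhs => rw [eq_sum_single (Gam g x X (EuclideanSpace.single j 1))]
    rw [map_sum]
    refine Finset.sum_congr rfl fun k _ => ?_
    rw [map_smul]
  have h3 : ∀ k : Fin n, cov g (fun _ : 𝔼 => (EuclideanSpace.single k (1:ℝ) : 𝔼)) x X =
      Gam g x X (EuclideanSpace.single k 1) := by
    intro k
    rw [cov_apply]
    simp
  simp only [h3]
  rw [h2, ctr]
  abel

end Symm

end Crest.Agent.R249.Cod992
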