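import Crest.Agent.R249.Cod1_992

/-!
# R249, leaf D3-COD (helper992), file 2: the third covariant derivative of a function

`h3 g f x X = ∇_X (Hess f)` (endomorphism), Codazzi, `|∇ Hess f|²`, the vector field
`Vv = T_jk ∇_j T_ik - T_ik ∇_j T_jk` and the exact divergence identity (no derivative of the
curvature):
`div Vv = |∇T|² - ½ Σ |R(ξ_a,ξ_b)∇f|² - |div T|² + Rm*T*T`.
-/

set_option autoImplicit false

open scoped ContDiff Topology
open Filter Set
open Crest.GeometryTopology.CoordMetric Crest.GeometryTopology.ChartCurvature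
open Crest.Agent.R202.Tens Crest.Agent.R247.Bo84

noncomputable section

namespace Crest.Agent.R249.Cod992

variable {n : ℕ}

local notation "𝔼" => EuclideanSpace ℝ (Fin n)

/-- the covariant derivative of the Hessian endomorphism. -/
def h3 (g : MetricField n) (f : EuclideanSpace ℝ (Fin n) → ℝ) (x : EuclideanSpace ℝ (Fin n)) :
    EuclideanSpace ℝ (Fin n) →L[ℝ] EuclideanSpace ℝ (Fin n) →L[ℝ] EuclideanSpace ℝ (Fin n) :=
  covA g (hessE g f) x

/-- `|∇ Hess f|²`. -/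
def hess3Sq (g : MetricField n) (f : EuclideanSpace ℝ (Fin n) → ℝ)
    (x : EuclideanSpace ℝ (Fin n)) : ℝ :=
  ∑ k, trL ((h3 g f x (nv g k x)).comp (h3 g f x (EuclideanSpace.single k 1)))

/-- the field of bilinear maps `(Y, Z) ↦ (∇_Y T)(T Z)`. -/
def bet (g : MetricField n) (f : EuclideanSpace ℝ (Fin n) → ℝ) (x : EuclideanSpace ℝ (Fin n)) :
    EuclideanSpace ℝ (Fin n) →L[ℝ] EuclideanSpace ℝ (Fin n) →L[ℝ] EuclideanSpace ℝ (Fin n) :=
  ((ContinuousLinearMap.compL ℝ (EuclideanSpace ℝ (Fin n)) (EuclideanSpace ℝ (Fin n))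
    (EuclideanSpace ℝ (Fin n))).flip (hessE g f x)).comp (h3 g f x)

/-- `T_jk ∇_j T_ik`. -/
def Wv (g : MetricField n) (f : EuclideanSpace ℝ (Fin n) → ℝ) (x : EuclideanSpace ℝ (Fin n)) :
    EuclideanSpace ℝ (Fin n) := ctr g x (bet g f x)

/-- the divergence of the Hessian. -/
def dv (g : MetricField n) (f : EuclideanSpace ℝ (Fin n) → ℝ) (x : EuclideanSpace ℝ (Fin n)) :
    EuclideanSpace ℝ (Fin n) := ctr g x (h3 g f x)

/-- the vector field of the divergence identity. -/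
def Vv (g : MetricField n) (f : EuclideanSpace ℝ (Fin n) → ℝ) (x : EuclideanSpace ℝ (Fin n)) :
    EuclideanSpace ℝ (Fin n) := Wv g f x - hessE g f x (dv g f x)

lemma bet_apply (g : MetricField n) (f : 𝔼 → ℝ) (x Y Z : 𝔼) :
    bet g f x Y Z = h3 g f x Y (hessE g f x Z) := rfl

section Symm

variable {g : MetricField n} {U : Set (EuclideanSpace ℝ (Fin n))} {x : EuclideanSpace ℝ (Fin n)}
  {f : EuclideanSpace ℝ (Fin n) → ℝ}

lemma contDiffAt_hessE (hg : IsRiemannianOn g U) (hx : x ∈ U) {a m : WithTop ℕ∞}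
    (hf : ContDiffAt ℝ a f x) (hma : m + 1 + 1 ≤ a) (hm : m + 1 ≤ ∞) :
    ContDiffAt ℝ m (hessE g f) x :=
  contDiffAt_cov hg hx (contDiffAt_grad hg hx (m := m + 1) hf hma hm) le_rfl
    ((by simp : m ≤ m + 1).trans hm)

lemma contDiffAt_h3 (hg : IsRiemannianOn g U) (hx : x ∈ U) {a m : WithTop ℕ∞}
    (hf : ContDiffAt ℝ a f x) (hma : m + 1 + 1 + 1 ≤ a) (hm : m + 1 + 1 ≤ ∞) :
    ContDiffAt ℝ m (h3 g f) x :=
  contDiffAt_covA hg hx (contDiffAt_hessE hg hx (m := m + 1) hf hma hm) le_rfl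
    (((by simp : m ≤ m + 1).trans (by simp : m + 1 ≤ m + 1 + 1)).trans hm)

/-- Codazzi. -/
lemma codazzi (hg : IsRiemannianOn g U) (hx : x ∈ U) (hf : ContDiffAt ℝ 3 f x) (X Y : 𝔼) :
    h3 g f x X Y - h3 g f x Y X = curv (Gam g) x X Y (grad g f x) := by
  have h1 : ContDiffAt ℝ 2 (grad g f) x :=
    contDiffAt_grad hg hx (m := 2) hf (by norm_num) (WithTop.coe_le_coe.2 le_top)
  exact ricci_identity hg hx h1 X Y

lemma h3_symm (hg : IsRiemannianOn g U) (hx : x ∈ U) (hf : ContDiffAt ℝ 3 f x) (X Y Z : 𝔼) :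
    bil (g x) (h3 g f x X Y) Z = bil (g x) Y (h3 g f x X Z) := by
  have h1 : DifferentiableAt ℝ (hessE g f) x :=
    (contDiffAt_hessE hg hx (m := 1) hf (by norm_num) (WithTop.coe_le_coe.2 le_top)
      ).differentiableAt (by norm_num)
  refine covA_symm hg hx h1 ?_ X Y Z
  filter_upwards [hf.eventually (by norm_num), hg.isOpen.mem_nhds hx] with y hy hyU Y Z
  exact bil_hessE_symm hg hyU (hy.of_le (by norm_num)) Y Z

/-- `∇_X B` has self-adjoint values when `B` has. -/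
lemma covB_symm (hg : IsRiemannianOn g U) (hx : x ∈ U) {B : 𝔼 → 𝔼 →L[ℝ] 𝔼 →L[ℝ] 𝔼}
    (hB : DifferentiableAt ℝ B x)
    (hs : ∀ᶠ y in 𝓝 x, ∀ Y Z W, bil (g y) (B y Y Z) W = bil (g y) Z (B y Y W)) (X Y Z W : 𝔼) :
    bil (g x) (covB g B x X Y Z) W = bil (g x) Z (covB g B x X Y W) := by
  have h0 : DifferentiableAt ℝ (fun y => B y Y) x := hB.clm_apply (differentiableAt_const _)
  have h1 : ∀ Z, covA g (fun y => B y Y) x X Z = covB g B x X Y Z + B x (Gam g x X Y) Z := by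
    intro Z
    rw [covA_apply, covB_apply, fderiv_clm_apply hB (differentiableAt_const _)]
    simp
  have h2 := covA_symm hg hx h0 (hs.mono fun y hy Z W => hy Y Z W) X Z W
  have h3 := hs.self_of_nhds (Gam g x X Y) Z W
  rw [h1, h1, map_add, add_apply, map_add, h3] at h2
  linarith

lemma h4_symm (hg : IsRiemannianOn g U) (hx : x ∈ U) (hf : ContDiffAt ℝ 4 f x) (X Y Z W : 𝔼) :
    bil (g x) (covB g (h3 g f) x X Y Z) W = bil (g x) Z (covB g (h3 g f) x X Y W) := by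
  have h1 : DifferentiableAt ℝ (h3 g f) x :=
    (contDiffAt_h3 hg hx (m := 1) hf (by norm_num) (WithTop.coe_le_coe.2 le_top)
      ).differentiableAt (by norm_num)
  refine covB_symm hg hx h1 ?_ X Y Z W
  filter_upwards [hf.eventually (by norm_num), hg.isOpen.mem_nhds hx] with y hy hyU Y Z W
  exact h3_symm hg hyU (hy.of_le (by norm_num)) Y Z W

lemma h4_comm (hg : IsRiemannianOn g U) (hx : x ∈ U) (hf : ContDiffAt ℝ 4 f x) (X Y Z : 𝔼) :
    covB g (h3 g f) x X Y Z - covB g (h3 g f) x Y X Z =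
      curv (Gam g) x X Y (hessE g f x Z) - hessE g f x (curv (Gam g) x X Y Z) :=
  ricci_identity_A hg hx
    (contDiffAt_hessE hg hx (m := 2) hf (by norm_num) (WithTop.coe_le_coe.2 le_top)) X Y Z

/-- `∇_X` of the field `bet`. -/
lemma covB_bet (hg : IsRiemannianOn g U) (hx : x ∈ U) (hf : ContDiffAt ℝ 4 f x) (X Y Z : 𝔼) :
    covB g (bet g f) x X Y Z = covB g (h3 g f) x X Y (hessE g f x Z) +
      h3 g f x Y (h3 g f x X Z) := by
  have hA : DifferentiableAt ℝ (hessE g f) x :=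
    (contDiffAt_hessE hg hx (m := 2) hf (by norm_num) (WithTop.coe_le_coe.2 le_top)
      ).differentiableAt (by norm_num)
  have hB : DifferentiableAt ℝ (h3 g f) x :=
    (contDiffAt_h3 hg hx (m := 1) hf (by norm_num) (WithTop.coe_le_coe.2 le_top)
      ).differentiableAt (by norm_num)
  have hβ : DifferentiableAt ℝ (bet g f) x :=
    ((differentiableAt_const _).clm_apply hA).clm_comp hB
  have hAZ : DifferentiableAt ℝ (fun y => hessE g f y Z) x :=
    hA.clm_apply (differentiableAt_const _)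
  have h1 := cov_bil_apply g hβ (differentiableAt_const Y) (differentiableAt_const Z) X
  have h2 := cov_bil_apply g hB (differentiableAt_const Y) hAZ X
  have h3' := cov_clm_apply g hA (differentiableAt_const Z) X
  have hc : ∀ Y : 𝔼, cov g (fun _ : 𝔼 => Y) x X = Gam g x X Y := by
    intro Y
    rw [cov_apply]
    simp
  simp only [hc] at h1 h2 h3'
  have e : (fun y => bet g f y Y Z) = fun y => h3 g f y Y (hessE g f y Z) := rfl
  rw [e, h2, h3', bet_apply, bet_apply] at h1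
  have h4 : covA g (hessE g f) x X Z = h3 g f x X Z := rfl
  rw [h4, map_add] at h1
  rw [← sub_eq_zero]
  have h5 := sub_eq_zero.2 h1.symm
  rw [← h5]
  abel

/-- sums over a frame of a bilinear expression. -/
lemma sum_nv_frame {F : Type*} [AddCommGroup F] [Module ℝ F] (hg : IsRiemannianOn g U)
    (hx : x ∈ U) {ξ : Fin n → 𝔼} (h : IsFrame (g x) ξ) (b : 𝔼 →ₗ[ℝ] 𝔼 →ₗ[ℝ] F) :
    ∑ k, b (nv g k x) (EuclideanSpace.single k 1) = ∑ a, b (ξ a) (ξ a) := by
  have h1 : ∀ k, nv g k x = ∑ a, (ξ a k) • ξ a := by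
    intro k
    rw [h.expand hg hx (nv g k x)]
    refine Finset.sum_congr rfl fun a _ => ?_
    rw [bil_nv hg hx]
  simp only [h1, map_sum, LinearMap.sum_apply, map_smul, LinearMap.smul_apply]
  rw [Finset.sum_comm]
  refine Finset.sum_congr rfl fun a _ => ?_
  conv_rhs => arg 2; rw [eq_sum_single (ξ a)]
  rw [map_sum]
  refine Finset.sum_congr rfl fun k _ => ?_
  rw [map_smul]

lemma hess3Sq_frame (hg : IsRiemannianOn g U) (hx : x ∈ U) (hf : ContDiffAt ℝ 3 f x)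
    {ξ : Fin n → 𝔼} (h : IsFrame (g x) ξ) :
    hess3Sq g f x = ∑ a, ∑ b, bil (g x) (h3 g f x (ξ a) (ξ b)) (h3 g f x (ξ a) (ξ b)) := by
  have h1 := sum_nv_frame hg hx h (LinearMap.mk₂ ℝ
    (fun X Y => trL ((h3 g f x X).comp (h3 g f x Y)))
    (fun X X' Y => by rw [map_add, ContinuousLinearMap.add_comp, map_add])
    (fun c X Y => by rw [map_smul, ContinuousLinearMap.smul_comp, map_smul])
    (fun X Y Y' => by rw [map_add, ContinuousLinearMap.comp_add, map_add])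
    (fun c X Y => by rw [map_smul, ContinuousLinearMap.comp_smul, map_smul]))
  simp only [LinearMap.mk₂_apply] at h1
  rw [hess3Sq, h1]
  refine Finset.sum_congr rfl fun a _ => ?_
  rw [h.trL_eq hg hx]
  refine Finset.sum_congr rfl fun b _ => ?_
  rw [ContinuousLinearMap.comp_apply, h3_symm hg hx hf]

lemma hess3Sq_nonneg (hg : IsRiemannianOn g U) (hx : x ∈ U) (hf : ContDiffAt ℝ 3 f x) :
    0 ≤ hess3Sq g f x := by
  obtain ⟨ξ, hξ⟩ := exists_frame hg hx
  rw [hess3Sq_frame hg hx hf hξ]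
  exact Finset.sum_nonneg fun a _ => Finset.sum_nonneg fun b _ => bil_self_nonneg hg hx _

lemma contDiffAt_ctr (hg : IsRiemannianOn g U) (hx : x ∈ U) {m : WithTop ℕ∞} (hm : m ≤ ∞)
    {B : 𝔼 → 𝔼 →L[ℝ] 𝔼 →L[ℝ] 𝔼} (hB : ContDiffAt ℝ m B x) :
    ContDiffAt ℝ m (fun y => ctr g y (B y)) x := by
  unfold ctr
  refine ContDiffAt.sum fun k _ => ?_
  exact (hB.clm_apply ((contDiffAt_nv hg hx k).of_le hm)).clm_apply contDiffAt_const

lemma contDiffAt_bet (hg : IsRiemannianOn g U) (hx : x ∈ U) {a m : WithTop ℕ∞}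
    (hf : ContDiffAt ℝ a f x) (hma : m + 1 + 1 + 1 ≤ a) (hm : m + 1 + 1 ≤ ∞) :
    ContDiffAt ℝ m (bet g f) x := by
  have h1 : m + 1 ≤ m + 1 + 1 := by simp
  have h2 : m + 1 + 1 ≤ m + 1 + 1 + 1 := by simp
  exact (contDiffAt_const.clm_apply (contDiffAt_hessE hg hx hf (h2.trans hma) (h1.trans hm))
    ).clm_comp (contDiffAt_h3 hg hx hf hma hm)

lemma contDiffAt_Wv (hg : IsRiemannianOn g U) (hx : x ∈ U) {a m : WithTop ℕ∞}
    (hf : ContDiffAt ℝ a f x) (hma : m + 1 + 1 + 1 ≤ a) (hm : m + 1 + 1 ≤ ∞) :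
    ContDiffAt ℝ m (Wv g f) x :=
  contDiffAt_ctr hg hx (((by simp : m ≤ m + 1).trans (by simp : m + 1 ≤ m + 1 + 1)).trans hm)
    (contDiffAt_bet hg hx hf hma hm)

lemma contDiffAt_dv (hg : IsRiemannianOn g U) (hx : x ∈ U) {a m : WithTop ℕ∞}
    (hf : ContDiffAt ℝ a f x) (hma : m + 1 + 1 + 1 ≤ a) (hm : m + 1 + 1 ≤ ∞) :
    ContDiffAt ℝ m (dv g f) x :=
  contDiffAt_ctr hg hx (((by simp : m ≤ m + 1).trans (by simp : m + 1 ≤ m + 1 + 1)).trans hm)
    (contDiffAt_h3 hg hx hf hma hm)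

lemma contDiffAt_Vv (hg : IsRiemannianOn g U) (hx : x ∈ U) {a m : WithTop ℕ∞}
    (hf : ContDiffAt ℝ a f x) (hma : m + 1 + 1 + 1 ≤ a) (hm : m + 1 + 1 ≤ ∞) :
    ContDiffAt ℝ m (Vv g f) x := by
  have h1 : m + 1 ≤ m + 1 + 1 := by simp
  have h2 : m + 1 + 1 ≤ m + 1 + 1 + 1 := by simp
  exact (contDiffAt_Wv hg hx hf hma hm).sub
    ((contDiffAt_hessE hg hx hf (h2.trans hma) (h1.trans hm)).clm_apply
      (contDiffAt_dv hg hx hf hma hm))

/-- **The divergence identity**, frame form. -/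
theorem divg_Vv (hg : IsRiemannianOn g U) (hx : x ∈ U) (hf : ContDiffAt ℝ 4 f x)
    {ξ : Fin n → 𝔼} (h : IsFrame (g x) ξ) :
    divg g (Vv g f) x = hess3Sq g f x
      - (1 / 2) * ∑ a, ∑ b, bil (g x) (curv (Gam g) x (ξ a) (ξ b) (grad g f x))
          (curv (Gam g) x (ξ a) (ξ b) (grad g f x))
      - bil (g x) (dv g f x) (dv g f x)
      + ∑ a, ∑ b, (bil (g x) (hessE g f x (ξ a))
            (curv (Gam g) x (ξ b) (ξ a) (hessE g f x (ξ b)))
          - bil (g x) (hessE g f x (hessE g f x (ξ a))) (curv (Gam g) x (ξ b) (ξ a) (ξ b))) := by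
  have hf3 : ContDiffAt ℝ 3 f x := hf.of_le (by norm_num)
  have hf2 : ContDiffAt ℝ 2 f x := hf.of_le (by norm_num)
  have h2i : (1:WithTop ℕ∞) + 1 + 1 ≤ ∞ := WithTop.coe_le_coe.2 le_top
  have hA : DifferentiableAt ℝ (hessE g f) x :=
    (contDiffAt_hessE hg hx (m := 2) hf (by norm_num) (WithTop.coe_le_coe.2 le_top)
      ).differentiableAt (by norm_num)
  have hB : DifferentiableAt ℝ (h3 g f) x :=
    (contDiffAt_h3 hg hx (m := 1) hf (by norm_num) h2i).differentiableAt (by norm_num)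
  have hbet : DifferentiableAt ℝ (bet g f) x :=
    (contDiffAt_bet hg hx (m := 1) hf (by norm_num) h2i).differentiableAt (by norm_num)
  have hW : DifferentiableAt ℝ (Wv g f) x :=
    (contDiffAt_Wv hg hx (m := 1) hf (by norm_num) h2i).differentiableAt (by norm_num)
  have hd : DifferentiableAt ℝ (dv g f) x :=
    (contDiffAt_dv hg hx (m := 1) hf (by norm_num) h2i).differentiableAt (by norm_num)
  have hAd : DifferentiableAt ℝ (fun y => hessE g f y (dv g f y)) x := hA.clm_apply hd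
  have hV : DifferentiableAt ℝ (Vv g f) x := hW.sub hAd
  -- covariant derivative of `Vv`
  have hcV : ∀ X, cov g (Vv g f) x X =
      ctr g x (covB g (bet g f) x X) - (h3 g f x X (dv g f x) +
        hessE g f x (ctr g x (covB g (h3 g f) x X))) := by
    intro X
    have e1 : cov g (Vv g f) x X = cov g (Wv g f) x X -
        cov g (fun y => hessE g f y (dv g f y)) x X := by
      rw [cov_apply, cov_apply, cov_apply]
      have e2 : Vv g f = fun y => Wv g f y - hessE g f y (dv g f y) := rfl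
      rw [e2, fderiv_fun_sub hW hAd]
      simp only [sub_apply, map_sub]
      abel
    rw [e1, cov_clm_apply g hA hd]
    have e3 : cov g (Wv g f) x X = ctr g x (covB g (bet g f) x X) := cov_ctr hg hx hbet X
    have e4 : cov g (dv g f) x X = ctr g x (covB g (h3 g f) x X) := cov_ctr hg hx hB X
    rw [e3, e4]
    rfl
  rw [divg_eq_trL hg hx hV, h.trL_eq hg hx]
  simp only [hcV]
  have hδ : dv g f x = ∑ a, h3 g f x (ξ a) (ξ a) := ctr_frame hg hx h _
  -- the three pieces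
  set A := hessE g f x with hAdef
  set B := h3 g f x with hBdef
  set v := grad g f x with hvdef
  have key1 : ∀ b, bil (g x) (ctr g x (covB g (bet g f) x (ξ b)) - (B (ξ b) (dv g f x) +
        A (ctr g x (covB g (h3 g f) x (ξ b))))) (ξ b) =
      ∑ a, bil (g x) (covB g (h3 g f) x (ξ b) (ξ a) (A (ξ a))) (ξ b) +
      ∑ a, bil (g x) (B (ξ a) (B (ξ b) (ξ a))) (ξ b) -
      bil (g x) (dv g f x) (B (ξ b) (ξ b)) -
      ∑ a, bil (g x) (covB g (h3 g f) x (ξ b) (ξ a) (ξ a)) (A (ξ b)) := by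
    intro b
    rw [ctr_frame hg hx h, ctr_frame hg hx h]
    simp only [covB_bet hg hx hf]
    rw [map_sub, map_add, sub_apply, add_apply, h3_symm hg hx hf3,
      bil_hessE_symm hg hx hf2, map_sum, sum_apply, map_sum, sum_apply]
    simp only [map_add, add_apply]
    rw [Finset.sum_add_distrib]
    ring
  simp only [key1]
  rw [Finset.sum_sub_distrib, Finset.sum_sub_distrib, Finset.sum_add_distrib]
  -- S1 - S4
  have hS14 : ∑ b, ∑ a, bil (g x) (covB g (h3 g f) x (ξ b) (ξ a) (A (ξ a))) (ξ b) =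
      ∑ b, ∑ a, bil (g x) (covB g (h3 g f) x (ξ b) (ξ a) (ξ a)) (A (ξ b)) +
      ∑ a, ∑ b, (bil (g x) (A (ξ a)) (curv (Gam g) x (ξ b) (ξ a) (A (ξ b)))
          - bil (g x) (A (A (ξ a))) (curv (Gam g) x (ξ b) (ξ a) (ξ b))) := by
    rw [Finset.sum_comm, ← Finset.sum_add_distrib]
    refine Finset.sum_congr rfl fun a _ => ?_
    rw [← Finset.sum_add_distrib]
    refine Finset.sum_congr rfl fun b _ => ?_
    rw [h4_symm hg hx hf, bil_symm hg hx (covB g (h3 g f) x (ξ a) (ξ b) (ξ b))]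
    have h5 := h4_comm hg hx hf (ξ b) (ξ a) (ξ b)
    have h6 : covB g (h3 g f) x (ξ b) (ξ a) (ξ b) = covB g (h3 g f) x (ξ a) (ξ b) (ξ b) +
        (curv (Gam g) x (ξ b) (ξ a) (A (ξ b)) - A (curv (Gam g) x (ξ b) (ξ a) (ξ b))) := by
      rw [← h5]; abel
    rw [h6, map_add, map_sub, ← bil_hessE_symm hg hx hf2 (A (ξ a)) (curv (Gam g) x (ξ b) (ξ a) (ξ b))]
  -- S2
  have hS2 : ∑ b, ∑ a, bil (g x) (B (ξ a) (B (ξ b) (ξ a))) (ξ b) =
      hess3Sq g f x - (1 / 2) * ∑ a, ∑ b, bil (g x) (curv (Gam g) x (ξ a) (ξ b) v)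
          (curv (Gam g) x (ξ a) (ξ b) v) := by
    have e1 : ∀ a b, bil (g x) (B (ξ a) (B (ξ b) (ξ a))) (ξ b) =
        (1 / 2) * bil (g x) (B (ξ a) (ξ b)) (B (ξ a) (ξ b)) +
        (1 / 2) * bil (g x) (B (ξ b) (ξ a)) (B (ξ b) (ξ a)) -
        (1 / 2) * bil (g x) (curv (Gam g) x (ξ a) (ξ b) v) (curv (Gam g) x (ξ a) (ξ b) v) := by
      intro a b
      rw [h3_symm hg hx hf3, ← codazzi hg hx hf3]
      simp only [map_sub, sub_apply]
      rw [bil_symm hg hx (h3 g f x (ξ a) (ξ b)) (h3 g f x (ξ b) (ξ a))]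
      ring
    rw [Finset.sum_comm]
    simp only [e1]
    simp only [Finset.sum_sub_distrib, Finset.sum_add_distrib, ← Finset.mul_sum]
    have e2 : ∑ a, ∑ b, bil (g x) (B (ξ b) (ξ a)) (B (ξ b) (ξ a)) =
        ∑ a, ∑ b, bil (g x) (B (ξ a) (ξ b)) (B (ξ a) (ξ b)) := Finset.sum_comm
    rw [e2, ← hess3Sq_frame hg hx hf3 h]
    ring
  -- S3
  have hS3 : ∑ b, bil (g x) (dv g f x) (B (ξ b) (ξ b)) = bil (g x) (dv g f x) (dv g f x) := by
    conv_rhs => arg 2; rw [hδ]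
    rw [map_sum]
  rw [hS14, hS2, hS3]
  ring

end Symm

end Crest.Agent.R249.Cod992
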