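import Crest.Agent.R249.Cod2_992

/-!
# R249, leaf D3-COD (helper992), file 3: pointwise estimates for the third covariant derivative

`CurvLe g x b`: `⟨R(u,v)w,z⟩² ≤ b² |u|²|v|²|w|²|z|²` at `x`.  For `f` harmonic near `x`:
`|∇Hess f|² ≤ div Vv + 2 n² b² |∇f|² + 2 n² b |Hess f|²`, bounds for `Vv`, Kato.
-/

set_option autoImplicit false

open scoped ContDiff Topology
open Filter Set
open Crest.GeometryTopology.CoordMetric Crest.GeometryTopology.ChartCurvature
open Crest.Agent.R202.Tens Crest.Agent.R247.Bo84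

noncomputable section

namespace Crest.Agent.R249.Cod992

variable {n : ℕ}

local notation "𝔼" => EuclideanSpace ℝ (Fin n)

/-- the curvature at `x` is bounded by `b`. -/
def CurvLe (g : MetricField n) (x : EuclideanSpace ℝ (Fin n)) (b : ℝ) : Prop :=
  ∀ u v w z : EuclideanSpace ℝ (Fin n), bil (g x) (curv (Gam g) x u v w) z ^ 2 ≤
    b ^ 2 * (bil (g x) u u * bil (g x) v v * bil (g x) w w * bil (g x) z z)

section Symm

variable {g : MetricField n} {U : Set (EuclideanSpace ℝ (Fin n))} {x : EuclideanSpace ℝ (Fin n)}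
  {f : EuclideanSpace ℝ (Fin n) → ℝ} {ξ : Fin n → EuclideanSpace ℝ (Fin n)} {b : ℝ}

/-- Cauchy–Schwarz for sums of inner products. -/
lemma sum_bil_sq_le (hg : IsRiemannianOn g U) (hx : x ∈ U) {ι : Type*} [Fintype ι]
    (p q : ι → 𝔼) :
    (∑ a, bil (g x) (p a) (q a)) ^ 2 ≤
      (∑ a, bil (g x) (p a) (p a)) * ∑ a, bil (g x) (q a) (q a) := by
  obtain ⟨ξ, hξ⟩ := exists_frame hg hx
  have e : ∀ r s : ι → 𝔼, ∑ a, bil (g x) (r a) (s a) =
      ∑ ac : ι × Fin n, bil (g x) (r ac.1) (ξ ac.2) * bil (g x) (s ac.1) (ξ ac.2) := by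
    intro r s
    rw [Fintype.sum_prod_type]
    exact Finset.sum_congr rfl fun a _ => hξ.bil_eq hg hx _ _
  rw [e p q, e p p, e q q]
  refine (Finset.sum_mul_sq_le_sq_mul_sq _ _ _).trans (le_of_eq ?_)
  simp only [sq]

/-- the operator norm is bounded by the Frobenius norm. -/
lemma clm_sq_le (hg : IsRiemannianOn g U) (hx : x ∈ U) (hξ : IsFrame (g x) ξ) (L : 𝔼 →L[ℝ] 𝔼)
    (z : 𝔼) : bil (g x) (L z) (L z) ≤
      (∑ c, bil (g x) (L (ξ c)) (L (ξ c))) * bil (g x) z z := by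
  set s := bil (g x) (L z) (L z) with hs
  have h0 : 0 ≤ s := bil_self_nonneg hg hx _
  have h1 : s = ∑ c, bil (g x) (L (ξ c)) (bil (g x) z (ξ c) • L z) := by
    rw [hs]
    conv_lhs => arg 1; rw [hξ.expand hg hx z]
    rw [map_sum, map_sum, sum_apply]
    refine Finset.sum_congr rfl fun c _ => ?_
    rw [map_smul, map_smul, smul_apply, map_smul]
  have h2 := sum_bil_sq_le hg hx (fun c => L (ξ c)) (fun c => bil (g x) z (ξ c) • L z)
  rw [← h1] at h2
  have h3 : ∑ c, bil (g x) (bil (g x) z (ξ c) • L z) (bil (g x) z (ξ c) • L z) =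
      bil (g x) z z * s := by
    rw [hξ.bil_eq hg hx z z, Finset.sum_mul]
    refine Finset.sum_congr rfl fun c _ => ?_
    rw [map_smul, map_smul (bil (g x)), smul_apply, smul_eq_mul, smul_eq_mul, ← hs]
    ring
  rw [h3] at h2
  rcases h0.eq_or_lt with h | h
  · rw [← h]
    exact mul_nonneg (Finset.sum_nonneg fun c _ => bil_self_nonneg hg hx _)
      (bil_self_nonneg hg hx z)
  · have h4 : s * s ≤ ((∑ c, bil (g x) (L (ξ c)) (L (ξ c))) * bil (g x) z z) * s := by
      nlinarith [h2]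
    exact le_of_mul_le_mul_right h4 h

lemma hessSq_eq_sum (hg : IsRiemannianOn g U) (hx : x ∈ U) (hf : ContDiffAt ℝ 2 f x)
    (hξ : IsFrame (g x) ξ) :
    hessSq g f x = ∑ a, bil (g x) (hessE g f x (ξ a)) (hessE g f x (ξ a)) := by
  rw [hessSq, hξ.trL_eq hg hx]
  refine Finset.sum_congr rfl fun a _ => ?_
  rw [ContinuousLinearMap.comp_apply, bil_hessE_symm hg hx hf]

/-- `|R(u,v)w|² ≤ b² |u|²|v|²|w|²`. -/
lemma CurvLe.sq_le (hg : IsRiemannianOn g U) (hx : x ∈ U) (hb : CurvLe g x b) (u v w : 𝔼) :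
    bil (g x) (curv (Gam g) x u v w) (curv (Gam g) x u v w) ≤
      b ^ 2 * (bil (g x) u u * bil (g x) v v * bil (g x) w w) := by
  have h1 := hb u v w (curv (Gam g) x u v w)
  set s := bil (g x) (curv (Gam g) x u v w) (curv (Gam g) x u v w) with hs
  have h0 : 0 ≤ s := bil_self_nonneg hg hx _
  have hu := bil_self_nonneg hg hx u
  have hv := bil_self_nonneg hg hx v
  have hw := bil_self_nonneg hg hx w
  rcases h0.eq_or_lt with h | h
  · rw [← h]; positivity
  · have h4 : s * s ≤ (b ^ 2 * (bil (g x) u u * bil (g x) v v * bil (g x) w w)) * s := by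
      nlinarith [h1]
    exact le_of_mul_le_mul_right h4 h

/-- trace of `∇_z Hess f` is the derivative of the Laplacian. -/
lemma trL_h3 (hg : IsRiemannianOn g U) (hx : x ∈ U) (hf : ContDiffAt ℝ 3 f x) (z : 𝔼) :
    trL (h3 g f x z) = fderiv ℝ (laplaceBeltrami g f) x z := by
  have hA : DifferentiableAt ℝ (hessE g f) x :=
    (contDiffAt_hessE hg hx (m := 1) hf (by norm_num) (WithTop.coe_le_coe.2 le_top)
      ).differentiableAt (by norm_num)
  have hlap : (laplaceBeltrami g f) =ᶠ[𝓝 x] fun y => trL (hessE g f y) := by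
    filter_upwards [hf.eventually (by norm_num), hg.isOpen.mem_nhds hx] with y hy hyU
    exact lap_eq_trL hg hyU (hy.of_le (by norm_num))
  rw [hlap.fderiv_eq]
  have h4 := (trL (n := n)).hasFDerivAt.comp x hA.hasFDerivAt
  have h5 : fderiv ℝ (fun y => trL (hessE g f y)) x =
      (trL (n := n)).comp (fderiv ℝ (hessE g f) x) := h4.fderiv
  rw [h5, ContinuousLinearMap.comp_apply]
  have h6 : h3 g f x z = fderiv ℝ (hessE g f) x z + (Gam g x z).comp (hessE g f x) -
      (hessE g f x).comp (Gam g x z) := rfl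
  rw [h6, map_sub, map_add, trL_comp_comm (Gam g x z)]
  ring

lemma bil_dv (hg : IsRiemannianOn g U) (hx : x ∈ U) (hf : ContDiffAt ℝ 3 f x)
    (hξ : IsFrame (g x) ξ) (z : 𝔼) :
    bil (g x) (dv g f x) z = fderiv ℝ (laplaceBeltrami g f) x z +
      ∑ a, bil (g x) (curv (Gam g) x (ξ a) z (grad g f x)) (ξ a) := by
  have hδ : dv g f x = ∑ a, h3 g f x (ξ a) (ξ a) := ctr_frame hg hx hξ _
  rw [hδ, map_sum, sum_apply, ← trL_h3 hg hx hf, hξ.trL_eq hg hx, ← Finset.sum_add_distrib]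
  refine Finset.sum_congr rfl fun a _ => ?_
  rw [h3_symm hg hx hf, ← codazzi hg hx hf, bil_symm hg hx (ξ a), map_sub, sub_apply]
  ring

lemma dv_sq_le (hg : IsRiemannianOn g U) (hx : x ∈ U) (hf : ContDiffAt ℝ 3 f x)
    (hh : ∀ᶠ y in 𝓝 x, laplaceBeltrami g f y = 0) (hb : CurvLe g x b) :
    bil (g x) (dv g f x) (dv g f x) ≤ n ^ 2 * b ^ 2 * gam g f f x := by
  obtain ⟨ξ, hξ⟩ := exists_frame hg hx
  set s := bil (g x) (dv g f x) (dv g f x) with hs
  have h0 : 0 ≤ s := bil_self_nonneg hg hx _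
  have hG : 0 ≤ gam g f f x := gam_self_nonneg hg hx f
  have e0 : fderiv ℝ (laplaceBeltrami g f) x = 0 := by
    have : (laplaceBeltrami g f) =ᶠ[𝓝 x] fun _ => (0:ℝ) := hh
    rw [this.fderiv_eq]; simp
  have h1 := bil_dv hg hx hf hξ (dv g f x)
  rw [e0, zero_apply, zero_add, ← hs] at h1
  have h2 : s ^ 2 ≤ n * ∑ a : Fin n,
      bil (g x) (curv (Gam g) x (ξ a) (dv g f x) (grad g f x)) (ξ a) ^ 2 := by
    rw [h1]
    have := sq_sum_le_card_mul_sum_sq (s := (Finset.univ : Finset (Fin n)))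
      (f := fun a => bil (g x) (curv (Gam g) x (ξ a) (dv g f x) (grad g f x)) (ξ a))
    rwa [Finset.card_univ, Fintype.card_fin] at this
  have h3 : ∑ a : Fin n, bil (g x) (curv (Gam g) x (ξ a) (dv g f x) (grad g f x)) (ξ a) ^ 2 ≤
      n * (b ^ 2 * (s * gam g f f x)) := by
    have e1 : ∀ a ∈ (Finset.univ : Finset (Fin n)),
        bil (g x) (curv (Gam g) x (ξ a) (dv g f x) (grad g f x)) (ξ a) ^ 2 ≤
        b ^ 2 * (s * gam g f f x) := by
      intro a _
      have := hb (ξ a) (dv g f x) (grad g f x) (ξ a)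
      rw [hξ.orth, if_pos rfl, ← gam_eq_bil hg hx, ← hs] at this
      linarith
    have := Finset.sum_le_card_nsmul _ _ _ e1
    rwa [Finset.card_univ, Fintype.card_fin, nsmul_eq_mul] at this
  have h4 : s * s ≤ (n ^ 2 * b ^ 2 * gam g f f x) * s := by
    have : (n:ℝ) * ∑ a : Fin n,
        bil (g x) (curv (Gam g) x (ξ a) (dv g f x) (grad g f x)) (ξ a) ^ 2 ≤
        n * (n * (b ^ 2 * (s * gam g f f x))) := by gcongr
    nlinarith [h2, this]
  rcases h0.eq_or_lt with h | h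
  · rw [← h]; positivity
  · exact le_of_mul_le_mul_right h4 h

/-- `|T_jk ∇_j T_ik|² ≤ |T|² |∇T|²`. -/
lemma Wv_sq_le (hg : IsRiemannianOn g U) (hx : x ∈ U) (hf : ContDiffAt ℝ 3 f x) (z : 𝔼) :
    bil (g x) (Wv g f x) z ^ 2 ≤ hessSq g f x * hess3Sq g f x * bil (g x) z z := by
  obtain ⟨ξ, hξ⟩ := exists_frame hg hx
  have hf2 : ContDiffAt ℝ 2 f x := hf.of_le (by norm_num)
  have h1 : bil (g x) (Wv g f x) z = ∑ a, bil (g x) (hessE g f x (ξ a)) (h3 g f x (ξ a) z) := by
    have : Wv g f x = ∑ a, h3 g f x (ξ a) (hessE g f x (ξ a)) := ctr_frame hg hx hξ _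
    rw [this, map_sum, sum_apply]
    exact Finset.sum_congr rfl fun a _ => h3_symm hg hx hf _ _ _
  rw [h1]
  refine (sum_bil_sq_le hg hx _ _).trans ?_
  rw [← hessSq_eq_sum hg hx hf2 hξ, mul_assoc]
  refine mul_le_mul_of_nonneg_left ?_ (hessSq_nonneg hg hx hf2)
  rw [hess3Sq_frame hg hx hf hξ, Finset.sum_mul]
  exact Finset.sum_le_sum fun a _ => clm_sq_le hg hx hξ _ _

/-- **Kato** for the Hessian: `|∇|T|²|² ≤ 4 |T|² |∇T|²`. -/
lemma kato3 (hg : IsRiemannianOn g U) (hx : x ∈ U) (hf : ContDiffAt ℝ 3 f x) :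
    gam g (hessSq g f) (hessSq g f) x ≤ 4 * hessSq g f x * hess3Sq g f x := by
  obtain ⟨ξ, hξ⟩ := exists_frame hg hx
  have hf2 : ContDiffAt ℝ 2 f x := hf.of_le (by norm_num)
  have hA : DifferentiableAt ℝ (hessE g f) x :=
    (contDiffAt_hessE hg hx (m := 1) hf (by norm_num) (WithTop.coe_le_coe.2 le_top)
      ).differentiableAt (by norm_num)
  have h1 : ∀ z, fderiv ℝ (hessSq g f) x z =
      2 * ∑ a, bil (g x) (hessE g f x (ξ a)) (h3 g f x z (ξ a)) := by
    intro z
    have e1 : hessSq g f = fun y => trL ((hessE g f y).comp (hessE g f y)) := rfl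
    have e2 : HasFDerivAt (fun y => (hessE g f y).comp (hessE g f y)) _ x :=
      hA.hasFDerivAt.clm_comp hA.hasFDerivAt
    have e3 := ((trL (n := n)).hasFDerivAt.comp x e2).fderiv
    have e4 : fderiv ℝ (hessSq g f) x z = trL ((hessE g f x).comp (fderiv ℝ (hessE g f) x z)) +
        trL ((fderiv ℝ (hessE g f) x z).comp (hessE g f x)) := by
      rw [e1]
      have : fderiv ℝ (fun y => trL ((hessE g f y).comp (hessE g f y))) x z = _ :=
        congrArg (fun L => L z) e3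
      rw [this]
      simp only [ContinuousLinearMap.comp_apply, add_apply, map_add,
        ContinuousLinearMap.compL_apply, ContinuousLinearMap.flip_apply]
    rw [e4, trL_comp_comm (fderiv ℝ (hessE g f) x z), ← two_mul]
    congr 1
    have e5 : fderiv ℝ (hessE g f) x z = h3 g f x z - (Gam g x z).comp (hessE g f x) +
        (hessE g f x).comp (Gam g x z) := by
      have : h3 g f x z = fderiv ℝ (hessE g f) x z + (Gam g x z).comp (hessE g f x) -
        (hessE g f x).comp (Gam g x z) := rfl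
      rw [this]; abel
    rw [e5]
    have e6 : trL ((hessE g f x).comp (h3 g f x z - (Gam g x z).comp (hessE g f x) +
        (hessE g f x).comp (Gam g x z))) = trL ((hessE g f x).comp (h3 g f x z)) := by
      rw [ContinuousLinearMap.comp_add, ContinuousLinearMap.comp_sub, map_add, map_sub]
      have : trL ((hessE g f x).comp ((Gam g x z).comp (hessE g f x))) =
          trL ((hessE g f x).comp ((hessE g f x).comp (Gam g x z))) := by
        rw [← ContinuousLinearMap.comp_assoc, ← ContinuousLinearMap.comp_assoc, trL_comp_comm,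
          ContinuousLinearMap.comp_assoc]
      rw [this]; ring
    rw [e6, trL_comp_comm, hξ.trL_eq hg hx]
    refine Finset.sum_congr rfl fun a _ => ?_
    rw [ContinuousLinearMap.comp_apply, h3_symm hg hx hf]
  have h2 : gam g (hessSq g f) (hessSq g f) x = ∑ c, fderiv ℝ (hessSq g f) x (ξ c) ^ 2 := by
    rw [gam_eq_bil hg hx, hξ.bil_eq hg hx]
    refine Finset.sum_congr rfl fun c _ => ?_
    rw [bil_grad hg hx, sq]
  rw [h2, hess3Sq_frame hg hx hf hξ, Finset.mul_sum]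
  refine Finset.sum_le_sum fun c _ => ?_
  rw [h1, mul_pow]
  have h3' := sum_bil_sq_le hg hx (fun a => hessE g f x (ξ a)) (fun a => h3 g f x (ξ c) (ξ a))
  rw [← hessSq_eq_sum hg hx hf2 hξ] at h3'
  nlinarith [h3']

/-- the curvature terms of the divergence identity. -/
lemma err_le (hg : IsRiemannianOn g U) (hx : x ∈ U) (hf : ContDiffAt ℝ 2 f x)
    (hξ : IsFrame (g x) ξ) (hb0 : 0 ≤ b) (hb : CurvLe g x b) :
    |∑ a, ∑ c, (bil (g x) (hessE g f x (ξ a))
            (curv (Gam g) x (ξ c) (ξ a) (hessE g f x (ξ c)))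
          - bil (g x) (hessE g f x (hessE g f x (ξ a))) (curv (Gam g) x (ξ c) (ξ a) (ξ c)))| ≤
      2 * n ^ 2 * b * hessSq g f x := by
  have hH := hessSq_nonneg hg hx hf
  set p : Fin n → ℝ := fun a => bil (g x) (hessE g f x (ξ a)) (hessE g f x (ξ a)) with hp
  have hp0 : ∀ a, 0 ≤ p a := fun a => bil_self_nonneg hg hx _
  have hsum : ∑ a, p a = hessSq g f x := (hessSq_eq_sum hg hx hf hξ).symm
  have t1 : ∀ a c, |bil (g x) (hessE g f x (ξ a))
      (curv (Gam g) x (ξ c) (ξ a) (hessE g f x (ξ c)))| ≤ b * ((p a + p c) / 2) := by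
    intro a c
    have h1 := hb (ξ c) (ξ a) (hessE g f x (ξ c)) (hessE g f x (ξ a))
    rw [hξ.orth, hξ.orth, if_pos rfl, if_pos rfl, bil_symm hg hx _ (hessE g f x (ξ a))] at h1
    have h2 : (p a + p c) ^ 2 / 4 ≥ p c * p a := by nlinarith [sq_nonneg (p a - p c)]
    refine abs_le_of_sq_le_sq ?_ (by have := hp0 a; have := hp0 c; positivity)
    have h3 : b ^ 2 * (1 * 1 * p c * p a) ≤ b ^ 2 * ((p a + p c) ^ 2 / 4) := by
      gcongr
      linarith
    calc _ ≤ b ^ 2 * (1 * 1 * p c * p a) := h1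
      _ ≤ _ := h3
      _ = _ := by ring
  have t2 : ∀ a c, |bil (g x) (hessE g f x (hessE g f x (ξ a)))
      (curv (Gam g) x (ξ c) (ξ a) (ξ c))| ≤ b * hessSq g f x := by
    intro a c
    have h1 := hb (ξ c) (ξ a) (ξ c) (hessE g f x (hessE g f x (ξ a)))
    rw [hξ.orth, hξ.orth, if_pos rfl, if_pos rfl,
      bil_symm hg hx _ (hessE g f x (hessE g f x (ξ a)))] at h1
    have h2 := hessE_sq_le hg hx hf (hessE g f x (ξ a))
    have h3 := hessE_sq_le hg hx hf (ξ a)
    rw [hξ.orth, if_pos rfl, mul_one] at h3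
    have h4 : bil (g x) (hessE g f x (hessE g f x (ξ a))) (hessE g f x (hessE g f x (ξ a))) ≤
        hessSq g f x * hessSq g f x := h2.trans (by gcongr)
    refine abs_le_of_sq_le_sq ?_ (by positivity)
    calc _ ≤ b ^ 2 * (1 * 1 * 1 * bil (g x) (hessE g f x (hessE g f x (ξ a)))
              (hessE g f x (hessE g f x (ξ a)))) := h1
      _ ≤ b ^ 2 * (1 * 1 * 1 * (hessSq g f x * hessSq g f x)) := by gcongr
      _ = _ := by ring
  have hn : (n:ℝ) ≤ (n:ℝ) ^ 2 := by
    rcases Nat.eq_zero_or_pos n with h | h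
    · subst h; simp
    · have : (1:ℝ) ≤ n := by exact_mod_cast h
      nlinarith
  calc _ ≤ ∑ a, ∑ c, (b * ((p a + p c) / 2) + b * hessSq g f x) := by
        refine (Finset.abs_sum_le_sum_abs _ _).trans (Finset.sum_le_sum fun a _ => ?_)
        refine (Finset.abs_sum_le_sum_abs _ _).trans (Finset.sum_le_sum fun c _ => ?_)
        exact (abs_sub _ _).trans (add_le_add (t1 a c) (t2 a c))
    _ = n * b * hessSq g f x + n ^ 2 * b * hessSq g f x := by
        simp only [Finset.sum_add_distrib, ← Finset.mul_sum, ← Finset.sum_div, hsum,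
          Finset.sum_const, Finset.card_univ, Fintype.card_fin, nsmul_eq_mul]
        ring
    _ ≤ _ := by nlinarith [mul_nonneg hb0 hH]

/-- **the pointwise inequality**. -/
theorem hess3Sq_le (hg : IsRiemannianOn g U) (hx : x ∈ U) (hf : ContDiffAt ℝ 4 f x)
    (hh : ∀ᶠ y in 𝓝 x, laplaceBeltrami g f y = 0) (hb0 : 0 ≤ b) (hb : CurvLe g x b) :
    hess3Sq g f x ≤ divg g (Vv g f) x + 2 * n ^ 2 * b ^ 2 * gam g f f x +
      2 * n ^ 2 * b * hessSq g f x := by
  obtain ⟨ξ, hξ⟩ := exists_frame hg hx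
  have hf3 : ContDiffAt ℝ 3 f x := hf.of_le (by norm_num)
  have hf2 : ContDiffAt ℝ 2 f x := hf.of_le (by norm_num)
  have h1 := divg_Vv hg hx hf hξ
  have h2 := dv_sq_le hg hx hf3 hh hb
  have h3' := err_le hg hx hf2 hξ hb0 hb
  have hG : 0 ≤ gam g f f x := gam_self_nonneg hg hx f
  have h4 : ∑ a, ∑ c, bil (g x) (curv (Gam g) x (ξ a) (ξ c) (grad g f x))
      (curv (Gam g) x (ξ a) (ξ c) (grad g f x)) ≤ n ^ 2 * (b ^ 2 * gam g f f x) := by
    have e1 : ∀ a c, bil (g x) (curv (Gam g) x (ξ a) (ξ c) (grad g f x))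
        (curv (Gam g) x (ξ a) (ξ c) (grad g f x)) ≤ b ^ 2 * gam g f f x := by
      intro a c
      have := hb.sq_le hg hx (ξ a) (ξ c) (grad g f x)
      rw [hξ.orth, hξ.orth, if_pos rfl, if_pos rfl, ← gam_eq_bil hg hx] at this
      linarith
    calc _ ≤ ∑ _a : Fin n, ∑ _c : Fin n, b ^ 2 * gam g f f x :=
          Finset.sum_le_sum fun a _ => Finset.sum_le_sum fun c _ => e1 a c
      _ = _ := by
          simp only [Finset.sum_const, Finset.card_univ, Fintype.card_fin, nsmul_eq_mul]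
          ring
  rw [h1]
  have h5 := (abs_le.1 h3').1
  have h6 : 0 ≤ (n:ℝ) ^ 2 * (b ^ 2 * gam g f f x) := by positivity
  nlinarith [h4, h2, h5, h6]

/-- absorption of the cut-off terms. -/
theorem cutoff_le (hg : IsRiemannianOn g U) (hx : x ∈ U) (hf : ContDiffAt ℝ 3 f x)
    (hh : ∀ᶠ y in 𝓝 x, laplaceBeltrami g f y = 0) (hb : CurvLe g x b) (η : ℝ)
    (z : 𝔼) :
    |2 * η * bil (g x) (Vv g f x) z| ≤ (1 / 2) * (η ^ 2 * hess3Sq g f x) +
      3 * (bil (g x) z z * hessSq g f x) + η ^ 2 * (n ^ 2 * b ^ 2 * gam g f f x) := by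
  have hf2 : ContDiffAt ℝ 2 f x := hf.of_le (by norm_num)
  have hG : 0 ≤ gam g f f x := gam_self_nonneg hg hx f
  have hH := hessSq_nonneg hg hx hf2
  have h3n := hess3Sq_nonneg hg hx hf
  have hz := bil_self_nonneg hg hx z
  have h1 := Wv_sq_le hg hx hf z
  have h2 : bil (g x) (hessE g f x (dv g f x)) z ^ 2 ≤
      hessSq g f x * (n ^ 2 * b ^ 2 * gam g f f x) * bil (g x) z z := by
    refine (bil_sq_le hg hx _ _).trans ?_
    refine mul_le_mul_of_nonneg_right ?_ hz
    exact (hessE_sq_le hg hx hf2 _).trans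
      (mul_le_mul_of_nonneg_left (dv_sq_le hg hx hf hh hb) hH)
  have e : 2 * η * bil (g x) (Vv g f x) z = 2 * η * bil (g x) (Wv g f x) z -
      2 * η * bil (g x) (hessE g f x (dv g f x)) z := by
    rw [Vv, map_sub, sub_apply]; ring
  rw [e]
  have k1 : |2 * η * bil (g x) (Wv g f x) z| ≤ (1 / 2) * (η ^ 2 * hess3Sq g f x) +
      2 * (bil (g x) z z * hessSq g f x) := by
    refine abs_le_of_sq_le_sq ?_ (by positivity)
    have h4 : (2 * η * bil (g x) (Wv g f x) z) ^ 2 ≤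
        4 * ((η ^ 2 * hess3Sq g f x) * (bil (g x) z z * hessSq g f x)) := by
      have : 4 * η ^ 2 * bil (g x) (Wv g f x) z ^ 2 ≤
        4 * η ^ 2 * (hessSq g f x * hess3Sq g f x * bil (g x) z z) := by gcongr
      nlinarith [this]
    nlinarith [h4, sq_nonneg ((1 / 2) * (η ^ 2 * hess3Sq g f x) -
      2 * (bil (g x) z z * hessSq g f x))]
  have k2 : |2 * η * bil (g x) (hessE g f x (dv g f x)) z| ≤ bil (g x) z z * hessSq g f x +
      η ^ 2 * (n ^ 2 * b ^ 2 * gam g f f x) := by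
    refine abs_le_of_sq_le_sq ?_ (by positivity)
    have h4 : (2 * η * bil (g x) (hessE g f x (dv g f x)) z) ^ 2 ≤
        4 * ((bil (g x) z z * hessSq g f x) * (η ^ 2 * (n ^ 2 * b ^ 2 * gam g f f x))) := by
      have : 4 * η ^ 2 * bil (g x) (hessE g f x (dv g f x)) z ^ 2 ≤
        4 * η ^ 2 * (hessSq g f x * (n ^ 2 * b ^ 2 * gam g f f x) * bil (g x) z z) := by gcongr
      nlinarith [this]
    nlinarith [h4, sq_nonneg ((bil (g x) z z * hessSq g f x) -
      (η ^ 2 * (n ^ 2 * b ^ 2 * gam g f f x)))]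
  refine (abs_sub _ _).trans ?_
  linarith

end Symm

end Crest.Agent.R249.Cod992
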