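import Crest.Agent.R249.Cod3_992
import Crest.Agent.R247.Bo4_84

/-!
# R249, leaf D3-COD (helper992), file 4: invariance under local isometries (`Pull`)
-/

set_option autoImplicit false

open scoped ContDiff Topology
open Filter Set
open Crest.GeometryTopology.CoordMetric Crest.GeometryTopology.ChartCurvature
open Crest.Agent.R202.Tens Crest.Agent.R247.Bo84

noncomputable section

namespace Crest.Agent.R249.Cod992

variable {n : ℕ}

local notation "𝔼" => EuclideanSpace ℝ (Fin n)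

section Congr

variable {g : MetricField n} {x : EuclideanSpace ℝ (Fin n)}
  {f f' : EuclideanSpace ℝ (Fin n) → ℝ}

lemma hessE_congr_ev (h1 : f =ᶠ[𝓝 x] f') : hessE g f =ᶠ[𝓝 x] hessE g f' := by
  filter_upwards [h1.eventuallyEq_nhds] with y hy using hessE_congr hy

lemma h3_congr (h1 : f =ᶠ[𝓝 x] f') : h3 g f x = h3 g f' x := by
  rw [h3, h3, covA, covA, (hessE_congr_ev h1).fderiv_eq, hessE_congr h1]

lemma hess3Sq_congr (h1 : f =ᶠ[𝓝 x] f') : hess3Sq g f x = hess3Sq g f' x := by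
  rw [hess3Sq, hess3Sq, h3_congr h1]

lemma Vv_congr (h1 : f =ᶠ[𝓝 x] f') : Vv g f x = Vv g f' x := by
  rw [Vv, Vv, Wv, Wv, dv, dv, bet, bet, h3_congr h1, hessE_congr h1]

lemma Vv_congr_ev (h1 : f =ᶠ[𝓝 x] f') : Vv g f =ᶠ[𝓝 x] Vv g f' := by
  filter_upwards [h1.eventuallyEq_nhds] with y hy using Vv_congr hy

end Congr

variable {g' g : MetricField n} {Φ : EuclideanSpace ℝ (Fin n) → EuclideanSpace ℝ (Fin n)}
  {V W : Set (EuclideanSpace ℝ (Fin n))} {y : EuclideanSpace ℝ (Fin n)}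
  {f h : EuclideanSpace ℝ (Fin n) → ℝ}

/-- transformation of the covariant derivative of an endomorphism field. -/
theorem covA_pull (p : Pull g' g Φ V W) (hy : y ∈ V) {A' A : 𝔼 → 𝔼 →L[ℝ] 𝔼}
    (hA' : DifferentiableAt ℝ A' y) (hA : DifferentiableAt ℝ A (Φ y))
    (hAA : ∀ᶠ z in 𝓝 y, ∀ Y, fderiv ℝ Φ z (A' z Y) = A (Φ z) (fderiv ℝ Φ z Y)) (X Y : 𝔼) :
    fderiv ℝ Φ y (covA g' A' y X Y) = covA g A (Φ y) (fderiv ℝ Φ y X) (fderiv ℝ Φ y Y) := by
  have hddΦ : DifferentiableAt ℝ (fderiv ℝ Φ) y :=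
    ((p.contDiffAt hy).fderiv_right (m := ∞) (by simp)).differentiableAt (by simp)
  have hΦ := pull_differentiableAt p hy
  have hA'Y : DifferentiableAt ℝ (fun z => A' z Y) y := hA'.clm_apply (differentiableAt_const _)
  have hΦY : DifferentiableAt ℝ (fun z => fderiv ℝ Φ z Y) y :=
    hddΦ.clm_apply (differentiableAt_const _)
  have hAΦ : DifferentiableAt ℝ (fun z => A (Φ z)) y := hA.comp y hΦ
  have h1 : fderiv ℝ (fun z => fderiv ℝ Φ z (A' z Y)) y X =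
      fderiv ℝ (fun z => A (Φ z) (fderiv ℝ Φ z Y)) y X := by
    rw [EventuallyEq.fderiv_eq (hAA.mono fun z hz => hz Y)]
  have h3 : fderiv ℝ (fun z => A (Φ z)) y X = fderiv ℝ A (Φ y) (fderiv ℝ Φ y X) := by
    have : fderiv ℝ (A ∘ Φ) y = (fderiv ℝ A (Φ y)).comp (fderiv ℝ Φ y) := fderiv_comp y hA hΦ
    exact congrArg (fun L => L X) this
  rw [fderiv_clm_apply hddΦ hA'Y, fderiv_clm_apply hAΦ hΦY,
    fderiv_clm_apply hA' (differentiableAt_const _),
    fderiv_clm_apply hddΦ (differentiableAt_const _)] at h1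
  simp only [fderiv_fun_const, Pi.zero_apply, ContinuousLinearMap.comp_zero, zero_add, add_apply,
    ContinuousLinearMap.comp_apply, ContinuousLinearMap.flip_apply, h3] at h1
  have h0 := hAA.self_of_nhds
  rw [covA_apply, covA_apply, map_sub, map_add, p.gam_eq hy, h0, h0, p.gam_eq hy, map_add]
  rw [← sub_eq_zero] at h1 ⊢
  rw [← h1]
  abel

/-- transformation of the third covariant derivative. -/
theorem h3_pull (p : Pull g' g Φ V W) (hy : y ∈ V) (hf : ContDiffAt ℝ 3 f (Φ y)) (X Y : 𝔼) :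
    fderiv ℝ Φ y (h3 g' (fun z => f (Φ z)) y X Y) =
      h3 g f (Φ y) (fderiv ℝ Φ y X) (fderiv ℝ Φ y Y) := by
  have hf' : ContDiffAt ℝ 3 (fun z => f (Φ z)) y := contDiffAt_comp_pull p hy three_le_infty hf
  have hc : ContinuousAt Φ y := (p.contDiffAt hy).continuousAt
  refine covA_pull p hy ?_ ?_ ?_ X Y
  · exact (contDiffAt_hessE p.riem' hy (m := 1) hf' (by norm_num)
      (WithTop.coe_le_coe.2 le_top)).differentiableAt (by norm_num)
  · exact (contDiffAt_hessE p.riem (p.maps y hy) (m := 1) hf (by norm_num)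
      (WithTop.coe_le_coe.2 le_top)).differentiableAt (by norm_num)
  · filter_upwards [p.isOpen.mem_nhds hy, hc.eventually (hf.eventually (by norm_num))] with z hz hfz
    exact fun Y => hessE_pull p hz (hfz.of_le (by norm_num)) Y

lemma isFrame_pull (p : Pull g' g Φ V W) (hy : y ∈ V) {ξ : Fin n → 𝔼} (hξ : IsFrame (g' y) ξ) :
    IsFrame (g (Φ y)) fun a => fderiv ℝ Φ y (ξ a) :=
  isFrame_of_orth (frame_pull p hy hξ)

/-- the metric trace is natural. -/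
theorem ctr_pull (p : Pull g' g Φ V W) (hy : y ∈ V) {β' β : 𝔼 →L[ℝ] 𝔼 →L[ℝ] 𝔼}
    (h : ∀ X Y, fderiv ℝ Φ y (β' X Y) = β (fderiv ℝ Φ y X) (fderiv ℝ Φ y Y)) :
    fderiv ℝ Φ y (ctr g' y β') = ctr g (Φ y) β := by
  obtain ⟨ξ, hξ⟩ := exists_frame p.riem' hy
  rw [ctr_frame p.riem' hy hξ, ctr_frame p.riem (p.maps y hy) (isFrame_pull p hy hξ), map_sum]
  exact Finset.sum_congr rfl fun a _ => h _ _

theorem dv_pull (p : Pull g' g Φ V W) (hy : y ∈ V) (hf : ContDiffAt ℝ 3 f (Φ y)) :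
    fderiv ℝ Φ y (dv g' (fun z => f (Φ z)) y) = dv g f (Φ y) :=
  ctr_pull p hy fun X Y => h3_pull p hy hf X Y

theorem Wv_pull (p : Pull g' g Φ V W) (hy : y ∈ V) (hf : ContDiffAt ℝ 3 f (Φ y)) :
    fderiv ℝ Φ y (Wv g' (fun z => f (Φ z)) y) = Wv g f (Φ y) := by
  refine ctr_pull p hy fun X Y => ?_
  rw [bet_apply, bet_apply, h3_pull p hy hf, hessE_pull p hy (hf.of_le (by norm_num))]

theorem Vv_pull (p : Pull g' g Φ V W) (hy : y ∈ V) (hf : ContDiffAt ℝ 3 f (Φ y)) :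
    fderiv ℝ Φ y (Vv g' (fun z => f (Φ z)) y) = Vv g f (Φ y) := by
  rw [Vv, Vv, map_sub, Wv_pull p hy hf, hessE_pull p hy (hf.of_le (by norm_num)),
    dv_pull p hy hf]

theorem hess3Sq_pull (p : Pull g' g Φ V W) (hy : y ∈ V) (hf : ContDiffAt ℝ 3 f (Φ y)) :
    hess3Sq g' (fun z => f (Φ z)) y = hess3Sq g f (Φ y) := by
  obtain ⟨ξ, hξ⟩ := exists_frame p.riem' hy
  have hf' : ContDiffAt ℝ 3 (fun z => f (Φ z)) y := contDiffAt_comp_pull p hy three_le_infty hf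
  rw [hess3Sq_frame p.riem' hy hf' hξ,
    hess3Sq_frame p.riem (p.maps y hy) hf (isFrame_pull p hy hξ)]
  refine Finset.sum_congr rfl fun a _ => Finset.sum_congr rfl fun b _ => ?_
  rw [p.bil_eq hy, h3_pull p hy hf]

/-- curvature bounds are invariant. -/
theorem CurvLe.pull (p : Pull g' g Φ V W) (hy : y ∈ V) {b : ℝ} (h : CurvLe g (Φ y) b) :
    CurvLe g' y b := by
  intro u v w z
  rw [p.bil_eq hy, p.curv_eq hy, p.bil_eq hy, p.bil_eq hy, p.bil_eq hy, p.bil_eq hy]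
  exact h _ _ _ _

theorem CurvLe.push (p : Pull g' g Φ V W) (hy : y ∈ V) {b : ℝ} (h : CurvLe g' y b) :
    CurvLe g (Φ y) b := by
  intro u v w z
  obtain ⟨u, rfl⟩ := p.surj hy u
  obtain ⟨v, rfl⟩ := p.surj hy v
  obtain ⟨w, rfl⟩ := p.surj hy w
  obtain ⟨z, rfl⟩ := p.surj hy z
  rw [← p.curv_eq hy, ← p.bil_eq hy, ← p.bil_eq hy, ← p.bil_eq hy, ← p.bil_eq hy, ← p.bil_eq hy]
  exact h _ _ _ _

lemma continuousAt_hess3Sq {U : Set (EuclideanSpace ℝ (Fin n))} {x : EuclideanSpace ℝ (Fin n)}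
    (hg : IsRiemannianOn g U) (hx : x ∈ U) {a m : WithTop ℕ∞}
    (hf : ContDiffAt ℝ a f x) (hma : m + 1 + 1 + 1 ≤ a) (hm : m + 1 + 1 ≤ ∞) :
    ContDiffAt ℝ m (hess3Sq g f) x := by
  have hm' : m ≤ ∞ := ((by simp : m ≤ m + 1).trans (by simp : m + 1 ≤ m + 1 + 1)).trans hm
  refine ContDiffAt.sum fun k _ => ?_
  have h1 := contDiffAt_h3 hg hx hf hma hm
  exact contDiffAt_const.clm_apply
    ((h1.clm_apply ((contDiffAt_nv hg hx k).of_le hm')).clm_comp (h1.clm_apply contDiffAt_const))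

end Crest.Agent.R249.Cod992
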