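import Crest.Agent.R247.Bo8_84

/-!
Row 249 (helper281), T3a part 1: vector fields on a Riemannian manifold in the class setting of the
templates.  `vCh n x₀ X` = the field read in the chart at `x₀`; `VSm n k X z` = the field is `C^k` at
`z`; `mDiv n X`, `mCov n X` = divergence and covariant derivative; expressions in every chart and in
every orthonormal frame; product rules.
-/

set_option autoImplicit false
set_option maxSynthPendingDepth 3
set_option linter.unusedSectionVars false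

open scoped ContDiff Topology Manifold
open Filter Set Bundle
open Crest.GeometryTopology.CoordMetric Crest.GeometryTopology.ChartCurvature
  Crest.GeometryTopology.PointedLimit
open Crest.Agent.R202.Tens
open Crest.Agent.R247.Bo84

noncomputable section

namespace Crest.Agent.R249.Vf281

variable (n : ℕ) {M : Type*} [TopologicalSpace M] [ChartedSpace (EuclideanSpace ℝ (Fin n)) M]
  [IsManifold 𝓘(ℝ, EuclideanSpace ℝ (Fin n)) ∞ M]
  [RiemannianBundle (fun x : M => TangentSpace 𝓘(ℝ, EuclideanSpace ℝ (Fin n)) x)]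
  [IsContMDiffRiemannianBundle 𝓘(ℝ, EuclideanSpace ℝ (Fin n)) ∞ (EuclideanSpace ℝ (Fin n))
      (fun x : M => TangentSpace 𝓘(ℝ, EuclideanSpace ℝ (Fin n)) x)]

local notation "𝔼" => EuclideanSpace ℝ (Fin n)
local notation "𝓘E" => 𝓘(ℝ, EuclideanSpace ℝ (Fin n))

/-- a vector field read in the chart at `x₀`. -/
def vCh (x₀ : M) (X : (p : M) → TangentSpace 𝓘(ℝ, EuclideanSpace ℝ (Fin n)) p)
    (y : EuclideanSpace ℝ (Fin n)) : EuclideanSpace ℝ (Fin n) :=
  dCh x₀ ((chartAt (EuclideanSpace ℝ (Fin n)) x₀).symm y)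
    (X ((chartAt (EuclideanSpace ℝ (Fin n)) x₀).symm y))

/-- the vector field `X` is of class `C^k` at `z` (in the preferred chart of `z`). -/
def VSm (k : WithTop ℕ∞) (X : (p : M) → TangentSpace 𝓘(ℝ, EuclideanSpace ℝ (Fin n)) p)
    (z : M) : Prop :=
  ContDiffAt ℝ k (vCh n z X) (chartCentre n M z)

/-- the divergence of a vector field on the manifold. -/
def mDiv (X : (p : M) → TangentSpace 𝓘(ℝ, EuclideanSpace ℝ (Fin n)) p) (p : M) : ℝ :=
  divg (chartMetric n M p) (vCh n p X) (chartCentre n M p)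

/-- the covariant derivative of a vector field on the manifold. -/
def mCov (X : (p : M) → TangentSpace 𝓘(ℝ, EuclideanSpace ℝ (Fin n)) p) (p : M)
    (v : TangentSpace 𝓘(ℝ, EuclideanSpace ℝ (Fin n)) p) :
    TangentSpace 𝓘(ℝ, EuclideanSpace ℝ (Fin n)) p :=
  dSy p (chartCentre n M p)
    (cov (chartMetric n M p) (vCh n p X) (chartCentre n M p) (dCh p p v))

variable {n}

variable {x₀ p z : M} {y : EuclideanSpace ℝ (Fin n)}
  {X Y : (p : M) → TangentSpace 𝓘(ℝ, EuclideanSpace ℝ (Fin n)) p} {f : M → ℝ}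

/-! ### change of charts -/

lemma dCh_congr_point {p q : M} (h : p = q)
    (X : (p : M) → TangentSpace 𝓘(ℝ, EuclideanSpace ℝ (Fin n)) p) (x₁ : M) :
    dCh x₁ p (X p) = dCh x₁ q (X q) := by
  subst h; rfl

lemma dSy_vCh (hy : y ∈ (chartAt 𝔼 x₀).target) :
    dSy x₀ y (vCh n x₀ X y) = X ((chartAt 𝔼 x₀).symm y) := by
  have h1 := dSy_dCh x₀ ((chartAt 𝔼 x₀).map_target hy) (X ((chartAt 𝔼 x₀).symm y))
  rw [(chartAt 𝔼 x₀).right_inv hy] at h1
  exact h1

/-- the transformation law of a vector field. -/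
lemma trans_vCh {x₁ : M} (hy : y ∈ tdom x₀ x₁) :
    fderiv ℝ (trans x₀ x₁) y (vCh n x₀ X y) = vCh n x₁ X (trans x₀ x₁ y) := by
  rw [fderiv_trans hy, dSy_vCh hy.1, vCh]
  exact (dCh_congr_point (symm_trans hy) X x₁).symm

lemma eventually_trans_vCh {x₁ : M} (hy : y ∈ tdom x₀ x₁)
    (X : (p : M) → TangentSpace 𝓘(ℝ, EuclideanSpace ℝ (Fin n)) p) :
    ∀ᶠ w in 𝓝 y, fderiv ℝ (trans x₀ x₁) w (vCh n x₀ X w) = vCh n x₁ X (trans x₀ x₁ w) := by
  filter_upwards [(isOpen_tdom x₀ x₁).mem_nhds hy] with w hw using trans_vCh hw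

/-- the reverse transition map. -/
lemma trans_trans {x₁ : M} (hy : y ∈ tdom x₀ x₁) :
    trans x₁ x₀ (trans x₀ x₁ y) = y := by
  have h := symm_trans hy
  rw [Crest.Agent.R247.Bo84.trans, h, (chartAt 𝔼 x₀).right_inv hy.1]

lemma trans_mem_tdom {x₁ : M} (hy : y ∈ tdom x₀ x₁) : trans x₀ x₁ y ∈ tdom x₁ x₀ := by
  refine ⟨trans_mem hy, ?_⟩
  rw [mem_preimage, symm_trans hy]
  exact (chartAt 𝔼 x₀).map_target hy.1

lemma contDiffAt_trans {x₁ : M} (hy : y ∈ tdom x₀ x₁) : ContDiffAt ℝ ∞ (trans (n := n) x₀ x₁) y :=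
  (contDiffOn_trans x₀ x₁).contDiffAt ((isOpen_tdom x₀ x₁).mem_nhds hy)

/-- smoothness of a vector field can be tested in any chart. -/
lemma contDiffAt_vCh_of {k : WithTop ℕ∞} (hk : k ≤ ∞) {x₁ : M} (hy : y ∈ tdom x₀ x₁)
    (h : ContDiffAt ℝ k (vCh n x₁ X) (trans x₀ x₁ y)) : ContDiffAt ℝ k (vCh n x₀ X) y := by
  -- `vCh x₀ X w = D(trans x₁ x₀)(trans x₀ x₁ w) (vCh x₁ X (trans x₀ x₁ w))`
  have e1 : vCh n x₀ X =ᶠ[𝓝 y] fun w =>
      fderiv ℝ (trans x₁ x₀) (trans x₀ x₁ w) (vCh n x₁ X (trans x₀ x₁ w)) := by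
    filter_upwards [(isOpen_tdom x₀ x₁).mem_nhds hy] with w hw
    rw [trans_vCh (trans_mem_tdom hw), trans_trans hw]
  refine ContDiffAt.congr_of_eventuallyEq ?_ e1
  have h1 : ContDiffAt ℝ k (trans (n := n) x₀ x₁) y := (contDiffAt_trans hy).of_le hk
  have h2 : ContDiffAt ℝ k (fderiv ℝ (trans (n := n) x₁ x₀)) (trans x₀ x₁ y) :=
    ((contDiffAt_trans (trans_mem_tdom hy)).fderiv_right (m := ∞) (by simp)).of_le hk
  exact (h2.comp y h1).clm_apply (h.comp y h1)

/-- a `C^k` field is `C^k` in every chart. -/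
lemma VSm.chart {k : WithTop ℕ∞} (hk : k ≤ ∞) (hy : y ∈ (chartAt 𝔼 x₀).target)
    (h : VSm n k X ((chartAt 𝔼 x₀).symm y)) : ContDiffAt ℝ k (vCh n x₀ X) y :=
  contDiffAt_vCh_of hk (mem_tdom_self hy) h

lemma VSm.chart' {k : WithTop ℕ∞} (hk : k ≤ ∞) (hp : p ∈ (chartAt 𝔼 x₀).source)
    (h : VSm n k X p) : ContDiffAt ℝ k (vCh n x₀ X) (chartAt 𝔼 x₀ p) := by
  refine VSm.chart hk ((chartAt 𝔼 x₀).map_source hp) ?_
  rw [(chartAt 𝔼 x₀).left_inv hp]
  exact h

/-- a field which is `C^k` in one chart is `C^k`. -/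
lemma VSm.of_chart {k : WithTop ℕ∞} (hk : k ≤ ∞) (hp : p ∈ (chartAt 𝔼 x₀).source)
    (h : ContDiffAt ℝ k (vCh n x₀ X) (chartAt 𝔼 x₀ p)) : VSm n k X p := by
  have hy : chartCentre n M p ∈ tdom p x₀ := by
    refine ⟨mem_chart_target 𝔼 p, ?_⟩
    have h2 : (chartAt 𝔼 p).symm (chartCentre n M p) = p :=
      (chartAt 𝔼 p).left_inv (mem_chart_source 𝔼 p)
    rw [mem_preimage, h2]
    exact hp
  refine contDiffAt_vCh_of hk hy ?_
  have e : trans p x₀ (chartCentre n M p) = chartAt 𝔼 x₀ p := by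
    have h2 : (chartAt 𝔼 p).symm (chartCentre n M p) = p :=
      (chartAt 𝔼 p).left_inv (mem_chart_source 𝔼 p)
    rw [Crest.Agent.R247.Bo84.trans, h2]
  rw [e]
  exact h

lemma VSm.of_le {k m : WithTop ℕ∞} (h : VSm n k X z) (hm : m ≤ k) : VSm n m X z :=
  ContDiffAt.of_le h hm

/-- `C^k` at a point is `C^k` nearby (for finite `k` or `∞`, through charts). -/
lemma VSm.eventually {k : WithTop ℕ∞} (hk : k ≤ ∞) (hk' : k ≠ ∞) (h : VSm n k X z) :
    ∀ᶠ q in 𝓝 z, VSm n k X q := by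
  have h1 : ∀ᶠ w in 𝓝 (chartCentre n M z), ContDiffAt ℝ k (vCh n z X) w :=
    ContDiffAt.eventually h hk'
  have h2 : ContinuousAt (chartAt 𝔼 z) z := (chartAt 𝔼 z).continuousAt (mem_chart_source 𝔼 z)
  filter_upwards [(chartAt 𝔼 z).open_source.mem_nhds (mem_chart_source 𝔼 z),
    h2.eventually h1] with q hq hq1
  exact VSm.of_chart hk hq hq1

/-! ### divergence and covariant derivative in charts -/

/-- the divergence in every chart. -/
theorem mDiv_chart (hy : y ∈ (chartAt 𝔼 x₀).target)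
    (hX : VSm n 1 X ((chartAt 𝔼 x₀).symm y)) :
    mDiv n X ((chartAt 𝔼 x₀).symm y) = divg (chartMetric n M x₀) (vCh n x₀ X) y := by
  have hyd := mem_tdom_self hy
  have hP := pull_trans (n := n) x₀ ((chartAt 𝔼 x₀).symm y)
  have h1 : DifferentiableAt ℝ (vCh n x₀ X) y :=
    (VSm.chart one_le_infty hy hX).differentiableAt (by norm_num)
  have h2 : DifferentiableAt ℝ (vCh n ((chartAt 𝔼 x₀).symm y) X)
      (trans x₀ ((chartAt 𝔼 x₀).symm y) y) := ContDiffAt.differentiableAt hX (by norm_num)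
  rw [divg_pull hP hyd h1 h2 (eventually_trans_vCh hyd X)]
  rfl

theorem mDiv_chart' (hp : p ∈ (chartAt 𝔼 x₀).source) (hX : VSm n 1 X p) :
    mDiv n X p = divg (chartMetric n M x₀) (vCh n x₀ X) (chartAt 𝔼 x₀ p) := by
  have h1 := (chartAt 𝔼 x₀).left_inv hp
  rw [← mDiv_chart ((chartAt 𝔼 x₀).map_source hp) (by rw [h1]; exact hX), h1]

/-- the covariant derivative in every chart. -/
theorem mCov_chart (hy : y ∈ (chartAt 𝔼 x₀).target)
    (hX : VSm n 1 X ((chartAt 𝔼 x₀).symm y)) (u : 𝔼) :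
    mCov n X ((chartAt 𝔼 x₀).symm y) (dSy x₀ y u) =
      dSy x₀ y (cov (chartMetric n M x₀) (vCh n x₀ X) y u) := by
  have hyd := mem_tdom_self hy
  have hP := pull_trans (n := n) x₀ ((chartAt 𝔼 x₀).symm y)
  have h1 : DifferentiableAt ℝ (vCh n x₀ X) y :=
    (VSm.chart one_le_infty hy hX).differentiableAt (by norm_num)
  have h2 : DifferentiableAt ℝ (vCh n ((chartAt 𝔼 x₀).symm y) X)
      (trans x₀ ((chartAt 𝔼 x₀).symm y) y) := ContDiffAt.differentiableAt hX (by norm_num)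
  have h3 := cov_pull hP hyd h1 h2 (eventually_trans_vCh hyd X) u
  rw [← dSy_trans hyd (cov (chartMetric n M x₀) (vCh n x₀ X) y u), h3, fderiv_trans hyd]
  rfl

/-! ### at the centre -/

lemma dCh_mCov (X : (p : M) → TangentSpace 𝓘(ℝ, EuclideanSpace ℝ (Fin n)) p) (p : M)
    (v : TangentSpace 𝓘E p) : dCh p p (mCov n X p v) =
    cov (chartMetric n M p) (vCh n p X) (chartCentre n M p) (dCh p p v) := by
  have h1 := dCh_dSy p (centre_mem p)
    (cov (chartMetric n M p) (vCh n p X) (chartCentre n M p) (dCh p p v))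
  have h2 : (chartAt 𝔼 p).symm (chartCentre n M p) = p :=
    (chartAt 𝔼 p).left_inv (mem_chart_source 𝔼 p)
  rw [h2] at h1
  exact h1

lemma vCh_centre (X : (p : M) → TangentSpace 𝓘(ℝ, EuclideanSpace ℝ (Fin n)) p) (p : M) :
    vCh n p X (chartCentre n M p) = dCh p p (X p) := by
  have h2 : (chartAt 𝔼 p).symm (chartCentre n M p) = p :=
    (chartAt 𝔼 p).left_inv (mem_chart_source 𝔼 p)
  rw [vCh]
  exact dCh_congr_point h2 X p

/-- the gradient read in a chart. -/
lemma vCh_mgrad (hy : y ∈ (chartAt 𝔼 x₀).target) (f : M → ℝ) :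
    vCh n x₀ (mgrad n f) y = grad (chartMetric n M x₀) (inCh n x₀ f) y := by
  rw [vCh, mgrad_chart hy, dCh_dSy x₀ hy]

lemma eventually_vCh_mgrad (hy : y ∈ (chartAt 𝔼 x₀).target) (f : M → ℝ) :
    vCh n x₀ (mgrad n f) =ᶠ[𝓝 y] grad (chartMetric n M x₀) (inCh n x₀ f) := by
  filter_upwards [(chartAt 𝔼 x₀).open_target.mem_nhds hy] with w hw using vCh_mgrad hw f

/-- the gradient of a `C^{k+1}` function is `C^k`. -/
lemma VSm_mgrad {a k : WithTop ℕ∞} (hf : ContMDiffAt 𝓘E 𝓘(ℝ, ℝ) a f p) (hka : k + 1 ≤ a)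
    (ha : a ≤ ∞) : VSm n k (mgrad n f) p := by
  have hk : k ≤ ∞ := (le_trans (by simp) hka).trans ha
  refine ContDiffAt.congr_of_eventuallyEq ?_ (eventually_vCh_mgrad (centre_mem p) f)
  exact contDiffAt_grad (isRiemannianOn_chartMetric (n := n) p) (centre_mem p)
    (contDiffAt_centre ha hf) hka hk

/-- `div ∇f = Δ f`. -/
lemma mDiv_mgrad (f : M → ℝ) (p : M) : mDiv n (mgrad n f) p = mLap n f p := by
  rw [mDiv, divg_congr (eventually_vCh_mgrad (centre_mem p) f), divg_grad]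
  rfl

/-- `∇ ∇f = Hess f`. -/
lemma mCov_mgrad (f : M → ℝ) (p : M) (v : TangentSpace 𝓘E p) :
    mCov n (mgrad n f) p v = mHessE n f p v := by
  have h1 : vCh n p (mgrad n f) =ᶠ[𝓝 (chartCentre n M p)]
      grad (chartMetric n M p) (inCh n p f) := eventually_vCh_mgrad (centre_mem p) f
  rw [mCov, mHessE, hessE, cov_apply, cov_apply, h1.fderiv_eq, h1.self_of_nhds]

/-- the divergence in an orthonormal frame. -/
theorem mDiv_frame (hX : VSm n 1 X p) {e : Fin n → TangentSpace 𝓘E p}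
    (he : ∀ a b, inner ℝ (e a) (e b) = if a = b then (1:ℝ) else 0) :
    mDiv n X p = ∑ a, inner ℝ (mCov n X p (e a)) (e a) := by
  have hg := isRiemannianOn_chartMetric (n := n) p
  have hd : DifferentiableAt ℝ (vCh n p X) (chartCentre n M p) :=
    ContDiffAt.differentiableAt hX (by norm_num)
  rw [mDiv, divg_eq_trL hg (centre_mem p) hd, (isFrame_centre he).trL_eq hg (centre_mem p)]
  refine Finset.sum_congr rfl fun a _ => ?_
  rw [inner_centre, dCh_mCov]

/-! ### algebra -/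

/-- the product of a function and a field -/
lemma vCh_smul (f : M → ℝ) (X : (p : M) → TangentSpace 𝓘(ℝ, EuclideanSpace ℝ (Fin n)) p) (x₀ : M)
    (y : 𝔼) : vCh n x₀ (fun p => f p • X p) y = inCh n x₀ f y • vCh n x₀ X y :=
  map_smul (dCh x₀ ((chartAt 𝔼 x₀).symm y)) (f ((chartAt 𝔼 x₀).symm y))
    (X ((chartAt 𝔼 x₀).symm y))

lemma vCh_add (X Y : (p : M) → TangentSpace 𝓘(ℝ, EuclideanSpace ℝ (Fin n)) p) (x₀ : M)
    (y : 𝔼) : vCh n x₀ (fun p => X p + Y p) y = vCh n x₀ X y + vCh n x₀ Y y :=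
  map_add (dCh x₀ ((chartAt 𝔼 x₀).symm y)) (X ((chartAt 𝔼 x₀).symm y))
    (Y ((chartAt 𝔼 x₀).symm y))

lemma vCh_neg (X : (p : M) → TangentSpace 𝓘(ℝ, EuclideanSpace ℝ (Fin n)) p) (x₀ : M)
    (y : 𝔼) : vCh n x₀ (fun p => - X p) y = - vCh n x₀ X y :=
  map_neg (dCh x₀ ((chartAt 𝔼 x₀).symm y)) (X ((chartAt 𝔼 x₀).symm y))

lemma VSm.add {k : WithTop ℕ∞} (hX : VSm n k X p) (hY : VSm n k Y p) :
    VSm n k (fun q => X q + Y q) p := by
  have e : vCh n p (fun q => X q + Y q) = fun y => vCh n p X y + vCh n p Y y :=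
    funext fun y => vCh_add X Y p y
  rw [VSm, e]
  exact ContDiffAt.add hX hY

lemma VSm.neg {k : WithTop ℕ∞} (hX : VSm n k X p) : VSm n k (fun q => - X q) p := by
  have e : vCh n p (fun q => - X q) = fun y => - vCh n p X y := funext fun y => vCh_neg X p y
  rw [VSm, e]
  exact ContDiffAt.neg hX

lemma VSm.smul {k : WithTop ℕ∞} (hk : k ≤ ∞) (hf : ContMDiffAt 𝓘E 𝓘(ℝ, ℝ) k f p)
    (hX : VSm n k X p) : VSm n k (fun q => f q • X q) p := by
  have e : vCh n p (fun q => f q • X q) = fun y => inCh n p f y • vCh n p X y :=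
    funext fun y => vCh_smul f X p y
  rw [VSm, e]
  exact (contDiffAt_centre hk hf).smul hX

/-- `div (f X) = f div X + df(X)`. -/
theorem mDiv_smul (hf : MDifferentiableAt 𝓘E 𝓘(ℝ, ℝ) f p) (hX : VSm n 1 X p) :
    mDiv n (fun q => f q • X q) p = f p * mDiv n X p + dM n f p (X p) := by
  have e : vCh n p (fun q => f q • X q) = fun y => inCh n p f y • vCh n p X y :=
    funext fun y => vCh_smul f X p y
  have h1 := divg_smul (isRiemannianOn_chartMetric (n := n) p) (centre_mem p)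
    (h := inCh n p f) (V := vCh n p X) (differentiableAt_centre hf)
    (ContDiffAt.differentiableAt hX (by norm_num))
  rw [mDiv, e, h1, inCh_centre, vCh_centre, dM_eq, mfderiv_centre]
  rfl

theorem mDiv_add (hX : VSm n 1 X p) (hY : VSm n 1 Y p) :
    mDiv n (fun q => X q + Y q) p = mDiv n X p + mDiv n Y p := by
  have e : vCh n p (fun q => X q + Y q) = fun y => vCh n p X y + vCh n p Y y :=
    funext fun y => vCh_add X Y p y
  rw [mDiv, e, divg_add (isRiemannianOn_chartMetric (n := n) p) (centre_mem p)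
    (ContDiffAt.differentiableAt hX (by norm_num)) (ContDiffAt.differentiableAt hY (by norm_num))]
  rfl

theorem mDiv_neg (hX : VSm n 1 X p) : mDiv n (fun q => - X q) p = - mDiv n X p := by
  have h1 := mDiv_smul (n := n) (f := fun _ : M => (-1:ℝ)) (p := p)
    mdifferentiableAt_const hX
  have h2 : dM n (fun _ : M => (-1:ℝ)) p (X p) = 0 := by
    rw [dM_eq, mfderiv_const]; rfl
  simp only [neg_smul, one_smul] at h1
  rw [h1, h2]
  ring

theorem mDiv_congr (h : ∀ᶠ q in 𝓝 p, X q = Y q) : mDiv n X p = mDiv n Y p := by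
  have hc : ContinuousAt (chartAt 𝔼 p).symm (chartCentre n M p) :=
    (chartAt 𝔼 p).continuousAt_symm (centre_mem p)
  have h2 : (chartAt 𝔼 p).symm (chartCentre n M p) = p :=
    (chartAt 𝔼 p).left_inv (mem_chart_source 𝔼 p)
  have h3 : vCh n p X =ᶠ[𝓝 (chartCentre n M p)] vCh n p Y := by
    rw [ContinuousAt, h2] at hc
    filter_upwards [hc.eventually h] with y hy
    rw [vCh, vCh, hy]
  exact divg_congr h3

/-- derivative of the inner product of two fields. -/
theorem mfderiv_inner (hX : VSm n 1 X p) (hY : VSm n 1 Y p) (v : TangentSpace 𝓘E p) :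
    dM n (fun q => (inner ℝ (X q) (Y q) : ℝ)) p v =
      inner ℝ (mCov n X p v) (Y p) + inner ℝ (X p) (mCov n Y p v) := by
  have hg := isRiemannianOn_chartMetric (n := n) p
  have e : inCh n p (fun q => (inner ℝ (X q) (Y q) : ℝ)) =ᶠ[𝓝 (chartCentre n M p)]
      fun y => bil (chartMetric n M p y) (vCh n p X y) (vCh n p Y y) := by
    filter_upwards [(chartAt 𝔼 p).open_target.mem_nhds (centre_mem p)] with y hy
    have h1 := inner_eq_bil (n := n) p ((chartAt 𝔼 p).map_target hy)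
      (X ((chartAt 𝔼 p).symm y)) (Y ((chartAt 𝔼 p).symm y))
    rw [(chartAt 𝔼 p).right_inv hy] at h1
    exact h1
  rw [dM_eq, mfderiv_centre, e.fderiv_eq, fderiv_bil hg (centre_mem p)
    (ContDiffAt.differentiableAt hX (by norm_num)) (ContDiffAt.differentiableAt hY (by norm_num)),
    inner_centre, inner_centre, dCh_mCov, dCh_mCov, vCh_centre, vCh_centre]

lemma continuousAt_mDiv (hX : VSm n 1 X p) : ContinuousAt (mDiv n X) p := by
  have hg := isRiemannianOn_chartMetric (n := n) p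
  have h0 : (chartAt 𝔼 p).symm (chartCentre n M p) = p :=
    (chartAt 𝔼 p).left_inv (mem_chart_source 𝔼 p)
  have hev : ∀ᶠ q in 𝓝 p, VSm n 1 X q := hX.eventually one_le_infty (by simp)
  have h1 : ContDiffAt ℝ 0 (divg (chartMetric n M p) (vCh n p X)) (chartCentre n M p) :=
    contDiffAt_divg hg (centre_mem p) hX (by norm_num) (by simp)
  have h2 : ContinuousAt (fun q => divg (chartMetric n M p) (vCh n p X) (chartAt 𝔼 p q)) p :=
    ContinuousAt.comp (f := chartAt 𝔼 p) (x := p) h1.continuousAt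
      ((chartAt 𝔼 p).continuousAt (mem_chart_source 𝔼 p))
  refine h2.congr ?_
  filter_upwards [(chartAt 𝔼 p).open_source.mem_nhds (mem_chart_source 𝔼 p), hev] with q hq hXq
  exact (mDiv_chart' hq hXq).symm

end Crest.Agent.R249.Vf281
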