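import Crest.Agent.R249.Cod4_992
import Crest.Agent.R249.Vf1_281

/-!
# R249, leaf D3-COD (helper992), file 5: the third covariant derivative on the manifold

`mHess3Sq n f p = |∇Hess f|²(p)`, `mH3 n f p v w = (∇_v Hess f)(w)`, `mVv n f` the vector field of
the divergence identity, `MCurvLe n p b` curvature bound at `p`; chart expressions, frame formulas,
Codazzi, Kato, the pointwise inequality.
-/

set_option autoImplicit false
set_option maxSynthPendingDepth 3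
set_option linter.unusedSectionVars false

open scoped ContDiff Topology Manifold
open Filter Set Bundle
open Crest.GeometryTopology.CoordMetric Crest.GeometryTopology.ChartCurvature
open Crest.Agent.R202.Tens
open Crest.Agent.R247.Bo84 Crest.Agent.R249.Vf281

noncomputable section

namespace Crest.Agent.R249.Cod992

variable (n : ℕ) {M : Type*} [TopologicalSpace M] [ChartedSpace (EuclideanSpace ℝ (Fin n)) M]
  [IsManifold 𝓘(ℝ, EuclideanSpace ℝ (Fin n)) ∞ M]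
  [RiemannianBundle (fun x : M => TangentSpace 𝓘(ℝ, EuclideanSpace ℝ (Fin n)) x)]
  [IsContMDiffRiemannianBundle 𝓘(ℝ, EuclideanSpace ℝ (Fin n)) ∞ (EuclideanSpace ℝ (Fin n))
      (fun x : M => TangentSpace 𝓘(ℝ, EuclideanSpace ℝ (Fin n)) x)]

local notation "𝔼" => EuclideanSpace ℝ (Fin n)
local notation "𝓘E" => 𝓘(ℝ, EuclideanSpace ℝ (Fin n))

/-- `|∇ Hess f|²` on the manifold. -/
def mHess3Sq (f : M → ℝ) (p : M) : ℝ :=
  hess3Sq (chartMetric n M p) (inCh n p f) (chartCentre n M p)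

/-- `(∇_v Hess f)(w)` on the manifold. -/
def mH3 (f : M → ℝ) (p : M) (v w : TangentSpace 𝓘(ℝ, EuclideanSpace ℝ (Fin n)) p) :
    TangentSpace 𝓘(ℝ, EuclideanSpace ℝ (Fin n)) p :=
  dSy p (chartCentre n M p)
    (h3 (chartMetric n M p) (inCh n p f) (chartCentre n M p) (dCh p p v) (dCh p p w))

/-- the vector field of the divergence identity. -/
def mVv (f : M → ℝ) (p : M) : TangentSpace 𝓘(ℝ, EuclideanSpace ℝ (Fin n)) p :=
  dSy p (chartCentre n M p) (Vv (chartMetric n M p) (inCh n p f) (chartCentre n M p))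

/-- the curvature at `p` is bounded by `b`. -/
def MCurvLe (p : M) (b : ℝ) : Prop := CurvLe (chartMetric n M p) (chartCentre n M p) b

variable {n}

variable {x₀ p : M} {f h : M → ℝ} {y : EuclideanSpace ℝ (Fin n)} {b : ℝ}

lemma symm_centre (p : M) : (chartAt 𝔼 p).symm (chartCentre n M p) = p :=
  (chartAt 𝔼 p).left_inv (mem_chart_source 𝔼 p)

/-! ### charts -/

theorem mHess3Sq_chart (hy : y ∈ (chartAt 𝔼 x₀).target)
    (hf : ContMDiffAt 𝓘E 𝓘(ℝ, ℝ) 3 f ((chartAt 𝔼 x₀).symm y)) :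
    mHess3Sq n f ((chartAt 𝔼 x₀).symm y) = hess3Sq (chartMetric n M x₀) (inCh n x₀ f) y := by
  have hyd := mem_tdom_self hy
  have hP := pull_trans (n := n) x₀ ((chartAt 𝔼 x₀).symm y)
  have hc := trans_mem hyd
  have hf' : ContDiffAt ℝ 3 (inCh n ((chartAt 𝔼 x₀).symm y) f)
      (trans x₀ ((chartAt 𝔼 x₀).symm y) y) := by
    refine contDiffAt_inCh three_le_infty hc ?_
    rw [symm_trans hyd]
    exact hf
  rw [hess3Sq_congr (inCh_trans hyd), hess3Sq_pull hP hyd hf']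
  rfl

theorem mHess3Sq_chart' (hp : p ∈ (chartAt 𝔼 x₀).source)
    (hf : ContMDiffAt 𝓘E 𝓘(ℝ, ℝ) 3 f p) :
    mHess3Sq n f p = hess3Sq (chartMetric n M x₀) (inCh n x₀ f) (chartAt 𝔼 x₀ p) := by
  have h1 := (chartAt 𝔼 x₀).left_inv hp
  rw [← mHess3Sq_chart ((chartAt 𝔼 x₀).map_source hp) (by rw [h1]; exact hf), h1]

theorem vCh_mVv (hy : y ∈ (chartAt 𝔼 x₀).target)
    (hf : ContMDiffAt 𝓘E 𝓘(ℝ, ℝ) 3 f ((chartAt 𝔼 x₀).symm y)) :
    vCh n x₀ (mVv n f) y = Vv (chartMetric n M x₀) (inCh n x₀ f) y := by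
  have hyd := mem_tdom_self hy
  have hP := pull_trans (n := n) x₀ ((chartAt 𝔼 x₀).symm y)
  have hc := trans_mem hyd
  have hf' : ContDiffAt ℝ 3 (inCh n ((chartAt 𝔼 x₀).symm y) f)
      (trans x₀ ((chartAt 𝔼 x₀).symm y) y) := by
    refine contDiffAt_inCh three_le_infty hc ?_
    rw [symm_trans hyd]
    exact hf
  have h1 : fderiv ℝ (trans x₀ ((chartAt 𝔼 x₀).symm y)) y
      (Vv (chartMetric n M x₀) (inCh n x₀ f) y) =
      Vv (chartMetric n M ((chartAt 𝔼 x₀).symm y)) (inCh n ((chartAt 𝔼 x₀).symm y) f)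
        (trans x₀ ((chartAt 𝔼 x₀).symm y) y) := by
    rw [Vv_congr (inCh_trans hyd), Vv_pull hP hyd hf']
  have h2 : mVv n f ((chartAt 𝔼 x₀).symm y) =
      dSy x₀ y (Vv (chartMetric n M x₀) (inCh n x₀ f) y) := by
    rw [← dSy_trans hyd, h1]
    rfl
  rw [vCh, h2, dCh_dSy x₀ hy]

theorem mH3_chart (hy : y ∈ (chartAt 𝔼 x₀).target)
    (hf : ContMDiffAt 𝓘E 𝓘(ℝ, ℝ) 3 f ((chartAt 𝔼 x₀).symm y)) (u v : 𝔼) :
    mH3 n f ((chartAt 𝔼 x₀).symm y) (dSy x₀ y u) (dSy x₀ y v) =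
      dSy x₀ y (h3 (chartMetric n M x₀) (inCh n x₀ f) y u v) := by
  have hyd := mem_tdom_self hy
  have hP := pull_trans (n := n) x₀ ((chartAt 𝔼 x₀).symm y)
  have hc := trans_mem hyd
  have hf' : ContDiffAt ℝ 3 (inCh n ((chartAt 𝔼 x₀).symm y) f)
      (trans x₀ ((chartAt 𝔼 x₀).symm y) y) := by
    refine contDiffAt_inCh three_le_infty hc ?_
    rw [symm_trans hyd]
    exact hf
  rw [← dSy_trans hyd (h3 (chartMetric n M x₀) (inCh n x₀ f) y u v),
    h3_congr (inCh_trans hyd), h3_pull hP hyd hf', fderiv_trans hyd, fderiv_trans hyd]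
  rfl

lemma eventually_contMDiffAt {k : WithTop ℕ∞} (hk : k ≤ ∞) (hk' : k ≠ ∞)
    (hy : y ∈ (chartAt 𝔼 x₀).target)
    (hf : ContMDiffAt 𝓘E 𝓘(ℝ, ℝ) k f ((chartAt 𝔼 x₀).symm y)) :
    ∀ᶠ z in 𝓝 y, ContMDiffAt 𝓘E 𝓘(ℝ, ℝ) k f ((chartAt 𝔼 x₀).symm z) := by
  have : IsManifold 𝓘E k M := IsManifold.of_le (n := ∞) hk
  have h2 : ∀ᶠ q in 𝓝 ((chartAt 𝔼 x₀).symm y), ContMDiffAt 𝓘E 𝓘(ℝ, ℝ) k f q :=
    (contMDiffAt_iff_contMDiffAt_nhds hk').1 hf
  exact ((chartAt 𝔼 x₀).continuousAt_symm hy).eventually h2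

lemma eventually_vCh_mVv (hy : y ∈ (chartAt 𝔼 x₀).target)
    (hf : ContMDiffAt 𝓘E 𝓘(ℝ, ℝ) 3 f ((chartAt 𝔼 x₀).symm y)) :
    vCh n x₀ (mVv n f) =ᶠ[𝓝 y] Vv (chartMetric n M x₀) (inCh n x₀ f) := by
  filter_upwards [(chartAt 𝔼 x₀).open_target.mem_nhds hy,
    eventually_contMDiffAt three_le_infty (by simp) hy hf] with z hz hfz using vCh_mVv hz hfz

lemma four_le_infty : (4 : WithTop ℕ∞) ≤ ∞ := WithTop.coe_le_coe.2 le_top

/-- `mVv n f` is `C¹` where `f` is `C⁴`. -/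
theorem VSm_mVv (hf : ContMDiffAt 𝓘E 𝓘(ℝ, ℝ) 4 f p) : VSm n 1 (mVv n f) p := by
  have hf3 : ContMDiffAt 𝓘E 𝓘(ℝ, ℝ) 3 f ((chartAt 𝔼 p).symm (chartCentre n M p)) := by
    rw [symm_centre]; exact hf.of_le (by norm_num)
  refine ContDiffAt.congr_of_eventuallyEq ?_ (eventually_vCh_mVv (centre_mem p) hf3)
  exact contDiffAt_Vv (isRiemannianOn_chartMetric p) (centre_mem p) (m := 1)
    (contDiffAt_centre four_le_infty hf) (by norm_num) (WithTop.coe_le_coe.2 le_top)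

theorem mDiv_mVv (hf : ContMDiffAt 𝓘E 𝓘(ℝ, ℝ) 3 f p) :
    mDiv n (mVv n f) p =
      divg (chartMetric n M p) (Vv (chartMetric n M p) (inCh n p f)) (chartCentre n M p) := by
  have hf3 : ContMDiffAt 𝓘E 𝓘(ℝ, ℝ) 3 f ((chartAt 𝔼 p).symm (chartCentre n M p)) := by
    rw [symm_centre]; exact hf
  exact divg_congr (eventually_vCh_mVv (centre_mem p) hf3)

/-- `mHess3Sq n f` is continuous where `f` is `C³`. -/
theorem continuousAt_mHess3Sq (hf : ContMDiffAt 𝓘E 𝓘(ℝ, ℝ) 3 f p) :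
    ContinuousAt (mHess3Sq n f) p := by
  have h1 : ContDiffAt ℝ 0 (hess3Sq (chartMetric n M p) (inCh n p f)) (chartCentre n M p) :=
    continuousAt_hess3Sq (isRiemannianOn_chartMetric p) (centre_mem p) (m := 0)
      (contDiffAt_centre three_le_infty hf) (by norm_num) (WithTop.coe_le_coe.2 le_top)
  have h2 : ContinuousAt (fun q => hess3Sq (chartMetric n M p) (inCh n p f) (chartAt 𝔼 p q)) p :=
    ContinuousAt.comp (f := chartAt 𝔼 p) (x := p) h1.continuousAt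
      ((chartAt 𝔼 p).continuousAt (mem_chart_source 𝔼 p))
  refine h2.congr ?_
  have h3 : ∀ᶠ q in 𝓝 p, ContMDiffAt 𝓘E 𝓘(ℝ, ℝ) 3 f q :=
    (contMDiffAt_iff_contMDiffAt_nhds (by simp)).1 hf
  filter_upwards [(chartAt 𝔼 p).open_source.mem_nhds (mem_chart_source 𝔼 p), h3] with q hq hfq
  exact (mHess3Sq_chart' hq hfq).symm

/-! ### pointwise facts -/

lemma mHess3Sq_nonneg (hf : ContMDiffAt 𝓘E 𝓘(ℝ, ℝ) 3 f p) : 0 ≤ mHess3Sq n f p :=
  hess3Sq_nonneg (isRiemannianOn_chartMetric p) (centre_mem p)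
    (contDiffAt_centre three_le_infty hf)

lemma dCh_mH3 (f : M → ℝ) (p : M) (v w : TangentSpace 𝓘E p) : dCh p p (mH3 n f p v w) =
    h3 (chartMetric n M p) (inCh n p f) (chartCentre n M p) (dCh p p v) (dCh p p w) := by
  have h1 := dCh_dSy p (centre_mem p)
    (h3 (chartMetric n M p) (inCh n p f) (chartCentre n M p) (dCh p p v) (dCh p p w))
  rw [symm_centre] at h1
  exact h1

/-- `|∇Hess f|²` in an orthonormal frame. -/
theorem mHess3Sq_frame (hf : ContMDiffAt 𝓘E 𝓘(ℝ, ℝ) 3 f p) {e : Fin n → TangentSpace 𝓘E p}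
    (he : ∀ a b, inner ℝ (e a) (e b) = if a = b then (1:ℝ) else 0) :
    mHess3Sq n f p = ∑ a, ∑ c, ‖mH3 n f p (e a) (e c)‖ ^ 2 := by
  rw [mHess3Sq, hess3Sq_frame (isRiemannianOn_chartMetric p) (centre_mem p)
    (contDiffAt_centre three_le_infty hf) (isFrame_centre he)]
  refine Finset.sum_congr rfl fun a _ => Finset.sum_congr rfl fun c _ => ?_
  rw [← real_inner_self_eq_norm_sq, inner_centre, dCh_mH3]

/-- self-adjointness of `∇_v Hess f`. -/
theorem inner_mH3_symm (hf : ContMDiffAt 𝓘E 𝓘(ℝ, ℝ) 3 f p) (v w z : TangentSpace 𝓘E p) :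
    inner ℝ (mH3 n f p v w) z = (inner ℝ w (mH3 n f p v z) : ℝ) := by
  rw [inner_centre, inner_centre, dCh_mH3, dCh_mH3]
  exact h3_symm (isRiemannianOn_chartMetric p) (centre_mem p)
    (contDiffAt_centre three_le_infty hf) _ _ _

/-- `|⟨(∇_v Hess f) w, z⟩|² ≤ |∇Hess f|² |v|²|w|²|z|²` in the form `‖(∇_v Hess f) w‖ ≤ …`. -/
theorem norm_mH3_sq_le (hf : ContMDiffAt 𝓘E 𝓘(ℝ, ℝ) 3 f p) (v w : TangentSpace 𝓘E p) :
    ‖mH3 n f p v w‖ ^ 2 ≤ mHess3Sq n f p * ‖v‖ ^ 2 * ‖w‖ ^ 2 := by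
  have hg := isRiemannianOn_chartMetric (n := n) p
  have hx := centre_mem (n := n) p
  have hf' := contDiffAt_centre three_le_infty hf
  rw [← real_inner_self_eq_norm_sq, ← real_inner_self_eq_norm_sq, ← real_inner_self_eq_norm_sq,
    inner_centre, inner_centre, inner_centre, dCh_mH3]
  obtain ⟨ξ, hξ⟩ := exists_frame hg hx
  set B := h3 (chartMetric n M p) (inCh n p f) (chartCentre n M p) with hB
  set V := dCh p p v
  set W := dCh p p w
  have h1 := clm_sq_le hg hx hξ (B V) W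
  refine h1.trans ?_
  refine mul_le_mul_of_nonneg_right ?_ (bil_self_nonneg hg hx W)
  have h2 : ∀ c, bil (chartMetric n M p (chartCentre n M p)) (B V (ξ c)) (B V (ξ c)) ≤
      (∑ a, bil (chartMetric n M p (chartCentre n M p)) (B (ξ a) (ξ c)) (B (ξ a) (ξ c))) *
        bil (chartMetric n M p (chartCentre n M p)) V V := by
    intro c
    have := clm_sq_le hg hx hξ (B.flip (ξ c)) V
    simpa using this
  calc _ ≤ ∑ c, (∑ a, bil (chartMetric n M p (chartCentre n M p)) (B (ξ a) (ξ c)) (B (ξ a) (ξ c))) *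
        bil (chartMetric n M p (chartCentre n M p)) V V := Finset.sum_le_sum fun c _ => h2 c
    _ = _ := by
      rw [← Finset.sum_mul, Finset.sum_comm, mHess3Sq, hess3Sq_frame hg hx hf' hξ]

/-- **Kato** for the Hessian. -/
theorem mkato3 (hf : ContMDiffAt 𝓘E 𝓘(ℝ, ℝ) 3 f p) :
    mGam n (mHessSq n f) (mHessSq n f) p ≤ 4 * mHessSq n f p * mHess3Sq n f p := by
  have hf2 : ∀ᶠ z in 𝓝 (chartCentre n M p), ContMDiffAt 𝓘E 𝓘(ℝ, ℝ) 2 f
      ((chartAt 𝔼 p).symm z) := by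
    refine eventually_contMDiffAt two_le_infty (by simp) (centre_mem p) ?_
    rw [symm_centre]; exact hf.of_le (by norm_num)
  have h1 : inCh n p (mHessSq n f) =ᶠ[𝓝 (chartCentre n M p)]
      hessSq (chartMetric n M p) (inCh n p f) := by
    filter_upwards [(chartAt 𝔼 p).open_target.mem_nhds (centre_mem p), hf2] with z hz hfz
    exact mHessSq_chart hz hfz
  rw [mGam, gam_congr h1 h1]
  exact kato3 (isRiemannianOn_chartMetric p) (centre_mem p) (contDiffAt_centre three_le_infty hf)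

lemma eventually_lap_zero (hf : ContMDiffAt 𝓘E 𝓘(ℝ, ℝ) 2 f p)
    (hh : ∀ᶠ q in 𝓝 p, mLap n f q = 0) :
    ∀ᶠ z in 𝓝 (chartCentre n M p), laplaceBeltrami (chartMetric n M p) (inCh n p f) z = 0 := by
  have hc : ContinuousAt (chartAt 𝔼 p).symm (chartCentre n M p) :=
    (chartAt 𝔼 p).continuousAt_symm (centre_mem p)
  rw [ContinuousAt, symm_centre] at hc
  have hf2 : ∀ᶠ z in 𝓝 (chartCentre n M p), ContMDiffAt 𝓘E 𝓘(ℝ, ℝ) 2 f
      ((chartAt 𝔼 p).symm z) := by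
    refine eventually_contMDiffAt two_le_infty (by simp) (centre_mem p) ?_
    rw [symm_centre]; exact hf
  filter_upwards [(chartAt 𝔼 p).open_target.mem_nhds (centre_mem p), hf2, hc.eventually hh]
    with z hz hfz hhz
  rw [← mLap_chart hz hfz]
  exact hhz

/-- **the pointwise inequality** on the manifold. -/
theorem mHess3Sq_le (hf : ContMDiffAt 𝓘E 𝓘(ℝ, ℝ) 4 f p)
    (hh : ∀ᶠ q in 𝓝 p, mLap n f q = 0) (hb0 : 0 ≤ b) (hb : MCurvLe n p b) :
    mHess3Sq n f p ≤ mDiv n (mVv n f) p + 2 * n ^ 2 * b ^ 2 * mGam n f f p +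
      2 * n ^ 2 * b * mHessSq n f p := by
  rw [mDiv_mVv (hf.of_le (by norm_num))]
  exact hess3Sq_le (isRiemannianOn_chartMetric p) (centre_mem p)
    (contDiffAt_centre four_le_infty hf) (eventually_lap_zero (hf.of_le (by norm_num)) hh) hb0 hb

/-- absorption of the cut-off terms on the manifold. -/
theorem mcutoff_le (hf : ContMDiffAt 𝓘E 𝓘(ℝ, ℝ) 3 f p)
    (hh : ∀ᶠ q in 𝓝 p, mLap n f q = 0) (hb : MCurvLe n p b) (η : M → ℝ) (t : ℝ) :
    |2 * t * dM n η p (mVv n f p)| ≤ (1 / 2) * (t ^ 2 * mHess3Sq n f p) +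
      3 * (mGam n η η p * mHessSq n f p) + t ^ 2 * (n ^ 2 * b ^ 2 * mGam n f f p) := by
  have hg := isRiemannianOn_chartMetric (n := n) p
  have hx := centre_mem (n := n) p
  have h1 : dM n η p (mVv n f p) = bil (chartMetric n M p (chartCentre n M p))
      (Vv (chartMetric n M p) (inCh n p f) (chartCentre n M p))
      (grad (chartMetric n M p) (inCh n p η) (chartCentre n M p)) := by
    rw [dM_eq, mfderiv_centre, ← vCh_centre, vCh_mVv hx (by rw [symm_centre]; exact hf),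
      bil_symm hg hx, bil_grad hg hx]
  rw [h1]
  have h2 := cutoff_le hg hx (contDiffAt_centre three_le_infty hf)
    (eventually_lap_zero (hf.of_le (by norm_num)) hh) hb t
    (grad (chartMetric n M p) (inCh n p η) (chartCentre n M p))
  rw [← gam_eq_bil hg hx] at h2
  exact h2

end Crest.Agent.R249.Cod992
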