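import Crest.Agent.R249.Vf1_281
import Crest.Agent.R247.Ms11_322

/-!
Row 249 (helper281), T3a part 2: the divergence theorem.
`∫ dφ(X) = - ∫ φ div X` for `X` of class `C¹` on the open set `U` and `φ` locally Lipschitz with
compact support in `U` (all integrals against `μHE[n]`), with integrability of both sides;
`∫ div X = 0` for `C¹` fields with compact support.
-/

set_option autoImplicit false
set_option maxSynthPendingDepth 3
set_option linter.unusedSectionVars false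
set_option linter.unusedVariables false

open Bundle Bornology Set MeasureTheory Manifold Filter Metric
open scoped ENNReal ContDiff Topology NNReal
open Crest.GeometryTopology.CoordMetric Crest.GeometryTopology.ChartCurvature
open Crest.GeometryTopology.PointedLimit
open Crest.Agent.R226.ChartMet842
open Crest.Agent.R247.Ms322
open Crest.Agent.R247

namespace Crest.Agent.R249.Vf281

noncomputable section

variable {n : ℕ} {M : Type*} [MetricSpace M] [ChartedSpace (EuclideanSpace ℝ (Fin n)) M]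
  [IsManifold (𝓡 n) ∞ M]
  [RiemannianBundle (fun p : M => TangentSpace (𝓡 n) p)]
  [IsContMDiffRiemannianBundle (𝓡 n) ∞ (EuclideanSpace ℝ (Fin n)) (fun p : M => TangentSpace (𝓡 n) p)]

local notation "𝔼" => EuclideanSpace ℝ (Fin n)

/-! ### the chart-level formula -/

section Chart

variable (x₀ : M) {U : Set (EuclideanSpace ℝ (Fin n))}
  {A : EuclideanSpace ℝ (Fin n) → EuclideanSpace ℝ (Fin n)} {Φ : EuclideanSpace ℝ (Fin n) → ℝ}

/-- the components of `√g A`. -/
def Wc (x₀ : M) (A : EuclideanSpace ℝ (Fin n) → EuclideanSpace ℝ (Fin n)) (j : Fin n)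
    (a : EuclideanSpace ℝ (Fin n)) : ℝ :=
  Real.sqrt (chartMetric n M x₀ a).det * A a j

lemma contDiffAt_Wc (hUt : U ⊆ (chartAt 𝔼 x₀).target)
    (hA : ∀ a ∈ U, ContDiffAt ℝ 1 A a) (j : Fin n) {a : 𝔼} (ha : a ∈ U) :
    ContDiffAt ℝ 1 (Wc x₀ A j) a := by
  have h1 : ContDiffAt ℝ 1 (fun a => Real.sqrt (chartMetric n M x₀ a).det) a :=
    ((contDiffOn_dens x₀).contDiffAt ((chartAt 𝔼 x₀).open_target.mem_nhds (hUt ha))).of_le
      (by simp)
  have h3 : ContDiffAt ℝ 1 (fun a => A a j) a :=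
    (EuclideanSpace.proj j : 𝔼 →L[ℝ] ℝ).contDiff.contDiffAt.comp a (hA a ha)
  exact h1.mul h3

lemma continuousOn_Wc (hUt : U ⊆ (chartAt 𝔼 x₀).target)
    (hA : ∀ a ∈ U, ContDiffAt ℝ 1 A a) (j : Fin n) : ContinuousOn (Wc x₀ A j) U :=
  fun a ha => (contDiffAt_Wc x₀ hUt hA j ha).continuousAt.continuousWithinAt

lemma dens_mul_fderiv (a : 𝔼) :
    dens x₀ a * fderiv ℝ Φ a (A a) = ∑ j, Wc x₀ A j a * pderiv j Φ a := by
  rw [Ms322.fderiv_eq_sum, Finset.mul_sum]
  refine Finset.sum_congr rfl fun j _ => ?_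
  have hdens : dens x₀ a = Real.sqrt (chartMetric n M x₀ a).det := rfl
  rw [hdens, Wc]
  ring

theorem integrable_chart_vec (hUt : U ⊆ (chartAt 𝔼 x₀).target)
    (hA : ∀ a ∈ U, ContDiffAt ℝ 1 A a) (hΦ : LocallyLipschitz Φ)
    (hc : HasCompactSupport Φ) (hs : tsupport Φ ⊆ U) :
    Integrable (fun a => dens x₀ a * fderiv ℝ Φ a (A a)) := by
  simp only [dens_mul_fderiv]
  refine integrable_finsetSum _ fun j _ => ?_
  exact integrable_mul_fderiv (continuousOn_Wc x₀ hUt hA j) hΦ hc hs (EuclideanSpace.single j 1)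

/-- the divergence theorem in a chart. -/
theorem ibp_chart_vec (hU : IsOpen U) (hUt : U ⊆ (chartAt 𝔼 x₀).target)
    (hA : ∀ a ∈ U, ContDiffAt ℝ 1 A a) (hΦ : LocallyLipschitz Φ)
    (hc : HasCompactSupport Φ) (hs : tsupport Φ ⊆ U) :
    ∫ a, dens x₀ a * fderiv ℝ Φ a (A a) =
      - ∫ a, dens x₀ a * (Φ a * Bo84.divg (chartMetric n M x₀) A a) := by
  have hWd := fun j a (ha : a ∈ U) => contDiffAt_Wc (n := n) x₀ hUt hA j ha
  have hWL : ∀ j, LLo U (Wc x₀ A j) := fun j a ha => (hWd j a ha).exists_lipschitzOnWith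
  have hWc := fun j => continuousOn_Wc (n := n) x₀ hUt hA j
  have hWc' : ∀ j, ContinuousOn (fun a => pderiv j (Wc x₀ A j) a) U := by
    intro j a ha
    have h1 : ContDiffAt ℝ 0 (fderiv ℝ (Wc x₀ A j)) a := (hWd j a ha).fderiv_right (by norm_num)
    have h2 : ContinuousAt (fun a => fderiv ℝ (Wc x₀ A j) a (EuclideanSpace.single j 1)) a :=
      h1.continuousAt.clm_apply continuousAt_const
    exact h2.continuousWithinAt
  have e1 : (fun a => dens x₀ a * fderiv ℝ Φ a (A a)) =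
      fun a => ∑ j, Wc x₀ A j a * pderiv j Φ a := funext fun a => dens_mul_fderiv x₀ a
  have e2 : (fun a => dens x₀ a * (Φ a * Bo84.divg (chartMetric n M x₀) A a)) =
      fun a => ∑ j, pderiv j (Wc x₀ A j) a * Φ a := by
    funext a
    by_cases ha : a ∈ U
    · have h1 : Bo84.divg (chartMetric n M x₀) A a =
          (1 / Real.sqrt (chartMetric n M x₀ a).det) * ∑ j, pderiv j (Wc x₀ A j) a := rfl
      have hdens : dens x₀ a = Real.sqrt (chartMetric n M x₀ a).det := rfl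
      have h2 : Real.sqrt (chartMetric n M x₀ a).det ≠ 0 := (dens_pos (n := n) x₀ (hUt ha)).ne'
      rw [h1, hdens, ← Finset.sum_mul]
      field_simp
    · have h0 : Φ a = 0 := image_eq_zero_of_notMem_tsupport fun h => ha (hs h)
      simp [h0]
  rw [e1, e2, integral_finsetSum, integral_finsetSum, ← Finset.sum_neg_distrib]
  · refine Finset.sum_congr rfl fun j _ => ?_
    exact ibp_euclid hU (hWL j) hΦ hc hs (EuclideanSpace.single j 1)
  · intro j _
    exact integrable_mul_of_continuousOn (hWc' j) hΦ.continuous hc hs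
  · intro j _
    exact integrable_mul_fderiv (hWc j) hΦ hc hs (EuclideanSpace.single j 1)

/-- `dφ(X)` in a chart. -/
lemma dM_chart (φ : M → ℝ) (X : (p : M) → TangentSpace (𝓡 n) p) {a : 𝔼}
    (ha : a ∈ (chartAt 𝔼 x₀).target) :
    Bo84.dM n φ ((chartAt 𝔼 x₀).symm a) (X ((chartAt 𝔼 x₀).symm a)) =
      fderiv ℝ (Bo84.inCh n x₀ φ) a (vCh n x₀ X a) := by
  rw [Bo84.fderiv_inCh ha, dSy_vCh ha]
  rfl

end Chart

/-! ### on the manifold -/

lemma dM_eq_zero_off {φ : M → ℝ} {z : M} (hz : z ∉ tsupport φ) (v : TangentSpace (𝓡 n) z) :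
    Bo84.dM n φ z v = 0 := by
  have hev : φ =ᶠ[𝓝 z] fun _ => 0 := by
    filter_upwards [(isClosed_tsupport φ).isOpen_compl.mem_nhds hz] with y hy
    exact image_eq_zero_of_notMem_tsupport hy
  rw [Bo84.dM_eq, hev.mfderiv_eq, mfderiv_const]
  rfl

lemma dM_add {f g : M → ℝ} {z : M} (hf : MDifferentiableAt (𝓡 n) 𝓘(ℝ) f z)
    (hg : MDifferentiableAt (𝓡 n) 𝓘(ℝ) g z) (v : TangentSpace (𝓡 n) z) :
    Bo84.dM n (fun y => f y + g y) z v = Bo84.dM n f z v + Bo84.dM n g z v := by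
  have h := (hf.hasMFDerivAt.add hg.hasMFDerivAt).mfderiv
  have h2 := congrArg (fun L : TangentSpace (𝓡 n) z →L[ℝ] ℝ => L v) h
  exact h2

variable [SecondCountableTopology M] [Nonempty M] [IsRiemannianManifold (𝓡 n) M]
  [MeasurableSpace M] [BorelSpace M]

theorem integrable_vec_chart (x₀ : M) {U : Set M} (hU : IsOpen U) {φ : M → ℝ}
    {X : (p : M) → TangentSpace (𝓡 n) p}
    (hX : ∀ z ∈ U, VSm n 1 X z) (hφ : LocallyLipschitz φ)
    (hc : HasCompactSupport φ) (hs : tsupport φ ⊆ U) (hsx : tsupport φ ⊆ (chartAt 𝔼 x₀).source) :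
    Integrable (fun z => Bo84.dM n φ z (X z)) (μHE[n] : Measure M) := by
  set T := (chartAt 𝔼 x₀).target with hT
  have hTm : MeasurableSet T := (chartAt 𝔼 x₀).open_target.measurableSet
  set U' : Set 𝔼 := T ∩ (chartAt 𝔼 x₀).symm ⁻¹' U with hU'
  have hts := tsupport_pll_target (n := n) x₀ hc hsx hs
  have hA : ∀ a ∈ U', ContDiffAt ℝ 1 (vCh n x₀ X) a := fun a ha =>
    VSm.chart Bo84.one_le_infty ha.1 (hX _ ha.2)
  have key := integrable_chart_vec x₀ (A := vCh n x₀ X) inter_subset_left hA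
    (locallyLipschitz_pll (n := n) x₀ hφ hc hsx) (hasCompactSupport_pll x₀ hc hsx) hts
  rw [← integrableOn_univ, ← union_compl_self (chartAt 𝔼 x₀).source, integrableOn_union]
  constructor
  · rw [integrableOn_source_iff x₀]
    refine (key.integrableOn (s := T)).congr_fun (fun a ha => ?_) hTm
    simp only [smul_eq_mul]
    rw [dM_chart x₀ φ X ha]
    have h1 : pll x₀ φ =ᶠ[𝓝 a] Bo84.inCh n x₀ φ := pll_eventually x₀ φ ha
    rw [h1.fderiv_eq]
  · have h0 : EqOn (fun z => Bo84.dM n φ z (X z)) (fun _ => 0) ((chartAt 𝔼 x₀).source)ᶜ :=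
      fun z hz => dM_eq_zero_off (fun h => hz (hsx h)) _
    exact (integrableOn_congr_fun h0 (chartAt 𝔼 x₀).open_source.measurableSet.compl).2
      integrableOn_zero

theorem ibp_vec_chart (x₀ : M) {U : Set M} (hU : IsOpen U) {φ : M → ℝ}
    {X : (p : M) → TangentSpace (𝓡 n) p}
    (hX : ∀ z ∈ U, VSm n 1 X z) (hφ : LocallyLipschitz φ)
    (hc : HasCompactSupport φ) (hs : tsupport φ ⊆ U) (hsx : tsupport φ ⊆ (chartAt 𝔼 x₀).source) :
    ∫ z, Bo84.dM n φ z (X z) ∂(μHE[n] : Measure M) =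
      - ∫ z, φ z * mDiv n X z ∂(μHE[n] : Measure M) := by
  set T := (chartAt 𝔼 x₀).target with hT
  have hTm : MeasurableSet T := (chartAt 𝔼 x₀).open_target.measurableSet
  set U' : Set 𝔼 := T ∩ (chartAt 𝔼 x₀).symm ⁻¹' U with hU'
  have hU'o : IsOpen U' := (chartAt 𝔼 x₀).isOpen_inter_preimage_symm hU
  have hts := tsupport_pll_target (n := n) x₀ hc hsx hs
  have hA : ∀ a ∈ U', ContDiffAt ℝ 1 (vCh n x₀ X) a := fun a ha =>
    VSm.chart Bo84.one_le_infty ha.1 (hX _ ha.2)
  have key := ibp_chart_vec x₀ (A := vCh n x₀ X) hU'o inter_subset_left hA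
    (locallyLipschitz_pll (n := n) x₀ hφ hc hsx) (hasCompactSupport_pll x₀ hc hsx) hts
  have e1 : ∫ z, Bo84.dM n φ z (X z) ∂(μHE[n] : Measure M) =
      ∫ a, dens x₀ a * fderiv ℝ (pll x₀ φ) a (vCh n x₀ X a) := by
    rw [integral_eq_of_support x₀ _ (fun z hz => dM_eq_zero_off (fun h => hz (hsx h)) _)]
    have h0 : ∀ a, a ∉ T → dens x₀ a * fderiv ℝ (pll x₀ φ) a (vCh n x₀ X a) = 0 := by
      intro a ha
      have h1 : fderiv ℝ (pll (n := n) x₀ φ) a = 0 := fderiv_zero_off fun h => ha (hts h).1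
      rw [h1]
      simp
    rw [← setIntegral_eq_integral_of_forall_compl_eq_zero (s := T) h0]
    refine setIntegral_congr_fun hTm fun a ha => ?_
    simp only [smul_eq_mul]
    rw [dM_chart x₀ φ X ha]
    have h1 : pll x₀ φ =ᶠ[𝓝 a] Bo84.inCh n x₀ φ := pll_eventually x₀ φ ha
    rw [h1.fderiv_eq]
  have e2 : ∫ z, φ z * mDiv n X z ∂(μHE[n] : Measure M) =
      ∫ a, dens x₀ a * (pll x₀ φ a * Bo84.divg (chartMetric n M x₀) (vCh n x₀ X) a) := by
    rw [integral_eq_of_support x₀ _ (fun z hz => by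
      rw [image_eq_zero_of_notMem_tsupport (fun h => hz (hsx h)), zero_mul])]
    have h0 : ∀ a, a ∉ T → dens x₀ a * (pll x₀ φ a *
        Bo84.divg (chartMetric n M x₀) (vCh n x₀ X) a) = 0 := by
      intro a ha
      rw [pll_of_notMem x₀ φ ha]
      ring
    rw [← setIntegral_eq_integral_of_forall_compl_eq_zero (s := T) h0]
    refine setIntegral_congr_fun hTm fun a ha => ?_
    simp only [smul_eq_mul]
    rw [pll_of_mem x₀ φ ha]
    by_cases hz : (chartAt 𝔼 x₀).symm a ∈ tsupport φ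
    · rw [mDiv_chart ha (hX _ (hs hz))]
    · rw [image_eq_zero_of_notMem_tsupport hz]
      ring
  rw [e1, e2, key]

lemma continuousOn_mDiv {U : Set M} {X : (p : M) → TangentSpace (𝓡 n) p}
    (hX : ∀ z ∈ U, VSm n 1 X z) : ContinuousOn (mDiv n X) U :=
  fun z hz => (continuousAt_mDiv (hX z hz)).continuousWithinAt

theorem integrable_mul_mDiv {U : Set M} {X : (p : M) → TangentSpace (𝓡 n) p}
    (hX : ∀ z ∈ U, VSm n 1 X z) {φ : M → ℝ} (hφ : Continuous φ)
    (hc : HasCompactSupport φ) (hs : tsupport φ ⊆ U) :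
    Integrable (fun z => φ z * mDiv n X z) (μHE[n] : Measure M) :=
  integrable_mul_of_continuousOn_M (continuousOn_mDiv hX) hφ hc hs

/-- The integral identity for all test functions supported in `V`. -/
def IbpV (X : (p : M) → TangentSpace (𝓡 n) p) (V : Set M) : Prop :=
  ∀ φ : M → ℝ, LocallyLipschitz φ → HasCompactSupport φ → tsupport φ ⊆ V →
    Integrable (fun z => Bo84.dM n φ z (X z)) (μHE[n] : Measure M) ∧
    ∫ z, Bo84.dM n φ z (X z) ∂(μHE[n] : Measure M) =
      - ∫ z, φ z * mDiv n X z ∂(μHE[n] : Measure M)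

theorem IbpV.union {U V W : Set M} (hU : IsOpen U) {X : (p : M) → TangentSpace (𝓡 n) p}
    (hX : ∀ z ∈ U, VSm n 1 X z) (hVo : IsOpen V) (hWo : IsOpen W)
    (hVU : V ⊆ U) (hWU : W ⊆ U) (hV : IbpV (n := n) X V) (hW : IbpV (n := n) X W) :
    IbpV (n := n) X (V ∪ W) := by
  intro φ hφ hc hs
  have := locallyCompactSpace n M
  have hK : IsCompact (tsupport φ \ W) := hc.isCompact.diff hWo
  have hKV : tsupport φ \ W ⊆ V := fun z hz => (hs hz.1).resolve_right hz.2
  obtain ⟨χ, ⟨L, hL⟩, hχc, hχV, ⟨O, hOo, hKO, hO1⟩, -⟩ := exists_lip_cutoff hK hVo hKV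
  set φ₁ : M → ℝ := fun z => χ z * φ z with hφ₁
  set φ₂ : M → ℝ := fun z => (1 - χ z) * φ z with hφ₂
  have h1L : LocallyLipschitz φ₁ :=
    LLo.loc ((LLo.of_loc hL.locallyLipschitz).mul (LLo.of_loc hφ))
  have h2L : LocallyLipschitz φ₂ :=
    LLo.loc (((LLo.const 1).sub (LLo.of_loc hL.locallyLipschitz)).mul (LLo.of_loc hφ))
  have h1c : HasCompactSupport φ₁ := hχc.mul_right
  have h2c : HasCompactSupport φ₂ := hc.mul_left
  have h1V : tsupport φ₁ ⊆ V := (tsupport_mul_subset_left).trans hχV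
  have h2W : tsupport φ₂ ⊆ W := by
    intro z hz
    by_contra hzW
    have hzφ : z ∈ tsupport φ := tsupport_mul_subset_right hz
    have hzO : z ∈ O := hKO ⟨hzφ, hzW⟩
    have hdis : z ∉ tsupport φ₂ := by
      rw [notMem_tsupport_iff_eventuallyEq]
      filter_upwards [hOo.mem_nhds hzO] with y hy
      rw [hφ₂]
      simp [hO1 y hy]
    exact hdis hz
  have hsum : φ = fun z => φ₁ z + φ₂ z := by
    funext z
    rw [hφ₁, hφ₂]
    ring
  have hG : (fun z => Bo84.dM n φ z (X z)) =ᵐ[(μHE[n] : Measure M)]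
      fun z => Bo84.dM n φ₁ z (X z) + Bo84.dM n φ₂ z (X z) := by
    filter_upwards [ae_mdifferentiableAt (n := n) h1L, ae_mdifferentiableAt (n := n) h2L]
      with z d1 d2
    rw [← dM_add d1 d2, ← hsum]
  obtain ⟨i1, I1⟩ := hV φ₁ h1L h1c h1V
  obtain ⟨i2, I2⟩ := hW φ₂ h2L h2c h2W
  have j1 := integrable_mul_mDiv (n := n) hX h1L.continuous h1c (h1V.trans hVU)
  have j2 := integrable_mul_mDiv (n := n) hX h2L.continuous h2c (h2W.trans hWU)
  have hR : ∫ z, φ z * mDiv n X z ∂(μHE[n] : Measure M) =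
      ∫ z, φ₁ z * mDiv n X z ∂(μHE[n] : Measure M) +
        ∫ z, φ₂ z * mDiv n X z ∂(μHE[n] : Measure M) := by
    rw [← integral_add j1 j2]
    refine integral_congr_ae (Eventually.of_forall fun z => ?_)
    have := congrFun hsum z
    simp only at this ⊢
    rw [this]
    ring
  refine ⟨(i1.add i2).congr hG.symm, ?_⟩
  rw [integral_congr_ae hG, integral_add i1 i2, I1, I2, hR]
  ring

theorem ibpV {U : Set M} (hU : IsOpen U) {X : (p : M) → TangentSpace (𝓡 n) p}
    (hX : ∀ z ∈ U, VSm n 1 X z) : IbpV (n := n) X U := by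
  classical
  intro φ hφ hc hs
  set V : M → Set M := fun x => (chartAt 𝔼 x).source ∩ U with hV
  have hVo : ∀ x, IsOpen (V x) := fun x => (chartAt 𝔼 x).open_source.inter hU
  have hfin : ∀ s : Finset M, IbpV (n := n) X (⋃ x ∈ s, V x) := by
    intro s
    induction s using Finset.induction_on with
    | empty =>
      intro φ hφ hc hs
      have h0 : tsupport φ = ∅ := by
        rw [← subset_empty_iff]
        simpa using hs
      have h1 : ∀ z, φ z = 0 := fun z => image_eq_zero_of_notMem_tsupport (by rw [h0]; simp)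
      have h2 : (fun z => Bo84.dM n φ z (X z)) = fun _ => (0:ℝ) :=
        funext fun z => dM_eq_zero_off (by rw [h0]; simp) _
      rw [h2]
      refine ⟨integrable_zero _ _ _, ?_⟩
      simp [h1]
    | insert a s ha ih =>
      rw [Finset.set_biUnion_insert]
      refine IbpV.union hU hX (hVo a) (isOpen_biUnion fun x _ => hVo x) inter_subset_right
        (iUnion₂_subset fun x _ => inter_subset_right) ?_ ih
      intro φ hφ hc hs
      exact ⟨integrable_vec_chart a hU hX hφ hc (hs.trans inter_subset_right)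
        (hs.trans inter_subset_left), ibp_vec_chart a hU hX hφ hc (hs.trans inter_subset_right)
        (hs.trans inter_subset_left)⟩
  obtain ⟨s, hs'⟩ := hc.isCompact.elim_finite_subcover V hVo (fun z hz =>
    mem_iUnion.2 ⟨z, mem_chart_source 𝔼 z, hs hz⟩)
  exact hfin s φ hφ hc hs'

theorem integrable_dM {U : Set M} (hU : IsOpen U) {X : (p : M) → TangentSpace (𝓡 n) p}
    (hX : ∀ z ∈ U, VSm n 1 X z) {φ : M → ℝ} (hφ : LocallyLipschitz φ)
    (hc : HasCompactSupport φ) (hs : tsupport φ ⊆ U) :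
    Integrable (fun z => Bo84.dM n φ z (X z)) (μHE[n] : Measure M) :=
  (ibpV hU hX φ hφ hc hs).1

/-- **The divergence theorem.** -/
theorem ibp_mDiv {U : Set M} (hU : IsOpen U) {X : (p : M) → TangentSpace (𝓡 n) p}
    (hX : ∀ z ∈ U, VSm n 1 X z) {φ : M → ℝ} (hφ : LocallyLipschitz φ)
    (hc : HasCompactSupport φ) (hs : tsupport φ ⊆ U) :
    ∫ z, Bo84.dM n φ z (X z) ∂(μHE[n] : Measure M) =
      - ∫ z, φ z * mDiv n X z ∂(μHE[n] : Measure M) :=
  (ibpV hU hX φ hφ hc hs).2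

lemma mDiv_zero_off {X : (p : M) → TangentSpace (𝓡 n) p} {z : M}
    (h : ∀ᶠ q in 𝓝 z, X q = 0) : mDiv n X z = 0 := by
  have h1 : mDiv n X z = mDiv n (fun q => (0 : TangentSpace (𝓡 n) q)) z := mDiv_congr h
  rw [h1, mDiv]
  have h2 : vCh n z (fun q : M => (0 : TangentSpace (𝓡 n) q)) = fun _ => (0:𝔼) := by
    funext y
    exact map_zero _
  rw [h2, Bo84.divg]
  have h3 : ∀ i, pderiv i (fun y : 𝔼 => Real.sqrt (chartMetric n M z y).det * (0:𝔼) i)
      (chartCentre n M z) = 0 := by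
    intro i
    have h4 : (fun y : 𝔼 => Real.sqrt (chartMetric n M z y).det * (0:𝔼) i) = fun _ => (0:ℝ) := by
      funext y; simp
    rw [h4, pderiv]
    simp
  rw [Finset.sum_eq_zero fun i _ => h3 i, mul_zero]

/-- **The integral of a divergence vanishes** (`C¹` field vanishing off a compact set). -/
theorem integral_mDiv_eq_zero {X : (p : M) → TangentSpace (𝓡 n) p} {K U : Set M}
    (hU : IsOpen U) (hX : ∀ z ∈ U, VSm n 1 X z) (hK : IsCompact K) (hKU : K ⊆ U)
    (h0 : ∀ z, z ∉ K → X z = 0) :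
    Integrable (mDiv n X) (μHE[n] : Measure M) ∧ ∫ z, mDiv n X z ∂(μHE[n] : Measure M) = 0 := by
  have := locallyCompactSpace n M
  obtain ⟨χ, ⟨L, hL⟩, hχc, hχU, ⟨O, hOo, hKO, hO1⟩, -⟩ := exists_lip_cutoff hK hU hKU
  have h1 := ibp_mDiv hU hX hL.locallyLipschitz hχc hχU
  have e1 : ∀ z, Bo84.dM n χ z (X z) = 0 := by
    intro z
    by_cases hz : z ∈ K
    · have hev : χ =ᶠ[𝓝 z] fun _ => 1 := by
        filter_upwards [hOo.mem_nhds (hKO hz)] with y hy using hO1 y hy
      rw [Bo84.dM_eq, hev.mfderiv_eq, mfderiv_const]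
      rfl
    · rw [h0 z hz]
      exact map_zero (mfderiv (𝓡 n) 𝓘(ℝ, ℝ) χ z)
  have hoff : ∀ z, z ∉ K → mDiv n X z = 0 := fun z hz => mDiv_zero_off (by
    filter_upwards [hK.isClosed.isOpen_compl.mem_nhds hz] with y hy using h0 y hy)
  have e2 : (fun z => χ z * mDiv n X z) = mDiv n X := by
    funext z
    by_cases hz : z ∈ K
    · rw [hO1 z (hKO hz), one_mul]
    · rw [hoff z hz, mul_zero]
  have i2 := integrable_mul_mDiv hX hL.continuous hχc hχU
  rw [e2] at i2 h1
  refine ⟨i2, ?_⟩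
  simp only [e1, integral_zero] at h1
  linarith

end

end Crest.Agent.R249.Vf281
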