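import Crest.Agent.R249.Cod5_992
import Crest.Agent.R249.Vf2_281

/-!
# R249, leaf D3-COD (helper992), file 6: the integrated third order estimate

`f` of class `C⁴` and harmonic on the open set `W`, `B ≥ 0` continuous curvature bound on `W`,
`η` locally Lipschitz with compact support in `W`:
`∫ η² |∇Hess f|² ≤ 6 ∫ |∇η|² |Hess f|² + 6 n² ∫ η² B² |∇f|² + 4 n² ∫ η² B |Hess f|²`.
-/

set_option autoImplicit false
set_option maxSynthPendingDepth 3
set_option linter.unusedSectionVars false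
set_option linter.unusedVariables false

open Bundle Bornology Set MeasureTheory Manifold Filter Metric
open scoped ENNReal ContDiff Topology NNReal
open Crest.GeometryTopology.CoordMetric Crest.GeometryTopology.ChartCurvature
open Crest.GeometryTopology.PointedLimit
open Crest.Agent.R226.ChartMet842
open Crest.Agent.R247.Ms322
open Crest.Agent.R247 Crest.Agent.R249.Vf281

namespace Crest.Agent.R249.Cod992

noncomputable section

variable {n : ℕ} {M : Type*} [MetricSpace M] [ChartedSpace (EuclideanSpace ℝ (Fin n)) M]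
  [IsManifold (𝓡 n) ∞ M]
  [RiemannianBundle (fun p : M => TangentSpace (𝓡 n) p)]
  [IsContMDiffRiemannianBundle (𝓡 n) ∞ (EuclideanSpace ℝ (Fin n)) (fun p : M => TangentSpace (𝓡 n) p)]

local notation "𝔼" => EuclideanSpace ℝ (Fin n)

lemma continuousOn_mHess3Sq {W : Set M} {f : M → ℝ}
    (hf : ∀ z ∈ W, ContMDiffAt (𝓡 n) 𝓘(ℝ, ℝ) 3 f z) : ContinuousOn (mHess3Sq n f) W :=
  fun z hz => (continuousAt_mHess3Sq (hf z hz)).continuousWithinAt

lemma continuousAt_mHessSq {p : M} {f : M → ℝ} (hf : ContMDiffAt (𝓡 n) 𝓘(ℝ, ℝ) 2 f p) :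
    ContinuousAt (Bo84.mHessSq n f) p := by
  have h1 : ContDiffAt ℝ 0 (Bo84.hessSq (chartMetric n M p) (Bo84.inCh n p f))
      (chartCentre n M p) := by
    have hA := contDiffAt_hessE (Bo84.isRiemannianOn_chartMetric (n := n) p) (Bo84.centre_mem p)
      (m := 0) (Bo84.contDiffAt_centre Bo84.two_le_infty hf) (by norm_num)
      (WithTop.coe_le_coe.2 le_top)
    exact contDiffAt_const.clm_apply (hA.clm_comp hA)
  have h2 : ContinuousAt (fun q => Bo84.hessSq (chartMetric n M p) (Bo84.inCh n p f)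
      (chartAt 𝔼 p q)) p :=
    ContinuousAt.comp (f := chartAt 𝔼 p) (x := p) h1.continuousAt
      ((chartAt 𝔼 p).continuousAt (mem_chart_source 𝔼 p))
  refine h2.congr ?_
  have : IsManifold (𝓡 n) 2 M := IsManifold.of_le (n := ∞) Bo84.two_le_infty
  have h3 : ∀ᶠ q in 𝓝 p, ContMDiffAt (𝓡 n) 𝓘(ℝ, ℝ) 2 f q :=
    (contMDiffAt_iff_contMDiffAt_nhds (by simp)).1 hf
  filter_upwards [(chartAt 𝔼 p).open_source.mem_nhds (mem_chart_source 𝔼 p), h3] with q hq hfq
  exact (Bo84.mHessSq_chart' hq hfq).symm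

lemma continuousOn_mHessSq {W : Set M} {f : M → ℝ}
    (hf : ∀ z ∈ W, ContMDiffAt (𝓡 n) 𝓘(ℝ, ℝ) 2 f z) : ContinuousOn (Bo84.mHessSq n f) W :=
  fun z hz => (continuousAt_mHessSq (hf z hz)).continuousWithinAt

lemma continuousOn_mGam {W : Set M} {f h : M → ℝ}
    (hf : ∀ z ∈ W, ContMDiffAt (𝓡 n) 𝓘(ℝ, ℝ) 1 f z)
    (hh : ∀ z ∈ W, ContMDiffAt (𝓡 n) 𝓘(ℝ, ℝ) 1 h z) : ContinuousOn (Bo84.mGam n f h) W := by
  intro z hz
  have := Bo84.contMDiffAt_mGam (m := 0) (hf z hz) (hh z hz) (by norm_num) Bo84.one_le_infty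
  exact this.continuousAt.continuousWithinAt

/-- derivative of a square. -/
lemma dM_sq {η : M → ℝ} {z : M} (hη : MDifferentiableAt (𝓡 n) 𝓘(ℝ) η z)
    (v : TangentSpace (𝓡 n) z) :
    Bo84.dM n (fun y => η y ^ 2) z v = 2 * η z * Bo84.dM n η z v := by
  have h1 := Bo84.differentiableAt_centre (n := n) hη
  rw [Bo84.dM_eq, Bo84.dM_eq, Bo84.mfderiv_centre, Bo84.mfderiv_centre]
  have e : Bo84.inCh n z (fun y => η y ^ 2) = fun y => Bo84.inCh n z η y ^ 2 := rfl
  rw [e, fderiv_fun_pow 2 h1]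
  simp only [smul_apply, smul_eq_mul, Nat.add_one_sub_one, pow_one]
  have e2 : Bo84.inCh n z η (chartCentre n M z) = η z := Bo84.inCh_centre η z
  rw [e2]
  ring

variable [SecondCountableTopology M] [Nonempty M] [IsRiemannianManifold (𝓡 n) M]
  [MeasurableSpace M] [BorelSpace M]

/-- integrability of `|∇η|² w` for `w` continuous on an open set containing the support. -/
lemma integrable_mGam_mul {W : Set M} {w : M → ℝ} (hw : ContinuousOn w W) {η : M → ℝ}
    (hη : LocallyLipschitz η) (hc : HasCompactSupport η) (hs : tsupport η ⊆ W) :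
    Integrable (fun z => Bo84.mGam n η η z * w z) (μHE[n] : Measure M) := by
  obtain ⟨C, hC0, hC⟩ := exists_bound_Gr (n := n) hη hc
  obtain ⟨C', hC'⟩ := hc.isCompact.exists_bound_of_continuousOn (hw.mono hs)
  have e : (fun z => Bo84.mGam n η η z * w z) = fun z => ‖Gr (n := n) η z‖ ^ 2 * w z := by
    funext z; rw [norm_Gr_sq_eq_mGam]
  rw [e]
  refine integrable_of_compact_M hc.isCompact (C := C ^ 2 * C') ?_ ?_ ?_
  · exact (((measurable_Gr (n := n) η).norm.pow_const 2).aestronglyMeasurable).mul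
      ((hw.mono hs).aestronglyMeasurable hc.isCompact.measurableSet)
  · intro z hz
    rw [norm_mul]
    have h1 := hC z
    have h2 := hC' z hz
    have h3 : ‖‖Gr (n := n) η z‖ ^ 2‖ ≤ C ^ 2 := by
      rw [Real.norm_of_nonneg (by positivity)]
      gcongr
    exact mul_le_mul h3 h2 (norm_nonneg _) (by positivity)
  · intro z hz
    rw [Gr_zero_off hz]
    simp

/-- **The third order estimate** (`C3` with weight one). -/
theorem int_hess3_le {W : Set M} (hW : IsOpen W) {f : M → ℝ}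
    (hf : ∀ z ∈ W, ContMDiffAt (𝓡 n) 𝓘(ℝ, ℝ) 4 f z) (hh : ∀ z ∈ W, Bo84.mLap n f z = 0)
    {B : M → ℝ} (hB0 : ∀ z ∈ W, 0 ≤ B z) (hBc : ContinuousOn B W)
    (hB : ∀ z ∈ W, MCurvLe n z (B z)) {η : M → ℝ}
    (hη : LocallyLipschitz η) (hc : HasCompactSupport η) (hs : tsupport η ⊆ W) :
    ∫ z, η z ^ 2 * mHess3Sq n f z ∂(μHE[n] : Measure M) ≤
      6 * ∫ z, Bo84.mGam n η η z * Bo84.mHessSq n f z ∂(μHE[n] : Measure M) +
      6 * n ^ 2 * ∫ z, η z ^ 2 * (B z ^ 2 * Bo84.mGam n f f z) ∂(μHE[n] : Measure M) +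
      4 * n ^ 2 * ∫ z, η z ^ 2 * (B z * Bo84.mHessSq n f z) ∂(μHE[n] : Measure M) := by
  have hf3 : ∀ z ∈ W, ContMDiffAt (𝓡 n) 𝓘(ℝ, ℝ) 3 f z := fun z hz => (hf z hz).of_le (by norm_num)
  have hf2 : ∀ z ∈ W, ContMDiffAt (𝓡 n) 𝓘(ℝ, ℝ) 2 f z := fun z hz => (hf z hz).of_le (by norm_num)
  have hf1 : ∀ z ∈ W, ContMDiffAt (𝓡 n) 𝓘(ℝ, ℝ) 1 f z := fun z hz => (hf z hz).of_le (by norm_num)
  have hX : ∀ z ∈ W, VSm n 1 (mVv n f) z := fun z hz => VSm_mVv (hf z hz)
  have hL2 : LocallyLipschitz (fun z => η z ^ 2) := by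
    have := LLo.loc ((LLo.of_loc hη).mul (LLo.of_loc hη))
    simpa only [sq] using this
  have hc2 : HasCompactSupport (fun z => η z ^ 2) := hc.comp_left (g := fun t : ℝ => t ^ 2) (by simp)
  have hs2 : tsupport (fun z => η z ^ 2) ⊆ W :=
    (closure_mono (fun z hz => by
      rw [Function.mem_support] at hz ⊢
      intro h0; apply hz; simp [h0])).trans hs
  have hibp := ibp_mDiv hW hX hL2 hc2 hs2
  have iD := integrable_mul_mDiv (n := n) hX hL2.continuous hc2 hs2
  have idM := integrable_dM hW hX hL2 hc2 hs2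
  have i3 := integrable_mul_of_continuousOn_M (n := n) (continuousOn_mHess3Sq hf3) hL2.continuous
    hc2 hs2
  have iB2 : Integrable (fun z => η z ^ 2 * (B z ^ 2 * Bo84.mGam n f f z))
      (μHE[n] : Measure M) := integrable_mul_of_continuousOn_M (n := n)
    ((hBc.pow 2).mul (continuousOn_mGam hf1 hf1)) hL2.continuous hc2 hs2
  have iB1 : Integrable (fun z => η z ^ 2 * (B z * Bo84.mHessSq n f z))
      (μHE[n] : Measure M) := integrable_mul_of_continuousOn_M (n := n)
    (hBc.mul (continuousOn_mHessSq hf2)) hL2.continuous hc2 hs2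
  have iG := integrable_mGam_mul (n := n) (continuousOn_mHessSq hf2) hη hc hs
  -- the pointwise inequality
  have hev : ∀ z ∈ W, ∀ᶠ q in 𝓝 z, Bo84.mLap n f q = 0 := fun z hz => by
    filter_upwards [hW.mem_nhds hz] with q hq using hh q hq
  have key1 : ∫ z, η z ^ 2 * mHess3Sq n f z ∂(μHE[n] : Measure M) ≤
      ∫ z, (η z ^ 2 * mDiv n (mVv n f) z + 2 * n ^ 2 * (η z ^ 2 * (B z ^ 2 * Bo84.mGam n f f z)) +
        2 * n ^ 2 * (η z ^ 2 * (B z * Bo84.mHessSq n f z))) ∂(μHE[n] : Measure M) := by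
    refine integral_mono i3 ((iD.add (iB2.const_mul _)).add (iB1.const_mul _)) fun z => ?_
    by_cases hz : z ∈ W
    · have h1 := mHess3Sq_le (hf z hz) (hev z hz) (hB0 z hz) (hB z hz)
      have h2 : η z ^ 2 * mHess3Sq n f z ≤ η z ^ 2 * (mDiv n (mVv n f) z +
          2 * n ^ 2 * B z ^ 2 * Bo84.mGam n f f z + 2 * n ^ 2 * B z * Bo84.mHessSq n f z) :=
        mul_le_mul_of_nonneg_left h1 (sq_nonneg _)
      linarith
    · have h0 : η z = 0 := image_eq_zero_of_notMem_tsupport fun h => hz (hs h)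
      simp [h0]
  have key2 : - ∫ z, Bo84.dM n (fun y => η y ^ 2) z (mVv n f z) ∂(μHE[n] : Measure M) ≤
      ∫ z, ((1 / 2) * (η z ^ 2 * mHess3Sq n f z) +
        3 * (Bo84.mGam n η η z * Bo84.mHessSq n f z) +
        n ^ 2 * (η z ^ 2 * (B z ^ 2 * Bo84.mGam n f f z))) ∂(μHE[n] : Measure M) := by
    rw [← integral_neg]
    refine integral_mono_ae idM.neg (((i3.const_mul _).add (iG.const_mul _)).add
      (iB2.const_mul _)) ?_
    filter_upwards [ae_mdifferentiableAt (n := n) hη] with z hdz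
    by_cases hz : z ∈ W
    · have h1 := mcutoff_le (hf3 z hz) (hev z hz) (hB z hz) η (η z)
      have h2 : Bo84.dM n (fun y => η y ^ 2) z (mVv n f z) =
          2 * η z * Bo84.dM n η z (mVv n f z) := dM_sq hdz _
      rw [← h2] at h1
      have h3 := neg_le_of_abs_le h1
      linarith
    · have hzs : z ∉ tsupport (fun y => η y ^ 2) := fun h => hz (hs2 h)
      have hzs' : z ∉ tsupport η := fun h => hz (hs h)
      have h0 : η z = 0 := image_eq_zero_of_notMem_tsupport hzs'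
      have h1 := dM_eq_zero_off (n := n) hzs (mVv n f z)
      have h2 : Bo84.mGam n η η z = 0 := by
        rw [← norm_Gr_sq_eq_mGam, Gr_zero_off hzs']; simp
      rw [h1, h0, h2]
      simp
  have j1 : Integrable (fun z => η z ^ 2 * mDiv n (mVv n f) z +
      2 * n ^ 2 * (η z ^ 2 * (B z ^ 2 * Bo84.mGam n f f z))) (μHE[n] : Measure M) :=
    iD.add (iB2.const_mul _)
  have j2 : Integrable (fun z => (1 / 2) * (η z ^ 2 * mHess3Sq n f z) +
      3 * (Bo84.mGam n η η z * Bo84.mHessSq n f z)) (μHE[n] : Measure M) :=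
    (i3.const_mul _).add (iG.const_mul _)
  rw [integral_add j1 (iB1.const_mul _),
    integral_add iD (iB2.const_mul _), integral_const_mul, integral_const_mul] at key1
  rw [integral_add j2 (iB2.const_mul _),
    integral_add (i3.const_mul _) (iG.const_mul _), integral_const_mul, integral_const_mul,
    integral_const_mul] at key2
  linarith

end

end Crest.Agent.R249.Cod992
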