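import Crest.Agent.R249.Cod5_992

/-!
# R249, leaf D3-COD (helper992), file 7: `MCurvLe` in the coordinate form of `D1Def104.IdxStmt`
-/

set_option autoImplicit false

open scoped ContDiff Topology Manifold
open Filter Set Bundle
open Crest.GeometryTopology.CoordMetric Crest.GeometryTopology.ChartCurvature
open Crest.Agent.R202.Tens Crest.Agent.R247.Bo84

noncomputable section

namespace Crest.Agent.R249.Cod992

variable {n : ℕ}

local notation "𝔼" => EuclideanSpace ℝ (Fin n)

lemma bil_curv_eq_sum {g : MetricField n} {U : Set (EuclideanSpace ℝ (Fin n))}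
    {x : EuclideanSpace ℝ (Fin n)} (hg : IsRiemannianOn g U) (hx : x ∈ U)
    (u v w z : EuclideanSpace ℝ (Fin n)) :
    bil (g x) (curv (Gam g) x u v w) z =
      ∑ l, ∑ m, g x l m * (∑ k, ∑ i, ∑ j, riemann g x l k i j * w k * u i * v j) * z m := by
  rw [bil_apply]
  refine Finset.sum_congr rfl fun l _ => Finset.sum_congr rfl fun m _ => ?_
  rw [curv_apply fun k i j => differentiableAt_christoffel hg hx k i j]

lemma quadForm_eq_bil (g : MetricField n) (x v : EuclideanSpace ℝ (Fin n)) :
    quadForm g x v = bil (g x) v v := by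
  rw [bil_apply]; rfl

/-- the curvature bound in coordinates, with square roots. -/
theorem curvLe_iff {g : MetricField n} {U : Set (EuclideanSpace ℝ (Fin n))}
    {x : EuclideanSpace ℝ (Fin n)} (hg : IsRiemannianOn g U) (hx : x ∈ U) {b : ℝ} (hb : 0 ≤ b) :
    CurvLe g x b ↔ ∀ u v w z : EuclideanSpace ℝ (Fin n),
      |∑ l, ∑ m, g x l m * (∑ k, ∑ i, ∑ j, riemann g x l k i j * w k * u i * v j) * z m| ≤
        b * Real.sqrt (quadForm g x u) * Real.sqrt (quadForm g x v) *
          Real.sqrt (quadForm g x w) * Real.sqrt (quadForm g x z) := by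
  refine forall_congr' fun u => forall_congr' fun v => forall_congr' fun w =>
    forall_congr' fun z => ?_
  rw [← bil_curv_eq_sum hg hx, quadForm_eq_bil, quadForm_eq_bil, quadForm_eq_bil, quadForm_eq_bil]
  have hu := bil_self_nonneg hg hx u
  have hv := bil_self_nonneg hg hx v
  have hw := bil_self_nonneg hg hx w
  have hz := bil_self_nonneg hg hx z
  have e : (b * Real.sqrt (bil (g x) u u) * Real.sqrt (bil (g x) v v) *
      Real.sqrt (bil (g x) w w) * Real.sqrt (bil (g x) z z)) ^ 2 =
      b ^ 2 * (bil (g x) u u * bil (g x) v v * bil (g x) w w * bil (g x) z z) := by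
    rw [mul_pow, mul_pow, mul_pow, mul_pow, Real.sq_sqrt hu, Real.sq_sqrt hv, Real.sq_sqrt hw,
      Real.sq_sqrt hz]
    ring
  rw [← e]
  exact ⟨fun h => abs_le_of_sq_le_sq h (by positivity), fun h => by
    rw [← sq_abs]; exact pow_le_pow_left₀ (abs_nonneg _) h 2⟩

variable {M : Type*} [TopologicalSpace M] [ChartedSpace (EuclideanSpace ℝ (Fin n)) M]
  [IsManifold 𝓘(ℝ, EuclideanSpace ℝ (Fin n)) ∞ M]
  [RiemannianBundle (fun p : M => TangentSpace 𝓘(ℝ, EuclideanSpace ℝ (Fin n)) p)]
  [IsContMDiffRiemannianBundle 𝓘(ℝ, EuclideanSpace ℝ (Fin n)) ∞ (EuclideanSpace ℝ (Fin n))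
    (fun p : M => TangentSpace 𝓘(ℝ, EuclideanSpace ℝ (Fin n)) p)]

/-- `MCurvLe` is exactly the pointwise hypothesis of `D1Def104.IdxStmt`. -/
theorem mCurvLe_iff {p : M} {b : ℝ} (hb : 0 ≤ b) :
    MCurvLe n p b ↔ ∀ u v w z : EuclideanSpace ℝ (Fin n),
      |∑ l, ∑ m, chartMetric n M p (chartCentre n M p) l m *
        (∑ k, ∑ i, ∑ j, riemann (chartMetric n M p) (chartCentre n M p) l k i j *
          w k * u i * v j) * z m| ≤
        b * Real.sqrt (quadForm (chartMetric n M p) (chartCentre n M p) u) *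
          Real.sqrt (quadForm (chartMetric n M p) (chartCentre n M p) v) *
          Real.sqrt (quadForm (chartMetric n M p) (chartCentre n M p) w) *
          Real.sqrt (quadForm (chartMetric n M p) (chartCentre n M p) z) :=
  curvLe_iff (isRiemannianOn_chartMetric (n := n) p) (centre_mem p) hb

/-- monotonicity of the bound. -/
lemma MCurvLe.mono {p : M} {b c : ℝ} (h : MCurvLe n p b) (hbc : b ^ 2 ≤ c ^ 2) :
    MCurvLe n p c := by
  intro u v w z
  refine (h u v w z).trans (mul_le_mul_of_nonneg_right hbc ?_)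
  have hg := isRiemannianOn_chartMetric (n := n) p
  have hx := centre_mem (n := n) p
  exact mul_nonneg (mul_nonneg (mul_nonneg (bil_self_nonneg hg hx u) (bil_self_nonneg hg hx v))
    (bil_self_nonneg hg hx w)) (bil_self_nonneg hg hx z)

end Crest.Agent.R249.Cod992
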