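import Crest.Agent.R249.Ker8_254

/-!
# Kernel checker for polynomial inequalities, part 12: boxes with rational end points, excluded
leaves

`runX w n1 n2 n3 off L1 L2 L3 mode T bl`: as `run`, the variable `i` ranges over the interval given
by `Li` (`lo = some (α, β)`: `x ≥ α/β`; `hi = some (α, β)`: `x ≤ lower end + ..`, see `Lim.In`), and
the tree may have leaves `.out i` which are not checked in mode `0`.  In mode `i + 1` exactly the
leaves `.out i` are checked (with `G = 1`): the scalar `-g_i` is nonnegative there.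
-/

set_option autoImplicit false

namespace Crest.Agent.R249.Ker254

inductive TreeX
  | lf (g11 g12 g22 g13 g23 g33 : ℤ)
  | out (i : ℕ)
  | nd (v α β : ℕ) (l r : TreeX)

def okT (n : ℕ) : TreeX → Bool
  | .lf _ _ _ _ _ _ => true
  | .out i => Nat.ble (Nat.succ i) n
  | .nd _ α β l r => Nat.ble 1 α && Nat.ble 1 β && okT n l && okT n r

/-- the subtree has a leaf of kind `c` -/
def hasT (c : ℕ) : TreeX → Bool
  | .lf _ _ _ _ _ _ => Nat.beq c 0
  | .out i => Nat.beq c (Nat.succ i)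
  | .nd _ _ _ l r => hasT c l || hasT c r

def chkX (E : Env) (c : ℕ) : TreeX → ℕ → ℕ → Bool
  | .lf g11 g12 g22 g13 g23 g33, b, N =>
    match c with
    | 0 => chkLeaf E g11 g12 g22 g13 g23 g33 b N
    | _ + 1 => true
  | .out i, b, N =>
    match Nat.beq c (Nat.succ i) with
    | true => chkLeaf E 1 0 1 0 0 1 b N
    | false => true
  | .nd v α β l r, b, N =>
    Nat.ble 1 α && Nat.ble 1 β && Nat.ble (Nat.succ b) E.W1 &&
    (match hasT c l with
      | true => (frc (bdL E v α β b) fun bL => frc (stL E v α β N) fun NL => chkX E c l bL NL)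
      | false => true) &&
    (match hasT c r with
      | true => (frc (bdL E v β α b) fun bR => frc (stR E v α β N) fun NR => chkX E c r bR NR)
      | false => true)

/-- the point `x` reaches a leaf of kind `c` -/
def Reach : TreeX → ℕ → Pt → Prop
  | .lf _ _ _ _ _ _, c, _ => c = 0
  | .out i, c, _ => c = i + 1
  | .nd v α β l r, c, x => ∃ a b : ℝ, 0 ≤ a ∧ 0 ≤ b ∧
      ((x.ga v = α * a ∧ x.gb v = β * (a + b) ∧ Reach l c (x.set v a b)) ∨
       (x.ga v = α * (a + b) ∧ x.gb v = β * b ∧ Reach r c (x.set v a b)))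

theorem reach_total {n : ℕ} : ∀ (T : TreeX), okT n T = true → ∀ x : Pt, x.Nonneg →
    ∃ c, c ≤ n ∧ Reach T c x := by
  intro T
  induction T with
  | lf g11 g12 g22 g13 g23 g33 => intro _ x _; exact ⟨0, Nat.zero_le _, rfl⟩
  | out i =>
    intro h x _
    exact ⟨i + 1, Nat.le_of_ble_eq_true h, rfl⟩
  | nd vv α β l r ihl ihr =>
    intro h x hx
    simp only [okT, Bool.and_eq_true] at h
    obtain ⟨⟨⟨hα, hβ⟩, hl⟩, hr⟩ := h
    have hα' : (0 : ℝ) < α := by exact_mod_cast Nat.le_of_ble_eq_true hα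
    have hβ' : (0 : ℝ) < β := by exact_mod_cast Nat.le_of_ble_eq_true hβ
    have ha := hx.ga vv
    have hb := hx.gb vv
    rcases le_total (x.ga vv / α) (x.gb vv / β) with hc | hc
    · obtain ⟨c, c1, c2⟩ := ihl hl (x.set vv (x.ga vv / α) (x.gb vv / β - x.ga vv / α))
        (hx.set vv (by positivity) (by linarith))
      refine ⟨c, c1, x.ga vv / α, x.gb vv / β - x.ga vv / α, by positivity, by linarith,
        Or.inl ⟨?_, ?_, c2⟩⟩
      · field_simp
      · rw [add_sub_cancel]; field_simp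
    · obtain ⟨c, c1, c2⟩ := ihr hr (x.set vv (x.ga vv / α - x.gb vv / β) (x.gb vv / β))
        (hx.set vv (by linarith) (by positivity))
      refine ⟨c, c1, x.ga vv / α - x.gb vv / β, x.gb vv / β, by linarith, by positivity,
        Or.inr ⟨?_, ?_, c2⟩⟩
      · rw [sub_add_cancel]; field_simp
      · field_simp

theorem reach_hasT {c : ℕ} : ∀ (T : TreeX) (x : Pt), Reach T c x → hasT c T = true := by
  intro T
  induction T with
  | lf g11 g12 g22 g13 g23 g33 => intro x h; simp only [Reach] at h; subst h; rfl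
  | out i => intro x h; simp only [Reach] at h; subst h; simp [hasT]
  | nd vv α β l r ihl ihr =>
    intro x h
    obtain ⟨a, b, _, _, h | h⟩ := h
    · simp [hasT, ihl _ h.2.2]
    · simp [hasT, ihr _ h.2.2]

theorem chkX_sound {E : Env} (hE : E.Ok) {c : ℕ} : ∀ (T : TreeX) (b N : ℕ) (D : ℕ → ℕ),
    Rep (E.w + 1) (7 * E.m0) b D N → chkX E c T b N = true → ∀ x : Pt, x.Nonneg →
    Reach T c x → ∀ u v s : ℝ,
    0 ≤ qf (val E D (lamt 0) x) (val E D (lamt 1) x) (val E D (lamt 2) x) (val E D (lamt 3) x)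
      (val E D (lamt 4) x) (val E D (lamt 5) x) u v s := by
  intro T
  induction T with
  | lf g11 g12 g22 g13 g23 g33 =>
    intro b N D hD h x hx hr u v s
    simp only [Reach] at hr
    subst hr
    exact chkLeaf_sound hE hD h x hx u v s
  | out i =>
    intro b N D hD h x hx hr u v s
    simp only [Reach] at hr
    subst hr
    have e1 : Nat.beq (i + 1) (Nat.succ i) = true := by simp
    simp only [chkX, e1] at h
    exact chkLeaf_sound hE hD h x hx u v s
  | nd vv α β l r ihl ihr =>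
    intro b N D hD h x hx hr' u v s
    simp only [chkX, frc_eq, Bool.and_eq_true] at h
    obtain ⟨⟨⟨⟨hα, hβ⟩, hb⟩, hl⟩, hr⟩ := h
    have hb' : b < 2 ^ (E.w + 1) := by
      have := Nat.le_of_ble_eq_true hb
      rw [hE.W1] at this; exact this
    obtain ⟨DL, hDL, eL⟩ := stL_sound hE vv α β hD hb'
    obtain ⟨DR, hDR, eR⟩ := stR_sound hE vv α β hD hb'
    obtain ⟨a', b', ha', hb'', ⟨e1, e2, hR⟩ | ⟨e1, e2, hR⟩⟩ := hr'
    · rw [reach_hasT _ _ hR] at hl
      have y := ihl _ _ DL hDL hl (x.set vv a' b') (hx.set vv ha' hb'') hR u v s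
      simp only [eL] at y
      rw [← e1, ← e2, Pt.set_self] at y
      exact y
    · rw [reach_hasT _ _ hR] at hr
      have y := ihr _ _ DR hDR hr (x.set vv a' b') (hx.set vv ha' hb'') hR u v s
      simp only [eR] at y
      rw [← e1, ← e2, Pt.set_self] at y
      exact y

/-! ## limits -/

/-- an interval for one variable -/
structure Lim where
  lo : Option (ℕ × ℕ)
  hi : Option (ℕ × ℕ)

/-- homogeneous coordinates after the lower cut -/
noncomputable def cLo (o : Option (ℕ × ℕ)) (p : ℝ × ℝ) : ℝ × ℝ :=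
  match o with
  | none => p
  | some (α, β) => (p.1 / α - p.2 / β, p.2 / β)

/-- homogeneous coordinates after the upper cut -/
noncomputable def cHi (o : Option (ℕ × ℕ)) (p : ℝ × ℝ) : ℝ × ℝ :=
  match o with
  | none => p
  | some (α, β) => (p.1 / α, p.2 / β - p.1 / α)

noncomputable def Lim.co (L : Lim) (x : ℝ) : ℝ × ℝ := cHi L.hi (cLo L.lo (x, 1))

/-- `x` is in the interval -/
def Lim.In (L : Lim) (x : ℝ) : Prop :=
  0 ≤ (L.co x).1 ∧ 0 ≤ (L.co x).2

theorem Lim.in_none {x : ℝ} (h : 0 ≤ x) : Lim.In ⟨none, none⟩ x :=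
  ⟨h, zero_le_one⟩

theorem Lim.in_hi {α β : ℕ} (hα : 0 < α) (hβ : 0 < β) {x : ℝ} (h : 0 ≤ x) (h1 : β * x ≤ α) :
    Lim.In ⟨none, some (α, β)⟩ x := by
  have hα' : (0 : ℝ) < α := by exact_mod_cast hα
  have hβ' : (0 : ℝ) < β := by exact_mod_cast hβ
  refine ⟨?_, ?_⟩
  · show 0 ≤ x / α
    positivity
  · show 0 ≤ 1 / (β : ℝ) - x / α
    rw [sub_nonneg, div_le_div_iff₀ hα' hβ']
    linarith

theorem Lim.in_lo {α β : ℕ} (hα : 0 < α) (hβ : 0 < β) {x : ℝ} (h1 : α ≤ β * x) :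
    Lim.In ⟨some (α, β), none⟩ x := by
  have hα' : (0 : ℝ) < α := by exact_mod_cast hα
  have hβ' : (0 : ℝ) < β := by exact_mod_cast hβ
  refine ⟨?_, ?_⟩
  · show 0 ≤ x / α - 1 / β
    rw [sub_nonneg, div_le_div_iff₀ hβ' hα']
    linarith
  · show 0 ≤ 1 / (β : ℝ)
    positivity

theorem Lim.in_lohi {α β α' β' : ℕ} (hα : 0 < α) (hβ : 0 < β) (hα' : 0 < α') (hβ' : 0 < β')
    {x : ℝ} (h1 : α ≤ β * x) (h2 : β' * (β * x - α) ≤ α' * α) :
    Lim.In ⟨some (α, β), some (α', β')⟩ x := by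
  have qα : (0 : ℝ) < α := by exact_mod_cast hα
  have qβ : (0 : ℝ) < β := by exact_mod_cast hβ
  have qα' : (0 : ℝ) < α' := by exact_mod_cast hα'
  have qβ' : (0 : ℝ) < β' := by exact_mod_cast hβ'
  have e : x / α - 1 / β = (β * x - α) / (α * β) := by field_simp
  refine ⟨?_, ?_⟩
  · show 0 ≤ (x / α - 1 / β) / α'
    rw [e]
    have : 0 ≤ β * x - α := by linarith
    positivity
  · show 0 ≤ 1 / (β : ℝ) / β' - (x / α - 1 / β) / α'
    rw [e, sub_nonneg, div_div, div_div, div_le_div_iff₀ (by positivity) (by positivity)]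
    nlinarith [mul_le_mul_of_nonneg_left h2 qβ.le]

def cutLo (E : Env) (v : ℕ) (o : Option (ℕ × ℕ)) (b N : ℕ) (k : ℕ → ℕ → Bool) : Bool :=
  match o with
  | none => k b N
  | some (α, β) => Nat.ble 1 α && Nat.ble 1 β && Nat.ble (Nat.succ b) E.W1 &&
      frc (bdL E v β α b) fun b' => frc (stR E v α β N) fun N' => k b' N'

def cutHi (E : Env) (v : ℕ) (o : Option (ℕ × ℕ)) (b N : ℕ) (k : ℕ → ℕ → Bool) : Bool :=
  match o with
  | none => k b N
  | some (α, β) => Nat.ble 1 α && Nat.ble 1 β && Nat.ble (Nat.succ b) E.W1 &&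
      frc (bdL E v α β b) fun b' => frc (stL E v α β N) fun N' => k b' N'

theorem cutLo_sound {E : Env} (hE : E.Ok) {v : ℕ} {o : Option (ℕ × ℕ)} {b N : ℕ}
    {k : ℕ → ℕ → Bool} {D : ℕ → ℕ} (hD : Rep (E.w + 1) (7 * E.m0) b D N)
    (h : cutLo E v o b N k = true) :
    ∃ D' b' N', Rep (E.w + 1) (7 * E.m0) b' D' N' ∧ k b' N' = true ∧
      ∀ (x : Pt) (a c : ℝ) (lam : ℕ → ℝ),
        val E D' lam (x.set v (cLo o (a, c)).1 (cLo o (a, c)).2) = val E D lam (x.set v a c) := by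
  cases o with
  | none => exact ⟨D, b, N, hD, h, fun x a c lam => rfl⟩
  | some p =>
    obtain ⟨α, β⟩ := p
    simp only [cutLo, frc_eq, Bool.and_eq_true] at h
    obtain ⟨⟨⟨hα, hβ⟩, h1⟩, h2⟩ := h
    have hb' : b < 2 ^ (E.w + 1) := by
      have := Nat.le_of_ble_eq_true h1
      rw [hE.W1] at this; exact this
    have hα' : (0 : ℝ) < α := by exact_mod_cast Nat.le_of_ble_eq_true hα
    have hβ' : (0 : ℝ) < β := by exact_mod_cast Nat.le_of_ble_eq_true hβ
    obtain ⟨DR, hDR, eR⟩ := stR_sound hE v α β hD hb'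
    refine ⟨DR, _, _, hDR, h2, fun x a c lam => ?_⟩
    simp only [cLo]
    rw [eR]
    have e1 : (α : ℝ) * (a / α - c / β + c / β) = a := by rw [sub_add_cancel]; field_simp
    have e2 : (β : ℝ) * (c / β) = c := by field_simp
    rw [e1, e2]

theorem cutHi_sound {E : Env} (hE : E.Ok) {v : ℕ} {o : Option (ℕ × ℕ)} {b N : ℕ}
    {k : ℕ → ℕ → Bool} {D : ℕ → ℕ} (hD : Rep (E.w + 1) (7 * E.m0) b D N)
    (h : cutHi E v o b N k = true) :
    ∃ D' b' N', Rep (E.w + 1) (7 * E.m0) b' D' N' ∧ k b' N' = true ∧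
      ∀ (x : Pt) (a c : ℝ) (lam : ℕ → ℝ),
        val E D' lam (x.set v (cHi o (a, c)).1 (cHi o (a, c)).2) = val E D lam (x.set v a c) := by
  cases o with
  | none => exact ⟨D, b, N, hD, h, fun x a c lam => rfl⟩
  | some p =>
    obtain ⟨α, β⟩ := p
    simp only [cutHi, frc_eq, Bool.and_eq_true] at h
    obtain ⟨⟨⟨hα, hβ⟩, h1⟩, h2⟩ := h
    have hb' : b < 2 ^ (E.w + 1) := by
      have := Nat.le_of_ble_eq_true h1
      rw [hE.W1] at this; exact this
    have hα' : (0 : ℝ) < α := by exact_mod_cast Nat.le_of_ble_eq_true hα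
    have hβ' : (0 : ℝ) < β := by exact_mod_cast Nat.le_of_ble_eq_true hβ
    obtain ⟨DL, hDL, eL⟩ := stL_sound hE v α β hD hb'
    refine ⟨DL, _, _, hDL, h2, fun x a c lam => ?_⟩
    simp only [cHi]
    rw [eL]
    have e1 : (α : ℝ) * (a / α) = a := by field_simp
    have e2 : (β : ℝ) * (a / α + (c / β - a / α)) = c := by rw [add_sub_cancel]; field_simp
    rw [e1, e2]

/-- the whole check -/
def runX (w n1 n2 n3 off : ℕ) (L1 L2 L3 : Lim) (c : ℕ) (T : TreeX) (bl : List P3) : Bool :=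
  fits4 n1 n2 n3 off 6 bl &&
  withEnv w n1 n2 n3 fun E =>
    frc (build (Nat.succ w) n1 n2 n3 off bl) fun N0 =>
    frc (Nat.mul 2 off) fun b0 =>
    cutLo E 0 L1.lo b0 N0 fun b1 N1 => cutHi E 0 L1.hi b1 N1 fun b2 N2 =>
    cutLo E 1 L2.lo b2 N2 fun b3 N3 => cutHi E 1 L2.hi b3 N3 fun b4 N4 =>
    cutLo E 2 L3.lo b4 N4 fun b5 N5 => cutHi E 2 L3.hi b5 N5 fun b6 N6 =>
    chkX E c T b6 N6

/-- the starting point in homogeneous coordinates -/
noncomputable def pt0 (L1 L2 L3 : Lim) (x y z : ℝ) : Pt :=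
  ⟨(L1.co x).1, (L1.co x).2, (L2.co y).1, (L2.co y).2, (L3.co z).1, (L3.co z).2⟩

theorem runX_sound {w n1 n2 n3 off : ℕ} {L1 L2 L3 : Lim} {c : ℕ} {T : TreeX}
    {a b c' d e f : P3}
    (h : runX w n1 n2 n3 off L1 L2 L3 c T [a, b, c', d, e, f] = true) {x y z : ℝ}
    (hx : L1.In x) (hy : L2.In y) (hz : L3.In z) (hr : Reach T c (pt0 L1 L2 L3 x y z))
    (u v s : ℝ) :
    0 ≤ qf (ev3 x y z a) (ev3 x y z b) (ev3 x y z c') (ev3 x y z d) (ev3 x y z e) (ev3 x y z f)
      u v s := by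
  unfold runX at h
  rw [Bool.and_eq_true] at h
  obtain ⟨hf, h⟩ := h
  obtain ⟨E, hE, rfl, rfl, rfl, rfl, he⟩ := withEnv_eq w n1 n2 n3 (fun E =>
    frc (build (Nat.succ w) n1 n2 n3 off [a, b, c', d, e, f]) fun N0 =>
    frc (Nat.mul 2 off) fun b0 =>
    cutLo E 0 L1.lo b0 N0 fun b1 N1 => cutHi E 0 L1.hi b1 N1 fun b2 N2 =>
    cutLo E 1 L2.lo b2 N2 fun b3 N3 => cutHi E 1 L2.hi b3 N3 fun b4 N4 =>
    cutLo E 2 L3.lo b4 N4 fun b5 N5 => cutHi E 2 L3.hi b5 N5 fun b6 N6 =>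
    chkX E c T b6 N6)
  rw [he] at h
  simp only [frc_eq] at h
  set D : ℕ → ℕ := fun P => if P < 7 * E.m0 then
    digD E.n1 E.n2 E.n3 off [a, b, c', d, e, f] P else 0 with hDdef
  have hDe : ∀ P, P < 7 * E.m0 → D P = digD E.n1 E.n2 E.n3 off [a, b, c', d, e, f] P := by
    intro P hP; simp only [hDdef]; rw [if_pos hP]
  have hq : ∀ t i j k, (cf [a, b, c', d, e, f] t i j k).natAbs ≤ off := fun t i j k =>
    (fits3_sound (fits4_sound hf t)).1 i j k
  have hD : Rep (E.w + 1) (7 * E.m0) (2 * off) D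
      (build (Nat.succ E.w) E.n1 E.n2 E.n3 off [a, b, c', d, e, f]) := by
    refine ⟨?_, fun p hp => by simp only [hDdef]; rw [if_neg (by omega)], fun p => ?_⟩
    · rw [build_eq]
      exact pk_congr _ fun p hp => (hDe p hp).symm
    · simp only [hDdef]
      split_ifs
      · exact toD_le (hq _ _ _ _)
      · exact Nat.zero_le _
  obtain ⟨D1, b1, N1, r1, k1, v1⟩ := cutLo_sound hE hD h
  obtain ⟨D2, b2, N2, r2, k2, v2⟩ := cutHi_sound hE r1 k1
  obtain ⟨D3, b3, N3, r3, k3, v3⟩ := cutLo_sound hE r2 k2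
  obtain ⟨D4, b4, N4, r4, k4, v4⟩ := cutHi_sound hE r3 k3
  obtain ⟨D5, b5, N5, r5, k5, v5⟩ := cutLo_sound hE r4 k4
  obtain ⟨D6, b6, N6, r6, k6, v6⟩ := cutHi_sound hE r5 k5
  have hN : (pt0 L1 L2 L3 x y z).Nonneg := ⟨hx.1, hx.2, hy.1, hy.2, hz.1, hz.2⟩
  have key := chkX_sound hE T b6 N6 D6 r6 k6 _ hN hr u v s
  have ev : ∀ lam, val E D6 lam (pt0 L1 L2 L3 x y z) = val E D lam ⟨x, 1, y, 1, z, 1⟩ := by
    intro lam
    have a6 := v6 ⟨(L1.co x).1, (L1.co x).2, (L2.co y).1, (L2.co y).2, z, 1⟩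
      (cLo L3.lo (z, 1)).1 (cLo L3.lo (z, 1)).2 lam
    have a5 := v5 ⟨(L1.co x).1, (L1.co x).2, (L2.co y).1, (L2.co y).2, z, 1⟩ z 1 lam
    have a4 := v4 ⟨(L1.co x).1, (L1.co x).2, y, 1, z, 1⟩
      (cLo L2.lo (y, 1)).1 (cLo L2.lo (y, 1)).2 lam
    have a3 := v3 ⟨(L1.co x).1, (L1.co x).2, y, 1, z, 1⟩ y 1 lam
    have a2 := v2 ⟨x, 1, y, 1, z, 1⟩ (cLo L1.lo (x, 1)).1 (cLo L1.lo (x, 1)).2 lam
    have a1 := v1 ⟨x, 1, y, 1, z, 1⟩ x 1 lam
    exact a6.trans (a5.trans (a4.trans (a3.trans (a2.trans a1))))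
  simp only [ev] at key
  rw [val_build hf x y z (show 0 < 6 by norm_num) hDe,
    val_build hf x y z (show 1 < 6 by norm_num) hDe,
    val_build hf x y z (show 2 < 6 by norm_num) hDe,
    val_build hf x y z (show 3 < 6 by norm_num) hDe,
    val_build hf x y z (show 4 < 6 by norm_num) hDe,
    val_build hf x y z (show 5 < 6 by norm_num) hDe] at key
  exact key

/-- main theorem with two kinds of excluded leaves: on a leaf `.out 0` the polynomial `g1` is
nonnegative, on a leaf `.out 1` the polynomial `g2`. -/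
theorem psdX {w n1 n2 n3 off w' n1' n2' n3' off' w'' n1'' n2'' n3'' off'' : ℕ} {L1 L2 L3 : Lim}
    {T : TreeX} {a b c d e f g1 g2 : P3}
    (hT : okT 2 T = true)
    (h : runX w n1 n2 n3 off L1 L2 L3 0 T [a, b, c, d, e, f] = true)
    (h1 : runX w' n1' n2' n3' off' L1 L2 L3 1 T [g1, [], [], [], [], []] = true)
    (h2 : runX w'' n1'' n2'' n3'' off'' L1 L2 L3 2 T [g2, [], [], [], [], []] = true)
    {x y z : ℝ} (hx : L1.In x) (hy : L2.In y) (hz : L3.In z)
    (hg1 : ev3 x y z g1 < 0) (hg2 : ev3 x y z g2 < 0) (u v s : ℝ) :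
    0 ≤ qf (ev3 x y z a) (ev3 x y z b) (ev3 x y z c) (ev3 x y z d) (ev3 x y z e) (ev3 x y z f)
      u v s := by
  have hN : (pt0 L1 L2 L3 x y z).Nonneg := ⟨hx.1, hx.2, hy.1, hy.2, hz.1, hz.2⟩
  obtain ⟨k, hk, hr⟩ := reach_total T hT _ hN
  have : k = 0 ∨ k = 1 ∨ k = 2 := by omega
  rcases this with rfl | rfl | rfl
  · exact runX_sound h hx hy hz hr u v s
  · have := runX_sound h1 hx hy hz hr 1 0 0
    simp [qf, ev3] at this
    linarith
  · have := runX_sound h2 hx hy hz hr 1 0 0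
    simp [qf, ev3] at this
    linarith

end Crest.Agent.R249.Ker254
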