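import Crest.Agent.R249.Brg2_133
import Crest.Agent.R249.Ker12_254

/-!
# Row 249, part A (helper378): the contact family, part 1: expressions and forms

On the contact curve: `η = 20 ξ`, `G = 400 ξ² p`, `m = 1 - 70 ξ² + 1280 ξ⁴`, `σ = Γ' = 256 ξ³ - 7 ξ`,
`u = m + 10 ξ`, `v = m - 10 ξ`, `k₂ = 1 + s (14 ξ - 512 ξ³)` (`s = ±1`: the two vertices),
`X = D + 2 s E / k₂`, `K = K₀ + E / k₂`.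
-/

set_option autoImplicit false

noncomputable section

namespace Crest.Agent.R249.Con378

open Ker254 Brg133 Eta467

/-! ## two-variable positivity -/

theorem psd2 {w n1 n2 off w' n1' n2' off' : ℕ} {L1 L2 : Lim} {T : TreeX} {a b d g : P3}
    (hT : okT 1 T = true)
    (h : runX w n1 n2 0 off L1 L2 ⟨none, none⟩ 0 T [a, b, [], d, [], []] = true)
    (h1 : runX w' n1' n2' 0 off' L1 L2 ⟨none, none⟩ 1 T [g, [], [], [], [], []] = true)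
    {x y : ℝ} (hx : L1.In x) (hy : L2.In y) (hg : ev3 x y 0 g < 0) (u v : ℝ) :
    0 ≤ ev3 x y 0 a * u ^ 2 + 2 * ev3 x y 0 b * u * v + ev3 x y 0 d * v ^ 2 := by
  have hz : Lim.In ⟨none, none⟩ 0 := Lim.in_none le_rfl
  have hN : (pt0 L1 L2 ⟨none, none⟩ x y 0).Nonneg := ⟨hx.1, hx.2, hy.1, hy.2, hz.1, hz.2⟩
  obtain ⟨k, hk, hr⟩ := reach_total T hT _ hN
  have : k = 0 ∨ k = 1 := by omega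
  rcases this with rfl | rfl
  · have := runX_sound h hx hy hz hr u v 0
    simp only [qf] at this
    linarith
  · have := runX_sound h1 hx hy hz hr 1 0 0
    simp [qf, ev3] at this
    linarith

/-! ## expressions -/

local infixl:65 " +ᵉ " => Ex.add
local infixl:65 " -ᵉ " => Ex.sub
local infixl:70 " *ᵉ " => Ex.mul

/-- constants -/
def kc (n : ℤ) : Ex := .cst n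

def eY : Ex := kc 400 *ᵉ (.pw .vx 2)
def eM : Ex := kc 1 -ᵉ kc 70 *ᵉ (.pw .vx 2) +ᵉ kc 1280 *ᵉ (.pw .vx 4)
def eG : Ex := kc 400 *ᵉ (.pw .vx 2) *ᵉ .vy
def eEta : Ex := kc 20 *ᵉ .vx
def eSig : Ex := kc 256 *ᵉ (.pw .vx 3) -ᵉ kc 7 *ᵉ .vx
def eU : Ex := eM +ᵉ kc 10 *ᵉ .vx
def eV : Ex := eM -ᵉ kc 10 *ᵉ .vx
def eD : Ex := kc 20 *ᵉ .vx *ᵉ (kc 1 -ᵉ kc 3 *ᵉ (.pw eM 2) -ᵉ kc 100 *ᵉ (.pw .vx 2))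
def eK : Ex := eM *ᵉ (kc 1 -ᵉ .pw eM 2 -ᵉ kc 300 *ᵉ (.pw .vx 2))
def eE : Ex := eSig *ᵉ eD -ᵉ eK +ᵉ (kc 15360 *ᵉ (.pw .vx 4) *ᵉ .vy -ᵉ kc 140 *ᵉ (.pw .vx 2) *ᵉ .vy)
/-- `k₂` -/
def eT (s : ℤ) : Ex := kc 1 +ᵉ kc s *ᵉ (kc 14 *ᵉ .vx -ᵉ kc 512 *ᵉ (.pw .vx 3))
/-- `k₂ X` -/
def eXN (s : ℤ) : Ex := eD *ᵉ eT s +ᵉ kc 2 *ᵉ kc s *ᵉ eE
/-- `k₂ K` -/
def eKN (s : ℤ) : Ex := eK *ᵉ eT s +ᵉ eE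

/-- `R` -/
def eR (c : ℕ) : Ex := eG +ᵉ kc (Int.ofNat c) *ᵉ (kc 1 -ᵉ eM) *ᵉ (.pw eM 2)
/-- `∂R/∂m` -/
def eRM (c : ℕ) : Ex := kc (Int.ofNat c) *ᵉ (kc 2 *ᵉ eM -ᵉ kc 3 *ᵉ (.pw eM 2))

/-- `N(y, m, G)` -/
def eN (N : P3) : Ex := .pc N eY eM eG

/-- `m R N` -/
def eW (c : ℕ) (N : P3) : Ex := eM *ᵉ eR c *ᵉ eN N

def eN2 (p c : ℕ) (N : P3) : Ex :=
  eM *ᵉ eR c *ᵉ eN (dY N) -ᵉ kc (Int.ofNat p) *ᵉ eR c *ᵉ eN N -ᵉ kc 2 *ᵉ eM *ᵉ eRM c *ᵉ eN N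

def eN3 (c : ℕ) (N : P3) : Ex := eM *ᵉ (eR c *ᵉ eN (dZ N) -ᵉ kc 2 *ᵉ eN N)

variable (C : Crt)

/-- a coefficient list in `(ξ, p)` -/
def eL (a : P3) : Ex := .pc a .vx .vy .vz

/-- `3 k₂² c₀ S` -/
def c0E (s : ℤ) : Ex :=
  kc 0 -ᵉ kc 3 *ᵉ eT s *ᵉ (eEta *ᵉ eW C.c C.nA) *ᵉ eXN s
  -ᵉ kc 3 *ᵉ (.pw (eT s) 2) *ᵉ (eW C.c C.nA +ᵉ kc 2 *ᵉ eY *ᵉ eW C.c (dX C.nA)) *ᵉ eG
  -ᵉ kc 3 *ᵉ eT s *ᵉ eW C.c C.nB *ᵉ eKN s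
  +ᵉ eW C.c C.nW *ᵉ (kc 3 *ᵉ (.pw (eT s) 2) *ᵉ eG -ᵉ kc 2 *ᵉ (.pw (eXN s) 2))
  -ᵉ kc 6 *ᵉ eT s *ᵉ eEta *ᵉ eW C.c (dX C.nW) *ᵉ eG *ᵉ eXN s
  -ᵉ eSig *ᵉ eG *ᵉ (kc 3 *ᵉ (.pw (eT s) 2) *ᵉ (eEta *ᵉ eN2 C.p C.c C.nA +ᵉ
      kc 2 *ᵉ eEta *ᵉ eW C.c (dX C.nB)) +ᵉ kc 3 *ᵉ eT s *ᵉ eXN s *ᵉ eN2 C.p C.c C.nW)
  -ᵉ kc 3 *ᵉ (.pw (eT s) 2) *ᵉ (.pw eSig 2) *ᵉ eG *ᵉ eN2 C.p C.c C.nB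

/-- `6 k₂ c₁ S` -/
def c1E (s : ℤ) : Ex :=
  kc 0 -ᵉ kc 6 *ᵉ eT s *ᵉ eEta *ᵉ eN3 C.c C.nA *ᵉ eG
  -ᵉ kc 6 *ᵉ eXN s *ᵉ eN3 C.c C.nW *ᵉ eG
  +ᵉ kc 6 *ᵉ eT s *ᵉ eEta *ᵉ eW C.c (dX C.nW) *ᵉ eG
  -ᵉ kc 2 *ᵉ eW C.c C.nW *ᵉ eXN s
  +ᵉ kc 3 *ᵉ eT s *ᵉ eSig *ᵉ eG *ᵉ (eN2 C.p C.c C.nW -ᵉ kc 2 *ᵉ eN3 C.c C.nB)

/-- `3 c₂ S` -/
def c2E : Ex := kc 4 *ᵉ eW C.c C.nW +ᵉ kc 6 *ᵉ eN3 C.c C.nW *ᵉ eG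

/-! ## values -/

variable (ξ p : ℝ)

def rM : ℝ := 1 - 70 * ξ ^ 2 + 1280 * ξ ^ 4
def rG : ℝ := 400 * ξ ^ 2 * p
def rSig : ℝ := 256 * ξ ^ 3 - 7 * ξ
def rD : ℝ := 20 * ξ * (1 - 3 * rM ξ ^ 2 - 100 * ξ ^ 2)
def rK : ℝ := rM ξ * (1 - rM ξ ^ 2 - 300 * ξ ^ 2)
def rE : ℝ := rSig ξ * rD ξ - rK ξ + (15360 * ξ ^ 4 * p - 140 * ξ ^ 2 * p)
def rT (s : ℤ) : ℝ := 1 + s * (14 * ξ - 512 * ξ ^ 3)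

lemma eY_ev : eY.ev ξ p 0 = 400 * ξ ^ 2 := by simp [eY, kc, Ex.ev]
lemma eM_ev : eM.ev ξ p 0 = rM ξ := by simp [eM, kc, Ex.ev, rM]
lemma eG_ev : eG.ev ξ p 0 = rG ξ p := by simp [eG, kc, Ex.ev, rG]
lemma eEta_ev : eEta.ev ξ p 0 = 20 * ξ := by simp [eEta, kc, Ex.ev]
lemma eSig_ev : eSig.ev ξ p 0 = rSig ξ := by simp [eSig, kc, Ex.ev, rSig]
lemma eU_ev : eU.ev ξ p 0 = rM ξ + 10 * ξ := by simp [eU, kc, Ex.ev, eM_ev]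
lemma eV_ev : eV.ev ξ p 0 = rM ξ - 10 * ξ := by simp [eV, kc, Ex.ev, eM_ev]
lemma eD_ev : eD.ev ξ p 0 = rD ξ := by simp [eD, kc, Ex.ev, eM_ev, rD]
lemma eK_ev : eK.ev ξ p 0 = rK ξ := by simp [eK, kc, Ex.ev, eM_ev, rK]
lemma eE_ev : eE.ev ξ p 0 = rE ξ p := by simp [eE, kc, Ex.ev, eSig_ev, eD_ev, eK_ev, rE]
lemma eT_ev (s : ℤ) : (eT s).ev ξ p 0 = rT ξ s := by simp [eT, kc, Ex.ev, rT]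
lemma eXN_ev (s : ℤ) : (eXN s).ev ξ p 0 = rD ξ * rT ξ s + 2 * s * rE ξ p := by
  simp [eXN, kc, Ex.ev, eD_ev, eT_ev, eE_ev]
lemma eKN_ev (s : ℤ) : (eKN s).ev ξ p 0 = rK ξ * rT ξ s + rE ξ p := by
  simp [eKN, Ex.ev, eK_ev, eT_ev, eE_ev]
lemma eR_ev (c : ℕ) : (eR c).ev ξ p 0 = RR c (rM ξ) (rG ξ p) := by
  simp [eR, kc, Ex.ev, eM_ev, eG_ev, RR]
lemma eRM_ev (c : ℕ) : (eRM c).ev ξ p 0 = RM c (rM ξ) := by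
  simp [eRM, kc, Ex.ev, eM_ev, RM]
lemma eN_ev (N : P3) : (eN N).ev ξ p 0 = ev3 (400 * ξ ^ 2) (rM ξ) (rG ξ p) N := by
  simp [eN, Ex.ev, eM_ev, eG_ev, eY_ev, h3_eq]
lemma eW_ev (c : ℕ) (N : P3) : (eW c N).ev ξ p 0 =
    rM ξ * RR c (rM ξ) (rG ξ p) * ev3 (400 * ξ ^ 2) (rM ξ) (rG ξ p) N := by
  simp [eW, Ex.ev, eM_ev, eR_ev, eN_ev]
lemma eN2_ev (p' c : ℕ) (N : P3) : (eN2 p' c N).ev ξ p 0 =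
    N2 N p' c (400 * ξ ^ 2) (rM ξ) (rG ξ p) := by
  simp [eN2, kc, Ex.ev, eM_ev, eR_ev, eRM_ev, eN_ev, N2]
lemma eN3_ev (c : ℕ) (N : P3) : (eN3 c N).ev ξ p 0 =
    N3 N c (400 * ξ ^ 2) (rM ξ) (rG ξ p) := by
  simp [eN3, kc, Ex.ev, eM_ev, eR_ev, eN_ev, N3]

lemma eL_ev (a : P3) : (eL a).ev ξ p 0 = ev3 ξ p 0 a := by
  simp [eL, Ex.ev, h3_eq]

variable {C ξ p}

/-- the form at the vertex: `c₀ + 2 c₁ h + c₂ h²`. -/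
def vf (C : Crt) (ξ p X K h : ℝ) : ℝ :=
  C.e11 (20 * ξ) (400 * ξ ^ 2) (rM ξ) (rG ξ p) X K
    + C.eh (20 * ξ) (400 * ξ ^ 2) (rM ξ) (rG ξ p) X * h
    + C.ehh (400 * ξ ^ 2) (rM ξ) (rG ξ p) * h ^ 2
    + C.ek (20 * ξ) (400 * ξ ^ 2) (rM ξ) (rG ξ p) X * (rSig ξ * rG ξ p)
    + C.ehk (400 * ξ ^ 2) (rM ξ) (rG ξ p) * (rSig ξ * rG ξ p * h)
    + C.ekk (400 * ξ ^ 2) (rM ξ) (rG ξ p) * (rSig ξ ^ 2 * rG ξ p)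

theorem vf_eq {s : ℤ} {X K : ℝ}
    (hX : rT ξ s * X = rD ξ * rT ξ s + 2 * s * rE ξ p)
    (hK : rT ξ s * K = rK ξ * rT ξ s + rE ξ p) (h : ℝ) :
    3 * rT ξ s ^ 2 * vf C ξ p X K h = (c0E C s).ev ξ p 0 +
      (c1E C s).ev ξ p 0 * (rT ξ s * h) + (c2E C).ev ξ p 0 * (rT ξ s * h) ^ 2 := by
  simp only [c0E, c1E, c2E, Ex.ev, kc, eT_ev, eXN_ev, eKN_ev, eW_ev, eN2_ev, eN3_ev, eG_ev,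
    eSig_ev, eEta_ev, eY_ev, ← hX, ← hK, vf, Crt.e11, Crt.eh, Crt.ehh, Crt.ek, Crt.ehk, Crt.ekk]
  push_cast
  ring

end Crest.Agent.R249.Con378
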