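import Crest.Agent.R249.Con1_378
import Crest.Agent.R249.StKb_912

/-!
# Row 249, part A (helper378): the contact family, part 2: the four boxes

* `plain` : `2 c0 = ξ⁸ (a₁₁ + 2 N u v)`, `c1 = ξ⁷ a₁₂`, `2 c2 = ξ⁶ a₂₂`;
* `edgeU`, `edgeV` : near the end `v = 0` of the contact curve.
-/

set_option autoImplicit false

noncomputable section

namespace Crest.Agent.R249.Con378

open Ker254 Brg133 Eta467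

local infixl:65 " +ᵉ " => Ex.add
local infixl:65 " -ᵉ " => Ex.sub
local infixl:70 " *ᵉ " => Ex.mul

/-- identity check with automatic parameters -/
def idcB (E F : Ex) : Bool :=
  frc (Nat.succ (Nat.log2 (Nat.succ (Nat.add E.nb F.nb)))) fun w =>
  frc (Nat.max (E.dg 1 0 0) (F.dg 1 0 0)) fun n1 =>
  frc (Nat.max (E.dg 0 1 0) (F.dg 0 1 0)) fun n2 =>
  frc (Nat.max (E.dg 0 0 1) (F.dg 0 0 1)) fun n3 => idc w n1 n2 n3 E F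

theorem idcB_sound {E F : Ex} (h : idcB E F = true) (x y z : ℝ) : E.ev x y z = F.ev x y z := by
  unfold idcB at h
  simp only [frc_eq] at h
  exact idc_sound h x y z

/-- the conclusion for one vertex: `3 k₂² vf ≥ N ξ⁸ u v` -/
def Low (C : Crt) (s : ℤ) (N : ℕ) (ξ p : ℝ) : Prop :=
  ∀ x : ℝ, N * ξ ^ 8 * ((rM ξ + 10 * ξ) * (rM ξ - 10 * ξ)) ≤
    (c0E C s).ev ξ p 0 + (c1E C s).ev ξ p 0 * x + (c2E C).ev ξ p 0 * x ^ 2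

variable {C : Crt} {s : ℤ} {N : ℕ} {a b d g z : P3}

/-- away from the end -/
structure Plain (C : Crt) (s : ℤ) (N : ℕ) (a b d : P3) : Prop where
  i0 : idcB (kc 2 *ᵉ c0E C s) ((.pw .vx 8) *ᵉ (eL a +ᵉ kc 2 *ᵉ kc (Int.ofNat N) *ᵉ eU *ᵉ eV)) = true
  i1 : idcB (c1E C s) ((.pw .vx 7) *ᵉ eL b) = true
  i2 : idcB (kc 2 *ᵉ c2E C) ((.pw .vx 6) *ᵉ eL d) = true

theorem Plain.low (H : Plain C s N a b d) {ξ p : ℝ}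
    (hP : ∀ u v : ℝ, 0 ≤ ev3 ξ p 0 a * u ^ 2 + 2 * ev3 ξ p 0 b * u * v + ev3 ξ p 0 d * v ^ 2) :
    Low C s N ξ p := by
  intro x
  have h0 := idcB_sound H.i0 ξ p 0
  have h1 := idcB_sound H.i1 ξ p 0
  have h2 := idcB_sound H.i2 ξ p 0
  simp only [Ex.ev, kc, eL_ev, eU_ev, eV_ev, Int.ofNat_eq_natCast] at h0 h1 h2
  push_cast at h0 h1 h2
  have h3 := hP ξ x
  have h4 : 0 ≤ ξ ^ 6 * (ev3 ξ p 0 a * ξ ^ 2 + 2 * ev3 ξ p 0 b * ξ * x + ev3 ξ p 0 d * x ^ 2) :=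
    mul_nonneg (by positivity) h3
  have e : (c0E C s).ev ξ p 0 + (c1E C s).ev ξ p 0 * x + (c2E C).ev ξ p 0 * x ^ 2 -
      N * ξ ^ 8 * ((rM ξ + 10 * ξ) * (rM ξ - 10 * ξ)) =
      ξ ^ 6 * (ev3 ξ p 0 a * ξ ^ 2 + 2 * ev3 ξ p 0 b * ξ * x + ev3 ξ p 0 d * x ^ 2) / 2 := by
    linear_combination 1 / 2 * h0 + x * h1 + 1 / 2 * x ^ 2 * h2
  linarith

/-- near the end of the curve, second vertex: `4 c0 (2 k - k² v) = ξ⁸ (b₁₁ + 4 N u)`,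
`2 c1 = ξ⁷ v b₁₂`, `4 c2 = ξ⁶ v b₂₂`. -/
structure EdgeV (C : Crt) (s : ℤ) (N k : ℕ) (a b d : P3) : Prop where
  i0 : idcB (kc 4 *ᵉ c0E C s *ᵉ (kc (Int.ofNat (2 * k)) -ᵉ kc (Int.ofNat (k ^ 2)) *ᵉ eV))
    ((.pw .vx 8) *ᵉ (eL a +ᵉ kc 4 *ᵉ kc (Int.ofNat N) *ᵉ eU)) = true
  i1 : idcB (kc 2 *ᵉ c1E C s) ((.pw .vx 7) *ᵉ eV *ᵉ eL b) = true
  i2 : idcB (kc 4 *ᵉ c2E C) ((.pw .vx 6) *ᵉ eV *ᵉ eL d) = true

theorem EdgeV.low {k : ℕ} (H : EdgeV C s N k a b d) {ξ p : ℝ} (hu : 0 < rM ξ + 10 * ξ)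
    (hv : 0 < rM ξ - 10 * ξ) (hk : (k : ℝ) ^ 2 * (rM ξ - 10 * ξ) < 2 * k)
    (hP : ∀ u v : ℝ, 0 ≤ ev3 ξ p 0 a * u ^ 2 + 2 * ev3 ξ p 0 b * u * v + ev3 ξ p 0 d * v ^ 2) :
    Low C s N ξ p := by
  intro x
  have h0 := idcB_sound H.i0 ξ p 0
  have h1 := idcB_sound H.i1 ξ p 0
  have h2 := idcB_sound H.i2 ξ p 0
  simp only [Ex.ev, kc, eL_ev, eU_ev, eV_ev, Int.ofNat_eq_natCast] at h0 h1 h2
  push_cast at h0 h1 h2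
  set v := rM ξ - 10 * ξ with hvd
  set u := rM ξ + 10 * ξ with hud
  have ha : 0 ≤ ev3 ξ p 0 a := by simpa using hP 1 0
  have hc0 : 0 ≤ (c0E C s).ev ξ p 0 := by
    have h5 : 0 ≤ ξ ^ 8 * (ev3 ξ p 0 a + 4 * N * u) := by positivity
    rw [← h0] at h5
    have h6 : 0 < 2 * (k : ℝ) - k ^ 2 * v := by linarith
    by_contra hcon
    push Not at hcon
    have : 4 * (c0E C s).ev ξ p 0 * (2 * k - k ^ 2 * v) < 0 :=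
      mul_neg_of_neg_of_pos (by linarith) h6
    linarith
  have h3 := hP ξ x
  have h4 : 0 ≤ v * (ξ ^ 6 *
      (ev3 ξ p 0 a * ξ ^ 2 + 2 * ev3 ξ p 0 b * ξ * x + ev3 ξ p 0 d * x ^ 2)) :=
    mul_nonneg hv.le (mul_nonneg (by positivity) h3)
  have h7 : 0 ≤ 4 * (c0E C s).ev ξ p 0 * (1 - k * v) ^ 2 := by positivity
  have e : 4 * ((c0E C s).ev ξ p 0 + (c1E C s).ev ξ p 0 * x + (c2E C).ev ξ p 0 * x ^ 2 -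
      N * ξ ^ 8 * (u * v)) =
      v * (ξ ^ 6 * (ev3 ξ p 0 a * ξ ^ 2 + 2 * ev3 ξ p 0 b * ξ * x + ev3 ξ p 0 d * x ^ 2)) +
        4 * (c0E C s).ev ξ p 0 * (1 - k * v) ^ 2 := by
    linear_combination v * h0 + 2 * x * h1 + x ^ 2 * h2
  linarith

/-- `Z = 3 k₂² (1-v)² v (-B₂) + 12 E m R nW` -/
def eZ (C : Crt) (s : ℤ) : Ex :=
  kc 3 *ᵉ (.pw (eT s) 2) *ᵉ (.pw (kc 1 -ᵉ eV) 2) *ᵉ eV *ᵉ (kc 0 -ᵉ eN2 C.p C.c C.nB) +ᵉ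
    kc 12 *ᵉ eE *ᵉ eW C.c C.nW

/-- near the end of the curve, first vertex -/
structure EdgeU (C : Crt) (s : ℤ) (N k j : ℕ) (a b d z : P3) : Prop where
  i0 : idcB (kc 4 *ᵉ eV *ᵉ c0E C s)
    ((.pw eV 2) *ᵉ (.pw .vx 8) *ᵉ (eL a +ᵉ kc 4 *ᵉ kc (Int.ofNat N) *ᵉ eU) +ᵉ
      eG *ᵉ (.pw (eT s) 2) *ᵉ eZ C s *ᵉ (.pw (kc 1 -ᵉ kc (Int.ofNat k) *ᵉ eV) 2)) = true
  i1 : idcB (kc 2 *ᵉ c1E C s) ((.pw .vx 7) *ᵉ eV *ᵉ eL b) = true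
  i2 : idcB (kc 4 *ᵉ c2E C) ((.pw .vx 6) *ᵉ eV *ᵉ eL d) = true
  iz : idcB (eZ C s) ((.pw .vx j) *ᵉ eV *ᵉ eL z) = true

theorem EdgeU.low {k j : ℕ} (H : EdgeU C s N k j a b d z) {ξ p : ℝ} (hξ : 0 ≤ ξ) (hp : 0 ≤ p)
    (hv : 0 < rM ξ - 10 * ξ)
    (hP : ∀ u v : ℝ, 0 ≤ ev3 ξ p 0 a * u ^ 2 + 2 * ev3 ξ p 0 b * u * v + ev3 ξ p 0 d * v ^ 2)
    (hz : 0 ≤ ev3 ξ p 0 z) : Low C s N ξ p := by
  intro x
  have h0 := idcB_sound H.i0 ξ p 0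
  have h1 := idcB_sound H.i1 ξ p 0
  have h2 := idcB_sound H.i2 ξ p 0
  have h9 := idcB_sound H.iz ξ p 0
  have hZ : 0 ≤ (eZ C s).ev ξ p 0 := by
    rw [h9]
    simp only [Ex.ev, eL_ev, eV_ev]
    positivity
  simp only [Ex.ev, kc, eL_ev, eU_ev, eV_ev, eG_ev, eT_ev, Int.ofNat_eq_natCast] at h0 h1 h2
  push_cast at h0 h1 h2
  set v := rM ξ - 10 * ξ with hvd
  set u := rM ξ + 10 * ξ with hud
  have hG : 0 ≤ rG ξ p := by unfold rG; positivity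
  have h3 := hP ξ x
  have h4 : 0 ≤ v ^ 2 * (ξ ^ 6 *
      (ev3 ξ p 0 a * ξ ^ 2 + 2 * ev3 ξ p 0 b * ξ * x + ev3 ξ p 0 d * x ^ 2)) :=
    mul_nonneg (by positivity) (mul_nonneg (by positivity) h3)
  have h7 : 0 ≤ rG ξ p * rT ξ s ^ 2 * (eZ C s).ev ξ p 0 * (1 - k * v) ^ 2 := by positivity
  have e : 4 * v * ((c0E C s).ev ξ p 0 + (c1E C s).ev ξ p 0 * x + (c2E C).ev ξ p 0 * x ^ 2 -
      N * ξ ^ 8 * (u * v)) =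
      v ^ 2 * (ξ ^ 6 * (ev3 ξ p 0 a * ξ ^ 2 + 2 * ev3 ξ p 0 b * ξ * x + ev3 ξ p 0 d * x ^ 2)) +
        rG ξ p * rT ξ s ^ 2 * (eZ C s).ev ξ p 0 * (1 - k * v) ^ 2 := by
    linear_combination h0 + 2 * v * x * h1 + v * x ^ 2 * h2
  have h8 : 0 ≤ 4 * v * ((c0E C s).ev ξ p 0 + (c1E C s).ev ξ p 0 * x + (c2E C).ev ξ p 0 * x ^ 2 -
      N * ξ ^ 8 * (u * v)) := by rw [e]; linarith
  have h10 := nonneg_of_mul_nonneg_right h8 (by positivity)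
  linarith

end Crest.Agent.R249.Con378
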