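import Crest.Agent.R249.Con3_378

/-!
# Row 249, part A (helper378): the contact family of `cert_709`: first vertex, `ξ ≤ 7/128`

Generated (exact integer arithmetic).
-/

set_option autoImplicit false
set_option maxRecDepth 100000

namespace Crest.Agent.R249.Con378

open Ker254 Brg133 Cd133

def Tup : TreeX :=
(.nd 1 4 1
(.nd 1 1 1
(.nd 1 1 2
(.lf (.ofNat 8) (.ofNat 1) (.ofNat 426) (.ofNat 0) (.ofNat 0) (.ofNat 1)) (.lf (.ofNat 8) (.ofNat 2) (.ofNat 942) (.ofNat 0) (.ofNat 0) (.ofNat 1))) (.nd 1 2 1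
(.lf (.ofNat 8) (.ofNat 1) (.ofNat 1302) (.ofNat 0) (.ofNat 0) (.ofNat 1)) (.nd 1 2 1
(.nd 1 1 2
(.lf (.ofNat 8) (.ofNat 0) (.ofNat 1365) (.ofNat 0) (.ofNat 0) (.ofNat 1)) (.out 0)) (.out 0)))) (.out 0))

theorem okT_up : okT 1 Tup = true := by decide +kernel

theorem run_up : runX 1098 92 5 0 1299364656711665515780583485645068399060738433221421694976000000000000000000000000000000 ⟨none, (some (7, 128))⟩ ⟨none, none⟩ ⟨none, none⟩ 0 Tup
    [up11, up12, [], up22, [], []] = true := by decide +kernel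

theorem out_up : runX 132 10 1 0 23068672000 ⟨none, (some (7, 128))⟩ ⟨none, none⟩ ⟨none, none⟩ 1 Tup
    [gE, [], [], [], [], []] = true := by decide +kernel

end Crest.Agent.R249.Con378
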