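import Crest.Agent.R249.Con4_378

/-!
# Row 249, part A (helper378): the contact family of `cert_709`: second vertex, `0/1280 ≤ ξ ≤ 22/1280`

Generated (exact integer arithmetic).
-/

set_option autoImplicit false
set_option maxRecDepth 100000

namespace Crest.Agent.R249.Con378

open Ker254 Brg133 Cd133

def Tvp0 : TreeX :=
(.nd 1 4 1
(.nd 1 1 1
(.nd 1 1 2
(.nd 1 1 2
(.lf (.ofNat 9) (.negSucc 1) (.ofNat 256) (.ofNat 0) (.ofNat 0) (.ofNat 1)) (.lf (.ofNat 8) (.ofNat 1) (.ofNat 387) (.ofNat 0) (.ofNat 0) (.ofNat 1))) (.lf (.ofNat 8) (.ofNat 2) (.ofNat 687) (.ofNat 0) (.ofNat 0) (.ofNat 1))) (.nd 1 2 1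
(.lf (.ofNat 8) (.ofNat 0) (.ofNat 983) (.ofNat 0) (.ofNat 0) (.ofNat 1)) (.nd 1 2 1
(.nd 1 1 2
(.lf (.ofNat 8) (.negSucc 1) (.ofNat 856) (.ofNat 0) (.ofNat 0) (.ofNat 1)) (.out 0)) (.out 0)))) (.out 0))

theorem okT_vp0 : okT 1 Tvp0 = true := by decide +kernel

theorem run_vp0 : runX 1311 92 5 0 1299364656711665515780583485645068399060738433221421694976000000000000000000000000000000 ⟨none, (some (11, 640))⟩ ⟨none, none⟩ ⟨none, none⟩ 0 Tvp0
    [vp11, vp12, [], vp22, [], []] = true := by decide +kernel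

theorem out_vp0 : runX 155 10 1 0 23068672000 ⟨none, (some (11, 640))⟩ ⟨none, none⟩ ⟨none, none⟩ 1 Tvp0
    [gE, [], [], [], [], []] = true := by decide +kernel

end Crest.Agent.R249.Con378
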