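import Crest.Agent.R249.Con4_378

/-!
# Row 249, part A (helper378): the contact family of `cert_709`: second vertex, `22/1280 ≤ ξ ≤ 44/1280`

Generated (exact integer arithmetic).
-/

set_option autoImplicit false
set_option maxRecDepth 100000

namespace Crest.Agent.R249.Con378

open Ker254 Brg133 Cd133

def Tvp1 : TreeX :=
(.nd 1 4 1
(.nd 1 1 1
(.nd 1 1 2
(.nd 1 1 2
(.nd 1 1 2
(.nd 1 1 2
(.lf (.ofNat 13) (.negSucc 9) (.ofNat 256) (.ofNat 0) (.ofNat 0) (.ofNat 1)) (.lf (.ofNat 12) (.negSucc 4) (.ofNat 256) (.ofNat 0) (.ofNat 0) (.ofNat 1))) (.lf (.ofNat 10) (.negSucc 0) (.ofNat 256) (.ofNat 0) (.ofNat 0) (.ofNat 1))) (.lf (.ofNat 8) (.ofNat 1) (.ofNat 324) (.ofNat 0) (.ofNat 0) (.ofNat 1))) (.lf (.ofNat 8) (.ofNat 2) (.ofNat 573) (.ofNat 0) (.ofNat 0) (.ofNat 1))) (.nd 1 2 1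
(.lf (.ofNat 8) (.ofNat 1) (.ofNat 698) (.ofNat 0) (.ofNat 0) (.ofNat 1)) (.nd 1 2 1
(.lf (.ofNat 8) (.ofNat 0) (.ofNat 621) (.ofNat 0) (.ofNat 0) (.ofNat 1)) (.out 0)))) (.out 0))

theorem okT_vp1 : okT 1 Tvp1 = true := by decide +kernel

theorem run_vp1 : runX 1321 92 5 0 1299364656711665515780583485645068399060738433221421694976000000000000000000000000000000 ⟨(some (11, 640)), (some (1, 1))⟩ ⟨none, none⟩ ⟨none, none⟩ 0 Tvp1
    [vp11, vp12, [], vp22, [], []] = true := by decide +kernel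

theorem out_vp1 : runX 157 10 1 0 23068672000 ⟨(some (11, 640)), (some (1, 1))⟩ ⟨none, none⟩ ⟨none, none⟩ 1 Tvp1
    [gE, [], [], [], [], []] = true := by decide +kernel

end Crest.Agent.R249.Con378
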