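import Crest.Agent.R249.Con4_378

/-!
# Row 249, part A (helper378): the contact family of `cert_709`: second vertex, `44/1280 ≤ ξ ≤ 66/1280`

Generated (exact integer arithmetic).
-/

set_option autoImplicit false
set_option maxRecDepth 100000

namespace Crest.Agent.R249.Con378

open Ker254 Brg133 Cd133

def Tvp2 : TreeX :=
(.nd 1 4 1
(.nd 1 1 1
(.nd 1 1 2
(.nd 1 1 2
(.nd 1 1 2
(.lf (.ofNat 14) (.negSucc 8) (.ofNat 256) (.ofNat 0) (.ofNat 0) (.ofNat 1)) (.lf (.ofNat 12) (.negSucc 1) (.ofNat 256) (.ofNat 0) (.ofNat 0) (.ofNat 1))) (.lf (.ofNat 9) (.ofNat 1) (.ofNat 256) (.ofNat 0) (.ofNat 0) (.ofNat 1))) (.lf (.ofNat 8) (.ofNat 1) (.ofNat 348) (.ofNat 0) (.ofNat 0) (.ofNat 1))) (.lf (.ofNat 8) (.negSucc 0) (.ofNat 452) (.ofNat 0) (.ofNat 0) (.ofNat 1))) (.out 0))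

theorem okT_vp2 : okT 1 Tvp2 = true := by decide +kernel

theorem run_vp2 : runX 1311 92 5 0 1299364656711665515780583485645068399060738433221421694976000000000000000000000000000000 ⟨(some (11, 320)), (some (1, 2))⟩ ⟨none, none⟩ ⟨none, none⟩ 0 Tvp2
    [vp11, vp12, [], vp22, [], []] = true := by decide +kernel

theorem out_vp2 : runX 154 10 1 0 23068672000 ⟨(some (11, 320)), (some (1, 2))⟩ ⟨none, none⟩ ⟨none, none⟩ 1 Tvp2
    [gE, [], [], [], [], []] = true := by decide +kernel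

end Crest.Agent.R249.Con378
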