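import Crest.Agent.R249.Con4_378

/-!
# Row 249, part A (helper378): the contact family of `cert_709`: second vertex, `66/1280 ≤ ξ ≤ 77/1280`

Generated (exact integer arithmetic).
-/

set_option autoImplicit false
set_option maxRecDepth 100000

namespace Crest.Agent.R249.Con378

open Ker254 Brg133 Cd133

def Tvp3 : TreeX :=
(.nd 1 4 1
(.nd 1 1 1
(.lf (.ofNat 10) (.negSucc 3) (.ofNat 256) (.ofNat 0) (.ofNat 0) (.ofNat 1)) (.lf (.ofNat 8) (.negSucc 1) (.ofNat 378) (.ofNat 0) (.ofNat 0) (.ofNat 1))) (.out 0))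

theorem okT_vp3 : okT 1 Tvp3 = true := by decide +kernel

theorem run_vp3 : runX 1518 92 5 0 1299364656711665515780583485645068399060738433221421694976000000000000000000000000000000 ⟨(some (33, 640)), (some (1, 6))⟩ ⟨none, none⟩ ⟨none, none⟩ 0 Tvp3
    [vp11, vp12, [], vp22, [], []] = true := by decide +kernel

theorem out_vp3 : runX 174 10 1 0 23068672000 ⟨(some (33, 640)), (some (1, 6))⟩ ⟨none, none⟩ ⟨none, none⟩ 1 Tvp3
    [gE, [], [], [], [], []] = true := by decide +kernel

end Crest.Agent.R249.Con378
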