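import Crest.Agent.R249.Con4_378

/-!
# Row 249, part A (helper378): the contact family of `cert_709`: second vertex, `77/1280 ≤ ξ ≤ 82/1280`

Generated (exact integer arithmetic).
-/

set_option autoImplicit false
set_option maxRecDepth 100000

namespace Crest.Agent.R249.Con378

open Ker254 Brg133 Cd133

def Tvp4 : TreeX :=
(.nd 1 4 1
(.nd 1 1 1
(.nd 1 1 2
(.lf (.ofNat 10) (.negSucc 5) (.ofNat 256) (.ofNat 0) (.ofNat 0) (.ofNat 1)) (.lf (.ofNat 9) (.negSucc 7) (.ofNat 256) (.ofNat 0) (.ofNat 0) (.ofNat 1))) (.lf (.ofNat 8) (.negSucc 1) (.ofNat 399) (.ofNat 0) (.ofNat 0) (.ofNat 1))) (.out 0))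

theorem okT_vp4 : okT 1 Tvp4 = true := by decide +kernel

theorem run_vp4 : runX 1958 92 5 0 1299364656711665515780583485645068399060738433221421694976000000000000000000000000000000 ⟨(some (77, 1280)), (some (5, 77))⟩ ⟨none, none⟩ ⟨none, none⟩ 0 Tvp4
    [vp11, vp12, [], vp22, [], []] = true := by decide +kernel

theorem out_vp4 : runX 222 10 1 0 23068672000 ⟨(some (77, 1280)), (some (5, 77))⟩ ⟨none, none⟩ ⟨none, none⟩ 1 Tvp4
    [gE, [], [], [], [], []] = true := by decide +kernel

end Crest.Agent.R249.Con378
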