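import Crest.Agent.R249.Con4_378

/-!
# Row 249, part A (helper378): the contact family of `cert_709`: second vertex, `82/1280 ≤ ξ ≤ 88/1280`

Generated (exact integer arithmetic).
-/

set_option autoImplicit false
set_option maxRecDepth 100000

namespace Crest.Agent.R249.Con378

open Ker254 Brg133 Cd133

def Tvp5 : TreeX :=
(.nd 1 4 1
(.nd 1 1 1
(.nd 1 1 2
(.nd 1 1 2
(.lf (.ofNat 8) (.negSucc 2) (.ofNat 268) (.ofNat 0) (.ofNat 0) (.ofNat 1)) (.lf (.ofNat 9) (.negSucc 8) (.ofNat 256) (.ofNat 0) (.ofNat 0) (.ofNat 1))) (.nd 1 2 1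
(.nd 1 1 2
(.lf (.ofNat 8) (.negSucc 17) (.ofNat 349) (.ofNat 0) (.ofNat 0) (.ofNat 1)) (.lf (.ofNat 8) (.negSucc 11) (.ofNat 290) (.ofNat 0) (.ofNat 0) (.ofNat 1))) (.lf (.ofNat 8) (.negSucc 5) (.ofNat 273) (.ofNat 0) (.ofNat 0) (.ofNat 1)))) (.nd 1 2 1
(.nd 1 1 2
(.nd 1 1 2
(.nd 1 1 2
(.lf (.ofNat 8) (.negSucc 3) (.ofNat 318) (.ofNat 0) (.ofNat 0) (.ofNat 1)) (.lf (.ofNat 8) (.negSucc 2) (.ofNat 342) (.ofNat 0) (.ofNat 0) (.ofNat 1))) (.lf (.ofNat 8) (.negSucc 2) (.ofNat 382) (.ofNat 0) (.ofNat 0) (.ofNat 1))) (.lf (.ofNat 8) (.negSucc 1) (.ofNat 468) (.ofNat 0) (.ofNat 0) (.ofNat 1))) (.lf (.ofNat 8) (.negSucc 0) (.ofNat 656) (.ofNat 0) (.ofNat 0) (.ofNat 1)))) (.out 0))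

theorem okT_vp5 : okT 1 Tvp5 = true := by decide +kernel

theorem run_vp5 : runX 1811 92 5 0 1299364656711665515780583485645068399060738433221421694976000000000000000000000000000000 ⟨(some (41, 640)), (some (3, 41))⟩ ⟨none, none⟩ ⟨none, none⟩ 0 Tvp5
    [vp11, vp12, [], vp22, [], []] = true := by decide +kernel

theorem out_vp5 : runX 210 10 1 0 23068672000 ⟨(some (41, 640)), (some (3, 41))⟩ ⟨none, none⟩ ⟨none, none⟩ 1 Tvp5
    [gE, [], [], [], [], []] = true := by decide +kernel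

end Crest.Agent.R249.Con378
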