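import Crest.Agent.R249.Con5_378

/-!
# Row 249, part A (helper378): the contact family of `cert_709`: first vertex, end of the curve

Generated (exact integer arithmetic).
-/

set_option autoImplicit false
set_option maxRecDepth 100000

namespace Crest.Agent.R249.Con378

open Ker254 Brg133 Cd133

def Tut : TreeX :=
(.nd 1 4 1
(.nd 1 1 1
(.lf (.ofNat 8) (.negSucc 1) (.ofNat 1501) (.ofNat 0) (.ofNat 0) (.ofNat 1)) (.lf (.ofNat 8) (.negSucc 2) (.ofNat 2394) (.ofNat 0) (.ofNat 0) (.ofNat 1))) (.out 0))

theorem okT_ut : okT 1 Tut = true := by decide +kernel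

theorem run_ut : runX 1585 90 5 0 81550732630139140647337487107377675400973279544223259883995136000000000000000000000000000 ⟨(some (7, 128)), (some (15, 56))⟩ ⟨none, none⟩ ⟨none, none⟩ 0 Tut
    [ut11, ut12, [], ut22, [], []] = true := by decide +kernel

theorem out_ut : runX 183 10 1 0 23068672000 ⟨(some (7, 128)), (some (15, 56))⟩ ⟨none, none⟩ ⟨none, none⟩ 1 Tut
    [gE, [], [], [], [], []] = true := by decide +kernel

end Crest.Agent.R249.Con378
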