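import Crest.Agent.R249.Con5_378

/-!
# Row 249, part A (helper378): the contact family of `cert_709`: first vertex, end of the curve, `Z`

Generated (exact integer arithmetic).
-/

set_option autoImplicit false
set_option maxRecDepth 100000

namespace Crest.Agent.R249.Con378

open Ker254 Brg133 Cd133

def Tz11 : TreeX :=
(.nd 1 4 1
(.lf (.ofNat 1) (.ofNat 0) (.ofNat 1) (.ofNat 0) (.ofNat 0) (.ofNat 1)) (.out 0))

theorem okT_z11 : okT 1 Tz11 = true := by decide +kernel

theorem run_z11 : runX 1377 80 4 0 34292035011365973802704546802740551399385701717901312000000000000000000000000 ⟨(some (7, 128)), (some (15, 56))⟩ ⟨none, none⟩ ⟨none, none⟩ 0 Tz11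
    [z11, [], [], [], [], []] = true := by decide +kernel

theorem out_z11 : runX 183 10 1 0 23068672000 ⟨(some (7, 128)), (some (15, 56))⟩ ⟨none, none⟩ ⟨none, none⟩ 1 Tz11
    [gE, [], [], [], [], []] = true := by decide +kernel

end Crest.Agent.R249.Con378
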