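import Crest.Agent.R249.Con6_378

/-!
# Row 249, part A (helper378): the contact family of `cert_709`: second vertex, end of the curve

Generated (exact integer arithmetic).
-/

set_option autoImplicit false
set_option maxRecDepth 100000

namespace Crest.Agent.R249.Con378

open Ker254 Brg133 Cd133

def Tvt : TreeX :=
(.nd 1 4 1
(.nd 1 1 1
(.nd 1 1 2
(.nd 1 1 2
(.lf (.ofNat 8) (.negSucc 1) (.ofNat 524) (.ofNat 0) (.ofNat 0) (.ofNat 1)) (.lf (.ofNat 8) (.negSucc 3) (.ofNat 322) (.ofNat 0) (.ofNat 0) (.ofNat 1))) (.nd 1 2 1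
(.lf (.ofNat 8) (.negSucc 6) (.ofNat 275) (.ofNat 0) (.ofNat 0) (.ofNat 1)) (.lf (.ofNat 8) (.negSucc 1) (.ofNat 490) (.ofNat 0) (.ofNat 0) (.ofNat 1)))) (.lf (.ofNat 8) (.negSucc 0) (.ofNat 1382) (.ofNat 0) (.ofNat 0) (.ofNat 1))) (.out 0))

theorem okT_vt : okT 1 Tvt = true := by decide +kernel

theorem run_vt : runX 1827 96 5 0 34594284620291382692142254721814301056593100046087131207041024000000000000000000000000000000000 ⟨(some (11, 160)), (some (1, 110))⟩ ⟨none, none⟩ ⟨none, none⟩ 0 Tvt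
    [vt11, vt12, [], vt22, [], []] = true := by decide +kernel

theorem out_vt : runX 200 10 1 0 23068672000 ⟨(some (11, 160)), (some (1, 110))⟩ ⟨none, none⟩ ⟨none, none⟩ 1 Tvt
    [gE, [], [], [], [], []] = true := by decide +kernel

end Crest.Agent.R249.Con378
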