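import Crest.Agent.R249.Con2_378

/-!
# Row 249, part A (helper378): the contact family, part 7: from `Low` to `StK_912.CON`
-/

set_option autoImplicit false

noncomputable section

namespace Crest.Agent.R249.Con378

open Ker254 Brg133 Sym467 CovA621 StK_912
open Eta467 (F3 X0 K0)

variable {C : Crt} {ξ p : ℝ}

lemma X0_pos : X0 Fs (20 * ξ, rM ξ, rG ξ p) = rD ξ := by
  simp only [X0, Fs, rD]; ring

lemma X0_neg : X0 Fs (-(20 * ξ), rM ξ, rG ξ p) = -rD ξ := by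
  simp only [X0, Fs, rD]; ring

lemma K0_pos : K0 Fs (20 * ξ, rM ξ, rG ξ p) = rK ξ := by
  simp only [K0, Fs, rK]; ring

lemma K0_neg : K0 Fs (-(20 * ξ), rM ξ, rG ξ p) = rK ξ := by
  simp only [K0, Fs, rK]; ring

lemma dG_pos : dG ACpm (20 * ξ) = rSig ξ := by
  simp only [dG, ACpm, rSig]; ring

lemma dG_neg : dG ACpm (-(20 * ξ)) = -rSig ξ := by
  simp only [dG, ACpm, rSig]; ring

lemma Ec_pos : Ec ACpm (20 * ξ, rM ξ, rG ξ p) = rE ξ p := by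
  simp only [Ec, dG, ddG, ACpm, Fs, rE, rD, rK, rSig, rG]; ring

lemma Ec_neg : Ec ACpm (-(20 * ξ), rM ξ, rG ξ p) = rE ξ p := by
  simp only [Ec, dG, ddG, ACpm, Fs, rE, rD, rK, rSig, rG]; ring

lemma half_pos : 1 / 2 - rSig ξ = rT ξ 1 / 2 := by
  simp only [rSig, rT]; push_cast; ring

lemma half_neg : 1 / 2 + rSig ξ = rT ξ (-1) / 2 := by
  simp only [rSig, rT]; push_cast; ring

lemma form_pos {q : ℝ} (hm : rM ξ ≠ 0) (hR : RR C.c (rM ξ) (rG ξ p) ≠ 0) (hq : q ^ 2 = rG ξ p)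
    (X K h : ℝ) :
    C.S (rM ξ) (rG ξ p) * F3 0 C.A C.B C.W (20 * ξ, rM ξ, rG ξ p) X K q h (rSig ξ * q) =
      vf C ξ p X K h := by
  have h1 := Crt.form_F3 (C := C) (z := (20 * ξ, rM ξ, rG ξ p)) hm hR hq X K h (rSig ξ * q)
  have e : (20 * ξ) ^ 2 = 400 * ξ ^ 2 := by ring
  simp only [e] at h1
  rw [mul_comm, h1, vf, ← hq]
  ring

lemma form_neg {q : ℝ} (hm : rM ξ ≠ 0) (hR : RR C.c (rM ξ) (rG ξ p) ≠ 0) (hq : q ^ 2 = rG ξ p)
    (X K h : ℝ) :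
    C.S (rM ξ) (rG ξ p) * F3 0 C.A C.B C.W (-(20 * ξ), rM ξ, rG ξ p) X K q h (-rSig ξ * q) =
      vf C ξ p (-X) K (-h) := by
  have h1 := Crt.form_F3 (C := C) (z := (-(20 * ξ), rM ξ, rG ξ p)) hm hR hq X K h (-rSig ξ * q)
  have e : (-(20 * ξ)) ^ 2 = 400 * ξ ^ 2 := by ring
  simp only [e] at h1
  rw [mul_comm, h1, vf, ← hq]
  simp only [Crt.e11, Crt.eh, Crt.ek]
  ring

/-- one vertex -/
lemma base {s : ℤ} {N : ℕ} (hs : s = 1 ∨ s = -1) (hξ : 0 < ξ) (hξ1 : 40000 * ξ ≤ 2773)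
    (hL : Low C s N ξ p) (hμ : 0 ≤ (rM ξ + 10 * ξ) * (rM ξ - 10 * ξ)) {X K : ℝ}
    (hX : rT ξ s * X = rD ξ * rT ξ s + 2 * s * rE ξ p)
    (hK : rT ξ s * K = rK ξ * rT ξ s + rE ξ p) (h : ℝ) :
    N * ξ ^ 8 * ((rM ξ + 10 * ξ) * (rM ξ - 10 * ξ)) ≤ 12 * vf C ξ p X K h := by
  have h1 := hL (rT ξ s * h)
  rw [← vf_eq hX hK h] at h1
  have h0 : 0 ≤ (N:ℝ) * ξ ^ 8 * ((rM ξ + 10 * ξ) * (rM ξ - 10 * ξ)) := by positivity
  obtain ⟨t, ht⟩ : ∃ t, t = 14 * ξ - 512 * ξ ^ 3 := ⟨_, rfl⟩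
  have ht0 : 0 ≤ t := by
    have : ξ ^ 2 ≤ (2773 / 40000) ^ 2 := pow_le_pow_left₀ hξ.le (by linarith) 2
    have h2 : 0 ≤ 14 - 512 * ξ ^ 2 := by linarith
    have h3 : t = ξ * (14 - 512 * ξ ^ 2) := by rw [ht]; ring
    rw [h3]; positivity
  have ht1 : t < 1 := by
    have : 0 ≤ 512 * ξ ^ 3 := by positivity
    rw [ht]; linarith
  have hT : 0 < rT ξ s ∧ rT ξ s ≤ 2 := by
    unfold rT
    rcases hs with rfl | rfl
    · push_cast; rw [← ht]; constructor <;> linarith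
    · push_cast; rw [← ht]; constructor <;> linarith
  have hT2 : rT ξ s ^ 2 ≤ 4 := by nlinarith [hT.1, hT.2]
  have hT3 : 0 < rT ξ s ^ 2 := by have := hT.1; positivity
  have hv : 0 ≤ vf C ξ p X K h := by
    by_contra hcon
    push Not at hcon
    have : 3 * rT ξ s ^ 2 * vf C ξ p X K h < 0 := mul_neg_of_pos_of_neg (by positivity) hcon
    linarith
  have : rT ξ s ^ 2 * vf C ξ p X K h ≤ 4 * vf C ξ p X K h := mul_le_mul_of_nonneg_right hT2 hv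
  linarith

/-- **from the four boxes to the contact statement.** -/
theorem con_of_low {N : ℕ} {e : ℝ} (hC : 1 ≤ C.c)
    (H : ∀ ξ p : ℝ, 0 < ξ → 40000 * ξ ≤ 2773 → 0 < p → 0 < rM ξ - 10 * ξ → 0 < rE ξ p →
      Low C 1 N ξ p ∧ Low C (-1) N ξ p) (he : e * (12 * 20 ^ 8) ≤ N) : CON C e 1 := by
  -- common part
  have key : ∀ z : E3, OCon ACpm z → 0 < Ec ACpm z → ∃ ξ p : ℝ, 0 < ξ ∧ 40000 * ξ ≤ 2773 ∧ 0 < p ∧
      0 < rM ξ - 10 * ξ ∧ 0 < rM ξ ∧ z.2.1 = rM ξ ∧ z.2.2 = rG ξ p ∧ (z.1 = 20 * ξ ∨ z.1 = -(20 * ξ)) ∧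
      muS z = (rM ξ + 10 * ξ) * (rM ξ - 10 * ξ) ∧ z.1 ^ 8 = 20 ^ 8 * ξ ^ 8 := by
    intro z hz _
    have hem := hz.em
    have hm1 := hz.m1
    have hk := hz.k0
    rw [kf_AC] at hk
    have ha : 0 < |z.1| := abs_pos.2 hz.e0
    have hs : |z.1| ^ 2 = z.1 ^ 2 := sq_abs _
    have hs4 : |z.1| ^ 4 = z.1 ^ 4 := by
      rw [show |z.1| ^ 4 = (|z.1| ^ 2) ^ 2 by ring, hs]; ring
    have h4 : |z.1| ^ 2 ≤ 4 := by nlinarith
    have hm : z.2.1 = 1 - 7 / 40 * |z.1| ^ 2 + 1 / 125 * |z.1| ^ 4 := by rw [hs, hs4]; linarith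
    have hle := contact_le h4 hem.le hm
    refine ⟨|z.1| / 20, z.2.2 / (400 * (|z.1| / 20) ^ 2), by positivity, by linarith, ?_, ?_, ?_, ?_,
      ?_, ?_, ?_, ?_⟩
    · have := hz.G0
      positivity
    · have : rM (|z.1| / 20) = z.2.1 := by rw [hm, rM]; ring
      rw [this]; linarith
    · have : rM (|z.1| / 20) = z.2.1 := by rw [hm, rM]; ring
      rw [this]; exact hz.m0
    · rw [hm, rM]; ring
    · unfold rG
      field_simp
    · rcases abs_choice z.1 with h | h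
      · left; rw [h]; ring
      · right; rw [h]; ring
    · have : rM (|z.1| / 20) = z.2.1 := by rw [hm, rM]; ring
      rw [this, muS, ← hs]; ring
    · have : z.1 ^ 8 = |z.1| ^ 8 := by
        rw [show z.1 ^ 8 = (z.1 ^ 2) ^ 4 by ring, ← hs]; ring
      rw [this]; ring
  have fin : ∀ ξ : ℝ, ∀ v : ℝ, 0 < ξ → 0 ≤ (rM ξ + 10 * ξ) * (rM ξ - 10 * ξ) →
      N * ξ ^ 8 * ((rM ξ + 10 * ξ) * (rM ξ - 10 * ξ)) ≤ 12 * v →
      e * ((rM ξ + 10 * ξ) * (rM ξ - 10 * ξ)) ^ 1 * (20 ^ 8 * ξ ^ 8) ≤ v := by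
    intro ξ v hξ hμ h1
    have h2 : e * (12 * 20 ^ 8) * (ξ ^ 8 * ((rM ξ + 10 * ξ) * (rM ξ - 10 * ξ))) ≤
        N * (ξ ^ 8 * ((rM ξ + 10 * ξ) * (rM ξ - 10 * ξ))) :=
      mul_le_mul_of_nonneg_right he (by positivity)
    linarith
  constructor
  · intro z hz hE q hq0 hq h
    obtain ⟨ξ, p, hξ, hξ1, hp, hv, hm, e2, e3, e1, e4, e5⟩ := key z hz hE
    obtain ⟨η, m, G⟩ := z
    simp only at e1 e2 e3 e5 hq
    have hG : 0 < G := hz.G0
    subst e2 e3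
    have hR : 0 < RR C.c (rM ξ) (rG ξ p) := RR_pos' hC (wreg_of_ocon hz) hz.G0
    have hμ : 0 ≤ (rM ξ + 10 * ξ) * (rM ξ - 10 * ξ) := mul_nonneg (by linarith) hv.le
    rw [e4]
    simp only [e5]
    rcases e1 with rfl | rfl
    · simp only [Ec_pos] at hE
      have hT : rT ξ 1 ≠ 0 := by
        intro h0
        have := half_pos (ξ := ξ)
        have h3 : rSig ξ = -7 * ξ + 256 * ξ ^ 3 := by unfold rSig; ring
        have h4 : ξ ^ 2 ≤ (2773 / 40000) ^ 2 := pow_le_pow_left₀ hξ.le (by linarith) 2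
        rw [h0] at this
        nlinarith
      simp only [dG_pos, X0_pos, K0_pos, Ec_pos, half_pos]
      rw [form_pos hm.ne' hR.ne' hq]
      apply fin ξ _ hξ hμ
      apply base (s := 1) (Or.inl rfl) hξ hξ1 (H ξ p hξ hξ1 hp hv hE).1 hμ
      · push_cast; field_simp
      · field_simp
    · simp only [Ec_neg] at hE
      have hT : rT ξ (-1) ≠ 0 := by
        have h4 : 0 ≤ 512 * ξ ^ 3 := by positivity
        unfold rT; push_cast
        nlinarith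
      simp only [dG_neg, X0_neg, K0_neg, Ec_neg, sub_neg_eq_add, half_neg]
      rw [form_neg hm.ne' hR.ne' hq]
      apply fin ξ _ hξ hμ
      apply base (s := -1) (Or.inr rfl) hξ hξ1 (H ξ p hξ hξ1 hp hv hE).2 hμ
      · push_cast; field_simp; ring
      · field_simp
  · intro z hz hE q hq0 hq h
    obtain ⟨ξ, p, hξ, hξ1, hp, hv, hm, e2, e3, e1, e4, e5⟩ := key z hz hE
    obtain ⟨η, m, G⟩ := z
    simp only at e1 e2 e3 e5 hq
    have hG : 0 < G := hz.G0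
    subst e2 e3
    have hR : 0 < RR C.c (rM ξ) (rG ξ p) := RR_pos' hC (wreg_of_ocon hz) hz.G0
    have hμ : 0 ≤ (rM ξ + 10 * ξ) * (rM ξ - 10 * ξ) := mul_nonneg (by linarith) hv.le
    rw [e4]
    simp only [e5]
    rcases e1 with rfl | rfl
    · simp only [Ec_pos] at hE
      have hT : rT ξ (-1) ≠ 0 := by
        have h4 : 0 ≤ 512 * ξ ^ 3 := by positivity
        unfold rT; push_cast
        nlinarith
      simp only [dG_pos, X0_pos, K0_pos, Ec_pos, half_neg]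
      rw [form_pos hm.ne' hR.ne' hq]
      apply fin ξ _ hξ hμ
      apply base (s := -1) (Or.inr rfl) hξ hξ1 (H ξ p hξ hξ1 hp hv hE).2 hμ
      · push_cast; field_simp
      · field_simp
    · simp only [Ec_neg] at hE
      have hT : rT ξ 1 ≠ 0 := by
        intro h0
        have := half_pos (ξ := ξ)
        have h3 : rSig ξ = -7 * ξ + 256 * ξ ^ 3 := by unfold rSig; ring
        have h4 : ξ ^ 2 ≤ (2773 / 40000) ^ 2 := pow_le_pow_left₀ hξ.le (by linarith) 2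
        rw [h0] at this
        nlinarith
      simp only [dG_neg, X0_neg, K0_neg, Ec_neg, ← sub_eq_add_neg, half_pos]
      rw [form_neg hm.ne' hR.ne' hq]
      apply fin ξ _ hξ hμ
      apply base (s := 1) (Or.inl rfl) hξ hξ1 (H ξ p hξ hξ1 hp hv hE).1 hμ
      · push_cast; field_simp; ring
      · field_simp

end Crest.Agent.R249.Con378
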