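import Crest.Agent.R249.Con3a_378
import Crest.Agent.R249.Con4a_378
import Crest.Agent.R249.Con4b_378
import Crest.Agent.R249.Con4c_378
import Crest.Agent.R249.Con4d_378
import Crest.Agent.R249.Con4e_378
import Crest.Agent.R249.Con4f_378
import Crest.Agent.R249.Con5a_378
import Crest.Agent.R249.Con5b_378
import Crest.Agent.R249.Con6a_378
import Crest.Agent.R249.Con7_378

/-!
# Row 249, part A (helper378): the contact statement for `cert_709`

`con_709 : StK_912.CON C709 3 1`.
-/

set_option autoImplicit false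

noncomputable section

namespace Crest.Agent.R249.Con378

open Ker254 Brg133 Cd133

variable {ξ p : ℝ}

lemma gE_neg (hξ : 0 < ξ) (hE : 0 < rE ξ p) : ev3 ξ p 0 gE < 0 := by
  have h := idcB_sound gE_id ξ p 0
  simp only [Ex.ev, kc, eL_ev, eE_ev] at h
  push_cast at h
  rw [h] at hE
  have h2 : 0 < ξ ^ 2 := by positivity
  by_contra hcon
  push Not at hcon
  have : ξ ^ 2 * (0 - ev3 ξ p 0 gE) ≤ 0 := mul_nonpos_of_nonneg_of_nonpos h2.le (by linarith)
  linarith

lemma inHi {α β : ℕ} (hα : 0 < α) (hβ : 0 < β) (h : 0 ≤ ξ) (h1 : β * ξ ≤ α) :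
    Lim.In ⟨none, some (α, β)⟩ ξ := Lim.in_hi hα hβ h h1

lemma low_u (hξ : 0 < ξ) (hξ1 : 40000 * ξ ≤ 2773) (hp : 0 < p) (hv : 0 < rM ξ - 10 * ξ)
    (hE : 0 < rE ξ p) : Low C709 1 1000000000000 ξ p := by
  have hg := gE_neg hξ hE
  have hpI : Lim.In ⟨none, none⟩ p := Lim.in_none hp.le
  rcases le_total (128 * ξ) 7 with h | h
  · exact plU.low fun u v => psd2 okT_up run_up out_up
      (Lim.in_hi (by norm_num) (by norm_num) hξ.le (by push_cast; linarith)) hpI hg u v
  · have hx : Lim.In ⟨some (7, 128), some (15, 56)⟩ ξ :=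
      Lim.in_lohi (by norm_num) (by norm_num) (by norm_num) (by norm_num)
        (by push_cast; linarith) (by push_cast; linarith)
    refine edU.low hξ.le hp.le hv (fun u v => psd2 okT_ut run_ut out_ut hx hpI hg u v) ?_
    have := psd2 okT_z11 run_z11 out_z11 hx hpI hg 1 0
    simpa using this

lemma low_v (hξ : 0 < ξ) (hξ1 : 40000 * ξ ≤ 2773) (hp : 0 < p) (hv : 0 < rM ξ - 10 * ξ)
    (hE : 0 < rE ξ p) : Low C709 (-1) 1000000000000 ξ p := by
  have hg := gE_neg hξ hE
  have hpI : Lim.In ⟨none, none⟩ p := Lim.in_none hp.le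
  rcases le_total (640 * ξ) 11 with h0 | h0
  · exact plV.low fun u v => psd2 okT_vp0 run_vp0 out_vp0
      (Lim.in_hi (by norm_num) (by norm_num) hξ.le (by push_cast; linarith)) hpI hg u v
  rcases le_total (640 * ξ) 22 with h1 | h1
  · exact plV.low fun u v => psd2 okT_vp1 run_vp1 out_vp1
      (Lim.in_lohi (by norm_num) (by norm_num) (by norm_num) (by norm_num)
        (by push_cast; linarith) (by push_cast; linarith)) hpI hg u v
  rcases le_total (640 * ξ) 33 with h2 | h2
  · exact plV.low fun u v => psd2 okT_vp2 run_vp2 out_vp2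
      (Lim.in_lohi (by norm_num) (by norm_num) (by norm_num) (by norm_num)
        (by push_cast; linarith) (by push_cast; linarith)) hpI hg u v
  rcases le_total (1280 * ξ) 77 with h3 | h3
  · exact plV.low fun u v => psd2 okT_vp3 run_vp3 out_vp3
      (Lim.in_lohi (by norm_num) (by norm_num) (by norm_num) (by norm_num)
        (by push_cast; linarith) (by push_cast; linarith)) hpI hg u v
  rcases le_total (1280 * ξ) 82 with h4 | h4
  · exact plV.low fun u v => psd2 okT_vp4 run_vp4 out_vp4
      (Lim.in_lohi (by norm_num) (by norm_num) (by norm_num) (by norm_num)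
        (by push_cast; linarith) (by push_cast; linarith)) hpI hg u v
  rcases le_total (160 * ξ) 11 with h5 | h5
  · exact plV.low fun u v => psd2 okT_vp5 run_vp5 out_vp5
      (Lim.in_lohi (by norm_num) (by norm_num) (by norm_num) (by norm_num)
        (by push_cast; linarith) (by push_cast; linarith)) hpI hg u v
  · have hx : Lim.In ⟨some (11, 160), some (1, 110)⟩ ξ :=
      Lim.in_lohi (by norm_num) (by norm_num) (by norm_num) (by norm_num)
        (by push_cast; linarith) (by push_cast; linarith)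
    refine edV.low (by linarith) hv ?_ fun u v => psd2 okT_vt run_vt out_vt hx hpI hg u v
    have hs : ξ ^ 2 ≤ (2773 / 40000) ^ 2 := pow_le_pow_left₀ hξ.le (by linarith) 2
    have h6 : ξ ^ 4 ≤ ξ ^ 2 * (2773 / 40000) ^ 2 := by
      rw [show ξ ^ 4 = ξ ^ 2 * ξ ^ 2 by ring]
      exact mul_le_mul_of_nonneg_left hs (sq_nonneg _)
    have h7 : (11 / 160) ^ 2 ≤ ξ ^ 2 := pow_le_pow_left₀ (by norm_num) (by linarith) 2
    unfold rM
    push_cast
    linarith

/-- **the contact statement for the frozen certificate.** -/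
theorem con_709 : StK_912.CON C709 3 1 :=
  con_of_low (N := 1000000000000) (by decide)
    (fun _ _ h1 h2 h3 h4 h5 => ⟨low_u h1 h2 h3 h4 h5, low_v h1 h2 h3 h4 h5⟩) (by norm_num)

end Crest.Agent.R249.Con378
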