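import Crest.Agent.R249.Cov9_802
import Mathlib.Topology.Homotopy.Lifting
import Mathlib.AlgebraicTopology.FundamentalGroupoid.SimplyConnected

/-!
# R249 (helper802), part 10: local isometries onto simply connected spaces are injective
-/

set_option autoImplicit false
set_option linter.unusedSectionVars false
open Set Metric Filter Topology

namespace Crest.Agent.R249.Cov10_802

open Crest.Agent.R249.Cov1_802 Crest.Agent.R249.Cov3_802

noncomputable section

/-- a covering of a simply connected space by a path connected space is injective -/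
theorem inj_of_covering {E X : Type*} [TopologicalSpace E] [TopologicalSpace X]
    [PathConnectedSpace E] [SimplyConnectedSpace X] {f : E → X} (cov : IsCoveringMap f) :
    Function.Injective f := by
  intro e e' h
  let Γ : Path e e' := PathConnectedSpace.somePath e e'
  let γ₀ : Path (f e) (f e) :=
    { toFun := fun t => f (Γ t)
      continuous_toFun := cov.continuous.comp Γ.continuous
      source' := by simp
      target' := by simp [h] }
  let γ₁ : Path (f e) (f e) := Path.refl (f e)
  have hom : γ₀.toContinuousMap.HomotopicRel γ₁.toContinuousMap {0, 1} :=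
    SimplyConnectedSpace.paths_homotopic γ₀ γ₁
  have h0 : γ₀.toContinuousMap 0 = f e := γ₀.source
  have h1 : γ₁.toContinuousMap 0 = f e := γ₁.source
  have key := cov.liftPath_apply_one_eq_of_homotopicRel hom e h0 h1
  have e0 : Γ.toContinuousMap = cov.liftPath γ₀.toContinuousMap e h0 :=
    (cov.eq_liftPath_iff' h0).2 ⟨rfl, Γ.source⟩
  have e1 : ContinuousMap.const _ e = cov.liftPath γ₁.toContinuousMap e h1 :=
    (cov.eq_liftPath_iff' h1).2 ⟨by ext t; rfl, rfl⟩
  rw [← e0, ← e1] at key
  have h2 : Γ 1 = e := key
  rw [Γ.target] at h2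
  exact h2.symm

variable {X M : Type*} [PseudoMetricSpace X] [T2Space X] [MetricSpace M] {Φ : X → M} {ρ : ℝ}

theorem eq_of_dist {x y : X} (h : dist x y = 0) : x = y :=
  (Metric.inseparable_iff.2 h).eq

/-- a local isometry is a local homeomorphism -/
theorem Loc.isLocalHomeomorph (h : Loc Φ ρ) : IsLocalHomeomorph Φ := by
  refine IsLocalHomeomorph.mk Φ fun x => ?_
  have hxm : x ∈ closedBall x ρ := mem_closedBall_self h.pos.le
  have hd : ∀ u ∈ ball x ρ, ∀ v ∈ ball x ρ, dist (Φ u) (Φ v) = dist u v := fun u hu v hv =>
    h.iso x u (ball_subset_closedBall hu) v (ball_subset_closedBall hv)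
  have hx : ∀ u ∈ ball x ρ, dist (Φ x) (Φ u) = dist x u := fun u hu =>
    hd x (mem_ball_self h.pos) u hu
  have hon : ∀ y ∈ ball (Φ x) ρ, ∃ q ∈ ball x ρ, Φ q = y := by
    intro y hy
    obtain ⟨q, hq1, hq2⟩ := h.onto x y (by rw [dist_comm]; exact hy)
    refine ⟨q, ?_, hq1⟩
    rw [mem_ball, dist_comm, hq2, dist_comm]
    exact hy
  have hne : Nonempty X := ⟨x⟩
  choose! g hg1 hg2 using hon
  have hcont : ContinuousOn Φ (ball x ρ) := by
    rw [Metric.continuousOn_iff]
    intro u hu ε hε
    exact ⟨ε, hε, fun v hv hvu => by rw [hd v hv u hu]; exact hvu⟩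
  have hcg : ContinuousOn g (ball (Φ x) ρ) := by
    rw [Metric.continuousOn_iff]
    intro u hu ε hε
    exact ⟨ε, hε, fun v hv hvu => by
      rw [← hd _ (hg1 v hv) _ (hg1 u hu), hg2 v hv, hg2 u hu]; exact hvu⟩
  let e : OpenPartialHomeomorph X M :=
    { toFun := Φ
      invFun := g
      source := ball x ρ
      target := ball (Φ x) ρ
      map_source' := fun u hu => by
        rw [mem_ball, dist_comm, hx u hu, dist_comm]; exact hu
      map_target' := fun y hy => hg1 y hy
      left_inv' := fun u hu => by
        have hu' : Φ u ∈ ball (Φ x) ρ := by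
          rw [mem_ball, dist_comm, hx u hu, dist_comm]; exact hu
        apply eq_of_dist
        rw [← hd _ (hg1 _ hu') _ hu, hg2 _ hu', dist_self]
      right_inv' := fun y hy => hg2 y hy
      open_source := isOpen_ball
      open_target := isOpen_ball
      continuousOn_toFun := hcont
      continuousOn_invFun := hcg }
  exact ⟨e, mem_ball_self h.pos, fun _ _ => rfl⟩

/-- **local isometries onto simply connected spaces are injective** -/
theorem Loc.injective [CompactSpace X] [PathConnectedSpace X] [SimplyConnectedSpace M]
    (h : Loc Φ ρ) : Function.Injective Φ :=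
  inj_of_covering (isLocalHomeomorph_iff_isCoveringMap.1 (Loc.isLocalHomeomorph h))

end

end Crest.Agent.R249.Cov10_802
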