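import Mathlib

/-!
# R249 (helper802), local covers => global models, part 1: metric geometry

`Φ : X → M` locally isometric, `X` compact with almost orthonormal frames at all small scales
(`UFr n X`), `M` with almost isometric (not nec. onto) charts into `ℝⁿ` (`BL n M`) and exact
intermediate points (`ExM M`). Then `Φ` is open (no invariance of domain), maps small balls
isometrically onto small balls, and segments lift.
-/

set_option autoImplicit false
open Set Metric Filter Topology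

namespace Crest.Agent.R249.Cov1_802

noncomputable section

/-- exact intermediate points -/
def ExM (M : Type*) [PseudoMetricSpace M] : Prop :=
  ∀ a b : M, ∀ t ∈ Icc (0 : ℝ) 1, ∃ c, dist a c = t * dist a b ∧ dist c b = (1 - t) * dist a b

/-- almost isometric charts (no surjectivity) -/
def BL (n : ℕ) (M : Type*) [PseudoMetricSpace M] : Prop :=
  ∀ z : M, ∀ η : ℝ, 0 < η → ∃ G : M → EuclideanSpace ℝ (Fin n), ∃ δ : ℝ, 0 < δ ∧
    ∀ u ∈ ball z δ, ∀ v ∈ ball z δ, dist (G u) (G v) ≤ (1 + η) * dist u v ∧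
      dist u v ≤ (1 + η) * dist (G u) (G v)

/-- almost orthonormal frames at all small scales, uniformly -/
def UFr (n : ℕ) (X : Type*) [PseudoMetricSpace X] : Prop :=
  ∀ η : ℝ, 0 < η → ∃ s₀ : ℝ, 0 < s₀ ∧ ∀ q : X, ∀ s : ℝ, 0 < s → s < s₀ →
    ∃ e : Fin n → Bool → X, (∀ i b, |dist q (e i b) - s| ≤ η * s) ∧
      (∀ i, |dist (e i true) (e i false) - 2 * s| ≤ η * s) ∧
      (∀ i j b b', i ≠ j → |dist (e i b) (e j b') - √2 * s| ≤ η * s)

section euclid

variable {n : ℕ}

local notation "𝔼" => EuclideanSpace ℝ (Fin n)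

/-- violations of: `w` unit, `a i b` = `± κ` times an orthonormal frame, all at distance `≥ 1`
from `w`. -/
def v1 (w : EuclideanSpace ℝ (Fin n)) : ℝ := |‖w‖ - 1|
/-- see `v1` -/
def v2 (κ : ℝ) (a : Fin n → Bool → EuclideanSpace ℝ (Fin n)) : ℝ :=
  ∑ p : Fin n × Bool, |‖a p.1 p.2‖ - κ|
/-- see `v1` -/
def v3 (κ : ℝ) (a : Fin n → Bool → EuclideanSpace ℝ (Fin n)) : ℝ :=
  ∑ i : Fin n, |dist (a i true) (a i false) - 2 * κ|
/-- see `v1` -/
def v4 (κ : ℝ) (a : Fin n → Bool → EuclideanSpace ℝ (Fin n)) : ℝ :=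
  ∑ p : (Fin n × Bool) × (Fin n × Bool),
    if p.1.1 = p.2.1 then 0 else |dist (a p.1.1 p.1.2) (a p.2.1 p.2.2) - √2 * κ|
/-- see `v1` -/
def v5 (w : EuclideanSpace ℝ (Fin n)) (a : Fin n → Bool → EuclideanSpace ℝ (Fin n)) : ℝ :=
  ∑ p : Fin n × Bool, max 0 (1 - dist w (a p.1 p.2))

/-- total violation -/
def viol (κ : ℝ) (w : EuclideanSpace ℝ (Fin n)) (a : Fin n → Bool → EuclideanSpace ℝ (Fin n)) : ℝ :=
  v1 w + v2 κ a + v3 κ a + v4 κ a + v5 w a

lemma v1_nonneg (w : 𝔼) : 0 ≤ v1 w := abs_nonneg _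
lemma v2_nonneg (κ : ℝ) (a : Fin n → Bool → 𝔼) : 0 ≤ v2 κ a :=
  Finset.sum_nonneg fun _ _ => abs_nonneg _
lemma v3_nonneg (κ : ℝ) (a : Fin n → Bool → 𝔼) : 0 ≤ v3 κ a :=
  Finset.sum_nonneg fun _ _ => abs_nonneg _
lemma v4_term (κ : ℝ) (a : Fin n → Bool → 𝔼) (p : (Fin n × Bool) × (Fin n × Bool)) :
    0 ≤ (if p.1.1 = p.2.1 then (0:ℝ) else |dist (a p.1.1 p.1.2) (a p.2.1 p.2.2) - √2 * κ|) := by
  split_ifs
  · exact le_rfl
  · exact abs_nonneg _
lemma v4_nonneg (κ : ℝ) (a : Fin n → Bool → 𝔼) : 0 ≤ v4 κ a :=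
  Finset.sum_nonneg fun p _ => v4_term κ a p
lemma v5_nonneg (w : 𝔼) (a : Fin n → Bool → 𝔼) : 0 ≤ v5 w a :=
  Finset.sum_nonneg fun _ _ => le_max_left _ _

lemma viol_nonneg (κ : ℝ) (w : 𝔼) (a : Fin n → Bool → 𝔼) : 0 ≤ viol κ w a :=
  add_nonneg (add_nonneg (add_nonneg (add_nonneg (v1_nonneg _) (v2_nonneg _ _)) (v3_nonneg _ _))
    (v4_nonneg _ _)) (v5_nonneg _ _)

/-- exact configurations do not exist -/
lemma no_config {κ : ℝ} (hκ0 : 0 < κ) (hκ1 : κ * (n + 1) = 1) (w : 𝔼) (a : Fin n → Bool → 𝔼)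
    (f1 : ‖w‖ = 1) (f2 : ∀ i b, ‖a i b‖ = κ) (f3 : ∀ i, ‖a i true - a i false‖ = 2 * κ)
    (f4 : ∀ i j, i ≠ j → ‖a i true - a j true‖ = √2 * κ) (f5 : ∀ i b, 1 ≤ ‖w - a i b‖) :
    False := by
  -- opposite
  have g1 : ∀ i, a i false = - a i true := by
    intro i
    have h := parallelogram_law_with_norm ℝ (a i true) (a i false)
    rw [f3 i, f2, f2] at h
    have : ‖a i true + a i false‖ * ‖a i true + a i false‖ = 0 := by linarith
    have := mul_self_eq_zero.1 this
    rw [norm_eq_zero, add_comm] at this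
    exact eq_neg_of_add_eq_zero_left this
  have g2 : ∀ i j, i ≠ j → inner ℝ (a i true) (a j true) = (0:ℝ) := by
    intro i j hij
    have h := norm_sub_sq_real (a i true) (a j true)
    rw [f4 i j hij, f2, f2, mul_pow, Real.sq_sqrt (by norm_num)] at h
    linarith
  have g3 : ∀ i b, inner ℝ w (a i b) ≤ κ ^ 2 / 2 := by
    intro i b
    have h := norm_sub_sq_real w (a i b)
    rw [f1, f2] at h
    have := f5 i b
    have : 1 ≤ ‖w - a i b‖ ^ 2 := by
      calc (1:ℝ) = 1 ^ 2 := by norm_num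
        _ ≤ ‖w - a i b‖ ^ 2 := by gcongr
    linarith
  set v : Fin n → 𝔼 := fun i => κ⁻¹ • a i true with hv
  have hon : Orthonormal ℝ v := by
    constructor
    · intro i
      simp only [hv, norm_smul, f2, norm_inv, Real.norm_eq_abs, abs_of_pos hκ0]
      exact inv_mul_cancel₀ hκ0.ne'
    · intro i j hij
      simp only [hv, inner_smul_left, inner_smul_right, g2 i j hij, mul_zero]
  have hcard : Fintype.card (Fin n) = Module.finrank ℝ (EuclideanSpace ℝ (Fin n)) := by simp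
  have hspan : ⊤ ≤ Submodule.span ℝ (Set.range v) := by
    have := hon.linearIndependent.span_eq_top_of_card_eq_finrank' hcard
    rw [this]
  set B : OrthonormalBasis (Fin n) ℝ 𝔼 := OrthonormalBasis.mk hon hspan with hB
  have hBv : ∀ i, B i = v i := by
    intro i; simp [hB]
  have hP := B.sum_sq_norm_inner_right w
  have hs : ∀ i, ‖(inner ℝ (B i) w : ℝ)‖ ^ 2 ≤ κ ^ 2 / 4 := by
    intro i
    have h1 := g3 i true
    have h2 := g3 i false
    rw [g1, inner_neg_right] at h2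
    have h3 : |inner ℝ w (a i true)| ≤ κ ^ 2 / 2 := abs_le.2 ⟨by linarith, h1⟩
    have h4 : (inner ℝ (B i) w : ℝ) = κ⁻¹ * inner ℝ w (a i true) := by
      rw [hBv]
      simp only [hv, inner_smul_left, conj_trivial]
      rw [real_inner_comm]
    have h5 : ‖(inner ℝ (B i) w : ℝ)‖ ≤ κ / 2 := by
      rw [h4, norm_mul, norm_inv, Real.norm_eq_abs, Real.norm_eq_abs, abs_of_pos hκ0,
        inv_mul_le_iff₀ hκ0]
      linarith
    calc ‖(inner ℝ (B i) w : ℝ)‖ ^ 2 ≤ (κ / 2) ^ 2 := by gcongr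
      _ = κ ^ 2 / 4 := by ring
  have hsum : ∑ i, ‖(inner ℝ (B i) w : ℝ)‖ ^ 2 ≤ n * (κ ^ 2 / 4) := by
    calc ∑ i, ‖(inner ℝ (B i) w : ℝ)‖ ^ 2 ≤ ∑ _i : Fin n, κ ^ 2 / 4 :=
          Finset.sum_le_sum fun i _ => hs i
      _ = n * (κ ^ 2 / 4) := by simp
  rw [hP, f1] at hsum
  have hn : (0:ℝ) ≤ n := Nat.cast_nonneg n
  have hk2 : κ ≤ 1 := by nlinarith
  nlinarith

lemma viol_pos (w : 𝔼) (a : Fin n → Bool → 𝔼) : 0 < viol (1 / (n + 1 : ℝ)) w a := by
  refine lt_of_le_of_ne (viol_nonneg _ _ _) fun h0 => ?_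
  obtain ⟨κ, hκ⟩ : ∃ κ : ℝ, κ = 1 / (n + 1 : ℝ) := ⟨_, rfl⟩
  rw [← hκ] at h0
  have hκ0 : 0 < κ := by rw [hκ]; positivity
  have hκ1 : κ * (n + 1) = 1 := by rw [hκ]; field_simp
  unfold viol at h0
  have n1 := v1_nonneg w
  have n2 := v2_nonneg κ a
  have n3 := v3_nonneg κ a
  have n4 := v4_nonneg κ a
  have n5 := v5_nonneg w a
  have e1 : v1 w = 0 := by linarith
  have e2 : v2 κ a = 0 := by linarith
  have e3 : v3 κ a = 0 := by linarith
  have e4 : v4 κ a = 0 := by linarith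
  have e5 : v5 w a = 0 := by linarith
  refine no_config hκ0 hκ1 w a ?_ ?_ ?_ ?_ ?_
  · have := abs_eq_zero.1 e1
    linarith
  · intro i b
    have h := (Finset.sum_eq_zero_iff_of_nonneg (fun _ _ => abs_nonneg _)).1 e2 (i, b)
      (Finset.mem_univ _)
    have := abs_eq_zero.1 h
    simp only at this
    linarith
  · intro i
    have h := (Finset.sum_eq_zero_iff_of_nonneg (fun _ _ => abs_nonneg _)).1 e3 i
      (Finset.mem_univ _)
    have := abs_eq_zero.1 h
    rw [← dist_eq_norm]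
    linarith
  · intro i j hij
    have h := (Finset.sum_eq_zero_iff_of_nonneg (fun p _ => v4_term κ a p)).1 e4
      ((i, true), (j, true)) (Finset.mem_univ _)
    simp only at h
    rw [if_neg hij] at h
    have := abs_eq_zero.1 h
    rw [← dist_eq_norm]
    linarith
  · intro i b
    have h := (Finset.sum_eq_zero_iff_of_nonneg (fun _ _ => le_max_left _ _)).1 e5 (i, b)
      (Finset.mem_univ _)
    have := max_eq_left_iff.1 h
    rw [← dist_eq_norm]
    linarith

lemma continuous_viol (κ : ℝ) : Continuous fun p : EuclideanSpace ℝ (Fin n) ×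
    (Fin n → Bool → EuclideanSpace ℝ (Fin n)) => viol κ p.1 p.2 := by
  have c1 : Continuous fun p : EuclideanSpace ℝ (Fin n) ×
    (Fin n → Bool → EuclideanSpace ℝ (Fin n)) => v1 p.1 := by unfold v1; fun_prop
  have c2 : Continuous fun p : EuclideanSpace ℝ (Fin n) ×
    (Fin n → Bool → EuclideanSpace ℝ (Fin n)) => v2 κ p.2 := by unfold v2; fun_prop
  have c3 : Continuous fun p : EuclideanSpace ℝ (Fin n) ×
    (Fin n → Bool → EuclideanSpace ℝ (Fin n)) => v3 κ p.2 := by unfold v3; fun_prop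
  have c4 : Continuous fun p : EuclideanSpace ℝ (Fin n) ×
    (Fin n → Bool → EuclideanSpace ℝ (Fin n)) => v4 κ p.2 := by
    unfold v4
    refine continuous_finsetSum _ fun i _ => ?_
    split_ifs
    · fun_prop
    · fun_prop
  have c5 : Continuous fun p : EuclideanSpace ℝ (Fin n) ×
    (Fin n → Bool → EuclideanSpace ℝ (Fin n)) => v5 p.1 p.2 := by unfold v5; fun_prop
  exact (((c1.add c2).add c3).add c4).add c5

lemma cfg_compact (n : ℕ) : IsCompact ((closedBall (0 : EuclideanSpace ℝ (Fin n)) 2) ×ˢ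
      (Set.univ.pi fun _ : Fin n => Set.univ.pi fun _ : Bool =>
        closedBall (0 : EuclideanSpace ℝ (Fin n)) 2)) :=
    (isCompact_closedBall _ _).prod (isCompact_univ_pi fun _ => isCompact_univ_pi fun _ =>
      isCompact_closedBall _ _)

lemma cfg_nonempty (n : ℕ) : ((closedBall (0 : EuclideanSpace ℝ (Fin n)) 2) ×ˢ
      (Set.univ.pi fun _ : Fin n => Set.univ.pi fun _ : Bool =>
        closedBall (0 : EuclideanSpace ℝ (Fin n)) 2)).Nonempty :=
    ⟨(0, fun _ _ => 0), mem_closedBall_self (by norm_num), fun _ _ _ _ =>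
      mem_closedBall_self (by norm_num)⟩

lemma exists_min_viol (n : ℕ) : ∃ p : EuclideanSpace ℝ (Fin n) ×
    (Fin n → Bool → EuclideanSpace ℝ (Fin n)),
    ∀ q ∈ ((closedBall (0 : EuclideanSpace ℝ (Fin n)) 2) ×ˢ
      (Set.univ.pi fun _ : Fin n => Set.univ.pi fun _ : Bool =>
        closedBall (0 : EuclideanSpace ℝ (Fin n)) 2)),
      viol (1 / (n + 1 : ℝ)) p.1 p.2 ≤ viol (1 / (n + 1 : ℝ)) q.1 q.2 := by
  obtain ⟨p, hp, hmin⟩ := (cfg_compact n).exists_isMinOn (cfg_nonempty n)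
    (continuous_viol (n := n) (1 / (n + 1 : ℝ))).continuousOn
  exact ⟨p, fun q hq => isMinOn_iff.1 hmin q hq⟩

lemma exists_viol (n : ℕ) : ∃ m : ℝ, 0 < m ∧ ∀ (w : EuclideanSpace ℝ (Fin n))
    (a : Fin n → Bool → EuclideanSpace ℝ (Fin n)), ‖w‖ ≤ 2 → (∀ i b, ‖a i b‖ ≤ 2) →
      m ≤ viol (1 / (n + 1 : ℝ)) w a := by
  obtain ⟨p, hp⟩ := exists_min_viol n
  exact ⟨viol (1 / (n + 1 : ℝ)) p.1 p.2, viol_pos p.1 p.2, fun w a hw ha =>
    hp (w, a) ⟨mem_closedBall_zero_iff.2 hw, fun i _ b _ => mem_closedBall_zero_iff.2 (ha i b)⟩⟩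

lemma viol_le {κ η : ℝ} {w : 𝔼} {a : Fin n → Bool → 𝔼} (h1 : |‖w‖ - 1| ≤ η)
    (h2 : ∀ i b, |‖a i b‖ - κ| ≤ η) (h3 : ∀ i, |dist (a i true) (a i false) - 2 * κ| ≤ η)
    (h4 : ∀ i j b b', i ≠ j → |dist (a i b) (a j b') - √2 * κ| ≤ η)
    (h5 : ∀ i b, 1 - dist w (a i b) ≤ η) (hη : 0 ≤ η) :
    viol κ w a ≤ (1 + 5 * n + 4 * n ^ 2) * η := by
  have e1 : v1 w ≤ η := h1
  have e2 : v2 κ a ≤ n * 2 * η := by
    calc v2 κ a ≤ ∑ _p : Fin n × Bool, η := Finset.sum_le_sum fun p _ => h2 p.1 p.2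
      _ = n * 2 * η := by simp
  have e3 : v3 κ a ≤ n * η := by
    calc v3 κ a ≤ ∑ _i : Fin n, η := Finset.sum_le_sum fun i _ => h3 i
      _ = n * η := by simp
  have e4 : v4 κ a ≤ n * 2 * (n * 2) * η := by
    calc v4 κ a ≤ ∑ _p : (Fin n × Bool) × (Fin n × Bool), η := by
          refine Finset.sum_le_sum fun p _ => ?_
          split_ifs with h
          · exact hη
          · exact h4 _ _ _ _ h
      _ = n * 2 * (n * 2) * η := by simp
  have e5 : v5 w a ≤ n * 2 * η := by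
    calc v5 w a ≤ ∑ _p : Fin n × Bool, η :=
          Finset.sum_le_sum fun p _ => max_le hη (h5 p.1 p.2)
      _ = n * 2 * η := by simp
  unfold viol
  calc v1 w + v2 κ a + v3 κ a + v4 κ a + v5 w a
      ≤ η + n * 2 * η + n * η + n * 2 * (n * 2) * η + n * 2 * η := by linarith
    _ = (1 + 5 * n + 4 * n ^ 2) * η := by ring

end euclid

section open_

variable {n : ℕ} {X M : Type*} [PseudoMetricSpace X] [MetricSpace M]

/-- **openness of local isometries between spaces of the same dimension** -/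
theorem open_of_frames (hX : UFr n X) (hM : BL n M) {Φ : X → M} {q : X} {ρ : ℝ} (hρ : 0 < ρ)
    (hcomp : IsCompact (closedBall q ρ))
    (hiso : ∀ u ∈ closedBall q ρ, ∀ v ∈ closedBall q ρ, dist (Φ u) (Φ v) = dist u v) :
    ∃ δ : ℝ, 0 < δ ∧ ball (Φ q) δ ⊆ Φ '' closedBall q ρ := by
  obtain ⟨m, hm, hviol⟩ := exists_viol n
  set κ : ℝ := 1 / (n + 1 : ℝ) with hκ
  have hn : (0:ℝ) ≤ n := Nat.cast_nonneg n
  have hκ0 : 0 < κ := by positivity
  have hκ1 : κ ≤ 1 := by
    rw [hκ, div_le_one (by positivity)]; linarith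
  set C : ℝ := (1 + 5 * n + 4 * n ^ 2) * 5 with hC
  have hC0 : 0 < C := by positivity
  set η : ℝ := min (1 / 10) (m / (2 * C)) with hη
  have hη0 : 0 < η := by positivity
  have hη1 : η ≤ 1 / 10 := min_le_left _ _
  have hηm : C * η < m := by
    have : η ≤ m / (2 * C) := min_le_right _ _
    calc C * η ≤ C * (m / (2 * C)) := by gcongr
      _ = m / 2 := by field_simp
      _ < m := by linarith
  obtain ⟨s₀, hs₀, hfr⟩ := hX η hη0
  obtain ⟨G, δ₁, hδ₁, hG⟩ := hM (Φ q) η hη0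
  have hG' : ∀ u ∈ ball (Φ q) δ₁, ∀ v ∈ ball (Φ q) δ₁,
      |dist (G u) (G v) - dist u v| ≤ η * dist u v := by
    intro u hu v hv
    obtain ⟨h1, h2⟩ := hG u hu v hv
    have hd : 0 ≤ dist u v := dist_nonneg
    have hd' : 0 ≤ dist (G u) (G v) := dist_nonneg
    rw [abs_le]
    constructor
    · nlinarith
    · linarith
  set K := Φ '' closedBall q ρ with hK
  have hcont : ContinuousOn Φ (closedBall q ρ) := by
    have : LipschitzOnWith 1 Φ (closedBall q ρ) :=
      LipschitzOnWith.of_dist_le_mul fun u hu v hv => by simp [hiso u hu v hv]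
    exact this.continuousOn
  have hKc : IsCompact K := hcomp.image_of_continuousOn hcont
  have hqm : q ∈ closedBall q ρ := by simp [hρ.le]
  refine ⟨min (δ₁ / 4) (min (ρ / 4) s₀), by positivity, fun y hy => ?_⟩
  by_contra hyK
  set δ := min (δ₁ / 4) (min (ρ / 4) s₀) with hδ
  have hδ1 : δ ≤ δ₁ / 4 := min_le_left _ _
  have hδ2 : δ ≤ ρ / 4 := (min_le_right _ _).trans (min_le_left _ _)
  have hδ3 : δ ≤ s₀ := (min_le_right _ _).trans (min_le_right _ _)
  rw [mem_ball] at hy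
  obtain ⟨z, hz, hzd⟩ := hKc.exists_infDist_eq_dist ⟨Φ q, q, hqm, rfl⟩ y
  have hmin : ∀ x ∈ K, dist y z ≤ dist y x := fun x hx => by
    rw [← hzd]; exact infDist_le_dist_of_mem hx
  obtain ⟨q', hq', rfl⟩ := hz
  set D := dist y (Φ q') with hD
  have hD0 : 0 < D := by
    rw [hD, dist_pos]
    rintro rfl
    exact hyK ⟨q', hq', rfl⟩
  have hDδ : D < δ := (hmin _ ⟨q, hqm, rfl⟩).trans_lt hy
  have hqq' : dist q q' < 2 * δ := by
    rw [← hiso q hqm q' hq']
    calc dist (Φ q) (Φ q') ≤ dist (Φ q) y + dist y (Φ q') := dist_triangle _ _ _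
      _ < 2 * δ := by rw [dist_comm (Φ q) y]; linarith
  set s := κ * D with hs
  have hs0 : 0 < s := by positivity
  have hsD : s ≤ D := by nlinarith
  obtain ⟨e, he1, he2, he3⟩ := hfr q' s hs0 (by linarith)
  have hqe : ∀ i b, dist q' (e i b) < 2 * δ := by
    intro i b
    have := (abs_le.1 (he1 i b)).2
    nlinarith
  have heb : ∀ i b, e i b ∈ closedBall q ρ := by
    intro i b
    rw [mem_closedBall, dist_comm]
    have := dist_triangle q q' (e i b)
    have := hqe i b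
    linarith
  have hEK : ∀ i b, D ≤ dist y (Φ (e i b)) := fun i b => hmin _ ⟨_, heb i b, rfl⟩
  -- membership in the chart ball
  have my : y ∈ ball (Φ q) δ₁ := by rw [mem_ball]; linarith
  have mz : Φ q' ∈ ball (Φ q) δ₁ := by
    rw [mem_ball, hiso q' hq' q hqm, dist_comm]; linarith
  have me : ∀ i b, Φ (e i b) ∈ ball (Φ q) δ₁ := by
    intro i b
    rw [mem_ball, hiso _ (heb i b) q hqm, dist_comm]
    have := dist_triangle q q' (e i b)
    have := hqe i b
    linarith
  -- rescaled vectors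
  set w : EuclideanSpace ℝ (Fin n) := D⁻¹ • (G y - G (Φ q')) with hw
  set a : Fin n → Bool → EuclideanSpace ℝ (Fin n) := fun i b => D⁻¹ • (G (Φ (e i b)) - G (Φ q'))
    with ha
  have hnw : ‖w‖ = dist (G y) (G (Φ q')) / D := by
    rw [hw, norm_smul, norm_inv, Real.norm_eq_abs, abs_of_pos hD0, ← dist_eq_norm, inv_mul_eq_div]
  have hna : ∀ i b, ‖a i b‖ = dist (G (Φ (e i b))) (G (Φ q')) / D := by
    intro i b
    rw [ha]
    simp only
    rw [norm_smul, norm_inv, Real.norm_eq_abs, abs_of_pos hD0, ← dist_eq_norm, inv_mul_eq_div]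
  have hda : ∀ i b j b', dist (a i b) (a j b') = dist (G (Φ (e i b))) (G (Φ (e j b'))) / D := by
    intro i b j b'
    rw [ha]
    simp only
    rw [dist_smul₀, dist_sub_right, norm_inv, Real.norm_eq_abs, abs_of_pos hD0, inv_mul_eq_div]
  have hdw : ∀ i b, dist w (a i b) = dist (G y) (G (Φ (e i b))) / D := by
    intro i b
    rw [ha, hw]
    simp only
    rw [dist_smul₀, dist_sub_right, norm_inv, Real.norm_eq_abs, abs_of_pos hD0, inv_mul_eq_div]
  -- basic inequality
  have key : ∀ A T τ : ℝ, |A - T| ≤ η * T → |T - τ * D| ≤ η * s → T ≤ 4 * D →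
      |A / D - τ| ≤ 5 * η := by
    intro A T τ h1 h2 h3
    have : A / D - τ = (A - τ * D) / D := by field_simp
    rw [this, abs_div, abs_of_pos hD0, div_le_iff₀ hD0]
    calc |A - τ * D| = |(A - T) + (T - τ * D)| := by ring_nf
      _ ≤ |A - T| + |T - τ * D| := abs_add_le _ _
      _ ≤ η * (4 * D) + η * D := by
          have : η * s ≤ η * D := by gcongr
          have : η * T ≤ η * (4 * D) := by gcongr
          linarith
      _ = 5 * η * D := by ring
  have hw2 : |‖w‖ - 1| ≤ 5 * η := by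
    rw [hnw]
    refine key _ D 1 (hG' y my _ mz) ?_ (by linarith)
    simp; positivity
  have h2s : √2 ≤ 3 / 2 := by
    rw [Real.sqrt_le_left (by norm_num)]; norm_num
  have hsT : ∀ i b, |dist (Φ (e i b)) (Φ q') - κ * D| ≤ η * s := by
    intro i b
    rw [hiso _ (heb i b) _ hq', dist_comm]
    exact he1 i b
  have ha2 : ∀ i b, |‖a i b‖ - κ| ≤ 5 * η := by
    intro i b
    rw [hna]
    refine key _ _ κ (hG' _ (me i b) _ mz) (hsT i b) ?_
    have := (abs_le.1 (hsT i b)).2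
    nlinarith
  have ha3 : ∀ i, |dist (a i true) (a i false) - 2 * κ| ≤ 5 * η := by
    intro i
    rw [hda]
    have h1 : |dist (Φ (e i true)) (Φ (e i false)) - 2 * κ * D| ≤ η * s := by
      rw [hiso _ (heb i _) _ (heb i _), mul_assoc]
      exact he2 i
    refine key _ _ (2 * κ) (hG' _ (me i _) _ (me i _)) h1 ?_
    have := (abs_le.1 h1).2
    nlinarith
  have ha4 : ∀ i j b b', i ≠ j → |dist (a i b) (a j b') - √2 * κ| ≤ 5 * η := by
    intro i j b b' hij
    rw [hda]
    have h1 : |dist (Φ (e i b)) (Φ (e j b')) - √2 * κ * D| ≤ η * s := by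
      rw [hiso _ (heb i _) _ (heb j _), mul_assoc]
      exact he3 i j b b' hij
    refine key _ _ (√2 * κ) (hG' _ (me i _) _ (me j _)) h1 ?_
    have := (abs_le.1 h1).2
    have : √2 * κ * D ≤ 3 / 2 * 1 * D := by gcongr
    nlinarith
  have ha5 : ∀ i b, 1 - dist w (a i b) ≤ 5 * η := by
    intro i b
    rw [hdw]
    have h1 := (abs_le.1 (hG' y my _ (me i b))).1
    have h2 := hEK i b
    have : (1 - 5 * η) * D ≤ dist (G y) (G (Φ (e i b))) := by nlinarith
    rw [sub_le_comm, le_div_iff₀ hD0]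
    exact this
  have hvl := viol_le hw2 ha2 ha3 ha4 ha5 (by positivity)
  have hb1 : ‖w‖ ≤ 2 := by
    have := (abs_le.1 hw2).2
    linarith
  have hb2 : ∀ i b, ‖a i b‖ ≤ 2 := by
    intro i b
    have := (abs_le.1 (ha2 i b)).2
    linarith
  have := hviol w a hb1 hb2
  have h6 : (1 + 5 * (n:ℝ) + 4 * n ^ 2) * (5 * η) = C * η := by rw [hC]; ring
  linarith

/-- small balls are mapped isometrically onto small balls, uniformly -/
theorem exists_uniform [CompactSpace X] (hX : UFr n X) (hM : BL n M) (hE : ExM M) {Φ : X → M}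
    (hloc : ∀ p : X, ∃ ε : ℝ, 0 < ε ∧ ∀ q q', dist p q < ε → dist p q' < ε →
      dist (Φ q) (Φ q') = dist q q') :
    ∃ ρ : ℝ, 0 < ρ ∧ ∀ p : X, (∀ q ∈ closedBall p ρ, ∀ q' ∈ closedBall p ρ,
        dist (Φ q) (Φ q') = dist q q') ∧
      ∀ y, dist (Φ p) y < ρ → ∃ q, Φ q = y ∧ dist p q = dist (Φ p) y := by
  -- Lebesgue number
  choose ε hε hiso using hloc
  obtain ⟨ρ₁, hρ₁, hleb⟩ : ∃ ρ₁ : ℝ, 0 < ρ₁ ∧ ∀ p : X, ∃ c : X, ball p ρ₁ ⊆ ball c (ε c) := by
    have h := lebesgue_number_lemma_of_metric (s := (univ : Set X)) isCompact_univ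
      (c := fun c => ball c (ε c)) (fun c => isOpen_ball)
      (fun x _ => mem_iUnion.2 ⟨x, mem_ball_self (hε x)⟩)
    obtain ⟨δ, hδ, h⟩ := h
    exact ⟨δ, hδ, fun p => h p (mem_univ _)⟩
  set ρ := ρ₁ / 2 with hρ
  have hρ0 : 0 < ρ := by positivity
  have hI : ∀ p : X, ∀ q ∈ closedBall p ρ, ∀ q' ∈ closedBall p ρ,
      dist (Φ q) (Φ q') = dist q q' := by
    intro p q hq q' hq'
    obtain ⟨c, hc⟩ := hleb p
    have h1 : q ∈ ball p ρ₁ := by
      rw [mem_closedBall] at hq; rw [mem_ball]; linarith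
    have h2 : q' ∈ ball p ρ₁ := by
      rw [mem_closedBall] at hq'; rw [mem_ball]; linarith
    have h3 := hc h1
    have h4 := hc h2
    rw [mem_ball, dist_comm] at h3 h4
    exact hiso c q q' h3 h4
  refine ⟨ρ, hρ0, fun p => ⟨hI p, fun y hy => ?_⟩⟩
  -- segment from `Φ p` to `y`
  set K := Φ '' closedBall p ρ with hK
  have hcont : ContinuousOn Φ (closedBall p ρ) := by
    have : LipschitzOnWith 1 Φ (closedBall p ρ) :=
      LipschitzOnWith.of_dist_le_mul fun u hu v hv => by simp [hI p u hu v hv]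
    exact this.continuousOn
  have hKc : IsCompact K := isClosed_closedBall.isCompact.image_of_continuousOn hcont
  have hpm : p ∈ closedBall p ρ := by simp [hρ0.le]
  -- nearest point of `K ∩ closedBall` to `y`; use minimality and openness
  obtain ⟨z, hz, hzd⟩ := hKc.exists_infDist_eq_dist ⟨Φ p, p, hpm, rfl⟩ y
  by_cases hyK : y ∈ K
  · obtain ⟨q, hq, rfl⟩ := hyK
    exact ⟨q, rfl, (hI p p hpm q hq).symm⟩
  exfalso
  -- the set of `w ∈ K` with `d(Φ p, w) + d(w, y) = d(Φ p, y)`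
  set L := dist (Φ p) y with hL
  set S : Set M := K ∩ {w | dist (Φ p) w + dist w y ≤ L} with hS
  have hSc : IsCompact S := hKc.inter_right (isClosed_le (by fun_prop) (by fun_prop))
  have hSne : S.Nonempty := ⟨Φ p, ⟨p, hpm, rfl⟩, by simp [hL]⟩
  obtain ⟨w, hwS, hwmin⟩ := hSc.exists_isMinOn hSne (f := fun w => dist w y) (by fun_prop)
  obtain ⟨⟨q, hq, rfl⟩, hqL⟩ := hwS
  simp only [mem_ofPred_eq] at hqL
  have hqy : 0 < dist (Φ q) y := by
    rw [dist_pos]; rintro rfl; exact hyK ⟨q, hq, rfl⟩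
  have hpq : dist p q < ρ := by
    rw [← hI p p hpm q hq]; linarith
  -- openness at `q`
  set r := ρ - dist p q with hr
  have hr0 : 0 < r := by linarith
  have hsub : closedBall q r ⊆ closedBall p ρ := by
    intro x hx
    rw [mem_closedBall] at hx ⊢
    have := dist_triangle x q p
    rw [dist_comm q p] at this
    linarith
  obtain ⟨δ, hδ, hδK⟩ := open_of_frames hX hM (Φ := Φ) (q := q) hr0 isClosed_closedBall.isCompact
    (fun u hu v hv => hI p u (hsub hu) v (hsub hv))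
  -- a point on a segment from `Φ q` to `y`
  set t := min 1 (δ / (2 * dist (Φ q) y)) with ht
  have ht0 : 0 < t := by positivity
  obtain ⟨c, hc1, hc2⟩ := hE (Φ q) y t ⟨ht0.le, min_le_left _ _⟩
  have hcδ : dist c (Φ q) < δ := by
    rw [dist_comm, hc1]
    calc t * dist (Φ q) y ≤ δ / (2 * dist (Φ q) y) * dist (Φ q) y := by
          gcongr; exact min_le_right _ _
      _ = δ / 2 := by field_simp
      _ < δ := by linarith
  obtain ⟨x, hx, hxc⟩ := hδK hcδ
  have hcK : c ∈ K := ⟨x, hsub hx, hxc⟩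
  have hcS : c ∈ S := by
    refine ⟨hcK, ?_⟩
    simp only [mem_ofPred_eq]
    have := dist_triangle (Φ p) (Φ q) c
    rw [hc1] at this
    rw [hc2]
    linarith
  have := hwmin hcS
  simp only [mem_ofPred_eq] at this
  rw [hc2] at this
  nlinarith

end open_

section lift

variable {X M : Type*} [PseudoMetricSpace X] [MetricSpace M]

/-- the conclusion of `exists_uniform` -/
structure Loc (Φ : X → M) (ρ : ℝ) : Prop where
  pos : 0 < ρ
  iso : ∀ p : X, ∀ q ∈ closedBall p ρ, ∀ q' ∈ closedBall p ρ, dist (Φ q) (Φ q') = dist q q'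
  onto : ∀ p : X, ∀ y, dist (Φ p) y < ρ → ∃ q, Φ q = y ∧ dist p q = dist (Φ p) y

variable {Φ : X → M} {ρ : ℝ}

/-- lifting of segments -/
theorem Loc.lift (h : Loc Φ ρ) (hE : ExM M) (p : X) (y : M) :
    ∃ q, Φ q = y ∧ dist p q ≤ dist (Φ p) y := by
  obtain ⟨N, hN⟩ := exists_nat_gt (dist (Φ p) y / ρ)
  have key : ∀ k : ℕ, ∀ p : X, ∀ y : M, dist (Φ p) y < k * ρ →
      ∃ q, Φ q = y ∧ dist p q ≤ dist (Φ p) y := by
    intro k
    induction k with
    | zero =>
      intro p y hy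
      have := dist_nonneg (x := Φ p) (y := y)
      simp at hy
      linarith
    | succ k ih =>
      intro p y hy
      by_cases hs : dist (Φ p) y < ρ
      · obtain ⟨q, hq, hd⟩ := h.onto p y hs
        exact ⟨q, hq, hd.le⟩
      have hs := not_lt.1 hs
      have hρ := h.pos
      set d := dist (Φ p) y with hd
      have hd0 : 0 < d := by linarith
      -- step `τ` with `d - kρ < τ < ρ`
      set τ := ((d - k * ρ) + ρ) / 2 with hτ
      rw [Nat.cast_succ, add_mul, one_mul] at hy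
      have hkd : (0:ℝ) < k := by
        by_contra h0
        have h0 := not_lt.1 h0
        nlinarith
      have hk1 : (1:ℝ) ≤ k := by
        have : 0 < k := by exact_mod_cast hkd
        exact_mod_cast this
      by_cases hlt : d < k * ρ
      · exact ih p y hlt
      have hlt := not_lt.1 hlt
      have hτ1 : τ < ρ := by linarith
      have hτ0 : 0 < τ := by linarith
      have hτd : τ ≤ d := by nlinarith
      obtain ⟨c, hc1, hc2⟩ := hE (Φ p) y (τ / d) ⟨by positivity, (div_le_one hd0).2 hτd⟩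
      rw [← hd] at hc1 hc2
      have hc1' : dist (Φ p) c = τ := by rw [hc1]; field_simp
      have hc2' : dist c y = d - τ := by rw [hc2]; field_simp
      obtain ⟨p', hp', hpp'⟩ := h.onto p c (by rw [hc1']; exact hτ1)
      obtain ⟨q, hq, hqd⟩ := ih p' y (by rw [hp', hc2']; linarith)
      refine ⟨q, hq, ?_⟩
      have := dist_triangle p p' q
      rw [hp', hc2'] at hqd
      rw [hc1'] at hpp'
      linarith
  refine key N p y ?_
  rwa [div_lt_iff₀ h.pos] at hN

/-- a local isometry of a space with exact intermediate points is 1-Lipschitz -/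
theorem Loc.lip (h : Loc Φ ρ) (hE : ExM X) (p q : X) : dist (Φ p) (Φ q) ≤ dist p q := by
  obtain ⟨N, hN⟩ := exists_nat_gt (dist p q / ρ)
  have key : ∀ k : ℕ, ∀ p q : X, dist p q < k * ρ → dist (Φ p) (Φ q) ≤ dist p q := by
    intro k
    induction k with
    | zero =>
      intro p y hy
      have := dist_nonneg (x := p) (y := y)
      simp at hy
      linarith
    | succ k ih =>
      intro p y hy
      have hρ := h.pos
      by_cases hs : dist p y ≤ ρ
      · exact (h.iso p p (by simp [hρ.le]) y (by rw [mem_closedBall, dist_comm]; exact hs)).le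
      have hs := not_le.1 hs
      set d := dist p y with hd
      have hd0 : 0 < d := by linarith
      rw [Nat.cast_succ, add_mul, one_mul] at hy
      obtain ⟨c, hc1, hc2⟩ := hE p y (ρ / d) ⟨by positivity, (div_le_one hd0).2 hs.le⟩
      rw [← hd] at hc1 hc2
      have hc1' : dist p c = ρ := by rw [hc1]; field_simp
      have hc2' : dist c y = d - ρ := by rw [hc2]; field_simp
      have h1 := ih c y (by rw [hc2']; linarith)
      have h2 := h.iso p p (by simp [hρ.le]) c (by rw [mem_closedBall, dist_comm, hc1'])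
      have := dist_triangle (Φ p) (Φ c) (Φ y)
      rw [hc2'] at h1
      rw [hc1'] at h2
      linarith
  refine key N p q ?_
  rwa [div_lt_iff₀ h.pos] at hN

/-- if `Φ p = Φ q` implies that `p`, `q` are at distance zero, `Φ` preserves distances -/
theorem Loc.isometry (h : Loc Φ ρ) (hX : ExM X) (hM : ExM M)
    (hinj : ∀ p q, Φ p = Φ q → dist p q = 0) (p q : X) : dist (Φ p) (Φ q) = dist p q := by
  refine le_antisymm (h.lip hX p q) ?_
  obtain ⟨q', h1, h2⟩ := h.lift hM p (Φ q)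
  have h3 := hinj q' q h1
  have := dist_triangle p q' q
  linarith

end lift

end

end Crest.Agent.R249.Cov1_802
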