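import Crest.Agent.R249.Cov1_802
import Crest.Agent.R247.Ms2_322
import Crest.Agent.R247.HR_216

/-!
# R249 (helper802), part 2: Riemannian manifolds satisfy `BL`, `ExM`
-/

set_option autoImplicit false
set_option maxSynthPendingDepth 3

open Bundle Set Metric Filter Topology Manifold
open scoped ContDiff NNReal
open Crest.Agent.R247.Ms322

namespace Crest.Agent.R249.Cov2_802

open Crest.Agent.R249.Cov1_802

noncomputable section

variable (n : ℕ) (M : Type*) [MetricSpace M] [ChartedSpace (EuclideanSpace ℝ (Fin n)) M]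
  [RiemannianBundle (fun p : M => TangentSpace (𝓡 n) p)]

local notation "𝔼" => EuclideanSpace ℝ (Fin n)

theorem exM [CompleteSpace M] [IsRiemannianManifold 𝓘(ℝ, EuclideanSpace ℝ (Fin n)) M] : ExM M := by
  intro a b t ht
  exact Crest.Agent.R247.HR216.exactMid_of_riemannian n M a b t ht.1 ht.2

theorem bl [IsManifold (𝓡 n) ∞ M]
    [IsContMDiffRiemannianBundle (𝓡 n) ∞ (EuclideanSpace ℝ (Fin n))
      (fun p : M => TangentSpace (𝓡 n) p)]
    [IsRiemannianManifold 𝓘(ℝ, EuclideanSpace ℝ (Fin n)) M] : BL n M := by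
  intro z η hη
  have ha : chartAt 𝔼 z z ∈ (chartAt 𝔼 z).target := mem_chart_target 𝔼 z
  obtain ⟨A, hA, -⟩ := exists_isometry (n := n) z ha
  obtain ⟨r, hr, hrt, hL1, hL2⟩ := exists_bilip z ha hA (η := ⟨η, hη.le⟩) (by exact_mod_cast hη)
  have hev : ∀ᶠ y in 𝓝 z, y ∈ (chartAt 𝔼 z).source ∧ chartAt 𝔼 z y ∈ ball (chartAt 𝔼 z z) r := by
    have e1 : ∀ᶠ y in 𝓝 z, y ∈ (chartAt 𝔼 z).source :=
      (chartAt 𝔼 z).open_source.mem_nhds (mem_chart_source 𝔼 z)
    have e2 : ∀ᶠ y in 𝓝 z, chartAt 𝔼 z y ∈ ball (chartAt 𝔼 z z) r :=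
      ((chartAt 𝔼 z).continuousAt (mem_chart_source 𝔼 z)).eventually (ball_mem_nhds _ hr)
    exact e1.and e2
  obtain ⟨δ, hδ, hδ'⟩ := Metric.eventually_nhds_iff.1 hev
  refine ⟨fun y => A (chartAt 𝔼 z y), δ, hδ, fun u hu v hv => ?_⟩
  obtain ⟨hu1, hu2⟩ := hδ' hu
  obtain ⟨hv1, hv2⟩ := hδ' hv
  have hus : (chartAt 𝔼 z).symm (chartAt 𝔼 z u) = u := (chartAt 𝔼 z).left_inv hu1
  have hvs : (chartAt 𝔼 z).symm (chartAt 𝔼 z v) = v := (chartAt 𝔼 z).left_inv hv1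
  constructor
  · have := hL2.dist_le_mul u ⟨_, hu2, hus⟩ v ⟨_, hv2, hvs⟩
    exact this
  · have := hL1.dist_le_mul (A (chartAt 𝔼 z u)) (mem_image_of_mem _ hu2) (A (chartAt 𝔼 z v))
      (mem_image_of_mem _ hv2)
    simp only [A.symm_apply_apply, hus, hvs] at this
    exact this

end

end Crest.Agent.R249.Cov2_802
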