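import Crest.Agent.R249.Cov1_802

/-!
# R249 (helper802), part 3: scaled pseudo-distances, deck maps

`Mdl`: `X` embedded in a Euclidean space `V` by `P` such that distances and inner products
determine each other and small balls span. Two points with the same image under a local isometry
`Φ : X → M` are related by a linear isometry `T` of `V` preserving `P(X)` and `Φ`.
-/

set_option autoImplicit false
set_option linter.unusedSectionVars false
open Set Metric Filter Topology

namespace Crest.Agent.R249.Cov3_802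

open Crest.Agent.R249.Cov1_802

noncomputable section

/-! ### linear extension -/

section linear

variable {V : Type*} [NormedAddCommGroup V] [InnerProductSpace ℝ V] [FiniteDimensional ℝ V]

/-- A family of vectors spanning `V` and a family with the same Gram matrix differ by a linear
isometry. -/
theorem exists_isometry_of_gram {ι : Type*} (a b : ι → V) (hs : Submodule.span ℝ (range a) = ⊤)
    (h : ∀ i j, (inner ℝ (a i) (a j) : ℝ) = inner ℝ (b i) (b j)) :
    ∃ T : V ≃ₗᵢ[ℝ] V, ∀ i, T (a i) = b i := by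
  classical
  set A : (ι →₀ ℝ) →ₗ[ℝ] V := Finsupp.linearCombination ℝ a with hA
  set B : (ι →₀ ℝ) →ₗ[ℝ] V := Finsupp.linearCombination ℝ b with hB
  have hin : ∀ c d : ι →₀ ℝ, (inner ℝ (A c) (A d) : ℝ) = inner ℝ (B c) (B d) := by
    intro c d
    simp only [hA, hB, Finsupp.linearCombination_apply, Finsupp.sum, sum_inner, inner_sum,
      inner_smul_left, inner_smul_right, h]
  have hnorm : ∀ c, ‖A c‖ = ‖B c‖ := by
    intro c
    have := hin c c
    rw [real_inner_self_eq_norm_sq, real_inner_self_eq_norm_sq] at this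
    exact (sq_eq_sq₀ (norm_nonneg _) (norm_nonneg _)).1 this
  have hsurj : Function.Surjective A := by
    rw [← LinearMap.range_eq_top, hA, Finsupp.range_linearCombination]
    exact hs
  have hker : LinearMap.ker A ≤ LinearMap.ker B := by
    intro c hc
    rw [LinearMap.mem_ker] at hc ⊢
    rw [← norm_eq_zero, ← hnorm, hc, norm_zero]
  choose g hg using hsurj
  have hgB : ∀ c, B (g (A c)) = B c := by
    intro c
    have h1 : A (g (A c) - c) = 0 := by rw [map_sub, hg, sub_self]
    have h2 := hker (LinearMap.mem_ker.2 h1)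
    rw [LinearMap.mem_ker, map_sub, sub_eq_zero] at h2
    exact h2
  let T₀ : V →ₗ[ℝ] V :=
    { toFun := fun v => B (g v)
      map_add' := by
        intro v w
        have : A (g v + g w) = v + w := by rw [map_add, hg, hg]
        rw [← this, hgB, map_add]
      map_smul' := by
        intro r v
        have : A (r • g v) = r • v := by rw [map_smul, hg]
        rw [← this, hgB, map_smul]
        simp }
  have hT₀ : ∀ v, ‖T₀ v‖ = ‖v‖ := by
    intro v
    change ‖B (g v)‖ = ‖v‖
    rw [← hnorm, hg]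
  let T₁ : V →ₗᵢ[ℝ] V := ⟨T₀, hT₀⟩
  refine ⟨T₁.toLinearIsometryEquiv rfl, fun i => ?_⟩
  change B (g (a i)) = b i
  have h1 : a i = A (Finsupp.single i 1) := by simp [hA]
  rw [h1, hgB]
  simp [hB]

omit [FiniteDimensional ℝ V] in
theorem eq_of_eqOn_span {s : Set V} (hs : Submodule.span ℝ s = ⊤) {T T' : V ≃ₗᵢ[ℝ] V}
    (h : ∀ v ∈ s, T v = T' v) : ∀ v, T v = T' v := by
  intro v
  have : (T.toLinearEquiv : V →ₗ[ℝ] V) = (T'.toLinearEquiv : V →ₗ[ℝ] V) := by
    apply LinearMap.ext_on hs
    intro v hv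
    exact h v hv
  exact congrArg (fun f : V →ₗ[ℝ] V => f v) this

end linear

/-! ### deck maps -/

/-- `X` inside a Euclidean space -/
structure Mdl (X : Type*) [PseudoMetricSpace X] (V : Type*) [NormedAddCommGroup V]
    [InnerProductSpace ℝ V] where
  P : X → V
  gram : ∀ x y x' y', dist x y = dist x' y' ↔ (inner ℝ (P x) (P y) : ℝ) = inner ℝ (P x') (P y')
  span : ∀ (x : X) (r : ℝ), 0 < r → Submodule.span ℝ (P '' ball x r) = ⊤

section deck

variable {X M : Type*} [PseudoMetricSpace X] [MetricSpace M] {V : Type*} [NormedAddCommGroup V]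
  [InnerProductSpace ℝ V] {Φ : X → M} {ρ : ℝ}

theorem Mdl.eq_iff (A : Mdl X V) (x y : X) : A.P x = A.P y ↔ dist x y = 0 := by
  constructor
  · intro h
    have := (A.gram x y x x).2 (by rw [h])
    rw [this, dist_self]
  · intro h
    have h1 := (A.gram x y x x).1 (by rw [h, dist_self])
    have h2 := (A.gram x y y y).1 (by rw [h, dist_self])
    have h3 := norm_sub_sq_real (A.P x) (A.P y)
    rw [← real_inner_self_eq_norm_sq, ← real_inner_self_eq_norm_sq, ← real_inner_self_eq_norm_sq,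
      ← h1, ← h2] at h3
    have h4 : (inner ℝ (A.P x - A.P y) (A.P x - A.P y) : ℝ) = 0 := by linarith
    rw [inner_self_eq_zero, sub_eq_zero] at h4
    exact h4

theorem Loc.congr (h : Loc Φ ρ) {x y : X} (hxy : dist x y = 0) : Φ x = Φ y := by
  have := h.iso x x (by simp [h.pos.le]) y (by rw [mem_closedBall, dist_comm, hxy]; exact h.pos.le)
  rw [hxy] at this
  exact dist_eq_zero.1 this

variable [FiniteDimensional ℝ V]

/-- the germ of a deck map -/
theorem germ (A : Mdl X V) (h : Loc Φ ρ) {p p' : X} (hp : Φ p = Φ p') :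
    ∃ T : V ≃ₗᵢ[ℝ] V, ∀ u ∈ ball p ρ, ∃ u', A.P u' = T (A.P u) ∧ Φ u' = Φ u ∧
      dist p' u' = dist p u := by
  have hpm : p ∈ closedBall p ρ := by simp [h.pos.le]
  have h1 : ∀ u : ball p ρ, ∃ u', Φ u' = Φ u ∧ dist p' u' = dist p u := by
    rintro ⟨u, hu⟩
    have hu' : dist p u < ρ := by rw [dist_comm]; exact hu
    have e1 : dist (Φ p') (Φ u) = dist p u := by
      rw [← hp]
      exact h.iso p p hpm u (ball_subset_closedBall hu)
    obtain ⟨u', h1, h2⟩ := h.onto p' (Φ u) (by rw [e1]; exact hu')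
    exact ⟨u', h1, h2.trans e1⟩
  choose f hf1 hf2 using h1
  have hfm : ∀ u, f u ∈ closedBall p' ρ := by
    intro u
    rw [mem_closedBall, dist_comm, hf2, dist_comm]
    exact ball_subset_closedBall u.2
  have hfd : ∀ u v, dist (f u) (f v) = dist (u : X) v := by
    intro u v
    rw [← h.iso p' _ (hfm u) _ (hfm v), hf1, hf1]
    exact h.iso p _ (ball_subset_closedBall u.2) _ (ball_subset_closedBall v.2)
  obtain ⟨T, hT⟩ := exists_isometry_of_gram (fun u : ball p ρ => A.P u) (fun u => A.P (f u))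
    (by
      have := A.span p ρ h.pos
      rwa [← image_eq_range])
    (fun u v => ((A.gram _ _ _ _).1 (hfd u v)).symm)
  exact ⟨T, fun u hu => ⟨f ⟨u, hu⟩, (hT ⟨u, hu⟩).symm, hf1 _, hf2 _⟩⟩

/-- a deck map -/
structure DeckMap (A : Mdl X V) (Φ : X → M) (T : V ≃ₗᵢ[ℝ] V) (γ : X → X) : Prop where
  P_γ : ∀ u, A.P (γ u) = T (A.P u)
  Φ_γ : ∀ u, Φ (γ u) = Φ u

omit [FiniteDimensional ℝ V] in
theorem DeckMap.dist_γ {A : Mdl X V} {T : V ≃ₗᵢ[ℝ] V} {γ : X → X} (h : DeckMap A Φ T γ) (u v : X) :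
    dist (γ u) (γ v) = dist u v := by
  rw [A.gram, h.P_γ, h.P_γ, T.inner_map_map]

omit [FiniteDimensional ℝ V] in
theorem DeckMap.comp {A : Mdl X V} {T : V ≃ₗᵢ[ℝ] V} {γ : X → X} (h : DeckMap A Φ T γ) :
    DeckMap A Φ (T.trans T) (γ ∘ γ) where
  P_γ := fun u => by simp [h.P_γ]
  Φ_γ := fun u => by simp [h.Φ_γ]

omit [FiniteDimensional ℝ V] in
/-- deck maps are free -/
theorem DeckMap.free {A : Mdl X V} {T : V ≃ₗᵢ[ℝ] V} {γ : X → X} (h : DeckMap A Φ T γ)
    (hL : Loc Φ ρ) {x : X} (hx : T (A.P x) = A.P x) : ∀ v, T v = v := by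
  have h0 : dist (γ x) x = 0 := by rw [← A.eq_iff, h.P_γ, hx]
  have key : ∀ v ∈ A.P '' ball x ρ, T v = (LinearIsometryEquiv.refl ℝ V) v := by
    rintro _ ⟨u, hu, rfl⟩
    rw [← h.P_γ]
    simp only [LinearIsometryEquiv.coe_refl, id_eq]
    rw [A.eq_iff]
    have hu' : dist u x < ρ := hu
    have h1 : γ u ∈ closedBall x ρ := by
      rw [mem_closedBall]
      have := dist_triangle (γ u) (γ x) x
      rw [h0, h.dist_γ] at this
      linarith
    rw [← hL.iso x _ h1 _ (ball_subset_closedBall hu), h.Φ_γ, dist_self]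
  exact eq_of_eqOn_span (A.span x ρ hL.pos) key

/-- **existence of deck maps** -/
theorem exists_deck (A : Mdl X V) (h : Loc Φ ρ) (hX : ExM X) {p p' : X} (hp : Φ p = Φ p') :
    ∃ (T : V ≃ₗᵢ[ℝ] V) (γ : X → X), DeckMap A Φ T γ ∧ dist (γ p) p' = 0 := by
  obtain ⟨T, hT⟩ := germ A h hp
  have hiso : ∀ u u' v v', A.P u' = T (A.P u) → A.P v' = T (A.P v) → dist u' v' = dist u v := by
    intro u u' v v' h1 h2
    rw [A.gram, h1, h2, T.inner_map_map]
  have hgood : ∀ u ∈ ball p ρ, ∃ u', A.P u' = T (A.P u) ∧ Φ u' = Φ u := by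
    intro u hu
    obtain ⟨u', h1, h2, -⟩ := hT u hu
    exact ⟨u', h1, h2⟩
  -- propagation
  have hprop : ∀ q q' : X, (∀ u ∈ ball q ρ, ∃ u', A.P u' = T (A.P u) ∧ Φ u' = Φ u) →
      dist q q' < ρ → ∀ u ∈ ball q' ρ, ∃ u', A.P u' = T (A.P u) ∧ Φ u' = Φ u := by
    intro q q' hq hqq'
    set s := ρ - dist q q' with hs
    have hs0 : 0 < s := by linarith
    have hsub : ball q' s ⊆ ball q ρ := by
      intro u hu
      rw [mem_ball] at hu ⊢
      have := dist_triangle u q' q
      rw [dist_comm q' q] at this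
      linarith
    have hsub' : ball q' s ⊆ ball q' ρ := ball_subset_ball (by
      have := dist_nonneg (x := q) (y := q'); linarith)
    have hq'm : q' ∈ ball q ρ := by rw [mem_ball, dist_comm]; exact hqq'
    obtain ⟨z, hz1, hz2⟩ := hq q' hq'm
    obtain ⟨T', hT'⟩ := germ A h (p := q') (p' := z) hz2.symm
    have hTT : ∀ v, T' v = T v := by
      refine eq_of_eqOn_span (A.span q' s hs0) ?_
      rintro _ ⟨u, hu, rfl⟩
      obtain ⟨u', h1, h2, h3⟩ := hT' u (hsub' hu)
      obtain ⟨w, hw1, hw2⟩ := hq u (hsub hu)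
      rw [← h1, ← hw1, A.eq_iff]
      have m1 : u' ∈ closedBall z ρ := by
        rw [mem_closedBall, dist_comm, h3, dist_comm]
        exact ball_subset_closedBall (hsub' hu)
      have m2 : w ∈ closedBall z ρ := by
        rw [mem_closedBall, hiso _ _ _ _ hw1 hz1]
        exact ball_subset_closedBall (hsub' hu)
      rw [← h.iso _ _ m1 _ m2, h2, hw2, dist_self]
    intro u hu
    obtain ⟨u', h1, h2, -⟩ := hT' u hu
    exact ⟨u', by rw [h1, hTT], h2⟩
  have hall : ∀ k : ℕ, ∀ q : X, dist p q < k * (ρ / 2) → ∀ u ∈ ball q ρ,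
      ∃ u', A.P u' = T (A.P u) ∧ Φ u' = Φ u := by
    intro k
    induction k with
    | zero =>
      intro q hq
      have := dist_nonneg (x := p) (y := q)
      simp at hq
      linarith
    | succ k ih =>
      intro q hq
      by_cases hk : dist p q < ρ
      · exact hprop p q hgood hk
      have hk := not_lt.1 hk
      have hρ := h.pos
      set d := dist p q with hd
      have hd0 : 0 < d := by linarith
      rw [Nat.cast_succ, add_mul, one_mul] at hq
      have ht0 : 0 ≤ (d - ρ / 2) / d := div_nonneg (by linarith) hd0.le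
      have ht1 : (d - ρ / 2) / d ≤ 1 := (div_le_one hd0).2 (by linarith)
      obtain ⟨c, hc1, hc2⟩ := hX p q ((d - ρ / 2) / d) ⟨ht0, ht1⟩
      rw [← hd] at hc1 hc2
      have hc1' : dist p c = d - ρ / 2 := by rw [hc1]; field_simp
      have hc2' : dist c q = ρ / 2 := by rw [hc2]; field_simp; ring
      exact hprop c q (ih c (by rw [hc1']; linarith)) (by rw [hc2']; linarith)
  have hγ : ∀ u, ∃ u', A.P u' = T (A.P u) ∧ Φ u' = Φ u := by
    intro u
    obtain ⟨k, hk⟩ := exists_nat_gt (dist p u / (ρ / 2))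
    rw [div_lt_iff₀ (by have := h.pos; positivity)] at hk
    exact hall k u hk u (mem_ball_self h.pos)
  choose γ hγ1 hγ2 using hγ
  refine ⟨T, γ, ⟨hγ1, hγ2⟩, ?_⟩
  obtain ⟨u', h1, -, h3⟩ := hT p (mem_ball_self h.pos)
  rw [dist_self] at h3
  have h4 : dist (γ p) u' = 0 := by rw [← A.eq_iff, hγ1, h1]
  have h5 := dist_triangle (γ p) u' p'
  have h6 := dist_nonneg (x := γ p) (y := p')
  rw [dist_comm u' p'] at h5
  linarith

end deck

/-! ### pseudo-distances -/

/-- a pseudo-distance -/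
structure PD (S : Type*) where
  D : S → S → ℝ
  self : ∀ x, D x x = 0
  comm : ∀ x y, D x y = D y x
  tri : ∀ x y z, D x z ≤ D x y + D y z

variable {S : Type*}

theorem PD.nonneg (P : PD S) (x y : S) : 0 ≤ P.D x y := by
  have := P.tri x y x
  rw [P.self, P.comm y x] at this
  linarith

/-- `S` with the pseudo-distance `c * D` -/
def Syn (_ : PD S) (_ : {c : ℝ // 0 < c}) : Type _ := S

variable {P : PD S} {c : {c : ℝ // 0 < c}}

instance : PseudoMetricSpace (Syn P c) where
  dist x y := c.1 * P.D x y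
  dist_self x := by simp [P.self]
  dist_comm x y := by rw [P.comm]
  dist_triangle x y z := by
    have := P.tri x y z
    have h := c.2
    nlinarith

/-- the identity `S → Syn P c` -/
def toSyn (P : PD S) (c : {c : ℝ // 0 < c}) (x : S) : Syn P c := x
/-- the identity `Syn P c → S` -/
def ofSyn (x : Syn P c) : S := x

theorem dist_syn (x y : Syn P c) : dist x y = c.1 * P.D (ofSyn x) (ofSyn y) := rfl

theorem dist_toSyn (x y : S) : dist (toSyn P c x) (toSyn P c y) = c.1 * P.D x y := rfl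

theorem exM_syn (h : ∀ a b : S, ∀ t ∈ Icc (0 : ℝ) 1, ∃ x, P.D a x = t * P.D a b ∧
    P.D x b = (1 - t) * P.D a b) : ExM (Syn P c) := by
  intro a b t ht
  obtain ⟨x, h1, h2⟩ := h (ofSyn a) (ofSyn b) t ht
  refine ⟨toSyn P c x, ?_, ?_⟩
  · rw [dist_syn, dist_syn]
    change c.1 * P.D (ofSyn a) x = _
    rw [h1]; ring
  · rw [dist_syn, dist_syn]
    change c.1 * P.D x (ofSyn b) = _
    rw [h2]; ring

/-- frames for `D` give frames for `c * D` -/
theorem ufr_syn {n : ℕ} (h : ∀ η : ℝ, 0 < η → ∃ s₀ : ℝ, 0 < s₀ ∧ ∀ q : S, ∀ s : ℝ, 0 < s → s < s₀ →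
    ∃ e : Fin n → Bool → S, (∀ i b, |P.D q (e i b) - s| ≤ η * s) ∧
      (∀ i, |P.D (e i true) (e i false) - 2 * s| ≤ η * s) ∧
      (∀ i j b b', i ≠ j → |P.D (e i b) (e j b') - √2 * s| ≤ η * s)) : UFr n (Syn P c) := by
  intro η hη
  obtain ⟨s₀, hs₀, hfr⟩ := h η hη
  have hc := c.2
  refine ⟨c.1 * s₀, by positivity, fun q s hs0 hs => ?_⟩
  obtain ⟨e, h1, h2, h3⟩ := hfr (ofSyn q) (s / c.1) (by positivity)
    ((div_lt_iff₀ hc).2 (by linarith))
  have key : ∀ x y : S, ∀ τ : ℝ, |P.D x y - τ * (s / c.1)| ≤ η * (s / c.1) →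
      |c.1 * P.D x y - τ * s| ≤ η * s := by
    intro x y τ h
    have e1 : c.1 * P.D x y - τ * s = c.1 * (P.D x y - τ * (s / c.1)) := by field_simp
    rw [e1, abs_mul, abs_of_pos hc]
    calc c.1 * |P.D x y - τ * (s / c.1)| ≤ c.1 * (η * (s / c.1)) := by gcongr
      _ = η * s := by field_simp
  refine ⟨fun i b => toSyn P c (e i b), fun i b => ?_, fun i => ?_, fun i j b b' hij => ?_⟩
  · have := key (ofSyn q) (e i b) 1 (by rw [one_mul]; exact h1 i b)
    rw [one_mul] at this
    exact this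
  · exact key _ _ 2 (h2 i)
  · exact key _ _ (√2) (h3 i j b b' hij)

theorem continuous_toSyn [TopologicalSpace S] (h : ∀ x, Tendsto (fun y => P.D x y) (𝓝 x) (𝓝 0)) :
    Continuous (toSyn P c) := by
  rw [continuous_iff_continuousAt]
  intro x
  rw [ContinuousAt, tendsto_iff_dist_tendsto_zero]
  have : (fun y => dist (toSyn P c y) (toSyn P c x)) = fun y => c.1 * P.D x y := by
    ext y
    rw [dist_toSyn, P.comm]
  rw [this]
  simpa using (h x).const_mul c.1

theorem compact_syn [TopologicalSpace S] [CompactSpace S]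
    (h : ∀ x, Tendsto (fun y => P.D x y) (𝓝 x) (𝓝 0)) : CompactSpace (Syn P c) := by
  have : Function.Surjective (toSyn P c) := fun x => ⟨ofSyn x, rfl⟩
  exact this.compactSpace (continuous_toSyn h)

theorem pathConnected_syn [TopologicalSpace S] [PathConnectedSpace S]
    (h : ∀ x, Tendsto (fun y => P.D x y) (𝓝 x) (𝓝 0)) : PathConnectedSpace (Syn P c) := by
  have : Function.Surjective (toSyn P c) := fun x => ⟨ofSyn x, rfl⟩
  exact this.pathConnectedSpace (continuous_toSyn h)

theorem t2_syn (h : ∀ x y, P.D x y = 0 → x = y) : T2Space (Syn P c) := by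
  have : T0Space (Syn P c) := by
    rw [t0Space_iff_inseparable]
    intro x y hxy
    have h1 := Metric.inseparable_iff.1 hxy
    rw [dist_syn, mul_eq_zero] at h1
    rcases h1 with h1 | h1
    · exact absurd h1 c.2.ne'
    · exact h _ _ h1
  infer_instance

end

end Crest.Agent.R249.Cov3_802
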