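import Crest.Agent.R249.Cov3_802
import Mathlib.Geometry.Euclidean.Angle.Unoriented.TriangleInequality

/-!
# R249 (helper802), part 4: the round sphere as a model
-/

set_option autoImplicit false
set_option linter.unusedSectionVars false
open Set Metric Filter Topology

namespace Crest.Agent.R249.Cov4_802

open Crest.Agent.R249.Cov1_802 Crest.Agent.R249.Cov3_802

noncomputable section

/-! ### one variable -/

theorem small_of_hasDerivAt {f : ℝ → ℝ} {c : ℝ} (hf : HasDerivAt f c 0) (h0 : f 0 = 0)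
    (η : ℝ) (hη : 0 < η) : ∃ s₀ : ℝ, 0 < s₀ ∧ ∀ s, 0 < s → s < s₀ → |f s - c * s| ≤ η * s := by
  have h1 := (hasDerivAt_iff_isLittleO.1 hf).def hη
  obtain ⟨s₀, hs₀, h2⟩ := Metric.eventually_nhds_iff.1 h1
  refine ⟨s₀, hs₀, fun s hs hs' => ?_⟩
  have h3 := h2 (y := s) (by rw [Real.dist_eq, sub_zero, abs_of_pos hs]; exact hs')
  simp only [h0, sub_zero, smul_eq_mul, Real.norm_eq_abs, abs_of_pos hs] at h3
  rw [mul_comm c s]
  exact h3

/-- distance of two points at distance `s` in orthogonal directions of a sphere -/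
def f1 (s : ℝ) : ℝ := 2 * Real.arcsin (Real.sin s / √2)
/-- distance of two points at distance `s` in directions `e`, `i e` of the projective space -/
def f2 (s : ℝ) : ℝ := Real.arcsin (√2 * Real.sin s * Real.cos s)

theorem f1_deriv : HasDerivAt f1 (√2) 0 := by
  have h1 : HasDerivAt (fun s : ℝ => Real.sin s / √2) (Real.cos 0 / √2) 0 :=
    (Real.hasDerivAt_sin 0).div_const _
  have h2 : HasDerivAt Real.arcsin (1 / √(1 - (Real.sin 0 / √2) ^ 2)) (Real.sin 0 / √2) := by
    apply Real.hasDerivAt_arcsin <;> simp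
  have h3 := (h2.comp (0:ℝ) h1).const_mul 2
  have e : 2 * (1 / √(1 - (Real.sin 0 / √2) ^ 2) * (Real.cos 0 / √2)) = √2 := by
    have : √2 * √2 = 2 := Real.mul_self_sqrt (by norm_num)
    have h : √2 ≠ 0 := by positivity
    simp only [Real.sin_zero, Real.cos_zero, zero_div]
    norm_num
    field_simp
    linarith
  rw [e] at h3
  exact h3

theorem f1_zero : f1 0 = 0 := by simp [f1]
theorem f2_zero : f2 0 = 0 := by simp [f2]

theorem f2_deriv : HasDerivAt f2 (√2) 0 := by
  have h1 : HasDerivAt (fun s : ℝ => √2 * Real.sin s * Real.cos s)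
      ((√2 * Real.cos 0) * Real.cos 0 + (√2 * Real.sin 0) * (-Real.sin 0)) 0 :=
    ((Real.hasDerivAt_sin 0).const_mul _).mul (Real.hasDerivAt_cos 0)
  have h2 : HasDerivAt Real.arcsin (1 / √(1 - (√2 * Real.sin 0 * Real.cos 0) ^ 2))
      (√2 * Real.sin 0 * Real.cos 0) := by
    apply Real.hasDerivAt_arcsin <;> simp
  have h3 := h2.comp (0:ℝ) h1
  have e : 1 / √(1 - (√2 * Real.sin 0 * Real.cos 0) ^ 2) *
      ((√2 * Real.cos 0) * Real.cos 0 + (√2 * Real.sin 0) * (-Real.sin 0)) = √2 := by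
    simp
  rw [e] at h3
  exact h3

theorem arccos_f1 {s : ℝ} (h0 : 0 ≤ s) (h1 : s ≤ Real.pi / 2) :
    Real.arccos (Real.cos s * Real.cos s) = f1 s := by
  have hpi := Real.pi_pos
  have hs0 : 0 ≤ Real.sin s := Real.sin_nonneg_of_nonneg_of_le_pi h0 (by linarith)
  have h2 : (0:ℝ) < √2 := by positivity
  have h2' : √2 * √2 = 2 := Real.mul_self_sqrt (by norm_num)
  have hs1 : Real.sin s / √2 ≤ 1 := by
    rw [div_le_one h2]
    have := Real.sin_le_one s
    nlinarith
  have hs2 : 0 ≤ Real.sin s / √2 := by positivity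
  have hy0 : 0 ≤ Real.arcsin (Real.sin s / √2) := Real.arcsin_nonneg.2 hs2
  have hy1 := Real.arcsin_le_pi_div_two (Real.sin s / √2)
  have h3 : Real.cos (f1 s) = Real.cos s * Real.cos s := by
    rw [f1, Real.cos_two_mul, Real.cos_sq', Real.sin_arcsin (by linarith) hs1]
    have := Real.sin_sq_add_cos_sq s
    field_simp
    nlinarith
  rw [← h3, Real.arccos_cos (by unfold f1; linarith) (by unfold f1; linarith)]

theorem arccos_f2 {s : ℝ} (h0 : 0 ≤ s) (h1 : s ≤ Real.pi / 2) :
    Real.arccos (√(Real.cos s ^ 4 + Real.sin s ^ 4)) = f2 s := by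
  have hpi := Real.pi_pos
  have hs0 : 0 ≤ Real.sin s := Real.sin_nonneg_of_nonneg_of_le_pi h0 (by linarith)
  have hc0 : 0 ≤ Real.cos s := Real.cos_nonneg_of_mem_Icc ⟨by linarith, h1⟩
  have h2' : √2 * √2 = 2 := Real.mul_self_sqrt (by norm_num)
  have h2 : (0:ℝ) < √2 := by positivity
  have hsc := Real.sin_sq_add_cos_sq s
  have e1 : (√2 * Real.sin s * Real.cos s) ^ 2 + (Real.cos s ^ 4 + Real.sin s ^ 4) = 1 := by
    have : (√2 * Real.sin s * Real.cos s) ^ 2 = 2 * Real.sin s ^ 2 * Real.cos s ^ 2 := by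
      rw [mul_pow, mul_pow, sq (√2), h2']
    rw [this]
    have : (Real.sin s ^ 2 + Real.cos s ^ 2) ^ 2 = 1 := by rw [hsc]; norm_num
    nlinarith
  have hx0 : 0 ≤ √2 * Real.sin s * Real.cos s := by positivity
  have e2 : Real.cos (f2 s) = √(Real.cos s ^ 4 + Real.sin s ^ 4) := by
    rw [f2, Real.cos_arcsin]
    congr 1
    linarith
  have hy0 : 0 ≤ f2 s := Real.arcsin_nonneg.2 hx0
  have hy1 : f2 s ≤ Real.pi / 2 := Real.arcsin_le_pi_div_two _
  rw [← e2, Real.arccos_cos hy0 (by linarith)]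

/-! ### the sphere -/

section sphere

variable {V : Type*} [NormedAddCommGroup V] [InnerProductSpace ℝ V]

theorem nrm (p : sphere (0 : V) 1) : ‖(p : V)‖ = 1 := norm_eq_of_mem_sphere p

theorem inner_self_sph (p : sphere (0 : V) 1) : (inner ℝ (p : V) p : ℝ) = 1 := by
  rw [real_inner_self_eq_norm_sq, nrm]; norm_num

theorem abs_inner_le (p q : sphere (0 : V) 1) : |(inner ℝ (p : V) q : ℝ)| ≤ 1 := by
  have := abs_real_inner_le_norm (p : V) q
  rwa [nrm, nrm, mul_one] at this

theorem le_inner (p q : sphere (0 : V) 1) : -1 ≤ (inner ℝ (p : V) q : ℝ) :=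
  (abs_le.1 (abs_inner_le p q)).1

theorem inner_le (p q : sphere (0 : V) 1) : (inner ℝ (p : V) q : ℝ) ≤ 1 :=
  (abs_le.1 (abs_inner_le p q)).2

theorem angle_eq_arccos {x y : V} (hx : ‖x‖ = 1) (hy : ‖y‖ = 1) :
    InnerProductGeometry.angle x y = Real.arccos (inner ℝ x y) := by
  rw [InnerProductGeometry.angle, hx, hy, mul_one, div_one]

/-- the great circle distance -/
def sphPD (V : Type*) [NormedAddCommGroup V] [InnerProductSpace ℝ V] : PD (sphere (0 : V) 1) where
  D p q := Real.arccos (inner ℝ (p : V) q)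
  self p := by rw [inner_self_sph, Real.arccos_one]
  comm p q := by rw [real_inner_comm]
  tri p q r := by
    have := InnerProductGeometry.angle_le_angle_add_angle (p : V) (q : V) (r : V)
    rwa [angle_eq_arccos (nrm p) (nrm r), angle_eq_arccos (nrm p) (nrm q),
      angle_eq_arccos (nrm q) (nrm r)] at this

theorem sphPD_D (p q : sphere (0 : V) 1) :
    (sphPD V).D p q = Real.arccos (inner ℝ (p : V) q) := rfl

theorem cos_sphPD (p q : sphere (0 : V) 1) :
    Real.cos ((sphPD V).D p q) = (inner ℝ (p : V) q : ℝ) :=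
  Real.cos_arccos (le_inner p q) (inner_le p q)

theorem sphPD_cont : Continuous fun x : sphere (0 : V) 1 × sphere (0 : V) 1 =>
    (sphPD V).D x.1 x.2 := by
  have h1 : Continuous fun x : sphere (0 : V) 1 × sphere (0 : V) 1 =>
      (inner ℝ (x.1 : V) (x.2 : V) : ℝ) :=
    (continuous_subtype_val.comp continuous_fst).inner (continuous_subtype_val.comp continuous_snd)
  exact Real.continuous_arccos.comp h1

theorem sphPD_tendsto (x : sphere (0 : V) 1) : Tendsto (fun y => (sphPD V).D x y) (𝓝 x) (𝓝 0) := by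
  have h1 : Continuous fun y : sphere (0 : V) 1 => (inner ℝ (x : V) (y : V) : ℝ) :=
    continuous_const.inner continuous_subtype_val
  have h2 : Continuous fun y => (sphPD V).D x y := Real.continuous_arccos.comp h1
  have h3 := h2.tendsto x
  have h4 : (sphPD V).D x x = 0 := (sphPD V).self x
  simp only [h4] at h3
  exact h3

theorem sphPD_eq {x y : sphere (0 : V) 1} (h : (sphPD V).D x y = 0) : x = y := by
  have h1 := cos_sphPD x y
  rw [h, Real.cos_zero] at h1
  exact Subtype.ext ((inner_eq_one_iff_of_norm_eq_one (nrm x) (nrm y)).1 h1.symm)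

/-- the chordal distance is at most the great circle distance -/
theorem chord_le (x y : sphere (0 : V) 1) : dist x y ≤ (sphPD V).D x y := by
  have h0 := (sphPD V).nonneg x y
  have h1 : dist x y ^ 2 = 2 * (1 - Real.cos ((sphPD V).D x y)) := by
    rw [cos_sphPD, Subtype.dist_eq, dist_eq_norm, norm_sub_sq_real, nrm, nrm]
    ring
  have h2 := Real.one_sub_sq_div_two_le_cos (x := (sphPD V).D x y)
  exact abs_le_of_sq_le_sq' (by nlinarith) h0 |>.2

/-- the point at distance `θ` from `p` in the direction `u` -/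
def pt (p u : V) (θ : ℝ) : V := Real.cos θ • p + Real.sin θ • u

theorem inner_pt_pt {p u : V} (hp : ‖p‖ = 1) (hu : ‖u‖ = 1) (hpu : (inner ℝ p u : ℝ) = 0)
    (θ φ : ℝ) : (inner ℝ (pt p u θ) (pt p u φ) : ℝ) = Real.cos (θ - φ) := by
  have hup : (inner ℝ u p : ℝ) = 0 := by rw [real_inner_comm, hpu]
  simp only [pt, inner_add_left, inner_add_right, real_inner_smul_left, real_inner_smul_right,
    real_inner_self_eq_norm_sq, hp, hu, hpu, hup, Real.cos_sub]
  ring

theorem norm_pt {p u : V} (hp : ‖p‖ = 1) (hu : ‖u‖ = 1) (hpu : (inner ℝ p u : ℝ) = 0) (θ : ℝ) :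
    ‖pt p u θ‖ = 1 := by
  have h := inner_pt_pt hp hu hpu θ θ
  rw [sub_self, Real.cos_zero, real_inner_self_eq_norm_sq] at h
  have h0 := norm_nonneg (pt p u θ)
  nlinarith

theorem inner_pt {p u : V} (hp : ‖p‖ = 1) (hu : ‖u‖ = 1) (hpu : (inner ℝ p u : ℝ) = 0)
    (θ : ℝ) : (inner ℝ p (pt p u θ) : ℝ) = Real.cos θ := by
  have h := inner_pt_pt hp hu hpu 0 θ
  simp only [pt, Real.cos_zero, Real.sin_zero, zero_smul, one_smul, add_zero, zero_sub,
    Real.cos_neg] at h
  exact h

theorem inner_pt_orth {p u v : V} (hp : ‖p‖ = 1) (hpu : (inner ℝ p u : ℝ) = 0)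
    (hpv : (inner ℝ p v : ℝ) = 0) (huv : (inner ℝ u v : ℝ) = 0)
    (θ φ : ℝ) : (inner ℝ (pt p u θ) (pt p v φ) : ℝ) = Real.cos θ * Real.cos φ := by
  have hup : (inner ℝ u p : ℝ) = 0 := by rw [real_inner_comm, hpu]
  simp only [pt, inner_add_left, inner_add_right, real_inner_smul_left, real_inner_smul_right,
    real_inner_self_eq_norm_sq, hp, hpv, hup, huv]
  ring

/-- every point is seen from every other -/
theorem exists_dir (hV : ∀ p : V, ‖p‖ = 1 → ∃ u : V, ‖u‖ = 1 ∧ (inner ℝ p u : ℝ) = 0)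
    (p q : sphere (0 : V) 1) : ∃ u : V, ‖u‖ = 1 ∧ (inner ℝ (p : V) u : ℝ) = 0 ∧
      (q : V) = pt (p : V) u ((sphPD V).D p q) := by
  set θ := (sphPD V).D p q with hθ
  have hc : Real.cos θ = (inner ℝ (p : V) q : ℝ) := cos_sphPD p q
  by_cases hs : Real.sin θ = 0
  · obtain ⟨u, hu, hpu⟩ := hV p (nrm p)
    refine ⟨u, hu, hpu, ?_⟩
    rw [pt, hs, zero_smul, add_zero, hc]
    have h1 := Real.sin_sq_add_cos_sq θ
    rw [hs, hc] at h1
    have h2 : (inner ℝ (p : V) q : ℝ) ^ 2 = 1 := by linarith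
    rcases sq_eq_one_iff.1 h2 with h3 | h3
    · rw [h3, one_smul]
      exact ((inner_eq_one_iff_of_norm_eq_one (nrm p) (nrm q)).1 h3).symm
    · rw [h3]
      have := (inner_eq_neg_one_iff_of_norm_eq_one (nrm p) (nrm q)).1 h3
      rw [this]; simp
  · refine ⟨(Real.sin θ)⁻¹ • ((q : V) - Real.cos θ • (p : V)), ?_, ?_, ?_⟩
    · have h1 : ‖(q : V) - Real.cos θ • (p : V)‖ ^ 2 = Real.sin θ ^ 2 := by
        rw [norm_sub_sq_real, norm_smul, real_inner_smul_right, real_inner_comm, ← hc, nrm, nrm,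
          Real.norm_eq_abs, mul_one, sq_abs]
        have := Real.sin_sq_add_cos_sq θ
        nlinarith
      have hs0 : 0 ≤ Real.sin θ :=
        Real.sin_nonneg_of_nonneg_of_le_pi (Real.arccos_nonneg _) (Real.arccos_le_pi _)
      have h2 : ‖(q : V) - Real.cos θ • (p : V)‖ = Real.sin θ :=
        (sq_eq_sq₀ (norm_nonneg _) hs0).1 h1
      rw [norm_smul, h2, norm_inv, Real.norm_eq_abs, abs_of_nonneg hs0, inv_mul_cancel₀ hs]
    · rw [real_inner_smul_right, inner_sub_right, real_inner_smul_right, inner_self_sph, ← hc]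
      ring
    · rw [pt, smul_inv_smul₀ hs]
      abel

theorem arccos_cos_abs {θ : ℝ} (h : |θ| ≤ Real.pi) : Real.arccos (Real.cos θ) = |θ| := by
  rw [← Real.cos_abs, Real.arccos_cos (abs_nonneg θ) h]

theorem mid (hV : ∀ p : V, ‖p‖ = 1 → ∃ u : V, ‖u‖ = 1 ∧ (inner ℝ p u : ℝ) = 0)
    (a b : sphere (0 : V) 1) (t : ℝ) (ht : t ∈ Icc (0:ℝ) 1) :
    ∃ x, (sphPD V).D a x = t * (sphPD V).D a b ∧ (sphPD V).D x b = (1 - t) * (sphPD V).D a b := by
  obtain ⟨u, hu, hpu, hb⟩ := exists_dir hV a b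
  set θ := (sphPD V).D a b with hθ
  have h0 : 0 ≤ θ := Real.arccos_nonneg _
  have h1 : θ ≤ Real.pi := Real.arccos_le_pi _
  have hn := norm_pt (nrm a) hu hpu (t * θ)
  refine ⟨⟨pt (a : V) u (t * θ), by simp [hn]⟩, ?_, ?_⟩
  · have e1 := inner_pt (nrm a) hu hpu (t * θ)
    change Real.arccos (inner ℝ (a : V) (pt (a : V) u (t * θ))) = _
    rw [e1, Real.arccos_cos (mul_nonneg ht.1 h0) (by nlinarith [ht.2])]
  · have e1 := inner_pt_pt (nrm a) hu hpu (t * θ) θ
    change Real.arccos (inner ℝ (pt (a : V) u (t * θ)) (b : V)) = _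
    rw [hb, e1, ← Real.cos_neg, Real.arccos_cos (by nlinarith [ht.2]) (by nlinarith [ht.1])]
    ring

theorem frames {n : ℕ} (hF : ∀ p : V, ‖p‖ = 1 → ∃ e : Fin n → V, Orthonormal ℝ e ∧
    ∀ i, (inner ℝ p (e i) : ℝ) = 0) (η : ℝ) (hη : 0 < η) :
    ∃ s₀ : ℝ, 0 < s₀ ∧ ∀ q : sphere (0 : V) 1, ∀ s : ℝ, 0 < s → s < s₀ →
    ∃ e : Fin n → Bool → sphere (0 : V) 1, (∀ i b, (sphPD V).D q (e i b) = s) ∧
      (∀ i, (sphPD V).D (e i true) (e i false) = 2 * s) ∧
      (∀ i j b b', i ≠ j → |(sphPD V).D (e i b) (e j b') - √2 * s| ≤ η * s) := by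
  obtain ⟨s₁, hs₁, hsm⟩ := small_of_hasDerivAt f1_deriv f1_zero η hη
  have hpi := Real.pi_pos
  refine ⟨min s₁ (Real.pi / 2), by positivity, fun q s hs hs' => ?_⟩
  have hss : s < s₁ := hs'.trans_le (min_le_left _ _)
  have hsp : s < Real.pi / 2 := hs'.trans_le (min_le_right _ _)
  obtain ⟨e, he, hqe⟩ := hF q (nrm q)
  have hn : ∀ i (b : Bool), ‖pt (q : V) (e i) (if b then s else -s)‖ = 1 := fun i b =>
    norm_pt (nrm q) (he.1 i) (hqe i) _
  have hcs : ∀ b : Bool, Real.cos (if b then s else -s) = Real.cos s := by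
    intro b; cases b <;> simp
  refine ⟨fun i b => ⟨pt (q : V) (e i) (if b then s else -s), by simpa using hn i b⟩, fun i b => ?_,
    fun i => ?_, fun i j b b' hij => ?_⟩
  · have e1 := inner_pt (nrm q) (he.1 i) (hqe i) (if b then s else -s)
    change Real.arccos (inner ℝ (q : V) (pt (q : V) (e i) (if b then s else -s))) = _
    rw [e1, hcs, Real.arccos_cos hs.le (by linarith)]
  · have e1 := inner_pt_pt (nrm q) (he.1 i) (hqe i) s (-s)
    change Real.arccos (inner ℝ (pt (q : V) (e i) (if true then s else -s))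
      (pt (q : V) (e i) (if false then s else -s))) = _
    simp only [if_true, Bool.false_eq_true, if_false]
    rw [e1, Real.arccos_cos (by linarith) (by linarith)]
    ring
  · have e1 := inner_pt_orth (nrm q) (hqe i) (hqe j) (he.2 hij) (if b then s else -s)
      (if b' then s else -s)
    change |Real.arccos (inner ℝ (pt (q : V) (e i) (if b then s else -s))
      (pt (q : V) (e j) (if b' then s else -s))) - _| ≤ _
    rw [e1, hcs, hcs, arccos_f1 hs.le hsp.le]
    exact hsm s hs hss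

/-- small balls of the sphere span -/
theorem span_sph (x : sphere (0 : V) 1) (r : ℝ) (hr : 0 < r) :
    Submodule.span ℝ ((fun y : sphere (0 : V) 1 => (y : V)) '' {y | (sphPD V).D y x < r}) = ⊤ := by
  have hpi := Real.pi_pos
  set W := Submodule.span ℝ ((fun y : sphere (0 : V) 1 => (y : V)) '' {y | (sphPD V).D y x < r})
    with hW
  have hx : (x : V) ∈ W := Submodule.subset_span ⟨x, by
    change (sphPD V).D x x < r
    rw [(sphPD V).self]; exact hr, rfl⟩
  rw [eq_top_iff]
  intro v _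
  set w : V := v - (inner ℝ (x : V) v : ℝ) • (x : V) with hw
  have hxw : (inner ℝ (x : V) w : ℝ) = 0 := by
    rw [hw, inner_sub_right, real_inner_smul_right, inner_self_sph]; ring
  have hwW : w ∈ W := by
    by_cases h0 : w = 0
    · rw [h0]; exact W.zero_mem
    have hw0 : ‖w‖ ≠ 0 := norm_ne_zero_iff.2 h0
    set u : V := ‖w‖⁻¹ • w with hu
    have hu1 : ‖u‖ = 1 := by
      rw [hu, norm_smul, norm_inv, norm_norm, inv_mul_cancel₀ hw0]
    have hxu : (inner ℝ (x : V) u : ℝ) = 0 := by rw [hu, real_inner_smul_right, hxw, mul_zero]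
    obtain ⟨s, hs0, hs1, hs2⟩ : ∃ s, 0 < s ∧ s < r ∧ s < Real.pi :=
      ⟨min r Real.pi / 2, by positivity,
        (half_lt_self (by positivity)).trans_le (min_le_left _ _),
        (half_lt_self (by positivity)).trans_le (min_le_right _ _)⟩
    have hn := norm_pt (nrm x) hu1 hxu s
    have h1 : pt (x : V) u s ∈ W := by
      refine Submodule.subset_span ⟨⟨pt (x : V) u s, by simp [hn]⟩, ?_, rfl⟩
      change (sphPD V).D _ x < r
      rw [(sphPD V).comm]
      change Real.arccos (inner ℝ (x : V) (pt (x : V) u s)) < r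
      rw [inner_pt (nrm x) hu1 hxu, Real.arccos_cos hs0.le hs2.le]
      exact hs1
    have hsin : Real.sin s ≠ 0 := (Real.sin_pos_of_pos_of_lt_pi hs0 hs2).ne'
    have h2 : w = (‖w‖ * (Real.sin s)⁻¹) • (pt (x : V) u s - Real.cos s • (x : V)) := by
      rw [pt, add_sub_cancel_left, smul_smul, mul_assoc, inv_mul_cancel₀ hsin, mul_one, hu,
        smul_inv_smul₀ hw0]
    rw [h2]
    exact W.smul_mem _ (W.sub_mem h1 (W.smul_mem _ hx))
  have : v = w + (inner ℝ (x : V) v : ℝ) • (x : V) := by rw [hw]; abel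
  rw [this]
  exact W.add_mem hwW (W.smul_mem _ hx)

/-- the sphere model -/
def sphMdl (V : Type*) [NormedAddCommGroup V] [InnerProductSpace ℝ V] (c : {c : ℝ // 0 < c}) :
    Mdl (Syn (sphPD V) c) V where
  P x := ((ofSyn x : sphere (0 : V) 1) : V)
  gram x y x' y' := by
    rw [dist_syn, dist_syn, mul_right_inj' c.2.ne']
    constructor
    · intro h
      have := congrArg Real.cos h
      rwa [cos_sphPD, cos_sphPD] at this
    · intro h
      rw [sphPD_D, sphPD_D, h]
  span x r hr := by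
    have h := span_sph (ofSyn x) (r / c.1) (div_pos hr c.2)
    rw [eq_top_iff, ← h]
    apply Submodule.span_mono
    rintro _ ⟨y, hy, rfl⟩
    refine ⟨toSyn _ c y, ?_, rfl⟩
    have hy' : (sphPD V).D y (ofSyn x) < r / c.1 := hy
    rw [lt_div_iff₀ c.2, mul_comm] at hy'
    exact hy'

end sphere

end

end Crest.Agent.R249.Cov4_802
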