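import Crest.Agent.R249.Cov2_802
import Crest.Agent.R249.Cov4_802
import Crest.Prelude.Def_ChartCurvature

/-!
# R249 (helper802), part 5: manifolds covered by round spheres
-/

set_option autoImplicit false
set_option linter.unusedSectionVars false
set_option maxSynthPendingDepth 3
open Set Metric Filter Topology Bundle Manifold
open scoped ContDiff
open Crest.GeometryTopology.ChartCurvature

namespace Crest.Agent.R249.Cov5_802

open Crest.Agent.R249.Cov1_802 Crest.Agent.R249.Cov2_802 Crest.Agent.R249.Cov3_802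
  Crest.Agent.R249.Cov4_802

noncomputable section

section linear

variable {V : Type*} [NormedAddCommGroup V] [InnerProductSpace ℝ V] [FiniteDimensional ℝ V]

/-- the determinant of a linear isometry -/
def dt (T : V ≃ₗᵢ[ℝ] V) : ℝ := LinearMap.det (T.toLinearEquiv : V →ₗ[ℝ] V)

theorem dt_trans (T S : V ≃ₗᵢ[ℝ] V) : dt (T.trans S) = dt T * dt S := by
  unfold dt
  have : ((T.trans S).toLinearEquiv : V →ₗ[ℝ] V) =
      (S.toLinearEquiv : V →ₗ[ℝ] V) * (T.toLinearEquiv : V →ₗ[ℝ] V) := by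
    ext v; rfl
  rw [this, map_mul, mul_comm]

theorem dt_cases (T : V ≃ₗᵢ[ℝ] V) : dt T = 1 ∨ dt T = -1 := by
  set b := stdOrthonormalBasis ℝ V
  have h1 := T.toMatrix_mem_unitaryGroup b b
  have h2 := (Matrix.det_of_mem_unitary h1).1
  have h3 : dt T = (LinearMap.toMatrix b.toBasis b.toBasis (T.toLinearEquiv : V →ₗ[ℝ] V)).det := by
    rw [LinearMap.det_toMatrix]; rfl
  have h4 : dt T * dt T = 1 := by
    rw [star_trivial] at h2
    rw [h3]
    exact h2
  rw [← sq_eq_one_iff, sq, h4]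

/-- a linear isometry of determinant one in odd dimension fixes a unit vector -/
theorem exists_fixed_of_det (hodd : Odd (Module.finrank ℝ V)) (T : V ≃ₗᵢ[ℝ] V) (hdet : dt T = 1) :
    ∃ v : V, ‖v‖ = 1 ∧ T v = v := by
  classical
  set b := stdOrthonormalBasis ℝ V
  set A := LinearMap.toMatrix b.toBasis b.toBasis (T.toLinearEquiv : V →ₗ[ℝ] V) with hA
  have h1 : A ∈ Matrix.unitaryGroup _ ℝ := T.toMatrix_mem_unitaryGroup b b
  have h2 : A * star A = 1 := Matrix.mem_unitaryGroup_iff.1 h1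
  have h3 : A.det = 1 := by
    rw [hA, LinearMap.det_toMatrix]; exact hdet
  have h4 : (A - 1).det = - (A - 1).det := by
    have e1 : A - 1 = A * (1 - star A) := by rw [mul_sub, h2, mul_one]
    have e2 : (1 - star A : Matrix _ _ ℝ) = star (1 - A) := by rw [star_sub, star_one]
    have e3 : (star (1 - A)).det = (1 - A).det := by
      rw [Matrix.star_eq_conjTranspose, Matrix.det_conjTranspose, star_trivial]
    have e4 : (1 - A : Matrix _ _ ℝ) = -(A - 1) := by abel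
    calc (A - 1).det = A.det * (1 - star A).det := by rw [← Matrix.det_mul, ← e1]
      _ = (1 - A).det := by rw [h3, one_mul, e2, e3]
      _ = - (A - 1).det := by
        rw [e4, Matrix.det_neg, Fintype.card_fin, hodd.neg_one_pow, neg_one_mul]
  have h5 : (A - 1).det = 0 := by linarith
  have h6 : LinearMap.det ((T.toLinearEquiv : V →ₗ[ℝ] V) - 1) = 0 := by
    rw [← LinearMap.det_toMatrix b.toBasis, map_sub, LinearMap.toMatrix_one, ← hA, h5]
  have h7 := LinearMap.det_eq_zero_iff_ker_ne_bot.1 h6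
  obtain ⟨v, hv, hv0⟩ := (Submodule.ne_bot_iff _).1 h7
  have hv1 : T v = v := by
    rw [LinearMap.mem_ker, LinearMap.sub_apply, sub_eq_zero] at hv
    exact hv
  have hn : ‖v‖ ≠ 0 := norm_ne_zero_iff.2 hv0
  refine ⟨‖v‖⁻¹ • v, ?_, by rw [map_smul, hv1]⟩
  rw [norm_smul, norm_inv, norm_norm, inv_mul_cancel₀ hn]

theorem exists_orth {n : ℕ} (hV : Module.finrank ℝ V = n + 1) (p : V) (hp : ‖p‖ = 1) :
    ∃ e : Fin n → V, Orthonormal ℝ e ∧ ∀ i, (inner ℝ p (e i) : ℝ) = 0 := by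
  have : Fact (Module.finrank ℝ V = n + 1) := ⟨hV⟩
  have hp0 : p ≠ 0 := by rintro rfl; simp at hp
  let B := OrthonormalBasis.fromOrthogonalSpanSingleton (𝕜 := ℝ) n hp0
  refine ⟨fun i => (B i : V), B.orthonormal.comp_linearIsometry (Submodule.subtypeₗᵢ _), fun i => ?_⟩
  exact Submodule.mem_orthogonal_singleton_iff_inner_right.1 (B i).2

theorem exists_orth1 {n : ℕ} (hn : n ≠ 0) (hV : Module.finrank ℝ V = n + 1) (p : V)
    (hp : ‖p‖ = 1) : ∃ u : V, ‖u‖ = 1 ∧ (inner ℝ p u : ℝ) = 0 := by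
  obtain ⟨e, he, hpe⟩ := exists_orth hV p hp
  exact ⟨e ⟨0, Nat.pos_of_ne_zero hn⟩, he.1 _, hpe _⟩

end linear

/-! ### from charts in the sense of the statements to `Loc` -/

/-- the general step: local isometries for a distance -/
theorem exists_loc' {n : ℕ} {S : Type*} [TopologicalSpace S] [CompactSpace S] (P : PD S)
    (hten : ∀ x, Tendsto (fun y => P.D x y) (𝓝 x) (𝓝 0))
    (hfr : ∀ η : ℝ, 0 < η → ∃ s₀ : ℝ, 0 < s₀ ∧ ∀ q : S, ∀ s : ℝ, 0 < s → s < s₀ →
    ∃ e : Fin n → Bool → S, (∀ i b, |P.D q (e i b) - s| ≤ η * s) ∧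
      (∀ i, |P.D (e i true) (e i false) - 2 * s| ≤ η * s) ∧
      (∀ i j b b', i ≠ j → |P.D (e i b) (e j b') - √2 * s| ≤ η * s))
    {M : Type*} [MetricSpace M] (hM : BL n M) (hE : ExM M) {a : ℝ} (ha : 0 < a) (Φ : S → M)
    (hloc : ∀ p, ∃ ε : ℝ, 0 < ε ∧ ∀ q q', P.D p q < ε → P.D p q' < ε →
      dist (Φ q) (Φ q') = P.D q q' / √a) :
    ∃ ρ : ℝ, Loc (fun x : Syn P ⟨(√a)⁻¹, inv_pos.2 (Real.sqrt_pos.2 ha)⟩ => Φ (ofSyn x)) ρ := by
  have hsa : 0 < √a := Real.sqrt_pos.2 ha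
  set c : {c : ℝ // 0 < c} := ⟨(√a)⁻¹, inv_pos.2 hsa⟩ with hc
  have : CompactSpace (Syn P c) := compact_syn hten
  have h1 : ∀ p : Syn P c, ∃ ε : ℝ, 0 < ε ∧ ∀ q q' : Syn P c, dist p q < ε → dist p q' < ε →
      dist (Φ (ofSyn q)) (Φ (ofSyn q')) = dist q q' := by
    intro p
    obtain ⟨ε, hε, h⟩ := hloc (ofSyn p)
    refine ⟨(√a)⁻¹ * ε, by positivity, fun q q' hq hq' => ?_⟩
    have key : ∀ q : Syn P c, dist p q < (√a)⁻¹ * ε → P.D (ofSyn p) (ofSyn q) < ε := by
      intro q hq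
      rw [dist_syn] at hq
      exact lt_of_mul_lt_mul_left hq (by positivity)
    rw [h _ _ (key q hq) (key q' hq'), dist_syn, div_eq_inv_mul]
  obtain ⟨ρ, hρ, h⟩ := exists_uniform (Φ := fun x : Syn P c => Φ (ofSyn x)) (ufr_syn hfr) hM hE h1
  exact ⟨ρ, hρ, fun p => (h p).1, fun p => (h p).2⟩

/-- the general step: local isometries for a distance dominating the given one -/
theorem exists_loc {n : ℕ} {S : Type*} [MetricSpace S] [CompactSpace S] (P : PD S)
    (hten : ∀ x, Tendsto (fun y => P.D x y) (𝓝 x) (𝓝 0))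
    (hch : ∀ x y, dist x y ≤ P.D x y)
    (hfr : ∀ η : ℝ, 0 < η → ∃ s₀ : ℝ, 0 < s₀ ∧ ∀ q : S, ∀ s : ℝ, 0 < s → s < s₀ →
    ∃ e : Fin n → Bool → S, (∀ i b, |P.D q (e i b) - s| ≤ η * s) ∧
      (∀ i, |P.D (e i true) (e i false) - 2 * s| ≤ η * s) ∧
      (∀ i j b b', i ≠ j → |P.D (e i b) (e j b') - √2 * s| ≤ η * s))
    {M : Type*} [MetricSpace M] (hM : BL n M) (hE : ExM M) {a : ℝ} (ha : 0 < a) (Φ : S → M)
    (hloc : ∀ p, ∃ ε : ℝ, 0 < ε ∧ ∀ q q', dist p q < ε → dist p q' < ε →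
      dist (Φ q) (Φ q') = P.D q q' / √a) :
    ∃ ρ : ℝ, Loc (fun x : Syn P ⟨(√a)⁻¹, inv_pos.2 (Real.sqrt_pos.2 ha)⟩ => Φ (ofSyn x)) ρ := by
  refine exists_loc' P hten hfr hM hE ha Φ fun p => ?_
  obtain ⟨ε, hε, h⟩ := hloc p
  exact ⟨ε, hε, fun q q' hq hq' => h q q' ((hch _ _).trans_lt hq) ((hch _ _).trans_lt hq')⟩

section T1

variable {n : ℕ} {M : Type*} [MetricSpace M] {V : Type*} [NormedAddCommGroup V]
  [InnerProductSpace ℝ V] [FiniteDimensional ℝ V]

/-- **manifolds covered by round spheres of even dimension** -/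
theorem sphere_core (hfin : Module.finrank ℝ V = n + 1) (hn : n ≠ 0) (hM : BL n M) (hE : ExM M)
    (he : Even n) {a : ℝ} (ha : 0 < a) (Φ : sphere (0 : V) 1 → M)
    (hsurj : Function.Surjective Φ)
    (hloc : ∀ p, ∃ ε : ℝ, 0 < ε ∧ ∀ q q', dist p q < ε → dist p q' < ε →
      dist (Φ q) (Φ q') = Real.arccos (inner ℝ (q : V) q') / √a) :
    (Function.Bijective Φ ∧ ∀ p q, dist (Φ p) (Φ q) = Real.arccos (inner ℝ (p : V) q) / √a) ∨
    (Function.Surjective Φ ∧ (∀ p q, Φ p = Φ q ↔ (p = q ∨ (p : V) = -(q : V))) ∧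
      ∀ p q, dist (Φ p) (Φ q) = Real.arccos |inner ℝ (p : V) q| / √a) := by
  have hsa : 0 < √a := Real.sqrt_pos.2 ha
  have hodd : Odd (Module.finrank ℝ V) := by rw [hfin]; exact he.add_one
  obtain ⟨ρ, hL⟩ := exists_loc (sphPD V) sphPD_tendsto chord_le (fun η hη => by
    obtain ⟨s₀, hs₀, h⟩ := frames (exists_orth hfin) η hη
    refine ⟨s₀, hs₀, fun q s hs hs' => ?_⟩
    obtain ⟨e, h1, h2, h3⟩ := h q s hs hs'
    refine ⟨e, fun i b => ?_, fun i => ?_, h3⟩
    · rw [h1, sub_self, abs_zero]; positivity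
    · rw [h2, sub_self, abs_zero]; positivity) hM hE ha Φ hloc
  set c : {c : ℝ // 0 < c} := ⟨(√a)⁻¹, inv_pos.2 hsa⟩ with hc
  set Ψ : Syn (sphPD V) c → M := fun x => Φ (ofSyn x) with hΨ
  have hX : ExM (Syn (sphPD V) c) := exM_syn (mid (exists_orth1 hn hfin))
  set A := sphMdl V c with hA
  have hdist : ∀ x y : Syn (sphPD V) c, dist x y = 0 → x = y := by
    intro x y hxy
    rw [dist_syn, mul_eq_zero] at hxy
    rcases hxy with h1 | h1
    · exact absurd h1 c.2.ne'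
    · exact sphPD_eq h1
  -- a nontrivial deck map is the antipode
  have key : ∀ x y : Syn (sphPD V) c, Ψ x = Ψ y → x ≠ y →
      (∀ u, Ψ (toSyn _ c (-(ofSyn u))) = Ψ u) ∧ y = toSyn _ c (-(ofSyn x)) := by
    intro x y hxy hne
    obtain ⟨T, γ, hD, hγ⟩ := exists_deck A hL hX hxy
    have hγy : γ x = y := hdist _ _ hγ
    have hfree : ∀ (T' : V ≃ₗᵢ[ℝ] V) (γ' : Syn (sphPD V) c → Syn (sphPD V) c),
        DeckMap A Ψ T' γ' → ∀ v : V, ‖v‖ = 1 → T' v = v → ∀ w, T' w = w := by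
      intro T' γ' hD' v hv hTv
      exact hD'.free hL (x := toSyn _ c ⟨v, by simpa using hv⟩) hTv
    have hT : ¬ ∀ w, T w = w := by
      intro h
      apply hne
      apply hdist
      rw [← A.eq_iff, ← hγy, hD.P_γ, h]
    have hdt : dt T ≠ 1 := by
      intro h1
      obtain ⟨v, hv, hTv⟩ := exists_fixed_of_det hodd T h1
      exact hT (hfree T γ hD v hv hTv)
    have hdt' : dt T = -1 := (dt_cases T).resolve_left hdt
    have hTT : ∀ w, T (T w) = w := by
      have h1 : dt (T.trans T) = 1 := by rw [dt_trans, hdt']; norm_num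
      obtain ⟨v, hv, hTv⟩ := exists_fixed_of_det hodd _ h1
      exact hfree _ _ hD.comp v hv hTv
    have hneg : ∀ w, T w = -w := by
      intro w
      by_contra h1
      have h2 : w + T w ≠ 0 := by
        intro h3
        apply h1
        rw [← add_eq_zero_iff_eq_neg', h3]
      have hn0 : ‖w + T w‖ ≠ 0 := norm_ne_zero_iff.2 h2
      apply hT
      refine hfree T γ hD (‖w + T w‖⁻¹ • (w + T w)) ?_ ?_
      · rw [norm_smul, norm_inv, norm_norm, inv_mul_cancel₀ hn0]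
      · rw [map_smul, map_add, hTT, add_comm (T w)]
    have hγneg : ∀ u, γ u = toSyn _ c (-(ofSyn u)) := by
      intro u
      apply Subtype.ext
      have := hD.P_γ u
      rw [hneg] at this
      exact this
    exact ⟨fun u => by rw [← hγneg, hD.Φ_γ], by rw [← hγneg, hγy]⟩
  by_cases hinj : Function.Injective Φ
  · left
    refine ⟨⟨hinj, hsurj⟩, fun p q => ?_⟩
    have := hL.isometry hX hE (fun x y h => by
      have : ofSyn x = ofSyn y := hinj h
      have : x = y := this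
      rw [this, dist_self]) (toSyn _ c p) (toSyn _ c q)
    rw [dist_toSyn] at this
    rw [div_eq_inv_mul]
    exact this
  · right
    obtain ⟨x₀, y₀, hxy₀, hne₀⟩ : ∃ x y, Φ x = Φ y ∧ x ≠ y := by
      simpa [Function.Injective] using hinj
    have hanti : ∀ u : sphere (0 : V) 1, Φ (-u) = Φ u := fun u =>
      (key (toSyn _ c x₀) (toSyn _ c y₀) hxy₀ hne₀).1 (toSyn _ c u)
    have hfib : ∀ p q, Φ p = Φ q ↔ (p = q ∨ (p : V) = -(q : V)) := by
      intro p q
      constructor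
      · intro h
        by_cases hpq : p = q
        · exact Or.inl hpq
        · right
          have : q = -p := (key (toSyn _ c p) (toSyn _ c q) h hpq).2
          rw [this]; simp
      · rintro (rfl | h)
        · rfl
        · have : p = -q := Subtype.ext h
          rw [this, hanti]
    refine ⟨hsurj, hfib, fun p q => ?_⟩
    have hle : ∀ p q, dist (Φ p) (Φ q) ≤ (√a)⁻¹ * Real.arccos (inner ℝ (p : V) q) := fun p q =>
      hL.lip hX (toSyn _ c p) (toSyn _ c q)
    obtain ⟨q', hq', hq''⟩ : ∃ q' : sphere (0 : V) 1, Φ q' = Φ q ∧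
        (√a)⁻¹ * (sphPD V).D p q' ≤ dist (Φ p) (Φ q) := by
      obtain ⟨q', hq', hq''⟩ := hL.lift hE (toSyn _ c p) (Φ q)
      exact ⟨ofSyn q', hq', hq''⟩
    rw [sphPD_D] at hq''
    have h1 := hle p q
    have h2 := hle p (-q)
    rw [hanti] at h2
    have e1 : (inner ℝ (p : V) ((-q : sphere (0 : V) 1) : V) : ℝ) = -inner ℝ (p : V) q := by
      rw [coe_neg_sphere, inner_neg_right]
    rw [e1] at h2
    rw [div_eq_inv_mul]
    rcases abs_cases (inner ℝ (p : V) q : ℝ) with ⟨h3, h4⟩ | ⟨h3, h4⟩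
    · rw [h3]
      refine le_antisymm h1 ?_
      rcases (hfib _ _).1 hq' with h5 | h5
      · rwa [h5] at hq''
      · rw [h5, inner_neg_right] at hq''
        refine le_trans ?_ hq''
        gcongr
        linarith
    · rw [h3]
      refine le_antisymm h2 ?_
      rcases (hfib _ _).1 hq' with h5 | h5
      · rw [h5] at hq''
        refine le_trans ?_ hq''
        gcongr
        linarith
      · rwa [h5, inner_neg_right] at hq''

end T1

/-! ### the statements -/

section final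

variable (n : ℕ) (M : Type*) [MetricSpace M] [ChartedSpace (EuclideanSpace ℝ (Fin n)) M]
  [IsManifold 𝓘(ℝ, EuclideanSpace ℝ (Fin n)) ∞ M] [CompleteSpace M]
  [RiemannianBundle (fun x : M => TangentSpace 𝓘(ℝ, EuclideanSpace ℝ (Fin n)) x)]
  [IsContMDiffRiemannianBundle 𝓘(ℝ, EuclideanSpace ℝ (Fin n)) ∞ (EuclideanSpace ℝ (Fin n))
    (fun x : M => TangentSpace 𝓘(ℝ, EuclideanSpace ℝ (Fin n)) x)]
  [IsRiemannianManifold 𝓘(ℝ, EuclideanSpace ℝ (Fin n)) M]

/-- **a complete Riemannian manifold of even dimension locally covered by a round sphere is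
homothetic to the round sphere or to the real projective space** -/
theorem sphere_or_projective (hn : n ≠ 0) (he : Even n) {a : ℝ}
    (h : IsLocallyCoveredByRoundSphere M n a) :
    IsHomotheticToRoundSphere M n a ∨ IsHomotheticToRealProjective M n a := by
  obtain ⟨ha, Φ, hsurj, hloc⟩ := h
  have hfin : Module.finrank ℝ (EuclideanSpace ℝ (Fin (n + 1))) = n + 1 := by simp
  rcases sphere_core hfin hn (bl n M) (exM n M) he ha Φ hsurj hloc with ⟨h1, h2⟩ | ⟨h1, h2, h3⟩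
  · exact Or.inl ⟨ha, Φ, h1, h2⟩
  · exact Or.inr ⟨ha, Φ, h1, h2, h3⟩

end final

/-- (T1) of row 249 -/
theorem T1 (M : Type*) [MetricSpace M] [ChartedSpace (EuclideanSpace ℝ (Fin 4)) M]
    [IsManifold 𝓘(ℝ, EuclideanSpace ℝ (Fin 4)) ∞ M] [CompactSpace M] [ConnectedSpace M]
    [RiemannianBundle (fun x : M => TangentSpace 𝓘(ℝ, EuclideanSpace ℝ (Fin 4)) x)]
    [IsContMDiffRiemannianBundle 𝓘(ℝ, EuclideanSpace ℝ (Fin 4)) ∞ (EuclideanSpace ℝ (Fin 4))
      (fun x : M => TangentSpace 𝓘(ℝ, EuclideanSpace ℝ (Fin 4)) x)]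
    [IsRiemannianManifold 𝓘(ℝ, EuclideanSpace ℝ (Fin 4)) M] (a : ℝ)
    (h : IsLocallyCoveredByRoundSphere M 4 a) :
    IsHomotheticToRoundSphere M 4 a ∨ IsHomotheticToRealProjective M 4 a :=
  sphere_or_projective 4 M (by norm_num) (by decide) h

end

end Crest.Agent.R249.Cov5_802
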