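import Crest.Agent.R249.Cov5_802

/-!
# R249 (helper802), part 6: the complex projective space as a model
-/

set_option autoImplicit false
set_option linter.unusedSectionVars false
set_option maxSynthPendingDepth 3
open Set Metric Filter Topology

namespace Crest.Agent.R249.Cov6_802

open Crest.Agent.R249.Cov1_802 Crest.Agent.R249.Cov2_802 Crest.Agent.R249.Cov3_802
  Crest.Agent.R249.Cov4_802 Crest.Agent.R249.Cov5_802

noncomputable section

attribute [local instance] InnerProductSpace.complexToReal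

variable {W : Type*} [NormedAddCommGroup W] [InnerProductSpace ℂ W]

theorem re_inner (x y : W) : (inner ℝ x y : ℝ) = (inner ℂ x y : ℂ).re :=
  real_inner_eq_re_inner ℂ x y

/-- multiplication by a unit complex number -/
def ph (μ : ℂ) (hμ : ‖μ‖ = 1) (x : sphere (0 : W) 1) : sphere (0 : W) 1 :=
  ⟨μ • (x : W), by rw [mem_sphere_zero_iff_norm, norm_smul, hμ, one_mul]; exact nrm x⟩

theorem coe_ph (μ : ℂ) (hμ : ‖μ‖ = 1) (x : sphere (0 : W) 1) : (ph μ hμ x : W) = μ • (x : W) := rfl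

theorem inner_self_c (p : sphere (0 : W) 1) : (inner ℂ (p : W) p : ℂ) = 1 := by
  rw [inner_self_eq_norm_sq_to_K, nrm]; norm_num

theorem norm_inner_le (p q : sphere (0 : W) 1) : ‖(inner ℂ (p : W) q : ℂ)‖ ≤ 1 := by
  have := norm_inner_le_norm (𝕜 := ℂ) (p : W) q
  rwa [nrm, nrm, mul_one] at this

theorem exists_phase (x y : W) :
    ∃ μ : ℂ, ‖μ‖ = 1 ∧ (inner ℂ x (μ • y) : ℂ) = (‖(inner ℂ x y : ℂ)‖ : ℂ) := by
  obtain ⟨c, hc, h⟩ := Complex.exists_norm_eq_mul_self (inner ℂ x y : ℂ)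
  exact ⟨c, hc, by rw [inner_smul_right, h]⟩

theorem exists_phase_sph (p q : sphere (0 : W) 1) : ∃ (μ : ℂ) (hμ : ‖μ‖ = 1),
    (sphPD W).D p (ph μ hμ q) = Real.arccos ‖(inner ℂ (p : W) q : ℂ)‖ := by
  obtain ⟨μ, hμ, h⟩ := exists_phase (p : W) (q : W)
  refine ⟨μ, hμ, ?_⟩
  rw [sphPD_D, coe_ph, re_inner, h, Complex.ofReal_re]

theorem arccos_norm_le (p q : sphere (0 : W) 1) :
    Real.arccos ‖(inner ℂ (p : W) q : ℂ)‖ ≤ (sphPD W).D p q := by
  rw [sphPD_D, re_inner]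
  exact Real.arccos_le_arccos (Complex.re_le_norm _)

theorem norm_inner_ph_right (p q : sphere (0 : W) 1) (μ : ℂ) (hμ : ‖μ‖ = 1) :
    ‖(inner ℂ (p : W) (ph μ hμ q : W) : ℂ)‖ = ‖(inner ℂ (p : W) q : ℂ)‖ := by
  rw [coe_ph, inner_smul_right, norm_mul, hμ, one_mul]

theorem norm_inner_ph_left (p q : sphere (0 : W) 1) (μ : ℂ) (hμ : ‖μ‖ = 1) :
    ‖(inner ℂ (ph μ hμ p : W) (q : W) : ℂ)‖ = ‖(inner ℂ (p : W) q : ℂ)‖ := by
  rw [coe_ph, inner_smul_left, norm_mul, RCLike.norm_conj, hμ, one_mul]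

/-- the Fubini–Study distance -/
def cpPD (W : Type*) [NormedAddCommGroup W] [InnerProductSpace ℂ W] : PD (sphere (0 : W) 1) where
  D p q := Real.arccos ‖(inner ℂ (p : W) q : ℂ)‖
  self p := by rw [inner_self_c, norm_one, Real.arccos_one]
  comm p q := by rw [norm_inner_symm]
  tri x y z := by
    obtain ⟨μ, hμ, h1⟩ := exists_phase_sph x y
    obtain ⟨ν, hν, h2⟩ := exists_phase_sph (ph μ hμ y) z
    rw [norm_inner_ph_left] at h2
    have h3 := (sphPD W).tri x (ph μ hμ y) (ph ν hν z)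
    have h4 := arccos_norm_le x (ph ν hν z)
    rw [norm_inner_ph_right] at h4
    linarith

theorem cpPD_D (p q : sphere (0 : W) 1) :
    (cpPD W).D p q = Real.arccos ‖(inner ℂ (p : W) q : ℂ)‖ := rfl

theorem cp_le_sph (p q : sphere (0 : W) 1) : (cpPD W).D p q ≤ (sphPD W).D p q := arccos_norm_le p q

theorem D_ph_right (p q : sphere (0 : W) 1) (μ : ℂ) (hμ : ‖μ‖ = 1) :
    (cpPD W).D p (ph μ hμ q) = (cpPD W).D p q := by
  rw [cpPD_D, norm_inner_ph_right, ← cpPD_D]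

theorem D_ph_left (p q : sphere (0 : W) 1) (μ : ℂ) (hμ : ‖μ‖ = 1) :
    (cpPD W).D (ph μ hμ p) q = (cpPD W).D p q := by
  rw [cpPD_D, norm_inner_ph_left, ← cpPD_D]

theorem cos_cpPD (p q : sphere (0 : W) 1) :
    Real.cos ((cpPD W).D p q) = ‖(inner ℂ (p : W) q : ℂ)‖ :=
  Real.cos_arccos (by have := norm_nonneg (inner ℂ (p : W) q : ℂ); linarith) (norm_inner_le p q)

theorem cpPD_le (p q : sphere (0 : W) 1) : (cpPD W).D p q ≤ Real.pi / 2 :=
  Real.arccos_le_pi_div_two.2 (norm_nonneg _)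

theorem cpPD_tendsto (x : sphere (0 : W) 1) : Tendsto (fun y => (cpPD W).D x y) (𝓝 x) (𝓝 0) :=
  squeeze_zero (fun y => (cpPD W).nonneg x y) (fun y => cp_le_sph x y) (sphPD_tendsto x)

/-- distance zero means same complex line -/
theorem cpPD_eq_zero (p q : sphere (0 : W) 1) :
    (cpPD W).D p q = 0 ↔ ∃ μ : ℂ, ‖μ‖ = 1 ∧ (q : W) = μ • (p : W) := by
  constructor
  · intro h
    obtain ⟨μ, hμ, h1⟩ := exists_phase_sph q p
    rw [← cpPD_D, (cpPD W).comm, h] at h1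
    have h2 := sphPD_eq h1
    exact ⟨μ, hμ, by rw [← coe_ph μ hμ, ← h2]⟩
  · rintro ⟨μ, hμ, h⟩
    have : q = ph μ hμ p := Subtype.ext h
    rw [this, D_ph_right, (cpPD W).self]

theorem cp_mid (hV : ∀ p : W, ‖p‖ = 1 → ∃ u : W, ‖u‖ = 1 ∧ (inner ℝ p u : ℝ) = 0)
    (a b : sphere (0 : W) 1) (t : ℝ) (ht : t ∈ Icc (0:ℝ) 1) :
    ∃ x, (cpPD W).D a x = t * (cpPD W).D a b ∧ (cpPD W).D x b = (1 - t) * (cpPD W).D a b := by
  obtain ⟨μ, hμ, h1⟩ := exists_phase_sph a b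
  rw [← cpPD_D] at h1
  obtain ⟨x, hx1, hx2⟩ := mid hV a (ph μ hμ b) t ht
  rw [h1] at hx1 hx2
  have h3 := cp_le_sph a x
  have h4 := cp_le_sph x (ph μ hμ b)
  rw [D_ph_right] at h4
  have h5 := (cpPD W).tri a x b
  exact ⟨x, by linarith, by linarith⟩

/-- equality in the triangle inequality -/
theorem cp_eq_tri (a b c : sphere (0 : W) 1)
    (h : (cpPD W).D a c = (cpPD W).D a b + (cpPD W).D b c) :
    ∃ κ₁ κ₂ : ℂ, (b : W) = κ₁ • (a : W) + κ₂ • (c : W) := by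
  obtain ⟨μ, hμ, h1⟩ := exists_phase_sph a b
  obtain ⟨ν, hν, h2⟩ := exists_phase_sph (ph μ hμ b) c
  rw [norm_inner_ph_left] at h2
  rw [← cpPD_D] at h1 h2
  have h3 := (sphPD W).tri a (ph μ hμ b) (ph ν hν c)
  have h4 := cp_le_sph a (ph ν hν c)
  rw [D_ph_right] at h4
  have h5 : (sphPD W).D a (ph ν hν c) = (sphPD W).D a (ph μ hμ b) +
      (sphPD W).D (ph μ hμ b) (ph ν hν c) := by linarith
  have h6 : (sphPD W).D a (ph ν hν c) ≤ Real.pi / 2 := by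
    have := cpPD_le a c
    linarith
  rw [sphPD_D, sphPD_D, sphPD_D, ← angle_eq_arccos (nrm _) (nrm _),
    ← angle_eq_arccos (nrm _) (nrm _), ← angle_eq_arccos (nrm _) (nrm _),
    InnerProductGeometry.angle_eq_angle_add_angle_iff (ne_zero_of_mem_unit_sphere _)] at h5
  rcases h5 with h5 | h5
  · rw [sphPD_D, ← angle_eq_arccos (nrm _) (nrm _), h5] at h6
    have := Real.pi_pos
    linarith
  · rw [Submodule.mem_span_pair] at h5
    obtain ⟨k₁, k₂, h5⟩ := h5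
    rw [coe_ph, coe_ph] at h5
    have hμ0 : μ ≠ 0 := by rintro rfl; simp at hμ
    refine ⟨μ⁻¹ * ((k₁ : ℝ) : ℂ), μ⁻¹ * ((k₂ : ℝ) : ℂ) * ν, ?_⟩
    have h7 : (b : W) = μ⁻¹ • (μ • (b : W)) := by rw [smul_smul, inv_mul_cancel₀ hμ0, one_smul]
    rw [h7, ← h5, smul_add, mul_smul, mul_smul, mul_smul]
    congr 2

end

end Crest.Agent.R249.Cov6_802
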