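import Crest.Agent.R249.Cov6_802

/-!
# R249 (helper802), part 7: frames and the Veronese embedding of the complex projective space
-/

set_option autoImplicit false
set_option linter.unusedSectionVars false
set_option maxSynthPendingDepth 3
open Set Metric Filter Topology

namespace Crest.Agent.R249.Cov7_802

open Crest.Agent.R249.Cov1_802 Crest.Agent.R249.Cov2_802 Crest.Agent.R249.Cov3_802
  Crest.Agent.R249.Cov4_802 Crest.Agent.R249.Cov5_802 Crest.Agent.R249.Cov6_802

noncomputable section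

attribute [local instance] InnerProductSpace.complexToReal

variable {W : Type*} [NormedAddCommGroup W] [InnerProductSpace ℂ W]

theorem pt_eq (q d : W) (θ : ℝ) :
    pt q d θ = ((Real.cos θ : ℝ) : ℂ) • q + ((Real.sin θ : ℝ) : ℂ) • d := by
  rw [pt, Complex.coe_smul, Complex.coe_smul]

theorem inner_pt_c {q d d' : W} (hq : ‖q‖ = 1) (hd : (inner ℂ q d : ℂ) = 0)
    (hd' : (inner ℂ q d' : ℂ) = 0) (θ θ' : ℝ) :
    (inner ℂ (pt q d θ) (pt q d' θ') : ℂ) = ((Real.cos θ * Real.cos θ' : ℝ) : ℂ) +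
      ((Real.sin θ * Real.sin θ' : ℝ) : ℂ) * inner ℂ d d' := by
  have hd2 : (inner ℂ d q : ℂ) = 0 := by rw [← inner_conj_symm, hd, map_zero]
  have hqq : (inner ℂ q q : ℂ) = 1 := by rw [inner_self_eq_norm_sq_to_K, hq]; norm_num
  rw [pt_eq, pt_eq]
  simp only [inner_add_left, inner_add_right, inner_smul_left, inner_smul_right, hd2, hd', hqq,
    Complex.conj_ofReal, Complex.ofReal_mul]
  ring

theorem inner_q_pt {q d : W} (hq : ‖q‖ = 1) (hd : (inner ℂ q d : ℂ) = 0) (θ : ℝ) :
    (inner ℂ q (pt q d θ) : ℂ) = (Real.cos θ : ℝ) := by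
  have hqq : (inner ℂ q q : ℂ) = 1 := by rw [inner_self_eq_norm_sq_to_K, hq]; norm_num
  rw [pt_eq]
  simp only [inner_add_right, inner_smul_right, hd, hqq]
  ring

/-- the directions of a frame -/
def dr {m : ℕ} (e : Fin m → W) (p : Fin m × Fin 2) : W := if p.2 = 0 then e p.1 else Complex.I • e p.1

theorem dr_norm {m : ℕ} {e : Fin m → W} (he : Orthonormal ℂ e) (p : Fin m × Fin 2) :
    ‖dr e p‖ = 1 := by
  unfold dr
  split_ifs
  · exact he.1 _
  · rw [norm_smul, he.1, Complex.norm_I, one_mul]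

theorem dr_orth {m : ℕ} {q : W} {e : Fin m → W} (h : ∀ i, (inner ℂ q (e i) : ℂ) = 0)
    (p : Fin m × Fin 2) : (inner ℂ q (dr e p) : ℂ) = 0 := by
  unfold dr
  split_ifs
  · exact h _
  · rw [inner_smul_right, h, mul_zero]

theorem dr_inner {m : ℕ} {e : Fin m → W} (he : Orthonormal ℂ e) {p p' : Fin m × Fin 2}
    (hpp : p ≠ p') : (inner ℂ (dr e p) (dr e p') : ℂ) = 0 ∨
      ((inner ℂ (dr e p) (dr e p') : ℂ).re = 0 ∧ (inner ℂ (dr e p) (dr e p') : ℂ).im ^ 2 = 1) := by
  obtain ⟨i, k⟩ := p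
  obtain ⟨j, l⟩ := p'
  by_cases hij : i = j
  · right
    subst hij
    have hii : (inner ℂ (e i) (e i) : ℂ) = 1 := by
      rw [inner_self_eq_norm_sq_to_K, he.1]; norm_num
    have hkl : k ≠ l := fun h => hpp (by rw [h])
    have h01 : (inner ℂ (dr e (i, 0)) (dr e (i, 1)) : ℂ) = Complex.I := by
      change (inner ℂ (e i) (Complex.I • e i) : ℂ) = _
      rw [inner_smul_right, hii, mul_one]
    have h10 : (inner ℂ (dr e (i, 1)) (dr e (i, 0)) : ℂ) = -Complex.I := by
      rw [← inner_conj_symm, h01, Complex.conj_I]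
    rcases Fin.exists_fin_two.1 ⟨k, rfl⟩ with hk | hk <;>
      rcases Fin.exists_fin_two.1 ⟨l, rfl⟩ with hl | hl <;> subst hk <;> subst hl
    · exact absurd rfl hkl
    · rw [h01]; simp
    · rw [h10]; simp
    · exact absurd rfl hkl
  · left
    have h0 : (inner ℂ (e i) (e j) : ℂ) = 0 := he.2 hij
    unfold dr
    split_ifs <;> simp only [inner_smul_left, inner_smul_right, h0, mul_zero]

theorem cp_frames {m : ℕ} (hF : ∀ q : W, ‖q‖ = 1 → ∃ e : Fin m → W, Orthonormal ℂ e ∧
    ∀ i, (inner ℂ q (e i) : ℂ) = 0) (η : ℝ) (hη : 0 < η) :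
    ∃ s₀ : ℝ, 0 < s₀ ∧ ∀ q : sphere (0 : W) 1, ∀ s : ℝ, 0 < s → s < s₀ →
    ∃ e : Fin m × Fin 2 → Bool → sphere (0 : W) 1, (∀ i b, (cpPD W).D q (e i b) = s) ∧
      (∀ i, (cpPD W).D (e i true) (e i false) = 2 * s) ∧
      (∀ i j b b', i ≠ j → |(cpPD W).D (e i b) (e j b') - √2 * s| ≤ η * s) := by
  obtain ⟨s₁, hs₁, hsm1⟩ := small_of_hasDerivAt f1_deriv f1_zero η hη
  obtain ⟨s₂, hs₂, hsm2⟩ := small_of_hasDerivAt f2_deriv f2_zero η hη
  have hpi := Real.pi_pos
  refine ⟨min (min s₁ s₂) (Real.pi / 4), by positivity, fun q s hs hs' => ?_⟩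
  have hss1 : s < s₁ := hs'.trans_le ((min_le_left _ _).trans (min_le_left _ _))
  have hss2 : s < s₂ := hs'.trans_le ((min_le_left _ _).trans (min_le_right _ _))
  have hsp : s < Real.pi / 4 := hs'.trans_le (min_le_right _ _)
  obtain ⟨e, he, hqe⟩ := hF q (nrm q)
  have hre : ∀ i, (inner ℝ (q : W) (dr e i) : ℝ) = 0 := fun i => by
    rw [re_inner, dr_orth hqe, Complex.zero_re]
  have hn : ∀ i (b : Bool), ‖pt (q : W) (dr e i) (if b then s else -s)‖ = 1 := fun i b =>
    norm_pt (nrm q) (dr_norm he i) (hre i) _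
  have hcs : ∀ b : Bool, Real.cos (if b then s else -s) = Real.cos s := by
    intro b; cases b <;> simp
  have hsn : ∀ b b' : Bool, (Real.sin (if b then s else -s) * Real.sin (if b' then s else -s)) ^ 2 =
      Real.sin s ^ 4 := by
    intro b b'; cases b <;> cases b' <;> simp <;> ring
  have hc0 : 0 ≤ Real.cos s := Real.cos_nonneg_of_mem_Icc ⟨by linarith, by linarith⟩
  refine ⟨fun i b => ⟨pt (q : W) (dr e i) (if b then s else -s),
    mem_sphere_zero_iff_norm.2 (hn i b)⟩, fun i b => ?_, fun i => ?_, fun i j b b' hij => ?_⟩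
  · change Real.arccos ‖(inner ℂ (q : W) (pt (q : W) (dr e i) (if b then s else -s)) : ℂ)‖ = s
    rw [inner_q_pt (nrm q) (dr_orth hqe i), hcs, Complex.norm_real, Real.norm_eq_abs,
      abs_of_nonneg hc0, Real.arccos_cos hs.le (by linarith)]
  · change Real.arccos ‖(inner ℂ (pt (q : W) (dr e i) (if true then s else -s))
      (pt (q : W) (dr e i) (if false then s else -s)) : ℂ)‖ = 2 * s
    have hdd : (inner ℂ (dr e i) (dr e i) : ℂ) = 1 := by
      rw [inner_self_eq_norm_sq_to_K, dr_norm he]; norm_num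
    rw [inner_pt_c (nrm q) (dr_orth hqe i) (dr_orth hqe i), hdd, mul_one, ← Complex.ofReal_add,
      ← Real.cos_sub]
    simp only [if_true, Bool.false_eq_true, if_false]
    have h2 : s - -s = 2 * s := by ring
    rw [h2, Complex.norm_real, Real.norm_eq_abs, abs_of_nonneg
      (Real.cos_nonneg_of_mem_Icc ⟨by linarith, by linarith⟩), Real.arccos_cos (by linarith)
      (by linarith)]
  · change |Real.arccos ‖(inner ℂ (pt (q : W) (dr e i) (if b then s else -s))
      (pt (q : W) (dr e j) (if b' then s else -s)) : ℂ)‖ - _| ≤ _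
    rw [inner_pt_c (nrm q) (dr_orth hqe i) (dr_orth hqe j), hcs, hcs]
    rcases dr_inner he hij with h0 | ⟨h0, h1⟩
    · rw [h0, mul_zero, add_zero, Complex.norm_real, Real.norm_eq_abs,
        abs_of_nonneg (mul_nonneg hc0 hc0), arccos_f1 hs.le (by linarith)]
      exact hsm1 s hs hss1
    · have e1 : ‖((Real.cos s * Real.cos s : ℝ) : ℂ) +
          ((Real.sin (if b then s else -s) * Real.sin (if b' then s else -s) : ℝ) : ℂ) *
            inner ℂ (dr e i) (dr e j)‖ = √(Real.cos s ^ 4 + Real.sin s ^ 4) := by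
        rw [Complex.norm_eq_sqrt_sq_add_sq]
        congr 1
        rw [Complex.add_re, Complex.add_im, Complex.ofReal_re, Complex.ofReal_im,
          Complex.re_ofReal_mul, Complex.im_ofReal_mul, h0, mul_zero, add_zero, zero_add,
          mul_pow _ (Complex.im _), h1, hsn]
        ring
      rw [e1, arccos_f2 hs.le (by linarith)]
      exact hsm2 s hs hss2

end

end Crest.Agent.R249.Cov7_802
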