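import Crest.Agent.R249.Cov7_802

/-!
# R249 (helper802), part 8: manifolds covered by the complex projective plane
-/

set_option autoImplicit false
set_option linter.unusedSectionVars false
set_option maxSynthPendingDepth 3
open Set Metric Filter Topology

namespace Crest.Agent.R249.Cov8_802

open Crest.Agent.R249.Cov1_802 Crest.Agent.R249.Cov2_802 Crest.Agent.R249.Cov3_802
  Crest.Agent.R249.Cov4_802 Crest.Agent.R249.Cov5_802 Crest.Agent.R249.Cov6_802
  Crest.Agent.R249.Cov7_802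

noncomputable section

attribute [local instance] InnerProductSpace.complexToReal

variable {W : Type*} [NormedAddCommGroup W] [InnerProductSpace ℂ W]
  {H : Type*} [NormedAddCommGroup H] [InnerProductSpace ℝ H]

/-- the Veronese map `u ↦ u u*` -/
structure Ver (Q : W → H) : Prop where
  gram : ∀ u v : W, (inner ℝ (Q u) (Q v) : ℝ) = ‖(inner ℂ u v : ℂ)‖ ^ 2
  quad : ∀ x w : W, ∃ C : H, ∀ α β : ℝ,
    Q (α • x + β • w) = (α ^ 2) • Q x + (β ^ 2) • Q w + (α * β) • C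

theorem Ver.eq_of {Q : W → H} (h : Ver Q) {u v : W}
    (h1 : ‖(inner ℂ u v : ℂ)‖ ^ 2 = ‖(inner ℂ u u : ℂ)‖ ^ 2)
    (h2 : ‖(inner ℂ u v : ℂ)‖ ^ 2 = ‖(inner ℂ v v : ℂ)‖ ^ 2) : Q u = Q v := by
  have h3 : (inner ℝ (Q u - Q v) (Q u - Q v) : ℝ) = 0 := by
    rw [real_inner_sub_sub_self, h.gram, h.gram, h.gram]
    linarith
  rw [inner_self_eq_zero, sub_eq_zero] at h3
  exact h3

theorem Ver.ph {Q : W → H} (h : Ver Q) (μ : ℂ) (hμ : ‖μ‖ = 1) (y : sphere (0 : W) 1) :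
    Q (ph μ hμ y : W) = Q y := by
  apply h.eq_of
  · rw [norm_inner_ph_left, inner_self_c, inner_self_c]
  · rw [norm_inner_ph_left]

theorem span_cp {Q : W → H} (h : Ver Q)
    (hV : ∀ p : W, ‖p‖ = 1 → ∃ u : W, ‖u‖ = 1 ∧ (inner ℝ p u : ℝ) = 0)
    (x : sphere (0 : W) 1) (r : ℝ) (hr : 0 < r) (y : sphere (0 : W) 1) :
    Q y ∈ Submodule.span ℝ ((fun z : sphere (0 : W) 1 => Q z) '' {z | (cpPD W).D z x < r}) := by
  have hpi := Real.pi_pos
  set N := Submodule.span ℝ ((fun z : sphere (0 : W) 1 => Q z) '' {z | (cpPD W).D z x < r}) with hN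
  obtain ⟨μ, hμ, -⟩ := exists_phase_sph x y
  obtain ⟨w, hw, hxw, hy⟩ := exists_dir hV x (ph μ hμ y)
  rw [← h.ph μ hμ y, hy]
  set θ := (sphPD W).D x (ph μ hμ y) with hθ
  obtain ⟨t, ht0, ht1, ht2⟩ : ∃ t, 0 < t ∧ t < r ∧ t < Real.pi / 2 :=
    ⟨min r (Real.pi / 2) / 2, by positivity,
      (half_lt_self (by positivity)).trans_le (min_le_left _ _),
      (half_lt_self (by positivity)).trans_le (min_le_right _ _)⟩
  have hmem : ∀ s : ℝ, |s| ≤ t → Q (pt (x : W) w s) ∈ N := by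
    intro s hs
    have hn := norm_pt (nrm x) hw hxw s
    refine Submodule.subset_span ⟨⟨pt (x : W) w s, mem_sphere_zero_iff_norm.2 hn⟩, ?_, rfl⟩
    change (cpPD W).D _ x < r
    rw [(cpPD W).comm]
    refine (cp_le_sph _ _).trans_lt ?_
    change Real.arccos (inner ℝ (x : W) (pt (x : W) w s)) < r
    rw [inner_pt (nrm x) hw hxw, arccos_cos_abs (by linarith)]
    linarith
  obtain ⟨C, hC⟩ := h.quad (x : W) w
  have hpt : ∀ s : ℝ, Q (pt (x : W) w s) =
      (Real.cos s ^ 2) • Q (x : W) + (Real.sin s ^ 2) • Q w + (Real.cos s * Real.sin s) • C :=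
    fun s => hC _ _
  have hs : 0 < Real.sin t := Real.sin_pos_of_pos_of_lt_pi ht0 (by linarith)
  have hc : 0 < Real.cos t := Real.cos_pos_of_mem_Ioo ⟨by linarith, by linarith⟩
  have hA : Q (x : W) ∈ N := by
    have := hmem 0 (by rw [abs_zero]; exact ht0.le)
    rwa [hpt, Real.cos_zero, Real.sin_zero, one_pow, one_smul, zero_pow two_ne_zero, zero_smul,
      mul_zero, zero_smul, add_zero, add_zero] at this
  have hp := hmem t (by rw [abs_of_pos ht0])
  have hm := hmem (-t) (by rw [abs_neg, abs_of_pos ht0])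
  rw [hpt] at hp hm
  rw [Real.cos_neg, Real.sin_neg] at hm
  have hB : Q w ∈ N := by
    have h1 := N.smul_mem ((2 * Real.sin t ^ 2)⁻¹)
      (N.sub_mem (N.add_mem hp hm) (N.smul_mem (2 * Real.cos t ^ 2) hA))
    have h2 : (2 * Real.sin t ^ 2)⁻¹ • ((Real.cos t ^ 2) • Q (x : W) + (Real.sin t ^ 2) • Q w +
        (Real.cos t * Real.sin t) • C + ((Real.cos t ^ 2) • Q (x : W) +
        ((-Real.sin t) ^ 2) • Q w + (Real.cos t * -Real.sin t) • C) -
        (2 * Real.cos t ^ 2) • Q (x : W)) = Q w := by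
      have h3 : (Real.cos t ^ 2) • Q (x : W) + (Real.sin t ^ 2) • Q w +
        (Real.cos t * Real.sin t) • C + ((Real.cos t ^ 2) • Q (x : W) +
        ((-Real.sin t) ^ 2) • Q w + (Real.cos t * -Real.sin t) • C) -
        (2 * Real.cos t ^ 2) • Q (x : W) = (2 * Real.sin t ^ 2) • Q w := by module
      rw [h3, smul_smul, inv_mul_cancel₀ (by positivity), one_smul]
    rwa [h2] at h1
  have hCm : C ∈ N := by
    have h1 := N.smul_mem ((2 * (Real.cos t * Real.sin t))⁻¹) (N.sub_mem hp hm)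
    have h2 : (2 * (Real.cos t * Real.sin t))⁻¹ • ((Real.cos t ^ 2) • Q (x : W) +
        (Real.sin t ^ 2) • Q w + (Real.cos t * Real.sin t) • C - ((Real.cos t ^ 2) • Q (x : W) +
        ((-Real.sin t) ^ 2) • Q w + (Real.cos t * -Real.sin t) • C)) = C := by
      have h3 : (Real.cos t ^ 2) • Q (x : W) +
        (Real.sin t ^ 2) • Q w + (Real.cos t * Real.sin t) • C - ((Real.cos t ^ 2) • Q (x : W) +
        ((-Real.sin t) ^ 2) • Q w + (Real.cos t * -Real.sin t) • C) =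
          (2 * (Real.cos t * Real.sin t)) • C := by module
      rw [h3, smul_smul, inv_mul_cancel₀ (by positivity), one_smul]
    rwa [h2] at h1
  rw [hpt]
  exact N.add_mem (N.add_mem (N.smul_mem _ hA) (N.smul_mem _ hB)) (N.smul_mem _ hCm)

/-- the span of the Veronese variety -/
def VV (Q : W → H) : Submodule ℝ H := Submodule.span ℝ (range fun z : sphere (0 : W) 1 => Q z)

/-- the model -/
def cpMdl {Q : W → H} (h : Ver Q)
    (hV : ∀ p : W, ‖p‖ = 1 → ∃ u : W, ‖u‖ = 1 ∧ (inner ℝ p u : ℝ) = 0) (c : {c : ℝ // 0 < c}) :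
    Mdl (Syn (cpPD W) c) (VV Q) where
  P x := ⟨Q ((ofSyn x : sphere (0 : W) 1) : W), Submodule.subset_span ⟨ofSyn x, rfl⟩⟩
  gram x y x' y' := by
    rw [dist_syn, dist_syn, mul_right_inj' c.2.ne', Submodule.coe_inner, Submodule.coe_inner,
      h.gram, h.gram, ← cos_cpPD, ← cos_cpPD]
    constructor
    · intro h
      rw [h]
    · intro h1
      rw [cos_cpPD, cos_cpPD, sq_eq_sq₀ (norm_nonneg _) (norm_nonneg _)] at h1
      rw [cpPD_D, cpPD_D, h1]
  span x r hr := by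
    set N : Submodule ℝ (VV Q) := Submodule.span ℝ ((fun x : Syn (cpPD W) c =>
      (⟨Q ((ofSyn x : sphere (0 : W) 1) : W), Submodule.subset_span ⟨ofSyn x, rfl⟩⟩ : VV Q)) ''
        ball x r) with hN
    have h1 : VV Q ≤ N.map (VV Q).subtype := by
      refine Submodule.span_le.2 ?_
      rintro _ ⟨y, rfl⟩
      have h2 := span_cp h hV (ofSyn x) (r / c.1) (div_pos hr c.2) y
      refine Submodule.span_le.2 ?_ h2
      rintro _ ⟨z, hz, rfl⟩
      have hz' : (cpPD W).D z (ofSyn x) < r / c.1 := hz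
      rw [lt_div_iff₀ c.2, mul_comm] at hz'
      exact ⟨_, Submodule.subset_span ⟨toSyn _ c z, hz', rfl⟩, rfl⟩
    rw [eq_top_iff]
    rintro ⟨v, hv⟩ -
    obtain ⟨n, hn, hnv⟩ := h1 hv
    have : n = ⟨v, hv⟩ := Subtype.ext hnv
    rwa [← this]

section fixed

variable {M : Type*} [MetricSpace M]

theorem D_eq_zero_of_parallel {p q : sphere (0 : W) 1} {κ : ℂ} (h : (q : W) = κ • (p : W)) :
    (cpPD W).D p q = 0 := by
  rw [cpPD_eq_zero]
  refine ⟨κ, ?_, h⟩
  have := congrArg norm h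
  rw [norm_smul, nrm, nrm, mul_one] at this
  exact this.symm

/-- **local isometries of the complex projective plane are injective** -/
theorem cp_inj [FiniteDimensional ℂ W] [FiniteDimensional ℝ H] (hfin : Module.finrank ℂ W = 3)
    {Q : W → H} (hQ : Ver Q)
    (hV : ∀ p : W, ‖p‖ = 1 → ∃ u : W, ‖u‖ = 1 ∧ (inner ℝ p u : ℝ) = 0) (c : {c : ℝ // 0 < c})
    [CompactSpace (Syn (cpPD W) c)] {Ψ : Syn (cpPD W) c → M} {ρ : ℝ} (hL : Loc Ψ ρ)
    {x y : Syn (cpPD W) c} (hxy : Ψ x = Ψ y) : dist x y = 0 := by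
  by_contra hne
  have hX : ExM (Syn (cpPD W) c) := exM_syn (cp_mid hV)
  set A := cpMdl hQ hV c with hA
  obtain ⟨T, γ, hD, hγ⟩ := exists_deck A hL hX hxy
  have hfree : ∀ z, dist z (γ z) ≠ 0 := by
    intro z hz
    have h1 : T (A.P z) = A.P z := by
      rw [← hD.P_γ, A.eq_iff, dist_comm]; exact hz
    have h2 := hD.free hL h1
    apply hne
    have h3 : dist (γ x) x = 0 := by rw [← A.eq_iff, hD.P_γ, h2]
    have h4 := dist_triangle x (γ x) y
    have h5 := dist_nonneg (x := x) (y := y)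
    rw [hγ, dist_comm x (γ x), h3] at h4
    linarith
  have hcont : Continuous fun z => dist z (γ z) := by
    have hγc : Continuous γ := by
      apply Isometry.continuous
      intro u v
      rw [edist_dist, edist_dist, hD.dist_γ]
    exact continuous_id.dist hγc
  obtain ⟨x₀, -, hmin⟩ := isCompact_univ.exists_isMinOn ⟨x, mem_univ x⟩ hcont.continuousOn
  have hmin : ∀ z, dist x₀ (γ x₀) ≤ dist z (γ z) := fun z => isMinOn_iff.1 hmin z (mem_univ z)
  set ℓ := dist x₀ (γ x₀) with hℓ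
  have hℓ0 : 0 < ℓ := lt_of_le_of_ne dist_nonneg (hfree x₀).symm
  obtain ⟨m, hm1, hm2⟩ := hX x₀ (γ x₀) (1 / 2) ⟨by norm_num, by norm_num⟩
  rw [← hℓ] at hm1 hm2
  have hm3 : dist (γ x₀) (γ m) = 1 / 2 * ℓ := by rw [hD.dist_γ, hm1]
  have hm4 := hmin m
  have hm5 := dist_triangle m (γ x₀) (γ m)
  have hm6 : dist m (γ m) = dist m (γ x₀) + dist (γ x₀) (γ m) := by linarith
  have hm7 : dist x₀ (γ x₀) = dist x₀ m + dist m (γ x₀) := by linarith
  have hc := c.2
  set X₀ : sphere (0 : W) 1 := ofSyn x₀ with hX₀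
  set Y₀ : sphere (0 : W) 1 := ofSyn (γ x₀) with hY₀
  set m₀ : sphere (0 : W) 1 := ofSyn m with hm₀
  set z₀ : sphere (0 : W) 1 := ofSyn (γ m) with hz₀
  rw [dist_syn, dist_syn, dist_syn, ← mul_add, mul_right_inj' hc.ne', ← hm₀, ← hz₀, ← hY₀] at hm6
  rw [dist_syn, dist_syn, dist_syn, ← mul_add, mul_right_inj' hc.ne', ← hm₀, ← hX₀, ← hY₀] at hm7
  obtain ⟨κ₁, κ₂, h12⟩ := cp_eq_tri _ _ _ hm7
  obtain ⟨κ₃, κ₄, h34⟩ := cp_eq_tri _ _ _ hm6
  have hmy : (cpPD W).D m₀ Y₀ ≠ 0 := by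
    intro h0
    rw [dist_syn, ← hm₀, ← hY₀, h0, mul_zero] at hm2
    linarith
  have hyz : (cpPD W).D Y₀ z₀ ≠ 0 := by
    intro h0
    rw [dist_syn, ← hz₀, ← hY₀, h0, mul_zero] at hm3
    linarith
  have hxy₀ : (cpPD W).D X₀ Y₀ ≠ 0 := by
    intro h0
    rw [hℓ, dist_syn, ← hX₀, ← hY₀, h0, mul_zero] at hℓ0
    exact lt_irrefl _ hℓ0
  have hκ₁ : κ₁ ≠ 0 := by
    rintro rfl
    rw [zero_smul, zero_add] at h12
    apply hmy
    rw [(cpPD W).comm]
    exact D_eq_zero_of_parallel h12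
  have hκ₃ : κ₃ ≠ 0 := by
    rintro rfl
    rw [zero_smul, zero_add] at h34
    apply hyz
    rw [(cpPD W).comm]
    exact D_eq_zero_of_parallel h34
  -- the orthogonal line
  have hli : LinearIndependent ℂ ![(X₀ : W), (Y₀ : W)] := by
    rw [LinearIndependent.pair_iff' (ne_zero_of_mem_unit_sphere _)]
    intro a ha
    exact hxy₀ (D_eq_zero_of_parallel ha.symm)
  set K := Submodule.span ℂ (range ![(X₀ : W), (Y₀ : W)]) with hK
  have hK2 : Module.finrank ℂ K = 2 := by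
    rw [hK, finrank_span_eq_card hli]; simp
  have hK1 : Module.finrank ℂ Kᗮ = 1 := by
    have := Submodule.finrank_add_finrank_orthogonal K
    rw [hK2, hfin] at this
    linarith
  obtain ⟨⟨e', he'⟩, he'0, he'1⟩ := finrank_eq_one_iff'.1 hK1
  have he'n : ‖e'‖ ≠ 0 := by
    rw [norm_ne_zero_iff]
    rintro rfl
    exact he'0 rfl
  have hXK : (X₀ : W) ∈ K := Submodule.subset_span ⟨0, rfl⟩
  have hYK : (Y₀ : W) ∈ K := Submodule.subset_span ⟨1, rfl⟩
  set e : W := (((‖e'‖⁻¹ : ℝ)) : ℂ) • e' with he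
  have hen : ‖e‖ = 1 := by
    rw [he, norm_smul, Complex.norm_real, norm_inv, norm_norm, inv_mul_cancel₀ he'n]
  have hXe : (inner ℂ (X₀ : W) e : ℂ) = 0 := by
    rw [he, inner_smul_right, Submodule.inner_right_of_mem_orthogonal hXK he', mul_zero]
  have hYe : (inner ℂ (Y₀ : W) e : ℂ) = 0 := by
    rw [he, inner_smul_right, Submodule.inner_right_of_mem_orthogonal hYK he', mul_zero]
  have hme : (inner ℂ (m₀ : W) e : ℂ) = 0 := by
    rw [h12, inner_add_left, inner_smul_left, inner_smul_left, hXe, hYe]; simp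
  set E₀ : sphere (0 : W) 1 := ⟨e, mem_sphere_zero_iff_norm.2 hen⟩ with hE₀
  set e₁ : Syn (cpPD W) c := γ (toSyn _ c E₀) with he₁
  set G₀ : sphere (0 : W) 1 := ofSyn e₁ with hG₀
  have htr : ∀ u : Syn (cpPD W) c, (inner ℂ ((ofSyn u : sphere (0 : W) 1) : W) e : ℂ) = 0 →
      (inner ℂ ((ofSyn (γ u) : sphere (0 : W) 1) : W) (G₀ : W) : ℂ) = 0 := by
    intro u hu
    have h1 := hD.dist_γ u (toSyn _ c E₀)
    rw [dist_syn, dist_syn, mul_right_inj' hc.ne'] at h1
    have h2 := congrArg Real.cos h1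
    rw [cos_cpPD, cos_cpPD] at h2
    have h3 : ‖(inner ℂ ((ofSyn u : sphere (0 : W) 1) : W)
        ((ofSyn (toSyn (cpPD W) c E₀) : sphere (0 : W) 1) : W) : ℂ)‖ = 0 := by
      change ‖(inner ℂ ((ofSyn u : sphere (0 : W) 1) : W) e : ℂ)‖ = 0
      rw [hu, norm_zero]
    rw [h3] at h2
    exact norm_eq_zero.1 h2
  have hYG : (inner ℂ (Y₀ : W) (G₀ : W) : ℂ) = 0 := htr x₀ hXe
  have hzG : (inner ℂ (z₀ : W) (G₀ : W) : ℂ) = 0 := htr m hme
  have hmG : (inner ℂ (m₀ : W) (G₀ : W) : ℂ) = 0 := by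
    have h1 := hYG
    rw [h34, inner_add_left, inner_smul_left, inner_smul_left, hzG, mul_zero, add_zero,
      mul_eq_zero] at h1
    exact h1.resolve_left (by simpa using hκ₃)
  have hXG : (inner ℂ (X₀ : W) (G₀ : W) : ℂ) = 0 := by
    have h1 := hmG
    rw [h12, inner_add_left, inner_smul_left, inner_smul_left, hYG, mul_zero, add_zero,
      mul_eq_zero] at h1
    exact h1.resolve_left (by simpa using hκ₁)
  have hGK : (G₀ : W) ∈ Kᗮ := by
    rw [hK, Submodule.mem_orthogonal]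
    intro u hu
    induction hu using Submodule.span_induction with
    | mem u hu =>
      obtain ⟨i, rfl⟩ := hu
      fin_cases i
      · exact hXG
      · exact hYG
    | zero => exact inner_zero_left _
    | add u v _ _ hu hv => rw [inner_add_left, hu, hv, add_zero]
    | smul a u _ hu => rw [inner_smul_left, hu, mul_zero]
  obtain ⟨a, ha⟩ := he'1 ⟨G₀, hGK⟩
  have ha' : (G₀ : W) = a • e' := (congrArg Subtype.val ha).symm
  have hGe : (G₀ : W) = (a * ((‖e'‖ : ℝ) : ℂ)) • (E₀ : W) := by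
    change (G₀ : W) = (a * ((‖e'‖ : ℝ) : ℂ)) • e
    rw [he, smul_smul, mul_assoc, ← Complex.ofReal_mul, mul_inv_cancel₀ he'n, Complex.ofReal_one,
      mul_one, ha']
  apply hfree (toSyn _ c E₀)
  rw [dist_syn]
  have h1 : (cpPD W).D E₀ G₀ = 0 := D_eq_zero_of_parallel hGe
  change c.1 * (cpPD W).D E₀ G₀ = 0
  rw [h1, mul_zero]

end fixed

end

end Crest.Agent.R249.Cov8_802
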