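import Crest.Agent.R249.Cov8_802

/-!
# R249 (helper802), part 9: manifolds covered by the complex projective plane, conclusion
-/

set_option autoImplicit false
set_option linter.unusedSectionVars false
set_option maxSynthPendingDepth 3
open Set Metric Filter Topology Bundle Manifold
open scoped ContDiff
open Crest.GeometryTopology.ChartCurvature

namespace Crest.Agent.R249.Cov9_802

open Crest.Agent.R249.Cov1_802 Crest.Agent.R249.Cov2_802 Crest.Agent.R249.Cov3_802
  Crest.Agent.R249.Cov4_802 Crest.Agent.R249.Cov5_802 Crest.Agent.R249.Cov6_802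
  Crest.Agent.R249.Cov7_802 Crest.Agent.R249.Cov8_802

noncomputable section

section core

attribute [local instance] InnerProductSpace.complexToReal

variable {W : Type*} [NormedAddCommGroup W] [InnerProductSpace ℂ W]

/-- the Veronese map in bases -/
theorem ver_basis {ι : Type*} [Fintype ι] {H : Type*} [NormedAddCommGroup H]
    [InnerProductSpace ℂ H] (b : OrthonormalBasis ι ℂ W) (B : OrthonormalBasis (ι × ι) ℂ H) :
    Ver (fun u : W => ∑ p : ι × ι,
      ((inner ℂ (b p.1) u : ℂ) * (starRingEnd ℂ) (inner ℂ (b p.2) u : ℂ)) • B p) where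
  gram u v := by
    have h1 : (inner ℂ (∑ p : ι × ι, ((inner ℂ (b p.1) u : ℂ) *
        (starRingEnd ℂ) (inner ℂ (b p.2) u : ℂ)) • B p) (∑ p : ι × ι, ((inner ℂ (b p.1) v : ℂ) *
        (starRingEnd ℂ) (inner ℂ (b p.2) v : ℂ)) • B p) : ℂ) =
        (inner ℂ u v : ℂ) * (inner ℂ v u : ℂ) := by
      rw [B.orthonormal.inner_sum, Fintype.sum_prod_type, ← b.sum_inner_mul_inner u v,
        ← b.sum_inner_mul_inner v u, Finset.sum_mul_sum]
      refine Finset.sum_congr rfl fun i _ => Finset.sum_congr rfl fun j _ => ?_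
      simp only [map_mul, Complex.conj_conj]
      rw [inner_conj_symm, inner_conj_symm]
      ring
    rw [re_inner, h1, ← inner_conj_symm v u, Complex.mul_conj, Complex.ofReal_re,
      Complex.normSq_eq_norm_sq]
  quad x w := by
    refine ⟨∑ p : ι × ι, ((inner ℂ (b p.1) x : ℂ) * (starRingEnd ℂ) (inner ℂ (b p.2) w : ℂ) +
      (inner ℂ (b p.1) w : ℂ) * (starRingEnd ℂ) (inner ℂ (b p.2) x : ℂ)) • B p, fun α β => ?_⟩
    simp only [← Complex.coe_smul, Finset.smul_sum, ← Finset.sum_add_distrib]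
    refine Finset.sum_congr rfl fun p _ => ?_
    rw [smul_smul, smul_smul, smul_smul, ← add_smul, ← add_smul]
    congr 1
    simp only [inner_add_right, inner_smul_right, map_add, map_mul, Complex.conj_ofReal,
      Complex.ofReal_mul, Complex.ofReal_pow]
    ring

variable {M : Type*} [MetricSpace M]

/-- local isometries of the projective space are constant along phases -/
theorem phase_const {a : ℝ} (Φ : sphere (0 : W) 1 → M)
    (hloc : ∀ p, ∃ ε : ℝ, 0 < ε ∧ ∀ q q', dist p q < ε → dist p q' < ε →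
      dist (Φ q) (Φ q') = Real.arccos ‖(inner ℂ (q : W) q' : ℂ)‖ / √a)
    (μ : ℂ) (hμ : ‖μ‖ = 1) (q : sphere (0 : W) 1) : Φ (ph μ hμ q) = Φ q := by
  have hexp : ∀ θ : ℝ, ‖Complex.exp (θ * Complex.I)‖ = 1 := Complex.norm_exp_ofReal_mul_I
  set g : ℝ → sphere (0 : W) 1 := fun θ => ph (Complex.exp (θ * Complex.I)) (hexp θ) q with hg
  have hgc : Continuous g := by
    apply Continuous.subtype_mk
    have : Continuous fun θ : ℝ => Complex.exp (θ * Complex.I) := by fun_prop
    exact this.smul continuous_const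
  have hlc : IsLocallyConstant (fun θ => Φ (g θ)) := by
    rw [IsLocallyConstant.iff_eventually_eq]
    intro θ₀
    obtain ⟨ε, hε, h⟩ := hloc (g θ₀)
    have h1 : ∀ᶠ θ in 𝓝 θ₀, dist (g θ) (g θ₀) < ε :=
      (hgc.tendsto θ₀).eventually (ball_mem_nhds _ hε)
    filter_upwards [h1] with θ hθ
    have h2 := h (g θ) (g θ₀) (by rw [dist_comm]; exact hθ) (by rw [dist_self]; exact hε)
    have h3 : ‖(inner ℂ (g θ : W) (g θ₀ : W) : ℂ)‖ = 1 := by
      rw [hg, norm_inner_ph_left, norm_inner_ph_right, inner_self_c, norm_one]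
    rw [h3, Real.arccos_one, zero_div] at h2
    exact dist_eq_zero.1 h2
  have h1 : Φ (g (Complex.arg μ)) = Φ (g 0) := hlc.apply_eq_of_preconnectedSpace _ _
  have h2 : g (Complex.arg μ) = ph μ hμ q := by
    apply Subtype.ext
    change Complex.exp (Complex.arg μ * Complex.I) • (q : W) = μ • (q : W)
    congr 1
    have := Complex.norm_mul_exp_arg_mul_I μ
    rwa [hμ, Complex.ofReal_one, one_mul] at this
  have h3 : g 0 = q := by
    apply Subtype.ext
    change Complex.exp (((0 : ℝ) : ℂ) * Complex.I) • (q : W) = q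
    simp
  rw [← h2, h1, h3]

/-- **manifolds covered by the complex projective plane** -/
theorem cp_core {H : Type*} [NormedAddCommGroup H] [InnerProductSpace ℝ H]
    [FiniteDimensional ℂ W] [FiniteDimensional ℝ H] (hfin : Module.finrank ℂ W = 3)
    {Q : W → H} (hQ : Ver Q) (hM : BL 4 M) (hE : ExM M)
    {a : ℝ} (ha : 0 < a) (Φ : sphere (0 : W) 1 → M)
    (hloc : ∀ p, ∃ ε : ℝ, 0 < ε ∧ ∀ q q', dist p q < ε → dist p q' < ε →
      dist (Φ q) (Φ q') = Real.arccos ‖(inner ℂ (q : W) q' : ℂ)‖ / √a) :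
    (∀ p q, Φ p = Φ q ↔ ∃ μ : ℂ, ‖μ‖ = 1 ∧ (q : W) = μ • (p : W)) ∧
      ∀ p q, dist (Φ p) (Φ q) = Real.arccos ‖(inner ℂ (p : W) q : ℂ)‖ / √a := by
  have hsa : 0 < √a := Real.sqrt_pos.2 ha
  have hF : ∀ q : W, ‖q‖ = 1 → ∃ e : Fin 2 → W, Orthonormal ℂ e ∧
      ∀ i, (inner ℂ q (e i) : ℂ) = 0 := by
    intro q hq
    have : Fact (Module.finrank ℂ W = 2 + 1) := ⟨hfin⟩
    have hq0 : q ≠ 0 := by rintro rfl; simp at hq
    let B := OrthonormalBasis.fromOrthogonalSpanSingleton (𝕜 := ℂ) 2 hq0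
    refine ⟨fun i => (B i : W), B.orthonormal.comp_linearIsometry (Submodule.subtypeₗᵢ _),
      fun i => ?_⟩
    exact Submodule.mem_orthogonal_singleton_iff_inner_right.1 (B i).2
  have hV : ∀ p : W, ‖p‖ = 1 → ∃ u : W, ‖u‖ = 1 ∧ (inner ℝ p u : ℝ) = 0 := by
    intro p hp
    obtain ⟨e, he, hpe⟩ := hF p hp
    exact ⟨e 0, he.1 0, by rw [re_inner, hpe, Complex.zero_re]⟩
  have hph := phase_const Φ hloc
  have hcomp : CompactSpace (sphere (0 : W) 1) := by
    have : FiniteDimensional ℝ W := FiniteDimensional.complexToReal W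
    have : ProperSpace W := FiniteDimensional.proper ℝ W
    infer_instance
  have hloc' : ∀ p, ∃ ε : ℝ, 0 < ε ∧ ∀ q q', (cpPD W).D p q < ε → (cpPD W).D p q' < ε →
      dist (Φ q) (Φ q') = (cpPD W).D q q' / √a := by
    intro p
    obtain ⟨ε, hε, h⟩ := hloc p
    refine ⟨ε, hε, fun q q' hq hq' => ?_⟩
    obtain ⟨μ, hμ, h1⟩ := exists_phase_sph p q
    obtain ⟨ν, hν, h2⟩ := exists_phase_sph p q'
    rw [← cpPD_D] at h1 h2
    have h3 := h (ph μ hμ q) (ph ν hν q') ((chord_le _ _).trans_lt (by rw [h1]; exact hq))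
      ((chord_le _ _).trans_lt (by rw [h2]; exact hq'))
    rw [hph, hph, norm_inner_ph_left, norm_inner_ph_right] at h3
    exact h3
  obtain ⟨ρ, hL⟩ := exists_loc' (n := 4) (cpPD W) cpPD_tendsto (fun η hη => by
    obtain ⟨s₀, hs₀, h⟩ := cp_frames hF η hη
    refine ⟨s₀, hs₀, fun q s hs hs' => ?_⟩
    obtain ⟨e, h1, h2, h3⟩ := h q s hs hs'
    let σ : Fin 4 ≃ Fin 2 × Fin 2 := (finProdFinEquiv (m := 2) (n := 2)).symm
    refine ⟨fun i => e (σ i), fun i b => ?_, fun i => ?_, fun i j b b' hij =>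
      h3 _ _ b b' (fun h => hij (σ.injective h))⟩
    · rw [h1, sub_self, abs_zero]; positivity
    · rw [h2, sub_self, abs_zero]; positivity) hM hE ha Φ hloc'
  set c : {c : ℝ // 0 < c} := ⟨(√a)⁻¹, inv_pos.2 hsa⟩ with hc
  have hcX : CompactSpace (Syn (cpPD W) c) := compact_syn cpPD_tendsto
  have hX : ExM (Syn (cpPD W) c) := exM_syn (cp_mid hV)
  have hinj := fun (x y : Syn (cpPD W) c) h => cp_inj hfin hQ hV c hL (x := x) (y := y) h
  have hiso : ∀ p q, dist (Φ p) (Φ q) = (cpPD W).D p q / √a := by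
    intro p q
    have := hL.isometry hX hE hinj (toSyn _ c p) (toSyn _ c q)
    rw [dist_toSyn] at this
    rw [div_eq_inv_mul]
    exact this
  refine ⟨fun p q => ?_, hiso⟩
  rw [← cpPD_eq_zero, ← dist_eq_zero, hiso, div_eq_zero_iff]
  constructor
  · rintro (h | h)
    · exact h
    · exact absurd h hsa.ne'
  · exact Or.inl

end core

/-- the case of the statements -/
theorem cp_concrete {M : Type*} [MetricSpace M] (hM : BL 4 M) (hE : ExM M) {a : ℝ}
    (h : IsLocallyCoveredByComplexProjective M 2 a) : IsHomotheticToComplexProjective M 2 a := by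
  obtain ⟨ha, Φ, hsurj, hloc⟩ := h
  have hfin : Module.finrank ℂ (EuclideanSpace ℂ (Fin 3)) = 3 := by simp
  have hH : FiniteDimensional ℝ (EuclideanSpace ℂ (Fin 3 × Fin 3)) :=
    FiniteDimensional.complexToReal _
  have hver := ver_basis (EuclideanSpace.basisFun (Fin 3) ℂ)
    (EuclideanSpace.basisFun (Fin 3 × Fin 3) ℂ)
  have key := cp_core hfin hver hM hE ha Φ hloc
  exact ⟨ha, Φ, hsurj, key.1, key.2⟩

/-- (T2) of row 249 -/
theorem T2 (M : Type*) [MetricSpace M] [ChartedSpace (EuclideanSpace ℝ (Fin 4)) M]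
    [IsManifold 𝓘(ℝ, EuclideanSpace ℝ (Fin 4)) ∞ M] [CompactSpace M]
    [RiemannianBundle (fun x : M => TangentSpace 𝓘(ℝ, EuclideanSpace ℝ (Fin 4)) x)]
    [IsContMDiffRiemannianBundle 𝓘(ℝ, EuclideanSpace ℝ (Fin 4)) ∞ (EuclideanSpace ℝ (Fin 4))
      (fun x : M => TangentSpace 𝓘(ℝ, EuclideanSpace ℝ (Fin 4)) x)]
    [IsRiemannianManifold 𝓘(ℝ, EuclideanSpace ℝ (Fin 4)) M] (a : ℝ)
    (h : IsLocallyCoveredByComplexProjective M 2 a) : IsHomotheticToComplexProjective M 2 a :=
  cp_concrete (bl 4 M) (exM 4 M) h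

end

end Crest.Agent.R249.Cov9_802
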