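import Crest.Agent.R247.Mcp2_688
import Mathlib

/-!
R249 (helper709), leaf D1-DIAM, file 2: the abstract half.

`Rad n 0 X μ` (radial contraction structure, Ric ≥ 0), `g ≥ 0` measurable, every geodesic of length
in `(ρ - 2, ρ + 2)` has `∫ g ≥ 3/4` (in the normalised parameter), every point has a point at
distance exactly `ρ`. Then `c(n, ρ) * μ X ≤ ∫ g²`.
-/

set_option autoImplicit false
set_option linter.unusedSectionVars false

open Set Filter Topology Metric MeasureTheory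
open scoped ENNReal NNReal
open Crest.Agent.R247.Mcp688

noncomputable section

namespace Crest.Agent.R249.Diam709

/-- an elementary inequality in `ℝ≥0∞`: `3/4 a b ≤ K (a + b) G`, `m ≤ a`, `m ≤ b`, `a, b < ∞`
imply `3/4 m ≤ 2 K G`. -/
theorem enn_min {a b m K G : ℝ≥0∞} (ha : a ≠ ∞) (hb : b ≠ ∞) (hma : m ≤ a) (hmb : m ≤ b)
    (h : ENNReal.ofReal (3 / 4) * (a * b) ≤ K * (a + b) * G) :
    ENNReal.ofReal (3 / 4) * m ≤ 2 * K * G := by
  wlog hab : a ≤ b generalizing a b with H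
  · exact H hb ha hmb hma (by rwa [mul_comm b a, add_comm b a]) (le_of_not_ge hab)
  rcases eq_or_ne b 0 with hb0 | hb0
  · have hm : m = 0 := le_antisymm (hmb.trans hb0.le) bot_le
    rw [hm, mul_zero]; exact bot_le
  have h1 : ENNReal.ofReal (3 / 4) * a * b ≤ 2 * K * G * b := by
    calc ENNReal.ofReal (3 / 4) * a * b = ENNReal.ofReal (3 / 4) * (a * b) := by ring
      _ ≤ K * (a + b) * G := h
      _ ≤ K * (b + b) * G := by gcongr
      _ = 2 * K * G * b := by ring
  have h2 : ENNReal.ofReal (3 / 4) * a ≤ 2 * K * G := (ENNReal.mul_le_mul_iff_left hb0 hb).1 h1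
  exact (mul_le_mul_right hma _).trans h2

/-- Cauchy–Schwarz in the form used below. -/
theorem cs_set {X : Type*} [MeasurableSpace X] {μ : Measure X} {W : Set X} {g : X → ℝ≥0∞}
    (hg : Measurable g) {c : ℝ≥0∞} (hW : μ W ≠ ∞) (h : c * μ W ≤ ∫⁻ y in W, g y ∂μ) :
    c ^ 2 * μ W ≤ ∫⁻ y in W, g y ^ 2 ∂μ := by
  rcases eq_or_ne (μ W) 0 with h0 | h0
  · rw [h0, mul_zero]; exact bot_le
  -- Hölder with exponents 2, 2
  have hH : (∫⁻ y in W, g y ∂μ) ^ 2 ≤ μ W * ∫⁻ y in W, g y ^ 2 ∂μ := by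
    have h1 := ENNReal.lintegral_mul_le_Lp_mul_Lq (μ.restrict W) (p := 2) (q := 2)
      (by constructor <;> norm_num) hg.aemeasurable
      (measurable_const (a := (1 : ℝ≥0∞))).aemeasurable
    simp only [Pi.mul_apply, mul_one, ENNReal.one_rpow, lintegral_const, one_mul,
      Measure.restrict_apply MeasurableSet.univ, univ_inter] at h1
    calc (∫⁻ y in W, g y ∂μ) ^ 2
        ≤ ((∫⁻ y in W, g y ^ (2:ℝ) ∂μ) ^ (1 / (2:ℝ)) * μ W ^ (1 / (2:ℝ))) ^ 2 := by gcongr
      _ = μ W * ∫⁻ y in W, g y ^ 2 ∂μ := by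
        rw [mul_pow, ← ENNReal.rpow_natCast, ← ENNReal.rpow_natCast, ← ENNReal.rpow_mul,
          ← ENNReal.rpow_mul]
        norm_num
        rw [mul_comm]
  have h2 : (c * μ W) ^ 2 ≤ μ W * ∫⁻ y in W, g y ^ 2 ∂μ := (by gcongr : (c * μ W) ^ 2 ≤ _).trans hH
  have h3 : μ W * (c ^ 2 * μ W) ≤ μ W * ∫⁻ y in W, g y ^ 2 ∂μ := by
    calc μ W * (c ^ 2 * μ W) = (c * μ W) ^ 2 := by ring
      _ ≤ _ := h2
  exact (ENNReal.mul_le_mul_iff_right h0 hW).1 h3

section main

variable {X : Type*} [MetricSpace X] [MeasurableSpace X] [BorelSpace X] {μ : Measure X} {n : ℕ}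
  (C : Rad n 0 X μ)

include C

/-- local lower bound of `∫ g` on the ball of radius `ρ + 4`. -/
theorem local_lower [SFinite μ] (hfin : ∀ x r, μ (ball x r) ≠ ∞) {ρ : ℝ} (hρ : 2 < ρ)
    {g : X → ℝ≥0∞} (hg : Measurable g)
    (hgeo : ∀ x z, (x, z) ∈ C.U → ρ - 2 < dist x z → dist x z < ρ + 2 →
      ENNReal.ofReal (3 / 4) ≤ ∫⁻ t in Icc (0 : ℝ) 1, g (C.T x t z))
    {x y : X} (hxy : dist x y = ρ) :
    ENNReal.ofReal (3 / 4) * (ENNReal.ofReal ((2 * ρ + 5)⁻¹ ^ n) * μ (closedBall x (ρ + 4))) ≤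
      2 * ENNReal.ofReal (2 ^ n) * ∫⁻ z in closedBall x (ρ + 4), g z ∂μ := by
  have hseg := C.segment_le le_rfl (A := ball x 1) (B := ball y 1) (W := closedBall x (ρ + 4))
    measurableSet_ball measurableSet_ball measurableSet_closedBall (D := ρ + 2)
    (fun a ha b hb => by
      rw [mem_ball] at ha hb
      have h1 := dist_triangle a x b
      have h2 := dist_triangle x y b
      rw [dist_comm y b] at h2
      linarith)
    (fun a ha b hb hU t ht => by
      rw [mem_ball] at ha hb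
      rw [mem_closedBall]
      have h1 := dist_triangle a x b
      have h2 := dist_triangle x y b
      rw [dist_comm y b] at h2
      have h3 : dist (C.T a 0 b) (C.T a t b) = |0 - t| * dist a b :=
        C.dist_T a b hU 0 ⟨le_rfl, zero_le_one⟩ t ht
      rw [C.T_zero a b hU, zero_sub, abs_neg, abs_of_nonneg ht.1] at h3
      have h4 := dist_triangle (C.T a t b) a x
      rw [dist_comm (C.T a t b) a, h3] at h4
      have h5 : t * dist a b ≤ 1 * (ρ + 2) := by
        have : dist a b ≤ ρ + 2 := by linarith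
        exact mul_le_mul ht.2 this dist_nonneg zero_le_one
      linarith) hg
  simp only [zero_mul, zero_div, Real.exp_zero, one_mul] at hseg
  -- lower bound of the left side
  have hlow : ENNReal.ofReal (3 / 4) * (μ (ball x 1) * μ (ball y 1)) ≤
      ∫⁻ a in ball x 1, ∫⁻ b in ball y 1, ∫⁻ t in Icc (0 : ℝ) 1, g (C.T a t b) ∂volume ∂μ ∂μ := by
    calc ENNReal.ofReal (3 / 4) * (μ (ball x 1) * μ (ball y 1))
        = ∫⁻ _a in ball x 1, ∫⁻ _b in ball y 1, ENNReal.ofReal (3 / 4) ∂μ ∂μ := by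
          rw [setLIntegral_const, setLIntegral_const]; ring
      _ ≤ _ := by
          apply setLIntegral_mono' measurableSet_ball
          intro a ha
          apply setLIntegral_mono_ae' measurableSet_ball
          filter_upwards [C.ae_U a] with b hU hb
          rw [mem_ball] at ha hb
          have h1 := dist_triangle a x b
          have h2 := dist_triangle x y b
          rw [dist_comm y b] at h2
          have h3 := dist_triangle x a y
          have h4 := dist_triangle a b y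
          rw [dist_comm x a] at h3
          exact hgeo a b hU (by linarith) (by linarith)
  have key := hlow.trans hseg
  refine enn_min (hfin x 1) (hfin y 1) ?_ ?_ key
  · -- `(2ρ+5)⁻ⁿ μ(closedBall x (ρ+4)) ≤ μ(ball x 1)`
    have h1 := C.mu_ball_le le_rfl x (r := 1) (R := 2 * ρ + 5) one_pos (by linarith)
    simp only [zero_mul, zero_div, Real.exp_zero, one_mul, div_one] at h1
    have h2 : μ (closedBall x (ρ + 4)) ≤ μ (ball x (2 * ρ + 5)) :=
      measure_mono (closedBall_subset_ball (by linarith))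
    calc ENNReal.ofReal ((2 * ρ + 5)⁻¹ ^ n) * μ (closedBall x (ρ + 4))
        ≤ ENNReal.ofReal ((2 * ρ + 5)⁻¹ ^ n) *
          (ENNReal.ofReal ((2 * ρ + 5) ^ n) * μ (ball x 1)) := by
          gcongr
          exact h2.trans h1
      _ = μ (ball x 1) := by
          rw [← mul_assoc, ← ENNReal.ofReal_mul (by positivity), ← mul_pow,
            inv_mul_cancel₀ (by linarith : (2 * ρ + 5 : ℝ) ≠ 0), one_pow, ENNReal.ofReal_one,
            one_mul]
  · have h1 := C.mu_ball_le le_rfl y (r := 1) (R := 2 * ρ + 5) one_pos (by linarith)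
    simp only [zero_mul, zero_div, Real.exp_zero, one_mul, div_one] at h1
    have h2 : μ (closedBall x (ρ + 4)) ≤ μ (ball y (2 * ρ + 5)) := by
      apply measure_mono
      intro z hz
      rw [mem_closedBall] at hz
      rw [mem_ball]
      have := dist_triangle z x y
      linarith
    calc ENNReal.ofReal ((2 * ρ + 5)⁻¹ ^ n) * μ (closedBall x (ρ + 4))
        ≤ ENNReal.ofReal ((2 * ρ + 5)⁻¹ ^ n) *
          (ENNReal.ofReal ((2 * ρ + 5) ^ n) * μ (ball y 1)) := by
          gcongr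
          exact h2.trans h1
      _ = μ (ball y 1) := by
          rw [← mul_assoc, ← ENNReal.ofReal_mul (by positivity), ← mul_pow,
            inv_mul_cancel₀ (by linarith : (2 * ρ + 5 : ℝ) ≠ 0), one_pow, ENNReal.ofReal_one,
            one_mul]

/-- the constant of `local_lower`. -/
def c1 (n : ℕ) (ρ : ℝ) : ℝ := 3 / 8 * (2⁻¹) ^ n * (2 * ρ + 5)⁻¹ ^ n

omit C in
theorem c1_pos {n : ℕ} {ρ : ℝ} (hρ : 2 < ρ) : 0 < c1 n ρ := by
  unfold c1
  have : 0 < 2 * ρ + 5 := by linarith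
  positivity

theorem local_lower' [SFinite μ] (hfin : ∀ x r, μ (ball x r) ≠ ∞) {ρ : ℝ} (hρ : 2 < ρ)
    {g : X → ℝ≥0∞} (hg : Measurable g)
    (hgeo : ∀ x z, (x, z) ∈ C.U → ρ - 2 < dist x z → dist x z < ρ + 2 →
      ENNReal.ofReal (3 / 4) ≤ ∫⁻ t in Icc (0 : ℝ) 1, g (C.T x t z))
    {x y : X} (hxy : dist x y = ρ) :
    ENNReal.ofReal (c1 n ρ) * μ (closedBall x (ρ + 4)) ≤ ∫⁻ z in closedBall x (ρ + 4), g z ∂μ := by
  have h := local_lower C hfin hρ hg hgeo hxy
  have h5 : 0 < 2 * ρ + 5 := by linarith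
  set I := ∫⁻ z in closedBall x (ρ + 4), g z ∂μ with hI
  have e1 : ENNReal.ofReal (c1 n ρ) * μ (closedBall x (ρ + 4)) =
      ENNReal.ofReal (2⁻¹ * (2⁻¹) ^ n) * (ENNReal.ofReal (3 / 4) *
        (ENNReal.ofReal ((2 * ρ + 5)⁻¹ ^ n) * μ (closedBall x (ρ + 4)))) := by
    rw [← mul_assoc, ← mul_assoc, ← ENNReal.ofReal_mul (by positivity),
      ← ENNReal.ofReal_mul (by positivity)]
    congr 2
    unfold c1
    ring
  have e2 : ENNReal.ofReal (2⁻¹ * (2⁻¹) ^ n) * (2 * ENNReal.ofReal (2 ^ n) * I) = I := by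
    have : (2 : ℝ≥0∞) = ENNReal.ofReal 2 := by norm_num
    rw [this, ← mul_assoc, ← ENNReal.ofReal_mul (by norm_num), ← ENNReal.ofReal_mul (by positivity)]
    have : (2⁻¹ * (2⁻¹) ^ n * (2 * 2 ^ n) : ℝ) = 1 := by
      rw [inv_pow]
      field_simp
    rw [this, ENNReal.ofReal_one, one_mul]
  rw [e1]
  calc _ ≤ ENNReal.ofReal (2⁻¹ * (2⁻¹) ^ n) * (2 * ENNReal.ofReal (2 ^ n) * I) := by gcongr
    _ = I := e2

/-- **energy lower bound**. -/
theorem energy_lower [SFinite μ] [TopologicalSpace.SeparableSpace X] (hfin : ∀ x r, μ (ball x r) ≠ ∞) {ρ : ℝ}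
    (hρ : 2 < ρ) {g : X → ℝ≥0∞} (hg : Measurable g)
    (hgeo : ∀ x z, (x, z) ∈ C.U → ρ - 2 < dist x z → dist x z < ρ + 2 →
      ENNReal.ofReal (3 / 4) ≤ ∫⁻ t in Icc (0 : ℝ) 1, g (C.T x t z))
    (hfar : ∀ x : X, ∃ y, dist x y = ρ) :
    ENNReal.ofReal (c1 n ρ ^ 2 * (6⁻¹) ^ n) * μ univ ≤ ∫⁻ z, g z ^ 2 ∂μ := by
  set r := ρ + 4 with hr
  have hr0 : 0 < r := by linarith
  obtain ⟨u, -, hu1, hu2⟩ := Vitali.exists_disjoint_subfamily_covering_enlargement_closedBall
    (univ : Set X) (fun x => x) (fun _ => r) r (fun _ _ => le_rfl) 5 (by norm_num)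
  have hcount : u.Countable := by
    refine hu1.countable_of_nonempty_interior fun x _ => ⟨x, ?_⟩
    rw [mem_interior_iff_mem_nhds]
    exact closedBall_mem_nhds x hr0
  have hcov : (univ : Set X) ⊆ ⋃ x ∈ u, closedBall x (5 * r) := by
    intro z _
    obtain ⟨b, hb, hzb⟩ := hu2 z (mem_univ z)
    exact mem_iUnion₂.2 ⟨b, hb, hzb (mem_closedBall_self hr0.le)⟩
  have hone : ∀ x : X, ENNReal.ofReal (c1 n ρ ^ 2) * μ (closedBall x r) ≤
      ∫⁻ z in closedBall x r, g z ^ 2 ∂μ := by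
    intro x
    obtain ⟨y, hy⟩ := hfar x
    have h1 := local_lower' C hfin hρ hg hgeo hy
    have h2 : μ (closedBall x r) ≠ ∞ :=
      ((measure_mono (closedBall_subset_ball (lt_add_one r))).trans_lt
        (lt_top_iff_ne_top.2 (hfin x (r + 1)))).ne
    have h3 := cs_set hg h2 h1
    rwa [← ENNReal.ofReal_pow (c1_pos hρ).le] at h3
  have hdoub : ∀ x : X, μ (closedBall x (5 * r)) ≤ ENNReal.ofReal (6 ^ n) * μ (closedBall x r) := by
    intro x
    have h1 := C.mu_ball_le le_rfl x (r := r) (R := 6 * r) hr0 (by linarith)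
    simp only [zero_mul, zero_div, Real.exp_zero, one_mul] at h1
    rw [mul_div_assoc, div_self hr0.ne', mul_one] at h1
    calc μ (closedBall x (5 * r)) ≤ μ (ball x (6 * r)) :=
          measure_mono (closedBall_subset_ball (by linarith))
      _ ≤ ENNReal.ofReal (6 ^ n) * μ (ball x r) := h1
      _ ≤ _ := by gcongr; exact ball_subset_closedBall
  have h6 : ENNReal.ofReal ((6⁻¹) ^ n) * ENNReal.ofReal (6 ^ n) = 1 := by
    rw [← ENNReal.ofReal_mul (by positivity), ← mul_pow]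
    norm_num
  calc ENNReal.ofReal (c1 n ρ ^ 2 * (6⁻¹) ^ n) * μ univ
      = ENNReal.ofReal (c1 n ρ ^ 2) * (ENNReal.ofReal ((6⁻¹) ^ n) * μ univ) := by
        rw [ENNReal.ofReal_mul (by positivity), mul_assoc]
    _ ≤ ENNReal.ofReal (c1 n ρ ^ 2) * (ENNReal.ofReal ((6⁻¹) ^ n) *
        μ (⋃ x ∈ u, closedBall x (5 * r))) := by
        gcongr
    _ ≤ ENNReal.ofReal (c1 n ρ ^ 2) * (ENNReal.ofReal ((6⁻¹) ^ n) *
        ∑' x : u, μ (closedBall (x : X) (5 * r))) := by
        gcongr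
        exact measure_biUnion_le μ hcount _
    _ ≤ ENNReal.ofReal (c1 n ρ ^ 2) * (ENNReal.ofReal ((6⁻¹) ^ n) *
        ∑' x : u, ENNReal.ofReal (6 ^ n) * μ (closedBall (x : X) r)) := by
        gcongr with x
        exact hdoub x
    _ = ∑' x : u, ENNReal.ofReal (c1 n ρ ^ 2) * μ (closedBall (x : X) r) := by
        rw [ENNReal.tsum_mul_left, ENNReal.tsum_mul_left, ← mul_assoc (ENNReal.ofReal ((6⁻¹) ^ n)),
          h6, one_mul]
    _ ≤ ∑' x : u, ∫⁻ z in closedBall (x : X) r, g z ^ 2 ∂μ :=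
        ENNReal.tsum_le_tsum fun x => hone x
    _ = ∫⁻ z in ⋃ x ∈ u, closedBall x r, g z ^ 2 ∂μ := by
        rw [lintegral_biUnion hcount (fun _ _ => measurableSet_closedBall) hu1]
    _ ≤ ∫⁻ z, g z ^ 2 ∂μ := setLIntegral_le_lintegral _ _

end main

end Crest.Agent.R249.Diam709
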