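import Crest.Agent.R249.Diam1_709
import Crest.Agent.R249.Diam2_709
import Crest.Agent.R247.Bgr3_546

/-!
R249 (helper709), leaf D1-DIAM, file 3: the diameter bound.

`diam_energy n` : there is `c > 0` such that for every complete connected Riemannian `n`-manifold
with finite-volume balls (automatic), `Ric ≥ 0`, `Ric ≥ (3 - e) g` with `e ≥ 0` continuous:
if two points have distance `≥ 2 ρ` (`ρ > 2`, `16 n ≤ (ρ - 2)²`), then `c vol M ≤ ∫ e²`.
`diam_le_four`: `n = 4`, `ρ = 10`: `∫ e² < c vol M` implies `dist p q < 20` for all `p, q`.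
-/

set_option autoImplicit false
set_option maxSynthPendingDepth 3
set_option linter.unusedSectionVars false

open Bundle Set Filter Topology Metric MeasureTheory
open scoped Manifold ContDiff NNReal Interval
open Crest.GeometryTopology.CoordMetric Crest.GeometryTopology.ChartCurvature
  Crest.GeometryTopology.PointedLimit
open Crest.Agent.R247 Crest.Agent.R247.Mcp688

noncomputable section

namespace Crest.Agent.R249.Diam709

universe u

section

variable {n : ℕ} {M : Type u} [MetricSpace M] [CompleteSpace M] [ConnectedSpace M]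
  [ChartedSpace (EuclideanSpace ℝ (Fin n)) M]
  [IsManifold 𝓘(ℝ, EuclideanSpace ℝ (Fin n)) ∞ M]
  [RiemannianBundle (fun x : M => TangentSpace 𝓘(ℝ, EuclideanSpace ℝ (Fin n)) x)]
  [IsContMDiffRiemannianBundle 𝓘(ℝ, EuclideanSpace ℝ (Fin n)) ∞ (EuclideanSpace ℝ (Fin n))
    (fun x : M => TangentSpace 𝓘(ℝ, EuclideanSpace ℝ (Fin n)) x)]
  [IsRiemannianManifold 𝓘(ℝ, EuclideanSpace ℝ (Fin n)) M]
  [MeasurableSpace M] [BorelSpace M]

/-- the budget in the normalised parameter of a radial structure. -/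
theorem budget_T (hK : HasRicciLowerBound n M 0) {e : M → ℝ} (he : RicGe n M 3 e)
    (hec : Continuous e) (he0 : ∀ x, 0 ≤ e x) {κ : ℝ} {μ : Measure M} (C : Rad n κ M μ)
    {x z : M} (hU : (x, z) ∈ C.U) (hL0 : 0 < dist x z) (hL : 16 * (n : ℝ) ≤ dist x z ^ 2) :
    ENNReal.ofReal (3 / 4) ≤ ∫⁻ t in Icc (0 : ℝ) 1, ENNReal.ofReal (e (C.T x t z)) := by
  have := HR216.properSpace_of_riemannian n M
  set L := dist x z with hLdef
  set γ : ℝ → M := fun s => C.T x (s / L) z with hγdef
  have hγ : ∀ s ∈ Icc 0 L, ∀ t ∈ Icc 0 L, dist (γ s) (γ t) = |s - t| := by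
    intro s hs t ht
    have h1 := C.dist_T x z hU (s / L) ⟨div_nonneg hs.1 hL0.le, (div_le_one hL0).2 hs.2⟩
      (t / L) ⟨div_nonneg ht.1 hL0.le, (div_le_one hL0).2 ht.2⟩
    simp only [hγdef]
    rw [h1, ← hLdef, ← sub_div, abs_div, abs_of_pos hL0, div_mul_cancel₀ _ hL0.ne']
  have hb := ricci_budget (Bgr546.exM_of_riemannian n M) hK he hec he0 hL0 hγ
  have h2 : ∫ s in (0 : ℝ)..L, e (γ s) = L * ∫ t in (0 : ℝ)..1, e (C.T x t z) := by
    simp only [hγdef]
    rw [intervalIntegral.integral_comp_div (fun t => e (C.T x t z)) hL0.ne', zero_div,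
      div_self hL0.ne', smul_eq_mul]
  have h3 : 3 / 4 ≤ ∫ t in (0 : ℝ)..1, e (C.T x t z) := by
    rw [h2] at hb
    have h4 : L * (3 / 4) ≤ 3 * L / 3 - 4 * n / L := by
      have h5 : 4 * (n : ℝ) / L ≤ L / 4 := by
        rw [div_le_iff₀ hL0]
        nlinarith
      linarith
    exact le_of_mul_le_mul_left (h4.trans hb) hL0
  have hTc : ContinuousOn (fun t => C.T x t z) (Icc 0 1) := by
    have : LipschitzOnWith (Real.toNNReal L) (fun t => C.T x t z) (Icc 0 1) := by
      refine LipschitzOnWith.of_dist_le_mul fun s hs t ht => ?_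
      rw [C.dist_T x z hU s hs t ht, Real.dist_eq, Real.coe_toNNReal L hL0.le, mul_comm]
    exact this.continuousOn
  have hEc : ContinuousOn (fun t => e (C.T x t z)) (Icc 0 1) := hec.comp_continuousOn hTc
  have hint : IntegrableOn (fun t => e (C.T x t z)) (Icc 0 1) :=
    hEc.integrableOn_compact isCompact_Icc
  rw [← ofReal_integral_eq_lintegral_ofReal hint (Eventually.of_forall fun t => he0 _)]
  apply ENNReal.ofReal_le_ofReal
  rwa [integral_Icc_eq_integral_Ioc, ← intervalIntegral.integral_of_le zero_le_one]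

/-- **D1-DIAM, energy form**. -/
theorem energy_of_far (hK : HasRicciLowerBound n M 0) {e : M → ℝ} (he : RicGe n M 3 e)
    (hec : Continuous e) (he0 : ∀ x, 0 ≤ e x) {ρ : ℝ} (hρ : 2 < ρ)
    (hρn : 16 * (n : ℝ) ≤ (ρ - 2) ^ 2) {p q : M} (hpq : 2 * ρ ≤ dist p q) :
    ENNReal.ofReal (c1 n ρ ^ 2 * (6⁻¹) ^ n) * (μHE[n] : Measure M) univ ≤
      ∫⁻ z, ENNReal.ofReal (e z ^ 2) ∂(μHE[n] : Measure M) := by
  have := HR216.properSpace_of_riemannian n M
  have := GluM923.isLocallyFinite n M
  obtain ⟨C⟩ := Bgr546.rad_all n 0 le_rfl M (by rw [neg_zero]; exact hK)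
  have hfin : ∀ (x : M) r, (μHE[n] : Measure M) (ball x r) ≠ ⊤ := fun x r =>
    (GluM923.ball_lt_top n M x r).ne
  have hg : Measurable fun z => ENNReal.ofReal (e z) := (hec.measurable).ennreal_ofReal
  have hmain := energy_lower C hfin hρ hg (fun x z hU h1 h2 => ?_) (fun x => ?_)
  · refine hmain.trans (le_of_eq ?_)
    refine lintegral_congr fun z => ?_
    rw [ENNReal.ofReal_pow (he0 z)]
  · have h3 : 0 < dist x z := by linarith
    refine budget_T hK he hec he0 C hU h3 (hρn.trans ?_)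
    have : 0 ≤ ρ - 2 := by linarith
    gcongr
  · -- a point at distance exactly `ρ`
    have h4 : ρ ≤ dist x p ∨ ρ ≤ dist x q := by
      by_contra hcon
      push Not at hcon
      have h5 := dist_triangle p x q
      rw [dist_comm p x] at h5
      linarith [hcon.1, hcon.2]
    have hc : Continuous fun y => dist x y := continuous_const.dist continuous_id
    have h6 : ρ ∈ range fun y => dist x y := by
      refine mem_range_of_exists_le_of_exists_ge hc ⟨x, ?_⟩ ?_
      · rw [dist_self]; linarith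
      · rcases h4 with h | h
        · exact ⟨p, h⟩
        · exact ⟨q, h⟩
    exact h6

end

/-- **The diameter bound used in S0386**: in dimension four, `∫ e² < c vol M` implies
`dist p q < 20`. -/
theorem diam_lt_of_energy {M : Type u} [MetricSpace M] [CompleteSpace M] [ConnectedSpace M]
    [ChartedSpace (EuclideanSpace ℝ (Fin 4)) M]
    [IsManifold 𝓘(ℝ, EuclideanSpace ℝ (Fin 4)) ∞ M]
    [RiemannianBundle (fun x : M => TangentSpace 𝓘(ℝ, EuclideanSpace ℝ (Fin 4)) x)]
    [IsContMDiffRiemannianBundle 𝓘(ℝ, EuclideanSpace ℝ (Fin 4)) ∞ (EuclideanSpace ℝ (Fin 4))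
      (fun x : M => TangentSpace 𝓘(ℝ, EuclideanSpace ℝ (Fin 4)) x)]
    [IsRiemannianManifold 𝓘(ℝ, EuclideanSpace ℝ (Fin 4)) M]
    [MeasurableSpace M] [BorelSpace M] (hK : HasRicciLowerBound 4 M 0) {e : M → ℝ}
    (he : RicGe 4 M 3 e) (hec : Continuous e) (he0 : ∀ x, 0 ≤ e x)
    (hen : ∫⁻ z, ENNReal.ofReal (e z ^ 2) ∂(μHE[4] : Measure M) <
      ENNReal.ofReal (c1 4 10 ^ 2 * (6⁻¹) ^ 4) * (μHE[4] : Measure M) univ) (p q : M) :
    dist p q < 20 := by
  by_contra hcon
  push Not at hcon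
  have := energy_of_far (n := 4) hK he hec he0 (ρ := 10) (by norm_num) (by norm_num)
    (p := p) (q := q) (by linarith)
  exact absurd hen (not_lt.2 this)

end Crest.Agent.R249.Diam709
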