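import Crest.Agent.R249.Sch3_104
import Crest.Agent.R249.Alg2_104
import Crest.Agent.R249.Diam3_709

/-!
# R249 (S0386), D1 (helper104): assembly of D1

`d1_of : IdxStmt → PoisStmt → D1Stmt`.
-/

set_option autoImplicit false
set_option maxSynthPendingDepth 3
set_option linter.unusedSectionVars false

open scoped ContDiff Topology Manifold ENNReal NNReal
open Filter Set Bundle MeasureTheory Metric
open Crest.GeometryTopology.CoordMetric Crest.GeometryTopology.ChartCurvature
  Crest.GeometryTopology.PointedLimit Crest.GeometryTopology.RicciEnergy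
open Crest.Agent.R247.Bo84 Crest.Agent.R247.Scal386
open Crest.Agent.R249.D1Def104 Crest.Agent.R249.Sch1_104 Crest.Agent.R249.Sch3_104
  Crest.Agent.R249.Alg2_104

noncomputable section

namespace Crest.Agent.R249.D1Asm104

/-- **Solvability of the Poisson equation** (helper324, G1). -/
def PoisStmt : Prop :=
  ∀ (M : Type) [MetricSpace M] [ChartedSpace (EuclideanSpace ℝ (Fin 4)) M]
    [IsManifold 𝓘(ℝ, EuclideanSpace ℝ (Fin 4)) ∞ M] [CompactSpace M] [ConnectedSpace M]
    [RiemannianBundle (fun x : M => TangentSpace 𝓘(ℝ, EuclideanSpace ℝ (Fin 4)) x)]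
    [IsContMDiffRiemannianBundle 𝓘(ℝ, EuclideanSpace ℝ (Fin 4)) ∞ (EuclideanSpace ℝ (Fin 4))
      (fun x : M => TangentSpace 𝓘(ℝ, EuclideanSpace ℝ (Fin 4)) x)]
    [IsRiemannianManifold 𝓘(ℝ, EuclideanSpace ℝ (Fin 4)) M]
    [MeasurableSpace M] [BorelSpace M] (h : M → ℝ), ContMDiff (𝓡 4) 𝓘(ℝ) ∞ h →
    ∫ z, h z ∂(μHE[4] : Measure M) = 0 →
    ∃ u : M → ℝ, ContMDiff (𝓡 4) 𝓘(ℝ) ∞ u ∧ ∀ p, mLap 4 u p = h p

section one

variable {M : Type} [MetricSpace M] [ChartedSpace (EuclideanSpace ℝ (Fin 4)) M]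
    [IsManifold 𝓘(ℝ, EuclideanSpace ℝ (Fin 4)) ∞ M] [CompactSpace M] [ConnectedSpace M]
    [RiemannianBundle (fun x : M => TangentSpace 𝓘(ℝ, EuclideanSpace ℝ (Fin 4)) x)]
    [IsContMDiffRiemannianBundle 𝓘(ℝ, EuclideanSpace ℝ (Fin 4)) ∞ (EuclideanSpace ℝ (Fin 4))
      (fun x : M => TangentSpace 𝓘(ℝ, EuclideanSpace ℝ (Fin 4)) x)]
    [IsRiemannianManifold 𝓘(ℝ, EuclideanSpace ℝ (Fin 4)) M]
    [MeasurableSpace M] [BorelSpace M]

/-- the almost Schur inequality with the mean value. -/
theorem schur_mean (hP : PoisStmt) (hR : HasRicciLowerBound 4 M 0) {m : ℝ}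
    (hm : ∫ z, mScal 4 M z ∂(μHE[4] : Measure M) = m * (μHE[4] : Measure M).real univ) :
    ∫ z, (mScal 4 M z - m) ^ 2 ∂(μHE[4] : Measure M) ≤
      12 * ∫ z, tracefreeRicciDensity 4 M z ∂(μHE[4] : Measure M) := by
  have : IsFiniteMeasure (μHE[4] : Measure M) := Grn324.isFiniteMeasure 4 M
  have iS : Integrable (mScal 4 M) (μHE[4] : Measure M) :=
    Grn324.integrable_cont (n := 4) continuous_mScal
  obtain ⟨u, hu, hue⟩ := hP M (fun z => mScal 4 M z - m)
    (contMDiff_mScal.sub contMDiff_const) (by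
      rw [integral_sub iS (integrable_const m), hm, integral_const]
      simp only [smul_eq_mul]
      ring)
  exact almost_schur_of hR hu hue

theorem energy_eq : tracefreeRicciEnergy 4 M =
    ENNReal.ofReal (∫ z, tracefreeRicciDensity 4 M z ∂(μHE[4] : Measure M)) := by
  have iD : Integrable (tracefreeRicciDensity 4 M) (μHE[4] : Measure M) :=
    Grn324.integrable_cont (continuous_density (by norm_num))
  rw [tracefreeRicciEnergy, ofReal_integral_eq_lintegral_ofReal iD
    (Eventually.of_forall fun z => density_nonneg z)]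

end one

theorem d1_of (hI : IdxStmt) (hP : PoisStmt) : D1Stmt := by
  obtain ⟨C, hC, hI⟩ := hI
  set c0 : ℝ := Crest.Agent.R249.Diam709.c1 4 10 ^ 2 * (6⁻¹) ^ 4 with hc0
  have hc0p : 0 < c0 := by
    have := Crest.Agent.R249.Diam709.c1_pos (n := 4) (ρ := 10) (by norm_num)
    positivity
  set κ : ℝ := 9 / (32 * C) with hκ
  have hκp : 0 < κ := by positivity
  refine ⟨κ / 144, 20, 4, min (9 / (384 * C)) (c0 * (κ / 144) / 8), by positivity, by norm_num,
    by norm_num, by positivity, ?_⟩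
  intro M _ _ _ _ _ _ _ _ _ _ hsec ε hε hε0 hE
  have hε1 : ε ≤ 9 / (384 * C) := hε0.trans (min_le_left _ _)
  have hε2 : ε ≤ c0 * (κ / 144) / 8 := hε0.trans (min_le_right _ _)
  have hR : HasRicciLowerBound 4 M 0 := ricBound_of_sec hsec
  have : IsFiniteMeasure (μHE[4] : Measure M) := Grn324.isFiniteMeasure 4 M
  set V : ℝ := (μHE[4] : Measure M).real univ with hV
  have hV0 : 0 ≤ V := measureReal_nonneg
  have cS : Continuous (mScal 4 M) := continuous_mScal
  have hidx := hI M (fun p => (4/3) * mScal 4 M p) (continuous_const.mul cS)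
    (fun p u v w z => curv_bound_M hsec p u v w z)
  have iS : Integrable (mScal 4 M) (μHE[4] : Measure M) := Grn324.integrable_cont (n := 4) cS
  have iS2 : Integrable (fun z => mScal 4 M z ^ 2) (μHE[4] : Measure M) :=
    Grn324.integrable_cont (n := 4) (cS.pow 2)
  have iD : Integrable (tracefreeRicciDensity 4 M) (μHE[4] : Measure M) :=
    Grn324.integrable_cont (continuous_density (by norm_num))
  -- the energy
  have hE' : ∫ z, tracefreeRicciDensity 4 M z ∂(μHE[4] : Measure M) < ε := by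
    rw [energy_eq] at hE
    exact (ENNReal.ofReal_lt_ofReal_iff hε).1 hE
  -- the index inequality, real form
  have hidx' : 1 ≤ C * ((16/9) * ∫ z, mScal 4 M z ^ 2 ∂(μHE[4] : Measure M)) := by
    have e1 : ∀ p : M, ENNReal.ofReal (((4/3) * mScal 4 M p) ^ 2) =
        ENNReal.ofReal ((16/9) * mScal 4 M p ^ 2) := fun p => by congr 1; ring
    simp only [e1] at hidx
    rw [← ofReal_integral_eq_lintegral_ofReal (iS2.const_mul (16/9))
      (Eventually.of_forall fun z => by positivity), integral_const_mul,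
      ← ENNReal.ofReal_mul hC.le] at hidx
    exact ENNReal.one_le_ofReal.1 hidx
  have hVp : 0 < V := by
    rcases hV0.lt_or_eq with h | h
    · exact h
    · exfalso
      have h0 : (μHE[4] : Measure M) = 0 := by
        rw [← Measure.measure_univ_eq_zero]
        exact (measureReal_eq_zero_iff).1 h.symm
      rw [h0, integral_zero_measure] at hidx'
      norm_num at hidx'
  -- the mean
  set m : ℝ := (∫ z, mScal 4 M z ∂(μHE[4] : Measure M)) / V with hm
  have hmV : ∫ z, mScal 4 M z ∂(μHE[4] : Measure M) = m * V := by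
    rw [hm]; field_simp
  have hm0 : 0 ≤ m := div_nonneg (integral_nonneg fun z => mScal_nonneg hsec z) hV0
  have hsch := schur_mean hP hR hmV
  have iSm : Integrable (fun z => (mScal 4 M z - m) ^ 2) (μHE[4] : Measure M) :=
    Grn324.integrable_cont (n := 4) ((cS.sub continuous_const).pow 2)
  have hS2 : ∫ z, mScal 4 M z ^ 2 ∂(μHE[4] : Measure M) =
      ∫ z, (mScal 4 M z - m) ^ 2 ∂(μHE[4] : Measure M) + m ^ 2 * V := by
    have e1 : ∀ z, mScal 4 M z ^ 2 =
        (mScal 4 M z - m) ^ 2 + (2 * m * mScal 4 M z - m ^ 2) := fun z => by ring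
    simp only [e1]
    have j1 : Integrable (fun z => 2 * m * mScal 4 M z - m ^ 2) (μHE[4] : Measure M) :=
      (iS.const_mul (2 * m)).sub (integrable_const _)
    rw [integral_add iSm j1,
      integral_sub (iS.const_mul (2 * m)) (integrable_const _), integral_const_mul, hmV,
      integral_const, smul_eq_mul]
    ring
  have hκm : κ ≤ m ^ 2 * V := by
    rw [hS2] at hidx'
    have h1 : C * ((16/9) * ∫ z, (mScal 4 M z - m) ^ 2 ∂(μHE[4] : Measure M)) ≤ 1/2 := by
      have h2 : ∫ z, (mScal 4 M z - m) ^ 2 ∂(μHE[4] : Measure M) ≤ 12 * (9 / (384 * C)) :=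
        hsch.trans (mul_le_mul_of_nonneg_left (hE'.le.trans hε1) (by norm_num))
      calc C * ((16/9) * ∫ z, (mScal 4 M z - m) ^ 2 ∂(μHE[4] : Measure M))
          ≤ C * ((16/9) * (12 * (9 / (384 * C)))) := by gcongr
        _ = 1/2 := by field_simp; norm_num
    have h3 : 1/2 ≤ C * ((16/9) * (m ^ 2 * V)) := by
      have e : C * ((16/9) * (∫ z, (mScal 4 M z - m) ^ 2 ∂(μHE[4] : Measure M) + m ^ 2 * V)) =
          C * ((16/9) * ∫ z, (mScal 4 M z - m) ^ 2 ∂(μHE[4] : Measure M)) +
            C * ((16/9) * (m ^ 2 * V)) := by ring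
      rw [e] at hidx'
      linarith
    rw [hκ, div_le_iff₀ (by positivity)]
    nlinarith [h3]
  have hmp : 0 < m := by
    rcases hm0.lt_or_eq with h | h
    · exact h
    · exfalso
      rw [← h] at hκm
      norm_num at hκm
      linarith
  -- the scale
  set r : {r : ℝ // 0 < r} := ⟨√(12 / m), Real.sqrt_pos.2 (by positivity)⟩ with hr
  have hr2 : r.1 ^ 2 = 12 / m := Real.sq_sqrt (by positivity)
  have hrp : 0 < r.1 := r.2
  have hr4 : (r.1⁻¹) ^ 4 = m ^ 2 / 144 := by
    have e : (r.1⁻¹) ^ 4 = ((r.1 ^ 2) ^ 2)⁻¹ := by rw [inv_pow]; congr 1; ring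
    rw [e, hr2]
    field_simp
    norm_num
  have hVM : (μHE[4] : Measure M) univ = ENNReal.ofReal V := by
    rw [hV, ofReal_measureReal (measure_ne_top _ _)]
  have hvolX : (μHE[4] : Measure (Sc r M)) univ = ENNReal.ofReal (m ^ 2 / 144 * V) := by
    rw [muHE_sc_eq, hr4, ENNReal.ofReal_mul (by positivity)]
    have e : (toSc r ⁻¹' (univ : Set (Sc r M)) : Set M) = univ := rfl
    rw [e, hVM]
  have hvolge : κ / 144 ≤ m ^ 2 / 144 * V := by
    have e : m ^ 2 / 144 * V = (m ^ 2 * V) / 144 := by ring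
    rw [e]
    exact div_le_div_of_nonneg_right hκm (by norm_num)
  -- the deviation
  have hdev : ∀ x : M, mRicDev 4 (Sc r M) 3 (toSc r x) =
      r.1 ^ 4 * (tracefreeRicciDensity 4 M x + (mScal 4 M x - m) ^ 2 / 4) := by
    intro x
    have h1 := mRicDev_split (n := 4) (M := Sc r M) (by norm_num) 3 (toSc r x)
    rw [h1, mScal_sc, density_sc]
    have e1 : (ofSc r (toSc r x) : M) = x := rfl
    rw [e1]
    have e2 : r.1 ^ 2 * mScal 4 M x - ((4:ℕ):ℝ) * 3 = r.1 ^ 2 * (mScal 4 M x - m) := by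
      have : r.1 ^ 2 * m = 12 := by rw [hr2]; field_simp
      push_cast
      linarith
    rw [e2]
    push_cast
    ring
  have iX : Integrable (fun z => tracefreeRicciDensity 4 M z + (mScal 4 M z - m) ^ 2 / 4)
      (μHE[4] : Measure M) := iD.add (iSm.div_const 4)
  have hdevint : ∫⁻ x, ENNReal.ofReal (mRicDev 4 (Sc r M) 3 x) ∂(μHE[4] : Measure (Sc r M)) ≤
      ENNReal.ofReal (4 * ε) := by
    rw [lintegral_sc]
    have e1 : ∀ x : M, ENNReal.ofReal (mRicDev 4 (Sc r M) 3 (toSc r x)) =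
        ENNReal.ofReal (r.1 ^ 4) *
          ENNReal.ofReal (tracefreeRicciDensity 4 M x + (mScal 4 M x - m) ^ 2 / 4) := by
      intro x
      rw [hdev, ENNReal.ofReal_mul (by positivity)]
    simp only [e1]
    rw [lintegral_const_mul' _ _ ENNReal.ofReal_ne_top, ← mul_assoc,
      ← ENNReal.ofReal_mul (by positivity), ← mul_pow, inv_mul_cancel₀ hrp.ne', one_pow,
      ENNReal.ofReal_one, one_mul, ← ofReal_integral_eq_lintegral_ofReal iX
        (Eventually.of_forall fun z => by
          have := density_nonneg (n := 4) z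
          positivity)]
    apply ENNReal.ofReal_le_ofReal
    rw [integral_add iD (iSm.div_const 4), integral_div]
    linarith
  refine ⟨r, ?_, ?_, hdevint⟩
  · rw [hvolX]
    exact ENNReal.ofReal_le_ofReal hvolge
  · -- the diameter
    intro x y
    have hsecX : HasNonnegSectionalCurvature 4 (Sc r M) := nonnegSec_sc r hsec
    have hRX : HasRicciLowerBound 4 (Sc r M) 0 := ricBound_of_sec hsecX
    have hcont : Continuous (fun x : Sc r M => √(mRicDev 4 (Sc r M) 3 x)) :=
      (continuous_mRicDev (n := 4) (M := Sc r M) 3).sqrt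
    refine (Crest.Agent.R249.Diam709.diam_lt_of_energy hRX
      (ricGe_dev (n := 4) (M := Sc r M) 3) hcont (fun x => Real.sqrt_nonneg _) ?_ x y).le
    have e1 : ∀ x : Sc r M, √(mRicDev 4 (Sc r M) 3 x) ^ 2 = mRicDev 4 (Sc r M) 3 x :=
      fun x => Real.sq_sqrt (mRicDev_nonneg (n := 4) 3 x)
    simp only [e1]
    rw [hvolX, ← hc0, ← ENNReal.ofReal_mul hc0p.le]
    refine hdevint.trans_lt ?_
    rw [ENNReal.ofReal_lt_ofReal_iff (by positivity)]
    have h2 : c0 * (κ / 144) ≤ c0 * (m ^ 2 / 144 * V) := by gcongr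
    have h3 : 0 < c0 * (κ / 144) := by positivity
    linarith

end Crest.Agent.R249.D1Asm104
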