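import Crest.Agent.R249.D1Asm_104
import Crest.Agent.R249.PoisC_324

/-!
# R249 (helper104): D1 from `IdxStmt` alone
-/

set_option autoImplicit false

namespace Crest.Agent.R249.D1Fin104

open Crest.Agent.R249.D1Def104

/-- **D1 from the index theorem input.** -/
theorem d1_of_idx (hI : IdxStmt) : D1Stmt :=
  Crest.Agent.R249.D1Asm104.d1_of hI Crest.Agent.R249.Grn324.poisStmt

end Crest.Agent.R249.D1Fin104
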