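import Mathlib

/-!
R249, part D4 (helper789), file 6: the angle lemma (pure inner product space statement) and
a finite separated net in a compact metric space.
-/

set_option autoImplicit false

open Set Filter Metric
open scoped Topology RealInnerProductSpace

namespace Crest.Agent.R249.D4_789

noncomputable section

/-- A linear form of norm `≤ a` which is large on `u` is close to `⟪u, ·⟫`. -/
theorem near_of_pair {V : Type*} [NormedAddCommGroup V] [InnerProductSpace ℝ V]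
    [FiniteDimensional ℝ V] (p : V →ₗ[ℝ] ℝ) {a m k : ℝ} (ha0 : 0 ≤ a)
    (ha : ∀ w, |p w| ≤ a * ‖w‖) (u : V) (hm : m ≤ p u) (hk0 : 0 ≤ k)
    (hk : a ^ 2 + ‖u‖ ^ 2 - 2 * m ≤ k ^ 2) (w : V) : |p w - ⟪u, w⟫| ≤ k * ‖w‖ := by
  have : CompleteSpace V := FiniteDimensional.complete ℝ V
  set P : V := (InnerProductSpace.toDual ℝ V).symm (LinearMap.toContinuousLinearMap p) with hP
  have hPw : ∀ w, ⟪P, w⟫ = p w := fun w => by
    rw [hP, InnerProductSpace.toDual_symm_apply]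
    rfl
  have h1 : ‖P‖ ≤ a := by
    have h2 := ha P
    rw [← hPw, real_inner_self_eq_norm_sq, abs_of_nonneg (sq_nonneg _)] at h2
    rcases (norm_nonneg P).eq_or_lt with h0 | h0
    · rw [← h0]; exact ha0
    · nlinarith
  have h2 : ‖P - u‖ ^ 2 ≤ k ^ 2 := by
    rw [norm_sub_sq_real, hPw]
    nlinarith [norm_nonneg P]
  have h3 : ‖P - u‖ ≤ k := by
    have := abs_le_of_sq_le_sq' h2 hk0
    exact this.2
  calc |p w - ⟪u, w⟫| = |⟪P - u, w⟫| := by rw [inner_sub_left, hPw]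
    _ ≤ ‖P - u‖ * ‖w‖ := abs_real_inner_le_norm _ _
    _ ≤ k * ‖w‖ := mul_le_mul_of_nonneg_right h3 (norm_nonneg _)

/-- comparison of squares -/
theorem sq_near {a d τ L : ℝ} (hd0 : 0 ≤ d) (hdL : d ≤ L) (ha : 0 ≤ a) (hτL : τ ≤ L)
    (h : |a - d| ≤ τ) : |a ^ 2 - d ^ 2| ≤ 3 * (τ * L) := by
  have hτ : 0 ≤ τ := (abs_nonneg _).trans h
  have h1 : a ≤ d + τ := by have := (abs_le.1 h).2; linarith
  have h2 : a ^ 2 - d ^ 2 = (a - d) * (a + d) := by ring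
  rw [h2, abs_mul]
  have h3 : |a + d| ≤ 3 * L := by
    rw [abs_of_nonneg (by linarith)]
    linarith
  calc |a - d| * |a + d| ≤ τ * (3 * L) := mul_le_mul h h3 (abs_nonneg _) hτ
    _ = 3 * (τ * L) := by ring

/-- **Angle lemma.**  `dx = d(x,q)`, `dy = d(x,q*)`, `dz = d(x,z)`, `dxy = d(q,q*)`,
`dxz = d(q,z)`, `dyz = d(q*,z)`; `X, Y, Z` are the positions of `q, q*, z` seen from `x` in a
Euclidean chart with distance error `σ² L`; `q*` is almost antipodal to `q`; `p` is an almost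
supergradient of half the squared distance to `q`. -/
theorem angle {V W : Type*} [NormedAddCommGroup V] [InnerProductSpace ℝ V]
    [FiniteDimensional ℝ V] [NormedAddCommGroup W] [InnerProductSpace ℝ W]
    (p : V →ₗ[ℝ] ℝ) (u w : V) (X Y Z : W) {L σ ε dx dy dz dxy dxz dyz : ℝ}
    (hL : 0 < L) (hσ0 : 0 ≤ σ) (hσ1 : σ ≤ 1) (hε0 : 0 ≤ ε) (hε1 : ε ≤ σ ^ 2 * L ^ 2)
    (hε2 : ε ≤ σ ^ 2 * L)
    (hx0 : 0 ≤ dx) (hxL : dx ≤ L) (hy0 : 0 ≤ dy) (hyL : dy ≤ L) (hz0 : 0 ≤ dz) (hzL : dz ≤ L)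
    (hxy0 : 0 ≤ dxy) (hxyL : dxy ≤ L) (hxz0 : 0 ≤ dxz) (hxzL : dxz ≤ L) (hyz0 : 0 ≤ dyz)
    (hyzL : dyz ≤ L)
    (hX : |‖X‖ - dx| ≤ σ ^ 2 * L) (hY : |‖Y‖ - dy| ≤ σ ^ 2 * L) (hZ : |‖Z‖ - dz| ≤ σ ^ 2 * L)
    (hXY : |‖X - Y‖ - dxy| ≤ σ ^ 2 * L) (hXZ : |‖X - Z‖ - dxz| ≤ σ ^ 2 * L)
    (hYZ : |‖Y - Z‖ - dyz| ≤ σ ^ 2 * L) (hanti : ‖X + Y‖ ≤ σ ^ 2 * L)
    (hu : ‖u‖ = dy) (hw : ‖w‖ = dz)
    (hp : ∀ w', |p w'| ≤ (dx + ε) * ‖w'‖)
    (h1 : dxy ^ 2 / 2 - dx ^ 2 / 2 - dy ^ 2 / 2 - ε ≤ p u)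
    (h2 : dxz ^ 2 / 2 - dx ^ 2 / 2 - dz ^ 2 / 2 - ε ≤ p w)
    (h3 : dyz ^ 2 ≤ ‖u - w‖ ^ 2) :
    |p w + ⟪X, Z⟫| ≤ 12 * σ * L ^ 2 := by
  have hσ2 : σ ^ 2 ≤ σ := by nlinarith
  have hσ4 : σ ^ 2 ≤ 1 := hσ2.trans hσ1
  have hs0 : 0 ≤ σ ^ 2 := sq_nonneg σ
  have hτL : σ ^ 2 * L ≤ L := mul_le_of_le_one_left hL.le hσ4
  set S : ℝ := σ ^ 2 * L ^ 2 with hS
  have hS0 : 0 ≤ S := by positivity
  have hT : 3 * (σ ^ 2 * L * L) = 3 * S := by rw [hS]; ring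
  have sX := sq_near hx0 hxL (norm_nonneg X) hτL hX
  have sY := sq_near hy0 hyL (norm_nonneg Y) hτL hY
  have sZ := sq_near hz0 hzL (norm_nonneg Z) hτL hZ
  have sXY := sq_near hxy0 hxyL (norm_nonneg (X - Y)) hτL hXY
  have sXZ := sq_near hxz0 hxzL (norm_nonneg (X - Z)) hτL hXZ
  have sYZ := sq_near hyz0 hyzL (norm_nonneg (Y - Z)) hτL hYZ
  rw [hT, abs_le] at sX sY sZ sXY sXZ sYZ
  obtain ⟨sX1, sX2⟩ := sX
  obtain ⟨sY1, sY2⟩ := sY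
  obtain ⟨sZ1, sZ2⟩ := sZ
  obtain ⟨sXY1, sXY2⟩ := sXY
  obtain ⟨sXZ1, sXZ2⟩ := sXZ
  obtain ⟨sYZ1, sYZ2⟩ := sYZ
  have eXZ := norm_sub_sq_real X Z
  have eYZ := norm_sub_sq_real Y Z
  have eXY := norm_sub_sq_real X Y
  have eXY' := norm_add_sq_real X Y
  have hsq : (σ ^ 2 * L) ^ 2 ≤ S := by
    have h0 : (σ ^ 2 * L) ^ 2 = σ ^ 2 * S := by rw [hS]; ring
    rw [h0]
    exact mul_le_of_le_one_left hS0 hσ4
  have hanti2 : ‖X + Y‖ ^ 2 ≤ S := (pow_le_pow_left₀ (norm_nonneg _) hanti 2).trans hsq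
  have hZn : ‖Z‖ ≤ 2 * L := by
    have := (abs_le.1 hZ).2
    linarith
  -- upper bound
  have hk : (dx + ε) ^ 2 + ‖u‖ ^ 2 - 2 * (dxy ^ 2 / 2 - dx ^ 2 / 2 - dy ^ 2 / 2 - ε) ≤
      (5 * σ * L) ^ 2 := by
    rw [hu]
    have e1 : ε * dx ≤ S := by
      have h0 : ε * dx ≤ σ ^ 2 * L * L := mul_le_mul hε2 hxL hx0 (by positivity)
      have h1 : σ ^ 2 * L * L = S := by rw [hS]; ring
      rwa [h1] at h0
    have e2 : ε ^ 2 ≤ S := (pow_le_pow_left₀ hε0 hε2 2).trans hsq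
    have e3 : (5 * σ * L) ^ 2 = 25 * S := by rw [hS]; ring
    have e4 : (dx + ε) ^ 2 + dy ^ 2 - 2 * (dxy ^ 2 / 2 - dx ^ 2 / 2 - dy ^ 2 / 2 - ε) =
        2 * dx ^ 2 + 2 * dy ^ 2 - dxy ^ 2 + 2 * (ε * dx) + ε ^ 2 + 2 * ε := by ring
    rw [e3, e4]
    linarith
  have hup := near_of_pair p (by linarith : 0 ≤ dx + ε) hp u h1
    (by positivity : 0 ≤ 5 * σ * L) hk w
  rw [hw] at hup
  have hup' : p w ≤ ⟪u, w⟫ + 5 * (σ * L ^ 2) := by
    have h0 := (abs_le.1 hup).2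
    have h' : 5 * σ * L * dz ≤ 5 * σ * L * L := mul_le_mul_of_nonneg_left hzL (by positivity)
    have h'' : 5 * σ * L * L = 5 * (σ * L ^ 2) := by ring
    linarith
  have huw : ⟪u, w⟫ ≤ (dy ^ 2 + dz ^ 2 - dyz ^ 2) / 2 := by
    have := norm_sub_sq_real u w
    rw [this, hu, hw] at h3
    linarith
  have hXYZ : ⟪Y, Z⟫ ≤ - ⟪X, Z⟫ + 2 * S := by
    have h' : ⟪X + Y, Z⟫ ≤ ‖X + Y‖ * ‖Z‖ := real_inner_le_norm _ _
    rw [inner_add_left] at h'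
    have h'' : ‖X + Y‖ * ‖Z‖ ≤ σ ^ 2 * L * (2 * L) :=
      mul_le_mul hanti hZn (norm_nonneg _) (by positivity)
    have h3' : σ ^ 2 * L * (2 * L) = 2 * S := by rw [hS]; ring
    linarith
  have hσL : S ≤ σ * L ^ 2 := mul_le_mul_of_nonneg_right hσ2 (by positivity)
  have hgoal : 12 * σ * L ^ 2 = 12 * (σ * L ^ 2) := by ring
  rw [abs_le, hgoal]
  constructor
  · linarith
  · linarith

/-- finite maximal separated net -/
theorem exists_net_compact {X : Type*} [MetricSpace X] [CompactSpace X] {δ : ℝ} (hδ : 0 < δ) :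
    ∃ S : Finset X, (∀ x ∈ S, ∀ y ∈ S, x ≠ y → δ ≤ dist x y) ∧ ∀ x, ∃ y ∈ S, dist x y < δ := by
  classical
  -- a bound for the cardinality
  obtain ⟨t, -, htf, ht⟩ := (isCompact_univ (X := X)).finite_cover_balls (half_pos hδ)
  set T := htf.toFinset
  have hcard : ∀ S : Finset X, (∀ x ∈ S, ∀ y ∈ S, x ≠ y → δ ≤ dist x y) → S.card ≤ T.card := by
    intro S hS
    have h1 : ∀ x : X, ∃ c ∈ T, dist x c < δ / 2 := fun x => by
      have := ht (mem_univ x)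
      rw [mem_iUnion₂] at this
      obtain ⟨c, hc, hx⟩ := this
      exact ⟨c, htf.mem_toFinset.2 hc, hx⟩
    choose c hc hxc using h1
    refine Finset.card_le_card_of_injOn c (fun x _ => hc x) fun x hx y hy hxy => ?_
    by_contra hne
    have h2 := hS x hx y hy hne
    have h3 : dist x y ≤ dist x (c x) + dist y (c y) := by
      have h4 : c y = c x := hxy.symm
      rw [h4, dist_comm y]
      exact dist_triangle _ _ _
    linarith [hxc x, hxc y]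
  -- a separated set of maximal cardinality
  have hex : ∃ m : ℕ, ∃ S : Finset X, (∀ x ∈ S, ∀ y ∈ S, x ≠ y → δ ≤ dist x y) ∧ S.card = m :=
    ⟨0, ∅, by simp, rfl⟩
  have hb : ∀ m, (∃ S : Finset X, (∀ x ∈ S, ∀ y ∈ S, x ≠ y → δ ≤ dist x y) ∧ S.card = m) →
      m ≤ T.card := fun m ⟨S, h, hm⟩ => hm ▸ hcard S h
  obtain ⟨S, hS, hm⟩ := Nat.findGreatest_spec (P := fun m => ∃ S : Finset X,
    (∀ x ∈ S, ∀ y ∈ S, x ≠ y → δ ≤ dist x y) ∧ S.card = m) (n := T.card) (Nat.zero_le _)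
    ⟨∅, by simp, rfl⟩
  refine ⟨S, hS, fun x => ?_⟩
  by_contra hcon
  push Not at hcon
  have hxS : x ∉ S := fun hx => by
    have := hcon x hx
    rw [dist_self] at this
    linarith
  have hins : ∀ a ∈ insert x S, ∀ b ∈ insert x S, a ≠ b → δ ≤ dist a b := by
    intro a ha b hb' hab
    rw [Finset.mem_insert] at ha hb'
    rcases ha with rfl | ha <;> rcases hb' with rfl | hb'
    · exact absurd rfl hab
    · exact hcon b hb'
    · rw [dist_comm]; exact hcon a ha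
    · exact hS a ha b hb' hab
  have hc : (insert x S).card = S.card + 1 := Finset.card_insert_of_notMem hxS
  have h5 := Nat.le_findGreatest (P := fun m => ∃ S : Finset X,
    (∀ x ∈ S, ∀ y ∈ S, x ≠ y → δ ≤ dist x y) ∧ S.card = m) (n := T.card)
    (hb _ ⟨insert x S, hins, rfl⟩) ⟨insert x S, hins, rfl⟩
  rw [← hm, hc] at h5
  omega

end

end Crest.Agent.R249.D4_789
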