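import Crest.Agent.R249.D4Sm_789

/-!
R249, part D4 (helper789), file 3: elementary calculus of the differential `dd f x` (read in the
preferred chart at `x`) of vector valued functions on a manifold; global smoothing theorem.
-/

set_option autoImplicit false
set_option linter.unusedSectionVars false

open MeasureTheory Set Filter Metric Bundle
open scoped ContDiff ENNReal NNReal Topology Manifold
open Crest.Agent.R226

namespace Crest.Agent.R249.D4_789

noncomputable section

section NoMetric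

variable {n : ℕ} {M : Type*} [TopologicalSpace M] [ChartedSpace (EuclideanSpace ℝ (Fin n)) M]
variable {F F' : Type*} [NormedAddCommGroup F] [NormedSpace ℝ F] [NormedAddCommGroup F']
  [NormedSpace ℝ F']

local notation "𝔼" => EuclideanSpace ℝ (Fin n)

variable (n) in
/-- the function read in the preferred chart at `x` is differentiable at (the image of) `x` -/
def DA (f : M → F) (x : M) : Prop :=
  DifferentiableAt ℝ (f ∘ (extChartAt (𝓡 n) x).symm) (extChartAt (𝓡 n) x x)

variable (n) in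
/-- the differential of a vector valued function, as a linear map on the model space -/
def dd (f : M → F) (x : M) : EuclideanSpace ℝ (Fin n) →L[ℝ] F :=
  fderiv ℝ (f ∘ (extChartAt (𝓡 n) x).symm) (extChartAt (𝓡 n) x x)

theorem DA.of_mdiff {f : M → F} {x : M} (h : MDifferentiableAt (𝓡 n) 𝓘(ℝ, F) f x) : DA n f x := by
  have h1 := h.differentiableWithinAt_writtenInExtChartAt
  have h2 : range (𝓡 n) = univ := by simp
  rw [h2, differentiableWithinAt_univ] at h1
  exact h1

theorem DA.of_contMDiffAt {f : M → F} {x : M} {k : WithTop ℕ∞} (hk : k ≠ 0)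
    (h : ContMDiffAt (𝓡 n) 𝓘(ℝ, F) k f x) : DA n f x :=
  DA.of_mdiff (h.mdifferentiableAt hk)

theorem DA.of_contMDiff {f : M → F} {k : WithTop ℕ∞} (hk : k ≠ 0)
    (h : ContMDiff (𝓡 n) 𝓘(ℝ, F) k f) (x : M) : DA n f x :=
  DA.of_contMDiffAt hk (h x)

theorem mfderiv_eq_dd {f : M → F} {x : M} (h : MDifferentiableAt (𝓡 n) 𝓘(ℝ, F) f x) :
    mfderiv (𝓡 n) 𝓘(ℝ, F) f x = dd n f x := by
  rw [h.mfderiv]
  have h2 : range (𝓡 n) = univ := by simp
  rw [h2, fderivWithin_univ]
  rfl

theorem ev_symm {x : M} {p : M → Prop} (h : ∀ᶠ y in 𝓝 x, p y) :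
    ∀ᶠ b in 𝓝 (extChartAt (𝓡 n) x x), p ((extChartAt (𝓡 n) x).symm b) := by
  have h1 : Tendsto (extChartAt (𝓡 n) x).symm (𝓝 (extChartAt (𝓡 n) x x)) (𝓝 x) := by
    have h2 := continuousAt_extChartAt_symm (I := 𝓡 n) x
    have h3 : (extChartAt (𝓡 n) x).symm (extChartAt (𝓡 n) x x) = x := extChartAt_to_inv x
    rw [ContinuousAt, h3] at h2
    exact h2
  exact h1.eventually h

theorem dd_congr {f g : M → F} {x : M} (h : f =ᶠ[𝓝 x] g) : dd n f x = dd n g x := by
  unfold dd
  exact Filter.EventuallyEq.fderiv_eq (ev_symm h)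

theorem DA.congr {f g : M → F} {x : M} (hg : DA n g x) (h : f =ᶠ[𝓝 x] g) : DA n f x := by
  unfold DA at *
  exact hg.congr_of_eventuallyEq (ev_symm h)

@[simp] theorem at_symm (x : M) : (extChartAt (𝓡 n) x).symm (extChartAt (𝓡 n) x x) = x :=
  extChartAt_to_inv x

theorem DA.add {f g : M → F} {x : M} (hf : DA n f x) (hg : DA n g x) :
    DA n (fun y => f y + g y) x :=
  DifferentiableAt.add hf hg

theorem dd_add {f g : M → F} {x : M} (hf : DA n f x) (hg : DA n g x) :
    dd n (fun y => f y + g y) x = dd n f x + dd n g x :=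
  fderiv_add hf hg

theorem DA.const (c : F) (x : M) : DA n (fun _ => c) x := differentiableAt_const c

theorem dd_const (c : F) (x : M) : dd n (fun _ => c) x = 0 := by
  unfold dd
  exact fderiv_const_apply c

theorem DA.sub {f g : M → F} {x : M} (hf : DA n f x) (hg : DA n g x) :
    DA n (fun y => f y - g y) x :=
  DifferentiableAt.sub hf hg

theorem dd_sub {f g : M → F} {x : M} (hf : DA n f x) (hg : DA n g x) :
    dd n (fun y => f y - g y) x = dd n f x - dd n g x :=
  fderiv_sub hf hg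

theorem DA.sum {ι : Type*} {s : Finset ι} {f : ι → M → F} {x : M} (hf : ∀ i ∈ s, DA n (f i) x) :
    DA n (fun y => ∑ i ∈ s, f i y) x := by
  have := DifferentiableAt.fun_sum (𝕜 := ℝ)
    (A := fun i => f i ∘ (extChartAt (𝓡 n) x).symm) (u := s) hf
  exact this

theorem dd_sum {ι : Type*} {s : Finset ι} {f : ι → M → F} {x : M} (hf : ∀ i ∈ s, DA n (f i) x) :
    dd n (fun y => ∑ i ∈ s, f i y) x = ∑ i ∈ s, dd n (f i) x := by
  have := fderiv_fun_sum (𝕜 := ℝ)
    (A := fun i => f i ∘ (extChartAt (𝓡 n) x).symm) (u := s) hf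
  exact this

theorem DA.smul {a : M → ℝ} {f : M → F} {x : M} (ha : DA n a x) (hf : DA n f x) :
    DA n (fun y => a y • f y) x :=
  DifferentiableAt.smul ha hf

theorem dd_smul {a : M → ℝ} {f : M → F} {x : M} (ha : DA n a x) (hf : DA n f x) (w : 𝔼) :
    dd n (fun y => a y • f y) x w = a x • dd n f x w + dd n a x w • f x := by
  have h := HasFDerivAt.smul ha.hasFDerivAt hf.hasFDerivAt
  have h1 : dd n (fun y => a y • f y) x = _ := h.fderiv
  rw [h1]
  simp [dd]

theorem dd_mul {a f : M → ℝ} {x : M} (ha : DA n a x) (hf : DA n f x) (w : 𝔼) :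
    dd n (fun y => a y * f y) x w = a x * dd n f x w + dd n a x w * f x := by
  have := dd_smul ha hf w
  simpa [smul_eq_mul] using this

theorem DA.comp {f : M → F} {g : F → F'} {x : M} (hf : DA n f x)
    (hg : DifferentiableAt ℝ g (f x)) : DA n (fun y => g (f y)) x := by
  have hg' : DifferentiableAt ℝ g ((f ∘ (extChartAt (𝓡 n) x).symm) (extChartAt (𝓡 n) x x)) := by
    simpa using hg
  have h : DifferentiableAt ℝ (g ∘ (f ∘ (extChartAt (𝓡 n) x).symm)) (extChartAt (𝓡 n) x x) :=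
    hg'.comp _ hf
  exact h

theorem dd_comp {f : M → F} {g : F → F'} {x : M} (hf : DA n f x)
    (hg : DifferentiableAt ℝ g (f x)) (w : 𝔼) :
    dd n (fun y => g (f y)) x w = fderiv ℝ g (f x) (dd n f x w) := by
  have hg' : DifferentiableAt ℝ g ((f ∘ (extChartAt (𝓡 n) x).symm) (extChartAt (𝓡 n) x x)) := by
    simpa using hg
  have h := fderiv_comp (extChartAt (𝓡 n) x x) hg' hf
  have h1 : dd n (fun y => g (f y)) x = _ := h
  rw [h1]
  simp [dd]

theorem dd_clm {f : M → F} (B : F →L[ℝ] F') {x : M} (hf : DA n f x) (w : 𝔼) :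
    dd n (fun y => B (f y)) x w = B (dd n f x w) := by
  rw [dd_comp (g := B) hf B.differentiableAt]
  simp

/-- the differential of a sum of products with a partition of unity -/
theorem dd_pou {ι : Type*} {s : Finset ι} {a : ι → M → ℝ} {f : ι → M → F} {x : M} (c : F)
    (ha : ∀ i ∈ s, DA n (a i) x) (hf : ∀ i ∈ s, DA n (f i) x)
    (h1 : ∀ᶠ y in 𝓝 x, ∑ i ∈ s, a i y = 1) (w : 𝔼) :
    dd n (fun y => ∑ i ∈ s, a i y • f i y) x w =
      ∑ i ∈ s, a i x • dd n (f i) x w + ∑ i ∈ s, dd n (a i) x w • (f i x - c) := by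
  have h2 : dd n (fun y => ∑ i ∈ s, a i y • f i y) x w =
      ∑ i ∈ s, (a i x • dd n (f i) x w + dd n (a i) x w • f i x) := by
    rw [dd_sum (f := fun i y => a i y • f i y) (fun i hi => (ha i hi).smul (hf i hi)),
      _root_.sum_apply]
    exact Finset.sum_congr rfl fun i hi => dd_smul (ha i hi) (hf i hi) w
  have h3 : ∑ i ∈ s, dd n (a i) x w = 0 := by
    have h4 : dd n (fun y => ∑ i ∈ s, a i y) x = dd n (fun _ => (1 : ℝ)) x := dd_congr h1
    rw [dd_sum ha, dd_const] at h4
    rw [← _root_.sum_apply, h4]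
    rfl
  rw [h2, Finset.sum_add_distrib]
  congr 1
  simp only [smul_sub, Finset.sum_sub_distrib]
  rw [← Finset.sum_smul, h3, zero_smul, sub_zero]

end NoMetric

section Metric

variable {n : ℕ} {M : Type*} [MetricSpace M] [ChartedSpace (EuclideanSpace ℝ (Fin n)) M]
  [IsManifold (𝓡 n) ∞ M] [RiemannianBundle (fun p : M => TangentSpace (𝓡 n) p)]
  [IsContMDiffRiemannianBundle (𝓡 n) ∞ (EuclideanSpace ℝ (Fin n))
    (fun p : M => TangentSpace (𝓡 n) p)]
  [IsRiemannianManifold (𝓡 n) M] [CompactSpace M]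

local notation "𝔼" => EuclideanSpace ℝ (Fin n)

/-- the differential of a smooth function is continuous on the tangent bundle -/
theorem continuous_dd {f : M → ℝ} (hf : ContMDiff (𝓡 n) 𝓘(ℝ) ∞ f) :
    Continuous (fun p : TangentBundle (𝓡 n) M => dd n f p.1 p.2) := by
  have h := continuous_df hf
  refine (continuous_congr fun p => ?_).1 h
  exact congrArg (fun L : 𝔼 →L[ℝ] ℝ => L p.2) (mfderiv_eq_dd (hf.mdifferentiableAt (by simp)))

/-- the differential of a smooth function on a closed manifold is bounded -/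
theorem exists_dd_bound {f : M → ℝ} (hf : ContMDiff (𝓡 n) 𝓘(ℝ) ∞ f) (R : ℝ) :
    ∃ D : ℝ, 0 ≤ D ∧ ∀ x, ∀ w : TangentSpace (𝓡 n) x, ‖w‖ ≤ R → |dd n f x w| ≤ D := by
  have hc := TB616.isCompact_disc (n := n) (M := M) R
  obtain ⟨D, hD⟩ := (hc.image (continuous_abs.comp (continuous_dd hf))).bddAbove
  refine ⟨max D 0, le_max_right _ _, fun x w hw => ?_⟩
  have hmem : (⟨x, w⟩ : TangentBundle (𝓡 n) M) ∈ {p : TangentBundle (𝓡 n) M | ‖p.2‖ ≤ R} := hw
  have h1 := hD (mem_image_of_mem _ hmem)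
  exact h1.trans (le_max_left _ _)

/-- **Global smoothing theorem.** -/
theorem exists_smooth {u : M → ℝ} {C : ℝ≥0} (hu : LipschitzWith C u)
    {Θ : TangentBundle (𝓡 n) M → ℝ} (hΘ : Continuous Θ)
    (h : ∀ x, MDifferentiableAt (𝓡 n) 𝓘(ℝ) u x → ∀ w : TangentSpace (𝓡 n) x,
      Θ ⟨x, w⟩ ≤ mfderiv (𝓡 n) 𝓘(ℝ) u x w) {ε R : ℝ} (hε : 0 < ε) :
    ∃ v : M → ℝ, ContMDiff (𝓡 n) 𝓘(ℝ) ∞ v ∧ ∀ x, |v x - u x| ≤ ε ∧
      ∀ w : TangentSpace (𝓡 n) x, ‖w‖ ≤ R → Θ ⟨x, w⟩ - ε ≤ dd n v x w := by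
  choose V hVo hxV hVs hloc using fun x₀ : M => exists_local (n := n) x₀ hu hΘ h
  obtain ⟨t, ht⟩ := CompactSpace.elim_nhds_subcover V (fun x => (hVo x).mem_nhds (hxV x))
  obtain ⟨ρ, hρ⟩ := SmoothPartitionOfUnity.exists_isSubordinate (𝓡 n) (s := (univ : Set M))
    isClosed_univ (fun i : t => V i) (fun i => hVo i) (by
      intro y _
      have hy : y ∈ ⋃ x ∈ t, V x := by rw [ht]; exact mem_univ y
      obtain ⟨x, hx, hyx⟩ := mem_iUnion₂.1 hy
      exact mem_iUnion.2 ⟨⟨x, hx⟩, hyx⟩)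
  have hρs : ∀ i, ContMDiff (𝓡 n) 𝓘(ℝ) ∞ (ρ i) := fun i => (ρ i).contMDiff
  choose D hD0 hD using fun i : t => exists_dd_bound (hρs i) R
  set S : ℝ := ∑ i, D i with hS
  have hS0 : 0 ≤ S := Finset.sum_nonneg fun i _ => hD0 i
  obtain ⟨ε', hε', hε1, hε2⟩ : ∃ ε' : ℝ, 0 < ε' ∧ ε' ≤ ε / 2 ∧ S * ε' ≤ ε / 2 := by
    refine ⟨min (ε / 2) (ε / (2 * (S + 1))), by positivity, min_le_left _ _, ?_⟩
    have h1 : S * min (ε / 2) (ε / (2 * (S + 1))) ≤ S * (ε / (2 * (S + 1))) :=
      mul_le_mul_of_nonneg_left (min_le_right _ _) hS0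
    refine h1.trans ?_
    rw [mul_div_assoc', div_le_div_iff₀ (by positivity) (by norm_num)]
    nlinarith
  choose v hv hvV using fun i : t => hloc i ε' R hε'
  have hts : ∀ i : t, ∀ x, x ∈ tsupport (ρ i) → x ∈ V i := fun i x hx => hρ i hx
  have hvs : ∀ i : t, ∀ x ∈ tsupport (ρ i), ContMDiffAt (𝓡 n) 𝓘(ℝ) ∞ (v i) x := fun i x hx =>
    (hv i).contMDiffAt ((isOpen_extChartAt_source (I := 𝓡 n) (i : M)).mem_nhds
      (hVs i (hts i x hx)))
  have hsum : ∀ x, ∑ i, ρ i x = 1 := fun x => by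
    rw [← finsum_eq_sum_of_fintype]
    exact ρ.sum_eq_one (mem_univ x)
  -- the terms
  have hterm : ∀ i : t, ContMDiff (𝓡 n) 𝓘(ℝ) ∞ (fun x => ρ i x • v i x) := fun i =>
    ρ.contMDiff_smul (hvs i)
  refine ⟨fun x => ∑ i, ρ i x • v i x, ?_, fun x => ⟨?_, fun w hw => ?_⟩⟩
  · exact contMDiff_finsetSum fun i _ => hterm i
  · have h1 : ∑ i, ρ i x • v i x - u x = ∑ i, ρ i x * (v i x - u x) := by
      simp only [mul_sub, Finset.sum_sub_distrib, smul_eq_mul]
      rw [← Finset.sum_mul, hsum, one_mul]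
    rw [h1]
    calc |∑ i, ρ i x * (v i x - u x)| ≤ ∑ i, |ρ i x * (v i x - u x)| :=
          Finset.abs_sum_le_sum_abs _ _
      _ ≤ ∑ i, ρ i x * ε' := by
          refine Finset.sum_le_sum fun i _ => ?_
          rw [abs_mul, abs_of_nonneg (ρ.nonneg i x)]
          by_cases h0 : ρ i x = 0
          · simp [h0]
          · refine mul_le_mul_of_nonneg_left ?_ (ρ.nonneg i x)
            exact (hvV i x (hts i x (subset_closure h0))).1
      _ = ε' := by rw [← Finset.sum_mul, hsum, one_mul]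
      _ ≤ ε := by linarith
  · -- the differential of one term
    have hDρ : ∀ i, DA n (ρ i) x := fun i => DA.of_contMDiff (by simp) (hρs i) x
    have hone : ∀ (w : 𝔼) (i : t), dd n (fun y => ρ i y • v i y) x w =
        ρ i x * dd n (v i) x w + dd n (ρ i) x w * v i x := by
      intro w i
      by_cases hx : x ∈ tsupport (ρ i)
      · have := dd_smul (hDρ i) (DA.of_contMDiffAt (by simp) (hvs i x hx)) w
        simpa [smul_eq_mul] using this
      · have hz : (ρ i : M → ℝ) =ᶠ[𝓝 x] fun _ => 0 := by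
          filter_upwards [(isClosed_tsupport (ρ i)).isOpen_compl.mem_nhds hx] with y hy
          exact image_eq_zero_of_notMem_tsupport hy
        have hz2 : (fun y => ρ i y • v i y) =ᶠ[𝓝 x] fun _ => (0 : ℝ) := by
          filter_upwards [hz] with y hy
          rw [hy, zero_smul]
        have hx0 : ρ i x = 0 := hz.self_of_nhds
        rw [dd_congr hz2, dd_congr hz, dd_const, hx0]
        simp
    have hder : ∀ w : 𝔼, dd n (fun y => ∑ i, ρ i y • v i y) x w =
        ∑ i, ρ i x * dd n (v i) x w + ∑ i, dd n (ρ i) x w * (v i x - u x) := by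
      intro w
      rw [dd_sum (f := fun i y => ρ i y • v i y)
        (fun i _ => DA.of_contMDiff (by simp) (hterm i) x), _root_.sum_apply,
        Finset.sum_congr rfl fun i _ => hone w i, Finset.sum_add_distrib]
      congr 1
      have h3 : ∑ i, dd n (ρ i) x w = 0 := by
        have h4 : dd n (fun y => ∑ i, ρ i y) x = dd n (fun _ => (1 : ℝ)) x := by
          congr 1; funext y; exact hsum y
        rw [dd_sum (fun i _ => hDρ i), dd_const] at h4
        rw [← _root_.sum_apply, h4]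
        rfl
      simp only [mul_sub, Finset.sum_sub_distrib]
      rw [← Finset.sum_mul, h3, zero_mul, sub_zero]
    refine le_trans ?_ (hder w).ge
    have hA : Θ ⟨x, w⟩ - ε' ≤ ∑ i, ρ i x * dd n (v i) x w := by
      have h1 : Θ ⟨x, w⟩ - ε' = ∑ i, ρ i x * (Θ ⟨x, w⟩ - ε') := by
        rw [← Finset.sum_mul, hsum, one_mul]
      rw [h1]
      refine Finset.sum_le_sum fun i _ => ?_
      by_cases h0 : ρ i x = 0
      · simp [h0]
      · refine mul_le_mul_of_nonneg_left ?_ (ρ.nonneg i x)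
        have hx := subset_tsupport _ h0
        have h2 := (hvV i x (hts i x hx)).2 w hw
        rwa [mfderiv_eq_dd ((hvs i x hx).mdifferentiableAt (by simp))] at h2
    have hB : |∑ i, dd n (ρ i) x w * (v i x - u x)| ≤ ε / 2 := by
      calc |∑ i, dd n (ρ i) x w * (v i x - u x)| ≤ ∑ i, |dd n (ρ i) x w * (v i x - u x)| :=
            Finset.abs_sum_le_sum_abs _ _
        _ ≤ ∑ i, D i * ε' := by
            refine Finset.sum_le_sum fun i _ => ?_
            rw [abs_mul]
            by_cases hx : x ∈ tsupport (ρ i)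
            · exact mul_le_mul (hD i x w hw) (hvV i x (hts i x hx)).1 (abs_nonneg _) (hD0 i)
            · have hz : (ρ i : M → ℝ) =ᶠ[𝓝 x] fun _ => 0 := by
                filter_upwards [(isClosed_tsupport (ρ i)).isOpen_compl.mem_nhds hx] with y hy
                exact image_eq_zero_of_notMem_tsupport hy
              have h0 : ∀ w : 𝔼, dd n (ρ i) x w = 0 := fun w => by
                rw [dd_congr hz, dd_const]; rfl
              have h0' : dd n (ρ i) x w = 0 := h0 w
              rw [h0', abs_zero, zero_mul]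
              exact mul_nonneg (hD0 i) hε'.le
        _ = S * ε' := by rw [← Finset.sum_mul]
        _ ≤ ε / 2 := hε2
    have := (abs_le.1 hB).1
    linarith

end Metric

end

end Crest.Agent.R249.D4_789
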