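import Mathlib

/-!
R249, part D4 (helper789), file 1: mollification of a locally Lipschitz function on an open subset
of a finite dimensional space with one-sided control of the differential by a continuous function
`Θ b w` (to be used for supergradients).
-/

set_option autoImplicit false

open MeasureTheory Set Filter Metric
open scoped ContDiff ENNReal NNReal Topology Convolution

namespace Crest.Agent.R249.D4_789

noncomputable section

variable {E : Type*} [NormedAddCommGroup E] [NormedSpace ℝ E] [FiniteDimensional ℝ E]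
  [MeasurableSpace E] [BorelSpace E]

/-- The derivative of the mollification of a Lipschitz function is the mollification of the
(a.e. defined) derivative. -/
theorem hasFDerivAt_mollify (μ : Measure E) [μ.IsAddHaarMeasure] {g : E → ℝ} {C : ℝ≥0}
    (hg : LipschitzWith C g) (φ : ContDiffBump (0 : E)) (b : E) :
    Integrable (fun t => φ.normed μ t • fderiv ℝ g (b - t)) μ ∧
    HasFDerivAt (fun x => ∫ t, φ.normed μ t • g (x - t) ∂μ)
      (∫ t, φ.normed μ t • fderiv ℝ g (b - t) ∂μ) b := by
  refine hasFDerivAt_integral_of_dominated_loc_of_lip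
    (bound := fun t => φ.normed μ t * C) (F := fun x t => φ.normed μ t • g (x - t)) univ_mem ?_ ?_ ?_ ?_ ?_ ?_
  · refine Eventually.of_forall fun x => ?_
    exact (φ.continuous_normed.smul (hg.continuous.comp (continuous_const.sub continuous_id))).aestronglyMeasurable
  · refine Continuous.integrable_of_hasCompactSupport
      (φ.continuous_normed.smul (hg.continuous.comp (continuous_const.sub continuous_id))) ?_
    exact φ.hasCompactSupport_normed.smul_right
  · refine φ.continuous_normed.aestronglyMeasurable.smul ?_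
    exact ((measurable_fderiv ℝ g).comp (measurable_const.sub measurable_id)).aestronglyMeasurable
  · refine Eventually.of_forall fun t => ?_
    rw [lipschitzOnWith_univ]
    refine LipschitzWith.of_dist_le_mul fun x y => ?_
    have h0 : (0 : ℝ) ≤ φ.normed μ t := φ.nonneg_normed t
    have h1 := hg.dist_le_mul (x - t) (y - t)
    rw [dist_sub_right] at h1
    rw [dist_smul₀, Real.norm_of_nonneg h0]
    have h2 : ((Real.nnabs (φ.normed μ t * C) : ℝ≥0) : ℝ) = φ.normed μ t * C := by
      rw [Real.coe_nnabs]
      exact abs_of_nonneg (mul_nonneg h0 C.2)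
    rw [h2, mul_assoc]
    exact mul_le_mul_of_nonneg_left h1 h0
  · exact φ.integrable_normed.mul_const _
  · have h1 : ∀ᵐ x ∂μ, DifferentiableAt ℝ g x := hg.ae_differentiableAt
    have h2 : ∀ᵐ t ∂μ, DifferentiableAt ℝ g (b - t) :=
      (μ.measurePreserving_sub_left b).quasiMeasurePreserving.ae h1
    filter_upwards [h2] with t ht
    have h3 : HasFDerivAt (fun x => g (x - t)) (fderiv ℝ g (b - t)) b := by
      have := ht.hasFDerivAt.comp b ((hasFDerivAt_id b).sub_const t)
      rw [ContinuousLinearMap.comp_id] at this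
      exact this
    exact h3.fun_const_smul _

/-- **Local smoothing.** -/
theorem exists_smooth_local {Ω K : Set E} (hΩ : IsOpen Ω) (hK : IsCompact K) (hKΩ : K ⊆ Ω)
    {u : E → ℝ} (hu : LocallyLipschitzOn Ω u) {Θ : E → E → ℝ}
    (hΘ : ContinuousOn (fun p : E × E => Θ p.1 p.2) (Ω ×ˢ univ))
    (h : ∀ b ∈ Ω, DifferentiableAt ℝ u b → ∀ w, Θ b w ≤ fderiv ℝ u b w)
    {ε R : ℝ} (hε : 0 < ε) :
    ∃ v : E → ℝ, ContDiff ℝ ∞ v ∧ ∀ b ∈ K, |v b - u b| ≤ ε ∧
      ∀ w, ‖w‖ ≤ R → Θ b w - ε ≤ fderiv ℝ v b w := by
  obtain ⟨δ, hδ, hδΩ⟩ := hK.exists_cthickening_subset_open hΩ hKΩ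
  have hK' : IsCompact (cthickening δ K) := hK.cthickening
  obtain ⟨C, hC⟩ := LocallyLipschitzOn.exists_lipschitzOnWith_of_compact hK' (hu.mono hδΩ)
  obtain ⟨g, hg, hgu⟩ := hC.extend_real
  -- uniform continuity of `Θ`
  have hcomp : IsCompact ((cthickening δ K) ×ˢ (closedBall (0 : E) R)) :=
    hK'.prod (isCompact_closedBall _ _)
  have huc := hcomp.uniformContinuousOn_of_continuous
    (hΘ.mono (prod_mono hδΩ (subset_univ _)))
  rw [Metric.uniformContinuousOn_iff] at huc
  obtain ⟨δ', hδ', hunif⟩ := huc ε hε
  -- the radius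
  obtain ⟨r, hr, hrδ, hrδ', hrC⟩ : ∃ r : ℝ, 0 < r ∧ r < δ ∧ r < δ' ∧ C * r ≤ ε := by
    refine ⟨min (min (δ / 2) (δ' / 2)) (ε / (C + 1)), ?_, ?_, ?_, ?_⟩
    · have : (0 : ℝ) < C + 1 := by positivity
      positivity
    · exact lt_of_le_of_lt ((min_le_left _ _).trans (min_le_left _ _)) (by linarith)
    · exact lt_of_le_of_lt ((min_le_left _ _).trans (min_le_right _ _)) (by linarith)
    · have h1 : (0 : ℝ) < C + 1 := by positivity
      have h2 : (C : ℝ) * min (min (δ / 2) (δ' / 2)) (ε / (C + 1)) ≤ C * (ε / (C + 1)) :=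
        mul_le_mul_of_nonneg_left (min_le_right _ _) C.2
      refine h2.trans ?_
      rw [mul_div_assoc', div_le_iff₀ h1]
      nlinarith [C.2]
  let φ : ContDiffBump (0 : E) := ⟨r / 2, r, half_pos hr, half_lt_self hr⟩
  set μ : Measure E := Measure.addHaar
  set v : E → ℝ := fun x => ∫ t, φ.normed μ t • g (x - t) ∂μ with hv
  have hv' : v = (φ.normed μ ⋆[ContinuousLinearMap.lsmul ℝ ℝ, μ] g) := by
    ext x
    rfl
  have hsm : ContDiff ℝ ∞ v := by
    rw [hv']
    exact φ.hasCompactSupport_normed.contDiff_convolution_left _ φ.contDiff_normed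
      hg.continuous.locallyIntegrable
  refine ⟨v, hsm, fun b hb => ⟨?_, fun w hw => ?_⟩⟩
  · have hbK : b ∈ cthickening δ K := self_subset_cthickening _ hb
    have h1 : dist (v b) (g b) ≤ C * r := by
      rw [hv']
      refine φ.dist_normed_convolution_le hg.continuous.aestronglyMeasurable fun x hx => ?_
      have h2 := hg.dist_le_mul x b
      exact h2.trans (mul_le_mul_of_nonneg_left (le_of_lt (mem_ball.1 hx)) C.2)
    rw [← hgu hbK] at h1
    rw [Real.dist_eq] at h1
    exact h1.trans hrC
  · obtain ⟨hint, hder⟩ := hasFDerivAt_mollify μ hg φ b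
    rw [hder.fderiv, ContinuousLinearMap.integral_apply hint]
    have h1 : Θ b w - ε = ∫ t, φ.normed μ t * (Θ b w - ε) ∂μ := by
      rw [integral_mul_const, φ.integral_normed, one_mul]
    rw [h1]
    refine integral_mono_ae (φ.integrable_normed.mul_const _) (hint.apply_continuousLinearMap w) ?_
    have h2 : ∀ᵐ x ∂μ, DifferentiableAt ℝ g x := hg.ae_differentiableAt
    have h3 : ∀ᵐ t ∂μ, DifferentiableAt ℝ g (b - t) :=
      (μ.measurePreserving_sub_left b).quasiMeasurePreserving.ae h2
    filter_upwards [h3] with t ht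
    simp only [_root_.smul_apply, smul_eq_mul]
    by_cases htr : ‖t‖ < r
    · refine mul_le_mul_of_nonneg_left ?_ (φ.nonneg_normed t)
      have hd : dist (b - t) b < r := by
        rw [dist_eq_norm]
        simpa using htr
      have hmem : b - t ∈ thickening δ K := mem_thickening_iff.2 ⟨b, hb, hd.trans hrδ⟩
      have hmem' : b - t ∈ cthickening δ K := thickening_subset_cthickening _ _ hmem
      have hbK : b ∈ cthickening δ K := self_subset_cthickening _ hb
      have hev : g =ᶠ[𝓝 (b - t)] u := by
        filter_upwards [isOpen_thickening.mem_nhds hmem] with y hy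
        exact (hgu (thickening_subset_cthickening _ _ hy)).symm
      have hdu : DifferentiableAt ℝ u (b - t) := hev.differentiableAt_iff.1 ht
      have h4 := h (b - t) (hδΩ hmem') hdu w
      rw [hev.fderiv_eq]
      have h5 := hunif (b, w) ⟨hbK, by simpa using hw⟩ (b - t, w) ⟨hmem', by simpa using hw⟩ (by
        rw [Prod.dist_eq, dist_self, max_eq_left dist_nonneg, dist_comm]
        exact hd.trans hrδ')
      rw [Real.dist_eq, abs_lt] at h5
      linarith [h5.1, h5.2]
    · have h0 : φ.normed μ t = 0 := by
        have : t ∉ Function.support (φ.normed μ) := by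
          rw [φ.support_normed_eq]
          simpa [φ] using htr
        simpa using this
      rw [h0]
      simp

end

end Crest.Agent.R249.D4_789
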