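import Crest.Agent.R249.Top4_330
import Crest.Agent.R226.Defs_484
import Crest.Agent.R247.Rdg4_879

/-!
R249, leaf TOP (helper330), file 5: Toponogov for the geodesics of R226's `GeoData`, and the
point-on-side inequality in the class setting of the templates.
-/

set_option autoImplicit false
set_option maxSynthPendingDepth 3
set_option linter.unusedSectionVars false

open Bundle Set Filter Topology Metric
open scoped Manifold ContDiff NNReal
open Crest.GeometryTopology.CoordMetric Crest.GeometryTopology.ChartCurvature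
open Crest.GeometryTopology.MTW
open Crest.Agent.R247.Sm879 Crest.Agent.R247.Ray97

noncomputable section

namespace Crest.Agent.R249.Top330

section geo
variable {n : ℕ} {M : Type*} [MetricSpace M] [ChartedSpace (EuclideanSpace ℝ (Fin n)) M]
  [IsManifold (𝓡 n) ∞ M]
  [RiemannianBundle (fun p : M => TangentSpace (𝓡 n) p)]
  [IsContMDiffRiemannianBundle (𝓡 n) ∞ (EuclideanSpace ℝ (Fin n)) (fun p : M => TangentSpace (𝓡 n) p)]
  [IsRiemannianManifold (𝓡 n) M] [ProperSpace M]

/-- **Toponogov for complete geodesics**. -/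
theorem toponogov_ex (G : Crest.Agent.R226.GeoData n M) (hm : ExM M)
    (hK : HasNonnegSectionalCurvature n M) (p x : M) (v : TangentSpace (𝓡 n) x) :
    ConcaveOn ℝ univ (fun t : ℝ => dist p (G.ex x (t • v)) ^ 2 - ‖v‖ ^ 2 * t ^ 2) := by
  rcases (norm_nonneg v).eq_or_lt with h0 | h0
  · -- constant curve
    have hv : v = 0 := norm_eq_zero.1 h0.symm
    have : (fun t : ℝ => dist p (G.ex x (t • v)) ^ 2 - ‖v‖ ^ 2 * t ^ 2) =
        fun _ => dist p x ^ 2 := by
      ext t
      rw [hv, smul_zero, G.ex_zero, norm_zero]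
      ring
    rw [this]
    exact concaveOn_const _ convex_univ
  · have hc : Continuous fun t : ℝ => G.ex x (t • v) := by
      have : LipschitzWith (Real.toNNReal ‖v‖) fun t : ℝ => G.ex x (t • v) := by
        refine LipschitzWith.of_dist_le_mul fun s t => ?_
        rw [Real.coe_toNNReal _ h0.le, Real.dist_eq, mul_comm]
        exact G.dist_le x v s t
      exact this.continuous
    refine toponogov_concaveOn hm hK p h0 convex_univ hc.continuousOn fun a b _ _ s _ => ?_
    have hr := G.r₀_pos
    refine ⟨G.r₀ / (4 * ‖v‖), by positivity, fun u hu w hw => ?_⟩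
    rw [G.dist_eq x v u w, mul_comm]
    have h1 : |u - w| ≤ 2 * (G.r₀ / (4 * ‖v‖)) := by
      rw [abs_le]; constructor <;> linarith [hu.1, hu.2, hw.1, hw.2]
    calc |u - w| * ‖v‖ ≤ 2 * (G.r₀ / (4 * ‖v‖)) * ‖v‖ :=
          mul_le_mul_of_nonneg_right h1 h0.le
      _ = G.r₀ / 2 := by field_simp; ring
      _ < G.r₀ := by linarith

end geo

section block
variable {n : ℕ} {M : Type*} [MetricSpace M] [CompleteSpace M] [ConnectedSpace M]
    [ChartedSpace (EuclideanSpace ℝ (Fin n)) M]
    [IsManifold 𝓘(ℝ, EuclideanSpace ℝ (Fin n)) ∞ M]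
    [RiemannianBundle (fun x : M => TangentSpace 𝓘(ℝ, EuclideanSpace ℝ (Fin n)) x)]
    [IsContMDiffRiemannianBundle 𝓘(ℝ, EuclideanSpace ℝ (Fin n)) ∞ (EuclideanSpace ℝ (Fin n))
      (fun x : M => TangentSpace 𝓘(ℝ, EuclideanSpace ℝ (Fin n)) x)]
    [IsRiemannianManifold 𝓘(ℝ, EuclideanSpace ℝ (Fin n)) M]

/-- **Toponogov, point on side**, template classes: `z` between `y` and `w`, `p` arbitrary. -/
theorem point_on_side (hK : HasNonnegSectionalCurvature n M) (p : M) {y z w : M}
    (h : dist y z + dist z w = dist y w) :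
    dist z w * dist p y ^ 2 + dist y z * dist p w ^ 2 - dist y z * dist z w * dist y w ≤
      dist y w * dist p z ^ 2 := by
  have := Crest.Agent.R247.HR216.properSpace_of_riemannian n M
  exact toponogov_btw (n := n) (Crest.Agent.R247.Sm879.ExM.of_exactMid
    (Crest.Agent.R247.HR216.approxMid_of_riemannian n M).exactMid) hK p h

/-- **midpoint inequality** -/
theorem midpoint_ineq (hK : HasNonnegSectionalCurvature n M) (p : M) {y m w : M}
    (h1 : dist y m = dist y w / 2) (h2 : dist m w = dist y w / 2) :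
    (dist p y ^ 2 + dist p w ^ 2) / 2 - dist y w ^ 2 / 4 ≤ dist p m ^ 2 := by
  rcases eq_or_ne y w with rfl | hyw
  · rw [dist_self, zero_div] at h2
    have : m = y := dist_eq_zero.1 h2
    rw [this, dist_self]
    linarith
  have h3 := point_on_side (n := n) hK p (y := y) (z := m) (w := w) (by rw [h1, h2]; ring)
  rw [h1, h2] at h3
  have h4 : 0 < dist y w := dist_pos.2 hyw
  have h5 : dist y w * ((dist p y ^ 2 + dist p w ^ 2) / 2 - dist y w ^ 2 / 4) ≤
      dist y w * dist p m ^ 2 := by
    calc _ = dist y w / 2 * dist p y ^ 2 + dist y w / 2 * dist p w ^ 2 -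
          dist y w / 2 * (dist y w / 2) * dist y w := by ring
      _ ≤ _ := h3
  exact le_of_mul_le_mul_left h5 h4

end block

end Crest.Agent.R249.Top330
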