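import Crest.Agent.R249.D4Sg_789
import Crest.Agent.R249.Top5_330
import Crest.Agent.R226.Semiconcave_345
import Crest.Agent.R226.GeoThm_542
import Crest.Agent.R226.NearDiagFinal_996

/-!
R249, part D4 (helper789), file 5: the hinge inequality for closed manifolds with nonnegative
sectional curvature, in exponential form, from helper330's Toponogov theorem.
-/

set_option autoImplicit false
set_option linter.unusedSectionVars false

open MeasureTheory Set Filter Metric Bundle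
open scoped ContDiff ENNReal NNReal Topology Manifold
open Crest.GeometryTopology.MTW Crest.GeometryTopology.ChartCurvature
open Crest.GeometryTopology
open Crest.Agent.R226

namespace Crest.Agent.R249.D4_789

noncomputable section

variable {n : ℕ} {M : Type*} [MetricSpace M] [ChartedSpace (EuclideanSpace ℝ (Fin n)) M]
  [IsManifold (𝓡 n) ∞ M] [RiemannianBundle (fun p : M => TangentSpace (𝓡 n) p)]
  [IsContMDiffRiemannianBundle (𝓡 n) ∞ (EuclideanSpace ℝ (Fin n))
    (fun p : M => TangentSpace (𝓡 n) p)]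
  [IsRiemannianManifold (𝓡 n) M] [CompactSpace M]

/-- **Hinge inequality** -/
theorem hinge (G : GeoData n M) (hK : HasNonnegSectionalCurvature n M) : Hinge G := by
  intro x u w hu
  have hm : Crest.Agent.R247.Sm879.ExM M := HopfRinow114.hasBetween n M
  have hc := Top330.toponogov_ex G hm hK (G.ex x u) x w
  obtain ⟨C, hC0, hC⟩ := Semiconcave345.semiconcave (n := n) G
  set φ : ℝ → ℝ := fun t => dist (G.ex x u) (G.ex x (t • w)) ^ 2 - ‖w‖ ^ 2 * t ^ 2 with hφ
  have hu' : dist x (G.ex x u) = ‖u‖ := hu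
  have h0 : φ 0 = ‖u‖ ^ 2 := by
    simp only [hφ, zero_smul, G.ex_zero]
    rw [dist_comm, hu']
    ring
  -- for small positive `t`
  have key : ∀ t : ℝ, 0 < t → t < 1 →
      φ 1 ≤ ‖u‖ ^ 2 - 2 * inner ℝ u w + t * (2 * C * ‖w‖ ^ 2) := by
    intro t ht0 ht1
    have h1 : (1 - t) • φ 0 + t • φ 1 ≤ φ ((1 - t) • (0 : ℝ) + t • (1 : ℝ)) :=
      hc.2 (mem_univ _) (mem_univ _) (by linarith) ht0.le (by ring)
    have h2 : (1 - t) • (0 : ℝ) + t • (1 : ℝ) = t := by simp
    rw [h2, smul_eq_mul, smul_eq_mul, h0] at h1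
    have h3 := hC x u hu (t • w)
    have h4 : φ t ≤ ‖u‖ ^ 2 - 2 * (t * inner ℝ u w) + 2 * C * (t ^ 2 * ‖w‖ ^ 2) := by
      simp only [hφ]
      rw [inner_smul_right, norm_smul, mul_pow, Real.norm_eq_abs, sq_abs] at h3
      unfold halfDistSq at h3
      rw [dist_comm (G.ex x (t • w)), hu'] at h3
      nlinarith [sq_nonneg (‖w‖ * t)]
    have h5 : t * φ 1 ≤ t * (‖u‖ ^ 2 - 2 * inner ℝ u w + t * (2 * C * ‖w‖ ^ 2)) := by
      nlinarith
    exact le_of_mul_le_mul_left h5 ht0
  have hlim : Tendsto (fun t : ℝ => ‖u‖ ^ 2 - 2 * inner ℝ u w + t * (2 * C * ‖w‖ ^ 2)) (𝓝[>] 0)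
      (𝓝 (‖u‖ ^ 2 - 2 * inner ℝ u w + 0 * (2 * C * ‖w‖ ^ 2))) := by
    refine Tendsto.mono_left ?_ nhdsWithin_le_nhds
    exact Continuous.tendsto (by fun_prop) 0
  have h6 : φ 1 ≤ ‖u‖ ^ 2 - 2 * inner ℝ u w + 0 * (2 * C * ‖w‖ ^ 2) := by
    refine ge_of_tendsto hlim ?_
    filter_upwards [Ioo_mem_nhdsGT (show (0 : ℝ) < 1 by norm_num)] with t ht
    exact key t ht.1 ht.2
  rw [zero_mul, add_zero] at h6
  have h7 : φ 1 = dist (G.ex x u) (G.ex x w) ^ 2 - ‖w‖ ^ 2 := by
    simp only [hφ, one_smul]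
    ring
  rw [h7] at h6
  rw [norm_sub_sq_real]
  linarith

/-- a closed Riemannian manifold has geodesic data -/
theorem nonempty_geo : Nonempty (GeoData n M) := by
  obtain ⟨N⟩ := NearDiagFinal996.nonempty_nearDiag (n := n) (M := M)
  exact GeoThm542.nonempty_geoData N

end

end Crest.Agent.R249.D4_789
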