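import Crest.Agent.R249.D4Sg_789
import Crest.Agent.R249.D4An_789

/-!
R249, part D4 (helper789), file 7: the local smooth map around a point at which `(M, F)` is
almost flat at scale `δ`.
-/

set_option autoImplicit false
set_option linter.unusedSectionVars false

open MeasureTheory Set Filter Metric Bundle
open scoped ContDiff ENNReal NNReal Topology Manifold RealInnerProductSpace
open Crest.GeometryTopology.MTW
open Crest.Agent.R226

namespace Crest.Agent.R249.D4_789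

noncomputable section

/-- `(M, F)` is flat up to `σ² δ` at scale `δ` near `p`: on the ball of radius `15 δ` the map
`f` is a `σ² δ`-isometry, almost onto the ball of radius `8 δ`, and `F` is, up to `σ² δ`, an
affine function of `f` with linear part `B` (bilipschitz with constants `c₀`, `C₀`). -/
structure FlatAt (n : ℕ) {M W : Type*} [MetricSpace M] [NormedAddCommGroup W] [NormedSpace ℝ W]
    (δ σ c₀ C₀ : ℝ) (F : M → W) (p : M) where
  /-- almost isometry -/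
  f : M → EuclideanSpace ℝ (Fin n)
  /-- linear part -/
  B : EuclideanSpace ℝ (Fin n) →L[ℝ] W
  lo : ∀ c, c₀ * ‖c‖ ≤ ‖B c‖
  hi : ∀ c, ‖B c‖ ≤ C₀ * ‖c‖
  iso : ∀ x y, dist x p < 15 * δ → dist y p < 15 * δ → |‖f x - f y‖ - dist x y| ≤ σ ^ 2 * δ
  lin : ∀ x y, dist x p < 15 * δ → dist y p < 15 * δ → ‖F x - F y - B (f x - f y)‖ ≤ σ ^ 2 * δ
  dense : ∀ c, ‖c - f p‖ ≤ 8 * δ → ∃ y, dist y p < 15 * δ ∧ ‖f y - c‖ ≤ σ ^ 2 * δ

variable {n : ℕ} {M : Type*} [MetricSpace M] [ChartedSpace (EuclideanSpace ℝ (Fin n)) M]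
  [IsManifold (𝓡 n) ∞ M] [RiemannianBundle (fun p : M => TangentSpace (𝓡 n) p)]
variable {W : Type*} [NormedAddCommGroup W] [NormedSpace ℝ W]

local notation "𝔼" => EuclideanSpace ℝ (Fin n)

/-- what the smoothing theorem gives at `x` -/
structure Sm (G : GeoData n M) (q : M) (ε R : ℝ) (v : M → ℝ) (x : M) : Prop where
  near : |v x - dist q x ^ 2 / 2| ≤ ε
  sup : ∀ w : TangentSpace (𝓡 n) x, ‖w‖ ≤ R →
    dist q (G.ex x w) ^ 2 / 2 - dist q x ^ 2 / 2 - ‖w‖ ^ 2 / 2 - ε ≤ dd n v x w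
  bd : ∀ w : TangentSpace (𝓡 n) x, |dd n v x w| ≤ (dist q x + ε) * ‖w‖

/-- the differential as a linear form on the tangent space -/
def dl (v : M → ℝ) (x : M) : TangentSpace (𝓡 n) x →ₗ[ℝ] ℝ :=
  ((dd n v x : 𝔼 →L[ℝ] ℝ) : 𝔼 →ₗ[ℝ] ℝ)

variable {G : GeoData n M} {δ σ c₀ C₀ : ℝ} {F : M → W} {p : M}

/-- **covector estimate** -/
theorem dd_near (hH : Hinge G) (fl : FlatAt n δ σ c₀ C₀ F p) (hδ : 0 < δ) (hσ0 : 0 < σ)
    (hσ1 : σ ^ 2 ≤ 1 / 9) {x q z : M} (hx : dist x p < 2 * δ) (hq : dist q p < 3 * δ)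
    (hz : dist z x ≤ 2 * δ) {w : TangentSpace (𝓡 n) x} (hw : w ∈ G.K x) (hwz : G.ex x w = z)
    {v : M → ℝ} {ε R : ℝ} (hε : 0 ≤ ε) (hε1 : ε ≤ σ ^ 2 * δ ^ 2) (hε2 : ε ≤ σ ^ 2 * δ)
    (hR : 15 * δ ≤ R) (hv : Sm G q ε R v x) :
    |dd n v x w + ⟪fl.f q - fl.f x, fl.f z - fl.f x⟫| ≤ 2700 * σ * δ ^ 2 := by
  set f := fl.f with hf
  have hs0 : 0 ≤ σ ^ 2 := sq_nonneg σ
  have hsδ : σ ^ 2 * δ ≤ δ / 9 := by nlinarith
  have hsδ0 : 0 ≤ σ ^ 2 * δ := by positivity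
  have hp0 : dist p p < 15 * δ := by rw [dist_self]; linarith
  have hx15 : dist x p < 15 * δ := by linarith
  have hq15 : dist q p < 15 * δ := by linarith
  have hzp : dist z p < 4 * δ := by
    have := dist_triangle z x p; linarith
  have hz15 : dist z p < 15 * δ := by linarith
  -- the antipode
  have hfx := (abs_le.1 (fl.iso x p hx15 hp0)).2
  have hfq := (abs_le.1 (fl.iso q p hq15 hp0)).2
  obtain ⟨q', hq'15, hq'⟩ := fl.dense ((2 : ℝ) • f x - f q) (by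
    have h1 : (2 : ℝ) • f x - f q - f p = (2 : ℝ) • (f x - f p) - (f q - f p) := by
      module
    rw [← hf, h1]
    have h2 := norm_sub_le ((2 : ℝ) • (f x - f p)) (f q - f p)
    rw [norm_smul, Real.norm_of_nonneg (by norm_num : (0 : ℝ) ≤ 2)] at h2
    linarith)
  rw [← hf] at hq'
  have hq'p : dist q' p ≤ 9 * δ := by
    have h1 := (abs_le.1 (fl.iso q' p hq'15 hp0)).1
    rw [← hf] at h1
    have h2 : f q' - f p = (f q' - ((2 : ℝ) • f x - f q)) + ((2 : ℝ) • (f x - f p) - (f q - f p)) := by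
      module
    have h3 : ‖f q' - f p‖ ≤ σ ^ 2 * δ + (2 * (2 * δ + σ ^ 2 * δ) + (3 * δ + σ ^ 2 * δ)) := by
      rw [h2]
      refine (norm_add_le _ _).trans (add_le_add hq' ?_)
      have h4 := norm_sub_le ((2 : ℝ) • (f x - f p)) (f q - f p)
      rw [norm_smul, Real.norm_of_nonneg (by norm_num : (0 : ℝ) ≤ 2)] at h4
      linarith
    linarith
  obtain ⟨u, hu, huq⟩ := exists_min (G := G) x q'
  have hun : ‖u‖ = dist x q' := by rw [norm_of_K hu, huq]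
  have hwn : ‖w‖ = dist x z := by rw [norm_of_K hw, hwz]
  have dxq' : dist x q' ≤ 11 * δ := by
    have := dist_triangle_right x q' p; linarith
  have dxq : dist q x ≤ 5 * δ := by
    have := dist_triangle_right q x p; linarith
  have dxz : dist x z ≤ 2 * δ := by rw [dist_comm]; exact hz
  have dqq' : dist q q' ≤ 12 * δ := by
    have := dist_triangle_right q q' p; linarith
  have dqz : dist q z ≤ 7 * δ := by
    have := dist_triangle_right q z p; linarith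
  have dq'z : dist q' z ≤ 13 * δ := by
    have := dist_triangle_right q' z p; linarith
  have h1 := hv.sup u (by rw [hun]; linarith)
  have h2 := hv.sup w (by rw [hwn]; linarith)
  rw [huq, hun] at h1
  rw [hwz, hwn] at h2
  have h3 := hH x u w hu
  rw [huq, hwz] at h3
  have hfin : FiniteDimensional ℝ (TangentSpace (𝓡 n) x) := TB616.finDim x
  have hsL : σ ^ 2 * δ ≤ σ ^ 2 * (15 * δ) := by nlinarith
  have key := angle (V := TangentSpace (𝓡 n) x) (W := 𝔼) (dl v x) u w (f q - f x) (f q' - f x)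
    (f z - f x) (L := 15 * δ) (σ := σ) (ε := ε) (dx := dist q x) (dy := dist x q')
    (dz := dist x z) (dxy := dist q q') (dxz := dist q z) (dyz := dist q' z)
    (by positivity) hσ0.le (by nlinarith) hε (by nlinarith) (by linarith) dist_nonneg
    (by linarith) dist_nonneg (by linarith) dist_nonneg (by linarith) dist_nonneg (by linarith)
    dist_nonneg (by linarith) dist_nonneg (by linarith)
    ((fl.iso q x hq15 hx15).trans hsL)
    (by rw [dist_comm x q']; exact (fl.iso q' x hq'15 hx15).trans hsL)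
    (by rw [dist_comm x z]; exact (fl.iso z x hz15 hx15).trans hsL)
    (by rw [sub_sub_sub_cancel_right]; exact (fl.iso q q' hq15 hq'15).trans hsL)
    (by rw [sub_sub_sub_cancel_right]; exact (fl.iso q z hq15 hz15).trans hsL)
    (by rw [sub_sub_sub_cancel_right]; exact (fl.iso q' z hq'15 hz15).trans hsL)
    (by
      have h4 : f q - f x + (f q' - f x) = f q' - ((2 : ℝ) • f x - f q) := by module
      rw [h4]
      exact hq'.trans hsL)
    hun hwn (fun w' => hv.bd w') h1 h2 h3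
  have h5 : 12 * σ * (15 * δ) ^ 2 = 2700 * σ * δ ^ 2 := by ring
  rw [h5] at key
  exact key

/-- coordinates -/
theorem sum_close (a : Fin n → ℝ) (c : 𝔼) {K : ℝ}
    (h : ∀ j, |a j - ⟪EuclideanSpace.single j (1 : ℝ), c⟫| ≤ K) :
    ‖∑ j, a j • EuclideanSpace.single j (1 : ℝ) - c‖ ≤ n * K := by
  have h1 : c = ∑ j, (⟪EuclideanSpace.single j (1 : ℝ), c⟫ : ℝ) • EuclideanSpace.single j (1 : ℝ) := by
    have := (EuclideanSpace.basisFun (Fin n) ℝ).sum_repr' c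
    simpa using this.symm
  have h2 : ∑ j, a j • EuclideanSpace.single j (1 : ℝ) - c =
      ∑ j, (a j - ⟪EuclideanSpace.single j (1 : ℝ), c⟫) • (EuclideanSpace.single j (1 : ℝ) : 𝔼) := by
    conv_lhs => rw [h1]
    rw [← Finset.sum_sub_distrib]
    exact Finset.sum_congr rfl fun j _ => (sub_smul _ _ _).symm
  rw [h2]
  calc ‖∑ j, (a j - ⟪EuclideanSpace.single j (1 : ℝ), c⟫) • (EuclideanSpace.single j (1 : ℝ) : 𝔼)‖
      ≤ ∑ j, ‖(a j - ⟪EuclideanSpace.single j (1 : ℝ), c⟫) • (EuclideanSpace.single j (1 : ℝ) : 𝔼)‖ :=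
        norm_sum_le _ _
    _ ≤ ∑ _j : Fin n, K := by
        refine Finset.sum_le_sum fun j _ => ?_
        rw [norm_smul, Real.norm_eq_abs, EuclideanSpace.norm_single, norm_one, mul_one]
        exact h j
    _ = n * K := by simp

/-- the algebra behind the `C⁰` estimate of the local map -/
theorem coord_est {E X Qm Qp : 𝔼} {δ τ sm sp : ℝ} (hδ : 0 < δ) (hτ0 : 0 ≤ τ) (hτ : τ ≤ δ / 9)
    (hE : ‖E‖ = 1) (hX : ‖X‖ ≤ 2 * δ + τ) (hm : ‖Qm + δ • E‖ ≤ τ) (hp : ‖Qp - δ • E‖ ≤ τ)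
    (h1 : |sm - ‖Qm - X‖ ^ 2 / 2| ≤ 9 * τ * δ) (h2 : |sp - ‖Qp - X‖ ^ 2 / 2| ≤ 9 * τ * δ) :
    |(sm - sp) / (2 * δ) - ⟪E, X⟫| ≤ 14 * τ := by
  have em : ‖Qm - X‖ ^ 2 = ‖(Qm + δ • E) + (-(δ • E) - X)‖ ^ 2 := by
    congr 2; abel
  have ep : ‖Qp - X‖ ^ 2 = ‖(Qp - δ • E) + (δ • E - X)‖ ^ 2 := by
    congr 2; abel
  rw [norm_add_sq_real] at em ep
  have nE : ‖δ • E‖ = δ := by rw [norm_smul, hE, mul_one, Real.norm_of_nonneg hδ.le]
  have b1 : ‖-(δ • E) - X‖ ≤ 4 * δ := by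
    have := norm_sub_le (-(δ • E)) X
    rw [norm_neg, nE] at this
    linarith
  have b2 : ‖δ • E - X‖ ≤ 4 * δ := by
    have := norm_sub_le (δ • E) X
    rw [nE] at this
    linarith
  have c1 : |⟪Qm + δ • E, -(δ • E) - X⟫| ≤ τ * (4 * δ) :=
    (abs_real_inner_le_norm _ _).trans (mul_le_mul hm b1 (norm_nonneg _) hτ0)
  have c2 : |⟪Qp - δ • E, δ • E - X⟫| ≤ τ * (4 * δ) :=
    (abs_real_inner_le_norm _ _).trans (mul_le_mul hp b2 (norm_nonneg _) hτ0)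
  have d1 : ‖Qm + δ • E‖ ^ 2 ≤ τ * δ := by
    have := mul_le_mul hm hm (norm_nonneg _) hτ0
    nlinarith
  have d2 : ‖Qp - δ • E‖ ^ 2 ≤ τ * δ := by
    have := mul_le_mul hp hp (norm_nonneg _) hτ0
    nlinarith
  have d1' : 0 ≤ ‖Qm + δ • E‖ ^ 2 := sq_nonneg _
  have d2' : 0 ≤ ‖Qp - δ • E‖ ^ 2 := sq_nonneg _
  have e1 : ‖-(δ • E) - X‖ ^ 2 = δ ^ 2 + 2 * (δ * ⟪E, X⟫) + ‖X‖ ^ 2 := by
    rw [norm_sub_sq_real, norm_neg, nE, inner_neg_left, inner_smul_left]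
    simp
  have e2 : ‖δ • E - X‖ ^ 2 = δ ^ 2 - 2 * (δ * ⟪E, X⟫) + ‖X‖ ^ 2 := by
    rw [norm_sub_sq_real, nE, inner_smul_left]
    simp
  rw [e1] at em
  rw [e2] at ep
  rw [abs_le] at c1 c2 h1 h2
  obtain ⟨c11, c12⟩ := c1
  obtain ⟨c21, c22⟩ := c2
  obtain ⟨h11, h12⟩ := h1
  obtain ⟨h21, h22⟩ := h2
  have key : |(sm - sp) - 2 * δ * ⟪E, X⟫| ≤ 28 * τ * δ := by
    rw [abs_le]
    constructor <;> nlinarith
  have h6 : (sm - sp) / (2 * δ) - ⟪E, X⟫ = ((sm - sp) - 2 * δ * ⟪E, X⟫) / (2 * δ) := by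
    field_simp
  rw [h6, abs_div, abs_of_pos (by positivity : (0 : ℝ) < 2 * δ), div_le_iff₀ (by positivity)]
  calc |(sm - sp) - 2 * δ * ⟪E, X⟫| ≤ 28 * τ * δ := key
    _ = 14 * τ * (2 * δ) := by ring

/-- the algebra behind the differential of the local map -/
theorem coord_est' {E X Qm Qp Z : 𝔼} {δ τ K dm dp : ℝ} (hδ : 0 < δ) (hτ0 : 0 ≤ τ)
    (hZ : ‖Z‖ ≤ 3 * δ) (hm : ‖Qm + δ • E‖ ≤ τ) (hp : ‖Qp - δ • E‖ ≤ τ)
    (h1 : |dm + ⟪Qm - X, Z⟫| ≤ K) (h2 : |dp + ⟪Qp - X, Z⟫| ≤ K) :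
    |(dm - dp) / (2 * δ) - ⟪E, Z⟫| ≤ K / δ + 3 * τ := by
  have e : dm - dp - 2 * δ * ⟪E, Z⟫ = (dm + ⟪Qm - X, Z⟫) - (dp + ⟪Qp - X, Z⟫) +
      (⟪Qp - δ • E, Z⟫ - ⟪Qm + δ • E, Z⟫) := by
    simp only [inner_sub_left, inner_add_left, inner_smul_left]
    simp
    ring
  have c1 : |⟪Qm + δ • E, Z⟫| ≤ τ * (3 * δ) :=
    (abs_real_inner_le_norm _ _).trans (mul_le_mul hm hZ (norm_nonneg _) hτ0)
  have c2 : |⟪Qp - δ • E, Z⟫| ≤ τ * (3 * δ) :=
    (abs_real_inner_le_norm _ _).trans (mul_le_mul hp hZ (norm_nonneg _) hτ0)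
  have key : |dm - dp - 2 * δ * ⟪E, Z⟫| ≤ 2 * K + 6 * τ * δ := by
    rw [e]
    rw [abs_le] at *
    constructor <;> linarith [c1.1, c1.2, c2.1, c2.2, h1.1, h1.2, h2.1, h2.2]
  have h6 : (dm - dp) / (2 * δ) - ⟪E, Z⟫ = (dm - dp - 2 * δ * ⟪E, Z⟫) / (2 * δ) := by
    field_simp
  rw [h6, abs_div, abs_of_pos (by positivity : (0 : ℝ) < 2 * δ), div_le_iff₀ (by positivity)]
  calc |dm - dp - 2 * δ * ⟪E, Z⟫| ≤ 2 * K + 6 * τ * δ := key
    _ = (K / δ + 3 * τ) * (2 * δ) := by field_simp; ring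

end

end Crest.Agent.R249.D4_789
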