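import Crest.Agent.R249.D4Lm_789

/-!
R249, part D4 (helper789), file 8: existence of the local smooth map.
-/

set_option autoImplicit false
set_option linter.unusedSectionVars false

open MeasureTheory Set Filter Metric Bundle
open scoped ContDiff ENNReal NNReal Topology Manifold RealInnerProductSpace
open Crest.GeometryTopology.MTW
open Crest.Agent.R226

namespace Crest.Agent.R249.D4_789

noncomputable section

variable {n : ℕ} {M : Type*} [MetricSpace M] [ChartedSpace (EuclideanSpace ℝ (Fin n)) M]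
  [IsManifold (𝓡 n) ∞ M] [RiemannianBundle (fun p : M => TangentSpace (𝓡 n) p)]
variable {W : Type*} [NormedAddCommGroup W] [NormedSpace ℝ W]

local notation "𝔼" => EuclideanSpace ℝ (Fin n)

theorem dd_const_smul (c : ℝ) {f : M → W} {x : M} (hf : DA n f x) (w : 𝔼) :
    dd n (fun y => c • f y) x w = c • dd n f x w := by
  rw [dd_smul (DA.const c x) hf, dd_const]
  simp

theorem dd_smul_const {a : M → ℝ} (c : W) {x : M} (ha : DA n a x) (w : 𝔼) :
    dd n (fun y => a y • c) x w = dd n a x w • c := by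
  rw [dd_smul ha (DA.const c x), dd_const]
  simp

variable [IsContMDiffRiemannianBundle (𝓡 n) ∞ (EuclideanSpace ℝ (Fin n))
    (fun p : M => TangentSpace (𝓡 n) p)]
  [IsRiemannianManifold (𝓡 n) M] [CompactSpace M]

variable {G : GeoData n M} {δ σ c₀ C₀ : ℝ} {F : M → W} {p : M}

/-- **Local smooth map.** -/
theorem exists_local_map (hH : Hinge G) (fl : FlatAt n δ σ c₀ C₀ F p) (hδ : 0 < δ)
    (hσ0 : 0 < σ) (hσ1 : σ ^ 2 ≤ 1 / 9) (hC : 0 ≤ C₀) :
    ∃ Ψ : M → W, ContMDiff (𝓡 n) 𝓘(ℝ, W) ∞ Ψ ∧ ∀ x, dist x p < 2 * δ →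
      ‖Ψ x - F x‖ ≤ (3000 * n * C₀ + 1) * (σ * δ) ∧
      ∀ z, dist z x ≤ 2 * δ → ∀ w : TangentSpace (𝓡 n) x, w ∈ G.K x → G.ex x w = z →
        ‖dd n Ψ x w - (F z - F x)‖ ≤ (3000 * n * C₀ + 1) * (σ * δ) := by
  have hs0 : 0 < σ ^ 2 := by positivity
  have hσ1' : σ ≤ 1 := by nlinarith
  have hσσ : σ ^ 2 ≤ σ := by nlinarith
  have hsδ : σ ^ 2 * δ ≤ δ / 9 := by nlinarith
  have hsδ0 : 0 < σ ^ 2 * δ := by positivity
  have hσδ : σ ^ 2 * δ ≤ σ * δ := mul_le_mul_of_nonneg_right hσσ hδ.le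
  have hp0 : dist p p < 15 * δ := by rw [dist_self]; linarith
  have nE : ∀ j : Fin n, ‖(EuclideanSpace.single j (1 : ℝ) : 𝔼)‖ = 1 := fun j => by simp
  -- the points
  have hQ : ∀ (s : ℝ), |s| ≤ δ → ∀ j : Fin n, ∃ q, dist q p < 3 * δ ∧
      ‖fl.f q - fl.f p - s • (EuclideanSpace.single j (1 : ℝ) : 𝔼)‖ ≤ σ ^ 2 * δ := by
    intro s hs j
    obtain ⟨q, hq, hq'⟩ := fl.dense (fl.f p + s • (EuclideanSpace.single j (1 : ℝ) : 𝔼)) (by
      rw [add_sub_cancel_left, norm_smul, nE, mul_one, Real.norm_eq_abs]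
      linarith)
    rw [← sub_sub] at hq'
    refine ⟨q, ?_, hq'⟩
    have h1 := (abs_le.1 (fl.iso q p hq hp0)).1
    have h2 : ‖fl.f q - fl.f p‖ ≤ σ ^ 2 * δ + |s| := by
      have h3 : fl.f q - fl.f p = (fl.f q - fl.f p - s • (EuclideanSpace.single j (1 : ℝ) : 𝔼)) +
          s • (EuclideanSpace.single j (1 : ℝ) : 𝔼) := by abel
      rw [h3]
      refine (norm_add_le _ _).trans (add_le_add hq' ?_)
      rw [norm_smul, nE, mul_one, Real.norm_eq_abs]
    linarith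
  choose qp hqp hqp' using hQ δ (abs_of_pos hδ).le
  choose qm hqm hqm' using hQ (-δ) (by rw [abs_neg, abs_of_pos hδ])
  set ε : ℝ := min (σ ^ 2 * δ ^ 2) (σ ^ 2 * δ) with hε
  have hε0 : 0 < ε := by positivity
  have hε1 : ε ≤ σ ^ 2 * δ ^ 2 := min_le_left _ _
  have hε2 : ε ≤ σ ^ 2 * δ := min_le_right _ _
  choose vp hvp hvp' using fun j => exists_smooth_dist hH (qp j) (R := 15 * δ) hε0
  choose vm hvm hvm' using fun j => exists_smooth_dist hH (qm j) (R := 15 * δ) hε0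
  have Sp : ∀ j x, Sm G (qp j) ε (15 * δ) (vp j) x := fun j x =>
    ⟨(hvp' j x).1, (hvp' j x).2.1, (hvp' j x).2.2⟩
  have Sm' : ∀ j x, Sm G (qm j) ε (15 * δ) (vm j) x := fun j x =>
    ⟨(hvm' j x).1, (hvm' j x).2.1, (hvm' j x).2.2⟩
  -- the map
  set A : M → 𝔼 := fun x => ∑ j, ((2 * δ)⁻¹ • (vm j x - vp j x)) •
    (EuclideanSpace.single j (1 : ℝ) : 𝔼) with hA
  have hAs : ContMDiff (𝓡 n) 𝓘(ℝ, 𝔼) ∞ A := by
    refine contMDiff_finsetSum fun j _ => ?_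
    have e1 : ContMDiff (𝓡 n) 𝓘(ℝ) ∞ (fun _ : M => (2 * δ)⁻¹) := contMDiff_const
    have e2 : ContMDiff (𝓡 n) 𝓘(ℝ, 𝔼) ∞ (fun _ : M => (EuclideanSpace.single j (1 : ℝ) : 𝔼)) :=
      contMDiff_const
    exact (e1.smul ((hvm j).sub (hvp j))).smul e2
  have hΨs : ContMDiff (𝓡 n) 𝓘(ℝ, W) ∞ (fun x => F p + fl.B (A x)) := by
    have e1 : ContMDiff (𝓡 n) 𝓘(ℝ, W) ∞ (fun x => fl.B (A x)) := fl.B.contMDiff.comp hAs
    have e2 : ContMDiff (𝓡 n) 𝓘(ℝ, W) ∞ (fun _ : M => F p) := contMDiff_const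
    exact e2.add e1
  refine ⟨fun x => F p + fl.B (A x), hΨs, fun x hx => ?_⟩
  have hx15 : dist x p < 15 * δ := by linarith
  have hX : ‖fl.f x - fl.f p‖ ≤ 2 * δ + σ ^ 2 * δ := by
    have := (abs_le.1 (fl.iso x p hx15 hp0)).2
    linarith
  have hqp1 : ∀ j, ‖(fl.f (qp j) - fl.f p) - δ • (EuclideanSpace.single j (1 : ℝ) : 𝔼)‖ ≤
    σ ^ 2 * δ := hqp'
  have hqm1 : ∀ j, ‖(fl.f (qm j) - fl.f p) + δ • (EuclideanSpace.single j (1 : ℝ) : 𝔼)‖ ≤
    σ ^ 2 * δ := fun j => by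
      have := hqm' j
      rwa [neg_smul, sub_neg_eq_add] at this
  -- squares
  have hsq : ∀ q, dist q p < 3 * δ → ∀ v : M → ℝ, |v x - dist q x ^ 2 / 2| ≤ ε →
      |v x - ‖(fl.f q - fl.f p) - (fl.f x - fl.f p)‖ ^ 2 / 2| ≤ 9 * (σ ^ 2 * δ) * δ := by
    intro q hq v hv
    have h1 : dist q x ≤ 5 * δ := by
      have := dist_triangle_right q x p; linarith
    rw [sub_sub_sub_cancel_right]
    have h2 := sq_near (L := 5 * δ) dist_nonneg h1 (norm_nonneg _) (by linarith)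
      (fl.iso q x (by linarith) hx15)
    rw [abs_le] at h2 hv ⊢
    have h3 : ε ≤ σ ^ 2 * δ * δ := by
      have : σ ^ 2 * δ * δ = σ ^ 2 * δ ^ 2 := by ring
      rw [this]; exact hε1
    obtain ⟨a1, a2⟩ := h2
    obtain ⟨b1, b2⟩ := hv
    have h5 : 3 * (σ ^ 2 * δ * (5 * δ)) = 15 * (σ ^ 2 * δ * δ) := by ring
    have h6 : 9 * (σ ^ 2 * δ) * δ = 9 * (σ ^ 2 * δ * δ) := by ring
    have h7 : 0 ≤ σ ^ 2 * δ * δ := by positivity
    rw [h5] at a1 a2
    rw [h6]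
    constructor <;> linarith
  -- `C⁰` estimate for `A`
  have hA0 : ‖A x - (fl.f x - fl.f p)‖ ≤ n * (14 * (σ ^ 2 * δ)) := by
    refine sum_close (fun j => (2 * δ)⁻¹ • (vm j x - vp j x)) _ fun j => ?_
    have h1 := coord_est (E := EuclideanSpace.single j (1 : ℝ)) (X := fl.f x - fl.f p)
      (Qm := fl.f (qm j) - fl.f p) (Qp := fl.f (qp j) - fl.f p) (τ := σ ^ 2 * δ)
      (sm := vm j x) (sp := vp j x) hδ hsδ0.le hsδ (nE j) hX (hqm1 j) (hqp1 j)
      (hsq (qm j) (hqm j) (vm j) (Sm' j x).near) (hsq (qp j) (hqp j) (vp j) (Sp j x).near)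
    rw [smul_eq_mul, inv_mul_eq_div]
    exact h1
  have hK : (n : ℝ) * (14 * (σ ^ 2 * δ)) ≤ 3000 * n * (σ * δ) := by
    have hn : (0 : ℝ) ≤ n := Nat.cast_nonneg n
    have h0 : 0 ≤ σ * δ := by positivity
    have h1 : (14 : ℝ) * (σ ^ 2 * δ) ≤ 3000 * (σ * δ) := by linarith
    calc (n : ℝ) * (14 * (σ ^ 2 * δ)) ≤ n * (3000 * (σ * δ)) := mul_le_mul_of_nonneg_left h1 hn
      _ = 3000 * n * (σ * δ) := by ring
  have hBk : ∀ c : 𝔼, ‖c‖ ≤ 3000 * n * (σ * δ) → ∀ e : W, ‖e‖ ≤ σ ^ 2 * δ →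
      ‖fl.B c - e‖ ≤ (3000 * n * C₀ + 1) * (σ * δ) := by
    intro c hc e he
    calc ‖fl.B c - e‖ ≤ ‖fl.B c‖ + ‖e‖ := norm_sub_le _ _
      _ ≤ C₀ * (3000 * n * (σ * δ)) + σ * δ :=
          add_le_add ((fl.hi c).trans (mul_le_mul_of_nonneg_left hc hC)) (he.trans hσδ)
      _ = (3000 * n * C₀ + 1) * (σ * δ) := by ring
  constructor
  · have h1 : F p + fl.B (A x) - F x = fl.B (A x - (fl.f x - fl.f p)) -
        (F x - F p - fl.B (fl.f x - fl.f p)) := by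
      rw [map_sub]; abel
    rw [h1]
    exact hBk _ (hA0.trans hK) _ (fl.lin x p hx15 hp0)
  · intro z hz w hw hwz
    have hzp : dist z p < 4 * δ := by
      have := dist_triangle z x p; linarith
    have hz15 : dist z p < 15 * δ := by linarith
    have hZ : ‖fl.f z - fl.f x‖ ≤ 3 * δ := by
      have := (abs_le.1 (fl.iso z x hz15 hx15)).2
      linarith
    have hDm : ∀ j, DA n (vm j) x := fun j => DA.of_contMDiff (by simp) (hvm j) x
    have hDp : ∀ j, DA n (vp j) x := fun j => DA.of_contMDiff (by simp) (hvp j) x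
    have hDA : DA n A x := DA.of_contMDiff (by simp) hAs x
    have hder : ∀ w : 𝔼, dd n (fun x => F p + fl.B (A x)) x w =
        fl.B (∑ j, ((dd n (vm j) x w - dd n (vp j) x w) / (2 * δ)) •
          (EuclideanSpace.single j (1 : ℝ) : 𝔼)) := by
      intro w
      have hDB : DA n (fun x => fl.B (A x)) x := hDA.comp fl.B.differentiableAt
      rw [dd_add (f := fun _ => F p) (DA.const _ x) hDB, dd_const, zero_add, dd_clm fl.B hDA]
      congr 1
      have hD1 : ∀ j, DA n (fun y => vm j y - vp j y) x := fun j => (hDm j).sub (hDp j)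
      have hD2 : ∀ j, DA n (fun y => (2 * δ)⁻¹ • (vm j y - vp j y)) x := fun j =>
        (DA.const _ x).smul (hD1 j)
      rw [hA, dd_sum (f := fun j y => ((2 * δ)⁻¹ • (vm j y - vp j y)) •
        (EuclideanSpace.single j (1 : ℝ) : 𝔼)) (fun j _ => (hD2 j).smul (DA.const _ x)),
        _root_.sum_apply]
      refine Finset.sum_congr rfl fun j _ => ?_
      rw [dd_smul_const _ (hD2 j), dd_const_smul _ (hD1 j), dd_sub (hDm j) (hDp j)]
      rw [smul_eq_mul, inv_mul_eq_div]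
      rfl
    have hcov := fun (q : M) (hq : dist q p < 3 * δ) (v : M → ℝ) (hv : Sm G q ε (15 * δ) v x) =>
      dd_near hH fl hδ hσ0 hσ1 hx hq hz hw hwz hε0.le hε1 hε2 le_rfl hv
    have hA1 : ‖∑ j, ((dd n (vm j) x w - dd n (vp j) x w) / (2 * δ)) •
          (EuclideanSpace.single j (1 : ℝ) : 𝔼) - (fl.f z - fl.f x)‖ ≤
        n * (2700 * σ * δ ^ 2 / δ + 3 * (σ ^ 2 * δ)) := by
      refine sum_close (fun j => (dd n (vm j) x w - dd n (vp j) x w) / (2 * δ)) _ fun j => ?_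
      refine coord_est' (E := EuclideanSpace.single j (1 : ℝ)) (X := fl.f x - fl.f p)
        (Qm := fl.f (qm j) - fl.f p) (Qp := fl.f (qp j) - fl.f p) (τ := σ ^ 2 * δ)
        (K := 2700 * σ * δ ^ 2) (Z := fl.f z - fl.f x)
        (dm := dd n (vm j) x w) (dp := dd n (vp j) x w) hδ hsδ0.le hZ (hqm1 j) (hqp1 j) ?_ ?_
      · rw [sub_sub_sub_cancel_right]
        exact hcov (qm j) (hqm j) (vm j) (Sm' j x)
      · rw [sub_sub_sub_cancel_right]
        exact hcov (qp j) (hqp j) (vp j) (Sp j x)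
    have hK1 : (n : ℝ) * (2700 * σ * δ ^ 2 / δ + 3 * (σ ^ 2 * δ)) ≤ 3000 * n * (σ * δ) := by
      have hn : (0 : ℝ) ≤ n := Nat.cast_nonneg n
      have h0 : 0 ≤ σ * δ := by positivity
      have h2 : 2700 * σ * δ ^ 2 / δ = 2700 * (σ * δ) := by field_simp
      have h1 : 2700 * σ * δ ^ 2 / δ + 3 * (σ ^ 2 * δ) ≤ 3000 * (σ * δ) := by
        rw [h2]; linarith
      calc (n : ℝ) * (2700 * σ * δ ^ 2 / δ + 3 * (σ ^ 2 * δ)) ≤ n * (3000 * (σ * δ)) :=
            mul_le_mul_of_nonneg_left h1 hn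
        _ = 3000 * n * (σ * δ) := by ring
    have h1 : dd n (fun x => F p + fl.B (A x)) x w - (F z - F x) =
        fl.B (∑ j, ((dd n (vm j) x w - dd n (vp j) x w) / (2 * δ)) •
          (EuclideanSpace.single j (1 : ℝ) : 𝔼) - (fl.f z - fl.f x)) -
        (F z - F x - fl.B (fl.f z - fl.f x)) := by
      have h2 := hder w
      rw [map_sub]
      refine (congrArg (fun c => c - (F z - F x)) h2).trans ?_
      abel
    refine (congrArg norm h1).le.trans ?_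
    exact hBk _ (hA1.trans hK1) _ (fl.lin z x hz15 hx15)

end

end Crest.Agent.R249.D4_789
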