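import Crest.Agent.R249.D4Pj_789
import Crest.Agent.R249.D4Hg_789

/-!
R249, part D4 (helper789), file 11: **smooth local diffeomorphisms** onto a compact smooth limit
space, for closed manifolds satisfying the hinge inequality.
-/

set_option autoImplicit false
set_option linter.unusedSectionVars false

open MeasureTheory Set Filter Metric Bundle
open scoped ContDiff ENNReal NNReal Topology Manifold RealInnerProductSpace
open Crest.GeometryTopology.MTW
open Crest.Agent.R226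

namespace Crest.Agent.R249.D4_789

noncomputable section

universe u

/-- choice of the parameters -/
theorem exists_params {n : ℕ} {Λ c₀ C₀ : ℝ} (hΛ : 0 ≤ Λ) (hc : 0 < c₀) (hC : 0 ≤ C₀) :
    ∃ κ σ : ℝ, 0 < κ ∧ 0 < σ ∧ σ ^ 2 ≤ 1 / 9 ∧
      n * (Λ * (K4 n C₀ * σ) + 2 * κ * (3 * C₀ + 1) + σ ^ 2 * (1 + C₀)) < c₀ := by
  have hK : 0 ≤ K4 n C₀ := by
    have := Dchi_nonneg
    unfold K4
    positivity
  set κ : ℝ := c₀ / (8 * (n + 1) * (3 * C₀ + 1)) with hκ
  set A : ℝ := Λ * K4 n C₀ + (1 + C₀) with hA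
  have hA0 : 0 < A := by positivity
  set σ : ℝ := min (1 / 3) (c₀ / (4 * (n + 1) * A)) with hσ
  have hn : (0 : ℝ) ≤ n := Nat.cast_nonneg n
  have hκ0 : 0 < κ := by positivity
  have hσ0 : 0 < σ := by positivity
  have hσ1 : σ ≤ 1 / 3 := min_le_left _ _
  refine ⟨κ, σ, hκ0, hσ0, by nlinarith, ?_⟩
  have h1 : Λ * (K4 n C₀ * σ) + σ ^ 2 * (1 + C₀) ≤ σ * A := by
    have : σ ^ 2 * (1 + C₀) ≤ σ * (1 + C₀) :=
      mul_le_mul_of_nonneg_right (by nlinarith) (by positivity)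
    rw [hA]
    linarith
  have h2 : σ * A ≤ c₀ / (4 * (n + 1)) := by
    have h3 : σ ≤ c₀ / (4 * (n + 1) * A) := min_le_right _ _
    calc σ * A ≤ c₀ / (4 * (n + 1) * A) * A := mul_le_mul_of_nonneg_right h3 hA0.le
      _ = c₀ / (4 * (n + 1)) := by field_simp
  have h3 : 2 * κ * (3 * C₀ + 1) = c₀ / (4 * (n + 1)) := by
    rw [hκ]; field_simp; ring
  have h4 : Λ * (K4 n C₀ * σ) + 2 * κ * (3 * C₀ + 1) + σ ^ 2 * (1 + C₀) ≤ c₀ / (2 * (n + 1)) := by
    have : c₀ / (2 * (n + 1)) = c₀ / (4 * (n + 1)) + c₀ / (4 * ((n : ℝ) + 1)) := by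
      field_simp; ring
    rw [this]
    linarith
  calc n * (Λ * (K4 n C₀ * σ) + 2 * κ * (3 * C₀ + 1) + σ ^ 2 * (1 + C₀))
      ≤ n * (c₀ / (2 * (n + 1))) := mul_le_mul_of_nonneg_left h4 hn
    _ < c₀ := by
        rw [mul_div_assoc', div_lt_iff₀ (by positivity)]
        nlinarith

/-- **Main theorem of D4.** -/
theorem Proj.exists_local_diffeo {n : ℕ} {X : Type*} [MetricSpace X] [CompactSpace X] {ι : Type*}
    {e : ι → OpenPartialHomeomorph X (EuclideanSpace ℝ (Fin n))} (P : Proj n X e) :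
    ∃ ε : ℝ, 0 < ε ∧ ∀ (M : Type u) [MetricSpace M] [ChartedSpace (EuclideanSpace ℝ (Fin n)) M]
      [IsManifold (𝓡 n) ∞ M] [RiemannianBundle (fun p : M => TangentSpace (𝓡 n) p)]
      [IsContMDiffRiemannianBundle (𝓡 n) ∞ (EuclideanSpace ℝ (Fin n))
        (fun p : M => TangentSpace (𝓡 n) p)]
      [IsRiemannianManifold (𝓡 n) M] [CompactSpace M] (G : GeoData n M), Hinge G →
      ∀ g : M → X, (∀ x y, |dist (g x) (g y) - dist x y| ≤ ε) → (∀ z, ∃ x, dist (g x) z ≤ ε) →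
      ∃ Φ : M → X, Continuous Φ ∧ ∀ a,
        ContMDiffOn (𝓡 n) (𝓡 n) ∞ (fun x => e a (Φ x)) (Φ ⁻¹' (e a).source) ∧
        ∀ x, Φ x ∈ (e a).source → Function.Injective (mfderiv (𝓡 n) (𝓡 n) (fun x => e a (Φ x)) x) := by
  obtain ⟨Λ, hΛ, hunif⟩ := P.unif
  obtain ⟨κ, σ, hκ, hσ0, hσ1, hpar⟩ := exists_params (n := n) hΛ P.c₀_pos P.C₀_nonneg
  obtain ⟨ρ, hρ, hρ1, hρ2⟩ := hunif κ hκ
  obtain ⟨d₀, hd₀, hflat⟩ := P.flat (σ ^ 2 / 2) (by positivity)
  have hC0 := P.C₀_nonneg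
  have hK : 0 ≤ K4 n P.C₀ := by
    have := Dchi_nonneg
    unfold K4
    positivity
  set δ : ℝ := min d₀ (min (ρ / (K4 n P.C₀ * σ + 1)) (ρ / (3 * P.C₀ + 1))) with hδ
  have hδ0 : 0 < δ := by positivity
  have hδd : δ ≤ d₀ := min_le_left _ _
  have hδ1 : K4 n P.C₀ * (σ * δ) ≤ ρ := by
    have h1 : δ ≤ ρ / (K4 n P.C₀ * σ + 1) := (min_le_right _ _).trans (min_le_left _ _)
    rw [le_div_iff₀ (by positivity)] at h1
    nlinarith
  have hδ2 : (3 * P.C₀ + 1) * δ ≤ ρ := by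
    have h1 : δ ≤ ρ / (3 * P.C₀ + 1) := (min_le_right _ _).trans (min_le_right _ _)
    rw [le_div_iff₀ (by positivity)] at h1
    linarith
  have hs0 : 0 ≤ σ ^ 2 := sq_nonneg σ
  have hsδ : σ ^ 2 * δ ≤ δ / 9 := by nlinarith
  have hsδ0 : 0 ≤ σ ^ 2 * δ := by positivity
  refine ⟨σ ^ 2 * δ / 4, by positivity, ?_⟩
  intro M _ _ _ _ _ _ _ G hH g hg hg'
  -- flatness of `M`
  have hfl : ∀ p : M, Nonempty (FlatAt n δ σ P.c₀ P.C₀ (fun x => P.i (g x)) p) := fun p => by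
    obtain ⟨f, B, h1, h2, h3, h4⟩ := hflat δ hδ0 hδd (g p)
    exact flatAt_of_approx hδ0 hσ1 rfl rfl hg hg' p h1 h2 h3 h4
  have fl := fun p => (hfl p).some
  obtain ⟨Ψ, hΨs, hΨ⟩ := exists_Psi hH fl hδ0 hσ0 hσ1 P.C₀_nonneg
  have hΨO : ∀ x, Ψ x ∈ P.O := fun x => (hρ1 (g x) (Ψ x) ((hΨ x).1.trans hδ1)).1
  have hΨc : Continuous Ψ := hΨs.continuous
  refine ⟨fun x => P.pr (Ψ x), ?_, fun a => ⟨?_, fun x hx => ?_⟩⟩
  · exact P.cont_pr.comp_continuous hΨc hΨO
  · have h1 : ContMDiffOn 𝓘(ℝ, EuclideanSpace ℝ (Fin P.N)) (𝓡 n) ∞ (fun y => e a (P.pr y))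
        (P.O ∩ P.pr ⁻¹' (e a).source) := (P.smooth_pr a).contMDiffOn
    exact h1.comp hΨs.contMDiffOn fun x hx => ⟨hΨO x, hx⟩
  · -- injectivity of the differential
    have hmem : Ψ x ∈ P.O ∩ P.pr ⁻¹' (e a).source := ⟨hΨO x, hx⟩
    have hsΦ : ContMDiffAt (𝓡 n) (𝓡 n) ∞ (fun x => e a (P.pr (Ψ x))) x := by
      have h1 : ContMDiffAt 𝓘(ℝ, EuclideanSpace ℝ (Fin P.N)) (𝓡 n) ∞ (fun y => e a (P.pr y))
          (Ψ x) := (((P.smooth_pr a) _ hmem).contDiffAt ((P.isOpen_pre a).mem_nhds hmem)).contMDiffAt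
      exact h1.comp x (hΨs x)
    have hDΦ : DA n (fun x => e a (P.pr (Ψ x))) x := DA.of_contMDiffAt (by simp) hsΦ
    have hDΨ : DA n Ψ x := DA.of_contMDiff (by simp) hΨs x
    have hRd : DifferentiableAt ℝ P.R (Ψ x) :=
      (P.smooth_R.contDiffAt (P.isOpen_O.mem_nhds (hΨO x))).differentiableAt (by simp)
    -- the linear map
    set L : EuclideanSpace ℝ (Fin n) →L[ℝ] EuclideanSpace ℝ (Fin P.N) :=
      (fderiv ℝ P.R (Ψ x)).comp (dd n Ψ x) with hL
    -- kernel relation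
    have hker : ∀ v : EuclideanSpace ℝ (Fin n), dd n (fun x => e a (P.pr (Ψ x))) x v = 0 →
        L v = 0 := by
      intro v hv
      have hid : DifferentiableAt ℝ (fun y => P.i ((e a).symm y)) (e a (P.pr (Ψ x))) :=
        ((P.smooth_i a).contDiffAt ((e a).open_target.mem_nhds
          ((e a).map_source hx))).differentiableAt (by simp)
      have h1 := dd_comp (g := fun y => P.i ((e a).symm y)) hDΦ hid v
      rw [hv, map_zero] at h1
      have h2 : (fun y => P.i ((e a).symm (e a (P.pr (Ψ y))))) =ᶠ[𝓝 x] fun y => P.R (Ψ y) := by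
        have : ∀ᶠ y in 𝓝 x, Ψ y ∈ P.O ∩ P.pr ⁻¹' (e a).source :=
          hΨc.continuousAt.eventually ((P.isOpen_pre a).mem_nhds hmem)
        filter_upwards [this] with y hy
        rw [(e a).left_inv hy.2, Proj.R]
      rw [dd_congr h2, dd_comp (g := P.R) hDΨ hRd] at h1
      exact h1
    have hLinj : ∀ v, L v = 0 → v = 0 := by
      set F : M → EuclideanSpace ℝ (Fin P.N) := fun x => P.i (g x) with hF
      set f := (fl x).f with hf
      set B := (fl x).B with hB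
      have hxx : dist x x < 15 * δ := by rw [dist_self]; positivity
      -- frame
      have hz : ∀ j : Fin n, ∃ z, dist z x ≤ 2 * δ ∧
          ‖f z - (f x + δ • EuclideanSpace.single j (1 : ℝ))‖ ≤ σ ^ 2 * δ := by
        intro j
        have hn1 : ‖(f x + δ • EuclideanSpace.single j (1 : ℝ)) - f x‖ = δ := by
          rw [add_sub_cancel_left, norm_smul, Real.norm_of_nonneg hδ0.le]
          simp
        obtain ⟨z, hz1, hz2⟩ := (fl x).dense (f x + δ • EuclideanSpace.single j (1 : ℝ)) (by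
          rw [← hf, hn1]; linarith)
        refine ⟨z, ?_, hz2⟩
        have h1 := (abs_le.1 ((fl x).iso z x hz1 hxx)).1
        have h2 : ‖f z - f x‖ ≤ σ ^ 2 * δ + δ := by
          have h3 : f z - f x = (f z - (f x + δ • EuclideanSpace.single j (1 : ℝ))) +
              ((f x + δ • EuclideanSpace.single j (1 : ℝ)) - f x) := by abel
          rw [h3]
          exact (norm_add_le _ _).trans (add_le_add hz2 hn1.le)
        linarith
      choose z hz1 hz2 using hz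
      choose w hw hwz using fun j => exists_min (G := G) x (z j)
      refine injective_of_frame L B (fun j => (w j : EuclideanSpace ℝ (Fin n))) hδ0 (fl x).lo
        hpar fun j => ?_
      have hzx15 : dist (z j) x < 15 * δ := by linarith [hz1 j]
      have hlin := (fl x).lin (z j) x hzx15 hxx
      have hfz : ‖f (z j) - f x‖ ≤ 2 * δ + σ ^ 2 * δ := by
        have := (abs_le.1 ((fl x).iso (z j) x hzx15 hxx)).2
        linarith [hz1 j]
      -- size of the displacement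
      set E : EuclideanSpace ℝ (Fin P.N) := F (z j) - F x with hE
      have hEn : ‖E‖ ≤ (3 * P.C₀ + 1) * δ := by
        have h1 : ‖B (f (z j) - f x)‖ ≤ P.C₀ * (2 * δ + σ ^ 2 * δ) :=
          ((fl x).hi _).trans (mul_le_mul_of_nonneg_left hfz hC0)
        have h2 : E = (E - B (f (z j) - f x)) + B (f (z j) - f x) := by abel
        rw [h2]
        refine (norm_add_le _ _).trans ((add_le_add hlin h1).trans ?_)
        nlinarith
      have hdΨ : ‖dd n Ψ x (w j) - E‖ ≤ K4 n P.C₀ * (σ * δ) :=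
        (hΨ x).2 (z j) (hz1 j) (w j) (hw j) (hwz j)
      obtain ⟨-, hDd, hDb⟩ := hρ1 (g x) (Ψ x) ((hΨ x).1.trans hδ1)
      have hmv := hρ2 (g x) (g (z j)) (hEn.trans hδ2)
      have hEκ : κ * ‖E‖ ≤ κ * (3 * P.C₀ + 1) * δ := by
        have := mul_le_mul_of_nonneg_left hEn hκ.le
        linarith
      -- the three errors
      have a1 : ‖fderiv ℝ P.R (Ψ x) (dd n Ψ x (w j) - E)‖ ≤ Λ * (K4 n P.C₀ * σ) * δ := by
        calc _ ≤ ‖fderiv ℝ P.R (Ψ x)‖ * ‖dd n Ψ x (w j) - E‖ := ContinuousLinearMap.le_opNorm _ _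
          _ ≤ Λ * (K4 n P.C₀ * (σ * δ)) := mul_le_mul hDb hdΨ (norm_nonneg _) hΛ
          _ = _ := by ring
      have a2 : ‖(fderiv ℝ P.R (Ψ x) - fderiv ℝ P.R (P.i (g x))) E‖ ≤
          κ * (3 * P.C₀ + 1) * δ := by
        calc _ ≤ ‖fderiv ℝ P.R (Ψ x) - fderiv ℝ P.R (P.i (g x))‖ * ‖E‖ :=
              ContinuousLinearMap.le_opNorm _ _
          _ ≤ κ * ‖E‖ := mul_le_mul_of_nonneg_right hDd (norm_nonneg _)
          _ ≤ _ := hEκ
      have a3 : ‖fderiv ℝ P.R (P.i (g x)) E - E‖ ≤ κ * (3 * P.C₀ + 1) * δ := by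
        rw [norm_sub_rev]
        exact hmv.trans hEκ
      have a4 : ‖E - B (f (z j) - f x)‖ ≤ σ ^ 2 * δ := hlin
      have a5 : ‖B (f (z j) - f x) - δ • B (EuclideanSpace.single j (1 : ℝ))‖ ≤
          P.C₀ * (σ ^ 2 * δ) := by
        have h1 : B (f (z j) - f x) - δ • B (EuclideanSpace.single j (1 : ℝ)) =
            B (f (z j) - (f x + δ • EuclideanSpace.single j (1 : ℝ))) := by
          rw [← map_smul, ← map_sub]
          congr 1
          abel
        rw [h1]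
        exact ((fl x).hi _).trans (mul_le_mul_of_nonneg_left (hz2 j) hC0)
      have hsum : L (w j) - δ • B (EuclideanSpace.single j (1 : ℝ)) =
          fderiv ℝ P.R (Ψ x) (dd n Ψ x (w j) - E) +
          (fderiv ℝ P.R (Ψ x) - fderiv ℝ P.R (P.i (g x))) E +
          (fderiv ℝ P.R (P.i (g x)) E - E) + (E - B (f (z j) - f x)) +
          (B (f (z j) - f x) - δ • B (EuclideanSpace.single j (1 : ℝ))) := by
        have h1 : L (w j) = fderiv ℝ P.R (Ψ x) (dd n Ψ x (w j)) := rfl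
        rw [h1, map_sub, _root_.sub_apply]
        abel
      refine (congrArg norm hsum).le.trans ?_
      refine (norm_add_le _ _).trans ((add_le_add ((norm_add_le _ _).trans
        (add_le_add ((norm_add₃_le).trans (add_le_add (add_le_add a1 a2) a3)) a4)) a5).trans ?_)
      linarith
    have hmd : mfderiv (𝓡 n) (𝓡 n) (fun x => e a (P.pr (Ψ x))) x =
        dd n (fun x => e a (P.pr (Ψ x))) x := mfderiv_eq_dd (hsΦ.mdifferentiableAt (by simp))
    intro v v' hvv'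
    have h1 : dd n (fun x => e a (P.pr (Ψ x))) x v = dd n (fun x => e a (P.pr (Ψ x))) x v' := by
      have h2 : ∀ u : EuclideanSpace ℝ (Fin n),
          mfderiv (𝓡 n) (𝓡 n) (fun x => e a (P.pr (Ψ x))) x u =
          dd n (fun x => e a (P.pr (Ψ x))) x u := fun u => by rw [hmd]; rfl
      exact (h2 v).symm.trans (hvv'.trans (h2 v'))
    have h4 : ∀ b c : EuclideanSpace ℝ (Fin n), dd n (fun x => e a (P.pr (Ψ x))) x b =
        dd n (fun x => e a (P.pr (Ψ x))) x c → b = c := fun b c h => by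
      have h3 : dd n (fun x => e a (P.pr (Ψ x))) x (b - c) = 0 := by
        rw [map_sub]
        exact sub_eq_zero.2 h
      exact sub_eq_zero.1 (hLinj _ (hker _ h3))
    exact h4 v v' h1

end

end Crest.Agent.R249.D4_789
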