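import Crest.Agent.R249.D4Ps_789

/-!
R249, part D4 (helper789), file 10: the abstract projection data of a compact smooth limit space
(`Proj`), uniform estimates, and the smooth local diffeomorphism `M → X` for every closed `M`
with the hinge inequality which is Gromov-Hausdorff close to `X`.
-/

set_option autoImplicit false
set_option linter.unusedSectionVars false

open MeasureTheory Set Filter Metric Bundle
open scoped ContDiff ENNReal NNReal Topology Manifold RealInnerProductSpace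
open Crest.GeometryTopology.MTW
open Crest.Agent.R226

namespace Crest.Agent.R249.D4_789

noncomputable section

/-- An embedding `i` of the (compact) space `X` with smooth charts `e a` into a Euclidean space,
with a smooth retraction `pr` of a neighbourhood `O` of the image, and flatness of `(X, i)` at all
small scales. -/
structure Proj (n : ℕ) (X : Type*) [MetricSpace X] {ι : Type*}
    (e : ι → OpenPartialHomeomorph X (EuclideanSpace ℝ (Fin n))) where
  /-- dimension of the ambient space -/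
  N : ℕ
  /-- the embedding -/
  i : X → EuclideanSpace ℝ (Fin N)
  cont_i : Continuous i
  smooth_i : ∀ a, ContDiffOn ℝ ∞ (fun y => i ((e a).symm y)) (e a).target
  cover : ∀ x, ∃ a, x ∈ (e a).source
  /-- neighbourhood of the image -/
  O : Set (EuclideanSpace ℝ (Fin N))
  isOpen_O : IsOpen O
  mem_O : ∀ x, i x ∈ O
  /-- the retraction -/
  pr : EuclideanSpace ℝ (Fin N) → X
  cont_pr : ContinuousOn pr O
  pr_i : ∀ x, pr (i x) = x
  smooth_pr : ∀ a, ContDiffOn ℝ ∞ (fun y => e a (pr y)) (O ∩ pr ⁻¹' (e a).source)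
  /-- lower constant -/
  c₀ : ℝ
  /-- upper constant -/
  C₀ : ℝ
  c₀_pos : 0 < c₀
  C₀_nonneg : 0 ≤ C₀
  flat : ∀ η : ℝ, 0 < η → ∃ d₀ : ℝ, 0 < d₀ ∧ ∀ d : ℝ, 0 < d → d ≤ d₀ → ∀ x₀ : X,
    ∃ (f : X → EuclideanSpace ℝ (Fin n))
      (B : EuclideanSpace ℝ (Fin n) →L[ℝ] EuclideanSpace ℝ (Fin N)),
      (∀ c, c₀ * ‖c‖ ≤ ‖B c‖) ∧ (∀ c, ‖B c‖ ≤ C₀ * ‖c‖) ∧
      (∀ x y, dist x x₀ < 20 * d → dist y x₀ < 20 * d →
        |‖f x - f y‖ - dist x y| ≤ η * d ∧ ‖i x - i y - B (f x - f y)‖ ≤ η * d) ∧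
      ∀ c, ‖c - f x₀‖ ≤ 10 * d → ∃ y, dist y x₀ < 20 * d ∧ f y = c

namespace Proj

variable {n : ℕ} {X : Type*} [MetricSpace X] {ι : Type*}
  {e : ι → OpenPartialHomeomorph X (EuclideanSpace ℝ (Fin n))} (P : Proj n X e)

/-- the retraction as a map of the ambient space -/
def R (y : EuclideanSpace ℝ (Fin P.N)) : EuclideanSpace ℝ (Fin P.N) := P.i (P.pr y)

theorem R_i (x : X) : P.R (P.i x) = P.i x := by rw [R, P.pr_i]

theorem isOpen_pre (a : ι) : IsOpen (P.O ∩ P.pr ⁻¹' (e a).source) :=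
  P.cont_pr.isOpen_inter_preimage P.isOpen_O (e a).open_source

theorem smooth_R : ContDiffOn ℝ ∞ P.R P.O := by
  intro y hy
  obtain ⟨a, ha⟩ := P.cover (P.pr y)
  have hmem : y ∈ P.O ∩ P.pr ⁻¹' (e a).source := ⟨hy, ha⟩
  have h1 : ContDiffOn ℝ ∞ (fun z => P.i ((e a).symm (e a (P.pr z)))) (P.O ∩ P.pr ⁻¹' (e a).source) :=
    (P.smooth_i a).comp (P.smooth_pr a) fun z hz => (e a).map_source hz.2
  have h2 : ContDiffAt ℝ ∞ (fun z => P.i ((e a).symm (e a (P.pr z)))) y :=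
    (h1 y hmem).contDiffAt ((P.isOpen_pre a).mem_nhds hmem)
  refine (h2.congr_of_eventuallyEq ?_).contDiffWithinAt
  filter_upwards [(P.isOpen_pre a).mem_nhds hmem] with z hz
  rw [(e a).left_inv hz.2, R]

/-- uniform estimates near the image -/
theorem unif [CompactSpace X] : ∃ Λ : ℝ, 0 ≤ Λ ∧ ∀ κ : ℝ, 0 < κ → ∃ ρ : ℝ, 0 < ρ ∧
    (∀ x y, ‖y - P.i x‖ ≤ ρ → y ∈ P.O ∧ ‖fderiv ℝ P.R y - fderiv ℝ P.R (P.i x)‖ ≤ κ ∧
      ‖fderiv ℝ P.R y‖ ≤ Λ) ∧
    ∀ x x', ‖P.i x' - P.i x‖ ≤ ρ →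
      ‖P.i x' - P.i x - fderiv ℝ P.R (P.i x) (P.i x' - P.i x)‖ ≤ κ * ‖P.i x' - P.i x‖ := by
  have hK : IsCompact (range P.i) := isCompact_range P.cont_i
  have hKO : range P.i ⊆ P.O := by rintro _ ⟨x, rfl⟩; exact P.mem_O x
  obtain ⟨ρ₀, hρ₀, hρO⟩ := hK.exists_cthickening_subset_open P.isOpen_O hKO
  have hK' : IsCompact (cthickening ρ₀ (range P.i)) := hK.cthickening
  have hD : ContinuousOn (fderiv ℝ P.R) P.O :=
    P.smooth_R.continuousOn_fderiv_of_isOpen P.isOpen_O (by simp)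
  have hDK := hD.mono hρO
  obtain ⟨Λ, hΛ⟩ := hK'.exists_bound_of_continuousOn hDK
  have huc := hK'.uniformContinuousOn_of_continuous hDK
  rw [Metric.uniformContinuousOn_iff] at huc
  refine ⟨max Λ 0, le_max_right _ _, fun κ hκ => ?_⟩
  obtain ⟨ρ₁, hρ₁, hunif⟩ := huc κ hκ
  set ρ : ℝ := min ρ₀ (ρ₁ / 2) with hρ
  have hρ0 : 0 < ρ := by positivity
  have hmem : ∀ x y, ‖y - P.i x‖ ≤ ρ → y ∈ cthickening ρ₀ (range P.i) := fun x y h =>
    mem_cthickening_of_dist_le y (P.i x) _ _ (mem_range_self x) (by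
      rw [dist_eq_norm]; exact h.trans (min_le_left _ _))
  have hst : ∀ x y, ‖y - P.i x‖ ≤ ρ → ‖fderiv ℝ P.R y - fderiv ℝ P.R (P.i x)‖ ≤ κ := by
    intro x y h
    have h2 := hunif y (hmem x y h) (P.i x)
      (self_subset_cthickening _ (mem_range_self x)) (by
        rw [dist_eq_norm]
        have : ρ ≤ ρ₁ / 2 := min_le_right _ _
        linarith)
    rw [dist_eq_norm] at h2
    exact h2.le
  refine ⟨ρ, hρ0, fun x y h => ⟨hρO (hmem x y h), hst x y h,
    (hΛ y (hmem x y h)).trans (le_max_left _ _)⟩, fun x x' h => ?_⟩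
  -- mean value inequality on the ball
  have hconv : Convex ℝ (closedBall (P.i x) ρ) := convex_closedBall _ _
  have hdiff : ∀ y ∈ closedBall (P.i x) ρ, DifferentiableAt ℝ P.R y := fun y hy => by
    have hy' : ‖y - P.i x‖ ≤ ρ := by rwa [mem_closedBall, dist_eq_norm] at hy
    exact (P.smooth_R.contDiffAt (P.isOpen_O.mem_nhds (hρO (hmem x y hy')))).differentiableAt
      (by simp)
  have h1 := hconv.norm_image_sub_le_of_norm_hasFDerivWithin_le
    (f := fun y => P.R y - fderiv ℝ P.R (P.i x) y)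
    (f' := fun y => fderiv ℝ P.R y - fderiv ℝ P.R (P.i x)) (C := κ)
    (fun y hy => ((hdiff y hy).hasFDerivAt.sub
      (fderiv ℝ P.R (P.i x)).hasFDerivAt).hasFDerivWithinAt)
    (fun y hy => hst x y (by rwa [mem_closedBall, dist_eq_norm] at hy))
    (x := P.i x) (y := P.i x') (mem_closedBall_self hρ0.le)
    (by rwa [mem_closedBall, dist_eq_norm])
  rw [P.R_i, P.R_i] at h1
  refine le_trans (le_of_eq ?_) h1
  rw [map_sub]
  congr 1
  abel

end Proj

/-- injectivity from an approximate frame -/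
theorem injective_of_frame {n : ℕ} {W : Type*} [NormedAddCommGroup W] [NormedSpace ℝ W]
    (L : EuclideanSpace ℝ (Fin n) →L[ℝ] W) (B : EuclideanSpace ℝ (Fin n) →L[ℝ] W)
    (w : Fin n → EuclideanSpace ℝ (Fin n)) {c₀ κ δ : ℝ} (hδ : 0 < δ)
    (hB : ∀ c, c₀ * ‖c‖ ≤ ‖B c‖) (hκ : n * κ < c₀)
    (hw : ∀ j, ‖L (w j) - δ • B (EuclideanSpace.single j (1 : ℝ))‖ ≤ κ * δ) :
    ∀ v, L v = 0 → v = 0 := by
  set T : EuclideanSpace ℝ (Fin n) →ₗ[ℝ] EuclideanSpace ℝ (Fin n) :=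
    { toFun := fun c => ∑ j, c j • w j
      map_add' := fun c d => by simp [add_smul, Finset.sum_add_distrib]
      map_smul' := fun r c => by simp [mul_smul, Finset.smul_sum] } with hT
  have hTc : ∀ c, T c = ∑ j, c j • w j := fun c => rfl
  have hc1 : ∀ c : EuclideanSpace ℝ (Fin n), c = ∑ j, c j • EuclideanSpace.single j (1 : ℝ) := by
    intro c
    have := (EuclideanSpace.basisFun (Fin n) ℝ).sum_repr c
    simpa using this.symm
  have key : ∀ c : EuclideanSpace ℝ (Fin n), L (T c) = 0 → c = 0 := by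
    intro c hc
    by_contra hne
    have hcn : 0 < ‖c‖ := norm_pos_iff.2 hne
    have h1 : ‖L (T c) - δ • B c‖ ≤ n * (κ * δ * ‖c‖) := by
      have e1 : L (T c) = ∑ j, c j • L (w j) := by rw [hTc, map_sum]; simp
      have e2 : B c = ∑ j, c j • B (EuclideanSpace.single j (1 : ℝ)) := by
        conv_lhs => rw [hc1 c]
        rw [map_sum]; simp
      rw [e1, e2, Finset.smul_sum, ← Finset.sum_sub_distrib]
      calc ‖∑ j, (c j • L (w j) - δ • (c j • B (EuclideanSpace.single j (1 : ℝ))))‖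
          ≤ ∑ j, ‖c j • L (w j) - δ • (c j • B (EuclideanSpace.single j (1 : ℝ)))‖ :=
            norm_sum_le _ _
        _ ≤ ∑ _j : Fin n, κ * δ * ‖c‖ := by
            refine Finset.sum_le_sum fun j _ => ?_
            have e3 : c j • L (w j) - δ • (c j • B (EuclideanSpace.single j (1 : ℝ))) =
                c j • (L (w j) - δ • B (EuclideanSpace.single j (1 : ℝ))) := by
              rw [smul_sub, smul_comm δ]
            rw [e3, norm_smul]
            have e4 : ‖c j‖ ≤ ‖c‖ := PiLp.norm_apply_le c j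
            calc ‖c j‖ * ‖L (w j) - δ • B (EuclideanSpace.single j (1 : ℝ))‖
                ≤ ‖c‖ * (κ * δ) := mul_le_mul e4 (hw j) (norm_nonneg _) (norm_nonneg _)
              _ = κ * δ * ‖c‖ := by ring
        _ = n * (κ * δ * ‖c‖) := by simp
    rw [hc, zero_sub, norm_neg, norm_smul, Real.norm_of_nonneg hδ.le] at h1
    have h2 := mul_le_mul_of_nonneg_left (hB c) hδ.le
    have h3 : δ * (c₀ * ‖c‖) ≤ n * (κ * δ * ‖c‖) := h2.trans h1
    have h4 : c₀ * (δ * ‖c‖) ≤ n * κ * (δ * ‖c‖) := by linarith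
    have h5 : 0 < δ * ‖c‖ := by positivity
    exact absurd (le_of_mul_le_mul_right h4 h5) (not_le.2 hκ)
  have hinj : Function.Injective T := by
    rw [← LinearMap.ker_eq_bot, LinearMap.ker_eq_bot']
    intro c hc
    exact key c (by rw [hc, map_zero])
  have hsurj : Function.Surjective T := LinearMap.injective_iff_surjective.1 hinj
  intro v hv
  obtain ⟨c, rfl⟩ := hsurj v
  rw [key c hv, map_zero]

/-- flatness is inherited through an approximation -/
theorem flatAt_of_approx {n : ℕ} {M X W : Type*} [MetricSpace M] [MetricSpace X]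
    [NormedAddCommGroup W] [NormedSpace ℝ W] {i : X → W} {g : M → X} {δ σ c₀ C₀ ε η : ℝ}
    (hδ : 0 < δ) (hσ1 : σ ^ 2 ≤ 1 / 9) (hη : η = σ ^ 2 / 2) (hε : ε = σ ^ 2 * δ / 4)
    (hg : ∀ x y, |dist (g x) (g y) - dist x y| ≤ ε) (hg' : ∀ z, ∃ x, dist (g x) z ≤ ε) (p : M)
    {f : X → EuclideanSpace ℝ (Fin n)} {B : EuclideanSpace ℝ (Fin n) →L[ℝ] W}
    (hlo : ∀ c, c₀ * ‖c‖ ≤ ‖B c‖) (hhi : ∀ c, ‖B c‖ ≤ C₀ * ‖c‖)
    (hf : ∀ x y, dist x (g p) < 20 * δ → dist y (g p) < 20 * δ →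
      |‖f x - f y‖ - dist x y| ≤ η * δ ∧ ‖i x - i y - B (f x - f y)‖ ≤ η * δ)
    (hd : ∀ c, ‖c - f (g p)‖ ≤ 10 * δ → ∃ y, dist y (g p) < 20 * δ ∧ f y = c) :
    Nonempty (FlatAt n δ σ c₀ C₀ (fun x => i (g x)) p) := by
  have hs0 : 0 ≤ σ ^ 2 := sq_nonneg σ
  have hsδ : σ ^ 2 * δ ≤ δ / 9 := by nlinarith
  have hsδ0 : 0 ≤ σ ^ 2 * δ := by positivity
  have hηδ : η * δ = σ ^ 2 * δ / 2 := by rw [hη]; ring
  have hmem : ∀ x, dist x p < 15 * δ → dist (g x) (g p) < 20 * δ := fun x hx => by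
    have := (abs_le.1 (hg x p)).2
    linarith
  have hpp : dist (g p) (g p) < 20 * δ := by rw [dist_self]; positivity
  refine ⟨⟨fun x => f (g x), B, hlo, hhi, fun x y hx hy => ?_, fun x y hx hy => ?_,
    fun c hc => ?_⟩⟩
  · have h1 := (hf (g x) (g y) (hmem x hx) (hmem y hy)).1
    have h2 := hg x y
    rw [abs_le] at h1 h2 ⊢
    constructor <;> linarith [h1.1, h1.2, h2.1, h2.2]
  · have h1 := (hf (g x) (g y) (hmem x hx) (hmem y hy)).2
    linarith
  · obtain ⟨y, hy, hyc⟩ := hd c (by linarith)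
    obtain ⟨x, hx⟩ := hg' y
    have h3 := (abs_le.1 (hf y (g p) hy hpp).1).1
    rw [hyc] at h3
    have h4 : dist y (g p) ≤ 9 * δ := by linarith
    have h5 : dist (g x) (g p) < 20 * δ := by
      have := dist_triangle (g x) y (g p)
      linarith
    have h6 : dist x p < 15 * δ := by
      have h7 := (abs_le.1 (hg x p)).1
      have h8 := dist_triangle (g x) y (g p)
      linarith
    refine ⟨x, h6, ?_⟩
    have h9 := (abs_le.1 (hf (g x) y h5 hy).1).2
    rw [← hyc]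
    linarith

end

end Crest.Agent.R249.D4_789
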