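import Crest.Agent.R249.D4Lp_789

/-!
R249, part D4 (helper789), file 9: gluing of the local maps with a partition of unity made of
smoothed distance functions; bounded multiplicity (Besicovitch).
-/

set_option autoImplicit false
set_option linter.unusedSectionVars false

open MeasureTheory Set Filter Metric Bundle
open scoped ContDiff ENNReal NNReal Topology Manifold RealInnerProductSpace
open Crest.GeometryTopology.MTW
open Crest.Agent.R226

namespace Crest.Agent.R249.D4_789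

noncomputable section

/-! ### the cut-off on the line -/

/-- `1` on `(-∞, 3/5]`, `0` on `[11/10, ∞)` -/
def chi (s : ℝ) : ℝ := Real.smoothTransition (11 / 5 - 2 * s)

theorem chi_contDiff : ContDiff ℝ ∞ chi :=
  Real.smoothTransition.contDiff.comp (by fun_prop)

theorem chi_one {s : ℝ} (h : s ≤ 3 / 5) : chi s = 1 :=
  Real.smoothTransition.one_of_one_le (by linarith)

theorem chi_zero {s : ℝ} (h : 11 / 10 ≤ s) : chi s = 0 :=
  Real.smoothTransition.zero_of_nonpos (by linarith)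

theorem chi_nonneg (s : ℝ) : 0 ≤ chi s := Real.smoothTransition.nonneg _

theorem chi_le_one (s : ℝ) : chi s ≤ 1 := Real.smoothTransition.le_one _

theorem deriv_chi_zero {s : ℝ} (h : 11 / 10 < s) : deriv chi s = 0 := by
  have : chi =ᶠ[𝓝 s] fun _ => 0 := by
    filter_upwards [lt_mem_nhds h] with t ht
    exact chi_zero ht.le
  rw [this.deriv_eq]
  simp

theorem deriv_chi_zero' {s : ℝ} (h : s < 3 / 5) : deriv chi s = 0 := by
  have : chi =ᶠ[𝓝 s] fun _ => 1 := by
    filter_upwards [gt_mem_nhds h] with t ht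
    exact chi_one ht.le
  rw [this.deriv_eq]
  simp

theorem exists_chi_bound : ∃ D : ℝ, 0 ≤ D ∧ ∀ s, |deriv chi s| ≤ D := by
  have hc : Continuous (deriv chi) := chi_contDiff.continuous_deriv (by simp)
  obtain ⟨D, hD⟩ := (isCompact_Icc (a := (3 / 5 : ℝ)) (b := 11 / 10)).exists_bound_of_continuousOn
    hc.continuousOn
  refine ⟨max D 0, le_max_right _ _, fun s => ?_⟩
  by_cases h1 : s < 3 / 5
  · rw [deriv_chi_zero' h1, abs_zero]; exact le_max_right _ _
  by_cases h2 : 11 / 10 < s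
  · rw [deriv_chi_zero h2, abs_zero]; exact le_max_right _ _
  · have := hD s ⟨not_lt.1 h1, not_lt.1 h2⟩
    rw [Real.norm_eq_abs] at this
    exact this.trans (le_max_left _ _)

/-- bound of the derivative of the cut-off -/
def Dchi : ℝ := exists_chi_bound.choose

theorem Dchi_nonneg : 0 ≤ Dchi := exists_chi_bound.choose_spec.1

theorem abs_deriv_chi (s : ℝ) : |deriv chi s| ≤ Dchi := exists_chi_bound.choose_spec.2 s

/-! ### the packing bound -/

theorem card_near {n : ℕ} {M W : Type*} [MetricSpace M] [NormedAddCommGroup W] [NormedSpace ℝ W]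
    {δ σ c₀ C₀ : ℝ} {F : M → W} {x : M} (fl : FlatAt n δ σ c₀ C₀ F x) (hδ : 0 < δ)
    (hσ1 : σ ^ 2 ≤ 1 / 9) (S : Finset M) (hS : ∀ p ∈ S, ∀ q ∈ S, p ≠ q → δ ≤ dist p q)
    (hx : ∀ p ∈ S, dist p x < 31 / 20 * δ) : S.card ≤ 5 ^ n := by
  classical
  have hs0 : 0 ≤ σ ^ 2 := sq_nonneg σ
  have hsδ : σ ^ 2 * δ ≤ δ / 9 := by nlinarith
  have hxx : dist x x < 15 * δ := by rw [dist_self]; linarith
  set g : M → EuclideanSpace ℝ (Fin n) := fun p => (9 / (8 * δ)) • (fl.f p - fl.f x) with hg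
  have hsep : ∀ p ∈ S, ∀ q ∈ S, p ≠ q → 1 ≤ ‖g p - g q‖ := by
    intro p hp q hq hpq
    have h1 : g p - g q = (9 / (8 * δ)) • (fl.f p - fl.f q) := by
      simp only [hg]
      rw [← smul_sub, sub_sub_sub_cancel_right]
    have hp15 : dist p x < 15 * δ := by linarith [hx p hp]
    have hq15 : dist q x < 15 * δ := by linarith [hx q hq]
    have h2 := (abs_le.1 (fl.iso p q hp15 hq15)).1
    have h3 := hS p hp q hq hpq
    rw [h1, norm_smul, Real.norm_of_nonneg (by positivity), div_mul_eq_mul_div,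
      le_div_iff₀ (by positivity)]
    linarith
  have hinj : Set.InjOn g S := by
    intro p hp q hq hpq
    by_contra hne
    have := hsep p hp q hq hne
    rw [hpq, sub_self, norm_zero] at this
    linarith
  have h1 : (S.image g).card = S.card := Finset.card_image_of_injOn hinj
  rw [← h1]
  have h2 := Besicovitch.card_le_of_separated (S.image g) (fun c hc => by
      obtain ⟨p, hp, rfl⟩ := Finset.mem_image.1 hc
      have hp15 : dist p x < 15 * δ := by linarith [hx p hp]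
      have h2 := (abs_le.1 (fl.iso p x hp15 hxx)).2
      simp only [hg]
      rw [norm_smul, Real.norm_of_nonneg (by positivity), div_mul_eq_mul_div,
        div_le_iff₀ (by positivity)]
      linarith [hx p hp])
    (fun c hc d hd hcd => by
      obtain ⟨p, hp, rfl⟩ := Finset.mem_image.1 hc
      obtain ⟨q, hq, rfl⟩ := Finset.mem_image.1 hd
      exact hsep p hp q hq fun h => hcd (by rw [h]))
  simpa using h2

/-! ### the global map -/

variable {n : ℕ} {M : Type*} [MetricSpace M] [ChartedSpace (EuclideanSpace ℝ (Fin n)) M]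
  [IsManifold (𝓡 n) ∞ M] [RiemannianBundle (fun p : M => TangentSpace (𝓡 n) p)]
variable {W : Type*} [NormedAddCommGroup W] [NormedSpace ℝ W]

local notation "𝔼" => EuclideanSpace ℝ (Fin n)

theorem dd_inv {a : M → ℝ} {x : M} (ha : DA n a x) (h0 : a x ≠ 0) (w : 𝔼) :
    DA n (fun y => (a y)⁻¹) x ∧
      dd n (fun y => (a y)⁻¹) x w = -((a x) ^ 2)⁻¹ * dd n a x w := by
  have hd : DifferentiableAt ℝ (fun t : ℝ => t⁻¹) (a x) := differentiableAt_inv h0
  refine ⟨ha.comp hd, ?_⟩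
  rw [dd_comp (g := fun t : ℝ => t⁻¹) ha hd]
  have := (hasDerivAt_inv h0).hasFDerivAt.fderiv
  rw [this]
  simp [mul_comm]

variable [IsContMDiffRiemannianBundle (𝓡 n) ∞ (EuclideanSpace ℝ (Fin n))
    (fun p : M => TangentSpace (𝓡 n) p)]
  [IsRiemannianManifold (𝓡 n) M] [CompactSpace M]

variable {G : GeoData n M} {δ σ c₀ C₀ : ℝ} {F : M → W}

/-- the final constant -/
def K4 (n : ℕ) (C₀ : ℝ) : ℝ := (1 + 8 * 5 ^ n * Dchi) * (3000 * n * C₀ + 1)

/-- **Global smooth map.** -/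
theorem exists_Psi (hH : Hinge G) (fl : ∀ p, FlatAt n δ σ c₀ C₀ F p) (hδ : 0 < δ)
    (hσ0 : 0 < σ) (hσ1 : σ ^ 2 ≤ 1 / 9) (hC : 0 ≤ C₀) :
    ∃ Ψ : M → W, ContMDiff (𝓡 n) 𝓘(ℝ, W) ∞ Ψ ∧ ∀ x,
      ‖Ψ x - F x‖ ≤ K4 n C₀ * (σ * δ) ∧
      ∀ z, dist z x ≤ 2 * δ → ∀ w : TangentSpace (𝓡 n) x, w ∈ G.K x → G.ex x w = z →
        ‖dd n Ψ x w - (F z - F x)‖ ≤ K4 n C₀ * (σ * δ) := by
  classical
  obtain ⟨S, hSsep, hScov⟩ := exists_net_compact (X := M) hδ
  choose P hPs hP using fun p : M => exists_local_map hH (fl p) hδ hσ0 hσ1 hC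
  set ε : ℝ := min (δ ^ 2 / 10) (δ / 20) with hε
  have hε0 : 0 < ε := by positivity
  have hε1 : ε ≤ δ ^ 2 / 10 := min_le_left _ _
  have hε2 : ε ≤ δ / 20 := min_le_right _ _
  choose v hv hv' using fun p : M => exists_smooth_dist hH p (R := 15 * δ) hε0
  set K : ℝ := (3000 * n * C₀ + 1) * (σ * δ) with hK
  have hn : (0 : ℝ) ≤ n := Nat.cast_nonneg n
  have hK0 : 0 ≤ K := by positivity
  have hDc := Dchi_nonneg
  -- cut-offs
  set h : M → M → ℝ := fun p y => chi (v p y / δ ^ 2) with hh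
  have hhs : ∀ p, ContMDiff (𝓡 n) 𝓘(ℝ) ∞ (h p) := fun p => by
    have h1 : ContMDiff 𝓘(ℝ) 𝓘(ℝ) ∞ (fun s : ℝ => chi (s / δ ^ 2)) :=
      (chi_contDiff.comp (by fun_prop)).contMDiff
    exact h1.comp (hv p)
  have hh0 : ∀ p y, 0 ≤ h p y := fun p y => chi_nonneg _
  have hfar : ∀ p y, 31 / 20 * δ ≤ dist p y → 11 / 10 < v p y / δ ^ 2 := by
    intro p y hpy
    have h1 := (abs_le.1 (hv' p y).1).1
    have h2 : (31 / 20 * δ) ^ 2 ≤ dist p y ^ 2 := pow_le_pow_left₀ (by positivity) hpy 2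
    rw [lt_div_iff₀ (by positivity)]
    have h3 : 0 < δ ^ 2 := by positivity
    nlinarith
  have hh_far : ∀ p y, 31 / 20 * δ ≤ dist p y → h p y = 0 := fun p y hpy =>
    chi_zero (hfar p y hpy).le
  have hdh : ∀ p y (w : 𝔼), dd n (h p) y w = deriv chi (v p y / δ ^ 2) * (dd n (v p) y w / δ ^ 2) := by
    intro p y w
    have hD : DA n (v p) y := DA.of_contMDiff (by simp) (hv p) y
    have hg : HasDerivAt (fun s : ℝ => chi (s / δ ^ 2)) (deriv chi (v p y / δ ^ 2) * (1 / δ ^ 2))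
        (v p y) := by
      have h1 : HasDerivAt chi (deriv chi (v p y / δ ^ 2)) (v p y / δ ^ 2) :=
        (chi_contDiff.differentiable (by simp) _).hasDerivAt
      have h2 : HasDerivAt (fun s : ℝ => s / δ ^ 2) (1 / δ ^ 2) (v p y) :=
        (hasDerivAt_id (v p y)).div_const (δ ^ 2)
      exact HasDerivAt.comp (v p y) (h := fun s : ℝ => s / δ ^ 2) (h₂ := chi) h1 h2
    rw [show h p = fun y => (fun s : ℝ => chi (s / δ ^ 2)) (v p y) from rfl,
      dd_comp (g := fun s : ℝ => chi (s / δ ^ 2)) hD hg.differentiableAt, hg.hasFDerivAt.fderiv]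
    simp
    ring
  have hdh_far : ∀ p y, 31 / 20 * δ ≤ dist p y → ∀ w : 𝔼, dd n (h p) y w = 0 := by
    intro p y hpy w
    rw [hdh, deriv_chi_zero (hfar p y hpy), zero_mul]
  have hdh_near : ∀ p y, dist p y < 31 / 20 * δ → ∀ w : TangentSpace (𝓡 n) y, ‖w‖ ≤ 2 * δ →
      |dd n (h p) y w| ≤ 4 * Dchi := by
    intro p y hpy w hw
    refine (congrArg abs (hdh p y w)).le.trans ?_
    rw [abs_mul, abs_div, abs_of_pos (by positivity : (0 : ℝ) < δ ^ 2)]
    have h1 := (hv' p y).2.2 w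
    have h2 : (dist p y + ε) * ‖w‖ ≤ 2 * δ * (2 * δ) :=
      mul_le_mul (by linarith) hw (norm_nonneg _) (by positivity)
    have h3 : |dd n (v p) y w| / δ ^ 2 ≤ 4 := by
      rw [div_le_iff₀ (by positivity)]
      have : 2 * δ * (2 * δ) = 4 * δ ^ 2 := by ring
      linarith
    calc |deriv chi (v p y / δ ^ 2)| * (|dd n (v p) y w| / δ ^ 2) ≤ Dchi * 4 :=
          mul_le_mul (abs_deriv_chi _) h3 (by positivity) hDc
      _ = 4 * Dchi := by ring
  set H : M → ℝ := fun y => ∑ p ∈ S, h p y with hH'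
  have hHs : ContMDiff (𝓡 n) 𝓘(ℝ) ∞ H := contMDiff_finsetSum fun p _ => hhs p
  have hH1 : ∀ y, 1 ≤ H y := by
    intro y
    obtain ⟨p, hp, hpy⟩ := hScov y
    have h1 : h p y = 1 := by
      refine chi_one ?_
      rw [div_le_iff₀ (by positivity)]
      have h2 := (abs_le.1 (hv' p y).1).2
      rw [dist_comm] at hpy
      have h3 : dist p y ^ 2 ≤ δ ^ 2 := pow_le_pow_left₀ dist_nonneg hpy.le 2
      linarith
    calc (1 : ℝ) = h p y := h1.symm
      _ ≤ H y := Finset.single_le_sum (f := fun p => h p y) (fun q _ => hh0 q y) hp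
  have hHpos : ∀ y, 0 < H y := fun y => lt_of_lt_of_le one_pos (hH1 y)
  -- the map
  set Ψ : M → W := fun y => (H y)⁻¹ • ∑ p ∈ S, h p y • P p y with hΨ
  have hinv : ContMDiff (𝓡 n) 𝓘(ℝ) ∞ (fun y => (H y)⁻¹) :=
    hHs.inv₀ fun y => (hHpos y).ne'
  have hΨs : ContMDiff (𝓡 n) 𝓘(ℝ, W) ∞ Ψ :=
    hinv.smul (contMDiff_finsetSum fun p _ => (hhs p).smul (hPs p))
  refine ⟨Ψ, hΨs, fun x => ?_⟩
  -- points of the net near `x`
  set Sx : Finset M := S.filter (fun p => dist p x < 31 / 20 * δ) with hSx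
  have hcard : (Sx.card : ℝ) ≤ 5 ^ n := by
    have := card_near (fl x) hδ hσ1 Sx
      (fun p hp q hq => hSsep p (Finset.mem_filter.1 hp).1 q (Finset.mem_filter.1 hq).1)
      (fun p hp => (Finset.mem_filter.1 hp).2)
    exact_mod_cast this
  have hPx : ∀ p, dist p x < 31 / 20 * δ → ‖P p x - F x‖ ≤ K := fun p hp =>
    (hP p x (by rw [dist_comm]; linarith)).1
  -- weighted sums
  have hwt : ∀ (g : M → W) (K' : ℝ), (∀ p, dist p x < 31 / 20 * δ → ‖g p‖ ≤ K') →
      ‖∑ p ∈ S, h p x • g p‖ ≤ H x * K' := by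
    intro g K' hg
    calc ‖∑ p ∈ S, h p x • g p‖ ≤ ∑ p ∈ S, ‖h p x • g p‖ := norm_sum_le _ _
      _ ≤ ∑ p ∈ S, h p x * K' := by
          refine Finset.sum_le_sum fun p _ => ?_
          rw [norm_smul, Real.norm_of_nonneg (hh0 p x)]
          by_cases hp : dist p x < 31 / 20 * δ
          · exact mul_le_mul_of_nonneg_left (hg p hp) (hh0 p x)
          · rw [hh_far p x (not_lt.1 hp)]; simp
      _ = H x * K' := by rw [← Finset.sum_mul]
  set c : W := F x with hc
  set T : M → W := fun y => ∑ p ∈ S, h p y • (P p y - c) with hT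
  have hΨT : ∀ y, Ψ y = c + (H y)⁻¹ • T y := by
    intro y
    have h1 : T y = (∑ p ∈ S, h p y • P p y) - H y • c := by
      simp only [hT, smul_sub, Finset.sum_sub_distrib, hH']
      rw [Finset.sum_smul]
    rw [h1, smul_sub, smul_smul, inv_mul_cancel₀ (hHpos y).ne', one_smul]
    simp only [hΨ]
    abel
  have hTx : ‖T x‖ ≤ H x * K := hwt _ _ hPx
  have hHx := hHpos x
  have hKK : K ≤ K4 n C₀ * (σ * δ) := by
    have h1 : K4 n C₀ * (σ * δ) = (1 + 8 * 5 ^ n * Dchi) * K := by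
      rw [K4, hK]; ring
    rw [h1]
    have : 0 ≤ 8 * 5 ^ n * Dchi := by positivity
    nlinarith
  constructor
  · rw [hΨT x, add_sub_cancel_left, norm_smul, norm_inv, Real.norm_of_nonneg hHx.le]
    calc (H x)⁻¹ * ‖T x‖ ≤ (H x)⁻¹ * (H x * K) :=
          mul_le_mul_of_nonneg_left hTx (inv_nonneg.2 hHx.le)
      _ = K := by rw [← mul_assoc, inv_mul_cancel₀ hHx.ne', one_mul]
      _ ≤ _ := hKK
  · intro z hz w hw hwz
    have hwn : ‖w‖ ≤ 2 * δ := by
      rw [norm_of_K hw, hwz, dist_comm]; exact hz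
    have hDh : ∀ p, DA n (h p) x := fun p => DA.of_contMDiff (by simp) (hhs p) x
    have hDP : ∀ p, DA n (P p) x := fun p => DA.of_contMDiff (by simp) (hPs p) x
    have hDPc : ∀ p, DA n (fun y => P p y - c) x := fun p => (hDP p).sub (DA.const c x)
    have hDH : DA n H x := DA.of_contMDiff (by simp) hHs x
    have hDT : DA n T x := DA.sum fun p _ => (hDh p).smul (hDPc p)
    have hder : ∀ w : 𝔼, dd n Ψ x w =
        (H x)⁻¹ • (∑ p ∈ S, h p x • dd n (P p) x w + ∑ p ∈ S, dd n (h p) x w • (P p x - c)) +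
        (-((H x) ^ 2)⁻¹ * ∑ p ∈ S, dd n (h p) x w) • T x := by
      intro w
      obtain ⟨hDi, hdi⟩ := dd_inv hDH hHx.ne' w
      have e1 : Ψ = fun y => c + (H y)⁻¹ • T y := funext hΨT
      rw [e1, dd_add (f := fun _ => c) (DA.const _ x) (hDi.smul hDT), dd_const, zero_add,
        dd_smul hDi hDT, hdi]
      have e2 : dd n H x w = ∑ p ∈ S, dd n (h p) x w := by
        rw [hH', dd_sum (fun p _ => hDh p), _root_.sum_apply]
      have e3 : dd n T x w = ∑ p ∈ S, h p x • dd n (P p) x w +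
          ∑ p ∈ S, dd n (h p) x w • (P p x - c) := by
        rw [hT, dd_sum (f := fun p y => h p y • (P p y - c)) (fun p _ => (hDh p).smul (hDPc p)),
          _root_.sum_apply, ← Finset.sum_add_distrib]
        refine Finset.sum_congr rfl fun p _ => ?_
        rw [dd_smul (hDh p) (hDPc p), dd_sub (hDP p) (DA.const c x), dd_const, sub_zero]
      rw [e2, e3]
    set c' : W := F z - F x with hc'
    have hPz : ∀ p, dist p x < 31 / 20 * δ → ‖dd n (P p) x w - c'‖ ≤ K := fun p hp =>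
      (hP p x (by rw [dist_comm]; linarith)).2 z hz w hw hwz
    -- the three terms
    have t1 : ‖∑ p ∈ S, h p x • (dd n (P p) x w - c')‖ ≤ H x * K := hwt _ _ hPz
    have t2 : ‖∑ p ∈ S, dd n (h p) x w • (P p x - c)‖ ≤ 5 ^ n * (4 * Dchi * K) := by
      calc ‖∑ p ∈ S, dd n (h p) x w • (P p x - c)‖ ≤ ∑ p ∈ S, ‖dd n (h p) x w • (P p x - c)‖ :=
            norm_sum_le _ _
        _ ≤ ∑ p ∈ S, if dist p x < 31 / 20 * δ then 4 * Dchi * K else 0 := by
            refine Finset.sum_le_sum fun p _ => ?_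
            rw [norm_smul, Real.norm_eq_abs]
            split_ifs with hp
            · exact mul_le_mul (hdh_near p x hp w hwn) (hPx p hp) (norm_nonneg _) (by positivity)
            · have h0 : dd n (h p) x w = 0 := hdh_far p x (not_lt.1 hp) w
              rw [h0]; simp
        _ = Sx.card * (4 * Dchi * K) := by
            rw [← Finset.sum_filter, Finset.sum_const, nsmul_eq_mul]
        _ ≤ 5 ^ n * (4 * Dchi * K) := mul_le_mul_of_nonneg_right hcard (by positivity)
    have t3 : |∑ p ∈ S, dd n (h p) x w| ≤ 5 ^ n * (4 * Dchi) := by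
      calc |∑ p ∈ S, dd n (h p) x w| ≤ ∑ p ∈ S, |dd n (h p) x w| := Finset.abs_sum_le_sum_abs _ _
        _ ≤ ∑ p ∈ S, if dist p x < 31 / 20 * δ then 4 * Dchi else 0 := by
            refine Finset.sum_le_sum fun p _ => ?_
            split_ifs with hp
            · exact hdh_near p x hp w hwn
            · have h0 : dd n (h p) x w = 0 := hdh_far p x (not_lt.1 hp) w
              rw [h0]; simp
        _ = Sx.card * (4 * Dchi) := by
            rw [← Finset.sum_filter, Finset.sum_const, nsmul_eq_mul]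
        _ ≤ 5 ^ n * (4 * Dchi) := mul_le_mul_of_nonneg_right hcard (by positivity)
    have hfin : dd n Ψ x w - c' = (H x)⁻¹ • (∑ p ∈ S, h p x • (dd n (P p) x w - c')) +
        (H x)⁻¹ • (∑ p ∈ S, dd n (h p) x w • (P p x - c)) +
        (-((H x) ^ 2)⁻¹ * ∑ p ∈ S, dd n (h p) x w) • T x := by
      have e1 : ∑ p ∈ S, h p x • (dd n (P p) x w - c') =
          (∑ p ∈ S, h p x • dd n (P p) x w) - H x • c' := by
        simp only [smul_sub, Finset.sum_sub_distrib, hH']
        rw [Finset.sum_smul]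
      rw [e1, smul_sub, smul_smul, inv_mul_cancel₀ hHx.ne', one_smul]
      refine (congrArg (fun u => u - c') (hder w)).trans ?_
      rw [smul_add]
      abel
    refine (congrArg norm hfin).le.trans ?_
    have hi : (H x)⁻¹ ≤ 1 := inv_le_one_of_one_le₀ (hH1 x)
    have hi0 : 0 ≤ (H x)⁻¹ := inv_nonneg.2 hHx.le
    have n1 : ‖(H x)⁻¹ • (∑ p ∈ S, h p x • (dd n (P p) x w - c'))‖ ≤ K := by
      rw [norm_smul, Real.norm_of_nonneg hi0]
      calc (H x)⁻¹ * _ ≤ (H x)⁻¹ * (H x * K) := mul_le_mul_of_nonneg_left t1 hi0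
        _ = K := by rw [← mul_assoc, inv_mul_cancel₀ hHx.ne', one_mul]
    have n2 : ‖(H x)⁻¹ • (∑ p ∈ S, dd n (h p) x w • (P p x - c))‖ ≤ 5 ^ n * (4 * Dchi * K) := by
      rw [norm_smul, Real.norm_of_nonneg hi0]
      calc (H x)⁻¹ * _ ≤ 1 * (5 ^ n * (4 * Dchi * K)) :=
            mul_le_mul hi t2 (norm_nonneg _) zero_le_one
        _ = _ := one_mul _
    have n3 : ‖(-((H x) ^ 2)⁻¹ * ∑ p ∈ S, dd n (h p) x w) • T x‖ ≤ 5 ^ n * (4 * Dchi * K) := by
      rw [norm_smul, norm_mul, norm_neg, norm_inv, norm_pow, Real.norm_of_nonneg hHx.le,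
        Real.norm_eq_abs]
      calc ((H x) ^ 2)⁻¹ * |∑ p ∈ S, dd n (h p) x w| * ‖T x‖
          ≤ ((H x) ^ 2)⁻¹ * (5 ^ n * (4 * Dchi)) * (H x * K) := by
            refine mul_le_mul (mul_le_mul_of_nonneg_left t3 (by positivity)) hTx (norm_nonneg _)
              (by positivity)
        _ = (H x)⁻¹ * (5 ^ n * (4 * Dchi * K)) := by
            field_simp
        _ ≤ 1 * (5 ^ n * (4 * Dchi * K)) := mul_le_mul_of_nonneg_right hi (by positivity)
        _ = _ := one_mul _
    calc _ ≤ K + 5 ^ n * (4 * Dchi * K) + 5 ^ n * (4 * Dchi * K) :=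
          (norm_add₃_le).trans (add_le_add (add_le_add n1 n2) n3)
      _ = K4 n C₀ * (σ * δ) := by rw [K4, hK]; ring

end

end Crest.Agent.R249.D4_789
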