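import Crest.Agent.R249.D4Dd_789
import Crest.Agent.R226.LoeperMfd_128

/-!
R249, part D4 (helper789), file 4: supergradients of half squared distances; smooth functions
close to half squared distances whose differentials are everywhere approximate supergradients.
-/

set_option autoImplicit false
set_option linter.unusedSectionVars false

open MeasureTheory Set Filter Metric Bundle
open scoped ContDiff ENNReal NNReal Topology Manifold
open Crest.GeometryTopology.MTW
open Crest.Agent.R226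

namespace Crest.Agent.R249.D4_789

noncomputable section

variable {n : ℕ} {M : Type*} [MetricSpace M] [ChartedSpace (EuclideanSpace ℝ (Fin n)) M]
  [IsManifold (𝓡 n) ∞ M] [RiemannianBundle (fun p : M => TangentSpace (𝓡 n) p)]

local notation "𝔼" => EuclideanSpace ℝ (Fin n)

/-- **Hinge inequality** (Toponogov for `K ≥ 0`) in exponential form: `exp_x` does not increase
the distance to (the image of) a minimal vector `u`. -/
def Hinge (G : GeoData n M) : Prop :=
  ∀ (x : M) (u w : TangentSpace (𝓡 n) x), u ∈ G.K x → dist (G.ex x u) (G.ex x w) ^ 2 ≤ ‖u - w‖ ^ 2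

variable (G : GeoData n M)

/-- the test function -/
def Th (q : M) (p : TangentBundle (𝓡 n) M) : ℝ :=
  dist q (G.ex p.1 p.2) ^ 2 / 2 - dist q p.1 ^ 2 / 2 - ‖p.2‖ ^ 2 / 2

variable {G}

theorem exists_min (x q : M) : ∃ u : TangentSpace (𝓡 n) x, u ∈ G.K x ∧ G.ex x u = q := by
  obtain ⟨u, h1, h2⟩ := G.surj x q
  refine ⟨u, ?_, h1⟩
  show dist x (G.ex x u) = ‖u‖
  rw [h1, h2]

theorem norm_of_K {x : M} {u : TangentSpace (𝓡 n) x} (hu : u ∈ G.K x) : ‖u‖ = dist x (G.ex x u) :=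
  Eq.symm hu

/-- a minimal vector gives a supergradient -/
theorem Hinge.le (hH : Hinge G) {x : M} {u : TangentSpace (𝓡 n) x} (hu : u ∈ G.K x)
    (w : TangentSpace (𝓡 n) x) :
    dist (G.ex x u) (G.ex x w) ^ 2 / 2 ≤ dist (G.ex x u) x ^ 2 / 2 - inner ℝ u w + ‖w‖ ^ 2 / 2 := by
  have h := hH x u w hu
  rw [norm_sub_sq_real] at h
  have h1 : dist (G.ex x u) x = ‖u‖ := by rw [dist_comm]; exact hu
  rw [h1]
  linarith

theorem Hinge.Th_le (hH : Hinge G) {x : M} {u : TangentSpace (𝓡 n) x} (hu : u ∈ G.K x)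
    (w : TangentSpace (𝓡 n) x) : Th G (G.ex x u) ⟨x, w⟩ ≤ - inner ℝ u w := by
  have h := hH.le hu w
  show dist (G.ex x u) (G.ex x w) ^ 2 / 2 - dist (G.ex x u) x ^ 2 / 2 - ‖w‖ ^ 2 / 2 ≤ _
  linarith

/-- derivative along a radial curve -/
theorem hasDerivAt_radial {f : M → ℝ} {x : M} (hf : MDifferentiableAt (𝓡 n) 𝓘(ℝ) f x)
    (w : TangentSpace (𝓡 n) x) :
    HasDerivAt (fun t : ℝ => f (G.ex x (t • w))) (mfderiv (𝓡 n) 𝓘(ℝ) f x w) 0 := by
  have hx : G.ex x ((0 : ℝ) • w) = x := by rw [zero_smul, G.ex_zero]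
  have hf' : MDifferentiableAt (𝓡 n) 𝓘(ℝ) f (G.ex x ((0 : ℝ) • w)) := by rw [hx]; exact hf
  have h := LoeperMfd128.hasDerivAt_comp_curve (n := n) (h := f)
    (γ := fun t : ℝ => G.ex x (t • w)) (t := 0) hf' (GeoBasic616.mdifferentiableAt_ray G x w 0)
  have h2 : LoeperMfd128.cv (n := n) (fun t : ℝ => G.ex x (t • w)) 0 = (w : 𝔼) := G.vel_zero x w
  have h3 : LoeperMfd128.md (n := n) f (G.ex x ((0 : ℝ) • w)) = LoeperMfd128.md (n := n) f x := by
    rw [hx]
  rw [h2, h3] at h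
  exact h

/-- at a point of differentiability the differential is `- ⟨u, ·⟩` for every minimal vector -/
theorem Hinge.mfderiv_eq (hH : Hinge G) {x : M} {u : TangentSpace (𝓡 n) x} (hu : u ∈ G.K x)
    (hd : MDifferentiableAt (𝓡 n) 𝓘(ℝ) (fun y => dist (G.ex x u) y ^ 2 / 2) x)
    (w : TangentSpace (𝓡 n) x) :
    - inner ℝ u w ≤ mfderiv (𝓡 n) 𝓘(ℝ) (fun y => dist (G.ex x u) y ^ 2 / 2) x w := by
  set f : M → ℝ := fun y => dist (G.ex x u) y ^ 2 / 2 with hf
  have h := hasDerivAt_radial (G := G) hd w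
  have h0 : f (G.ex x ((0 : ℝ) • w)) = f x := by rw [zero_smul, G.ex_zero]
  -- left difference quotients
  have hlim : Tendsto (fun t : ℝ => t⁻¹ * (f (G.ex x (t • w)) - f x)) (𝓝[<] 0)
      (𝓝 (mfderiv (𝓡 n) 𝓘(ℝ) f x w)) := by
    have h1 := (hasDerivAt_iff_tendsto_slope.1 h).mono_left
      (nhdsWithin_mono (0 : ℝ) (fun t (ht : t < 0) => ht.ne) : 𝓝[<] (0 : ℝ) ≤ 𝓝[≠] 0)
    refine h1.congr fun t => ?_
    rw [slope_def_field, h0, sub_zero, div_eq_inv_mul]
  have hlim2 : Tendsto (fun t : ℝ => - inner ℝ u w + t * (‖w‖ ^ 2 / 2)) (𝓝[<] 0)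
      (𝓝 (- inner ℝ u w + 0 * (‖w‖ ^ 2 / 2))) := by
    refine Tendsto.mono_left ?_ nhdsWithin_le_nhds
    exact Continuous.tendsto (by fun_prop) 0
  rw [zero_mul, add_zero] at hlim2
  refine le_of_tendsto_of_tendsto hlim2 hlim ?_
  filter_upwards [self_mem_nhdsWithin] with t ht
  have ht' : t < 0 := ht
  have h2 := hH.le hu (t • w)
  rw [inner_smul_right, norm_smul, Real.norm_eq_abs, mul_pow, sq_abs] at h2
  have h3 : f (G.ex x (t • w)) - f x ≤ t * (- inner ℝ u w + t * (‖w‖ ^ 2 / 2)) := by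
    simp only [hf]
    linarith
  have h4 : t⁻¹ * (t * (- inner ℝ u w + t * (‖w‖ ^ 2 / 2))) ≤
      t⁻¹ * (f (G.ex x (t • w)) - f x) :=
    mul_le_mul_of_nonpos_left h3 (inv_nonpos.2 ht'.le)
  rwa [← mul_assoc, inv_mul_cancel₀ ht'.ne, one_mul] at h4

section Cpt

variable [IsContMDiffRiemannianBundle (𝓡 n) ∞ (EuclideanSpace ℝ (Fin n))
    (fun p : M => TangentSpace (𝓡 n) p)]
  [IsRiemannianManifold (𝓡 n) M] [CompactSpace M]

theorem continuous_Th (q : M) : Continuous (Th G q) := by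
  unfold Th
  have h1 : Continuous (fun p : TangentBundle (𝓡 n) M => G.ex p.1 p.2) := G.smooth.continuous
  have h2 : Continuous (fun p : TangentBundle (𝓡 n) M => ‖p.2‖) :=
    TB616.continuous_norm (n := n) (M := M)
  have h3 : Continuous (fun p : TangentBundle (𝓡 n) M => p.1) :=
    FiberBundle.continuous_proj _ _
  fun_prop

theorem lipschitz_halfDistSq (q : M) : ∃ C : ℝ≥0, LipschitzWith C (fun y => dist q y ^ 2 / 2) := by
  obtain ⟨D, hD⟩ := Metric.isBounded_iff.1 (isCompact_univ (X := M)).isBounded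
  have hD0 : 0 ≤ D := dist_nonneg.trans (hD (mem_univ q) (mem_univ q))
  refine ⟨⟨D, hD0⟩, LipschitzWith.of_dist_le_mul fun x y => ?_⟩
  have h1 : dist q x ≤ D := hD (mem_univ _) (mem_univ _)
  have h2 : dist q y ≤ D := hD (mem_univ _) (mem_univ _)
  have h3 : |dist q x - dist q y| ≤ dist x y := by
    rw [dist_comm q x, dist_comm q y]
    exact abs_dist_sub_le x y q
  rw [Real.dist_eq]
  have h4 : dist q x ^ 2 / 2 - dist q y ^ 2 / 2 =
      (dist q x - dist q y) * ((dist q x + dist q y) / 2) := by ring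
  rw [h4, abs_mul]
  have h5 : |(dist q x + dist q y) / 2| ≤ D := by
    rw [abs_of_nonneg (by positivity)]
    linarith
  calc |dist q x - dist q y| * |(dist q x + dist q y) / 2| ≤ dist x y * D :=
        mul_le_mul h3 h5 (abs_nonneg _) dist_nonneg
    _ = D * dist x y := mul_comm _ _

/-- **Smoothing of the half squared distance.** -/
theorem exists_smooth_dist (hH : Hinge G) (q : M) {ε R : ℝ} (hε : 0 < ε) :
    ∃ v : M → ℝ, ContMDiff (𝓡 n) 𝓘(ℝ) ∞ v ∧ ∀ x, |v x - dist q x ^ 2 / 2| ≤ ε ∧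
      (∀ w : TangentSpace (𝓡 n) x, ‖w‖ ≤ R →
        dist q (G.ex x w) ^ 2 / 2 - dist q x ^ 2 / 2 - ‖w‖ ^ 2 / 2 - ε ≤ dd n v x w) ∧
      ∀ w : TangentSpace (𝓡 n) x, |dd n v x w| ≤ (dist q x + ε) * ‖w‖ := by
  obtain ⟨C, hC⟩ := lipschitz_halfDistSq (M := M) q
  set r : ℝ := G.r₀ / 2 with hr
  have hr0 : 0 < r := half_pos G.r₀_pos
  set ε' : ℝ := min ε (ε * r) with hε'
  have hε'0 : 0 < ε' := by positivity
  obtain ⟨v, hv, hvx⟩ := exists_smooth (ε := ε') (R := max R r) hC (continuous_Th (G := G) q)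
    (fun x hd w => by
      obtain ⟨u, hu, huq⟩ := exists_min (G := G) x q
      subst huq
      exact (hH.Th_le hu w).trans (hH.mfderiv_eq hu hd w)) hε'0
  refine ⟨v, hv, fun x => ⟨(hvx x).1.trans (min_le_left _ _), fun w hw => ?_, ?_⟩⟩
  · have h1 := (hvx x).2 w (hw.trans (le_max_left _ _))
    refine le_trans ?_ h1
    show _ ≤ dist q (G.ex x w) ^ 2 / 2 - dist q x ^ 2 / 2 - ‖w‖ ^ 2 / 2 - ε'
    have := min_le_left ε (ε * r)
    linarith
  · -- lower bound on vectors of norm `r`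
    have key : ∀ w : TangentSpace (𝓡 n) x, ‖w‖ = r → - ((dist q x + ε) * r) ≤ dd n v x w := by
      intro w hw
      have h1 := (hvx x).2 w (by rw [hw]; exact le_max_right _ _)
      refine le_trans ?_ h1
      show _ ≤ dist q (G.ex x w) ^ 2 / 2 - dist q x ^ 2 / 2 - ‖w‖ ^ 2 / 2 - ε'
      have h2 : dist x (G.ex x w) = r := by
        rw [← hw]
        exact GeoBasic616.dist_ex_of_norm_lt G (by rw [hw]; linarith [G.r₀_pos])
      have h3 : |dist q x - dist x (G.ex x w)| ≤ dist q (G.ex x w) := by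
        rw [dist_comm q x, dist_comm q (G.ex x w)]
        have := abs_dist_sub_le q (G.ex x w) x
        rw [dist_comm q x, dist_comm (G.ex x w) x, dist_comm q] at this
        exact this
      rw [h2] at h3
      have h4 : (dist q x - r) ^ 2 ≤ dist q (G.ex x w) ^ 2 := by
        rw [← sq_abs (dist q x - r)]
        exact pow_le_pow_left₀ (abs_nonneg _) h3 2
      have h5 : ε' ≤ ε * r := min_le_right _ _
      rw [hw]
      nlinarith
    have key2 : ∀ w : TangentSpace (𝓡 n) x, - ((dist q x + ε) * ‖w‖) ≤ dd n v x w := by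
      intro w
      rcases eq_or_ne w 0 with h0 | h0
      · subst h0
        have h1 : dd n v x (0 : 𝔼) = 0 := map_zero _
        have h2 : dd n v x (0 : TangentSpace (𝓡 n) x) = 0 := h1
        rw [h2, norm_zero, mul_zero, neg_zero]
      · have hn : 0 < ‖w‖ := norm_pos_iff.2 h0
        have h1 := key ((r / ‖w‖) • w) (by
          rw [norm_smul, Real.norm_of_nonneg (by positivity)]
          field_simp)
        have h2 : dd n v x ((r / ‖w‖) • w) = (r / ‖w‖) * dd n v x w :=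
          (dd n v x).map_smul (r / ‖w‖) (w : 𝔼)
        rw [h2] at h1
        have h3 : 0 < ‖w‖ / r := by positivity
        have h4 := mul_le_mul_of_nonneg_left h1 h3.le
        have h5 : ‖w‖ / r * (r / ‖w‖ * dd n v x w) = dd n v x w := by
          field_simp
        rw [h5] at h4
        refine le_trans (le_of_eq ?_) h4
        field_simp
    intro w
    rw [abs_le]
    refine ⟨key2 w, ?_⟩
    have h1 := key2 (-w)
    have h2 : dd n v x (-w) = - dd n v x w := (dd n v x).map_neg (w : 𝔼)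
    rw [h2, norm_neg] at h1
    linarith

end Cpt

end

end Crest.Agent.R249.D4_789
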