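import Crest.Agent.R249.D4Euc_789
import Crest.Agent.R226.DiffAE_225
import Crest.Agent.R226.GeoBasic_616

/-!
R249, part D4 (helper789), file 2: smoothing of a Lipschitz function on a closed Riemannian
manifold with one-sided control of the differential by a continuous function on `TM`.
-/

set_option autoImplicit false
set_option linter.unusedSectionVars false

open MeasureTheory Set Filter Metric Bundle
open scoped ContDiff ENNReal NNReal Topology Manifold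
open Crest.Agent.R226

namespace Crest.Agent.R249.D4_789

noncomputable section

section NoMetric

variable {n : ℕ} {M : Type*} [TopologicalSpace M] [ChartedSpace (EuclideanSpace ℝ (Fin n)) M]
  [IsManifold (𝓡 n) ∞ M]

local notation "𝔼" => EuclideanSpace ℝ (Fin n)

/-- the differential of a smooth function is continuous on the tangent bundle -/
theorem continuous_df {f : M → ℝ} (hf : ContMDiff (𝓡 n) 𝓘(ℝ) ∞ f) :
    Continuous (fun p : TangentBundle (𝓡 n) M => mfderiv (𝓡 n) 𝓘(ℝ) f p.1 p.2) := by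
  have h := hf.continuous_tangentMap (by simp)
  have h2 := (tangentBundleModelSpaceHomeomorph 𝓘(ℝ, ℝ)).continuous
  have h3 := continuous_snd.comp (h2.comp h)
  exact h3

/-- `Θ` read in the chart at `x₀` -/
def hatΘ (Θ : TangentBundle (𝓡 n) M → ℝ) (x₀ : M) (b w : 𝔼) : ℝ :=
  Θ (tangentMapWithin 𝓘(ℝ, 𝔼) (𝓡 n) (extChartAt (𝓡 n) x₀).symm (extChartAt (𝓡 n) x₀).target
    (⟨b, w⟩ : TangentBundle 𝓘(ℝ, 𝔼) 𝔼))

theorem isOpen_tgt (x₀ : M) : IsOpen (extChartAt (𝓡 n) x₀).target := isOpen_extChartAt_target x₀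

theorem continuousOn_hatΘ {Θ : TangentBundle (𝓡 n) M → ℝ} (hΘ : Continuous Θ) (x₀ : M) :
    ContinuousOn (fun p : 𝔼 × 𝔼 => hatΘ Θ x₀ p.1 p.2)
      ((extChartAt (𝓡 n) x₀).target ×ˢ univ) := by
  have h1 : ContMDiffOn 𝓘(ℝ, 𝔼) (𝓡 n) ∞ (extChartAt (𝓡 n) x₀).symm (extChartAt (𝓡 n) x₀).target :=
    contMDiffOn_extChartAt_symm x₀
  have h2 := h1.continuousOn_tangentMapWithin (by simp)
    ((isOpen_tgt x₀).uniqueMDiffOn)
  have h3 : Continuous (fun p : 𝔼 × 𝔼 => (⟨p.1, p.2⟩ : TangentBundle 𝓘(ℝ, 𝔼) 𝔼)) :=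
    (tangentBundleModelSpaceHomeomorph 𝓘(ℝ, 𝔼)).symm.continuous
  have h4 := h2.comp h3.continuousOn (s := (extChartAt (𝓡 n) x₀).target ×ˢ univ) (by
    rintro ⟨b, w⟩ hb
    exact hb.1)
  exact hΘ.comp_continuousOn h4

/-- at points of the target -/
theorem hatΘ_eq {Θ : TangentBundle (𝓡 n) M → ℝ} (x₀ : M) {b : 𝔼}
    (hb : b ∈ (extChartAt (𝓡 n) x₀).target) (w : 𝔼) :
    hatΘ Θ x₀ b w = Θ ⟨(extChartAt (𝓡 n) x₀).symm b,
      mfderiv 𝓘(ℝ, 𝔼) (𝓡 n) (extChartAt (𝓡 n) x₀).symm b w⟩ := by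
  unfold hatΘ tangentMapWithin
  have : mfderivWithin 𝓘(ℝ, 𝔼) (𝓡 n) (extChartAt (𝓡 n) x₀).symm (extChartAt (𝓡 n) x₀).target b
      = mfderiv 𝓘(ℝ, 𝔼) (𝓡 n) (extChartAt (𝓡 n) x₀).symm b :=
    mfderivWithin_of_isOpen (isOpen_tgt x₀) hb
  simp only [this]

theorem mfderiv_chart_symm (x₀ : M) {b : 𝔼} (hb : b ∈ (extChartAt (𝓡 n) x₀).target) (w : 𝔼) :
    mfderiv (𝓡 n) 𝓘(ℝ, 𝔼) (extChartAt (𝓡 n) x₀) ((extChartAt (𝓡 n) x₀).symm b)
      (mfderiv 𝓘(ℝ, 𝔼) (𝓡 n) (extChartAt (𝓡 n) x₀).symm b w) = w := by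
  have h := mfderiv_extChartAt_comp_mfderivWithin_extChartAt_symm (I := 𝓡 n) hb
  have h1 : range (𝓡 n) = univ := by simp
  rw [h1, mfderivWithin_univ] at h
  exact congrArg (fun L => L w) h

theorem mfderiv_symm_chart (x₀ : M) {x : M} (hx : x ∈ (extChartAt (𝓡 n) x₀).source)
    (w : TangentSpace (𝓡 n) x) :
    (mfderiv 𝓘(ℝ, 𝔼) (𝓡 n) (extChartAt (𝓡 n) x₀).symm (extChartAt (𝓡 n) x₀ x)
      (mfderiv (𝓡 n) 𝓘(ℝ, 𝔼) (extChartAt (𝓡 n) x₀) x w) : 𝔼) = w := by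
  have h := mfderivWithin_extChartAt_symm_comp_mfderiv_extChartAt' (I := 𝓡 n) hx
  have h1 : range (𝓡 n) = univ := by simp
  rw [h1, mfderivWithin_univ] at h
  exact congrArg (fun L => L w) h

/-- value of `hatΘ` on the image of a tangent vector -/
theorem hatΘ_chart {Θ : TangentBundle (𝓡 n) M → ℝ} (x₀ : M) {x : M}
    (hx : x ∈ (extChartAt (𝓡 n) x₀).source) (w : TangentSpace (𝓡 n) x) :
    hatΘ Θ x₀ (extChartAt (𝓡 n) x₀ x) (mfderiv (𝓡 n) 𝓘(ℝ, 𝔼) (extChartAt (𝓡 n) x₀) x w) =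
      Θ ⟨x, w⟩ := by
  refine (hatΘ_eq x₀ ((extChartAt (𝓡 n) x₀).map_source hx) _).trans ?_
  exact congrArg Θ (TB616.tb_ext ((extChartAt (𝓡 n) x₀).left_inv hx) (mfderiv_symm_chart x₀ hx w))

theorem mdiffAt_extChart (x₀ : M) {x : M} (hx : x ∈ (extChartAt (𝓡 n) x₀).source) :
    MDifferentiableAt (𝓡 n) 𝓘(ℝ, 𝔼) (extChartAt (𝓡 n) x₀) x :=
  mdifferentiableAt_extChartAt (by simpa using hx)

/-- the differential in the chart -/
theorem diff_chart {u : M → ℝ} (x₀ : M) {b : 𝔼} (hb : b ∈ (extChartAt (𝓡 n) x₀).target)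
    (hd : DifferentiableAt ℝ (u ∘ (extChartAt (𝓡 n) x₀).symm) b) :
    MDifferentiableAt (𝓡 n) 𝓘(ℝ) u ((extChartAt (𝓡 n) x₀).symm b) ∧ ∀ w : 𝔼,
      mfderiv (𝓡 n) 𝓘(ℝ) u ((extChartAt (𝓡 n) x₀).symm b)
        (mfderiv 𝓘(ℝ, 𝔼) (𝓡 n) (extChartAt (𝓡 n) x₀).symm b w) =
      fderiv ℝ (u ∘ (extChartAt (𝓡 n) x₀).symm) b w := by
  set x := (extChartAt (𝓡 n) x₀).symm b with hx
  have hxs : x ∈ (extChartAt (𝓡 n) x₀).source := (extChartAt (𝓡 n) x₀).map_target hb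
  have hφx : extChartAt (𝓡 n) x₀ x = b := (extChartAt (𝓡 n) x₀).right_inv hb
  have hev : u =ᶠ[𝓝 x] (u ∘ (extChartAt (𝓡 n) x₀).symm) ∘ (extChartAt (𝓡 n) x₀) := by
    filter_upwards [(isOpen_extChartAt_source (I := 𝓡 n) x₀).mem_nhds hxs] with y hy
    show u y = u ((extChartAt (𝓡 n) x₀).symm (extChartAt (𝓡 n) x₀ y))
    rw [(extChartAt (𝓡 n) x₀).left_inv hy]
  have hφ := mdiffAt_extChart x₀ hxs
  have hd' : MDifferentiableAt 𝓘(ℝ, 𝔼) 𝓘(ℝ) (u ∘ (extChartAt (𝓡 n) x₀).symm)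
      (extChartAt (𝓡 n) x₀ x) := by
    rw [hφx]; exact hd.mdifferentiableAt
  have hm : MDifferentiableAt (𝓡 n) 𝓘(ℝ)
      ((u ∘ (extChartAt (𝓡 n) x₀).symm) ∘ (extChartAt (𝓡 n) x₀)) x := hd'.comp x hφ
  refine ⟨hm.congr_of_eventuallyEq hev, fun w => ?_⟩
  rw [hev.mfderiv_eq, mfderiv_comp x hd' hφ]
  have h1 := mfderiv_chart_symm x₀ hb w
  rw [mfderiv_eq_fderiv, hφx]
  show fderiv ℝ (u ∘ (extChartAt (𝓡 n) x₀).symm) b
    (mfderiv (𝓡 n) 𝓘(ℝ, 𝔼) (extChartAt (𝓡 n) x₀) x _) = _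
  rw [h1]

end NoMetric

section Metric

variable {n : ℕ} {M : Type*} [MetricSpace M] [ChartedSpace (EuclideanSpace ℝ (Fin n)) M]
  [IsManifold (𝓡 n) ∞ M] [RiemannianBundle (fun p : M => TangentSpace (𝓡 n) p)]
  [IsContMDiffRiemannianBundle (𝓡 n) ∞ (EuclideanSpace ℝ (Fin n))
    (fun p : M => TangentSpace (𝓡 n) p)]
  [IsRiemannianManifold (𝓡 n) M]

local notation "𝔼" => EuclideanSpace ℝ (Fin n)

theorem continuousBundle : IsContinuousRiemannianBundle 𝔼 (fun p : M => TangentSpace (𝓡 n) p) :=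
  R219.Haus.isContinuousRiemannianBundle (d := n) (M := M)

section
attribute [local instance] normedAddCommGroupTangentSpaceVectorSpace
attribute [local instance] normedSpaceTangentSpaceVectorSpace

/-- the differential of the chart is bounded near the centre -/
theorem norm_dchart_le (x₀ : M) : ∃ C : ℝ, 0 < C ∧ ∀ᶠ x in 𝓝 x₀, ∀ w : TangentSpace (𝓡 n) x,
    @norm 𝔼 _ (mfderiv (𝓡 n) 𝓘(ℝ, 𝔼) (extChartAt (𝓡 n) x₀) x w) ≤ C * ‖w‖ := by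
  have := continuousBundle (n := n) (M := M)
  obtain ⟨C₂, hC₂, hev⟩ := eventually_norm_mfderiv_extChartAt_lt (𝓡 n) x₀
  refine ⟨C₂, hC₂, ?_⟩
  filter_upwards [hev] with x hx w
  have h1 := ContinuousLinearMap.le_opNorm (mfderiv (𝓡 n) 𝓘(ℝ, 𝔼) (extChartAt (𝓡 n) x₀) x) w
  exact h1.trans (mul_le_mul_of_nonneg_right hx.le (norm_nonneg _))

end

/-- local version -/
theorem exists_local (x₀ : M) {u : M → ℝ} {C : ℝ≥0} (hu : LipschitzWith C u)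
    {Θ : TangentBundle (𝓡 n) M → ℝ} (hΘ : Continuous Θ)
    (h : ∀ x, MDifferentiableAt (𝓡 n) 𝓘(ℝ) u x → ∀ w : TangentSpace (𝓡 n) x,
      Θ ⟨x, w⟩ ≤ mfderiv (𝓡 n) 𝓘(ℝ) u x w) :
    ∃ V : Set M, IsOpen V ∧ x₀ ∈ V ∧ V ⊆ (extChartAt (𝓡 n) x₀).source ∧ ∀ ε R : ℝ, 0 < ε →
      ∃ v : M → ℝ, ContMDiffOn (𝓡 n) 𝓘(ℝ) ∞ v (extChartAt (𝓡 n) x₀).source ∧
        ∀ x ∈ V, |v x - u x| ≤ ε ∧ ∀ w : TangentSpace (𝓡 n) x, ‖w‖ ≤ R →
          Θ ⟨x, w⟩ - ε ≤ mfderiv (𝓡 n) 𝓘(ℝ) v x w := by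
  obtain ⟨C₁, r, hr, hsub, hL⟩ := DiffAE225.exists_lipschitzOnWith_symm (n := n) x₀
  obtain ⟨C₂, hC₂, hev⟩ := norm_dchart_le (n := n) x₀
  obtain ⟨N, hNsub, hNo, hNx⟩ := _root_.mem_nhds_iff.1 hev
  set φ := extChartAt (𝓡 n) x₀ with hφ
  set V : Set M := N ∩ (φ.source ∩ φ ⁻¹' (ball (φ x₀) (r / 2))) with hV
  have hVo : IsOpen V := by
    refine hNo.inter ?_
    exact (continuousOn_extChartAt (I := 𝓡 n) x₀).isOpen_inter_preimage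
      (isOpen_extChartAt_source (I := 𝓡 n) x₀) isOpen_ball
  refine ⟨V, hVo, ⟨hNx, mem_extChartAt_source (I := 𝓡 n) x₀, mem_ball_self (by linarith)⟩,
    fun x hx => hx.2.1, fun ε R hε => ?_⟩
  have hloc : LocallyLipschitzOn (ball (φ x₀) r) (u ∘ φ.symm) :=
    fun b _ => ⟨C * C₁, ball (φ x₀) r, self_mem_nhdsWithin, hu.comp_lipschitzOnWith hL⟩
  obtain ⟨v, hv, hvK⟩ := exists_smooth_local (E := 𝔼) (Ω := ball (φ x₀) r)
    (K := closedBall (φ x₀) (r / 2)) isOpen_ball (isCompact_closedBall _ _)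
    (closedBall_subset_ball (by linarith)) hloc
    (Θ := hatΘ Θ x₀) ((continuousOn_hatΘ hΘ x₀).mono (prod_mono hsub (subset_univ _)))
    (fun b hb hd w => by
      rw [hatΘ_eq x₀ (hsub hb)]
      obtain ⟨h1, h2⟩ := diff_chart x₀ (hsub hb) hd
      rw [← h2 w]
      exact h _ h1 _) hε (R := C₂ * R)
  have hv' : ContMDiff 𝓘(ℝ, 𝔼) 𝓘(ℝ) ∞ v := hv.contMDiff
  have hφs : ContMDiffOn (𝓡 n) 𝓘(ℝ, 𝔼) ∞ φ φ.source := by
    have := contMDiffOn_extChartAt (I := 𝓡 n) (n := ∞) (x := x₀)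
    rwa [← extChartAt_source (𝓡 n)] at this
  refine ⟨v ∘ φ, hv'.comp_contMDiffOn hφs, fun x hx => ?_⟩
  have hxs : x ∈ φ.source := hx.2.1
  have hxK : φ x ∈ closedBall (φ x₀) (r / 2) := ball_subset_closedBall hx.2.2
  obtain ⟨h1, h2⟩ := hvK (φ x) hxK
  refine ⟨?_, fun w hw => ?_⟩
  · have h3 : φ.symm (φ x) = x := φ.left_inv hxs
    simpa [h3] using h1
  · have hder : mfderiv (𝓡 n) 𝓘(ℝ) (v ∘ φ) x w =
        fderiv ℝ v (φ x) (mfderiv (𝓡 n) 𝓘(ℝ, 𝔼) φ x w) := by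
      rw [mfderiv_comp x (hv'.mdifferentiableAt (by simp)) (mdiffAt_extChart x₀ hxs),
        mfderiv_eq_fderiv]
      rfl
    rw [hder, ← hatΘ_chart (Θ := Θ) x₀ hxs w]
    refine h2 _ ?_
    exact (hNsub hx.1 w).trans (mul_le_mul_of_nonneg_left hw hC₂.le)

end Metric

end

end Crest.Agent.R249.D4_789
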