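import Crest.Agent.R247.Bs2_84

/-!
R249, D3-DECAY (helper308), part 1: pointwise algebra of a system of harmonic functions `u a`,
`a : Fin n`, on an `n`-manifold: `F a b = ⟨du a, du b⟩`, `T a = Hess (u a)`.

* `gram_le`, `gram_mat_le`: a square system of vectors with Gram matrix `≥ c` controls vectors and matrices;
* `Gr_mGam`: gradient of `⟨du, dv⟩`; `koszul`: `2 Hess u (∇v, ∇w)` through the gradients of the Gram matrix;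
* `T_le_dF`: `∑ |T a|² ≤ C ∑ |∇ F a b|²` where the Gram matrix is `≥ c`;
* `dF_le_T`, `lapF_le`.
-/

set_option autoImplicit false
set_option maxSynthPendingDepth 3
set_option linter.unusedSectionVars false

open scoped ContDiff Topology Manifold RealInnerProductSpace
open Filter Set Bundle
open Crest.GeometryTopology.CoordMetric Crest.GeometryTopology.ChartCurvature
open Crest.Agent.R247 Crest.Agent.R247.Bo84 Crest.Agent.R247.Ms322 Crest.Agent.R247.Bs84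
open Crest.Agent.R247.Hes124 (F S mv tr idm)

noncomputable section

namespace Crest.Agent.R249.Dec308

/-! ### linear algebra -/

section LA

variable {n : ℕ}

theorem gram_le {V : Fin n → F n} {c : ℝ} (hc : 0 < c)
    (hV : ∀ x : F n, c * ‖x‖ ^ 2 ≤ ‖∑ b, x b • V b‖ ^ 2) (y : F n) :
    c * ‖y‖ ^ 2 ≤ ∑ b, (⟪V b, y⟫ : ℝ) ^ 2 := by
  let L : F n →ₗ[ℝ] F n :=
    { toFun := fun x => ∑ b, x b • V b
      map_add' := fun x y => by simp [add_smul, Finset.sum_add_distrib]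
      map_smul' := fun a x => by simp [mul_smul, Finset.smul_sum] }
  have hinj : Function.Injective L := by
    rw [← LinearMap.ker_eq_bot, LinearMap.ker_eq_bot']
    intro x hx
    have h1 := hV x
    have h2 : (∑ b, x b • V b) = 0 := hx
    rw [h2, norm_zero] at h1
    have h3 : ‖x‖ ^ 2 ≤ 0 := by nlinarith [sq_nonneg ‖x‖]
    have h4 : ‖x‖ = 0 := by nlinarith [norm_nonneg x]
    exact norm_eq_zero.1 h4
  obtain ⟨x, hx⟩ := LinearMap.surjective_of_injective hinj y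
  have hx' : (∑ b, x b • V b) = y := hx
  have h1 : ‖y‖ ^ 2 = ∑ b, x b * (⟪V b, y⟫ : ℝ) := by
    rw [← real_inner_self_eq_norm_sq]
    nth_rewrite 1 [← hx']
    rw [sum_inner]
    exact Finset.sum_congr rfl fun b _ => by rw [real_inner_smul_left]
  have h2 : (‖y‖ ^ 2) ^ 2 ≤ ‖x‖ ^ 2 * ∑ b, (⟪V b, y⟫ : ℝ) ^ 2 := by
    rw [h1, EuclideanSpace.real_norm_sq_eq]
    exact Finset.sum_mul_sq_le_sq_mul_sq _ _ _
  have h3 := hV x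
  rw [hx'] at h3
  have hS : 0 ≤ ∑ b, (⟪V b, y⟫ : ℝ) ^ 2 := Finset.sum_nonneg fun b _ => sq_nonneg _
  rcases (sq_nonneg ‖y‖).eq_or_lt with h0 | h0
  · rw [← h0, mul_zero]; exact hS
  · have h4 : c * (‖y‖ ^ 2) ^ 2 ≤ ‖y‖ ^ 2 * ∑ b, (⟪V b, y⟫ : ℝ) ^ 2 :=
      calc c * (‖y‖ ^ 2) ^ 2 ≤ c * (‖x‖ ^ 2 * ∑ b, (⟪V b, y⟫ : ℝ) ^ 2) := by gcongr
        _ = (c * ‖x‖ ^ 2) * ∑ b, (⟪V b, y⟫ : ℝ) ^ 2 := by ring
        _ ≤ _ := by gcongr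
    have h5 : ‖y‖ ^ 2 * (c * ‖y‖ ^ 2) ≤ ‖y‖ ^ 2 * ∑ b, (⟪V b, y⟫ : ℝ) ^ 2 := by nlinarith [h4]
    exact le_of_mul_le_mul_left h5 h0

theorem gram_mat_le {V : Fin n → F n} {c : ℝ} (hc : 0 < c)
    (hV : ∀ x : F n, c * ‖x‖ ^ 2 ≤ ‖∑ b, x b • V b‖ ^ 2) (A : S n) :
    c ^ 2 * ‖A‖ ^ 2 ≤ ∑ b, ∑ d, (⟪mv A (V b), V d⟫ : ℝ) ^ 2 := by
  have h1 : c * ‖A‖ ^ 2 ≤ ∑ b, ‖mv A (V b)‖ ^ 2 := by
    rw [Hes124.norm_sq_S, Finset.mul_sum]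
    have e : ∑ b, ‖mv A (V b)‖ ^ 2 = ∑ i, ∑ b, (mv A (V b) i) ^ 2 := by
      rw [Finset.sum_comm]
      exact Finset.sum_congr rfl fun b _ => EuclideanSpace.real_norm_sq_eq _
    rw [e]
    refine Finset.sum_le_sum fun i _ => ?_
    have h2 := gram_le hc hV (WithLp.toLp 2 fun j => A (i, j))
    rw [EuclideanSpace.real_norm_sq_eq] at h2
    refine h2.trans (le_of_eq ?_)
    refine Finset.sum_congr rfl fun b _ => ?_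
    congr 1
  have h2 : ∀ b, c * ‖mv A (V b)‖ ^ 2 ≤ ∑ d, (⟪mv A (V b), V d⟫ : ℝ) ^ 2 := by
    intro b
    refine (gram_le hc hV (mv A (V b))).trans (le_of_eq ?_)
    exact Finset.sum_congr rfl fun d _ => by rw [real_inner_comm]
  calc c ^ 2 * ‖A‖ ^ 2 = c * (c * ‖A‖ ^ 2) := by ring
    _ ≤ c * ∑ b, ‖mv A (V b)‖ ^ 2 := by gcongr
    _ = ∑ b, c * ‖mv A (V b)‖ ^ 2 := by rw [Finset.mul_sum]
    _ ≤ _ := Finset.sum_le_sum fun b _ => h2 b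

end LA

/-! ### on the manifold -/

variable {n : ℕ} {M : Type*} [MetricSpace M] [ChartedSpace (EuclideanSpace ℝ (Fin n)) M]
  [IsManifold (𝓡 n) ∞ M]
  [RiemannianBundle (fun p : M => TangentSpace (𝓡 n) p)]
  [IsContMDiffRiemannianBundle (𝓡 n) ∞ (EuclideanSpace ℝ (Fin n))
    (fun p : M => TangentSpace (𝓡 n) p)]
  [SecondCountableTopology M] [Nonempty M]

local notation "𝔼" => EuclideanSpace ℝ (Fin n)

variable {u v w : M → ℝ} {z : M}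

theorem inner_mv_symm (hu : ContMDiffAt (𝓡 n) 𝓘(ℝ, ℝ) 2 u z) (x y : F n) :
    (⟪mv (Hf u z) x, y⟫ : ℝ) = ⟪mv (Hf u z) y, x⟫ := by
  rw [inner_mv_Hf hu, inner_mv_Hf hu, mHess_symm hu]

theorem Gr_mGam (hu : ContMDiffAt (𝓡 n) 𝓘(ℝ, ℝ) 2 u z) (hv : ContMDiffAt (𝓡 n) 𝓘(ℝ, ℝ) 2 v z) :
    Gr (n := n) (mGam n u v) z = mv (Hf u z) (Gr v z) + mv (Hf v z) (Gr u z) := by
  ext i
  rw [PiLp.add_apply, mv_Hf_apply, mv_Hf_apply, vf_Gr, vf_Gr, Gr_apply', dM_eq,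
    mfderiv_mGam hu hv]

/-- **Koszul identity.** -/
theorem koszul (hu : ContMDiffAt (𝓡 n) 𝓘(ℝ, ℝ) 2 u z) (hv : ContMDiffAt (𝓡 n) 𝓘(ℝ, ℝ) 2 v z)
    (hw : ContMDiffAt (𝓡 n) 𝓘(ℝ, ℝ) 2 w z) :
    2 * (⟪mv (Hf (n := n) u z) (Gr v z), Gr w z⟫ : ℝ) =
      ⟪Gr (n := n) (mGam n u v) z, Gr w z⟫ + ⟪Gr (n := n) (mGam n u w) z, Gr v z⟫ -
        ⟪Gr (n := n) (mGam n v w) z, Gr u z⟫ := by
  rw [Gr_mGam hu hv, Gr_mGam hu hw, Gr_mGam hv hw, inner_add_left, inner_add_left, inner_add_left,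
    inner_mv_symm hu (Gr w z) (Gr v z), inner_mv_symm hv (Gr w z) (Gr u z),
    inner_mv_symm hw (Gr v z) (Gr u z)]
  ring

/-- `|2 T(∇v, ∇w)| ≤ Λ (|∇F_uv| + |∇F_uw| + |∇F_vw|)`. -/
theorem koszul_sq_le (hu : ContMDiffAt (𝓡 n) 𝓘(ℝ, ℝ) 2 u z)
    (hv : ContMDiffAt (𝓡 n) 𝓘(ℝ, ℝ) 2 v z) (hw : ContMDiffAt (𝓡 n) 𝓘(ℝ, ℝ) 2 w z) {Λ : ℝ}
    (h1 : ‖Gr (n := n) u z‖ ≤ Λ) (h2 : ‖Gr (n := n) v z‖ ≤ Λ) (h3 : ‖Gr (n := n) w z‖ ≤ Λ) :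
    (⟪mv (Hf (n := n) u z) (Gr v z), Gr w z⟫ : ℝ) ^ 2 ≤ Λ ^ 2 *
      (‖Gr (n := n) (mGam n u v) z‖ ^ 2 + ‖Gr (n := n) (mGam n u w) z‖ ^ 2 +
        ‖Gr (n := n) (mGam n v w) z‖ ^ 2) := by
  have hk := koszul hu hv hw
  set a := ‖Gr (n := n) (mGam n u v) z‖
  set b := ‖Gr (n := n) (mGam n u w) z‖
  set c := ‖Gr (n := n) (mGam n v w) z‖
  have i1 : |(⟪Gr (n := n) (mGam n u v) z, Gr w z⟫ : ℝ)| ≤ a * Λ :=
    (abs_real_inner_le_norm _ _).trans (by gcongr)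
  have i2 : |(⟪Gr (n := n) (mGam n u w) z, Gr v z⟫ : ℝ)| ≤ b * Λ :=
    (abs_real_inner_le_norm _ _).trans (by gcongr)
  have i3 : |(⟪Gr (n := n) (mGam n v w) z, Gr u z⟫ : ℝ)| ≤ c * Λ :=
    (abs_real_inner_le_norm _ _).trans (by gcongr)
  have h4 : |2 * (⟪mv (Hf (n := n) u z) (Gr v z), Gr w z⟫ : ℝ)| ≤ (a + b + c) * Λ := by
    rw [hk]
    refine (abs_sub _ _).trans ((add_le_add (abs_add_le _ _) le_rfl).trans ?_)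
    linarith
  have h5 : (2 * (⟪mv (Hf (n := n) u z) (Gr v z), Gr w z⟫ : ℝ)) ^ 2 ≤ ((a + b + c) * Λ) ^ 2 := by
    rw [← sq_abs]
    exact pow_le_pow_left₀ (abs_nonneg _) h4 2
  have h6 : (a + b + c) ^ 2 ≤ 3 * (a ^ 2 + b ^ 2 + c ^ 2) := by
    nlinarith [sq_nonneg (a - b), sq_nonneg (a - c), sq_nonneg (b - c)]
  nlinarith [sq_nonneg Λ, mul_le_mul_of_nonneg_left h6 (sq_nonneg Λ), sq_nonneg a, sq_nonneg b,
    sq_nonneg c, mul_nonneg (sq_nonneg Λ) (sq_nonneg a), mul_nonneg (sq_nonneg Λ) (sq_nonneg b),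
    mul_nonneg (sq_nonneg Λ) (sq_nonneg c)]

/-- sum of the squared norms of the Hessians of a system -/
def T2 (n : ℕ) {M : Type*} [MetricSpace M] [ChartedSpace (EuclideanSpace ℝ (Fin n)) M]
    [IsManifold (𝓡 n) ∞ M] [RiemannianBundle (fun p : M => TangentSpace (𝓡 n) p)]
    [IsContMDiffRiemannianBundle (𝓡 n) ∞ (EuclideanSpace ℝ (Fin n))
      (fun p : M => TangentSpace (𝓡 n) p)]
    (U : Fin n → M → ℝ) (z : M) : ℝ := ∑ a, mHessSq n (U a) z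

/-- sum of the squared norms of the gradients of the Gram matrix -/
def dF2 (n : ℕ) {M : Type*} [MetricSpace M] [ChartedSpace (EuclideanSpace ℝ (Fin n)) M]
    [IsManifold (𝓡 n) ∞ M] [RiemannianBundle (fun p : M => TangentSpace (𝓡 n) p)]
    [IsContMDiffRiemannianBundle (𝓡 n) ∞ (EuclideanSpace ℝ (Fin n))
      (fun p : M => TangentSpace (𝓡 n) p)] [SecondCountableTopology M] [Nonempty M]
    (U : Fin n → M → ℝ) (z : M) : ℝ := ∑ a, ∑ b, ‖Gr (n := n) (mGam n (U a) (U b)) z‖ ^ 2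

variable {U : Fin n → M → ℝ}

theorem T2_eq (hU : ∀ a, ContMDiffAt (𝓡 n) 𝓘(ℝ, ℝ) 2 (U a) z) :
    T2 n U z = ∑ a, ‖Hf (n := n) (U a) z‖ ^ 2 :=
  Finset.sum_congr rfl fun a _ => (norm_Hf_sq (hU a)).symm

theorem T2_nonneg (hU : ∀ a, ContMDiffAt (𝓡 n) 𝓘(ℝ, ℝ) 2 (U a) z) : 0 ≤ T2 n U z := by
  rw [T2_eq hU]; positivity

theorem dF2_nonneg : 0 ≤ dF2 n U z := by unfold dF2; positivity

/-- `∑ |T|² ≤ C ∑ |∇F|²` where the Gram matrix is `≥ c`. -/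
theorem T_le_dF {c Λ : ℝ} (hc : 0 < c) (hU : ∀ a, ContMDiffAt (𝓡 n) 𝓘(ℝ, ℝ) 2 (U a) z)
    (hΛ : ∀ a, ‖Gr (n := n) (U a) z‖ ≤ Λ)
    (hV : ∀ x : F n, c * ‖x‖ ^ 2 ≤ ‖∑ b, x b • Gr (n := n) (U b) z‖ ^ 2) :
    c ^ 2 * T2 n U z ≤ 3 * n * Λ ^ 2 * dF2 n U z := by
  rw [T2_eq hU, Finset.mul_sum]
  have h1 : ∀ a, c ^ 2 * ‖Hf (n := n) (U a) z‖ ^ 2 ≤ ∑ b, ∑ d, Λ ^ 2 *
      (‖Gr (n := n) (mGam n (U a) (U b)) z‖ ^ 2 + ‖Gr (n := n) (mGam n (U a) (U d)) z‖ ^ 2 +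
        ‖Gr (n := n) (mGam n (U b) (U d)) z‖ ^ 2) := fun a =>
    (gram_mat_le hc hV (Hf (U a) z)).trans (Finset.sum_le_sum fun b _ =>
      Finset.sum_le_sum fun d _ => koszul_sq_le (hU a) (hU b) (hU d) (hΛ a) (hΛ b) (hΛ d))
  refine (Finset.sum_le_sum fun a _ => h1 a).trans (le_of_eq ?_)
  simp only [← Finset.mul_sum, Finset.sum_add_distrib, Finset.sum_const, Finset.card_univ,
    Fintype.card_fin, nsmul_eq_mul]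
  rw [dF2]
  ring

/-- `∑ |∇F|² ≤ C ∑ |T|²`. -/
theorem dF_le_T {Λ : ℝ} (hU : ∀ a, ContMDiffAt (𝓡 n) 𝓘(ℝ, ℝ) 2 (U a) z)
    (hΛ : ∀ a, ‖Gr (n := n) (U a) z‖ ≤ Λ) :
    dF2 n U z ≤ 4 * n * Λ ^ 2 * T2 n U z := by
  rw [T2_eq hU, dF2]
  have h1 : ∀ a b, ‖Gr (n := n) (mGam n (U a) (U b)) z‖ ^ 2 ≤
      2 * Λ ^ 2 * (‖Hf (n := n) (U a) z‖ ^ 2 + ‖Hf (n := n) (U b) z‖ ^ 2) := by
    intro a b
    rw [Gr_mGam (hU a) (hU b)]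
    have e1 : ‖mv (Hf (U a) z) (Gr (n := n) (U b) z)‖ ≤ ‖Hf (n := n) (U a) z‖ * Λ :=
      (Hes124.norm_mv_le _ _).trans (by gcongr; exact hΛ b)
    have e2 : ‖mv (Hf (U b) z) (Gr (n := n) (U a) z)‖ ≤ ‖Hf (n := n) (U b) z‖ * Λ :=
      (Hes124.norm_mv_le _ _).trans (by gcongr; exact hΛ a)
    have e3 := (norm_add_le (mv (Hf (U a) z) (Gr (n := n) (U b) z))
      (mv (Hf (U b) z) (Gr (n := n) (U a) z))).trans (add_le_add e1 e2)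
    have e4 := pow_le_pow_left₀ (norm_nonneg _) e3 2
    refine e4.trans ?_
    nlinarith [sq_nonneg ((‖Hf (n := n) (U a) z‖ - ‖Hf (n := n) (U b) z‖) * Λ)]
  refine (Finset.sum_le_sum fun a _ => Finset.sum_le_sum fun b _ => h1 a b).trans (le_of_eq ?_)
  simp only [← Finset.mul_sum, Finset.sum_add_distrib, Finset.sum_const, Finset.card_univ,
    Fintype.card_fin, nsmul_eq_mul]
  ring

/-- Laplacian of `|∇u|²`, `u` harmonic near `z`. -/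
theorem lap_mGam_self {ρ Λ : ℝ} (hu : ∀ᶠ y in 𝓝 z, mLap n u y = 0)
    (hs : ContMDiffAt (𝓡 n) 𝓘(ℝ, ℝ) 3 u z)
    (hρ : ∀ x : F n, |(⟪mv (Ricf (n := n) z) x, x⟫ : ℝ)| ≤ ρ * ‖x‖ ^ 2)
    (hΛ : ‖Gr (n := n) u z‖ ≤ Λ) (hρ0 : 0 ≤ ρ) :
    |mLap n (mGam n u u) z| ≤ 2 * ‖Hf (n := n) u z‖ ^ 2 + 2 * ρ * Λ ^ 2 := by
  have h1 := bochner_pt hs
  have h2 : mLap n (hsq n u) z = (1 / 2) * mLap n (mGam n u u) z :=
    mLap_const_mul (1 / 2) (contMDiffAt_mGam (m := 2) hs hs (by norm_num) three_le_infty)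
  have h3 : Gr (n := n) (mLap n u) z = 0 := by
    rw [Gr_congr (g := fun _ => (0:ℝ)) hu]
    ext j
    rw [Gr_apply]
    have : df (n := n) (fun _ : M => (0:ℝ)) z = 0 := by
      unfold df
      rw [mfderiv_const]
      rfl
    rw [this]
    rfl
  rw [h3, inner_zero_right, add_zero, h2] at h1
  have h4 : mLap n (mGam n u u) z = 2 * ‖Hf (n := n) u z‖ ^ 2 +
      2 * ⟪mv (Ricf (n := n) z) (Gr (n := n) u z), Gr u z⟫ := by linarith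
  rw [h4]
  refine (abs_add_le _ _).trans ?_
  rw [abs_of_nonneg (by positivity : (0:ℝ) ≤ 2 * ‖Hf (n := n) u z‖ ^ 2), abs_mul, abs_two]
  have h5 := hρ (Gr (n := n) u z)
  have h6 : ‖Gr (n := n) u z‖ ^ 2 ≤ Λ ^ 2 := pow_le_pow_left₀ (norm_nonneg _) hΛ 2
  nlinarith [mul_le_mul_of_nonneg_left h6 hρ0]

theorem Hf_add (hu : ContMDiffAt (𝓡 n) 𝓘(ℝ, ℝ) 2 u z) (hv : ContMDiffAt (𝓡 n) 𝓘(ℝ, ℝ) 2 v z) :
    Hf (n := n) (fun q => u q + v q) z = Hf u z + Hf v z := by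
  ext ij
  rw [PiLp.add_apply]
  exact mHess_add hu hv _ _

theorem mGam_polar (hu : MDifferentiableAt (𝓡 n) 𝓘(ℝ, ℝ) u z)
    (hv : MDifferentiableAt (𝓡 n) 𝓘(ℝ, ℝ) v z) :
    mGam n (fun q => u q + v q) (fun q => u q + v q) z =
      mGam n u u z + 2 * mGam n u v z + mGam n v v z := by
  rw [mGam_add_left hu hv, mGam_add_right hu hv, mGam_add_right hu hv, mGam_comm v u]
  ring

/-- Laplacian of `⟨∇u, ∇v⟩`, `u`, `v` harmonic near `z`. -/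
theorem lap_mGam {ρ Λ : ℝ} (hu : ∀ᶠ y in 𝓝 z, mLap n u y = 0) (hv : ∀ᶠ y in 𝓝 z, mLap n v y = 0)
    (hsu : ContMDiffAt (𝓡 n) 𝓘(ℝ, ℝ) 3 u z) (hsv : ContMDiffAt (𝓡 n) 𝓘(ℝ, ℝ) 3 v z)
    (hρ : ∀ x : F n, |(⟪mv (Ricf (n := n) z) x, x⟫ : ℝ)| ≤ ρ * ‖x‖ ^ 2)
    (hΛu : ‖Gr (n := n) u z‖ ≤ Λ) (hΛv : ‖Gr (n := n) v z‖ ≤ Λ) (hρ0 : 0 ≤ ρ) :
    |mLap n (mGam n u v) z| ≤
      3 * (‖Hf (n := n) u z‖ ^ 2 + ‖Hf (n := n) v z‖ ^ 2) + 6 * ρ * Λ ^ 2 := by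
  have hu2 := hsu.of_le (m := 2) (by norm_num)
  have hv2 := hsv.of_le (m := 2) (by norm_num)
  have : IsManifold (𝓡 n) 2 M := IsManifold.of_le (n := ∞) two_le_infty
  have hev : ∀ᶠ y in 𝓝 z, ContMDiffAt (𝓡 n) 𝓘(ℝ, ℝ) 2 u y ∧ ContMDiffAt (𝓡 n) 𝓘(ℝ, ℝ) 2 v y :=
    ((contMDiffAt_iff_contMDiffAt_nhds (by norm_num)).1 hu2).and
      ((contMDiffAt_iff_contMDiffAt_nhds (by norm_num)).1 hv2)
  have hs : ContMDiffAt (𝓡 n) 𝓘(ℝ, ℝ) 3 (fun q => u q + v q) z := hsu.add hsv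
  have hh : ∀ᶠ y in 𝓝 z, mLap n (fun q => u q + v q) y = 0 := by
    filter_upwards [hu, hv, hev] with y h1 h2 h3
    rw [mLap_add h3.1 h3.2, h1, h2, add_zero]
  have hG : Gr (n := n) (fun q => u q + v q) z = Gr u z + Gr v z :=
    Gr_add (hu2.mdifferentiableAt (by norm_num)) (hv2.mdifferentiableAt (by norm_num))
  have hΛ : ‖Gr (n := n) (fun q => u q + v q) z‖ ≤ 2 * Λ := by
    rw [hG]; refine (norm_add_le _ _).trans ?_; linarith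
  have b1 := lap_mGam_self hh hs hρ hΛ hρ0
  have b2 := lap_mGam_self hu hsu hρ hΛu hρ0
  have b3 := lap_mGam_self hv hsv hρ hΛv hρ0
  have hG2 : ∀ {f g : M → ℝ}, ContMDiffAt (𝓡 n) 𝓘(ℝ, ℝ) 3 f z → ContMDiffAt (𝓡 n) 𝓘(ℝ, ℝ) 3 g z →
      ContMDiffAt (𝓡 n) 𝓘(ℝ, ℝ) 2 (mGam n f g) z := fun hf hg =>
    contMDiffAt_mGam (m := 2) hf hg (by norm_num) three_le_infty
  have e1 : mLap n (mGam n (fun q => u q + v q) (fun q => u q + v q)) z =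
      mLap n (mGam n u u) z + 2 * mLap n (mGam n u v) z + mLap n (mGam n v v) z := by
    have e2 : mGam n (fun q => u q + v q) (fun q => u q + v q) =ᶠ[𝓝 z]
        fun y => (mGam n u u y + 2 * mGam n u v y) + mGam n v v y := by
      filter_upwards [hev] with y h3
      exact mGam_polar (h3.1.mdifferentiableAt (by norm_num)) (h3.2.mdifferentiableAt (by norm_num))
    have c1 : ContMDiffAt (𝓡 n) 𝓘(ℝ, ℝ) 2 (fun y => 2 * mGam n u v y) z :=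
      contMDiffAt_const.mul (hG2 hsu hsv)
    have c2 : ContMDiffAt (𝓡 n) 𝓘(ℝ, ℝ) 2 (fun y => mGam n u u y + 2 * mGam n u v y) z :=
      (hG2 hsu hsu).add c1
    rw [mLap_congr e2, mLap_add c2 (hG2 hsv hsv), mLap_add (hG2 hsu hsu) c1,
      mLap_const_mul 2 (hG2 hsu hsv)]
  have hH : ‖Hf (n := n) (fun q => u q + v q) z‖ ^ 2 ≤
      2 * (‖Hf (n := n) u z‖ ^ 2 + ‖Hf (n := n) v z‖ ^ 2) := by
    rw [Hf_add hu2 hv2]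
    have h1 := norm_add_le (Hf (n := n) u z) (Hf v z)
    have h2 := pow_le_pow_left₀ (norm_nonneg _) h1 2
    nlinarith [sq_nonneg (‖Hf (n := n) u z‖ - ‖Hf (n := n) v z‖)]
  have e3 : 2 * mLap n (mGam n u v) z = mLap n (mGam n (fun q => u q + v q) (fun q => u q + v q)) z -
      mLap n (mGam n u u) z - mLap n (mGam n v v) z := by rw [e1]; ring
  have h9 : |2 * mLap n (mGam n u v) z| ≤
      (2 * (2 * (‖Hf (n := n) u z‖ ^ 2 + ‖Hf (n := n) v z‖ ^ 2)) + 2 * ρ * (2 * Λ) ^ 2) +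
      (2 * ‖Hf (n := n) u z‖ ^ 2 + 2 * ρ * Λ ^ 2) + (2 * ‖Hf (n := n) v z‖ ^ 2 + 2 * ρ * Λ ^ 2) := by
    rw [e3]
    refine (abs_sub _ _).trans (add_le_add ((abs_sub _ _).trans (add_le_add ?_ b2)) b3)
    refine b1.trans ?_
    linarith
  rw [abs_mul, abs_two] at h9
  nlinarith [h9]

/-- `∑ (ΔF)² ≤ C ((∑ |T|²)² + Λ⁴ ρ²)`. -/
theorem lapF_le {ρ Λ : ℝ} (hu : ∀ a, ∀ᶠ y in 𝓝 z, mLap n (U a) y = 0)
    (hs : ∀ a, ContMDiffAt (𝓡 n) 𝓘(ℝ, ℝ) 3 (U a) z)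
    (hρ : ∀ x : F n, |(⟪mv (Ricf (n := n) z) x, x⟫ : ℝ)| ≤ ρ * ‖x‖ ^ 2)
    (hΛ : ∀ a, ‖Gr (n := n) (U a) z‖ ≤ Λ) (hρ0 : 0 ≤ ρ) :
    ∀ a b, mLap n (mGam n (U a) (U b)) z ^ 2 ≤ 72 * (T2 n U z ^ 2 + Λ ^ 4 * ρ ^ 2) := by
  intro a b
  have hU2 : ∀ a, ContMDiffAt (𝓡 n) 𝓘(ℝ, ℝ) 2 (U a) z := fun a => (hs a).of_le (by norm_num)
  have h1 := lap_mGam (hu a) (hu b) (hs a) (hs b) hρ (hΛ a) (hΛ b) hρ0
  have hT : ∀ a, ‖Hf (n := n) (U a) z‖ ^ 2 ≤ T2 n U z := by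
    intro a
    rw [T2_eq hU2]
    exact Finset.single_le_sum (f := fun a => ‖Hf (n := n) (U a) z‖ ^ 2) (fun b _ => sq_nonneg _)
      (Finset.mem_univ a)
  have h2 : |mLap n (mGam n (U a) (U b)) z| ≤ 6 * T2 n U z + 6 * ρ * Λ ^ 2 := by
    refine h1.trans ?_
    linarith [hT a, hT b]
  have h3 := pow_le_pow_left₀ (abs_nonneg _) h2 2
  rw [sq_abs] at h3
  nlinarith [sq_nonneg (T2 n U z - ρ * Λ ^ 2)]

end Crest.Agent.R249.Dec308
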