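import Mathlib

/-!
R249, D3-DECAY (helper308), part 2: the numerical iteration.

`iterate`: from the one step inequality
`θ (k+1) ≤ C₀ (τ² θ k + τ⁻² ((θ k + R k)² + R k + √(θ k) (θ k + R k)))`,
the drift `δ (k+1) ≤ δ k + D τ * √(θ k)` and `R k ≤ K (ρ τ^{4k} + e²)` to
`θ k ≤ C (τ^{2αk} (θ 0 + ρ) + e²)` as long as `k e ≤ c`.
-/

set_option autoImplicit false

open Real

namespace Crest.Agent.R249.Dec308

/-- choice of the ratio `τ` -/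
theorem exists_tau {C₀ α : ℝ} (hC : 1 ≤ C₀) (hα0 : 0 < α) (hα : α < 1) :
    ∃ τ : ℝ, 0 < τ ∧ τ ≤ 1 / 8 ∧ C₀ * τ ^ 2 ≤ 1 / 2 * τ ^ (2 * α) ∧ τ ^ 4 < τ ^ (2 * α) ∧
      τ ^ (2 * α) < 1 := by
  have h1 : 0 < 2 - 2 * α := by linarith
  have h2 : 0 < 1 / (2 * C₀) := by positivity
  set τ : ℝ := min (1 / 8) ((1 / (2 * C₀)) ^ (1 / (2 - 2 * α))) with hτ
  have hτ0 : 0 < τ := lt_min (by norm_num) (Real.rpow_pos_of_pos h2 _)
  have hτ8 : τ ≤ 1 / 8 := min_le_left _ _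
  have h3 : τ ^ (2 - 2 * α) ≤ 1 / (2 * C₀) := by
    have h4 : τ ^ (2 - 2 * α) ≤ ((1 / (2 * C₀)) ^ (1 / (2 - 2 * α))) ^ (2 - 2 * α) :=
      Real.rpow_le_rpow hτ0.le (min_le_right _ _) h1.le
    rwa [← Real.rpow_mul h2.le, one_div_mul_cancel h1.ne', Real.rpow_one] at h4
  refine ⟨τ, hτ0, hτ8, ?_, ?_, ?_⟩
  · have h5 : τ ^ 2 = τ ^ (2 * α) * τ ^ (2 - 2 * α) := by
      rw [← Real.rpow_add hτ0]
      norm_num
    rw [h5]
    have h6 : 0 < τ ^ (2 * α) := Real.rpow_pos_of_pos hτ0 _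
    calc C₀ * (τ ^ (2 * α) * τ ^ (2 - 2 * α)) ≤ C₀ * (τ ^ (2 * α) * (1 / (2 * C₀))) := by gcongr
      _ = 1 / 2 * τ ^ (2 * α) := by field_simp
  · have h7 : τ ^ (4:ℕ) = τ ^ (4:ℝ) := by norm_cast
    rw [h7]
    exact Real.rpow_lt_rpow_of_exponent_gt hτ0 (by linarith) (by linarith)
  · exact Real.rpow_lt_one hτ0.le (by linarith) (by linarith)

/-- absorption of the quadratic terms -/
theorem absorb {C₀ τ β : ℝ} (hC : 1 ≤ C₀) (hτ : 0 < τ) (hβ : 0 < β)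
    (h : C₀ * τ ^ 2 ≤ 1 / 2 * β) :
    ∃ ε : ℝ, 0 < ε ∧ ε ≤ 1 ∧ ∀ θ R : ℝ, 0 ≤ θ → 0 ≤ R → θ + R ≤ ε →
      C₀ * (τ ^ 2 * θ + τ⁻¹ ^ 2 * ((θ + R) ^ 2 + R + √θ * (θ + R))) ≤
        β * θ + 3 * C₀ * τ⁻¹ ^ 2 * R := by
  obtain ⟨D, hD⟩ : ∃ D, D = C₀ * τ⁻¹ ^ 2 := ⟨_, rfl⟩
  have hD0 : 0 < D := by rw [hD]; positivity
  obtain ⟨ε, hε⟩ : ∃ ε : ℝ, ε = min 1 ((β / (4 * D)) ^ 2) := ⟨_, rfl⟩
  have hε0 : 0 < ε := by rw [hε]; exact lt_min one_pos (by positivity)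
  have hε1 : ε ≤ 1 := by rw [hε]; exact min_le_left _ _
  have hsq : √ε ≤ β / (4 * D) := by
    rw [Real.sqrt_le_left (by positivity), hε]
    exact min_le_right _ _
  have hs1 : √ε ≤ 1 := (Real.sqrt_le_sqrt hε1).trans_eq Real.sqrt_one
  have hεs : ε ≤ √ε := by
    calc ε = √ε * √ε := (Real.mul_self_sqrt hε0.le).symm
      _ ≤ √ε * 1 := by gcongr
      _ = √ε := mul_one _
  refine ⟨ε, hε0, hε1, fun θ R hθ hR hs => ?_⟩
  have h0 : 0 ≤ θ + R := by linarith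
  have h1 : (θ + R) ^ 2 ≤ √ε * (θ + R) := by
    rw [sq]
    exact mul_le_mul_of_nonneg_right (hs.trans hεs) h0
  have h2 : √θ * (θ + R) ≤ √ε * (θ + R) :=
    mul_le_mul_of_nonneg_right (Real.sqrt_le_sqrt (by linarith)) h0
  have h4 : C₀ * (τ ^ 2 * θ + τ⁻¹ ^ 2 * ((θ + R) ^ 2 + R + √θ * (θ + R))) =
      C₀ * τ ^ 2 * θ + D * ((θ + R) ^ 2 + R + √θ * (θ + R)) := by rw [hD]; ring
  have h5 : D * (2 * √ε) ≤ 1 / 2 * β := by
    have h51 : D * (2 * √ε) ≤ D * (2 * (β / (4 * D))) := by gcongr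
    refine h51.trans (le_of_eq ?_)
    field_simp
    ring
  have h60 : (θ + R) ^ 2 + R + √θ * (θ + R) ≤ 2 * √ε * (θ + R) + R := by linarith
  have h6 : D * ((θ + R) ^ 2 + R + √θ * (θ + R)) ≤ D * (2 * √ε * (θ + R) + R) :=
    mul_le_mul_of_nonneg_left h60 hD0.le
  have h7 : D * (2 * √ε * (θ + R) + R) = D * (2 * √ε) * θ + (D * (2 * √ε) + D) * R := by ring
  have h8 : D * (2 * √ε) * θ ≤ 1 / 2 * β * θ := mul_le_mul_of_nonneg_right h5 hθ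
  have h90 : D * (2 * √ε) + D ≤ 3 * D := by
    have h91 : D * (2 * √ε) ≤ D * (2 * 1) := by gcongr
    linarith
  have h9 : (D * (2 * √ε) + D) * R ≤ 3 * D * R := mul_le_mul_of_nonneg_right h90 hR
  have h10 : C₀ * τ ^ 2 * θ ≤ 1 / 2 * β * θ := mul_le_mul_of_nonneg_right h hθ
  have h11 : 3 * D * R = 3 * C₀ * τ⁻¹ ^ 2 * R := by rw [hD]; ring
  rw [h4]
  linarith

/-- from the exact recursion to the simple bound -/
theorem ar1 {x b t θ₀ ρ e2 C₂ C₃ L : ℝ} (hb : 0 ≤ b) (ht : 0 ≤ t) (hθ : 0 ≤ θ₀) (hρ : 0 ≤ ρ)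
    (he : 0 ≤ e2) (h2 : 0 ≤ C₂) (h3 : 0 ≤ C₃) (hL : L = 1 + C₂ + C₃)
    (hx : x ≤ b * θ₀ + C₂ * ρ * (b - t) + C₃ * e2) : x ≤ L * (b * (θ₀ + ρ) + e2) := by
  have h1 : 0 ≤ C₂ * ρ * t := by positivity
  have h4 : 0 ≤ (C₂ + C₃) * b * θ₀ := by positivity
  have h5 : 0 ≤ (1 + C₃) * b * ρ := by positivity
  have h6 : 0 ≤ (1 + C₂) * e2 := by positivity
  have e1 : L * (b * (θ₀ + ρ) + e2) = (b * θ₀ + C₂ * ρ * (b - t) + C₃ * e2) + C₂ * ρ * t +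
      (C₂ + C₃) * b * θ₀ + (1 + C₃) * b * ρ + (1 + C₂) * e2 := by
    rw [hL]; ring
  linarith

/-- the drift bound -/
theorem ar2 {s p A L D y Q : ℝ} (hs : s < 1) (hp : 0 ≤ p) (hA : 0 ≤ A) (hL : 0 ≤ L)
    (hD : 0 ≤ D) (hy : 0 ≤ y) (hQ : Q = D * √L / (1 - s) + D * √L) :
    D * (√(L * A) * ((1 - p) / (1 - s)) + √L * y) ≤ Q * (√A + y) := by
  have hd : 0 < 1 - s := by linarith
  have i1 : (1 - p) / (1 - s) ≤ 1 / (1 - s) := by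
    gcongr
    linarith
  have i2 : √(L * A) = √L * √A := Real.sqrt_mul hL _
  rw [i2]
  have i3 : √L * √A * ((1 - p) / (1 - s)) ≤ √L * √A * (1 / (1 - s)) :=
    mul_le_mul_of_nonneg_left i1 (by positivity)
  have i3' : D * (√L * √A * ((1 - p) / (1 - s)) + √L * y) ≤
      D * (√L * √A * (1 / (1 - s)) + √L * y) :=
    mul_le_mul_of_nonneg_left (by linarith) hD
  refine i3'.trans ?_
  have i4 : 0 ≤ D * √L * √A := by positivity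
  have i5 : 0 ≤ D * √L / (1 - s) * y := by positivity
  have e1 : D * (√L * √A * (1 / (1 - s)) + √L * y) =
    D * √L / (1 - s) * √A + D * √L * y := by ring
  have e2 : Q * (√A + y) = D * √L / (1 - s) * √A + D * √L * y + D * √L * √A +
    D * √L / (1 - s) * y := by rw [hQ]; ring
  rw [e1, e2]
  linarith

/-- smallness of the drift -/
theorem ar3 {A ε Q y : ℝ} (hQ : 0 < Q) (hA : A ≤ 2 * ε) (hε : ε ≤ 1 / (1024 * Q ^ 2 + 1))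
    (hy : y ≤ 1 / (16 * Q)) : Q * (√A + y) ≤ 1 / 8 := by
  have h1 : √A ≤ 1 / (16 * Q) := by
    rw [Real.sqrt_le_left (by positivity)]
    have i2 : 1 / (1024 * Q ^ 2 + 1) ≤ 1 / (1024 * Q ^ 2) := by
      apply one_div_le_one_div_of_le (by positivity)
      linarith
    have i3 : (1 / (16 * Q)) ^ 2 = 1 / (256 * Q ^ 2) := by field_simp; norm_num
    have i4 : 1 / (1024 * Q ^ 2) = 1 / 4 * (1 / (256 * Q ^ 2)) := by field_simp; norm_num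
    have i5 : 0 < 1 / (256 * Q ^ 2) := by positivity
    rw [i3]
    linarith
  have h2 : √A + y ≤ 2 * (1 / (16 * Q)) := by linarith
  calc Q * (√A + y) ≤ Q * (2 * (1 / (16 * Q))) := mul_le_mul_of_nonneg_left h2 hQ.le
    _ = 1 / 8 := by field_simp; norm_num

/-- square root of the bound -/
theorem ar4 {x L b A e s : ℝ} (hx : x ≤ L * (b * A + e ^ 2)) (hL : 0 ≤ L) (hA : 0 ≤ A)
    (he : 0 ≤ e) (hs : 0 ≤ s) (hb : s ^ 2 = b) : √x ≤ √(L * A) * s + √L * e := by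
  rw [Real.sqrt_le_left (by positivity)]
  refine hx.trans ?_
  have e1 : (√(L * A) * s + √L * e) ^ 2 = (√(L * A)) ^ 2 * s ^ 2 +
      (√L) ^ 2 * e ^ 2 + 2 * (√(L * A) * s * (√L * e)) := by ring
  rw [e1, Real.sq_sqrt (by positivity), Real.sq_sqrt hL, hb]
  have h1 : 0 ≤ 2 * (√(L * A) * s * (√L * e)) := by positivity
  linarith

/-- the recursion step for `θ` -/
theorem ar5 {x y β t C₁ C₂ C₃ K ρ e2 θ₀ R : ℝ} {k : ℕ} (hβ : 0 ≤ β) (hC₁ : 0 ≤ C₁)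
    (h3 : C₂ * (β - t) = C₁ * K) (h4 : C₃ * (1 - β) = C₁ * K)
    (hR : R ≤ K * (ρ * t ^ k + e2)) (hy : y ≤ β * x + C₁ * R)
    (hx : x ≤ β ^ k * θ₀ + C₂ * ρ * (β ^ k - t ^ k) + C₃ * e2) :
    y ≤ β ^ (k + 1) * θ₀ + C₂ * ρ * (β ^ (k + 1) - t ^ (k + 1)) + C₃ * e2 := by
  have h1 : β * x ≤ β * (β ^ k * θ₀ + C₂ * ρ * (β ^ k - t ^ k) + C₃ * e2) :=
    mul_le_mul_of_nonneg_left hx hβ
  have h2 : C₁ * R ≤ C₁ * (K * (ρ * t ^ k + e2)) := mul_le_mul_of_nonneg_left hR hC₁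
  have e1 : C₁ * (K * (ρ * t ^ k + e2)) =
      (C₂ * (β - t)) * (ρ * t ^ k) + (C₃ * (1 - β)) * e2 := by
    rw [h3, h4]; ring
  have h5 : β * (β ^ k * θ₀ + C₂ * ρ * (β ^ k - t ^ k) + C₃ * e2) +
      C₁ * (K * (ρ * t ^ k + e2)) =
      β ^ (k + 1) * θ₀ + C₂ * ρ * (β ^ (k + 1) - t ^ (k + 1)) + C₃ * e2 := by
    rw [e1]
    ring
  linarith

/-- smallness of `θ + R` -/
theorem ar6 {x R L b A e2 K ρ ε ε₁ : ℝ} (hL : 0 ≤ L) (hK : 0 ≤ K) (hε : 0 ≤ ε)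
    (hx : x ≤ L * (b * A + e2)) (hb : b ≤ 1) (hA0 : 0 ≤ A) (hA : A ≤ 2 * ε)
    (he : e2 ≤ ε) (hρ : ρ ≤ ε) (hR : R ≤ K * (ρ + e2)) (hεb : ε ≤ ε₁ / (4 * (L + K + 1))) :
    x + R ≤ ε₁ := by
  have h1 : b * A ≤ 1 * A := mul_le_mul_of_nonneg_right hb hA0
  have h2 : L * (b * A + e2) ≤ L * (3 * ε) := mul_le_mul_of_nonneg_left (by linarith) hL
  have h3 : K * (ρ + e2) ≤ K * (2 * ε) := mul_le_mul_of_nonneg_left (by linarith) hK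
  have h4 : L * (3 * ε) + K * (2 * ε) ≤ 4 * (L + K + 1) * ε := by nlinarith [mul_nonneg hL hε, mul_nonneg hK hε]
  have h5 : 4 * (L + K + 1) * ε ≤ 4 * (L + K + 1) * (ε₁ / (4 * (L + K + 1))) :=
    mul_le_mul_of_nonneg_left hεb (by positivity)
  have h6 : 4 * (L + K + 1) * (ε₁ / (4 * (L + K + 1))) = ε₁ := by
    have : (4 * (L + K + 1)) ≠ 0 := by positivity
    field_simp
  linarith

/-- **the iteration** -/
theorem iterate {C₀ K α κ : ℝ} (D : ℝ → ℝ) (hC : 1 ≤ C₀) (hK : 0 ≤ K) (hκ : 0 < κ)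
    (hD : ∀ t, 0 < t → 0 ≤ D t) (hα0 : 0 < α) (hα : α < 1) :
    ∃ τ ε C c : ℝ, 0 < τ ∧ τ ≤ 1 / 8 ∧ 0 < ε ∧ 0 < C ∧ 0 < c ∧
      ∀ (θ R δ : ℕ → ℝ) (e ρ : ℝ), (∀ k, 0 ≤ θ k) → (∀ k, 0 ≤ R k) → 0 ≤ e → 0 ≤ ρ →
        θ 0 ≤ ε → δ 0 ≤ 1 / 16 → ρ ≤ ε → e ≤ ε → (∀ k, R k ≤ K * (ρ * τ ^ (4 * k) + e ^ 2)) →
        (∀ k, δ k ≤ 1 / 4 → R k ≤ κ → θ (k + 1) ≤
          C₀ * (τ ^ 2 * θ k + τ⁻¹ ^ 2 * ((θ k + R k) ^ 2 + R k + √(θ k) * (θ k + R k)))) →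
        (∀ k, δ k ≤ 1 / 4 → δ (k + 1) ≤ δ k + D τ * √(θ k)) →
        ∀ k : ℕ, k * e ≤ c → θ k ≤ C * (τ ^ (2 * α * k) * (θ 0 + ρ) + e ^ 2) ∧
          δ k ≤ δ 0 + C * (√(θ 0 + ρ) + k * e) ∧ δ k ≤ 1 / 4 ∧ R k ≤ κ := by
  obtain ⟨τ, hτ0, hτ8, hτ1, hτ4, hβ1⟩ := exists_tau hC hα0 hα
  obtain ⟨β, hβ⟩ : ∃ β, β = τ ^ (2 * α) := ⟨_, rfl⟩
  rw [← hβ] at hτ1 hτ4 hβ1
  have hβ0 : 0 < β := hβ ▸ Real.rpow_pos_of_pos hτ0 _
  obtain ⟨ε₁, hε₁0, hε₁1, habs⟩ := absorb hC hτ0 hβ0 hτ1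
  obtain ⟨C₁, hC₁⟩ : ∃ C₁, C₁ = 3 * C₀ * τ⁻¹ ^ 2 := ⟨_, rfl⟩
  have hC₁0 : 0 < C₁ := by rw [hC₁]; positivity
  have hd2 : 0 < β - τ ^ 4 := by linarith
  have hd3 : 0 < 1 - β := by linarith
  obtain ⟨C₂, hC₂⟩ : ∃ C₂, C₂ = C₁ * K / (β - τ ^ 4) := ⟨_, rfl⟩
  obtain ⟨C₃, hC₃⟩ : ∃ C₃, C₃ = C₁ * K / (1 - β) := ⟨_, rfl⟩
  have hC₂0 : 0 ≤ C₂ := by rw [hC₂]; positivity
  have hC₃0 : 0 ≤ C₃ := by rw [hC₃]; positivity
  have h32 : C₂ * (β - τ ^ 4) = C₁ * K := by rw [hC₂]; field_simp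
  have h33 : C₃ * (1 - β) = C₁ * K := by rw [hC₃]; field_simp
  obtain ⟨s, hs⟩ : ∃ s, s = √β := ⟨_, rfl⟩
  have hs0 : 0 < s := hs ▸ Real.sqrt_pos.2 hβ0
  have hs1 : s < 1 := by rw [hs, Real.sqrt_lt' one_pos]; simpa using hβ1
  have hs2 : s ^ 2 = β := by rw [hs, Real.sq_sqrt hβ0.le]
  have hd4 : 0 < 1 - s := by linarith
  obtain ⟨L, hL⟩ : ∃ L, L = 1 + C₂ + C₃ := ⟨_, rfl⟩
  have hL1 : 1 ≤ L := by linarith
  have hL0 : 0 < L := by linarith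
  obtain ⟨E, hE⟩ : ∃ E, E = D τ + 1 := ⟨_, rfl⟩
  have hDτ := hD τ hτ0
  have hE0 : 0 < E := by linarith
  obtain ⟨Q, hQ⟩ : ∃ Q, Q = E * √L / (1 - s) + E * √L := ⟨_, rfl⟩
  have hQ0 : 0 < Q := by rw [hQ]; positivity
  obtain ⟨ε, hε⟩ : ∃ ε, ε = min (min (1 / (1024 * Q ^ 2 + 1)) (ε₁ / (4 * (L + K + 1))))
    (min (κ / (2 * (K + 1))) 1) := ⟨_, rfl⟩
  have hε0 : 0 < ε := by
    rw [hε]
    exact lt_min (lt_min (by positivity) (by positivity)) (lt_min (by positivity) one_pos)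
  have hεa : ε ≤ 1 / (1024 * Q ^ 2 + 1) := hε ▸ (min_le_left _ _).trans (min_le_left _ _)
  have hεb : ε ≤ ε₁ / (4 * (L + K + 1)) := hε ▸ (min_le_left _ _).trans (min_le_right _ _)
  have hεc : ε ≤ κ / (2 * (K + 1)) := hε ▸ (min_le_right _ _).trans (min_le_left _ _)
  have hε1 : ε ≤ 1 := hε ▸ (min_le_right _ _).trans (min_le_right _ _)
  clear hε
  refine ⟨τ, ε, L + Q, 1 / (16 * Q), hτ0, hτ8, hε0, by positivity, by positivity, ?_⟩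
  intro θ R δ e ρ hθ hR he hρ hθ0 hδ0 hρε heε hRK hstep hdrift
  obtain ⟨A, hA⟩ : ∃ A, A = θ 0 + ρ := ⟨_, rfl⟩
  have hA0 : 0 ≤ A := by have := hθ 0; linarith
  have hA2 : A ≤ 2 * ε := by linarith
  have hτ1' : τ ≤ 1 := by linarith
  have hpow : ∀ k : ℕ, β ^ k = τ ^ (2 * α * k) := by
    intro k
    rw [hβ, ← Real.rpow_natCast, ← Real.rpow_mul hτ0.le]
  have hβk : ∀ k : ℕ, β ^ k ≤ 1 := fun k => pow_le_one₀ hβ0.le hβ1.le
  have hRK' : ∀ k, R k ≤ K * (ρ * (τ ^ 4) ^ k + e ^ 2) := fun k => by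
    rw [← pow_mul]; exact hRK k
  have hRsmall : ∀ k, R k ≤ K * (ρ + e ^ 2) := by
    intro k
    refine (hRK' k).trans (mul_le_mul_of_nonneg_left ?_ hK)
    have h1 : (τ ^ 4) ^ k ≤ 1 := pow_le_one₀ (by positivity) (by linarith)
    have h2 : ρ * (τ ^ 4) ^ k ≤ ρ * 1 := mul_le_mul_of_nonneg_left h1 hρ
    linarith
  have he2 : e ^ 2 ≤ ε := by
    have : e ^ 2 ≤ e * 1 := by rw [sq]; exact mul_le_mul_of_nonneg_left (by linarith) he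
    linarith
  have he20 : 0 ≤ e ^ 2 := sq_nonneg e
  have hRκ : ∀ k, R k ≤ κ := by
    intro k
    refine (hRsmall k).trans ?_
    have h1 : K * (ρ + e ^ 2) ≤ K * (2 * ε) := mul_le_mul_of_nonneg_left (by linarith) hK
    have h2 : K * (2 * ε) ≤ (K + 1) * (2 * ε) :=
      mul_le_mul_of_nonneg_right (by linarith) (by linarith)
    have h3 : (K + 1) * (2 * ε) ≤ (K + 1) * (2 * (κ / (2 * (K + 1)))) :=
      mul_le_mul_of_nonneg_left (by linarith) (by linarith)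
    have h4 : (K + 1) * (2 * (κ / (2 * (K + 1)))) = κ := by field_simp
    linarith
  have hstepE : ∀ k, δ k ≤ 1 / 4 → δ (k + 1) ≤ δ k + E * √(θ k) := by
    intro k hk
    refine (hdrift k hk).trans ?_
    have : D τ * √(θ k) ≤ E * √(θ k) :=
      mul_le_mul_of_nonneg_right (by linarith) (Real.sqrt_nonneg _)
    linarith
  have hkey : ∀ k : ℕ, (k:ℝ) * e ≤ 1 / (16 * Q) →
      θ k ≤ β ^ k * θ 0 + C₂ * ρ * (β ^ k - (τ ^ 4) ^ k) + C₃ * e ^ 2 ∧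
      δ k ≤ δ 0 + E * (√(L * A) * ((1 - s ^ k) / (1 - s)) + √L * (k * e)) := by
    intro k
    induction k with
    | zero =>
      intro _
      simp only [pow_zero, one_mul, sub_self, mul_zero, add_zero, Nat.cast_zero, zero_mul, zero_div]
      refine ⟨?_, le_rfl⟩
      have : 0 ≤ C₃ * e ^ 2 := by positivity
      linarith
    | succ k ih =>
      intro hk
      have hk' : (k:ℝ) * e ≤ 1 / (16 * Q) := by
        refine le_trans ?_ hk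
        exact mul_le_mul_of_nonneg_right (by push_cast; linarith) he
      obtain ⟨ih1, ih2⟩ := ih hk'
      have hθk : θ k ≤ L * (β ^ k * A + e ^ 2) := by
        rw [hA]
        exact ar1 (by positivity) (by positivity) (hθ 0) hρ he20 hC₂0 hC₃0 hL ih1
      have hke : 0 ≤ (k:ℝ) * e := by positivity
      have hδk : δ k ≤ 1 / 4 := by
        have h1 := ar2 (p := s ^ k) hs1 (by positivity) hA0 hL0.le hE0.le hke hQ
        have h2 := ar3 hQ0 hA2 hεa hk'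
        linarith
      have hsum : θ k + R k ≤ ε₁ :=
        ar6 hL0.le hK hε0.le hθk (hβk k) hA0 hA2 he2 hρε (hRsmall k) hεb
      have hst := (hstep k hδk (hRκ k)).trans (habs (θ k) (R k) (hθ k) (hR k) hsum)
      rw [← hC₁] at hst
      constructor
      · exact ar5 hβ0.le hC₁0.le h32 h33 (hRK' k) hst ih1
      · refine (hstepE k hδk).trans ?_
        have h1 : √(θ k) ≤ √(L * A) * s ^ k + √L * e :=
          ar4 hθk hL0.le hA0 he (by positivity) (by rw [← pow_mul, mul_comm, pow_mul, hs2])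
        have h2 : E * √(θ k) ≤ E * (√(L * A) * s ^ k + √L * e) :=
          mul_le_mul_of_nonneg_left h1 hE0.le
        have h3 : (1 - s ^ (k + 1)) / (1 - s) = (1 - s ^ k) / (1 - s) + s ^ k := by
          field_simp
          ring
        rw [h3]
        push_cast
        have h4 : E * (√(L * A) * ((1 - s ^ k) / (1 - s) + s ^ k) + √L * ((k + 1) * e)) =
            E * (√(L * A) * ((1 - s ^ k) / (1 - s)) + √L * (k * e)) +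
            E * (√(L * A) * s ^ k + √L * e) := by ring
        rw [h4]
        linarith
  intro k hk
  obtain ⟨h1, h2⟩ := hkey k hk
  have hke : 0 ≤ (k:ℝ) * e := by positivity
  have hθk : θ k ≤ L * (β ^ k * A + e ^ 2) := by
    rw [hA]
    exact ar1 (by positivity) (by positivity) (hθ 0) hρ he20 hC₂0 hC₃0 hL h1
  have h3 := ar2 (p := s ^ k) hs1 (by positivity) hA0 hL0.le hE0.le hke hQ
  have h4 := ar3 hQ0 hA2 hεa hk
  refine ⟨?_, ?_, by linarith, hRκ k⟩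
  · rw [← hpow k, ← hA]
    refine hθk.trans ?_
    have h5 : 0 ≤ Q * (β ^ k * A + e ^ 2) := by positivity
    linarith
  · rw [← hA]
    have h5 : 0 ≤ L * (√A + k * e) := by positivity
    linarith

end Crest.Agent.R249.Dec308
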