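import Crest.Agent.R247.Dir0_593

/-!
R249, D3-DECAY (helper308), harmonic replacement, part 2 (abstract): projection of a vector field on
the closure of the gradients of the test functions supported in an open set, over a gradient
structure `GradS`; identification of the limit gradient (closability).
-/

set_option autoImplicit false
set_option linter.unusedSectionVars false

open MeasureTheory Filter Topology Set
open scoped RealInnerProductSpace ENNReal NNReal
open Crest.Agent.R247.Dir593 Crest.Agent.R247.Dir593.GradS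

namespace Crest.Agent.R249.HRep308

noncomputable section

variable {X : Type*} [MetricSpace X] [MeasurableSpace X] [BorelSpace X] {F : Type*}
  [NormedAddCommGroup F] [InnerProductSpace ℝ F] [CompleteSpace F] {μ : Measure X}
  [IsFiniteMeasureOnCompacts μ] (S : GradS X F μ)

omit [CompleteSpace F] in
theorem tL_add {f g : X → ℝ} (hf : IsT f) (hg : IsT g) :
    (tL (hf.add hg) : Lp ℝ 2 μ) = tL hf + tL hg := by
  ext1
  filter_upwards [coe_tL (μ := μ) (hf.add hg), Lp.coeFn_add (tL hf : Lp ℝ 2 μ) (tL hg),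
    coe_tL (μ := μ) hf, coe_tL (μ := μ) hg] with x e1 e2 e3 e4
  rw [e1, e2, Pi.add_apply, e3, e4]

omit [CompleteSpace F] in
theorem tL_smul {f : X → ℝ} (c : ℝ) (hf : IsT f) :
    (tL (hf.smul c) : Lp ℝ 2 μ) = c • tL hf := by
  ext1
  filter_upwards [coe_tL (μ := μ) (hf.smul c), Lp.coeFn_smul c (tL hf : Lp ℝ 2 μ),
    coe_tL (μ := μ) hf] with x e1 e2 e3
  rw [e1, e2, Pi.smul_apply, e3, smul_eq_mul]

omit [CompleteSpace F] in
theorem tL_sub {f g : X → ℝ} (hf : IsT f) (hg : IsT g) :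
    (tL (hf.sub hg) : Lp ℝ 2 μ) = tL hf - tL hg := by
  ext1
  filter_upwards [coe_tL (μ := μ) (hf.sub hg), Lp.coeFn_sub (tL hf : Lp ℝ 2 μ) (tL hg),
    coe_tL (μ := μ) hf, coe_tL (μ := μ) hg] with x e1 e2 e3 e4
  rw [e1, e2, Pi.sub_apply, e3, e4]

theorem tsupport_add_sub {f g : X → ℝ} {O : Set X} (hf : tsupport f ⊆ O) (hg : tsupport g ⊆ O) :
    tsupport (fun y => f y + g y) ⊆ O :=
  (tsupport_add f g).trans (union_subset hf hg)

theorem tsupport_smul_sub {f : X → ℝ} {O : Set X} (c : ℝ) (hf : tsupport f ⊆ O) :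
    tsupport (fun y => c * f y) ⊆ O :=
  (tsupport_mul_subset_right (f := fun _ => c) (g := f)).trans hf

theorem tsupport_sub_sub {f g : X → ℝ} {O : Set X} (hf : tsupport f ⊆ O) (hg : tsupport g ⊆ O) :
    tsupport (fun y => f y - g y) ⊆ O := by
  have := tsupport_add_sub hf (tsupport_smul_sub (-1) hg)
  convert this using 3
  ring

/-- gradients of the test functions supported in `O` -/
def gO (O : Set X) : Submodule ℝ (Lp F 2 μ) where
  carrier := {p | ∃ (f : X → ℝ) (hf : IsT f), tsupport f ⊆ O ∧ p = S.D (tL hf)}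
  zero_mem' := by
    refine ⟨fun _ => 0, IsT.zero, ?_, ?_⟩
    · have : tsupport (fun _ : X => (0:ℝ)) = ∅ := by rw [tsupport_eq_empty_iff]; rfl
      rw [this]; exact empty_subset _
    · have h : (tL (IsT.zero (X := X)) : Lp ℝ 2 μ) = 0 := by
        ext1
        filter_upwards [coe_tL (μ := μ) (IsT.zero (X := X)), Lp.coeFn_zero ℝ 2 μ] with x e1 e2
        rw [e1, e2]; rfl
      rw [h, S.D_zero]
  add_mem' := by
    rintro _ _ ⟨f, hf, hfO, rfl⟩ ⟨g, hg, hgO, rfl⟩
    exact ⟨_, hf.add hg, tsupport_add_sub hfO hgO, by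
      rw [tL_add hf hg, S.D_add (S.tL_mem hf) (S.tL_mem hg)]⟩
  smul_mem' := by
    rintro c _ ⟨f, hf, hfO, rfl⟩
    exact ⟨_, hf.smul c, tsupport_smul_sub c hfO, by
      rw [tL_smul c hf, S.D_smul c (S.tL_mem hf)]⟩

theorem mem_gO {O : Set X} {f : X → ℝ} (hf : IsT f) (hfO : tsupport f ⊆ O) :
    S.D (tL hf) ∈ gO S O := ⟨f, hf, hfO, rfl⟩

/-- **projection on the gradients supported in `O`** -/
theorem exists_proj (O : Set X) {P : ℝ} (hP0 : 0 ≤ P)
    (hP : ∀ (f : X → ℝ) (hf : IsT f), tsupport f ⊆ O →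
      ‖(tL hf : Lp ℝ 2 μ)‖ ^ 2 ≤ P * ‖S.D (tL hf)‖ ^ 2) (v : Lp F 2 μ) :
    ∃ (f : ℕ → X → ℝ) (hf : ∀ k, IsT (f k)) (E : Lp ℝ 2 μ) (q : Lp F 2 μ),
      (∀ k, tsupport (f k) ⊆ O) ∧ Tendsto (fun k => (tL (hf k) : Lp ℝ 2 μ)) atTop (𝓝 E) ∧
      Tendsto (fun k => S.D (tL (hf k))) atTop (𝓝 q) ∧
      (∀ (g : X → ℝ) (hg : IsT g), tsupport g ⊆ O → ⟪q, S.D (tL hg)⟫ = ⟪v, S.D (tL hg)⟫) ∧
      ⟪q, q⟫ = ⟪v, q⟫ := by
  set W : Submodule ℝ (Lp F 2 μ) := (gO S O).topologicalClosure with hW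
  have hWc : IsClosed (W : Set (Lp F 2 μ)) := Submodule.isClosed_topologicalClosure _
  haveI : CompleteSpace W := hWc.completeSpace_coe
  set q : Lp F 2 μ := W.starProjection v with hq
  have hqW : q ∈ W := W.starProjection_apply_mem v
  have horth : ∀ w ∈ W, ⟪v - q, w⟫ = 0 := fun w hw => W.starProjection_inner_eq_zero v w hw
  obtain ⟨p, hp, hpt⟩ := mem_closure_iff_seq_limit.1
    (show q ∈ closure (gO S O : Set (Lp F 2 μ)) from hqW)
  choose f hf hfO hfp using hp
  have hD : Tendsto (fun k => S.D (tL (hf k))) atTop (𝓝 q) := by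
    have e : (fun k => S.D (tL (hf k))) = p := by funext k; exact (hfp k).symm
    rw [e]; exact hpt
  have hdiff : ∀ k l, ‖(tL (hf k) : Lp ℝ 2 μ) - tL (hf l)‖ ≤
      √P * ‖S.D (tL (hf k)) - S.D (tL (hf l))‖ := by
    intro k l
    have h1 := hP _ ((hf k).sub (hf l)) (tsupport_sub_sub (hfO k) (hfO l))
    rw [tL_sub (hf k) (hf l), S.D_sub (S.tL_mem (hf k)) (S.tL_mem (hf l))] at h1
    refine le_of_sq_le_sq (h1.trans (le_of_eq ?_)) (by positivity)
    rw [mul_pow, Real.sq_sqrt hP0]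
  have hcau : CauchySeq (fun k => (tL (hf k) : Lp ℝ 2 μ)) := by
    rw [cauchySeq_iff_tendsto_dist_atTop_0]
    have h1 := (cauchySeq_iff_tendsto_dist_atTop_0.1 hD.cauchySeq).const_mul √P
    rw [mul_zero] at h1
    refine squeeze_zero (fun _ => dist_nonneg) (fun kl => ?_) h1
    rw [dist_eq_norm, dist_eq_norm]
    exact hdiff kl.1 kl.2
  obtain ⟨E, hE⟩ := cauchySeq_tendsto_of_complete hcau
  refine ⟨f, hf, E, q, hfO, hE, hD, fun g hg hgO => ?_, ?_⟩
  · have h1 := horth _ (Submodule.le_topologicalClosure _ (mem_gO S hg hgO))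
    rw [inner_sub_left, sub_eq_zero] at h1
    exact h1.symm
  · have h1 := horth _ hqW
    rw [inner_sub_left, sub_eq_zero] at h1
    exact h1.symm

theorem exists_bound_G {χ : X → ℝ} (hχ : IsT χ) : ∃ C : ℝ, 0 ≤ C ∧ (∀ x, |χ x| ≤ C) ∧
    ∀ᵐ x ∂μ, ‖S.G χ x‖ ≤ C := by
  obtain ⟨B, hB⟩ := hχ.1.continuous.bounded_above_of_compact_support hχ.2
  obtain ⟨C, hC0, hC⟩ := S.bound_compact hχ.1 hχ.2.isCompact
  have h0 := S.zero_of_open hχ.1 (isClosed_tsupport χ).isOpen_compl
    (fun x hx => image_eq_zero_of_notMem_tsupport hx)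
  refine ⟨max C (max B 0), le_max_of_le_left hC0, fun x => ?_, ?_⟩
  · exact (hB x).trans ((le_max_left _ _).trans (le_max_right _ _))
  · filter_upwards [hC, h0] with x e1 e2
    by_cases hx : x ∈ tsupport χ
    · exact (e1 hx).trans (le_max_left _ _)
    · rw [e2 hx, norm_zero]; exact le_max_of_le_left hC0

/-- **identification of the limit gradient**: if `f k → E`, `∇ f k → q` in `L²` and `χ U` is a test
function with `U = E` a.e. on `{χ ≠ 0}`, then `∇(χ U) = E ∇χ + χ q`. -/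
theorem limit_gradient {f : ℕ → X → ℝ} (hf : ∀ k, IsT (f k)) {E : Lp ℝ 2 μ} {q : Lp F 2 μ}
    (hE : Tendsto (fun k => (tL (hf k) : Lp ℝ 2 μ)) atTop (𝓝 E))
    (hq : Tendsto (fun k => S.D (tL (hf k))) atTop (𝓝 q))
    {χ w : X → ℝ} (hχ : IsT χ) (hw : IsT w) (hwE : ∀ᵐ x ∂μ, w x = χ x * E x) :
    ∀ᵐ x ∂μ, S.G w x = E x • S.G χ x + χ x • q x := by
  obtain ⟨C, hC0, hCχ, hCG⟩ := exists_bound_G S hχ
  have hEt := (Lp.tendsto_Lp_iff_tendsto_eLpNorm' _ _).1 hE
  have hqt := (Lp.tendsto_Lp_iff_tendsto_eLpNorm' _ _).1 hq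
  set g : X → F := fun x => (E x • S.G χ x + χ x • q x) - S.G w x with hg
  have hgm : MemLp g 2 μ := by
    refine MemLp.sub (MemLp.add ?_ ?_) (hw.memLpG S)
    · refine MemLp.of_le_mul (c := C) (Lp.memLp E) ((Lp.memLp E).1.smul (S.meas hχ.1)) ?_
      filter_upwards [hCG] with x hx
      rw [norm_smul, mul_comm]
      exact mul_le_mul_of_nonneg_right hx (norm_nonneg _)
    · refine MemLp.of_le_mul (c := C) (Lp.memLp q)
        (hχ.1.continuous.aestronglyMeasurable.smul (Lp.memLp q).1) ?_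
      refine Eventually.of_forall fun x => ?_
      rw [norm_smul]
      exact mul_le_mul_of_nonneg_right (hCχ x) (norm_nonneg _)
  have hclos := S.closable (fun k x => f k x * χ x - w x) g
    (fun k => ((hf k).mul hχ.1).sub hw) ?_ hgm ?_
  · filter_upwards [hclos] with x hx
    have : g x = 0 := hx
    rw [hg] at this
    exact (sub_eq_zero.1 this).symm
  · -- convergence of the functions
    have hb : ∀ k, eLpNorm (fun x => f k x * χ x - w x) 2 μ ≤ ENNReal.ofReal C *
        eLpNorm (⇑(tL (hf k) : Lp ℝ 2 μ) - ⇑E) 2 μ := by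
      intro k
      refine eLpNorm_le_mul_eLpNorm_of_ae_le_mul ?_ 2
      filter_upwards [hwE, coe_tL (μ := μ) (hf k)] with x e1 e2
      rw [Pi.sub_apply, e2, e1, show f k x * χ x - χ x * E x = χ x * (f k x - E x) by ring, norm_mul]
      exact mul_le_mul_of_nonneg_right (hCχ x) (norm_nonneg _)
    have h2 := ENNReal.Tendsto.const_mul hEt (Or.inr (ENNReal.ofReal_ne_top (r := C)))
    rw [mul_zero] at h2
    exact tendsto_of_tendsto_of_tendsto_of_le_of_le tendsto_const_nhds h2 (fun _ => bot_le) hb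
  · -- convergence of the gradients
    have hb : ∀ k, eLpNorm (fun x => S.G (fun x => f k x * χ x - w x) x - g x) 2 μ ≤
        ENNReal.ofReal C * eLpNorm (⇑(tL (hf k) : Lp ℝ 2 μ) - ⇑E) 2 μ +
        ENNReal.ofReal C * eLpNorm (⇑(S.D (tL (hf k))) - ⇑q) 2 μ := by
      intro k
      have ha : AEStronglyMeasurable (fun x => ((tL (hf k) : Lp ℝ 2 μ) x - E x) • S.G χ x) μ :=
        ((Lp.memLp (tL (hf k) : Lp ℝ 2 μ)).1.sub (Lp.memLp E).1).smul (S.meas hχ.1)
      have hb : AEStronglyMeasurable (fun x => χ x • (S.D (tL (hf k)) x - q x)) μ :=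
        hχ.1.continuous.aestronglyMeasurable.smul
          ((Lp.memLp (S.D (tL (hf k)))).1.sub (Lp.memLp q).1)
      have h1 : eLpNorm (fun x => S.G (fun x => f k x * χ x - w x) x - g x) 2 μ =
          eLpNorm (fun x => ((tL (hf k) : Lp ℝ 2 μ) x - E x) • S.G χ x +
            χ x • (S.D (tL (hf k)) x - q x)) 2 μ := by
        refine eLpNorm_congr_ae ?_
        filter_upwards [S.sub (locLip_mul (hf k).1 hχ.1) hw.1, S.mul (hf k).1 hχ.1,
          coe_tL (μ := μ) (hf k), S.D_tL (hf k)] with x e1 e2 e3 e4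
        rw [e1, e2, hg, e3, e4]
        module
      rw [h1]
      refine (eLpNorm_add_le ha hb (by norm_num)).trans (add_le_add ?_ ?_)
      · refine eLpNorm_le_mul_eLpNorm_of_ae_le_mul ?_ 2
        filter_upwards [hCG] with x hx
        rw [norm_smul, mul_comm, Pi.sub_apply]
        exact mul_le_mul_of_nonneg_right hx (norm_nonneg _)
      · refine eLpNorm_le_mul_eLpNorm_of_ae_le_mul ?_ 2
        refine Eventually.of_forall fun x => ?_
        rw [norm_smul, Pi.sub_apply]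
        exact mul_le_mul_of_nonneg_right (hCχ x) (norm_nonneg _)
    have h2 := ENNReal.Tendsto.const_mul hEt (Or.inr (ENNReal.ofReal_ne_top (r := C)))
    have h3 := ENNReal.Tendsto.const_mul hqt (Or.inr (ENNReal.ofReal_ne_top (r := C)))
    have h4 := h2.add h3
    rw [mul_zero, add_zero] at h4
    exact tendsto_of_tendsto_of_tendsto_of_le_of_le tendsto_const_nhds h4 (fun _ => bot_le) hb

end

end Crest.Agent.R249.HRep308
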