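import Crest.Agent.R249.HRep1_308
import Crest.Agent.R249.HRep2_308
import Crest.Agent.R247.Gs2_939

/-!
R249, D3-DECAY (helper308), harmonic replacement, part 3: **harmonic replacement** on an open set `O`
of a Riemannian manifold on which the Poincaré inequality for compactly supported functions holds.
-/

set_option autoImplicit false
set_option maxSynthPendingDepth 3
set_option linter.unusedSectionVars false
open scoped ContDiff ENNReal NNReal Topology Manifold Bundle RealInnerProductSpace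
open MeasureTheory Set Filter Metric Bundle
open Crest.GeometryTopology.CoordMetric Crest.GeometryTopology.ChartCurvature
open Crest.Agent.R247 Crest.Agent.R247.Ms322
open Crest.Agent.R247.Dir593 Crest.Agent.R247.Frd657
open Crest.Agent.R247.Dir593.GradS (IsT tL coe_tL)
open Crest.Agent.R247.Bo84 (mLap)

namespace Crest.Agent.R249.HRep308

noncomputable section

theorem norm_sq_Lp {α G : Type*} [MeasurableSpace α] {ν : Measure α} [NormedAddCommGroup G]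
    [InnerProductSpace ℝ G] (u : Lp G 2 ν) : ‖u‖ ^ 2 = ∫ x, ‖u x‖ ^ 2 ∂ν := by
  rw [← real_inner_self_eq_norm_sq, L2.inner_def]
  simp only [real_inner_self_eq_norm_sq]

theorem norm_sq_toLp {α G : Type*} [MeasurableSpace α] {ν : Measure α} [NormedAddCommGroup G]
    [InnerProductSpace ℝ G] {f : α → G} (hf : MemLp f 2 ν) :
    ‖hf.toLp f‖ ^ 2 = ∫ x, ‖f x‖ ^ 2 ∂ν := by
  rw [norm_sq_Lp]
  refine integral_congr_ae ?_
  filter_upwards [hf.coeFn_toLp] with x hx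
  rw [hx]

variable {n : ℕ} {M : Type*} [MetricSpace M] [ChartedSpace (EuclideanSpace ℝ (Fin n)) M]
  [IsManifold (𝓡 n) ∞ M]
  [RiemannianBundle (fun p : M => TangentSpace (𝓡 n) p)]
  [IsContMDiffRiemannianBundle (𝓡 n) ∞ (EuclideanSpace ℝ (Fin n)) (fun p : M => TangentSpace (𝓡 n) p)]
  [IsRiemannianManifold (𝓡 n) M] [MeasurableSpace M] [BorelSpace M]
  [SecondCountableTopology M] [Nonempty M]

local notation "𝔼" => EuclideanSpace ℝ (Fin n)
local notation "μM" => (μHE[n] : Measure M)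

theorem ctAt {O : Set M} (hO : IsOpen O) {f : M → ℝ} (hf : ContMDiffOn (𝓡 n) 𝓘(ℝ, ℝ) ∞ f O)
    {z : M} (hz : z ∈ O) : ContMDiffAt (𝓡 n) 𝓘(ℝ, ℝ) ∞ f z :=
  hf.contMDiffAt (hO.mem_nhds hz)

theorem LLo_of_ct {O : Set M} (hO : IsOpen O) {f : M → ℝ}
    (hf : ContMDiffOn (𝓡 n) 𝓘(ℝ, ℝ) ∞ f O) : LLo O f :=
  LLo.of_contMDiffAt (n := n) fun z hz => (ctAt hO hf hz).of_le (by simp)

theorem Gr_sub_of {f g : M → ℝ} {z : M} (hf : MDifferentiableAt (𝓡 n) 𝓘(ℝ) f z)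
    (hg : MDifferentiableAt (𝓡 n) 𝓘(ℝ) g z) :
    Gr (n := n) (fun y => f y - g y) z = Gr f z - Gr g z := by
  have h1 : (fun y => f y - g y) = fun y => f y + (-1) * g y := by funext y; ring
  have h2 : MDifferentiableAt (𝓡 n) 𝓘(ℝ) (fun y => (-1) * g y) z :=
    mdifferentiableAt_const.mul hg
  rw [h1, Gr_add hf h2, Gr_const_mul (-1) hg]
  module

/-- Green's formula against the class of a test function supported in `O`. -/
theorem inner_v {O : Set M} (hO : IsOpen O) {Fn : M → ℝ}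
    (hF : ContMDiffOn (𝓡 n) 𝓘(ℝ, ℝ) ∞ Fn O)
    (hFG : MemLp (O.indicator (Gr (n := n) Fn)) 2 μM)
    [IsFiniteMeasureOnCompacts μM] {φ : M → ℝ} (hφ : IsT φ) (hφO : tsupport φ ⊆ O) :
    ⟪hFG.toLp _, (gradS n M).D (tL hφ)⟫ = - ∫ z, φ z * mLap n Fn z ∂μM := by
  rw [← ibp_mLap (n := n) hO (fun z hz => (ctAt hO hF hz).of_le Bo84.two_le_infty) hφ.1 hφ.2 hφO,
    L2.inner_def]
  refine integral_congr_ae ?_
  filter_upwards [hFG.coeFn_toLp, (gradS n M).D_tL hφ] with z e1 e2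
  rw [e1, e2, gradS_G]
  by_cases hz : z ∈ O
  · rw [indicator_of_mem hz]
  · rw [Gr_zero_off (fun h => hz (hφO h)), inner_zero_right, inner_zero_right]

/-- the limit of the test functions solves the equation in the sense of distributions. -/
theorem distLap_limit {O : Set M} (hO : IsOpen O) {Fn : M → ℝ}
    (hF : ContMDiffOn (𝓡 n) 𝓘(ℝ, ℝ) ∞ Fn O)
    (hFG : MemLp (O.indicator (Gr (n := n) Fn)) 2 μM)
    [IsFiniteMeasureOnCompacts μM] {f : ℕ → M → ℝ} (hf : ∀ k, IsT (f k)) {E : Lp ℝ 2 μM}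
    {q : Lp 𝔼 2 μM} (hE : Tendsto (fun k => (tL (hf k) : Lp ℝ 2 μM)) atTop (𝓝 E))
    (hq : Tendsto (fun k => (gradS n M).D (tL (hf k))) atTop (𝓝 q))
    (ho : ∀ (g : M → ℝ) (hg : IsT g), tsupport g ⊆ O →
      ⟪q, (gradS n M).D (tL hg)⟫ = ⟪hFG.toLp _, (gradS n M).D (tL hg)⟫) :
    DistLap (n := n) O (fun z => E z) (mLap n Fn) := by
  intro φ hφ hc hs
  have hφT : IsT φ := ⟨locLip_of_contMDiff (n := n) (hφ.of_le (by simp)), hc⟩
  have hLc : Continuous (mLap n φ) := by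
    rw [← continuousOn_univ]
    exact continuousOn_mLap fun z _ => (hφ z).of_le Bo84.two_le_infty
  have hLs : HasCompactSupport (mLap n φ) := by
    refine hc.of_isClosed_subset (isClosed_tsupport _) (closure_minimal ?_ (isClosed_tsupport φ))
    intro z hz
    by_contra h
    apply hz
    have hev : φ =ᶠ[𝓝 z] fun _ => 0 := by
      filter_upwards [(isClosed_tsupport φ).isOpen_compl.mem_nhds h] with y hy
      exact image_eq_zero_of_notMem_tsupport hy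
    rw [Bo84.mLap_congr hev, Bo84.mLap_const]
  have hL2 : MemLp (mLap n φ) 2 μM := hLc.memLp_of_hasCompactSupport hLs
  -- both sides as limits
  have t1 : Tendsto (fun k => (⟪(tL (hf k) : Lp ℝ 2 μM), hL2.toLp _⟫ : ℝ)) atTop
      (𝓝 ⟪E, hL2.toLp _⟫) := hE.inner tendsto_const_nhds
  have t2 : Tendsto (fun k => - (⟪(gradS n M).D (tL (hf k)), (gradS n M).D (tL hφT)⟫ : ℝ)) atTop
      (𝓝 (-⟪q, (gradS n M).D (tL hφT)⟫)) := (hq.inner tendsto_const_nhds).neg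
  have e12 : (fun k => (⟪(tL (hf k) : Lp ℝ 2 μM), hL2.toLp _⟫ : ℝ)) =
      fun k => - (⟪(gradS n M).D (tL (hf k)), (gradS n M).D (tL hφT)⟫ : ℝ) := by
    funext k
    have h1 := ibp_mLap (n := n) (U := univ) isOpen_univ (f := φ) (φ := f k)
      (fun z _ => (hφ z).of_le Bo84.two_le_infty) (hf k).1 (hf k).2 (subset_univ _)
    have e1 : ⟪(tL (hf k) : Lp ℝ 2 μM), hL2.toLp _⟫ = ∫ z, f k z * mLap n φ z ∂μM := by
      rw [L2.inner_def]
      refine integral_congr_ae ?_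
      filter_upwards [coe_tL (μ := μM) (hf k), hL2.coeFn_toLp] with z a1 a2
      rw [a1, a2]
      simp [mul_comm]
    have e2 : ⟪(gradS n M).D (tL (hf k)), (gradS n M).D (tL hφT)⟫ =
        ∫ z, ⟪Gr (n := n) φ z, Gr (n := n) (f k) z⟫ ∂μM := by
      rw [L2.inner_def]
      refine integral_congr_ae ?_
      filter_upwards [(gradS n M).D_tL (hf k), (gradS n M).D_tL hφT] with z a1 a2
      rw [a1, a2, gradS_G, real_inner_comm]
    rw [e1, e2, h1, neg_neg]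
  rw [e12] at t1
  have h2 := tendsto_nhds_unique t1 t2
  have e3 : ∫ z, E z * mLap n φ z ∂μM = ⟪E, hL2.toLp _⟫ := by
    rw [L2.inner_def]
    refine integral_congr_ae ?_
    filter_upwards [hL2.coeFn_toLp] with z a2
    rw [a2]
    simp [mul_comm]
  rw [e3, h2, ho φ hφT hs, inner_v hO hF hFG hφT hs, neg_neg]
  refine integral_congr_ae (Eventually.of_forall fun z => ?_)
  simp only [mul_comm]

/-- the limit gradient is the gradient of the smooth representative. -/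
theorem q_eq_Gr {O : Set M} (hO : IsOpen O) [IsFiniteMeasureOnCompacts μM] {f : ℕ → M → ℝ}
    (hf : ∀ k, IsT (f k)) {E : Lp ℝ 2 μM}
    {q : Lp 𝔼 2 μM} (hE : Tendsto (fun k => (tL (hf k) : Lp ℝ 2 μM)) atTop (𝓝 E))
    (hq : Tendsto (fun k => (gradS n M).D (tL (hf k))) atTop (𝓝 q))
    {U : M → ℝ} (hU : ContMDiffOn (𝓡 n) 𝓘(ℝ, ℝ) ∞ U O)
    (hUE : ∀ᵐ z ∂μM, z ∈ O → U z = E z) : ∀ᵐ z ∂μM, z ∈ O → q z = Gr (n := n) U z := by
  have := locallyCompactSpace n M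
  rw [ae_iff]
  refine measure_null_of_locally_null _ fun z hz => ?_
  have hzO : z ∈ O := by
    by_contra h
    exact hz fun h' => absurd h' h
  obtain ⟨χ, ⟨L, hL⟩, hχc, hχO, ⟨V, hVo, hzV, hV1⟩, -⟩ :=
    exists_lip_cutoff (isCompact_singleton (x := z)) hO (singleton_subset_iff.2 hzO)
  have hχT : IsT χ := ⟨hL.locallyLipschitz, hχc⟩
  have hwT : IsT (fun y => χ y * U y) :=
    ⟨LLo.mul_supp hL.locallyLipschitz (LLo_of_ct hO hU) hχO, hχc.mul_right⟩
  have hwE : ∀ᵐ y ∂μM, χ y * U y = χ y * E y := by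
    filter_upwards [hUE] with y hy
    by_cases hyO : y ∈ O
    · rw [hy hyO]
    · rw [image_eq_zero_of_notMem_tsupport (fun h => hyO (hχO h)), zero_mul, zero_mul]
  have hlim := limit_gradient (gradS n M) hf hE hq hχT hwT hwE
  refine ⟨{y | ¬(y ∈ O → q y = Gr (n := n) U y)} ∩ V,
    inter_mem_nhdsWithin _ (hVo.mem_nhds (hzV (mem_singleton z))), ?_⟩
  refine measure_mono_null ?_ (ae_iff.1 hlim)
  rintro y ⟨hy, hyV⟩ hd
  apply hy
  intro _
  have h1 : Gr (n := n) (fun y => χ y * U y) y = Gr U y := by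
    refine Gr_congr ?_
    filter_upwards [hVo.mem_nhds hyV] with y' hy'
    rw [hV1 y' hy', one_mul]
  have h2 : Gr (n := n) χ y = 0 := by
    rw [Gr_congr (g := fun _ => (1:ℝ)) (by filter_upwards [hVo.mem_nhds hyV] with y' hy' using hV1 y' hy'),
      Gr_const]
  rw [gradS_G, h1, h2, smul_zero, zero_add, hV1 y hyV, one_smul] at hd
  exact hd.symm

/-- **Harmonic replacement.** -/
theorem hrep {O : Set M} (hO : IsOpen O) {P : ℝ} (hP0 : 0 ≤ P)
    (hP : ∀ f : M → ℝ, IsT f → tsupport f ⊆ O →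
      ∫ z, f z ^ 2 ∂μM ≤ P * ∫ z, ‖Gr (n := n) f z‖ ^ 2 ∂μM)
    {Fn : M → ℝ} (hF : ContMDiffOn (𝓡 n) 𝓘(ℝ, ℝ) ∞ Fn O)
    (hFG : MemLp (O.indicator (Gr (n := n) Fn)) 2 μM)
    (hFL : MemLp (O.indicator (mLap n Fn)) 2 μM) :
    ∃ H : M → ℝ, ContMDiffOn (𝓡 n) 𝓘(ℝ, ℝ) ∞ H O ∧ (∀ z ∈ O, mLap n H z = 0) ∧
      MemLp (O.indicator (Gr (n := n) H)) 2 μM ∧
      ∫ z in O, ‖Gr (n := n) H z‖ ^ 2 ∂μM ≤ ∫ z in O, ‖Gr (n := n) Fn z‖ ^ 2 ∂μM ∧
      ∫ z in O, ‖Gr (n := n) Fn z - Gr (n := n) H z‖ ^ 2 ∂μM ≤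
        P * ∫ z in O, mLap n Fn z ^ 2 ∂μM := by
  have := Gs939.finOnCompacts (n := n) (M := M)
  set v : Lp 𝔼 2 μM := hFG.toLp _ with hv
  have hP' : ∀ (f : M → ℝ) (hf : IsT f), tsupport f ⊆ O →
      ‖(tL hf : Lp ℝ 2 μM)‖ ^ 2 ≤ P * ‖(gradS n M).D (tL hf)‖ ^ 2 := by
    intro f hf hs
    have e1 : ‖(tL hf : Lp ℝ 2 μM)‖ ^ 2 = ∫ z, f z ^ 2 ∂μM := by
      rw [norm_sq_Lp]
      refine integral_congr_ae ?_
      filter_upwards [coe_tL (μ := μM) hf] with z hz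
      rw [hz, Real.norm_eq_abs, sq_abs]
    have e2 : ‖(gradS n M).D (tL hf)‖ ^ 2 = ∫ z, ‖Gr (n := n) f z‖ ^ 2 ∂μM := by
      rw [norm_sq_Lp]
      refine integral_congr_ae ?_
      filter_upwards [(gradS n M).D_tL hf] with z hz
      rw [hz, gradS_G]
    rw [e1, e2]
    exact hP f hf hs
  obtain ⟨f, hf, E, q, hfO, hE, hq, ho, hqq⟩ := exists_proj (gradS n M) O hP0 hP' v
  have hdist := distLap_limit hO hF hFG hf hE hq ho
  have hgsm : ContMDiffOn (𝓡 n) 𝓘(ℝ, ℝ) ∞ (mLap n Fn) O := fun z hz =>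
    (Bo84.contMDiffAt_mLap (m := ∞) (ctAt hO hF hz) (by simp) le_rfl).contMDiffWithinAt
  obtain ⟨U, hU, hUE, hUL⟩ := weyl (n := n) hO (Lp.memLp E) hgsm hdist
  have hqU := q_eq_Gr hO hf hE hq hU hUE
  have hdiff : ∀ {g : M → ℝ}, ContMDiffOn (𝓡 n) 𝓘(ℝ, ℝ) ∞ g O → ∀ z ∈ O,
      MDifferentiableAt (𝓡 n) 𝓘(ℝ) g z := fun hg z hz =>
    (ctAt hO hg hz).mdifferentiableAt (by simp)
  have hGrH : ∀ z ∈ O, Gr (n := n) (fun y => Fn y - U y) z = Gr Fn z - Gr U z := fun z hz =>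
    Gr_sub_of (hdiff hF z hz) (hdiff hU z hz)
  have hOm := hO.measurableSet
  -- the class of the gradient of `H`
  have hind : (O.indicator (Gr (n := n) (fun y => Fn y - U y))) =ᵐ[μM]
      O.indicator (fun z => (v - q : Lp 𝔼 2 μM) z) := by
    filter_upwards [hqU, hFG.coeFn_toLp, Lp.coeFn_sub v q] with z e1 e2 e3
    by_cases hz : z ∈ O
    · rw [indicator_of_mem hz, indicator_of_mem hz, hGrH z hz, e3, Pi.sub_apply, hv, e2,
        indicator_of_mem hz, e1 hz]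
    · rw [indicator_of_notMem hz, indicator_of_notMem hz]
  have hnorm : ‖v‖ ^ 2 = ∫ z in O, ‖Gr (n := n) Fn z‖ ^ 2 ∂μM := by
    rw [hv, norm_sq_toLp, ← integral_indicator hOm]
    refine integral_congr_ae (Eventually.of_forall fun z => ?_)
    by_cases hz : z ∈ O
    · simp [indicator_of_mem hz]
    · simp [indicator_of_notMem hz]
  refine ⟨fun y => Fn y - U y, hF.sub hU, fun z hz => ?_, ?_, ?_, ?_⟩
  · rw [Bo84.mLap_sub ((ctAt hO hF hz).of_le Bo84.two_le_infty)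
      ((ctAt hO hU hz).of_le Bo84.two_le_infty), hUL z hz, sub_self]
  · exact (memLp_congr_ae hind).2 ((Lp.memLp (v - q)).indicator hOm)
  · have h1 : ∫ z in O, ‖Gr (n := n) (fun y => Fn y - U y) z‖ ^ 2 ∂μM =
        ∫ z in O, ‖(v - q : Lp 𝔼 2 μM) z‖ ^ 2 ∂μM := by
      refine setIntegral_congr_ae hOm ?_
      filter_upwards [hind] with z hz hzO
      rw [indicator_of_mem hzO, indicator_of_mem hzO] at hz
      rw [hz]
    have h2 : ∫ z in O, ‖(v - q : Lp 𝔼 2 μM) z‖ ^ 2 ∂μM ≤ ‖v - q‖ ^ 2 := by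
      rw [norm_sq_Lp]
      exact setIntegral_le_integral (integrable_sq (Lp.memLp (v - q)))
        (Eventually.of_forall fun z => by positivity)
    have h3 : ‖v - q‖ ^ 2 = ‖v‖ ^ 2 - ‖q‖ ^ 2 := by
      rw [← real_inner_self_eq_norm_sq, ← real_inner_self_eq_norm_sq, ← real_inner_self_eq_norm_sq,
        inner_sub_left, inner_sub_right, inner_sub_right, real_inner_comm v q, ← hqq]
      ring
    rw [h1, ← hnorm]
    nlinarith [h2, h3, sq_nonneg ‖q‖]
  · have h1 : ∫ z in O, ‖Gr (n := n) Fn z - Gr (n := n) (fun y => Fn y - U y) z‖ ^ 2 ∂μM =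
        ∫ z in O, ‖q z‖ ^ 2 ∂μM := by
      refine setIntegral_congr_ae hOm ?_
      filter_upwards [hqU] with z hz hzO
      rw [hGrH z hzO, hz hzO]
      congr 2
      module
    have h2 : ∫ z in O, ‖q z‖ ^ 2 ∂μM ≤ ‖q‖ ^ 2 := by
      rw [norm_sq_Lp]
      exact setIntegral_le_integral (integrable_sq (Lp.memLp q))
        (Eventually.of_forall fun z => by positivity)
    set m : Lp ℝ 2 μM := hFL.toLp _ with hm
    have hmn : ‖m‖ ^ 2 = ∫ z in O, mLap n Fn z ^ 2 ∂μM := by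
      rw [hm, norm_sq_toLp, ← integral_indicator hOm]
      refine integral_congr_ae (Eventually.of_forall fun z => ?_)
      by_cases hz : z ∈ O
      · simp [indicator_of_mem hz]
      · simp [indicator_of_notMem hz]
    have hEq : ‖E‖ ^ 2 ≤ P * ‖q‖ ^ 2 :=
      le_of_tendsto_of_tendsto' (hE.norm.pow 2) ((hq.norm.pow 2).const_mul P)
        fun k => hP' _ (hf k) (hfO k)
    have hvq : ⟪v, q⟫ = -⟪E, m⟫ := by
      have t1 : Tendsto (fun k => (⟪v, (gradS n M).D (tL (hf k))⟫ : ℝ)) atTop (𝓝 ⟪v, q⟫) :=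
        tendsto_const_nhds.inner hq
      have t2 : Tendsto (fun k => -(⟪(tL (hf k) : Lp ℝ 2 μM), m⟫ : ℝ)) atTop (𝓝 (-⟪E, m⟫)) :=
        (hE.inner tendsto_const_nhds).neg
      refine tendsto_nhds_unique t1 ?_
      convert t2 using 2 with k
      rw [hv, inner_v hO hF hFG (hf k) (hfO k), L2.inner_def]
      congr 1
      refine integral_congr_ae ?_
      filter_upwards [coe_tL (μ := μM) (hf k), hFL.coeFn_toLp] with z a1 a2
      rw [a1, hm, a2]
      by_cases hz : z ∈ O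
      · rw [indicator_of_mem hz]; simp [mul_comm]
      · rw [image_eq_zero_of_notMem_tsupport (fun h => hz (hfO k h))]; simp
    have hq2 : ‖q‖ ^ 2 ≤ P * ‖m‖ ^ 2 := by
      have h3 : ‖q‖ ^ 2 ≤ ‖E‖ * ‖m‖ := by
        rw [← real_inner_self_eq_norm_sq, hqq, hvq]
        have := abs_real_inner_le_norm E m
        have h4 := neg_le_abs (⟪E, m⟫ : ℝ)
        linarith
      have h4 : (‖q‖ ^ 2) ^ 2 ≤ (P * ‖q‖ ^ 2) * ‖m‖ ^ 2 := by
        calc (‖q‖ ^ 2) ^ 2 ≤ (‖E‖ * ‖m‖) ^ 2 := by gcongr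
          _ = ‖E‖ ^ 2 * ‖m‖ ^ 2 := by ring
          _ ≤ _ := by gcongr
      rcases (sq_nonneg ‖q‖).eq_or_lt with h0 | h0
      · rw [← h0]; positivity
      · have h5 : ‖q‖ ^ 2 * ‖q‖ ^ 2 ≤ ‖q‖ ^ 2 * (P * ‖m‖ ^ 2) := by nlinarith [h4]
        exact le_of_mul_le_mul_left h5 h0
    rw [h1, ← hmn]
    exact h2.trans hq2

end

end Crest.Agent.R249.HRep308
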