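import Crest.Agent.R249.SobF_982

/-!
# R249 (D3-SOB), part G: real-integral forms of Sobolev, Poincaré and Sobolev–Poincaré on balls

`X` proper, `μ` finite on compact sets, `C : Rad 4 κ X μ`, `μ (ball y s) ≤ ω s⁴` for all `y, s`,
`μ (ball x0 (Λ r)) ≥ v (Λ r)⁴` with `16 ω + 1 ≤ v Λ⁴`.

* `sobR` : `√(∫ ψ⁴) ≤ KS κ ω Λ r * ∫ G²` for `LG ψ G`, `ψ = 0` off `ball x0 (2r)`;
* `poincR` (any `n`) : `∫_{B_r} (f - f_{B_r})² ≤ 8 r² exp(2κr²) 2ⁿ ∫_{B_2r} G²`;
* `sobpoincR` : `√(∫_{B_r} (f - c)⁴) ≤ KSP κ ω Λ r * ∫_{B_4r} G²`, `c` = mean of `f` over `B_2r`.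
-/

set_option autoImplicit false
set_option linter.unusedSectionVars false
open MeasureTheory Set Filter Topology
open scoped ENNReal NNReal

noncomputable section
namespace Crest.Agent.R249.SobG_982

open Crest.Agent.R247.Mcp688 Crest.Agent.R249.SobA_982 Crest.Agent.R249.SobB_982
  Crest.Agent.R249.SobC_982 Crest.Agent.R249.SobD_982 Crest.Agent.R249.SobE_982
  Crest.Agent.R249.SobF_982

/-- the Sobolev constant -/
def KS (κ ω Λ r : ℝ) : ℝ :=
  (12 * Real.exp (κ * ((Λ + 2) * r) ^ 2 / 2) * (Λ + 2) ^ 4 * (4 ^ 4 * ω + 1) * Cth) ^ 2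

lemma KS_nonneg (κ ω Λ r : ℝ) : 0 ≤ KS κ ω Λ r := sq_nonneg _

/-- the Sobolev–Poincaré constant -/
def KSP (κ ω Λ r : ℝ) : ℝ :=
  KS κ ω Λ r * (2 + 1024 * Cth ^ 2 * Real.exp (8 * κ * r ^ 2))

lemma KSP_nonneg (κ ω Λ r : ℝ) : 0 ≤ KSP κ ω Λ r := by
  unfold KSP
  have := KS_nonneg κ ω Λ r
  positivity

section main
variable {κ : ℝ} {X : Type*} [MetricSpace X] [MeasurableSpace X] [BorelSpace X] [ProperSpace X]
  {μ : Measure X} [IsFiniteMeasureOnCompacts μ]

lemma integrable_of_zero_off {f : X → ℝ} (hf : Continuous f) {x0 : X} {R : ℝ}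
    (h : ∀ x, R < dist x x0 → f x = 0) : Integrable f μ := by
  apply hf.integrable_of_hasCompactSupport
  refine HasCompactSupport.intro (isCompact_closedBall x0 R) fun x hx => h x ?_
  simpa using hx

variable [SFinite μ]

/-- **Sobolev inequality on a ball**, `n = 4`. -/
theorem sobR (C : Rad 4 κ X μ) (hκ : 0 ≤ κ) {ω : ℝ} (hω : 0 ≤ ω)
    (hup : ∀ (y : X) (s : ℝ), 0 < s → μ (Metric.ball y s) ≤ ENNReal.ofReal (ω * s ^ 4))
    {x0 : X} {r Λ v : ℝ} (hr : 0 < r) (hΛ : 2 ≤ Λ) (hv : 16 * ω + 1 ≤ v * Λ ^ 4)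
    (hlo : ENNReal.ofReal (v * (Λ * r) ^ 4) ≤ μ (Metric.ball x0 (Λ * r)))
    {ψ G : X → ℝ} (hψ : LG ψ G) (h0 : ∀ x, 2 * r ≤ dist x x0 → ψ x = 0)
    (hGi : Integrable (fun y => G y ^ 2) μ) :
    √(∫ x, ψ x ^ 4 ∂μ) ≤ KS κ ω Λ r * ∫ x, G x ^ 2 ∂μ := by
  set S : Set X := Metric.ball x0 (2 * r) with hS
  set A : Set X := Metric.ball x0 (Λ * r) \ Metric.ball x0 (2 * r) with hA
  have hΛ0 : 0 < Λ := by linarith
  have hAm : MeasurableSet A := Metric.isOpen_ball.measurableSet.diff Metric.isOpen_ball.measurableSet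
  have hSfin : μ S ≠ ∞ := (ne_top_of_le_ne_top ENNReal.ofReal_ne_top (hup x0 (2 * r) (by positivity)))
  have hS0 : ∀ x ∉ S, ψ x = 0 := by
    intro x hx
    apply h0
    simpa [hS] using hx
  have hA0 : ∀ x ∈ A, ψ x = 0 := fun x hx => hS0 x hx.2
  have hAD : ∀ x ∈ S, ∀ z ∈ A, dist x z ≤ (Λ + 2) * r := by
    intro x hx z hz
    have h1 : dist x x0 < 2 * r := hx
    have h2 : dist z x0 < Λ * r := hz.1
    have := dist_triangle_right x z x0
    nlinarith
  have hvA : ENNReal.ofReal (r ^ 4) ≤ μ A := by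
    have h1 : μ (Metric.ball x0 (Λ * r)) ≤ μ A + μ S := by
      refine (measure_mono ?_).trans (measure_union_le _ _)
      intro z hz
      by_cases h : z ∈ Metric.ball x0 (2 * r)
      · exact Or.inr h
      · exact Or.inl ⟨hz, h⟩
    have h2 : μ S ≤ ENNReal.ofReal (ω * (2 * r) ^ 4) := hup x0 (2 * r) (by positivity)
    have h3 : ENNReal.ofReal (r ^ 4) + ENNReal.ofReal (ω * (2 * r) ^ 4) ≤
        μ A + ENNReal.ofReal (ω * (2 * r) ^ 4) := by
      calc ENNReal.ofReal (r ^ 4) + ENNReal.ofReal (ω * (2 * r) ^ 4)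
          = ENNReal.ofReal ((16 * ω + 1) * r ^ 4) := by
            rw [← ENNReal.ofReal_add (by positivity) (by positivity)]
            congr 1
            ring
        _ ≤ ENNReal.ofReal (v * (Λ * r) ^ 4) := by
            apply ENNReal.ofReal_le_ofReal
            rw [mul_pow, ← mul_assoc]
            gcongr
        _ ≤ μ (Metric.ball x0 (Λ * r)) := hlo
        _ ≤ μ A + μ S := h1
        _ ≤ _ := by gcongr
    exact (ENNReal.add_le_add_iff_right ENNReal.ofReal_ne_top).1 h3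
  have hzero : ∀ x, 2 * r < dist x x0 → ψ x ^ 4 = 0 := by
    intro x hx
    rw [h0 x hx.le]
    norm_num
  have hψi : Integrable (fun x => ψ x ^ 4) μ :=
    integrable_of_zero_off (hψ.continuous.pow 4) hzero
  have hb : ∃ b, ∀ x, |ψ x| ≤ b := by
    obtain ⟨b, hb⟩ := (isCompact_closedBall x0 (2 * r)).exists_bound_of_continuousOn
      hψ.continuous.continuousOn
    refine ⟨max b 0, fun x => ?_⟩
    by_cases hx : x ∈ Metric.closedBall x0 (2 * r)
    · exact (hb x hx).trans (le_max_left _ _)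
    · rw [h0 x (by simpa using (le_of_lt (not_le.1 hx))), abs_zero]
      exact le_max_right _ _
  have key := sobolev_four C hκ hω hup hψ (S := S) hAm hS0 hA0 (D := (Λ + 2) * r) (by positivity)
    hAD hSfin (v := r ^ 4) (by positivity) hvA hb
  rw [← ofReal_integral_eq_lintegral_ofReal hψi (Eventually.of_forall fun x => by positivity),
    ← ofReal_integral_eq_lintegral_ofReal hGi (Eventually.of_forall fun x => by positivity),
    ENNReal.ofReal_rpow_of_nonneg (integral_nonneg fun x => by positivity) (by norm_num),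
    ← ENNReal.ofReal_mul (by positivity)] at key
  have hC := Cth_pos
  have hGn : 0 ≤ ∫ x, G x ^ 2 ∂μ := integral_nonneg fun x => sq_nonneg _
  rw [ENNReal.ofReal_le_ofReal_iff (by positivity)] at key
  rw [Real.sqrt_eq_rpow]
  refine key.trans (le_of_eq ?_)
  congr 1
  unfold KS
  congr 1
  field_simp

end main

section poinc
variable {n : ℕ} {κ : ℝ} {X : Type*} [MetricSpace X] [MeasurableSpace X] [BorelSpace X]
  [ProperSpace X] {μ : Measure X} [IsFiniteMeasureOnCompacts μ] [SFinite μ]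

lemma integrableOn_ball_of_contAt {U : Set X} {f : X → ℝ} (hf : ∀ y ∈ U, ContinuousAt f y) {x0 : X}
    {R : ℝ} (hU : Metric.closedBall x0 R ⊆ U) : IntegrableOn f (Metric.ball x0 R) μ := by
  have h1 : ContinuousOn f (Metric.closedBall x0 R) := fun y hy =>
    (hf y (hU hy)).continuousWithinAt
  exact (h1.integrableOn_compact (isCompact_closedBall x0 R)).mono_set Metric.ball_subset_closedBall

/-- **Poincaré inequality on a ball**, real form. -/
theorem poincR (C : Rad n κ X μ) (hκ : 0 ≤ κ) {U : Set X} {f G : X → ℝ} (hf : LGOn U f G)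
    (hG : Measurable G) {x0 : X} {r : ℝ} (hr : 0 < r) (hU : Metric.closedBall x0 (2 * r) ⊆ U) :
    ∫ x in Metric.ball x0 r, (f x - ⨍ z in Metric.ball x0 r, f z ∂μ) ^ 2 ∂μ ≤
      8 * r ^ 2 * (Real.exp (2 * κ * r ^ 2) * 2 ^ n) * ∫ x in Metric.ball x0 (2 * r), G x ^ 2 ∂μ := by
  have hU1 : Metric.closedBall x0 r ⊆ U :=
    (Metric.closedBall_subset_closedBall (by linarith)).trans hU
  have hfc : ∀ y ∈ U, ContinuousAt f y := fun y hy => hf.continuousAt hy
  have hfi : IntegrableOn f (Metric.ball x0 r) μ := integrableOn_ball_of_contAt hfc hU1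
  have hfi2 : IntegrableOn (fun x => f x ^ 2) (Metric.ball x0 r) μ :=
    integrableOn_ball_of_contAt (fun y hy => (hfc y hy).pow 2) hU1
  have hBf : μ (Metric.ball x0 r) ≠ ∞ := measure_ball_lt_top.ne
  have key := SobF_982.poinc_two C hκ hf hG x0 hr (Metric.ball_subset_closedBall.trans hU) hBf hfi
    hfi2
  set c := ⨍ z in Metric.ball x0 r, f z ∂μ with hc
  have hi1 : IntegrableOn (fun x => (f x - c) ^ 2) (Metric.ball x0 r) μ :=
    integrableOn_ball_of_contAt (fun y hy => ((hfc y hy).sub continuousAt_const).pow 2) hU1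
  have hi2 : IntegrableOn (fun x => G x ^ 2) (Metric.ball x0 (2 * r)) μ :=
    integrableOn_ball_of_contAt (fun y hy => (hf.contG y hy).pow 2) hU
  rw [← ofReal_integral_eq_lintegral_ofReal hi1 (Eventually.of_forall fun x => sq_nonneg _),
    ← ofReal_integral_eq_lintegral_ofReal hi2 (Eventually.of_forall fun x => sq_nonneg _),
    ← ENNReal.ofReal_mul (by positivity)] at key
  have hGn : 0 ≤ ∫ x in Metric.ball x0 (2 * r), G x ^ 2 ∂μ := integral_nonneg fun x => sq_nonneg _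
  exact (ENNReal.ofReal_le_ofReal_iff (by positivity)).1 key

/-- **Poincaré inequality on a ball**, exponent 1, real form. -/
theorem poincR1 (C : Rad n κ X μ) (hκ : 0 ≤ κ) {U : Set X} {f G : X → ℝ} (hf : LGOn U f G)
    (hG : Measurable G) {x0 : X} {r : ℝ} (hr : 0 < r) (hU : Metric.closedBall x0 (2 * r) ⊆ U) :
    ∫ x in Metric.ball x0 r, |f x - ⨍ z in Metric.ball x0 r, f z ∂μ| ∂μ ≤
      4 * r * (Real.exp (2 * κ * r ^ 2) * 2 ^ n) * ∫ x in Metric.ball x0 (2 * r), G x ∂μ := by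
  have hU1 : Metric.closedBall x0 r ⊆ U :=
    (Metric.closedBall_subset_closedBall (by linarith)).trans hU
  have hfc : ∀ y ∈ U, ContinuousAt f y := fun y hy => hf.continuousAt hy
  have hfi : IntegrableOn f (Metric.ball x0 r) μ := integrableOn_ball_of_contAt hfc hU1
  have hBf : μ (Metric.ball x0 r) ≠ ∞ := measure_ball_lt_top.ne
  have key := SobF_982.poinc_one C hκ hf hG x0 hr (Metric.ball_subset_closedBall.trans hU) hBf hfi
  set c := ⨍ z in Metric.ball x0 r, f z ∂μ with hc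
  have hi1 : IntegrableOn (fun x => |f x - c|) (Metric.ball x0 r) μ :=
    integrableOn_ball_of_contAt (fun y hy => ((hfc y hy).sub continuousAt_const).abs) hU1
  have hi2 : IntegrableOn G (Metric.ball x0 (2 * r)) μ :=
    integrableOn_ball_of_contAt (fun y hy => hf.contG y hy) hU
  have hpos : ∀ᵐ x ∂(μ.restrict (Metric.ball x0 (2 * r))), 0 ≤ G x := by
    filter_upwards [ae_restrict_mem Metric.isOpen_ball.measurableSet] with x hx
    exact hf.nonneg x (hU (Metric.ball_subset_closedBall hx))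
  rw [← ofReal_integral_eq_lintegral_ofReal hi1 (Eventually.of_forall fun x => abs_nonneg _),
    ← ofReal_integral_eq_lintegral_ofReal hi2 hpos, ← ENNReal.ofReal_mul (by positivity)] at key
  have hGn : 0 ≤ ∫ x in Metric.ball x0 (2 * r), G x ∂μ := integral_nonneg_of_ae hpos
  exact (ENNReal.ofReal_le_ofReal_iff (by positivity)).1 key

end poinc

section sp
variable {κ : ℝ} {X : Type*} [MetricSpace X] [MeasurableSpace X] [BorelSpace X] [ProperSpace X]
  {μ : Measure X} [IsFiniteMeasureOnCompacts μ] [SFinite μ]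

lemma tsupport_cut {x0 : X} {r : ℝ} (hr : 0 < r) : tsupport (cut x0 r) ⊆ Metric.closedBall x0 (2 * r) := by
  apply closure_minimal _ Metric.isClosed_closedBall
  intro x hx
  rw [Metric.mem_closedBall]
  by_contra h
  exact hx (cut_zero hr (not_le.1 h).le)

lemma tsupport_dcut {x0 : X} {r : ℝ} (hr : 0 < r) : tsupport (dcut x0 r) ⊆ Metric.closedBall x0 (2 * r) := by
  apply closure_minimal _ Metric.isClosed_closedBall
  intro x hx
  rw [Metric.mem_closedBall]
  by_contra h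
  exact hx (dcut_zero hr (not_le.1 h).le)

/-- Sobolev for a cut-off times a local function -/
theorem sob_cut (C : Rad 4 κ X μ) (hκ : 0 ≤ κ) {ω : ℝ} (hω : 0 ≤ ω)
    (hup : ∀ (y : X) (s : ℝ), 0 < s → μ (Metric.ball y s) ≤ ENNReal.ofReal (ω * s ^ 4))
    {x0 : X} {r Λ v : ℝ} (hr : 0 < r) (hΛ : 2 ≤ Λ) (hv : 16 * ω + 1 ≤ v * Λ ^ 4)
    (hlo : ENNReal.ofReal (v * (Λ * r) ^ 4) ≤ μ (Metric.ball x0 (Λ * r)))
    {U : Set X} {w G : X → ℝ} (hw : LGOn U w G) (hU : Metric.closedBall x0 (2 * r) ⊆ U) :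
    √(∫ x in Metric.ball x0 r, w x ^ 4 ∂μ) ≤
      KS κ ω Λ r * (2 * (∫ x in Metric.ball x0 (2 * r), G x ^ 2 ∂μ) +
        2 * (Cth / r) ^ 2 * ∫ x in Metric.ball x0 (2 * r), w x ^ 2 ∂μ) := by
  set η := cut x0 r with hη
  set F := dcut x0 r with hF
  have hLG : LG (fun y => η y * w y) (fun y => |η y| * G y + |w y| * F y) :=
    hw.cut (LG_cut x0 hr) ((tsupport_cut hr).trans hU) ((tsupport_dcut hr).trans hU)
  set H : X → ℝ := fun y => |η y| * G y + |w y| * F y with hH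
  have hH0 : ∀ x, 2 * r ≤ dist x x0 → H x = 0 := by
    intro x hx
    simp only [hH, hη, hF]
    rw [cut_zero hr hx, dcut_zero hr hx]
    simp
  have hHi : Integrable (fun y => H y ^ 2) μ :=
    integrable_of_zero_off (hLG.contG.pow 2) (fun x hx => by rw [hH0 x hx.le]; norm_num) (x0 := x0)
      (R := 2 * r)
  have key := sobR C hκ hω hup hr hΛ hv hlo hLG
    (fun x hx => by simp only [hη]; rw [cut_zero hr hx, zero_mul]) hHi
  have hψc : Continuous fun y => (η y * w y) ^ 4 := hLG.continuous.pow 4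
  have hψi : Integrable (fun y => (η y * w y) ^ 4) μ :=
    integrable_of_zero_off hψc (fun x hx => by
      simp only [hη]; rw [cut_zero hr hx.le, zero_mul]; norm_num) (x0 := x0) (R := 2 * r)
  have h1 : ∫ x in Metric.ball x0 r, w x ^ 4 ∂μ ≤ ∫ x, (η x * w x) ^ 4 ∂μ := by
    calc ∫ x in Metric.ball x0 r, w x ^ 4 ∂μ = ∫ x in Metric.ball x0 r, (η x * w x) ^ 4 ∂μ := by
          apply setIntegral_congr_fun Metric.isOpen_ball.measurableSet
          intro x hx
          simp only [hη]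
          rw [cut_one hr (le_of_lt hx), one_mul]
      _ ≤ _ := setIntegral_le_integral hψi (Eventually.of_forall fun x => by positivity)
  have hwc : ∀ y ∈ U, ContinuousAt w y := fun y hy => hw.continuousAt hy
  have hi1 : IntegrableOn (fun x => G x ^ 2) (Metric.ball x0 (2 * r)) μ :=
    integrableOn_ball_of_contAt (fun y hy => (hw.contG y hy).pow 2) hU
  have hi2 : IntegrableOn (fun x => w x ^ 2) (Metric.ball x0 (2 * r)) μ :=
    integrableOn_ball_of_contAt (fun y hy => (hwc y hy).pow 2) hU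
  have h2 : ∫ x, H x ^ 2 ∂μ ≤ 2 * (∫ x in Metric.ball x0 (2 * r), G x ^ 2 ∂μ) +
        2 * (Cth / r) ^ 2 * ∫ x in Metric.ball x0 (2 * r), w x ^ 2 ∂μ := by
    have e : ∫ x, H x ^ 2 ∂μ = ∫ x in Metric.ball x0 (2 * r), H x ^ 2 ∂μ := by
      symm
      apply setIntegral_eq_integral_of_forall_compl_eq_zero
      intro x hx
      rw [hH0 x (by simpa using hx)]
      norm_num
    rw [e, ← integral_const_mul, ← integral_const_mul, ← integral_add (hi1.const_mul _) (hi2.const_mul _)]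
    apply integral_mono hHi.integrableOn ((hi1.const_mul _).add (hi2.const_mul _))
    intro x
    show H x ^ 2 ≤ 2 * G x ^ 2 + 2 * (Cth / r) ^ 2 * w x ^ 2
    have a1 : |η x| ≤ 1 := by
      rw [abs_of_nonneg (cut_nonneg x0 r x)]; exact cut_le_one x0 r x
    have a2 : F x ≤ Cth / r := dcut_le hr x
    have a3 : 0 ≤ F x := dcut_nonneg hr x
    have a4 : H x ^ 2 ≤ 2 * (|η x| * G x) ^ 2 + 2 * (|w x| * F x) ^ 2 := by
      simp only [hH]
      nlinarith [sq_nonneg (|η x| * G x - |w x| * F x)]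
    have a5 : (|η x| * G x) ^ 2 ≤ G x ^ 2 := by
      rw [mul_pow]
      have : |η x| ^ 2 ≤ 1 := by
        have := abs_nonneg (η x)
        nlinarith
      nlinarith [sq_nonneg (G x)]
    have a6 : (|w x| * F x) ^ 2 ≤ (Cth / r) ^ 2 * w x ^ 2 := by
      rw [mul_pow, sq_abs, mul_comm]
      gcongr
    linarith
  calc √(∫ x in Metric.ball x0 r, w x ^ 4 ∂μ) ≤ √(∫ x, (η x * w x) ^ 4 ∂μ) := Real.sqrt_le_sqrt h1
    _ ≤ KS κ ω Λ r * ∫ x, H x ^ 2 ∂μ := key
    _ ≤ _ := by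
        have := KS_nonneg κ ω Λ r
        gcongr

/-- **Sobolev–Poincaré inequality**, `n = 4`. -/
theorem sobpoincR (C : Rad 4 κ X μ) (hκ : 0 ≤ κ) {ω : ℝ} (hω : 0 ≤ ω)
    (hup : ∀ (y : X) (s : ℝ), 0 < s → μ (Metric.ball y s) ≤ ENNReal.ofReal (ω * s ^ 4))
    {x0 : X} {r Λ v : ℝ} (hr : 0 < r) (hΛ : 2 ≤ Λ) (hv : 16 * ω + 1 ≤ v * Λ ^ 4)
    (hlo : ENNReal.ofReal (v * (Λ * r) ^ 4) ≤ μ (Metric.ball x0 (Λ * r)))
    {U : Set X} {f G : X → ℝ} (hf : LGOn U f G) (hG : Measurable G)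
    (hU : Metric.closedBall x0 (4 * r) ⊆ U) :
    √(∫ x in Metric.ball x0 r, (f x - ⨍ z in Metric.ball x0 (2 * r), f z ∂μ) ^ 4 ∂μ) ≤
      KSP κ ω Λ r * ∫ x in Metric.ball x0 (4 * r), G x ^ 2 ∂μ := by
  set c := ⨍ z in Metric.ball x0 (2 * r), f z ∂μ with hc
  have hU2 : Metric.closedBall x0 (2 * r) ⊆ U :=
    (Metric.closedBall_subset_closedBall (by linarith)).trans hU
  have h1 := sob_cut C hκ hω hup hr hΛ hv hlo (LGOn.sub_const hf c) hU2
  have h2 := poincR C hκ hf hG (x0 := x0) (r := 2 * r) (by positivity)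
    (by rw [show 2 * (2 * r) = 4 * r by ring]; exact hU)
  rw [← hc, show 2 * (2 * r) = 4 * r by ring] at h2
  have hi1 : IntegrableOn (fun x => G x ^ 2) (Metric.ball x0 (4 * r)) μ :=
    integrableOn_ball_of_contAt (fun y hy => (hf.contG y hy).pow 2) hU
  have h3 : ∫ x in Metric.ball x0 (2 * r), G x ^ 2 ∂μ ≤ ∫ x in Metric.ball x0 (4 * r), G x ^ 2 ∂μ :=
    setIntegral_mono_set hi1 (Eventually.of_forall fun x => sq_nonneg _)
      (Metric.ball_subset_ball (by linarith)).eventuallyLE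
  have hK := KS_nonneg κ ω Λ r
  have hC := Cth_pos
  set J := ∫ x in Metric.ball x0 (4 * r), G x ^ 2 ∂μ with hJ
  calc √(∫ x in Metric.ball x0 r, (f x - c) ^ 4 ∂μ)
      ≤ KS κ ω Λ r * (2 * (∫ x in Metric.ball x0 (2 * r), G x ^ 2 ∂μ) +
        2 * (Cth / r) ^ 2 * ∫ x in Metric.ball x0 (2 * r), (f x - c) ^ 2 ∂μ) := h1
    _ ≤ KS κ ω Λ r * (2 * J + 2 * (Cth / r) ^ 2 *
          (8 * (2 * r) ^ 2 * (Real.exp (2 * κ * (2 * r) ^ 2) * 2 ^ 4) * J)) := by gcongr
    _ = KSP κ ω Λ r * J := by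
        unfold KSP
        rw [show 2 * κ * (2 * r) ^ 2 = 8 * κ * r ^ 2 by ring]
        field_simp
        ring

end sp

end Crest.Agent.R249.SobG_982
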