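import Crest.Agent.R247.Rdg6_879
import Crest.Agent.R247.Ar4_659
import Crest.Agent.R247.Bgr3_546

/-!
# R249, D3-START (3a) (helper509): Dirichlet–Poincaré inequality on balls of a complete manifold

`dp` : `M` complete connected (template classes), `Ric ≥ -κ`, `κ (4 r)² ≤ 1`, `y` a point with
`5r/2 ≤ d(x,y) ≤ 3r`.  For every locally Lipschitz compactly supported `f` with support in `ball x r`
`∫ f² ≤ 64 · 4^(n+2) r² ∫ ‖Gr f‖²`.
-/

set_option autoImplicit false
set_option maxSynthPendingDepth 3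
set_option linter.unusedSectionVars false

open Bundle Set MeasureTheory Manifold Filter Metric Topology
open scoped ENNReal ContDiff Topology NNReal RealInnerProductSpace
open Crest.GeometryTopology.CoordMetric Crest.GeometryTopology.ChartCurvature
open Crest.GeometryTopology.PointedLimit
open Crest.Agent.R247 Crest.Agent.R247.Ms322 Crest.Agent.R247.Mcp688
open Crest.Agent.R247.Dir593.GradS (IsT)

noncomputable section
namespace Crest.Agent.R249.StaD_509

universe u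
variable {n : ℕ} {M : Type u} [MetricSpace M] [CompleteSpace M] [ConnectedSpace M]
  [ChartedSpace (EuclideanSpace ℝ (Fin n)) M]
  [IsManifold 𝓘(ℝ, EuclideanSpace ℝ (Fin n)) ∞ M]
  [RiemannianBundle (fun x : M => TangentSpace 𝓘(ℝ, EuclideanSpace ℝ (Fin n)) x)]
  [IsContMDiffRiemannianBundle 𝓘(ℝ, EuclideanSpace ℝ (Fin n)) ∞ (EuclideanSpace ℝ (Fin n))
    (fun x : M => TangentSpace 𝓘(ℝ, EuclideanSpace ℝ (Fin n)) x)]
  [IsRiemannianManifold 𝓘(ℝ, EuclideanSpace ℝ (Fin n)) M]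
  [MeasurableSpace M] [BorelSpace M] [SecondCountableTopology M] [Nonempty M]

local notation "μM" => (μHE[n] : Measure M)

/-- `‖∇ (d_y² / 2)‖ ≤ d_y` a.e. -/
theorem ae_norm_Gr_half (hn : 1 ≤ n) (y : M) :
    ∀ᵐ z ∂μM, ‖Gr (n := n) (fun u => dist y u ^ 2 / 2) z‖ ≤ dist y z := by
  have h1 : ∀ᵐ z ∂μM, MDifferentiableAt (𝓡 n) 𝓘(ℝ) (fun u => dist y u) z :=
    ae_mdifferentiableAt (LipschitzWith.dist_right y).locallyLipschitz
  filter_upwards [h1, Ar659.ae_norm_Gr_dist (n := n) hn y] with z hz hz1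
  have hd : HasDerivAt (fun s : ℝ => s ^ 2 / 2) (dist y z) (dist y z) := by
    have := ((hasDerivAt_pow 2 (dist y z)).div_const 2)
    simpa using this
  have h2 := Gr_comp (χ := fun s : ℝ => s ^ 2 / 2) hz hd.differentiableAt
  rw [hd.deriv] at h2
  rw [h2, norm_smul, hz1, mul_one, Real.norm_of_nonneg dist_nonneg]

theorem dp_of_rad (hn : 1 ≤ n) {κ : ℝ} (hκ : 0 ≤ κ) (C : Rad n κ M μM) (x y : M) {r : ℝ}
    (hr : 0 < r) (hxy1 : 5 / 2 * r ≤ dist x y) (hxy2 : dist x y ≤ 3 * r)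
    (hκr : κ * (4 * r) ^ 2 ≤ 1) {f : M → ℝ} (hf : IsT f) (hs : tsupport f ⊆ ball x r) :
    ∫ z, f z ^ 2 ∂μM ≤ 64 * 4 ^ (n + 2) * r ^ 2 * ∫ z, ‖Gr (n := n) f z‖ ^ 2 ∂μM := by
  have := HR216.properSpace_of_riemannian n M
  have := isLocallyFinite_muHE n M
  obtain ⟨K, hK⟩ := exists_lipschitzWith hf.1 hf.2
  have hL : ∀ u z, |f u - f z| ≤ (K : ℝ) * dist u z := fun u z => by
    have := hK.dist_le_mul u z
    rwa [Real.dist_eq] at this
  have hfin : μM (closedBall x r) ≠ ⊤ := (isCompact_closedBall x r).measure_lt_top.ne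
  have hsupp : ∀ z, r < dist x z → f z = 0 := by
    intro z hz
    refine image_eq_zero_of_notMem_tsupport fun h => ?_
    have := hs h
    rw [mem_ball, dist_comm] at this
    linarith
  have hD := Rdg879.rd_block hn C y hf.1
  have hG : ∀ᵐ z ∂μM, |inner ℝ (Gr (n := n) (fun u => dist y u ^ 2 / 2) z)
      (Gr (n := n) f z)| ≤ dist y z * ‖Gr (n := n) f z‖ := by
    filter_upwards [ae_norm_Gr_half hn y] with z hz
    refine (abs_real_inner_le_norm _ _).trans ?_
    gcongr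
  have hGK : ∀ z, ‖Gr (n := n) f z‖ ≤ K := fun z =>
    norm_Gr_le_of_lipschitzOn (U := univ) univ_mem hK.lipschitzOnWith
  have hmeas : Measurable fun z => ‖Gr (n := n) f z‖ ^ 2 := (measurable_Gr f).norm.pow_const 2
  have hGI : IntegrableOn (fun z => ‖Gr (n := n) f z‖ ^ 2) (closedBall x r) μM := by
    refine Measure.integrableOn_of_bounded (M := (K : ℝ) ^ 2) hfin hmeas.aestronglyMeasurable ?_
    refine Eventually.of_forall fun z => ?_
    rw [Real.norm_of_nonneg (by positivity)]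
    have := hGK z
    gcongr
  have key := C.dirichlet_poincare hκ x y hr hxy1 hxy2 hκr hfin hf.1.continuous.measurable hL hsupp
    hD hG hGI
  refine key.trans ?_
  have hzero : ∀ z, z ∉ closedBall x r → ‖Gr (n := n) f z‖ ^ 2 = 0 := by
    intro z hz
    have h1 : f =ᶠ[𝓝 z] fun _ => (0:ℝ) := by
      have h2 : z ∉ tsupport f := fun h => hz (ball_subset_closedBall (hs h))
      exact notMem_tsupport_iff_eventuallyEq.1 h2
    rw [Gr_congr (n := n) h1]
    have h3 : Gr (n := n) (fun _ : M => (0:ℝ)) z = 0 := by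
      ext j
      rw [Gr_apply]
      unfold df
      rw [mfderiv_const]
      rfl
    rw [h3]
    simp
  have e : ∫ z in closedBall x r, ‖Gr (n := n) f z‖ ^ 2 ∂μM = ∫ z, ‖Gr (n := n) f z‖ ^ 2 ∂μM :=
    setIntegral_eq_integral_of_forall_compl_eq_zero hzero
  rw [e]

/-- **Dirichlet–Poincaré** on `ball x r`. -/
theorem dp {κ : ℝ} (hκ : 0 ≤ κ) (hRic : HasRicciLowerBound n M (-κ)) (x y : M) {r : ℝ}
    (hr : 0 < r) (hxy1 : 5 / 2 * r ≤ dist x y) (hxy2 : dist x y ≤ 3 * r)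
    (hκr : κ * (4 * r) ^ 2 ≤ 1) {f : M → ℝ} (hf : IsT f) (hs : tsupport f ⊆ ball x r) :
    ∫ z, f z ^ 2 ∂μM ≤ 64 * 4 ^ (n + 2) * r ^ 2 * ∫ z, ‖Gr (n := n) f z‖ ^ 2 ∂μM := by
  rcases Nat.eq_zero_or_pos n with hn | hn
  · subst hn
    exfalso
    have := Bgr546.subsingleton_of_zero M
    have h1 : x = y := Subsingleton.elim x y
    rw [h1, dist_self] at hxy1
    linarith
  · obtain ⟨C⟩ := Bgr546.rad_all n κ hκ M hRic
    exact dp_of_rad hn hκ C x y hr hxy1 hxy2 hκr hf hs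

end Crest.Agent.R249.StaD_509
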