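import Crest.Agent.R249.Dec1_308
import Crest.Agent.R249.HRep3_308
import Crest.Agent.R249.SobG_982
import Crest.Agent.R249.StaD_509

/-!
R249, D3-DECAY (helper308), part 3: pointwise splitting `T2 ≤ C dF2 + 10 |F - A| T2`, continuity,
decay of the gradient of a harmonic function and of a function with `L²` Laplacian.
-/

set_option autoImplicit false
set_option maxSynthPendingDepth 3
set_option linter.unusedSectionVars false

open scoped ContDiff ENNReal NNReal Topology Manifold Bundle RealInnerProductSpace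
open MeasureTheory Set Filter Metric Bundle
open Crest.GeometryTopology.CoordMetric Crest.GeometryTopology.ChartCurvature
open Crest.Agent.R247 Crest.Agent.R247.Bo84 Crest.Agent.R247.Ms322 Crest.Agent.R247.Bs84
open Crest.Agent.R247.Hes124 (F S mv tr idm)
open Crest.Agent.R247.Dir593.GradS (IsT)
open Crest.GeometryTopology.PointedLimit Crest.Agent.R247.Mcp688
open Crest.Agent.R249.HRep308 Crest.Agent.R249.SobE_982 Crest.Agent.R249.SobG_982

noncomputable section

namespace Crest.Agent.R249.Dec308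

universe u
variable {n : ℕ} {M : Type u} [MetricSpace M] [CompleteSpace M] [ConnectedSpace M]
  [ChartedSpace (EuclideanSpace ℝ (Fin n)) M]
  [IsManifold 𝓘(ℝ, EuclideanSpace ℝ (Fin n)) ∞ M]
  [RiemannianBundle (fun x : M => TangentSpace 𝓘(ℝ, EuclideanSpace ℝ (Fin n)) x)]
  [IsContMDiffRiemannianBundle 𝓘(ℝ, EuclideanSpace ℝ (Fin n)) ∞ (EuclideanSpace ℝ (Fin n))
    (fun x : M => TangentSpace 𝓘(ℝ, EuclideanSpace ℝ (Fin n)) x)]
  [IsRiemannianManifold 𝓘(ℝ, EuclideanSpace ℝ (Fin n)) M]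
  [MeasurableSpace M] [BorelSpace M] [SecondCountableTopology M] [Nonempty M]

local notation "μM" => (μHE[n] : Measure M)

/-- the Gram matrix of a system -/
def Fm (n : ℕ) {M : Type*} [MetricSpace M] [ChartedSpace (EuclideanSpace ℝ (Fin n)) M]
    [IsManifold (𝓡 n) ∞ M] [RiemannianBundle (fun p : M => TangentSpace (𝓡 n) p)]
    [IsContMDiffRiemannianBundle (𝓡 n) ∞ (EuclideanSpace ℝ (Fin n))
      (fun p : M => TangentSpace (𝓡 n) p)]
    (U : Fin n → M → ℝ) (z : M) : S n := WithLp.toLp 2 fun p => mGam n (U p.1) (U p.2) z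

variable {U : Fin n → M → ℝ} {z : M}

theorem Fm_apply (p : Fin n × Fin n) : Fm n U z p = mGam n (U p.1) (U p.2) z := rfl

theorem norm_comb_sq (x : F n) :
    ‖∑ b, x b • Gr (n := n) (U b) z‖ ^ 2 = (⟪mv (Fm n U z) x, x⟫ : ℝ) := by
  rw [← real_inner_self_eq_norm_sq, sum_inner, PiLp.inner_apply]
  refine Finset.sum_congr rfl fun a _ => ?_
  rw [inner_sum, Hes124.mv_apply, RCLike.inner_apply, conj_trivial, Finset.mul_sum]
  refine Finset.sum_congr rfl fun b _ => ?_
  rw [real_inner_smul_left, real_inner_smul_right, inner_Gr_eq_mGam, Fm_apply]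
  ring

theorem mv_idm (x : F n) : mv (idm n) x = x := by
  ext i
  rw [Hes124.mv_apply]
  simp [idm]

theorem gram_lower {η : ℝ} (h : ‖Fm n U z - idm n‖ ≤ η) (x : F n) :
    (1 - η) * ‖x‖ ^ 2 ≤ ‖∑ b, x b • Gr (n := n) (U b) z‖ ^ 2 := by
  rw [norm_comb_sq]
  have h1 : mv (Fm n U z) x = x + mv (Fm n U z - idm n) x := by
    rw [Hes124.mv_sub_left, mv_idm]; abel
  rw [h1, inner_add_left, real_inner_self_eq_norm_sq]
  have h2 : |(⟪mv (Fm n U z - idm n) x, x⟫ : ℝ)| ≤ η * ‖x‖ * ‖x‖ :=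
    (abs_real_inner_le_norm _ _).trans
      (mul_le_mul_of_nonneg_right ((Hes124.norm_mv_le _ _).trans
        (mul_le_mul_of_nonneg_right h (norm_nonneg _))) (norm_nonneg _))
  have h3 := neg_le_of_abs_le h2
  nlinarith

/-- **the splitting** -/
theorem T2_split {Λ : ℝ} (hU : ∀ a, ContMDiffAt (𝓡 n) 𝓘(ℝ, ℝ) 2 (U a) z)
    (hΛ : ∀ a, ‖Gr (n := n) (U a) z‖ ≤ Λ) {A : S n} (hA : ‖A - idm n‖ ≤ 1 / 4) :
    T2 n U z ≤ 8 * n * Λ ^ 2 * dF2 n U z + 10 * (‖Fm n U z - A‖ * T2 n U z) := by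
  have hT := T2_nonneg hU
  have hd : 0 ≤ dF2 n U z := dF2_nonneg
  by_cases h : ‖Fm n U z - A‖ ≤ 1 / 10
  · have h1 : ‖Fm n U z - idm n‖ ≤ 7 / 20 := by
      calc ‖Fm n U z - idm n‖ = ‖(Fm n U z - A) + (A - idm n)‖ := by congr 1; abel
        _ ≤ ‖Fm n U z - A‖ + ‖A - idm n‖ := norm_add_le _ _
        _ ≤ 7 / 20 := by linarith
    have h2 := T_le_dF (c := 13 / 20) (by norm_num) hU hΛ (fun x => by
      have := gram_lower h1 x
      norm_num at this ⊢
      linarith)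
    have h3 : 0 ≤ 10 * (‖Fm n U z - A‖ * T2 n U z) := by positivity
    have h4 : 0 ≤ (n:ℝ) * Λ ^ 2 * dF2 n U z := by positivity
    nlinarith
  · have h1 : 1 / 10 < ‖Fm n U z - A‖ := not_le.1 h
    have h2 : 1 / 10 * T2 n U z ≤ ‖Fm n U z - A‖ * T2 n U z :=
      mul_le_mul_of_nonneg_right h1.le hT
    have h3 : 0 ≤ 8 * (n:ℝ) * Λ ^ 2 * dF2 n U z := by positivity
    linarith

theorem z11_le : (0 : WithTop ℕ∞) + 1 + 1 ≤ ((⊤ : ℕ∞) : WithTop ℕ∞) := by
  have h : (0 : WithTop ℕ∞) + 1 + 1 = 2 := by norm_num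
  rw [h]
  exact two_le_infty

/-! ### continuity -/

theorem continuousAt_T2 (hU : ∀ a, ContMDiffAt (𝓡 n) 𝓘(ℝ, ℝ) 2 (U a) z) :
    ContinuousAt (T2 n U) z := by
  have : T2 n U = fun z => ∑ a, mHessSq n (U a) z := rfl
  rw [this]
  exact tendsto_finsetSum _ fun a _ => continuousAt_mHessSq (hU a)

theorem ctF (hU : ∀ a, ContMDiffAt (𝓡 n) 𝓘(ℝ, ℝ) ∞ (U a) z) (a b : Fin n) :
    ContMDiffAt (𝓡 n) 𝓘(ℝ, ℝ) ∞ (mGam n (U a) (U b)) z :=
  contMDiffAt_mGam (m := ∞) (hU a) (hU b) (by simp) le_rfl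

theorem continuousAt_dF2 (hU : ∀ a, ContMDiffAt (𝓡 n) 𝓘(ℝ, ℝ) ∞ (U a) z) :
    ContinuousAt (dF2 n U) z := by
  have : dF2 n U = fun z => ∑ a, ∑ b, ‖Gr (n := n) (mGam n (U a) (U b)) z‖ ^ 2 := rfl
  rw [this]
  exact tendsto_finsetSum _ fun a _ => tendsto_finsetSum _ fun b _ =>
    ((continuousAt_norm_Gr ((ctF hU a b).of_le (by simp))).pow 2)

theorem continuousAt_Fm (hU : ∀ a, ContMDiffAt (𝓡 n) 𝓘(ℝ, ℝ) ∞ (U a) z) :
    ContinuousAt (Fm n U) z := by
  have h1 : ContinuousAt (fun z => fun p : Fin n × Fin n => mGam n (U p.1) (U p.2) z) z :=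
    continuousAt_pi.2 fun p => (ctF hU p.1 p.2).continuousAt
  exact (PiLp.continuous_toLp 2 _).continuousAt.comp h1

/-! ### decay of harmonic functions -/

/-- decay for a harmonic function from the mean value inequality -/
theorem harm_decay (hRic : HasRicciLowerBound n M 0) {x : M} {s t C₁ w : ℝ} (hs : 0 < s)
    (ht : 0 < t) (ht4 : t ≤ 1 / 4) (hC₁ : 0 ≤ C₁)
    (hMV : ∀ f : M → ℝ, (∀ z ∈ ball x s, ContMDiffAt (𝓡 n) 𝓘(ℝ, ℝ) 2 f z) →
      (∀ z ∈ ball x s, 0 ≤ f z) → (∀ z ∈ ball x s, 0 ≤ mLap n f z) →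
      ∀ z ∈ ball x (s / 4), f z ≤ C₁ / s ^ n * ∫ y in ball x (s / 2), f y ∂μM)
    (hvol : (μM).real (ball x (t * s)) ≤ w * (t * s) ^ n)
    {H : M → ℝ} (hH : ContMDiffOn (𝓡 n) 𝓘(ℝ, ℝ) ∞ H (ball x s))
    (hL : ∀ z ∈ ball x s, mLap n H z = 0)
    (hHG : MemLp ((ball x s).indicator (Gr (n := n) H)) 2 μM) :
    ∫ z in ball x (t * s), ‖Gr (n := n) H z‖ ^ 2 ∂μM ≤
      w * C₁ * t ^ n * ∫ z in ball x s, ‖Gr (n := n) H z‖ ^ 2 ∂μM := by
  have := HR216.properSpace_of_riemannian n M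
  have := isLocallyFinite_muHE n M
  have hint : IntegrableOn (fun z => ‖Gr (n := n) H z‖ ^ 2) (ball x s) μM := by
    have h1 := (memLp_two_iff_integrable_sq_norm hHG.1).1 hHG
    rw [← integrable_indicator_iff isOpen_ball.measurableSet]
    refine h1.congr (Eventually.of_forall fun z => ?_)
    by_cases hz : z ∈ ball x s
    · simp [indicator_of_mem hz]
    · simp [indicator_of_notMem hz]
  set f : M → ℝ := fun z => ‖Gr (n := n) H z‖ ^ 2 with hf
  have hfe : f = mGam n H H := by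
    funext z; exact sq_norm_Gr H z
  have hc : ∀ z ∈ ball x s, ContMDiffAt (𝓡 n) 𝓘(ℝ, ℝ) ∞ H z := fun z hz =>
    ctAt isOpen_ball hH hz
  have h1 : ∀ z ∈ ball x (s / 4), f z ≤ C₁ / s ^ n * ∫ y in ball x (s / 2), f y ∂μM := by
    refine hMV f (fun z hz => ?_) (fun z _ => sq_nonneg _) (fun z hz => ?_)
    · rw [hfe]
      exact contMDiffAt_mGam (m := 2) ((hc z hz).of_le three_le_infty)
        ((hc z hz).of_le three_le_infty) (by norm_num) three_le_infty
    · have hs3 : ContMDiffAt (𝓡 n) 𝓘(ℝ, ℝ) 3 H z := (hc z hz).of_le three_le_infty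
      have hu : ∀ᶠ y in 𝓝 z, mLap n H y = 0 := by
        filter_upwards [isOpen_ball.mem_nhds hz] with y hy using hL y hy
      have b1 := bochner_pt hs3
      have b2 : mLap n (hsq n H) z = (1 / 2) * mLap n (mGam n H H) z :=
        mLap_const_mul (1 / 2) (contMDiffAt_mGam (m := 2) hs3 hs3 (by norm_num) three_le_infty)
      have b3 : Gr (n := n) (mLap n H) z = 0 := by
        rw [Gr_congr (g := fun _ => (0:ℝ)) hu]
        ext j
        rw [Gr_apply]
        have : df (n := n) (fun _ : M => (0:ℝ)) z = 0 := by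
          unfold df
          rw [mfderiv_const]
          rfl
        rw [this]
        rfl
      rw [b3, inner_zero_right, add_zero, b2] at b1
      have b4 := Ricf_lb hRic z (Gr (n := n) H z)
      rw [zero_mul] at b4
      rw [hfe]
      nlinarith [sq_nonneg ‖Hf (n := n) H z‖]
  set J := ∫ z in ball x s, f z ∂μM with hJ
  have hJ0 : 0 ≤ J := integral_nonneg fun z => sq_nonneg _
  have h2 : ∫ y in ball x (s / 2), f y ∂μM ≤ J :=
    setIntegral_mono_set hint (Eventually.of_forall fun z => sq_nonneg _)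
      (ball_subset_ball (by linarith)).eventuallyLE
  have h3 : ∀ z ∈ ball x (t * s), f z ≤ C₁ / s ^ n * J := by
    intro z hz
    have hz' : z ∈ ball x (s / 4) := ball_subset_ball (by nlinarith) hz
    exact (h1 z hz').trans (mul_le_mul_of_nonneg_left h2 (by positivity))
  have hsub : ball x (t * s) ⊆ ball x s := ball_subset_ball (by nlinarith)
  have hfin : μM (ball x (t * s)) ≠ ⊤ := measure_ball_lt_top.ne
  calc ∫ z in ball x (t * s), f z ∂μM ≤ ∫ z in ball x (t * s), C₁ / s ^ n * J ∂μM :=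
        setIntegral_mono_on (hint.mono_set hsub) (integrableOn_const hfin)
          isOpen_ball.measurableSet h3
    _ = (μM).real (ball x (t * s)) * (C₁ / s ^ n * J) := by
        rw [setIntegral_const, smul_eq_mul]
    _ ≤ (w * (t * s) ^ n) * (C₁ / s ^ n * J) := by gcongr
    _ = w * C₁ * t ^ n * J := by
        rw [mul_pow]
        field_simp

/-- **decay for a function with `L²` Laplacian** -/
theorem fun_decay (hRic : HasRicciLowerBound n M 0) {x y : M} {s t C₁ w : ℝ} (hs : 0 < s)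
    (ht : 0 < t) (ht4 : t ≤ 1 / 4) (hC₁ : 0 ≤ C₁) (hw : 0 ≤ w)
    (hy1 : 5 / 2 * s ≤ dist x y) (hy2 : dist x y ≤ 3 * s)
    (hMV : ∀ f : M → ℝ, (∀ z ∈ ball x s, ContMDiffAt (𝓡 n) 𝓘(ℝ, ℝ) 2 f z) →
      (∀ z ∈ ball x s, 0 ≤ f z) → (∀ z ∈ ball x s, 0 ≤ mLap n f z) →
      ∀ z ∈ ball x (s / 4), f z ≤ C₁ / s ^ n * ∫ y in ball x (s / 2), f y ∂μM)
    (hvol : (μM).real (ball x (t * s)) ≤ w * (t * s) ^ n)
    {W : Set M} (hWo : IsOpen W) (hW : closedBall x s ⊆ W)
    {Fn : M → ℝ} (hF : ∀ z ∈ W, ContMDiffAt (𝓡 n) 𝓘(ℝ, ℝ) ∞ Fn z) :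
    ∫ z in ball x (t * s), ‖Gr (n := n) Fn z‖ ^ 2 ∂μM ≤
      2 * (w * C₁) * t ^ n * (∫ z in ball x s, ‖Gr (n := n) Fn z‖ ^ 2 ∂μM) +
      2 * (64 * 4 ^ (n + 2)) * s ^ 2 * ∫ z in ball x s, mLap n Fn z ^ 2 ∂μM := by
  have := HR216.properSpace_of_riemannian n M
  have := isLocallyFinite_muHE n M
  have hbW : ball x s ⊆ W := ball_subset_closedBall.trans hW
  have hFo : ContMDiffOn (𝓡 n) 𝓘(ℝ, ℝ) ∞ Fn (ball x s) := fun z hz =>
    (hF z (hbW hz)).contMDiffWithinAt
  have hiG : IntegrableOn (fun z => ‖Gr (n := n) Fn z‖ ^ 2) (ball x s) μM :=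
    integrableOn_ball_of_contAt (U := W) (fun z hz =>
      (continuousAt_norm_Gr ((hF z hz).of_le (by simp))).pow 2) hW
  have hiL : IntegrableOn (fun z => mLap n Fn z ^ 2) (ball x s) μM :=
    integrableOn_ball_of_contAt (U := W) (fun z hz =>
      (contMDiffAt_mLap (m := 0) (hF z hz) z11_le le_rfl).continuousAt.pow 2) hW
  have hmL : MemLp ((ball x s).indicator (mLap n Fn)) 2 μM := by
    have hco : ContinuousOn (mLap n Fn) (ball x s) := fun z hz =>
      ((contMDiffAt_mLap (m := 0) (hF z (hbW hz)) z11_le le_rfl).continuousAt).continuousWithinAt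
    have hms : AEStronglyMeasurable ((ball x s).indicator (mLap n Fn)) μM :=
      (aestronglyMeasurable_indicator_iff isOpen_ball.measurableSet).2
        (hco.aestronglyMeasurable isOpen_ball.measurableSet)
    rw [memLp_two_iff_integrable_sq hms]
    refine ((integrable_indicator_iff isOpen_ball.measurableSet).2 hiL).congr
      (Eventually.of_forall fun z => ?_)
    by_cases hz : z ∈ ball x s
    · simp [indicator_of_mem hz]
    · simp [indicator_of_notMem hz]
  have hmG : MemLp ((ball x s).indicator (Gr (n := n) Fn)) 2 μM := by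
    have hms : AEStronglyMeasurable ((ball x s).indicator (Gr (n := n) Fn)) μM :=
      ((measurable_Gr Fn).indicator isOpen_ball.measurableSet).aestronglyMeasurable
    rw [memLp_two_iff_integrable_sq_norm hms]
    refine ((integrable_indicator_iff isOpen_ball.measurableSet).2 hiG).congr
      (Eventually.of_forall fun z => ?_)
    by_cases hz : z ∈ ball x s
    · simp [indicator_of_mem hz]
    · simp [indicator_of_notMem hz]
  have hRic' : HasRicciLowerBound n M (-0) := by rw [neg_zero]; exact hRic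
  obtain ⟨H, hH, hL, hHG, hE, hD⟩ := hrep (n := n) (O := ball x s) isOpen_ball
    (P := 64 * 4 ^ (n + 2) * s ^ 2) (by positivity)
    (fun f hf hfs => StaD_509.dp le_rfl hRic' x y hs hy1 hy2 (by simp) hf hfs) hFo hmG hmL
  have hdec := harm_decay hRic hs ht ht4 hC₁ hMV hvol hH hL hHG
  have hsub : ball x (t * s) ⊆ ball x s := ball_subset_ball (by nlinarith)
  have hiH : IntegrableOn (fun z => ‖Gr (n := n) H z‖ ^ 2) (ball x s) μM := by
    have h1 := (memLp_two_iff_integrable_sq_norm hHG.1).1 hHG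
    rw [← integrable_indicator_iff isOpen_ball.measurableSet]
    refine h1.congr (Eventually.of_forall fun z => ?_)
    by_cases hz : z ∈ ball x s
    · simp [indicator_of_mem hz]
    · simp [indicator_of_notMem hz]
  have hiD : IntegrableOn (fun z => ‖Gr (n := n) Fn z - Gr (n := n) H z‖ ^ 2) (ball x s) μM := by
    have h1 := (memLp_two_iff_integrable_sq_norm (hmG.sub hHG).1).1 (hmG.sub hHG)
    rw [← integrable_indicator_iff isOpen_ball.measurableSet]
    refine h1.congr (Eventually.of_forall fun z => ?_)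
    by_cases hz : z ∈ ball x s
    · simp [indicator_of_mem hz]
    · simp [indicator_of_notMem hz]
  have h1 : ∫ z in ball x (t * s), ‖Gr (n := n) Fn z‖ ^ 2 ∂μM ≤
      ∫ z in ball x (t * s), (2 * ‖Gr (n := n) H z‖ ^ 2 +
        2 * ‖Gr (n := n) Fn z - Gr (n := n) H z‖ ^ 2) ∂μM := by
    refine setIntegral_mono_on (hiG.mono_set hsub)
      (((hiH.mono_set hsub).const_mul 2).add ((hiD.mono_set hsub).const_mul 2))
      isOpen_ball.measurableSet fun z _ => ?_
    have e : Gr (n := n) Fn z = Gr (n := n) H z + (Gr (n := n) Fn z - Gr (n := n) H z) := by abel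
    have e1 := norm_add_le (Gr (n := n) H z) (Gr (n := n) Fn z - Gr (n := n) H z)
    rw [← e] at e1
    have e2 := pow_le_pow_left₀ (norm_nonneg _) e1 2
    nlinarith [sq_nonneg (‖Gr (n := n) H z‖ - ‖Gr (n := n) Fn z - Gr (n := n) H z‖)]
  rw [integral_add ((hiH.mono_set hsub).const_mul 2) ((hiD.mono_set hsub).const_mul 2),
    integral_const_mul, integral_const_mul] at h1
  have h2 : ∫ z in ball x (t * s), ‖Gr (n := n) Fn z - Gr (n := n) H z‖ ^ 2 ∂μM ≤
      ∫ z in ball x s, ‖Gr (n := n) Fn z - Gr (n := n) H z‖ ^ 2 ∂μM :=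
    setIntegral_mono_set hiD (Eventually.of_forall fun z => sq_nonneg _) hsub.eventuallyLE
  have h3 : w * C₁ * t ^ n * ∫ z in ball x s, ‖Gr (n := n) H z‖ ^ 2 ∂μM ≤
      w * C₁ * t ^ n * ∫ z in ball x s, ‖Gr (n := n) Fn z‖ ^ 2 ∂μM :=
    mul_le_mul_of_nonneg_left hE (by positivity)
  nlinarith [h1, h2, h3, hdec, hD]

end Crest.Agent.R249.Dec308
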