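import Crest.Agent.R249.Dec3_308

/-!
R249, D3-DECAY (helper308), part 4: the one step inequality on a ball, in raw form.
-/

set_option autoImplicit false
set_option maxSynthPendingDepth 3
set_option linter.unusedSectionVars false

open scoped ContDiff ENNReal NNReal Topology Manifold Bundle RealInnerProductSpace
open MeasureTheory Set Filter Metric Bundle
open Crest.GeometryTopology.CoordMetric Crest.GeometryTopology.ChartCurvature
open Crest.Agent.R247 Crest.Agent.R247.Bo84 Crest.Agent.R247.Ms322 Crest.Agent.R247.Bs84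
open Crest.Agent.R247.Hes124 (F S mv tr idm)
open Crest.Agent.R247.Dir593.GradS (IsT)
open Crest.GeometryTopology.PointedLimit Crest.Agent.R247.Mcp688
open Crest.Agent.R249.HRep308 Crest.Agent.R249.SobE_982 Crest.Agent.R249.SobG_982

noncomputable section

namespace Crest.Agent.R249.Dec308

universe u
variable {n : ℕ} {M : Type u} [MetricSpace M] [CompleteSpace M] [ConnectedSpace M]
  [ChartedSpace (EuclideanSpace ℝ (Fin n)) M]
  [IsManifold 𝓘(ℝ, EuclideanSpace ℝ (Fin n)) ∞ M]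
  [RiemannianBundle (fun x : M => TangentSpace 𝓘(ℝ, EuclideanSpace ℝ (Fin n)) x)]
  [IsContMDiffRiemannianBundle 𝓘(ℝ, EuclideanSpace ℝ (Fin n)) ∞ (EuclideanSpace ℝ (Fin n))
    (fun x : M => TangentSpace 𝓘(ℝ, EuclideanSpace ℝ (Fin n)) x)]
  [IsRiemannianManifold 𝓘(ℝ, EuclideanSpace ℝ (Fin n)) M]
  [MeasurableSpace M] [BorelSpace M] [SecondCountableTopology M] [Nonempty M]

local notation "μM" => (μHE[n] : Measure M)

variable {U : Fin n → M → ℝ} {z : M}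

theorem norm_Fm_sub_sq (A : S n) (z : M) :
    ‖Fm n U z - A‖ ^ 2 = ∑ a, ∑ b, (mGam n (U a) (U b) z - A (a, b)) ^ 2 := by
  rw [Hes124.norm_sq_S]
  rfl

/-- Poincaré for the Gram matrix -/
theorem poinc_Fm (hRic : HasRicciLowerBound n M 0) {x : M} {s Λ : ℝ} (hs : 0 < s)
    {W : Set M} (hWo : IsOpen W) (hW : closedBall x (2 * s) ⊆ W)
    (hU : ∀ a, ∀ z ∈ W, ContMDiffAt (𝓡 n) 𝓘(ℝ, ℝ) ∞ (U a) z)
    (hΛ : ∀ a, ∀ z ∈ W, ‖Gr (n := n) (U a) z‖ ≤ Λ)
    {A : S n} (hA : ∀ p, A p = ⨍ z in ball x s, mGam n (U p.1) (U p.2) z ∂μM) :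
    ∫ z in ball x s, ‖Fm n U z - A‖ ^ 2 ∂μM ≤
      8 * s ^ 2 * 2 ^ n * (4 * n * Λ ^ 2) * ∫ z in ball x (2 * s), T2 n U z ∂μM := by
  have := HR216.properSpace_of_riemannian n M
  have := isLocallyFinite_muHE n M
  obtain ⟨C⟩ := Bgr546.rad_all n 0 le_rfl M (by rw [neg_zero]; exact hRic)
  have hW1 : closedBall x s ⊆ W := (closedBall_subset_closedBall (by linarith)).trans hW
  have hF : ∀ a b, ∀ z ∈ W, ContMDiffAt (𝓡 n) 𝓘(ℝ, ℝ) ∞ (mGam n (U a) (U b)) z := fun a b z hz =>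
    ctF (fun a => hU a z hz) a b
  have hi : ∀ a b, IntegrableOn (fun z => (mGam n (U a) (U b) z - A (a, b)) ^ 2) (ball x s) μM :=
    fun a b => integrableOn_ball_of_contAt (U := W)
      (fun z hz => ((hF a b z hz).continuousAt.sub continuousAt_const).pow 2) hW1
  have hiG : ∀ a b, IntegrableOn (fun z => ‖Gr (n := n) (mGam n (U a) (U b)) z‖ ^ 2)
      (ball x (2 * s)) μM := fun a b => integrableOn_ball_of_contAt (U := W)
      (fun z hz => (continuousAt_norm_Gr ((hF a b z hz).of_le (by simp))).pow 2) hW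
  have hiT : IntegrableOn (T2 n U) (ball x (2 * s)) μM := integrableOn_ball_of_contAt (U := W)
      (fun z hz => continuousAt_T2 fun a => (hU a z hz).of_le two_le_infty) hW
  have h1 : ∀ a b, ∫ z in ball x s, (mGam n (U a) (U b) z - A (a, b)) ^ 2 ∂μM ≤
      8 * s ^ 2 * 2 ^ n * ∫ z in ball x (2 * s), ‖Gr (n := n) (mGam n (U a) (U b)) z‖ ^ 2 ∂μM := by
    intro a b
    have h2 := poincR C le_rfl (lgOn_of_contMDiffAt (n := n) hWo
      (fun z hz => (hF a b z hz).of_le (by simp))) (measurable_Gr _).norm hs hW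
    rw [hA (a, b)]
    refine h2.trans (le_of_eq ?_)
    rw [mul_zero, zero_mul, Real.exp_zero, one_mul]
  simp only [norm_Fm_sub_sq]
  rw [integral_finsetSum _ fun a _ => integrable_finsetSum _ fun b _ => hi a b]
  have h3 : ∀ a, ∫ z in ball x s, ∑ b, (mGam n (U a) (U b) z - A (a, b)) ^ 2 ∂μM ≤
      ∑ b, 8 * s ^ 2 * 2 ^ n *
        ∫ z in ball x (2 * s), ‖Gr (n := n) (mGam n (U a) (U b)) z‖ ^ 2 ∂μM := fun a => by
    rw [integral_finsetSum _ fun b _ => hi a b]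
    exact Finset.sum_le_sum fun b _ => h1 a b
  refine (Finset.sum_le_sum fun a _ => h3 a).trans ?_
  simp only [← Finset.mul_sum]
  have h4 : (∑ a, ∑ b, ∫ z in ball x (2 * s), ‖Gr (n := n) (mGam n (U a) (U b)) z‖ ^ 2 ∂μM) =
      ∫ z in ball x (2 * s), dF2 n U z ∂μM := by
    unfold dF2
    rw [integral_finsetSum _ fun a _ => integrable_finsetSum _ fun b _ => hiG a b]
    exact Finset.sum_congr rfl fun a _ => (integral_finsetSum _ fun b _ => hiG a b).symm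
  rw [h4]
  have h5 : ∫ z in ball x (2 * s), dF2 n U z ∂μM ≤
      ∫ z in ball x (2 * s), (4 * n * Λ ^ 2) * T2 n U z ∂μM := by
    refine setIntegral_mono_on ?_ (hiT.const_mul _) isOpen_ball.measurableSet fun z hz => ?_
    · exact integrableOn_ball_of_contAt (U := W)
        (fun z hz => continuousAt_dF2 fun a => hU a z hz) hW
    · have hzW := hW (ball_subset_closedBall hz)
      exact dF_le_T (fun a => (hU a z hzW).of_le two_le_infty) fun a => hΛ a z hzW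
  rw [integral_const_mul] at h5
  have h6 : 8 * s ^ 2 * 2 ^ n * ∫ z in ball x (2 * s), dF2 n U z ∂μM ≤
      8 * s ^ 2 * 2 ^ n * ((4 * n * Λ ^ 2) * ∫ z in ball x (2 * s), T2 n U z ∂μM) :=
    mul_le_mul_of_nonneg_left h5 (by positivity)
  refine h6.trans (le_of_eq ?_)
  ring

/-- decay of the gradients of the Gram matrix -/
theorem decay_dF2 (hRic : HasRicciLowerBound n M 0) {x y : M} {s t C₁ w Λ : ℝ} (hs : 0 < s)
    (ht : 0 < t) (ht4 : t ≤ 1 / 4) (hC₁ : 0 ≤ C₁) (hw : 0 ≤ w)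
    (hy1 : 5 / 2 * s ≤ dist x y) (hy2 : dist x y ≤ 3 * s)
    (hMV : ∀ f : M → ℝ, (∀ z ∈ ball x s, ContMDiffAt (𝓡 n) 𝓘(ℝ, ℝ) 2 f z) →
      (∀ z ∈ ball x s, 0 ≤ f z) → (∀ z ∈ ball x s, 0 ≤ mLap n f z) →
      ∀ z ∈ ball x (s / 4), f z ≤ C₁ / s ^ n * ∫ y in ball x (s / 2), f y ∂μM)
    (hvol : (μM).real (ball x (t * s)) ≤ w * (t * s) ^ n)
    {W : Set M} (hWo : IsOpen W) (hW : closedBall x s ⊆ W)
    (hU : ∀ a, ∀ z ∈ W, ContMDiffAt (𝓡 n) 𝓘(ℝ, ℝ) ∞ (U a) z)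
    (hL : ∀ a, ∀ z ∈ W, mLap n (U a) z = 0)
    (hΛ : ∀ a, ∀ z ∈ W, ‖Gr (n := n) (U a) z‖ ≤ Λ)
    {ρ : M → ℝ} (hρ0 : ∀ z ∈ W, 0 ≤ ρ z)
    (hρ : ∀ z ∈ W, ∀ v : F n, |(⟪mv (Ricf (n := n) z) v, v⟫ : ℝ)| ≤ ρ z * ‖v‖ ^ 2)
    (hρi : IntegrableOn (fun z => ρ z ^ 2) (ball x s) μM) :
    ∫ z in ball x (t * s), dF2 n U z ∂μM ≤
      2 * (w * C₁) * t ^ n * (∫ z in ball x s, dF2 n U z ∂μM) +
      2 * (64 * 4 ^ (n + 2)) * s ^ 2 * (n ^ 2 * (72 * ((∫ z in ball x s, T2 n U z ^ 2 ∂μM) +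
        Λ ^ 4 * ∫ z in ball x s, ρ z ^ 2 ∂μM))) := by
  have := HR216.properSpace_of_riemannian n M
  have := isLocallyFinite_muHE n M
  have hF : ∀ a b, ∀ z ∈ W, ContMDiffAt (𝓡 n) 𝓘(ℝ, ℝ) ∞ (mGam n (U a) (U b)) z := fun a b z hz =>
    ctF (fun a => hU a z hz) a b
  have hsub : ball x (t * s) ⊆ ball x s := ball_subset_ball (by nlinarith)
  have hiG : ∀ a b, IntegrableOn (fun z => ‖Gr (n := n) (mGam n (U a) (U b)) z‖ ^ 2)
      (ball x s) μM := fun a b => integrableOn_ball_of_contAt (U := W)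
      (fun z hz => (continuousAt_norm_Gr ((hF a b z hz).of_le (by simp))).pow 2) hW
  have hiT : IntegrableOn (fun z => T2 n U z ^ 2) (ball x s) μM :=
    integrableOn_ball_of_contAt (U := W)
      (fun z hz => (continuousAt_T2 fun a => (hU a z hz).of_le two_le_infty).pow 2) hW
  have hsum : ∀ {r : ℝ}, ball x r ⊆ ball x s →
      ∫ z in ball x r, dF2 n U z ∂μM =
        ∑ a, ∑ b, ∫ z in ball x r, ‖Gr (n := n) (mGam n (U a) (U b)) z‖ ^ 2 ∂μM := by
    intro r hr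
    unfold dF2
    rw [integral_finsetSum _ fun a _ => integrable_finsetSum _ fun b _ => (hiG a b).mono_set hr]
    exact Finset.sum_congr rfl fun a _ =>
      integral_finsetSum _ fun b _ => (hiG a b).mono_set hr
  set Q := 72 * ((∫ z in ball x s, T2 n U z ^ 2 ∂μM) + Λ ^ 4 * ∫ z in ball x s, ρ z ^ 2 ∂μM) with hQ
  have hLF : ∀ a b, ∫ z in ball x s, mLap n (mGam n (U a) (U b)) z ^ 2 ∂μM ≤ Q := by
    intro a b
    have h1 : ∫ z in ball x s, mLap n (mGam n (U a) (U b)) z ^ 2 ∂μM ≤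
        ∫ z in ball x s, 72 * (T2 n U z ^ 2 + Λ ^ 4 * ρ z ^ 2) ∂μM := by
      refine setIntegral_mono_on ?_ ((hiT.add (hρi.const_mul _)).const_mul _)
        isOpen_ball.measurableSet fun z hz => ?_
      · exact integrableOn_ball_of_contAt (U := W) (fun z hz =>
          (contMDiffAt_mLap (m := 0) (hF a b z hz) z11_le le_rfl).continuousAt.pow 2) hW
      · have hzW := hW (ball_subset_closedBall hz)
        have hev : ∀ a, ∀ᶠ q in 𝓝 z, mLap n (U a) q = 0 := fun a => by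
          filter_upwards [hWo.mem_nhds hzW] with q hq using hL a q hq
        exact lapF_le hev (fun a => (hU a z hzW).of_le three_le_infty) (hρ z hzW)
          (fun a => hΛ a z hzW) (hρ0 z hzW) a b
    rw [integral_const_mul, integral_add hiT (hρi.const_mul _), integral_const_mul] at h1
    exact h1
  have h1 : ∀ a b, ∫ z in ball x (t * s), ‖Gr (n := n) (mGam n (U a) (U b)) z‖ ^ 2 ∂μM ≤
      2 * (w * C₁) * t ^ n * (∫ z in ball x s, ‖Gr (n := n) (mGam n (U a) (U b)) z‖ ^ 2 ∂μM) +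
      2 * (64 * 4 ^ (n + 2)) * s ^ 2 * Q := by
    intro a b
    have h2 := fun_decay hRic hs ht ht4 hC₁ hw hy1 hy2 hMV hvol hWo hW (hF a b)
    refine h2.trans ?_
    have h3 : 2 * (64 * 4 ^ (n + 2)) * s ^ 2 *
        ∫ z in ball x s, mLap n (mGam n (U a) (U b)) z ^ 2 ∂μM ≤
        2 * (64 * 4 ^ (n + 2)) * s ^ 2 * Q := mul_le_mul_of_nonneg_left (hLF a b) (by positivity)
    linarith
  rw [hsum hsub, hsum le_rfl]
  refine (Finset.sum_le_sum fun a _ => Finset.sum_le_sum fun b _ => h1 a b).trans (le_of_eq ?_)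
  simp only [Finset.sum_add_distrib, ← Finset.mul_sum, Finset.sum_const, Finset.card_univ,
    Fintype.card_fin, nsmul_eq_mul]
  ring

/-- **the one step inequality**, raw form. -/
theorem one_step_raw (hRic : HasRicciLowerBound n M 0) {x y : M} {s t C₁ w Λ : ℝ} (hs : 0 < s)
    (ht : 0 < t) (ht4 : t ≤ 1 / 4) (hC₁ : 0 ≤ C₁) (hw : 0 ≤ w)
    (hy1 : 5 / 2 * s ≤ dist x y) (hy2 : dist x y ≤ 3 * s)
    (hMV : ∀ f : M → ℝ, (∀ z ∈ ball x s, ContMDiffAt (𝓡 n) 𝓘(ℝ, ℝ) 2 f z) →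
      (∀ z ∈ ball x s, 0 ≤ f z) → (∀ z ∈ ball x s, 0 ≤ mLap n f z) →
      ∀ z ∈ ball x (s / 4), f z ≤ C₁ / s ^ n * ∫ y in ball x (s / 2), f y ∂μM)
    (hvol : (μM).real (ball x (t * s)) ≤ w * (t * s) ^ n)
    {W : Set M} (hWo : IsOpen W) (hW : closedBall x (2 * s) ⊆ W)
    (hU : ∀ a, ∀ z ∈ W, ContMDiffAt (𝓡 n) 𝓘(ℝ, ℝ) ∞ (U a) z)
    (hL : ∀ a, ∀ z ∈ W, mLap n (U a) z = 0)
    (hΛ : ∀ a, ∀ z ∈ W, ‖Gr (n := n) (U a) z‖ ≤ Λ)
    {ρ : M → ℝ} (hρ0 : ∀ z ∈ W, 0 ≤ ρ z)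
    (hρ : ∀ z ∈ W, ∀ v : F n, |(⟪mv (Ricf (n := n) z) v, v⟫ : ℝ)| ≤ ρ z * ‖v‖ ^ 2)
    (hρi : IntegrableOn (fun z => ρ z ^ 2) (ball x s) μM)
    {A : S n} (hA : ∀ p, A p = ⨍ z in ball x s, mGam n (U p.1) (U p.2) z ∂μM)
    (hA1 : ‖A - idm n‖ ≤ 1 / 4) :
    ∫ z in ball x (t * s), T2 n U z ∂μM ≤
      8 * n * Λ ^ 2 * (2 * (w * C₁) * t ^ n * (4 * n * Λ ^ 2 *
          ∫ z in ball x (2 * s), T2 n U z ∂μM) +
        2 * (64 * 4 ^ (n + 2)) * s ^ 2 * (n ^ 2 * (72 * ((∫ z in ball x s, T2 n U z ^ 2 ∂μM) +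
          Λ ^ 4 * ∫ z in ball x s, ρ z ^ 2 ∂μM)))) +
      10 * (√(8 * s ^ 2 * 2 ^ n * (4 * n * Λ ^ 2) * ∫ z in ball x (2 * s), T2 n U z ∂μM) *
        √(∫ z in ball x s, T2 n U z ^ 2 ∂μM)) := by
  have := HR216.properSpace_of_riemannian n M
  have := isLocallyFinite_muHE n M
  have hW1 : closedBall x s ⊆ W := (closedBall_subset_closedBall (by linarith)).trans hW
  have hsub : ball x (t * s) ⊆ ball x s := ball_subset_ball (by nlinarith)
  have hsub2 : ball x s ⊆ ball x (2 * s) := ball_subset_ball (by linarith)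
  have hTn : ∀ z ∈ W, 0 ≤ T2 n U z := fun z hz =>
    T2_nonneg fun a => (hU a z hz).of_le two_le_infty
  have hcT : ∀ z ∈ W, ContinuousAt (T2 n U) z := fun z hz =>
    continuousAt_T2 fun a => (hU a z hz).of_le two_le_infty
  have hcF : ∀ z ∈ W, ContinuousAt (fun z => ‖Fm n U z - A‖) z := fun z hz =>
    ((continuousAt_Fm fun a => hU a z hz).sub continuousAt_const).norm
  have hcd : ∀ z ∈ W, ContinuousAt (dF2 n U) z := fun z hz => continuousAt_dF2 fun a => hU a z hz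
  have hiT : IntegrableOn (T2 n U) (ball x (2 * s)) μM := integrableOn_ball_of_contAt hcT hW
  have hiT2 : IntegrableOn (fun z => T2 n U z ^ 2) (ball x s) μM :=
    integrableOn_ball_of_contAt (U := W) (fun z hz => (hcT z hz).pow 2) hW1
  have hid : IntegrableOn (dF2 n U) (ball x (2 * s)) μM := integrableOn_ball_of_contAt hcd hW
  have hiF2 : IntegrableOn (fun z => ‖Fm n U z - A‖ ^ 2) (ball x s) μM :=
    integrableOn_ball_of_contAt (U := W) (fun z hz => (hcF z hz).pow 2) hW1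
  have hiFT : IntegrableOn (fun z => ‖Fm n U z - A‖ * T2 n U z) (ball x s) μM :=
    integrableOn_ball_of_contAt (U := W) (fun z hz => (hcF z hz).mul (hcT z hz)) hW1
  -- pointwise splitting
  have h1 : ∫ z in ball x (t * s), T2 n U z ∂μM ≤
      8 * n * Λ ^ 2 * (∫ z in ball x (t * s), dF2 n U z ∂μM) +
        10 * ∫ z in ball x (t * s), ‖Fm n U z - A‖ * T2 n U z ∂μM := by
    have h2 : ∫ z in ball x (t * s), T2 n U z ∂μM ≤
        ∫ z in ball x (t * s), (8 * n * Λ ^ 2 * dF2 n U z +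
          10 * (‖Fm n U z - A‖ * T2 n U z)) ∂μM := by
      refine setIntegral_mono_on (hiT.mono_set (hsub.trans hsub2))
        (((hid.mono_set (hsub.trans hsub2)).const_mul _).add ((hiFT.mono_set hsub).const_mul _))
        isOpen_ball.measurableSet fun z hz => ?_
      have hzW := hW1 (ball_subset_closedBall (hsub hz))
      exact T2_split (fun a => (hU a z hzW).of_le two_le_infty) (fun a => hΛ a z hzW) hA1
    rwa [integral_add ((hid.mono_set (hsub.trans hsub2)).const_mul _)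
      ((hiFT.mono_set hsub).const_mul _), integral_const_mul, integral_const_mul] at h2
  -- Cauchy-Schwarz
  have h3 : ∫ z in ball x (t * s), ‖Fm n U z - A‖ * T2 n U z ∂μM ≤
      ∫ z in ball x s, ‖Fm n U z - A‖ * T2 n U z ∂μM := by
    refine setIntegral_mono_set hiFT ?_ hsub.eventuallyLE
    filter_upwards [ae_restrict_mem isOpen_ball.measurableSet] with z hz
    exact mul_nonneg (norm_nonneg _) (hTn z (hW1 (ball_subset_closedBall hz)))
  have h4 : ∫ z in ball x s, ‖Fm n U z - A‖ * T2 n U z ∂μM ≤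
      √(∫ z in ball x s, ‖Fm n U z - A‖ ^ 2 ∂μM) * √(∫ z in ball x s, T2 n U z ^ 2 ∂μM) := by
    have m1 : MemLp (fun z => ‖Fm n U z - A‖) 2 ((μM).restrict (ball x s)) := by
      refine (memLp_two_iff_integrable_sq ?_).2 hiF2
      exact ContinuousOn.aestronglyMeasurable (fun z hz =>
        (hcF z (hW1 (ball_subset_closedBall hz))).continuousWithinAt) isOpen_ball.measurableSet
    have m2 : MemLp (T2 n U) 2 ((μM).restrict (ball x s)) := by
      refine (memLp_two_iff_integrable_sq ?_).2 hiT2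
      exact ContinuousOn.aestronglyMeasurable (fun z hz =>
        (hcT z (hW1 (ball_subset_closedBall hz))).continuousWithinAt) isOpen_ball.measurableSet
    have h5 := Hes124.cs_mul m1 m2
    exact (le_abs_self _).trans h5
  have h6 := poinc_Fm hRic hs hWo hW hU hΛ hA
  have h7 := decay_dF2 hRic hs ht ht4 hC₁ hw hy1 hy2 hMV hvol hWo hW1 hU hL hΛ hρ0 hρ hρi
  have h8 : ∫ z in ball x s, dF2 n U z ∂μM ≤ 4 * n * Λ ^ 2 * ∫ z in ball x (2 * s), T2 n U z ∂μM := by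
    have h9 : ∫ z in ball x s, dF2 n U z ∂μM ≤ ∫ z in ball x (2 * s), dF2 n U z ∂μM :=
      setIntegral_mono_set hid (Eventually.of_forall fun z => dF2_nonneg) hsub2.eventuallyLE
    refine h9.trans ?_
    rw [← integral_const_mul]
    refine setIntegral_mono_on hid (hiT.const_mul _) isOpen_ball.measurableSet fun z hz => ?_
    have hzW := hW (ball_subset_closedBall hz)
    exact dF_le_T (fun a => (hU a z hzW).of_le two_le_infty) fun a => hΛ a z hzW
  have h10 : ∫ z in ball x (t * s), dF2 n U z ∂μM ≤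
      2 * (w * C₁) * t ^ n * (4 * n * Λ ^ 2 * ∫ z in ball x (2 * s), T2 n U z ∂μM) +
        2 * (64 * 4 ^ (n + 2)) * s ^ 2 * (n ^ 2 * (72 * ((∫ z in ball x s, T2 n U z ^ 2 ∂μM) +
          Λ ^ 4 * ∫ z in ball x s, ρ z ^ 2 ∂μM))) := by
    refine h7.trans ?_
    gcongr
  have h11 : √(∫ z in ball x s, ‖Fm n U z - A‖ ^ 2 ∂μM) * √(∫ z in ball x s, T2 n U z ^ 2 ∂μM) ≤
      √(8 * s ^ 2 * 2 ^ n * (4 * n * Λ ^ 2) * ∫ z in ball x (2 * s), T2 n U z ∂μM) *
        √(∫ z in ball x s, T2 n U z ^ 2 ∂μM) :=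
    mul_le_mul_of_nonneg_right (Real.sqrt_le_sqrt h6) (Real.sqrt_nonneg _)
  have h12 : 8 * n * Λ ^ 2 * (∫ z in ball x (t * s), dF2 n U z ∂μM) ≤
      8 * n * Λ ^ 2 * (2 * (w * C₁) * t ^ n * (4 * n * Λ ^ 2 *
          ∫ z in ball x (2 * s), T2 n U z ∂μM) +
        2 * (64 * 4 ^ (n + 2)) * s ^ 2 * (n ^ 2 * (72 * ((∫ z in ball x s, T2 n U z ^ 2 ∂μM) +
          Λ ^ 4 * ∫ z in ball x s, ρ z ^ 2 ∂μM)))) :=
    mul_le_mul_of_nonneg_left h10 (by positivity)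
  linarith

end Crest.Agent.R249.Dec308
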