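import Crest.Agent.R249.SobI_982

/-!
# R249 (D3-SOB), part J: `L¹` mean value inequality (`n = 4`)

* `mv1` : `f ≥ 0`, `Δ f ≥ 0` ⟹ `(r - d(x,x0))⁴ f x ≤ 256 CM² ∫_{ball x0 r} f`, hence
  `f x ≤ 4096 CM² r⁻⁴ ∫_{ball x0 r} f` on `ball x0 (r/2)`;
* `mv1_pos` : `Δ f ≥ 0`, `f` of any sign: `f x ≤ 4096 CM² r⁻⁴ ∫_{ball x0 r} f⁺`.
-/

set_option autoImplicit false
set_option maxSynthPendingDepth 3
set_option linter.unusedSectionVars false
open Bundle Set MeasureTheory Manifold Filter Metric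
open scoped ENNReal ContDiff Topology NNReal
open Crest.GeometryTopology.CoordMetric Crest.GeometryTopology.ChartCurvature
open Crest.Agent.R249.SobA_982 Crest.Agent.R249.SobC_982 Crest.Agent.R249.SobD_982
  Crest.Agent.R249.SobE_982 Crest.Agent.R249.SobG_982 Crest.Agent.R249.SobH_982
  Crest.Agent.R249.SobI_982
open Crest.Agent.R247 Crest.Agent.R247.Ms322 Crest.Agent.R247.Mcp688

noncomputable section
namespace Crest.Agent.R249.SobJ_982

lemma KS_mono {κ om Λ s r : ℝ} (hκ : 0 ≤ κ) (hom : 0 ≤ om) (hΛ : 2 ≤ Λ) (hs : 0 ≤ s) (hsr : s ≤ r) :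
    KS κ om Λ s ≤ KS κ om Λ r := by
  unfold KS
  have := Cth_pos
  have h2 : 0 < Λ + 2 := by linarith
  gcongr

lemma CM_mono {κ om Λ s r : ℝ} (hκ : 0 ≤ κ) (hom : 0 ≤ om) (hΛ : 2 ≤ Λ) (hs : 0 ≤ s) (hsr : s ≤ r) :
    CM κ om Λ s ≤ CM κ om Λ r := by
  unfold CM
  have := Cth_pos
  have := KS_mono hκ hom hΛ (by linarith : 0 ≤ s / 2) (by linarith : s / 2 ≤ r / 2)
  gcongr

/-- smooth approximation of the positive part -/
def phi (e t : ℝ) : ℝ := (t + √(t ^ 2 + e ^ 2)) / 2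

section phi
variable {e : ℝ} (he : 0 < e)
include he

lemma le_phi (t : ℝ) : t ≤ phi e t := by
  unfold phi
  have h : |t| ≤ √(t ^ 2 + e ^ 2) := by
    rw [← Real.sqrt_sq_eq_abs]
    exact Real.sqrt_le_sqrt (by nlinarith [sq_nonneg e])
  have := le_abs_self t
  linarith

lemma phi_nonneg (t : ℝ) : 0 ≤ phi e t := by
  unfold phi
  have h : |t| ≤ √(t ^ 2 + e ^ 2) := by
    rw [← Real.sqrt_sq_eq_abs]
    exact Real.sqrt_le_sqrt (by nlinarith [sq_nonneg e])
  have := neg_abs_le t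
  linarith

lemma phi_le (t : ℝ) : phi e t ≤ max t 0 + e := by
  unfold phi
  have h : √(t ^ 2 + e ^ 2) ≤ |t| + e := by
    rw [Real.sqrt_le_left (by positivity)]
    have := abs_nonneg t
    have := sq_abs t
    nlinarith
  have h2 : t + |t| = 2 * max t 0 := by
    rcases le_total 0 t with h0 | h0
    · rw [abs_of_nonneg h0, max_eq_left h0]; ring
    · rw [abs_of_nonpos h0, max_eq_right h0]; ring
  linarith

lemma contDiff_phi : ContDiff ℝ 2 (phi e) := by
  unfold phi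
  refine (contDiff_id.add (ContDiff.sqrt ?_ fun t => by positivity)).div_const 2
  exact (contDiff_id.pow 2).add contDiff_const

lemma hasDerivAt_phi (t : ℝ) : HasDerivAt (phi e) ((1 + t / √(t ^ 2 + e ^ 2)) / 2) t := by
  have h0 : 0 < t ^ 2 + e ^ 2 := by positivity
  have h1 : HasDerivAt (fun t : ℝ => t ^ 2 + e ^ 2) (2 * t) t := by
    simpa using (hasDerivAt_pow 2 t).add_const (e ^ 2)
  have h2 := h1.sqrt h0.ne'
  have h3 := ((hasDerivAt_id t).add h2).div_const 2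
  have h4 : HasDerivAt (phi e) ((1 + 2 * t / (2 * √(t ^ 2 + e ^ 2))) / 2) t := h3
  have h5 : 2 * t / (2 * √(t ^ 2 + e ^ 2)) = t / √(t ^ 2 + e ^ 2) :=
    mul_div_mul_left _ _ two_ne_zero
  rwa [h5] at h4

lemma deriv_phi : deriv (phi e) = fun t => (1 + t / √(t ^ 2 + e ^ 2)) / 2 :=
  funext fun t => (hasDerivAt_phi he t).deriv

lemma deriv_phi_nonneg (t : ℝ) : 0 ≤ deriv (phi e) t := by
  rw [deriv_phi he]
  have h0 : 0 < √(t ^ 2 + e ^ 2) := Real.sqrt_pos.2 (by positivity)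
  have h : |t| ≤ √(t ^ 2 + e ^ 2) := by
    rw [← Real.sqrt_sq_eq_abs]
    exact Real.sqrt_le_sqrt (by nlinarith [sq_nonneg e])
  have h1 : -1 ≤ t / √(t ^ 2 + e ^ 2) := by
    rw [le_div_iff₀ h0]
    have := neg_abs_le t
    linarith
  show 0 ≤ (1 + t / √(t ^ 2 + e ^ 2)) / 2
  linarith

lemma deriv2_phi_nonneg (t : ℝ) : 0 ≤ deriv (deriv (phi e)) t := by
  rw [deriv_phi he]
  have h0 : 0 < t ^ 2 + e ^ 2 := by positivity
  have hs0 : 0 < √(t ^ 2 + e ^ 2) := Real.sqrt_pos.2 h0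
  have h1 : HasDerivAt (fun t : ℝ => t ^ 2 + e ^ 2) (2 * t) t := by
    simpa using (hasDerivAt_pow 2 t).add_const (e ^ 2)
  have h2 := h1.sqrt h0.ne'
  have h3 := (((hasDerivAt_id t).div h2 hs0.ne').const_add 1).div_const 2
  have h4 : HasDerivAt (fun t : ℝ => (1 + t / √(t ^ 2 + e ^ 2)) / 2) _ t := h3
  rw [h4.deriv]
  have h5 : √(t ^ 2 + e ^ 2) ^ 2 = t ^ 2 + e ^ 2 := Real.sq_sqrt h0.le
  have h6 : 0 ≤ 1 * √(t ^ 2 + e ^ 2) - id t * (2 * t / (2 * √(t ^ 2 + e ^ 2))) := by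
    have : 1 * √(t ^ 2 + e ^ 2) - id t * (2 * t / (2 * √(t ^ 2 + e ^ 2))) =
        e ^ 2 / √(t ^ 2 + e ^ 2) := by
      simp only [id]
      field_simp
      rw [h5]
      ring
    rw [this]
    positivity
  positivity

end phi

section M
variable {M : Type*} [MetricSpace M] [ChartedSpace (EuclideanSpace ℝ (Fin 4)) M]
  [IsManifold (𝓡 4) ∞ M]
  [RiemannianBundle (fun p : M => TangentSpace (𝓡 4) p)]
  [IsContMDiffRiemannianBundle (𝓡 4) ∞ (EuclideanSpace ℝ (Fin 4)) (fun p : M => TangentSpace (𝓡 4) p)]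
  [IsRiemannianManifold (𝓡 4) M] [CompleteSpace M]
  [MeasurableSpace M] [BorelSpace M]

/-- **`L¹` mean value inequality**, weighted form. -/
theorem mv1' {κ : ℝ} (C : Rad 4 κ M (μHE[4] : Measure M)) (hκ : 0 ≤ κ) {om : ℝ} (hom : 0 ≤ om)
    (hup : ∀ (y : M) (s : ℝ), 0 < s → (μHE[4] : Measure M) (ball y s) ≤ ENNReal.ofReal (om * s ^ 4))
    {x0 : M} {r Λ v : ℝ} (hr : 0 < r) (hΛ : 2 ≤ Λ) (hv : 16 * om + 1 ≤ v * Λ ^ 4)
    (hlo : ∀ y ∈ ball x0 r, ∀ s : ℝ, 0 < s → s ≤ r →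
      ENNReal.ofReal (v * (Λ * s) ^ 4) ≤ (μHE[4] : Measure M) (ball y (Λ * s)))
    {U : Set M} (hU : IsOpen U) (hrU : closedBall x0 r ⊆ U)
    {f : M → ℝ} (hf : ∀ z ∈ U, ContMDiffAt (𝓡 4) 𝓘(ℝ, ℝ) 2 f z)
    (hf0 : ∀ z ∈ U, 0 ≤ f z) (hL : ∀ z ∈ U, 0 ≤ Bo84.mLap 4 f z) {x : M} (hx : x ∈ ball x0 r) :
    (r - dist x x0) ^ 4 * f x ≤ 256 * CM κ om Λ r ^ 2 * ∫ y in ball x0 r, f y ∂(μHE[4] : Measure M) := by
  have := HR216.properSpace_of_riemannian 4 M
  have := isLocallyFiniteMeasure 4 M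
  have hCM := CM_pos (κ := κ) (r := r) hom hΛ
  set μ : Measure M := μHE[4] with hμ
  have hfc : ContinuousOn f (closedBall x0 r) := fun y hy =>
    (hf y (hrU hy)).continuousAt.continuousWithinAt
  have hi : IntegrableOn f (closedBall x0 r) μ :=
    hfc.integrableOn_compact (isCompact_closedBall _ _)
  have hi2 : IntegrableOn (fun y => f y ^ 2) (closedBall x0 r) μ :=
    (hfc.pow _).integrableOn_compact (isCompact_closedBall _ _)
  have hI0 : 0 ≤ ∫ y in ball x0 r, f y ∂μ :=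
    setIntegral_nonneg isOpen_ball.measurableSet fun y hy => hf0 y (hrU (ball_subset_closedBall hy))
  set I := ∫ y in ball x0 r, f y ∂μ with hI
  set g : M → ℝ := fun y => (r - dist y x0) ^ 4 * f y with hg
  have hgc : ContinuousOn g (closedBall x0 r) := by
    refine ContinuousOn.mul ?_ hfc
    exact ((continuous_const.sub (continuous_id.dist continuous_const)).pow 4).continuousOn
  obtain ⟨y0, hy0, hmax⟩ := (isCompact_closedBall x0 r).exists_isMaxOn
    ⟨x0, mem_closedBall_self hr.le⟩ hgc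
  have hgx : g x ≤ g y0 := hmax (ball_subset_closedBall hx)
  refine hgx.trans ?_
  have hRHS : 0 ≤ 256 * CM κ om Λ r ^ 2 * I := by positivity
  rcases le_or_gt (g y0) 0 with h0 | h0
  · exact h0.trans hRHS
  have hd0 : dist y0 x0 ≤ r := hy0
  have hlt : dist y0 x0 < r := by
    rcases hd0.lt_or_eq with h | h
    · exact h
    · exfalso
      simp only [hg, h] at h0
      norm_num at h0
  set σ := (r - dist y0 x0) / 2 with hσ
  have hσ0 : 0 < σ := by simp only [hσ]; linarith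
  have hσr : σ ≤ r := by
    have : 0 ≤ dist y0 x0 := dist_nonneg
    simp only [hσ]; linarith
  have hsub : closedBall y0 σ ⊆ ball x0 r := by
    intro y hy
    rw [mem_ball]
    have h1 : dist y y0 ≤ σ := hy
    have h2 := dist_triangle y y0 x0
    simp only [hσ] at h1 hσ0
    linarith
  have hsubc : closedBall y0 σ ⊆ closedBall x0 r := hsub.trans ball_subset_closedBall
  have hfy0 : 0 < f y0 := by
    have h1 : 0 < (r - dist y0 x0) ^ 4 := by
      have : 0 < r - dist y0 x0 := by linarith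
      positivity
    exact (pos_iff_pos_of_mul_pos h0).1 h1
  have hmv := mv2 C hκ hom hup (x0 := y0) (r := σ) hσ0 hΛ hv
    (hlo y0 (mem_ball.2 hlt) (σ / 2) (by positivity) (by linarith)) hU (hsubc.trans hrU) hf hf0 hL
    (x := y0) (mem_ball_self (by positivity))
  have hle16 : ∀ y ∈ ball y0 σ, f y ≤ 16 * f y0 := by
    intro y hy
    have h1 : g y ≤ g y0 := hmax (hsubc (ball_subset_closedBall hy))
    simp only [hg] at h1
    have h2 : σ ≤ r - dist y x0 := by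
      have h3 : dist y y0 < σ := hy
      have h4 := dist_triangle y y0 x0
      simp only [hσ] at h3 ⊢
      linarith
    have h5 : r - dist y0 x0 = 2 * σ := by simp only [hσ]; ring
    rw [h5] at h1
    have hfy : 0 ≤ f y := hf0 y (hrU (hsubc (ball_subset_closedBall hy)))
    have h6 : σ ^ 4 * f y ≤ (r - dist y x0) ^ 4 * f y := by gcongr
    have h7 : σ ^ 4 * f y ≤ σ ^ 4 * (16 * f y0) := by
      calc σ ^ 4 * f y ≤ _ := h6
        _ ≤ (2 * σ) ^ 4 * f y0 := h1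
        _ = _ := by ring
    exact le_of_mul_le_mul_left h7 (by positivity)
  have hint : ∫ y in ball y0 σ, f y ^ 2 ∂μ ≤ 16 * f y0 * I := by
    calc ∫ y in ball y0 σ, f y ^ 2 ∂μ ≤ ∫ y in ball y0 σ, 16 * f y0 * f y ∂μ := by
          apply setIntegral_mono_on (hi2.mono_set (ball_subset_closedBall.trans hsubc))
            ((hi.mono_set (ball_subset_closedBall.trans hsubc)).const_mul _) isOpen_ball.measurableSet
          intro y hy
          have h1 := hle16 y hy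
          have hfy : 0 ≤ f y := hf0 y (hrU (hsubc (ball_subset_closedBall hy)))
          nlinarith
      _ = 16 * f y0 * ∫ y in ball y0 σ, f y ∂μ := integral_const_mul _ _
      _ ≤ 16 * f y0 * I := by
          gcongr
          apply setIntegral_mono_set (hi.mono_set ball_subset_closedBall) _
            ((ball_subset_closedBall.trans hsub).eventuallyLE)
          filter_upwards [ae_restrict_mem isOpen_ball.measurableSet] with y hy
          exact hf0 y (hrU (ball_subset_closedBall hy))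
  -- combine
  have hCMσ := CM_mono hκ hom hΛ hσ0.le hσr
  have hCMσ0 := CM_pos (κ := κ) (r := σ) hom hΛ
  have h1 : f y0 ^ 2 ≤ CM κ om Λ r ^ 2 * (16 * f y0 * I / σ ^ 4) := by
    have h2 : f y0 ≤ CM κ om Λ r * √(16 * f y0 * I / σ ^ 4) := by
      refine hmv.trans ?_
      gcongr
    calc f y0 ^ 2 ≤ (CM κ om Λ r * √(16 * f y0 * I / σ ^ 4)) ^ 2 := by gcongr
      _ = _ := by rw [mul_pow, Real.sq_sqrt (by positivity)]
  have h3 : σ ^ 4 * f y0 ≤ 16 * CM κ om Λ r ^ 2 * I := by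
    have h4 : f y0 * (σ ^ 4 * f y0) ≤ f y0 * (16 * CM κ om Λ r ^ 2 * I) := by
      calc f y0 * (σ ^ 4 * f y0) = σ ^ 4 * f y0 ^ 2 := by ring
        _ ≤ σ ^ 4 * (CM κ om Λ r ^ 2 * (16 * f y0 * I / σ ^ 4)) := by gcongr
        _ = _ := by field_simp
    exact le_of_mul_le_mul_left h4 hfy0
  have h5 : g y0 = 16 * (σ ^ 4 * f y0) := by
    simp only [hg, hσ]
    ring
  rw [h5]
  linarith

/-- **`L¹` mean value inequality**. -/
theorem mv1 {κ : ℝ} (C : Rad 4 κ M (μHE[4] : Measure M)) (hκ : 0 ≤ κ) {om : ℝ} (hom : 0 ≤ om)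
    (hup : ∀ (y : M) (s : ℝ), 0 < s → (μHE[4] : Measure M) (ball y s) ≤ ENNReal.ofReal (om * s ^ 4))
    {x0 : M} {r Λ v : ℝ} (hr : 0 < r) (hΛ : 2 ≤ Λ) (hv : 16 * om + 1 ≤ v * Λ ^ 4)
    (hlo : ∀ y ∈ ball x0 r, ∀ s : ℝ, 0 < s → s ≤ r →
      ENNReal.ofReal (v * (Λ * s) ^ 4) ≤ (μHE[4] : Measure M) (ball y (Λ * s)))
    {U : Set M} (hU : IsOpen U) (hrU : closedBall x0 r ⊆ U)
    {f : M → ℝ} (hf : ∀ z ∈ U, ContMDiffAt (𝓡 4) 𝓘(ℝ, ℝ) 2 f z)
    (hf0 : ∀ z ∈ U, 0 ≤ f z) (hL : ∀ z ∈ U, 0 ≤ Bo84.mLap 4 f z) {x : M} (hx : x ∈ ball x0 (r / 2)) :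
    f x ≤ 4096 * CM κ om Λ r ^ 2 * ((∫ y in ball x0 r, f y ∂(μHE[4] : Measure M)) / r ^ 4) := by
  have hxr : x ∈ ball x0 r := ball_subset_ball (by linarith) hx
  have h := mv1' C hκ hom hup hr hΛ hv hlo hU hrU hf hf0 hL hxr
  have hfx := hf0 x (hrU (ball_subset_closedBall hxr))
  have hd : dist x x0 < r / 2 := hx
  have h1 : (r / 2) ^ 4 * f x ≤ (r - dist x x0) ^ 4 * f x := by
    have : r / 2 ≤ r - dist x x0 := by linarith
    gcongr
  have h2 := h1.trans h
  have hr4 : 0 < r ^ 4 := by positivity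
  set I := ∫ y in ball x0 r, f y ∂(μHE[4] : Measure M)
  have h3 : r ^ 4 * f x ≤ 4096 * CM κ om Λ r ^ 2 * I := by
    have e : (r / 2) ^ 4 * f x = r ^ 4 * f x / 16 := by ring
    rw [e] at h2
    linarith
  rw [← mul_div_assoc, le_div_iff₀ hr4]
  linarith

/-- **mean value inequality for subharmonic functions of any sign**. -/
theorem mv1_pos {κ : ℝ} (C : Rad 4 κ M (μHE[4] : Measure M)) (hκ : 0 ≤ κ) {om : ℝ} (hom : 0 ≤ om)
    (hup : ∀ (y : M) (s : ℝ), 0 < s → (μHE[4] : Measure M) (ball y s) ≤ ENNReal.ofReal (om * s ^ 4))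
    {x0 : M} {r Λ v : ℝ} (hr : 0 < r) (hΛ : 2 ≤ Λ) (hv : 16 * om + 1 ≤ v * Λ ^ 4)
    (hlo : ∀ y ∈ ball x0 r, ∀ s : ℝ, 0 < s → s ≤ r →
      ENNReal.ofReal (v * (Λ * s) ^ 4) ≤ (μHE[4] : Measure M) (ball y (Λ * s)))
    {U : Set M} (hU : IsOpen U) (hrU : closedBall x0 r ⊆ U)
    {f : M → ℝ} (hf : ∀ z ∈ U, ContMDiffAt (𝓡 4) 𝓘(ℝ, ℝ) 2 f z)
    (hL : ∀ z ∈ U, 0 ≤ Bo84.mLap 4 f z) {x : M} (hx : x ∈ ball x0 (r / 2)) :
    f x ≤ 4096 * CM κ om Λ r ^ 2 *
      ((∫ y in ball x0 r, max (f y) 0 ∂(μHE[4] : Measure M)) / r ^ 4) := by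
  have := HR216.properSpace_of_riemannian 4 M
  have := isLocallyFiniteMeasure 4 M
  have hCM := CM_pos (κ := κ) (r := r) hom hΛ
  set μ : Measure M := μHE[4] with hμ
  have hfc : ContinuousOn f (closedBall x0 r) := fun y hy =>
    (hf y (hrU hy)).continuousAt.continuousWithinAt
  have hi : IntegrableOn (fun y => max (f y) 0) (ball x0 r) μ :=
    ((hfc.sup continuousOn_const).integrableOn_compact (isCompact_closedBall _ _)).mono_set
      ball_subset_closedBall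
  set K := 4096 * CM κ om Λ r ^ 2 with hK
  have hK0 : 0 < K := by positivity
  set I := ∫ y in ball x0 r, max (f y) 0 ∂μ with hI
  have key : ∀ e : ℝ, 0 < e → f x ≤ K * (I / r ^ 4) + e * (K * μ.real (ball x0 r) / r ^ 4) := by
    intro e he
    have h := mv1 C hκ hom hup hr hΛ hv hlo hU hrU (f := fun y => phi e (f y))
      (fun z hz => ((contDiff_phi he).contMDiff.contMDiffAt).comp z (hf z hz))
      (fun z _ => phi_nonneg he _)
      (fun z hz => by
        rw [Bo84.mLap_comp (n := 4) (φ := phi e) (contDiff_phi he).contDiffAt (hf z hz)]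
        have h1 := deriv_phi_nonneg he (f z)
        have h2 := deriv2_phi_nonneg he (f z)
        have h3 := hL z hz
        have h4 := Bo84.mGam_self_nonneg (n := 4) f z
        positivity) hx
    have h5 : ∫ y in ball x0 r, phi e (f y) ∂μ ≤ I + e * μ.real (ball x0 r) := by
      have hi1 : IntegrableOn (fun y => max (f y) 0 + e) (ball x0 r) μ :=
        hi.add (integrableOn_const (hs := measure_ball_lt_top.ne))
      calc ∫ y in ball x0 r, phi e (f y) ∂μ ≤ ∫ y in ball x0 r, (max (f y) 0 + e) ∂μ := by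
            apply integral_mono_of_nonneg (Eventually.of_forall fun y => phi_nonneg he _) hi1
            exact Eventually.of_forall fun y => phi_le he _
        _ = I + e * μ.real (ball x0 r) := by
            rw [integral_add hi (integrableOn_const (hs := measure_ball_lt_top.ne)),
              setIntegral_const, smul_eq_mul, mul_comm]
    calc f x ≤ phi e (f x) := le_phi he _
      _ ≤ K * ((∫ y in ball x0 r, phi e (f y) ∂μ) / r ^ 4) := h
      _ ≤ K * ((I + e * μ.real (ball x0 r)) / r ^ 4) := by gcongr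
      _ = _ := by ring
  refine le_of_forall_pos_lt_add fun ε hε => ?_
  set B := K * μ.real (ball x0 r) / r ^ 4 with hB
  have hB0 : 0 ≤ B := by positivity
  have h1 := key (ε / (2 * (B + 1))) (by positivity)
  have h2 : ε / (2 * (B + 1)) * B < ε := by
    rw [div_mul_eq_mul_div, div_lt_iff₀ (by positivity)]
    nlinarith
  linarith

end M

end Crest.Agent.R249.SobJ_982
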