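import Crest.Agent.R249.Dec4_308
import Crest.Agent.R249.Dec2_308
import Crest.Agent.R249.Cod7_992
import Crest.Agent.R249.SobJ_982
import Crest.Agent.R249.Alg2_104
import Crest.Agent.R249.Dens_274

/-!
R249, D3-DECAY (helper308), part 5 (`n = 4`): Ricci bound from a curvature bound, volume facts under
the pinching `Pin`, mean value inequality, normalised one step inequality, drift of the averages.
-/

set_option autoImplicit false
set_option maxSynthPendingDepth 3
set_option linter.unusedSectionVars false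

open scoped ContDiff ENNReal NNReal Topology Manifold Bundle RealInnerProductSpace
open MeasureTheory Set Filter Metric Bundle
open Crest.GeometryTopology.CoordMetric Crest.GeometryTopology.ChartCurvature
open Crest.Agent.R247 Crest.Agent.R247.Bo84 Crest.Agent.R247.Ms322 Crest.Agent.R247.Bs84
open Crest.Agent.R247.Hes124 (F S mv tr idm)
open Crest.Agent.R247.Dir593.GradS (IsT)
open Crest.GeometryTopology.PointedLimit Crest.Agent.R247.Mcp688
open Crest.Agent.R249.HRep308 Crest.Agent.R249.SobE_982 Crest.Agent.R249.SobG_982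
open Crest.Agent.R249.Cod992 Crest.Agent.R202.Tens

noncomputable section

namespace Crest.Agent.R249.Dec308

universe u

section ric
variable {n : ℕ} {M : Type u} [MetricSpace M]
  [ChartedSpace (EuclideanSpace ℝ (Fin n)) M]
  [IsManifold 𝓘(ℝ, EuclideanSpace ℝ (Fin n)) ∞ M]
  [RiemannianBundle (fun x : M => TangentSpace 𝓘(ℝ, EuclideanSpace ℝ (Fin n)) x)]
  [IsContMDiffRiemannianBundle 𝓘(ℝ, EuclideanSpace ℝ (Fin n)) ∞ (EuclideanSpace ℝ (Fin n))
    (fun x : M => TangentSpace 𝓘(ℝ, EuclideanSpace ℝ (Fin n)) x)]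
  [SecondCountableTopology M] [Nonempty M]

/-- bound of the Ricci form by the curvature bound. -/
theorem Ricf_le_of_curv {z : M} {b : ℝ} (hb : 0 ≤ b) (h : MCurvLe n z b) (v : F n) :
    |(⟪mv (Ricf (n := n) z) v, v⟫ : ℝ)| ≤ n * b * ‖v‖ ^ 2 := by
  rw [inner_mv_Ricf]
  have hg := Bo84.isRiemannianOn_chartMetric (n := n) z
  have hc := Bo84.centre_mem (n := n) z
  set V := dCh z z (vf z v) with hV
  have e1 : mRic n z (vf z v) (vf z v) =
      Bia3_104.ricF (chartMetric n M z) (chartCentre n M z) V V := by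
    rw [Bia3_104.ricF_eq hg hc]; rfl
  have hn : bil (chartMetric n M z (chartCentre n M z)) V V = ‖v‖ ^ 2 := by
    rw [hV, ← inner_centre, real_inner_self_eq_norm_sq, norm_vf_sq]
  obtain ⟨ξ, hξ⟩ := exists_frame hg hc
  rw [e1, Bia3_104.ricF_frame hg hc hξ]
  refine (Finset.abs_sum_le_sum_abs _ _).trans ?_
  have h1 : ∀ a, |bil (chartMetric n M z (chartCentre n M z))
      (curv (Gam (chartMetric n M z)) (chartCentre n M z) (ξ a) V V) (ξ a)| ≤ b * ‖v‖ ^ 2 := by
    intro a
    refine abs_le_of_sq_le_sq ?_ (by positivity)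
    have h2 := h (ξ a) V V (ξ a)
    have h3 : bil (chartMetric n M z (chartCentre n M z)) (ξ a) (ξ a) = 1 := by
      rw [hξ.orth a a, if_pos rfl]
    rw [h3, hn] at h2
    refine h2.trans (le_of_eq ?_)
    ring
  refine (Finset.sum_le_sum fun a _ => h1 a).trans (le_of_eq ?_)
  rw [Finset.sum_const, Finset.card_univ, Fintype.card_fin, nsmul_eq_mul]
  ring

end ric

/-! ### volumes -/

/-- volume of the unit ball of `ℝ⁴` -/
def om4 : ℝ := (volume (ball (0 : EuclideanSpace ℝ (Fin 4)) 1)).toReal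

theorem om4_ge : 1 ≤ om4 := by
  unfold om4
  rw [InnerProductSpace.volume_ball_of_dim_even (k := 2) (by simp)]
  have h2 : (1:ℝ) ≤ Real.pi ^ 2 / 2 := by
    have := Real.pi_gt_three
    nlinarith
  simp only [finrank_euclideanSpace_fin, ENNReal.ofReal_one, one_pow, one_mul]
  rw [ENNReal.toReal_ofReal (by positivity)]
  norm_num [Nat.factorial]
  linarith

theorem vol4 {r : ℝ} (hr : 0 < r) :
    volume (ball (0 : EuclideanSpace ℝ (Fin 4)) r) = ENNReal.ofReal (om4 * r ^ 4) := by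
  rw [Dens_274.vol_ball _ hr, mul_comm om4, ENNReal.ofReal_mul (by positivity), om4,
    ENNReal.ofReal_toReal measure_ball_lt_top.ne]

variable {M : Type u} [MetricSpace M] [CompleteSpace M] [ConnectedSpace M]
  [ChartedSpace (EuclideanSpace ℝ (Fin 4)) M]
  [IsManifold 𝓘(ℝ, EuclideanSpace ℝ (Fin 4)) ∞ M]
  [RiemannianBundle (fun x : M => TangentSpace 𝓘(ℝ, EuclideanSpace ℝ (Fin 4)) x)]
  [IsContMDiffRiemannianBundle 𝓘(ℝ, EuclideanSpace ℝ (Fin 4)) ∞ (EuclideanSpace ℝ (Fin 4))
    (fun x : M => TangentSpace 𝓘(ℝ, EuclideanSpace ℝ (Fin 4)) x)]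
  [IsRiemannianManifold 𝓘(ℝ, EuclideanSpace ℝ (Fin 4)) M]
  [MeasurableSpace M] [BorelSpace M] [SecondCountableTopology M] [Nonempty M]

local notation "μM" => (μHE[4] : Measure M)

/-- volume pinching on a ball, all scales up to `3 R` -/
def Pin (x : M) (R : ℝ) : Prop := ∀ y ∈ ball x R, ∀ r : ℝ, 0 < r → r ≤ 3 * R →
  ENNReal.ofReal (1 / 2) * volume (ball (0 : EuclideanSpace ℝ (Fin 4)) r) ≤ μM (ball y r)

theorem vol_up (hRic : HasRicciLowerBound 4 M 0) (y : M) (s : ℝ) (hs : 0 < s) :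
    μM (ball y s) ≤ ENNReal.ofReal (om4 * s ^ 4) := by
  have h := Dens_274.theta_le_one hRic y hs
  unfold Dens_274.theta at h
  rw [ENNReal.div_le_iff (measure_ball_pos _ _ hs).ne' measure_ball_lt_top.ne, one_mul, vol4 hs] at h
  exact h

theorem real_up (hRic : HasRicciLowerBound 4 M 0) (y : M) (s : ℝ) (hs : 0 < s) :
    (μM).real (ball y s) ≤ om4 * s ^ 4 := by
  have h := vol_up hRic y s hs
  have h0 := om4_ge
  exact ENNReal.toReal_le_of_le_ofReal (by positivity) h

theorem vol_lo {x : M} {R : ℝ} (hP : Pin x R) {y : M} (hy : y ∈ ball x R) {r : ℝ} (hr : 0 < r)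
    (hrR : r ≤ 3 * R) : ENNReal.ofReal (om4 / 2 * r ^ 4) ≤ μM (ball y r) := by
  refine le_trans (le_of_eq ?_) (hP y hy r hr hrR)
  rw [vol4 hr, ← ENNReal.ofReal_mul (by norm_num)]
  congr 1
  ring

theorem real_lo (hRic : HasRicciLowerBound 4 M 0) {x : M} {R : ℝ} (hP : Pin x R) {y : M}
    (hy : y ∈ ball x R) {r : ℝ} (hr : 0 < r)
    (hrR : r ≤ 3 * R) : om4 / 2 * r ^ 4 ≤ (μM).real (ball y r) := by
  have h1 := vol_lo hP hy hr hrR
  have h2 : μM (ball y r) ≠ ⊤ := ne_top_of_le_ne_top ENNReal.ofReal_ne_top (vol_up hRic y r hr)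
  exact (ENNReal.ofReal_le_iff_le_toReal h2).1 h1

/-- a point at distance between `5 s / 2` and `3 s` -/
theorem exists_far (hRic : HasRicciLowerBound 4 M 0) {x : M} {R : ℝ} (hP : Pin x R) {s : ℝ}
    (hs : 0 < s) (hsR : s ≤ R) : ∃ y : M, 5 / 2 * s ≤ dist x y ∧ dist x y ≤ 3 * s := by
  by_contra hcon
  push Not at hcon
  have h0 := om4_ge
  have h1 : ball x (3 * s) ⊆ ball x (5 / 2 * s) := by
    intro y hy
    by_contra h
    rw [mem_ball, dist_comm] at hy
    rw [mem_ball, dist_comm, not_lt] at h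
    have := hcon y h
    linarith
  have h2 := vol_lo hP (mem_ball_self (by linarith : 0 < R)) (r := 3 * s) (by positivity)
    (by linarith)
  have h3 := vol_up hRic x (5 / 2 * s) (by positivity)
  have h4 := (h2.trans (measure_mono h1)).trans h3
  rw [ENNReal.ofReal_le_ofReal_iff (by positivity)] at h4
  have h5 : 0 < om4 * s ^ 4 := by positivity
  nlinarith

/-- the constant of the mean value inequality -/
def CMV : ℝ := 4096 * SobI_982.CM 0 om4 3 1 ^ 2 * 16

theorem CMV_nonneg : 0 ≤ CMV := by unfold CMV; positivity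

theorem KS_zero (om Λ r r' : ℝ) : KS 0 om Λ r = KS 0 om Λ r' := by
  unfold KS
  simp

theorem CM_zero (om Λ r r' : ℝ) : SobI_982.CM 0 om Λ r = SobI_982.CM 0 om Λ r' := by
  unfold SobI_982.CM
  rw [KS_zero om Λ (r / 2) (r' / 2)]

/-- **mean value inequality** in the form used by `one_step_raw` -/
theorem mv_ball (hRic : HasRicciLowerBound 4 M 0) {x : M} {R : ℝ} (hP : Pin x R) {s : ℝ}
    (hs : 0 < s) (hsR : s ≤ R) : ∀ f : M → ℝ,
      (∀ z ∈ ball x s, ContMDiffAt (𝓡 4) 𝓘(ℝ, ℝ) 2 f z) →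
      (∀ z ∈ ball x s, 0 ≤ f z) → (∀ z ∈ ball x s, 0 ≤ mLap 4 f z) →
      ∀ z ∈ ball x (s / 4), f z ≤ CMV / s ^ 4 * ∫ y in ball x (s / 2), f y ∂μM := by
  intro f hf hf0 hL z hz
  obtain ⟨C⟩ := Bgr546.rad_all 4 0 le_rfl M (by rw [neg_zero]; exact hRic)
  have h0 := om4_ge
  have h1 := SobJ_982.mv1 C le_rfl (om := om4) (by linarith) (vol_up hRic) (x0 := x) (r := s / 2)
    (Λ := 3) (v := om4 / 2) (by positivity) (by norm_num) (by linarith)
    (fun y hy s' hs' hs'2 => vol_lo hP (ball_subset_ball (by linarith) hy) (by positivity)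
      (by linarith)) (U := ball x s) isOpen_ball
    (fun y hy => by
      rw [mem_closedBall] at hy
      rw [mem_ball]; linarith) hf hf0 hL (x := z)
    (by rw [show s / 2 / 2 = s / 4 by ring]; exact hz)
  refine h1.trans (le_of_eq ?_)
  rw [CM_zero om4 3 (s / 2) 1, CMV]
  field_simp
  ring

end Crest.Agent.R249.Dec308
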