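import Crest.Agent.R249.Dec5_308

/-!
R249, D3-DECAY (helper308), part 6 (`n = 4`): normalised one step inequality, drift of the averages.
-/

set_option autoImplicit false
set_option maxSynthPendingDepth 3
set_option linter.unusedSectionVars false

open scoped ContDiff ENNReal NNReal Topology Manifold Bundle RealInnerProductSpace
open MeasureTheory Set Filter Metric Bundle
open Crest.GeometryTopology.CoordMetric Crest.GeometryTopology.ChartCurvature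
open Crest.Agent.R247 Crest.Agent.R247.Bo84 Crest.Agent.R247.Ms322 Crest.Agent.R247.Bs84
open Crest.Agent.R247.Hes124 (F S mv tr idm)
open Crest.Agent.R247.Dir593.GradS (IsT)
open Crest.GeometryTopology.PointedLimit Crest.Agent.R247.Mcp688
open Crest.Agent.R249.HRep308 Crest.Agent.R249.SobE_982 Crest.Agent.R249.SobG_982
open Crest.Agent.R249.Cod992 Crest.Agent.R202.Tens

noncomputable section

namespace Crest.Agent.R249.Dec308

/-- the constant of the Laplacian term -/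
def K2 : ℝ := 2 * (64 * 4 ^ 6) * (4 ^ 2 * 72)

theorem K2_pos : 0 < K2 := by unfold K2; norm_num

/-- the constant of the one step inequality -/
def C0 (w C₁ CE : ℝ) : ℝ := 1 + 65536 * (w * C₁) + 128 * K2 * (16 * CE ^ 2 + 256) + 7280 * CE

theorem num_step {w C₁ a q R CE s t T θ : ℝ} (hs : 0 < s) (ht : 0 < t)
    (ha : 0 ≤ a) (hq : 0 ≤ q) (hR : 0 ≤ R) (hCE : 0 ≤ CE) (hwC : 0 ≤ w * C₁)
    (hθ : θ = (2 * s)⁻¹ ^ 2 * a)
    (hE : √q ≤ CE * (s⁻¹ ^ 2 * a + R))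
    (hT : T ≤ 8 * 4 * 2 ^ 2 * (2 * (w * C₁) * t ^ 4 * (4 * 4 * 2 ^ 2 * a) +
        2 * (64 * 4 ^ (4 + 2)) * s ^ 2 * (4 ^ 2 * (72 * (q + 2 ^ 4 * (16 * R))))) +
      10 * (√(8 * s ^ 2 * 2 ^ 4 * (4 * 4 * 2 ^ 2) * a) * √q)) :
    (t * s)⁻¹ ^ 2 * T ≤
      C0 w C₁ CE * (t ^ 2 * θ + t⁻¹ ^ 2 * ((θ + R) ^ 2 + R + √θ * (θ + R))) := by
  have hθ0 : 0 ≤ θ := by rw [hθ]; positivity
  have ha' : a = s ^ 2 * (4 * θ) := by rw [hθ]; field_simp; ring
  have hb : s⁻¹ ^ 2 * a = 4 * θ := by rw [ha']; field_simp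
  rw [hb] at hE
  have hE' : √q ≤ 4 * CE * (θ + R) := by
    refine hE.trans ?_
    have : CE * R ≤ 4 * CE * R := by nlinarith [mul_nonneg hCE hR]
    nlinarith
  have hq' : q ≤ 16 * CE ^ 2 * (θ + R) ^ 2 := by
    have h1 : q = √q ^ 2 := (Real.sq_sqrt hq).symm
    have h2 : √q ^ 2 ≤ (4 * CE * (θ + R)) ^ 2 := pow_le_pow_left₀ (Real.sqrt_nonneg _) hE' 2
    rw [h1]
    refine h2.trans (le_of_eq (by ring))
  have hsq : √(8 * s ^ 2 * 2 ^ 4 * (4 * 4 * 2 ^ 2) * a) ≤ s ^ 2 * (182 * √θ) := by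
    rw [Real.sqrt_le_left (by positivity)]
    have e1 : (s ^ 2 * (182 * √θ)) ^ 2 = s ^ 4 * (33124 * (√θ) ^ 2) := by ring
    rw [e1, Real.sq_sqrt hθ0, ha']
    have : 0 ≤ s ^ 4 * θ := by positivity
    nlinarith
  have hts : 0 < (t * s)⁻¹ ^ 2 := by positivity
  have h1 := mul_le_mul_of_nonneg_left hT hts.le
  refine h1.trans ?_
  -- the three terms
  have t1 : (t * s)⁻¹ ^ 2 * (8 * 4 * 2 ^ 2 * (2 * (w * C₁) * t ^ 4 * (4 * 4 * 2 ^ 2 * a))) =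
      65536 * (w * C₁) * (t ^ 2 * θ) := by
    rw [ha']; field_simp; ring
  have t2 : (t * s)⁻¹ ^ 2 * (8 * 4 * 2 ^ 2 * (2 * (64 * 4 ^ (4 + 2)) * s ^ 2 *
      (4 ^ 2 * (72 * (q + 2 ^ 4 * (16 * R)))))) = 128 * K2 * (t⁻¹ ^ 2 * (q + 256 * R)) := by
    unfold K2; field_simp; ring
  have t2' : 128 * K2 * (t⁻¹ ^ 2 * (q + 256 * R)) ≤
      128 * K2 * (16 * CE ^ 2 + 256) * (t⁻¹ ^ 2 * ((θ + R) ^ 2 + R)) := by
    have hK := K2_pos
    have e1 : q + 256 * R ≤ (16 * CE ^ 2 + 256) * ((θ + R) ^ 2 + R) := by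
      have i1 : 0 ≤ 16 * CE ^ 2 * R := by positivity
      have i2 : 0 ≤ 256 * (θ + R) ^ 2 := by positivity
      nlinarith
    have e2 : 0 ≤ 128 * K2 * t⁻¹ ^ 2 := by positivity
    calc 128 * K2 * (t⁻¹ ^ 2 * (q + 256 * R)) = 128 * K2 * t⁻¹ ^ 2 * (q + 256 * R) := by ring
      _ ≤ 128 * K2 * t⁻¹ ^ 2 * ((16 * CE ^ 2 + 256) * ((θ + R) ^ 2 + R)) :=
          mul_le_mul_of_nonneg_left e1 e2
      _ = _ := by ring
  have t3 : (t * s)⁻¹ ^ 2 * (10 * (√(8 * s ^ 2 * 2 ^ 4 * (4 * 4 * 2 ^ 2) * a) * √q)) ≤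
      7280 * CE * (t⁻¹ ^ 2 * (√θ * (θ + R))) := by
    have e1 : √(8 * s ^ 2 * 2 ^ 4 * (4 * 4 * 2 ^ 2) * a) * √q ≤
        s ^ 2 * (182 * √θ) * (4 * CE * (θ + R)) :=
      mul_le_mul hsq hE' (Real.sqrt_nonneg _) (by positivity)
    calc (t * s)⁻¹ ^ 2 * (10 * (√(8 * s ^ 2 * 2 ^ 4 * (4 * 4 * 2 ^ 2) * a) * √q))
        ≤ (t * s)⁻¹ ^ 2 * (10 * (s ^ 2 * (182 * √θ) * (4 * CE * (θ + R)))) := by
          refine mul_le_mul_of_nonneg_left ?_ hts.le
          linarith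
      _ = _ := by field_simp; ring
  have i0 : 0 ≤ t ^ 2 * θ := by positivity
  have i1 : 0 ≤ t⁻¹ ^ 2 * ((θ + R) ^ 2 + R) := by positivity
  have i2 : 0 ≤ t⁻¹ ^ 2 * (√θ * (θ + R)) := by positivity
  have hK := K2_pos
  have e0 : C0 w C₁ CE * (t ^ 2 * θ + t⁻¹ ^ 2 * ((θ + R) ^ 2 + R + √θ * (θ + R))) =
      65536 * (w * C₁) * (t ^ 2 * θ) +
      128 * K2 * (16 * CE ^ 2 + 256) * (t⁻¹ ^ 2 * ((θ + R) ^ 2 + R)) +
      7280 * CE * (t⁻¹ ^ 2 * (√θ * (θ + R))) +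
      ((1 + 128 * K2 * (16 * CE ^ 2 + 256) + 7280 * CE) * (t ^ 2 * θ) +
       (1 + 65536 * (w * C₁) + 7280 * CE) * (t⁻¹ ^ 2 * ((θ + R) ^ 2 + R)) +
       (1 + 65536 * (w * C₁) + 128 * K2 * (16 * CE ^ 2 + 256)) *
        (t⁻¹ ^ 2 * (√θ * (θ + R)))) := by
    unfold C0; ring
  have j1 : 0 ≤ (1 + 128 * K2 * (16 * CE ^ 2 + 256) + 7280 * CE) * (t ^ 2 * θ) := by positivity
  have j2 : 0 ≤ (1 + 65536 * (w * C₁) + 7280 * CE) * (t⁻¹ ^ 2 * ((θ + R) ^ 2 + R)) := by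
    positivity
  have j3 : 0 ≤ (1 + 65536 * (w * C₁) + 128 * K2 * (16 * CE ^ 2 + 256)) *
        (t⁻¹ ^ 2 * (√θ * (θ + R))) := by positivity
  rw [e0]
  have e1 : (t * s)⁻¹ ^ 2 * (8 * 4 * 2 ^ 2 * (2 * (w * C₁) * t ^ 4 * (4 * 4 * 2 ^ 2 * a) +
        2 * (64 * 4 ^ (4 + 2)) * s ^ 2 * (4 ^ 2 * (72 * (q + 2 ^ 4 * (16 * R))))) +
      10 * (√(8 * s ^ 2 * 2 ^ 4 * (4 * 4 * 2 ^ 2) * a) * √q)) =
      (t * s)⁻¹ ^ 2 * (8 * 4 * 2 ^ 2 * (2 * (w * C₁) * t ^ 4 * (4 * 4 * 2 ^ 2 * a))) +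
      (t * s)⁻¹ ^ 2 * (8 * 4 * 2 ^ 2 * (2 * (64 * 4 ^ (4 + 2)) * s ^ 2 *
      (4 ^ 2 * (72 * (q + 2 ^ 4 * (16 * R)))))) +
      (t * s)⁻¹ ^ 2 * (10 * (√(8 * s ^ 2 * 2 ^ 4 * (4 * 4 * 2 ^ 2) * a) * √q)) := by ring
  rw [e1, t1, t2]
  linarith

universe u
variable {M : Type u} [MetricSpace M] [CompleteSpace M] [ConnectedSpace M]
  [ChartedSpace (EuclideanSpace ℝ (Fin 4)) M]
  [IsManifold 𝓘(ℝ, EuclideanSpace ℝ (Fin 4)) ∞ M]
  [RiemannianBundle (fun x : M => TangentSpace 𝓘(ℝ, EuclideanSpace ℝ (Fin 4)) x)]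
  [IsContMDiffRiemannianBundle 𝓘(ℝ, EuclideanSpace ℝ (Fin 4)) ∞ (EuclideanSpace ℝ (Fin 4))
    (fun x : M => TangentSpace 𝓘(ℝ, EuclideanSpace ℝ (Fin 4)) x)]
  [IsRiemannianManifold 𝓘(ℝ, EuclideanSpace ℝ (Fin 4)) M]
  [MeasurableSpace M] [BorelSpace M] [SecondCountableTopology M] [Nonempty M]

local notation "μM" => (μHE[4] : Measure M)

/-- normalised energy of the Hessians -/
def th (U : Fin 4 → M → ℝ) (x : M) (r : ℝ) : ℝ := r⁻¹ ^ 2 * ∫ z in ball x r, T2 4 U z ∂μM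

/-- averages of the Gram matrix -/
def Av (U : Fin 4 → M → ℝ) (x : M) (r : ℝ) : S 4 :=
  WithLp.toLp 2 fun p => ⨍ z in ball x r, mGam 4 (U p.1) (U p.2) z ∂μM

theorem Av_apply (U : Fin 4 → M → ℝ) (x : M) (r : ℝ) (p : Fin 4 × Fin 4) :
    Av U x r p = ⨍ z in ball x r, mGam 4 (U p.1) (U p.2) z ∂μM := rfl

variable {U : Fin 4 → M → ℝ}

/-- **normalised one step inequality** -/
theorem one_step4 (hRic : HasRicciLowerBound 4 M 0) {x : M} {R s t CE : ℝ} (hP : Pin x R)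
    (hs : 0 < s) (hsR : 2 * s ≤ R) (ht : 0 < t) (ht4 : t ≤ 1 / 4) (hCE : 0 ≤ CE)
    {W : Set M} (hWo : IsOpen W) (hW : closedBall x (2 * s) ⊆ W)
    (hU : ∀ a, ∀ z ∈ W, ContMDiffAt (𝓡 4) 𝓘(ℝ, ℝ) ∞ (U a) z)
    (hL : ∀ a, ∀ z ∈ W, mLap 4 (U a) z = 0)
    (hΛ : ∀ a, ∀ z ∈ W, ‖Gr (n := 4) (U a) z‖ ≤ 2)
    {B : M → ℝ} (hB0 : ∀ z ∈ W, 0 ≤ B z) (hBc : ContinuousOn B W)
    (hB : ∀ z ∈ W, MCurvLe 4 z (B z))
    (hE : √(∫ z in ball x s, T2 4 U z ^ 2 ∂μM) ≤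
      CE * (s⁻¹ ^ 2 * (∫ z in ball x (2 * s), T2 4 U z ∂μM) +
        ∫ z in ball x (2 * s), B z ^ 2 ∂μM))
    (hA1 : ‖Av U x s - idm 4‖ ≤ 1 / 4) :
    th U x (t * s) ≤ C0 om4 CMV CE * (t ^ 2 * th U x (2 * s) +
      t⁻¹ ^ 2 * ((th U x (2 * s) + ∫ z in ball x (2 * s), B z ^ 2 ∂μM) ^ 2 +
        (∫ z in ball x (2 * s), B z ^ 2 ∂μM) +
        √(th U x (2 * s)) * (th U x (2 * s) + ∫ z in ball x (2 * s), B z ^ 2 ∂μM))) := by
  have := HR216.properSpace_of_riemannian 4 M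
  have := isLocallyFinite_muHE 4 M
  have h0 := om4_ge
  have hsR' : s ≤ R := by linarith
  obtain ⟨y, hy1, hy2⟩ := exists_far hRic hP hs hsR'
  have hW1 : closedBall x s ⊆ W := (closedBall_subset_closedBall (by linarith)).trans hW
  have hcB : ∀ z ∈ W, ContinuousAt B z := fun z hz => hBc.continuousAt (hWo.mem_nhds hz)
  have hiB : IntegrableOn (fun z => B z ^ 2) (ball x (2 * s)) μM :=
    integrableOn_ball_of_contAt (U := W) (fun z hz => (hcB z hz).pow 2) hW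
  have hiρ : IntegrableOn (fun z => ((4:ℕ) * B z) ^ 2) (ball x s) μM :=
    integrableOn_ball_of_contAt (U := W) (fun z hz => (continuousAt_const.mul (hcB z hz)).pow 2) hW1
  have hraw := one_step_raw hRic hs ht ht4 CMV_nonneg (w := om4) (by linarith) hy1 hy2
    (mv_ball hRic hP hs hsR') (real_up hRic x (t * s) (by positivity)) hWo hW hU hL hΛ
    (ρ := fun z => (4:ℕ) * B z) (fun z hz => mul_nonneg (by norm_num) (hB0 z hz))
    (fun z hz v => Ricf_le_of_curv (hB0 z hz) (hB z hz) v) hiρ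
    (A := Av U x s) (fun p => rfl) hA1
  have hsub : ball x s ⊆ ball x (2 * s) := ball_subset_ball (by linarith)
  have hB2 : ∫ z in ball x s, B z ^ 2 ∂μM ≤ ∫ z in ball x (2 * s), B z ^ 2 ∂μM :=
    setIntegral_mono_set hiB (Eventually.of_forall fun z => sq_nonneg _) hsub.eventuallyLE
  have e1 : ∫ z in ball x s, (((4:ℕ):ℝ) * B z) ^ 2 ∂μM = 16 * ∫ z in ball x s, B z ^ 2 ∂μM := by
    rw [← integral_const_mul]
    congr 1
    funext z
    push_cast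
    ring
  rw [e1] at hraw
  have hTn : ∀ z ∈ ball x (2 * s), 0 ≤ T2 4 U z := fun z hz =>
    T2_nonneg fun a => (hU a z (hW (ball_subset_closedBall hz))).of_le two_le_infty
  refine num_step (q := ∫ z in ball x s, T2 4 U z ^ 2 ∂μM)
    (a := ∫ z in ball x (2 * s), T2 4 U z ∂μM) hs ht
    (setIntegral_nonneg isOpen_ball.measurableSet hTn)
    (integral_nonneg fun z => sq_nonneg _) (integral_nonneg fun z => sq_nonneg _) hCE
    (mul_nonneg (by linarith) CMV_nonneg) rfl hE (hraw.trans ?_)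
  push_cast
  have h5 : (2:ℝ) ^ 4 * (16 * ∫ z in ball x s, B z ^ 2 ∂μM) ≤
      2 ^ 4 * (16 * ∫ z in ball x (2 * s), B z ^ 2 ∂μM) := by linarith
  have h6 := add_le_add (le_refl (∫ z in ball x s, T2 4 U z ^ 2 ∂μM)) h5
  have hs2 : 0 ≤ s ^ 2 := sq_nonneg s
  have h7 := mul_le_mul_of_nonneg_left h6 hs2
  nlinarith [h7]

/-- change of the averages of the Gram matrix -/
theorem Av_diff (hRic : HasRicciLowerBound 4 M 0) {x : M} {R s r : ℝ} (hP : Pin x R)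
    (hr : 0 < r) (hrs : r ≤ s) (hsR : 2 * s ≤ R)
    {W : Set M} (hWo : IsOpen W) (hW : closedBall x (2 * s) ⊆ W)
    (hU : ∀ a, ∀ z ∈ W, ContMDiffAt (𝓡 4) 𝓘(ℝ, ℝ) ∞ (U a) z)
    (hΛ : ∀ a, ∀ z ∈ W, ‖Gr (n := 4) (U a) z‖ ≤ 2) :
    ‖Av U x r - Av U x s‖ ≤ 256 * (s / r) ^ 2 * √(th U x (2 * s)) := by
  have := HR216.properSpace_of_riemannian 4 M
  have := isLocallyFinite_muHE 4 M
  have h0 := om4_ge
  have hs : 0 < s := hr.trans_le hrs
  have hW1 : closedBall x s ⊆ W := (closedBall_subset_closedBall (by linarith)).trans hW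
  have hsub : ball x r ⊆ ball x s := ball_subset_ball hrs
  have hFc : ∀ a b, ∀ z ∈ W, ContinuousAt (mGam 4 (U a) (U b)) z := fun a b z hz =>
    (ctF (fun a => hU a z hz) a b).continuousAt
  have hxR : x ∈ ball x R := mem_ball_self (by linarith)
  have hvol := real_lo hRic hP hxR hr (by linarith)
  have hvpos : 0 < (μM).real (ball x r) := lt_of_lt_of_le (by positivity) hvol
  have hfin : μM (ball x r) ≠ ⊤ := measure_ball_lt_top.ne
  have : IsFiniteMeasure ((μM).restrict (ball x r)) := ⟨by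
    rw [Measure.restrict_apply_univ]; exact hfin.lt_top⟩
  have hi : ∀ a b, IntegrableOn (mGam 4 (U a) (U b)) (ball x r) μM := fun a b =>
    (integrableOn_ball_of_contAt (hFc a b) hW1).mono_set hsub
  have hi2 : ∀ a b (c : ℝ), IntegrableOn (fun z => (mGam 4 (U a) (U b) z - c) ^ 2) (ball x s) μM :=
    fun a b c => integrableOn_ball_of_contAt (U := W)
      (fun z hz => ((hFc a b z hz).sub continuousAt_const).pow 2) hW1
  -- one entry
  have h1 : ∀ a b (c : ℝ), ((⨍ z in ball x r, mGam 4 (U a) (U b) z ∂μM) - c) ^ 2 ≤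
      ((μM).real (ball x r))⁻¹ * ∫ z in ball x r, (mGam 4 (U a) (U b) z - c) ^ 2 ∂μM := by
    intro a b c
    set V := (μM).real (ball x r) with hV
    have e1 : (⨍ z in ball x r, mGam 4 (U a) (U b) z ∂μM) - c =
        V⁻¹ * ∫ z in ball x r, (mGam 4 (U a) (U b) z - c) ∂μM := by
      rw [setAverage_eq, integral_sub (hi a b) (integrableOn_const hfin), setIntegral_const,
        smul_eq_mul, smul_eq_mul, ← hV]
      field_simp
    have m1 : MemLp (fun z => mGam 4 (U a) (U b) z - c) 2 ((μM).restrict (ball x r)) := by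
      refine (memLp_two_iff_integrable_sq ?_).2 ((hi2 a b c).mono_set hsub)
      exact ((hi a b).sub (integrableOn_const hfin)).aestronglyMeasurable
    have m2 : MemLp (fun _ : M => (1:ℝ)) 2 ((μM).restrict (ball x r)) := memLp_const 1
    have h2 := Hes124.cs_mul m1 m2
    simp only [mul_one, one_pow, integral_const, smul_eq_mul, Measure.real,
      Measure.restrict_apply_univ] at h2
    have h3 : (∫ z in ball x r, (mGam 4 (U a) (U b) z - c) ∂μM) ^ 2 ≤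
        (∫ z in ball x r, (mGam 4 (U a) (U b) z - c) ^ 2 ∂μM) * V := by
      rw [← sq_abs]
      refine (pow_le_pow_left₀ (abs_nonneg _) h2 2).trans (le_of_eq ?_)
      rw [mul_pow, Real.sq_sqrt (integral_nonneg fun z => sq_nonneg _),
        Real.sq_sqrt ENNReal.toReal_nonneg]
      rfl
    rw [e1, mul_pow]
    calc V⁻¹ ^ 2 * (∫ z in ball x r, (mGam 4 (U a) (U b) z - c) ∂μM) ^ 2
        ≤ V⁻¹ ^ 2 * ((∫ z in ball x r, (mGam 4 (U a) (U b) z - c) ^ 2 ∂μM) * V) :=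
          mul_le_mul_of_nonneg_left h3 (by positivity)
      _ = _ := by field_simp
  have h2 : ‖Av U x r - Av U x s‖ ^ 2 ≤ ((μM).real (ball x r))⁻¹ *
      ∫ z in ball x s, ‖Fm 4 U z - Av U x s‖ ^ 2 ∂μM := by
    rw [Hes124.norm_sq_S]
    simp only [norm_Fm_sub_sq]
    rw [integral_finsetSum _ fun a _ => integrable_finsetSum _ fun b _ => hi2 a b _, Finset.mul_sum]
    refine Finset.sum_le_sum fun a _ => ?_
    rw [integral_finsetSum _ fun b _ => hi2 a b _, Finset.mul_sum]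
    refine Finset.sum_le_sum fun b _ => ?_
    have h3 := h1 a b (Av U x s (a, b))
    refine h3.trans (mul_le_mul_of_nonneg_left ?_ (by positivity))
    exact setIntegral_mono_set (hi2 a b _) (Eventually.of_forall fun z => sq_nonneg _)
      hsub.eventuallyLE
  have h3 := poinc_Fm hRic hs hWo hW hU hΛ (A := Av U x s) (fun p => rfl)
  have hTn : 0 ≤ ∫ z in ball x (2 * s), T2 4 U z ∂μM :=
    setIntegral_nonneg isOpen_ball.measurableSet fun z hz =>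
      T2_nonneg fun a => (hU a z (hW (ball_subset_closedBall hz))).of_le two_le_infty
  have hth : ∫ z in ball x (2 * s), T2 4 U z ∂μM = 4 * s ^ 2 * th U x (2 * s) := by
    unfold th; field_simp; ring
  have hth0 : 0 ≤ th U x (2 * s) := by unfold th; positivity
  have h4 : ‖Av U x r - Av U x s‖ ^ 2 ≤ (256 * (s / r) ^ 2 * √(th U x (2 * s))) ^ 2 := by
    refine h2.trans ?_
    have h5 : ((μM).real (ball x r))⁻¹ ≤ 2 / r ^ 4 := by
      rw [inv_eq_one_div, div_le_div_iff₀ hvpos (by positivity)]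
      have : 0 < r ^ 4 := by positivity
      nlinarith
    have h6 : ∫ z in ball x s, ‖Fm 4 U z - Av U x s‖ ^ 2 ∂μM ≤ 32768 * s ^ 4 * th U x (2 * s) := by
      refine h3.trans (le_of_eq ?_)
      rw [hth]; push_cast; ring
    calc ((μM).real (ball x r))⁻¹ * ∫ z in ball x s, ‖Fm 4 U z - Av U x s‖ ^ 2 ∂μM
        ≤ 2 / r ^ 4 * (32768 * s ^ 4 * th U x (2 * s)) :=
          mul_le_mul h5 h6 (integral_nonneg fun z => sq_nonneg _) (by positivity)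
      _ = (256 * (s / r) ^ 2 * √(th U x (2 * s))) ^ 2 := by
          rw [mul_pow, Real.sq_sqrt hth0]; field_simp; ring
  exact le_of_sq_le_sq h4 (by positivity)

end Crest.Agent.R249.Dec308
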