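import Crest.Agent.R249.Dec6_308

/-!
R249, D3-DECAY (helper308), part 7 (`n = 4`): **the decay theorem at a point**.
-/

set_option autoImplicit false
set_option maxSynthPendingDepth 3
set_option linter.unusedSectionVars false

open scoped ContDiff ENNReal NNReal Topology Manifold Bundle RealInnerProductSpace
open MeasureTheory Set Filter Metric Bundle
open Crest.GeometryTopology.CoordMetric Crest.GeometryTopology.ChartCurvature
open Crest.Agent.R247 Crest.Agent.R247.Bo84 Crest.Agent.R247.Ms322 Crest.Agent.R247.Bs84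
open Crest.Agent.R247.Hes124 (F S mv tr idm)
open Crest.Agent.R247.Dir593.GradS (IsT)
open Crest.GeometryTopology.PointedLimit Crest.Agent.R247.Mcp688
open Crest.Agent.R249.HRep308 Crest.Agent.R249.SobE_982 Crest.Agent.R249.SobG_982
open Crest.Agent.R249.Cod992 Crest.Agent.R202.Tens

noncomputable section

namespace Crest.Agent.R249.Dec308

theorem C0_ge {w C₁ CE : ℝ} (hwC : 0 ≤ w * C₁) (hCE : 0 ≤ CE) : 1 ≤ C0 w C₁ CE := by
  unfold C0
  have := K2_pos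
  have h1 : 0 ≤ 65536 * (w * C₁) := by positivity
  have h2 : 0 ≤ 128 * K2 * (16 * CE ^ 2 + 256) := by positivity
  have h3 : 0 ≤ 7280 * CE := by positivity
  linarith

/-- arithmetic of the step: from `t = 2 τ` to `τ` -/
theorem num_tau {C τ θ R : ℝ} (hC : 0 ≤ C) (hθ : 0 ≤ θ) (hR : 0 ≤ R) :
    C * ((2 * τ) ^ 2 * θ + (2 * τ)⁻¹ ^ 2 * ((θ + R) ^ 2 + R + √θ * (θ + R))) ≤
      4 * C * (τ ^ 2 * θ + τ⁻¹ ^ 2 * ((θ + R) ^ 2 + R + √θ * (θ + R))) := by
  have h1 : 0 ≤ (θ + R) ^ 2 + R + √θ * (θ + R) := by positivity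
  have h2 : (2 * τ)⁻¹ ^ 2 = 1 / 4 * τ⁻¹ ^ 2 := by rw [mul_inv, mul_pow]; norm_num
  rw [h2]
  have h3 : 0 ≤ C * (τ⁻¹ ^ 2 * ((θ + R) ^ 2 + R + √θ * (θ + R))) := by positivity
  nlinarith

/-- arithmetic at an intermediate radius -/
theorem num_inter {C τ α θk A e2 q k' : ℝ} (hτ : 0 < τ) (hτ1 : τ ≤ 1) (hC : 0 ≤ C) (hα0 : 0 < α)
    (hα1 : α < 1) (hA : 0 ≤ A) (he : 0 ≤ e2) (hq : 0 < q) (hk : k' ≤ τ⁻¹ * q) (hk0 : 0 ≤ k')
    (h : θk ≤ C * (k' ^ (2 * α) * A + e2)) :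
    τ⁻¹ ^ 2 * θk ≤ C * τ⁻¹ ^ 4 * (q ^ (2 * α) * A + e2) := by
  have hi : 1 ≤ τ⁻¹ := (one_le_inv₀ hτ).2 hτ1
  have h1 : k' ^ (2 * α) ≤ τ⁻¹ ^ 2 * q ^ (2 * α) := by
    have h2 : k' ^ (2 * α) ≤ (τ⁻¹ * q) ^ (2 * α) := Real.rpow_le_rpow hk0 hk (by linarith)
    rw [Real.mul_rpow (by positivity) hq.le] at h2
    have h3 : τ⁻¹ ^ (2 * α) ≤ τ⁻¹ ^ (2:ℝ) := Real.rpow_le_rpow_of_exponent_le hi (by linarith)
    have h4 : τ⁻¹ ^ (2:ℝ) = τ⁻¹ ^ 2 := by norm_cast
    rw [h4] at h3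
    exact h2.trans (mul_le_mul_of_nonneg_right h3 (by positivity))
  have h2 : k' ^ (2 * α) * A + e2 ≤ τ⁻¹ ^ 2 * (q ^ (2 * α) * A + e2) := by
    have h3 : k' ^ (2 * α) * A ≤ τ⁻¹ ^ 2 * q ^ (2 * α) * A := mul_le_mul_of_nonneg_right h1 hA
    have h4 : e2 ≤ τ⁻¹ ^ 2 * e2 := by
      have : 1 ≤ τ⁻¹ ^ 2 := one_le_pow₀ hi
      nlinarith
    linarith
  have h3 : θk ≤ C * (τ⁻¹ ^ 2 * (q ^ (2 * α) * A + e2)) :=
    h.trans (mul_le_mul_of_nonneg_left h2 hC)
  have h4 : τ⁻¹ ^ 2 * θk ≤ τ⁻¹ ^ 2 * (C * (τ⁻¹ ^ 2 * (q ^ (2 * α) * A + e2))) :=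
    mul_le_mul_of_nonneg_left h3 (by positivity)
  refine h4.trans (le_of_eq ?_)
  ring

/-- square root bound -/
theorem num_sqrt {C x b A e : ℝ} (hC : 0 ≤ C) (hb1 : b ≤ 1) (hA : 0 ≤ A)
    (he : 0 ≤ e) (h : x ≤ C * (b * A + e ^ 2)) : √x ≤ (C + 1) * (√A + e) := by
  rw [Real.sqrt_le_left (by positivity)]
  have h1 : b * A + e ^ 2 ≤ A + e ^ 2 := by nlinarith
  have h2 : x ≤ C * (A + e ^ 2) := h.trans (mul_le_mul_of_nonneg_left h1 hC)
  have h3 : A + e ^ 2 ≤ (√A + e) ^ 2 := by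
    have h4 : (√A + e) ^ 2 = √A ^ 2 + e ^ 2 + 2 * (√A * e) := by ring
    rw [h4, Real.sq_sqrt hA]
    have : 0 ≤ 2 * (√A * e) := by positivity
    linarith
  have h4 : C ≤ (C + 1) ^ 2 := by nlinarith
  calc x ≤ C * (A + e ^ 2) := h2
    _ ≤ (C + 1) ^ 2 * (√A + e) ^ 2 := mul_le_mul h4 h3 (by positivity) (by positivity)
    _ = _ := by ring

universe u

set_option maxHeartbeats 2000000 in
/-- **the decay theorem at a point.** -/
theorem decay_center {α CE κ K : ℝ} (hα0 : 0 < α) (hα1 : α < 1) (hCE : 0 ≤ CE) (hκ : 0 < κ)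
    (hK : 0 ≤ K) : ∃ ε C c : ℝ, 0 < ε ∧ 0 < C ∧ 0 < c ∧
    ∀ {M : Type u} [MetricSpace M] [CompleteSpace M] [ConnectedSpace M]
      [ChartedSpace (EuclideanSpace ℝ (Fin 4)) M]
      [IsManifold 𝓘(ℝ, EuclideanSpace ℝ (Fin 4)) ∞ M]
      [RiemannianBundle (fun x : M => TangentSpace 𝓘(ℝ, EuclideanSpace ℝ (Fin 4)) x)]
      [IsContMDiffRiemannianBundle 𝓘(ℝ, EuclideanSpace ℝ (Fin 4)) ∞ (EuclideanSpace ℝ (Fin 4))
        (fun x : M => TangentSpace 𝓘(ℝ, EuclideanSpace ℝ (Fin 4)) x)]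
      [IsRiemannianManifold 𝓘(ℝ, EuclideanSpace ℝ (Fin 4)) M]
      [MeasurableSpace M] [BorelSpace M] [SecondCountableTopology M] [Nonempty M],
      HasRicciLowerBound 4 M 0 → ∀ (x : M) (R e l : ℝ) (W : Set M) (U : Fin 4 → M → ℝ)
      (B : M → ℝ), 0 < R → Pin x R → IsOpen W → closedBall x R ⊆ W →
      (∀ a, ∀ z ∈ W, ContMDiffAt (𝓡 4) 𝓘(ℝ, ℝ) ∞ (U a) z) →
      (∀ a, ∀ z ∈ W, mLap 4 (U a) z = 0) → (∀ a, ∀ z ∈ W, ‖Gr (n := 4) (U a) z‖ ≤ 2) →
      (∀ z ∈ W, 0 ≤ B z) → ContinuousOn B W → (∀ z ∈ W, MCurvLe 4 z (B z)) →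
      (∀ s : ℝ, 0 < s → 2 * s ≤ R →
        ∫ z in ball x (2 * s), B z ^ 2 ∂(μHE[4] : Measure M) ≤ κ →
        √(∫ z in ball x s, T2 4 U z ^ 2 ∂(μHE[4] : Measure M)) ≤
          CE * (s⁻¹ ^ 2 * (∫ z in ball x (2 * s), T2 4 U z ∂(μHE[4] : Measure M)) +
            ∫ z in ball x (2 * s), B z ^ 2 ∂(μHE[4] : Measure M))) →
      0 ≤ e → 0 ≤ l → (∀ r : ℝ, 0 < r → r ≤ R →
        ∫ z in ball x r, B z ^ 2 ∂(μHE[4] : Measure M) ≤ K * (l * r ^ 4 + e ^ 2)) →
      th U x R ≤ ε → ‖Av U x (R / 2) - idm 4‖ ≤ 1 / 16 → l * R ^ 4 ≤ ε → e ≤ ε →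
      ∀ r : ℝ, 0 < r → r ≤ R → e * Real.log (R / r) ≤ c →
        th U x r ≤ C * ((r / R) ^ (2 * α) * (th U x R + l * R ^ 4) + e ^ 2) ∧
        ∫ z in ball x r, B z ^ 2 ∂(μHE[4] : Measure M) ≤ κ ∧
        ‖Av U x (r / 2) - idm 4‖ ≤ ‖Av U x (R / 2) - idm 4‖ +
          C * (√(th U x R + l * R ^ 4) + e * (1 + Real.log (R / r))) := by
  have hwC : 0 ≤ om4 * CMV := mul_nonneg (by linarith [om4_ge]) CMV_nonneg
  have hC0 := C0_ge hwC hCE
  obtain ⟨τ, ε, C, c, hτ, hτ8, hε, hC, hc, hit⟩ := iterate (C₀ := 4 * C0 om4 CMV CE) (K := K)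
    (α := α) (κ := κ) (fun t => 256 * t⁻¹ ^ 2) (by linarith) hK hκ (fun t _ => by positivity) hα0 hα1
  have hτ1 : τ ≤ 1 := by linarith
  have hi : 1 ≤ τ⁻¹ := (one_le_inv₀ hτ).2 hτ1
  refine ⟨ε, C * τ⁻¹ ^ 4 + 256 * τ⁻¹ ^ 2 * (C + 1) + C, c, hε, by positivity, hc, ?_⟩
  intro M _ _ _ _ _ _ _ _ _ _ _ _ hRic x R e l W U B hR hP hWo hW hU hL hΛ hB0 hBc hB hE he hl
    hBi h1 h2 h3 h4 r hr hrR her
  have := HR216.properSpace_of_riemannian 4 M
  have := isLocallyFinite_muHE 4 M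
  have hcT : ∀ z ∈ W, ContinuousAt (T2 4 U) z := fun z hz =>
    continuousAt_T2 fun a => (hU a z hz).of_le two_le_infty
  have hTn : ∀ z ∈ W, 0 ≤ T2 4 U z := fun z hz =>
    T2_nonneg fun a => (hU a z hz).of_le two_le_infty
  have hcW : ∀ ρ : ℝ, ρ ≤ R → closedBall x ρ ⊆ W := fun ρ hρ =>
    (closedBall_subset_closedBall hρ).trans hW
  have hth : ∀ ρ : ℝ, ρ ≤ R → 0 ≤ th U x ρ := fun ρ hρ =>
    mul_nonneg (by positivity) (setIntegral_nonneg isOpen_ball.measurableSet fun z hz =>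
      hTn z (hcW ρ hρ (ball_subset_closedBall hz)))
  have hrk : ∀ k : ℕ, 0 < R * τ ^ k ∧ R * τ ^ k ≤ R := fun k =>
    ⟨by positivity, mul_le_of_le_one_right hR.le (pow_le_one₀ hτ.le hτ1)⟩
  -- apply the numerical iteration
  have hit' := hit (fun k => th U x (R * τ ^ k))
    (fun k => ∫ z in ball x (R * τ ^ k), B z ^ 2 ∂(μHE[4] : Measure M))
    (fun k => ‖Av U x (R * τ ^ k / 2) - idm 4‖) e (l * R ^ 4)
    (fun k => hth _ (hrk k).2) (fun k => integral_nonneg fun z => sq_nonneg _) he (by positivity)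
    (by simpa using h1) (by simpa using h2) h3 h4
    (fun k => by
      refine (hBi _ (hrk k).1 (hrk k).2).trans (le_of_eq ?_)
      ring)
    (fun k hδ hRk => by
      have e1 : 2 * (R * τ ^ k / 2) = R * τ ^ k := by ring
      have hs : 0 < R * τ ^ k / 2 := by have := (hrk k).1; positivity
      have h5 := hE (R * τ ^ k / 2) hs (by rw [e1]; exact (hrk k).2) (by rw [e1]; exact hRk)
      have h6 := one_step4 (U := U) hRic hP hs (by rw [e1]; exact (hrk k).2)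
        (t := 2 * τ) (by positivity) (by linarith) hCE hWo (by rw [e1]; exact hcW _ (hrk k).2)
        hU hL hΛ hB0 hBc hB h5 hδ
      rw [e1] at h6
      have e2 : 2 * τ * (R * τ ^ k / 2) = R * τ ^ (k + 1) := by ring
      rw [e2] at h6
      exact h6.trans (num_tau (by linarith) (hth _ (hrk k).2)
        (integral_nonneg fun z => sq_nonneg _)))
    (fun k _ => by
      have e1 : 2 * (R * τ ^ k / 2) = R * τ ^ k := by ring
      have e2 : R * τ ^ (k + 1) / 2 = τ * (R * τ ^ k / 2) := by ring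
      have hs : 0 < R * τ ^ k / 2 := by have := (hrk k).1; positivity
      have h5 := Av_diff (U := U) hRic hP (r := R * τ ^ (k + 1) / 2) (s := R * τ ^ k / 2)
        (by rw [e2]; positivity) (by rw [e2]; nlinarith) (by rw [e1]; exact (hrk k).2) hWo
        (by rw [e1]; exact hcW _ (hrk k).2) hU hΛ
      rw [e1] at h5
      have e3 : R * τ ^ k / 2 / (R * τ ^ (k + 1) / 2) = τ⁻¹ := by
        rw [pow_succ]; field_simp
      rw [e3] at h5
      calc ‖Av U x (R * τ ^ (k + 1) / 2) - idm 4‖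
          = ‖(Av U x (R * τ ^ k / 2) - idm 4) +
            (Av U x (R * τ ^ (k + 1) / 2) - Av U x (R * τ ^ k / 2))‖ := by congr 1; abel
        _ ≤ ‖Av U x (R * τ ^ k / 2) - idm 4‖ +
            ‖Av U x (R * τ ^ (k + 1) / 2) - Av U x (R * τ ^ k / 2)‖ := norm_add_le _ _
        _ ≤ _ := by linarith)
  -- choose `k`
  obtain ⟨k, hk1, hk2⟩ := exists_nat_pow_near_of_lt_one (x := r / R) (y := τ) (by positivity)
    ((div_le_one hR).2 hrR) hτ (by linarith)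
  have hrk1 : r ≤ R * τ ^ k := by
    have := (div_le_iff₀ hR).1 hk2
    linarith
  have hrk2 : R * τ ^ k ≤ τ⁻¹ * r := by
    have h5 := (lt_div_iff₀ hR).1 hk1
    rw [pow_succ] at h5
    rw [inv_mul_eq_div, le_div_iff₀ hτ]
    nlinarith
  have hlog : (k:ℝ) ≤ Real.log (R / r) := by
    have h5 : r / R ≤ τ ^ k := hk2
    have h6 : Real.log (r / R) ≤ k * Real.log τ := by
      rw [← Real.log_pow]
      exact Real.log_le_log (by positivity) h5
    have h7 : Real.log τ ≤ -1 := by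
      have h8 : τ ≤ Real.exp (-1) := by
        have h9 : (1/8 : ℝ) ≤ Real.exp (-1) := by
          rw [Real.exp_neg, one_div]
          exact inv_anti₀ (Real.exp_pos _) (by linarith [Real.exp_one_lt_d9])
        linarith
      rw [← Real.log_exp (-1)]
      exact Real.log_le_log hτ h8
    have h8 : Real.log (R / r) = - Real.log (r / R) := by
      rw [← Real.log_inv, inv_div]
    rw [h8]
    have h9 : (k:ℝ) * Real.log τ ≤ k * (-1) := mul_le_mul_of_nonneg_left h7 (Nat.cast_nonneg k)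
    linarith
  have hlog0 : 0 ≤ Real.log (R / r) := (Nat.cast_nonneg k).trans hlog
  have hke : (k:ℝ) * e ≤ c := by
    refine le_trans ?_ her
    rw [mul_comm]
    exact mul_le_mul_of_nonneg_left hlog he
  obtain ⟨g1, g2, g3, g4⟩ := hit' k hke
  simp only [pow_zero, mul_one] at g1 g2 g4
  set A := th U x R + l * R ^ 4 with hA
  have hA0 : 0 ≤ A := by have := hth R le_rfl; positivity
  have hkτ : τ ^ (2 * α * k) = (τ ^ k) ^ (2 * α) := by
    rw [← Real.rpow_natCast, ← Real.rpow_mul hτ.le]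
    congr 1
    ring
  rw [hkτ] at g1
  have hb1 : (τ ^ k) ^ (2 * α) ≤ 1 :=
    Real.rpow_le_one (by positivity) (pow_le_one₀ hτ.le hτ1) (by linarith)
  have hsub : ball x r ⊆ ball x (R * τ ^ k) := ball_subset_ball hrk1
  have hiT : IntegrableOn (T2 4 U) (ball x (R * τ ^ k)) μHE[4] :=
    integrableOn_ball_of_contAt hcT (hcW _ (hrk k).2)
  have hcB : ∀ z ∈ W, ContinuousAt B z := fun z hz => hBc.continuousAt (hWo.mem_nhds hz)
  have hiB : IntegrableOn (fun z => B z ^ 2) (ball x (R * τ ^ k)) μHE[4] :=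
    integrableOn_ball_of_contAt (U := W) (fun z hz => (hcB z hz).pow 2) (hcW _ (hrk k).2)
  refine ⟨?_, ?_, ?_⟩
  · -- the energy
    have h5 : th U x r ≤ τ⁻¹ ^ 2 * th U x (R * τ ^ k) := by
      have h6 : ∫ z in ball x r, T2 4 U z ∂(μHE[4] : Measure M) ≤
          ∫ z in ball x (R * τ ^ k), T2 4 U z ∂(μHE[4] : Measure M) := by
        refine setIntegral_mono_set hiT ?_ hsub.eventuallyLE
        filter_upwards [ae_restrict_mem isOpen_ball.measurableSet] with z hz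
        exact hTn z (hcW _ (hrk k).2 (ball_subset_closedBall hz))
      have h7 : r⁻¹ ≤ τ⁻¹ * (R * τ ^ k)⁻¹ := by
        rw [← mul_inv]
        refine inv_anti₀ (by have := (hrk k).1; positivity) ?_
        have h8 := mul_le_mul_of_nonneg_left hrk2 hτ.le
        rwa [← mul_assoc τ τ⁻¹, mul_inv_cancel₀ hτ.ne', one_mul] at h8
      have h9 : 0 ≤ ∫ z in ball x (R * τ ^ k), T2 4 U z ∂(μHE[4] : Measure M) :=
        setIntegral_nonneg isOpen_ball.measurableSet fun z hz =>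
          hTn z (hcW _ (hrk k).2 (ball_subset_closedBall hz))
      unfold th
      calc r⁻¹ ^ 2 * ∫ z in ball x r, T2 4 U z ∂(μHE[4] : Measure M)
          ≤ r⁻¹ ^ 2 * ∫ z in ball x (R * τ ^ k), T2 4 U z ∂(μHE[4] : Measure M) :=
            mul_le_mul_of_nonneg_left h6 (by positivity)
        _ ≤ (τ⁻¹ * (R * τ ^ k)⁻¹) ^ 2 *
            ∫ z in ball x (R * τ ^ k), T2 4 U z ∂(μHE[4] : Measure M) :=
            mul_le_mul_of_nonneg_right (pow_le_pow_left₀ (by positivity) h7 2) h9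
        _ = _ := by ring
    refine h5.trans ((num_inter hτ hτ1 hC.le hα0 hα1 hA0 (sq_nonneg e) (q := r / R)
      (by positivity) ?_ (by positivity) g1).trans ?_)
    · rw [← mul_div_assoc, le_div_iff₀ hR]
      linarith
    · refine mul_le_mul_of_nonneg_right ?_ (by positivity)
      have : 0 ≤ 256 * τ⁻¹ ^ 2 * (C + 1) + C := by positivity
      linarith
  · refine le_trans ?_ g4
    exact setIntegral_mono_set hiB (Eventually.of_forall fun z => sq_nonneg _) hsub.eventuallyLE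
  · -- the averages
    have e1 : 2 * (R * τ ^ k / 2) = R * τ ^ k := by ring
    have h5 := Av_diff (U := U) hRic hP (r := r / 2) (s := R * τ ^ k / 2) (by positivity)
      (by linarith) (by rw [e1]; exact (hrk k).2) hWo (by rw [e1]; exact hcW _ (hrk k).2) hU hΛ
    rw [e1] at h5
    have h6 : R * τ ^ k / 2 / (r / 2) ≤ τ⁻¹ := by
      rw [div_le_iff₀ (by positivity)]
      linarith
    have h7 : √(th U x (R * τ ^ k)) ≤ (C + 1) * (√A + e) := num_sqrt hC.le hb1 hA0 he g1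
    have h8 : ‖Av U x (r / 2) - Av U x (R * τ ^ k / 2)‖ ≤
        256 * τ⁻¹ ^ 2 * ((C + 1) * (√A + e)) := by
      refine h5.trans ?_
      have h9 : 0 ≤ R * τ ^ k / 2 / (r / 2) := by have := (hrk k).1; positivity
      have h10 := pow_le_pow_left₀ h9 h6 2
      exact mul_le_mul (mul_le_mul_of_nonneg_left h10 (by norm_num)) h7 (Real.sqrt_nonneg _)
        (by positivity)
    have h9 : ‖Av U x (r / 2) - idm 4‖ ≤ ‖Av U x (r / 2) - Av U x (R * τ ^ k / 2)‖ +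
        ‖Av U x (R * τ ^ k / 2) - idm 4‖ := by
      calc ‖Av U x (r / 2) - idm 4‖ = ‖(Av U x (r / 2) - Av U x (R * τ ^ k / 2)) +
            (Av U x (R * τ ^ k / 2) - idm 4)‖ := by congr 1; abel
        _ ≤ _ := norm_add_le _ _
    have h10 : C * (√A + k * e) ≤ C * (√A + e * (1 + Real.log (R / r))) := by
      refine mul_le_mul_of_nonneg_left ?_ hC.le
      have : (k:ℝ) * e ≤ Real.log (R / r) * e := mul_le_mul_of_nonneg_right hlog he
      nlinarith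
    have h11 : 256 * τ⁻¹ ^ 2 * ((C + 1) * (√A + e)) ≤
        256 * τ⁻¹ ^ 2 * (C + 1) * (√A + e * (1 + Real.log (R / r))) := by
      rw [← mul_assoc]
      refine mul_le_mul_of_nonneg_left ?_ (by positivity)
      nlinarith [mul_nonneg he hlog0]
    have h12 : 0 ≤ C * τ⁻¹ ^ 4 * (√A + e * (1 + Real.log (R / r))) := by positivity
    linarith

end Crest.Agent.R249.Dec308
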