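import Crest.Agent.R249.SgB_129

/-!
`frameOf`: the `Frame` over the germ ring `SG x` of a smooth orthonormal frame of a Riemannian
metric near `x`, with all components as germs of explicit functions. (row 249, helper129)
-/

set_option autoImplicit false
set_option linter.unusedSectionVars false

open scoped ContDiff Topology
open Filter Set Finset
open Crest.GeometryTopology.CoordMetric Crest.GeometryTopology.ChartCurvature
open Crest.Agent.R202.Tens Crest.Agent.R247.Bo84
open Crest.Agent.R249.Fr129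
open Crest.Agent.R249.Fr129.Frame (half two_half)

noncomputable section

namespace Crest.Agent.R249.Sg129

variable {n : ℕ}

local notation "𝔼" => EuclideanSpace ℝ (Fin n)

/-- `e` is a smooth orthonormal frame of `g` near `x ∈ U`. -/
structure ONF (g : MetricField n) (U : Set (EuclideanSpace ℝ (Fin n)))
    (x : EuclideanSpace ℝ (Fin n))
    (e : Fin n → EuclideanSpace ℝ (Fin n) → EuclideanSpace ℝ (Fin n)) : Prop where
  riem : IsRiemannianOn g U
  mem : x ∈ U
  smooth : ∀ i, ContDiffAt ℝ ∞ (e i) x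
  orth : ∀ᶠ y in 𝓝 x, ∀ i j, bil (g y) (e i y) (e j y) = if i = j then 1 else 0

variable {g : MetricField n} {U : Set (EuclideanSpace ℝ (Fin n))} {x : EuclideanSpace ℝ (Fin n)}
  {e : Fin n → EuclideanSpace ℝ (Fin n) → EuclideanSpace ℝ (Fin n)}

lemma eventually_mem (hg : IsRiemannianOn g U) (hx : x ∈ U) : ∀ᶠ y in 𝓝 x, y ∈ U :=
  hg.isOpen.mem_nhds hx

set_option maxSynthPendingDepth 3 in
lemma contDiffAt_curv {E : Type*} [NormedAddCommGroup E] [NormedSpace ℝ E]
    {Γ : E → E →L[ℝ] E →L[ℝ] E} {x : E} (hG : ContDiffAt ℝ ∞ Γ x) {W X Y : E → E}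
    (hW : ContDiffAt ℝ ∞ W x) (hX : ContDiffAt ℝ ∞ X x) (hY : ContDiffAt ℝ ∞ Y x) :
    ContDiffAt ℝ ∞ (fun y => curv Γ y (W y) (X y) (Y y)) x := by
  have hdG : ContDiffAt ℝ ∞ (fderiv ℝ Γ) x := hG.fderiv_right (m := ∞) (by simp)
  unfold curv
  exact ((((hdG.clm_apply hW).clm_apply hX).clm_apply hY).sub
      (((hdG.clm_apply hX).clm_apply hW).clm_apply hY)).add
      ((hG.clm_apply hW).clm_apply ((hG.clm_apply hX).clm_apply hY)) |>.sub
      ((hG.clm_apply hX).clm_apply ((hG.clm_apply hW).clm_apply hY))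

namespace ONF

variable (h : ONF g U x e)
include h

lemma cd_e (i a : Fin n) : ContDiffAt ℝ ∞ (fun y => e i y a) x :=
  (EuclideanSpace.proj a : EuclideanSpace ℝ (Fin n) →L[ℝ] ℝ).contDiff.contDiffAt.comp x (h.smooth i)

/-- the algebraic data over the germ ring -/
def mf : MF n (SG x) where
  toCoord := coord x
  g := Matrix.of fun i j => germ (fun y => g y i j) (contDiffAt_entry h.riem h.mem i j)
  gi := Matrix.of fun i j => germ (fun y => inverseField g y i j) (contDiffAt_inv h.riem h.mem i j)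
  E := Matrix.of fun a i => germ (fun y => e i y a) (h.cd_e i a)
  g_symm i j := germ_eq (by
    filter_upwards [eventually_mem h.riem h.mem] with y hy using metric_symm h.riem hy i j)
  gi_g := by
    ext i j
    rw [Matrix.mul_apply, Matrix.one_apply]
    simp only [Matrix.of_apply, germ_mul, germ_sum]
    have : ∀ᶠ y in 𝓝 x, ∑ k, inverseField g y i k * g y k j = if i = j then 1 else 0 := by
      filter_upwards [eventually_mem h.riem h.mem] with y hy
      have h1 := Matrix.nonsing_inv_mul (g y) (det_pos h.riem hy).ne'.isUnit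
      have h2 := congrFun (congrFun h1 i) j
      rw [Matrix.mul_apply, Matrix.one_apply] at h2
      exact h2
    split_ifs with hij
    · rw [← germ_one]; exact germ_eq (by filter_upwards [this] with y hy; rw [hy, if_pos hij])
    · rw [← germ_zero]; exact germ_eq (by filter_upwards [this] with y hy; rw [hy, if_neg hij])
  orth := by
    ext i j
    rw [Matrix.mul_apply, Matrix.one_apply]
    simp only [Matrix.mul_apply, Matrix.transpose_apply, Matrix.of_apply, germ_mul, germ_sum]
    have : ∀ᶠ y in 𝓝 x, ∑ k, (∑ l, e i y l * g y l k) * e j y k = if i = j then 1 else 0 := by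
      filter_upwards [h.orth] with y hy
      rw [← hy i j, bil_apply, Finset.sum_comm]
      refine Finset.sum_congr rfl fun k _ => ?_
      rw [Finset.sum_mul]
      exact Finset.sum_congr rfl fun l _ => by ring
    split_ifs with hij
    · rw [← germ_one]; exact germ_eq (by filter_upwards [this] with y hy; rw [hy, if_pos hij])
    · rw [← germ_zero]; exact germ_eq (by filter_upwards [this] with y hy; rw [hy, if_neg hij])

/-- **the frame of germs** -/
def frameOf : Frame n (SG x) := h.mf.frame

lemma mf_g (i j : Fin n) : h.mf.g i j = germ (fun y => g y i j) (contDiffAt_entry h.riem h.mem i j) := rfl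
lemma mf_gi (i j : Fin n) :
    h.mf.gi i j = germ (fun y => inverseField g y i j) (contDiffAt_inv h.riem h.mem i j) := rfl
lemma mf_E (a i : Fin n) : h.mf.E a i = germ (fun y => e i y a) (h.cd_e i a) := rfl
lemma mf_d (k : Fin n) : h.mf.d k = pd k := rfl

lemma cd_chr (l i j : Fin n) : ContDiffAt ℝ ∞ (fun y => christoffel g y l i j) x :=
  (contDiffOn_christoffel h.riem l i j).contDiffAt (h.riem.isOpen.mem_nhds h.mem)

lemma Γ_germ (l i j : Fin n) : h.mf.Γ l i j = germ (fun y => christoffel g y l i j) (h.cd_chr l i j) := by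
  rw [MF.Γ, half, algebraMap_eq]
  simp only [mf_g, mf_gi, mf_d, pd_germ, germ_add, germ_sub, germ_mul, germ_sum]
  exact germ_eq (Eventually.of_forall fun y => rfl)

lemma cd_riem (l k i j : Fin n) : ContDiffAt ℝ ∞ (fun y => riemann g y l k i j) x := by
  unfold riemann
  exact ((contDiffAt_pd (h.cd_chr l j k) i).sub (contDiffAt_pd (h.cd_chr l i k) j)).add
    (ContDiffAt.sum fun a _ => ((h.cd_chr l i a).mul (h.cd_chr a j k)).sub
      ((h.cd_chr l j a).mul (h.cd_chr a i k)))

lemma Rc_germ (a b m c : Fin n) :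
    h.mf.Rc a b m c = germ (fun y => riemann g y m c a b) (h.cd_riem m c a b) := by
  rw [MF.Rc]
  simp only [Matrix.add_apply, Matrix.sub_apply, dM, Matrix.mul_apply, MF.Γm, Γ_germ, mf_d, pd_germ,
    germ_add, germ_sub, germ_mul, germ_sum]
  refine germ_eq (Eventually.of_forall fun y => ?_)
  simp only [riemann, Finset.sum_sub_distrib]

/-- the curvature in the frame, as a function -/
lemma cd_Rm (i j k l : Fin n) : ContDiffAt ℝ ∞
    (fun y => bil (g y) (curv (Gam g) y (e i y) (e j y) (e k y)) (e l y)) x := by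
  have h1 : ContDiffAt ℝ ∞ (fun y => curv (Gam g) y (e i y) (e j y) (e k y)) x :=
    contDiffAt_curv (contDiffAt_Gam h.riem h.mem) (h.smooth i) (h.smooth j) (h.smooth k)
  simp only [bil_apply]
  refine ContDiffAt.sum fun a _ => ContDiffAt.sum fun b _ => ?_
  exact ((contDiffAt_entry h.riem h.mem a b).mul
    ((EuclideanSpace.proj a : EuclideanSpace ℝ (Fin n) →L[ℝ] ℝ).contDiff.contDiffAt.comp x h1)).mul
      (h.cd_e l b)

/-- **Riemann tensor of the frame** -/
theorem Rm_germ (i j k l : Fin n) : h.frameOf.Rm i j k l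
    = germ (fun y => bil (g y) (curv (Gam g) y (e i y) (e j y) (e k y)) (e l y))
      (h.cd_Rm i j k l) := by
  rw [frameOf, MF.Rm_eq]
  simp only [mf_E, mf_g, Rc_germ, germ_mul, germ_sum]
  refine germ_eq ?_
  filter_upwards [eventually_mem h.riem h.mem] with y hy
  rw [bil_apply]
  refine Finset.sum_congr rfl fun m _ => ?_
  rw [curv_apply fun k i j => differentiableAt_christoffel h.riem hy k i j, Finset.sum_mul]
  refine Finset.sum_congr rfl fun d _ => ?_
  rw [metric_symm h.riem hy d m]
  have : ∑ c, (∑ a, ∑ b, e i y a * e j y b * riemann g y m c a b) * e k y c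
      = ∑ c, ∑ a, ∑ b, riemann g y m c a b * e k y c * e i y a * e j y b := by
    refine Finset.sum_congr rfl fun c _ => ?_
    rw [Finset.sum_mul]
    refine Finset.sum_congr rfl fun a _ => ?_
    rw [Finset.sum_mul]
    exact Finset.sum_congr rfl fun b _ => by ring
  rw [this]; ring

lemma cd_D {f : 𝔼 → ℝ} (hf : ContDiffAt ℝ ∞ f x) (i : Fin n) :
    ContDiffAt ℝ ∞ (fun y => fderiv ℝ f y (e i y)) x :=
  (hf.fderiv_right (m := ∞) (by simp)).clm_apply (h.smooth i)

/-- derivations of the frame -/
theorem D_germ {f : 𝔼 → ℝ} (hf : ContDiffAt ℝ ∞ f x) (i : Fin n) :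
    h.frameOf.D i (germ f hf) = germ (fun y => fderiv ℝ f y (e i y)) (h.cd_D hf i) := by
  rw [frameOf, MF.frame_D]
  simp only [mf_E, mf_d, pd_germ, germ_mul, germ_sum]
  exact germ_eq (Eventually.of_forall fun y => (fderiv_eq_sum f y (e i y)).symm)

lemma cd_cov (i k : Fin n) : ContDiffAt ℝ ∞ (fun y => cov g (e i) y (e k y)) x :=
  (contDiffAt_cov h.riem h.mem (m := ∞) (h.smooth i) (by simp) le_rfl).clm_apply (h.smooth k)

lemma cd_bil {V W : 𝔼 → 𝔼} (hV : ContDiffAt ℝ ∞ V x) (hW : ContDiffAt ℝ ∞ W x) :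
    ContDiffAt ℝ ∞ (fun y => bil (g y) (V y) (W y)) x := by
  simp only [bil_apply]
  refine ContDiffAt.sum fun a _ => ContDiffAt.sum fun b _ => ?_
  exact ((contDiffAt_entry h.riem h.mem a b).mul
    ((EuclideanSpace.proj a : EuclideanSpace ℝ (Fin n) →L[ℝ] ℝ).contDiff.contDiffAt.comp x hV)).mul
    ((EuclideanSpace.proj b : EuclideanSpace ℝ (Fin n) →L[ℝ] ℝ).contDiff.contDiffAt.comp x hW)

/-- connection coefficients of the frame -/
theorem w_germ (k i j : Fin n) : h.frameOf.w k i j
    = germ (fun y => bil (g y) (cov g (e i) y (e k y)) (e j y)) (h.cd_bil (h.cd_cov i k) (h.smooth j)) := by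
  rw [frameOf, MF.frame_w, MF.B]
  simp only [Matrix.mul_apply, Matrix.transpose_apply, Matrix.add_apply, dM, MF.Df_apply, MF.aF,
    Matrix.sum_apply, Matrix.smul_apply, smul_eq_mul, MF.Γm, Γ_germ, mf_E, mf_d, mf_g, pd_germ, germ_mul,
    germ_sum, germ_add]
  refine germ_eq ?_
  filter_upwards [eventually_mem h.riem h.mem, (((h.smooth i).of_le (m := 1)
    (WithTop.coe_le_coe.2 le_top)).eventually (by norm_num))] with y hy hd
  have hd' : DifferentiableAt ℝ (e i) y := hd.differentiableAt (by norm_num)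
  rw [bil_apply]
  refine Finset.sum_congr rfl fun q _ => ?_
  rw [Finset.sum_mul]
  refine Finset.sum_congr rfl fun p _ => ?_
  rw [metric_symm h.riem hy p q, cov_apply, PiLp.add_apply, Gam_apply]
  have h1 : ∑ a, e k y a * pderiv a (fun z => e i z q) y = (fderiv ℝ (e i) y (e k y)) q := by
    rw [← fderiv_eq_sum]
    have : HasFDerivAt (fun z => e i z q)
        ((EuclideanSpace.proj q : EuclideanSpace ℝ (Fin n) →L[ℝ] ℝ).comp (fderiv ℝ (e i) y)) y :=
      (EuclideanSpace.proj q : 𝔼 →L[ℝ] ℝ).hasFDerivAt.comp y hd'.hasFDerivAt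
    rw [this.fderiv]; rfl
  have h2 : ∑ r, (∑ a, e k y a * christoffel g y q a r) * e i y r
      = ∑ a, ∑ r, christoffel g y q a r * e k y a * e i y r := by
    rw [Finset.sum_comm]
    refine Finset.sum_congr rfl fun r _ => ?_
    rw [Finset.sum_mul]
    exact Finset.sum_congr rfl fun a _ => by ring
  rw [h1, h2]; ring

end ONF

end Crest.Agent.R249.Sg129
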