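import Crest.Agent.R249.HK9c_714
import Crest.Agent.R249.SgC_129
import Crest.Agent.R249.C2j_198

/-!
# Row 249, PART C, [DENS] abstract part (helper714)

* `curv_fr`  : over a germ ring with coordinates and an orthonormal frame `E` (`MF n S`, 129), the curvature (129's
  `Frame.curv`) of the frame components `fr C B k = ∑ E_ak B_a` of a coordinate connection `B` is
  `∑ E_ak E_bl F_ab`, `F_ab = ∂_a B_b - ∂_b B_a + [B_a, B_b]`;
* `tO_fr`    : `∑_kl tr (Ω_kl Ω_kl) = ∑ g^{ac} g^{bd} tr (F_ab F_cd)`;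
* `LF.aF`    : germs at `y` of the frame components of the connection `L.a` of a local frame `L : LF V κ ρ` (HK9c_714);
* `LF.den_eq`: `L.den h y = (1/32π²) ∑ P_qq' P_q'q + (1/192π²) ev (tO h.frameOf (L.aF))`.
-/

set_option autoImplicit false
set_option linter.unusedSectionVars false
open scoped ContDiff Topology
open Filter Set Finset Matrix
open Crest.GeometryTopology.CoordMetric Crest.GeometryTopology.ChartCurvature
open Crest.Agent.R249.Fr129 Crest.Agent.R249.Sg129
open Crest.Agent.R249.HK286 (E4)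

noncomputable section

namespace Crest.Agent.R249.HK9_714

section alg
variable {n : ℕ} {S : Type*} [CommRing S] [Algebra ℝ S] (C : MF n S) {ι : Type*} [Fintype ι]

/-- frame components of the coordinate connection `B` -/
def fr (B : Fin n → Matrix ι ι S) (k : Fin n) : Matrix ι ι S := ∑ a, C.E a k • B a

/-- coordinate curvature of `B` -/
def cc (B : Fin n → Matrix ι ι S) (a b : Fin n) : Matrix ι ι S :=
  dM (C.d a) (B b) - dM (C.d b) (B a) + (B a * B b - B b * B a)

theorem curv_eq' (a : Fin n → Matrix ι ι S) (F : Frame n S) (k l : Fin n) :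
    F.curv a k l = dM (F.D k) (a l) - dM (F.D l) (a k) + (a k * a l - a l * a k)
      - ∑ m, F.T k l m • a m := by
  ext i j
  simp only [Frame.curv, Matrix.sub_apply, Matrix.add_apply, dM, Matrix.mul_apply,
    Matrix.sum_apply, Matrix.smul_apply, smul_eq_mul, sum_sub_distrib]

theorem curv_fr (B : Fin n → Matrix ι ι S) (k l : Fin n) :
    C.frame.curv (fr C B) k l = ∑ a, ∑ b, (C.E a k * C.E b l) • cc C B a b := by
  rw [curv_eq']
  have h1 : ∀ k l, dM (C.Df k) (fr C B l) = ∑ b, C.Df k (C.E b l) • B b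
      + ∑ a, ∑ b, (C.E a k * C.E b l) • dM (C.d a) (B b) := by
    intro k l
    rw [fr, dM_sum]
    simp_rw [dM_smul, sum_add_distrib]
    congr 1
    rw [sum_comm]
    refine sum_congr rfl fun b _ => ?_
    rw [C.dM_Df k (B b), smul_sum]
    exact sum_congr rfl fun a _ => by rw [smul_smul, mul_comm]
  have h2 : ∀ k l, fr C B k * fr C B l = ∑ a, ∑ b, (C.E a k * C.E b l) • (B a * B b) := by
    intro k l
    simp_rw [fr, Matrix.sum_mul, Matrix.mul_sum, Matrix.smul_mul, Matrix.mul_smul, smul_smul]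
  have h3 : ∑ m, C.frame.T k l m • fr C B m = ∑ b, (C.Df k (C.E b l) - C.Df l (C.E b k)) • B b := by
    simp_rw [fr, smul_sum, smul_smul]
    rw [sum_comm]
    refine sum_congr rfl fun b _ => ?_
    rw [← sum_smul, C.E_T]
  have h4 : ∀ X : Fin n → Fin n → Matrix ι ι S,
      ∑ a, ∑ b, (C.E a l * C.E b k) • X a b = ∑ a, ∑ b, (C.E a k * C.E b l) • X b a := by
    intro X
    rw [sum_comm]
    exact sum_congr rfl fun a _ => sum_congr rfl fun b _ => by rw [mul_comm]
  change dM (C.Df k) (fr C B l) - dM (C.Df l) (fr C B k) + _ - _ = _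
  rw [h1, h1, h2, h2, h3, h4, h4]
  simp_rw [cc, smul_add, smul_sub, sub_smul, sum_add_distrib, sum_sub_distrib]
  abel

theorem E_Et : C.E * C.Eᵀ = C.gi := by
  have h1 : C.E * (C.Eᵀ * C.g) = 1 := C.E_Et_g
  have h2 := congrArg (fun X => X * C.gi) h1
  simp only [Matrix.mul_assoc, C.g_gi, Matrix.mul_one, Matrix.one_mul] at h2
  exact h2

theorem sum_E_E (a c : Fin n) : ∑ k, C.E a k * C.E c k = C.gi a c := by
  have h := congrFun (congrFun (E_Et C) a) c
  rw [Matrix.mul_apply] at h
  exact h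

/-- `∑_kl tr (Ω_kl Ω_kl) = ∑ g^{ac} g^{bd} tr (F_ab F_cd)` -/
theorem tO_fr (B : Fin n → Matrix ι ι S) :
    ∑ k, ∑ l, (C.frame.curv (fr C B) k l * C.frame.curv (fr C B) k l).trace
      = ∑ a, ∑ c, ∑ b, ∑ d, C.gi a c * C.gi b d * (cc C B a b * cc C B c d).trace := by
  have h1 : ∀ k l, (C.frame.curv (fr C B) k l * C.frame.curv (fr C B) k l).trace
      = ∑ a, ∑ c, ∑ b, ∑ d, (C.E a k * C.E c k) * (C.E b l * C.E d l)
        * (cc C B a b * cc C B c d).trace := by
    intro k l
    have h0 : ∀ a, ∑ c, ∑ b, ∑ d, (C.E a k * C.E c k) * (C.E b l * C.E d l)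
        * (cc C B a b * cc C B c d).trace = ∑ b, ∑ c, ∑ d, (C.E a k * C.E c k) * (C.E b l * C.E d l)
        * (cc C B a b * cc C B c d).trace := fun a => sum_comm
    simp only [h0]
    rw [curv_fr, Matrix.sum_mul, Matrix.trace_sum]
    refine sum_congr rfl fun a _ => ?_
    rw [Matrix.sum_mul, Matrix.trace_sum]
    refine sum_congr rfl fun b _ => ?_
    rw [Matrix.smul_mul, Matrix.trace_smul, Matrix.mul_sum, Matrix.trace_sum, smul_eq_mul, mul_sum]
    refine sum_congr rfl fun c _ => ?_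
    rw [Matrix.mul_sum, Matrix.trace_sum, mul_sum]
    refine sum_congr rfl fun d _ => ?_
    rw [Matrix.mul_smul, Matrix.trace_smul, smul_eq_mul]
    ring
  simp only [h1]
  have h2 : ∀ a c b d, ∑ k, ∑ l, (C.E a k * C.E c k) * (C.E b l * C.E d l)
        * (cc C B a b * cc C B c d).trace
      = C.gi a c * C.gi b d * (cc C B a b * cc C B c d).trace := by
    intro a c b d
    rw [← sum_E_E, ← sum_E_E, sum_mul_sum, sum_mul]
    exact sum_congr rfl fun k _ => by rw [sum_mul]
  simp only [← h2]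
  -- move the sums over `k, l` inside
  calc _ = ∑ k, ∑ a, ∑ l, ∑ c, ∑ b, ∑ d, (C.E a k * C.E c k) * (C.E b l * C.E d l)
        * (cc C B a b * cc C B c d).trace := sum_congr rfl fun k _ => sum_comm
    _ = ∑ a, ∑ k, ∑ l, ∑ c, ∑ b, ∑ d, (C.E a k * C.E c k) * (C.E b l * C.E d l)
        * (cc C B a b * cc C B c d).trace := sum_comm
    _ = _ := by
      refine sum_congr rfl fun a _ => ?_
      calc _ = ∑ k, ∑ c, ∑ l, ∑ b, ∑ d, (C.E a k * C.E c k) * (C.E b l * C.E d l)
            * (cc C B a b * cc C B c d).trace := sum_congr rfl fun k _ => sum_comm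
        _ = ∑ c, ∑ k, ∑ l, ∑ b, ∑ d, (C.E a k * C.E c k) * (C.E b l * C.E d l)
            * (cc C B a b * cc C B c d).trace := sum_comm
        _ = _ := by
          refine sum_congr rfl fun c _ => ?_
          calc _ = ∑ k, ∑ b, ∑ l, ∑ d, (C.E a k * C.E c k) * (C.E b l * C.E d l)
                * (cc C B a b * cc C B c d).trace := sum_congr rfl fun k _ => sum_comm
            _ = ∑ b, ∑ k, ∑ l, ∑ d, (C.E a k * C.E c k) * (C.E b l * C.E d l)
                * (cc C B a b * cc C B c d).trace := sum_comm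
            _ = _ := by
              refine sum_congr rfl fun b _ => ?_
              calc _ = ∑ k, ∑ d, ∑ l, (C.E a k * C.E c k) * (C.E b l * C.E d l)
                    * (cc C B a b * cc C B c d).trace := sum_congr rfl fun k _ => sum_comm
                _ = _ := sum_comm

end alg

/-! ### the local frame -/

namespace LF

variable {V : Set E4} {κ ρ : Type} [Fintype κ] [Fintype ρ] [DecidableEq ρ] (L : LF V κ ρ)
  {g : MetricField 4} {U : Set E4} {y : E4} {e : Fin 4 → E4 → E4}

theorem cd_a (hV : IsOpen V) (hy : y ∈ V) (l : Fin 4) (q q' : ρ) : ContDiffAt ℝ ∞ (L.a l q q') y :=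
  (L.sma hV l q q').contDiffAt (hV.mem_nhds hy)

/-- germs of the connection matrices of the frame `j` -/
def aG (hV : IsOpen V) (hy : y ∈ V) (l : Fin 4) : Matrix ρ ρ (SG y) :=
  Matrix.of fun q q' => germ (L.a l q q') (L.cd_a hV hy l q q')

/-- frame components `a(e_i)` of the connection of the frame `j`, as germs at `y` -/
def aF (hV : IsOpen V) (hy : y ∈ V) (h : ONF g U y e) (i : Fin 4) : Matrix ρ ρ (SG y) :=
  fr h.mf (L.aG hV hy) i

theorem aF_apply (hV : IsOpen V) (hy : y ∈ V) (h : ONF g U y e) (i : Fin 4) (q q' : ρ) :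
    L.aF hV hy h i q q' = germ (fun z => ∑ l, e i z l * L.a l q q' z)
      (ContDiffAt.sum fun l _ => (h.cd_e i l).mul (L.cd_a hV hy l q q')) := by
  unfold aF fr aG
  rw [Matrix.sum_apply]
  simp only [Matrix.smul_apply, Matrix.of_apply, smul_eq_mul, ONF.mf_E, germ_mul, germ_sum]

theorem cd_FA (hV : IsOpen V) (hy : y ∈ V) (i l : Fin 4) (q q' : ρ) :
    ContDiffAt ℝ ∞ (L.FA i l q q') y := by
  unfold FA
  refine ((contDiffAt_pd (L.cd_a hV hy l q q') i).sub (contDiffAt_pd (L.cd_a hV hy i q q') l)).add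
    (ContDiffAt.sum fun r _ => ?_)
  exact ((L.cd_a hV hy i q r).mul (L.cd_a hV hy l r q')).sub
    ((L.cd_a hV hy l q r).mul (L.cd_a hV hy i r q'))

theorem cc_germ (hV : IsOpen V) (hy : y ∈ V) (h : ONF g U y e) (i l : Fin 4) (q q' : ρ) :
    cc h.mf (L.aG hV hy) i l q q' = germ (L.FA i l q q') (L.cd_FA hV hy i l q q') := by
  unfold cc aG
  simp only [Matrix.add_apply, Matrix.sub_apply, dM, Matrix.mul_apply, Matrix.of_apply, ONF.mf_d,
    pd_germ, germ_mul, germ_sum, germ_sub, germ_add]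
  refine germ_eq (Eventually.of_forall fun z => ?_)
  simp only [FA, Finset.sum_sub_distrib]
  rfl

theorem ev_tO (hV : IsOpen V) (hy : y ∈ V) (h : ONF g U y e) :
    ev (C2_198.tO h.frameOf (L.aF hV hy h))
      = ∑ j, ∑ k, ∑ l, ∑ m, inverseField g y j k * inverseField g y l m
          * ∑ q, ∑ q', L.FA j l q q' y * L.FA k m q' q y := by
  have h1 : C2_198.tO h.frameOf (L.aF hV hy h)
      = ∑ a, ∑ c, ∑ b, ∑ d, h.mf.gi a c * h.mf.gi b d
        * (cc h.mf (L.aG hV hy) a b * cc h.mf (L.aG hV hy) c d).trace :=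
    tO_fr h.mf (L.aG hV hy)
  rw [h1]
  simp only [map_sum, map_mul, Matrix.trace, Matrix.diag_apply, Matrix.mul_apply, cc_germ, ev_germ,
    ONF.mf_gi]

/-- **[DENS]** the density at `y` in terms of the local orthonormal frames -/
theorem den_eq (hV : IsOpen V) (hy : y ∈ V) (h : ONF g U y e) :
    L.den (fun a b x => inverseField g x a b) y
      = 1 / (32 * Real.pi ^ 2) * (∑ q, ∑ q', L.P 0 q q' y * L.P 0 q' q y)
        + 1 / (192 * Real.pi ^ 2) * ev (C2_198.tO h.frameOf (L.aF hV hy h)) := by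
  rw [L.ev_tO hV hy h, L.sum_PP hy 0]
  unfold den
  simp only [L.sum_FA hV hy]
  ring

/-- germs of the potential in the frame -/
def PG (V' : IsOpen V) (hy : y ∈ V) : Matrix ρ ρ (SG y) :=
  Matrix.of fun q q' => germ (L.P 0 q q') ((L.smP 0 q q').contDiffAt (V'.mem_nhds hy))

theorem ev_PG (hV : IsOpen V) (hy : y ∈ V) :
    ev ((L.PG hV hy * L.PG hV hy).trace) = ∑ q, ∑ q', L.P 0 q q' y * L.P 0 q' q y := by
  simp only [Matrix.trace, Matrix.diag_apply, Matrix.mul_apply, PG, Matrix.of_apply, map_sum, map_mul,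
    ev_germ]

theorem den_eq' (hV : IsOpen V) (hy : y ∈ V) (h : ONF g U y e) :
    L.den (fun a b x => inverseField g x a b) y
      = 1 / (32 * Real.pi ^ 2) * ev ((L.PG hV hy * L.PG hV hy).trace)
        + 1 / (192 * Real.pi ^ 2) * ev (C2_198.tO h.frameOf (L.aF hV hy h)) := by
  rw [ev_PG, L.den_eq hV hy h]

/-- the connection germs from the frame: `a(e_i) = jᵀ (D_i j + om(e_i) j)` -/
theorem aF_eq (hV : IsOpen V) (hy : y ∈ V) (h : ONF g U y e) (i : Fin 4) (q q' : ρ) :
    L.aF hV hy h i q q' = ∑ a, germ (L.j a q) ((L.smj a q).contDiffAt (hV.mem_nhds hy))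
      * (h.frameOf.D i (germ (L.j a q') ((L.smj a q').contDiffAt (hV.mem_nhds hy)))
        + ∑ b, germ (fun z => ∑ l, e i z l * L.om l a b z)
            (ContDiffAt.sum fun l _ => (h.cd_e i l).mul ((L.smom l a b).contDiffAt (hV.mem_nhds hy)))
          * germ (L.j b q') ((L.smj b q').contDiffAt (hV.mem_nhds hy))) := by
  rw [aF_apply]
  simp only [ONF.D_germ, germ_mul, germ_sum, germ_add]
  refine germ_eq (Eventually.of_forall fun z => ?_)
  simp only [a]
  have h1 : ∀ a, fderiv ℝ (L.j a q') z (e i z) = ∑ l, e i z l * HK286.pd l (L.j a q') z := fun a =>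
    Crest.Agent.R202.Tens.fderiv_eq_sum (L.j a q') z (e i z)
  simp only [h1]
  simp only [Finset.mul_sum, Finset.sum_mul, mul_add, Finset.sum_add_distrib]
  rw [Finset.sum_comm (f := fun l a => e i z l * (L.j a q z * HK286.pd l (L.j a q') z))]
  congr 1
  · exact Finset.sum_congr rfl fun a _ => Finset.sum_congr rfl fun l _ => by ring
  · rw [Finset.sum_comm]
    refine Finset.sum_congr rfl fun a _ => ?_
    rw [Finset.sum_comm]
    exact Finset.sum_congr rfl fun b _ => Finset.sum_congr rfl fun l _ => by ring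

end LF

end Crest.Agent.R249.HK9_714
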