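import Crest.Agent.R249.HK9d_714

/-!
# Row 249, PART C, leaf HK9 (helper714): a `Spec D` gives a `CSys` in every local frame
-/

set_option autoImplicit false
set_option maxSynthPendingDepth 3
set_option linter.unusedSectionVars false
open scoped ContDiff ENNReal NNReal Topology Manifold Bundle
open MeasureTheory Set Filter Metric Bundle
open Crest.GeometryTopology.CoordMetric Crest.GeometryTopology.ChartCurvature
open Crest.Agent.R202.Ell Crest.Agent.R247.Ms322 Crest.Agent.R226.ChartMet842
open Crest.Agent.R247.Dir593 Crest.Agent.R247.Frd657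
open Crest.Agent.R249.HK286 (E4 pd)
open Crest.Agent.R249.Tv57

namespace Crest.Agent.R249.HK9_714

noncomputable section

variable {M : Type*} [MetricSpace M] [ChartedSpace (EuclideanSpace ℝ (Fin 4)) M]
  [IsManifold (𝓡 4) ∞ M]
  [RiemannianBundle (fun p : M => TangentSpace (𝓡 4) p)]
  [IsContMDiffRiemannianBundle (𝓡 4) ∞ (EuclideanSpace ℝ (Fin 4)) (fun p : M => TangentSpace (𝓡 4) p)]
  [IsRiemannianManifold (𝓡 4) M] [MeasurableSpace M] [BorelSpace M]
  [SecondCountableTopology M] [Nonempty M]

variable {κ : Type} [Fintype κ] (D : Dat 4 M κ)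

section
variable (x₀ : M) {V : Set E4} (hV : V ⊆ (chartAt E4 x₀).target) {r : ℕ} (j : κ → Fin r → E4 → ℝ)
    (smj : ∀ a q, ContDiffOn ℝ ∞ (j a q) V)
    (jj : ∀ x ∈ V, ∀ q q', ∑ a, j a q x * j a q' x = if q = q' then 1 else 0)
    (jp : ∀ x ∈ V, ∀ a b, ∑ q, j a q x * j b q x = rd x₀ (D.p a b) x)

theorem dens_off_of_jf {f : E4 → Fin r → ℝ} {C : Set E4} (h0 : ∀ x, x ∉ C → ∀ q, f x q = 0)
    (a : κ) {x : E4} (hx : x ∉ C) : jf j f a x = 0 := by
  unfold jf
  exact Finset.sum_eq_zero fun q _ => by rw [h0 x hx q, mul_zero]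

/-- integral over `M` of a function supported in the chart = integral over `E4` -/
theorem integral_chart {F : M → ℝ} {G : E4 → ℝ} {C : Set E4} (hCV : C ⊆ V)
    (hV : V ⊆ (chartAt E4 x₀).target)
    (hF : ∀ z, z ∉ (chartAt E4 x₀).source → F z = 0)
    (hFG : ∀ x ∈ V, dens (n := 4) x₀ x * F ((chartAt E4 x₀).symm x) = G x)
    (hF0 : ∀ x ∈ (chartAt E4 x₀).target, x ∉ C → F ((chartAt E4 x₀).symm x) = 0)
    (hG0 : ∀ x, x ∉ C → G x = 0) :
    ∫ z, F z ∂(μHE[4] : Measure M) = ∫ x, G x := by
  rw [integral_eq_of_support x₀ F hF,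
    ← setIntegral_eq_integral_of_forall_compl_eq_zero (s := (chartAt E4 x₀).target) (f := G)
      (fun x hx => hG0 x fun h => hx (hV (hCV h)))]
  refine setIntegral_congr_fun (measurableSet_target x₀) fun x hx => ?_
  rw [smul_eq_mul]
  by_cases h : x ∈ V
  · exact hFG x h
  · rw [hF0 x hx fun h' => h (hCV h'), hG0 x fun h' => h (hCV h'), mul_zero]

/-- the first order weak equation in the frame, potential `P 0` -/
theorem int_ed (hVo : IsOpen V) {φ : κ → M → ℝ} (hφs : ∀ a, ContMDiff (𝓡 4) 𝓘(ℝ, ℝ) ∞ (φ a))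
    (hφ : D.Sec φ) {f : E4 → Fin r → ℝ} {C : Set E4} (hC : IsCompact C) (hCV : C ⊆ V)
    (hf : ∀ q, ContDiff ℝ ∞ fun x => f x q) (h0 : ∀ x, x ∉ C → ∀ q, f x q = 0) :
    ∫ z, D.ed φ (fun a => pb x₀ (jf j f a)) z ∂(μHE[4] : Measure M)
      = ∫ x, E1 D x₀ hV j smj jj jp hVo (uu x₀ j φ) f x := by
  have hT := fun a => jf_test j smj hVo hC hCV hf h0 a
  have hts : ∀ a, tsupport (jf j f a) ⊆ (chartAt E4 x₀).target := fun a =>
    (hT a).2.trans (hCV.trans hV)
  have hsup : ∀ a, tsupport (pb x₀ (jf j f a)) ⊆ (chartAt E4 x₀).symm '' C := fun a =>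
    tsupport_pb x₀ hC (hCV.trans hV) (hT a).2
  have hoff : ∀ z, z ∉ (chartAt E4 x₀).symm '' C → D.ed φ (fun a => pb x₀ (jf j f a)) z = 0 := by
    intro z hz
    have h1 : ∀ a, pb x₀ (jf j f a) z = 0 := fun a =>
      image_eq_zero_of_notMem_tsupport fun h => hz (hsup a h)
    have h2 : ∀ a, Gr (n := 4) (pb x₀ (jf j f a)) z = 0 := fun a =>
      Gr_off fun h => hz (hsup a h)
    unfold Dat.ed
    have h3 : ∀ a, D.cv (fun a => pb x₀ (jf j f a)) a z = 0 := fun a => by
      unfold Dat.cv
      rw [h2 a, zero_add]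
      refine Finset.sum_eq_zero fun b _ => ?_
      show pb x₀ (jf j f b) z • _ = _
      rw [h1 b, zero_smul]
    simp only [h3, h1, inner_zero_right, mul_zero, Finset.sum_const_zero, add_zero]
  refine integral_chart x₀ (C := C) hCV hV ?_ ?_ ?_ ?_
  · intro z hz
    exact hoff z fun h => hz (symm_image_subset x₀ (hCV.trans hV) h)
  · intro x hx
    exact ed_chart D x₀ hV j smj jj jp hVo hφs hφ hf hx
  · intro x hx hxC
    refine hoff _ ?_
    rintro ⟨y, hy, hyx⟩
    have h1 := congrArg (chartAt E4 x₀) hyx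
    rw [(chartAt E4 x₀).right_inv (hV (hCV hy)), (chartAt E4 x₀).right_inv hx] at h1
    exact hxC (h1 ▸ hy)
  · intro x hx
    unfold E1
    have h1 : ∀ l p, ((lfr D x₀ hV j smj jj jp).con hVo 0).cov l f x p = 0 := fun l p =>
      cov_off _ hC h0 l hx p
    simp only [h1, h0 x hx, mul_zero, Finset.sum_const_zero, add_zero, zero_mul]

include jp jj in
/-- `∫ ⟨φ, j f⟩ = ∫ ⟨u, f⟩ w` -/
theorem int_pair (hV : V ⊆ (chartAt E4 x₀).target) {φ : κ → M → ℝ} (hφ : D.Sec φ)
    {f : E4 → Fin r → ℝ} {C : Set E4} (hCV : C ⊆ V)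
    (h0 : ∀ x, x ∉ C → ∀ q, f x q = 0) :
    ∫ z, ∑ a, φ a z * pb x₀ (jf j f a) z ∂(μHE[4] : Measure M)
      = ∫ x, (∑ q, f x q * uu x₀ j φ x q) * dens (n := 4) x₀ x := by
  refine integral_chart x₀ (C := C) hCV hV ?_ ?_ ?_ ?_
  · intro z hz
    refine Finset.sum_eq_zero fun a _ => ?_
    rw [pb, indicator_of_notMem hz, mul_zero]
  · intro x hx
    have h1 : ∀ a, φ a ((chartAt E4 x₀).symm x) * pb x₀ (jf j f a) ((chartAt E4 x₀).symm x)
        = (∑ q, j a q x * uu x₀ j φ x q) * (∑ q, j a q x * f x q) := fun a => by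
      rw [pb_symm x₀ _ (hV hx), j_uu D x₀ j jp hφ hx a]
      rfl
    simp only [h1]
    rw [sum_jj j jj hx, mul_comm]
    congr 1
    exact Finset.sum_congr rfl fun q _ => mul_comm _ _
  · intro x hx hxC
    refine Finset.sum_eq_zero fun a _ => ?_
    rw [pb_symm x₀ _ hx, dens_off_of_jf j h0 a hxC, mul_zero]
  · intro x hx
    simp only [h0 x hx, zero_mul, Finset.sum_const_zero]

include jj in
/-- `∫ |j f|² = ∫ |f|² w` -/
theorem int_sq (hV : V ⊆ (chartAt E4 x₀).target)
    {f : E4 → Fin r → ℝ} {C : Set E4} (hCV : C ⊆ V)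
    (h0 : ∀ x, x ∉ C → ∀ q, f x q = 0) :
    ∫ z, ∑ a, pb x₀ (jf j f a) z ^ 2 ∂(μHE[4] : Measure M)
      = ∫ x, (∑ q, f x q * f x q) * dens (n := 4) x₀ x := by
  refine integral_chart x₀ (C := C) hCV hV ?_ ?_ ?_ ?_
  · intro z hz
    refine Finset.sum_eq_zero fun a _ => ?_
    rw [pb, indicator_of_notMem hz]
    ring
  · intro x hx
    have h1 : ∀ a, pb x₀ (jf j f a) ((chartAt E4 x₀).symm x) ^ 2
        = (∑ q, j a q x * f x q) * (∑ q, j a q x * f x q) := fun a => by
      rw [pb_symm x₀ _ (hV hx), sq]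
      rfl
    simp only [h1]
    rw [sum_jj j jj hx, mul_comm]
  · intro x hx hxC
    refine Finset.sum_eq_zero fun a _ => ?_
    rw [pb_symm x₀ _ hx, dens_off_of_jf j h0 a hxC]
    ring
  · intro x hx
    simp only [h0 x hx, zero_mul, Finset.sum_const_zero]

theorem measurable_pb {P : E4 → ℝ} (hP : Measurable P) : Measurable (pb x₀ P) := by
  have hSm : MeasurableSet (chartAt E4 x₀).source := (chartAt E4 x₀).open_source.measurableSet
  classical
  have h1 : Measurable ((chartAt E4 x₀).source.piecewise (chartAt E4 x₀) fun _ => (0 : E4)) :=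
    ContinuousOn.measurable_piecewise (chartAt E4 x₀).continuousOn continuousOn_const hSm
  have h2 : pb x₀ P = (chartAt E4 x₀).source.indicator (fun z =>
      P ((chartAt E4 x₀).source.piecewise (chartAt E4 x₀) (fun _ => (0 : E4)) z)) := by
    funext z
    by_cases hz : z ∈ (chartAt E4 x₀).source
    · rw [pb, indicator_of_mem hz, indicator_of_mem hz, piecewise_eq_of_mem _ _ _ hz]
    · rw [pb, indicator_of_notMem hz, indicator_of_notMem hz]
  rw [h2]
  exact (hP.comp h1).indicator hSm

include smj in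
theorem measurable_jf {f : E4 → Fin r → ℝ} {C : Set E4} (hC : IsCompact C) (hCV : C ⊆ V)
    (hf : ∀ q, Measurable fun x => f x q) (h0 : ∀ x, x ∉ C → ∀ q, f x q = 0) (a : κ) :
    Measurable (jf j f a) := by
  classical
  have h1 : jf j f a = fun x => ∑ q, C.piecewise (j a q) (fun _ => 0) x * f x q := by
    funext x
    unfold jf
    refine Finset.sum_congr rfl fun q _ => ?_
    by_cases hx : x ∈ C
    · rw [piecewise_eq_of_mem _ _ _ hx]
    · rw [h0 x hx q, mul_zero, mul_zero]
  rw [h1]
  refine Finset.measurable_sum _ fun q _ => Measurable.mul ?_ (hf q)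
  exact ContinuousOn.measurable_piecewise ((smj a q).continuousOn.mono hCV) continuousOn_const
    hC.isClosed.measurableSet

include smj in
theorem bounded_jf {f : E4 → Fin r → ℝ} {C : Set E4} (hC : IsCompact C) (hCV : C ⊆ V) {B : ℝ}
    (hB : ∀ x q, |f x q| ≤ B) (h0 : ∀ x, x ∉ C → ∀ q, f x q = 0) (a : κ) :
    ∃ B', ∀ x, |jf j f a x| ≤ B' := by
  have h1 : ∀ q, ∃ A, ∀ x ∈ C, ‖j a q x‖ ≤ A := fun q =>
    hC.exists_bound_of_continuousOn ((smj a q).continuousOn.mono hCV)
  choose A hA using h1
  refine ⟨∑ q, |A q| * |B|, fun x => ?_⟩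
  by_cases hx : x ∈ C
  · unfold jf
    refine (Finset.abs_sum_le_sum_abs _ _).trans (Finset.sum_le_sum fun q _ => ?_)
    rw [abs_mul]
    refine mul_le_mul ((hA q x hx).trans (le_abs_self _)) ((hB x q).trans (le_abs_self _))
      (abs_nonneg _) (abs_nonneg _)
  · rw [dens_off_of_jf j h0 a hx, abs_zero]
    exact Finset.sum_nonneg fun q _ => by positivity

/-- **the system in the frame** -/
def sys [CompactSpace M] (hVo : IsOpen V) (S : Spec D) {c : ℝ} (hc : ∀ k, 0 ≤ S.μ k + c) :
    CSys (cmet x₀ hV) ((lfr D x₀ hV j smj jj jp).con hVo c) ℕ where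
  u k := uu x₀ j (S.φ k)
  mu k := S.μ k + c
  mu_nonneg := hc
  sm k q := uu_smooth x₀ j smj hV (S.smooth k) q
  eig := by
    rintro k f ⟨hf, C, hC, hCV, h0⟩
    have hT := fun a => jf_test j smj hVo hC hCV hf h0 a
    have hts : ∀ a, tsupport (jf j f a) ⊆ (chartAt E4 x₀).target := fun a =>
      (hT a).2.trans (hCV.trans hV)
    have h1 := S.eig k (fun a => pb x₀ (jf j f a)) (fun a => pb_smooth x₀ (hT a).1 (hts a))
    rw [int_ed D x₀ hV j smj jj jp hVo (S.smooth k) (S.sec k) hC hCV hf h0,
      int_pair D x₀ j jj jp hV (S.sec k) hCV h0] at h1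
    set u := uu x₀ j (S.φ k) with hu
    have husm : ∀ q, ContDiffOn ℝ ∞ (fun x => u x q) V := fun q =>
      uu_smooth x₀ j smj hV (S.smooth k) q
    set L := lfr D x₀ hV j smj jj jp with hL
    have hcovu : ∀ l q, ContinuousOn (fun x => (L.con hVo 0).cov l u x q) V := fun l q => by
      unfold CCon.cov
      refine ((contDiffOn_pd hVo (husm q) l).continuousOn).add
        (continuousOn_finsetSum _ fun p _ => ?_)
      exact ((L.con hVo 0).sma l q p).continuousOn.mul (husm p).continuousOn
    have hcovf : ∀ l q, ContinuousOn (fun x => (L.con hVo 0).cov l f x q) V := fun l q => by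
      unfold CCon.cov
      refine ((contDiffOn_pd hVo (hf q).contDiffOn l).continuousOn).add
        (continuousOn_finsetSum _ fun p _ => ?_)
      exact ((L.con hVo 0).sma l q p).continuousOn.mul (hf p).continuous.continuousOn
    have hw : ContinuousOn (dens (n := 4) x₀) V := (continuousOn_dens x₀).mono hV
    have i1 : Integrable (E1 D x₀ hV j smj jj jp hVo u f) := by
      refine integrable_of_cpt hC hCV ?_ ?_
      · unfold E1
        refine ContinuousOn.mul (ContinuousOn.add ?_ ?_) hw
        · refine continuousOn_finsetSum _ fun i _ => continuousOn_finsetSum _ fun l _ => ?_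
          refine ContinuousOn.mul ?_ (continuousOn_finsetSum _ fun q _ => (hcovu i q).mul (hcovf l q))
          exact ((cmet x₀ hV).smh i l).continuousOn
        · refine continuousOn_finsetSum _ fun p _ => continuousOn_finsetSum _ fun q _ => ?_
          exact ((L.smP 0 p q).continuousOn.mul (husm q).continuousOn).mul
            (hf p).continuous.continuousOn
      · intro x hx
        unfold E1
        have h2 : ∀ l p, (L.con hVo 0).cov l f x p = 0 := fun l p => cov_off _ hC h0 l hx p
        simp only [← hL, h2, h0 x hx, mul_zero, Finset.sum_const_zero, add_zero, zero_mul]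
    have i2 : Integrable (fun x => (∑ q, f x q * u x q) * dens (n := 4) x₀ x) := by
      refine integrable_of_cpt hC hCV ?_ ?_
      · refine ContinuousOn.mul (continuousOn_finsetSum _ fun q _ => ?_) hw
        exact (hf q).continuous.continuousOn.mul (husm q).continuousOn
      · intro x hx
        simp only [h0 x hx, zero_mul, Finset.sum_const_zero]
    have e1 : ∀ x, (∑ i, ∑ l, (cmet x₀ hV).h i l x * ∑ p, (L.con hVo c).cov i u x p
          * (L.con hVo c).cov l f x p + ∑ p, ∑ q, (L.con hVo c).P p q x * u x q * f x p)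
          * (cmet x₀ hV).w x
        = E1 D x₀ hV j smj jj jp hVo u f x + c * ((∑ q, f x q * u x q) * dens (n := 4) x₀ x) := by
      intro x
      have e2 : ∑ p, ∑ q, (L.con hVo c).P p q x * u x q * f x p
          = ∑ p, ∑ q, L.P 0 p q x * u x q * f x p + c * ∑ q, f x q * u x q := by
        have e3 : ∀ p q, (L.con hVo c).P p q x * u x q * f x p
            = L.P 0 p q x * u x q * f x p + (if p = q then c * (f x q * u x q) else 0) := by
          intro p q
          show L.P c p q x * u x q * f x p = _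
          unfold LF.P
          by_cases h : p = q
          · subst h
            simp only [if_true]
            ring
          · simp only [if_neg h]
            ring
        simp only [e3, Finset.sum_add_distrib]
        congr 1
        rw [Finset.mul_sum, Finset.sum_comm]
        refine Finset.sum_congr rfl fun q _ => ?_
        rw [Finset.sum_ite_eq' Finset.univ q, if_pos (Finset.mem_univ q)]
      rw [e2]
      unfold E1
      show (_ + (_ + _)) * dens x₀ x = _
      have e4 : (∑ i, ∑ l, (cmet x₀ hV).h i l x * ∑ p, (L.con hVo c).cov i u x p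
          * (L.con hVo c).cov l f x p) = ∑ i, ∑ l, inverseField (chartMetric 4 M x₀) x i l *
      ∑ p, (L.con hVo 0).cov i u x p * (L.con hVo 0).cov l f x p := rfl
      rw [e4]
      ring
    calc _ = ∫ x, (E1 D x₀ hV j smj jj jp hVo u f x
          + c * ((∑ q, f x q * u x q) * dens (n := 4) x₀ x)) := by
          refine integral_congr_ae (Eventually.of_forall fun x => ?_)
          exact e1 x
      _ = (∫ x, E1 D x₀ hV j smj jj jp hVo u f x)
          + c * ∫ x, (∑ q, f x q * u x q) * dens (n := 4) x₀ x := by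
          rw [integral_add i1 (i2.const_mul c), integral_const_mul]
      _ = (S.μ k + c) * ∫ x, (∑ q, f x q * u x q) * dens (n := 4) x₀ x := by
          rw [h1]; ring
  pars := by
    rintro f ⟨hf, ⟨B, hB⟩, C, hC, hCV, h0⟩
    have : IsLocallyFiniteMeasure (μHE[4] : Measure M) := isLocallyFiniteMeasure 4 M
    have : IsFiniteMeasure (μHE[4] : Measure M) := CompactSpace.isFiniteMeasure
    have hm : ∀ a, Measurable (pb x₀ (jf j f a)) := fun a =>
      measurable_pb x₀ (measurable_jf j smj hC hCV hf h0 a)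
    have hmem : ∀ a, MemLp (pb x₀ (jf j f a)) 2 (μHE[4] : Measure M) := fun a => by
      obtain ⟨B', hB'⟩ := bounded_jf j smj hC hCV hB h0 a
      refine MemLp.of_bound (hm a).aestronglyMeasurable (max B' 0) (Eventually.of_forall fun z => ?_)
      by_cases hz : z ∈ (chartAt E4 x₀).source
      · rw [pb_of_mem x₀ _ hz, Real.norm_eq_abs]
        exact (hB' _).trans (le_max_left _ _)
      · rw [pb, indicator_of_notMem hz, norm_zero]
        exact le_max_right _ _
    have hsec : ∀ z a, ∑ b, D.p a b z * pb x₀ (jf j f b) z = pb x₀ (jf j f a) z := by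
      intro z a
      by_cases hz : z ∈ (chartAt E4 x₀).source
      · simp only [pb_of_mem x₀ _ hz]
        set x := chartAt E4 x₀ z with hx
        by_cases hxC : x ∈ C
        · have hxV := hCV hxC
          have h2 : ∀ b, D.p a b z = ∑ q, j a q x * j b q x := fun b => by
            rw [jp x hxV a b]
            unfold rd
            rw [hx, (chartAt E4 x₀).left_inv hz]
          have h3 : ∀ b, D.p a b z * jf j f b x
              = ∑ q, ∑ q', j a q x * f x q' * (j b q x * j b q' x) := fun b => by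
            rw [h2 b]
            unfold jf
            rw [Finset.sum_mul_sum]
            exact Finset.sum_congr rfl fun q _ => Finset.sum_congr rfl fun q' _ => by ring
          simp only [h3]
          rw [Finset.sum_comm]
          unfold jf
          refine Finset.sum_congr rfl fun q _ => ?_
          rw [Finset.sum_comm]
          simp only [← Finset.mul_sum, jj x hxV]
          simp
        · have h2 : ∀ b, jf j f b x = 0 := fun b => dens_off_of_jf j h0 b hxC
          simp only [h2, mul_zero, Finset.sum_const_zero]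
      · simp only [pb, indicator_of_notMem hz, mul_zero, Finset.sum_const_zero]
    have h1 := S.pars (fun a => pb x₀ (jf j f a)) hmem (Eventually.of_forall hsec)
    have h2 : ∀ k, ∫ z, ∑ a, pb x₀ (jf j f a) z * S.φ k a z ∂(μHE[4] : Measure M)
        = ∫ x, (∑ q, f x q * uu x₀ j (S.φ k) x q) * dens (n := 4) x₀ x := fun k => by
      rw [← int_pair D x₀ j jj jp hV (S.sec k) hCV h0]
      refine integral_congr_ae (Eventually.of_forall fun z => ?_)
      exact Finset.sum_congr rfl fun a _ => mul_comm _ _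
    simp only [h2] at h1
    rw [int_sq x₀ j jj hV hCV h0] at h1
    exact h1

end

end

end Crest.Agent.R249.HK9_714
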