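import Crest.Agent.R249.HK9a_714
import Crest.Agent.R249.HK9e_714

/-!
# Row 249, PART C, leaf HK9 (helper714): heat trace comparison on `M`

`heat_trace_of` : (HK8 = `ChartStmt`) ⟹ for two bundles `D, D'` over the closed 4-manifold `M` with the same rank and
the same trace of the potentials, and spectral data `S, S'`:
`∑ e^{-t μ_k}` converges for `t > 0` and `∑ e^{-t μ_k} - ∑ e^{-t μ'_k} → ∫_M (dn D - dn D')` (`t → 0+`),
`dn D z = (1/32π²) tr (p Q p Q) + (1/192π²) h^{jk} h^{lm} tr (p F_jl p F_km)` in the chart at `z`.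
-/

set_option autoImplicit false
set_option maxSynthPendingDepth 3
set_option linter.unusedSectionVars false
open scoped ContDiff ENNReal NNReal Topology Manifold Bundle
open MeasureTheory Set Filter Metric Bundle
open Crest.GeometryTopology.CoordMetric Crest.GeometryTopology.ChartCurvature
open Crest.Agent.R202.Ell Crest.Agent.R247.Ms322 Crest.Agent.R226.ChartMet842
open Crest.Agent.R247.Dir593 Crest.Agent.R247.Frd657
open Crest.Agent.R249.HK286 (E4 pd)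
open Crest.Agent.R249.Tv57

namespace Crest.Agent.R249.HK9_714

noncomputable section

variable {M : Type*} [MetricSpace M] [ChartedSpace (EuclideanSpace ℝ (Fin 4)) M]
  [IsManifold (𝓡 4) ∞ M]
  [RiemannianBundle (fun p : M => TangentSpace (𝓡 4) p)]
  [IsContMDiffRiemannianBundle (𝓡 4) ∞ (EuclideanSpace ℝ (Fin 4)) (fun p : M => TangentSpace (𝓡 4) p)]
  [IsRiemannianManifold (𝓡 4) M] [MeasurableSpace M] [BorelSpace M]
  [SecondCountableTopology M] [Nonempty M]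

section density
variable {κ : Type} [Fintype κ] (D : Dat 4 M κ)

/-- potential, projection and curvature matrices in the chart at `x₀` -/
def Qc (x₀ : M) (x : E4) : Matrix κ κ ℝ := Matrix.of fun a b => rd x₀ (D.Q a b) x
def Pc (x₀ : M) (x : E4) : Matrix κ κ ℝ := Matrix.of fun a b => rd x₀ (D.p a b) x
def Fc (x₀ : M) (i l : Fin 4) (x : E4) : Matrix κ κ ℝ := Matrix.of fun a b =>
  pd i (cf x₀ l (D.X a b)) x - pd l (cf x₀ i (D.X a b)) x
    + ∑ c, (cf x₀ i (D.X a c) x * cf x₀ l (D.X c b) x - cf x₀ l (D.X a c) x * cf x₀ i (D.X c b) x)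

/-- the density in the chart at `x₀`, at the point `x` of the chart -/
def den (x₀ : M) (x : E4) : ℝ :=
  1 / (32 * Real.pi ^ 2) * Matrix.trace (Qc D x₀ x * Pc D x₀ x * Qc D x₀ x * Pc D x₀ x)
  + 1 / (192 * Real.pi ^ 2) * ∑ j, ∑ k, ∑ l, ∑ m,
      inverseField (chartMetric 4 M x₀) x j k * inverseField (chartMetric 4 M x₀) x l m *
        Matrix.trace (Fc D x₀ j l x * Pc D x₀ x * Fc D x₀ k m x * Pc D x₀ x)

/-- the density at `z` (chart at `z`) -/
def dn (z : M) : ℝ := den D z (chartAt E4 z z)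

/-- the densities `|φ_k|²` -/
def fam (S : Spec D) {c : ℝ} (hc : ∀ k, 0 ≤ S.μ k + c) : Fam (μHE[4] : Measure M) ℕ where
  v k z := ∑ a, S.φ k a z ^ 2
  m k := S.μ k + c
  v_nonneg k z := Finset.sum_nonneg fun a _ => sq_nonneg _
  v_meas k := Finset.measurable_sum _ fun a _ => ((S.smooth k a).continuous.measurable.pow_const 2)
  v_int k := by
    have h := S.ortho k k
    rw [if_pos rfl] at h
    rw [← h]
    refine integral_congr_ae (Eventually.of_forall fun z => ?_)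
    exact Finset.sum_congr rfl fun a _ => sq _
  m_nonneg := hc

theorem trace_QP (x₀ : M) (x : E4) :
    Matrix.trace (Qc D x₀ x * Pc D x₀ x)
      = ∑ a, ∑ b, D.Q a b ((chartAt E4 x₀).symm x) * D.p a b ((chartAt E4 x₀).symm x) := by
  unfold Matrix.trace
  refine Finset.sum_congr rfl fun a _ => ?_
  rw [Matrix.diag_apply, Matrix.mul_apply]
  refine Finset.sum_congr rfl fun b _ => ?_
  rw [D.symmp a b]
  rfl

end density

section
variable {κ : Type} [Fintype κ] (D : Dat 4 M κ) (x₀ : M) {V : Set E4}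
  (hV : V ⊆ (chartAt E4 x₀).target) {r : ℕ} (j : κ → Fin r → E4 → ℝ)
    (smj : ∀ a q, ContDiffOn ℝ ∞ (j a q) V)
    (jj : ∀ x ∈ V, ∀ q q', ∑ a, j a q x * j a q' x = if q = q' then 1 else 0)
    (jp : ∀ x ∈ V, ∀ a b, ∑ q, j a q x * j b q x = rd x₀ (D.p a b) x)

include jj jp in
theorem rank_eq {x : E4} (hx : x ∈ V) : ∑ a, D.p a a ((chartAt E4 x₀).symm x) = r := by
  have h1 : ∀ a, D.p a a ((chartAt E4 x₀).symm x) = ∑ q, j a q x * j a q x := fun a =>
    (jp x hx a a).symm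
  simp only [h1]
  rw [Finset.sum_comm]
  simp only [jj x hx, if_true]
  simp

include jj jp in
theorem sum_uu_sq {φ : κ → M → ℝ} (hφ : D.Sec φ) {z : M} (hz : z ∈ (chartAt E4 x₀).source)
    (hx : chartAt E4 x₀ z ∈ V) :
    ∑ q, uu x₀ j φ (chartAt E4 x₀ z) q ^ 2 = ∑ a, φ a z ^ 2 := by
  have h1 := sum_jj j jj hx (uu x₀ j φ (chartAt E4 x₀ z)) (uu x₀ j φ (chartAt E4 x₀ z))
  have h2 : ∀ q, uu x₀ j φ (chartAt E4 x₀ z) q ^ 2
      = uu x₀ j φ (chartAt E4 x₀ z) q * uu x₀ j φ (chartAt E4 x₀ z) q := fun q => sq _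
  simp only [h2]
  rw [← h1]
  refine Finset.sum_congr rfl fun a _ => ?_
  rw [j_uu D x₀ j jp hφ hx a, rd, (chartAt E4 x₀).left_inv hz, sq]

theorem den_lfr (x : E4) : (lfr D x₀ hV j smj jj jp).den (cmet x₀ hV).h x = den D x₀ x := rfl

theorem tr_lfr (x : E4) : Matrix.trace ((lfr D x₀ hV j smj jj jp).Qm x
    * (lfr D x₀ hV j smj jj jp).Pm x) = Matrix.trace (Qc D x₀ x * Pc D x₀ x) := rfl

end

/-- local statement at a point `z` -/
theorem local_aux (HK8 : ChartStmt) [CompactSpace M] {κ κ' : Type} [Fintype κ] [Fintype κ']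
    (D : Dat 4 M κ) (D' : Dat 4 M κ') (S : Spec D) (S' : Spec D')
    (hr : ∀ z, ∑ a, D.p a a z = ∑ a, D'.p a a z)
    (hq : ∀ z, ∑ a, ∑ b, D.Q a b z * D.p a b z = ∑ a, ∑ b, D'.Q a b z * D'.p a b z)
    {c : ℝ} (hc : ∀ k, 0 ≤ S.μ k + c) (hc' : ∀ k, 0 ≤ S'.μ k + c) (x₀ : M) {z : M}
    (hz : z ∈ (chartAt E4 x₀).source) :
    (∃ U ∈ 𝓝 z, ∃ C, (fam D S hc).BOn U C ∧ (fam D' S' hc').BOn U C ∧
      DOn (fam D S hc) (fam D' S' hc') U C) ∧
    Tendsto (fun t => (fam D S hc).diag t z - (fam D' S' hc').diag t z) (𝓝[>] 0)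
      (𝓝 (den D x₀ (chartAt E4 x₀ z) - den D' x₀ (chartAt E4 x₀ z))) := by
  set y₀ : E4 := chartAt E4 x₀ z with hy₀
  have hy : y₀ ∈ (chartAt E4 x₀).target := (chartAt E4 x₀).map_source hz
  obtain ⟨V1, r1, j1, hV1o, hy1, hV1, smj1, jj1, jp1⟩ := exists_frame D x₀ hy
  obtain ⟨V2, r2, j2, hV2o, hy2, hV2, smj2, jj2, jp2⟩ := exists_frame D' x₀ hy
  set V : Set E4 := V1 ∩ V2 with hVd
  have hVo : IsOpen V := hV1o.inter hV2o
  have hyV : y₀ ∈ V := ⟨hy1, hy2⟩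
  have hV : V ⊆ (chartAt E4 x₀).target := inter_subset_left.trans hV1
  have smj1' : ∀ a q, ContDiffOn ℝ ∞ (j1 a q) V := fun a q => (smj1 a q).mono inter_subset_left
  have smj2' : ∀ a q, ContDiffOn ℝ ∞ (j2 a q) V := fun a q => (smj2 a q).mono inter_subset_right
  have jj1' : ∀ x ∈ V, ∀ q q', ∑ a, j1 a q x * j1 a q' x = if q = q' then 1 else 0 :=
    fun x hx => jj1 x hx.1
  have jj2' : ∀ x ∈ V, ∀ q q', ∑ a, j2 a q x * j2 a q' x = if q = q' then 1 else 0 :=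
    fun x hx => jj2 x hx.2
  have jp1' : ∀ x ∈ V, ∀ a b, ∑ q, j1 a q x * j1 b q x = rd x₀ (D.p a b) x := fun x hx => jp1 x hx.1
  have jp2' : ∀ x ∈ V, ∀ a b, ∑ q, j2 a q x * j2 b q x = rd x₀ (D'.p a b) x := fun x hx => jp2 x hx.2
  have hrr : r1 = r2 := by
    have h1 := rank_eq D x₀ j1 jj1' jp1' hyV
    have h2 := rank_eq D' x₀ j2 jj2' jp2' hyV
    rw [hr, h2] at h1
    exact_mod_cast h1.symm
  have hcard : Fintype.card (Fin r1) = Fintype.card (Fin r2) := by rw [hrr]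
  set L1 := lfr D x₀ hV j1 smj1' jj1' jp1' with hL1
  set L2 := lfr D' x₀ hV j2 smj2' jj2' jp2' with hL2
  have htrP : ∀ x ∈ V, ∑ p, (L1.con hVo c).P p p x = ∑ p, (L2.con hVo c).P p p x := by
    intro x hx
    have h1 : ∑ p, (L1.con hVo c).P p p x = _ := L1.sum_P hx c
    have h2 : ∑ p, (L2.con hVo c).P p p x = _ := L2.sum_P hx c
    rw [h1, h2, hcard]
    congr 1
    show Matrix.trace (Qc D x₀ x * Pc D x₀ x) = Matrix.trace (Qc D' x₀ x * Pc D' x₀ x)
    rw [trace_QP, trace_QP, hq]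
  obtain ⟨hA, hB⟩ := HK8 V hVo (cmet x₀ hV) (Fin r1) (Fin r2) (L1.con hVo c) (L2.con hVo c) ℕ ℕ
    hcard htrP (sys D x₀ hV j1 smj1' jj1' jp1' hVo S hc) (sys D' x₀ hV j2 smj2' jj2' jp2' hVo S' hc')
  -- identification of the diagonals
  have hv1 : ∀ z' ∈ (chartAt E4 x₀).source, chartAt E4 x₀ z' ∈ V → ∀ k,
      ∑ q, uu x₀ j1 (S.φ k) (chartAt E4 x₀ z') q ^ 2 = (fam D S hc).v k z' := fun z' hz' hx k =>
    sum_uu_sq D x₀ j1 jj1' jp1' (S.sec k) hz' hx
  have hv2 : ∀ z' ∈ (chartAt E4 x₀).source, chartAt E4 x₀ z' ∈ V → ∀ k,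
      ∑ q, uu x₀ j2 (S'.φ k) (chartAt E4 x₀ z') q ^ 2 = (fam D' S' hc').v k z' := fun z' hz' hx k =>
    sum_uu_sq D' x₀ j2 jj2' jp2' (S'.sec k) hz' hx
  have hd1 : ∀ z' ∈ (chartAt E4 x₀).source, chartAt E4 x₀ z' ∈ V → ∀ t,
      (sys D x₀ hV j1 smj1' jj1' jp1' hVo S hc).diag t (chartAt E4 x₀ z')
        = (fam D S hc).diag t z' := fun z' hz' hx t => by
    unfold CSys.diag Fam.diag
    refine tsum_congr fun k => ?_
    rw [← hv1 z' hz' hx k]
    rfl
  have hd2 : ∀ z' ∈ (chartAt E4 x₀).source, chartAt E4 x₀ z' ∈ V → ∀ t,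
      (sys D' x₀ hV j2 smj2' jj2' jp2' hVo S' hc').diag t (chartAt E4 x₀ z')
        = (fam D' S' hc').diag t z' := fun z' hz' hx t => by
    unfold CSys.diag Fam.diag
    refine tsum_congr fun k => ?_
    rw [← hv2 z' hz' hx k]
    rfl
  constructor
  · obtain ⟨ε, hε, hεV⟩ := nhds_basis_closedBall.mem_iff.1 (hVo.mem_nhds hyV)
    obtain ⟨B, hB'⟩ := hA (closedBall y₀ ε) (isCompact_closedBall y₀ ε) hεV
    refine ⟨(chartAt E4 x₀).source ∩ (chartAt E4 x₀) ⁻¹' closedBall y₀ ε, ?_, B, ?_, ?_, ?_⟩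
    · exact inter_mem ((chartAt E4 x₀).open_source.mem_nhds hz)
        (((chartAt E4 x₀).continuousAt hz).preimage_mem_nhds (closedBall_mem_nhds _ hε))
    · rintro z' ⟨hz', hx⟩ t ht
      obtain ⟨h1, -, h3, -, -⟩ := hB' _ hx t ht
      rw [hd1 z' hz' (hεV hx) t] at h3
      refine ⟨h1.congr fun k => ?_, h3⟩
      rw [← hv1 z' hz' (hεV hx) k]
      rfl
    · rintro z' ⟨hz', hx⟩ t ht
      obtain ⟨-, h2, -, h4, -⟩ := hB' _ hx t ht
      rw [hd2 z' hz' (hεV hx) t] at h4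
      refine ⟨h2.congr fun k => ?_, h4⟩
      rw [← hv2 z' hz' (hεV hx) k]
      rfl
    · rintro z' ⟨hz', hx⟩ t ht
      obtain ⟨-, -, -, -, h5⟩ := hB' _ hx t ht
      rwa [hd1 z' hz' (hεV hx) t, hd2 z' hz' (hεV hx) t] at h5
  · have h1 := hB y₀ hyV
    rw [L1.dens_con hVo hyV, L2.dens_con hVo hyV] at h1
    have h2 : Matrix.trace (L1.Qm y₀ * L1.Pm y₀) = Matrix.trace (L2.Qm y₀ * L2.Pm y₀) := by
      show Matrix.trace (Qc D x₀ y₀ * Pc D x₀ y₀) = Matrix.trace (Qc D' x₀ y₀ * Pc D' x₀ y₀)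
      rw [trace_QP, trace_QP, hq]
    rw [h2, hcard, add_sub_add_right_eq_sub] at h1
    refine h1.congr fun t => ?_
    rw [hd1 z hz hyV t, hd2 z hz hyV t]

/-- **heat trace comparison** (from HK8) -/
theorem heat_trace_of (HK8 : ChartStmt) [CompactSpace M] {κ κ' : Type} [Fintype κ] [Fintype κ']
    (D : Dat 4 M κ) (D' : Dat 4 M κ') (S : Spec D) (S' : Spec D')
    (hr : ∀ z, ∑ a, D.p a a z = ∑ a, D'.p a a z)
    (hq : ∀ z, ∑ a, ∑ b, D.Q a b z * D.p a b z = ∑ a, ∑ b, D'.Q a b z * D'.p a b z) :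
    (∀ t : ℝ, 0 < t → Summable fun k => Real.exp (-(t * S.μ k))) ∧
    (∀ t : ℝ, 0 < t → Summable fun k => Real.exp (-(t * S'.μ k))) ∧
    Integrable (fun z => dn D z - dn D' z) (μHE[4] : Measure M) ∧
    Tendsto (fun t => ∑' k, Real.exp (-(t * S.μ k)) - ∑' k, Real.exp (-(t * S'.μ k)))
      (𝓝[>] 0) (𝓝 (∫ z, (dn D z - dn D' z) ∂(μHE[4] : Measure M))) := by
  have : IsLocallyFiniteMeasure (μHE[4] : Measure M) := isLocallyFiniteMeasure 4 M
  have : IsFiniteMeasure (μHE[4] : Measure M) := CompactSpace.isFiniteMeasure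
  set c : ℝ := max 0 (max (-S.μ 0) (-S'.μ 0)) with hcd
  have hc : ∀ k, 0 ≤ S.μ k + c := fun k => by
    have h1 := S.mono (Nat.zero_le k)
    have h2 : -S.μ 0 ≤ c := (le_max_left _ _).trans (le_max_right _ _)
    linarith
  have hc' : ∀ k, 0 ≤ S'.μ k + c := fun k => by
    have h1 := S'.mono (Nat.zero_le k)
    have h2 : -S'.μ 0 ≤ c := (le_max_right _ _).trans (le_max_right _ _)
    linarith
  obtain ⟨h1, h2, h3, h4⟩ := trace_limit (fam D S hc) (fam D' S' hc')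
    (d := fun z => dn D z - dn D' z)
    (fun z => (local_aux HK8 D D' S S' hr hq hc hc' z (mem_chart_source E4 z)).1)
    (fun z => (local_aux HK8 D D' S S' hr hq hc hc' z (mem_chart_source E4 z)).2)
  have e1 : ∀ t k, Real.exp (-(t * S.μ k)) = Real.exp (t * c) * Real.exp (-(t * (S.μ k + c))) :=
    fun t k => by rw [← Real.exp_add]; congr 1; ring
  have e2 : ∀ t k, Real.exp (-(t * S'.μ k)) = Real.exp (t * c) * Real.exp (-(t * (S'.μ k + c))) :=
    fun t k => by rw [← Real.exp_add]; congr 1; ring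
  refine ⟨fun t ht => ?_, fun t ht => ?_, h3, ?_⟩
  · simp only [e1]
    exact (h1 t ht).mul_left _
  · simp only [e2]
    exact (h2 t ht).mul_left _
  · have h5 : Tendsto (fun t : ℝ => Real.exp (t * c)) (𝓝[>] 0) (𝓝 1) := by
      have : Tendsto (fun t : ℝ => Real.exp (t * c)) (𝓝 0) (𝓝 (Real.exp (0 * c))) :=
        (Real.continuous_exp.comp (continuous_id.mul continuous_const)).tendsto 0
      rw [zero_mul, Real.exp_zero] at this
      exact this.mono_left nhdsWithin_le_nhds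
    have h6 := h5.mul h4
    rw [one_mul] at h6
    refine h6.congr fun t => ?_
    simp only [e1, e2, tsum_mul_left]
    rw [mul_sub]
    rfl

end

end Crest.Agent.R249.HK9_714
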