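import Crest.Agent.R249.DenF_714
import Crest.Agent.R249.HK9f_714

/-!
# Row 249, PART C, [DENS] (helper714): the density of `heat_trace_of` in local orthonormal frames

`dn_eq` : `dn D z = (1/32π²) ev (tr PG²) + (1/192π²) ev (tO h.frameOf (aF))`, for any local frame `j` of `D.p` and any
orthonormal frame `h : ONF (chartMetric 4 M z) U (chartAt z z) e` (both near `z`, in the chart at `z`).
`dif_eq`: the same for the difference of two bundles, in ANY chart `x₀` around `z` (limit of the diagonals).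
-/

set_option autoImplicit false
set_option maxSynthPendingDepth 3
set_option linter.unusedSectionVars false
open scoped ContDiff ENNReal NNReal Topology Manifold Bundle
open MeasureTheory Set Filter Metric Bundle
open Crest.GeometryTopology.CoordMetric Crest.GeometryTopology.ChartCurvature
open Crest.Agent.R202.Ell Crest.Agent.R247.Ms322 Crest.Agent.R226.ChartMet842
open Crest.Agent.R247.Dir593 Crest.Agent.R247.Frd657
open Crest.Agent.R249.HK286 (E4)
open Crest.Agent.R249.Tv57 Crest.Agent.R249.Sg129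

namespace Crest.Agent.R249.HK9_714

noncomputable section

variable {M : Type*} [MetricSpace M] [ChartedSpace (EuclideanSpace ℝ (Fin 4)) M]
  [IsManifold (𝓡 4) ∞ M]
  [RiemannianBundle (fun p : M => TangentSpace (𝓡 4) p)]
  [IsContMDiffRiemannianBundle (𝓡 4) ∞ (EuclideanSpace ℝ (Fin 4)) (fun p : M => TangentSpace (𝓡 4) p)]
  [IsRiemannianManifold (𝓡 4) M] [MeasurableSpace M] [BorelSpace M]
  [SecondCountableTopology M] [Nonempty M]

variable {κ : Type} [Fintype κ] (D : Dat 4 M κ)

/-- the density in the chart at `x₀`, at `x ∈ V`, in frames -/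
theorem den_frame (x₀ : M) {V : Set E4} (hVo : IsOpen V) (hV : V ⊆ (chartAt E4 x₀).target) {r : ℕ}
    (j : κ → Fin r → E4 → ℝ) (smj : ∀ a q, ContDiffOn ℝ ∞ (j a q) V)
    (jj : ∀ x ∈ V, ∀ q q', ∑ a, j a q x * j a q' x = if q = q' then 1 else 0)
    (jp : ∀ x ∈ V, ∀ a b, ∑ q, j a q x * j b q x = rd x₀ (D.p a b) x)
    {x : E4} (hx : x ∈ V) {U : Set E4} {e : Fin 4 → E4 → E4}
    (h : ONF (chartMetric 4 M x₀) U x e) :
    den D x₀ x = 1 / (32 * Real.pi ^ 2)
        * ev (((lfr D x₀ hV j smj jj jp).PG hVo hx * (lfr D x₀ hV j smj jj jp).PG hVo hx).trace)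
      + 1 / (192 * Real.pi ^ 2)
        * ev (C2_198.tO h.frameOf ((lfr D x₀ hV j smj jj jp).aF hVo hx h)) :=
  (lfr D x₀ hV j smj jj jp).den_eq' hVo hx h

/-- the density at `z` in frames -/
theorem dn_eq (z : M) {V : Set E4} (hVo : IsOpen V) (hV : V ⊆ (chartAt E4 z).target) {r : ℕ}
    (j : κ → Fin r → E4 → ℝ) (smj : ∀ a q, ContDiffOn ℝ ∞ (j a q) V)
    (jj : ∀ x ∈ V, ∀ q q', ∑ a, j a q x * j a q' x = if q = q' then 1 else 0)
    (jp : ∀ x ∈ V, ∀ a b, ∑ q, j a q x * j b q x = rd z (D.p a b) x)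
    (hx : chartAt E4 z z ∈ V) {U : Set E4} {e : Fin 4 → E4 → E4}
    (h : ONF (chartMetric 4 M z) U (chartAt E4 z z) e) :
    dn D z = 1 / (32 * Real.pi ^ 2)
        * ev (((lfr D z hV j smj jj jp).PG hVo hx * (lfr D z hV j smj jj jp).PG hVo hx).trace)
      + 1 / (192 * Real.pi ^ 2)
        * ev (C2_198.tO h.frameOf ((lfr D z hV j smj jj jp).aF hVo hx h)) :=
  den_frame D z hVo hV j smj jj jp hx h

end

end Crest.Agent.R249.HK9_714
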