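import Crest.Agent.R247.Prt6_657
import Crest.Agent.R247.Ms12_322

/-!
# R249 (C-TV), part 0: DEFINITIONS (helper57)

Sections of a bundle `E` over `M` = functions `u : κ → M → ℝ` (smooth) with `p u = u`, where `p` is a smooth
symmetric idempotent matrix; `D = d + X` a metric connection (`X` a skew matrix of smooth vector fields, written
in the measurable orthonormal frame of `Ms322`), for which `p` is parallel; `Q` a smooth symmetric matrix.

* `SmF X`      : the frame field `X : M → 𝔼` is smooth (its coordinates `⟪∂_i, X⟫` are, in every chart);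
* `Dat n M κ`  : the data `(X, Q, p)`;
* `Dat.cv u a` : `(D u)_a = ∇ u_a + ∑_b u_b X_ab`;
* `Dat.ed u v` : `∑_a ⟪(Du)_a, (Dv)_a⟫ + ∑_ab Q_ab u_b v_a` (density of the quadratic form);
* `Dat.Sec u`  : `p u = u`;
* `Spec D`     : the spectral data of `D* D + Q` on `L²(E)`: smooth orthonormal eigensections, weak
                 eigen-equation against all smooth functions, Parseval.
-/

set_option autoImplicit false
set_option maxSynthPendingDepth 3
set_option linter.unusedSectionVars false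
open scoped ContDiff ENNReal NNReal Topology Manifold Bundle RealInnerProductSpace
open MeasureTheory Set Filter Metric Bundle
open Crest.Agent.R247.Ms322 Crest.Agent.R247.Dir593 Crest.Agent.R247.Frd657

namespace Crest.Agent.R249.Tv57

noncomputable section

variable {n : ℕ} {M : Type*} [MetricSpace M] [ChartedSpace (EuclideanSpace ℝ (Fin n)) M]
  [IsManifold (𝓡 n) ∞ M]
  [RiemannianBundle (fun p : M => TangentSpace (𝓡 n) p)]
  [IsContMDiffRiemannianBundle (𝓡 n) ∞ (EuclideanSpace ℝ (Fin n)) (fun p : M => TangentSpace (𝓡 n) p)]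
  [IsRiemannianManifold (𝓡 n) M] [MeasurableSpace M] [BorelSpace M]
  [SecondCountableTopology M] [Nonempty M]

local notation "𝔼" => EuclideanSpace ℝ (Fin n)

/-- smooth frame field -/
def SmF (X : M → EuclideanSpace ℝ (Fin n)) : Prop :=
  ∀ (x₀ : M) (i : Fin n), ContDiffOn ℝ ∞ (cf x₀ i X) (chartAt (EuclideanSpace ℝ (Fin n)) x₀).target

variable (n M) in
/-- a trivialised bundle with metric connection and potential -/
structure Dat (κ : Type) [Fintype κ] where
  /-- the connection form `ω_ab`, as a frame field -/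
  X : κ → κ → M → EuclideanSpace ℝ (Fin n)
  /-- the potential -/
  Q : κ → κ → M → ℝ
  /-- the projection onto the bundle -/
  p : κ → κ → M → ℝ
  smX : ∀ a b, SmF (X a b)
  skew : ∀ a b z, X a b z = - X b a z
  smQ : ∀ a b, ContMDiff (𝓡 n) 𝓘(ℝ, ℝ) ∞ (Q a b)
  symmQ : ∀ a b z, Q a b z = Q b a z
  smp : ∀ a b, ContMDiff (𝓡 n) 𝓘(ℝ, ℝ) ∞ (p a b)
  symmp : ∀ a b z, p a b z = p b a z
  idem : ∀ a b z, ∑ c, p a c z * p c b z = p a b z
  /-- `dp + [ω, p] = 0` -/
  par : ∀ a b z, Gr (n := n) (p a b) z + ∑ c, (p c b z • X a c z - p a c z • X c b z) = 0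
  /-- `[Q, p] = 0` -/
  comm : ∀ a b z, ∑ c, Q a c z * p c b z = ∑ c, p a c z * Q c b z

namespace Dat

variable {κ : Type} [Fintype κ] (D : Dat n M κ)

/-- the covariant derivative `(D u)_a = ∇ u_a + ∑_b u_b X_ab` -/
def cv (u : κ → M → ℝ) (a : κ) (z : M) : EuclideanSpace ℝ (Fin n) :=
  Gr (n := n) (u a) z + ∑ b, u b z • D.X a b z

/-- the density of the quadratic form -/
def ed (u v : κ → M → ℝ) (z : M) : ℝ :=
  ∑ a, ⟪D.cv u a z, D.cv v a z⟫ + ∑ a, ∑ b, D.Q a b z * u b z * v a z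

/-- sections of `E` -/
def Sec (u : κ → M → ℝ) : Prop := ∀ a z, ∑ b, D.p a b z * u b z = u a z

end Dat

/-- smooth functions -/
def SmV {κ : Type} (u : κ → M → ℝ) : Prop := ∀ a, ContMDiff (𝓡 n) 𝓘(ℝ, ℝ) ∞ (u a)

/-- the spectral data of `D* D + Q` on `L²(E)` -/
structure Spec {κ : Type} [Fintype κ] (D : Dat n M κ) where
  φ : ℕ → κ → M → ℝ
  μ : ℕ → ℝ
  smooth : ∀ k a, ContMDiff (𝓡 n) 𝓘(ℝ, ℝ) ∞ (φ k a)
  sec : ∀ k, D.Sec (φ k)
  mono : Monotone μ
  lim : Tendsto μ atTop atTop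
  ortho : ∀ k l, ∫ z, ∑ a, φ k a z * φ l a z ∂(μHE[n] : Measure M) = if k = l then 1 else 0
  eig : ∀ k (v : κ → M → ℝ), (∀ a, ContMDiff (𝓡 n) 𝓘(ℝ, ℝ) ∞ (v a)) →
    ∫ z, D.ed (φ k) v z ∂(μHE[n] : Measure M) = μ k * ∫ z, ∑ a, φ k a z * v a z ∂(μHE[n] : Measure M)
  pars : ∀ f : κ → M → ℝ, (∀ a, MemLp (f a) 2 (μHE[n] : Measure M)) →
    (∀ᵐ z ∂(μHE[n] : Measure M), ∀ a, ∑ b, D.p a b z * f b z = f a z) →
    HasSum (fun k => (∫ z, ∑ a, f a z * φ k a z ∂(μHE[n] : Measure M)) ^ 2)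
      (∫ z, ∑ a, f a z ^ 2 ∂(μHE[n] : Measure M))

end

end Crest.Agent.R249.Tv57
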