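import Crest.Agent.R249.Tz0_805
import Crest.Agent.R249.Tv0_57

/-!
Row 249, leaf T0 (helper805): interface with 57's `Dat`.

* `ToF n M`   : (352) the isometries `T_z M → 𝔼` of the measurable frame of `Gr`;
* `Bun.dat`   : the `Dat` of a `Bun` and a potential;
* `DPair D0 D1` : a pair of adjoint operators with the weak Weitzenboeck identities (input of
                  McKean-Singer);
* `WeakStmt`  : (198) every `CPair` gives a `DPair`.
-/

set_option autoImplicit false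
set_option maxSynthPendingDepth 3
set_option linter.unusedSectionVars false

open Filter Topology Set Bundle Manifold Matrix MeasureTheory
open scoped ContDiff ENNReal NNReal
open Crest.GeometryTopology.CoordMetric Crest.GeometryTopology.ChartCurvature
  Crest.GeometryTopology.PointedLimit
open Crest.Agent.R202.Tens Crest.Agent.R247.Bo84 Crest.Agent.R249.FrmB_285 Crest.Agent.R249.Vf281
  Crest.Agent.R249.Tz1_805 Crest.Agent.R249.Tz2_805
open Crest.Agent.R249.Fr129 Crest.Agent.R249.Sg129 Crest.Agent.R249.C2_198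
open Crest.Agent.R247.Ms322 Crest.Agent.R247.Dir593 Crest.Agent.R247.Frd657
open Crest.Agent.R249.Tv57

noncomputable section

namespace Crest.Agent.R249.Tz805

variable {n : ℕ} {M : Type*} [MetricSpace M] [ChartedSpace (EuclideanSpace ℝ (Fin n)) M]
  [IsManifold (𝓡 n) ∞ M]
  [RiemannianBundle (fun p : M => TangentSpace (𝓡 n) p)]
  [IsContMDiffRiemannianBundle (𝓡 n) ∞ (EuclideanSpace ℝ (Fin n)) (fun p : M => TangentSpace (𝓡 n) p)]
  [IsRiemannianManifold (𝓡 n) M] [MeasurableSpace M] [BorelSpace M]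
  [SecondCountableTopology M] [Nonempty M]

local notation "𝔼" => EuclideanSpace ℝ (Fin n)

variable (n M) in
/-- the isometries of the measurable frame -/
structure ToF where
  toF : (z : M) → TangentSpace (𝓡 n) z →ₗ[ℝ] EuclideanSpace ℝ (Fin n)
  inner_toF : ∀ z v w, inner ℝ (toF z v) (toF z w) = inner ℝ v w
  grad : ∀ (f : M → ℝ) (z : M), ContMDiff (𝓡 n) 𝓘(ℝ, ℝ) ∞ f → toF z (mgrad n f z) = Gr (n := n) f z
  smooth : ∀ W : (z : M) → TangentSpace (𝓡 n) z, (∀ z, VSm n ∞ W z) → SmF fun z => toF z (W z)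

/-- the `Dat` of a `Bun` with a potential -/
def Bun.dat (T : ToF n M) {κ : Type} [Fintype κ] (D : Bun n M κ) (Q : κ → κ → M → ℝ)
    (smQ : ∀ a b, ContMDiff (𝓡 n) 𝓘(ℝ, ℝ) ∞ (Q a b)) (symmQ : ∀ a b z, Q a b z = Q b a z)
    (comm : ∀ a b z, ∑ c, Q a c z * D.p c b z = ∑ c, D.p a c z * Q c b z) : Dat n M κ where
  X a b z := T.toF z (D.W a b z)
  Q := Q
  p := D.p
  smX a b := T.smooth _ (D.smW a b)
  skew a b z := by rw [D.skew a b z]; exact map_neg _ _
  smQ := smQ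
  symmQ := symmQ
  smp := D.smp
  symmp := D.symmp
  idem := D.idem
  par a b z := by
    have h := congrArg (T.toF z) (D.par a b z)
    rw [map_add, map_sum, T.grad _ _ (D.smp a b)] at h
    simp only [map_sub, map_smul, map_zero] at h
    exact h
  comm := comm

lemma Bun.cv_dat (T : ToF n M) {κ : Type} [Fintype κ] (D : Bun n M κ) (Q : κ → κ → M → ℝ)
    (smQ : ∀ a b, ContMDiff (𝓡 n) 𝓘(ℝ, ℝ) ∞ (Q a b)) (symmQ : ∀ a b z, Q a b z = Q b a z)
    (comm : ∀ a b z, ∑ c, Q a c z * D.p c b z = ∑ c, D.p a c z * Q c b z)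
    {u : κ → M → ℝ} (hu : ∀ a, ContMDiff (𝓡 n) 𝓘(ℝ, ℝ) ∞ (u a)) (a : κ) (z : M) :
    (D.dat T Q smQ symmQ comm).cv u a z = T.toF z (D.cv u a z) := by
  rw [Bun.cv, map_add, map_sum, T.grad _ _ (hu a)]
  simp only [map_smul]
  rfl

/-- A pair of adjoint first order operators with the weak Weitzenboeck identities. -/
structure DPair {κ0 κ1 : Type} [Fintype κ0] [Fintype κ1] (D0 : Dat n M κ0) (D1 : Dat n M κ1) where
  A : (κ0 → M → ℝ) → κ1 → M → ℝ
  B : (κ1 → M → ℝ) → κ0 → M → ℝ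
  smA : ∀ u, SmV (n := n) u → SmV (n := n) (A u)
  smB : ∀ w, SmV (n := n) w → SmV (n := n) (B w)
  secA : ∀ u, SmV (n := n) u → D0.Sec u → D1.Sec (A u)
  secB : ∀ w, SmV (n := n) w → D1.Sec w → D0.Sec (B w)
  linA : ∀ (a b : ℝ) u v, SmV (n := n) u → SmV (n := n) v →
    A (fun x z => a * u x z + b * v x z) = fun x z => a * A u x z + b * A v x z
  linB : ∀ (a b : ℝ) u v, SmV (n := n) u → SmV (n := n) v →
    B (fun x z => a * u x z + b * v x z) = fun x z => a * B u x z + b * B v x z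
  adj : ∀ u w, SmV (n := n) u → SmV (n := n) w → D0.Sec u → D1.Sec w →
    ∫ z, ∑ x, A u x z * w x z ∂(μHE[n] : Measure M) = ∫ z, ∑ y, u y z * B w y z ∂(μHE[n] : Measure M)
  w0 : ∀ u v, SmV (n := n) u → SmV (n := n) v → D0.Sec u → D0.Sec v →
    ∫ z, ∑ x, A u x z * A v x z ∂(μHE[n] : Measure M) = ∫ z, D0.ed u v z ∂(μHE[n] : Measure M)
  w1 : ∀ u v, SmV (n := n) u → SmV (n := n) v → D1.Sec u → D1.Sec v →
    ∫ z, ∑ x, B u x z * B v x z ∂(μHE[n] : Measure M) = ∫ z, D1.ed u v z ∂(μHE[n] : Measure M)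

/-- **leaf WEAK (198)**: every Clifford pair on a closed manifold gives a `DPair`, with
`A = opA`, `B = opB`, `Q0 = potQ`, `Q1 = potQ` of the transposed symbol. -/
def WeakStmt (n : ℕ) (M : Type*) [MetricSpace M] [ChartedSpace (EuclideanSpace ℝ (Fin n)) M]
  [IsManifold (𝓡 n) ∞ M]
  [RiemannianBundle (fun p : M => TangentSpace (𝓡 n) p)]
  [IsContMDiffRiemannianBundle (𝓡 n) ∞ (EuclideanSpace ℝ (Fin n)) (fun p : M => TangentSpace (𝓡 n) p)]
  [IsRiemannianManifold (𝓡 n) M] [MeasurableSpace M] [BorelSpace M]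
  [SecondCountableTopology M] [Nonempty M] : Prop :=
  ∀ (T : ToF n M) (κ κ0 κ1 : Type) [Fintype κ] [Fintype κ0] [Fintype κ1] (P : CPair n M κ κ0 κ1),
    ∃ D0 : Dat n M κ0, ∃ D1 : Dat n M κ1, ∃ R : DPair D0 D1,
      (∀ a b z, D0.X a b z = T.toF z (P.D0.W a b z)) ∧ D0.p = P.D0.p ∧ D0.Q = potQ P.s P.D0 P.cc ∧
      (∀ a b z, D1.X a b z = T.toF z (P.D1.W a b z)) ∧ D1.p = P.D1.p ∧
      D1.Q = potQ P.s P.D1 (fun y x => P.cc x y) ∧
      R.A = opA P.D0 P.cc ∧ R.B = opB P.D1 P.cc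

end Crest.Agent.R249.Tz805
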