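import Crest.Agent.R249.DenR_714
import Crest.Agent.R249.TzM_805
import Crest.Agent.R249.HK9f_714

/-!
# Row 249, PART C, [DENS] (helper714): the density of a `Bun` with potential in the germ frames of 805

`inner_Gr_toF`, `cf_toF` : chart components of `toF W` (any `n`);
`dn_germ` : for `D : Bun 4 M κ`, `Dd : Dat 4 M κ` with `Dd.X = toF W`, `Dd.p = D.p`, a local frame `LF D h a j` at `z`
(Tz0_805) and `fg Q = j q jᵀ` :  `dn Dd z = (1/32π²) ev (tr q²) + (1/192π²) ev (tO h.frameOf a)`.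
-/

set_option autoImplicit false
set_option maxSynthPendingDepth 3
set_option linter.unusedSectionVars false

open Filter Topology Set Bundle Manifold Matrix MeasureTheory
open scoped ContDiff ENNReal NNReal
open Crest.GeometryTopology.CoordMetric Crest.GeometryTopology.ChartCurvature
  Crest.GeometryTopology.PointedLimit
open Crest.Agent.R202.Tens Crest.Agent.R202.Ell Crest.Agent.R247.Bo84 Crest.Agent.R249.Vf281
open Crest.Agent.R249.Fr129 Crest.Agent.R249.Sg129
open Crest.Agent.R247.Ms322 Crest.Agent.R247.Dir593 Crest.Agent.R247.Frd657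
open Crest.Agent.R249.Tv57 Crest.Agent.R249.Tz805
open Crest.Agent.R249.HK286 (E4)

noncomputable section

namespace Crest.Agent.R249.HK9_714

section general

variable {n : ℕ} {M : Type*} [MetricSpace M] [ChartedSpace (EuclideanSpace ℝ (Fin n)) M]
  [IsManifold (𝓡 n) ∞ M]
  [RiemannianBundle (fun p : M => TangentSpace (𝓡 n) p)]
  [IsContMDiffRiemannianBundle (𝓡 n) ∞ (EuclideanSpace ℝ (Fin n)) (fun p : M => TangentSpace (𝓡 n) p)]

local notation "𝔼" => EuclideanSpace ℝ (Fin n)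

/-- a global smooth function which is the `k`-th coordinate near `b` -/
theorem exists_coord (x₀ : M) {b : 𝔼} (hb : b ∈ (chartAt 𝔼 x₀).target) (k : Fin n) :
    ∃ f : M → ℝ, ContMDiff (𝓡 n) 𝓘(ℝ, ℝ) ∞ f ∧
      (fun y => f ((chartAt 𝔼 x₀).symm y)) =ᶠ[𝓝 b] fun y => y k := by
  obtain ⟨r, hr, hrt⟩ := Metric.nhds_basis_closedBall.mem_iff.1 ((chartAt 𝔼 x₀).open_target.mem_nhds hb)
  let χ : ContDiffBump b := ⟨r / 2, r, half_pos hr, half_lt_self hr⟩
  set P : 𝔼 → ℝ := fun y => χ y * y k with hP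
  have hs : tsupport P ⊆ Metric.closedBall b r := by
    refine (tsupport_mul_subset_left (f := fun y => χ y) (g := fun y => y k)).trans ?_
    rw [χ.tsupport_eq]
  have hT : IsTest P := by
    refine ⟨χ.contDiff.mul ?_, (isCompact_closedBall b r).of_isClosed_subset (isClosed_tsupport _) hs⟩
    exact (EuclideanSpace.proj k : 𝔼 →L[ℝ] ℝ).contDiff
  refine ⟨pb x₀ P, pb_smooth x₀ hT (hs.trans hrt), ?_⟩
  have h1 : (fun y => χ y) =ᶠ[𝓝 b] 1 := χ.eventuallyEq_one
  filter_upwards [h1, (chartAt 𝔼 x₀).open_target.mem_nhds hb] with y hy hyt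
  rw [pb_symm x₀ P hyt, hP]
  simp only [hy]
  simp

variable [IsRiemannianManifold (𝓡 n) M] [MeasurableSpace M] [BorelSpace M]
  [SecondCountableTopology M] [Nonempty M]

theorem inner_Gr_toF (T : ToF n M) (x₀ : M) {b : 𝔼} (hb : b ∈ (chartAt 𝔼 x₀).target)
    (W : (z : M) → TangentSpace (𝓡 n) z) (k : Fin n) :
    inner ℝ (Gr (n := n) (cdf x₀ k) ((chartAt 𝔼 x₀).symm b))
      (T.toF ((chartAt 𝔼 x₀).symm b) (W ((chartAt 𝔼 x₀).symm b))) = vCh n x₀ W b k := by
  obtain ⟨f, hf, hfe⟩ := exists_coord x₀ hb k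
  set z := (chartAt 𝔼 x₀).symm b with hz
  have hzs : z ∈ (chartAt 𝔼 x₀).source := (chartAt 𝔼 x₀).map_target hb
  have hcz : chartAt 𝔼 x₀ z = b := (chartAt 𝔼 x₀).right_inv hb
  have h1 : cdf x₀ k =ᶠ[𝓝 z] f := by
    have hc : ContinuousAt (chartAt 𝔼 x₀) z := (chartAt 𝔼 x₀).continuousAt hzs
    rw [ContinuousAt, hcz] at hc
    filter_upwards [hc.eventually hfe, (chartAt 𝔼 x₀).open_source.mem_nhds hzs] with w hw hws
    rw [(chartAt 𝔼 x₀).left_inv hws] at hw
    rw [cdf, hw]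
  rw [Crest.Agent.R247.Ms322.Gr_congr h1, ← T.grad f z hf, T.inner_toF]
  have h2 : inner ℝ (mgrad n f z) (W z)
      = bil (chartMetric n M x₀ (chartAt 𝔼 x₀ z)) (dCh x₀ z (mgrad n f z)) (dCh x₀ z (W z)) :=
    inner_eq_bil x₀ hzs _ _
  rw [h2, hcz]
  have h3 : dCh x₀ z (mgrad n f z) = grad (chartMetric n M x₀) (inCh n x₀ f) b :=
    vCh_mgrad hb f
  rw [h3, bil_grad (Crest.Agent.R247.Bo84.isRiemannianOn_chartMetric (n := n) x₀) hb]
  have h4 : inCh n x₀ f =ᶠ[𝓝 b] fun y => (EuclideanSpace.proj k : 𝔼 →L[ℝ] ℝ) y := hfe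
  rw [h4.fderiv_eq, ContinuousLinearMap.fderiv]
  rfl

/-- chart components of `toF W` -/
theorem cf_toF (T : ToF n M) (x₀ : M) {b : 𝔼} (hb : b ∈ (chartAt 𝔼 x₀).target)
    (W : (z : M) → TangentSpace (𝓡 n) z) (l : Fin n) :
    cf x₀ l (fun z => T.toF z (W z)) b = ∑ k, chartMetric n M x₀ b l k * vCh n x₀ W b k := by
  have hzs : (chartAt 𝔼 x₀).symm b ∈ (chartAt 𝔼 x₀).source := (chartAt 𝔼 x₀).map_target hb
  unfold cf
  rw [show Crest.Agent.R247.Frd657.Ef (n := n) x₀ l ((chartAt 𝔼 x₀).symm b)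
      = ∑ k, chartMetric n M x₀ b l k • Gr (n := n) (cdf x₀ k) ((chartAt 𝔼 x₀).symm b) from ?_]
  · rw [sum_inner]
    refine Finset.sum_congr rfl fun k _ => ?_
    rw [real_inner_smul_left, inner_Gr_toF T x₀ hb]
  · rw [Crest.Agent.R247.Frd657.Ef, (chartAt 𝔼 x₀).right_inv hb]
    rfl

theorem sum_cf_toF (T : ToF n M) (x₀ : M) {b : 𝔼} (hb : b ∈ (chartAt 𝔼 x₀).target)
    (W : (z : M) → TangentSpace (𝓡 n) z) (v : 𝔼) :
    ∑ l, v l * cf x₀ l (fun z => T.toF z (W z)) b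
      = bil (chartMetric n M x₀ b) (vCh n x₀ W b) v := by
  rw [bil_symm (Crest.Agent.R247.Bo84.isRiemannianOn_chartMetric (n := n) x₀) hb, bil_apply]
  refine Finset.sum_congr rfl fun l _ => ?_
  rw [cf_toF T x₀ hb, Finset.mul_sum]
  refine Finset.sum_congr rfl fun k _ => ?_
  ring

end general

section four

variable {M : Type*} [MetricSpace M] [ChartedSpace (EuclideanSpace ℝ (Fin 4)) M]
  [IsManifold (𝓡 4) ∞ M]
  [RiemannianBundle (fun p : M => TangentSpace (𝓡 4) p)]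
  [IsContMDiffRiemannianBundle (𝓡 4) ∞ (EuclideanSpace ℝ (Fin 4)) (fun p : M => TangentSpace (𝓡 4) p)]
  [IsRiemannianManifold (𝓡 4) M] [MeasurableSpace M] [BorelSpace M]
  [SecondCountableTopology M] [Nonempty M]

variable {κ : Type} [Fintype κ] (D : Bun 4 M κ) (Dd : Dat 4 M κ) (T : ToF 4 M)
  {z : M} {e : Fin 4 → EuclideanSpace ℝ (Fin 4) → EuclideanSpace ℝ (Fin 4)}

theorem cd_cf (z : M) (l : Fin 4) (a b : κ) :
    ContDiffAt ℝ ∞ (cf z l (Dd.X a b)) (chartCentre 4 M z) :=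
  (Dd.smX a b z l).contDiffAt ((chartAt E4 z).open_target.mem_nhds (mem_chart_target E4 z))

/-- the coordinate connection germs -/
def BG (z : M) (l : Fin 4) : Matrix κ κ (SG (chartCentre 4 M z)) :=
  Matrix.of fun a b => germ (cf z l (Dd.X a b)) (cd_cf Dd z l a b)

/-- the frame components are the germs `vg` of 805 -/
theorem fr_BG (hX : ∀ a b z, Dd.X a b z = T.toF z (D.W a b z))
    (h : ONF (chartMetric 4 M z) (chartAt E4 z).target (chartCentre 4 M z) e) (k : Fin 4) :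
    fr h.mf (BG Dd z) k = Matrix.of fun a b => vg z e (D.W a b) k := by
  ext a b
  unfold fr BG
  rw [Matrix.sum_apply]
  simp only [Matrix.smul_apply, Matrix.of_apply, smul_eq_mul, ONF.mf_E, germ_mul, germ_sum]
  have hev : (fun y => ∑ l, e k y l * cf z l (Dd.X a b) y) =ᶠ[𝓝 (chartCentre 4 M z)]
      fun y => bil (chartMetric 4 M z y) (vCh 4 z (D.W a b) y) (e k y) := by
    filter_upwards [(chartAt E4 z).open_target.mem_nhds (mem_chart_target E4 z)] with y hy
    rw [← sum_cf_toF T z hy]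
    have : Dd.X a b = fun z => T.toF z (D.W a b z) := funext fun w => hX a b w
    rw [this]
  have hcd : ContDiffAt ℝ ∞ (fun y => ∑ l, e k y l * cf z l (Dd.X a b) y) (chartCentre 4 M z) :=
    ContDiffAt.sum fun l _ => (h.cd_e k l).mul (cd_cf Dd z l a b)
  have hcd' : ContDiffAt ℝ ∞ (fun y => bil (chartMetric 4 M z y) (vCh 4 z (D.W a b) y) (e k y))
      (chartCentre 4 M z) := hcd.congr_of_eventuallyEq hev.symm
  unfold vg
  rw [dif_pos hcd']
  exact germ_eq hev

theorem cd_Fc (z : M) (i l : Fin 4) (a b : κ) :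
    ContDiffAt ℝ ∞ (fun y => Fc Dd z i l y a b) (chartCentre 4 M z) := by
  unfold Fc
  simp only [Matrix.of_apply]
  refine ((contDiffAt_pd (cd_cf Dd z l a b) i).sub (contDiffAt_pd (cd_cf Dd z i a b) l)).add
    (ContDiffAt.sum fun r _ => ?_)
  exact ((cd_cf Dd z i a r).mul (cd_cf Dd z l r b)).sub ((cd_cf Dd z l a r).mul (cd_cf Dd z i r b))

theorem cc_BG (h : ONF (chartMetric 4 M z) (chartAt E4 z).target (chartCentre 4 M z) e)
    (i l : Fin 4) (a b : κ) :
    cc h.mf (BG Dd z) i l a b = germ (fun y => Fc Dd z i l y a b) (cd_Fc Dd z i l a b) := by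
  unfold cc BG
  simp only [Matrix.add_apply, Matrix.sub_apply, Crest.Agent.R249.Sg129.dM, Matrix.mul_apply,
    Matrix.of_apply, ONF.mf_d, pd_germ, germ_mul, germ_sum, germ_sub, germ_add]
  refine germ_eq (Eventually.of_forall fun y => ?_)
  simp only [Fc, Matrix.of_apply, Finset.sum_sub_distrib]
  rfl

theorem ev_fg {f : M → ℝ} (hf : ContMDiff (𝓡 4) 𝓘(ℝ, ℝ) ∞ f) (z : M) :
    ev (fg (n := 4) z f) = rd z f (chartCentre 4 M z) := by
  have h : ContDiffAt ℝ ∞ (f ∘ (chartAt (EuclideanSpace ℝ (Fin 4)) z).symm) (chartCentre 4 M z) :=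
    (rd_smooth z hf).contDiffAt ((chartAt E4 z).open_target.mem_nhds (mem_chart_target E4 z))
  unfold fg
  rw [dif_pos h]
  rfl

/-- **[DENS]** -/
theorem dn_germ (hX : ∀ a b z, Dd.X a b z = T.toF z (D.W a b z)) (hp : Dd.p = D.p)
    (h : ONF (chartMetric 4 M z) (chartAt E4 z).target (chartCentre 4 M z) e)
    {ι : Type} [Fintype ι] [DecidableEq ι]
    {a : Fin 4 → Matrix ι ι (SG (chartCentre 4 M z))} {j : Matrix κ ι (SG (chartCentre 4 M z))}
    (hL : Tz805.LF D h a j) {q : Matrix ι ι (SG (chartCentre 4 M z))}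
    (hq : (Matrix.of fun y y' => fg (n := 4) z (Dd.Q y y')) = j * q * jᵀ) :
    dn Dd z = 1 / (32 * Real.pi ^ 2) * ev (q * q).trace
      + 1 / (192 * Real.pi ^ 2) * ev (C2_198.tO h.frameOf a) := by
  set Pg : Matrix κ κ (SG (chartCentre 4 M z)) := Matrix.of fun x y => fg (n := 4) z (Dd.p x y) with hPg
  set Qg : Matrix κ κ (SG (chartCentre 4 M z)) := Matrix.of fun x y => fg (n := 4) z (Dd.Q x y) with hQg
  have hjP : j * jᵀ = Pg := by rw [hL.jjt, hPg, hp]
  have hPe : ∀ x y, ev (Pg x y) = Pc Dd z (chartCentre 4 M z) x y := fun x y => ev_fg (Dd.smp x y) z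
  have hQe : ∀ x y, ev (Qg x y) = Qc Dd z (chartCentre 4 M z) x y := fun x y => ev_fg (Dd.smQ x y) z
  -- potential
  have e1 : ev (q * q).trace = Matrix.trace (Qc Dd z (chartCentre 4 M z) * Pc Dd z (chartCentre 4 M z)
      * Qc Dd z (chartCentre 4 M z) * Pc Dd z (chartCentre 4 M z)) := by
    rw [← tr_q (q := q) hL.jtj, ← hq, hjP]
    simp only [Matrix.trace, Matrix.diag_apply, Matrix.mul_apply, map_sum, map_mul, hPe, hQe]
  -- curvature
  have e2 : ev (C2_198.tO h.frameOf a) = ∑ i, ∑ k, ∑ l, ∑ m,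
      inverseField (chartMetric 4 M z) (chartCentre 4 M z) i k
        * inverseField (chartMetric 4 M z) (chartCentre 4 M z) l m *
        Matrix.trace (Fc Dd z i l (chartCentre 4 M z) * Pc Dd z (chartCentre 4 M z)
          * Fc Dd z k m (chartCentre 4 M z) * Pc Dd z (chartCentre 4 M z)) := by
    have hdj : ∀ k, Crest.Agent.R249.Sg129.dM (h.frameOf.D k) j + fr h.mf (BG Dd z) k * j = j * a k := fun k => by
      rw [fr_BG D Dd T hX h k]
      exact hL.dj k
    rw [tO_embed h.frameOf hL.jtj hdj, hjP]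
    have h3 := tO_frP h.mf (BG Dd z) Pg
    rw [show h.frameOf = h.mf.frame from rfl, h3]
    simp only [Matrix.trace, Matrix.diag_apply, Matrix.mul_apply, map_sum, map_mul, hPe, cc_BG,
      ev_germ, ONF.mf_gi, Finset.mul_sum, mul_assoc]
  rw [e1, e2]
  rfl

end four

end Crest.Agent.R249.HK9_714
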