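import Crest.Agent.R249.DenH_714

/-!
# Row 249, PART C (helper714): the limit of the heat trace difference for a pair of `Bun`s

`PLoc B0 B1 D0 D1 z d` : at `z` there are local frames (germs) of both bundles with matrices `a0, a1`, potentials
`q0, q1`, equal ranks, `tr q0 = tr q1` and
`d = (1/32π²) ev (tr q0² - tr q1²) + (1/192π²) ev (tO a0 - tO a1)`.
`lim_pair` : then `∑ e^{-tμ_k} - ∑ e^{-tν_k} → ∫_M d`.
-/

set_option autoImplicit false
set_option maxSynthPendingDepth 3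
set_option linter.unusedSectionVars false

open Filter Topology Set Bundle Manifold Matrix MeasureTheory
open scoped ContDiff ENNReal NNReal
open Crest.GeometryTopology.CoordMetric Crest.GeometryTopology.ChartCurvature
open Crest.Agent.R249.Fr129 Crest.Agent.R249.Sg129
open Crest.Agent.R249.Tv57 Crest.Agent.R249.Tz805
open Crest.Agent.R249.HK286 (E4)

noncomputable section

namespace Crest.Agent.R249.HK9_714

variable {M : Type*} [MetricSpace M] [ChartedSpace (EuclideanSpace ℝ (Fin 4)) M]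
  [IsManifold (𝓡 4) ∞ M]
  [RiemannianBundle (fun p : M => TangentSpace (𝓡 4) p)]
  [IsContMDiffRiemannianBundle (𝓡 4) ∞ (EuclideanSpace ℝ (Fin 4)) (fun p : M => TangentSpace (𝓡 4) p)]
  [IsRiemannianManifold (𝓡 4) M] [MeasurableSpace M] [BorelSpace M]
  [SecondCountableTopology M] [Nonempty M]

variable {κ κ0 κ1 : Type} [Fintype κ] [Fintype κ0] [Fintype κ1]

theorem rd_centre (z : M) (f : M → ℝ) : rd z f (chartCentre 4 M z) = f z := by
  have : (chartAt E4 z).symm (chartCentre 4 M z) = z := (chartAt E4 z).left_inv (mem_chart_source E4 z)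
  rw [rd, this]

section loc
variable (D : Bun 4 M κ) (Dd : Dat 4 M κ) {z : M}
  {e : Fin 4 → EuclideanSpace ℝ (Fin 4) → EuclideanSpace ℝ (Fin 4)}
  {h : ONF (chartMetric 4 M z) (chartAt E4 z).target (chartCentre 4 M z) e}
  {ι : Type} [Fintype ι] [DecidableEq ι]
  {a : Fin 4 → Matrix ι ι (SG (chartCentre 4 M z))} {j : Matrix κ ι (SG (chartCentre 4 M z))}

/-- rank: `∑ p_aa = card ι` -/
theorem rank_germ (hp : Dd.p = D.p) (hL : Tz805.LF D h a j) :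
    ∑ x, Dd.p x x z = Fintype.card ι := by
  have h1 : ev (j * jᵀ).trace = Fintype.card ι := by
    rw [Matrix.trace_mul_comm, hL.jtj, Matrix.trace_one]
    simp
  rw [hL.jjt] at h1
  simp only [Matrix.trace, Matrix.diag_apply, Matrix.of_apply, map_sum] at h1
  rw [← h1]
  refine Finset.sum_congr rfl fun x _ => ?_
  rw [← hp, ev_fg (Dd.smp x x), rd_centre]

/-- trace of the potential: `∑ Q_xy p_xy = ev (tr q)` -/
theorem trace_germ (hp : Dd.p = D.p) (hL : Tz805.LF D h a j)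
    {q : Matrix ι ι (SG (chartCentre 4 M z))}
    (hq : (Matrix.of fun y y' => fg (n := 4) z (Dd.Q y y')) = j * q * jᵀ) :
    ∑ x, ∑ y, Dd.Q x y z * Dd.p x y z = ev q.trace := by
  rw [← tr_q1 (q := q) hL.jtj, ← hq, hL.jjt]
  simp only [Matrix.trace, Matrix.diag_apply, Matrix.mul_apply, Matrix.of_apply, map_sum, map_mul]
  refine Finset.sum_congr rfl fun x _ => Finset.sum_congr rfl fun y _ => ?_
  rw [← hp, ev_fg (Dd.smp y x), ev_fg (Dd.smQ x y), rd_centre, rd_centre, Dd.symmp x y]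

end loc

/-- local data of a pair of bundles at `z`, with density `d` -/
def PLoc (B0 : Bun 4 M κ0) (B1 : Bun 4 M κ1) (D0 : Dat 4 M κ0) (D1 : Dat 4 M κ1) (z : M) (d : ℝ) :
    Prop :=
  ∃ (e : Fin 4 → EuclideanSpace ℝ (Fin 4) → EuclideanSpace ℝ (Fin 4))
    (h : ONF (chartMetric 4 M z) (chartAt (EuclideanSpace ℝ (Fin 4)) z).target (chartCentre 4 M z) e)
    (ι0 ι1 : Type) (_ : Fintype ι0) (_ : DecidableEq ι0) (_ : Fintype ι1) (_ : DecidableEq ι1)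
    (a0 : Fin 4 → Matrix ι0 ι0 (SG (chartCentre 4 M z)))
    (a1 : Fin 4 → Matrix ι1 ι1 (SG (chartCentre 4 M z)))
    (j0 : Matrix κ0 ι0 (SG (chartCentre 4 M z))) (j1 : Matrix κ1 ι1 (SG (chartCentre 4 M z)))
    (q0 : Matrix ι0 ι0 (SG (chartCentre 4 M z))) (q1 : Matrix ι1 ι1 (SG (chartCentre 4 M z))),
    Tz805.LF B0 h a0 j0 ∧ Tz805.LF B1 h a1 j1 ∧
    (Matrix.of fun y y' => fg (n := 4) z (D0.Q y y')) = j0 * q0 * j0ᵀ ∧
    (Matrix.of fun y y' => fg (n := 4) z (D1.Q y y')) = j1 * q1 * j1ᵀ ∧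
    Fintype.card ι0 = Fintype.card ι1 ∧ ev q0.trace = ev q1.trace ∧
    d = 1 / (32 * Real.pi ^ 2) * (ev (q0 * q0).trace - ev (q1 * q1).trace)
      + 1 / (192 * Real.pi ^ 2) * (ev (C2_198.tO h.frameOf a0) - ev (C2_198.tO h.frameOf a1))

/-- **heat trace difference of a pair** -/
theorem lim_pair (HK8 : ChartStmt) [CompactSpace M] (T : ToF 4 M)
    (B0 : Bun 4 M κ0) (B1 : Bun 4 M κ1) (D0 : Dat 4 M κ0) (D1 : Dat 4 M κ1)
    (hX0 : ∀ a b z, D0.X a b z = T.toF z (B0.W a b z)) (hp0 : D0.p = B0.p)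
    (hX1 : ∀ a b z, D1.X a b z = T.toF z (B1.W a b z)) (hp1 : D1.p = B1.p)
    (S0 : Spec D0) (S1 : Spec D1) (d : M → ℝ) (hd : ∀ z, PLoc B0 B1 D0 D1 z (d z)) :
    (∀ t : ℝ, 0 < t → Summable fun k => Real.exp (-(t * S0.μ k))) ∧
    (∀ t : ℝ, 0 < t → Summable fun k => Real.exp (-(t * S1.μ k))) ∧
    Integrable d (μHE[4] : Measure M) ∧
    Tendsto (fun t => ∑' k, Real.exp (-(t * S0.μ k)) - ∑' k, Real.exp (-(t * S1.μ k)))
      (𝓝[>] 0) (𝓝 (∫ z, d z ∂(μHE[4] : Measure M))) := by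
  have h1 : ∀ z, dn D0 z - dn D1 z = d z := by
    intro z
    obtain ⟨e, h, ι0, ι1, _, _, _, _, a0, a1, j0, j1, q0, q1, hl0, hl1, hq0, hq1, -, -, he⟩ := hd z
    rw [dn_germ B0 D0 T hX0 hp0 h hl0 hq0, dn_germ B1 D1 T hX1 hp1 h hl1 hq1, he]
    ring
  have hr : ∀ z, ∑ a, D0.p a a z = ∑ a, D1.p a a z := by
    intro z
    obtain ⟨e, h, ι0, ι1, _, _, _, _, a0, a1, j0, j1, q0, q1, hl0, hl1, hq0, hq1, hc, -, -⟩ := hd z
    rw [rank_germ B0 D0 hp0 hl0, rank_germ B1 D1 hp1 hl1, hc]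
  have hq : ∀ z, ∑ a, ∑ b, D0.Q a b z * D0.p a b z = ∑ a, ∑ b, D1.Q a b z * D1.p a b z := by
    intro z
    obtain ⟨e, h, ι0, ι1, _, _, _, _, a0, a1, j0, j1, q0, q1, hl0, hl1, hq0, hq1, -, ht, -⟩ := hd z
    rw [trace_germ B0 D0 hp0 hl0 hq0, trace_germ B1 D1 hp1 hl1 hq1, ht]
  have h2 := heat_trace_of HK8 D0 D1 S0 S1 hr hq
  simp only [h1] at h2
  exact h2

/-- the density of a `CLoc` (symbol `c`): potentials `Q F a0 c`, `Q F a1 cᵀ` -/
theorem PLoc.of_cloc {B0 : Bun 4 M κ0} {B1 : Bun 4 M κ1} {D0 : Dat 4 M κ0} {D1 : Dat 4 M κ1}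
    {cc : κ1 → κ0 → (p : M) → TangentSpace 𝓘(ℝ, EuclideanSpace ℝ (Fin 4)) p} {z : M}
    {e : Fin 4 → EuclideanSpace ℝ (Fin 4) → EuclideanSpace ℝ (Fin 4)}
    {h : ONF (chartMetric 4 M z) (chartAt (EuclideanSpace ℝ (Fin 4)) z).target
      (chartCentre 4 M z) e}
    {ι0 ι1 : Type} [Fintype ι0] [DecidableEq ι0] [Fintype ι1] [DecidableEq ι1]
    {a0 : Fin 4 → Matrix ι0 ι0 (SG (chartCentre 4 M z))}
    {a1 : Fin 4 → Matrix ι1 ι1 (SG (chartCentre 4 M z))}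
    {c : Fin 4 → Matrix ι1 ι0 (SG (chartCentre 4 M z))}
    {j0 : Matrix κ0 ι0 (SG (chartCentre 4 M z))} {j1 : Matrix κ1 ι1 (SG (chartCentre 4 M z))}
    (hc : CLoc B0 B1 cc h a0 a1 c j0 j1)
    (hq0 : (Matrix.of fun y y' => fg (n := 4) z (D0.Q y y'))
      = j0 * C2_198.Q h.frameOf a0 c * j0ᵀ)
    (hq1 : (Matrix.of fun y y' => fg (n := 4) z (D1.Q y y'))
      = j1 * C2_198.Q h.frameOf a1 (fun i => (c i)ᵀ) * j1ᵀ)
    (hcard : Fintype.card ι0 = Fintype.card ι1)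
    (htr : ev (C2_198.Q h.frameOf a0 c).trace = ev (C2_198.Q h.frameOf a1 (fun i => (c i)ᵀ)).trace) :
    PLoc B0 B1 D0 D1 z
      (1 / (32 * Real.pi ^ 2) * (ev (C2_198.Q h.frameOf a0 c * C2_198.Q h.frameOf a0 c).trace
          - ev (C2_198.Q h.frameOf a1 (fun i => (c i)ᵀ)
              * C2_198.Q h.frameOf a1 (fun i => (c i)ᵀ)).trace)
        + 1 / (192 * Real.pi ^ 2)
          * (ev (C2_198.tO h.frameOf a0) - ev (C2_198.tO h.frameOf a1))) :=
  ⟨e, h, ι0, ι1, inferInstance, inferInstance, inferInstance, inferInstance, a0, a1, j0, j1, _, _,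
    hc.l0, hc.l1, hq0, hq1, hcard, htr, rfl⟩

end Crest.Agent.R249.HK9_714
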