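import Crest.Agent.R249.Vf1_281
import Crest.Agent.R249.Bia3_104

/-!
Row 249 (helper281), T3b: scalar identities on the manifold.
* `mRic` is symmetric and bilinear;
* `mHessIn n f h p = ⟨Hess f, Hess h⟩`, frame formula, Cauchy-Schwarz;
* polarised Bochner formula `mBochner_polar`;
* Koszul identity `mHess_mgrad`;
* `|d⟨df,dh⟩| ≤ |Hess f||dh| + |Hess h||df|`;
* Gram inversion;
-/

set_option autoImplicit false
set_option maxSynthPendingDepth 3
set_option linter.unusedSectionVars false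

open scoped ContDiff Topology Manifold
open Filter Set Bundle
open Crest.GeometryTopology.CoordMetric Crest.GeometryTopology.ChartCurvature
  Crest.GeometryTopology.PointedLimit
open Crest.Agent.R202.Tens
open Crest.Agent.R247.Bo84

noncomputable section

namespace Crest.Agent.R249.Vf281

variable (n : ℕ) {M : Type*} [TopologicalSpace M] [ChartedSpace (EuclideanSpace ℝ (Fin n)) M]
  [IsManifold 𝓘(ℝ, EuclideanSpace ℝ (Fin n)) ∞ M]
  [RiemannianBundle (fun x : M => TangentSpace 𝓘(ℝ, EuclideanSpace ℝ (Fin n)) x)]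
  [IsContMDiffRiemannianBundle 𝓘(ℝ, EuclideanSpace ℝ (Fin n)) ∞ (EuclideanSpace ℝ (Fin n))
      (fun x : M => TangentSpace 𝓘(ℝ, EuclideanSpace ℝ (Fin n)) x)]

local notation "𝔼" => EuclideanSpace ℝ (Fin n)
local notation "𝓘E" => 𝓘(ℝ, EuclideanSpace ℝ (Fin n))

/-- the pairing `⟨Hess f, Hess h⟩`. -/
def mHessIn (f h : M → ℝ) (p : M) : ℝ :=
  trL ((hessE (chartMetric n M p) (inCh n p f) (chartCentre n M p)).comp
    (hessE (chartMetric n M p) (inCh n p h) (chartCentre n M p)))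

variable {n}

variable {x₀ p z : M} {y : EuclideanSpace ℝ (Fin n)}
  {X Y : (p : M) → TangentSpace 𝓘(ℝ, EuclideanSpace ℝ (Fin n)) p} {f h k : M → ℝ}

/-! ### frames -/

/-- the tangent vector at `p` with given components in the preferred chart. -/
def tv (p : M) (v : EuclideanSpace ℝ (Fin n)) : TangentSpace 𝓘(ℝ, EuclideanSpace ℝ (Fin n)) p :=
  dSy p (chartCentre n M p) v

lemma dCh_tv (p : M) (v : 𝔼) : dCh p p (tv p v) = v := by
  have h1 := dCh_dSy p (centre_mem p) v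
  have h2 : (chartAt 𝔼 p).symm (chartCentre n M p) = p :=
    (chartAt 𝔼 p).left_inv (mem_chart_source 𝔼 p)
  rw [h2] at h1
  exact h1

lemma inner_tv (p : M) (v w : 𝔼) :
    inner ℝ (tv p v) (tv p w) = bil (chartMetric n M p (chartCentre n M p)) v w := by
  rw [inner_centre, dCh_tv, dCh_tv]

/-- an orthonormal frame of the tangent space. -/
lemma exists_onf (p : M) : ∃ e : Fin n → TangentSpace 𝓘E p,
    ∀ a b, inner ℝ (e a) (e b) = if a = b then (1:ℝ) else 0 := by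
  obtain ⟨ξ, hξ⟩ := exists_frame (isRiemannianOn_chartMetric (n := n) p) (centre_mem p)
  exact ⟨fun a => tv p (ξ a), fun a b => by rw [inner_tv, hξ.orth]⟩

/-! ### the Ricci form -/

lemma mRic_symm (p : M) (v w : TangentSpace 𝓘E p) : mRic n p v w = mRic n p w v := by
  have hg := isRiemannianOn_chartMetric (n := n) p
  have h1 := fun i j => Bia3_104.ricci_symm hg (centre_mem p) i j
  rw [mRic, mRic, Finset.sum_comm]
  refine Finset.sum_congr rfl fun i _ => Finset.sum_congr rfl fun j _ => ?_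
  rw [h1 j i]
  ring

lemma mRic_add_left (p : M) (v v' w : TangentSpace 𝓘E p) :
    mRic n p (v + v') w = mRic n p v w + mRic n p v' w := by
  have h1 : dCh p p (v + v') = dCh p p v + dCh p p v' := map_add (dCh p p) v v'
  simp only [mRic]
  rw [h1, ← Finset.sum_add_distrib]
  refine Finset.sum_congr rfl fun i _ => ?_
  rw [← Finset.sum_add_distrib]
  refine Finset.sum_congr rfl fun j _ => ?_
  rw [PiLp.add_apply]
  ring

lemma mRic_smul_left (p : M) (c : ℝ) (v w : TangentSpace 𝓘E p) :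
    mRic n p (c • v) w = c * mRic n p v w := by
  have h1 : dCh p p (c • v) = c • dCh p p v := map_smul (dCh p p) c v
  simp only [mRic]
  rw [h1, Finset.mul_sum]
  refine Finset.sum_congr rfl fun i _ => ?_
  rw [Finset.mul_sum]
  refine Finset.sum_congr rfl fun j _ => ?_
  rw [PiLp.smul_apply, smul_eq_mul]
  ring

lemma mRic_add_right (p : M) (v w w' : TangentSpace 𝓘E p) :
    mRic n p v (w + w') = mRic n p v w + mRic n p v w' := by
  rw [mRic_symm, mRic_add_left, mRic_symm p w, mRic_symm p w']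

lemma mRic_smul_right (p : M) (c : ℝ) (v w : TangentSpace 𝓘E p) :
    mRic n p v (c • w) = c * mRic n p v w := by
  rw [mRic_symm, mRic_smul_left, mRic_symm p w]

/-! ### the pairing of two Hessians -/

/-- `⟨Hess f, Hess h⟩` in an orthonormal frame. -/
theorem mHessIn_frame (hf : ContMDiffAt 𝓘E 𝓘(ℝ, ℝ) 2 f p) (hh : ContMDiffAt 𝓘E 𝓘(ℝ, ℝ) 2 h p)
    {e : Fin n → TangentSpace 𝓘E p}
    (he : ∀ a b, inner ℝ (e a) (e b) = if a = b then (1:ℝ) else 0) :
    mHessIn n f h p = ∑ a, ∑ b, mHess n f p (e a) (e b) * mHess n h p (e a) (e b) := by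
  have hg := isRiemannianOn_chartMetric (n := n) p
  have hx := centre_mem (n := n) p
  have hfr := isFrame_centre (n := n) he
  have hf' := contDiffAt_centre (n := n) two_le_infty hf
  have hh' := contDiffAt_centre (n := n) two_le_infty hh
  rw [mHessIn, hfr.trL_eq hg hx]
  refine Finset.sum_congr rfl fun a _ => ?_
  rw [ContinuousLinearMap.comp_apply, bil_hessE hg hx hf', hess_symm hg hx hf',
    ← bil_hessE hg hx hf', hfr.bil_eq hg hx]
  refine Finset.sum_congr rfl fun b _ => ?_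
  rw [bil_hessE hg hx hf', bil_hessE hg hx hh']
  rfl

/-- `⟨Hess f, Hess h⟩ = ∑ ⟨Hess f e_a, Hess h e_a⟩`. -/
theorem mHessIn_frameE (hf : ContMDiffAt 𝓘E 𝓘(ℝ, ℝ) 2 f p)
    (hh : ContMDiffAt 𝓘E 𝓘(ℝ, ℝ) 2 h p) {e : Fin n → TangentSpace 𝓘E p}
    (he : ∀ a b, inner ℝ (e a) (e b) = if a = b then (1:ℝ) else 0) :
    mHessIn n f h p = ∑ a, inner ℝ (mHessE n f p (e a)) (mHessE n h p (e a)) := by
  rw [mHessIn_frame hf hh he]
  refine Finset.sum_congr rfl fun a _ => ?_
  rw [inner_frame he]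
  refine Finset.sum_congr rfl fun b _ => ?_
  rw [inner_mHessE hf, inner_mHessE hh]

lemma mHessIn_self (f : M → ℝ) (p : M) : mHessIn n f f p = mHessSq n f p := rfl

lemma mHessIn_comm (hf : ContMDiffAt 𝓘E 𝓘(ℝ, ℝ) 2 f p) (hh : ContMDiffAt 𝓘E 𝓘(ℝ, ℝ) 2 h p) :
    mHessIn n f h p = mHessIn n h f p := by
  obtain ⟨e, he⟩ := exists_onf (n := n) p
  rw [mHessIn_frame hf hh he, mHessIn_frame hh hf he]
  exact Finset.sum_congr rfl fun a _ => Finset.sum_congr rfl fun b _ => mul_comm _ _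

lemma mHessIn_congr {f' h' : M → ℝ} (hff : f =ᶠ[𝓝 p] f') (hhh : h =ᶠ[𝓝 p] h') :
    mHessIn n f h p = mHessIn n f' h' p := by
  rw [mHessIn, mHessIn, hessE_congr (inCh_congr hff), hessE_congr (inCh_congr hhh)]

/-- Cauchy-Schwarz. -/
theorem mHessIn_sq_le (hf : ContMDiffAt 𝓘E 𝓘(ℝ, ℝ) 2 f p)
    (hh : ContMDiffAt 𝓘E 𝓘(ℝ, ℝ) 2 h p) :
    mHessIn n f h p ^ 2 ≤ mHessSq n f p * mHessSq n h p := by
  obtain ⟨e, he⟩ := exists_onf (n := n) p
  rw [mHessIn_frame hf hh he, mHessSq_frame hf he, mHessSq_frame hh he,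
    ← Fintype.sum_prod_type', ← Fintype.sum_prod_type', ← Fintype.sum_prod_type']
  exact Finset.sum_mul_sq_le_sq_mul_sq _ _ _

theorem abs_mHessIn_le (hf : ContMDiffAt 𝓘E 𝓘(ℝ, ℝ) 2 f p)
    (hh : ContMDiffAt 𝓘E 𝓘(ℝ, ℝ) 2 h p) :
    |mHessIn n f h p| ≤ Real.sqrt (mHessSq n f p) * Real.sqrt (mHessSq n h p) := by
  rw [← Real.sqrt_mul (mHessSq_nonneg hf)]
  exact Real.abs_le_sqrt (mHessIn_sq_le hf hh)

theorem mHessSq_add (hf : ContMDiffAt 𝓘E 𝓘(ℝ, ℝ) 2 f p)
    (hh : ContMDiffAt 𝓘E 𝓘(ℝ, ℝ) 2 h p) :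
    mHessSq n (fun q => f q + h q) p =
      mHessSq n f p + 2 * mHessIn n f h p + mHessSq n h p := by
  obtain ⟨e, he⟩ := exists_onf (n := n) p
  have hfh : ContMDiffAt 𝓘E 𝓘(ℝ, ℝ) 2 (fun q => f q + h q) p := hf.add hh
  rw [mHessIn_frame hf hh he, mHessSq_frame hf he, mHessSq_frame hh he,
    mHessSq_frame hfh he, Finset.mul_sum, ← Finset.sum_add_distrib,
    ← Finset.sum_add_distrib]
  refine Finset.sum_congr rfl fun a _ => ?_
  rw [Finset.mul_sum, ← Finset.sum_add_distrib, ← Finset.sum_add_distrib]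
  refine Finset.sum_congr rfl fun b _ => ?_
  rw [mHess_add hf hh (e a) (e b)]
  ring

/-- **Polarised Bochner formula.** -/
theorem mBochner_polar (hf : ContMDiffAt 𝓘E 𝓘(ℝ, ℝ) 3 f p) (hh : ContMDiffAt 𝓘E 𝓘(ℝ, ℝ) 3 h p) :
    mLap n (mGam n f h) p =
      2 * mHessIn n f h p + mGam n (mLap n f) h p + mGam n f (mLap n h) p +
        2 * mRic n p (mgrad n f p) (mgrad n h p) := by
  have hf2 : ContMDiffAt 𝓘E 𝓘(ℝ, ℝ) 2 f p := hf.of_le (by norm_num)
  have hh2 : ContMDiffAt 𝓘E 𝓘(ℝ, ℝ) 2 h p := hh.of_le (by norm_num)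
  have hf1 : MDifferentiableAt 𝓘E 𝓘(ℝ, ℝ) f p := hf.mdifferentiableAt (by norm_num)
  have hh1 : MDifferentiableAt 𝓘E 𝓘(ℝ, ℝ) h p := hh.mdifferentiableAt (by norm_num)
  have three : (3 : WithTop ℕ∞) ≤ ∞ := three_le_infty
  have gff := contMDiffAt_mGam (n := n) (m := 2) hf hf (by norm_num) three
  have gfh := contMDiffAt_mGam (n := n) (m := 2) hf hh (by norm_num) three
  have ghh := contMDiffAt_mGam (n := n) (m := 2) hh hh (by norm_num) three
  have lf := contMDiffAt_mLap (n := n) (m := 1) hf (by norm_num) three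
  have lh := contMDiffAt_mLap (n := n) (m := 1) hh (by norm_num) three
  have B1 := mBochner hf
  have B2 := mBochner hh
  have B3 := mBochner (hf.add hh)
  have e0 : (f + h : M → ℝ) = fun q => f q + h q := rfl
  -- left-hand side
  have ev1 : ∀ᶠ q in 𝓝 p, MDifferentiableAt 𝓘E 𝓘(ℝ, ℝ) f q := by
    filter_upwards [(contMDiffAt_iff_contMDiffAt_nhds (by norm_num)).1 hf2] with q hq
    exact hq.mdifferentiableAt (by norm_num)
  have ev2 : ∀ᶠ q in 𝓝 p, MDifferentiableAt 𝓘E 𝓘(ℝ, ℝ) h q := by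
    filter_upwards [(contMDiffAt_iff_contMDiffAt_nhds (by norm_num)).1 hh2] with q hq
    exact hq.mdifferentiableAt (by norm_num)
  have L1 : mGam n (fun q => f q + h q) (fun q => f q + h q) =ᶠ[𝓝 p]
      fun q => (mGam n f f q + mGam n h h q) + 2 * mGam n f h q := by
    filter_upwards [ev1, ev2] with q h1 h2
    rw [mGam_add_left h1 h2, mGam_add_right h1 h2, mGam_add_right h1 h2, mGam_comm h f]
    ring
  have L2 : mLap n (mGam n (fun q => f q + h q) (fun q => f q + h q)) p =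
      mLap n (mGam n f f) p + mLap n (mGam n h h) p + 2 * mLap n (mGam n f h) p := by
    have g1 : ContMDiffAt 𝓘E 𝓘(ℝ, ℝ) 2 (fun q => mGam n f f q + mGam n h h q) p := gff.add ghh
    have g2 : ContMDiffAt 𝓘E 𝓘(ℝ, ℝ) 2 (fun q => 2 * mGam n f h q) p :=
      contMDiffAt_const.mul gfh
    rw [mLap_congr L1, mLap_add g1 g2, mLap_add gff ghh, mLap_const_mul 2 gfh]
  have ev3 : ∀ᶠ q in 𝓝 p, ContMDiffAt 𝓘E 𝓘(ℝ, ℝ) 2 f q :=
    (contMDiffAt_iff_contMDiffAt_nhds (by norm_num)).1 hf2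
  have ev4 : ∀ᶠ q in 𝓝 p, ContMDiffAt 𝓘E 𝓘(ℝ, ℝ) 2 h q :=
    (contMDiffAt_iff_contMDiffAt_nhds (by norm_num)).1 hh2
  have L3 : mLap n (fun q => f q + h q) =ᶠ[𝓝 p] fun q => mLap n f q + mLap n h q := by
    filter_upwards [ev3, ev4] with q h1 h2 using mLap_add h1 h2
  have L4 : mGam n (fun q => f q + h q) (mLap n (fun q => f q + h q)) p =
      mGam n f (mLap n f) p + mGam n h (mLap n f) p +
        (mGam n f (mLap n h) p + mGam n h (mLap n h) p) := by
    rw [mGam_congr (EventuallyEq.refl _ _) L3, mGam_add_right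
      (lf.mdifferentiableAt (by norm_num)) (lh.mdifferentiableAt (by norm_num)),
      mGam_add_left hf1 hh1, mGam_add_left hf1 hh1]
  rw [e0] at B3
  rw [L2, L4, mHessSq_add hf2 hh2, mgrad_add hf1 hh1, mRic_add_left, mRic_add_right,
    mRic_add_right, mRic_symm p (mgrad n h p) (mgrad n f p)] at B3
  rw [mGam_comm (mLap n f) h]
  linarith

/-! ### the Koszul identity -/

/-- derivative of `⟨df, dh⟩` in the direction of a gradient. -/
lemma mGam_mGam (hf : ContMDiffAt 𝓘E 𝓘(ℝ, ℝ) 2 f p) (hh : ContMDiffAt 𝓘E 𝓘(ℝ, ℝ) 2 h p)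
    (k : M → ℝ) :
    mGam n (mGam n f h) k p =
      mHess n f p (mgrad n k p) (mgrad n h p) + mHess n h p (mgrad n k p) (mgrad n f p) := by
  rw [mGam_eq_mfderiv, mfderiv_mGam hf hh]

/-- **Koszul identity.** -/
theorem mHess_mgrad (hf : ContMDiffAt 𝓘E 𝓘(ℝ, ℝ) 2 f p) (hh : ContMDiffAt 𝓘E 𝓘(ℝ, ℝ) 2 h p)
    (hk : ContMDiffAt 𝓘E 𝓘(ℝ, ℝ) 2 k p) :
    2 * mHess n f p (mgrad n h p) (mgrad n k p) =
      mGam n (mGam n f h) k p + mGam n (mGam n f k) h p - mGam n (mGam n h k) f p := by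
  rw [mGam_mGam hf hh, mGam_mGam hf hk, mGam_mGam hh hk,
    mHess_symm hf (mgrad n k p) (mgrad n h p), mHess_symm hh (mgrad n k p) (mgrad n f p),
    mHess_symm hk (mgrad n h p) (mgrad n f p)]
  ring

/-! ### norm bounds -/

lemma norm_mHessE_le (hf : ContMDiffAt 𝓘E 𝓘(ℝ, ℝ) 2 f p) (v : TangentSpace 𝓘E p) :
    ‖mHessE n f p v‖ ≤ Real.sqrt (mHessSq n f p) * ‖v‖ := by
  refine abs_le_of_sq_le_sq' ?_ (by positivity) |>.2
  rw [mul_pow, Real.sq_sqrt (mHessSq_nonneg hf)]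
  exact mHessE_norm_sq_le hf v

/-- `|d⟨df,dh⟩| ≤ |Hess f||dh| + |Hess h||df|`. -/
theorem norm_mgrad_mGam_le (hf : ContMDiffAt 𝓘E 𝓘(ℝ, ℝ) 2 f p)
    (hh : ContMDiffAt 𝓘E 𝓘(ℝ, ℝ) 2 h p) :
    ‖mgrad n (mGam n f h) p‖ ≤
      Real.sqrt (mHessSq n f p) * ‖mgrad n h p‖ + Real.sqrt (mHessSq n h p) * ‖mgrad n f p‖ := by
  rw [mgrad_mGam hf hh]
  exact (norm_add_le _ _).trans (add_le_add (norm_mHessE_le hf _) (norm_mHessE_le hh _))

/-- the squared form. -/
theorem mGam_mGam_self_le (hf : ContMDiffAt 𝓘E 𝓘(ℝ, ℝ) 2 f p)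
    (hh : ContMDiffAt 𝓘E 𝓘(ℝ, ℝ) 2 h p) :
    mGam n (mGam n f h) (mGam n f h) p ≤
      2 * (mHessSq n f p * mGam n h h p + mHessSq n h p * mGam n f f p) := by
  rw [mGam_self, mGam_self, mGam_self]
  have h1 := norm_mgrad_mGam_le hf hh
  have h2 : 0 ≤ ‖mgrad n (mGam n f h) p‖ := norm_nonneg _
  have a1 := Real.sq_sqrt (mHessSq_nonneg hf)
  have a2 := Real.sq_sqrt (mHessSq_nonneg hh)
  calc ‖mgrad n (mGam n f h) p‖ ^ 2 ≤ (Real.sqrt (mHessSq n f p) * ‖mgrad n h p‖ +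
        Real.sqrt (mHessSq n h p) * ‖mgrad n f p‖) ^ 2 := by gcongr
    _ ≤ 2 * ((Real.sqrt (mHessSq n f p) * ‖mgrad n h p‖) ^ 2 +
        (Real.sqrt (mHessSq n h p) * ‖mgrad n f p‖) ^ 2) := by
          nlinarith [sq_nonneg (Real.sqrt (mHessSq n f p) * ‖mgrad n h p‖ -
            Real.sqrt (mHessSq n h p) * ‖mgrad n f p‖)]
    _ = _ := by rw [mul_pow, mul_pow, a1, a2]

/-! ### Gram inversion -/

/-- the Gram matrix of the differentials. -/
def gramM (u : Fin n → M → ℝ) (p : M) : Matrix (Fin n) (Fin n) ℝ :=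
  Matrix.of fun a b => mGam n (u a) (u b) p

lemma gramM_apply (u : Fin n → M → ℝ) (p : M) (a b : Fin n) :
    gramM u p a b = mGam n (u a) (u b) p := rfl

/-- **Gram inversion**: if the differentials `du_a` are independent at `p`,
`⟨v, w⟩ = ∑ G⁻¹_{ab} du_a(v) du_b(w)`. -/
theorem inner_gram {u : Fin n → M → ℝ} (hdet : (gramM u p).det ≠ 0) (v w : TangentSpace 𝓘E p) :
    inner ℝ v w = ∑ a, ∑ b, (gramM u p)⁻¹ a b * (dM n (u a) p v * dM n (u b) p w) := by
  obtain ⟨e, he⟩ := exists_onf (n := n) p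
  set A : Matrix (Fin n) (Fin n) ℝ := Matrix.of fun a i => dM n (u a) p (e i) with hA
  have hG : gramM u p = A * A.transpose := by
    ext a b
    rw [gramM_apply, mGam_frame he, Matrix.mul_apply]
    rfl
  have hAdet : IsUnit A.det := by
    rw [isUnit_iff_ne_zero]
    intro h0
    rw [hG, Matrix.det_mul, h0, zero_mul] at hdet
    exact hdet rfl
  have hAA : A⁻¹ * A = 1 := Matrix.nonsing_inv_mul A hAdet
  have hinv : (gramM u p)⁻¹ = A⁻¹.transpose * A⁻¹ := by
    rw [hG, Matrix.mul_inv_rev, ← Matrix.transpose_nonsing_inv]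
  have hkey : A.transpose * ((gramM u p)⁻¹ * A) = 1 := by
    rw [hinv, Matrix.mul_assoc, hAA, Matrix.mul_one, ← Matrix.transpose_mul, hAA,
      Matrix.transpose_one]
  have hv : ∀ (v : TangentSpace 𝓘E p) (a : Fin n), dM n (u a) p v =
      ∑ i, A a i * inner ℝ v (e i) := by
    intro v a
    rw [← inner_mgrad', inner_frame he]
    refine Finset.sum_congr rfl fun i _ => ?_
    rw [inner_mgrad']
    rfl
  have hij : ∀ i j, ∑ a, ∑ b, A a i * ((gramM u p)⁻¹ a b * A b j) = if i = j then 1 else 0 := by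
    intro i j
    have := congrFun (congrFun hkey i) j
    rw [Matrix.mul_apply, Matrix.one_apply] at this
    rw [← this]
    refine Finset.sum_congr rfl fun a _ => ?_
    rw [Matrix.mul_apply, Finset.mul_sum]
    rfl
  symm
  calc ∑ a, ∑ b, (gramM u p)⁻¹ a b * (dM n (u a) p v * dM n (u b) p w)
      = ∑ a, ∑ b, ∑ i, ∑ j, (inner ℝ v (e i) * inner ℝ w (e j)) *
          (A a i * ((gramM u p)⁻¹ a b * A b j)) := by
        refine Finset.sum_congr rfl fun a _ => Finset.sum_congr rfl fun b _ => ?_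
        rw [hv v a, hv w b, Finset.sum_mul_sum, Finset.mul_sum]
        refine Finset.sum_congr rfl fun i _ => ?_
        rw [Finset.mul_sum]
        refine Finset.sum_congr rfl fun j _ => ?_
        ring
    _ = ∑ i, ∑ j, (inner ℝ v (e i) * inner ℝ w (e j)) *
          ∑ a, ∑ b, (A a i * ((gramM u p)⁻¹ a b * A b j)) := by
        have s1 : ∀ a, ∑ b, ∑ i, ∑ j, (inner ℝ v (e i) * inner ℝ w (e j)) *
            (A a i * ((gramM u p)⁻¹ a b * A b j)) =
            ∑ i, ∑ j, ∑ b, (inner ℝ v (e i) * inner ℝ w (e j)) *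
            (A a i * ((gramM u p)⁻¹ a b * A b j)) := by
          intro a
          rw [Finset.sum_comm]
          exact Finset.sum_congr rfl fun i _ => Finset.sum_comm
        simp only [s1]
        rw [Finset.sum_comm]
        refine Finset.sum_congr rfl fun i _ => ?_
        rw [Finset.sum_comm]
        refine Finset.sum_congr rfl fun j _ => ?_
        simp only [Finset.mul_sum]
    _ = inner ℝ v w := by
        rw [inner_frame he v w]
        refine Finset.sum_congr rfl fun i _ => ?_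
        rw [Finset.sum_eq_single i]
        · rw [hij, if_pos rfl, mul_one]
        · intro j _ hj
          rw [hij, if_neg (Ne.symm hj), mul_zero]
        · intro hi; exact absurd (Finset.mem_univ i) hi

/-- `⟨df, dh⟩` through the gradients `du_a`. -/
theorem mGam_gram {u : Fin n → M → ℝ} (hdet : (gramM u p).det ≠ 0) (f h : M → ℝ) :
    mGam n f h p =
      ∑ a, ∑ b, (gramM u p)⁻¹ a b * (mGam n f (u a) p * mGam n h (u b) p) := by
  rw [mGam_eq_inner, inner_gram hdet]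
  refine Finset.sum_congr rfl fun a _ => Finset.sum_congr rfl fun b _ => ?_
  rw [← inner_mgrad', ← inner_mgrad', ← mGam_eq_inner, ← mGam_eq_inner, mGam_comm (u a),
    mGam_comm (u b)]

/-- `⟨Hess f, Hess h⟩` through the gradients `du_a`. -/
theorem mHessIn_gram (hf : ContMDiffAt 𝓘E 𝓘(ℝ, ℝ) 2 f p) (hh : ContMDiffAt 𝓘E 𝓘(ℝ, ℝ) 2 h p)
    {u : Fin n → M → ℝ} (hdet : (gramM u p).det ≠ 0) :
    mHessIn n f h p = ∑ a, ∑ b, ∑ c, ∑ d, (gramM u p)⁻¹ a b * ((gramM u p)⁻¹ c d *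
      (mHess n f p (mgrad n (u a) p) (mgrad n (u c) p) *
        mHess n h p (mgrad n (u b) p) (mgrad n (u d) p))) := by
  obtain ⟨e, he⟩ := exists_onf (n := n) p
  -- step 1: expand the inner product in the second slot
  have h1 : ∀ v w : TangentSpace 𝓘E p, inner ℝ (mHessE n f p v) (mHessE n h p w) =
      ∑ c, ∑ d, (gramM u p)⁻¹ c d *
        (mHess n f p v (mgrad n (u c) p) * mHess n h p w (mgrad n (u d) p)) := by
    intro v w
    rw [inner_gram hdet]
    refine Finset.sum_congr rfl fun c _ => Finset.sum_congr rfl fun d _ => ?_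
    rw [← inner_mgrad', ← inner_mgrad', real_inner_comm, inner_mHessE hf, real_inner_comm,
      inner_mHessE hh]
  -- step 2: the first slot
  have h2 : ∀ c d : Fin n, ∑ i, mHess n f p (e i) (mgrad n (u c) p) *
      mHess n h p (e i) (mgrad n (u d) p) =
      ∑ a, ∑ b, (gramM u p)⁻¹ a b * (mHess n f p (mgrad n (u a) p) (mgrad n (u c) p) *
        mHess n h p (mgrad n (u b) p) (mgrad n (u d) p)) := by
    intro c d
    have h3 : ∑ i, mHess n f p (e i) (mgrad n (u c) p) * mHess n h p (e i) (mgrad n (u d) p) =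
        inner ℝ (mHessE n f p (mgrad n (u c) p)) (mHessE n h p (mgrad n (u d) p)) := by
      rw [inner_frame he]
      refine Finset.sum_congr rfl fun i _ => ?_
      rw [inner_mHessE hf, inner_mHessE hh, mHess_symm hf, mHess_symm hh]
    rw [h3, h1]
    refine Finset.sum_congr rfl fun a _ => Finset.sum_congr rfl fun b _ => ?_
    rw [mHess_symm hf, mHess_symm hh (mgrad n (u d) p)]
  rw [mHessIn_frameE hf hh he]
  simp only [h1]
  rw [Finset.sum_comm]
  have h4 : ∀ c, ∑ i, ∑ d, (gramM u p)⁻¹ c d *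
      (mHess n f p (e i) (mgrad n (u c) p) * mHess n h p (e i) (mgrad n (u d) p)) =
      ∑ d, (gramM u p)⁻¹ c d * ∑ a, ∑ b, (gramM u p)⁻¹ a b *
        (mHess n f p (mgrad n (u a) p) (mgrad n (u c) p) *
        mHess n h p (mgrad n (u b) p) (mgrad n (u d) p)) := by
    intro c
    rw [Finset.sum_comm]
    refine Finset.sum_congr rfl fun d _ => ?_
    rw [← Finset.mul_sum, h2]
  simp only [h4, Finset.mul_sum]
  have h5 : ∀ c, ∑ d, ∑ a, ∑ b, (gramM u p)⁻¹ c d * ((gramM u p)⁻¹ a b *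
      (mHess n f p (mgrad n (u a) p) (mgrad n (u c) p) *
        mHess n h p (mgrad n (u b) p) (mgrad n (u d) p))) =
      ∑ a, ∑ b, ∑ d, (gramM u p)⁻¹ c d * ((gramM u p)⁻¹ a b *
      (mHess n f p (mgrad n (u a) p) (mgrad n (u c) p) *
        mHess n h p (mgrad n (u b) p) (mgrad n (u d) p))) := by
    intro c
    rw [Finset.sum_comm]
    exact Finset.sum_congr rfl fun a _ => Finset.sum_comm
  simp only [h5]
  rw [Finset.sum_comm]
  refine Finset.sum_congr rfl fun a _ => ?_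
  rw [Finset.sum_comm]
  refine Finset.sum_congr rfl fun b _ => Finset.sum_congr rfl fun c _ =>
    Finset.sum_congr rfl fun d _ => ?_
  ring

end Crest.Agent.R249.Vf281
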