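import Crest.Agent.R249.DicA_129
import Crest.Agent.R249.Vf3_281

/-!
Row 249, leaf DIC (helper129), part 2: the ring dictionary on a manifold.  For
`h : ONF (chartMetric n M z) (chartAt 𝔼 z).target y e`:

* `fg z f : SG y`  = germ at `y` of `f` read in the chart at `z`;
* `h.vg X k : SG y` = germ at `y` of `⟨X, e_k⟩` read in the chart at `z`.

All lemmas hold at every point `y` of the target of the chart; `y = chartCentre n M z` gives the
values at `z`.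
-/

set_option autoImplicit false
set_option maxSynthPendingDepth 3
set_option linter.unusedSectionVars false

open scoped ContDiff Topology Manifold
open Filter Set Bundle
open Crest.GeometryTopology.CoordMetric Crest.GeometryTopology.ChartCurvature
  Crest.GeometryTopology.PointedLimit
open Crest.Agent.R202.Tens
open Crest.Agent.R247.Bo84 Crest.Agent.R249.Vf281
open Crest.Agent.R249.Fr129

noncomputable section

namespace Crest.Agent.R249.Sg129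

variable {n : ℕ} {M : Type*} [TopologicalSpace M] [ChartedSpace (EuclideanSpace ℝ (Fin n)) M]
  [IsManifold 𝓘(ℝ, EuclideanSpace ℝ (Fin n)) ∞ M]
  [RiemannianBundle (fun x : M => TangentSpace 𝓘(ℝ, EuclideanSpace ℝ (Fin n)) x)]
  [IsContMDiffRiemannianBundle 𝓘(ℝ, EuclideanSpace ℝ (Fin n)) ∞ (EuclideanSpace ℝ (Fin n))
      (fun x : M => TangentSpace 𝓘(ℝ, EuclideanSpace ℝ (Fin n)) x)]

local notation "𝔼" => EuclideanSpace ℝ (Fin n)
local notation "𝓘E" => 𝓘(ℝ, EuclideanSpace ℝ (Fin n))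

/-! ### functions -/

/-- germ at `y` of a function on `M` read in the chart at `z` -/
def fg (z : M) {y : EuclideanSpace ℝ (Fin n)} (f : M → ℝ) : SG y := tg (inCh n z f)

variable {z : M} {y : EuclideanSpace ℝ (Fin n)} {f f' : M → ℝ}
  {X Y : (p : M) → TangentSpace 𝓘(ℝ, EuclideanSpace ℝ (Fin n)) p}

/-- smoothness in the chart -/
lemma sf (hy : y ∈ (chartAt 𝔼 z).target) (hf : ContMDiff 𝓘E 𝓘(ℝ, ℝ) ∞ f) :
    ContDiffAt ℝ ∞ (inCh n z f) y := contDiffAt_inCh le_rfl hy (hf _)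

lemma sv (hy : y ∈ (chartAt 𝔼 z).target) (hX : ∀ q, VSm n ∞ X q) :
    ContDiffAt ℝ ∞ (vCh n z X) y := VSm.chart le_rfl hy (hX _)

lemma ev_fg_at (hf : ContDiffAt ℝ ∞ (inCh n z f) y) :
    ev (fg z f : SG y) = f ((chartAt 𝔼 z).symm y) := ev_tg hf

lemma ev_fg (hf : ContMDiff 𝓘E 𝓘(ℝ, ℝ) ∞ f) : ev (fg z f : SG (chartCentre n M z)) = f z := by
  rw [ev_fg_at (sf (centre_mem z) hf)]
  exact inCh_centre f z

lemma fg_congr (h1 : ∀ᶠ w in 𝓝 y, f ((chartAt 𝔼 z).symm w) = f' ((chartAt 𝔼 z).symm w)) :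
    (fg z f : SG y) = fg z f' := tg_congr h1

lemma fg_eq_iff_at (hf : ContDiffAt ℝ ∞ (inCh n z f) y) (hf' : ContDiffAt ℝ ∞ (inCh n z f') y) :
    (fg z f : SG y) = fg z f' ↔
      ∀ᶠ w in 𝓝 y, f ((chartAt 𝔼 z).symm w) = f' ((chartAt 𝔼 z).symm w) := tg_eq_iff hf hf'

lemma fg_const (c : ℝ) : (fg z (fun _ => c) : SG y) = algebraMap ℝ (SG y) c := tg_const c

lemma fg_zero : (fg z (fun _ => (0:ℝ)) : SG y) = 0 := tg_zero

lemma fg_one : (fg z (fun _ => (1:ℝ)) : SG y) = 1 := tg_one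

lemma fg_add_at (hf : ContDiffAt ℝ ∞ (inCh n z f) y) (hf' : ContDiffAt ℝ ∞ (inCh n z f') y) :
    (fg z (fun q => f q + f' q) : SG y) = fg z f + fg z f' := tg_add hf hf'

lemma fg_sub_at (hf : ContDiffAt ℝ ∞ (inCh n z f) y) (hf' : ContDiffAt ℝ ∞ (inCh n z f') y) :
    (fg z (fun q => f q - f' q) : SG y) = fg z f - fg z f' := tg_sub hf hf'

lemma fg_neg_at (hf : ContDiffAt ℝ ∞ (inCh n z f) y) :
    (fg z (fun q => - f q) : SG y) = - fg z f := tg_neg hf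

lemma fg_mul_at (hf : ContDiffAt ℝ ∞ (inCh n z f) y) (hf' : ContDiffAt ℝ ∞ (inCh n z f') y) :
    (fg z (fun q => f q * f' q) : SG y) = fg z f * fg z f' := tg_mul hf hf'

lemma fg_smul_at (c : ℝ) (hf : ContDiffAt ℝ ∞ (inCh n z f) y) :
    (fg z (fun q => c * f q) : SG y) = c • fg z f := tg_smul c hf

lemma fg_sum_at {ι : Type*} (s : Finset ι) {F : ι → M → ℝ}
    (hF : ∀ i, ContDiffAt ℝ ∞ (inCh n z (F i)) y) :
    (fg z (fun q => ∑ i ∈ s, F i q) : SG y) = ∑ i ∈ s, fg z (F i) := tg_sum s hF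

lemma fg_add (hy : y ∈ (chartAt 𝔼 z).target) (hf : ContMDiff 𝓘E 𝓘(ℝ, ℝ) ∞ f)
    (hf' : ContMDiff 𝓘E 𝓘(ℝ, ℝ) ∞ f') :
    (fg z (fun q => f q + f' q) : SG y) = fg z f + fg z f' := fg_add_at (sf hy hf) (sf hy hf')

lemma fg_sub (hy : y ∈ (chartAt 𝔼 z).target) (hf : ContMDiff 𝓘E 𝓘(ℝ, ℝ) ∞ f)
    (hf' : ContMDiff 𝓘E 𝓘(ℝ, ℝ) ∞ f') :
    (fg z (fun q => f q - f' q) : SG y) = fg z f - fg z f' := fg_sub_at (sf hy hf) (sf hy hf')

lemma fg_neg (hy : y ∈ (chartAt 𝔼 z).target) (hf : ContMDiff 𝓘E 𝓘(ℝ, ℝ) ∞ f) :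
    (fg z (fun q => - f q) : SG y) = - fg z f := fg_neg_at (sf hy hf)

lemma fg_mul (hy : y ∈ (chartAt 𝔼 z).target) (hf : ContMDiff 𝓘E 𝓘(ℝ, ℝ) ∞ f)
    (hf' : ContMDiff 𝓘E 𝓘(ℝ, ℝ) ∞ f') :
    (fg z (fun q => f q * f' q) : SG y) = fg z f * fg z f' := fg_mul_at (sf hy hf) (sf hy hf')

lemma fg_smul (hy : y ∈ (chartAt 𝔼 z).target) (c : ℝ) (hf : ContMDiff 𝓘E 𝓘(ℝ, ℝ) ∞ f) :
    (fg z (fun q => c * f q) : SG y) = c • fg z f := fg_smul_at c (sf hy hf)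

lemma fg_sum (hy : y ∈ (chartAt 𝔼 z).target) {ι : Type*} (s : Finset ι) {F : ι → M → ℝ}
    (hF : ∀ i, ContMDiff 𝓘E 𝓘(ℝ, ℝ) ∞ (F i)) :
    (fg z (fun q => ∑ i ∈ s, F i q) : SG y) = ∑ i ∈ s, fg z (F i) := fg_sum_at s fun i => sf hy (hF i)

/-! ### fields: reading in the chart -/

lemma inCh_inner (hy : y ∈ (chartAt 𝔼 z).target) :
    inCh n z (fun q => (inner ℝ (X q) (Y q) : ℝ)) =ᶠ[𝓝 y]
      fun w => bil (chartMetric n M z w) (vCh n z X w) (vCh n z Y w) := by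
  filter_upwards [(chartAt 𝔼 z).open_target.mem_nhds hy] with w hw
  have h1 := inner_eq_bil (n := n) z ((chartAt 𝔼 z).map_target hw)
    (X ((chartAt 𝔼 z).symm w)) (Y ((chartAt 𝔼 z).symm w))
  rw [(chartAt 𝔼 z).right_inv hw] at h1
  exact h1

/-- the field `∇_Y X` in the chart -/
lemma vCh_mCov {w : 𝔼} (hw : w ∈ (chartAt 𝔼 z).target)
    (hX : VSm n 1 X ((chartAt 𝔼 z).symm w)) :
    vCh n z (fun q => mCov n X q (Y q)) w = cov (chartMetric n M z) (vCh n z X) w (vCh n z Y w) := by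
  have h1 := mCov_chart hw hX (vCh n z Y w)
  rw [dSy_vCh hw] at h1
  have h2 : vCh n z (fun q => mCov n X q (Y q)) w
      = dCh z ((chartAt 𝔼 z).symm w)
        (mCov n X ((chartAt 𝔼 z).symm w) (Y ((chartAt 𝔼 z).symm w))) := rfl
  rw [h2, h1, dCh_dSy z hw]

/-- smooth near a point of a chart -/
lemma VSm1_near (hy : y ∈ (chartAt 𝔼 z).target) (hX : ContDiffAt ℝ ∞ (vCh n z X) y) :
    ∀ᶠ w in 𝓝 y, w ∈ (chartAt 𝔼 z).target ∧ VSm n 1 X ((chartAt 𝔼 z).symm w) := by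
  have h1 : ∀ᶠ w in 𝓝 y, ContDiffAt ℝ 1 (vCh n z X) w :=
    (hX.of_le (m := 1) one_le_infty).eventually (by norm_num)
  filter_upwards [h1, (chartAt 𝔼 z).open_target.mem_nhds hy] with w hw hwt
  refine ⟨hwt, VSm.of_chart one_le_infty ((chartAt 𝔼 z).map_target hwt) ?_⟩
  rw [(chartAt 𝔼 z).right_inv hwt]
  exact hw

lemma vCh_mCov_ev (hy : y ∈ (chartAt 𝔼 z).target) (hX : ContDiffAt ℝ ∞ (vCh n z X) y) :
    vCh n z (fun q => mCov n X q (Y q)) =ᶠ[𝓝 y]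
      fun w => cov (chartMetric n M z) (vCh n z X) w (vCh n z Y w) := by
  filter_upwards [VSm1_near hy hX] with w hw
  exact vCh_mCov hw.1 hw.2

lemma cd_vCh_mCov (hy : y ∈ (chartAt 𝔼 z).target) (hX : ContDiffAt ℝ ∞ (vCh n z X) y)
    (hY : ContDiffAt ℝ ∞ (vCh n z Y) y) :
    ContDiffAt ℝ ∞ (vCh n z (fun q => mCov n X q (Y q))) y := by
  refine ContDiffAt.congr_of_eventuallyEq ?_ (vCh_mCov_ev hy hX)
  exact (contDiffAt_cov (isRiemannianOn_chartMetric (n := n) z) hy (m := ∞) hX (by simp)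
    le_rfl).clm_apply hY

/-- **`∇_Y X` is smooth** -/
theorem VSm_mCov {q : M} (hX : VSm n ∞ X q) (hY : VSm n ∞ Y q) :
    VSm n ∞ (fun q => mCov n X q (Y q)) q := cd_vCh_mCov (centre_mem q) hX hY

/-- **`⟨X, Y⟩` is smooth** -/
theorem contMDiffAt_inner {q : M} (hX : VSm n ∞ X q) (hY : VSm n ∞ Y q) :
    ContMDiffAt 𝓘E 𝓘(ℝ, ℝ) ∞ (fun q => (inner ℝ (X q) (Y q) : ℝ)) q := by
  refine contMDiffAt_of_inCh (x₀ := q) le_rfl (mem_chart_source 𝔼 q) ?_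
  refine ContDiffAt.congr_of_eventuallyEq ?_ (inCh_inner (z := q) (centre_mem q))
  have hg := isRiemannianOn_chartMetric (n := n) q
  simp only [bil_apply]
  refine ContDiffAt.sum fun a _ => ContDiffAt.sum fun b _ => ?_
  exact ((contDiffAt_entry hg (centre_mem q) a b).mul
    ((EuclideanSpace.proj a : EuclideanSpace ℝ (Fin n) →L[ℝ] ℝ).contDiff.contDiffAt.comp _ hX)).mul
    ((EuclideanSpace.proj b : EuclideanSpace ℝ (Fin n) →L[ℝ] ℝ).contDiff.contDiffAt.comp _ hY)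

theorem contMDiff_inner (hX : ∀ q, VSm n ∞ X q) (hY : ∀ q, VSm n ∞ Y q) :
    ContMDiff 𝓘E 𝓘(ℝ, ℝ) ∞ (fun q => (inner ℝ (X q) (Y q) : ℝ)) :=
  fun q => contMDiffAt_inner (hX q) (hY q)

theorem contMDiff_mDiv (hX : ∀ q, VSm n ∞ X q) : ContMDiff 𝓘E 𝓘(ℝ, ℝ) ∞ (mDiv n X) := by
  intro q
  refine contMDiffAt_of_inCh (x₀ := q) le_rfl (mem_chart_source 𝔼 q) ?_
  have hg := isRiemannianOn_chartMetric (n := n) q
  have h1 : inCh n q (mDiv n X) =ᶠ[𝓝 (chartCentre n M q)]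
      divg (chartMetric n M q) (vCh n q X) := by
    filter_upwards [VSm1_near (centre_mem q) (hX q)] with w hw
    exact mDiv_chart hw.1 hw.2
  exact (contDiffAt_divg hg (centre_mem q) (a := ∞) (hX q) (by simp) (by simp)).congr_of_eventuallyEq h1

theorem VSm_mgrad_top (hf : ContMDiff 𝓘E 𝓘(ℝ, ℝ) ∞ f) (q : M) : VSm n ∞ (mgrad n f) q :=
  VSm_mgrad (hf q) (by simp) le_rfl

namespace ONF

variable {e : Fin n → EuclideanSpace ℝ (Fin n) → EuclideanSpace ℝ (Fin n)}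

/-- components of a vector field of `M` in the frame -/
def vg (h : ONF (chartMetric n M z) (chartAt (EuclideanSpace ℝ (Fin n)) z).target y e)
    (X : (p : M) → TangentSpace 𝓘(ℝ, EuclideanSpace ℝ (Fin n)) p) (k : Fin n) : SG y :=
  h.vt (vCh n z X) k

variable (h : ONF (chartMetric n M z) (chartAt (EuclideanSpace ℝ (Fin n)) z).target y e)
include h

lemma vg_eq (k : Fin n) : h.vg X k
    = tg (fun w => bil (chartMetric n M z w) (vCh n z X w) (e k w)) := rfl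

/-! #### pointwise versions (smoothness in the chart at `y`) -/

lemma vg_congr (hXY : ∀ᶠ w in 𝓝 y, X ((chartAt 𝔼 z).symm w) = Y ((chartAt 𝔼 z).symm w)) :
    h.vg X = h.vg Y := by
  refine h.vt_congr ?_
  filter_upwards [hXY] with w hw
  rw [vCh, vCh, hw]

lemma ev_vg_at (hX : ContDiffAt ℝ ∞ (vCh n z X) y) (k : Fin n) :
    ev (h.vg X k) = bil (chartMetric n M z y) (vCh n z X y) (e k y) := h.ev_vt hX k

lemma vg_add_at (hX : ContDiffAt ℝ ∞ (vCh n z X) y) (hY : ContDiffAt ℝ ∞ (vCh n z Y) y)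
    (k : Fin n) : h.vg (fun q => X q + Y q) k = h.vg X k + h.vg Y k := by
  rw [vg, show vCh n z (fun q => X q + Y q) = fun w => vCh n z X w + vCh n z Y w from
    funext fun w => vCh_add X Y z w]
  exact h.vt_add hX hY k

lemma vg_neg_at (hX : ContDiffAt ℝ ∞ (vCh n z X) y) (k : Fin n) :
    h.vg (fun q => - X q) k = - h.vg X k := by
  rw [vg, show vCh n z (fun q => - X q) = fun w => - vCh n z X w from
    funext fun w => vCh_neg X z w]
  exact h.vt_neg hX k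

lemma vg_smul_at (hf : ContDiffAt ℝ ∞ (inCh n z f) y) (hX : ContDiffAt ℝ ∞ (vCh n z X) y)
    (k : Fin n) : h.vg (fun q => f q • X q) k = fg z f * h.vg X k := by
  rw [vg, show vCh n z (fun q => f q • X q) = fun w => inCh n z f w • vCh n z X w from
    funext fun w => vCh_smul f X z w]
  exact h.vt_smul hf hX k

lemma vg_csmul_at (c : ℝ) (hX : ContDiffAt ℝ ∞ (vCh n z X) y)
    (k : Fin n) : h.vg (fun q => c • X q) k = c • h.vg X k := by
  rw [vg, show vCh n z (fun q => c • X q) = fun w => c • vCh n z X w from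
    funext fun w => vCh_smul (fun _ => c) X z w]
  exact h.vt_csmul c hX k

omit [IsManifold 𝓘(ℝ, EuclideanSpace ℝ (Fin n)) ∞ M]
  [RiemannianBundle (fun x : M => TangentSpace 𝓘(ℝ, EuclideanSpace ℝ (Fin n)) x)]
  [IsContMDiffRiemannianBundle 𝓘(ℝ, EuclideanSpace ℝ (Fin n)) ∞ (EuclideanSpace ℝ (Fin n))
      (fun x : M => TangentSpace 𝓘(ℝ, EuclideanSpace ℝ (Fin n)) x)] h in
lemma vCh_sum {ι : Type*} (s : Finset ι)
    (F : ι → (p : M) → TangentSpace 𝓘(ℝ, EuclideanSpace ℝ (Fin n)) p) (z : M) (w : 𝔼) :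
    vCh n z (fun q => ∑ i ∈ s, F i q) w = ∑ i ∈ s, vCh n z (F i) w :=
  map_sum (dCh z ((chartAt 𝔼 z).symm w)) (fun i => (F i ((chartAt 𝔼 z).symm w) : 𝔼)) s

lemma vg_sum_at {ι : Type*} (s : Finset ι)
    {F : ι → (p : M) → TangentSpace 𝓘(ℝ, EuclideanSpace ℝ (Fin n)) p}
    (hF : ∀ i, ContDiffAt ℝ ∞ (vCh n z (F i)) y) (k : Fin n) :
    h.vg (fun q => ∑ i ∈ s, F i q) k = ∑ i ∈ s, h.vg (F i) k := by
  rw [vg, show vCh n z (fun q => ∑ i ∈ s, F i q) = fun w => ∑ i ∈ s, vCh n z (F i) w from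
    funext fun w => vCh_sum s F z w]
  exact h.vt_sum s hF k

lemma fg_inner_at (hX : ContDiffAt ℝ ∞ (vCh n z X) y) (hY : ContDiffAt ℝ ∞ (vCh n z Y) y) :
    (fg z (fun q => (inner ℝ (X q) (Y q) : ℝ)) : SG y) = ∑ k, h.vg X k * h.vg Y k := by
  rw [fg, tg_congr (inCh_inner h.mem)]
  exact h.vt_bil hX hY

lemma vg_mgrad_at (hf : ContDiffAt ℝ ∞ (inCh n z f) y) (k : Fin n) :
    h.vg (mgrad n f) k = h.frameOf.D k (fg z f) := by
  rw [vg, h.vt_congr (eventually_vCh_mgrad h.mem f)]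
  exact h.vt_grad hf k

lemma fg_dM_at (hf : ContDiffAt ℝ ∞ (inCh n z f) y) (hX : ContDiffAt ℝ ∞ (vCh n z X) y) :
    (fg z (fun q => Crest.Agent.R247.Bo84.dM n f q (X q)) : SG y) = ∑ k, h.vg X k * h.frameOf.D k (fg z f) := by
  have h1 : inCh n z (fun q => Crest.Agent.R247.Bo84.dM n f q (X q)) =ᶠ[𝓝 y]
      fun w => fderiv ℝ (inCh n z f) w (vCh n z X w) := by
    filter_upwards [(chartAt 𝔼 z).open_target.mem_nhds h.mem] with w hw
    rw [fderiv_inCh hw, dSy_vCh hw]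
    rfl
  rw [fg, tg_congr h1]
  exact h.tg_dir hf hX

lemma vg_mCov_at (hX : ContDiffAt ℝ ∞ (vCh n z X) y) (hY : ContDiffAt ℝ ∞ (vCh n z Y) y)
    (j : Fin n) : h.vg (fun q => mCov n X q (Y q)) j
      = ∑ k, h.vg Y k * h.frameOf.cov h.frameOf.tan k (h.vg X) j := by
  rw [vg, h.vt_congr (vCh_mCov_ev h.mem hX)]
  exact h.vt_cov hX hY j

lemma fg_mDiv_at (hX : ContDiffAt ℝ ∞ (vCh n z X) y) :
    (fg z (mDiv n X) : SG y) = ∑ k, h.frameOf.cov h.frameOf.tan k (h.vg X) k := by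
  have h1 : inCh n z (mDiv n X) =ᶠ[𝓝 y] divg (chartMetric n M z) (vCh n z X) := by
    filter_upwards [VSm1_near h.mem hX] with w hw
    exact mDiv_chart hw.1 hw.2
  rw [fg, tg_congr h1]
  exact h.tg_divg hX

/-- the components determine the field near the point -/
lemma vg_inj_at (hX : ContDiffAt ℝ ∞ (vCh n z X) y) (hY : ContDiffAt ℝ ∞ (vCh n z Y) y)
    (hXY : ∀ k, h.vg X k = h.vg Y k) :
    ∀ᶠ w in 𝓝 y, X ((chartAt 𝔼 z).symm w) = Y ((chartAt 𝔼 z).symm w) := by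
  filter_upwards [h.vt_inj hX hY hXY, (chartAt 𝔼 z).open_target.mem_nhds h.mem] with w hw hwt
  rw [← dSy_vCh (X := X) hwt, ← dSy_vCh (X := Y) hwt, hw]

/-! #### global versions -/

lemma vg_add (hX : ∀ q, VSm n ∞ X q) (hY : ∀ q, VSm n ∞ Y q) (k : Fin n) :
    h.vg (fun q => X q + Y q) k = h.vg X k + h.vg Y k := h.vg_add_at (sv h.mem hX) (sv h.mem hY) k

lemma vg_neg (hX : ∀ q, VSm n ∞ X q) (k : Fin n) :
    h.vg (fun q => - X q) k = - h.vg X k := h.vg_neg_at (sv h.mem hX) k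

lemma vg_smul (hf : ContMDiff 𝓘E 𝓘(ℝ, ℝ) ∞ f) (hX : ∀ q, VSm n ∞ X q) (k : Fin n) :
    h.vg (fun q => f q • X q) k = fg z f * h.vg X k := h.vg_smul_at (sf h.mem hf) (sv h.mem hX) k

lemma vg_csmul (c : ℝ) (hX : ∀ q, VSm n ∞ X q) (k : Fin n) :
    h.vg (fun q => c • X q) k = c • h.vg X k := h.vg_csmul_at c (sv h.mem hX) k

lemma vg_sum {ι : Type*} (s : Finset ι)
    {F : ι → (p : M) → TangentSpace 𝓘(ℝ, EuclideanSpace ℝ (Fin n)) p}
    (hF : ∀ i q, VSm n ∞ (F i) q) (k : Fin n) :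
    h.vg (fun q => ∑ i ∈ s, F i q) k = ∑ i ∈ s, h.vg (F i) k :=
  h.vg_sum_at s (fun i => sv h.mem (hF i)) k

lemma fg_inner (hX : ∀ q, VSm n ∞ X q) (hY : ∀ q, VSm n ∞ Y q) :
    (fg z (fun q => (inner ℝ (X q) (Y q) : ℝ)) : SG y) = ∑ k, h.vg X k * h.vg Y k :=
  h.fg_inner_at (sv h.mem hX) (sv h.mem hY)

lemma vg_mgrad (hf : ContMDiff 𝓘E 𝓘(ℝ, ℝ) ∞ f) (k : Fin n) :
    h.vg (mgrad n f) k = h.frameOf.D k (fg z f) := h.vg_mgrad_at (sf h.mem hf) k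

lemma fg_dM (hf : ContMDiff 𝓘E 𝓘(ℝ, ℝ) ∞ f) (hX : ∀ q, VSm n ∞ X q) :
    (fg z (fun q => Crest.Agent.R247.Bo84.dM n f q (X q)) : SG y) = ∑ k, h.vg X k * h.frameOf.D k (fg z f) :=
  h.fg_dM_at (sf h.mem hf) (sv h.mem hX)

lemma vg_mCov (hX : ∀ q, VSm n ∞ X q) (hY : ∀ q, VSm n ∞ Y q) (j : Fin n) :
    h.vg (fun q => mCov n X q (Y q)) j
      = ∑ k, h.vg Y k * h.frameOf.cov h.frameOf.tan k (h.vg X) j :=
  h.vg_mCov_at (sv h.mem hX) (sv h.mem hY) j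

lemma fg_mDiv (hX : ∀ q, VSm n ∞ X q) :
    (fg z (mDiv n X) : SG y) = ∑ k, h.frameOf.cov h.frameOf.tan k (h.vg X) k :=
  h.fg_mDiv_at (sv h.mem hX)

end ONF

/-! ### values at the centre -/

namespace ONF

variable {e : Fin n → EuclideanSpace ℝ (Fin n) → EuclideanSpace ℝ (Fin n)}

/-- the frame vectors at `z` -/
def bv (_h : ONF (chartMetric n M z) (chartAt (EuclideanSpace ℝ (Fin n)) z).target
    (chartCentre n M z) e) (k : Fin n) : TangentSpace 𝓘(ℝ, EuclideanSpace ℝ (Fin n)) z :=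
  tv z (e k (chartCentre n M z))

variable (h : ONF (chartMetric n M z) (chartAt (EuclideanSpace ℝ (Fin n)) z).target
  (chartCentre n M z) e)
include h

lemma dCh_bv (k : Fin n) : dCh z z (h.bv k) = e k (chartCentre n M z) := dCh_tv z _

lemma inner_bv (v : TangentSpace 𝓘E z) (k : Fin n) : inner ℝ v (h.bv k)
    = bil (chartMetric n M z (chartCentre n M z)) (dCh z z v) (e k (chartCentre n M z)) := by
  rw [inner_centre, h.dCh_bv]

lemma orth_bv (a b : Fin n) : inner ℝ (h.bv a) (h.bv b) = if a = b then (1:ℝ) else 0 := by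
  rw [h.inner_bv, h.dCh_bv, h.orth.self_of_nhds]

lemma sum_bv (v : TangentSpace 𝓘E z) : ∑ k, (inner ℝ v (h.bv k) : ℝ) • h.bv k = v := by
  have h1 : dCh z z (∑ k, (inner ℝ v (h.bv k) : ℝ) • h.bv k) = dCh z z v := by
    have h2 : dCh z z (∑ k, (inner ℝ v (h.bv k) : ℝ) • h.bv k)
        = ∑ k, (inner ℝ v (h.bv k) : ℝ) • dCh z z (h.bv k) :=
      (map_sum (dCh z z) (fun k => ((inner ℝ v (h.bv k) : ℝ) • h.bv k : 𝔼)) Finset.univ).trans
        (Finset.sum_congr rfl fun k _ => map_smul (dCh z z) _ _)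
    rw [h2]
    simp only [h.dCh_bv, h.inner_bv]
    exact (h.isFrame_self.expand h.riem h.mem (dCh z z v)).symm
  have h3 := fun v : TangentSpace 𝓘E z => dSy_dCh z (mem_chart_source 𝔼 z) v
  exact (h3 _).symm.trans ((congrArg (dSy z (chartAt 𝔼 z z)) h1).trans (h3 v))

lemma ev_vg (hX : ∀ q, VSm n ∞ X q) (k : Fin n) : ev (h.vg X k) = inner ℝ (X z) (h.bv k) := by
  rw [h.ev_vg_at (sv h.mem hX), h.inner_bv, vCh_centre]

lemma ev_vg' (hX : VSm n ∞ X z) (k : Fin n) : ev (h.vg X k) = inner ℝ (X z) (h.bv k) := by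
  rw [h.ev_vg_at hX, h.inner_bv, vCh_centre]

lemma eq_sum_ev_vg (hX : ∀ q, VSm n ∞ X q) : X z = ∑ k, ev (h.vg X k) • h.bv k := by
  simp only [h.ev_vg hX]
  exact (h.sum_bv (X z)).symm

end ONF

end Crest.Agent.R249.Sg129
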