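import Crest.Agent.R249.SgC_129

/-!
Hessian, Laplacian, gradient, Ricci tensor, Einstein condition and sectional curvature of
`frameOf`. (row 249, helper129)
-/

set_option autoImplicit false
set_option linter.unusedSectionVars false

open scoped ContDiff Topology
open Filter Set Finset
open Crest.GeometryTopology.CoordMetric Crest.GeometryTopology.ChartCurvature
open Crest.Agent.R202.Tens Crest.Agent.R247.Bo84
open Crest.Agent.R249.Fr129
open Crest.Agent.R249.Fr129.Frame (half two_half)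

noncomputable section

namespace Crest.Agent.R249.Sg129

variable {n : ℕ}

local notation "𝔼" => EuclideanSpace ℝ (Fin n)

section ring

variable {S : Type*} [CommRing S] [Algebra ℝ S] (C : MF n S)

/-- Ricci tensor in the frame, through the coordinate curvature. -/
lemma MF.Ric_eq (j k : Fin n) : C.frame.Ric j k
    = ∑ b, ∑ c, (∑ m, C.Rc m b m c) * C.E b j * C.E c k := by
  have hE : ∀ a m, ∑ i, (∑ d, C.E d i * C.g d m) * C.E a i = if a = m then 1 else 0 := by
    intro a m
    have := congrFun (congrFun C.E_Et_g a) m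
    rw [Matrix.mul_apply, Matrix.one_apply] at this
    rw [← this]
    refine sum_congr rfl fun i _ => ?_
    rw [Matrix.mul_apply, mul_comm]
    rfl
  simp only [Frame.Ric, C.Rm_eq]
  calc ∑ i, ∑ m, (∑ d, C.E d i * C.g d m) * ∑ c, (∑ a, ∑ b, C.E a i * C.E b j * C.Rc a b m c) * C.E c k
      = ∑ i, ∑ m, ∑ c, ∑ a, ∑ b, ((∑ d, C.E d i * C.g d m) * C.E a i) *
          (C.E b j * C.Rc a b m c * C.E c k) := by
        refine sum_congr rfl fun i _ => sum_congr rfl fun m _ => ?_
        generalize ∑ d, C.E d i * C.g d m = z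
        rw [mul_sum]
        refine sum_congr rfl fun c _ => ?_
        rw [sum_mul, mul_sum]
        refine sum_congr rfl fun a _ => ?_
        rw [sum_mul, mul_sum]
        exact sum_congr rfl fun b _ => by ring
    _ = ∑ m, ∑ c, ∑ a, ∑ b, (∑ i, (∑ d, C.E d i * C.g d m) * C.E a i) *
          (C.E b j * C.Rc a b m c * C.E c k) := by
        rw [sum_comm]
        refine sum_congr rfl fun m _ => ?_
        rw [sum_comm]
        refine sum_congr rfl fun c _ => ?_
        rw [sum_comm]
        refine sum_congr rfl fun a _ => ?_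
        rw [sum_comm]
        refine sum_congr rfl fun b _ => ?_
        rw [sum_mul]
    _ = ∑ m, ∑ c, ∑ b, C.E b j * C.Rc m b m c * C.E c k := by
        refine sum_congr rfl fun m _ => sum_congr rfl fun c _ => ?_
        rw [sum_eq_single m]
        · simp [hE]
        · intro a _ ha
          simp [hE, ha]
        · simp
    _ = ∑ b, ∑ c, (∑ m, C.Rc m b m c) * C.E b j * C.E c k := by
        rw [sum_comm]
        simp_rw [sum_mul]
        rw [sum_comm (f := fun b c => ∑ m, C.Rc m b m c * C.E b j * C.E c k)]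
        refine sum_congr rfl fun c _ => ?_
        rw [sum_comm]
        exact sum_congr rfl fun b _ => sum_congr rfl fun m _ => by ring

end ring

variable {g : MetricField n} {U : Set (EuclideanSpace ℝ (Fin n))} {x : EuclideanSpace ℝ (Fin n)}
  {e : Fin n → EuclideanSpace ℝ (Fin n) → EuclideanSpace ℝ (Fin n)}

lemma curv_sum {ι : Type*} (s : Finset ι) (Γ : 𝔼 → 𝔼 →L[ℝ] 𝔼 →L[ℝ] 𝔼) (x : 𝔼) (a : ι → ℝ)
    (W : ι → 𝔼) (X Y : 𝔼) :
    curv Γ x (∑ i ∈ s, a i • W i) X Y = ∑ i ∈ s, a i • curv Γ x (W i) X Y := by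
  simp only [curv, map_sum, map_smul, _root_.sum_apply, smul_apply, smul_sub, smul_add,
    sum_add_distrib, sum_sub_distrib]

lemma curv_sum2 {ι : Type*} (s : Finset ι) (Γ : 𝔼 → 𝔼 →L[ℝ] 𝔼 →L[ℝ] 𝔼) (x : 𝔼) (a : ι → ℝ)
    (W : 𝔼) (X : ι → 𝔼) (Y : 𝔼) :
    curv Γ x W (∑ i ∈ s, a i • X i) Y = ∑ i ∈ s, a i • curv Γ x W (X i) Y := by
  simp only [curv, map_sum, map_smul, _root_.sum_apply, smul_apply, smul_sub, smul_add,
    sum_add_distrib, sum_sub_distrib]

lemma curv_sum3 {ι : Type*} (s : Finset ι) (Γ : 𝔼 → 𝔼 →L[ℝ] 𝔼 →L[ℝ] 𝔼) (x : 𝔼) (a : ι → ℝ)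
    (W X : 𝔼) (Y : ι → 𝔼) :
    curv Γ x W X (∑ i ∈ s, a i • Y i) = ∑ i ∈ s, a i • curv Γ x W X (Y i) := by
  simp only [curv, map_sum, map_smul, smul_sub, smul_add, sum_add_distrib, sum_sub_distrib]

/-- an orthonormal family is a frame in the sense of `Bo2_84` -/
lemma isFrame_of_orth {A : Matrix (Fin n) (Fin n) ℝ} {ξ : Fin n → EuclideanSpace ℝ (Fin n)}
    (h : ∀ a b, bil A (ξ a) (ξ b) = if a = b then 1 else 0) : IsFrame A ξ := by
  refine ⟨h, fun i j => ?_⟩
  set X : Matrix (Fin n) (Fin n) ℝ := Matrix.of fun i a => ξ a i with hX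
  have h1 : X.transpose * (A * X) = 1 := by
    ext a b
    rw [Matrix.one_apply, ← h a b, bil_apply, Matrix.mul_apply]
    refine Finset.sum_congr rfl fun i _ => ?_
    rw [Matrix.mul_apply, Finset.mul_sum]
    refine Finset.sum_congr rfl fun j _ => ?_
    simp only [hX, Matrix.transpose_apply, Matrix.of_apply]; ring
  have h2 : A * (X * X.transpose) = 1 := by
    have := mul_eq_one_comm.1 h1
    rw [← Matrix.mul_assoc]; exact this
  rw [Matrix.inv_eq_right_inv h2, Matrix.mul_apply]
  rfl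

namespace ONF

variable (h : ONF g U x e)
include h

lemma isFrame : ∀ᶠ y in 𝓝 x, IsFrame (g y) (fun i => e i y) := by
  filter_upwards [h.orth] with y hy using isFrame_of_orth hy

lemma isFrame_self : IsFrame (g x) (fun i => e i x) := h.isFrame.self_of_nhds

lemma cd_ricci (i j : Fin n) : ContDiffAt ℝ ∞ (fun y => ricci g y i j) x := by
  have : (fun y => ricci g y i j) =ᶠ[𝓝 x] fun y => ∑ k, riemann g y k i k j := by
    filter_upwards [eventually_mem h.riem h.mem] with y hy using ricci_eq_sum_riemann h.riem hy i j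
  exact (ContDiffAt.sum fun k _ => h.cd_riem k i k j).congr_of_eventuallyEq this

/-- Ricci tensor of the frame -/
theorem Ric_germ (j k : Fin n) : h.frameOf.Ric j k
    = germ (fun y => ∑ b, ∑ c, ricci g y c b * e j y b * e k y c)
      (ContDiffAt.sum fun b _ => ContDiffAt.sum fun c _ =>
        ((h.cd_ricci c b).mul (h.cd_e j b)).mul (h.cd_e k c)) := by
  rw [frameOf, MF.Ric_eq]
  simp only [mf_E, Rc_germ, germ_mul, germ_sum]
  refine germ_eq ?_
  filter_upwards [eventually_mem h.riem h.mem] with y hy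
  refine Finset.sum_congr rfl fun b _ => Finset.sum_congr rfl fun c _ => ?_
  rw [ricci_eq_sum_riemann h.riem hy]

/-- **Einstein condition** -/
theorem einstein {lam : ℝ} (hE : ∀ᶠ y in 𝓝 x, ∀ i j, ricci g y i j = lam * g y i j) :
    h.frameOf.Einstein (algebraMap ℝ (SG x) lam) := by
  intro j k
  rw [h.Ric_germ]
  have : ∀ᶠ y in 𝓝 x, ∑ b, ∑ c, ricci g y c b * e j y b * e k y c
      = if j = k then lam else 0 := by
    filter_upwards [hE, h.orth, eventually_mem h.riem h.mem] with y h1 h2 hy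
    have h3 : ∑ b, ∑ c, ricci g y c b * e j y b * e k y c = lam * bil (g y) (e j y) (e k y) := by
      rw [bil_apply, Finset.mul_sum]
      refine Finset.sum_congr rfl fun b _ => ?_
      rw [Finset.mul_sum]
      refine Finset.sum_congr rfl fun c _ => ?_
      rw [h1, metric_symm h.riem hy c b]; ring
    rw [h3, h2]; split_ifs <;> simp
  split_ifs with hjk
  · rw [algebraMap_eq]
    exact germ_eq (by filter_upwards [this] with y hy; rw [hy, if_pos hjk])
  · rw [← germ_zero]
    exact germ_eq (by filter_upwards [this] with y hy; rw [hy, if_neg hjk])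

lemma ev_Rm (i j k l : Fin n) : ev (h.frameOf.Rm i j k l)
    = bil (g x) (curv (Gam g) x (e i x) (e j x) (e k x)) (e l x) := by
  rw [h.Rm_germ, ev_germ]

/-- the curvature form on arbitrary vectors -/
lemma curv_expand (a b c d : Fin n → ℝ) :
    bil (g x) (curv (Gam g) x (∑ i, a i • e i x) (∑ j, b j • e j x) (∑ k, c k • e k x))
      (∑ l, d l • e l x)
      = ∑ i, ∑ j, ∑ k, ∑ l, ev (h.frameOf.Rm i j k l) * a i * b j * c k * d l := by
  rw [curv_sum]
  simp_rw [curv_sum2, curv_sum3]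
  simp only [map_sum, _root_.sum_apply, map_smul, smul_apply, smul_eq_mul, h.ev_Rm, Finset.mul_sum]
  rw [Finset.sum_comm]
  refine Finset.sum_congr rfl fun i _ => ?_
  rw [Finset.sum_comm]
  refine Finset.sum_congr rfl fun j _ => ?_
  rw [Finset.sum_comm]
  exact Finset.sum_congr rfl fun k _ => Finset.sum_congr rfl fun l _ => by ring

/-- **sectional curvature numerator** in the frame -/
theorem secNumer_frame (a b : Fin n → ℝ) :
    secNumer g x (∑ i, a i • e i x) (∑ i, b i • e i x)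
      = ∑ i, ∑ j, ∑ k, ∑ l, ev (h.frameOf.Rm i j k l) * a i * b j * b k * a l := by
  rw [secNumer_eq h.riem h.mem, h.curv_expand]

lemma nonneg (hK : ∀ u v : 𝔼, 0 ≤ secNumer g x u v) (a b : Fin n → ℝ) :
    0 ≤ ∑ i, ∑ j, ∑ k, ∑ l, ev (h.frameOf.Rm i j k l) * a i * b j * b k * a l := by
  rw [← h.secNumer_frame]; exact hK _ _

/-! ### functions -/

lemma cd_hess {f : 𝔼 → ℝ} (hf : ContDiffAt ℝ ∞ f x) (k l : Fin n) :
    ContDiffAt ℝ ∞ (fun y => hess g f y (e k y) (e l y)) x := by
  have hdf : ContDiffAt ℝ ∞ (fderiv ℝ f) x := hf.fderiv_right (m := ∞) (by simp)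
  have hddf : ContDiffAt ℝ ∞ (fderiv ℝ (fderiv ℝ f)) x := hdf.fderiv_right (m := ∞) (by simp)
  simp only [hess_apply]
  exact ((hddf.clm_apply (h.smooth k)).clm_apply (h.smooth l)).sub
    (hdf.clm_apply (((contDiffAt_Gam h.riem h.mem).clm_apply (h.smooth k)).clm_apply (h.smooth l)))

/-- Hessian in the frame -/
theorem hess0_germ {f : 𝔼 → ℝ} (hf : ContDiffAt ℝ ∞ f x) (k l : Fin n) :
    h.frameOf.hess0 k l (germ f hf) = germ (fun y => hess g f y (e k y) (e l y)) (h.cd_hess hf k l) := by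
  rw [Frame.hess0]
  simp only [h.D_germ, h.w_germ, germ_mul, germ_sum, germ_sub]
  refine germ_eq ?_
  have hdf : ContDiffAt ℝ ∞ (fderiv ℝ f) x := hf.fderiv_right (m := ∞) (by simp)
  filter_upwards [eventually_mem h.riem h.mem, h.isFrame,
    ((hdf.of_le (m := 1) (WithTop.coe_le_coe.2 le_top)).eventually (by norm_num)),
    (((h.smooth l).of_le (m := 1) (WithTop.coe_le_coe.2 le_top)).eventually (by norm_num))]
    with y hy hF h1 h2
  have h1' : DifferentiableAt ℝ (fderiv ℝ f) y := h1.differentiableAt (by norm_num)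
  have h2' : DifferentiableAt ℝ (e l) y := h2.differentiableAt (by norm_num)
  rw [fderiv_clm_apply h1' h2']
  have h3 : ∑ m, bil (g y) (cov g (e l) y (e k y)) (e m y) * fderiv ℝ f y (e m y)
      = fderiv ℝ f y (cov g (e l) y (e k y)) := by
    conv_rhs => rw [hF.expand h.riem hy (cov g (e l) y (e k y))]
    rw [map_sum]
    exact Finset.sum_congr rfl fun m _ => by rw [map_smul, smul_eq_mul]
  rw [h3, cov_apply, hess_apply, map_add]
  simp only [add_apply, ContinuousLinearMap.comp_apply, ContinuousLinearMap.flip_apply]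
  ring

lemma cd_lap {f : 𝔼 → ℝ} (hf : ContDiffAt ℝ ∞ f x) :
    ContDiffAt ℝ ∞ (laplaceBeltrami g f) x := by
  have : laplaceBeltrami g f =ᶠ[𝓝 x] fun y => ∑ a, hess g f y (e a y) (e a y) := by
    filter_upwards [eventually_mem h.riem h.mem, h.isFrame,
      ((hf.of_le (m := 2) (WithTop.coe_le_coe.2 le_top)).eventually (by norm_num))] with y hy hF h1
    exact lap_frame h.riem hy h1 hF
  exact (ContDiffAt.sum fun a _ => h.cd_hess hf a a).congr_of_eventuallyEq this

/-- **Laplacian** -/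
theorem lap0_germ {f : 𝔼 → ℝ} (hf : ContDiffAt ℝ ∞ f x) :
    h.frameOf.lap0 (germ f hf) = germ (laplaceBeltrami g f) (h.cd_lap hf) := by
  rw [Frame.lap0]
  simp only [h.hess0_germ, germ_sum]
  refine germ_eq ?_
  filter_upwards [eventually_mem h.riem h.mem, h.isFrame,
      ((hf.of_le (m := 2) (WithTop.coe_le_coe.2 le_top)).eventually (by norm_num))] with y hy hF h1
  exact (lap_frame h.riem hy h1 hF).symm

lemma cd_gam {f f' : 𝔼 → ℝ} (hf : ContDiffAt ℝ ∞ f x) (hf' : ContDiffAt ℝ ∞ f' x) :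
    ContDiffAt ℝ ∞ (gam g f f') x := by
  unfold gam
  exact ContDiffAt.sum fun i _ => ContDiffAt.sum fun j _ =>
    ((contDiffAt_inv h.riem h.mem i j).mul (contDiffAt_pd hf i)).mul (contDiffAt_pd hf' j)

omit h in
lemma gam_frame {f f' : 𝔼 → ℝ} {y : 𝔼} {ξ : Fin n → 𝔼} (hF : IsFrame (g y) ξ) :
    gam g f f' y = ∑ a, fderiv ℝ f y (ξ a) * fderiv ℝ f' y (ξ a) := by
  rw [gam]
  simp only [inverseField, hF.inv, fderiv_eq_sum, Finset.sum_mul, Finset.mul_sum]
  rw [Finset.sum_comm]
  have : ∀ j, ∑ i, ∑ a, ξ a i * ξ a j * pderiv i f y * pderiv j f' y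
      = ∑ a, ∑ i, ξ a i * ξ a j * pderiv i f y * pderiv j f' y := fun j => Finset.sum_comm
  simp only [this]
  rw [Finset.sum_comm]
  exact Finset.sum_congr rfl fun a _ => Finset.sum_congr rfl fun j _ =>
    Finset.sum_congr rfl fun i _ => by ring

/-- inner product of gradients -/
theorem gam_germ {f f' : 𝔼 → ℝ} (hf : ContDiffAt ℝ ∞ f x) (hf' : ContDiffAt ℝ ∞ f' x) :
    h.frameOf.gam (germ f hf) (germ f' hf') = germ (gam g f f') (h.cd_gam hf hf') := by
  rw [Frame.gam]
  simp only [h.D_germ, germ_mul, germ_sum]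
  refine germ_eq ?_
  filter_upwards [h.isFrame] with y hF
  exact (gam_frame hF).symm

end ONF

end Crest.Agent.R249.Sg129
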