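import Crest.Agent.R249.Tz2_805
import Crest.Agent.R249.SgD_129
import Crest.Agent.R249.C2j_198

/-!
Row 249, leaf T0 (helper805), part 0: FROZEN DEFINITIONS of the M-level objects of part C.

* `Bun n M κ`  : a vector bundle with metric connection, embedded in the trivial bundle `ℝ^κ`:
                 `p` the projection, `W` the connection form (skew matrix of smooth vector fields);
* `Bun.cv u a` : `(∇ u)_a = grad u_a + ∑_b u_b W_ab`;  `Bun.Sec u` : `p u = u`;
* `Bun.Om D X Y a b` : curvature;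
* `fg z f`, `vg z e X k` : germs at the centre of the chart at `z` of a function, of a component of a
                 vector field in the frame `e` (junk value 0 when not smooth);
* `LF D z h a j` : `j` (germs of `κ × ι` matrices) is a local orthonormal frame of `D`, with connection
                 matrices `a` over 129's frame ring `h.frameOf`;
* `Sym D0 D1`  : a symbol `T ⊗ E0 → E1` (matrix of smooth vector fields);
* `CLoc`       : at `z` the symbol is a parallel Clifford symbol `c` (198's `Par`, `clif`);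
* `opA`, `opB` : the first order operators; `potQ` : the potential `-(1/2) ∑ c_iᵀ c_j Ω_ij`.
-/

set_option autoImplicit false
set_option maxSynthPendingDepth 3
set_option linter.unusedSectionVars false

open Filter Topology Set Bundle Manifold Matrix
open scoped ContDiff
open Crest.GeometryTopology.CoordMetric Crest.GeometryTopology.ChartCurvature
  Crest.GeometryTopology.PointedLimit
open Crest.Agent.R202.Tens Crest.Agent.R247.Bo84 Crest.Agent.R249.FrmB_285 Crest.Agent.R249.Vf281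
  Crest.Agent.R249.Tz1_805 Crest.Agent.R249.Tz2_805
open Crest.Agent.R249.Fr129 Crest.Agent.R249.Sg129 Crest.Agent.R249.C2_198

noncomputable section

namespace Crest.Agent.R249.Tz805

variable {n : ℕ} {M : Type*} [TopologicalSpace M] [ChartedSpace (EuclideanSpace ℝ (Fin n)) M]
  [IsManifold 𝓘(ℝ, EuclideanSpace ℝ (Fin n)) ∞ M]
  [RiemannianBundle (fun x : M => TangentSpace 𝓘(ℝ, EuclideanSpace ℝ (Fin n)) x)]
  [IsContMDiffRiemannianBundle 𝓘(ℝ, EuclideanSpace ℝ (Fin n)) ∞ (EuclideanSpace ℝ (Fin n))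
      (fun x : M => TangentSpace 𝓘(ℝ, EuclideanSpace ℝ (Fin n)) x)]

local notation "𝔼" => EuclideanSpace ℝ (Fin n)
local notation "𝓘E" => 𝓘(ℝ, EuclideanSpace ℝ (Fin n))

variable (n M) in
/-- a bundle with metric connection inside a trivial bundle -/
structure Bun (κ : Type) [Fintype κ] where
  /-- connection form -/
  W : κ → κ → (z : M) → TangentSpace 𝓘(ℝ, EuclideanSpace ℝ (Fin n)) z
  /-- projection -/
  p : κ → κ → M → ℝ
  smW : ∀ a b z, VSm n ∞ (W a b) z
  skew : ∀ a b z, W a b z = - W b a z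
  smp : ∀ a b, ContMDiff 𝓘(ℝ, EuclideanSpace ℝ (Fin n)) 𝓘(ℝ, ℝ) ∞ (p a b)
  symmp : ∀ a b z, p a b z = p b a z
  idem : ∀ a b z, ∑ c, p a c z * p c b z = p a b z
  /-- `dp + [W, p] = 0` -/
  par : ∀ a b z, mgrad n (p a b) z + ∑ c, (p c b z • W a c z - p a c z • W c b z) = 0

namespace Bun

variable {κ : Type} [Fintype κ] (D : Bun n M κ)

/-- the covariant derivative of a section -/
def cv (u : κ → M → ℝ) (a : κ) (z : M) : TangentSpace 𝓘(ℝ, EuclideanSpace ℝ (Fin n)) z :=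
  mgrad n (u a) z + ∑ b, u b z • D.W a b z

/-- sections of the bundle -/
def Sec (u : κ → M → ℝ) : Prop := ∀ a z, ∑ b, D.p a b z * u b z = u a z

/-- curvature of the connection `d + W` (of the trivial bundle) -/
def Om (X Y : (z : M) → TangentSpace 𝓘(ℝ, EuclideanSpace ℝ (Fin n)) z) (a b : κ) (z : M) : ℝ :=
  inner ℝ (mCov n (D.W a b) z (X z)) (Y z) - inner ℝ (mCov n (D.W a b) z (Y z)) (X z)
    + ∑ c, (inner ℝ (D.W a c z) (X z) * inner ℝ (D.W c b z) (Y z)
      - inner ℝ (D.W a c z) (Y z) * inner ℝ (D.W c b z) (X z))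

end Bun

/-- smooth vector valued functions -/
def SmU {κ : Type} (u : κ → M → ℝ) : Prop := ∀ a, ContMDiff 𝓘E 𝓘(ℝ, ℝ) ∞ (u a)

/-! ### germs at the centre of the chart at `z` -/

open Classical in
/-- germ of a function on `M` -/
def fg (z : M) (f : M → ℝ) : SG (chartCentre n M z) :=
  if hf : ContDiffAt ℝ ∞ (f ∘ (chartAt (EuclideanSpace ℝ (Fin n)) z).symm) (chartCentre n M z)
  then germ _ hf else 0

open Classical in
/-- germ of the `k`-th component of a vector field in the frame `e` -/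
def vg (z : M) (e : Fin n → EuclideanSpace ℝ (Fin n) → EuclideanSpace ℝ (Fin n))
    (X : (p : M) → TangentSpace 𝓘(ℝ, EuclideanSpace ℝ (Fin n)) p) (k : Fin n) :
    SG (chartCentre n M z) :=
  if hf : ContDiffAt ℝ ∞ (fun y => bil (chartMetric n M z y) (vCh n z X y) (e k y))
    (chartCentre n M z) then germ _ hf else 0

section local_

variable {z : M} {e : Fin n → EuclideanSpace ℝ (Fin n) → EuclideanSpace ℝ (Fin n)}

/-- `j` is a local orthonormal frame of `D` at `z`, with connection matrices `a`. -/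
structure LF {κ : Type} [Fintype κ] (D : Bun n M κ)
    (h : ONF (chartMetric n M z) (chartAt (EuclideanSpace ℝ (Fin n)) z).target
      (chartCentre n M z) e)
    {ι : Type} [Fintype ι] [DecidableEq ι]
    (a : Fin n → Matrix ι ι (SG (chartCentre n M z)))
    (j : Matrix κ ι (SG (chartCentre n M z))) : Prop where
  jtj : jᵀ * j = 1
  jjt : j * jᵀ = Matrix.of fun x y => fg z (D.p x y)
  dj : ∀ k, dM (h.frameOf.D k) j + (Matrix.of fun x y => vg z e (D.W x y) k) * j = j * a k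

/-- at `z` the symbol `cc` is the parallel Clifford symbol `c`, in local frames `j0`, `j1` -/
structure CLoc {κ0 κ1 : Type} [Fintype κ0] [Fintype κ1] (D0 : Bun n M κ0) (D1 : Bun n M κ1)
    (cc : κ1 → κ0 → (p : M) → TangentSpace 𝓘(ℝ, EuclideanSpace ℝ (Fin n)) p)
    (h : ONF (chartMetric n M z) (chartAt (EuclideanSpace ℝ (Fin n)) z).target
      (chartCentre n M z) e)
    {ι0 ι1 : Type} [Fintype ι0] [DecidableEq ι0] [Fintype ι1] [DecidableEq ι1]
    (a0 : Fin n → Matrix ι0 ι0 (SG (chartCentre n M z)))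
    (a1 : Fin n → Matrix ι1 ι1 (SG (chartCentre n M z)))
    (c : Fin n → Matrix ι1 ι0 (SG (chartCentre n M z)))
    (j0 : Matrix κ0 ι0 (SG (chartCentre n M z)))
    (j1 : Matrix κ1 ι1 (SG (chartCentre n M z))) : Prop where
  l0 : LF D0 h a0 j0
  l1 : LF D1 h a1 j1
  par : Par h.frameOf a0 a1 c
  cl0 : ∀ i j, (c i)ᵀ * c j + (c j)ᵀ * c i = if i = j then 2 else 0
  cl1 : ∀ i j, c i * (c j)ᵀ + c j * (c i)ᵀ = if i = j then 2 else 0
  sym : ∀ x y k, vg z e (cc x y) k = (j1 * c k * j0ᵀ) x y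

end local_

/-! ### operators -/

section op

variable {κ κ0 κ1 : Type} [Fintype κ] [Fintype κ0] [Fintype κ1]

/-- `(A u)_x = ∑_y ⟨∇u_y, cc_xy⟩` -/
def opA (D0 : Bun n M κ0) (cc : κ1 → κ0 → (p : M) → TangentSpace 𝓘E p)
    (u : κ0 → M → ℝ) (x : κ1) (z : M) : ℝ :=
  ∑ y, inner ℝ (D0.cv u y z) (cc x y z)

/-- `(B w)_y = - ∑_x ⟨∇w_x, cc_xy⟩` -/
def opB (D1 : Bun n M κ1) (cc : κ1 → κ0 → (p : M) → TangentSpace 𝓘E p)
    (w : κ1 → M → ℝ) (y : κ0) (z : M) : ℝ :=
  - ∑ x, inner ℝ (D1.cv w x z) (cc x y z)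

/-- the potential `-(1/2) ∑_ij c_iᵀ c_j Ω_ij` of `B A` on `D0` -/
def potQ (s : PF n M κ) (D0 : Bun n M κ0) (cc : κ1 → κ0 → (p : M) → TangentSpace 𝓘E p)
    (y y' : κ0) (z : M) : ℝ :=
  - (1 / 2) * ∑ y'', ∑ x, ∑ C, ∑ D, inner ℝ (cc x y z) (s.s C z) * inner ℝ (cc x y'' z) (s.s D z)
    * D0.Om (s.s C) (s.s D) y'' y' z

end op

variable (n M) in
/-- a Clifford pair on `M`: two bundles, a symbol, Clifford and parallel at every point; the two
potentials are symmetric. -/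
structure CPair (κ κ0 κ1 : Type) [Fintype κ] [Fintype κ0] [Fintype κ1] where
  s : PF n M κ
  D0 : Bun n M κ0
  D1 : Bun n M κ1
  cc : κ1 → κ0 → (p : M) → TangentSpace 𝓘(ℝ, EuclideanSpace ℝ (Fin n)) p
  smc : ∀ x y z, VSm n ∞ (cc x y) z
  loc : ∀ z, ∃ e, ∃ h : ONF (chartMetric n M z) (chartAt (EuclideanSpace ℝ (Fin n)) z).target
      (chartCentre n M z) e, ∃ (ι0 ι1 : Type) (_ : Fintype ι0) (_ : DecidableEq ι0)
      (_ : Fintype ι1) (_ : DecidableEq ι1) (a0 : Fin n → Matrix ι0 ι0 (SG (chartCentre n M z)))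
      (a1 : Fin n → Matrix ι1 ι1 (SG (chartCentre n M z)))
      (c : Fin n → Matrix ι1 ι0 (SG (chartCentre n M z)))
      (j0 : Matrix κ0 ι0 (SG (chartCentre n M z))) (j1 : Matrix κ1 ι1 (SG (chartCentre n M z))),
      CLoc D0 D1 cc h a0 a1 c j0 j1
  sym0 : ∀ y y' z, potQ s D0 cc y y' z = potQ s D0 cc y' y z
  sym1 : ∀ x x' z, potQ s D1 (fun y x => cc x y) x x' z = potQ s D1 (fun y x => cc x y) x' x z

/-! ### raw objects of the construction (the `Bun`s are in `Tz3`, `Tz4`, ...) -/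

section raw

variable {κ : Type} [Fintype κ] (s : PF n M κ)

/-- projection of the tangent bundle: `p_AB = ⟨s_A, s_B⟩` -/
def tanP (A B : κ) (z : M) : ℝ := inner ℝ (s.s A z) (s.s B z)

open Classical in
/-- connection form of the tangent bundle:
`W_AB = ∑_C ⟨∇_{s_C} s_B, s_A⟩ s_C - ∑_C (δ_AC - p_AC) grad p_CB` -/
def tanW (A B : κ) (z : M) : TangentSpace 𝓘(ℝ, EuclideanSpace ℝ (Fin n)) z :=
  ∑ C, inner ℝ (mCov n (s.s B) z (s.s C z)) (s.s A z) • s.s C z
    - ∑ C, ((if A = C then 1 else 0) - tanP s A C z) • mgrad n (tanP s C B) z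

end raw

section raw4

variable {M4 : Type*} [TopologicalSpace M4] [ChartedSpace (EuclideanSpace ℝ (Fin 4)) M4]
  [IsManifold 𝓘(ℝ, EuclideanSpace ℝ (Fin 4)) ∞ M4]
  [RiemannianBundle (fun x : M4 => TangentSpace 𝓘(ℝ, EuclideanSpace ℝ (Fin 4)) x)]
  [IsContMDiffRiemannianBundle 𝓘(ℝ, EuclideanSpace ℝ (Fin 4)) ∞ (EuclideanSpace ℝ (Fin 4))
      (fun x : M4 => TangentSpace 𝓘(ℝ, EuclideanSpace ℝ (Fin 4)) x)]

/-- the frame `e` near `z` is positive for the volume form `vol`: the volume of fields is the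
determinant of their components. -/
def VolAt (vol : (z : M4) → (Fin 4 → TangentSpace 𝓘(ℝ, EuclideanSpace ℝ (Fin 4)) z) → ℝ) (z : M4)
    (e : Fin 4 → EuclideanSpace ℝ (Fin 4) → EuclideanSpace ℝ (Fin 4)) : Prop :=
  ∀ᶠ y in 𝓝 (chartCentre 4 M4 z),
    ∀ X : Fin 4 → (p : M4) → TangentSpace 𝓘(ℝ, EuclideanSpace ℝ (Fin 4)) p,
    vol ((chartAt (EuclideanSpace ℝ (Fin 4)) z).symm y)
        (fun i => X i ((chartAt (EuclideanSpace ℝ (Fin 4)) z).symm y))
      = (Matrix.of fun i j => bil (chartMetric 4 M4 z y) (vCh 4 z (X i) y) (e j y)).det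

/-- `vol` is a volume form: near every point there is a frame positive for it. -/
def IsVol (vol : (z : M4) → (Fin 4 → TangentSpace 𝓘(ℝ, EuclideanSpace ℝ (Fin 4)) z) → ℝ) : Prop :=
  ∀ z, ∃ e, ONF (chartMetric 4 M4 z) (chartAt (EuclideanSpace ℝ (Fin 4)) z).target
    (chartCentre 4 M4 z) e ∧ VolAt vol z e

variable {κ : Type} [Fintype κ] (s : PF 4 M4 κ)
  (vol : (z : M4) → (Fin 4 → TangentSpace 𝓘(ℝ, EuclideanSpace ℝ (Fin 4)) z) → ℝ)

/-- projection of `Λ⁻ ⊆ T ⊗ T`: `(1/4)(p_AC p_BD - p_AD p_BC - vol(s_A, s_B, s_C, s_D))` -/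
def lamP (x y : κ × κ) (z : M4) : ℝ :=
  (1 / 4) * (tanP s x.1 y.1 z * tanP s x.2 y.2 z - tanP s x.1 y.2 z * tanP s x.2 y.1 z
    - vol z ![s.s x.1 z, s.s x.2 z, s.s y.1 z, s.s y.2 z])

/-- the symbol of `D : (ℝ ⊕ Λ⁻) → T`, `κ0 = Option (κ × κ)`, `κ1 = κ`:
`cc_{A, none} = s_A`, `cc_{A, (C, D)} = 2 ∑_B p⁻_{(A,B),(C,D)} s_B`. -/
def ccR (A : κ) (x : Option (κ × κ)) (z : M4) : TangentSpace 𝓘(ℝ, EuclideanSpace ℝ (Fin 4)) z :=
  match x with
  | none => s.s A z
  | some y => 2 • ∑ B, lamP s vol (A, B) y z • s.s B z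

/-- twisting of a symbol by a bundle with projection `q`. -/
def ccT {κ0 κ1 κ2 : Type} (cc : κ1 → κ0 → (p : M4) → TangentSpace 𝓘(ℝ, EuclideanSpace ℝ (Fin 4)) p)
    (q : κ2 → κ2 → M4 → ℝ) (x : κ1 × κ2) (y : κ0 × κ2) (z : M4) :
    TangentSpace 𝓘(ℝ, EuclideanSpace ℝ (Fin 4)) z :=
  q x.2 y.2 z • cc x.1 y.1 z

end raw4

end Crest.Agent.R249.Tz805
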