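import Crest.Agent.R249.DenR_714
import Crest.Agent.R249.DicB_129
import Crest.Agent.R249.Tz0_805

/-!
# Row 249, PART C (helper714): the potential `potQ` in local frames

* `smooth_Om`, `smooth_potQ` : smoothness;
* `om_germ` : germ of the curvature `D.Om X Y a b = ∑ X_k Y_l (curv om k l) a b`;
* `pot_germ`  : germ of `potQ` in a frame;
* `potQ_germ` : in a local frame `j` of `D` and a frame `j'` of the other bundle, where the symbol is `j' c_k jᵀ`,
  the germ of `potQ` is `j * Q F a c * jᵀ`.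
-/

set_option autoImplicit false
set_option maxSynthPendingDepth 3
set_option linter.unusedSectionVars false

open Filter Topology Set Bundle Manifold Matrix
open scoped ContDiff
open Crest.GeometryTopology.CoordMetric Crest.GeometryTopology.ChartCurvature
  Crest.GeometryTopology.PointedLimit
open Crest.Agent.R202.Tens Crest.Agent.R249.FrmB_285 Crest.Agent.R249.Vf281
  Crest.Agent.R249.Tz1_805 Crest.Agent.R249.Tz2_805
open Crest.Agent.R247.Bo84 hiding dM
open Crest.Agent.R249.Fr129 Crest.Agent.R249.C2_198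
open Crest.Agent.R249.Sg129 (SG ONF germ ev dM dM_mul)

noncomputable section

namespace Crest.Agent.R249.HK9_714

section ring
variable {n : ℕ} {S : Type*} [CommRing S] [Algebra ℝ S] (F : Frame n S) {κ : Type*} [Fintype κ]

theorem om_ring (om : Fin n → Matrix κ κ S) (X Y : Fin n → S) (a b : κ) :
    (∑ j, (∑ k, X k * F.cov F.tan k (fun m => om m a b) j) * Y j)
      - (∑ j, (∑ k, Y k * F.cov F.tan k (fun m => om m a b) j) * X j)
      + ∑ c, ((∑ k, om k a c * X k) * (∑ k, om k c b * Y k)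
        - (∑ k, om k a c * Y k) * (∑ k, om k c b * X k))
    = ∑ k, ∑ l, X k * Y l * F.curv om k l a b := by
  have h1 : ∀ X Y : Fin n → S, ∑ j, (∑ k, X k * F.cov F.tan k (fun m => om m a b) j) * Y j
      = ∑ k, ∑ l, X k * Y l * (F.D k (om l a b) + ∑ m, F.w k m l * om m a b) := by
    intro X Y
    simp only [Finset.sum_mul]
    rw [Finset.sum_comm]
    refine Finset.sum_congr rfl fun k _ => Finset.sum_congr rfl fun l _ => ?_
    simp only [Frame.cov, Frame.tan]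
    ring
  have h2 : ∑ j, (∑ k, Y k * F.cov F.tan k (fun m => om m a b) j) * X j
      = ∑ k, ∑ l, X k * Y l * (F.D l (om k a b) + ∑ m, F.w l m k * om m a b) := by
    rw [h1, Finset.sum_comm]
    refine Finset.sum_congr rfl fun k _ => Finset.sum_congr rfl fun l _ => ?_
    ring
  have h3 : ∑ c, ((∑ k, om k a c * X k) * (∑ k, om k c b * Y k)
        - (∑ k, om k a c * Y k) * (∑ k, om k c b * X k))
      = ∑ k, ∑ l, X k * Y l * ∑ p, (om k a p * om l p b - om l a p * om k p b) := by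
    have h4 : ∀ X Y : Fin n → S, ∑ c, (∑ k, om k a c * X k) * (∑ k, om k c b * Y k)
        = ∑ k, ∑ l, X k * Y l * ∑ p, om k a p * om l p b := by
      intro X Y
      simp only [Finset.mul_sum, Finset.sum_mul]
      calc _ = ∑ c, ∑ k, ∑ l, om k a c * X k * (om l c b * Y l) :=
            Finset.sum_congr rfl fun c _ => Finset.sum_comm
        _ = ∑ k, ∑ c, ∑ l, om k a c * X k * (om l c b * Y l) := Finset.sum_comm
        _ = ∑ k, ∑ l, ∑ c, om k a c * X k * (om l c b * Y l) :=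
            Finset.sum_congr rfl fun k _ => Finset.sum_comm
        _ = _ := Finset.sum_congr rfl fun k _ => Finset.sum_congr rfl fun l _ =>
            Finset.sum_congr rfl fun p _ => by ring
    rw [Finset.sum_sub_distrib, h4, h4]
    rw [Finset.sum_comm (f := fun k l => Y k * X l * ∑ p, om k a p * om l p b),
      ← Finset.sum_sub_distrib]
    refine Finset.sum_congr rfl fun k _ => ?_
    rw [← Finset.sum_sub_distrib]
    refine Finset.sum_congr rfl fun l _ => ?_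
    rw [Finset.sum_sub_distrib]
    ring
  rw [h1, h2, h3, ← Finset.sum_sub_distrib, ← Finset.sum_add_distrib]
  refine Finset.sum_congr rfl fun k _ => ?_
  rw [← Finset.sum_sub_distrib, ← Finset.sum_add_distrib]
  refine Finset.sum_congr rfl fun l _ => ?_
  have h5 : ∑ m, F.w k m l * om m a b - ∑ m, F.w l m k * om m a b
      = - ∑ m, F.T k l m * om m a b := by
    rw [← Finset.sum_sub_distrib, ← Finset.sum_neg_distrib]
    refine Finset.sum_congr rfl fun m _ => ?_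
    rw [F.anti k m l, F.anti l m k, Frame.T]
    ring
  rw [Frame.curv]
  linear_combination (X k * Y l) * h5

variable {ι : Type*} [Fintype ι] [DecidableEq ι]

theorem skew_of_embed {om : Fin n → Matrix κ κ S} {a : Fin n → Matrix ι ι S} {j : Matrix κ ι S}
    (hom : Frame.Skew om) (hj : jᵀ * j = 1)
    (hdj : ∀ k, dM (F.D k) j + om k * j = j * a k) : Frame.Skew a := by
  have h1 : ∀ k, a k = jᵀ * dM (F.D k) j + jᵀ * om k * j := by
    intro k
    rw [Matrix.mul_assoc, ← Matrix.mul_add, hdj, ← Matrix.mul_assoc, hj, Matrix.one_mul]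
  have h2 : ∀ k, (om k)ᵀ = - om k := by
    intro k
    ext x y
    exact hom k y x
  have h3 : ∀ k, (dM (F.D k) j)ᵀ * j + jᵀ * dM (F.D k) j = 0 := by
    intro k
    have e1 : dM (F.D k) (jᵀ * j) = 0 := by
      rw [hj]
      ext x y
      by_cases hxy : x = y
      · subst hxy; simp [dM]
      · simp [dM, hxy]
    rw [dM_mul] at e1
    have e2 : dM (F.D k) jᵀ = (dM (F.D k) j)ᵀ := rfl
    rw [e2] at e1
    rw [← e1]
    try rw [add_comm]
  have h4 : ∀ k, (a k)ᵀ = - a k := by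
    intro k
    rw [h1 k, Matrix.transpose_add, Matrix.transpose_mul, Matrix.transpose_mul, Matrix.transpose_mul,
      Matrix.transpose_transpose, h2]
    have := h3 k
    rw [eq_neg_of_add_eq_zero_left this]
    simp only [Matrix.neg_mul, Matrix.mul_neg, Matrix.mul_assoc]
    abel
  intro k x y
  have := congrFun (congrFun (h4 k) y) x
  simpa using this

theorem curv_embed_t {om : Fin n → Matrix κ κ S} {a : Fin n → Matrix ι ι S} {j : Matrix κ ι S}
    (hom : Frame.Skew om) (hj : jᵀ * j = 1)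
    (hdj : ∀ k, dM (F.D k) j + om k * j = j * a k) (k l : Fin n) :
    jᵀ * F.curv om k l = F.curv a k l * jᵀ := by
  have ha := skew_of_embed F hom hj hdj
  have h1 := congrArg Matrix.transpose (curv_embed F hdj k l)
  rw [Matrix.transpose_mul, Matrix.transpose_mul] at h1
  have h2 : (F.curv om k l)ᵀ = - F.curv om k l := by
    ext x y
    exact Frame.curv_skew F hom k l y x
  have h3 : (F.curv a k l)ᵀ = - F.curv a k l := by
    ext x y
    exact Frame.curv_skew F ha k l y x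
  rw [h2, h3, Matrix.neg_mul, Matrix.mul_neg, neg_inj] at h1
  exact h1.symm

/-- the algebra of the potential -/
theorem Q_embed {κ' ι' : Type*} [Fintype κ'] [Fintype ι'] [DecidableEq ι']
    {om : Fin n → Matrix κ κ S} {a : Fin n → Matrix ι ι S}
    {j : Matrix κ ι S} {j' : Matrix κ' ι' S} {c : Fin n → Matrix ι' ι S}
    (hom : Frame.Skew om) (hj : jᵀ * j = 1) (hj' : j'ᵀ * j' = 1)
    (hdj : ∀ k, dM (F.D k) j + om k * j = j * a k) :
    - (Frame.half (S := S)) • ∑ p, ∑ q, ((j' * c p * jᵀ)ᵀ * (j' * c q * jᵀ)) * F.curv om p q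
      = j * Q F a c * jᵀ := by
  rw [Q, Matrix.mul_smul, Matrix.smul_mul]
  congr 1
  rw [Matrix.mul_sum, Matrix.sum_mul]
  refine Finset.sum_congr rfl fun p _ => ?_
  rw [Matrix.mul_sum, Matrix.sum_mul]
  refine Finset.sum_congr rfl fun q _ => ?_
  have h1 : (j' * c p * jᵀ)ᵀ * (j' * c q * jᵀ) * F.curv om p q
      = j * (c p)ᵀ * (j'ᵀ * j') * c q * (jᵀ * F.curv om p q) := by
    simp only [Matrix.transpose_mul, Matrix.transpose_transpose, Matrix.mul_assoc]
  rw [h1, hj', curv_embed_t F hom hj hdj]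
  simp only [Matrix.mul_one, Matrix.mul_assoc]

end ring

section man
variable {n : ℕ} {M : Type*} [TopologicalSpace M] [ChartedSpace (EuclideanSpace ℝ (Fin n)) M]
  [IsManifold 𝓘(ℝ, EuclideanSpace ℝ (Fin n)) ∞ M]
  [RiemannianBundle (fun x : M => TangentSpace 𝓘(ℝ, EuclideanSpace ℝ (Fin n)) x)]
  [IsContMDiffRiemannianBundle 𝓘(ℝ, EuclideanSpace ℝ (Fin n)) ∞ (EuclideanSpace ℝ (Fin n))
      (fun x : M => TangentSpace 𝓘(ℝ, EuclideanSpace ℝ (Fin n)) x)]

local notation "𝔼" => EuclideanSpace ℝ (Fin n)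
local notation "𝓘E" => 𝓘(ℝ, EuclideanSpace ℝ (Fin n))

open Crest.Agent.R249.Tz805 (Bun potQ)

variable {κ κ0 κ1 : Type} [Fintype κ] [Fintype κ0] [Fintype κ1]

theorem fg_tz (z : M) (f : M → ℝ) :
    (Tz805.fg (n := n) z f : SG (chartCentre n M z)) = Sg129.fg z f := rfl

theorem vg_tz {z : M} {e : Fin n → EuclideanSpace ℝ (Fin n) → EuclideanSpace ℝ (Fin n)}
    (h : ONF (chartMetric n M z) (chartAt (EuclideanSpace ℝ (Fin n)) z).target (chartCentre n M z) e)
    (X : (p : M) → TangentSpace 𝓘(ℝ, EuclideanSpace ℝ (Fin n)) p) (k : Fin n) :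
    Tz805.vg z e X k = h.vg X k := rfl

/-- the curvature is smooth -/
theorem smooth_Om (D : Bun n M κ) {X Y : (p : M) → TangentSpace 𝓘(ℝ, EuclideanSpace ℝ (Fin n)) p}
    (hX : ∀ q, VSm n ∞ X q) (hY : ∀ q, VSm n ∞ Y q) (a b : κ) :
    ContMDiff 𝓘E 𝓘(ℝ, ℝ) ∞ (D.Om X Y a b) := by
  have h1 : ∀ {X Y : (p : M) → TangentSpace 𝓘(ℝ, EuclideanSpace ℝ (Fin n)) p},
      (∀ q, VSm n ∞ X q) → (∀ q, VSm n ∞ Y q) →
      ContMDiff 𝓘E 𝓘(ℝ, ℝ) ∞ (fun z => (inner ℝ (mCov n (D.W a b) z (X z)) (Y z) : ℝ)) :=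
    fun hX hY => Sg129.contMDiff_inner (fun q => Sg129.VSm_mCov (D.smW a b q) (hX q)) hY
  have h2 : ∀ c d, ∀ {X : (p : M) → TangentSpace 𝓘(ℝ, EuclideanSpace ℝ (Fin n)) p},
      (∀ q, VSm n ∞ X q) →
      ContMDiff 𝓘E 𝓘(ℝ, ℝ) ∞ (fun z => (inner ℝ (D.W c d z) (X z) : ℝ)) :=
    fun c d _ hX => Sg129.contMDiff_inner (D.smW c d) hX
  have h3 : ∀ c, ContMDiff 𝓘E 𝓘(ℝ, ℝ) ∞ (fun z =>
      (inner ℝ (D.W a c z) (X z) : ℝ) * (inner ℝ (D.W c b z) (Y z) : ℝ)
      - (inner ℝ (D.W a c z) (Y z) : ℝ) * (inner ℝ (D.W c b z) (X z) : ℝ)) := fun c =>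
    ((h2 a c hX).mul (h2 c b hY)).sub ((h2 a c hY).mul (h2 c b hX))
  exact ((h1 hX hY).sub (h1 hY hX)).add (contMDiff_finsetSum (t := Finset.univ) fun c _ => h3 c)

/-- the summand of `potQ` is smooth -/
theorem smooth_potT (s : PF n M κ) (D : Bun n M κ0)
    {cc : κ1 → κ0 → (p : M) → TangentSpace 𝓘(ℝ, EuclideanSpace ℝ (Fin n)) p}
    (smc : ∀ x y z, VSm n ∞ (cc x y) z) (y y' y'' : κ0) (x : κ1) (C E : κ) :
    ContMDiff 𝓘E 𝓘(ℝ, ℝ) ∞ (fun z => (inner ℝ (cc x y z) (s.s C z) : ℝ)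
      * (inner ℝ (cc x y'' z) (s.s E z) : ℝ) * D.Om (s.s C) (s.s E) y'' y' z) :=
  ((Sg129.contMDiff_inner (smc x y) (s.sm C)).mul (Sg129.contMDiff_inner (smc x y'') (s.sm E))).mul
    (smooth_Om D (s.sm C) (s.sm E) y'' y')

/-- the potential is smooth -/
theorem smooth_potQ (s : PF n M κ) (D : Bun n M κ0)
    {cc : κ1 → κ0 → (p : M) → TangentSpace 𝓘(ℝ, EuclideanSpace ℝ (Fin n)) p}
    (smc : ∀ x y z, VSm n ∞ (cc x y) z) (y y' : κ0) :
    ContMDiff 𝓘E 𝓘(ℝ, ℝ) ∞ (potQ s D cc y y') :=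
  contMDiff_const.mul (contMDiff_finsetSum fun y'' _ => contMDiff_finsetSum fun x _ =>
    contMDiff_finsetSum fun C _ => contMDiff_finsetSum fun E _ => smooth_potT s D smc y y' y'' x C E)

variable {z : M} {y : EuclideanSpace ℝ (Fin n)}
  {e : Fin n → EuclideanSpace ℝ (Fin n) → EuclideanSpace ℝ (Fin n)}

/-- Parseval in germs -/
theorem pars_germ (s : PF n M κ)
    (h : ONF (chartMetric n M z) (chartAt (EuclideanSpace ℝ (Fin n)) z).target y e) (p q : Fin n) :
    ∑ A, h.vg (s.s A) p * h.vg (s.s A) q = if p = q then 1 else 0 := by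
  have hc : ∀ A k, ContDiffAt ℝ ∞
      (fun w => bil (chartMetric n M z w) (vCh n z (s.s A) w) (e k w)) y := fun A k =>
    h.cd_bil (Sg129.sv h.mem (s.sm A)) (h.smooth k)
  rw [← h.vt_frame p q]
  simp only [h.vg_eq, ← Sg129.tg_mul (hc _ _) (hc _ _)]
  rw [← Sg129.tg_sum Finset.univ fun A => (hc A p).mul (hc A q)]
  refine Sg129.tg_congr ?_
  filter_upwards [(chartAt 𝔼 z).open_target.mem_nhds h.mem] with w hw
  have hz := (chartAt 𝔼 z).map_target hw
  obtain ⟨E, hE⟩ : ∃ E : Fin n → TangentSpace 𝓘E ((chartAt 𝔼 z).symm w),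
      ∀ k, dCh z ((chartAt 𝔼 z).symm w) (E k) = e k w :=
    ⟨fun k => (dSy z w (e k w) : 𝔼), fun k => dCh_dSy z hw _⟩
  have hi : ∀ (X : TangentSpace 𝓘E ((chartAt 𝔼 z).symm w)) (k : Fin n),
      (inner ℝ X (E k) : ℝ)
        = bil (chartMetric n M z w) (dCh z ((chartAt 𝔼 z).symm w) X) (e k w) := by
    intro X k
    have h1 := inner_eq_bil (n := n) z hz X (E k)
    rw [(chartAt 𝔼 z).right_inv hw, hE] at h1
    exact h1
  have h2 : (inner ℝ (∑ A, (inner ℝ (s.s A ((chartAt 𝔼 z).symm w)) (E p) : ℝ)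
          • s.s A ((chartAt 𝔼 z).symm w)) (E q) : ℝ) = inner ℝ (E p) (E q) := by
    rw [s.pars ((chartAt 𝔼 z).symm w) (E p)]
  rw [sum_inner] at h2
  simp only [real_inner_smul_left] at h2
  rw [hi (E p) q, hE] at h2
  rw [← h2]
  refine Finset.sum_congr rfl fun A _ => ?_
  rw [hi, hi]
  rfl

/-- connection matrices of `D` in the frame -/
def om (D : Bun n M κ)
    (h : ONF (chartMetric n M z) (chartAt (EuclideanSpace ℝ (Fin n)) z).target y e) (k : Fin n) :
    Matrix κ κ (SG y) := Matrix.of fun a b => h.vg (D.W a b) k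

theorem om_skew (D : Bun n M κ)
    (h : ONF (chartMetric n M z) (chartAt (EuclideanSpace ℝ (Fin n)) z).target y e) :
    Frame.Skew (om D h) := by
  intro k a b
  change h.vg (D.W a b) k = - h.vg (D.W b a) k
  rw [← h.vg_neg (D.smW b a)]
  congr 1
  funext q
  exact D.skew a b q

/-- **germ of the curvature** -/
theorem om_germ (D : Bun n M κ)
    (h : ONF (chartMetric n M z) (chartAt (EuclideanSpace ℝ (Fin n)) z).target y e)
    {X Y : (p : M) → TangentSpace 𝓘(ℝ, EuclideanSpace ℝ (Fin n)) p}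
    (hX : ∀ q, VSm n ∞ X q) (hY : ∀ q, VSm n ∞ Y q) (a b : κ) :
    (Sg129.fg z (D.Om X Y a b) : SG y)
      = ∑ k, ∑ l, h.vg X k * h.vg Y l * h.frameOf.curv (om D h) k l a b := by
  have hm := h.mem
  have h1 : ∀ {X Y : (p : M) → TangentSpace 𝓘(ℝ, EuclideanSpace ℝ (Fin n)) p},
      (∀ q, VSm n ∞ X q) → (∀ q, VSm n ∞ Y q) →
      ContMDiff 𝓘E 𝓘(ℝ, ℝ) ∞ (fun z => (inner ℝ (mCov n (D.W a b) z (X z)) (Y z) : ℝ)) :=
    fun hX hY => Sg129.contMDiff_inner (fun q => Sg129.VSm_mCov (D.smW a b q) (hX q)) hY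
  have h2 : ∀ c d, ∀ {X : (p : M) → TangentSpace 𝓘(ℝ, EuclideanSpace ℝ (Fin n)) p},
      (∀ q, VSm n ∞ X q) →
      ContMDiff 𝓘E 𝓘(ℝ, ℝ) ∞ (fun z => (inner ℝ (D.W c d z) (X z) : ℝ)) :=
    fun c d _ hX => Sg129.contMDiff_inner (D.smW c d) hX
  have h3 : ∀ c, ContMDiff 𝓘E 𝓘(ℝ, ℝ) ∞ (fun z =>
      (inner ℝ (D.W a c z) (X z) : ℝ) * (inner ℝ (D.W c b z) (Y z) : ℝ)
      - (inner ℝ (D.W a c z) (Y z) : ℝ) * (inner ℝ (D.W c b z) (X z) : ℝ)) := fun c =>
    ((h2 a c hX).mul (h2 c b hY)).sub ((h2 a c hY).mul (h2 c b hX))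
  have h4 : ∀ {X Y : (p : M) → TangentSpace 𝓘(ℝ, EuclideanSpace ℝ (Fin n)) p},
      (∀ q, VSm n ∞ X q) → (∀ q, VSm n ∞ Y q) →
      (Sg129.fg z (fun q => (inner ℝ (mCov n (D.W a b) q (X q)) (Y q) : ℝ)) : SG y)
        = ∑ j, (∑ k, h.vg X k * h.frameOf.cov h.frameOf.tan k (fun m => om D h m a b) j)
          * h.vg Y j := by
    intro X Y hX hY
    rw [h.fg_inner (X := fun q => mCov n (D.W a b) q (X q))
      (fun q => Sg129.VSm_mCov (D.smW a b q) (hX q)) hY]
    refine Finset.sum_congr rfl fun j _ => ?_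
    rw [h.vg_mCov (D.smW a b) hX]
    rfl
  have h5 : ∀ c d, ∀ {X : (p : M) → TangentSpace 𝓘(ℝ, EuclideanSpace ℝ (Fin n)) p},
      (∀ q, VSm n ∞ X q) →
      (Sg129.fg z (fun q => (inner ℝ (D.W c d q) (X q) : ℝ)) : SG y)
        = ∑ k, om D h k c d * h.vg X k := fun c d _ hX => h.fg_inner (D.smW c d) hX
  have h6 : ∀ c, (Sg129.fg z (fun q =>
      (inner ℝ (D.W a c q) (X q) : ℝ) * (inner ℝ (D.W c b q) (Y q) : ℝ)
      - (inner ℝ (D.W a c q) (Y q) : ℝ) * (inner ℝ (D.W c b q) (X q) : ℝ)) : SG y)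
      = (∑ k, om D h k a c * h.vg X k) * (∑ k, om D h k c b * h.vg Y k)
        - (∑ k, om D h k a c * h.vg Y k) * (∑ k, om D h k c b * h.vg X k) := by
    intro c
    have m1 : ContMDiff 𝓘E 𝓘(ℝ, ℝ) ∞ (fun z =>
      (inner ℝ (D.W a c z) (X z) : ℝ) * (inner ℝ (D.W c b z) (Y z) : ℝ)) :=
      (h2 a c hX).mul (h2 c b hY)
    have m2 : ContMDiff 𝓘E 𝓘(ℝ, ℝ) ∞ (fun z =>
      (inner ℝ (D.W a c z) (Y z) : ℝ) * (inner ℝ (D.W c b z) (X z) : ℝ)) :=
      (h2 a c hY).mul (h2 c b hX)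
    rw [← h5 a c hX, ← h5 c b hY, ← h5 a c hY, ← h5 c b hX,
      ← Sg129.fg_mul hm (h2 a c hX) (h2 c b hY), ← Sg129.fg_mul hm (h2 a c hY) (h2 c b hX),
      ← Sg129.fg_sub hm m1 m2]
  rw [← om_ring, ← h4 hX hY, ← h4 hY hX]
  simp only [← h6]
  rw [← Sg129.fg_sub hm (h1 hX hY) (h1 hY hX), ← Sg129.fg_sum hm Finset.univ h3,
    ← Sg129.fg_add hm ((h1 hX hY).sub (h1 hY hX))
      (contMDiff_finsetSum (t := Finset.univ) fun c _ => h3 c)]
  rfl

/-- the algebra of the Parseval frame -/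
theorem pars_ring {S : Type*} [CommRing S] (σ : κ → Fin n → S)
    (hσ : ∀ p q, ∑ A, σ A p * σ A q = if p = q then 1 else 0) (u v : Fin n → S)
    (R : Fin n → Fin n → S) :
    ∑ C, ∑ E, (∑ k, u k * σ C k) * (∑ k, v k * σ E k) * (∑ p, ∑ q, σ C p * σ E q * R p q)
      = ∑ p, ∑ q, u p * v q * R p q := by
  have h1 : ∀ (u : Fin n → S) (p : Fin n), ∑ C, (∑ k, u k * σ C k) * σ C p = u p := by
    intro u p
    simp only [Finset.sum_mul]
    rw [Finset.sum_comm]
    have h2 : ∀ k, ∑ C, u k * σ C k * σ C p = if k = p then u p else 0 := by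
      intro k
      simp only [mul_assoc]
      rw [← Finset.mul_sum, hσ]
      by_cases hk : k = p
      · subst hk; simp
      · simp [hk]
    simp only [h2]
    simp
  calc _ = ∑ C, ∑ E, ∑ p, ∑ q,
        ((∑ k, u k * σ C k) * σ C p) * ((∑ k, v k * σ E k) * σ E q) * R p q := by
        refine Finset.sum_congr rfl fun C _ => Finset.sum_congr rfl fun E _ => ?_
        rw [Finset.mul_sum]
        refine Finset.sum_congr rfl fun p _ => ?_
        rw [Finset.mul_sum]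
        exact Finset.sum_congr rfl fun q _ => by ring
    _ = ∑ p, ∑ q, ∑ C, ∑ E,
        ((∑ k, u k * σ C k) * σ C p) * ((∑ k, v k * σ E k) * σ E q) * R p q := by
        calc _ = ∑ C, ∑ p, ∑ E, ∑ q,
              ((∑ k, u k * σ C k) * σ C p) * ((∑ k, v k * σ E k) * σ E q) * R p q :=
              Finset.sum_congr rfl fun C _ => Finset.sum_comm
          _ = ∑ p, ∑ C, ∑ E, ∑ q,
              ((∑ k, u k * σ C k) * σ C p) * ((∑ k, v k * σ E k) * σ E q) * R p q :=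
              Finset.sum_comm
          _ = ∑ p, ∑ C, ∑ q, ∑ E,
              ((∑ k, u k * σ C k) * σ C p) * ((∑ k, v k * σ E k) * σ E q) * R p q :=
              Finset.sum_congr rfl fun p _ => Finset.sum_congr rfl fun C _ => Finset.sum_comm
          _ = _ := Finset.sum_congr rfl fun p _ => Finset.sum_comm
    _ = _ := by
        refine Finset.sum_congr rfl fun p _ => Finset.sum_congr rfl fun q _ => ?_
        have h3 : ∀ (A B : κ → S) (r : S), (∑ C, A C) * (∑ E, B E) * r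
            = ∑ C, ∑ E, A C * B E * r := by
          intro A B r
          rw [Finset.sum_mul_sum, Finset.sum_mul]
          exact Finset.sum_congr rfl fun C _ => Finset.sum_mul _ _ _
        rw [← h1 u p, ← h1 v q]
        exact (h3 _ _ _).symm

/-- the symbol in the frame -/
def sy (cc : κ1 → κ0 → (p : M) → TangentSpace 𝓘(ℝ, EuclideanSpace ℝ (Fin n)) p)
    (h : ONF (chartMetric n M z) (chartAt (EuclideanSpace ℝ (Fin n)) z).target y e) (k : Fin n) :
    Matrix κ1 κ0 (SG y) := Matrix.of fun a b => h.vg (cc a b) k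

/-- **germ of the potential in a frame** -/
theorem pot_germ (s : PF n M κ) (D : Bun n M κ0)
    {cc : κ1 → κ0 → (p : M) → TangentSpace 𝓘(ℝ, EuclideanSpace ℝ (Fin n)) p}
    (smc : ∀ x y z, VSm n ∞ (cc x y) z)
    (h : ONF (chartMetric n M z) (chartAt (EuclideanSpace ℝ (Fin n)) z).target y e) :
    (Matrix.of fun b b' => (Sg129.fg z (potQ s D cc b b') : SG y))
      = - (Frame.half (S := SG y)) • ∑ p, ∑ q, ((sy cc h p)ᵀ * sy cc h q)
        * h.frameOf.curv (om D h) p q := by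
  have hm := h.mem
  ext b b'
  have h1 : ∀ y'' x C E, (Sg129.fg z (fun z => (inner ℝ (cc x b z) (s.s C z) : ℝ)
      * (inner ℝ (cc x y'' z) (s.s E z) : ℝ) * D.Om (s.s C) (s.s E) y'' b' z) : SG y)
      = (∑ k, sy cc h k x b * h.vg (s.s C) k) * (∑ k, sy cc h k x y'' * h.vg (s.s E) k)
        * ∑ p, ∑ q, h.vg (s.s C) p * h.vg (s.s E) q * h.frameOf.curv (om D h) p q y'' b' := by
    intro y'' x C E
    have m1 : ContMDiff 𝓘E 𝓘(ℝ, ℝ) ∞ (fun z => (inner ℝ (cc x b z) (s.s C z) : ℝ)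
      * (inner ℝ (cc x y'' z) (s.s E z) : ℝ)) := (Sg129.contMDiff_inner (smc x b) (s.sm C)).mul
        (Sg129.contMDiff_inner (smc x y'') (s.sm E))
    have m2 : (Sg129.fg z (fun q => (inner ℝ (cc x b q) (s.s C q) : ℝ)) : SG y)
        = ∑ k, sy cc h k x b * h.vg (s.s C) k := h.fg_inner (smc x b) (s.sm C)
    have m3 : (Sg129.fg z (fun q => (inner ℝ (cc x y'' q) (s.s E q) : ℝ)) : SG y)
        = ∑ k, sy cc h k x y'' * h.vg (s.s E) k := h.fg_inner (smc x y'') (s.sm E)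
    rw [← om_germ D h (s.sm C) (s.sm E), ← m2, ← m3,
      ← Sg129.fg_mul hm (Sg129.contMDiff_inner (smc x b) (s.sm C))
        (Sg129.contMDiff_inner (smc x y'') (s.sm E)),
      ← Sg129.fg_mul hm m1 (smooth_Om D (s.sm C) (s.sm E) y'' b')]
  have h2 : (Sg129.fg z (potQ s D cc b b') : SG y) = (-(1/2) : ℝ) • ∑ y'', ∑ x, ∑ C, ∑ E,
      (Sg129.fg z (fun z => (inner ℝ (cc x b z) (s.s C z) : ℝ)
      * (inner ℝ (cc x y'' z) (s.s E z) : ℝ) * D.Om (s.s C) (s.s E) y'' b' z) : SG y) := by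
    have e4 : ∀ y'' x C E, ContMDiff 𝓘E 𝓘(ℝ, ℝ) ∞ (fun z => (inner ℝ (cc x b z) (s.s C z) : ℝ)
      * (inner ℝ (cc x y'' z) (s.s E z) : ℝ) * D.Om (s.s C) (s.s E) y'' b' z) :=
      fun y'' x C E => smooth_potT s D smc b b' y'' x C E
    have e3 := fun y'' x C => contMDiff_finsetSum (t := Finset.univ) fun E _ => e4 y'' x C E
    have e2 := fun y'' x => contMDiff_finsetSum (t := Finset.univ) fun C _ => e3 y'' x C
    have e1 := fun y'' => contMDiff_finsetSum (t := Finset.univ) fun x _ => e2 y'' x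
    have e0 := contMDiff_finsetSum (t := Finset.univ) fun y'' _ => e1 y''
    have := Sg129.fg_smul (y := y) hm (-(1/2) : ℝ) e0
    refine this.trans ?_
    congr 1
    rw [Sg129.fg_sum hm Finset.univ e1]
    refine Finset.sum_congr rfl fun y'' _ => ?_
    rw [Sg129.fg_sum hm Finset.univ (e2 y'')]
    refine Finset.sum_congr rfl fun x _ => ?_
    rw [Sg129.fg_sum hm Finset.univ (e3 y'' x)]
    refine Finset.sum_congr rfl fun C _ => ?_
    rw [Sg129.fg_sum hm Finset.univ (e4 y'' x C)]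
  rw [Matrix.of_apply, h2]
  simp only [h1]
  have h3 : ∀ y'' x, ∑ C, ∑ E, (∑ k, sy cc h k x b * h.vg (s.s C) k)
        * (∑ k, sy cc h k x y'' * h.vg (s.s E) k)
        * ∑ p, ∑ q, h.vg (s.s C) p * h.vg (s.s E) q * h.frameOf.curv (om D h) p q y'' b'
      = ∑ p, ∑ q, sy cc h p x b * sy cc h q x y'' * h.frameOf.curv (om D h) p q y'' b' :=
    fun y'' x => pars_ring (fun A => h.vg (s.s A)) (pars_germ s h) (fun k => sy cc h k x b)
      (fun k => sy cc h k x y'') (fun p q => h.frameOf.curv (om D h) p q y'' b')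
  simp only [h3]
  rw [Algebra.smul_def, map_neg, Matrix.smul_apply, smul_eq_mul]
  change - Frame.half * _ = _
  congr 1
  simp only [Matrix.sum_apply, Matrix.mul_apply, Matrix.transpose_apply, Finset.sum_mul]
  calc _ = ∑ y'', ∑ p, ∑ x, ∑ q, sy cc h p x b * sy cc h q x y''
          * h.frameOf.curv (om D h) p q y'' b' :=
        Finset.sum_congr rfl fun y'' _ => Finset.sum_comm
    _ = ∑ p, ∑ y'', ∑ x, ∑ q, sy cc h p x b * sy cc h q x y''
          * h.frameOf.curv (om D h) p q y'' b' := Finset.sum_comm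
    _ = ∑ p, ∑ y'', ∑ q, ∑ x, sy cc h p x b * sy cc h q x y''
          * h.frameOf.curv (om D h) p q y'' b' :=
        Finset.sum_congr rfl fun p _ => Finset.sum_congr rfl fun y'' _ => Finset.sum_comm
    _ = _ := Finset.sum_congr rfl fun p _ => Finset.sum_comm

end man

section cen
variable {n : ℕ} {M : Type*} [TopologicalSpace M] [ChartedSpace (EuclideanSpace ℝ (Fin n)) M]
  [IsManifold 𝓘(ℝ, EuclideanSpace ℝ (Fin n)) ∞ M]
  [RiemannianBundle (fun x : M => TangentSpace 𝓘(ℝ, EuclideanSpace ℝ (Fin n)) x)]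
  [IsContMDiffRiemannianBundle 𝓘(ℝ, EuclideanSpace ℝ (Fin n)) ∞ (EuclideanSpace ℝ (Fin n))
      (fun x : M => TangentSpace 𝓘(ℝ, EuclideanSpace ℝ (Fin n)) x)]

open Crest.Agent.R249.Tz805 (Bun potQ CLoc CPair)

variable {κ κ0 κ1 : Type} [Fintype κ] [Fintype κ0] [Fintype κ1]
  {z : M} {e : Fin n → EuclideanSpace ℝ (Fin n) → EuclideanSpace ℝ (Fin n)}
  {h : ONF (chartMetric n M z) (chartAt (EuclideanSpace ℝ (Fin n)) z).target
    (chartCentre n M z) e}
  {ι0 ι1 : Type} [Fintype ι0] [DecidableEq ι0] [Fintype ι1] [DecidableEq ι1]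

/-- **germ of the potential in local frames** -/
theorem potQ_germ_of (s : PF n M κ) (D : Bun n M κ0)
    {cc : κ1 → κ0 → (p : M) → TangentSpace 𝓘(ℝ, EuclideanSpace ℝ (Fin n)) p}
    (smc : ∀ x y z, VSm n ∞ (cc x y) z)
    {a : Fin n → Matrix ι0 ι0 (SG (chartCentre n M z))}
    {j : Matrix κ0 ι0 (SG (chartCentre n M z))} (hL : Tz805.LF D h a j)
    {j' : Matrix κ1 ι1 (SG (chartCentre n M z))} (hj' : j'ᵀ * j' = 1)
    {c : Fin n → Matrix ι1 ι0 (SG (chartCentre n M z))}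
    (hc : ∀ x y k, Tz805.vg z e (cc x y) k = (j' * c k * jᵀ) x y) :
    (Matrix.of fun y y' => Tz805.fg (n := n) z (potQ s D cc y y')) = j * Q h.frameOf a c * jᵀ := by
  have h1 : ∀ k, sy cc h k = j' * c k * jᵀ := by
    intro k
    ext x y
    exact hc x y k
  rw [← Q_embed h.frameOf (om_skew D h) hL.jtj hj' hL.dj]
  simp only [← h1]
  exact pot_germ s D smc h

variable {a0 : Fin n → Matrix ι0 ι0 (SG (chartCentre n M z))}
  {a1 : Fin n → Matrix ι1 ι1 (SG (chartCentre n M z))}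
  {c : Fin n → Matrix ι1 ι0 (SG (chartCentre n M z))}
  {j0 : Matrix κ0 ι0 (SG (chartCentre n M z))} {j1 : Matrix κ1 ι1 (SG (chartCentre n M z))}

/-- the potential of `D0` -/
theorem potQ_germ0 (s : PF n M κ) {D0 : Bun n M κ0} {D1 : Bun n M κ1}
    {cc : κ1 → κ0 → (p : M) → TangentSpace 𝓘(ℝ, EuclideanSpace ℝ (Fin n)) p}
    (smc : ∀ x y z, VSm n ∞ (cc x y) z) (C : CLoc D0 D1 cc h a0 a1 c j0 j1) :
    (Matrix.of fun y y' => Tz805.fg (n := n) z (potQ s D0 cc y y'))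
      = j0 * Q h.frameOf a0 c * j0ᵀ :=
  potQ_germ_of s D0 smc C.l0 C.l1.jtj C.sym

/-- the potential of `D1` -/
theorem potQ_germ1 (s : PF n M κ) {D0 : Bun n M κ0} {D1 : Bun n M κ1}
    {cc : κ1 → κ0 → (p : M) → TangentSpace 𝓘(ℝ, EuclideanSpace ℝ (Fin n)) p}
    (smc : ∀ x y z, VSm n ∞ (cc x y) z) (C : CLoc D0 D1 cc h a0 a1 c j0 j1) :
    (Matrix.of fun x x' => Tz805.fg (n := n) z (potQ s D1 (fun y x => cc x y) x x'))
      = j1 * Q h.frameOf a1 (fun i => (c i)ᵀ) * j1ᵀ := by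
  refine potQ_germ_of s D1 (fun x y z => smc y x z) C.l1 C.l0.jtj fun y x k => ?_
  rw [C.sym x y k]
  have : j0 * (c k)ᵀ * j1ᵀ = (j1 * c k * j0ᵀ)ᵀ := by
    simp only [Matrix.transpose_mul, Matrix.transpose_transpose, Matrix.mul_assoc]
  rw [this]
  rfl

end cen

end Crest.Agent.R249.HK9_714
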