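import Crest.Agent.R249.DenF_714

/-!
# Row 249, PART C, [DENS] (helper714): ring part for the germ frames of 805 (Tz0_805.LF)

* `curv_embed` : `D_k j + om_k j = j a_k`  ⟹  `j curv a = curv om j`;
* `tr_embed`   : `tr (curv a curv a) = tr (curv om P curv om P)`, `P = j jᵀ`;
* `tO_frP`     : `∑_kl tr (Ω_kl P Ω_kl P) = ∑ g^{ac} g^{bd} tr (F_ab P F_cd P)` for the frame components of a
                 coordinate connection.
-/

set_option autoImplicit false
set_option linter.unusedSectionVars false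
open scoped ContDiff Topology
open Filter Set Finset Matrix
open Crest.GeometryTopology.CoordMetric Crest.GeometryTopology.ChartCurvature
open Crest.Agent.R249.Fr129 Crest.Agent.R249.Sg129

noncomputable section

namespace Crest.Agent.R249.HK9_714

section emb
variable {n : ℕ} {S : Type*} [CommRing S] [Algebra ℝ S] (F : Frame n S)
  {κ ι : Type*} [Fintype κ] [Fintype ι] [DecidableEq ι]

theorem curv_embed {om : Fin n → Matrix κ κ S} {a : Fin n → Matrix ι ι S} {j : Matrix κ ι S}
    (hdj : ∀ k, dM (F.D k) j + om k * j = j * a k) (k l : Fin n) :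
    j * F.curv a k l = F.curv om k l * j := by
  have hr : ∀ k, dM (F.D k) j = j * a k - om k * j := fun k => eq_sub_of_add_eq (hdj k)
  have E : ∀ k l, dM (F.D k) (dM (F.D l) j)
      = (j * a k - om k * j) * a l + j * dM (F.D k) (a l)
        - (dM (F.D k) (om l) * j + om l * (j * a k - om k * j)) := fun k l => by
    rw [hr l, dM_sub, dM_mul, dM_mul, hr k]
  have T : dM (F.D k) (dM (F.D l) j) - dM (F.D l) (dM (F.D k) j)
      = ∑ m, F.T k l m • dM (F.D m) j := by
    ext x y
    simp only [Matrix.sub_apply, dM, Matrix.sum_apply, Matrix.smul_apply, smul_eq_mul]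
    exact F.tors k l (j x y)
  have S1 : ∑ m, F.T k l m • dM (F.D m) j
      = j * (∑ m, F.T k l m • a m) - (∑ m, F.T k l m • om m) * j := by
    simp only [hr, smul_sub, sum_sub_distrib, Matrix.mul_sum, Matrix.sum_mul, Matrix.mul_smul,
      Matrix.smul_mul]
  rw [E k l, E l k, S1] at T
  rw [curv_eq', curv_eq']
  simp only [Matrix.mul_add, Matrix.mul_sub, Matrix.add_mul, Matrix.sub_mul, Matrix.mul_assoc] at T ⊢
  rw [← sub_eq_zero] at T ⊢
  rw [← T]
  abel

theorem curv_embed' {om : Fin n → Matrix κ κ S} {a : Fin n → Matrix ι ι S} {j : Matrix κ ι S}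
    (hj : jᵀ * j = 1) (hdj : ∀ k, dM (F.D k) j + om k * j = j * a k) (k l : Fin n) :
    F.curv a k l = jᵀ * F.curv om k l * j := by
  rw [Matrix.mul_assoc, ← curv_embed F hdj k l, ← Matrix.mul_assoc, hj, Matrix.one_mul]

theorem tr_embed {om : Fin n → Matrix κ κ S} {a : Fin n → Matrix ι ι S} {j : Matrix κ ι S}
    (hj : jᵀ * j = 1) (hdj : ∀ k, dM (F.D k) j + om k * j = j * a k) (k l : Fin n) :
    (F.curv a k l * F.curv a k l).trace
      = ((F.curv om k l * (j * jᵀ)) * (F.curv om k l * (j * jᵀ))).trace := by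
  rw [curv_embed' F hj hdj]
  have h1 : (jᵀ * F.curv om k l * j) * (jᵀ * F.curv om k l * j)
      = jᵀ * (F.curv om k l * (j * jᵀ) * F.curv om k l * j) := by simp only [Matrix.mul_assoc]
  rw [h1, Matrix.trace_mul_comm]
  simp only [Matrix.mul_assoc]

theorem tO_embed {om : Fin n → Matrix κ κ S} {a : Fin n → Matrix ι ι S} {j : Matrix κ ι S}
    (hj : jᵀ * j = 1) (hdj : ∀ k, dM (F.D k) j + om k * j = j * a k) :
    C2_198.tO F a = ∑ k, ∑ l, ((F.curv om k l * (j * jᵀ)) * (F.curv om k l * (j * jᵀ))).trace :=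
  sum_congr rfl fun k _ => sum_congr rfl fun l _ => tr_embed F hj hdj k l

/-- `tr (Q P Q P) = tr q²` for `Q = j q jᵀ`, `P = j jᵀ` -/
theorem tr_q {q : Matrix ι ι S} {j : Matrix κ ι S} (hj : jᵀ * j = 1) :
    ((j * q * jᵀ) * (j * jᵀ) * (j * q * jᵀ) * (j * jᵀ)).trace = (q * q).trace := by
  have h1 : (j * q * jᵀ) * (j * jᵀ) * (j * q * jᵀ) * (j * jᵀ)
      = j * (q * ((jᵀ * j) * ((jᵀ * j) * (q * ((jᵀ * j) * jᵀ))))) := by simp only [Matrix.mul_assoc]
  rw [h1, hj]
  simp only [Matrix.one_mul]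
  rw [Matrix.trace_mul_comm]
  simp only [Matrix.mul_assoc, hj, Matrix.mul_one]

theorem tr_q1 {q : Matrix ι ι S} {j : Matrix κ ι S} (hj : jᵀ * j = 1) :
    ((j * q * jᵀ) * (j * jᵀ)).trace = q.trace := by
  have h1 : (j * q * jᵀ) * (j * jᵀ) = j * (q * ((jᵀ * j) * jᵀ)) := by simp only [Matrix.mul_assoc]
  rw [h1, hj, Matrix.one_mul, Matrix.trace_mul_comm, Matrix.mul_assoc, hj, Matrix.mul_one]

end emb

section alg
variable {n : ℕ} {S : Type*} [CommRing S] [Algebra ℝ S] (C : MF n S) {ι : Type*} [Fintype ι]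

theorem sum_EE (X : Fin n → Fin n → Matrix ι ι S) :
    ∑ k, ∑ l, ((∑ a, ∑ b, (C.E a k * C.E b l) • X a b)
        * (∑ a, ∑ b, (C.E a k * C.E b l) • X a b)).trace
      = ∑ a, ∑ c, ∑ b, ∑ d, C.gi a c * C.gi b d * (X a b * X c d).trace := by
  have h1 : ∀ k l, ((∑ a, ∑ b, (C.E a k * C.E b l) • X a b)
        * (∑ a, ∑ b, (C.E a k * C.E b l) • X a b)).trace
      = ∑ a, ∑ c, ∑ b, ∑ d, (C.E a k * C.E c k) * (C.E b l * C.E d l)
        * (X a b * X c d).trace := by
    intro k l
    have h0 : ∀ a, ∑ c, ∑ b, ∑ d, (C.E a k * C.E c k) * (C.E b l * C.E d l)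
        * (X a b * X c d).trace = ∑ b, ∑ c, ∑ d, (C.E a k * C.E c k) * (C.E b l * C.E d l)
        * (X a b * X c d).trace := fun a => sum_comm
    simp only [h0]
    rw [Matrix.sum_mul, Matrix.trace_sum]
    refine sum_congr rfl fun a _ => ?_
    rw [Matrix.sum_mul, Matrix.trace_sum]
    refine sum_congr rfl fun b _ => ?_
    rw [Matrix.smul_mul, Matrix.trace_smul, Matrix.mul_sum, Matrix.trace_sum, smul_eq_mul, mul_sum]
    refine sum_congr rfl fun c _ => ?_
    rw [Matrix.mul_sum, Matrix.trace_sum, mul_sum]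
    refine sum_congr rfl fun d _ => ?_
    rw [Matrix.mul_smul, Matrix.trace_smul, smul_eq_mul]
    ring
  simp only [h1]
  have h2 : ∀ a c b d, ∑ k, ∑ l, (C.E a k * C.E c k) * (C.E b l * C.E d l)
        * (X a b * X c d).trace
      = C.gi a c * C.gi b d * (X a b * X c d).trace := by
    intro a c b d
    rw [← sum_E_E, ← sum_E_E, sum_mul_sum, sum_mul]
    exact sum_congr rfl fun k _ => by rw [sum_mul]
  simp only [← h2]
  calc _ = ∑ k, ∑ a, ∑ l, ∑ c, ∑ b, ∑ d, (C.E a k * C.E c k) * (C.E b l * C.E d l)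
        * (X a b * X c d).trace := sum_congr rfl fun k _ => sum_comm
    _ = ∑ a, ∑ k, ∑ l, ∑ c, ∑ b, ∑ d, (C.E a k * C.E c k) * (C.E b l * C.E d l)
        * (X a b * X c d).trace := sum_comm
    _ = _ := by
      refine sum_congr rfl fun a _ => ?_
      calc _ = ∑ k, ∑ c, ∑ l, ∑ b, ∑ d, (C.E a k * C.E c k) * (C.E b l * C.E d l)
            * (X a b * X c d).trace := sum_congr rfl fun k _ => sum_comm
        _ = ∑ c, ∑ k, ∑ l, ∑ b, ∑ d, (C.E a k * C.E c k) * (C.E b l * C.E d l)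
            * (X a b * X c d).trace := sum_comm
        _ = _ := by
          refine sum_congr rfl fun c _ => ?_
          calc _ = ∑ k, ∑ b, ∑ l, ∑ d, (C.E a k * C.E c k) * (C.E b l * C.E d l)
                * (X a b * X c d).trace := sum_congr rfl fun k _ => sum_comm
            _ = ∑ b, ∑ k, ∑ l, ∑ d, (C.E a k * C.E c k) * (C.E b l * C.E d l)
                * (X a b * X c d).trace := sum_comm
            _ = _ := by
              refine sum_congr rfl fun b _ => ?_
              calc _ = ∑ k, ∑ d, ∑ l, (C.E a k * C.E c k) * (C.E b l * C.E d l)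
                    * (X a b * X c d).trace := sum_congr rfl fun k _ => sum_comm
                _ = _ := sum_comm

/-- `∑_kl tr (Ω_kl P Ω_kl P) = ∑ g^{ac} g^{bd} tr (F_ab P F_cd P)` -/
theorem tO_frP (B : Fin n → Matrix ι ι S) (P : Matrix ι ι S) :
    ∑ k, ∑ l, ((C.frame.curv (fr C B) k l * P) * (C.frame.curv (fr C B) k l * P)).trace
      = ∑ a, ∑ c, ∑ b, ∑ d, C.gi a c * C.gi b d * ((cc C B a b * P) * (cc C B c d * P)).trace := by
  rw [← sum_EE C fun a b => cc C B a b * P]
  refine sum_congr rfl fun k _ => sum_congr rfl fun l _ => ?_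
  have h : C.frame.curv (fr C B) k l * P = ∑ a, ∑ b, (C.E a k * C.E b l) • (cc C B a b * P) := by
    rw [curv_fr, Matrix.sum_mul]
    refine sum_congr rfl fun a _ => ?_
    rw [Matrix.sum_mul]
    exact sum_congr rfl fun b _ => Matrix.smul_mul _ _ _
  rw [h]

end alg

end Crest.Agent.R249.HK9_714
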