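import Crest.Agent.R249.DenQ_714

/-!
# Row 249, PART C (helper714): symmetry of the potential

* `par_curv`  : `curv a1 k l * c i = c i * curv a0 k l + ∑ p, Rm k l i p • c p` for a parallel symbol;
* `Q_symm`    : `(Q F a0 c)ᵀ = Q F a0 c` (parallel symbol, metric connections; no Clifford relation needed);
* `potQ_symm0`, `potQ_symm1` : `potQ` is symmetric at every point where there is a `CLoc`
  (fields `sym0`, `sym1` of `CPair`).
-/

set_option autoImplicit false
set_option maxSynthPendingDepth 3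
set_option linter.unusedSectionVars false

open Filter Topology Set Bundle Manifold Matrix
open scoped ContDiff
open Crest.GeometryTopology.CoordMetric Crest.GeometryTopology.ChartCurvature
  Crest.GeometryTopology.PointedLimit
open Crest.Agent.R202.Tens Crest.Agent.R249.FrmB_285 Crest.Agent.R249.Vf281
  Crest.Agent.R249.Tz1_805 Crest.Agent.R249.Tz2_805
open Crest.Agent.R247.Bo84 hiding dM
open Crest.Agent.R249.Fr129 Crest.Agent.R249.C2_198
open Crest.Agent.R249.Sg129 (SG ONF germ ev dM dM_mul)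

noncomputable section

namespace Crest.Agent.R249.HK9_714

section ring
variable {n : ℕ} {S : Type*} [CommRing S] [Algebra ℝ S] {F : Frame n S}
  {κ0 κ1 : Type*} [Fintype κ0] [Fintype κ1] [DecidableEq κ0] [DecidableEq κ1]
  {a0 : Fin n → Matrix κ0 κ0 S} {a1 : Fin n → Matrix κ1 κ1 S} {c : Fin n → Matrix κ1 κ0 S}

/-- the curvatures and a parallel symbol -/
theorem par_curv (h : Par F a0 a1 c) (k l i : Fin n) :
    F.curv a1 k l * c i = c i * F.curv a0 k l + ∑ p, F.Rm k l i p • c p := by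
  have hD : ∀ m i, dM (F.D m) (c i) = 0 := by
    intro m i
    ext x y
    exact h.const m i x y
  have e1 : ∀ k l, dM (F.D k) (a1 l) * c i
      = c i * dM (F.D k) (a0 l) + ∑ p, F.D k (F.w l i p) • c p := by
    intro k l
    have h1 : dM (F.D k) (a1 l * c i) = dM (F.D k) (a1 l) * c i := by
      rw [dM_mul, hD, Matrix.mul_zero, add_zero]
    rw [← h1, h.par, Sg129.dM_add, dM_mul, hD, Matrix.zero_mul, zero_add, Sg129.dM_sum]
    congr 1
    refine Finset.sum_congr rfl fun p _ => ?_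
    rw [Sg129.dM_smul, hD, smul_zero, add_zero]
  have e2 : ∀ k l, a1 k * a1 l * c i
      = c i * (a0 k * a0 l) + ∑ q, F.w k i q • (c q * a0 l) + ∑ p, F.w l i p • (c p * a0 k)
        + ∑ q, (∑ p, F.w l i p * F.w k p q) • c q := by
    intro k l
    rw [Matrix.mul_assoc, h.par, Matrix.mul_add, ← Matrix.mul_assoc, h.par, Matrix.add_mul,
      Matrix.sum_mul, Matrix.mul_sum]
    simp only [Matrix.smul_mul, Matrix.mul_smul, h.par, smul_add, Finset.sum_add_distrib,
      Matrix.mul_assoc, Finset.smul_sum, smul_smul, Finset.sum_smul]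
    rw [Finset.sum_comm (f := fun p q => (F.w l i p * F.w k p q) • c q)]
    abel
  have e3 : (∑ m, F.T k l m • a1 m) * c i
      = c i * (∑ m, F.T k l m • a0 m) + ∑ p, (∑ m, F.T k l m * F.w m i p) • c p := by
    rw [Matrix.sum_mul, Matrix.mul_sum]
    simp only [Matrix.smul_mul, Matrix.mul_smul, h.par, smul_add, Finset.sum_add_distrib,
      Finset.smul_sum, smul_smul, Finset.sum_smul]
    rw [Finset.sum_comm (f := fun m p => (F.T k l m * F.w m i p) • c p)]
  have e4 : ∑ p, F.Rm k l i p • c p = ∑ p, F.D k (F.w l i p) • c p - ∑ p, F.D l (F.w k i p) • c p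
      + (∑ q, (∑ p, F.w l i p * F.w k p q) • c q - ∑ q, (∑ p, F.w k i p * F.w l p q) • c q)
      - ∑ p, (∑ m, F.T k l m * F.w m i p) • c p := by
    simp only [Frame.Rm, Finset.sum_sub_distrib, sub_smul, add_smul, Finset.sum_add_distrib]
  rw [curv_eq', curv_eq', Matrix.sub_mul, Matrix.add_mul, Matrix.sub_mul, Matrix.sub_mul, e1, e1,
    e2, e2, e3, e4, Matrix.mul_sub, Matrix.mul_add, Matrix.mul_sub, Matrix.mul_sub]
  abel

theorem transpose_curv {ι : Type*} [Fintype ι] {a : Fin n → Matrix ι ι S} (ha : Frame.Skew a)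
    (k l : Fin n) : (F.curv a k l)ᵀ = - F.curv a k l := by
  ext x y
  exact Frame.curv_skew F ha k l y x

/-- `∑ c_kᵀ c_l Ω_kl = ∑ Ω_kl c_kᵀ c_l` -/
theorem sum_comm_curv (h : Par F a0 a1 c) (h0 : Frame.Skew a0) (h1 : Frame.Skew a1) :
    ∑ k, ∑ l, ((c k)ᵀ * c l) * F.curv a0 k l = ∑ k, ∑ l, F.curv a0 k l * ((c k)ᵀ * c l) := by
  -- `Y = ∑ c_kᵀ Ω1_kl c_l` in two ways
  have y1 : ∑ k, ∑ l, (c k)ᵀ * (F.curv a1 k l * c l)
      = ∑ k, ∑ l, ((c k)ᵀ * c l) * F.curv a0 k l + ∑ k, ∑ p, F.Ric p k • ((c k)ᵀ * c p) := by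
    rw [← Finset.sum_add_distrib]
    refine Finset.sum_congr rfl fun k _ => ?_
    simp only [par_curv h, Matrix.mul_add, Finset.sum_add_distrib, Matrix.mul_assoc]
    congr 1
    simp only [Matrix.mul_sum, Matrix.mul_smul]
    rw [Finset.sum_comm]
    refine Finset.sum_congr rfl fun p _ => ?_
    rw [← Finset.sum_smul, Frame.Ric]
    congr 1
    exact Finset.sum_congr rfl fun l _ => F.Rm_pair k l l p
  have t1 : ∀ k l, (c k)ᵀ * F.curv a1 k l
      = F.curv a0 k l * (c k)ᵀ - ∑ p, F.Rm k l k p • (c p)ᵀ := by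
    intro k l
    have := congrArg Matrix.transpose (par_curv h k l k)
    rw [Matrix.transpose_mul, Matrix.transpose_add, Matrix.transpose_mul, transpose_curv h0,
      transpose_curv h1, Matrix.transpose_sum] at this
    simp only [Matrix.transpose_smul, Matrix.mul_neg, Matrix.neg_mul] at this
    rw [neg_eq_iff_eq_neg] at this
    rw [this]
    abel
  have y2 : ∑ k, ∑ l, (c k)ᵀ * (F.curv a1 k l * c l)
      = ∑ k, ∑ l, F.curv a0 k l * ((c k)ᵀ * c l) + ∑ k, ∑ p, F.Ric p k • ((c k)ᵀ * c p) := by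
    have e1 : ∀ k l, (c k)ᵀ * (F.curv a1 k l * c l)
        = F.curv a0 k l * ((c k)ᵀ * c l) + ∑ p, F.Rm k l p k • ((c p)ᵀ * c l) := by
      intro k l
      rw [← Matrix.mul_assoc, t1, Matrix.sub_mul, Matrix.mul_assoc, Matrix.sum_mul, sub_eq_add_neg,
        ← Finset.sum_neg_distrib]
      congr 1
      refine Finset.sum_congr rfl fun p _ => ?_
      rw [Matrix.smul_mul, F.Rm_anti34 k l k p, neg_smul, neg_neg]
    simp only [e1, Finset.sum_add_distrib]
    congr 1
    calc _ = ∑ l, ∑ k, ∑ p, F.Rm k l p k • ((c p)ᵀ * c l) := Finset.sum_comm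
      _ = ∑ l, ∑ p, ∑ k, F.Rm k l p k • ((c p)ᵀ * c l) :=
          Finset.sum_congr rfl fun l _ => Finset.sum_comm
      _ = ∑ p, ∑ l, ∑ k, F.Rm k l p k • ((c p)ᵀ * c l) := Finset.sum_comm
      _ = _ := by
          refine Finset.sum_congr rfl fun k _ => Finset.sum_congr rfl fun p _ => ?_
          rw [← Finset.sum_smul]
          rfl
  exact add_right_cancel (y1.symm.trans y2)

/-- **the potential is symmetric** -/
theorem Q_symm (h : Par F a0 a1 c) (h0 : Frame.Skew a0) (h1 : Frame.Skew a1) :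
    (Q F a0 c)ᵀ = Q F a0 c := by
  rw [Q, Matrix.transpose_smul]
  congr 1
  conv_lhs => rw [sum_comm_curv h h0 h1]
  simp only [Matrix.transpose_sum, Matrix.transpose_mul, Matrix.transpose_transpose]
  rw [Finset.sum_comm]
  refine Finset.sum_congr rfl fun l _ => Finset.sum_congr rfl fun k _ => ?_
  have e1 : F.curv a0 k l = - F.curv a0 l k := by
    ext x y
    exact F.curv_anti a0 k l x y
  rw [transpose_curv h0, e1, neg_neg]

end ring

section cen
variable {n : ℕ} {M : Type*} [TopologicalSpace M] [ChartedSpace (EuclideanSpace ℝ (Fin n)) M]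
  [IsManifold 𝓘(ℝ, EuclideanSpace ℝ (Fin n)) ∞ M]
  [RiemannianBundle (fun x : M => TangentSpace 𝓘(ℝ, EuclideanSpace ℝ (Fin n)) x)]
  [IsContMDiffRiemannianBundle 𝓘(ℝ, EuclideanSpace ℝ (Fin n)) ∞ (EuclideanSpace ℝ (Fin n))
      (fun x : M => TangentSpace 𝓘(ℝ, EuclideanSpace ℝ (Fin n)) x)]

open Crest.Agent.R249.Tz805 (Bun potQ CLoc CPair)

variable {κ κ0 κ1 : Type} [Fintype κ] [Fintype κ0] [Fintype κ1]
  {z : M} {e : Fin n → EuclideanSpace ℝ (Fin n) → EuclideanSpace ℝ (Fin n)}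
  {h : ONF (chartMetric n M z) (chartAt (EuclideanSpace ℝ (Fin n)) z).target
    (chartCentre n M z) e}
  {ι0 ι1 : Type} [Fintype ι0] [DecidableEq ι0] [Fintype ι1] [DecidableEq ι1]

/-- connection matrices of a local frame are skew -/
theorem LF_skew {D : Bun n M κ} {a : Fin n → Matrix ι0 ι0 (SG (chartCentre n M z))}
    {j : Matrix κ ι0 (SG (chartCentre n M z))} (hL : Tz805.LF D h a j) : Frame.Skew a :=
  skew_of_embed h.frameOf (om_skew D h) hL.jtj hL.dj

variable {a0 : Fin n → Matrix ι0 ι0 (SG (chartCentre n M z))}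
  {a1 : Fin n → Matrix ι1 ι1 (SG (chartCentre n M z))}
  {c : Fin n → Matrix ι1 ι0 (SG (chartCentre n M z))}
  {j0 : Matrix κ0 ι0 (SG (chartCentre n M z))} {j1 : Matrix κ1 ι1 (SG (chartCentre n M z))}

theorem symm_of_germ {Qf : κ → κ → M → ℝ}
    (hs : ∀ y y', ContMDiff 𝓘(ℝ, EuclideanSpace ℝ (Fin n)) 𝓘(ℝ, ℝ) ∞ (Qf y y'))
    {q : Matrix ι0 ι0 (SG (chartCentre n M z))} {j : Matrix κ ι0 (SG (chartCentre n M z))}
    (hq : qᵀ = q) (hj : (Matrix.of fun y y' => Tz805.fg (n := n) z (Qf y y')) = j * q * jᵀ)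
    (y y' : κ) : Qf y y' z = Qf y' y z := by
  have h1 : (j * q * jᵀ)ᵀ = j * q * jᵀ := by
    simp only [Matrix.transpose_mul, Matrix.transpose_transpose, hq, Matrix.mul_assoc]
  rw [← hj] at h1
  have h2 := congrArg ev (congrFun (congrFun h1 y') y)
  simp only [Matrix.transpose_apply, Matrix.of_apply] at h2
  have h3 : ∀ a b, ev (Tz805.fg (n := n) z (Qf a b)) = Qf a b z := fun a b =>
    Sg129.ev_fg (hs a b)
  rw [h3, h3] at h2
  exact h2

/-- field `sym0` of `CPair` -/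
theorem potQ_symm0 (s : PF n M κ) {D0 : Bun n M κ0} {D1 : Bun n M κ1}
    {cc : κ1 → κ0 → (p : M) → TangentSpace 𝓘(ℝ, EuclideanSpace ℝ (Fin n)) p}
    (smc : ∀ x y z, VSm n ∞ (cc x y) z) (C : CLoc D0 D1 cc h a0 a1 c j0 j1) (y y' : κ0) :
    potQ s D0 cc y y' z = potQ s D0 cc y' y z :=
  symm_of_germ (smooth_potQ s D0 smc) (Q_symm C.par (LF_skew C.l0) (LF_skew C.l1))
    (potQ_germ0 s smc C) y y'

/-- field `sym1` of `CPair` -/
theorem potQ_symm1 (s : PF n M κ) {D0 : Bun n M κ0} {D1 : Bun n M κ1}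
    {cc : κ1 → κ0 → (p : M) → TangentSpace 𝓘(ℝ, EuclideanSpace ℝ (Fin n)) p}
    (smc : ∀ x y z, VSm n ∞ (cc x y) z) (C : CLoc D0 D1 cc h a0 a1 c j0 j1) (x x' : κ1) :
    potQ s D1 (fun y x => cc x y) x x' z = potQ s D1 (fun y x => cc x y) x' x z :=
  symm_of_germ (smooth_potQ s D1 fun x y z => smc y x z)
    (Q_symm (C.par.transpose (LF_skew C.l0) (LF_skew C.l1)) (LF_skew C.l1) (LF_skew C.l0))
    (potQ_germ1 s smc C) x x'

end cen

end Crest.Agent.R249.HK9_714
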