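import Mathlib

/-!
# R249 leaf D1-DIAM (helper703), file 1: the integrated Riccati inequality

Along a minimising curve the function `w = n - Δ(d²/2)` satisfies
`d/ds (s w) ≥ w²/n + s² ρ`, `ρ = Ric(γ', γ')`. If `ρ ≥ lam - e` this forces
`∫ e ≥ (16/c⁴) (lam c⁵/30 - n c³/3)` on every interval `[a, a + c]` inside.
-/

set_option autoImplicit false

open Set Filter MeasureTheory
open scoped Topology ENNReal

namespace Crest.Agent.R249.Diam1_703

/-- the pointwise computation. -/
theorem point_ineq {N s w Q lam e φ φ' : ℝ} (hN : 0 < N) (hs : 0 < s)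
    (hQ : w ^ 2 / N + s ^ 2 * (lam - e) ≤ Q) :
    2 * φ * φ' * ((N - w) / s) + φ ^ 2 * ((-N - Q + 2 * w) / s ^ 2) + lam * φ ^ 2 - N * φ' ^ 2
      ≤ φ ^ 2 * e := by
  have hs2 : 0 < s ^ 2 := by positivity
  have h1 : (-N - Q + 2 * w) / s ^ 2 ≤ -((N - w) / s) ^ 2 / N - (lam - e) := by
    rw [div_le_iff₀ hs2]
    have e1 : (-((N - w) / s) ^ 2 / N - (lam - e)) * s ^ 2 =
        -(N - w) ^ 2 / N - s ^ 2 * (lam - e) := by
      field_simp
    rw [e1]
    have e2 : -(N - w) ^ 2 / N = -N + 2 * w - w ^ 2 / N := by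
      field_simp
      ring
    rw [e2]
    linarith
  set p : ℝ := (N - w) / s with hp
  have h2 : φ ^ 2 * ((-N - Q + 2 * w) / s ^ 2) ≤ φ ^ 2 * (-p ^ 2 / N - (lam - e)) :=
    mul_le_mul_of_nonneg_left h1 (sq_nonneg φ)
  have h3 : 0 ≤ N * (φ * p / N - φ') ^ 2 := by positivity
  have h4 : N * (φ * p / N - φ') ^ 2 = φ ^ 2 * p ^ 2 / N - 2 * φ * φ' * p + N * φ' ^ 2 := by
    field_simp
    ring
  have h5 : φ ^ 2 * (-p ^ 2 / N - (lam - e)) = - (φ ^ 2 * p ^ 2 / N) - φ ^ 2 * lam + φ ^ 2 * e := by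
    ring
  linarith

section
variable {n : ℕ} {w Q : ℝ → ℝ} {e : ℝ → ℝ} {a c lam : ℝ}

/-- **Integrated Riccati inequality**, with the test function `(s-a)(a+c-s)`. -/
theorem riccati_lintegral (hn : 0 < n) (ha : 0 < a) (hc : 0 < c) (hem : Measurable e)
    (he : ∀ s, 0 ≤ e s)
    (hd : ∀ s ∈ Icc a (a + c), HasDerivAt (fun t => t * w t) (Q s) s)
    (hQ : ∀ s ∈ Icc a (a + c), w s ^ 2 / n + s ^ 2 * (lam - e s) ≤ Q s) :
    ENNReal.ofReal (8 * lam * c / 15 - 16 * n / (3 * c)) ≤
      ∫⁻ s in Icc a (a + c), ENNReal.ofReal (e s) := by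
  have hN : (0 : ℝ) < n := by exact_mod_cast hn
  by_cases hfin : ∫⁻ s in Icc a (a + c), ENNReal.ofReal (e s) = ∞
  · rw [hfin]; exact le_top
  have hint : IntegrableOn e (Icc a (a + c)) := by
    refine ⟨hem.aestronglyMeasurable, ?_⟩
    rw [hasFiniteIntegral_iff_ofReal (Eventually.of_forall fun s => he s)]
    exact lt_top_iff_ne_top.2 hfin
  have hab : a ≤ a + c := by linarith
  have hpos : ∀ s ∈ Icc a (a + c), 0 < s := fun s hs => lt_of_lt_of_le ha hs.1
  -- the test function and the primitives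
  let φ : ℝ → ℝ := fun s => (s - a) * (a + c - s)
  let p : ℝ → ℝ := fun s => n / s - (s * w s) / s ^ 2
  let G : ℝ → ℝ := fun s => φ s ^ 2 * p s +
    lam * (c ^ 2 * (s - a) ^ 3 / 3 - c * (s - a) ^ 4 / 2 + (s - a) ^ 5 / 5) -
    n * (c ^ 2 * (s - a) - 2 * c * (s - a) ^ 2 + 4 * (s - a) ^ 3 / 3)
  have hφd : ∀ s, HasDerivAt φ (c - 2 * (s - a)) s := by
    intro s
    have h1 : HasDerivAt (fun s : ℝ => s - a) 1 s := (hasDerivAt_id s).sub_const a
    have h2 : HasDerivAt (fun s : ℝ => a + c - s) (-1) s := by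
      simpa using (hasDerivAt_id s).const_sub (a + c)
    refine (h1.mul h2).congr_deriv ?_
    ring
  have hGd : ∀ s ∈ Icc a (a + c), HasDerivAt G
      (2 * φ s * (c - 2 * (s - a)) * ((n - w s) / s) + φ s ^ 2 * ((-n - Q s + 2 * w s) / s ^ 2)
        + lam * φ s ^ 2 - n * (c - 2 * (s - a)) ^ 2) s := by
    intro s hs
    have hs0 : s ≠ 0 := (hpos s hs).ne'
    have hp : HasDerivAt p ((-n - Q s + 2 * w s) / s ^ 2) s := by
      have h1 : HasDerivAt (fun s : ℝ => (n : ℝ) / s) (-(n : ℝ) / s ^ 2) s := by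
        have := (hasDerivAt_inv hs0).const_mul (n : ℝ)
        refine (this.congr_deriv (by ring)).congr_of_eventuallyEq ?_
        exact Eventually.of_forall fun t => by simp [div_eq_mul_inv]
      have h2 : HasDerivAt (fun s : ℝ => s ^ 2) (2 * s) s := by
        simpa using hasDerivAt_pow 2 s
      have h3 := (hd s hs).div h2 (by positivity)
      refine (h1.sub h3).congr_deriv ?_
      field_simp
      ring
    have h1 := ((hφd s).pow 2).mul hp
    have hsa : HasDerivAt (fun s : ℝ => s - a) 1 s := (hasDerivAt_id s).sub_const a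
    have h2 : HasDerivAt (fun s : ℝ => c ^ 2 * (s - a) ^ 3 / 3 - c * (s - a) ^ 4 / 2 +
        (s - a) ^ 5 / 5) (φ s ^ 2) s := by
      have h3 := (((hsa.pow 3).const_mul (c ^ 2)).div_const 3).sub
        (((hsa.pow 4).const_mul c).div_const 2)
      have h4 := h3.add ((hsa.pow 5).div_const 5)
      refine h4.congr_deriv ?_
      simp only [φ]
      push_cast
      ring
    have h3 : HasDerivAt (fun s : ℝ => c ^ 2 * (s - a) - 2 * c * (s - a) ^ 2 +
        4 * (s - a) ^ 3 / 3) ((c - 2 * (s - a)) ^ 2) s := by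
      have h3 := (hsa.const_mul (c ^ 2)).sub ((hsa.pow 2).const_mul (2 * c))
      have h4 := h3.add (((hsa.pow 3).const_mul 4).div_const 3)
      refine h4.congr_deriv ?_
      push_cast
      ring
    have h4 := (h1.add (h2.const_mul lam)).sub (h3.const_mul (n : ℝ))
    refine h4.congr_deriv ?_
    have e1 : p s = (n - w s) / s := by
      simp only [p]; field_simp
    rw [e1]
    simp only [Pi.pow_apply]
    push_cast
    ring
  have hGc : ContinuousOn G (Icc a (a + c)) := fun s hs => (hGd s hs).continuousAt.continuousWithinAt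
  have hφb : ∀ s ∈ Icc a (a + c), φ s ^ 2 ≤ c ^ 4 / 16 := by
    intro s hs
    have h0 : 0 ≤ φ s := mul_nonneg (by linarith [hs.1]) (by linarith [hs.2])
    have h1 : φ s ≤ c ^ 2 / 4 := by
      simp only [φ]
      nlinarith [sq_nonneg (2 * (s - a) - c)]
    calc φ s ^ 2 ≤ (c ^ 2 / 4) ^ 2 := by gcongr
      _ = c ^ 4 / 16 := by ring
  have hle := intervalIntegral.sub_le_integral_of_hasDeriv_right_of_le (g := G)
    (φ := fun s => c ^ 4 / 16 * e s) hab hGc
    (fun s hs => (hGd s (Ioo_subset_Icc_self hs)).hasDerivWithinAt)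
    (hint.const_mul _)
    (fun s hs => by
      have hs' := Ioo_subset_Icc_self hs
      refine (point_ineq hN (hpos s hs') (hQ s hs')).trans ?_
      exact mul_le_mul_of_nonneg_right (hφb s hs') (he s))
  have hG1 : G (a + c) - G a = lam * (c ^ 5 / 30) - n * (c ^ 3 / 3) := by
    simp only [G, φ]
    ring
  rw [hG1, intervalIntegral.integral_const_mul, intervalIntegral.integral_of_le hab,
    ← integral_Icc_eq_integral_Ioc] at hle
  have h5 : 8 * lam * c / 15 - 16 * n / (3 * c) ≤ ∫ s in Icc a (a + c), e s := by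
    have hc4 : (0 : ℝ) < c ^ 4 / 16 := by positivity
    have h6 : c ^ 4 / 16 * (8 * lam * c / 15 - 16 * n / (3 * c)) =
        lam * (c ^ 5 / 30) - n * (c ^ 3 / 3) := by
      field_simp
      ring
    rw [← h6] at hle
    exact le_of_mul_le_mul_left hle hc4
  calc ENNReal.ofReal (8 * lam * c / 15 - 16 * n / (3 * c))
      ≤ ENNReal.ofReal (∫ s in Icc a (a + c), e s) := ENNReal.ofReal_le_ofReal h5
    _ = _ := ofReal_integral_eq_lintegral_ofReal hint (Eventually.of_forall fun s => he s)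

end

end Crest.Agent.R249.Diam1_703
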