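import Crest.Agent.R247.Mcp2_688

/-!
# R249 leaf D1-DIAM (helper703), file 2: the diameter bound on a radial contraction structure

`diam_of_rad`: on a connected space with the structure `Rad n 0 X μ` (= `Ric ≥ 0`), if `e ≥ 0` has
line integrals `≥ β` along all rays of length in `[Λ, 3Λ]` and `∫ e² < c(n, β) μ(X)`, then the
diameter is at most `4Λ`.
-/

set_option autoImplicit false
set_option linter.unusedSectionVars false
open MeasureTheory Set Filter Topology
open scoped ENNReal NNReal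

noncomputable section
namespace Crest.Agent.R249.Diam2_703

open Crest.Agent.R247.Mcp688

/-- real arithmetic of step A -/
theorem real_step {a b m I β P Q : ℝ} (ha : m / Q ≤ a) (hb : m / Q ≤ b) (hβ : 0 < β) (hP : 0 < P)
    (hQ : 0 < Q) (hm : 0 < m) (h : β * (a * b) ≤ P * (a + b) * I) :
    β / (2 * (P * Q)) * m ≤ I := by
  have hmQ : 0 < m / Q := by positivity
  have ha0 : 0 < a := lt_of_lt_of_le hmQ ha
  have hb0 : 0 < b := lt_of_lt_of_le hmQ hb
  have key : m / Q * (a + b) ≤ 2 * (a * b) := by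
    nlinarith
  have h1 : β * (m / Q * (a + b)) ≤ 2 * (P * (a + b) * I) := by
    nlinarith
  have hab : 0 < a + b := by positivity
  have h2 : β * (m / Q) ≤ 2 * (P * I) := by
    have : (a + b) * (β * (m / Q)) ≤ (a + b) * (2 * (P * I)) := by nlinarith
    exact le_of_mul_le_mul_left this hab
  have h3 : β / (2 * (P * Q)) * m = β * (m / Q) / (2 * P) := by
    field_simp
  rw [h3, div_le_iff₀ (by positivity)]
  linarith

section
variable {n : ℕ} {X : Type*} [MetricSpace X] [MeasurableSpace X] [BorelSpace X]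
  {μ : Measure X} (C : Rad n 0 X μ)

include C in
/-- Step A: large mean of `e` on every ball of radius `5Λ`. -/
theorem mean_ge [SFinite μ] (hfin : ∀ (x : X) (r : ℝ), μ (Metric.ball x r) ≠ ∞) {Λ β : ℝ}
    (hΛ : 0 < Λ) (hβ : 0 < β) {e : X → ℝ} (hem : Measurable e)
    (hseg : ∀ x z, (x, z) ∈ C.U → Λ ≤ dist x z → dist x z ≤ 3 * Λ →
      ENNReal.ofReal β ≤ ∫⁻ t in Icc (0 : ℝ) 1, ENNReal.ofReal (e (C.T x t z)))
    {p q : X} (hpq : dist p q = 2 * Λ) :
    ENNReal.ofReal (β / (2 * (2 ^ n * 14 ^ n))) * μ (Metric.ball p (5 * Λ)) ≤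
      ∫⁻ x in Metric.ball p (5 * Λ), ENNReal.ofReal (e x) ∂μ := by
  set A := Metric.ball p (Λ / 2) with hA
  set B := Metric.ball q (Λ / 2) with hB
  set W := Metric.ball p (5 * Λ) with hW
  set I : ℝ≥0∞ := ∫⁻ x in W, ENNReal.ofReal (e x) ∂μ with hI
  rcases eq_or_ne I ∞ with hIt | hIt
  · rw [hIt]; exact le_top
  rcases eq_or_ne (μ W) 0 with hW0 | hW0
  · rw [hW0, mul_zero]; exact bot_le
  have hWt : μ W ≠ ∞ := hfin _ _
  have hAt : μ A ≠ ∞ := hfin _ _
  have hBt : μ B ≠ ∞ := hfin _ _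
  have hdist : ∀ x ∈ A, ∀ z ∈ B, Λ ≤ dist x z ∧ dist x z ≤ 3 * Λ := by
    intro x hx z hz
    have h1 := Metric.mem_ball.1 hx
    have h2 := Metric.mem_ball.1 hz
    have h3 := dist_triangle4 p x z q
    have h4 := dist_triangle4 x p q z
    rw [dist_comm p x] at h3
    rw [dist_comm q z] at h4
    constructor <;> linarith
  have hmg : Measurable fun x => ENNReal.ofReal (e x) := hem.ennreal_ofReal
  have hseg' := C.segment_le (A := A) (B := B) (W := W) (D := 3 * Λ) (le_refl (0 : ℝ))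
    Metric.isOpen_ball.measurableSet Metric.isOpen_ball.measurableSet
    Metric.isOpen_ball.measurableSet (fun x hx z hz => (hdist x hx z hz).2)
    (fun x hx z hz hU t ht => by
      have h1 := C.dist_left hU ht
      have h2 := Metric.mem_ball.1 hx
      have h3 := (hdist x hx z hz).2
      have h4 : t * dist x z ≤ 3 * Λ := by
        have := ht.2; have := ht.1
        have h5 : t * dist x z ≤ 1 * dist x z := by gcongr
        linarith
      rw [Metric.mem_ball]
      have h6 := dist_triangle (C.T x t z) x p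
      rw [dist_comm (C.T x t z) x] at h6
      linarith) (g := fun x => ENNReal.ofReal (e x)) hmg
  have hlow : ENNReal.ofReal β * (μ A * μ B) ≤
      ∫⁻ x in A, ∫⁻ z in B, ∫⁻ t in Icc (0 : ℝ) 1, ENNReal.ofReal (e (C.T x t z)) ∂volume ∂μ ∂μ := by
    have h1 : ∀ x ∈ A, ENNReal.ofReal β * μ B ≤
        ∫⁻ z in B, ∫⁻ t in Icc (0 : ℝ) 1, ENNReal.ofReal (e (C.T x t z)) ∂volume ∂μ := by
      intro x hx
      rw [← setLIntegral_const]
      refine setLIntegral_mono_ae' Metric.isOpen_ball.measurableSet ?_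
      filter_upwards [C.ae_U x] with z hz hzB
      exact hseg x z hz (hdist x hx z hzB).1 (hdist x hx z hzB).2
    calc ENNReal.ofReal β * (μ A * μ B) = ∫⁻ _ in A, ENNReal.ofReal β * μ B ∂μ := by
          rw [setLIntegral_const]; ring
      _ ≤ _ := setLIntegral_mono' Metric.isOpen_ball.measurableSet h1
  have hmain := hlow.trans hseg'
  rw [zero_mul, zero_div, Real.exp_zero, one_mul] at hmain
  -- Bishop–Gromov
  have hbgA : μ W ≤ ENNReal.ofReal (14 ^ n) * μ A := by
    have h1 := C.mu_ball_le (le_refl (0 : ℝ)) p (r := Λ / 2) (R := 7 * Λ) (by positivity)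
      (by linarith)
    rw [zero_mul, zero_div, Real.exp_zero, one_mul] at h1
    have e1 : 7 * Λ / (Λ / 2) = 14 := by field_simp; norm_num
    rw [e1] at h1
    exact (measure_mono (Metric.ball_subset_ball (by linarith))).trans h1
  have hbgB : μ W ≤ ENNReal.ofReal (14 ^ n) * μ B := by
    have h1 := C.mu_ball_le' (le_refl (0 : ℝ)) p q (r := Λ / 2) (R := 5 * Λ) (S := 7 * Λ)
      (by positivity) (by rw [hpq]; linarith) (by linarith)
    rw [zero_mul, zero_div, Real.exp_zero, one_mul] at h1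
    have e1 : 7 * Λ / (Λ / 2) = 14 := by field_simp; norm_num
    rwa [e1] at h1
  have hQ : (0 : ℝ) < 14 ^ n := by positivity
  have hP : (0 : ℝ) < 2 ^ n := by positivity
  have hm : 0 < (μ W).toReal := ENNReal.toReal_pos hW0 hWt
  have hrA : (μ W).toReal / 14 ^ n ≤ (μ A).toReal := by
    rw [div_le_iff₀ hQ, mul_comm]
    have := ENNReal.toReal_mono (ENNReal.mul_ne_top ENNReal.ofReal_ne_top hAt) hbgA
    rwa [ENNReal.toReal_mul, ENNReal.toReal_ofReal hQ.le] at this
  have hrB : (μ W).toReal / 14 ^ n ≤ (μ B).toReal := by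
    rw [div_le_iff₀ hQ, mul_comm]
    have := ENNReal.toReal_mono (ENNReal.mul_ne_top ENNReal.ofReal_ne_top hBt) hbgB
    rwa [ENNReal.toReal_mul, ENNReal.toReal_ofReal hQ.le] at this
  have hreal : β * ((μ A).toReal * (μ B).toReal) ≤
      2 ^ n * ((μ A).toReal + (μ B).toReal) * I.toReal := by
    have htop : ENNReal.ofReal (2 ^ n) * (μ A + μ B) * I ≠ ∞ :=
      ENNReal.mul_ne_top (ENNReal.mul_ne_top ENNReal.ofReal_ne_top (ENNReal.add_ne_top.2 ⟨hAt, hBt⟩))
        hIt
    have := ENNReal.toReal_mono htop hmain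
    rwa [ENNReal.toReal_mul, ENNReal.toReal_mul, ENNReal.toReal_mul, ENNReal.toReal_mul,
      ENNReal.toReal_ofReal hβ.le, ENNReal.toReal_ofReal hP.le, ENNReal.toReal_add hAt hBt] at this
  have hfinal := real_step hrA hrB hβ hP hQ hm hreal
  have h7 : ENNReal.ofReal (β / (2 * (2 ^ n * 14 ^ n))) * μ W =
      ENNReal.ofReal (β / (2 * (2 ^ n * 14 ^ n)) * (μ W).toReal) := by
    rw [ENNReal.ofReal_mul (by positivity), ENNReal.ofReal_toReal hWt]
  rw [h7]
  calc _ ≤ ENNReal.ofReal I.toReal := ENNReal.ofReal_le_ofReal hfinal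
    _ = I := ENNReal.ofReal_toReal hIt

/-- Step B: from the mean of `e` to the mean of `e²`. -/
theorem sq_mean_ge {W : Set X} {e : X → ℝ} {k : ℝ} (hk : 0 < k) (hW : μ W ≠ ∞)
    (h : ENNReal.ofReal k * μ W ≤ ∫⁻ x in W, ENNReal.ofReal (e x) ∂μ) :
    ENNReal.ofReal (k ^ 2) * μ W ≤ ∫⁻ x in W, ENNReal.ofReal (e x ^ 2) ∂μ := by
  rcases eq_or_ne (∫⁻ x in W, ENNReal.ofReal (e x ^ 2) ∂μ) ∞ with ht | ht
  · rw [ht]; exact le_top
  have h1 : ∀ x, ENNReal.ofReal (e x) ≤ ENNReal.ofReal (k / 2) +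
      ENNReal.ofReal ((2 * k)⁻¹) * ENNReal.ofReal (e x ^ 2) := by
    intro x
    rw [← ENNReal.ofReal_mul (by positivity), ← ENNReal.ofReal_add (by positivity) (by positivity)]
    apply ENNReal.ofReal_le_ofReal
    have h2 : k / 2 + (2 * k)⁻¹ * e x ^ 2 - e x = (e x - k) ^ 2 / (2 * k) := by
      field_simp
      ring
    have h3 : 0 ≤ (e x - k) ^ 2 / (2 * k) := by positivity
    linarith
  have h2 : ∫⁻ x in W, ENNReal.ofReal (e x) ∂μ ≤ ENNReal.ofReal (k / 2) * μ W +
      ENNReal.ofReal ((2 * k)⁻¹) * ∫⁻ x in W, ENNReal.ofReal (e x ^ 2) ∂μ := by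
    calc ∫⁻ x in W, ENNReal.ofReal (e x) ∂μ ≤ ∫⁻ x in W, (ENNReal.ofReal (k / 2) +
          ENNReal.ofReal ((2 * k)⁻¹) * ENNReal.ofReal (e x ^ 2)) ∂μ := lintegral_mono fun x => h1 x
      _ = _ := by
          rw [lintegral_add_left measurable_const, setLIntegral_const,
            lintegral_const_mul' _ _ ENNReal.ofReal_ne_top]
  have h3 := h.trans h2
  set J := ∫⁻ x in W, ENNReal.ofReal (e x ^ 2) ∂μ with hJ
  have h4 : ENNReal.ofReal k * μ W = ENNReal.ofReal (k * (μ W).toReal) := by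
    rw [ENNReal.ofReal_mul hk.le, ENNReal.ofReal_toReal hW]
  have h5 : ENNReal.ofReal (k / 2) * μ W + ENNReal.ofReal ((2 * k)⁻¹) * J =
      ENNReal.ofReal (k / 2 * (μ W).toReal + (2 * k)⁻¹ * J.toReal) := by
    rw [ENNReal.ofReal_add (by positivity) (by positivity), ENNReal.ofReal_mul (by positivity),
      ENNReal.ofReal_mul (by positivity), ENNReal.ofReal_toReal hW, ENNReal.ofReal_toReal ht]
  rw [h4, h5] at h3
  have h6 : k * (μ W).toReal ≤ k / 2 * (μ W).toReal + (2 * k)⁻¹ * J.toReal :=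
    (ENNReal.ofReal_le_ofReal_iff (by positivity)).1 h3
  have h7 : k ^ 2 * (μ W).toReal ≤ J.toReal := by
    have h8 : k / 2 * (μ W).toReal ≤ (2 * k)⁻¹ * J.toReal := by linarith
    have h9 : 2 * k * (k / 2 * (μ W).toReal) ≤ 2 * k * ((2 * k)⁻¹ * J.toReal) := by gcongr
    have e1 : 2 * k * ((2 * k)⁻¹ * J.toReal) = J.toReal := by field_simp
    rw [e1] at h9
    calc k ^ 2 * (μ W).toReal = 2 * k * (k / 2 * (μ W).toReal) := by ring
      _ ≤ _ := h9
  calc ENNReal.ofReal (k ^ 2) * μ W = ENNReal.ofReal (k ^ 2 * (μ W).toReal) := by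
        rw [ENNReal.ofReal_mul (by positivity), ENNReal.ofReal_toReal hW]
    _ ≤ ENNReal.ofReal J.toReal := ENNReal.ofReal_le_ofReal h7
    _ = J := ENNReal.ofReal_toReal ht

include C in
/-- Step C: covering. -/
theorem total_ge [SecondCountableTopology X] {R k : ℝ} (hR : 0 < R) (_hk : 0 < k) {f : X → ℝ≥0∞}
    (h : ∀ p, ENNReal.ofReal k * μ (Metric.ball p R) ≤ ∫⁻ x in Metric.ball p R, f x ∂μ) :
    ENNReal.ofReal (k / 6 ^ n) * μ univ ≤ ∫⁻ x, f x ∂μ := by
  obtain ⟨u, -, hu, hcov⟩ := Vitali.exists_disjoint_subfamily_covering_enlargement_closedBall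
    (univ : Set X) (id : X → X) (fun _ => R) R (fun _ _ => le_rfl) 5 (by norm_num)
  have huc : u.Countable := by
    refine Set.PairwiseDisjoint.countable_of_nonempty_interior hu fun a _ => ?_
    refine ⟨a, ?_⟩
    exact Metric.ball_subset_interior_closedBall (Metric.mem_ball_self hR)
  have hcover : (univ : Set X) ⊆ ⋃ b ∈ u, Metric.ball b (6 * R) := by
    intro a _
    obtain ⟨b, hb, hab⟩ := hcov a (mem_univ _)
    have h1 : a ∈ Metric.closedBall b (5 * R) := hab (Metric.mem_closedBall_self hR.le)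
    refine mem_iUnion₂.2 ⟨b, hb, ?_⟩
    exact Metric.closedBall_subset_ball (by linarith) h1
  have hBG : ∀ b : X, μ (Metric.ball b (6 * R)) ≤ ENNReal.ofReal (6 ^ n) * μ (Metric.ball b R) := by
    intro b
    have h1 := C.mu_ball_le (le_refl (0 : ℝ)) b (r := R) (R := 6 * R) hR (by linarith)
    rw [zero_mul, zero_div, Real.exp_zero, one_mul] at h1
    have e1 : 6 * R / R = 6 := by field_simp
    rwa [e1] at h1
  have hdisj : u.PairwiseDisjoint fun b => Metric.ball b R := fun a ha b hb hab =>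
    (hu ha hb hab).mono Metric.ball_subset_closedBall Metric.ball_subset_closedBall
  calc ENNReal.ofReal (k / 6 ^ n) * μ univ
      ≤ ENNReal.ofReal (k / 6 ^ n) * μ (⋃ b ∈ u, Metric.ball b (6 * R)) := by gcongr
    _ ≤ ENNReal.ofReal (k / 6 ^ n) * ∑' b : u, μ (Metric.ball (b : X) (6 * R)) := by
        gcongr
        exact measure_biUnion_le μ huc _
    _ ≤ ENNReal.ofReal (k / 6 ^ n) * ∑' b : u, ENNReal.ofReal (6 ^ n) *
          μ (Metric.ball (b : X) R) := by
        gcongr with b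
        exact hBG b
    _ = ∑' b : u, ENNReal.ofReal k * μ (Metric.ball (b : X) R) := by
        rw [ENNReal.tsum_mul_left, ENNReal.tsum_mul_left, ← mul_assoc,
          ← ENNReal.ofReal_mul' (by positivity), div_mul_cancel₀ _ (by positivity)]
    _ ≤ ∑' b : u, ∫⁻ x in Metric.ball (b : X) R, f x ∂μ := by
        gcongr with b
        exact h b
    _ = ∫⁻ x in ⋃ b ∈ u, Metric.ball b R, f x ∂μ := by
        rw [← lintegral_biUnion huc (fun b _ => Metric.isOpen_ball.measurableSet) hdisj]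
    _ ≤ ∫⁻ x, f x ∂μ := setLIntegral_le_lintegral _ _

include C in
/-- **Diameter bound** on a radial contraction structure with `κ = 0`. -/
theorem diam_of_rad [SFinite μ] [SecondCountableTopology X] [PreconnectedSpace X]
    (hfin : ∀ (x : X) (r : ℝ), μ (Metric.ball x r) ≠ ∞) {Λ β : ℝ}
    (hΛ : 0 < Λ) (hβ : 0 < β) {e : X → ℝ} (hem : Measurable e)
    (hseg : ∀ x z, (x, z) ∈ C.U → Λ ≤ dist x z → dist x z ≤ 3 * Λ →
      ENNReal.ofReal β ≤ ∫⁻ t in Icc (0 : ℝ) 1, ENNReal.ofReal (e (C.T x t z)))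
    (hE : ∫⁻ x, ENNReal.ofReal (e x ^ 2) ∂μ <
      ENNReal.ofReal ((β / (2 * (2 ^ n * 14 ^ n))) ^ 2 / 6 ^ n) * μ univ) (x y : X) :
    dist x y ≤ 4 * Λ := by
  by_contra hxy
  rw [not_le] at hxy
  refine absurd ?_ (not_le.2 hE)
  have hk : 0 < β / (2 * (2 ^ n * 14 ^ n)) := by positivity
  refine total_ge C (R := 5 * Λ) (by positivity) (by positivity) fun p => ?_
  have hq : ∃ q, dist p q = 2 * Λ := by
    have hc : Continuous fun q => dist p q := continuous_const.dist continuous_id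
    have h2 : ∃ b, 2 * Λ ≤ dist p b := by
      by_contra hcon
      push Not at hcon
      have h3 := hcon x
      have h4 := hcon y
      have h5 := dist_triangle x p y
      rw [dist_comm x p] at h5
      linarith
    obtain ⟨q, hq⟩ := mem_range_of_exists_le_of_exists_ge hc ⟨p, by simp; positivity⟩ h2
    exact ⟨q, hq⟩
  obtain ⟨q, hq⟩ := hq
  exact sq_mean_ge hk (hfin _ _) (mean_ge C hfin hΛ hβ hem hseg hq)

end

end Crest.Agent.R249.Diam2_703
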