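import Crest.Agent.R247.Bgr3_546
import Crest.Agent.R249.Diam1_703
import Crest.Agent.R249.Diam2_703

/-!
# R249 leaf D1-DIAM (helper703), file 3: the diameter bound of a manifold with `Ric ≥ 0` and
`∫ e²` small, `Ric ≥ (lam - e) g`.
-/

set_option autoImplicit false
set_option maxSynthPendingDepth 3
set_option linter.unusedSectionVars false

open Bundle Set Filter Topology MeasureTheory
open scoped Manifold ContDiff NNReal ENNReal
open Crest.GeometryTopology.CoordMetric Crest.GeometryTopology.ChartCurvature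
  Crest.GeometryTopology.PointedLimit
open Crest.GeometryTopology.MTW
open Crest.Agent.R226.CutSmooth77 (SC)
open Crest.Agent.R202.Tens Crest.Agent.R247.Bo84
open Crest.Agent.R247.Sm879 (ExM fz exists_grad_chart gam_fz contDiffAt_fz sc_of_btw
  nonempty_localNear LN_sc Om isOpen_Om)
open Crest.Agent.R247.Lc582
open Crest.Agent.R247.Mcp688

noncomputable section

namespace Crest.Agent.R249.Diam3_703

open Crest.Agent.R247

/-- `RicGe n M b`: `Ric ≥ b(x) g` at every point `x` (a function as lower bound), in the shape of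
`HasRicciLowerBound`. -/
def RicGe (n : ℕ) (M : Type*) [TopologicalSpace M] [ChartedSpace (EuclideanSpace ℝ (Fin n)) M]
    [RiemannianBundle (fun p : M => TangentSpace (𝓡 n) p)] (b : M → ℝ) : Prop :=
  ∀ x : M, ∀ v : EuclideanSpace ℝ (Fin n),
    b x * quadForm (chartMetric n M x) (chartCentre n M x) v ≤
      ∑ i, ∑ j, ricci (chartMetric n M x) (chartCentre n M x) i j * v i * v j

section coord
variable {n : ℕ}

local notation "𝔼" => EuclideanSpace ℝ (Fin n)

variable {g : MetricField n} {U : Set (EuclideanSpace ℝ (Fin n))} {x : EuclideanSpace ℝ (Fin n)}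

/-- trace inequality `|Hess f - g|² ≥ (n - Δf)² / n`. -/
theorem hessDev_ge (hn : 0 < n) (hg : IsRiemannianOn g U) (hx : x ∈ U) {f : 𝔼 → ℝ}
    (hf : ContDiffAt ℝ 2 f x) : (n - laplaceBeltrami g f x) ^ 2 / n ≤ hessDev g f x := by
  obtain ⟨ξ, hξ⟩ := exists_frame hg hx
  have hN : (0 : ℝ) < n := by exact_mod_cast hn
  rw [hessDev_frame hg hx hf hξ, lap_frame hg hx hf hξ, div_le_iff₀ hN]
  have h1 : ((n : ℝ) - ∑ a, hess g f x (ξ a) (ξ a)) = - ∑ a, (hess g f x (ξ a) (ξ a) - 1) := by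
    rw [Finset.sum_sub_distrib]
    simp
  rw [h1, neg_sq]
  have h3 : (∑ a, (hess g f x (ξ a) (ξ a) - 1)) ^ 2 ≤
      n * ∑ a, (hess g f x (ξ a) (ξ a) - 1) ^ 2 := by
    have := sq_sum_le_card_mul_sum_sq (s := (Finset.univ : Finset (Fin n)))
      (f := fun a => hess g f x (ξ a) (ξ a) - 1)
    simpa using this
  have h4 : ∑ a, (hess g f x (ξ a) (ξ a) - 1) ^ 2 ≤
      ∑ a, ∑ b, (hess g f x (ξ a) (ξ b) - if a = b then (1:ℝ) else 0) ^ 2 := by
    refine Finset.sum_le_sum fun a _ => ?_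
    have h5 := Finset.single_le_sum
      (f := fun b => (hess g f x (ξ a) (ξ b) - if a = b then (1:ℝ) else 0) ^ 2)
      (fun b _ => sq_nonneg _) (Finset.mem_univ a)
    simpa using h5
  refine h3.trans ?_
  rw [mul_comm]
  exact mul_le_mul_of_nonneg_right h4 hN.le

end coord

variable {n : ℕ} {M : Type*} [MetricSpace M] [ChartedSpace (EuclideanSpace ℝ (Fin n)) M]
  [IsManifold (𝓡 n) ∞ M]
  [RiemannianBundle (fun p : M => TangentSpace (𝓡 n) p)]
  [IsContMDiffRiemannianBundle (𝓡 n) ∞ (EuclideanSpace ℝ (Fin n)) (fun p : M => TangentSpace (𝓡 n) p)]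
  [IsRiemannianManifold (𝓡 n) M]

local notation "𝔼" => EuclideanSpace ℝ (Fin n)

/-- lower bound of `mDev`. -/
theorem mDev_ge' (hn : 0 < n) {b : M → ℝ} (hb : RicGe n M b) {f : M → ℝ} {p : M}
    (hf : ContMDiffAt (𝓡 n) 𝓘(ℝ) ∞ f p) :
    (n - mLap n f p) ^ 2 / n + b p * mGam n f f p ≤ mDev n f p := by
  rw [mDev_eq]
  have hg := isRiemannianOn_chartMetric (n := n) p
  have hc : chartCentre n M p ∈ (chartAt 𝔼 p).target := mem_chart_target 𝔼 p
  have hf2 : ContDiffAt ℝ 2 (inCh n p f) (chartCentre n M p) :=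
    contDiffAt_centre (by norm_cast) (hf.of_le (by norm_cast))
  have h1 := hessDev_ge hn hg hc hf2
  have h2 := ricQ_lower hg hc (inCh n p f) (K := b p) (hb p)
  have h3 : mGam n f f p = gam (chartMetric n M p) (inCh n p f) (inCh n p f) (chartCentre n M p) :=
    rfl
  have h4 : mLap n f p = laplaceBeltrami (chartMetric n M p) (inCh n p f) (chartCentre n M p) := rfl
  rw [h3, h4]
  linarith

section curve
variable [ProperSpace M]

/-- interior points of a minimiser: smoothness of the cost and the eikonal equation. -/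
theorem curve_facts (hm : ExM M) {z : M} {γ : ℝ → M} {D : ℝ}
    (hγ : ∀ s ∈ Icc 0 D, ∀ t ∈ Icc 0 D, dist (γ s) (γ t) = |s - t|) (h0 : γ 0 = z)
    {s : ℝ} (hs : s ∈ Ioo 0 D) :
    SC n z (γ s) ∧ mGam n (halfDistSq z) (halfDistSq z) (γ s) = s ^ 2 := by
  have hD : (0:ℝ) ≤ D := (hs.1.trans hs.2).le
  have hDm : D ∈ Icc 0 D := ⟨hD, le_rfl⟩
  have h0m : (0:ℝ) ∈ Icc 0 D := ⟨le_rfl, hD⟩
  have hs' : s ∈ Icc 0 D := ⟨hs.1.le, hs.2.le⟩
  have hdz : ∀ t ∈ Icc 0 D, dist z (γ t) = t := by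
    intro t ht
    rw [← h0, hγ 0 h0m t ht, zero_sub, abs_neg, abs_of_nonneg ht.1]
  have e1 : dist (γ s) (γ D) = D - s := by
    rw [hγ s hs' D hDm, abs_sub_comm, abs_of_nonneg (by linarith [hs.2])]
  have hsc : SC n z (γ s) := by
    refine sc_of_btw (y' := γ D) hm ?_ ?_
    · rw [e1, hdz s hs', hdz D hDm]; ring
    · intro h'
      rw [h', dist_self] at e1
      linarith [hs.2]
  refine ⟨hsc, ?_⟩
  have hsrc := mem_chart_source 𝔼 (γ s)
  rw [mGam_chart' hsrc, inCh_eq_fz, gam_fz hm ((chartAt 𝔼 (γ s)).map_source hsrc)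
    (by rw [(chartAt 𝔼 (γ s)).left_inv hsrc]; exact hsc), fz,
    (chartAt 𝔼 (γ s)).left_inv hsrc, halfDistSq, hdz s hs']
  ring

end curve

/-- the ray of a good pair, parametrised by arc length. -/
theorem ray_isom [MeasurableSpace M] [BorelSpace M] {μ : Measure M} {κ : ℝ} (C : Rad n κ M μ)
    {x z : M} (hU : (x, z) ∈ C.U) (hxz : 0 < dist x z) :
    (∀ s ∈ Icc 0 (dist x z), ∀ t ∈ Icc 0 (dist x z),
      dist (C.T x (s / dist x z) z) (C.T x (t / dist x z) z) = |s - t|) ∧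
    C.T x (0 / dist x z) z = x := by
  refine ⟨?_, by rw [zero_div]; exact C.T_zero x z hU⟩
  intro s hs t ht
  have h1 : ∀ s ∈ Icc 0 (dist x z), s / dist x z ∈ Icc (0:ℝ) 1 := fun s hs =>
    ⟨div_nonneg hs.1 hxz.le, (div_le_one hxz).2 hs.2⟩
  rw [C.dist_T x z hU _ (h1 s hs) _ (h1 t ht), ← sub_div, abs_div, abs_of_pos hxz]
  field_simp

/-- **Integrated second variation along a good ray.** -/
theorem ray_lintegral [MeasurableSpace M] [BorelSpace M] [ProperSpace M] (hn : 0 < n) (hm : ExM M)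
    {μ : Measure M} {κ : ℝ} (C : Rad n κ M μ) {lam : ℝ}
    {e : M → ℝ} (hem : Measurable e) (he : ∀ x, 0 ≤ e x)
    (hR : RicGe n M fun x => lam - e x) {x z : M} (hU : (x, z) ∈ C.U) (hxz : 0 < dist x z) :
    ENNReal.ofReal (4 * lam / 15 - 32 * n / (3 * dist x z ^ 2)) ≤
      ∫⁻ t in Icc (0 : ℝ) 1, ENNReal.ofReal (e (C.T x t z)) := by
  set L := dist x z with hL
  obtain ⟨hγ, h0⟩ := ray_isom C hU hxz
  rw [← hL] at hγ h0
  set γ : ℝ → M := fun s => C.T x (s / L) z with hγd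
  have hγ' : ∀ s ∈ Icc 0 L, ∀ t ∈ Icc 0 L, dist (γ s) (γ t) = |s - t| := hγ
  have h0' : γ 0 = x := h0
  have hTm : Measurable fun t : ℝ => e (C.T x t z) :=
    hem.comp (C.measT.comp (measurable_const.prodMk (measurable_id.prodMk measurable_const)))
  set w : ℝ → ℝ := fun t => n - mLap n (halfDistSq x) (C.T x t z) with hw
  set Q : ℝ → ℝ := fun t => mDev n (halfDistSq x) (C.T x t z) with hQ
  have hmem : ∀ t ∈ Icc (1/4 : ℝ) (1/4 + 1/2), L * t ∈ Ioo 0 L := fun t ht =>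
    ⟨mul_pos hxz (by linarith [ht.1]), by
      have : t < 1 := by linarith [ht.2]
      nlinarith⟩
  have hγL : ∀ t : ℝ, γ (L * t) = C.T x t z := by
    intro t
    simp only [hγd]
    rw [mul_div_cancel_left₀ _ hxz.ne']
  have hd : ∀ t ∈ Icc (1/4 : ℝ) (1/4 + 1/2), HasDerivAt (fun t => t * w t) (Q t) t := by
    intro t ht
    have h1 := hasDerivAt_defect (n := n) hm hγ' h0' (hmem t ht)
    have h2 : HasDerivAt (fun t : ℝ => L * t) L t := by
      simpa using (hasDerivAt_id t).const_mul L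
    have h3 := (h1.comp t h2).const_mul L⁻¹
    refine (h3.congr_deriv ?_).congr_of_eventuallyEq ?_
    · rw [hγL]
      field_simp
      rfl
    · refine Eventually.of_forall fun t => ?_
      simp only [Function.comp, hw, hγL]
      field_simp
  have hQ' : ∀ t ∈ Icc (1/4 : ℝ) (1/4 + 1/2),
      w t ^ 2 / n + t ^ 2 * (L ^ 2 * lam - L ^ 2 * e (C.T x t z)) ≤ Q t := by
    intro t ht
    obtain ⟨h1, h2⟩ := curve_facts (n := n) hm hγ' h0' (hmem t ht)
    rw [hγL] at h1 h2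
    have h3 := mDev_ge' hn hR (contMDiffAt_cost h1)
    rw [h2] at h3
    calc w t ^ 2 / n + t ^ 2 * (L ^ 2 * lam - L ^ 2 * e (C.T x t z)) =
        (n - mLap n (halfDistSq x) (C.T x t z)) ^ 2 / n + (lam - e (C.T x t z)) * (L * t) ^ 2 := by
          simp only [hw]; ring
      _ ≤ _ := h3
  have hric := Diam1_703.riccati_lintegral (n := n) (w := w) (Q := Q)
    (e := fun t => L ^ 2 * e (C.T x t z)) (a := 1/4) (c := 1/2) (lam := L ^ 2 * lam) hn
    (by norm_num) (by norm_num) (hTm.const_mul _) (fun t => mul_nonneg (sq_nonneg _) (he _)) hd hQ'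
  have hL2 : 0 < L ^ 2 := by positivity
  have h4 : ∫⁻ s in Icc (1/4 : ℝ) (1/4 + 1/2), ENNReal.ofReal (L ^ 2 * e (C.T x s z)) ≤
      ENNReal.ofReal (L ^ 2) * ∫⁻ t in Icc (0 : ℝ) 1, ENNReal.ofReal (e (C.T x t z)) := by
    rw [← lintegral_const_mul' _ _ ENNReal.ofReal_ne_top]
    simp_rw [← ENNReal.ofReal_mul hL2.le]
    refine lintegral_mono_set ?_
    intro t ht
    exact ⟨by linarith [ht.1], by linarith [ht.2]⟩
  have h5 := hric.trans h4
  have h6 : 8 * (L ^ 2 * lam) * (1 / 2) / 15 - 16 * (n:ℝ) / (3 * (1 / 2)) =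
      L ^ 2 * (4 * lam / 15 - 32 * n / (3 * L ^ 2)) := by
    field_simp
    ring
  rw [h6, ENNReal.ofReal_mul hL2.le] at h5
  exact (ENNReal.mul_le_mul_iff_right (by simpa using hxz.ne') ENNReal.ofReal_ne_top).1 h5

universe u

/-- **Diameter bound** (S0386, part D1): complete connected `M`, `Ric ≥ 0`, `Ric ≥ (lam - e) g`,
`∫ e² < c vol(M)` ⟹ `diam M ≤ D`, with `D`, `c` depending only on `n` and `lam`. -/
theorem diam_le {n : ℕ} (hn : 0 < n) {lam : ℝ} (hlam : 0 < lam) :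
    ∃ D : ℝ, 0 < D ∧ ∃ c : ℝ, 0 < c ∧
      ∀ (M : Type u) [MetricSpace M] [CompleteSpace M] [ConnectedSpace M]
        [ChartedSpace (EuclideanSpace ℝ (Fin n)) M]
        [IsManifold 𝓘(ℝ, EuclideanSpace ℝ (Fin n)) ∞ M]
        [RiemannianBundle (fun x : M => TangentSpace 𝓘(ℝ, EuclideanSpace ℝ (Fin n)) x)]
        [IsContMDiffRiemannianBundle 𝓘(ℝ, EuclideanSpace ℝ (Fin n)) ∞ (EuclideanSpace ℝ (Fin n))
          (fun x : M => TangentSpace 𝓘(ℝ, EuclideanSpace ℝ (Fin n)) x)]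
        [IsRiemannianManifold 𝓘(ℝ, EuclideanSpace ℝ (Fin n)) M]
        [MeasurableSpace M] [BorelSpace M],
        HasRicciLowerBound n M 0 → ∀ e : M → ℝ, Measurable e → (∀ x, 0 ≤ e x) →
          RicGe n M (fun x => lam - e x) →
          ∫⁻ x, ENNReal.ofReal (e x ^ 2) ∂(μHE[n] : Measure M) <
            ENNReal.ofReal c * (μHE[n] : Measure M) univ →
          ∀ x y : M, dist x y ≤ D := by
  have hN : (0 : ℝ) < n := by exact_mod_cast hn
  set Λ : ℝ := Real.sqrt (80 * n / lam) with hΛ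
  have hΛpos : 0 < Λ := Real.sqrt_pos.2 (by positivity)
  have hΛ2 : Λ ^ 2 = 80 * n / lam := Real.sq_sqrt (by positivity)
  set β : ℝ := 2 * lam / 15 with hβ
  have hβpos : 0 < β := by positivity
  refine ⟨4 * Λ, by positivity, (β / (2 * (2 ^ n * 14 ^ n))) ^ 2 / 6 ^ n, by positivity, ?_⟩
  intro M _ _ _ _ _ _ _ _ _ _ hric e hem he hR hE x y
  have hproper := HR216.properSpace_of_riemannian n M
  have hm := Bgr546.exM_of_riemannian n M
  have hric' : HasRicciLowerBound n M (-(0:ℝ)) := by rwa [neg_zero]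
  obtain ⟨C⟩ := Bgr546.rad_all n 0 le_rfl M hric'
  have hlf := isLocallyFinite_muHE n M
  have hfin : ∀ (x : M) (r : ℝ), (μHE[n] : Measure M) (Metric.ball x r) ≠ ⊤ := by
    intro x r
    refine ne_of_lt ((measure_mono Metric.ball_subset_closedBall).trans_lt ?_)
    exact (isCompact_closedBall x r).measure_lt_top
  refine Diam2_703.diam_of_rad C hfin hΛpos hβpos hem ?_ hE x y
  intro p q hU h1 _
  have hpq : 0 < dist p q := lt_of_lt_of_le hΛpos h1
  refine le_trans ?_ (ray_lintegral hn hm C hem he hR hU hpq)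
  apply ENNReal.ofReal_le_ofReal
  have h2 : Λ ^ 2 ≤ dist p q ^ 2 := by gcongr
  have h3 : 32 * (n : ℝ) / (3 * dist p q ^ 2) ≤ 32 * n / (3 * Λ ^ 2) := by gcongr
  have h4 : 32 * (n : ℝ) / (3 * Λ ^ 2) = 2 * lam / 15 := by
    rw [hΛ2]
    field_simp
    ring
  rw [hβ]
  linarith

/-- with a diameter bound, Bishop–Gromov bounds the volume of all balls from below. -/
theorem vol_ball_ge {n : ℕ} {M : Type u} [MetricSpace M] [CompleteSpace M] [ConnectedSpace M]
    [ChartedSpace (EuclideanSpace ℝ (Fin n)) M]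
    [IsManifold 𝓘(ℝ, EuclideanSpace ℝ (Fin n)) ∞ M]
    [RiemannianBundle (fun x : M => TangentSpace 𝓘(ℝ, EuclideanSpace ℝ (Fin n)) x)]
    [IsContMDiffRiemannianBundle 𝓘(ℝ, EuclideanSpace ℝ (Fin n)) ∞ (EuclideanSpace ℝ (Fin n))
      (fun x : M => TangentSpace 𝓘(ℝ, EuclideanSpace ℝ (Fin n)) x)]
    [IsRiemannianManifold 𝓘(ℝ, EuclideanSpace ℝ (Fin n)) M]
    [MeasurableSpace M] [BorelSpace M] (hric : HasRicciLowerBound n M 0) {D : ℝ} (hD : 0 < D)
    (hdiam : ∀ x y : M, dist x y ≤ D) (x : M) {r : ℝ} (hr : 0 < r) (hrD : r ≤ 2 * D) :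
    (μHE[n] : Measure M) univ ≤
      ENNReal.ofReal ((2 * D / r) ^ n) * (μHE[n] : Measure M) (Metric.ball x r) := by
  have hric' : HasRicciLowerBound n M (-(0:ℝ)) := by rwa [neg_zero]
  obtain ⟨C⟩ := Bgr546.rad_all n 0 le_rfl M hric'
  have h1 := C.mu_ball_le (le_refl (0 : ℝ)) x hr hrD
  rw [zero_mul, zero_div, Real.exp_zero, one_mul] at h1
  refine le_trans (measure_mono ?_) h1
  intro y _
  rw [Metric.mem_ball, dist_comm]
  linarith [hdiam x y]

/-- `HasRicciLowerBound` is the case of a constant function. -/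
theorem ricGe_const {n : ℕ} {M : Type*} [TopologicalSpace M]
    [ChartedSpace (EuclideanSpace ℝ (Fin n)) M]
    [IsManifold 𝓘(ℝ, EuclideanSpace ℝ (Fin n)) ∞ M]
    [RiemannianBundle (fun x : M => TangentSpace 𝓘(ℝ, EuclideanSpace ℝ (Fin n)) x)]
    [IsContMDiffRiemannianBundle 𝓘(ℝ, EuclideanSpace ℝ (Fin n)) ∞ (EuclideanSpace ℝ (Fin n))
      (fun x : M => TangentSpace 𝓘(ℝ, EuclideanSpace ℝ (Fin n)) x)] {K : ℝ} :
    HasRicciLowerBound n M K ↔ RicGe n M fun _ => K := Iff.rfl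

end Crest.Agent.R249.Diam3_703
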