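import Crest.Agent.R249.SgD_129
import Crest.Agent.R247.Bo3_84

/-!
Row 249, leaf DIC (helper129), part 1: total germs `tg f` (junk `0` if `f` is not smooth at `x`) and
the components `h.vt V k` of a vector field of the chart in an orthonormal frame `h : ONF g U x e`,
with the dictionary for sums, products, inner products, gradients, covariant derivatives,
divergence, curvature.
-/

set_option autoImplicit false
set_option linter.unusedSectionVars false

open scoped ContDiff Topology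
open Filter Set Finset
open Crest.GeometryTopology.CoordMetric Crest.GeometryTopology.ChartCurvature
open Crest.Agent.R202.Tens Crest.Agent.R247.Bo84
open Crest.Agent.R249.Fr129

noncomputable section

namespace Crest.Agent.R249.Sg129

variable {n : ℕ}

local notation "𝔼" => EuclideanSpace ℝ (Fin n)

variable {x : EuclideanSpace ℝ (Fin n)}

open Classical in
/-- total germ: the germ of `f` at `x`, and `0` if `f` is not smooth at `x`. -/
def tg (f : EuclideanSpace ℝ (Fin n) → ℝ) : SG x :=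
  if hf : ContDiffAt ℝ ∞ f x then germ f hf else 0

lemma tg_eq {f : 𝔼 → ℝ} (hf : ContDiffAt ℝ ∞ f x) : tg f = germ f hf := dif_pos hf

lemma tg_congr {f f' : 𝔼 → ℝ} (h : f =ᶠ[𝓝 x] f') : (tg f : SG x) = tg f' := by
  by_cases hf : ContDiffAt ℝ ∞ f x
  · have hf' : ContDiffAt ℝ ∞ f' x := hf.congr_of_eventuallyEq h.symm
    rw [tg_eq hf, tg_eq hf']
    exact germ_eq h
  · have hf' : ¬ ContDiffAt ℝ ∞ f' x := fun h' => hf (h'.congr_of_eventuallyEq h)
    rw [tg, tg, dif_neg hf, dif_neg hf']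

lemma tg_eq_iff {f f' : 𝔼 → ℝ} (hf : ContDiffAt ℝ ∞ f x) (hf' : ContDiffAt ℝ ∞ f' x) :
    (tg f : SG x) = tg f' ↔ f =ᶠ[𝓝 x] f' := by
  rw [tg_eq hf, tg_eq hf', germ_eq_iff]

lemma ev_tg {f : 𝔼 → ℝ} (hf : ContDiffAt ℝ ∞ f x) : ev (tg f : SG x) = f x := by
  rw [tg_eq hf, ev_germ]

lemma exists_tg (φ : SG x) : ∃ f, ContDiffAt ℝ ∞ f x ∧ tg f = φ := by
  obtain ⟨f, hf, h⟩ := exists_germ φ
  exact ⟨f, hf, by rw [tg_eq hf, h]⟩

lemma tg_const (c : ℝ) : (tg (fun _ => c) : SG x) = algebraMap ℝ (SG x) c := by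
  rw [tg_eq contDiffAt_const, algebraMap_eq]

lemma tg_zero : (tg (fun _ => 0) : SG x) = 0 := by rw [tg_const, map_zero]

lemma tg_one : (tg (fun _ => 1) : SG x) = 1 := by rw [tg_const, map_one]

lemma tg_add {f f' : 𝔼 → ℝ} (hf : ContDiffAt ℝ ∞ f x) (hf' : ContDiffAt ℝ ∞ f' x) :
    (tg (fun y => f y + f' y) : SG x) = tg f + tg f' := by
  rw [tg_eq hf, tg_eq hf', tg_eq (hf.add hf'), germ_add]

lemma tg_sub {f f' : 𝔼 → ℝ} (hf : ContDiffAt ℝ ∞ f x) (hf' : ContDiffAt ℝ ∞ f' x) :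
    (tg (fun y => f y - f' y) : SG x) = tg f - tg f' := by
  rw [tg_eq hf, tg_eq hf', tg_eq (hf.sub hf'), germ_sub]

lemma tg_neg {f : 𝔼 → ℝ} (hf : ContDiffAt ℝ ∞ f x) :
    (tg (fun y => - f y) : SG x) = - tg f := by
  rw [tg_eq hf, tg_eq hf.neg, germ_neg]

lemma tg_mul {f f' : 𝔼 → ℝ} (hf : ContDiffAt ℝ ∞ f x) (hf' : ContDiffAt ℝ ∞ f' x) :
    (tg (fun y => f y * f' y) : SG x) = tg f * tg f' := by
  rw [tg_eq hf, tg_eq hf', tg_eq (hf.mul hf'), germ_mul]

lemma tg_smul (c : ℝ) {f : 𝔼 → ℝ} (hf : ContDiffAt ℝ ∞ f x) :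
    (tg (fun y => c * f y) : SG x) = c • tg f := by
  rw [tg_eq hf, tg_eq (contDiffAt_const.mul hf), smul_germ]

lemma tg_sum {ι : Type*} (s : Finset ι) {f : ι → 𝔼 → ℝ} (hf : ∀ i, ContDiffAt ℝ ∞ (f i) x) :
    (tg (fun y => ∑ i ∈ s, f i y) : SG x) = ∑ i ∈ s, tg (f i) := by
  rw [tg_eq (ContDiffAt.sum fun i _ => hf i), ← germ_sum s hf]
  exact Finset.sum_congr rfl fun i _ => (tg_eq (hf i)).symm

variable {g : MetricField n} {U : Set (EuclideanSpace ℝ (Fin n))}
  {e : Fin n → EuclideanSpace ℝ (Fin n) → EuclideanSpace ℝ (Fin n)}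

/-- smooth fields are differentiable near the point -/
lemma ev_diffV {V : 𝔼 → 𝔼} (hV : ContDiffAt ℝ ∞ V x) : ∀ᶠ y in 𝓝 x, DifferentiableAt ℝ V y := by
  filter_upwards [(hV.of_le (m := 1) (WithTop.coe_le_coe.2 le_top)).eventually (by norm_num)]
    with y hy
  exact hy.differentiableAt (by norm_num)

namespace ONF

/-- components of a vector field of the chart in the frame (total) -/
def vt (_h : ONF g U x e) (V : EuclideanSpace ℝ (Fin n) → EuclideanSpace ℝ (Fin n)) (k : Fin n) :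
    SG x := tg (fun y => bil (g y) (V y) (e k y))

variable (h : ONF g U x e)
include h

lemma D_tg {f : 𝔼 → ℝ} (hf : ContDiffAt ℝ ∞ f x) (k : Fin n) :
    h.frameOf.D k (tg f) = tg (fun y => fderiv ℝ f y (e k y)) := by
  rw [tg_eq hf, h.D_germ, tg_eq]

lemma vt_germ {V : 𝔼 → 𝔼} (hV : ContDiffAt ℝ ∞ V x) (k : Fin n) :
    h.vt V k = germ (fun y => bil (g y) (V y) (e k y)) (h.cd_bil hV (h.smooth k)) := tg_eq _

lemma ev_vt {V : 𝔼 → 𝔼} (hV : ContDiffAt ℝ ∞ V x) (k : Fin n) :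
    ev (h.vt V k) = bil (g x) (V x) (e k x) := by
  rw [h.vt_germ hV, ev_germ]

lemma vt_congr {V W : 𝔼 → 𝔼} (hVW : V =ᶠ[𝓝 x] W) : h.vt V = h.vt W := by
  funext k
  refine tg_congr ?_
  filter_upwards [hVW] with y hy
  rw [hy]

lemma vt_zero (k : Fin n) : h.vt (fun _ => 0) k = 0 := by
  rw [vt, ← tg_zero]
  congr 1
  funext y
  rw [map_zero, _root_.zero_apply]

lemma vt_add {V W : 𝔼 → 𝔼} (hV : ContDiffAt ℝ ∞ V x) (hW : ContDiffAt ℝ ∞ W x) (k : Fin n) :
    h.vt (fun y => V y + W y) k = h.vt V k + h.vt W k := by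
  rw [vt, vt, vt, ← tg_add (h.cd_bil hV (h.smooth k)) (h.cd_bil hW (h.smooth k))]
  congr 1
  funext y
  rw [map_add, _root_.add_apply]

lemma vt_sub {V W : 𝔼 → 𝔼} (hV : ContDiffAt ℝ ∞ V x) (hW : ContDiffAt ℝ ∞ W x) (k : Fin n) :
    h.vt (fun y => V y - W y) k = h.vt V k - h.vt W k := by
  rw [vt, vt, vt, ← tg_sub (h.cd_bil hV (h.smooth k)) (h.cd_bil hW (h.smooth k))]
  congr 1
  funext y
  rw [map_sub, _root_.sub_apply]

lemma vt_neg {V : 𝔼 → 𝔼} (hV : ContDiffAt ℝ ∞ V x) (k : Fin n) :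
    h.vt (fun y => - V y) k = - h.vt V k := by
  rw [vt, vt, ← tg_neg (h.cd_bil hV (h.smooth k))]
  congr 1
  funext y
  rw [map_neg, _root_.neg_apply]

lemma vt_smul {f : 𝔼 → ℝ} {V : 𝔼 → 𝔼} (hf : ContDiffAt ℝ ∞ f x) (hV : ContDiffAt ℝ ∞ V x)
    (k : Fin n) : h.vt (fun y => f y • V y) k = tg f * h.vt V k := by
  rw [vt, vt, ← tg_mul hf (h.cd_bil hV (h.smooth k))]
  congr 1
  funext y
  rw [map_smul, _root_.smul_apply, smul_eq_mul]

lemma vt_csmul (c : ℝ) {V : 𝔼 → 𝔼} (hV : ContDiffAt ℝ ∞ V x)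
    (k : Fin n) : h.vt (fun y => c • V y) k = c • h.vt V k := by
  rw [h.vt_smul contDiffAt_const hV, tg_const, Algebra.smul_def]

lemma vt_sum {ι : Type*} (s : Finset ι) {V : ι → 𝔼 → 𝔼} (hV : ∀ i, ContDiffAt ℝ ∞ (V i) x)
    (k : Fin n) : h.vt (fun y => ∑ i ∈ s, V i y) k = ∑ i ∈ s, h.vt (V i) k := by
  simp only [vt]
  rw [← tg_sum s fun i => h.cd_bil (hV i) (h.smooth k)]
  congr 1
  funext y
  rw [map_sum, _root_.sum_apply]

/-- expansion in the frame near the point -/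
lemma expand_ev (V : 𝔼 → 𝔼) : ∀ᶠ y in 𝓝 x, V y = ∑ k, bil (g y) (V y) (e k y) • e k y := by
  filter_upwards [h.isFrame, eventually_mem h.riem h.mem] with y hF hy
  exact hF.expand h.riem hy (V y)

/-- inner products -/
lemma vt_bil {V W : 𝔼 → 𝔼} (hV : ContDiffAt ℝ ∞ V x) (hW : ContDiffAt ℝ ∞ W x) :
    (tg (fun y => bil (g y) (V y) (W y)) : SG x) = ∑ k, h.vt V k * h.vt W k := by
  rw [tg_eq (h.cd_bil hV hW)]
  simp only [h.vt_germ hV, h.vt_germ hW, germ_mul, germ_sum]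
  refine germ_eq ?_
  filter_upwards [h.isFrame, eventually_mem h.riem h.mem] with y hF hy
  exact hF.bil_eq h.riem hy (V y) (W y)

lemma vt_frame (j k : Fin n) : h.vt (e j) k = if j = k then 1 else 0 := by
  have h1 : h.vt (e j) k = tg (fun _ => if j = k then 1 else 0) :=
    tg_congr (by filter_upwards [h.orth] with y hy using hy j k)
  rw [h1, tg_const]
  split_ifs <;> simp

/-- components determine the field near the point -/
lemma vt_inj {V W : 𝔼 → 𝔼} (hV : ContDiffAt ℝ ∞ V x) (hW : ContDiffAt ℝ ∞ W x)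
    (hVW : ∀ k, h.vt V k = h.vt W k) : V =ᶠ[𝓝 x] W := by
  have h1 : ∀ k, ∀ᶠ y in 𝓝 x, bil (g y) (V y) (e k y) = bil (g y) (W y) (e k y) := by
    intro k
    have := hVW k
    rw [h.vt_germ hV, h.vt_germ hW] at this
    exact germ_eq_iff.1 this
  filter_upwards [eventually_all.2 h1, h.expand_ev V, h.expand_ev W] with y h2 h3 h4
  rw [h3, h4]
  exact Finset.sum_congr rfl fun k _ => by rw [h2 k]

/-- every vector of germs is a field -/
lemma exists_vt (u : Fin n → SG x) : ∃ V : 𝔼 → 𝔼, ContDiffAt ℝ ∞ V x ∧ h.vt V = u := by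
  choose f hf hu using fun k => exists_tg (u k)
  have hs : ∀ k, ContDiffAt ℝ ∞ (fun y => f k y • e k y) x := fun k => (hf k).smul (h.smooth k)
  refine ⟨fun y => ∑ k, f k y • e k y, ContDiffAt.sum fun k _ => hs k, ?_⟩
  funext j
  rw [h.vt_sum _ hs]
  simp only [fun k => h.vt_smul (hf k) (h.smooth k), hu, h.vt_frame]
  simp

/-- derivative in the direction of a field -/
lemma tg_dir {f : 𝔼 → ℝ} {V : 𝔼 → 𝔼} (hf : ContDiffAt ℝ ∞ f x) (hV : ContDiffAt ℝ ∞ V x) :
    (tg (fun y => fderiv ℝ f y (V y)) : SG x) = ∑ k, h.vt V k * h.frameOf.D k (tg f) := by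
  have hdf : ContDiffAt ℝ ∞ (fderiv ℝ f) x := hf.fderiv_right (m := ∞) (by simp)
  rw [tg_eq (hdf.clm_apply hV)]
  simp only [h.vt_germ hV, tg_eq hf, h.D_germ hf, germ_mul, germ_sum]
  refine germ_eq ?_
  filter_upwards [h.expand_ev V] with y hy
  conv_lhs => rw [hy]
  rw [map_sum]
  exact Finset.sum_congr rfl fun k _ => by rw [map_smul, smul_eq_mul]

/-- gradient -/
lemma vt_grad {f : 𝔼 → ℝ} (hf : ContDiffAt ℝ ∞ f x) (k : Fin n) :
    h.vt (grad g f) k = h.frameOf.D k (tg f) := by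
  rw [h.D_tg hf]
  refine tg_congr ?_
  filter_upwards [eventually_mem h.riem h.mem] with y hy
  exact bil_grad h.riem hy f (e k y)

lemma cd_covV {V W : 𝔼 → 𝔼} (hV : ContDiffAt ℝ ∞ V x) (hW : ContDiffAt ℝ ∞ W x) :
    ContDiffAt ℝ ∞ (fun y => cov g V y (W y)) x :=
  (contDiffAt_cov h.riem h.mem (m := ∞) hV (by simp) le_rfl).clm_apply hW

/-- **covariant derivative** -/
theorem vt_cov {V W : 𝔼 → 𝔼} (hV : ContDiffAt ℝ ∞ V x) (hW : ContDiffAt ℝ ∞ W x) (j : Fin n) :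
    h.vt (fun y => cov g V y (W y)) j
      = ∑ k, h.vt W k * h.frameOf.cov h.frameOf.tan k (h.vt V) j := by
  rw [h.vt_germ (h.cd_covV hV hW)]
  have e1 : ∀ k, h.frameOf.cov h.frameOf.tan k (h.vt V) j
      = germ _ (h.cd_D (h.cd_bil hV (h.smooth j)) k)
        + ∑ a, germ _ (h.cd_bil (h.cd_cov a k) (h.smooth j)) *
          germ _ (h.cd_bil hV (h.smooth a)) := by
    intro k
    rw [Frame.cov, h.vt_germ hV, h.D_germ]
    congr 1
    refine Finset.sum_congr rfl fun a _ => ?_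
    rw [Frame.tan, h.w_germ, h.vt_germ hV]
  simp only [e1, h.vt_germ hW, germ_mul, germ_sum, germ_add]
  refine germ_eq ?_
  filter_upwards [h.isFrame, eventually_mem h.riem h.mem, h.expand_ev W, ev_diffV hV,
    ev_diffV (h.smooth j), h.orth.eventually_nhds, eventually_all.2 fun a => ev_diffV (h.smooth a)]
    with y hF hy hWy hVd hjd horth had
  have h1 : ∀ X : 𝔼, bil (g y) (cov g V y X) (e j y)
      = fderiv ℝ (fun z => bil (g z) (V z) (e j z)) y X - bil (g y) (V y) (cov g (e j) y X) := by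
    intro X
    rw [fderiv_bil h.riem hy hVd hjd X]; ring
  have h2 : ∀ (a : Fin n) (X : 𝔼), bil (g y) (cov g (e a) y X) (e j y)
      = - bil (g y) (e a y) (cov g (e j) y X) := by
    intro a X
    have h3 := fderiv_bil h.riem hy (had a) hjd X
    have h4 : (fun z => bil (g z) (e a z) (e j z)) =ᶠ[𝓝 y] fun _ => if a = j then (1:ℝ) else 0 := by
      filter_upwards [horth] with z hz using hz a j
    rw [h4.fderiv_eq, fderiv_fun_const] at h3
    simp only [Pi.zero_apply, _root_.zero_apply] at h3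
    linarith
  have h5 : ∀ X : 𝔼, bil (g y) (V y) (cov g (e j) y X)
      = ∑ a, bil (g y) (V y) (e a y) * bil (g y) (e a y) (cov g (e j) y X) := by
    intro X
    conv_lhs => rw [hF.expand h.riem hy (V y)]
    rw [map_sum, _root_.sum_apply]
    exact Finset.sum_congr rfl fun a _ => by rw [map_smul, _root_.smul_apply, smul_eq_mul]
  have h6 : ∀ X : 𝔼, bil (g y) (cov g V y X) (e j y)
      = fderiv ℝ (fun z => bil (g z) (V z) (e j z)) y X
        + ∑ a, bil (g y) (cov g (e a) y X) (e j y) * bil (g y) (V y) (e a y) := by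
    intro X
    rw [h1, h5, sub_eq_add_neg, ← Finset.sum_neg_distrib]
    congr 1
    refine Finset.sum_congr rfl fun a _ => ?_
    rw [h2]; ring
  rw [show bil (g y) (cov g V y (W y)) (e j y) = ∑ k, bil (g y) (W y) (e k y)
      * bil (g y) (cov g V y (e k y)) (e j y) from ?_]
  · exact Finset.sum_congr rfl fun k _ => by rw [h6]
  · conv_lhs => rw [hWy]
    rw [map_sum, map_sum, _root_.sum_apply]
    exact Finset.sum_congr rfl fun k _ => by
      rw [map_smul, map_smul, _root_.smul_apply, smul_eq_mul]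

/-- covariant derivative in a frame direction -/
lemma vt_cov_frame {V : 𝔼 → 𝔼} (hV : ContDiffAt ℝ ∞ V x) (k j : Fin n) :
    h.vt (fun y => cov g V y (e k y)) j = h.frameOf.cov h.frameOf.tan k (h.vt V) j := by
  rw [h.vt_cov hV (h.smooth k)]
  simp only [h.vt_frame]
  simp

lemma cd_divg {V : 𝔼 → 𝔼} (hV : ContDiffAt ℝ ∞ V x) : ContDiffAt ℝ ∞ (divg g V) x :=
  contDiffAt_divg h.riem h.mem (a := ∞) hV (by simp) (by simp)

/-- divergence -/
theorem tg_divg {V : 𝔼 → 𝔼} (hV : ContDiffAt ℝ ∞ V x) :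
    (tg (divg g V) : SG x) = ∑ k, h.frameOf.cov h.frameOf.tan k (h.vt V) k := by
  rw [tg_eq (h.cd_divg hV)]
  simp only [← h.vt_cov_frame hV]
  simp only [fun k => h.vt_germ (h.cd_covV hV (h.smooth k)) k, germ_sum]
  refine germ_eq ?_
  filter_upwards [h.isFrame, eventually_mem h.riem h.mem, ev_diffV hV] with y hF hy hVd
  rw [divg_eq_trL h.riem hy hVd, hF.trL_eq h.riem hy]

/-- Hessian -/
lemma tg_hess {f : 𝔼 → ℝ} {V W : 𝔼 → 𝔼} (hf : ContDiffAt ℝ ∞ f x) (hV : ContDiffAt ℝ ∞ V x)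
    (hW : ContDiffAt ℝ ∞ W x) :
    (tg (fun y => hess g f y (V y) (W y)) : SG x)
      = ∑ k, ∑ l, h.vt V k * h.vt W l * h.frameOf.hess0 k l (tg f) := by
  have e0 : (tg (fun y => hess g f y (V y) (W y)) : SG x)
      = tg (fun y => ∑ k, ∑ l, (bil (g y) (V y) (e k y) * bil (g y) (W y) (e l y)) *
        hess g f y (e k y) (e l y)) := by
    refine tg_congr ?_
    filter_upwards [h.expand_ev V, h.expand_ev W] with y hy hy'
    conv_lhs => rw [hy, hy']
    rw [map_sum (hess g f y), _root_.sum_apply]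
    refine Finset.sum_congr rfl fun k _ => ?_
    rw [map_sum]
    refine Finset.sum_congr rfl fun l _ => ?_
    simp only [map_smul, _root_.smul_apply, smul_eq_mul]
    ring
  rw [e0]
  simp only [tg_eq hf, h.hess0_germ hf, h.vt_germ hV, h.vt_germ hW, germ_mul, germ_sum]
  exact tg_eq _

/-- curvature operator on fields -/
lemma vt_curv {V W Z : 𝔼 → 𝔼} (hV : ContDiffAt ℝ ∞ V x) (hW : ContDiffAt ℝ ∞ W x)
    (hZ : ContDiffAt ℝ ∞ Z x) (l : Fin n) :
    h.vt (fun y => curv (Gam g) y (V y) (W y) (Z y)) l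
      = ∑ i, ∑ j, ∑ k, h.frameOf.Rm i j k l * h.vt V i * h.vt W j * h.vt Z k := by
  have e0 : h.vt (fun y => curv (Gam g) y (V y) (W y) (Z y)) l
      = tg (fun y => ∑ i, ∑ j, ∑ k, bil (g y) (curv (Gam g) y (e i y) (e j y) (e k y)) (e l y)
        * bil (g y) (V y) (e i y) * bil (g y) (W y) (e j y) * bil (g y) (Z y) (e k y)) := by
    refine tg_congr ?_
    filter_upwards [h.expand_ev V, h.expand_ev W, h.expand_ev Z] with y h1 h2 h3
    conv_lhs => rw [h1, h2, h3]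
    rw [curv_sum]
    simp_rw [curv_sum2, curv_sum3]
    simp only [map_sum, _root_.sum_apply, map_smul, _root_.smul_apply, smul_eq_mul, Finset.mul_sum]
    refine Finset.sum_congr rfl fun i _ => ?_
    refine Finset.sum_congr rfl fun j _ => ?_
    exact Finset.sum_congr rfl fun k _ => by ring
  rw [e0]
  simp only [h.Rm_germ, h.vt_germ hV, h.vt_germ hW, h.vt_germ hZ, germ_mul, germ_sum]
  exact tg_eq _

end ONF

end Crest.Agent.R249.Sg129
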