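import Crest.Agent.R249.FrF_129

/-!
Row 249, part C3 (helper805): Killing fields in 129's frame ring (C3.1-C3.3 of BP-C3).
-/

set_option autoImplicit false
set_option linter.unusedSimpArgs false
set_option linter.unusedSectionVars false

namespace Crest.Agent.R249.Kil1_805

open Finset Matrix Crest.Agent.R249.Fr129 Crest.Agent.R249.Fr129.Frame

section general

variable {n : ℕ} {S : Type*} [CommRing S] [Algebra ℝ S] (F : Frame n S)

/-- `BV k j = ⟨∇_{e_k} V, e_j⟩`. -/
def BV (V : Fin n → S) (k j : Fin n) : S := F.cov F.tan k V j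

/-- Killing fields. -/
def Kill (V : Fin n → S) : Prop := ∀ k j, BV F V k j = - BV F V j k

/-- covariant derivative of the 2-tensor `BV` -/
def DB (V : Fin n → S) (k l j : Fin n) : S :=
  F.D k (BV F V l j) + ∑ i, F.w k i j * BV F V l i - ∑ m, F.w k l m * BV F V m j

lemma DB_eq_hess (V : Fin n → S) (k l j : Fin n) : DB F V k l j = F.hess F.tan k l V j := rfl

lemma DB_comm (V : Fin n → S) (k l j : Fin n) :
    DB F V k l j = DB F V l k j + ∑ i, F.Rm k l i j * V i := by
  rw [DB_eq_hess, DB_eq_hess, F.hess_comm F.tan k l V]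
  simp only [Pi.add_apply, Matrix.mulVec, dotProduct, F.curv_tan]

lemma DB_anti {V : Fin n → S} (hV : Kill F V) (k l j : Fin n) : DB F V k l j = - DB F V k j l := by
  have h1 : ∑ i, F.w k i j * BV F V l i = ∑ m, F.w k j m * BV F V m l := by
    refine sum_congr rfl fun i _ => ?_
    rw [F.anti k i j, hV l i]; ring
  have h2 : ∑ m, F.w k l m * BV F V m j = ∑ i, F.w k i l * BV F V j i := by
    refine sum_congr rfl fun i _ => ?_
    rw [F.anti k i l, hV i j]; ring
  rw [DB, DB, hV l j, h1, h2, map_neg]; ring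

/-- C3.1: second derivative of a Killing field. -/
lemma DB_killing {V : Fin n → S} (hV : Kill F V) (k l j : Fin n) :
    DB F V k l j = - ∑ i, F.Rm l j i k * V i := by
  apply eq_of_two
  have e1 := DB_anti F hV k l j
  have e2 := DB_comm F V k j l
  have e3 := DB_anti F hV j k l
  have e4 := DB_comm F V j l k
  have e5 := DB_anti F hV l j k
  have e6 := DB_comm F V k l j
  have e7 : ∑ i, F.Rm k l i j * V i + ∑ i, F.Rm j l i k * V i - ∑ i, F.Rm k j i l * V i
      = -2 * ∑ i, F.Rm l j i k * V i := by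
    rw [mul_sum, ← sum_add_distrib, ← sum_sub_distrib]
    refine sum_congr rfl fun i _ => ?_
    have b := F.bianchi1 j k l i
    have p1 := F.Rm_anti34 k l j i
    have p2 := F.Rm_anti34 l j k i
    have p3 := F.Rm_anti12 j k l i
    have p4 := F.Rm_anti34 k j l i
    have p5 := F.Rm_anti12 j l i k
    linear_combination V i * (p5 - b + p1 + p2 + p3 - p4)
  linear_combination e1 - e2 - e3 + e4 + e5 + e6 + e7
end general

section four

variable {S : Type*} [CommRing S] [Algebra ℝ S] (F : Frame 4 S)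

/-- The `Λ⁺` part of `∇V`. -/
def pV (V : Fin 4 → S) : Fin 3 → S :=
  ![BV F V 0 1 + BV F V 2 3, BV F V 0 2 - BV F V 1 3, BV F V 0 3 + BV F V 1 2]

lemma BV_eq (V : Fin 4 → S) (k j : Fin 4) :
    BV F V k j = F.D k (V j) + ∑ i, F.w k i j * V i := rfl

lemma BV_self {V : Fin 4 → S} (hV : Kill F V) (k : Fin 4) : BV F V k k = 0 :=
  eq_zero_of_two (by have := hV k k; linear_combination this)

lemma cov_pV_DB {V : Fin 4 → S} (hV : Kill F V) (k : Fin 4) (c : Fin 3) :
    F.cov F.sdc k (pV F V) c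
      = (![DB F V k 0 1 + DB F V k 2 3, DB F V k 0 2 - DB F V k 1 3,
          DB F V k 0 3 + DB F V k 1 2] : Fin 3 → S) c := by
  have b10 := hV 1 0
  have b20 := hV 2 0
  have b30 := hV 3 0
  have b21 := hV 2 1
  have b31 := hV 3 1
  have b32 := hV 3 2
  fin_cases c <;>
    simp [cov, pV, DB, sdc, cr, pp, Fin.sum_univ_four, Fin.sum_univ_three, w_self, w10, w20, w30,
      w21, w31, w32, BV_self F hV, b10, b20, b30, b21, b31, b32, map_add, map_sub] <;> ring

/-- C3.2: `∇p = - V ⌟ P`. -/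
lemma cov_pV {V : Fin 4 → S} (hV : Kill F V) (k : Fin 4) (c : Fin 3) :
    F.cov F.sdc k (pV F V) c = - ∑ i, V i * F.PP i k c := by
  rw [cov_pV_DB F hV]
  fin_cases c <;>
    simp [DB_killing F hV, PP, Fin.sum_univ_four, F.Rm_pair 0 1, F.Rm_pair 2 3, F.Rm_pair 0 2,
      F.Rm_pair 1 3, F.Rm_pair 0 3, F.Rm_pair 1 2] <;> ring

/-- Covariant derivative of the `Λ⁺`-valued curvature 2-form. -/
def DP (k i l : Fin 4) (c : Fin 3) : S :=
  F.cov F.sdc k (F.PP i l) c - ∑ m, F.w k i m * F.PP m l c - ∑ m, F.w k l m * F.PP i m c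

lemma DP_bianchi (j k l : Fin 4) (c : Fin 3) :
    DP F j k l c + DP F k l j c + DP F l j k c = 0 := by
  have h := congrFun (F.PP_bianchi j k l) c
  simp only [Pi.add_apply, Pi.sub_apply, Finset.sum_apply, Pi.smul_apply, smul_eq_mul,
    Pi.zero_apply] at h
  exact h

lemma DP_anti (k i l : Fin 4) (c : Fin 3) : DP F k i l c = - DP F k l i c := by
  have h0 : F.PP i l = - F.PP l i := by funext c; exact F.PP_anti i l c
  have h1 : ∑ m, F.w k i m * F.PP m l c = - ∑ m, F.w k i m * F.PP l m c := by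
    rw [← sum_neg_distrib]; exact sum_congr rfl fun m _ => by rw [F.PP_anti m l]; ring
  have h2 : ∑ m, F.w k l m * F.PP i m c = - ∑ m, F.w k l m * F.PP m i c := by
    rw [← sum_neg_distrib]; exact sum_congr rfl fun m _ => by rw [F.PP_anti i m]; ring
  rw [DP, DP, h0, F.cov_neg, h1, h2, Pi.neg_apply]; ring

lemma hess_pV {V : Fin 4 → S} (hV : Kill F V) (k l : Fin 4) (c : Fin 3) :
    F.hess F.sdc k l (pV F V) c
      = - ∑ i, (BV F V k i * F.PP i l c + V i * DP F k i l c) := by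
  have h0 : F.cov F.sdc l (pV F V) = - ∑ i, V i • F.PP i l := by
    funext c
    rw [cov_pV F hV]
    simp only [Pi.neg_apply, Finset.sum_apply, Pi.smul_apply, smul_eq_mul]
  rw [hess, h0, F.cov_neg, F.cov_sum]
  simp only [F.cov_smul, cov_pV F hV, Pi.neg_apply, Finset.sum_apply, Pi.add_apply, Pi.smul_apply,
    smul_eq_mul, DP, BV_eq, Fin.sum_univ_four]
  ring

/-- (★) : the Lie derivative of the curvature of `Λ⁺` along a Killing field vanishes. -/
lemma V_DP {V : Fin 4 → S} (hV : Kill F V) (k l : Fin 4) (c : Fin 3) :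
    ∑ i, V i * DP F i k l c = - (cr (F.PP k l) *ᵥ pV F V) c
      - ∑ i, (BV F V k i * F.PP i l c - BV F V l i * F.PP i k c) := by
  have h := congrFun (F.hess_comm F.sdc k l (pV F V)) c
  rw [Pi.add_apply, hess_pV F hV, hess_pV F hV, F.curv_sdc] at h
  have h2 : ∑ i, V i * DP F i k l c = ∑ i, V i * DP F k i l c - ∑ i, V i * DP F l i k c := by
    rw [← sum_sub_distrib]
    refine sum_congr rfl fun i _ => ?_
    have b := DP_bianchi F i k l c
    have a1 := DP_anti F k i l c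
    linear_combination V i * (b - a1)
  rw [h2]
  simp only [sum_add_distrib, sum_sub_distrib] at h ⊢
  linear_combination -h

/-- `∇A` is the self-dual part of `∇P`. -/
lemma NN_DP (i : Fin 4) (c d : Fin 3) :
    2 * F.NN i c d = - (![DP F i 0 1 c + DP F i 2 3 c, DP F i 0 2 c - DP F i 1 3 c,
      DP F i 0 3 c + DP F i 1 2 c] : Fin 3 → S) d := by
  have hA : ∀ c d, 2 * F.AA c d
      = - (![F.PP 0 1 c + F.PP 2 3 c, F.PP 0 2 c - F.PP 1 3 c, F.PP 0 3 c + F.PP 1 2 c] d) := by
    intro c d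
    rw [AA, ← neg_one_mul]
    have := two_half (S := S)
    linear_combination (-(![F.PP 0 1 c + F.PP 2 3 c, F.PP 0 2 c - F.PP 1 3 c,
      F.PP 0 3 c + F.PP 1 2 c] d)) * this
  have hD : ∀ c d, 2 * F.D i (F.AA c d)
      = - F.D i (![F.PP 0 1 c + F.PP 2 3 c, F.PP 0 2 c - F.PP 1 3 c, F.PP 0 3 c + F.PP 1 2 c] d) := by
    intro c d
    rw [← map_neg, ← hA c d, D_mul]
    have : F.D i (2 : S) = 0 := by
      have h2 : (2 : S) = algebraMap ℝ S 2 := (map_ofNat (algebraMap ℝ S) 2).symm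
      rw [h2, Derivation.map_algebraMap]
    rw [this]; ring
  rw [F.NN_eq, mul_add, mul_add, hD, mul_sum, mul_sum]
  have e1 : ∀ a, 2 * (F.sdc i c a * F.AA a d) = F.sdc i c a * (2 * F.AA a d) := by intro a; ring
  have e2 : ∀ a, 2 * (F.sdc i d a * F.AA c a) = F.sdc i d a * (2 * F.AA c a) := by intro a; ring
  simp only [e1, e2, hA]
  have p10 : ∀ c, F.PP 1 0 c = - F.PP 0 1 c := fun c => F.PP_anti 1 0 c
  have p20 : ∀ c, F.PP 2 0 c = - F.PP 0 2 c := fun c => F.PP_anti 2 0 c
  have p30 : ∀ c, F.PP 3 0 c = - F.PP 0 3 c := fun c => F.PP_anti 3 0 c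
  have p21 : ∀ c, F.PP 2 1 c = - F.PP 1 2 c := fun c => F.PP_anti 2 1 c
  have p31 : ∀ c, F.PP 3 1 c = - F.PP 1 3 c := fun c => F.PP_anti 3 1 c
  have p32 : ∀ c, F.PP 3 2 c = - F.PP 2 3 c := fun c => F.PP_anti 3 2 c
  fin_cases d <;>
    simp [DP, cov, Fin.sum_univ_four, Fin.sum_univ_three, F.PP_self, w_self, w10, w20, w30, w21,
      w31, w32, p10, p20, p30, p21, p31, p32, map_add, map_sub] <;>
    simp [sdc, cr, pp] <;> ring

/-- C3.3 : the Lie derivative of `A` along a Killing field vanishes. -/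
theorem V_NN {lam : S} (hE : F.Einstein lam) {V : Fin 4 → S} (hV : Kill F V) (c d : Fin 3) :
    ∑ i, V i * F.NN i c d = ∑ a, cr (pV F V) c a * F.AA a d + ∑ a, cr (pV F V) d a * F.AA c a := by
  apply eq_of_two
  have e : 2 * ∑ i, V i * F.NN i c d
      = - (![∑ i, V i * DP F i 0 1 c + ∑ i, V i * DP F i 2 3 c,
          ∑ i, V i * DP F i 0 2 c - ∑ i, V i * DP F i 1 3 c,
          ∑ i, V i * DP F i 0 3 c + ∑ i, V i * DP F i 1 2 c] : Fin 3 → S) d := by
    have : ∀ i, 2 * (V i * F.NN i c d) = V i * (2 * F.NN i c d) := by intro i; ring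
    simp only [mul_sum, this, NN_DP]
    fin_cases d <;> simp [Fin.sum_univ_four] <;> ring
  rw [e]
  simp only [V_DP F hV]
  have b10 := hV 1 0
  have b20 := hV 2 0
  have b30 := hV 3 0
  have b21 := hV 2 1
  have b31 := hV 3 1
  have b32 := hV 3 2
  have s10 : F.AA 1 0 = F.AA 0 1 := F.AA_symm 1 0
  have s20 : F.AA 2 0 = F.AA 0 2 := F.AA_symm 2 0
  have s21 : F.AA 2 1 = F.AA 1 2 := F.AA_symm 2 1
  fin_cases d <;> fin_cases c <;>
    simp [Matrix.mulVec, dotProduct, Fin.sum_univ_four, Fin.sum_univ_three, cr, F.P01 hE, F.P23 hE,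
      F.P02 hE, F.P13 hE, F.P03 hE, F.P12 hE, F.P10 hE, F.P32 hE, F.P20 hE, F.P31 hE, F.P30 hE,
      F.P21 hE, F.PP_self, BV_self F hV, b10, b20, b30, b21, b31, b32, s10, s20, s21, pV] <;> ring

end four

end Crest.Agent.R249.Kil1_805
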