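import Crest.Agent.R249.DicB_129
import Crest.Agent.R249.Tz0_805
import Crest.Agent.R249.Kil1_805

/-!
Row 249, leaf DIC (helper129), part 3: the ring dictionary for the frozen functions
`Tz805.fg z f`, `Tz805.vg z e X k` (germs at the centre of the chart at `z`).
-/

set_option autoImplicit false
set_option maxSynthPendingDepth 3
set_option linter.unusedSectionVars false

open scoped ContDiff Topology Manifold
open Filter Set Bundle
open Crest.GeometryTopology.CoordMetric Crest.GeometryTopology.ChartCurvature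
  Crest.GeometryTopology.PointedLimit
open Crest.Agent.R202.Tens
open Crest.Agent.R247.Bo84 Crest.Agent.R249.Vf281
open Crest.Agent.R249.Fr129
open Crest.Agent.R249.Sg129 hiding fg ev_fg ev_fg_at fg_congr fg_eq_iff_at fg_const fg_zero fg_one fg_add_at
  fg_sub_at fg_neg_at fg_mul_at fg_smul_at fg_sum_at fg_add fg_sub fg_neg fg_mul fg_smul fg_sum

noncomputable section

namespace Crest.Agent.R249.Tz805

variable {n : ℕ} {M : Type*} [TopologicalSpace M] [ChartedSpace (EuclideanSpace ℝ (Fin n)) M]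
  [IsManifold 𝓘(ℝ, EuclideanSpace ℝ (Fin n)) ∞ M]
  [RiemannianBundle (fun x : M => TangentSpace 𝓘(ℝ, EuclideanSpace ℝ (Fin n)) x)]
  [IsContMDiffRiemannianBundle 𝓘(ℝ, EuclideanSpace ℝ (Fin n)) ∞ (EuclideanSpace ℝ (Fin n))
      (fun x : M => TangentSpace 𝓘(ℝ, EuclideanSpace ℝ (Fin n)) x)]

local notation "𝔼" => EuclideanSpace ℝ (Fin n)
local notation "𝓘E" => 𝓘(ℝ, EuclideanSpace ℝ (Fin n))

variable {z : M} {f f' : M → ℝ}
  {X Y : (p : M) → TangentSpace 𝓘(ℝ, EuclideanSpace ℝ (Fin n)) p}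
  {e : Fin n → EuclideanSpace ℝ (Fin n) → EuclideanSpace ℝ (Fin n)}

lemma fg_eq_fg (z : M) (f : M → ℝ) : (fg z f : SG (chartCentre n M z)) = Sg129.fg z f := rfl

lemma vg_eq_vg (h : ONF (chartMetric n M z) (chartAt (EuclideanSpace ℝ (Fin n)) z).target
      (chartCentre n M z) e) (X : (p : M) → TangentSpace 𝓘(ℝ, EuclideanSpace ℝ (Fin n)) p) :
    vg z e X = h.vg X := rfl

/-! ### functions -/

lemma ev_fg (hf : ContMDiff 𝓘E 𝓘(ℝ, ℝ) ∞ f) : ev (fg z f : SG (chartCentre n M z)) = f z := Sg129.ev_fg hf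

lemma ev_fg_at (hf : ContMDiffAt 𝓘E 𝓘(ℝ, ℝ) ∞ f z) :
    ev (fg z f : SG (chartCentre n M z)) = f z := by
  rw [fg_eq_fg, Sg129.ev_fg_at (contDiffAt_centre le_rfl hf)]
  exact inCh_centre f z

lemma symm_centre (z : M) : (chartAt 𝔼 z).symm (chartCentre n M z) = z :=
  (chartAt 𝔼 z).left_inv (mem_chart_source 𝔼 z)

lemma tendsto_symm_centre (z : M) :
    Tendsto (chartAt 𝔼 z).symm (𝓝 (chartCentre n M z)) (𝓝 z) := by
  have hc : ContinuousAt (chartAt 𝔼 z).symm (chartCentre n M z) :=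
    (chartAt 𝔼 z).continuousAt_symm (centre_mem z)
  rw [ContinuousAt, symm_centre] at hc
  exact hc

lemma eventually_chart_iff {P : M → Prop} :
    (∀ᶠ w in 𝓝 (chartCentre n M z), P ((chartAt 𝔼 z).symm w)) ↔ ∀ᶠ q in 𝓝 z, P q := by
  constructor
  · intro h1
    have hc : ContinuousAt (chartAt 𝔼 z) z := (chartAt 𝔼 z).continuousAt (mem_chart_source 𝔼 z)
    filter_upwards [hc.eventually h1, (chartAt 𝔼 z).open_source.mem_nhds (mem_chart_source 𝔼 z)]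
      with q hq hqs
    rwa [(chartAt 𝔼 z).left_inv hqs] at hq
  · intro h1
    exact (tendsto_symm_centre z).eventually h1

lemma fg_congr (h1 : ∀ᶠ q in 𝓝 z, f q = f' q) :
    (fg z f : SG (chartCentre n M z)) = fg z f' :=
  Sg129.fg_congr ((tendsto_symm_centre z).eventually h1)

lemma fg_eq_iff (hf : ContMDiff 𝓘E 𝓘(ℝ, ℝ) ∞ f) (hf' : ContMDiff 𝓘E 𝓘(ℝ, ℝ) ∞ f') :
    (fg z f : SG (chartCentre n M z)) = fg z f' ↔ ∀ᶠ q in 𝓝 z, f q = f' q := by
  rw [← eventually_chart_iff (n := n) (z := z) (P := fun q => f q = f' q)]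
  exact Sg129.fg_eq_iff_at (sf (centre_mem z) hf) (sf (centre_mem z) hf')

lemma fg_eq_zero_iff (hf : ContMDiff 𝓘E 𝓘(ℝ, ℝ) ∞ f) :
    (fg z f : SG (chartCentre n M z)) = 0 ↔ ∀ᶠ q in 𝓝 z, f q = 0 := by
  have h0 : (fg z (fun _ : M => (0:ℝ)) : SG (chartCentre n M z)) = 0 := Sg129.fg_zero (n := n) (z := z)
  rw [← h0]
  exact fg_eq_iff hf contMDiff_const

lemma fg_const (z : M) (c : ℝ) :
    (fg z (fun _ => c) : SG (chartCentre n M z)) = algebraMap ℝ (SG (chartCentre n M z)) c :=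
  Sg129.fg_const (n := n) (z := z) c

lemma fg_zero (z : M) : fg z (fun _ => (0:ℝ)) = (0 : SG (chartCentre n M z)) :=
  Sg129.fg_zero (n := n) (z := z)

lemma fg_one (z : M) : fg z (fun _ => (1:ℝ)) = (1 : SG (chartCentre n M z)) :=
  Sg129.fg_one (n := n) (z := z)

lemma fg_ite (z : M) (P : Prop) [Decidable P] :
    fg z (fun _ => if P then (1:ℝ) else 0) = (if P then 1 else 0 : SG (chartCentre n M z)) := by
  split_ifs
  · exact fg_one z
  · exact fg_zero z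

lemma fg_add (hf : ContMDiff 𝓘E 𝓘(ℝ, ℝ) ∞ f) (hf' : ContMDiff 𝓘E 𝓘(ℝ, ℝ) ∞ f') :
    (fg z (fun q => f q + f' q) : SG (chartCentre n M z)) = fg z f + fg z f' := Sg129.fg_add (centre_mem z) hf hf'

lemma fg_sub (hf : ContMDiff 𝓘E 𝓘(ℝ, ℝ) ∞ f) (hf' : ContMDiff 𝓘E 𝓘(ℝ, ℝ) ∞ f') :
    (fg z (fun q => f q - f' q) : SG (chartCentre n M z)) = fg z f - fg z f' := Sg129.fg_sub (centre_mem z) hf hf'

lemma fg_neg (hf : ContMDiff 𝓘E 𝓘(ℝ, ℝ) ∞ f) :
    (fg z (fun q => - f q) : SG (chartCentre n M z)) = - fg z f :=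
  Sg129.fg_neg (centre_mem z) hf

lemma fg_mul (hf : ContMDiff 𝓘E 𝓘(ℝ, ℝ) ∞ f) (hf' : ContMDiff 𝓘E 𝓘(ℝ, ℝ) ∞ f') :
    (fg z (fun q => f q * f' q) : SG (chartCentre n M z)) = fg z f * fg z f' := Sg129.fg_mul (centre_mem z) hf hf'

lemma fg_cmul (c : ℝ) (hf : ContMDiff 𝓘E 𝓘(ℝ, ℝ) ∞ f) :
    (fg z (fun q => c * f q) : SG (chartCentre n M z)) = c • fg z f := Sg129.fg_smul (centre_mem z) c hf

lemma fg_sum {ι : Type*} (s : Finset ι) {F : ι → M → ℝ}
    (hF : ∀ i, ContMDiff 𝓘E 𝓘(ℝ, ℝ) ∞ (F i)) :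
    (fg z (fun q => ∑ i ∈ s, F i q) : SG (chartCentre n M z)) = ∑ i ∈ s, fg z (F i) := Sg129.fg_sum (centre_mem z) s hF

/-! ### fields -/

variable (h : ONF (chartMetric n M z) (chartAt (EuclideanSpace ℝ (Fin n)) z).target
      (chartCentre n M z) e)
include h

lemma vg_congr (hXY : ∀ᶠ q in 𝓝 z, X q = Y q) : vg z e X = vg z e Y :=
  h.vg_congr ((tendsto_symm_centre z).eventually hXY)

lemma vg_add (hX : ∀ q, VSm n ∞ X q) (hY : ∀ q, VSm n ∞ Y q) (k : Fin n) :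
    vg z e (fun q => X q + Y q) k = vg z e X k + vg z e Y k := h.vg_add hX hY k

lemma vg_neg (hX : ∀ q, VSm n ∞ X q) (k : Fin n) :
    vg z e (fun q => - X q) k = - vg z e X k := h.vg_neg hX k

lemma vg_sub (hX : ∀ q, VSm n ∞ X q) (hY : ∀ q, VSm n ∞ Y q) (k : Fin n) :
    vg z e (fun q => X q - Y q) k = vg z e X k - vg z e Y k := by
  have h1 := vg_add h hX (fun q => (hY q).neg) k
  rw [vg_neg h hY] at h1
  rw [sub_eq_add_neg, ← h1]
  congr 1

lemma vg_smul (hf : ContMDiff 𝓘E 𝓘(ℝ, ℝ) ∞ f) (hX : ∀ q, VSm n ∞ X q) (k : Fin n) :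
    vg z e (fun q => f q • X q) k = fg z f * vg z e X k := h.vg_smul hf hX k

lemma vg_csmul (c : ℝ) (hX : ∀ q, VSm n ∞ X q) (k : Fin n) :
    vg z e (fun q => c • X q) k = c • vg z e X k := h.vg_csmul c hX k

lemma vg_zero (k : Fin n) :
    vg z e (fun q => (0 : TangentSpace 𝓘(ℝ, EuclideanSpace ℝ (Fin n)) q)) k = 0 := by
  have h1 := vg_csmul h (X := fun q => (0 : TangentSpace 𝓘(ℝ, EuclideanSpace ℝ (Fin n)) q)) 0
    (fun q => Tz2_805.VSm_zero q) k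
  rw [zero_smul] at h1
  rw [← h1]
  congr 1
  funext q
  exact (zero_smul ℝ _).symm

lemma vg_sum {ι : Type*} (s : Finset ι)
    {F : ι → (p : M) → TangentSpace 𝓘(ℝ, EuclideanSpace ℝ (Fin n)) p}
    (hF : ∀ i q, VSm n ∞ (F i) q) (k : Fin n) :
    vg z e (fun q => ∑ i ∈ s, F i q) k = ∑ i ∈ s, vg z e (F i) k := h.vg_sum s hF k

lemma fg_inner (hX : ∀ q, VSm n ∞ X q) (hY : ∀ q, VSm n ∞ Y q) :
    fg z (fun q => (inner ℝ (X q) (Y q) : ℝ)) = ∑ k, vg z e X k * vg z e Y k := h.fg_inner hX hY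

lemma vg_mgrad (hf : ContMDiff 𝓘E 𝓘(ℝ, ℝ) ∞ f) (k : Fin n) :
    vg z e (mgrad n f) k = h.frameOf.D k (fg z f) := h.vg_mgrad hf k

lemma fg_dM (hf : ContMDiff 𝓘E 𝓘(ℝ, ℝ) ∞ f) (hX : ∀ q, VSm n ∞ X q) :
    fg z (fun q => Crest.Agent.R247.Bo84.dM n f q (X q)) = ∑ k, vg z e X k * h.frameOf.D k (fg z f) :=
  h.fg_dM hf hX

/-- **covariant derivative** -/
lemma vg_mCov (hX : ∀ q, VSm n ∞ X q) (hY : ∀ q, VSm n ∞ Y q) (j : Fin n) :
    vg z e (fun q => mCov n X q (Y q)) j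
      = ∑ k, vg z e Y k * h.frameOf.cov h.frameOf.tan k (vg z e X) j := h.vg_mCov hX hY j

lemma fg_mDiv (hX : ∀ q, VSm n ∞ X q) :
    fg z (mDiv n X) = ∑ k, h.frameOf.cov h.frameOf.tan k (vg z e X) k := h.fg_mDiv hX

/-- `⟨∇_Y X, W⟩` -/
lemma fg_inner_mCov {W : (p : M) → TangentSpace 𝓘(ℝ, EuclideanSpace ℝ (Fin n)) p}
    (hX : ∀ q, VSm n ∞ X q) (hY : ∀ q, VSm n ∞ Y q) (hW : ∀ q, VSm n ∞ W q) :
    fg z (fun q => (inner ℝ (mCov n X q (Y q)) (W q) : ℝ))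
      = ∑ k, ∑ j, vg z e Y k * vg z e W j * h.frameOf.cov h.frameOf.tan k (vg z e X) j := by
  rw [fg_inner h (fun q => VSm_mCov (hX q) (hY q)) hW]
  simp only [vg_mCov h hX hY, Finset.sum_mul]
  rw [Finset.sum_comm]
  exact Finset.sum_congr rfl fun k _ => Finset.sum_congr rfl fun j _ => by ring

lemma vg_inj (hX : ∀ q, VSm n ∞ X q) (hY : ∀ q, VSm n ∞ Y q)
    (hXY : ∀ k, vg z e X k = vg z e Y k) : ∀ᶠ q in 𝓝 z, X q = Y q :=
  (eventually_chart_iff (n := n) (z := z) (P := fun q => X q = Y q)).1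
    (h.vg_inj_at (sv h.mem hX) (sv h.mem hY) hXY)

lemma ev_vg (hX : ∀ q, VSm n ∞ X q) (k : Fin n) : ev (vg z e X k) = inner ℝ (X z) (h.bv k) :=
  h.ev_vg hX k

lemma eq_sum_ev_vg (hX : ∀ q, VSm n ∞ X q) : X z = ∑ k, ev (vg z e X k) • h.bv k :=
  h.eq_sum_ev_vg hX

end Crest.Agent.R249.Tz805

namespace Crest.Agent.R249.Sg129

variable {n : ℕ} {M : Type*} [TopologicalSpace M] [ChartedSpace (EuclideanSpace ℝ (Fin n)) M]
  [IsManifold 𝓘(ℝ, EuclideanSpace ℝ (Fin n)) ∞ M]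
  [RiemannianBundle (fun x : M => TangentSpace 𝓘(ℝ, EuclideanSpace ℝ (Fin n)) x)]
  [IsContMDiffRiemannianBundle 𝓘(ℝ, EuclideanSpace ℝ (Fin n)) ∞ (EuclideanSpace ℝ (Fin n))
      (fun x : M => TangentSpace 𝓘(ℝ, EuclideanSpace ℝ (Fin n)) x)]

local notation "𝔼" => EuclideanSpace ℝ (Fin n)
local notation "𝓘E" => 𝓘(ℝ, EuclideanSpace ℝ (Fin n))

/-- a Killing field -/
def IsKill (V : (z : M) → TangentSpace 𝓘(ℝ, EuclideanSpace ℝ (Fin n)) z) : Prop :=
  (∀ z, VSm n ∞ V z) ∧ ∀ z (v w : TangentSpace 𝓘(ℝ, EuclideanSpace ℝ (Fin n)) z),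
    inner ℝ (mCov n V z v) w + inner ℝ v (mCov n V z w) = (0:ℝ)

variable {z : M} {y : EuclideanSpace ℝ (Fin n)}
  {e : Fin n → EuclideanSpace ℝ (Fin n) → EuclideanSpace ℝ (Fin n)}
  {V : (p : M) → TangentSpace 𝓘(ℝ, EuclideanSpace ℝ (Fin n)) p}

/-- the covariant derivative in the chart, frame directions -/
lemma ONF.BV_vg (h : ONF (chartMetric n M z) (chartAt (EuclideanSpace ℝ (Fin n)) z).target y e)
    (hV : ContDiffAt ℝ ∞ (vCh n z V) y) (k j : Fin n) :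
    h.frameOf.cov h.frameOf.tan k (h.vg V) j
      = germ (fun w => bil (chartMetric n M z w) (cov (chartMetric n M z) (vCh n z V) w (e k w)) (e j w))
        (h.cd_bil (h.cd_covV hV (h.smooth k)) (h.smooth j)) := by
  rw [show h.vg V = h.vt (vCh n z V) from rfl, ← h.vt_cov_frame hV,
    h.vt_germ (h.cd_covV hV (h.smooth k))]

/-- **Killing fields are Killing in the ring.** -/
theorem IsKill.ring (hV : IsKill V)
    (h : ONF (chartMetric n M z) (chartAt (EuclideanSpace ℝ (Fin n)) z).target y e) (k j : Fin n) :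
    h.frameOf.cov h.frameOf.tan k (h.vg V) j = - h.frameOf.cov h.frameOf.tan j (h.vg V) k := by
  rw [h.BV_vg (sv h.mem hV.1), h.BV_vg (sv h.mem hV.1), germ_neg]
  refine germ_eq ?_
  filter_upwards [(chartAt 𝔼 z).open_target.mem_nhds h.mem] with w hw
  have hg := isRiemannianOn_chartMetric (n := n) z
  have h1 := hV.2 ((chartAt 𝔼 z).symm w) (dSy z w (e k w)) (dSy z w (e j w))
  have hX1 : VSm n 1 V ((chartAt 𝔼 z).symm w) := (hV.1 _).of_le one_le_infty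
  rw [mCov_chart hw hX1, mCov_chart hw hX1] at h1
  have h2 := bil_chartMetric (n := n) z w (cov (chartMetric n M z) (vCh n z V) w (e k w)) (e j w)
  have h3 := bil_chartMetric (n := n) z w (e k w) (cov (chartMetric n M z) (vCh n z V) w (e j w))
  have h4 : bil (chartMetric n M z w) (cov (chartMetric n M z) (vCh n z V) w (e k w)) (e j w)
      + bil (chartMetric n M z w) (e k w) (cov (chartMetric n M z) (vCh n z V) w (e j w)) = 0 := by
    rw [h2, h3]; exact h1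
  rw [bil_symm hg hw (e k w)] at h4
  linarith

lemma IsKill.kill (hV : IsKill V)
    (h : ONF (chartMetric n M z) (chartAt (EuclideanSpace ℝ (Fin n)) z).target y e) :
    Kil1_805.Kill h.frameOf (h.vg V) := fun k j => hV.ring h k j

end Crest.Agent.R249.Sg129
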