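import Crest.Agent.R249.Tz0_805
import Crest.Agent.R249.DicB_129

/-!
Row 249, leaf T0 (helper805): 129's dictionary for the functions `fg`, `vg` of `Tz0`.
-/

set_option autoImplicit false
set_option maxSynthPendingDepth 3
set_option linter.unusedSectionVars false

open Filter Topology Set Bundle Manifold Matrix
open scoped ContDiff
open Crest.GeometryTopology.CoordMetric Crest.GeometryTopology.ChartCurvature
  Crest.GeometryTopology.PointedLimit
open Crest.Agent.R202.Tens Crest.Agent.R247.Bo84 Crest.Agent.R249.FrmB_285 Crest.Agent.R249.Vf281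
  Crest.Agent.R249.Tz1_805 Crest.Agent.R249.Tz2_805
open Crest.Agent.R249.Fr129 Crest.Agent.R249.C2_198
open Crest.Agent.R249.Sg129 hiding fg fg_add fg_sub fg_mul fg_const fg_sum ev_fg contMDiff_inner VSm_mCov
open Crest.Agent.R249.Tz805

noncomputable section

namespace Crest.Agent.R249.Dic805

variable {n : ℕ} {M : Type*} [TopologicalSpace M] [ChartedSpace (EuclideanSpace ℝ (Fin n)) M]
  [IsManifold 𝓘(ℝ, EuclideanSpace ℝ (Fin n)) ∞ M]
  [RiemannianBundle (fun x : M => TangentSpace 𝓘(ℝ, EuclideanSpace ℝ (Fin n)) x)]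
  [IsContMDiffRiemannianBundle 𝓘(ℝ, EuclideanSpace ℝ (Fin n)) ∞ (EuclideanSpace ℝ (Fin n))
      (fun x : M => TangentSpace 𝓘(ℝ, EuclideanSpace ℝ (Fin n)) x)]

local notation "𝔼" => EuclideanSpace ℝ (Fin n)
local notation "𝓘E" => 𝓘(ℝ, EuclideanSpace ℝ (Fin n))

variable {X Y : (p : M) → TangentSpace 𝓘(ℝ, EuclideanSpace ℝ (Fin n)) p} {f g : M → ℝ}

theorem contMDiff_inner (hX : ∀ z, VSm n ∞ X z) (hY : ∀ z, VSm n ∞ Y z) :
    ContMDiff 𝓘E 𝓘(ℝ, ℝ) ∞ (fun z => (inner ℝ (X z) (Y z) : ℝ)) := Sg129.contMDiff_inner hX hY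

theorem VSm_mCov (hX : ∀ z, VSm n ∞ X z) (hY : ∀ z, VSm n ∞ Y z) (z : M) :
    VSm n ∞ (fun q => mCov n X q (Y q)) z := Sg129.VSm_mCov (hX z) (hY z)

variable {z : M} {e : Fin n → EuclideanSpace ℝ (Fin n) → EuclideanSpace ℝ (Fin n)}

theorem fg_add (hf : ContMDiff 𝓘E 𝓘(ℝ, ℝ) ∞ f) (hg : ContMDiff 𝓘E 𝓘(ℝ, ℝ) ∞ g) :
    fg (n := n) z (fun q => f q + g q) = fg (n := n) z f + fg (n := n) z g := Sg129.fg_add (centre_mem z) hf hg
theorem fg_sub (hf : ContMDiff 𝓘E 𝓘(ℝ, ℝ) ∞ f) (hg : ContMDiff 𝓘E 𝓘(ℝ, ℝ) ∞ g) :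
    fg (n := n) z (fun q => f q - g q) = fg (n := n) z f - fg (n := n) z g := Sg129.fg_sub (centre_mem z) hf hg
theorem fg_mul (hf : ContMDiff 𝓘E 𝓘(ℝ, ℝ) ∞ f) (hg : ContMDiff 𝓘E 𝓘(ℝ, ℝ) ∞ g) :
    fg (n := n) z (fun q => f q * g q) = fg (n := n) z f * fg (n := n) z g := Sg129.fg_mul (centre_mem z) hf hg
theorem fg_const (c : ℝ) : fg (n := n) z (fun _ => c) = algebraMap ℝ _ c :=
  Sg129.fg_const (n := n) (z := z) c
theorem fg_sum {ι : Type*} (s : Finset ι) {f : ι → M → ℝ} (hf : ∀ i, ContMDiff 𝓘E 𝓘(ℝ, ℝ) ∞ (f i)) :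
    fg (n := n) z (fun q => ∑ i ∈ s, f i q) = ∑ i ∈ s, fg (n := n) z (f i) :=
  Sg129.fg_sum (centre_mem z) s hf
theorem ev_fg (hf : ContMDiff 𝓘E 𝓘(ℝ, ℝ) ∞ f) : ev (fg (n := n) z f) = f z := Sg129.ev_fg hf

theorem vg_add (h : ONF (chartMetric n M z) (chartAt (EuclideanSpace ℝ (Fin n)) z).target
      (chartCentre n M z) e) (hX : ∀ z, VSm n ∞ X z) (hY : ∀ z, VSm n ∞ Y z) (k : Fin n) :
    vg z e (fun q => X q + Y q) k = vg z e X k + vg z e Y k := h.vg_add hX hY k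
theorem vg_sub (h : ONF (chartMetric n M z) (chartAt (EuclideanSpace ℝ (Fin n)) z).target
      (chartCentre n M z) e) (hX : ∀ z, VSm n ∞ X z) (hY : ∀ z, VSm n ∞ Y z) (k : Fin n) :
    vg z e (fun q => X q - Y q) k = vg z e X k - vg z e Y k := by
  have h1 := h.vg_add hX (fun q => (hY q).neg) k
  have h2 := h.vg_neg hY k
  have e1 : (fun q => X q - Y q) = fun q => X q + -(Y q) := funext fun q => sub_eq_add_neg _ _
  rw [e1, sub_eq_add_neg]
  exact h1.trans (congrArg (fun t => h.vg X k + t) h2)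
theorem vg_smul (h : ONF (chartMetric n M z) (chartAt (EuclideanSpace ℝ (Fin n)) z).target
      (chartCentre n M z) e) (hf : ContMDiff 𝓘E 𝓘(ℝ, ℝ) ∞ f) (hX : ∀ z, VSm n ∞ X z) (k : Fin n) :
    vg z e (fun q => f q • X q) k = fg (n := n) z f * vg z e X k := h.vg_smul hf hX k
theorem vg_sum (h : ONF (chartMetric n M z) (chartAt (EuclideanSpace ℝ (Fin n)) z).target
      (chartCentre n M z) e) {ι : Type*} (s : Finset ι)
    {X : ι → (p : M) → TangentSpace 𝓘(ℝ, EuclideanSpace ℝ (Fin n)) p}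
    (hX : ∀ i, ∀ z, VSm n ∞ (X i) z) (k : Fin n) :
    vg z e (fun q => ∑ i ∈ s, X i q) k = ∑ i ∈ s, vg z e (X i) k := h.vg_sum s hX k
theorem fg_inner (h : ONF (chartMetric n M z) (chartAt (EuclideanSpace ℝ (Fin n)) z).target
      (chartCentre n M z) e) (hX : ∀ z, VSm n ∞ X z) (hY : ∀ z, VSm n ∞ Y z) :
    fg (n := n) z (fun q => (inner ℝ (X q) (Y q) : ℝ)) = ∑ k, vg z e X k * vg z e Y k :=
  h.fg_inner hX hY
theorem D_fg (h : ONF (chartMetric n M z) (chartAt (EuclideanSpace ℝ (Fin n)) z).target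
      (chartCentre n M z) e) (hf : ContMDiff 𝓘E 𝓘(ℝ, ℝ) ∞ f) (k : Fin n) :
    h.frameOf.D k (fg (n := n) z f) = vg z e (fun q => mgrad n f q) k :=
  (h.vg_mgrad hf k).symm
theorem vg_mCov (h : ONF (chartMetric n M z) (chartAt (EuclideanSpace ℝ (Fin n)) z).target
      (chartCentre n M z) e) (hX : ∀ z, VSm n ∞ X z) (hY : ∀ z, VSm n ∞ Y z) (i : Fin n) :
    vg z e (fun q => mCov n X q (Y q)) i
      = ∑ k, vg z e Y k * h.frameOf.cov h.frameOf.tan k (vg z e X) i := h.vg_mCov hX hY i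
/-- the tangent vector with components `u` at the point `y` of the chart at `z` -/
def tvy (z : M) (y u : EuclideanSpace ℝ (Fin n)) :
    TangentSpace 𝓘(ℝ, EuclideanSpace ℝ (Fin n)) ((chartAt (EuclideanSpace ℝ (Fin n)) z).symm y) :=
  dSy z y u

lemma inner_tvy {y : 𝔼} (hy : y ∈ (chartAt 𝔼 z).target) (u v : 𝔼) :
    inner ℝ (tvy z y u) (tvy z y v) = bil (chartMetric n M z y) u v := by
  have hps : (chartAt 𝔼 z).symm y ∈ (chartAt 𝔼 z).source := (chartAt 𝔼 z).map_target hy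
  have hyp : chartAt 𝔼 z ((chartAt 𝔼 z).symm y) = y := (chartAt 𝔼 z).right_inv hy
  have h0 := inner_eq_bil z hps (tvy z y u) (tvy z y v)
  rw [hyp, tvy, tvy, dCh_dSy z hy, dCh_dSy z hy] at h0
  exact h0

lemma bil_vCh_eq {y : 𝔼} (hy : y ∈ (chartAt 𝔼 z).target)
    (X : (p : M) → TangentSpace 𝓘(ℝ, EuclideanSpace ℝ (Fin n)) p) (u : 𝔼) :
    bil (chartMetric n M z y) (vCh n z X y) u
      = inner ℝ (X ((chartAt 𝔼 z).symm y)) (tvy z y u) := by
  have hps : (chartAt 𝔼 z).symm y ∈ (chartAt 𝔼 z).source := (chartAt 𝔼 z).map_target hy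
  have hyp : chartAt 𝔼 z ((chartAt 𝔼 z).symm y) = y := (chartAt 𝔼 z).right_inv hy
  have h0 := inner_eq_bil z hps (X ((chartAt 𝔼 z).symm y)) (tvy z y u)
  rw [hyp, tvy, dCh_dSy z hy] at h0
  exact h0.symm

lemma vg_germ (h : ONF (chartMetric n M z) (chartAt (EuclideanSpace ℝ (Fin n)) z).target
      (chartCentre n M z) e) (hX : ∀ z, VSm n ∞ X z) (k : Fin n) :
    ∃ hf : ContDiffAt ℝ ∞ (fun y => bil (chartMetric n M z y) (vCh n z X y) (e k y))
      (chartCentre n M z), vg z e X k = germ _ hf := by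
  have hf : ContDiffAt ℝ ∞ (fun y => bil (chartMetric n M z y) (vCh n z X y) (e k y))
      (chartCentre n M z) := contDiffAt_bil h.riem h.mem le_rfl (hX z) (h.smooth k)
  exact ⟨hf, dif_pos hf⟩

/-- Parseval in the germ ring -/
theorem vg_pars (h : ONF (chartMetric n M z) (chartAt (EuclideanSpace ℝ (Fin n)) z).target
      (chartCentre n M z) e) {κ : Type} [Fintype κ] (s : PF n M κ) (i j : Fin n) :
    ∑ A, vg z e (s.s A) i * vg z e (s.s A) j = if i = j then 1 else 0 := by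
  choose hi ei using fun A => vg_germ h (s.sm A) i
  choose hj ej using fun A => vg_germ h (s.sm A) j
  have e1 : ∑ A, vg z e (s.s A) i * vg z e (s.s A) j
      = ∑ A, germ _ ((hi A).mul (hj A)) := by
    refine Finset.sum_congr rfl fun A _ => ?_
    rw [ei A, ej A, germ_mul]
  rw [e1, germ_sum]
  have key : ∀ᶠ y in 𝓝 (chartCentre n M z),
      ∑ A, bil (chartMetric n M z y) (vCh n z (s.s A) y) (e i y)
        * bil (chartMetric n M z y) (vCh n z (s.s A) y) (e j y) = if i = j then 1 else 0 := by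
    filter_upwards [(chartAt 𝔼 z).open_target.mem_nhds (centre_mem z), h.orth] with y hy ho
    rw [← ho i j]
    have hp := s.pars ((chartAt 𝔼 z).symm y) (tvy z y (e i y))
    have hq : (inner ℝ (∑ A, (inner ℝ (s.s A ((chartAt 𝔼 z).symm y)) (tvy z y (e i y)) : ℝ) •
        s.s A ((chartAt 𝔼 z).symm y)) (tvy z y (e j y)) : ℝ)
        = inner ℝ (tvy z y (e i y)) (tvy z y (e j y)) := by rw [hp]
    rw [← inner_tvy hy, ← hq, sum_inner]
    refine Finset.sum_congr rfl fun A _ => ?_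
    rw [bil_vCh_eq hy, bil_vCh_eq hy, inner_smul_left]
    simp only [RCLike.conj_to_real]
  by_cases hij : i = j
  · rw [if_pos hij, ← germ_one]
    refine germ_eq ?_
    filter_upwards [key] with y hy
    rw [hy, if_pos hij]
  · rw [if_neg hij, ← germ_zero]
    refine germ_eq ?_
    filter_upwards [key] with y hy
    rw [hy, if_neg hij]

end Crest.Agent.R249.Dic805
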