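import Crest.Agent.R249.Grn1_324

/-!
# R249 (helper467), A2-DIV part 1 (section 8 of Blueprint_806)

* `integral_div`: `∫ div (a dτ + b dκ + c (Δτ dτ - ½ d|dτ|²)) = 0` written out with Bochner's
  formula, for arbitrary smooth `a b c τ κ` on a closed Riemannian manifold;
* `dM_comp3`, `mGam_comp3`: chain rule for functions of three functions;
* `exists_jet`: the 2-jet of `τ` and the 1-jet of `κ` at a point of a 4-manifold in a frame adapted
  to `∇τ`: numbers `q h k`, vectors `v w : Fin 3 → ℝ`.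
-/

set_option autoImplicit false
set_option maxSynthPendingDepth 3
set_option linter.unusedSectionVars false

open Bundle Set MeasureTheory Manifold Filter Metric
open scoped ContDiff Topology NNReal
open Crest.GeometryTopology.CoordMetric Crest.GeometryTopology.ChartCurvature
  Crest.GeometryTopology.PointedLimit
open Crest.Agent.R247.Bo84 Crest.Agent.R247.Ms322
open Crest.Agent.R249.Grn324

noncomputable section

namespace Crest.Agent.R249.Div467

variable {n : ℕ} {M : Type*} [MetricSpace M] [ChartedSpace (EuclideanSpace ℝ (Fin n)) M]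
  [IsManifold (𝓡 n) ∞ M]
  [RiemannianBundle (fun p : M => TangentSpace (𝓡 n) p)]
  [IsContMDiffRiemannianBundle (𝓡 n) ∞ (EuclideanSpace ℝ (Fin n)) (fun p : M => TangentSpace (𝓡 n) p)]

local notation "𝔼" => EuclideanSpace ℝ (Fin n)

/-! ### the integral identity -/

section Closed

variable [IsRiemannianManifold (𝓡 n) M] [CompactSpace M] [MeasurableSpace M] [BorelSpace M]

/-- the divergence of `a dτ + b dκ + c (Δτ dτ - ½ d|dτ|²)`. -/
def dvg (n : ℕ) {M : Type*} [TopologicalSpace M] [ChartedSpace (EuclideanSpace ℝ (Fin n)) M]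
    [IsManifold 𝓘(ℝ, EuclideanSpace ℝ (Fin n)) ∞ M]
    [RiemannianBundle (fun x : M => TangentSpace 𝓘(ℝ, EuclideanSpace ℝ (Fin n)) x)]
    [IsContMDiffRiemannianBundle 𝓘(ℝ, EuclideanSpace ℝ (Fin n)) ∞ (EuclideanSpace ℝ (Fin n))
      (fun x : M => TangentSpace 𝓘(ℝ, EuclideanSpace ℝ (Fin n)) x)]
    (a b c τ κ : M → ℝ) (z : M) : ℝ :=
  a z * mLap n τ z + mGam n a τ z + b z * mLap n κ z + mGam n b κ z +
    c z * (mLap n τ z ^ 2 - mHessSq n τ z - mRic n z (mgrad n τ z) (mgrad n τ z)) +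
    mLap n τ z * mGam n c τ z - (1 / 2) * mGam n c (mGam n τ τ) z

variable {a b c τ κ : M → ℝ}

theorem continuous_dvg (ha : ContMDiff (𝓡 n) 𝓘(ℝ) ∞ a) (hb : ContMDiff (𝓡 n) 𝓘(ℝ) ∞ b)
    (hc : ContMDiff (𝓡 n) 𝓘(ℝ) ∞ c) (hτ : ContMDiff (𝓡 n) 𝓘(ℝ) ∞ τ)
    (hκ : ContMDiff (𝓡 n) 𝓘(ℝ) ∞ κ) : Continuous (dvg n a b c τ κ) := by
  have h1 := (contMDiff_mLap hτ).continuous
  have h2 := (contMDiff_mLap hκ).continuous
  have h3 := (contMDiff_mGam ha hτ).continuous
  have h4 := (contMDiff_mGam hb hκ).continuous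
  have h5 := (contMDiff_mGam hc hτ).continuous
  have h6 := (contMDiff_mGam hc (contMDiff_mGam hτ hτ)).continuous
  have h7 := continuous_mHessSq (n := n) (hτ.of_le two_le_inf)
  have h8 := continuous_mRic_mgrad (n := n) hτ
  have ha' := ha.continuous
  have hb' := hb.continuous
  have hc' := hc.continuous
  unfold dvg
  fun_prop

/-- **the divergence identity**. -/
theorem integral_dvg (ha : ContMDiff (𝓡 n) 𝓘(ℝ) ∞ a) (hb : ContMDiff (𝓡 n) 𝓘(ℝ) ∞ b)
    (hc : ContMDiff (𝓡 n) 𝓘(ℝ) ∞ c) (hτ : ContMDiff (𝓡 n) 𝓘(ℝ) ∞ τ)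
    (hκ : ContMDiff (𝓡 n) 𝓘(ℝ) ∞ κ) :
    ∫ z, dvg n a b c τ κ z ∂(μHE[n] : Measure M) = 0 := by
  have hL := contMDiff_mLap hτ
  have hG := contMDiff_mGam hτ hτ
  have hcL : ContMDiff (𝓡 n) 𝓘(ℝ) ∞ (fun z => c z * mLap n τ z) := hc.mul hL
  have e1 := integral_mul_mLap (n := n) (hτ.of_le two_le_inf) (ha.of_le (by simp))
  have e2 := integral_mul_mLap (n := n) (hκ.of_le two_le_inf) (hb.of_le (by simp))
  have e3 := integral_mul_mLap (n := n) (hτ.of_le two_le_inf) (hcL.of_le (by simp))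
  have e4 := integral_mul_mLap (n := n) (hG.of_le two_le_inf) (hc.of_le (by simp))
  have key : ∀ z, dvg n a b c τ κ z =
      (a z * mLap n τ z + mGam n τ a z) + (b z * mLap n κ z + mGam n κ b z) +
      ((c z * mLap n τ z) * mLap n τ z + mGam n τ (fun z => c z * mLap n τ z) z) -
      (1 / 2) * (c z * mLap n (mGam n τ τ) z + mGam n (mGam n τ τ) c z) := by
    intro z
    have hB := mBochner (n := n) ((hτ z).of_le three_le_inf)
    have hM : mGam n τ (fun z => c z * mLap n τ z) z =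
        c z * mGam n τ (mLap n τ) z + mLap n τ z * mGam n τ c z := by
      rw [mGam_mul_right ((hc z).mdifferentiableAt (by simp)) ((hL z).mdifferentiableAt (by simp))]
    rw [dvg, hM, mGam_comm a τ, mGam_comm b κ, mGam_comm c τ, mGam_comm c (mGam n τ τ)]
    linear_combination (c z) * hB
  simp only [key]
  have i1 : Integrable (fun z => a z * mLap n τ z) (μHE[n] : Measure M) :=
    integrable_cont (n := n) (ha.continuous.mul hL.continuous)
  have i1' : Integrable (fun z => mGam n τ a z) (μHE[n] : Measure M) :=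
    integrable_cont (n := n) (contMDiff_mGam hτ ha).continuous
  have i2 : Integrable (fun z => b z * mLap n κ z) (μHE[n] : Measure M) :=
    integrable_cont (n := n) (hb.continuous.mul (contMDiff_mLap hκ).continuous)
  have i2' : Integrable (fun z => mGam n κ b z) (μHE[n] : Measure M) :=
    integrable_cont (n := n) (contMDiff_mGam hκ hb).continuous
  have i3 : Integrable (fun z => (c z * mLap n τ z) * mLap n τ z) (μHE[n] : Measure M) :=
    integrable_cont (n := n) (hcL.continuous.mul hL.continuous)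
  have i3' : Integrable (fun z => mGam n τ (fun z => c z * mLap n τ z) z) (μHE[n] : Measure M) :=
    integrable_cont (n := n) (contMDiff_mGam hτ hcL).continuous
  have i4 : Integrable (fun z => c z * mLap n (mGam n τ τ) z) (μHE[n] : Measure M) :=
    integrable_cont (n := n) (hc.continuous.mul (contMDiff_mLap hG).continuous)
  have i4' : Integrable (fun z => mGam n (mGam n τ τ) c z) (μHE[n] : Measure M) :=
    integrable_cont (n := n) (contMDiff_mGam hG hc).continuous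
  have j1 : Integrable (fun z => a z * mLap n τ z + mGam n τ a z) (μHE[n] : Measure M) := i1.add i1'
  have j2 : Integrable (fun z => b z * mLap n κ z + mGam n κ b z) (μHE[n] : Measure M) := i2.add i2'
  have j3 : Integrable (fun z => (c z * mLap n τ z) * mLap n τ z +
      mGam n τ (fun z => c z * mLap n τ z) z) (μHE[n] : Measure M) := i3.add i3'
  have j4 : Integrable (fun z => c z * mLap n (mGam n τ τ) z + mGam n (mGam n τ τ) c z)
      (μHE[n] : Measure M) := i4.add i4'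
  have j12 : Integrable (fun z => (a z * mLap n τ z + mGam n τ a z) +
      (b z * mLap n κ z + mGam n κ b z)) (μHE[n] : Measure M) := j1.add j2
  have j123 : Integrable (fun z => (a z * mLap n τ z + mGam n τ a z) +
      (b z * mLap n κ z + mGam n κ b z) + ((c z * mLap n τ z) * mLap n τ z +
      mGam n τ (fun z => c z * mLap n τ z) z)) (μHE[n] : Measure M) := j12.add j3
  rw [integral_sub j123 (j4.const_mul _), integral_add j12 j3,
    integral_add j1 j2, integral_add i1 i1', integral_add i2 i2',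
    integral_add i3 i3', integral_const_mul, integral_add i4 i4', e1, e2, e3, e4]
  ring

end Closed

/-! ### chain rule for functions of three functions -/

/-- partial derivatives of a function of three variables. -/
def pd1 (F : ℝ × ℝ × ℝ → ℝ) (x : ℝ × ℝ × ℝ) : ℝ := fderiv ℝ F x (1, 0, 0)
def pd2 (F : ℝ × ℝ × ℝ → ℝ) (x : ℝ × ℝ × ℝ) : ℝ := fderiv ℝ F x (0, 1, 0)
def pd3 (F : ℝ × ℝ × ℝ → ℝ) (x : ℝ × ℝ × ℝ) : ℝ := fderiv ℝ F x (0, 0, 1)

lemma fderiv_eq_pd (F : ℝ × ℝ × ℝ → ℝ) (x y : ℝ × ℝ × ℝ) :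
    fderiv ℝ F x y = pd1 F x * y.1 + pd2 F x * y.2.1 + pd3 F x * y.2.2 := by
  obtain ⟨y1, y2, y3⟩ := y
  have e : ((y1, y2, y3) : ℝ × ℝ × ℝ) =
      y1 • ((1, 0, 0) : ℝ × ℝ × ℝ) + y2 • ((0, 1, 0) : ℝ × ℝ × ℝ) + y3 • ((0, 0, 1) : ℝ × ℝ × ℝ) := by
    ext <;> simp
  conv_lhs => rw [e]
  rw [map_add, map_add, map_smul, map_smul, map_smul]
  simp only [pd1, pd2, pd3, smul_eq_mul]
  ring

theorem dM_comp3 {F : ℝ × ℝ × ℝ → ℝ} {f₁ f₂ f₃ : M → ℝ} {p : M}
    (hF : DifferentiableAt ℝ F (f₁ p, f₂ p, f₃ p))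
    (h₁ : MDifferentiableAt (𝓡 n) 𝓘(ℝ) f₁ p) (h₂ : MDifferentiableAt (𝓡 n) 𝓘(ℝ) f₂ p)
    (h₃ : MDifferentiableAt (𝓡 n) 𝓘(ℝ) f₃ p) (v : TangentSpace (𝓡 n) p) :
    dM n (fun q => F (f₁ q, f₂ q, f₃ q)) p v =
      pd1 F (f₁ p, f₂ p, f₃ p) * dM n f₁ p v + pd2 F (f₁ p, f₂ p, f₃ p) * dM n f₂ p v +
      pd3 F (f₁ p, f₂ p, f₃ p) * dM n f₃ p v := by
  have d1 := (differentiableAt_centre (n := n) h₁).hasFDerivAt
  have d2 := (differentiableAt_centre (n := n) h₂).hasFDerivAt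
  have d3 := (differentiableAt_centre (n := n) h₃).hasFDerivAt
  have hF' : DifferentiableAt ℝ F (inCh n p f₁ (chartCentre n M p),
      inCh n p f₂ (chartCentre n M p), inCh n p f₃ (chartCentre n M p)) := by
    rw [inCh_centre, inCh_centre, inCh_centre]; exact hF
  have hc := hF'.hasFDerivAt.comp (chartCentre n M p) (d1.prodMk (d2.prodMk d3))
  rw [dM_eq, dM_eq, dM_eq, dM_eq, mfderiv_centre, mfderiv_centre, mfderiv_centre, mfderiv_centre]
  have e : fderiv ℝ (inCh n p (fun q => F (f₁ q, f₂ q, f₃ q))) (chartCentre n M p) = _ := hc.fderiv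
  rw [e]
  simp only [ContinuousLinearMap.comp_apply, ContinuousLinearMap.prod_apply]
  rw [fderiv_eq_pd, inCh_centre, inCh_centre, inCh_centre]

/-- `⟨df, dh⟩ = df(∇h)`. -/
lemma mGam_eq_dM (f h : M → ℝ) (p : M) : mGam n f h p = dM n f p (mgrad n h p) := by
  rw [mGam_eq_inner, inner_mgrad']

theorem mGam_comp3 {F : ℝ × ℝ × ℝ → ℝ} {f₁ f₂ f₃ : M → ℝ} {p : M}
    (hF : DifferentiableAt ℝ F (f₁ p, f₂ p, f₃ p))
    (h₁ : MDifferentiableAt (𝓡 n) 𝓘(ℝ) f₁ p) (h₂ : MDifferentiableAt (𝓡 n) 𝓘(ℝ) f₂ p)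
    (h₃ : MDifferentiableAt (𝓡 n) 𝓘(ℝ) f₃ p) (h : M → ℝ) :
    mGam n (fun q => F (f₁ q, f₂ q, f₃ q)) h p =
      pd1 F (f₁ p, f₂ p, f₃ p) * mGam n f₁ h p + pd2 F (f₁ p, f₂ p, f₃ p) * mGam n f₂ h p +
      pd3 F (f₁ p, f₂ p, f₃ p) * mGam n f₃ h p := by
  simp only [mGam_eq_dM]
  exact dM_comp3 hF h₁ h₂ h₃ _

/-- a smooth function of three smooth functions. -/
theorem contMDiff_comp3 {U : Set (ℝ × ℝ × ℝ)} (hU : IsOpen U) {F : ℝ × ℝ × ℝ → ℝ}
    (hF : ContDiffOn ℝ ∞ F U) {f₁ f₂ f₃ : M → ℝ}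
    (h₁ : ContMDiff (𝓡 n) 𝓘(ℝ) ∞ f₁) (h₂ : ContMDiff (𝓡 n) 𝓘(ℝ) ∞ f₂)
    (h₃ : ContMDiff (𝓡 n) 𝓘(ℝ) ∞ f₃) (hr : ∀ p, (f₁ p, f₂ p, f₃ p) ∈ U) :
    ContMDiff (𝓡 n) 𝓘(ℝ) ∞ (fun q => F (f₁ q, f₂ q, f₃ q)) := by
  intro p
  have h123 : ContMDiffAt (𝓡 n) 𝓘(ℝ, ℝ × ℝ × ℝ) ∞ (fun q => (f₁ q, f₂ q, f₃ q)) p :=
    (h₁ p).prodMk_space ((h₂ p).prodMk_space (h₃ p))
  have hFp : ContDiffAt ℝ ∞ F (f₁ p, f₂ p, f₃ p) := hF.contDiffAt (hU.mem_nhds (hr p))
  exact (hFp.contMDiffAt).comp p h123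

end Crest.Agent.R249.Div467
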