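import Crest.Agent.R249.Div1_467

/-!
# R249 (helper467), A2-DIV part 2: the jets of `τ` and `κ` in a frame adapted to `∇τ`

`exists_jet`: on a 4-manifold, at every point there are `q h k : ℝ`, `v w : Fin 3 → ℝ` with
`|dτ|² = q²`, `⟨dκ,dτ⟩ = q k`, `|dκ|² = k² + |w|²`, and for `T = |dτ|²`:
`⟨dT,dτ⟩ = 2 q² h`, `⟨dT,dκ⟩ = 2 q (k h + v·w)`, `|dT|² = 4 q² (h² + |v|²)`,
`h² + 2 |v|² + (Δτ - h)²/3 ≤ |Hess τ|²`.
-/

set_option autoImplicit false
set_option maxSynthPendingDepth 3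
set_option linter.unusedSectionVars false

open Bundle Set MeasureTheory Manifold Filter Metric
open scoped ContDiff Topology NNReal
open Crest.GeometryTopology.CoordMetric Crest.GeometryTopology.ChartCurvature
  Crest.GeometryTopology.PointedLimit
open Crest.Agent.R247.Bo84 Crest.Agent.R247.Ms322
open Crest.Agent.R249.Grn324

noncomputable section

namespace Crest.Agent.R249.Div467

section Frame

variable {n : ℕ} {M : Type*} [MetricSpace M] [ChartedSpace (EuclideanSpace ℝ (Fin n)) M]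
  [IsManifold (𝓡 n) ∞ M]
  [RiemannianBundle (fun p : M => TangentSpace (𝓡 n) p)]
  [IsContMDiffRiemannianBundle (𝓡 n) ∞ (EuclideanSpace ℝ (Fin n)) (fun p : M => TangentSpace (𝓡 n) p)]

lemma finrank_tangent (p : M) : Module.finrank ℝ (TangentSpace (𝓡 n) p) = n := by
  have h : Module.finrank ℝ (EuclideanSpace ℝ (Fin n)) = n := by simp
  exact h

/-- an orthonormal frame whose first vector is the direction of `u`. -/
lemma exists_adapted (hn : 0 < n) (p : M) (u : TangentSpace (𝓡 n) p) :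
    ∃ e : Fin n → TangentSpace (𝓡 n) p,
      (∀ a b, inner ℝ (e a) (e b) = if a = b then (1:ℝ) else 0) ∧ u = ‖u‖ • e ⟨0, hn⟩ := by
  classical
  have hfd : FiniteDimensional ℝ (TangentSpace (𝓡 n) p) := by
    have h : FiniteDimensional ℝ (EuclideanSpace ℝ (Fin n)) := inferInstance
    exact h
  have hcard : Module.finrank ℝ (TangentSpace (𝓡 n) p) = Fintype.card (Fin n) := by
    rw [finrank_tangent, Fintype.card_fin]
  by_cases hu : u = 0
  · obtain ⟨b, -⟩ := Orthonormal.exists_orthonormalBasis_extension_of_card_eq hcard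
      (v := fun _ => (0 : TangentSpace (𝓡 n) p)) (s := ∅)
      ⟨fun i => i.2.elim, fun i => i.2.elim⟩
    refine ⟨b, fun a c => ?_, by rw [hu]; simp⟩
    have := b.orthonormal
    rw [orthonormal_iff_ite] at this
    exact this a c
  · have hu' : ‖u‖ ≠ 0 := norm_ne_zero_iff.2 hu
    obtain ⟨b, hb⟩ := Orthonormal.exists_orthonormalBasis_extension_of_card_eq hcard
      (v := fun _ => (‖u‖⁻¹ • u : TangentSpace (𝓡 n) p)) (s := {⟨0, hn⟩})
      ⟨fun i => by
        simp only [Set.restrict_apply]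
        rw [norm_smul, norm_inv, norm_norm, inv_mul_cancel₀ hu'],
        fun i j hij => by
          exact (hij (Subtype.ext (by rw [i.2, j.2]))).elim⟩
    refine ⟨b, fun a c => ?_, ?_⟩
    · have := b.orthonormal
      rw [orthonormal_iff_ite] at this
      exact this a c
    · rw [hb _ rfl, smul_smul, mul_inv_cancel₀ hu', one_smul]

lemma mHess_zero_left (f : M → ℝ) (p : M) (w : TangentSpace (𝓡 n) p) : mHess n f p 0 w = 0 := by
  have := mHess_smul_left (n := n) f p 0 (0 : TangentSpace (𝓡 n) p) w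
  rwa [zero_smul, zero_mul] at this

lemma mHess_sum_left {ι : Type*} (s : Finset ι) (f : M → ℝ) (p : M) (c : ι → ℝ)
    (v : ι → TangentSpace (𝓡 n) p) (w : TangentSpace (𝓡 n) p) :
    mHess n f p (∑ i ∈ s, c i • v i) w = ∑ i ∈ s, c i * mHess n f p (v i) w := by
  classical
  induction s using Finset.induction_on with
  | empty => simp only [Finset.sum_empty]; exact mHess_zero_left f p w
  | insert a s ha ih =>
    rw [Finset.sum_insert ha, Finset.sum_insert ha, mHess_add_left, mHess_smul_left, ih]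

end Frame

variable {M : Type*} [MetricSpace M] [ChartedSpace (EuclideanSpace ℝ (Fin 4)) M]
  [IsManifold (𝓡 4) ∞ M]
  [RiemannianBundle (fun p : M => TangentSpace (𝓡 4) p)]
  [IsContMDiffRiemannianBundle (𝓡 4) ∞ (EuclideanSpace ℝ (Fin 4)) (fun p : M => TangentSpace (𝓡 4) p)]

/-- the jets at a point in a frame adapted to `∇τ`. -/
theorem exists_jet {τ κ : M → ℝ} {p : M} (hτ : ContMDiffAt (𝓡 4) 𝓘(ℝ) 2 τ p) :
    ∃ (q h k : ℝ) (v w : Fin 3 → ℝ), 0 ≤ q ∧
      mGam 4 τ τ p = q ^ 2 ∧ mGam 4 κ τ p = q * k ∧ mGam 4 κ κ p = k ^ 2 + ∑ i, w i ^ 2 ∧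
      mGam 4 (mGam 4 τ τ) τ p = 2 * q ^ 2 * h ∧
      mGam 4 (mGam 4 τ τ) κ p = 2 * q * (k * h + ∑ i, v i * w i) ∧
      mGam 4 (mGam 4 τ τ) (mGam 4 τ τ) p = 4 * q ^ 2 * (h ^ 2 + ∑ i, v i ^ 2) ∧
      h ^ 2 + 2 * ∑ i, v i ^ 2 + (mLap 4 τ p - h) ^ 2 / 3 ≤ mHessSq 4 τ p := by
  obtain ⟨e, he, hu⟩ := exists_adapted (n := 4) (by norm_num) p (mgrad 4 τ p)
  have h0 : (⟨0, by norm_num⟩ : Fin 4) = 0 := rfl
  rw [h0] at hu
  set q : ℝ := ‖mgrad 4 τ p‖ with hq
  set H : Fin 4 → Fin 4 → ℝ := fun a b => mHess 4 τ p (e a) (e b) with hH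
  have hsym : ∀ a b, H a b = H b a := fun a b => mHess_symm hτ _ _
  -- components of the gradients
  have gτ : ∀ a, dM 4 τ p (e a) = if a = 0 then q else 0 := by
    intro a
    rw [← inner_mgrad', hu, real_inner_smul_left, he]
    by_cases ha : a = 0
    · subst ha; simp
    · simp [ha, Ne.symm ha]
  -- derivative of T
  have gT : ∀ x : TangentSpace (𝓡 4) p, dM 4 (mGam 4 τ τ) p x = 2 * q * mHess 4 τ p x (e 0) := by
    intro x
    rw [dM_eq, mfderiv_mGam hτ hτ]
    conv_lhs => rw [hu]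
    rw [mHess_smul_right]
    ring
  have gT' : ∀ a, dM 4 (mGam 4 τ τ) p (e a) = 2 * q * H a 0 := fun a => gT (e a)
  refine ⟨q, H 0 0, dM 4 κ p (e 0), fun i => H i.succ 0, fun i => dM 4 κ p (e i.succ),
    norm_nonneg _, ?_, ?_, ?_, ?_, ?_, ?_, ?_⟩
  · rw [mGam_frame he]
    simp [gτ, Fin.sum_univ_succ]
    ring
  · rw [mGam_frame he]
    simp [gτ, Fin.sum_univ_succ]
    ring
  · rw [mGam_frame he, Fin.sum_univ_succ]
    congr 1
    · ring
    · exact Finset.sum_congr rfl fun i _ => by ring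
  · rw [mGam_frame he]
    simp only [gτ, gT']
    simp [Fin.sum_univ_succ]
    ring
  · rw [mGam_frame he, Fin.sum_univ_succ]
    simp only [gT']
    rw [mul_add, Finset.mul_sum]
    congr 1
    · ring
    · exact Finset.sum_congr rfl fun i _ => by ring
  · rw [mGam_frame he, Fin.sum_univ_succ]
    simp only [gT']
    rw [mul_add, Finset.mul_sum]
    congr 1
    · ring
    · exact Finset.sum_congr rfl fun i _ => by ring
  · rw [mHessSq_frame hτ he, mLap_frame hτ he]
    change H 0 0 ^ 2 + 2 * ∑ i : Fin 3, H i.succ 0 ^ 2 + (∑ a, H a a - H 0 0) ^ 2 / 3 ≤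
      ∑ a, ∑ b, H a b ^ 2
    simp only [Fin.sum_univ_succ, Fin.sum_univ_zero, Fin.succ_zero_eq_one, Fin.succ_one_eq_two]
    have e1 : H (Fin.succ 2) 0 = H 3 0 := rfl
    have e2 : ∀ i, H i (Fin.succ 2) = H i 3 := fun i => rfl
    have e3 : ∀ i, H (Fin.succ 2) i = H 3 i := fun i => rfl
    have s01 := hsym 0 1
    have s02 := hsym 0 2
    have s03 := hsym 0 3
    simp only [e2, e3, add_zero, s01, s02, s03]
    nlinarith [sq_nonneg (H 1 1 - H 2 2), sq_nonneg (H 1 1 - H 3 3), sq_nonneg (H 2 2 - H 3 3),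
      sq_nonneg (H 1 2), sq_nonneg (H 1 3), sq_nonneg (H 2 1), sq_nonneg (H 2 3),
      sq_nonneg (H 3 1), sq_nonneg (H 3 2)]

end Crest.Agent.R249.Div467
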