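import Crest.Agent.R249.Div2_467

/-!
# R249 (helper467), A2-DIV part 3: scaled operators, pointwise reduction

Everything for the scaled operators `Δ/lam`, `⟨,⟩/lam`, `|Hess|²/lam²` (`Ric ≥ lam`).

* `sdvg lam a b c τ κ` : the scaled divergence, `integral_sdvg : ∫ sdvg = 0`;
* `IsJet lam τ κ p q h k v w`, `exists_isJet`: scaled jets in a frame adapted to `∇τ`;
* `sdvg_le`: for `a b c` functions of `(τ, κ, T)`, `T = |dτ|²/lam`, `c ≥ 0`, `Ric ≥ lam`: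
  `Q3 η … + ∑ i, Q2 η … + η c |Hess τ|²/lam² ≤ - sdvg`.
-/

set_option autoImplicit false
set_option maxSynthPendingDepth 3
set_option linter.unusedSectionVars false

open Bundle Set MeasureTheory Manifold Filter Metric
open scoped ContDiff Topology NNReal
open Crest.GeometryTopology.CoordMetric Crest.GeometryTopology.ChartCurvature
  Crest.GeometryTopology.PointedLimit
open Crest.Agent.R247.Bo84 Crest.Agent.R247.Ms322
open Crest.Agent.R249.Grn324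

noncomputable section

namespace Crest.Agent.R249.Div467

section Closed

variable {n : ℕ} {M : Type*} [MetricSpace M] [ChartedSpace (EuclideanSpace ℝ (Fin n)) M]
  [IsManifold (𝓡 n) ∞ M]
  [RiemannianBundle (fun p : M => TangentSpace (𝓡 n) p)]
  [IsContMDiffRiemannianBundle (𝓡 n) ∞ (EuclideanSpace ℝ (Fin n)) (fun p : M => TangentSpace (𝓡 n) p)]

/-- the scaled divergence of `a dτ + b dκ + c (Δτ dτ - ½ d|dτ|²)`. -/
def sdvg (n : ℕ) {M : Type*} [TopologicalSpace M] [ChartedSpace (EuclideanSpace ℝ (Fin n)) M]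
    [IsManifold 𝓘(ℝ, EuclideanSpace ℝ (Fin n)) ∞ M]
    [RiemannianBundle (fun x : M => TangentSpace 𝓘(ℝ, EuclideanSpace ℝ (Fin n)) x)]
    [IsContMDiffRiemannianBundle 𝓘(ℝ, EuclideanSpace ℝ (Fin n)) ∞ (EuclideanSpace ℝ (Fin n))
      (fun x : M => TangentSpace 𝓘(ℝ, EuclideanSpace ℝ (Fin n)) x)]
    (lam : ℝ) (a b c τ κ : M → ℝ) (z : M) : ℝ :=
  a z * (mLap n τ z / lam) + mGam n a τ z / lam + b z * (mLap n κ z / lam) +
    mGam n b κ z / lam +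
    c z * ((mLap n τ z / lam) ^ 2 - mHessSq n τ z / lam ^ 2 -
      mRic n z (mgrad n τ z) (mgrad n τ z) / lam ^ 2) +
    (mLap n τ z / lam) * (mGam n c τ z / lam) -
    (1 / 2) * (mGam n c (fun y => mGam n τ τ y / lam) z / lam)

variable {a b c τ κ : M → ℝ} {lam : ℝ}

lemma mGam_div_right {f h : M → ℝ} {z : M} (hh : MDifferentiableAt (𝓡 n) 𝓘(ℝ) h z) (lam : ℝ) :
    mGam n f (fun y => h y / lam) z = mGam n f h z / lam := by
  have h1 := mGam_const_mul_right (n := n) (k := f) (1 / lam) hh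
  have h2 : (fun y => h y / lam) = fun y => (1 / lam) * h y := by
    funext y; ring
  rw [h2, h1]; ring

lemma mGam_div_left {f h : M → ℝ} {z : M} (hf : MDifferentiableAt (𝓡 n) 𝓘(ℝ) f z) (lam : ℝ) :
    mGam n (fun y => f y / lam) h z = mGam n f h z / lam := by
  rw [mGam_comm, mGam_div_right hf, mGam_comm]

lemma contMDiff_div_const {f : M → ℝ} (hf : ContMDiff (𝓡 n) 𝓘(ℝ) ∞ f) (lam : ℝ) :
    ContMDiff (𝓡 n) 𝓘(ℝ) ∞ (fun y => f y / lam) := by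
  have h2 : (fun y => f y / lam) = fun y => f y * (1 / lam) := by
    funext y; ring
  rw [h2]
  exact hf.mul contMDiff_const

theorem sdvg_eq (hlam : lam ≠ 0) (hc : ContMDiff (𝓡 n) 𝓘(ℝ) ∞ c) (hτ : ContMDiff (𝓡 n) 𝓘(ℝ) ∞ τ)
    (z : M) :
    sdvg n lam a b c τ κ z = dvg n a b (fun y => c y / lam) τ κ z / lam := by
  have hG := contMDiff_mGam hτ hτ
  rw [sdvg, dvg, mGam_div_right ((hG z).mdifferentiableAt (by simp)),
    mGam_div_left ((hc z).mdifferentiableAt (by simp)),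
    mGam_div_left ((hc z).mdifferentiableAt (by simp))]
  field_simp

variable [IsRiemannianManifold (𝓡 n) M] [CompactSpace M] [MeasurableSpace M] [BorelSpace M]

theorem integral_sdvg (hlam : lam ≠ 0)
    (ha : ContMDiff (𝓡 n) 𝓘(ℝ) ∞ a) (hb : ContMDiff (𝓡 n) 𝓘(ℝ) ∞ b)
    (hc : ContMDiff (𝓡 n) 𝓘(ℝ) ∞ c) (hτ : ContMDiff (𝓡 n) 𝓘(ℝ) ∞ τ)
    (hκ : ContMDiff (𝓡 n) 𝓘(ℝ) ∞ κ) :
    ∫ z, sdvg n lam a b c τ κ z ∂(μHE[n] : Measure M) = 0 := by
  have h1 := integral_dvg ha hb (contMDiff_div_const hc lam) hτ hκ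
  have h2 : (fun z => sdvg n lam a b c τ κ z) =
      fun z => dvg n a b (fun y => c y / lam) τ κ z * (1 / lam) := by
    funext z; rw [sdvg_eq hlam hc hτ]; ring
  rw [h2, integral_mul_const, h1, zero_mul]

theorem continuous_sdvg (hlam : lam ≠ 0)
    (ha : ContMDiff (𝓡 n) 𝓘(ℝ) ∞ a) (hb : ContMDiff (𝓡 n) 𝓘(ℝ) ∞ b)
    (hc : ContMDiff (𝓡 n) 𝓘(ℝ) ∞ c) (hτ : ContMDiff (𝓡 n) 𝓘(ℝ) ∞ τ)
    (hκ : ContMDiff (𝓡 n) 𝓘(ℝ) ∞ κ) : Continuous (sdvg n lam a b c τ κ) := by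
  have h2 : sdvg n lam a b c τ κ = fun z => dvg n a b (fun y => c y / lam) τ κ z * (1 / lam) := by
    funext z; rw [sdvg_eq hlam hc hτ]; ring
  rw [h2]
  exact (continuous_dvg ha hb (contMDiff_div_const hc lam) hτ hκ).mul continuous_const

end Closed

/-! ### jets -/

variable {M : Type*} [MetricSpace M] [ChartedSpace (EuclideanSpace ℝ (Fin 4)) M]
  [IsManifold (𝓡 4) ∞ M]
  [RiemannianBundle (fun p : M => TangentSpace (𝓡 4) p)]
  [IsContMDiffRiemannianBundle (𝓡 4) ∞ (EuclideanSpace ℝ (Fin 4)) (fun p : M => TangentSpace (𝓡 4) p)]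

/-- the scaled jets of `τ`, `κ` at `p` in a frame adapted to `∇τ`. -/
structure IsJet (lam : ℝ) (τ κ : M → ℝ) (p : M) (q h k : ℝ) (v w : Fin 3 → ℝ) : Prop where
  q0 : 0 ≤ q
  ττ : mGam 4 τ τ p / lam = q ^ 2
  κτ : mGam 4 κ τ p / lam = q * k
  κκ : mGam 4 κ κ p / lam = k ^ 2 + ∑ i, w i ^ 2
  Tτ : mGam 4 (fun y => mGam 4 τ τ y / lam) τ p / lam = 2 * q ^ 2 * h
  Tκ : mGam 4 (fun y => mGam 4 τ τ y / lam) κ p / lam = 2 * q * (k * h + ∑ i, v i * w i)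
  TT : mGam 4 (fun y => mGam 4 τ τ y / lam) (fun y => mGam 4 τ τ y / lam) p / lam =
    4 * q ^ 2 * (h ^ 2 + ∑ i, v i ^ 2)
  hess : h ^ 2 + 2 * ∑ i, v i ^ 2 + (mLap 4 τ p / lam - h) ^ 2 / 3 ≤ mHessSq 4 τ p / lam ^ 2

theorem exists_isJet {lam : ℝ} (hlam : 0 < lam) {τ κ : M → ℝ} {p : M}
    (hτ : ContMDiff (𝓡 4) 𝓘(ℝ) ∞ τ) :
    ∃ (q h k : ℝ) (v w : Fin 3 → ℝ), IsJet lam τ κ p q h k v w := by
  obtain ⟨q, h, k, v, w, j0, j1, j2, j3, j4, j5, j6, j7⟩ :=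
    exists_jet (κ := κ) ((hτ p).of_le two_le_inf)
  have hGm := ((contMDiff_mGam hτ hτ) p).mdifferentiableAt (show (∞ : WithTop ℕ∞) ≠ 0 by simp)
  set r : ℝ := √lam with hr
  have hr0 : 0 < r := Real.sqrt_pos.2 hlam
  have hr2 : r ^ 2 = lam := Real.sq_sqrt hlam.le
  have hl0 : lam ≠ 0 := hlam.ne'
  refine ⟨q / r, h / lam, k / r, fun i => v i / lam, fun i => w i / r, ?_, ?_, ?_, ?_, ?_, ?_, ?_, ?_⟩
  · positivity
  · rw [j1, div_pow, hr2]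
  · rw [j2, ← hr2]; field_simp
  · rw [j3, div_pow, hr2, add_div, Finset.sum_div]
    congr 1
    exact Finset.sum_congr rfl fun i _ => by rw [div_pow, hr2]
  · rw [mGam_div_left hGm, j4, div_pow, hr2]; field_simp
  · rw [mGam_div_left hGm, j5]
    have e1 : ∑ i, v i / lam * (w i / r) = (∑ i, v i * w i) / (lam * r) := by
      rw [Finset.sum_div]; exact Finset.sum_congr rfl fun i _ => by field_simp
    rw [e1, show lam = r ^ 2 from hr2.symm]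
    field_simp
  · have hd2 : MDifferentiableAt (𝓡 4) 𝓘(ℝ) (fun y => mGam 4 τ τ y / lam) p :=
      ((contMDiff_div_const (contMDiff_mGam hτ hτ) lam) p).mdifferentiableAt (by simp)
    rw [mGam_div_right hGm, mGam_comm, mGam_div_right hGm, j6, div_pow, hr2]
    have e1 : ∑ i, (v i / lam) ^ 2 = (∑ i, v i ^ 2) / lam ^ 2 := by
      rw [Finset.sum_div]; exact Finset.sum_congr rfl fun i _ => by rw [div_pow]
    rw [e1]
    field_simp
  · have e1 : ∑ i, (v i / lam) ^ 2 = (∑ i, v i ^ 2) / lam ^ 2 := by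
      rw [Finset.sum_div]; exact Finset.sum_congr rfl fun i _ => by rw [div_pow]
    rw [e1, le_div_iff₀ (by positivity)]
    refine le_trans (le_of_eq ?_) j7
    field_simp

/-! ### pointwise reduction -/

/-- the `3 × 3` form. Partial derivatives `1 2 3` = `∂τ, ∂κ, ∂T`. -/
def Q3 (η A A1 A2 A3 B B1 B2 B3 C C1 C2 C3 X K q h k : ℝ) : ℝ :=
  -(A * X + A1 * q ^ 2 + (A2 + B1) * (q * k) + 2 * A3 * q ^ 2 * h + B * K + B2 * k ^ 2 +
    2 * B3 * (q * k * h) + C * X ^ 2 + X * (C1 * q ^ 2 + C2 * (q * k) + 2 * C3 * q ^ 2 * h) -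
    C1 * q ^ 2 * h - C2 * (q * k * h) - 2 * C3 * q ^ 2 * h ^ 2) + C * q ^ 2 +
    (1 - η) * C * (h ^ 2 + (X - h) ^ 2 / 3)

/-- the `2 × 2` form. -/
def Q2 (η B2 B3 C C2 C3 q v w : ℝ) : ℝ :=
  (2 * (1 - η) * C + 2 * C3 * q ^ 2) * v ^ 2 + (C2 - 2 * B3) * q * (v * w) - B2 * w ^ 2

set_option maxHeartbeats 1600000 in
/-- **pointwise reduction**: `Q3 + ∑ Q2 + η c |Hess τ|² ≤ - div V`. -/
theorem sdvg_le {lam η : ℝ} (hlam : 0 < lam) (hη : η ≤ 1) {τ κ : M → ℝ} {p : M}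
    (hτ : ContMDiff (𝓡 4) 𝓘(ℝ) ∞ τ) (hκ : ContMDiff (𝓡 4) 𝓘(ℝ) ∞ κ)
    {A B C : ℝ × ℝ × ℝ → ℝ} {x : ℝ × ℝ × ℝ} (hx : x = (τ p, κ p, mGam 4 τ τ p / lam))
    (hA : DifferentiableAt ℝ A x) (hB : DifferentiableAt ℝ B x) (hC : DifferentiableAt ℝ C x)
    (hC0 : 0 ≤ C x) (hRic : lam * mGam 4 τ τ p ≤ mRic 4 p (mgrad 4 τ p) (mgrad 4 τ p))
    {q h k : ℝ} {v w : Fin 3 → ℝ} (J : IsJet lam τ κ p q h k v w) :
    Q3 η (A x) (pd1 A x) (pd2 A x) (pd3 A x) (B x) (pd1 B x) (pd2 B x) (pd3 B x)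
        (C x) (pd1 C x) (pd2 C x) (pd3 C x) (mLap 4 τ p / lam) (mLap 4 κ p / lam) q h k +
      ∑ i, Q2 η (pd2 B x) (pd3 B x) (C x) (pd2 C x) (pd3 C x) q (v i) (w i) +
      η * C x * (mHessSq 4 τ p / lam ^ 2) ≤
    - sdvg 4 lam (fun y => A (τ y, κ y, mGam 4 τ τ y / lam))
        (fun y => B (τ y, κ y, mGam 4 τ τ y / lam))
        (fun y => C (τ y, κ y, mGam 4 τ τ y / lam)) τ κ p := by
  subst hx
  have dτ : MDifferentiableAt (𝓡 4) 𝓘(ℝ) τ p := (hτ p).mdifferentiableAt (by simp)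
  have dκ : MDifferentiableAt (𝓡 4) 𝓘(ℝ) κ p := (hκ p).mdifferentiableAt (by simp)
  have dT : MDifferentiableAt (𝓡 4) 𝓘(ℝ) (fun y => mGam 4 τ τ y / lam) p :=
    ((contMDiff_div_const (contMDiff_mGam hτ hτ) lam) p).mdifferentiableAt (by simp)
  have e1 := mGam_comp3 (n := 4) hA dτ dκ dT τ
  have e2 := mGam_comp3 (n := 4) hB dτ dκ dT κ
  have e3 := mGam_comp3 (n := 4) hC dτ dκ dT τ
  have e4 := mGam_comp3 (n := 4) hC dτ dκ dT (fun y => mGam 4 τ τ y / lam)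
  rw [sdvg, e1, e2, e3, e4]
  set x : ℝ × ℝ × ℝ := (τ p, κ p, mGam 4 τ τ p / lam) with hx
  have hl0 : lam ≠ 0 := hlam.ne'
  -- the jets
  have g1 : mGam 4 τ τ p = lam * q ^ 2 := by rw [← J.ττ]; field_simp
  have g2 : mGam 4 κ τ p = lam * (q * k) := by rw [← J.κτ]; field_simp
  have g3 : mGam 4 κ κ p = lam * (k ^ 2 + ∑ i, w i ^ 2) := by rw [← J.κκ]; field_simp
  have g4 : mGam 4 (fun y => mGam 4 τ τ y / lam) τ p = lam * (2 * q ^ 2 * h) := by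
    rw [← J.Tτ]; field_simp
  have g5 : mGam 4 (fun y => mGam 4 τ τ y / lam) κ p =
      lam * (2 * q * (k * h + ∑ i, v i * w i)) := by
    rw [← J.Tκ]; field_simp
  have g6 : mGam 4 (fun y => mGam 4 τ τ y / lam) (fun y => mGam 4 τ τ y / lam) p =
      lam * (4 * q ^ 2 * (h ^ 2 + ∑ i, v i ^ 2)) := by
    rw [← J.TT]; field_simp
  have g2' : mGam 4 τ κ p = lam * (q * k) := by rw [mGam_comm]; exact g2
  have g4' : mGam 4 τ (fun y => mGam 4 τ τ y / lam) p = lam * (2 * q ^ 2 * h) := by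
    rw [mGam_comm]; exact g4
  have g5' : mGam 4 κ (fun y => mGam 4 τ τ y / lam) p =
      lam * (2 * q * (k * h + ∑ i, v i * w i)) := by
    rw [mGam_comm]; exact g5
  rw [g1, g2, g2', g3, g4, g4', g5, g5', g6]
  have hRic' : q ^ 2 ≤ mRic 4 p (mgrad 4 τ p) (mgrad 4 τ p) / lam ^ 2 := by
    rw [le_div_iff₀ (by positivity)]
    rw [g1] at hRic
    nlinarith
  have hH := J.hess
  set X := mLap 4 τ p / lam with hX
  set K := mLap 4 κ p / lam with hK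
  set HS := mHessSq 4 τ p / lam ^ 2 with hHS
  set R := mRic 4 p (mgrad 4 τ p) (mgrad 4 τ p) / lam ^ 2 with hR
  have esum : ∑ i, Q2 η (pd2 B x) (pd3 B x) (C x) (pd2 C x) (pd3 C x) q (v i) (w i) =
      (2 * (1 - η) * C x + 2 * pd3 C x * q ^ 2) * ∑ i, v i ^ 2 +
      (pd2 C x - 2 * pd3 B x) * q * ∑ i, v i * w i - pd2 B x * ∑ i, w i ^ 2 := by
    simp only [Q2]
    rw [Finset.sum_sub_distrib, Finset.sum_add_distrib, ← Finset.mul_sum, ← Finset.mul_sum,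
      ← Finset.mul_sum]
  rw [esum]
  set S1 := ∑ i, v i * w i with hS1
  set S2 := ∑ i, v i ^ 2 with hS2
  set S3 := ∑ i, w i ^ 2 with hS3
  have hfin : 0 ≤ C x * ((1 - η) * (HS - (h ^ 2 + 2 * S2 + (X - h) ^ 2 / 3)) + (R - q ^ 2)) := by
    refine mul_nonneg hC0 (add_nonneg (mul_nonneg (by linarith) (by linarith)) (by linarith))
  rw [Q3]
  have d2 : ∀ u1 u2 u3 y1 y2 y3 : ℝ, (u1 * (lam * y1) + u2 * (lam * y2) + u3 * (lam * y3)) / lam =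
      u1 * y1 + u2 * y2 + u3 * y3 := fun u1 u2 u3 y1 y2 y3 => by field_simp
  simp only [d2]
  refine le_of_sub_nonneg (hfin.trans_eq ?_)
  ring

end Crest.Agent.R249.Div467
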