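import Crest.Agent.R249.Div3_467

/-!
# R249 (helper467), A2-DIV part 4: the exact equations for `τ = log φ - log ψ` and
`κ = 2 - φ³ - ψ³` (section 0 of Blueprint_806, (E2), (E3)), for the scaled operators.
-/

set_option autoImplicit false
set_option maxSynthPendingDepth 3
set_option linter.unusedSectionVars false

open Bundle Set MeasureTheory Manifold Filter Metric
open scoped ContDiff Topology NNReal
open Crest.GeometryTopology.CoordMetric Crest.GeometryTopology.ChartCurvature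
  Crest.GeometryTopology.PointedLimit
open Crest.Agent.R247.Bo84 Crest.Agent.R247.Ms322
open Crest.Agent.R249.Grn324

noncomputable section

namespace Crest.Agent.R249.Div467

/-- `τ = log φ - log ψ`. -/
def tau {M : Type*} (φ ψ : M → ℝ) (z : M) : ℝ := Real.log (φ z) - Real.log (ψ z)

/-- `κ = 2 - φ³ - ψ³`. -/
def kap {M : Type*} (φ ψ : M → ℝ) (z : M) : ℝ := 2 - φ z ^ 3 - ψ z ^ 3

/-- `t = (x - y)/(x + y)`, `x = φ³`, `y = ψ³`. -/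
def tt {M : Type*} (φ ψ : M → ℝ) (z : M) : ℝ := (φ z ^ 3 - ψ z ^ 3) / (φ z ^ 3 + ψ z ^ 3)

/-- `f(u) = (2/3)(u - u⁴)`. -/
def ff (u : ℝ) : ℝ := 2 / 3 * (u - u ^ 4)

section

variable {n : ℕ} {M : Type*} [MetricSpace M] [ChartedSpace (EuclideanSpace ℝ (Fin n)) M]
  [IsManifold (𝓡 n) ∞ M]
  [RiemannianBundle (fun p : M => TangentSpace (𝓡 n) p)]
  [IsContMDiffRiemannianBundle (𝓡 n) ∞ (EuclideanSpace ℝ (Fin n)) (fun p : M => TangentSpace (𝓡 n) p)]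

variable {φ ψ : M → ℝ}

lemma contMDiff_log (hφ : ContMDiff (𝓡 n) 𝓘(ℝ) ∞ φ) (h0 : ∀ z, 0 < φ z) :
    ContMDiff (𝓡 n) 𝓘(ℝ) ∞ (fun z => Real.log (φ z)) := fun z =>
  ((Real.contDiffAt_log.2 (h0 z).ne').contMDiffAt).comp z (hφ z)

lemma contMDiff_tau (hφ : ContMDiff (𝓡 n) 𝓘(ℝ) ∞ φ) (hψ : ContMDiff (𝓡 n) 𝓘(ℝ) ∞ ψ)
    (h0 : ∀ z, 0 < φ z) (h0' : ∀ z, 0 < ψ z) : ContMDiff (𝓡 n) 𝓘(ℝ) ∞ (tau φ ψ) :=
  (contMDiff_log hφ h0).sub (contMDiff_log hψ h0')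

lemma contMDiff_kap (hφ : ContMDiff (𝓡 n) 𝓘(ℝ) ∞ φ) (hψ : ContMDiff (𝓡 n) 𝓘(ℝ) ∞ ψ) :
    ContMDiff (𝓡 n) 𝓘(ℝ) ∞ (kap φ ψ) :=
  (contMDiff_const.sub (hφ.pow 3)).sub (hψ.pow 3)

/-- pairing with `log φ`. -/
lemma mGam_log (hφ : ContMDiff (𝓡 n) 𝓘(ℝ) ∞ φ) (h0 : ∀ z, 0 < φ z) (h : M → ℝ) (z : M) :
    mGam n (fun y => Real.log (φ y)) h z = mGam n φ h z / φ z := by
  rw [mGam_comp_left (Real.differentiableAt_log (h0 z).ne') ((hφ z).mdifferentiableAt (by simp)),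
    Real.deriv_log]
  ring

lemma mGam_pow3 (hφ : ContMDiff (𝓡 n) 𝓘(ℝ) ∞ φ) (h : M → ℝ) (z : M) :
    mGam n (fun y => φ y ^ 3) h z = 3 * φ z ^ 2 * mGam n φ h z := by
  rw [mGam_comp_left (φ := fun u : ℝ => u ^ 3) (differentiableAt_pow 3)
    ((hφ z).mdifferentiableAt (by simp))]
  simp

lemma mLap_log (hφ : ContMDiff (𝓡 n) 𝓘(ℝ) ∞ φ) (h0 : ∀ z, 0 < φ z) (z : M) :
    mLap n (fun y => Real.log (φ y)) z = mLap n φ z / φ z - mGam n φ φ z / φ z ^ 2 := by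
  have h1 : ContDiffAt ℝ 2 Real.log (φ z) := Real.contDiffAt_log.2 (h0 z).ne'
  rw [mLap_comp h1 ((hφ z).of_le two_le_inf), Real.deriv_log, Real.deriv_log', deriv_inv]
  ring

lemma mLap_pow3 (hφ : ContMDiff (𝓡 n) 𝓘(ℝ) ∞ φ) (z : M) :
    mLap n (fun y => φ y ^ 3) z = 3 * φ z ^ 2 * mLap n φ z + 6 * φ z * mGam n φ φ z := by
  have h1 : ContDiffAt ℝ 2 (fun u : ℝ => u ^ 3) (φ z) := by fun_prop
  rw [mLap_comp (φ := fun u : ℝ => u ^ 3) h1 ((hφ z).of_le two_le_inf)]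
  have e1 : deriv (fun u : ℝ => u ^ 3) = fun u => 3 * u ^ 2 := by
    funext u; simp
  rw [e1]
  have e2 : deriv (fun u : ℝ => 3 * u ^ 2) (φ z) = 6 * φ z := by
    rw [deriv_const_mul _ (differentiableAt_pow 2)]
    simp
    ring
  rw [e2]

/-- all pairings in terms of `g11 = ⟨dφ,dφ⟩`, `g12`, `g22`. -/
lemma mGam_tau (hφ : ContMDiff (𝓡 n) 𝓘(ℝ) ∞ φ) (hψ : ContMDiff (𝓡 n) 𝓘(ℝ) ∞ ψ)
    (h0 : ∀ z, 0 < φ z) (h0' : ∀ z, 0 < ψ z) (h : M → ℝ) (z : M) :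
    mGam n (tau φ ψ) h z = mGam n φ h z / φ z - mGam n ψ h z / ψ z := by
  have h1 := ((contMDiff_log hφ h0) z).mdifferentiableAt (show (∞ : WithTop ℕ∞) ≠ 0 by simp)
  have h2 := ((contMDiff_log hψ h0') z).mdifferentiableAt (show (∞ : WithTop ℕ∞) ≠ 0 by simp)
  have e := mGam_sub_left (n := n) (k := h) h1 h2
  rw [mGam_log hφ h0, mGam_log hψ h0'] at e
  exact e

lemma mGam_kap (hφ : ContMDiff (𝓡 n) 𝓘(ℝ) ∞ φ) (hψ : ContMDiff (𝓡 n) 𝓘(ℝ) ∞ ψ)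
    (h : M → ℝ) (z : M) :
    mGam n (kap φ ψ) h z = -(3 * φ z ^ 2 * mGam n φ h z) - 3 * ψ z ^ 2 * mGam n ψ h z := by
  have h1 : MDifferentiableAt (𝓡 n) 𝓘(ℝ) (fun y => φ y ^ 3) z :=
    ((hφ.pow 3) z).mdifferentiableAt (by simp)
  have h2 : MDifferentiableAt (𝓡 n) 𝓘(ℝ) (fun y => ψ y ^ 3) z :=
    ((hψ.pow 3) z).mdifferentiableAt (by simp)
  have h3 : MDifferentiableAt (𝓡 n) 𝓘(ℝ) (fun y => 2 - φ y ^ 3) z :=
    ((contMDiff_const.sub (hφ.pow 3)) z).mdifferentiableAt (show (∞ : WithTop ℕ∞) ≠ 0 by simp)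
  have h4 : MDifferentiableAt (𝓡 n) 𝓘(ℝ) (fun _ : M => (2:ℝ)) z := mdifferentiableAt_const
  have e := mGam_sub_left (n := n) (k := h) h3 h2
  have e' := mGam_sub_left (n := n) (k := h) h4 h1
  rw [mGam_const_left, mGam_pow3 hφ] at e'
  rw [e', mGam_pow3 hψ] at e
  refine Eq.trans ?_ (e.trans ?_)
  · rfl
  · ring

lemma mLap_tau (hφ : ContMDiff (𝓡 n) 𝓘(ℝ) ∞ φ) (hψ : ContMDiff (𝓡 n) 𝓘(ℝ) ∞ ψ)
    (h0 : ∀ z, 0 < φ z) (h0' : ∀ z, 0 < ψ z) (z : M) :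
    mLap n (tau φ ψ) z = (mLap n φ z / φ z - mGam n φ φ z / φ z ^ 2) -
      (mLap n ψ z / ψ z - mGam n ψ ψ z / ψ z ^ 2) := by
  have h1 := ((contMDiff_log hφ h0) z).of_le two_le_inf
  have h2 := ((contMDiff_log hψ h0') z).of_le two_le_inf
  have e := mLap_sub (n := n) h1 h2
  rw [mLap_log hφ h0, mLap_log hψ h0'] at e
  exact e

lemma mLap_kap (hφ : ContMDiff (𝓡 n) 𝓘(ℝ) ∞ φ) (hψ : ContMDiff (𝓡 n) 𝓘(ℝ) ∞ ψ) (z : M) :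
    mLap n (kap φ ψ) z = -(3 * φ z ^ 2 * mLap n φ z + 6 * φ z * mGam n φ φ z) -
      (3 * ψ z ^ 2 * mLap n ψ z + 6 * ψ z * mGam n ψ ψ z) := by
  have h1 := ((hφ.pow 3) z).of_le two_le_inf
  have h2 := ((hψ.pow 3) z).of_le two_le_inf
  have h4 : ContMDiffAt (𝓡 n) 𝓘(ℝ) 2 (fun _ : M => (2:ℝ)) z := contMDiffAt_const
  have e := mLap_sub (n := n) (h4.sub h1) h2
  have e' := mLap_sub (n := n) h4 h1
  have e3 := mLap_pow3 hφ z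
  have e4 := mLap_pow3 hψ z
  rw [mLap_const] at e'
  have e5 : mLap n (kap φ ψ) z = mLap n (fun q => (2:ℝ) - φ q ^ 3) z - mLap n (fun q => ψ q ^ 3) z := e
  have e6 : mLap n (fun q => (2:ℝ) - φ q ^ 3) z = 0 - mLap n (fun q => φ q ^ 3) z := e'
  rw [e5, e6, e3, e4]
  ring

/-- **(E3)** the equation for `τ`. -/
theorem lap_tau_eq {lam : ℝ} (hlam : 0 < lam)
    (hφ : ContMDiff (𝓡 n) 𝓘(ℝ) ∞ φ) (hψ : ContMDiff (𝓡 n) 𝓘(ℝ) ∞ ψ)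
    (h0 : ∀ z, 0 < φ z) (h0' : ∀ z, 0 < ψ z) {z : M} {P R : ℝ}
    (eφ : mLap n φ z / lam = ff (φ z) + P) (eψ : mLap n ψ z / lam = ff (ψ z) + R) :
    mLap n (tau φ ψ) z / lam =
      -(2 / 3) * (2 - kap φ ψ z) * tt φ ψ z + tt φ ψ z * (mGam n (tau φ ψ) (tau φ ψ) z / lam) +
      2 / 3 * (mGam n (kap φ ψ) (tau φ ψ) z / lam) / (2 - kap φ ψ z) + P / φ z - R / ψ z := by
  have a1 := h0 z
  have a2 := h0' z
  have hs : 0 < φ z ^ 3 + ψ z ^ 3 := by positivity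
  have hk : 2 - kap φ ψ z = φ z ^ 3 + ψ z ^ 3 := by rw [kap]; ring
  have eφ' : mLap n φ z = lam * (ff (φ z) + P) := by rw [← eφ]; field_simp
  have eψ' : mLap n ψ z = lam * (ff (ψ z) + R) := by rw [← eψ]; field_simp
  rw [mLap_tau hφ hψ h0 h0', mGam_tau hφ hψ h0 h0', mGam_comm φ (tau φ ψ), mGam_comm ψ (tau φ ψ),
    mGam_tau hφ hψ h0 h0', mGam_tau hφ hψ h0 h0', mGam_kap hφ hψ, mGam_comm φ (tau φ ψ),
    mGam_comm ψ (tau φ ψ), mGam_tau hφ hψ h0 h0', mGam_tau hφ hψ h0 h0', mGam_comm ψ φ, hk, tt,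
    eφ', eψ']
  unfold ff
  generalize mGam n φ φ z = g11
  generalize mGam n φ ψ z = g12
  generalize mGam n ψ ψ z = g22
  generalize φ z = u at *
  generalize ψ z = w at *
  field_simp
  ring

/-- **(E2)** the equation for `κ`. -/
theorem lap_kap_eq {lam : ℝ} (hlam : 0 < lam)
    (hφ : ContMDiff (𝓡 n) 𝓘(ℝ) ∞ φ) (hψ : ContMDiff (𝓡 n) 𝓘(ℝ) ∞ ψ)
    (h0 : ∀ z, 0 < φ z) (h0' : ∀ z, 0 < ψ z) {z : M} {P R : ℝ}
    (eφ : mLap n φ z / lam = ff (φ z) + P) (eψ : mLap n ψ z / lam = ff (ψ z) + R) :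
    mLap n (kap φ ψ) z / lam =
      -(2 - kap φ ψ z) * kap φ ψ z + (2 - kap φ ψ z) ^ 2 * tt φ ψ z ^ 2 -
      3 / 2 * (2 - kap φ ψ z) * (1 - tt φ ψ z ^ 2) * (mGam n (tau φ ψ) (tau φ ψ) z / lam) -
      2 / 3 * (mGam n (kap φ ψ) (kap φ ψ) z / lam) / (2 - kap φ ψ z) -
      3 * φ z ^ 2 * P - 3 * ψ z ^ 2 * R := by
  have a1 := h0 z
  have a2 := h0' z
  have hs : 0 < φ z ^ 3 + ψ z ^ 3 := by positivity
  have hk : 2 - kap φ ψ z = φ z ^ 3 + ψ z ^ 3 := by rw [kap]; ring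
  have hk' : kap φ ψ z = 2 - φ z ^ 3 - ψ z ^ 3 := rfl
  have eφ' : mLap n φ z = lam * (ff (φ z) + P) := by rw [← eφ]; field_simp
  have eψ' : mLap n ψ z = lam * (ff (ψ z) + R) := by rw [← eψ]; field_simp
  rw [mLap_kap hφ hψ, mGam_tau hφ hψ h0 h0', mGam_comm φ (tau φ ψ), mGam_comm ψ (tau φ ψ),
    mGam_tau hφ hψ h0 h0', mGam_tau hφ hψ h0 h0', mGam_kap hφ hψ, mGam_comm φ (kap φ ψ),
    mGam_comm ψ (kap φ ψ), mGam_kap hφ hψ, mGam_kap hφ hψ, mGam_comm ψ φ, hk, tt,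
    eφ', eψ', hk']
  unfold ff
  generalize mGam n φ φ z = g11
  generalize mGam n φ ψ z = g12
  generalize mGam n ψ ψ z = g22
  generalize φ z = u at *
  generalize ψ z = w at *
  field_simp
  ring

end

end Crest.Agent.R249.Div467
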