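import Crest.Agent.R249.Calc2_806

/-!
# R249 (helper467), A2-DIV over the abstract calculus `C : Calc X μ`, part 1

* `dvC C a b c θ κ` : the divergence of `a dθ + b dκ + c (Lθ dθ - ½ d|dθ|²)`
  (`Rb θ = |Hess θ|² + (Ric - 1)(dθ, dθ)`), `int_dvC : ∫ dvC = 0`, `sm_dvC`;
* `NN` : `- div V` as a function of the jets, `neg_dvC`;
* `Adp u v S e q h k s w` : adapted decomposition of jets, `exists_Adp`;
* `Q3`, `Q2`, `NN_ge` : reduction to a `3 × 3` form in `(1, h, k)` and a `2 × 2` form in `(s, w)`;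
* `pd1 pd2 pd3`, `sm_comp3`, `D_comp3` : functions of three functions.
-/

set_option autoImplicit false
set_option linter.unusedVariables false
set_option linter.unusedSectionVars false

open MeasureTheory Set Filter Topology Matrix
open scoped ContDiff

noncomputable section

namespace Crest.Agent.R249.DivC467

open Crest.Agent.R249.Calc_806 Crest.Agent.R249.Calc_806.Calc

section Calculus

variable {X : Type*} [TopologicalSpace X] [MeasurableSpace X] {μ : Measure X}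

/-- the divergence of `a dθ + b dκ + c (Lθ dθ - ½ d|dθ|²)`. -/
def dvC (C : Calc X μ) (a b c θ κ : X → ℝ) (x : X) : ℝ :=
  a x * C.L θ x + C.G a θ x + b x * C.L κ x + C.G b κ x +
    c x * (C.L θ x ^ 2 - C.Rb θ x - C.G θ θ x) + C.L θ x * C.G c θ x -
    (1 / 2) * C.G c (C.G θ θ) x

variable {C : Calc X μ} {a b c θ κ : X → ℝ}

section Integral

variable [CompactSpace X] [OpensMeasurableSpace X] [IsFiniteMeasure μ]

lemma sm_dvC (ha : C.Sm a) (hb : C.Sm b) (hc : C.Sm c) (hθ : C.Sm θ) (hκ : C.Sm κ) :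
    C.Sm (dvC C a b c θ κ) := by
  have hL := C.sm_L hθ
  have hT := C.sm_G hθ hθ
  exact sm_sub (sm_add (sm_add (sm_add (sm_add (sm_add (sm_mul ha hL) (C.sm_G ha hθ))
    (sm_mul hb (C.sm_L hκ))) (C.sm_G hb hκ))
    (sm_mul hc (sm_sub (sm_sub (sm_pow hL 2) (sm_Rb hθ)) hT))) (sm_mul hL (C.sm_G hc hθ)))
    (sm_smul _ (C.sm_G hc hT))

/-- **the integrated identity of section 8.** -/
theorem int_dvC (ha : C.Sm a) (hb : C.Sm b) (hc : C.Sm c) (hθ : C.Sm θ) (hκ : C.Sm κ) :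
    ∫ x, dvC C a b c θ κ x ∂μ = 0 := by
  have hL := C.sm_L hθ
  have hT := C.sm_G hθ hθ
  have h1 := int_div (C := C) ha hθ
  have h2 := int_div (C := C) hb hκ
  have h3 := weighted_bochner (C := C) hc hθ
  have i1 : Integrable (fun x => a x * C.L θ x + C.G a θ x) μ :=
    integrable_sm (sm_add (sm_mul ha hL) (C.sm_G ha hθ))
  have i2 : Integrable (fun x => b x * C.L κ x + C.G b κ x) μ :=
    integrable_sm (sm_add (sm_mul hb (C.sm_L hκ)) (C.sm_G hb hκ))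
  have i3 : Integrable (fun x => C.L θ x * C.G c θ x + c x * (C.L θ x ^ 2 - C.Rb θ x - C.G θ θ x)
      - (1 / 2) * C.G c (C.G θ θ) x) μ :=
    integrable_sm (sm_sub (sm_add (sm_mul hL (C.sm_G hc hθ))
      (sm_mul hc (sm_sub (sm_sub (sm_pow hL 2) (sm_Rb hθ)) hT))) (sm_smul _ (C.sm_G hc hT)))
  have h4 : ∫ x, ((a x * C.L θ x + C.G a θ x) + (b x * C.L κ x + C.G b κ x) +
      (C.L θ x * C.G c θ x + c x * (C.L θ x ^ 2 - C.Rb θ x - C.G θ θ x)
      - (1 / 2) * C.G c (C.G θ θ) x)) ∂μ = 0 := by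
    have i12 : Integrable (fun x => (a x * C.L θ x + C.G a θ x) + (b x * C.L κ x + C.G b κ x)) μ :=
      i1.add i2
    rw [integral_add i12 i3, integral_add i1 i2, h1, h2, h3]
    ring
  rw [← h4]
  refine integral_congr_ae (Eventually.of_forall fun x => ?_)
  simp only [dvC]
  ring

end Integral

/-! ### functions of three functions -/

/-- first partial derivative. -/
def pd1 (F : ℝ × ℝ × ℝ → ℝ) (x : ℝ × ℝ × ℝ) : ℝ := fderiv ℝ F x (1, 0, 0)
/-- second partial derivative. -/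
def pd2 (F : ℝ × ℝ × ℝ → ℝ) (x : ℝ × ℝ × ℝ) : ℝ := fderiv ℝ F x (0, 1, 0)
/-- third partial derivative. -/
def pd3 (F : ℝ × ℝ × ℝ → ℝ) (x : ℝ × ℝ × ℝ) : ℝ := fderiv ℝ F x (0, 0, 1)

lemma sm_comp3 {F : ℝ × ℝ × ℝ → ℝ} {U : Set (ℝ × ℝ × ℝ)} (hU : IsOpen U) (hF : ContDiffOn ℝ ∞ F U)
    {f g h : X → ℝ} (hf : C.Sm f) (hg : C.Sm g) (hh : C.Sm h) (hx : ∀ x, (f x, g x, h x) ∈ U) :
    C.Sm (fun x => F (f x, g x, h x)) := by
  have hc : ContDiff ℝ ∞ (fun v : Fin 3 → ℝ => (v 0, v 1, v 2)) :=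
    (contDiff_apply ℝ ℝ 0).prodMk ((contDiff_apply ℝ ℝ 1).prodMk (contDiff_apply ℝ ℝ 2))
  have := C.sm_comp (k := 3) (F := fun v => F (v 0, v 1, v 2))
    (U := (fun v : Fin 3 → ℝ => (v 0, v 1, v 2)) ⁻¹' U)
    (hU.preimage hc.continuous) (hF.comp hc.contDiffOn fun v hv => hv)
    (f := ![f, g, h]) (fun i => by fin_cases i <;> assumption) (fun x => hx x)
  exact this

lemma D_comp3 {F : ℝ × ℝ × ℝ → ℝ} {U : Set (ℝ × ℝ × ℝ)} (hU : IsOpen U) (hF : ContDiffOn ℝ ∞ F U)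
    {f g h : X → ℝ} (hf : C.Sm f) (hg : C.Sm g) (hh : C.Sm h) (hx : ∀ x, (f x, g x, h x) ∈ U)
    (x : X) :
    C.D (fun x => F (f x, g x, h x)) x = pd1 F (f x, g x, h x) • C.D f x +
      pd2 F (f x, g x, h x) • C.D g x + pd3 F (f x, g x, h x) • C.D h x := by
  have hc : ContDiff ℝ ∞ (fun v : Fin 3 → ℝ => (v 0, v 1, v 2)) :=
    (contDiff_apply ℝ ℝ 0).prodMk ((contDiff_apply ℝ ℝ 1).prodMk (contDiff_apply ℝ ℝ 2))
  have h1 := C.D_comp (k := 3) (F := fun v => F (v 0, v 1, v 2))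
    (U := (fun v : Fin 3 → ℝ => (v 0, v 1, v 2)) ⁻¹' U)
    (hU.preimage hc.continuous) (hF.comp hc.contDiffOn fun v hv => hv)
    (f := ![f, g, h]) (fun i => by fin_cases i <;> assumption) (fun x => hx x) x
  have hd : HasFDerivAt F (fderiv ℝ F (f x, g x, h x)) (f x, g x, h x) :=
    ((hF.contDiffAt (hU.mem_nhds (hx x))).differentiableAt (by simp)).hasFDerivAt
  have h2 : HasFDerivAt (fun v : Fin 3 → ℝ => F (v 0, v 1, v 2))
      ((fderiv ℝ F (f x, g x, h x)).comp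
        ((ContinuousLinearMap.proj (R := ℝ) (φ := fun _ : Fin 3 => ℝ) 0).prod
          ((ContinuousLinearMap.proj (R := ℝ) (φ := fun _ : Fin 3 => ℝ) 1).prod
            (ContinuousLinearMap.proj (R := ℝ) (φ := fun _ : Fin 3 => ℝ) 2))))
      (fun j => (![f, g, h] : Fin 3 → X → ℝ) j x) := by
    refine HasFDerivAt.comp (g := F) (f := fun v : Fin 3 → ℝ => (v 0, v 1, v 2))
      (fun j => (![f, g, h] : Fin 3 → X → ℝ) j x) hd ?_
    exact ((ContinuousLinearMap.proj (R := ℝ) (φ := fun _ : Fin 3 => ℝ) 0).prod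
          ((ContinuousLinearMap.proj (R := ℝ) (φ := fun _ : Fin 3 => ℝ) 1).prod
            (ContinuousLinearMap.proj (R := ℝ) (φ := fun _ : Fin 3 => ℝ) 2))).hasFDerivAt
  have h3 : C.D (fun x => F (f x, g x, h x)) x =
      C.D (fun x => (fun v : Fin 3 → ℝ => F (v 0, v 1, v 2))
        (fun i => (![f, g, h] : Fin 3 → X → ℝ) i x)) x := rfl
  rw [h3, h1, h2.fderiv, Fin.sum_univ_three]
  simp [pd1, pd2, pd3]

/-- `d|dθ|² = 2 Hess θ (dθ)`. -/
lemma D_T (hθ : C.Sm θ) (x : X) : C.D (C.G θ θ) x = (2 : ℝ) • (C.Hs θ x *ᵥ C.D θ x) := by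
  rw [C.D_G hθ hθ, two_smul]

end Calculus

/-! ### the integrand as a function of jets -/

/-- `- div V` as a function of: coefficients `a b c`, their differentials `da db dc`, `u = dθ`,
`v = dκ`, `S = Hess θ`, `K = Lap κ`, `ρ = |Hess θ|²` (or `Rb θ`). -/
def NN (a b c : ℝ) (da db dc u v : Fin 4 → ℝ) (S : Matrix (Fin 4) (Fin 4) ℝ) (K ρ : ℝ) : ℝ :=
  -(a * S.trace + da ⬝ᵥ u + b * K + db ⬝ᵥ v + c * (S.trace ^ 2 - ρ - u ⬝ᵥ u) +
    S.trace * (dc ⬝ᵥ u) - dc ⬝ᵥ (S *ᵥ u))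

lemma neg_dvC {X : Type*} [TopologicalSpace X] [MeasurableSpace X] {μ : Measure X} {C : Calc X μ}
    {a b c θ κ : X → ℝ} (hθ : C.Sm θ) (x : X) :
    - dvC C a b c θ κ x = NN (a x) (b x) (c x) (C.D a x) (C.D b x) (C.D c x) (C.D θ x) (C.D κ x)
      (C.Hs θ x) (C.L κ x) (C.Rb θ x) := by
  have e : C.G c (C.G θ θ) x = 2 * (C.D c x ⬝ᵥ (C.Hs θ x *ᵥ C.D θ x)) := by
    rw [Calc0.G, D_T hθ, dotProduct_smul, smul_eq_mul]
  rw [dvC, NN, e]
  simp only [Calc0.G, Calc0.L]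
  ring

/-! ### adapted decomposition -/

/-- adapted decomposition of the jets `u = dθ`, `v = dκ`, `S = Hess θ`. -/
structure Adp (u v : Fin 4 → ℝ) (S : Matrix (Fin 4) (Fin 4) ℝ) (e : Fin 4 → ℝ) (q h k : ℝ)
    (s w : Fin 4 → ℝ) : Prop where
  q0 : 0 ≤ q
  ee : e ⬝ᵥ e = 1
  es : e ⬝ᵥ s = 0
  ew : e ⬝ᵥ w = 0
  hu : u = q • e
  hv : v = k • e + w
  hS : S *ᵥ e = h • e + s
  hess : h ^ 2 + 2 * (s ⬝ᵥ s) + (S.trace - h) ^ 2 / 3 ≤ ∑ i, ∑ j, S i j ^ 2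

namespace Adp

variable {u v e s w : Fin 4 → ℝ} {S : Matrix (Fin 4) (Fin 4) ℝ} {q h k : ℝ}

lemma uu (J : Adp u v S e q h k s w) : u ⬝ᵥ u = q ^ 2 := by
  rw [J.hu]; simp only [smul_dotProduct, dotProduct_smul, smul_eq_mul, J.ee]; ring

lemma vu (J : Adp u v S e q h k s w) : v ⬝ᵥ u = q * k := by
  have h1 : w ⬝ᵥ e = 0 := by rw [dotProduct_comm]; exact J.ew
  rw [J.hu, J.hv]
  simp only [smul_dotProduct, dotProduct_smul, add_dotProduct, smul_eq_mul, J.ee, h1]; ring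

lemma uv (J : Adp u v S e q h k s w) : u ⬝ᵥ v = q * k := by rw [dotProduct_comm]; exact J.vu

lemma vv (J : Adp u v S e q h k s w) : v ⬝ᵥ v = k ^ 2 + w ⬝ᵥ w := by
  have h1 : w ⬝ᵥ e = 0 := by rw [dotProduct_comm]; exact J.ew
  rw [J.hv]
  simp only [smul_dotProduct, dotProduct_smul, add_dotProduct, dotProduct_add, smul_eq_mul, J.ee,
    J.ew, h1]; ring

lemma Su (J : Adp u v S e q h k s w) : S *ᵥ u = (q * h) • e + q • s := by
  rw [J.hu, Matrix.mulVec_smul, J.hS, smul_add, smul_smul]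

lemma Suu (J : Adp u v S e q h k s w) : u ⬝ᵥ (S *ᵥ u) = q ^ 2 * h := by
  rw [J.Su, J.hu]
  simp only [smul_dotProduct, dotProduct_smul, dotProduct_add, smul_eq_mul, J.ee, J.es]; ring

lemma Suv (J : Adp u v S e q h k s w) : v ⬝ᵥ (S *ᵥ u) = q * (k * h + s ⬝ᵥ w) := by
  have h1 : w ⬝ᵥ e = 0 := by rw [dotProduct_comm]; exact J.ew
  have h2 : w ⬝ᵥ s = s ⬝ᵥ w := dotProduct_comm _ _
  rw [J.Su, J.hv]
  simp only [smul_dotProduct, dotProduct_smul, add_dotProduct, dotProduct_add, smul_eq_mul, J.ee,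
    J.es, h1, h2]; ring

lemma SuSu (J : Adp u v S e q h k s w) : (S *ᵥ u) ⬝ᵥ (S *ᵥ u) = q ^ 2 * (h ^ 2 + s ⬝ᵥ s) := by
  have h1 : s ⬝ᵥ e = 0 := by rw [dotProduct_comm]; exact J.es
  rw [J.Su]
  simp only [smul_dotProduct, dotProduct_smul, add_dotProduct, dotProduct_add, smul_eq_mul, J.ee,
    J.es, h1]; ring

lemma symm_vu (J : Adp u v S e q h k s w) : (S *ᵥ u) ⬝ᵥ u = q ^ 2 * h := by
  rw [dotProduct_comm]; exact J.Suu

lemma symm_vv (J : Adp u v S e q h k s w) : (S *ᵥ u) ⬝ᵥ v = q * (k * h + s ⬝ᵥ w) := by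
  rw [dotProduct_comm]; exact J.Suv

end Adp

/-- the Hessian inequality. -/
lemma hess_ineq {S : Matrix (Fin 4) (Fin 4) ℝ} (hS : ∀ i j, S i j = S j i) {e : Fin 4 → ℝ}
    (he : e ⬝ᵥ e = 1) {h : ℝ} {s : Fin 4 → ℝ} (hs : S *ᵥ e = h • e + s) (es : e ⬝ᵥ s = 0) :
    h ^ 2 + 2 * (s ⬝ᵥ s) + (S.trace - h) ^ 2 / 3 ≤ ∑ i, ∑ j, S i j ^ 2 := by
  -- `R = S - h e e - s e - e s`
  set R : Matrix (Fin 4) (Fin 4) ℝ := fun i j => S i j - h * (e i * e j) - s i * e j - e i * s j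
    with hR
  set P : Matrix (Fin 4) (Fin 4) ℝ := fun i j => (if i = j then 1 else 0) - e i * e j with hP
  have hSe : ∀ i, ∑ j, S i j * e j = h * e i + s i := by
    intro i
    have := congrFun hs i
    simpa [Matrix.mulVec, dotProduct] using this
  have hee : ∑ i, e i * e i = 1 := he
  have hes : ∑ i, e i * s i = 0 := es
  have hRe : ∀ i, ∑ j, R i j * e j = 0 := by
    intro i
    have : ∑ j, R i j * e j = ∑ j, S i j * e j - (h * e i + s i) * ∑ j, e j * e j -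
        e i * ∑ j, e j * s j := by
      rw [Finset.mul_sum, Finset.mul_sum, ← Finset.sum_sub_distrib, ← Finset.sum_sub_distrib]
      exact Finset.sum_congr rfl fun j _ => by simp only [hR]; ring
    rw [this, hSe, hee, hes]; ring
  have hRs : ∀ i j, R i j = R j i := by
    intro i j; simp only [hR]; rw [hS i j]; ring
  -- norm of `S`
  have hn : ∑ i, ∑ j, S i j ^ 2 = h ^ 2 + 2 * (s ⬝ᵥ s) + ∑ i, ∑ j, R i j ^ 2 := by
    have e1 : ∀ i j, S i j ^ 2 = R i j ^ 2 + 2 * h * e i * (R i j * e j) +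
        2 * s i * (R i j * e j) + 2 * (s j * (R j i * e i)) +
        (h ^ 2 * (e i * e i) * (e j * e j) + (s i * s i) * (e j * e j) + (e i * e i) * (s j * s j)
        + 2 * h * (e i * s i) * (e j * e j) + 2 * h * (e i * e i) * (e j * s j) +
          2 * (e i * s i) * (e j * s j)) := by
      intro i j
      rw [hRs j i]
      simp only [hR]
      ring
    have e2 : ∀ i, ∑ j, (R i j ^ 2 + 2 * h * e i * (R i j * e j) +
        2 * s i * (R i j * e j) + 2 * (s j * (R j i * e i)) +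
        (h ^ 2 * (e i * e i) * (e j * e j) + (s i * s i) * (e j * e j) + (e i * e i) * (s j * s j)
        + 2 * h * (e i * s i) * (e j * e j) + 2 * h * (e i * e i) * (e j * s j) +
          2 * (e i * s i) * (e j * s j))) = ∑ j, R i j ^ 2 + 2 * ∑ j, s j * (R j i * e i) +
        (h ^ 2 * (e i * e i) + s i * s i + (e i * e i) * (s ⬝ᵥ s) + 2 * h * (e i * s i)) := by
      intro i
      simp only [Finset.sum_add_distrib, ← Finset.mul_sum, hRe, hee, hes]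
      simp only [dotProduct]
      ring
    have e3 : ∑ i, ∑ j, s j * (R j i * e i) = 0 := by
      rw [Finset.sum_comm]
      refine Finset.sum_eq_zero fun j _ => ?_
      rw [← Finset.mul_sum, hRe, mul_zero]
    simp only [e1, e2, Finset.sum_add_distrib, ← Finset.mul_sum, ← Finset.sum_mul, e3, hee, hes]
    simp only [dotProduct]
    ring
  have hP2 : ∑ i, ∑ j, P i j ^ 2 = 3 := by
    have e1 : ∀ i, ∑ j, P i j ^ 2 = 1 - 2 * (e i * e i) + (e i * e i) * 1 := by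
      intro i
      rw [← hee, Finset.mul_sum, hee]
      have : ∀ j, P i j ^ 2 = (if i = j then (1 - 2 * (e i * e j)) else 0) +
          e i * e i * (e j * e j) := by
        intro j
        simp only [hP]
        split_ifs <;> ring
      simp only [this, Finset.sum_add_distrib, Finset.sum_ite_eq, Finset.mem_univ, if_true]
    simp only [e1, Finset.sum_add_distrib, Finset.sum_sub_distrib, ← Finset.mul_sum, mul_one, hee]
    simp
    norm_num
  have hRP : ∑ i, ∑ j, R i j * P i j = S.trace - h := by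
    have e1 : ∀ i, ∑ j, R i j * P i j = R i i := by
      intro i
      have : ∀ j, R i j * P i j = (if i = j then R i j else 0) - e i * (R i j * e j) := by
        intro j
        simp only [hP]
        split_ifs <;> ring
      simp only [this, Finset.sum_sub_distrib, ← Finset.mul_sum, hRe, Finset.sum_ite_eq,
        Finset.mem_univ, if_true]
      ring
    simp only [e1]
    have : ∀ i, R i i = S i i - h * (e i * e i) - 2 * (e i * s i) := by
      intro i; simp only [hR]; ring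
    simp only [this, Finset.sum_sub_distrib, ← Finset.mul_sum, hee, hes, Matrix.trace,
      Matrix.diag_apply]
    ring
  have hcs : (S.trace - h) ^ 2 ≤ (∑ i, ∑ j, R i j ^ 2) * 3 := by
    rw [← hRP, ← hP2]
    have := Finset.sum_mul_sq_le_sq_mul_sq (Finset.univ : Finset (Fin 4 × Fin 4))
      (fun ij => R ij.1 ij.2) (fun ij => P ij.1 ij.2)
    simpa only [← Finset.univ_product_univ, Finset.sum_product] using this
  rw [hn]
  linarith

lemma exists_unit (u : Fin 4 → ℝ) : ∃ (e : Fin 4 → ℝ) (q : ℝ), 0 ≤ q ∧ e ⬝ᵥ e = 1 ∧ u = q • e := by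
  by_cases h0 : u = 0
  · refine ⟨Pi.single 0 1, 0, le_rfl, ?_, by rw [h0, zero_smul]⟩
    simp
  · have hp : 0 < u ⬝ᵥ u := by
      rcases lt_or_eq_of_le (show 0 ≤ u ⬝ᵥ u from Finset.sum_nonneg fun i _ => mul_self_nonneg _)
        with h | h
      · exact h
      · exact absurd (dotProduct_self_eq_zero.1 h.symm) h0
    have hq : 0 < √(u ⬝ᵥ u) := Real.sqrt_pos.2 hp
    refine ⟨(√(u ⬝ᵥ u))⁻¹ • u, √(u ⬝ᵥ u), hq.le, ?_, ?_⟩
    · simp only [smul_dotProduct, dotProduct_smul, smul_eq_mul]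
      have := Real.sq_sqrt hp.le
      field_simp
      linarith
    · rw [smul_smul, mul_inv_cancel₀ hq.ne', one_smul]

theorem exists_Adp (u v : Fin 4 → ℝ) {S : Matrix (Fin 4) (Fin 4) ℝ} (hS : ∀ i j, S i j = S j i) :
    ∃ (e : Fin 4 → ℝ) (q h k : ℝ) (s w : Fin 4 → ℝ), Adp u v S e q h k s w := by
  obtain ⟨e, q, hq, he, hu⟩ := exists_unit u
  have es : e ⬝ᵥ (S *ᵥ e - (e ⬝ᵥ (S *ᵥ e)) • e) = 0 := by
    rw [dotProduct_sub, dotProduct_smul, he, smul_eq_mul, mul_one, sub_self]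
  have hS1 : S *ᵥ e = (e ⬝ᵥ (S *ᵥ e)) • e + (S *ᵥ e - (e ⬝ᵥ (S *ᵥ e)) • e) := by abel
  refine ⟨e, q, e ⬝ᵥ (S *ᵥ e), e ⬝ᵥ v, S *ᵥ e - (e ⬝ᵥ (S *ᵥ e)) • e, v - (e ⬝ᵥ v) • e,
    hq, he, es, ?_, hu, ?_, hS1, hess_ineq hS he hS1 es⟩
  · rw [dotProduct_sub, dotProduct_smul, he, smul_eq_mul, mul_one, sub_self]
  · abel

/-! ### pointwise reduction -/

/-- the `3 × 3` form. Partial derivatives `1 2 3` = `∂θ, ∂κ, ∂T`. -/
def Q3 (η A A1 A2 A3 B B1 B2 B3 C C1 C2 C3 X K q h k : ℝ) : ℝ :=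
  -(A * X + A1 * q ^ 2 + (A2 + B1) * (q * k) + 2 * A3 * q ^ 2 * h + B * K + B2 * k ^ 2 +
    2 * B3 * (q * k * h) + C * X ^ 2 + X * (C1 * q ^ 2 + C2 * (q * k) + 2 * C3 * q ^ 2 * h) -
    C1 * q ^ 2 * h - C2 * (q * k * h) - 2 * C3 * q ^ 2 * h ^ 2) + C * q ^ 2 +
    (1 - η) * C * (h ^ 2 + (X - h) ^ 2 / 3)

/-- the `2 × 2` form in `s s`, `s w`, `w w`. -/
def Q2 (η B2 B3 C C2 C3 q ss sw ww : ℝ) : ℝ :=
  (2 * (1 - η) * C + 2 * C3 * q ^ 2) * ss + (C2 - 2 * B3) * q * sw - B2 * ww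

/-- **pointwise reduction.** -/
theorem NN_ge {η A A1 A2 A3 B B1 B2 B3 C C1 C2 C3 K ρ q h k : ℝ} {u v e s w : Fin 4 → ℝ}
    {S : Matrix (Fin 4) (Fin 4) ℝ} (hη : η ≤ 1) (hC : 0 ≤ C) (J : Adp u v S e q h k s w)
    (hρ : ∑ i, ∑ j, S i j ^ 2 ≤ ρ) :
    Q3 η A A1 A2 A3 B B1 B2 B3 C C1 C2 C3 S.trace K q h k +
      Q2 η B2 B3 C C2 C3 q (s ⬝ᵥ s) (s ⬝ᵥ w) (w ⬝ᵥ w) + η * C * ρ ≤
    NN A B C (A1 • u + A2 • v + A3 • ((2 : ℝ) • (S *ᵥ u))) (B1 • u + B2 • v + B3 • ((2 : ℝ) • (S *ᵥ u)))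
      (C1 • u + C2 • v + C3 • ((2 : ℝ) • (S *ᵥ u))) u v S K ρ := by
  have hfin : 0 ≤ C * ((1 - η) * (ρ - (h ^ 2 + 2 * (s ⬝ᵥ s) + (S.trace - h) ^ 2 / 3))) :=
    mul_nonneg hC (mul_nonneg (by linarith) (by linarith [J.hess]))
  have e1 : u ⬝ᵥ (S *ᵥ u) = q ^ 2 * h := J.Suu
  have e2 : v ⬝ᵥ (S *ᵥ u) = q * (k * h + s ⬝ᵥ w) := J.Suv
  simp only [NN, Q3, Q2, add_dotProduct, smul_dotProduct, smul_eq_mul, J.uu, J.vu, J.uv, J.vv,
    J.symm_vu, J.symm_vv, J.SuSu, e1, e2]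
  generalize S.trace = X at *
  generalize s ⬝ᵥ s = ss at *
  generalize s ⬝ᵥ w = sw at *
  generalize w ⬝ᵥ w = ww at *
  refine le_of_sub_nonneg (hfin.trans_eq ?_)
  ring

end Crest.Agent.R249.DivC467
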