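import Crest.Agent.R249.DivC1_467

/-!
# R249 (helper467), A2-DIV over the abstract calculus `C : Calc X μ`, part 2

* `int_dvC3`, `dvC3_ge` : coefficient functions `A B W` of `(θ, κ, |dθ|²)`;
* `tau`, `kap`, `tt`, `ff`, `D_tau`, `D_kap`, `L_tau_eq` (E3), `L_kap_eq` (E2);
* `D_fun` : the differential of `F(φ, ψ, N)`, `N = μ² T`, in the frame `dτ, dκ, dT`;
* `D_eta`, `L_eta` …: the linear variables `η = φ - ψ`, `m = (φ + ψ)/2`.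
-/

set_option autoImplicit false
set_option linter.unusedVariables false
set_option linter.unusedSectionVars false

open MeasureTheory Set Filter Topology Matrix
open scoped ContDiff

noncomputable section

namespace Crest.Agent.R249.DivC467

open Crest.Agent.R249.Calc_806 Crest.Agent.R249.Calc_806.Calc

variable {X : Type*} [TopologicalSpace X] [MeasurableSpace X] {μ : Measure X} {C : Calc X μ}

/-! ### coefficients = functions of `(θ, κ, T)` -/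

section Three

variable {θ κ : X → ℝ} {A B W : ℝ × ℝ × ℝ → ℝ} {U : Set (ℝ × ℝ × ℝ)}

/-- `F (θ, κ, |dθ|²)`. -/
def co (C : Calc X μ) (F : ℝ × ℝ × ℝ → ℝ) (θ κ : X → ℝ) (x : X) : ℝ := F (θ x, κ x, C.G θ θ x)

lemma sm_co (hU : IsOpen U) (hA : ContDiffOn ℝ ∞ A U) (hθ : C.Sm θ) (hκ : C.Sm κ)
    (hx : ∀ x, (θ x, κ x, C.G θ θ x) ∈ U) : C.Sm (co C A θ κ) :=
  sm_comp3 hU hA hθ hκ (C.sm_G hθ hθ) hx

lemma D_co (hU : IsOpen U) (hA : ContDiffOn ℝ ∞ A U) (hθ : C.Sm θ) (hκ : C.Sm κ)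
    (hx : ∀ x, (θ x, κ x, C.G θ θ x) ∈ U) (x : X) :
    C.D (co C A θ κ) x = pd1 A (θ x, κ x, C.G θ θ x) • C.D θ x +
      pd2 A (θ x, κ x, C.G θ θ x) • C.D κ x +
      pd3 A (θ x, κ x, C.G θ θ x) • ((2 : ℝ) • (C.Hs θ x *ᵥ C.D θ x)) := by
  have := D_comp3 (C := C) hU hA hθ hκ (C.sm_G hθ hθ) hx x
  rw [D_T hθ] at this
  exact this

theorem int_dvC3 [CompactSpace X] [OpensMeasurableSpace X] [IsFiniteMeasure μ]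
    (hU : IsOpen U) (hA : ContDiffOn ℝ ∞ A U) (hB : ContDiffOn ℝ ∞ B U)
    (hW : ContDiffOn ℝ ∞ W U) (hθ : C.Sm θ) (hκ : C.Sm κ)
    (hx : ∀ x, (θ x, κ x, C.G θ θ x) ∈ U) :
    ∫ x, dvC C (co C A θ κ) (co C B θ κ) (co C W θ κ) θ κ x ∂μ = 0 :=
  int_dvC (sm_co hU hA hθ hκ hx) (sm_co hU hB hθ hκ hx) (sm_co hU hW hθ hκ hx) hθ hκ

/-- **pointwise reduction in the calculus**. -/
theorem dvC3_ge [CompactSpace X] [OpensMeasurableSpace X] [IsFiniteMeasure μ] {η : ℝ} (hη : η ≤ 1)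
    (hU : IsOpen U) (hA : ContDiffOn ℝ ∞ A U) (hB : ContDiffOn ℝ ∞ B U)
    (hW : ContDiffOn ℝ ∞ W U) (hθ : C.Sm θ) (hκ : C.Sm κ)
    (hx : ∀ x, (θ x, κ x, C.G θ θ x) ∈ U) (z : X) {p : ℝ × ℝ × ℝ}
    (hp : p = (θ z, κ z, C.G θ θ z)) (hW0 : 0 ≤ W p)
    {e s w : Fin 4 → ℝ} {q h k : ℝ} (J : Adp (C.D θ z) (C.D κ z) (C.Hs θ z) e q h k s w) :
    Q3 η (A p) (pd1 A p) (pd2 A p) (pd3 A p) (B p) (pd1 B p) (pd2 B p) (pd3 B p)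
        (W p) (pd1 W p) (pd2 W p) (pd3 W p) (C.L θ z) (C.L κ z) q h k +
      Q2 η (pd2 B p) (pd3 B p) (W p) (pd2 W p) (pd3 W p) q (s ⬝ᵥ s) (s ⬝ᵥ w) (w ⬝ᵥ w) +
      η * W p * C.Rb θ z ≤
    - dvC C (co C A θ κ) (co C B θ κ) (co C W θ κ) θ κ z := by
  rw [neg_dvC hθ, D_co hU hA hθ hκ hx, D_co hU hB hθ hκ hx, D_co hU hW hθ hκ hx]
  subst hp
  exact NN_ge hη hW0 J (Q_le_Rb hθ z)

end Three

/-! ### the variables `τ`, `κ` -/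

/-- `τ = log φ - log ψ`. -/
def tau (φ ψ : X → ℝ) (z : X) : ℝ := Real.log (φ z) - Real.log (ψ z)

/-- `κ = 2 - φ³ - ψ³`. -/
def kap (φ ψ : X → ℝ) (z : X) : ℝ := 2 - φ z ^ 3 - ψ z ^ 3

/-- `t = (x - y)/(x + y)`, `x = φ³`, `y = ψ³`. -/
def tt (φ ψ : X → ℝ) (z : X) : ℝ := (φ z ^ 3 - ψ z ^ 3) / (φ z ^ 3 + ψ z ^ 3)

/-- `f(u) = (2/3)(u - u⁴)`. -/
def ff (u : ℝ) : ℝ := 2 / 3 * (u - u ^ 4)

variable {φ ψ : X → ℝ}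

lemma sm_tau (hφ : C.Sm φ) (hψ : C.Sm ψ) (h0 : ∀ z, 0 < φ z) (h0' : ∀ z, 0 < ψ z) :
    C.Sm (tau φ ψ) := sm_sub (sm_log hφ h0) (sm_log hψ h0')

lemma sm_kap (hφ : C.Sm φ) (hψ : C.Sm ψ) : C.Sm (kap φ ψ) :=
  sm_sub (sm_sub (sm_const 2) (sm_pow hφ 3)) (sm_pow hψ 3)

lemma D_tau (hφ : C.Sm φ) (hψ : C.Sm ψ) (h0 : ∀ z, 0 < φ z) (h0' : ∀ z, 0 < ψ z) (z : X) :
    C.D (tau φ ψ) z = (φ z)⁻¹ • C.D φ z - (ψ z)⁻¹ • C.D ψ z := by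
  have := D_sub (C := C) (sm_log hφ h0) (sm_log hψ h0') z
  rw [D_log hφ h0, D_log hψ h0'] at this
  exact this

lemma D_kap (hφ : C.Sm φ) (hψ : C.Sm ψ) (z : X) :
    C.D (kap φ ψ) z = -((3 * φ z ^ 2) • C.D φ z) - (3 * ψ z ^ 2) • C.D ψ z := by
  have h1 := D_sub (C := C) (sm_sub (sm_const 2) (sm_pow hφ 3)) (sm_pow hψ 3) z
  rw [D_sub (sm_const 2) (sm_pow hφ 3), D_const, D_pow hφ, D_pow hψ] at h1
  have h2 : C.D (kap φ ψ) z = C.D (fun y => 2 - φ y ^ 3 - ψ y ^ 3) z := rfl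
  rw [h2, h1]
  norm_num

lemma L_log (hφ : C.Sm φ) (h0 : ∀ z, 0 < φ z) (z : X) :
    C.L (fun y => Real.log (φ y)) z = C.L φ z / φ z - C.G φ φ z / φ z ^ 2 := by
  have h1 := C.L_comp (φ := Real.log) (U := {0}ᶜ) isOpen_compl_singleton
    (Real.contDiffOn_log) hφ (fun x => (h0 x).ne') z
  rw [h1, Real.deriv_log, Real.deriv_log', deriv_inv]
  ring

lemma L_tau (hφ : C.Sm φ) (hψ : C.Sm ψ) (h0 : ∀ z, 0 < φ z) (h0' : ∀ z, 0 < ψ z) (z : X) :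
    C.L (tau φ ψ) z = (C.L φ z / φ z - C.G φ φ z / φ z ^ 2) -
      (C.L ψ z / ψ z - C.G ψ ψ z / ψ z ^ 2) := by
  have := L_sub (C := C) (sm_log hφ h0) (sm_log hψ h0') z
  rw [L_log hφ h0, L_log hψ h0'] at this
  exact this

lemma L_kap (hφ : C.Sm φ) (hψ : C.Sm ψ) (z : X) :
    C.L (kap φ ψ) z = -(3 * φ z ^ 2 * C.L φ z + 6 * φ z * C.G φ φ z) -
      (3 * ψ z ^ 2 * C.L ψ z + 6 * ψ z * C.G ψ ψ z) := by
  have h1 := L_sub (C := C) (sm_sub (sm_const 2) (sm_pow hφ 3)) (sm_pow hψ 3) z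
  rw [L_sub (sm_const 2) (sm_pow hφ 3), C.L_const, L_cube hφ, L_cube hψ] at h1
  have h2 : C.L (kap φ ψ) z = C.L (fun y => 2 - φ y ^ 3 - ψ y ^ 3) z := rfl
  rw [h2, h1]
  ring

lemma G_tau (hφ : C.Sm φ) (hψ : C.Sm ψ) (h0 : ∀ z, 0 < φ z) (h0' : ∀ z, 0 < ψ z) (h : X → ℝ)
    (z : X) : C.G (tau φ ψ) h z = C.G φ h z / φ z - C.G ψ h z / ψ z := by
  simp only [Calc0.G, D_tau hφ hψ h0 h0', sub_dotProduct, smul_dotProduct, smul_eq_mul]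
  ring

lemma G_kap (hφ : C.Sm φ) (hψ : C.Sm ψ) (h : X → ℝ) (z : X) :
    C.G (kap φ ψ) h z = -(3 * φ z ^ 2 * C.G φ h z) - 3 * ψ z ^ 2 * C.G ψ h z := by
  simp only [Calc0.G, D_kap hφ hψ, sub_dotProduct, neg_dotProduct, smul_dotProduct, smul_eq_mul]

/-- `X₀ = -(2/3) s t + t T + (2/3) ⟨dκ, dτ⟩ / s`. -/
def X0 (s t T g : ℝ) : ℝ := -(2 / 3) * s * t + t * T + 2 / 3 * g / s

/-- `K₀ = - s κ + s² t² - (3/2) s (1 - t²) T - (2/3) |dκ|² / s`, `κ = 2 - s`. -/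
def K0 (s t T g : ℝ) : ℝ :=
  - s * (2 - s) + s ^ 2 * t ^ 2 - 3 / 2 * s * (1 - t ^ 2) * T - 2 / 3 * g / s

/-- **(E3)** the equation for `τ`. -/
theorem L_tau_eq (hφ : C.Sm φ) (hψ : C.Sm ψ) (h0 : ∀ z, 0 < φ z) (h0' : ∀ z, 0 < ψ z) {z : X}
    {P R : ℝ} (eφ : C.L φ z = ff (φ z) + P) (eψ : C.L ψ z = ff (ψ z) + R) :
    C.L (tau φ ψ) z =
      X0 (φ z ^ 3 + ψ z ^ 3) (tt φ ψ z) (C.G (tau φ ψ) (tau φ ψ) z) (C.G (kap φ ψ) (tau φ ψ) z) +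
        P / φ z - R / ψ z := by
  have a1 := h0 z
  have a2 := h0' z
  have hs : 0 < φ z ^ 3 + ψ z ^ 3 := by positivity
  rw [L_tau hφ hψ h0 h0', G_tau hφ hψ h0 h0', G_symm φ (tau φ ψ), G_symm ψ (tau φ ψ),
    G_tau hφ hψ h0 h0', G_tau hφ hψ h0 h0', G_kap hφ hψ, G_symm φ (tau φ ψ),
    G_symm ψ (tau φ ψ), G_tau hφ hψ h0 h0', G_tau hφ hψ h0 h0', G_symm ψ φ, tt, eφ, eψ]
  unfold ff X0
  generalize C.G φ φ z = g11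
  generalize C.G φ ψ z = g12
  generalize C.G ψ ψ z = g22
  generalize φ z = u at *
  generalize ψ z = w at *
  field_simp
  ring

/-- **(E2)** the equation for `κ`. -/
theorem L_kap_eq (hφ : C.Sm φ) (hψ : C.Sm ψ) (h0 : ∀ z, 0 < φ z) (h0' : ∀ z, 0 < ψ z) {z : X}
    {P R : ℝ} (eφ : C.L φ z = ff (φ z) + P) (eψ : C.L ψ z = ff (ψ z) + R) :
    C.L (kap φ ψ) z =
      K0 (φ z ^ 3 + ψ z ^ 3) (tt φ ψ z) (C.G (tau φ ψ) (tau φ ψ) z) (C.G (kap φ ψ) (kap φ ψ) z) -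
      3 * φ z ^ 2 * P - 3 * ψ z ^ 2 * R := by
  have a1 := h0 z
  have a2 := h0' z
  have hs : 0 < φ z ^ 3 + ψ z ^ 3 := by positivity
  rw [L_kap hφ hψ, G_tau hφ hψ h0 h0', G_symm φ (tau φ ψ), G_symm ψ (tau φ ψ),
    G_tau hφ hψ h0 h0', G_tau hφ hψ h0 h0', G_kap hφ hψ, G_symm φ (kap φ ψ),
    G_symm ψ (kap φ ψ), G_kap hφ hψ, G_kap hφ hψ, G_symm ψ φ, tt, eφ, eψ]
  unfold ff K0
  generalize C.G φ φ z = g11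
  generalize C.G φ ψ z = g12
  generalize C.G ψ ψ z = g22
  generalize φ z = u at *
  generalize ψ z = w at *
  field_simp
  ring

/-! ### functions of `(φ, ψ, N)`, `N = (φ ψ)² |dτ|²` -/

/-- `N = μ² T`, the square of `|φ dψ - ψ dφ|`. -/
def NNf (C : Calc X μ) (φ ψ : X → ℝ) (z : X) : ℝ := (φ z * ψ z) ^ 2 * C.G (tau φ ψ) (tau φ ψ) z

lemma sm_NNf (hφ : C.Sm φ) (hψ : C.Sm ψ) (h0 : ∀ z, 0 < φ z) (h0' : ∀ z, 0 < ψ z) :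
    C.Sm (NNf C φ ψ) :=
  sm_mul (sm_pow (sm_mul hφ hψ) 2) (C.sm_G (sm_tau hφ hψ h0 h0') (sm_tau hφ hψ h0 h0'))

/-- `dφ` in the frame `dτ, dκ`. -/
lemma D_phi_frame (hφ : C.Sm φ) (hψ : C.Sm ψ) (h0 : ∀ z, 0 < φ z) (h0' : ∀ z, 0 < ψ z) (z : X) :
    C.D φ z = (φ z * ψ z ^ 3 / (φ z ^ 3 + ψ z ^ 3)) • C.D (tau φ ψ) z -
      (φ z / (3 * (φ z ^ 3 + ψ z ^ 3))) • C.D (kap φ ψ) z := by
  have a1 := h0 z
  have a2 := h0' z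
  rw [D_tau hφ hψ h0 h0', D_kap hφ hψ]
  ext i
  simp only [Pi.sub_apply, Pi.neg_apply, Pi.smul_apply, smul_eq_mul]
  field_simp
  ring

lemma D_psi_frame (hφ : C.Sm φ) (hψ : C.Sm ψ) (h0 : ∀ z, 0 < φ z) (h0' : ∀ z, 0 < ψ z) (z : X) :
    C.D ψ z = -((ψ z * φ z ^ 3 / (φ z ^ 3 + ψ z ^ 3)) • C.D (tau φ ψ) z) -
      (ψ z / (3 * (φ z ^ 3 + ψ z ^ 3))) • C.D (kap φ ψ) z := by
  have a1 := h0 z
  have a2 := h0' z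
  rw [D_tau hφ hψ h0 h0', D_kap hφ hψ]
  ext i
  simp only [Pi.sub_apply, Pi.neg_apply, Pi.smul_apply, smul_eq_mul]
  field_simp
  ring

lemma D_NNf (hφ : C.Sm φ) (hψ : C.Sm ψ) (h0 : ∀ z, 0 < φ z) (h0' : ∀ z, 0 < ψ z) (z : X) :
    C.D (NNf C φ ψ) z = (-2 * tt φ ψ z * NNf C φ ψ z) • C.D (tau φ ψ) z -
      (4 / 3 * NNf C φ ψ z / (φ z ^ 3 + ψ z ^ 3)) • C.D (kap φ ψ) z +
      (φ z * ψ z) ^ 2 • C.D (C.G (tau φ ψ) (tau φ ψ)) z := by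
  have a1 := h0 z
  have a2 := h0' z
  have hτ := sm_tau hφ hψ h0 h0'
  have h1 : C.D (NNf C φ ψ) z = C.D (fun y => (φ y * ψ y) ^ 2 * C.G (tau φ ψ) (tau φ ψ) y) z := rfl
  rw [h1, D_mul (sm_pow (sm_mul hφ hψ) 2) (C.sm_G hτ hτ), D_pow (sm_mul hφ hψ), D_mul hφ hψ,
    D_phi_frame hφ hψ h0 h0', D_psi_frame hφ hψ h0 h0', NNf, tt]
  ext i
  simp only [Pi.sub_apply, Pi.neg_apply, Pi.smul_apply, Pi.add_apply, smul_eq_mul]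
  norm_num
  field_simp
  ring

/-- the differential of `F(φ, ψ, N)` in the frame `dτ, dκ, dT`. -/
theorem D_fun {F : ℝ × ℝ × ℝ → ℝ} {U : Set (ℝ × ℝ × ℝ)} (hU : IsOpen U) (hF : ContDiffOn ℝ ∞ F U)
    (hφ : C.Sm φ) (hψ : C.Sm ψ) (h0 : ∀ z, 0 < φ z) (h0' : ∀ z, 0 < ψ z)
    (hx : ∀ x, (φ x, ψ x, NNf C φ ψ x) ∈ U) (z : X) {p : ℝ × ℝ × ℝ}
    (hp : p = (φ z, ψ z, NNf C φ ψ z)) :
    C.D (fun x => F (φ x, ψ x, NNf C φ ψ x)) z =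
      (pd1 F p * (φ z * ψ z ^ 3 / (φ z ^ 3 + ψ z ^ 3)) -
        pd2 F p * (ψ z * φ z ^ 3 / (φ z ^ 3 + ψ z ^ 3)) -
        pd3 F p * (2 * tt φ ψ z * NNf C φ ψ z)) • C.D (tau φ ψ) z +
      (-(pd1 F p * φ z + pd2 F p * ψ z + 4 * pd3 F p * NNf C φ ψ z) /
        (3 * (φ z ^ 3 + ψ z ^ 3))) • C.D (kap φ ψ) z +
      (pd3 F p * (φ z * ψ z) ^ 2) • C.D (C.G (tau φ ψ) (tau φ ψ)) z := by
  have a1 := h0 z
  have a2 := h0' z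
  rw [D_comp3 hU hF hφ hψ (sm_NNf hφ hψ h0 h0') hx, D_NNf hφ hψ h0 h0',
    D_phi_frame hφ hψ h0 h0', D_psi_frame hφ hψ h0 h0', ← hp]
  ext i
  simp only [Pi.sub_apply, Pi.neg_apply, Pi.smul_apply, Pi.add_apply, smul_eq_mul]
  field_simp
  ring

/-! ### linear variables `η = φ - ψ`, `m = (φ + ψ)/2` -/

/-- `η = φ - ψ`. -/
def eta (φ ψ : X → ℝ) (z : X) : ℝ := φ z - ψ z

/-- `m = (φ + ψ)/2`. -/
def mm (φ ψ : X → ℝ) (z : X) : ℝ := (1 / 2) * (φ z + ψ z)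

lemma sm_eta (hφ : C.Sm φ) (hψ : C.Sm ψ) : C.Sm (eta φ ψ) := sm_sub hφ hψ

lemma sm_mm (hφ : C.Sm φ) (hψ : C.Sm ψ) : C.Sm (mm φ ψ) := sm_smul _ (sm_add hφ hψ)

lemma D_eta (hφ : C.Sm φ) (hψ : C.Sm ψ) (z : X) : C.D (eta φ ψ) z = C.D φ z - C.D ψ z :=
  D_sub hφ hψ z

lemma D_mm (hφ : C.Sm φ) (hψ : C.Sm ψ) (z : X) :
    C.D (mm φ ψ) z = (1 / 2 : ℝ) • (C.D φ z + C.D ψ z) := by
  have h1 := D_smul (C := C) (1 / 2) (sm_add hφ hψ) z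
  rw [D_add hφ hψ] at h1
  exact h1

/-- the equation for `η`. -/
theorem L_eta_eq (hφ : C.Sm φ) (hψ : C.Sm ψ) {z : X} {P R : ℝ}
    (eφ : C.L φ z = ff (φ z) + P) (eψ : C.L ψ z = ff (ψ z) + R) :
    C.L (eta φ ψ) z =
      -(2 / 3 * (4 * mm φ ψ z ^ 3 + mm φ ψ z * eta φ ψ z ^ 2 - 1)) * eta φ ψ z + P - R := by
  have h1 : C.L (eta φ ψ) z = C.L φ z - C.L ψ z := L_sub hφ hψ z
  rw [h1, eφ, eψ, eta, mm]
  unfold ff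
  ring

/-- the equation for `m`. -/
theorem L_mm_eq (hφ : C.Sm φ) (hψ : C.Sm ψ) {z : X} {P R : ℝ}
    (eφ : C.L φ z = ff (φ z) + P) (eψ : C.L ψ z = ff (ψ z) + R) :
    C.L (mm φ ψ) z =
      1 / 3 * (2 * mm φ ψ z - 2 * mm φ ψ z ^ 4 - 3 * mm φ ψ z ^ 2 * eta φ ψ z ^ 2 -
        eta φ ψ z ^ 4 / 8) + (P + R) / 2 := by
  have h2 := L_smul (C := C) (1 / 2) (sm_add hφ hψ) z
  rw [C.L_add hφ hψ] at h2
  have h1 : C.L (mm φ ψ) z = 1 / 2 * (C.L φ z + C.L ψ z) := h2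
  rw [h1, eφ, eψ, eta, mm]
  unfold ff
  ring

end Crest.Agent.R249.DivC467
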