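import Crest.Agent.R249.DivC2_467

/-!
# R249 (helper467), A2-DIV over the abstract calculus, part 3: helper46's variables

`V = A X + B L + C K`, `X = μ dτ = ψ dφ - φ dψ`, `L = dκ`, `K = (div X) X - D_X X = μ² (Lτ dτ - ½ dT)`,
`A B C` functions of `(φ, ψ, N)`, `N = |X|² = μ² T`, `μ = φ ψ`.

* `F46` : the quadratic form of #1285 (in `(1, a, l)` and `(b, ell)`);
* `NN46_ge` : `F46 ≤ NN` for every jet;
* `dv46`, `int_dv46`, `dv46_ge` : the same in the calculus.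
-/

set_option autoImplicit false
set_option linter.unusedVariables false
set_option linter.unusedSectionVars false

open MeasureTheory Set Filter Topology Matrix
open scoped ContDiff

noncomputable section

namespace Crest.Agent.R249.DivC467

open Crest.Agent.R249.Calc_806 Crest.Agent.R249.Calc_806.Calc

/-- `- div V` in helper46's variables. `A C B` coefficients, `·X ·L ·N` their derivatives along `X`,
`L` (at fixed `N`) and in `N = M²`; `s = 2 - κ`; `δ = div X`; `K = Lap κ`; `a l` numbers,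
`bb = |b|²`, `be = b·ell`, `ee = |ell|²`. -/
def F46 (A AX AL AN B BX BL BN C CX CL CN s δ K M a l bb be ee : ℝ) : ℝ :=
  -(A * δ + AX * M ^ 2 + B * K + C * (2 / 3 * δ ^ 2 - M ^ 2) + CX * M ^ 2 * δ) -
    (2 * M ^ 2 * AN + 2 / 3 * C * δ - CX * M ^ 2 + 2 * M ^ 2 * CN * δ) * a +
    (4 / 3 * C + 2 * M ^ 2 * CN) * a ^ 2 - M * (AL + BX + δ * CL) * l - BL * l ^ 2 -
    M * (2 * BN - CL) * (a * l) + (2 * C + 2 * M ^ 2 * CN) * bb - M * (2 * BN - CL) * be +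
    (-BL + 2 * BN * M ^ 2 / (3 * s) - 2 / 9 * C * M ^ 2 / s ^ 2 + CL * M ^ 2 / (3 * s) -
      2 * CN * M ^ 4 / (9 * s ^ 2)) * ee

section Jets

variable {u v e w σ : Fin 4 → ℝ} {S : Matrix (Fin 4) (Fin 4) ℝ} {q h k : ℝ}

/-- `dlog μ = -(2/3) dκ / s - t dτ`. -/
def dlm (s t : ℝ) (u v : Fin 4 → ℝ) : Fin 4 → ℝ := (-(2 / 3) / s) • v + (-t) • u

/-- `dN`, `N = m² |dτ|²` (`m = φ ψ`). -/
def dNN (s t m : ℝ) (u v : Fin 4 → ℝ) (S : Matrix (Fin 4) (Fin 4) ℝ) : Fin 4 → ℝ :=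
  (2 * m ^ 2 * (u ⬝ᵥ u)) • dlm s t u v + (2 * m ^ 2) • (S *ᵥ u)

/-- differential of a function with `F_X = FX`, `F_L = FL`, `F_N = FN`. -/
def dFF (s t m FX FL FN : ℝ) (u v : Fin 4 → ℝ) (S : Matrix (Fin 4) (Fin 4) ℝ) : Fin 4 → ℝ :=
  (m * FX) • u + FL • v + FN • dNN s t m u v S

set_option maxHeartbeats 1600000 in
/-- **the form of helper46.** -/
theorem NN46_ge {s t m A AX AL AN B BX BL BN C CX CL CN K ρ : ℝ} (hs : s ≠ 0) (hm : 0 < m)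
    (hC : 0 ≤ C) (J : Adp u v S e q h k σ w) (hρ : ∑ i, ∑ j, S i j ^ 2 ≤ ρ)
    {M a δ : ℝ} {b : Fin 4 → ℝ} (hM : M = m * q)
    (ha : a = m * h - 2 / 3 * M * k / s - t * M * q)
    (hb : b = m • σ - (M / (3 * s)) • w)
    (hδ : δ = m * (S.trace - 2 / 3 * (q * k) / s - t * q ^ 2)) :
    F46 A AX AL AN B BX BL BN C CX CL CN s δ K M a k (b ⬝ᵥ b) (b ⬝ᵥ w) (w ⬝ᵥ w) ≤
    NN (m * A) B (m ^ 2 * C)
      ((A * m) • dlm s t u v + m • dFF s t m AX AL AN u v S)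
      (dFF s t m BX BL BN u v S)
      ((2 * m ^ 2 * C) • dlm s t u v + m ^ 2 • dFF s t m CX CL CN u v S) u v S K ρ := by
  have hfin : 0 ≤ m ^ 2 * C * (ρ - (h ^ 2 + 2 * (σ ⬝ᵥ σ) + (S.trace - h) ^ 2 / 3)) :=
    mul_nonneg (mul_nonneg (by positivity) hC) (by linarith [J.hess])
  have e1 : u ⬝ᵥ (S *ᵥ u) = q ^ 2 * h := J.Suu
  have e2 : v ⬝ᵥ (S *ᵥ u) = q * (k * h + σ ⬝ᵥ w) := J.Suv
  have ewσ : w ⬝ᵥ σ = σ ⬝ᵥ w := dotProduct_comm _ _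
  have ebb : b ⬝ᵥ b = m ^ 2 * (σ ⬝ᵥ σ) - 2 * m * (M / (3 * s)) * (σ ⬝ᵥ w) +
      (M / (3 * s)) ^ 2 * (w ⬝ᵥ w) := by
    rw [hb]
    simp only [sub_dotProduct, dotProduct_sub, smul_dotProduct, dotProduct_smul, smul_eq_mul, ewσ]
    ring
  have ebw : b ⬝ᵥ w = m * (σ ⬝ᵥ w) - (M / (3 * s)) * (w ⬝ᵥ w) := by
    rw [hb]
    simp only [sub_dotProduct, smul_dotProduct, smul_eq_mul]
  rw [ebb, ebw]
  simp only [NN, F46, dFF, dNN, dlm, add_dotProduct, smul_dotProduct, smul_eq_mul, J.uu, J.vu,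
    J.uv, J.vv, J.symm_vu, J.symm_vv, J.SuSu, e1, e2]
  rw [ha, hδ, hM]
  generalize S.trace = X at *
  generalize σ ⬝ᵥ σ = ss at *
  generalize σ ⬝ᵥ w = sw at *
  generalize w ⬝ᵥ w = ww at *
  refine le_of_sub_nonneg (hfin.trans_eq ?_)
  field_simp
  ring

end Jets

section Calculus

variable {X : Type*} [TopologicalSpace X] [MeasurableSpace X] {μ : Measure X} {C : Calc X μ}
  {φ ψ : X → ℝ}

/-- `F (φ, ψ, N)`. -/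
def cN (C : Calc X μ) (F : ℝ × ℝ × ℝ → ℝ) (φ ψ : X → ℝ) (x : X) : ℝ := F (φ x, ψ x, NNf C φ ψ x)

/-- `F_X = (ψ² F_φ - φ² F_ψ)/s` at `p = (φ, ψ, N)`. -/
def pX (F : ℝ × ℝ × ℝ → ℝ) (p : ℝ × ℝ × ℝ) : ℝ :=
  (p.2.1 ^ 2 * pd1 F p - p.1 ^ 2 * pd2 F p) / (p.1 ^ 3 + p.2.1 ^ 3)

/-- `F_L = -(φ F_φ + ψ F_ψ)/(3 s)` at `p = (φ, ψ, N)`. -/
def pL (F : ℝ × ℝ × ℝ → ℝ) (p : ℝ × ℝ × ℝ) : ℝ :=
  -(p.1 * pd1 F p + p.2.1 * pd2 F p) / (3 * (p.1 ^ 3 + p.2.1 ^ 3))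

lemma sm_cN {F : ℝ × ℝ × ℝ → ℝ} {U : Set (ℝ × ℝ × ℝ)} (hU : IsOpen U) (hF : ContDiffOn ℝ ∞ F U)
    (hφ : C.Sm φ) (hψ : C.Sm ψ) (h0 : ∀ z, 0 < φ z) (h0' : ∀ z, 0 < ψ z)
    (hx : ∀ x, (φ x, ψ x, NNf C φ ψ x) ∈ U) : C.Sm (cN C F φ ψ) :=
  sm_comp3 hU hF hφ hψ (sm_NNf hφ hψ h0 h0') hx

lemma D_mu (hφ : C.Sm φ) (hψ : C.Sm ψ) (h0 : ∀ z, 0 < φ z) (h0' : ∀ z, 0 < ψ z) (z : X) :
    C.D (fun y => φ y * ψ y) z = (φ z * ψ z) • dlm (φ z ^ 3 + ψ z ^ 3) (tt φ ψ z)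
      (C.D (tau φ ψ) z) (C.D (kap φ ψ) z) := by
  have a1 := h0 z
  have a2 := h0' z
  rw [D_mul hφ hψ, D_phi_frame hφ hψ h0 h0', D_psi_frame hφ hψ h0 h0', dlm, tt]
  ext i
  simp only [Pi.sub_apply, Pi.neg_apply, Pi.smul_apply, Pi.add_apply, smul_eq_mul]
  field_simp
  ring

lemma D_NNf' (hφ : C.Sm φ) (hψ : C.Sm ψ) (h0 : ∀ z, 0 < φ z) (h0' : ∀ z, 0 < ψ z) (z : X) :
    C.D (NNf C φ ψ) z = dNN (φ z ^ 3 + ψ z ^ 3) (tt φ ψ z) (φ z * ψ z)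
      (C.D (tau φ ψ) z) (C.D (kap φ ψ) z) (C.Hs (tau φ ψ) z) := by
  have a1 := h0 z
  have a2 := h0' z
  rw [D_NNf hφ hψ h0 h0', D_T (sm_tau hφ hψ h0 h0'), dNN, dlm, NNf]
  ext i
  simp only [Pi.sub_apply, Pi.neg_apply, Pi.smul_apply, Pi.add_apply, smul_eq_mul, Calc0.G]
  field_simp
  ring

lemma D_cN {F : ℝ × ℝ × ℝ → ℝ} {U : Set (ℝ × ℝ × ℝ)} (hU : IsOpen U) (hF : ContDiffOn ℝ ∞ F U)
    (hφ : C.Sm φ) (hψ : C.Sm ψ) (h0 : ∀ z, 0 < φ z) (h0' : ∀ z, 0 < ψ z)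
    (hx : ∀ x, (φ x, ψ x, NNf C φ ψ x) ∈ U) (z : X) {p : ℝ × ℝ × ℝ}
    (hp : p = (φ z, ψ z, NNf C φ ψ z)) :
    C.D (cN C F φ ψ) z = dFF (φ z ^ 3 + ψ z ^ 3) (tt φ ψ z) (φ z * ψ z) (pX F p) (pL F p)
      (pd3 F p) (C.D (tau φ ψ) z) (C.D (kap φ ψ) z) (C.Hs (tau φ ψ) z) := by
  have a1 := h0 z
  have a2 := h0' z
  have h1 : C.D (cN C F φ ψ) z = C.D (fun x => F (φ x, ψ x, NNf C φ ψ x)) z := rfl
  rw [h1, D_comp3 hU hF hφ hψ (sm_NNf hφ hψ h0 h0') hx, D_NNf' hφ hψ h0 h0',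
    D_phi_frame hφ hψ h0 h0', D_psi_frame hφ hψ h0 h0', ← hp, dFF, pX, pL]
  have q1 : p.1 = φ z := by rw [hp]
  have q2 : p.2.1 = ψ z := by rw [hp]
  rw [q1, q2]
  ext i
  simp only [Pi.sub_apply, Pi.neg_apply, Pi.smul_apply, Pi.add_apply, smul_eq_mul]
  field_simp
  ring

/-- the divergence of `V = A X + B L + C K`. -/
def dv46 (C : Calc X μ) (A B W : ℝ × ℝ × ℝ → ℝ) (φ ψ : X → ℝ) : X → ℝ :=
  dvC C (fun y => (φ y * ψ y) * cN C A φ ψ y) (cN C B φ ψ)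
    (fun y => (φ y * ψ y) ^ 2 * cN C W φ ψ y) (tau φ ψ) (kap φ ψ)

section Int

variable [CompactSpace X] [OpensMeasurableSpace X] [IsFiniteMeasure μ]
  {A B W : ℝ × ℝ × ℝ → ℝ} {U : Set (ℝ × ℝ × ℝ)}

lemma sm_dv46 (hU : IsOpen U) (hA : ContDiffOn ℝ ∞ A U) (hB : ContDiffOn ℝ ∞ B U)
    (hW : ContDiffOn ℝ ∞ W U) (hφ : C.Sm φ) (hψ : C.Sm ψ) (h0 : ∀ z, 0 < φ z)
    (h0' : ∀ z, 0 < ψ z) (hx : ∀ x, (φ x, ψ x, NNf C φ ψ x) ∈ U) : C.Sm (dv46 C A B W φ ψ) :=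
  sm_dvC (sm_mul (sm_mul hφ hψ) (sm_cN hU hA hφ hψ h0 h0' hx)) (sm_cN hU hB hφ hψ h0 h0' hx)
    (sm_mul (sm_pow (sm_mul hφ hψ) 2) (sm_cN hU hW hφ hψ h0 h0' hx)) (sm_tau hφ hψ h0 h0')
    (sm_kap hφ hψ)

theorem int_dv46 (hU : IsOpen U) (hA : ContDiffOn ℝ ∞ A U) (hB : ContDiffOn ℝ ∞ B U)
    (hW : ContDiffOn ℝ ∞ W U) (hφ : C.Sm φ) (hψ : C.Sm ψ) (h0 : ∀ z, 0 < φ z)
    (h0' : ∀ z, 0 < ψ z) (hx : ∀ x, (φ x, ψ x, NNf C φ ψ x) ∈ U) :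
    ∫ x, dv46 C A B W φ ψ x ∂μ = 0 :=
  int_dvC (sm_mul (sm_mul hφ hψ) (sm_cN hU hA hφ hψ h0 h0' hx)) (sm_cN hU hB hφ hψ h0 h0' hx)
    (sm_mul (sm_pow (sm_mul hφ hψ) 2) (sm_cN hU hW hφ hψ h0 h0' hx)) (sm_tau hφ hψ h0 h0')
    (sm_kap hφ hψ)

/-- `- div V` as a function of the jets `u = dτ`, `v = dκ`, `S = Hess τ`. -/
theorem neg_dv46 (hU : IsOpen U) (hA : ContDiffOn ℝ ∞ A U) (hB : ContDiffOn ℝ ∞ B U)
    (hW : ContDiffOn ℝ ∞ W U) (hφ : C.Sm φ) (hψ : C.Sm ψ) (h0 : ∀ z, 0 < φ z)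
    (h0' : ∀ z, 0 < ψ z) (hx : ∀ x, (φ x, ψ x, NNf C φ ψ x) ∈ U) (z : X) {p : ℝ × ℝ × ℝ}
    (hp : p = (φ z, ψ z, NNf C φ ψ z)) {s t m : ℝ} (hs : s = φ z ^ 3 + ψ z ^ 3)
    (ht : t = tt φ ψ z) (hm : m = φ z * ψ z) {u v : Fin 4 → ℝ} {S : Matrix (Fin 4) (Fin 4) ℝ}
    (hu : u = C.D (tau φ ψ) z) (hv : v = C.D (kap φ ψ) z) (hS : S = C.Hs (tau φ ψ) z) :
    - dv46 C A B W φ ψ z = NN (m * A p) (B p) (m ^ 2 * W p)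
      ((A p * m) • dlm s t u v + m • dFF s t m (pX A p) (pL A p) (pd3 A p) u v S)
      (dFF s t m (pX B p) (pL B p) (pd3 B p) u v S)
      ((2 * m ^ 2 * W p) • dlm s t u v + m ^ 2 • dFF s t m (pX W p) (pL W p) (pd3 W p) u v S)
      u v S (C.L (kap φ ψ) z) (C.Rb (tau φ ψ) z) := by
  have a1 := h0 z
  have a2 := h0' z
  have hmu := sm_mul hφ hψ
  have cA := sm_cN hU hA hφ hψ h0 h0' hx
  have cW := sm_cN hU hW hφ hψ h0 h0' hx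
  have e1 : C.D (fun y => (φ y * ψ y) * cN C A φ ψ y) z = (A p * m) • dlm s t u v +
      m • dFF s t m (pX A p) (pL A p) (pd3 A p) u v S := by
    rw [D_mul hmu cA, D_mu hφ hψ h0 h0', D_cN hU hA hφ hψ h0 h0' hx z hp, cN, ← hp, ← hs, ← ht,
      ← hm, ← hu, ← hv, ← hS, smul_smul]
  have e2 : C.D (fun y => (φ y * ψ y) ^ 2 * cN C W φ ψ y) z = (2 * m ^ 2 * W p) • dlm s t u v +
      m ^ 2 • dFF s t m (pX W p) (pL W p) (pd3 W p) u v S := by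
    rw [D_mul (sm_pow hmu 2) cW, D_pow hmu, D_mu hφ hψ h0 h0',
      D_cN hU hW hφ hψ h0 h0' hx z hp, cN, ← hp, ← hs, ← ht,
      ← hm, ← hu, ← hv, ← hS, smul_smul, smul_smul]
    congr 2
    norm_num
    ring
  have e3 : C.D (cN C B φ ψ) z = dFF s t m (pX B p) (pL B p) (pd3 B p) u v S := by
    rw [D_cN hU hB hφ hψ h0 h0' hx z hp, ← hs, ← ht, ← hm, ← hu, ← hv, ← hS]
  rw [dv46, neg_dvC (sm_tau hφ hψ h0 h0'), e1, e2, e3, ← hu, ← hv, ← hS, ← hm]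
  simp only [cN]
  rw [← hp]

/-- **pointwise reduction to helper46's form in the calculus**, with
`δ = -(2/3) μ s t + ψ P - φ R`, `K = - s (2 - s) + s² t² - 6 μ M²/s - (2/3)(l² + ee)/s - 3 φ² P - 3 ψ² R`,
where `Lφ = f(φ) + P`, `Lψ = f(ψ) + R`. -/
theorem dv46_ge (hU : IsOpen U) (hA : ContDiffOn ℝ ∞ A U) (hB : ContDiffOn ℝ ∞ B U)
    (hW : ContDiffOn ℝ ∞ W U) (hφ : C.Sm φ) (hψ : C.Sm ψ) (h0 : ∀ z, 0 < φ z)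
    (h0' : ∀ z, 0 < ψ z) (hx : ∀ x, (φ x, ψ x, NNf C φ ψ x) ∈ U) (z : X) {p : ℝ × ℝ × ℝ}
    (hp : p = (φ z, ψ z, NNf C φ ψ z)) {s t m : ℝ} (hs : s = φ z ^ 3 + ψ z ^ 3)
    (ht : t = tt φ ψ z) (hm : m = φ z * ψ z) (hW0 : 0 ≤ W p) {P R : ℝ}
    (eφ : C.L φ z = ff (φ z) + P) (eψ : C.L ψ z = ff (ψ z) + R) :
    ∃ (M a l bb be ee : ℝ), 0 ≤ M ∧ M ^ 2 = p.2.2 ∧ 0 ≤ bb ∧ 0 ≤ ee ∧ be ^ 2 ≤ bb * ee ∧
      C.G (kap φ ψ) (kap φ ψ) z = l ^ 2 + ee ∧ m * C.G (kap φ ψ) (tau φ ψ) z = M * l ∧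
      F46 (A p) (pX A p) (pL A p) (pd3 A p) (B p) (pX B p) (pL B p) (pd3 B p)
        (W p) (pX W p) (pL W p) (pd3 W p) s (-(2 / 3) * m * s * t + ψ z * P - φ z * R)
        (-s * (2 - s) + s ^ 2 * t ^ 2 - 6 * m * M ^ 2 / s - 2 / 3 * (l ^ 2 + ee) / s -
          3 * φ z ^ 2 * P - 3 * ψ z ^ 2 * R) M a l bb be ee ≤ - dv46 C A B W φ ψ z := by
  have a1 := h0 z
  have a2 := h0' z
  have hs0 : 0 < s := by rw [hs]; positivity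
  have hm0 : 0 < m := by rw [hm]; positivity
  have hτ := sm_tau hφ hψ h0 h0'
  obtain ⟨e, q, h, k, σ, w, J⟩ := exists_Adp (C.D (tau φ ψ) z) (C.D (kap φ ψ) z)
    (C.hs_symm hτ z)
  set b : Fin 4 → ℝ := m • σ - ((m * q) / (3 * s)) • w with hb
  have hN : NNf C φ ψ z = m ^ 2 * q ^ 2 := by
    rw [NNf, ← hm, Calc0.G, J.uu]
  have hTT : C.G (tau φ ψ) (tau φ ψ) z = q ^ 2 := J.uu
  have hKT : C.G (kap φ ψ) (tau φ ψ) z = q * k := J.vu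
  have hKK : C.G (kap φ ψ) (kap φ ψ) z = k ^ 2 + w ⬝ᵥ w := J.vv
  refine ⟨m * q, m * h - 2 / 3 * (m * q) * k / s - t * (m * q) * q, k, b ⬝ᵥ b, b ⬝ᵥ w, w ⬝ᵥ w,
    mul_nonneg hm0.le J.q0, ?_, Finset.sum_nonneg fun i _ => mul_self_nonneg _,
    Finset.sum_nonneg fun i _ => mul_self_nonneg _, ?_, hKK, ?_, ?_⟩
  · rw [hp]; simp only; rw [hN]; ring
  · have := Finset.sum_mul_sq_le_sq_mul_sq Finset.univ b w
    simpa only [dotProduct, sq] using this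
  · rw [hKT]; ring
  · rw [neg_dv46 hU hA hB hW hφ hψ h0 h0' hx z hp hs ht hm rfl rfl rfl]
    have hX : (C.Hs (tau φ ψ) z).trace = C.L (tau φ ψ) z := rfl
    have e3 := L_tau_eq hφ hψ h0 h0' eφ eψ
    have e2 := L_kap_eq hφ hψ h0 h0' eφ eψ
    have hmst : 6 * m * (m * q) ^ 2 / s = 3 / 2 * s * (1 - t ^ 2) * q ^ 2 := by
      have : s ^ 2 * (1 - t ^ 2) = 4 * m ^ 3 := by
        rw [ht, tt, hs, hm]; field_simp; ring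
      rw [div_eq_iff hs0.ne']
      linear_combination (-(3 / 2) * q ^ 2) * this
    have hK : -s * (2 - s) + s ^ 2 * t ^ 2 - 6 * m * (m * q) ^ 2 / s -
        2 / 3 * (k ^ 2 + w ⬝ᵥ w) / s - 3 * φ z ^ 2 * P - 3 * ψ z ^ 2 * R = C.L (kap φ ψ) z := by
      rw [e2, hmst, hTT, hKK, K0, ← hs, ← ht]
    rw [hK]
    refine NN46_ge (a := m * h - 2 / 3 * (m * q) * k / s - t * (m * q) * q) hs0.ne' hm0 hW0 J
      (Q_le_Rb hτ z) rfl rfl hb ?_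
    rw [hX, e3, hTT, hKT, X0, ← hs, ← ht]
    have h1 : m * (P / φ z) = ψ z * P := by rw [hm]; field_simp
    have h2 : m * (R / ψ z) = φ z * R := by rw [hm]; field_simp
    linear_combination (-1 : ℝ) * h1 + h2

end Int

end Calculus

end Crest.Agent.R249.DivC467
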