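import Crest.Agent.R249.EVLoc_330

/-! (copy of Crest/Agent/R202/EllEmb in the namespace R249.EV, to avoid the name clash with R202/Ell1..Ell7; helper330)
Row 202: elliptic regularity, part 7: Sobolev embedding by the Fourier transform. -/

set_option autoImplicit false
open MeasureTheory Filter Topology Set
open scoped ENNReal NNReal ContDiff RealInnerProductSpace Convolution FourierTransform

namespace Crest.Agent.R249.EV

variable {V : Type*} [NormedAddCommGroup V] [InnerProductSpace ℝ V] [FiniteDimensional ℝ V]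
  [MeasurableSpace V] [BorelSpace V]

theorem integrable_of_compact {w : V → ℝ} (h : LocallyIntegrable w (volume : Measure V))
    (hc : HasCompactSupport w) : Integrable w (volume : Measure V) := by
  rw [← integrableOn_iff_integrable_of_support_subset (subset_tsupport w)]
  exact h.integrableOn_isCompact hc.isCompact

/-- the weak derivative identity tested with arbitrary smooth functions -/
theorem WD.test_smooth {d : V} {w v : V → ℝ} (h : WD d w v) (hw : HasCompactSupport w)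
    (hv : HasCompactSupport v) {g : V → ℝ} (hg : ContDiff ℝ ∞ g) :
    ∫ x, w x * dd d g x = - ∫ x, v x * g x := by
  obtain ⟨R, hR⟩ := hw.isCompact.isBounded.subset_ball (0 : V)
  obtain ⟨R', hR'⟩ := hv.isCompact.isBounded.subset_ball (0 : V)
  obtain ⟨χ, hχ, -, -, hχ1⟩ := exists_cutoff (V := V) (max R R')
  have h1 := h (fun x => g x * χ x) (hχ.smooth_mul hg)
  have e1 : ∀ x, w x * dd d (fun x => g x * χ x) x = w x * dd d g x := by
    intro x
    by_cases hx : w x = 0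
    · rw [hx]; simp
    · have hx' : x ∈ Metric.ball (0 : V) (max R R') :=
        Metric.ball_subset_ball (le_max_left _ _) (hR (subset_tsupport _ hx))
      have he : (fun x => g x * χ x) =ᶠ[𝓝 x] g := by
        filter_upwards [Metric.isOpen_ball.mem_nhds hx'] with y hy
        rw [hχ1 y (by simpa using hy), mul_one]
      unfold dd
      rw [he.fderiv_eq]
  have e2 : ∀ x, v x * (g x * χ x) = v x * g x := by
    intro x
    by_cases hx : v x = 0
    · rw [hx]; simp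
    · have hx' : x ∈ Metric.ball (0 : V) (max R R') :=
        Metric.ball_subset_ball (le_max_right _ _) (hR' (subset_tsupport _ hx))
      rw [hχ1 x (by simpa using hx'), mul_one]
  simp_rw [e1, e2] at h1
  exact h1

/-- complexification -/
def cx (w : V → ℝ) : V → ℂ := fun x => (w x : ℂ)

theorem fourier_cx {w : V → ℝ} (hw : Integrable w (volume : Measure V)) (ξ : V) :
    𝓕 (cx w) ξ = ((∫ x, w x * Real.cos (2 * Real.pi * ⟪x, ξ⟫) : ℝ) : ℂ) -
      Complex.I * ((∫ x, w x * Real.sin (2 * Real.pi * ⟪x, ξ⟫) : ℝ) : ℂ) := by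
  rw [Real.fourier_eq']
  have hc : Continuous fun x : V => Real.cos (2 * Real.pi * ⟪x, ξ⟫) := by fun_prop
  have hs : Continuous fun x : V => Real.sin (2 * Real.pi * ⟪x, ξ⟫) := by fun_prop
  have i1 : Integrable (fun x => w x * Real.cos (2 * Real.pi * ⟪x, ξ⟫)) (volume : Measure V) :=
    hw.mul_bdd (c := 1) hc.aestronglyMeasurable
      (Eventually.of_forall fun x => by simpa using Real.abs_cos_le_one _)
  have i2 : Integrable (fun x => w x * Real.sin (2 * Real.pi * ⟪x, ξ⟫)) (volume : Measure V) :=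
    hw.mul_bdd (c := 1) hs.aestronglyMeasurable
      (Eventually.of_forall fun x => by simpa using Real.abs_sin_le_one _)
  rw [← integral_complex_ofReal, ← integral_complex_ofReal, ← integral_const_mul,
    ← integral_sub i1.ofReal (i2.ofReal.const_mul _)]
  congr 1; ext x
  simp only [cx]
  have : Complex.exp (((-2 * Real.pi * ⟪x, ξ⟫ : ℝ) : ℂ) * Complex.I) =
      (Real.cos (2 * Real.pi * ⟪x, ξ⟫) : ℂ) - Complex.I * (Real.sin (2 * Real.pi * ⟪x, ξ⟫) : ℂ) := by
    rw [Complex.exp_mul_I, ← Complex.ofReal_cos, ← Complex.ofReal_sin]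
    have h1 : (-2 * Real.pi * ⟪x, ξ⟫ : ℝ) = -(2 * Real.pi * ⟪x, ξ⟫) := by ring
    rw [h1, Real.cos_neg, Real.sin_neg]
    push_cast; ring
  rw [this, smul_eq_mul]
  push_cast; ring

theorem dd_cos (d ξ x : V) : dd d (fun x : V => Real.cos (2 * Real.pi * ⟪x, ξ⟫)) x =
    -(2 * Real.pi * ⟪d, ξ⟫) * Real.sin (2 * Real.pi * ⟪x, ξ⟫) := by
  unfold dd
  have h0 : HasFDerivAt (fun x : V => 2 * Real.pi * ⟪x, ξ⟫)
      ((2 * Real.pi) • ((innerSL ℝ).flip ξ)) x := by
    have := ((innerSL ℝ).flip ξ).hasFDerivAt (x := x)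
    exact this.const_mul (2 * Real.pi)
  have h1 := h0.cos
  rw [h1.fderiv]
  have h2 : ((innerSL ℝ).flip ξ) d = ⟪d, ξ⟫ := rfl
  simp only [FunLike.coe_smul, Pi.smul_apply, smul_eq_mul, h2]
  ring

theorem dd_sin (d ξ x : V) : dd d (fun x : V => Real.sin (2 * Real.pi * ⟪x, ξ⟫)) x =
    (2 * Real.pi * ⟪d, ξ⟫) * Real.cos (2 * Real.pi * ⟪x, ξ⟫) := by
  unfold dd
  have h0 : HasFDerivAt (fun x : V => 2 * Real.pi * ⟪x, ξ⟫)
      ((2 * Real.pi) • ((innerSL ℝ).flip ξ)) x := by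
    have := ((innerSL ℝ).flip ξ).hasFDerivAt (x := x)
    exact this.const_mul (2 * Real.pi)
  have h1 := h0.sin
  rw [h1.fderiv]
  have h2 : ((innerSL ℝ).flip ξ) d = ⟪d, ξ⟫ := rfl
  simp only [FunLike.coe_smul, Pi.smul_apply, smul_eq_mul, h2]
  ring

/-- the Fourier transform of the weak derivative -/
theorem fourier_WD {d : V} {w v : V → ℝ} (h : WD d w v) (hwi : Integrable w (volume : Measure V))
    (hvi : Integrable v (volume : Measure V)) (hw : HasCompactSupport w)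
    (hv : HasCompactSupport v) (ξ : V) :
    𝓕 (cx v) ξ = (2 * Real.pi * ⟪d, ξ⟫ : ℝ) * Complex.I * 𝓕 (cx w) ξ := by
  have hin : ContDiff ℝ ∞ fun x : V => 2 * Real.pi * ⟪x, ξ⟫ :=
    contDiff_const.mul (contDiff_id.inner ℝ contDiff_const)
  have hcos : ContDiff ℝ ∞ fun x : V => Real.cos (2 * Real.pi * ⟪x, ξ⟫) := hin.cos
  have hsin : ContDiff ℝ ∞ fun x : V => Real.sin (2 * Real.pi * ⟪x, ξ⟫) := hin.sin
  have h1 := h.test_smooth hw hv hcos
  have h2 := h.test_smooth hw hv hsin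
  simp_rw [dd_cos] at h1
  simp_rw [dd_sin] at h2
  have h3 : ∫ x, w x * (-(2 * Real.pi * ⟪d, ξ⟫) * Real.sin (2 * Real.pi * ⟪x, ξ⟫)) =
      -(2 * Real.pi * ⟪d, ξ⟫) * ∫ x, w x * Real.sin (2 * Real.pi * ⟪x, ξ⟫) := by
    rw [← integral_const_mul]; congr 1; ext x; ring
  have h4 : ∫ x, w x * ((2 * Real.pi * ⟪d, ξ⟫) * Real.cos (2 * Real.pi * ⟪x, ξ⟫)) =
      (2 * Real.pi * ⟪d, ξ⟫) * ∫ x, w x * Real.cos (2 * Real.pi * ⟪x, ξ⟫) := by
    rw [← integral_const_mul]; congr 1; ext x; ring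
  rw [h3] at h1
  rw [h4] at h2
  have h5 : ∫ x, v x * Real.cos (2 * Real.pi * ⟪x, ξ⟫) =
      (2 * Real.pi * ⟪d, ξ⟫) * ∫ x, w x * Real.sin (2 * Real.pi * ⟪x, ξ⟫) := by linarith
  have h6 : ∫ x, v x * Real.sin (2 * Real.pi * ⟪x, ξ⟫) =
      -(2 * Real.pi * ⟪d, ξ⟫) * ∫ x, w x * Real.cos (2 * Real.pi * ⟪x, ξ⟫) := by linarith
  rw [fourier_cx hwi, fourier_cx hvi, h5, h6]
  push_cast
  ring_nf
  rw [Complex.I_sq]
  ring

theorem norm_fourier_cx_le {w : V → ℝ} (ξ : V) : ‖𝓕 (cx w) ξ‖ ≤ ∫ x, |w x| := by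
  have := VectorFourier.norm_fourierIntegral_le_integral_norm 𝐞 (volume : Measure V) (innerₗ V)
    (cx w) ξ
  refine this.trans (le_of_eq ?_)
  congr 1; ext x
  simp [cx]

variable {ι : Type*} [Fintype ι]

theorem norm_le_sum_inner (b : OrthonormalBasis ι ℝ V) (ξ : V) : ‖ξ‖ ≤ ∑ i, |⟪b i, ξ⟫| := by
  conv_lhs => rw [← b.sum_repr ξ]
  refine (norm_sum_le _ _).trans (Finset.sum_le_sum fun i _ => ?_)
  rw [norm_smul, b.repr_apply_apply]
  simp

theorem fourier_decay (b : OrthonormalBasis ι ℝ V) (N : ℕ) : ∀ {w : V → ℝ},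
    HasCompactSupport w → Sob b N w → ∃ C, ∀ ξ : V, ‖ξ‖ ^ N * ‖𝓕 (cx w) ξ‖ ≤ C := by
  induction N with
  | zero =>
    intro w _ _
    exact ⟨∫ x, |w x|, fun ξ => by simpa using norm_fourier_cx_le ξ⟩
  | succ N ih =>
    intro w hc hS
    have : ∀ i, ∃ v, WD (b i) w v ∧ HasCompactSupport v ∧ Sob b N v := by
      intro i
      obtain ⟨v, hv, hvS⟩ := hS.2 i
      obtain ⟨χ, hχ, hχ'⟩ := exists_compact_WD hS.locInt hc hvS.locInt hv
      exact ⟨_, hχ', hχ.2.mul_right, hvS.test_mul hχ⟩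
    choose v hv hvc hvS using this
    choose C hC using fun i => ih (hvc i) (hvS i)
    refine ⟨∑ i, C i, fun ξ => ?_⟩
    have h1 : ∀ i, |⟪b i, ξ⟫| * (‖ξ‖ ^ N * ‖𝓕 (cx w) ξ‖) ≤ C i := by
      intro i
      have h2 := hC i ξ
      rw [fourier_WD (hv i) (integrable_of_compact hS.locInt hc)
        (integrable_of_compact (hvS i).locInt (hvc i)) hc (hvc i), norm_mul, norm_mul,
        Complex.norm_I, Complex.norm_real, mul_one, Real.norm_eq_abs, abs_mul, abs_mul] at h2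
      have h3 : (1 : ℝ) ≤ |2| * |Real.pi| := by
        rw [abs_two, abs_of_pos Real.pi_pos]
        linarith [Real.pi_gt_three]
      have h4 : 0 ≤ |⟪b i, ξ⟫| * (‖ξ‖ ^ N * ‖𝓕 (cx w) ξ‖) := by positivity
      nlinarith [mul_le_mul_of_nonneg_right h3 h4]
    calc ‖ξ‖ ^ (N + 1) * ‖𝓕 (cx w) ξ‖ = ‖ξ‖ * (‖ξ‖ ^ N * ‖𝓕 (cx w) ξ‖) := by ring
      _ ≤ (∑ i, |⟪b i, ξ⟫|) * (‖ξ‖ ^ N * ‖𝓕 (cx w) ξ‖) := by
        gcongr; exact norm_le_sum_inner b ξ
      _ = ∑ i, |⟪b i, ξ⟫| * (‖ξ‖ ^ N * ‖𝓕 (cx w) ξ‖) := by rw [Finset.sum_mul]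
      _ ≤ ∑ i, C i := Finset.sum_le_sum fun i _ => h1 i

theorem integrable_cx {w : V → ℝ} (hw : Integrable w (volume : Measure V)) :
    Integrable (cx w) (volume : Measure V) := hw.ofReal

theorem continuous_fourier_cx {w : V → ℝ} (hw : Integrable w (volume : Measure V)) :
    Continuous (𝓕 (cx w)) :=
  VectorFourier.fourierIntegral_continuous Real.continuous_fourierChar
    (by exact continuous_inner) (integrable_cx hw)

theorem integrable_fourier (b : OrthonormalBasis ι ℝ V) {w : V → ℝ} (hc : HasCompactSupport w)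
    (hS : ∀ k, Sob b k w) (m : ℕ) :
    Integrable (fun ξ => ‖ξ‖ ^ m * ‖𝓕 (cx w) ξ‖) (volume : Measure V) := by
  have hwi := integrable_of_compact (hS 0).locInt hc
  set r : ℕ := Module.finrank ℝ V + 1 with hr
  obtain ⟨C1, hC1⟩ := fourier_decay b m hc (hS m)
  obtain ⟨C2, hC2⟩ := fourier_decay b (m + r) hc (hS (m + r))
  have hint : Integrable (fun ξ : V => (2 ^ r * (C1 + C2)) * (1 + ‖ξ‖) ^ (-(r : ℝ)))
      (volume : Measure V) := by
    apply Integrable.const_mul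
    apply integrable_one_add_norm
    rw [hr]; push_cast; linarith
  have hcont := continuous_fourier_cx hwi
  refine hint.mono' (by fun_prop) (Eventually.of_forall fun ξ => ?_)
  have hpos : (0 : ℝ) < 1 + ‖ξ‖ := by positivity
  rw [Real.norm_of_nonneg (by positivity), Real.rpow_neg hpos.le, Real.rpow_natCast,
    ← div_eq_mul_inv, le_div_iff₀ (by positivity)]
  have h1 : (1 + ‖ξ‖) ^ r ≤ 2 ^ r * (1 + ‖ξ‖ ^ r) := by
    rcases le_total ‖ξ‖ 1 with h | h
    · calc (1 + ‖ξ‖) ^ r ≤ 2 ^ r := by gcongr; linarith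
        _ = 2 ^ r * 1 := by ring
        _ ≤ 2 ^ r * (1 + ‖ξ‖ ^ r) := by gcongr; linarith [pow_nonneg (norm_nonneg ξ) r]
    · calc (1 + ‖ξ‖) ^ r ≤ (2 * ‖ξ‖) ^ r := by gcongr; linarith
        _ = 2 ^ r * ‖ξ‖ ^ r := by rw [mul_pow]
        _ ≤ 2 ^ r * (1 + ‖ξ‖ ^ r) := by gcongr; linarith
  calc ‖ξ‖ ^ m * ‖𝓕 (cx w) ξ‖ * (1 + ‖ξ‖) ^ r
      ≤ ‖ξ‖ ^ m * ‖𝓕 (cx w) ξ‖ * (2 ^ r * (1 + ‖ξ‖ ^ r)) := by gcongr
    _ = 2 ^ r * (‖ξ‖ ^ m * ‖𝓕 (cx w) ξ‖ + ‖ξ‖ ^ (m + r) * ‖𝓕 (cx w) ξ‖) := by ring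
    _ ≤ 2 ^ r * (C1 + C2) := by
      have := hC1 ξ
      have := hC2 ξ
      gcongr

/-- **Sobolev embedding**: a compactly supported function with all weak derivatives in L² is
smooth. -/
theorem smooth_of_sob (b : OrthonormalBasis ι ℝ V) {w : V → ℝ} (hc : HasCompactSupport w)
    (hS : ∀ k, Sob b k w) : ∃ v : V → ℝ, ContDiff ℝ ∞ v ∧ w =ᵐ[volume] v := by
  have hwi := integrable_of_compact (hS 0).locInt hc
  have hA : Integrable (𝓕 (cx w)) (volume : Measure V) := by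
    have := integrable_fourier b hc hS 0
    simp only [pow_zero, one_mul] at this
    exact (integrable_norm_iff (continuous_fourier_cx hwi).aestronglyMeasurable).mp this
  have hg : ContDiff ℝ ∞ (𝓕⁻ (𝓕 (cx w))) := by
    have h1 : ContDiff ℝ ((⊤ : ℕ∞) : WithTop ℕ∞) (𝓕 (𝓕 (cx w))) :=
      Real.contDiff_fourier (N := ⊤) fun m _ => integrable_fourier b hc hS m
    have h2 : 𝓕⁻ (𝓕 (cx w)) = fun x => 𝓕 (𝓕 (cx w)) (-x) := by
      ext x; rw [Real.fourierInv_eq_fourier_neg]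
    rw [h2]
    exact h1.comp contDiff_neg
  refine ⟨fun x => (𝓕⁻ (𝓕 (cx w)) x).re, Complex.reCLM.contDiff.comp hg, ?_⟩
  have key : cx w =ᵐ[volume] 𝓕⁻ (𝓕 (cx w)) := by
    apply ae_eq_of_integral_contDiff_smul_eq (integrable_cx hwi).locallyIntegrable
      hg.continuous.locallyIntegrable
    intro φ hφ hφc
    have hT : Test φ := ⟨hφ, hφc⟩
    have hφi : Integrable (cx φ) (volume : Measure V) := integrable_cx hT.integrable
    have hφA : Integrable (𝓕 (cx φ)) (volume : Measure V) := by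
      have := integrable_fourier b hφc (fun k => Sob.of_test hT k) 0
      simp only [pow_zero, one_mul] at this
      exact (integrable_norm_iff (continuous_fourier_cx hT.integrable).aestronglyMeasurable).mp this
    have hφcont : Continuous (cx φ) := Complex.continuous_ofReal.comp hT.continuous
    -- 𝓕⁻ (cx φ) is integrable
    have hφA' : Integrable (𝓕⁻ (cx φ)) (volume : Measure V) := by
      have h2 : 𝓕⁻ (cx φ) = fun x => 𝓕 (cx φ) (-x) := by
        ext x; rw [Real.fourierInv_eq_fourier_neg]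
      rw [h2]
      exact hφA.comp_neg
    have f1 : ∫ x, 𝓕⁻ (𝓕 (cx w)) x * cx φ x = ∫ x, 𝓕 (cx w) x * 𝓕⁻ (cx φ) x := by
      have := VectorFourier.integral_fourierIntegral_smul_eq_flip (L := -innerₗ V)
        (f := 𝓕 (cx w)) (g := cx φ) Real.continuous_fourierChar
        (by
          have h0 : Continuous fun p : V × V => -⟪p.1, p.2⟫ := by fun_prop
          exact h0) hA hφi
      simp only [smul_eq_mul] at this
      have hfl : (-innerₗ V).flip = -innerₗ V := by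
        ext x y; simp [real_inner_comm]
      rw [hfl] at this
      exact this
    have f2 : ∫ x, 𝓕 (cx w) x * 𝓕⁻ (cx φ) x = ∫ x, cx w x * 𝓕 (𝓕⁻ (cx φ)) x := by
      have := VectorFourier.integral_fourierIntegral_smul_eq_flip (L := innerₗ V)
        (f := cx w) (g := 𝓕⁻ (cx φ)) Real.continuous_fourierChar
        (by exact continuous_inner) (integrable_cx hwi) hφA'
      simp only [smul_eq_mul, flip_innerₗ] at this
      exact this
    rw [hφcont.fourier_fourierInv_eq hφi hφA] at f2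
    have g1 : ∫ x, φ x • cx w x = ∫ x, cx w x * cx φ x := by
      congr 1; ext x
      rw [Complex.real_smul, mul_comm]; rfl
    have g2 : ∫ x, φ x • 𝓕⁻ (𝓕 (cx w)) x = ∫ x, 𝓕⁻ (𝓕 (cx w)) x * cx φ x := by
      congr 1; ext x
      rw [Complex.real_smul, mul_comm]; rfl
    rw [g1, g2, f1, f2]
  filter_upwards [key] with x hx
  rw [← hx]; simp [cx]

end Crest.Agent.R249.EV
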