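import Crest.Agent.R249.EVSobK_330

/-! (copy of Crest/Agent/R202/EllHigh in the namespace R249.EV, to avoid the name clash with R202/Ell1..Ell7; helper330)
Row 202: elliptic regularity, part 5: higher regularity for compactly supported solutions. -/

set_option autoImplicit false
open MeasureTheory Filter Topology Set
open scoped ENNReal NNReal ContDiff RealInnerProductSpace Convolution

namespace Crest.Agent.R249.EV

variable {V : Type*} [NormedAddCommGroup V] [InnerProductSpace ℝ V] [FiniteDimensional ℝ V]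
  [MeasurableSpace V] [BorelSpace V]

variable {ι : Type*} [Fintype ι] {e : ι → V}

/-- global coefficients: constants plus compactly supported smooth functions, elliptic -/
structure Coef (a : ι → ι → V → ℝ) (c : ι → ι → ℝ) (lam : ℝ) : Prop where
  pos : 0 < lam
  test : ∀ i j, Test (fun x => a i j x - c i j)
  ell : ∀ (x : V) (ξ : ι → ℝ), lam * ∑ i, ξ i ^ 2 ≤ ∑ i, ∑ j, a i j x * ξ j * ξ i

theorem Coef.smooth {a : ι → ι → V → ℝ} {c : ι → ι → ℝ} {lam : ℝ} (h : Coef a c lam) (i j : ι) :
    ContDiff ℝ ∞ (a i j) := by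
  have h1 := (h.test i j).1.add (contDiff_const (c := c i j))
  simpa using h1

theorem Coef.dd_test {a : ι → ι → V → ℝ} {c : ι → ι → ℝ} {lam : ℝ} (h : Coef a c lam) (i j : ι)
    (d : V) : Test (dd d (a i j)) := by
  have h1 := (h.test i j).dd d
  have : dd d (fun x => a i j x - c i j) = dd d (a i j) := by
    ext x; unfold dd; rw [fderiv_sub_const]
  rwa [this] at h1

theorem Coef.bdd {a : ι → ι → V → ℝ} {c : ι → ι → ℝ} {lam : ℝ} (h : Coef a c lam) :
    ∃ A, ∀ i j x, |a i j x| ≤ A := by
  classical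
  choose C _ hC using fun i j => (h.test i j).bdd
  refine ⟨∑ i, ∑ j, (|C i j| + |c i j|), fun i j x => ?_⟩
  have h1 : |a i j x| ≤ |C i j| + |c i j| := by
    have := hC i j x
    calc |a i j x| = |(a i j x - c i j) + c i j| := by ring_nf
      _ ≤ |a i j x - c i j| + |c i j| := abs_add_le _ _
      _ ≤ |C i j| + |c i j| := by
        have := this.trans (le_abs_self (C i j))
        linarith
  refine h1.trans ?_
  refine (Finset.single_le_sum (f := fun j => |C i j| + |c i j|) (fun _ _ => by positivity)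
    (Finset.mem_univ j)).trans ?_
  exact Finset.single_le_sum (f := fun i => ∑ j, (|C i j| + |c i j|))
    (fun _ _ => Finset.sum_nonneg fun _ _ => by positivity) (Finset.mem_univ i)

theorem Coef.lip {a : ι → ι → V → ℝ} {c : ι → ι → ℝ} {lam : ℝ} (h : Coef a c lam) :
    ∃ L, 0 ≤ L ∧ ∀ i j x y, |a i j x - a i j y| ≤ L * ‖x - y‖ := by
  classical
  have h0 : ∀ i j, ∃ K : ℝ≥0, LipschitzWith K (fun x => a i j x - c i j) := fun i j =>
    ContDiff.lipschitzWith_of_hasCompactSupport (h.test i j).2 (h.test i j).1 (by simp)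
  choose K hK using h0
  refine ⟨∑ i, ∑ j, (K i j : ℝ), by positivity, fun i j x y => ?_⟩
  have h1 := (hK i j).dist_le_mul x y
  rw [Real.dist_eq, dist_eq_norm] at h1
  have h2 : a i j x - c i j - (a i j y - c i j) = a i j x - a i j y := by ring
  rw [h2] at h1
  refine h1.trans (mul_le_mul_of_nonneg_right ?_ (norm_nonneg _))
  refine (Finset.single_le_sum (f := fun j => (K i j : ℝ)) (fun _ _ => by positivity)
    (Finset.mem_univ j)).trans ?_
  exact Finset.single_le_sum (f := fun i => ∑ j, (K i j : ℝ))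
    (fun _ _ => Finset.sum_nonneg fun _ _ => by positivity) (Finset.mem_univ i)

theorem reg_k {a : ι → ι → V → ℝ} {c : ι → ι → ℝ} {lam : ℝ} (hco : Coef a c lam) (k : ℕ) :
    ∀ {w f : V → ℝ} {w' : ι → V → ℝ}, MemLp w 2 (volume : Measure V) →
    HasCompactSupport w → (∀ i, MemLp (w' i) 2 (volume : Measure V)) →
    (∀ i, WD (e i) w (w' i)) → Sob e k f →
    (∀ φ : V → ℝ, Test φ →
      ∑ i, ∫ x, (∑ j, a i j x * w' j x) * dd (e i) φ x = ∫ x, f x * φ x) →
    Sob e (k + 2) w := by
  obtain ⟨A, hA⟩ := hco.bdd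
  obtain ⟨L, hL0, hL⟩ := hco.lip
  induction k with
  | zero =>
    intro w f w' hw2 hwc hw'2 hw' hf heq
    refine ⟨hw2, fun i => ⟨w' i, hw' i, hw'2 i, fun k => ?_⟩⟩
    obtain ⟨v, hv, hv'⟩ := h2_reg e a hco.pos hco.ell (fun i j => (hco.smooth i j).continuous) hA
      hL0 hL hw2 hwc hw'2 hw' hf heq i k
    exact ⟨v, hv', hv⟩
  | succ k ih =>
    intro w f w' hw2 hwc hw'2 hw' hf heq
    have h1 : Sob e (k + 2) w := ih hw2 hwc hw'2 hw' hf.pred heq
    refine ⟨hw2, fun m => ?_⟩
    -- compactly supported representatives of the first derivatives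
    have hcut : ∃ w₁ : ι → V → ℝ, (∀ i, HasCompactSupport (w₁ i)) ∧ (∀ i, WD (e i) w (w₁ i)) ∧
        (∀ i, w₁ i =ᵐ[volume] w' i) := by
      have : ∀ i, ∃ v : V → ℝ, HasCompactSupport v ∧ WD (e i) w v ∧ v =ᵐ[volume] w' i := by
        intro i
        obtain ⟨χ, hχ, hχ'⟩ := exists_compact_WD (locInt hw2) hwc (locInt (hw'2 i)) (hw' i)
        refine ⟨fun x => χ x * w' i x, hχ.2.mul_right, hχ', ?_⟩
        exact hχ'.unique (hw' i) (locInt_smooth_mul hχ.continuous (locInt (hw'2 i)))
          (locInt (hw'2 i))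
      choose v hv using this
      exact ⟨v, fun i => (hv i).1, fun i => (hv i).2.1, fun i => (hv i).2.2⟩
    obtain ⟨w₁, hw₁c, hw₁, hw₁e⟩ := hcut
    have hw₁2 : ∀ i, MemLp (w₁ i) 2 (volume : Measure V) := fun i =>
      (memLp_congr_ae (hw₁e i)).mpr (hw'2 i)
    have hw₁S : ∀ i, Sob e (k + 1) (w₁ i) := fun i => h1.deriv (hw₁ i) (locInt (hw₁2 i))
    -- second derivatives: `w₂ j d` is the derivative of `w₁ j` in direction `d`
    have hsec : ∀ j d, ∃ v, WD (e d) (w₁ j) v ∧ Sob e k v := fun j d => (hw₁S j).2 d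
    choose w₂ hw₂ hw₂S using hsec
    obtain ⟨f', hf', hf'S⟩ := hf.2 m
    refine ⟨w₁ m, hw₁ m, ?_⟩
    -- the equation for `w₁ m`
    set F : V → ℝ := fun x => f' x + ∑ i, ∑ j, (dd (e i) (dd (e m) (a i j)) x * w₁ j x +
      dd (e m) (a i j) x * w₂ j i x) with hF
    have hFS : Sob e k F := by
      apply hf'S.add
      apply Sob.sum; intro i _
      apply Sob.sum; intro j _
      exact (Sob.test_mul ((hco.dd_test i j (e m)).dd (e i)) (hw₁S j).pred).add
        (Sob.test_mul (hco.dd_test i j (e m)) (hw₂S j i))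
    refine ih (w := w₁ m) (f := F) (w' := fun j => w₂ j m) (hw₁2 m) (hw₁c m)
      (fun j => (hw₂S j m).memLp) ?_ hFS ?_
    · intro j
      exact (hw₁ j).swap (hw₁ m) (hw₂ j m)
    · intro φ hφ
      have hdφ : ∀ i, Test (dd (e i) φ) := fun i => hφ.dd _
      -- building blocks
      have hP : ∀ i j, Integrable (fun x => a i j x * w₂ j m x * dd (e i) φ x)
          (volume : Measure V) := fun i j =>
        integrable_loc_mul (locInt_smooth_mul (hco.smooth i j).continuous (hw₂S j m).locInt)
          (hdφ i)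
      have hQ : ∀ i j, Integrable (fun x => dd (e m) (a i j) x * w₁ j x * dd (e i) φ x)
          (volume : Measure V) := fun i j =>
        integrable_loc_mul (locInt_smooth_mul (hco.dd_test i j (e m)).continuous
          (locInt (hw₁2 j))) (hdφ i)
      have hR : ∀ i j, Integrable (fun x => (dd (e i) (dd (e m) (a i j)) x * w₁ j x +
          dd (e m) (a i j) x * w₂ j i x) * φ x) (volume : Measure V) := fun i j =>
        integrable_loc_mul ((locInt_smooth_mul ((hco.dd_test i j (e m)).dd (e i)).continuous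
          (locInt (hw₁2 j))).add (locInt_smooth_mul (hco.dd_test i j (e m)).continuous
          (hw₂S j i).locInt)) hφ
      have hT : ∀ i j, Integrable (fun x => a i j x * w₁ j x * dd (e i) (dd (e m) φ) x)
          (volume : Measure V) := fun i j =>
        integrable_loc_mul (locInt_smooth_mul (hco.smooth i j).continuous (locInt (hw₁2 j)))
          ((hφ.dd (e m)).dd (e i))
      have e1 : ∀ i j, ∫ x, a i j x * w₁ j x * dd (e i) (dd (e m) φ) x =
          - ((∫ x, dd (e m) (a i j) x * w₁ j x * dd (e i) φ x) +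
            ∫ x, a i j x * w₂ j m x * dd (e i) φ x) := by
        intro i j
        have h1 := (hw₂ j m).smooth_mul (hco.smooth i j) (locInt (hw₁2 j)) (hw₂S j m).locInt _
          (hdφ i)
        simp_rw [dd_comm hφ.1 (e m) (e i)]
        rw [h1, ← integral_add (hQ i j) (hP i j)]
        congr 2; ext x; ring
      have e2 : ∀ i j, ∫ x, dd (e m) (a i j) x * w₁ j x * dd (e i) φ x =
          - ∫ x, (dd (e i) (dd (e m) (a i j)) x * w₁ j x +
            dd (e m) (a i j) x * w₂ j i x) * φ x := by
        intro i j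
        exact (hw₂ j i).smooth_mul (hco.dd_test i j (e m)).1 (locInt (hw₁2 j))
          (hw₂S j i).locInt _ hφ
      have e3 := heq _ (hφ.dd (e m))
      rw [hf' φ hφ] at e3
      have e4 : ∀ i, ∫ x, (∑ j, a i j x * w' j x) * dd (e i) (dd (e m) φ) x =
          ∑ j, ∫ x, a i j x * w₁ j x * dd (e i) (dd (e m) φ) x := by
        intro i
        rw [← integral_finsetSum _ fun j _ => hT i j]
        apply integral_congr_ae
        have : ∀ᵐ x ∂(volume : Measure V), ∀ j, w₁ j x = w' j x := ae_all_iff.mpr hw₁e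
        filter_upwards [this] with x hx
        rw [Finset.sum_mul]
        refine Finset.sum_congr rfl fun j _ => ?_
        rw [hx j]
      simp_rw [e4, e1] at e3
      have e5 : ∀ i, ∫ x, (∑ j, a i j x * w₂ j m x) * dd (e i) φ x =
          ∑ j, ∫ x, a i j x * w₂ j m x * dd (e i) φ x := by
        intro i
        rw [← integral_finsetSum _ fun j _ => hP i j]
        congr 1; ext x
        rw [Finset.sum_mul]
      simp_rw [e5]
      have e6 : ∫ x, F x * φ x = (∫ x, f' x * φ x) + ∑ i, ∑ j,
          ∫ x, (dd (e i) (dd (e m) (a i j)) x * w₁ j x +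
            dd (e m) (a i j) x * w₂ j i x) * φ x := by
        simp_rw [← fun i => integral_finsetSum (Finset.univ : Finset ι) fun j _ => hR i j]
        rw [← integral_finsetSum _ fun i _ => integrable_finsetSum _ fun j _ => hR i j,
          ← integral_add (integrable_loc_mul hf'S.locInt hφ)
          (integrable_finsetSum _ fun i _ => integrable_finsetSum _ fun j _ => hR i j)]
        congr 1; ext x
        simp only [hF, add_mul, Finset.sum_mul]
      rw [e6]
      simp_rw [e2] at e3
      simp only [neg_add, neg_neg, Finset.sum_add_distrib, Finset.sum_neg_distrib] at e3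
      linarith

end Crest.Agent.R249.EV
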