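import Crest.Agent.R249.EVHigh_330

/-! (copy of Crest/Agent/R202/EllLoc in the namespace R249.EV, to avoid the name clash with R202/Ell1..Ell7; helper330)
Row 202: elliptic regularity, part 6: localisation. -/

set_option autoImplicit false
open MeasureTheory Filter Topology Set
open scoped ENNReal NNReal ContDiff RealInnerProductSpace Convolution

namespace Crest.Agent.R249.EV

variable {V : Type*} [NormedAddCommGroup V] [InnerProductSpace ℝ V] [FiniteDimensional ℝ V]
  [MeasurableSpace V] [BorelSpace V]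

variable {ι : Type*} [Fintype ι] {e : ι → V}

/-- locally square integrable (and locally integrable) functions -/
def L2loc (u : V → ℝ) : Prop :=
  LocallyIntegrable u (volume : Measure V) ∧
    LocallyIntegrable (fun x => u x ^ 2) (volume : Measure V)

theorem L2loc.test_mul {u η : V → ℝ} (h : L2loc u) (hη : Test η) :
    MemLp (fun x => η x * u x) 2 (volume : Measure V) := by
  have hm : AEStronglyMeasurable (fun x => η x * u x) (volume : Measure V) :=
    hη.continuous.aestronglyMeasurable.mul h.1.aestronglyMeasurable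
  rw [memLp_two_iff_integrable_sq hm]
  have hη2 : Test (fun x => η x * η x) := hη.smooth_mul hη.1
  have := integrable_loc_mul h.2 hη2
  refine this.congr (Eventually.of_forall fun x => ?_)
  simp only; ring

/-- uniform ellipticity on compact sets -/
theorem exists_ell {a : ι → ι → V → ℝ} (ha : ∀ i j, Continuous (a i j))
    (hpos : ∀ (x : V) (ξ : ι → ℝ), ξ ≠ 0 → 0 < ∑ i, ∑ j, a i j x * ξ j * ξ i)
    {K : Set V} (hK : IsCompact K) :
    ∃ lam : ℝ, 0 < lam ∧ ∀ x ∈ K, ∀ ξ : ι → ℝ,
      lam * ∑ i, ξ i ^ 2 ≤ ∑ i, ∑ j, a i j x * ξ j * ξ i := by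
  classical
  let S : Set (EuclideanSpace ℝ ι) := Metric.sphere 0 1
  have hS : IsCompact S := isCompact_sphere _ _
  let F : V × EuclideanSpace ℝ ι → ℝ := fun p => ∑ i, ∑ j, a i j p.1 * p.2 j * p.2 i
  have hF : Continuous F := by
    apply continuous_finsetSum; intro i _
    apply continuous_finsetSum; intro j _
    have := ha i j
    fun_prop
  have main : ∃ lam : ℝ, 0 < lam ∧ ∀ x ∈ K, ∀ ξ ∈ S, lam ≤ F (x, ξ) := by
    rcases (K ×ˢ S).eq_empty_or_nonempty with h0 | hne
    · refine ⟨1, one_pos, fun x hx ξ hξ => ?_⟩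
      have : (x, ξ) ∈ K ×ˢ S := ⟨hx, hξ⟩
      rw [h0] at this; exact absurd this (notMem_empty _)
    · obtain ⟨p, hp, hmin⟩ := (hK.prod hS).exists_isMinOn hne hF.continuousOn
      refine ⟨F p, ?_, fun x hx ξ hξ => hmin (show (x, ξ) ∈ K ×ˢ S from ⟨hx, hξ⟩)⟩
      apply hpos p.1 (fun i => p.2 i)
      intro h
      have h1 : p.2 = 0 := by
        ext i; exact congrFun h i
      have h2 : ‖p.2‖ = 1 := by simpa [S] using hp.2
      rw [h1, norm_zero] at h2
      exact zero_ne_one h2
  obtain ⟨lam, hlam, hl⟩ := main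
  refine ⟨lam, hlam, fun x hx ξ => ?_⟩
  let ζ : EuclideanSpace ℝ ι := WithLp.toLp 2 ξ
  have hζ : ∀ i, ζ i = ξ i := fun i => rfl
  have hn : ‖ζ‖ ^ 2 = ∑ i, ξ i ^ 2 := by
    rw [EuclideanSpace.real_norm_sq_eq]
  rcases eq_or_ne ζ 0 with h0 | h0
  · have h1 : ∀ i, ξ i = 0 := fun i => by rw [← hζ, h0]; rfl
    simp [h1]
  · have hpos' : 0 < ‖ζ‖ := norm_pos_iff.mpr h0
    have hz : ‖ζ‖⁻¹ • ζ ∈ S := by
      simp only [S, mem_sphere_iff_norm, sub_zero, norm_smul, norm_inv, norm_norm]
      exact inv_mul_cancel₀ hpos'.ne'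
    have h1 := hl x hx _ hz
    have h2 : F (x, ‖ζ‖⁻¹ • ζ) = (‖ζ‖⁻¹) ^ 2 * ∑ i, ∑ j, a i j x * ξ j * ξ i := by
      simp only [F, Finset.mul_sum]
      refine Finset.sum_congr rfl fun i _ => Finset.sum_congr rfl fun j _ => ?_
      simp only [PiLp.smul_apply, smul_eq_mul, hζ]
      ring
    rw [h2] at h1
    rw [← hn]
    have h3 := mul_le_mul_of_nonneg_right h1 (sq_nonneg ‖ζ‖)
    have h4 : (‖ζ‖⁻¹) ^ 2 * (∑ i, ∑ j, a i j x * ξ j * ξ i) * ‖ζ‖ ^ 2 =
        ∑ i, ∑ j, a i j x * ξ j * ξ i := by
      field_simp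
    rw [h4] at h3
    exact h3

/-- global extension of local coefficients -/
theorem exists_coef [DecidableEq ι] {a : ι → ι → V → ℝ} (ha : ∀ i j, ContDiff ℝ ∞ (a i j))
    (hpos : ∀ (x : V) (ξ : ι → ℝ), ξ ≠ 0 → 0 < ∑ i, ∑ j, a i j x * ξ j * ξ i) (R : ℝ) :
    ∃ (b : ι → ι → V → ℝ) (lam : ℝ), Coef b (fun i j => if i = j then 1 else 0) lam ∧
      ∀ i j x, ‖x‖ < R → b i j x = a i j x := by
  obtain ⟨χ, hχ, h0, h1, hR⟩ := exists_cutoff (V := V) R
  obtain ⟨lam, hlam, hl⟩ := exists_ell (fun i j => (ha i j).continuous) hpos hχ.2.isCompact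
  refine ⟨fun i j x => χ x * a i j x + (1 - χ x) * (if i = j then 1 else 0), min lam 1,
    ⟨by positivity, ?_, ?_⟩, ?_⟩
  · intro i j
    have : Test (fun x => (a i j x - (if i = j then (1 : ℝ) else 0)) * χ x) :=
      hχ.smooth_mul ((ha i j).sub contDiff_const)
    convert this using 1
    ext x; ring
  · intro x ξ
    have e1 : ∑ i, ∑ j, (χ x * a i j x + (1 - χ x) * (if i = j then (1 : ℝ) else 0)) * ξ j * ξ i =
        χ x * (∑ i, ∑ j, a i j x * ξ j * ξ i) + (1 - χ x) * ∑ i, ξ i ^ 2 := by
      rw [Finset.mul_sum, Finset.mul_sum, ← Finset.sum_add_distrib]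
      refine Finset.sum_congr rfl fun i _ => ?_
      have : ∑ j, (χ x * a i j x + (1 - χ x) * (if i = j then (1 : ℝ) else 0)) * ξ j * ξ i =
          ∑ j, (χ x * (a i j x * ξ j * ξ i)) +
          ∑ j, (if i = j then (1 - χ x) * ξ j * ξ i else 0) := by
        rw [← Finset.sum_add_distrib]
        refine Finset.sum_congr rfl fun j _ => ?_
        split_ifs <;> ring
      rw [this, Finset.sum_ite_eq, ← Finset.mul_sum]
      simp; ring
    rw [e1]
    have hs : 0 ≤ ∑ i, ξ i ^ 2 := Finset.sum_nonneg fun i _ => sq_nonneg _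
    by_cases hx : x ∈ tsupport χ
    · have h2 := hl x hx ξ
      have h3 : min lam 1 * ∑ i, ξ i ^ 2 ≤ lam * ∑ i, ξ i ^ 2 := by gcongr; exact min_le_left _ _
      have h4 : min lam 1 * ∑ i, ξ i ^ 2 ≤ 1 * ∑ i, ξ i ^ 2 := by gcongr; exact min_le_right _ _
      have h5 := h0 x
      have h6 := h1 x
      nlinarith [mul_le_mul_of_nonneg_left (h3.trans h2) h5,
        mul_le_mul_of_nonneg_left h4 (sub_nonneg.mpr h6)]
    · have : χ x = 0 := image_eq_zero_of_notMem_tsupport hx
      rw [this]
      have h4 : min lam 1 * ∑ i, ξ i ^ 2 ≤ 1 * ∑ i, ξ i ^ 2 := by gcongr; exact min_le_right _ _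
      linarith
  · intro i j x hx
    simp only [hR x hx]; ring

theorem loc_reg {a : ι → ι → V → ℝ} (ha : ∀ i j, ContDiff ℝ ∞ (a i j))
    (hpos : ∀ (x : V) (ξ : ι → ℝ), ξ ≠ 0 → 0 < ∑ i, ∑ j, a i j x * ξ j * ξ i)
    {u f : V → ℝ} {u' : ι → V → ℝ} (hu : L2loc u) (hu' : ∀ i, L2loc (u' i))
    (hW : ∀ i, WD (e i) u (u' i)) (hf : ContDiff ℝ ∞ f)
    (heq : ∀ φ : V → ℝ, Test φ →
      ∑ i, ∫ x, (∑ j, a i j x * u' j x) * dd (e i) φ x = ∫ x, f x * φ x) (k : ℕ) :
    ∀ η : V → ℝ, Test η → Sob e (k + 1) (fun x => η x * u x) := by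
  classical
  induction k with
  | zero =>
    intro η hη
    refine ⟨hu.test_mul hη, fun i => ⟨_, (hW i).smooth_mul hη.1 hu.1 (hu' i).1, ?_⟩⟩
    exact (hu.test_mul (hη.dd (e i))).add ((hu' i).test_mul hη)
  | succ k ih =>
    intro η hη
    -- products with derivatives
    have hder : ∀ (θ : V → ℝ), Test θ → ∀ j, Sob e k (fun x => θ x * u' j x) := by
      intro θ hθ j
      have h1 := ih θ hθ
      have h2 := (hW j).smooth_mul hθ.1 hu.1 (hu' j).1
      have h3 := h1.deriv h2 ((locInt_smooth_mul (hθ.dd (e j)).continuous hu.1).add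
        (locInt_smooth_mul hθ.continuous (hu' j).1))
      have h4 := (ih _ (hθ.dd (e j))).pred
      refine (h3.sub h4).congr (Eventually.of_forall fun x => ?_)
      simp only; ring
    obtain ⟨R, hR⟩ := hη.2.isCompact.isBounded.subset_ball (0 : V)
    obtain ⟨b, lam, hb, hba⟩ := exists_coef ha hpos R
    set w' : ι → V → ℝ := fun j x => dd (e j) η x * u x + η x * u' j x with hw'
    set F : V → ℝ := fun x => η x * f x - (∑ i, ∑ j, a i j x * dd (e i) η x * u' j x) -
      ∑ i, ∑ j, (dd (e i) (fun x => a i j x * dd (e j) η x) x * u x +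
        a i j x * dd (e j) η x * u' i x) with hF
    have hT1 : ∀ i j k, Test (fun x => a i j x * dd (e k) η x) := fun i j k =>
      (hη.dd (e k)).smooth_mul (ha i j)
    have hFS : Sob e k F := by
      refine Sob.sub (Sob.sub ?_ ?_) ?_
      · exact Sob.of_test (by
          have := hη.smooth_mul hf
          convert this using 1
          ext x; ring) k
      · apply Sob.sum; intro i _
        apply Sob.sum; intro j _
        exact hder _ (hT1 i j i) j
      · apply Sob.sum; intro i _
        apply Sob.sum; intro j _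
        exact (ih _ ((hT1 i j j).dd (e i))).pred.add (hder _ (hT1 i j j) i)
    have hsupp : ∀ x, ¬ ‖x‖ < R → η x = 0 ∧ ∀ d, dd d η x = 0 := by
      intro x hx
      have hx' : x ∉ tsupport η := fun h => hx (by simpa using hR h)
      refine ⟨image_eq_zero_of_notMem_tsupport hx', fun d => ?_⟩
      have : x ∉ tsupport (fderiv ℝ η) := fun h => hx' (tsupport_fderiv_subset ℝ h)
      unfold dd
      rw [image_eq_zero_of_notMem_tsupport this]; simp
    refine reg_k (e := e) hb k (w := fun x => η x * u x) (f := F) (w' := w') (hu.test_mul hη)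
      hη.2.mul_right ?_ (fun j => (hW j).smooth_mul hη.1 hu.1 (hu' j).1) hFS ?_
    · intro j
      exact (hu.test_mul (hη.dd (e j))).add ((hu' j).test_mul hη)
    · intro φ hφ
      -- replace b by a
      have e0 : ∀ i, ∫ x, (∑ j, b i j x * w' j x) * dd (e i) φ x =
          ∫ x, (∑ j, a i j x * w' j x) * dd (e i) φ x := by
        intro i
        congr 1; ext x
        congr 1
        refine Finset.sum_congr rfl fun j _ => ?_
        by_cases hx : ‖x‖ < R
        · rw [hba i j x hx]
        · obtain ⟨h1, h2⟩ := hsupp x hx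
          simp only [hw', h1, h2, zero_mul, add_zero, mul_zero]
      simp_rw [e0]
      have i1 : ∀ i j, Integrable (fun x => a i j x * dd (e j) η x * u x * dd (e i) φ x)
          (volume : Measure V) := fun i j =>
        integrable_loc_mul (locInt_smooth_mul (hT1 i j j).continuous hu.1) (hφ.dd _)
      have i2 : ∀ i j, Integrable (fun x => a i j x * (η x * u' j x) * dd (e i) φ x)
          (volume : Measure V) := fun i j =>
        integrable_loc_mul (locInt_smooth_mul (ha i j).continuous
          (locInt_smooth_mul hη.continuous (hu' j).1)) (hφ.dd _)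
      have i3 : ∀ i j, Integrable (fun x => (dd (e i) (fun x => a i j x * dd (e j) η x) x * u x +
          a i j x * dd (e j) η x * u' i x) * φ x) (volume : Measure V) := fun i j =>
        integrable_loc_mul ((locInt_smooth_mul ((hT1 i j j).dd (e i)).continuous hu.1).add
          (locInt_smooth_mul (hT1 i j j).continuous (hu' i).1)) hφ
      have i4 : ∀ i j, Integrable (fun x => a i j x * dd (e i) η x * u' j x * φ x)
          (volume : Measure V) := fun i j =>
        integrable_loc_mul (locInt_smooth_mul (hT1 i j i).continuous (hu' j).1) hφ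
      have e1 : ∀ i j, ∫ x, a i j x * dd (e j) η x * u x * dd (e i) φ x =
          - ∫ x, (dd (e i) (fun x => a i j x * dd (e j) η x) x * u x +
            a i j x * dd (e j) η x * u' i x) * φ x := by
        intro i j
        exact (hW i).smooth_mul (hT1 i j j).1 hu.1 (hu' i).1 _ hφ
      have e2 : ∀ i, ∫ x, (∑ j, a i j x * w' j x) * dd (e i) φ x =
          ∑ j, ((∫ x, a i j x * dd (e j) η x * u x * dd (e i) φ x) +
            ∫ x, a i j x * (η x * u' j x) * dd (e i) φ x) := by
        intro i
        have h1 : ∀ x, (∑ j, a i j x * w' j x) * dd (e i) φ x =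
            ∑ j, (a i j x * dd (e j) η x * u x * dd (e i) φ x +
              a i j x * (η x * u' j x) * dd (e i) φ x) := by
          intro x
          rw [Finset.sum_mul]
          refine Finset.sum_congr rfl fun j _ => ?_
          simp only [hw']; ring
        simp_rw [h1]
        rw [integral_finsetSum _ fun j _ => ?_]
        · refine Finset.sum_congr rfl fun j _ => ?_
          exact integral_add (i1 i j) (i2 i j)
        · exact (i1 i j).add (i2 i j)
      have e3 := heq _ (hφ.smooth_mul hη.1)
      have e4 : ∀ i, ∫ x, (∑ j, a i j x * u' j x) * dd (e i) (fun x => η x * φ x) x =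
          ∑ j, ((∫ x, a i j x * dd (e i) η x * u' j x * φ x) +
            ∫ x, a i j x * (η x * u' j x) * dd (e i) φ x) := by
        intro i
        have h1 : ∀ x, (∑ j, a i j x * u' j x) * dd (e i) (fun x => η x * φ x) x =
            ∑ j, (a i j x * dd (e i) η x * u' j x * φ x +
              a i j x * (η x * u' j x) * dd (e i) φ x) := by
          intro x
          rw [dd_mul (e i) (hη.1.differentiable (by simp)) (hφ.1.differentiable (by simp)),
            Finset.sum_mul]
          refine Finset.sum_congr rfl fun j _ => ?_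
          ring
        simp_rw [h1]
        rw [integral_finsetSum _ fun j _ => ?_]
        · refine Finset.sum_congr rfl fun j _ => ?_
          exact integral_add (i4 i j) (i2 i j)
        · exact (i4 i j).add (i2 i j)
      simp_rw [e4] at e3
      simp_rw [e2, e1]
      have i5 : Integrable (fun x => f x * (η x * φ x)) (volume : Measure V) :=
        ((hφ.smooth_mul hη.1).smooth_mul hf).integrable
      have i6 : Integrable (fun x => ∑ i, ∑ j, a i j x * dd (e i) η x * u' j x * φ x)
          (volume : Measure V) :=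
        integrable_finsetSum _ fun i _ => integrable_finsetSum _ fun j _ => i4 i j
      have i7 : Integrable (fun x => ∑ i, ∑ j,
          (dd (e i) (fun x => a i j x * dd (e j) η x) x * u x +
          a i j x * dd (e j) η x * u' i x) * φ x) (volume : Measure V) :=
        integrable_finsetSum _ fun i _ => integrable_finsetSum _ fun j _ => i3 i j
      have i8 : Integrable (fun x => f x * (η x * φ x) -
          ∑ i, ∑ j, a i j x * dd (e i) η x * u' j x * φ x) (volume : Measure V) := i5.sub i6
      have e5 : ∫ x, F x * φ x = (∫ x, f x * (η x * φ x)) -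
          (∑ i, ∑ j, ∫ x, a i j x * dd (e i) η x * u' j x * φ x) -
          ∑ i, ∑ j, ∫ x, (dd (e i) (fun x => a i j x * dd (e j) η x) x * u x +
            a i j x * dd (e j) η x * u' i x) * φ x := by
        simp_rw [← fun i => integral_finsetSum (Finset.univ : Finset ι) fun j _ => i4 i j,
          ← fun i => integral_finsetSum (Finset.univ : Finset ι) fun j _ => i3 i j]
        rw [← integral_finsetSum _ fun i _ => integrable_finsetSum _ fun j _ => i4 i j,
          ← integral_finsetSum _ fun i _ => integrable_finsetSum _ fun j _ => i3 i j,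
          ← integral_sub i5 i6, ← integral_sub i8 i7]
        congr 1; ext x
        simp only [hF, sub_mul, Finset.sum_mul]
        ring
      rw [e5]
      simp only [Finset.sum_add_distrib, Finset.sum_neg_distrib] at e3 ⊢
      linarith

end Crest.Agent.R249.EV
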