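import Crest.Agent.R249.EVEmb_330

/-! (copy of Crest/Agent/R202/EllMain in the namespace R249.EV, to avoid the name clash with R202/Ell1..Ell7; helper330)
Row 202: elliptic regularity, final statement: weak solutions with smooth coefficients are
smooth. -/

set_option autoImplicit false
open MeasureTheory Filter Topology Set
open scoped ENNReal NNReal ContDiff RealInnerProductSpace

namespace Crest.Agent.R249.EV

variable {V : Type*} [NormedAddCommGroup V] [InnerProductSpace ℝ V] [FiniteDimensional ℝ V]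
  [MeasurableSpace V] [BorelSpace V]
variable {ι : Type*} [Fintype ι]

/-- a function all of whose localisations are a.e. smooth is a.e. smooth -/
theorem smooth_of_local {u : V → ℝ}
    (h : ∀ η : V → ℝ, Test η → ∃ v : V → ℝ, ContDiff ℝ ∞ v ∧
      (fun x => η x * u x) =ᵐ[volume] v) : ∃ v : V → ℝ, ContDiff ℝ ∞ v ∧ u =ᵐ[volume] v := by
  have h1 : ∀ n : ℕ, ∃ v : V → ℝ, ContDiff ℝ ∞ v ∧
      ∀ᵐ x ∂(volume : Measure V), x ∈ Metric.ball (0 : V) n → u x = v x := by
    intro n
    obtain ⟨χ, hχ, -, -, hχ1⟩ := exists_cutoff (V := V) (n : ℝ)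
    obtain ⟨v, hv, hv'⟩ := h χ hχ
    refine ⟨v, hv, ?_⟩
    filter_upwards [hv'] with x hx hxn
    rw [← hx, hχ1 x (by simpa using hxn), one_mul]
  choose v hv hvu using h1
  -- consistency on balls
  have hcons : ∀ m n : ℕ, m ≤ n → ∀ x ∈ Metric.ball (0 : V) m, v m x = v n x := by
    intro m n hmn x hx
    have hsub : Metric.ball (0 : V) m ⊆ Metric.ball (0 : V) n :=
      Metric.ball_subset_ball (by exact_mod_cast hmn)
    have hae : ∀ᵐ y ∂(volume.restrict (Metric.ball (0 : V) m)), v m y = v n y := by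
      rw [ae_restrict_iff' Metric.isOpen_ball.measurableSet]
      filter_upwards [hvu m, hvu n] with y h1 h2 hy
      rw [← h1 hy, ← h2 (hsub hy)]
    exact Measure.eqOn_open_of_ae_eq hae Metric.isOpen_ball (hv m).continuous.continuousOn
      (hv n).continuous.continuousOn hx
  let N : V → ℕ := fun x => ⌈‖x‖⌉₊ + 1
  have hN : ∀ x, x ∈ Metric.ball (0 : V) (N x) := by
    intro x
    simp only [Metric.mem_ball, dist_zero_right, N]
    push_cast
    linarith [Nat.le_ceil ‖x‖]
  refine ⟨fun x => v (N x) x, ?_, ?_⟩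
  · rw [contDiff_iff_contDiffAt]
    intro x
    have he : (fun y => v (N y) y) =ᶠ[𝓝 x] v (N x) := by
      filter_upwards [Metric.isOpen_ball.mem_nhds (hN x)] with y hy
      rcases le_total (N x) (N y) with hxy | hxy
      · exact (hcons _ _ hxy y hy).symm
      · exact hcons _ _ hxy y (hN y)
    exact (hv (N x)).contDiffAt.congr_of_eventuallyEq he
  · filter_upwards [ae_all_iff.mpr hvu] with x hx
    exact hx (N x) (hN x)

/-- **Elliptic regularity** (coordinate free version): `e` an orthonormal basis. -/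
theorem regularity (e : OrthonormalBasis ι ℝ V) {a : ι → ι → V → ℝ}
    (ha : ∀ i j, ContDiff ℝ ∞ (a i j))
    (hpos : ∀ (x : V) (ξ : ι → ℝ), ξ ≠ 0 → 0 < ∑ i, ∑ j, a i j x * ξ j * ξ i)
    {u f : V → ℝ} {u' : ι → V → ℝ} (hu : L2loc u) (hu' : ∀ i, L2loc (u' i))
    (hW : ∀ i, WD (e i) u (u' i)) (hf : ContDiff ℝ ∞ f)
    (heq : ∀ φ : V → ℝ, Test φ →
      ∑ i, ∫ x, (∑ j, a i j x * u' j x) * dd (e i) φ x = ∫ x, f x * φ x) :
    ∃ v : V → ℝ, ContDiff ℝ ∞ v ∧ u =ᵐ[volume] v ∧ (∀ i, u' i =ᵐ[volume] dd (e i) v) ∧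
      ∀ x, ∑ i, dd (e i) (fun x => ∑ j, a i j x * dd (e j) v x) x = - f x := by
  obtain ⟨v, hv, huv⟩ := smooth_of_local (u := u) fun η hη =>
    smooth_of_sob e hη.2.mul_right fun k => (loc_reg ha hpos hu hu' hW hf heq k η hη).pred
  have hdv : ∀ i, u' i =ᵐ[volume] dd (e i) v := by
    intro i
    have h1 : WD (e i) u (dd (e i) v) := (WD.of_smooth hv).congr huv.symm (ae_eq_refl _)
    exact (hW i).unique h1 (hu' i).1 (contDiff_dd hv _).continuous.locallyIntegrable
  refine ⟨v, hv, huv, hdv, ?_⟩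
  set G : ι → V → ℝ := fun i x => ∑ j, a i j x * dd (e j) v x with hG
  have hGs : ∀ i, ContDiff ℝ ∞ (G i) := fun i =>
    ContDiff.sum fun j _ => (ha i j).mul (contDiff_dd hv _)
  have hsum : ContDiff ℝ ∞ fun x => ∑ i, dd (e i) (G i) x :=
    ContDiff.sum fun i _ => contDiff_dd (hGs i) _
  have hae : (fun x => ∑ i, dd (e i) (G i) x) =ᵐ[volume] fun x => - f x := by
    apply ae_eq_of_integral_contDiff_smul_eq hsum.continuous.locallyIntegrable
      hf.neg.continuous.locallyIntegrable
    intro φ hφ hφc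
    have hT : Test φ := ⟨hφ, hφc⟩
    have h1 := heq φ hT
    have h2 : ∀ i, ∫ x, (∑ j, a i j x * u' j x) * dd (e i) φ x = - ∫ x, dd (e i) (G i) x * φ x := by
      intro i
      rw [← WD.of_smooth (hGs i) φ hT]
      apply integral_congr_ae
      filter_upwards [ae_all_iff.mpr hdv] with x hx
      simp only [hG]
      congr 1
      exact Finset.sum_congr rfl fun j _ => by rw [hx j]
    simp_rw [h2] at h1
    have h3 : ∫ x, φ x • ∑ i, dd (e i) (G i) x = ∑ i, ∫ x, dd (e i) (G i) x * φ x := by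
      rw [← integral_finsetSum]
      · congr 1; ext x
        rw [smul_eq_mul, Finset.mul_sum]
        exact Finset.sum_congr rfl fun i _ => mul_comm _ _
      · intro i _
        exact integrable_loc_mul (contDiff_dd (hGs i) _).continuous.locallyIntegrable hT
    have h4 : ∫ x, φ x • (- f x) = - ∫ x, f x * φ x := by
      rw [← integral_neg]; congr 1; ext x; rw [smul_eq_mul]; ring
    rw [h3, h4, ← h1, Finset.sum_neg_distrib, neg_neg]
  have := (hsum.continuous.ae_eq_iff_eq volume hf.neg.continuous).mp hae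
  exact fun x => congrFun this x

end Crest.Agent.R249.EV
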