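import Crest.Agent.R249.EVDQ_330

/-! (copy of Crest/Agent/R202/EllReg in the namespace R249.EV, to avoid the name clash with R202/Ell1..Ell7; helper330)
Row 202: elliptic regularity, part 3: H² regularity, Leibniz rule, the spaces `Sob k`. -/

set_option autoImplicit false
open MeasureTheory Filter Topology Set
open scoped ENNReal NNReal ContDiff RealInnerProductSpace Convolution

namespace Crest.Agent.R249.EV

variable {V : Type*} [NormedAddCommGroup V] [InnerProductSpace ℝ V] [FiniteDimensional ℝ V]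
  [MeasurableSpace V] [BorelSpace V]

theorem WD.shift {e : V} {u v : V → ℝ} (h : WD e u v) (a : V) :
    WD e (fun x => u (x + a)) (fun x => v (x + a)) := by
  intro φ hφ
  rw [integral_shift, integral_shift]
  have := h _ (hφ.comp_add (-a))
  simp_rw [dd_comp_add] at this
  simpa [sub_eq_add_neg] using this

theorem WD.sub {e : V} {u v u' v' : V → ℝ} (h : WD e u v) (h' : WD e u' v')
    (hu : LocallyIntegrable u volume) (hv : LocallyIntegrable v volume)
    (hu' : LocallyIntegrable u' volume) (hv' : LocallyIntegrable v' volume) :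
    WD e (fun x => u x - u' x) (fun x => v x - v' x) := by
  intro φ hφ
  have i1 : ∀ {g ψ : V → ℝ}, LocallyIntegrable g volume → Test ψ →
      Integrable (fun x => g x * ψ x) volume := by
    intro g ψ hg hψ
    have := hg.integrable_smul_left_of_hasCompactSupport hψ.continuous hψ.2
    simpa [mul_comm] using this
  simp_rw [sub_mul]
  rw [integral_sub (i1 hu (hφ.dd e)) (i1 hu' (hφ.dd e)), integral_sub (i1 hv hφ) (i1 hv' hφ),
    h φ hφ, h' φ hφ]
  ring

theorem integrable_loc_mul {g ψ : V → ℝ} (hg : LocallyIntegrable g (volume : Measure V))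
    (hψ : Test ψ) : Integrable (fun x => g x * ψ x) volume := by
  have := hg.integrable_smul_left_of_hasCompactSupport hψ.continuous hψ.2
  simpa [mul_comm] using this

theorem locInt {f : V → ℝ} (hf : MemLp f 2 (volume : Measure V)) :
    LocallyIntegrable f volume := hf.locallyIntegrable (by norm_num)

/-- **H² regularity.** -/
theorem h2_reg {ι : Type*} [Fintype ι] (e : ι → V) (a : ι → ι → V → ℝ) {lam A L : ℝ}
    (hlam : 0 < lam)
    (hell : ∀ (x : V) (ξ : ι → ℝ), lam * ∑ i, ξ i ^ 2 ≤ ∑ i, ∑ j, a i j x * ξ j * ξ i)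
    (hac : ∀ i j, Continuous (a i j)) (hA : ∀ i j x, |a i j x| ≤ A)
    (hL0 : 0 ≤ L) (hL : ∀ i j x y, |a i j x - a i j y| ≤ L * ‖x - y‖)
    {w f : V → ℝ} {w' : ι → V → ℝ} (hw2 : MemLp w 2 (volume : Measure V))
    (hwc : HasCompactSupport w) (hw'2 : ∀ i, MemLp (w' i) 2 (volume : Measure V))
    (hw' : ∀ i, WD (e i) w (w' i)) (hf : MemLp f 2 (volume : Measure V))
    (heq : ∀ φ : V → ℝ, Test φ →
      ∑ i, ∫ x, (∑ j, a i j x * w' j x) * dd (e i) φ x = ∫ x, f x * φ x) (i k : ι) :
    ∃ v : V → ℝ, MemLp v 2 (volume : Measure V) ∧ WD (e k) (w' i) v := by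
  classical
  have hG : ∀ i, MemLp (fun x => ∑ j, a i j x * w' j x) 2 (volume : Measure V) := fun i =>
    memLp_finsetSum _ fun j _ => memLp_bdd_mul (hA i j) (hac i j) (hw'2 j)
  set N : ℝ := ∑ j, nn (w' j) with hN
  have hN0 : 0 ≤ N := Finset.sum_nonneg fun j _ => nn_nonneg _
  set M : ℝ := nn f + L * ‖e k‖ * N with hM
  have hM0 : 0 ≤ M := by have := nn_nonneg f; positivity
  set C : ℝ := (Fintype.card ι : ℝ) * M / lam with hCdef
  have hC0 : 0 ≤ C := by positivity
  apply exists_WD_of_diff (hw'2 i) (e k) hC0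
  intro h
  set τ : V := h • e k with hτ
  -- differences
  let Dl : (V → ℝ) → V → ℝ := fun g x => g (x + τ) - g x
  let Dm : (V → ℝ) → V → ℝ := fun g x => g (x + (-τ)) - g x
  have hDl : ∀ {g : V → ℝ}, MemLp g 2 (volume : Measure V) → MemLp (Dl g) 2 volume :=
    fun hg => (memLp_comp_add hg _).sub hg
  have hDm : ∀ {g : V → ℝ}, MemLp g 2 (volume : Measure V) → MemLp (Dm g) 2 volume :=
    fun hg => (memLp_comp_add hg _).sub hg
  have hDlW : ∀ {g g' : V → ℝ} {v : V}, MemLp g 2 (volume : Measure V) →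
      MemLp g' 2 (volume : Measure V) → WD v g g' → WD v (Dl g) (Dl g') := by
    intro g g' v h1 h2 h3
    exact (h3.shift τ).sub h3 (locInt (memLp_comp_add h1 _)) (locInt (memLp_comp_add h2 _))
      (locInt h1) (locInt h2)
  have hDmW : ∀ {g g' : V → ℝ} {v : V}, MemLp g 2 (volume : Measure V) →
      MemLp g' 2 (volume : Measure V) → WD v g g' → WD v (Dm g) (Dm g') := by
    intro g g' v h1 h2 h3
    exact (h3.shift (-τ)).sub h3 (locInt (memLp_comp_add h1 _)) (locInt (memLp_comp_add h2 _))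
      (locInt h1) (locInt h2)
  -- discrete integration by parts
  have hparts : ∀ {g p : V → ℝ}, MemLp g 2 (volume : Measure V) → MemLp p 2 (volume : Measure V) →
      ∫ x, g x * Dm p x = ∫ x, Dl g x * p x := by
    intro g p hg hp
    have i1 := (integrable_mul hg (memLp_comp_add hp (-τ)))
    have i2 := integrable_mul hg hp
    have i3 := integrable_mul (memLp_comp_add hg τ) hp
    simp only [Dm, Dl, mul_sub, sub_mul]
    rw [integral_sub i1 i2, integral_sub i3 i2, integral_shift]
    simp [sub_eq_add_neg]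
  -- the compactly supported test function
  have hc1 : HasCompactSupport (Dl w) := by
    have h1 : HasCompactSupport (fun x => w (x + τ)) := hwc.comp_homeomorph (Homeomorph.addRight τ)
    exact h1.sub hwc
  have hc2 : HasCompactSupport (Dm (Dl w)) := by
    have h1 : HasCompactSupport (fun x => (Dl w) (x + (-τ))) :=
      hc1.comp_homeomorph (Homeomorph.addRight (-τ))
    exact h1.sub hc1
  have key := testExt e _ f hG hf heq (Dm (Dl w)) (fun i => Dm (Dl (w' i)))
    (hDm (hDl hw2)) hc2 (fun i => hDm (hDl (hw'2 i)))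
    (fun i => hDmW (hDl hw2) (hDl (hw'2 i)) (hDlW hw2 (hw'2 i) (hw' i)))
  simp_rw [fun i => hparts (hG i) (hDl (hw'2 i))] at key
  -- expand
  have hexp : ∀ i x, Dl (fun x => ∑ j, a i j x * w' j x) x * Dl (w' i) x =
      ∑ j, (a i j (x + τ) * Dl (w' j) x * Dl (w' i) x + Dl (a i j) x * (w' j x) * Dl (w' i) x) := by
    intro i x
    simp only [Dl]
    rw [← Finset.sum_sub_distrib, Finset.sum_mul]
    refine Finset.sum_congr rfl fun j _ => ?_
    ring
  have hbda : ∀ i j x, |Dl (a i j) x| ≤ L * (|h| * ‖e k‖) := by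
    intro i j x
    have := hL i j (x + τ) x
    simp only [add_sub_cancel_left] at this
    rw [hτ, norm_smul, Real.norm_eq_abs] at this
    exact this
  have hDac : ∀ i j, Continuous (Dl (a i j)) := fun i j => by
    have := hac i j
    simp only [Dl]; fun_prop
  have hm1 : ∀ i j, Integrable (fun x => a i j (x + τ) * Dl (w' j) x * Dl (w' i) x)
      (volume : Measure V) := by
    intro i j
    have h1 : MemLp (fun x => a i j (x + τ) * Dl (w' j) x) 2 (volume : Measure V) :=
      memLp_bdd_mul (C := A) (fun x => hA i j (x + τ)) (by have := hac i j; fun_prop)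
        (hDl (hw'2 j))
    exact integrable_mul h1 (hDl (hw'2 i))
  have hmem2 : ∀ i j, MemLp (fun x => Dl (a i j) x * w' j x) 2 (volume : Measure V) :=
    fun i j => memLp_bdd_mul (hbda i j) (hDac i j) (hw'2 j)
  have hm2 : ∀ i j, Integrable (fun x => Dl (a i j) x * (w' j x) * Dl (w' i) x)
      (volume : Measure V) := fun i j => integrable_mul (hmem2 i j) (hDl (hw'2 i))
  have hsplit : ∑ i, ∫ x, Dl (fun x => ∑ j, a i j x * w' j x) x * Dl (w' i) x =
      (∫ x, ∑ i, ∑ j, a i j (x + τ) * Dl (w' j) x * Dl (w' i) x) +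
      ∑ i, ∑ j, ∫ x, Dl (a i j) x * (w' j x) * Dl (w' i) x := by
    simp_rw [hexp]
    rw [integral_finsetSum _ fun i _ => integrable_finsetSum _ fun j _ => hm1 i j,
      ← Finset.sum_add_distrib]
    refine Finset.sum_congr rfl fun i _ => ?_
    have hm12 : ∀ j, Integrable (fun x => a i j (x + τ) * Dl (w' j) x * Dl (w' i) x +
        Dl (a i j) x * (w' j x) * Dl (w' i) x) (volume : Measure V) :=
      fun j => (hm1 i j).add (hm2 i j)
    rw [integral_finsetSum _ fun j _ => hm12 j,
      integral_finsetSum _ fun j _ => hm1 i j, ← Finset.sum_add_distrib]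
    refine Finset.sum_congr rfl fun j _ => ?_
    exact integral_add (hm1 i j) (hm2 i j)
  rw [hsplit] at key
  -- coercivity
  have hcoer : lam * ∑ i, nn (Dl (w' i)) ^ 2 ≤
      ∫ x, ∑ i, ∑ j, a i j (x + τ) * Dl (w' j) x * Dl (w' i) x := by
    simp_rw [nn_sq]
    rw [← integral_finsetSum _ fun i _ => (hDl (hw'2 i)).integrable_sq, ← integral_const_mul]
    apply integral_mono
    · exact (integrable_finsetSum _ fun i _ => (hDl (hw'2 i)).integrable_sq).const_mul _
    · exact integrable_finsetSum _ fun i _ => integrable_finsetSum _ fun j _ => hm1 i j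
    · intro x
      exact hell (x + τ) (fun i => Dl (w' i) x)
  -- bounds of the right hand side
  have hb1 : |∫ x, f x * Dm (Dl w) x| ≤ nn f * (|h| * nn (Dl (w' k))) := by
    refine (abs_integral_mul_le hf (hDm (hDl hw2))).trans ?_
    apply mul_le_mul_of_nonneg_left _ (nn_nonneg _)
    have := nn_diff_le (hDl hw2) (hDl (hw'2 k)) (hDlW hw2 (hw'2 k) (hw' k)) (-h)
    rw [abs_neg] at this
    have h2 : (fun x => Dl w (x + (-h) • e k) - Dl w x) = Dm (Dl w) := by
      ext x; simp only [Dm, hτ, neg_smul]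
    rw [h2] at this
    exact this
  have hb2 : ∀ i j, |∫ x, Dl (a i j) x * (w' j x) * Dl (w' i) x| ≤
      |h| * (L * ‖e k‖) * (nn (w' j) * nn (Dl (w' i))) := by
    intro i j
    refine (abs_integral_mul_le (hmem2 i j) (hDl (hw'2 i))).trans ?_
    have := nn_bdd_mul_le (by positivity) (hbda i j) (hw'2 j)
    refine (mul_le_mul_of_nonneg_right this (nn_nonneg _)).trans (le_of_eq ?_)
    ring
  set S : ℝ := ∑ i, nn (Dl (w' i)) with hS
  have hS0 : 0 ≤ S := Finset.sum_nonneg fun i _ => nn_nonneg _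
  have hkS : nn (Dl (w' k)) ≤ S :=
    Finset.single_le_sum (f := fun i => nn (Dl (w' i))) (fun i _ => nn_nonneg _) (Finset.mem_univ k)
  have hb3 : |∑ i, ∑ j, ∫ x, Dl (a i j) x * (w' j x) * Dl (w' i) x| ≤
      |h| * (L * ‖e k‖) * (N * S) := by
    refine (Finset.abs_sum_le_sum_abs _ _).trans ?_
    have : |h| * (L * ‖e k‖) * (N * S) = ∑ i, ∑ j, |h| * (L * ‖e k‖) *
        (nn (w' j) * nn (Dl (w' i))) := by
      simp_rw [← Finset.mul_sum, ← Finset.sum_mul]
      rw [hN, hS, Finset.mul_sum]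
    rw [this]
    refine Finset.sum_le_sum fun i _ => ?_
    refine (Finset.abs_sum_le_sum_abs _ _).trans ?_
    exact Finset.sum_le_sum fun j _ => hb2 i j
  have hmain : lam * ∑ i, nn (Dl (w' i)) ^ 2 ≤ |h| * M * S := by
    have h1 := abs_le.mp hb1
    have h3 := abs_le.mp hb3
    have h4 : nn f * (|h| * nn (Dl (w' k))) ≤ nn f * (|h| * S) := by
      have := nn_nonneg f
      gcongr
    have h5 : lam * ∑ i, nn (Dl (w' i)) ^ 2 ≤ nn f * (|h| * S) + |h| * (L * ‖e k‖) * (N * S) := by
      linarith [h1.1, h1.2, h3.1, h3.2]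
    refine h5.trans (le_of_eq ?_)
    rw [hM]; ring
  have hCS : S ^ 2 ≤ (Fintype.card ι : ℝ) * ∑ i, nn (Dl (w' i)) ^ 2 := by
    have := sq_sum_le_card_mul_sum_sq (s := (Finset.univ : Finset ι))
      (f := fun i => nn (Dl (w' i)))
    simpa using this
  have hfin : lam * S ≤ (Fintype.card ι : ℝ) * (|h| * M) := by
    rcases hS0.eq_or_lt with h0 | hpos
    · rw [← h0, mul_zero]; positivity
    · have h1 : lam * S ^ 2 ≤ (Fintype.card ι : ℝ) * (|h| * M * S) := by
        calc lam * S ^ 2 ≤ lam * ((Fintype.card ι : ℝ) * ∑ i, nn (Dl (w' i)) ^ 2) := by gcongr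
          _ = (Fintype.card ι : ℝ) * (lam * ∑ i, nn (Dl (w' i)) ^ 2) := by ring
          _ ≤ (Fintype.card ι : ℝ) * (|h| * M * S) := by gcongr
      have h2 : (lam * S) * S ≤ ((Fintype.card ι : ℝ) * (|h| * M)) * S := by
        calc (lam * S) * S = lam * S ^ 2 := by ring
          _ ≤ _ := h1
          _ = _ := by ring
      exact le_of_mul_le_mul_right h2 hpos
  have hi : nn (Dl (w' i)) ≤ S :=
    Finset.single_le_sum (f := fun i => nn (Dl (w' i))) (fun i _ => nn_nonneg _) (Finset.mem_univ i)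
  have : S ≤ |h| * C := by
    rw [hCdef]
    have : |h| * ((Fintype.card ι : ℝ) * M / lam) = ((Fintype.card ι : ℝ) * (|h| * M)) / lam := by
      ring
    rw [this, le_div_iff₀ hlam]
    linarith
  exact hi.trans this

end Crest.Agent.R249.EV
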