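import Crest.Agent.R249.EVReg_330

/-! (copy of Crest/Agent/R202/EllSobK in the namespace R249.EV, to avoid the name clash with R202/Ell1..Ell7; helper330)
Row 202: elliptic regularity, part 4: Leibniz rule, the spaces `Sob k`, higher regularity. -/

set_option autoImplicit false
open MeasureTheory Filter Topology Set
open scoped ENNReal NNReal ContDiff RealInnerProductSpace Convolution

namespace Crest.Agent.R249.EV

variable {V : Type*} [NormedAddCommGroup V] [InnerProductSpace ℝ V] [FiniteDimensional ℝ V]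
  [MeasurableSpace V] [BorelSpace V]

omit [MeasurableSpace V] [BorelSpace V] [FiniteDimensional ℝ V] in
theorem contDiff_dd {a : V → ℝ} (ha : ContDiff ℝ ∞ a) (e : V) : ContDiff ℝ ∞ (dd e a) :=
  (ha.fderiv_right (m := ∞) (by simp)).clm_apply contDiff_const

theorem locInt_smooth_mul {a u : V → ℝ} (ha : Continuous a) (hu : LocallyIntegrable u volume) :
    LocallyIntegrable (fun x => a x * u x) (volume : Measure V) := by
  have := hu.continuous_smul ha
  exact this

/-- Leibniz rule for weak derivatives. -/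
theorem WD.smooth_mul {e : V} {a u v : V → ℝ} (ha : ContDiff ℝ ∞ a)
    (hu : LocallyIntegrable u (volume : Measure V)) (hv : LocallyIntegrable v (volume : Measure V))
    (h : WD e u v) : WD e (fun x => a x * u x) (fun x => dd e a x * u x + a x * v x) := by
  intro φ hφ
  have h1 := h _ (hφ.smooth_mul ha)
  have hda := contDiff_dd ha e
  have e1 : ∀ x, u x * dd e (fun x => a x * φ x) x = u x * (dd e a x * φ x) +
      a x * u x * dd e φ x := by
    intro x
    rw [dd_mul e (ha.differentiable (by simp)) (hφ.1.differentiable (by simp))]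
    ring
  simp_rw [e1] at h1
  have i1 : Integrable (fun x => u x * (dd e a x * φ x)) (volume : Measure V) :=
    integrable_loc_mul hu (hφ.smooth_mul hda)
  have i2 : Integrable (fun x => a x * u x * dd e φ x) (volume : Measure V) :=
    integrable_loc_mul (locInt_smooth_mul ha.continuous hu) (hφ.dd e)
  have i3 : Integrable (fun x => v x * (a x * φ x)) (volume : Measure V) :=
    integrable_loc_mul hv (hφ.smooth_mul ha)
  rw [integral_add i1 i2] at h1
  have h2 : ∫ x, (dd e a x * u x + a x * v x) * φ x =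
      (∫ x, u x * (dd e a x * φ x)) + ∫ x, v x * (a x * φ x) := by
    rw [← integral_add i1 i3]
    congr 1; ext x; ring
  rw [h2]
  linarith

theorem WD.unique {e : V} {u v v' : V → ℝ} (h : WD e u v) (h' : WD e u v')
    (hv : LocallyIntegrable v volume) (hv' : LocallyIntegrable v' volume) :
    v =ᵐ[volume] v' := by
  apply ae_eq_of_integral_contDiff_smul_eq hv hv'
  intro g hg hgc
  have h1 := h g ⟨hg, hgc⟩
  have h2 := h' g ⟨hg, hgc⟩
  simp only [smul_eq_mul]
  simp_rw [mul_comm (g _)]
  linarith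

theorem WD.congr {e : V} {u u' v v' : V → ℝ} (h : WD e u v) (hu : u =ᵐ[volume] u')
    (hv : v =ᵐ[volume] v') : WD e u' v' := by
  intro φ hφ
  have h1 : ∫ x, u' x * dd e φ x = ∫ x, u x * dd e φ x := by
    apply integral_congr_ae
    filter_upwards [hu] with x hx
    rw [hx]
  have h2 : ∫ x, v' x * φ x = ∫ x, v x * φ x := by
    apply integral_congr_ae
    filter_upwards [hv] with x hx
    rw [hx]
  rw [h1, h2]
  exact h φ hφ

theorem WD.add {e : V} {u v u' v' : V → ℝ} (h : WD e u v) (h' : WD e u' v')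
    (hu : LocallyIntegrable u volume) (hv : LocallyIntegrable v volume)
    (hu' : LocallyIntegrable u' volume) (hv' : LocallyIntegrable v' volume) :
    WD e (fun x => u x + u' x) (fun x => v x + v' x) := by
  intro φ hφ
  simp_rw [add_mul]
  rw [integral_add (integrable_loc_mul hu (hφ.dd e)) (integrable_loc_mul hu' (hφ.dd e)),
    integral_add (integrable_loc_mul hv hφ) (integrable_loc_mul hv' hφ), h φ hφ, h' φ hφ]
  ring

theorem WD.const_mul {e : V} {u v : V → ℝ} (h : WD e u v) (c : ℝ) :
    WD e (fun x => c * u x) (fun x => c * v x) := by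
  intro φ hφ
  simp_rw [mul_assoc]
  rw [integral_const_mul, integral_const_mul, h φ hφ]
  ring

theorem WD.zero (e : V) : WD e (fun _ => (0 : ℝ)) (fun _ => 0) := by
  intro φ _; simp

/-- classical derivative of a smooth function is a weak derivative -/
theorem WD.of_smooth {e : V} {u : V → ℝ} (hu : ContDiff ℝ ∞ u) : WD e u (dd e u) := by
  intro φ hφ
  have i1 : Integrable (fun x => dd e u x * φ x) (volume : Measure V) :=
    (hφ.smooth_mul (contDiff_dd hu e)).integrable
  have i2 : Integrable (fun x => u x * dd e φ x) (volume : Measure V) :=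
    ((hφ.dd e).smooth_mul hu).integrable
  have i3 : Integrable (fun x => u x * φ x) (volume : Measure V) := (hφ.smooth_mul hu).integrable
  exact integral_mul_fderiv_eq_neg_fderiv_mul_of_integrable i1 i2 i3
    (fun x _ => hu.differentiable (by simp) x) (fun x _ => hφ.1.differentiable (by simp) x)

/-- the L²-Sobolev spaces of integer order relative to a family of directions -/
def Sob {ι : Type*} (e : ι → V) : ℕ → (V → ℝ) → Prop
  | 0, u => MemLp u 2 volume
  | (k + 1), u => MemLp u 2 volume ∧ ∀ i, ∃ v, WD (e i) u v ∧ Sob e k v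

variable {ι : Type*} {e : ι → V}

theorem Sob.memLp {k : ℕ} {u : V → ℝ} (h : Sob e k u) : MemLp u 2 (volume : Measure V) := by
  cases k with
  | zero => exact h
  | succ k => exact h.1

theorem Sob.locInt {k : ℕ} {u : V → ℝ} (h : Sob e k u) : LocallyIntegrable u volume :=
  EV.locInt h.memLp

theorem Sob.pred {k : ℕ} {u : V → ℝ} (h : Sob e (k + 1) u) : Sob e k u := by
  induction k generalizing u with
  | zero => exact h.1
  | succ k ih =>
    refine ⟨h.1, fun i => ?_⟩
    obtain ⟨v, hv, hv'⟩ := h.2 i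
    exact ⟨v, hv, ih hv'⟩

theorem Sob.mono {k l : ℕ} (hkl : k ≤ l) {u : V → ℝ} (h : Sob e l u) : Sob e k u := by
  induction hkl with
  | refl => exact h
  | step _ ih => exact ih h.pred

theorem Sob.congr {k : ℕ} {u v : V → ℝ} (h : Sob e k u) (huv : u =ᵐ[volume] v) : Sob e k v := by
  cases k with
  | zero => exact (memLp_congr_ae huv).mp h
  | succ k =>
    refine ⟨(memLp_congr_ae huv).mp h.1, fun i => ?_⟩
    obtain ⟨w, hw, hw'⟩ := h.2 i
    exact ⟨w, hw.congr huv (ae_eq_refl _), hw'⟩

theorem Sob.add {k : ℕ} {u v : V → ℝ} (h : Sob e k u) (h' : Sob e k v) :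
    Sob e k (fun x => u x + v x) := by
  induction k generalizing u v with
  | zero => exact MemLp.add h h'
  | succ k ih =>
    refine ⟨MemLp.add h.1 h'.1, fun i => ?_⟩
    obtain ⟨w, hw, hw1⟩ := h.2 i
    obtain ⟨w', hw', hw1'⟩ := h'.2 i
    exact ⟨_, hw.add hw' h.locInt hw1.locInt h'.locInt hw1'.locInt, ih hw1 hw1'⟩

theorem Sob.const_mul {k : ℕ} {u : V → ℝ} (h : Sob e k u) (c : ℝ) :
    Sob e k (fun x => c * u x) := by
  induction k generalizing u with
  | zero => exact MemLp.const_mul h c
  | succ k ih =>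
    refine ⟨MemLp.const_mul h.1 c, fun i => ?_⟩
    obtain ⟨w, hw, hw1⟩ := h.2 i
    exact ⟨_, hw.const_mul c, ih hw1⟩

theorem Sob.zero (k : ℕ) : Sob e k (fun _ => (0 : ℝ)) := by
  induction k with
  | zero => exact MemLp.zero
  | succ k ih => exact ⟨MemLp.zero, fun i => ⟨_, WD.zero _, ih⟩⟩

theorem Sob.sum {k : ℕ} {α : Type*} (s : Finset α) {u : α → V → ℝ} (h : ∀ a ∈ s, Sob e k (u a)) :
    Sob e k (fun x => ∑ a ∈ s, u a x) := by
  classical
  induction s using Finset.induction_on with
  | empty => simpa using Sob.zero k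
  | insert a s ha ih =>
    have h1 := (h a (Finset.mem_insert_self a s)).add
      (ih fun b hb => h b (Finset.mem_insert_of_mem hb))
    refine h1.congr (Eventually.of_forall fun x => ?_)
    simp only
    rw [Finset.sum_insert ha]

theorem Sob.sub {k : ℕ} {u v : V → ℝ} (h : Sob e k u) (h' : Sob e k v) :
    Sob e k (fun x => u x - v x) := by
  refine (h.add (h'.const_mul (-1))).congr (Eventually.of_forall fun x => ?_)
  simp only; ring

theorem Test.bdd {φ : V → ℝ} (h : Test φ) : ∃ C, 0 ≤ C ∧ ∀ x, |φ x| ≤ C := by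
  obtain ⟨C, hC⟩ := h.2.exists_bound_of_continuous h.continuous
  refine ⟨C, ?_, fun x => hC x⟩
  exact (norm_nonneg _).trans (hC 0)

theorem Sob.test_mul {k : ℕ} {u φ : V → ℝ} (hφ : Test φ) (h : Sob e k u) :
    Sob e k (fun x => φ x * u x) := by
  induction k generalizing u φ with
  | zero =>
    obtain ⟨C, -, hC⟩ := hφ.bdd
    exact memLp_bdd_mul hC hφ.continuous h
  | succ k ih =>
    obtain ⟨C, -, hC⟩ := hφ.bdd
    refine ⟨memLp_bdd_mul hC hφ.continuous h.1, fun i => ?_⟩
    obtain ⟨w, hw, hw1⟩ := h.2 i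
    exact ⟨_, hw.smooth_mul hφ.1 h.locInt hw1.locInt, (ih (hφ.dd (e i)) h.pred).add (ih hφ hw1)⟩

theorem Sob.of_test {φ : V → ℝ} (hφ : Test φ) (k : ℕ) : Sob e k φ := by
  induction k generalizing φ with
  | zero => exact hφ.memLp 2
  | succ k ih => exact ⟨hφ.memLp 2, fun i => ⟨_, WD.of_smooth hφ.1, ih (hφ.dd (e i))⟩⟩

/-- derivative of a `Sob (k+1)` function is `Sob k` for every representative -/
theorem Sob.deriv {k : ℕ} {u v : V → ℝ} (h : Sob e (k + 1) u) {i : ι} (hv : WD (e i) u v)
    (hvl : LocallyIntegrable v volume) : Sob e k v := by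
  obtain ⟨w, hw, hw1⟩ := h.2 i
  exact hw1.congr (hw.unique hv hw1.locInt hvl)

/-- cut-off equal to one on a big ball -/
theorem exists_cutoff (R : ℝ) : ∃ χ : V → ℝ, Test χ ∧ (∀ x, 0 ≤ χ x) ∧ (∀ x, χ x ≤ 1) ∧
    (∀ x, ‖x‖ < R → χ x = 1) := by
  by_cases hR : R ≤ 0
  · refine ⟨fun _ => 0, ⟨contDiff_const, HasCompactSupport.zero⟩, fun x => le_rfl,
      fun x => zero_le_one, fun x hx => absurd (hx.trans_le hR) (not_lt.mpr (norm_nonneg x))⟩
  push Not at hR
  let b : ContDiffBump (0 : V) := ⟨R, R + 1, hR, by linarith⟩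
  refine ⟨b, ⟨b.contDiff, b.hasCompactSupport⟩, fun x => b.nonneg, fun x => b.le_one, ?_⟩
  intro x hx
  apply b.one_of_mem_closedBall
  simpa using hx.le

/-- for compactly supported functions the weak derivative can be chosen compactly supported -/
theorem exists_compact_WD {u v : V → ℝ} {d : V} (hu : LocallyIntegrable u volume)
    (huc : HasCompactSupport u) (hv : LocallyIntegrable v volume) (h : WD d u v) :
    ∃ χ : V → ℝ, Test χ ∧ WD d u (fun x => χ x * v x) := by
  obtain ⟨R, hR⟩ := huc.isCompact.isBounded.subset_ball (0 : V)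
  obtain ⟨χ, hχ, -, -, hχ1⟩ := exists_cutoff (V := V) R
  refine ⟨χ, hχ, ?_⟩
  have h1 := h.smooth_mul hχ.1 hu hv
  refine h1.congr (Eventually.of_forall fun x => ?_) (Eventually.of_forall fun x => ?_)
  · simp only
    by_cases hx : u x = 0
    · rw [hx, mul_zero]
    · have : x ∈ Metric.ball (0 : V) R := hR (subset_tsupport _ hx)
      rw [hχ1 x (by simpa using this), one_mul]
  · simp only
    by_cases hx : u x = 0
    · rw [hx, mul_zero, zero_add]
    · have hx' : x ∈ Metric.ball (0 : V) R := hR (subset_tsupport _ hx)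
      have : dd d χ x = 0 := by
        have he : χ =ᶠ[𝓝 x] fun _ => 1 := by
          filter_upwards [Metric.isOpen_ball.mem_nhds hx'] with y hy
          exact hχ1 y (by simpa using hy)
        unfold dd
        rw [he.fderiv_eq]
        simp
      rw [this, zero_mul, zero_add]

omit [MeasurableSpace V] [BorelSpace V] [FiniteDimensional ℝ V] in
theorem dd_comm {φ : V → ℝ} (hφ : ContDiff ℝ ∞ φ) (d d' : V) (x : V) :
    dd d' (dd d φ) x = dd d (dd d' φ) x := by
  have hs : IsSymmSndFDerivAt ℝ φ x := by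
    apply ContDiffAt.isSymmSndFDerivAt (hφ.contDiffAt)
    rw [minSmoothness_of_isRCLikeNormedField]
    exact ENat.LEInfty.out
  have hdiff : DifferentiableAt ℝ (fderiv ℝ φ) x :=
    (hφ.fderiv_right (m := ∞) (by simp)).differentiable (by simp) x
  have e1 : ∀ u u' : V, dd u' (dd u φ) x = fderiv ℝ (fderiv ℝ φ) x u' u := by
    intro u u'
    unfold dd
    have := (hdiff.hasFDerivAt.clm_apply (hasFDerivAt_const u x)).fderiv
    rw [this]; simp
  rw [e1, e1]
  exact hs.eq _ _

/-- symmetry of second weak derivatives -/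
theorem WD.swap {d d' : V} {w p q r : V → ℝ} (hp : WD d w p) (hq : WD d' w q)
    (hr : WD d' p r) : WD d q r := by
  intro φ hφ
  have h1 := hq _ (hφ.dd d)
  have h2 := hp _ (hφ.dd d')
  have h3 := hr _ hφ
  simp_rw [dd_comm hφ.1 d d'] at h1
  linarith

end Crest.Agent.R249.EV
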