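import Crest.Agent.R202.EllFinal

/-!
# R249 (helper324), PDE layer, file 1: the splitting `ℝⁿ⁺¹ = ℝ × ℝⁿ` (derivatives and integrals)

`cn s a = (s, a)`, `tl (s, a) = a`, `hd (s, a) = s`; `cn` preserves the measure; partial derivatives.
-/

set_option autoImplicit false

noncomputable section

open scoped BigOperators ContDiff
open MeasureTheory Set Filter Topology Crest.GeometryTopology.CoordMetric
open Crest.Agent.R202.Ell

namespace Crest.Agent.R249.EllZ324

variable {n : ℕ}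

/-- first coordinate -/
def hd : EuclideanSpace ℝ (Fin (n + 1)) →L[ℝ] ℝ := EuclideanSpace.proj 0

/-- the last `n` coordinates -/
def tl : EuclideanSpace ℝ (Fin (n + 1)) →L[ℝ] EuclideanSpace ℝ (Fin n) :=
  LinearMap.toContinuousLinearMap
    { toFun := fun z => WithLp.toLp 2 fun i => z i.succ
      map_add' := fun _ _ => rfl
      map_smul' := fun _ _ => rfl }

/-- the point `(s, a)` -/
def cn (s : ℝ) (a : EuclideanSpace ℝ (Fin n)) : EuclideanSpace ℝ (Fin (n + 1)) :=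
  WithLp.toLp 2 (Fin.cons s fun i => a i)

@[simp] lemma hd_apply (z : EuclideanSpace ℝ (Fin (n + 1))) : hd z = z 0 := rfl

@[simp] lemma tl_apply (z : EuclideanSpace ℝ (Fin (n + 1))) (i : Fin n) : tl z i = z i.succ := rfl

@[simp] lemma cn_zero (s : ℝ) (a : EuclideanSpace ℝ (Fin n)) : cn s a 0 = s := rfl

@[simp] lemma cn_succ (s : ℝ) (a : EuclideanSpace ℝ (Fin n)) (i : Fin n) : cn s a i.succ = a i := rfl

@[simp] lemma tl_cn (s : ℝ) (a : EuclideanSpace ℝ (Fin n)) : tl (cn s a) = a := by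
  ext i; simp

@[simp] lemma cn_hd_tl (z : EuclideanSpace ℝ (Fin (n + 1))) : cn (z 0) (tl z) = z := by
  ext i
  refine Fin.cases ?_ (fun j => ?_) i <;> simp

/-- `(s, a) ↦ (s, a)` as a linear map -/
def cnL : ℝ × EuclideanSpace ℝ (Fin n) →L[ℝ] EuclideanSpace ℝ (Fin (n + 1)) :=
  LinearMap.toContinuousLinearMap
    { toFun := fun p => cn p.1 p.2
      map_add' := fun p q => by
        ext i
        refine Fin.cases ?_ (fun j => ?_) i <;> simp
      map_smul' := fun c p => by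
        ext i
        refine Fin.cases ?_ (fun j => ?_) i <;> simp }

lemma cnL_apply (p : ℝ × EuclideanSpace ℝ (Fin n)) : cnL p = cn p.1 p.2 := rfl

lemma cn_eq (s : ℝ) (a : EuclideanSpace ℝ (Fin n)) : cn s a = cnL (s, a) := rfl

lemma contDiff_cn : ContDiff ℝ ∞ fun p : ℝ × EuclideanSpace ℝ (Fin n) => cn p.1 p.2 :=
  (cnL (n := n)).contDiff

lemma contDiff_cn_right (s : ℝ) : ContDiff ℝ ∞ fun a : EuclideanSpace ℝ (Fin n) => cn s a :=
  contDiff_cn.comp (contDiff_const.prodMk contDiff_id)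

lemma contDiff_cn_left (a : EuclideanSpace ℝ (Fin n)) : ContDiff ℝ ∞ fun s : ℝ => cn s a :=
  contDiff_cn.comp (contDiff_id.prodMk contDiff_const)

lemma hasFDerivAt_cn_right (s : ℝ) (a : EuclideanSpace ℝ (Fin n)) :
    HasFDerivAt (fun a : EuclideanSpace ℝ (Fin n) => cn s a)
      (cnL.comp (ContinuousLinearMap.inr ℝ ℝ (EuclideanSpace ℝ (Fin n)))) a := by
  have h := (cnL (n := n)).hasFDerivAt (x := (s, a))
  exact h.comp a (hasFDerivAt_prodMk_right s a)

lemma hasFDerivAt_cn_left (s : ℝ) (a : EuclideanSpace ℝ (Fin n)) :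
    HasFDerivAt (fun s : ℝ => cn s a)
      (cnL.comp (ContinuousLinearMap.inl ℝ ℝ (EuclideanSpace ℝ (Fin n)))) s := by
  have h := (cnL (n := n)).hasFDerivAt (x := (s, a))
  have h2 : HasFDerivAt (fun e : ℝ => (e, a))
      (ContinuousLinearMap.inl ℝ ℝ (EuclideanSpace ℝ (Fin n))) s := hasFDerivAt_prodMk_left s a
  exact HasFDerivAt.comp s (g := cnL) (f := fun e : ℝ => (e, a)) h h2

lemma cn_single (i : Fin n) : cn 0 (EuclideanSpace.single i (1:ℝ)) =
    EuclideanSpace.single i.succ (1:ℝ) := by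
  ext k
  refine Fin.cases ?_ (fun j => ?_) k
  · simp
  · simp [Fin.succ_inj]

lemma cn_one_zero : cn 1 (0 : EuclideanSpace ℝ (Fin n)) = EuclideanSpace.single 0 (1:ℝ) := by
  ext k
  refine Fin.cases ?_ (fun j => ?_) k
  · simp
  · simp

/-- partial derivatives of a slice `a ↦ Φ (s, a)`. -/
lemma pderiv_slice {Φ : EuclideanSpace ℝ (Fin (n + 1)) → ℝ} {s : ℝ}
    {a : EuclideanSpace ℝ (Fin n)} (h : DifferentiableAt ℝ Φ (cn s a)) (i : Fin n) :
    pderiv i (fun b => Φ (cn s b)) a = pderiv i.succ Φ (cn s a) := by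
  have h1 := h.hasFDerivAt.comp a (hasFDerivAt_cn_right s a)
  have h2 : fderiv ℝ (fun b => Φ (cn s b)) a = (fderiv ℝ Φ (cn s a)).comp
      (cnL.comp (ContinuousLinearMap.inr ℝ ℝ (EuclideanSpace ℝ (Fin n)))) := h1.fderiv
  unfold pderiv
  rw [h2]
  change fderiv ℝ Φ (cn s a) (cn 0 (EuclideanSpace.single i (1:ℝ))) = _
  rw [cn_single]

/-- derivative of `s ↦ Φ (s, a)`. -/
lemma hasDerivAt_slice {Φ : EuclideanSpace ℝ (Fin (n + 1)) → ℝ} {s : ℝ}
    {a : EuclideanSpace ℝ (Fin n)} (h : DifferentiableAt ℝ Φ (cn s a)) :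
    HasDerivAt (fun t => Φ (cn t a)) (pderiv 0 Φ (cn s a)) s := by
  have h1 := (h.hasFDerivAt.comp s (hasFDerivAt_cn_left s a)).hasDerivAt
  have h2 : (fderiv ℝ Φ (cn s a)).comp
      (cnL.comp (ContinuousLinearMap.inl ℝ ℝ (EuclideanSpace ℝ (Fin n)))) 1 =
      pderiv 0 Φ (cn s a) := by
    change fderiv ℝ Φ (cn s a) (cn 1 (0 : EuclideanSpace ℝ (Fin n))) = _
    rw [cn_one_zero]
    rfl
  rw [h2] at h1
  exact h1

/-- partial derivatives of functions of `tl z` -/
lemma pderiv_zero_tl {p : EuclideanSpace ℝ (Fin n) → ℝ} {z : EuclideanSpace ℝ (Fin (n + 1))}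
    (h : DifferentiableAt ℝ p (tl z)) : pderiv 0 (fun y => p (tl y)) z = 0 := by
  have h1 : HasFDerivAt (fun y => p (tl y)) ((fderiv ℝ p (tl z)).comp tl) z :=
    h.hasFDerivAt.comp z (tl (n := n)).hasFDerivAt
  unfold pderiv
  rw [h1.fderiv]
  have h2 : tl (EuclideanSpace.single 0 (1:ℝ) : EuclideanSpace ℝ (Fin (n + 1))) = 0 := by
    ext i; simp
  change fderiv ℝ p (tl z) (tl (EuclideanSpace.single 0 (1:ℝ))) = 0
  rw [h2, map_zero]

/-! ### the measure -/

/-- `(s, a) ↦ (s, a)` as a measurable equivalence -/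
def mkE (n : ℕ) : ℝ × EuclideanSpace ℝ (Fin n) ≃ᵐ EuclideanSpace ℝ (Fin (n + 1)) :=
  ((MeasurableEquiv.refl ℝ).prodCongr (MeasurableEquiv.toLp 2 (Fin n → ℝ)).symm).trans
    ((MeasurableEquiv.piFinSuccAbove (fun _ : Fin (n + 1) => ℝ) 0).symm.trans
      (MeasurableEquiv.toLp 2 (Fin (n + 1) → ℝ)))

theorem mkE_apply (s : ℝ) (a : EuclideanSpace ℝ (Fin n)) : mkE n (s, a) = cn s a := by
  ext i
  refine Fin.cases ?_ (fun j => ?_) i
  · simp [mkE, MeasurableEquiv.piFinSuccAbove, Fin.insertNthEquiv, MeasurableEquiv.prodCongr]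
  · simp [mkE, MeasurableEquiv.piFinSuccAbove, Fin.insertNthEquiv, MeasurableEquiv.prodCongr]

theorem measurePreserving_mkE : MeasurePreserving (mkE n) volume volume := by
  have h1 : MeasurePreserving ((MeasurableEquiv.refl ℝ).prodCongr
      (MeasurableEquiv.toLp 2 (Fin n → ℝ)).symm)
      (volume : Measure (ℝ × EuclideanSpace ℝ (Fin n))) volume :=
    (MeasurePreserving.id volume).prod (PiLp.volume_preserving_ofLp (Fin n))
  have h3 : MeasurePreserving (MeasurableEquiv.piFinSuccAbove (fun _ : Fin (n + 1) => ℝ) 0).symm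
      (volume : Measure (ℝ × (Fin n → ℝ))) volume :=
    (volume_preserving_piFinSuccAbove (fun _ : Fin (n + 1) => ℝ) 0).symm
  have h4 : MeasurePreserving (MeasurableEquiv.toLp 2 (Fin (n + 1) → ℝ)) volume volume :=
    PiLp.volume_preserving_toLp (Fin (n + 1))
  exact (h4.comp h3).comp h1

theorem mkE_coe : (mkE n : ℝ × EuclideanSpace ℝ (Fin n) → EuclideanSpace ℝ (Fin (n + 1))) =
    fun p => cn p.1 p.2 := by
  funext p
  exact mkE_apply p.1 p.2

theorem integral_cn (K : EuclideanSpace ℝ (Fin (n + 1)) → ℝ) :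
    ∫ x, K x = ∫ t : ℝ × EuclideanSpace ℝ (Fin n), K (cn t.1 t.2) := by
  rw [← (measurePreserving_mkE (n := n)).integral_comp (mkE n).measurableEmbedding K]
  refine integral_congr_ae (Filter.Eventually.of_forall fun t => ?_)
  dsimp only
  rw [mkE_coe]

theorem ae_cn {P : EuclideanSpace ℝ (Fin (n + 1)) → Prop} (h : ∀ᵐ z, P z) :
    ∀ᵐ t : ℝ × EuclideanSpace ℝ (Fin n), P (cn t.1 t.2) := by
  have h1 := (measurePreserving_mkE (n := n)).quasiMeasurePreserving.ae h
  filter_upwards [h1] with t ht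
  rwa [mkE_coe] at ht

theorem of_ae_cn {P : EuclideanSpace ℝ (Fin (n + 1)) → Prop}
    (h : ∀ᵐ t : ℝ × EuclideanSpace ℝ (Fin n), P (cn t.1 t.2)) : ∀ᵐ z, P z := by
  have h0 := (measurePreserving_mkE (n := n)).symm
  have h1 := h0.quasiMeasurePreserving.ae h
  filter_upwards [h1] with z hz
  have h2 : (mkE n) ((mkE n).symm z) = z := (mkE n).apply_symm_apply z
  rw [mkE_coe] at h2
  simpa only [h2] using hz

end Crest.Agent.R249.EllZ324
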