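import Crest.Agent.R249.EllZA_324

/-!
# R249 (helper324), PDE layer, file 2: elliptic regularity with a zero order term

`div (A ∇u) - τ q u = f` in the sense of distributions on `U`, `u ∈ L¹_loc(U)`, `A`, `q > 0`, `f` smooth:
`u` is smooth.  (Extra variable `s`: `u(a) κ(s)` with `κ'' = -τ κ` solves an equation without zero
order term in `ℝ × U`.)
-/

set_option autoImplicit false

noncomputable section

open scoped BigOperators ContDiff
open MeasureTheory Set Filter Topology Crest.GeometryTopology.CoordMetric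
open Crest.Agent.R202.Ell

namespace Crest.Agent.R249.EllZ324

variable {n : ℕ}

/-- the coefficients in one more variable -/
def bigA (A : EuclideanSpace ℝ (Fin n) → Matrix (Fin n) (Fin n) ℝ)
    (q : EuclideanSpace ℝ (Fin n) → ℝ) (z : EuclideanSpace ℝ (Fin (n + 1))) :
    Matrix (Fin (n + 1)) (Fin (n + 1)) ℝ :=
  Matrix.of fun i j => Fin.cases (Fin.cases (q (tl z)) (fun _ => 0) j)
    (fun i' => Fin.cases 0 (fun j' => A (tl z) i' j') j) i

variable {A : EuclideanSpace ℝ (Fin n) → Matrix (Fin n) (Fin n) ℝ}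
  {q : EuclideanSpace ℝ (Fin n) → ℝ}

@[simp] lemma bigA_zero_zero (z : EuclideanSpace ℝ (Fin (n + 1))) : bigA A q z 0 0 = q (tl z) := rfl

@[simp] lemma bigA_zero_succ (z : EuclideanSpace ℝ (Fin (n + 1))) (j : Fin n) :
    bigA A q z 0 j.succ = 0 := rfl

@[simp] lemma bigA_succ_zero (z : EuclideanSpace ℝ (Fin (n + 1))) (i : Fin n) :
    bigA A q z i.succ 0 = 0 := rfl

@[simp] lemma bigA_succ_succ (z : EuclideanSpace ℝ (Fin (n + 1))) (i j : Fin n) :
    bigA A q z i.succ j.succ = A (tl z) i j := rfl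

lemma contDiffOn_bigA {U : Set (EuclideanSpace ℝ (Fin n))}
    (hA : ∀ i j, ContDiffOn ℝ ∞ (fun x => A x i j) U) (hq : ContDiffOn ℝ ∞ q U)
    (i j : Fin (n + 1)) : ContDiffOn ℝ ∞ (fun z => bigA A q z i j) (tl ⁻¹' U) := by
  have ht : ContDiffOn ℝ ∞ (tl : EuclideanSpace ℝ (Fin (n + 1)) → EuclideanSpace ℝ (Fin n))
      (tl ⁻¹' U) := (tl (n := n)).contDiff.contDiffOn
  refine Fin.cases ?_ (fun i' => ?_) i
  · refine Fin.cases ?_ (fun j' => ?_) j
    · exact hq.comp ht fun z hz => hz
    · exact contDiffOn_const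
  · refine Fin.cases ?_ (fun j' => ?_) j
    · exact contDiffOn_const
    · exact (hA i' j').comp ht fun z hz => hz

lemma posDef_bigA {z : EuclideanSpace ℝ (Fin (n + 1))} (hA : (A (tl z)).PosDef)
    (hq : 0 < q (tl z)) : (bigA A q z).PosDef := by
  refine Matrix.PosDef.of_dotProduct_mulVec_pos ?_ ?_
  · ext i j
    refine Fin.cases ?_ (fun i' => ?_) i
    · refine Fin.cases ?_ (fun j' => ?_) j
      · simp [Matrix.conjTranspose_apply]
      · simp [Matrix.conjTranspose_apply]
    · refine Fin.cases ?_ (fun j' => ?_) j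
      · simp [Matrix.conjTranspose_apply]
      · have h := congrFun (congrFun hA.isHermitian i') j'
        simpa [Matrix.conjTranspose_apply] using h
  · intro x hx
    have e : star x ⬝ᵥ (bigA A q z).mulVec x = q (tl z) * x 0 ^ 2 +
        star (fun i : Fin n => x i.succ) ⬝ᵥ (A (tl z)).mulVec (fun i : Fin n => x i.succ) := by
      simp only [dotProduct, Matrix.mulVec, Pi.star_apply, star_trivial, Fin.sum_univ_succ,
        bigA_zero_zero, bigA_zero_succ, bigA_succ_zero, bigA_succ_succ, zero_mul,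
        Finset.sum_const_zero, add_zero, zero_add]
      ring
    rw [e]
    by_cases h0 : (fun i : Fin n => x i.succ) = 0
    · have hx0 : x 0 ≠ 0 := by
        intro h1
        apply hx
        ext i
        refine Fin.cases h1 (fun j => ?_) i
        exact congrFun h0 j
      rw [h0]
      simp only [star_zero, Matrix.mulVec_zero, dotProduct_zero, add_zero]
      positivity
    · have h1 := hA.dotProduct_mulVec_pos h0
      have h2 : 0 ≤ q (tl z) * x 0 ^ 2 := by positivity
      linarith

/-- `div (A' ∇Φ)` in the extended space -/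
lemma divA_bigA {U : Set (EuclideanSpace ℝ (Fin n))} (hU : IsOpen U)
    (hA : ∀ i j, ContDiffOn ℝ ∞ (fun x => A x i j) U) (hq : ContDiffOn ℝ ∞ q U)
    {W : Set (EuclideanSpace ℝ (Fin (n + 1)))} (hW : IsOpen W)
    {Φ : EuclideanSpace ℝ (Fin (n + 1)) → ℝ} (hΦ : ContDiffOn ℝ ∞ Φ W) {s : ℝ}
    {a : EuclideanSpace ℝ (Fin n)} (ha : a ∈ U) (hW' : cn s a ∈ W) :
    divA (bigA A q) Φ (cn s a) = divA A (fun b => Φ (cn s b)) a +
      q a * pderiv 0 (pderiv 0 Φ) (cn s a) := by
  have hd : ∀ (j : Fin (n + 1)) (y : EuclideanSpace ℝ (Fin (n + 1))), y ∈ W →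
      DifferentiableAt ℝ (pderiv j Φ) y := fun j y hy =>
    ((contDiffOn_pd hW hΦ j).contDiffAt (hW.mem_nhds hy)).differentiableAt (by simp)
  have hUt : DifferentiableAt ℝ q (tl (cn s a)) := by
    rw [tl_cn]
    exact (hq.contDiffAt (hU.mem_nhds ha)).differentiableAt (by simp)
  have hqt : DifferentiableAt ℝ (fun y : EuclideanSpace ℝ (Fin (n + 1)) => q (tl y)) (cn s a) :=
    hUt.comp (cn s a) (tl (n := n)).differentiableAt
  unfold divA
  rw [Fin.sum_univ_succ, add_comm]
  congr 1
  · refine Finset.sum_congr rfl fun i _ => ?_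
    -- the flux in direction `i.succ`
    have hF : ∀ y : EuclideanSpace ℝ (Fin (n + 1)),
        (∑ j, bigA A q y i.succ j * pderiv j Φ y) =
          ∑ j : Fin n, A (tl y) i j * pderiv j.succ Φ y := by
      intro y
      rw [Fin.sum_univ_succ]
      simp
    simp only [hF]
    have hAt : ∀ j, DifferentiableAt ℝ
        (fun y : EuclideanSpace ℝ (Fin (n + 1)) => A (tl y) i j) (cn s a) := by
      intro j
      have h1 : DifferentiableAt ℝ (fun x => A x i j) (tl (cn s a)) := by
        rw [tl_cn]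
        exact ((hA i j).contDiffAt (hU.mem_nhds ha)).differentiableAt (by simp)
      exact h1.comp (cn s a) (tl (n := n)).differentiableAt
    have hdiff : DifferentiableAt ℝ (fun y : EuclideanSpace ℝ (Fin (n + 1)) =>
        ∑ j : Fin n, A (tl y) i j * pderiv j.succ Φ y) (cn s a) :=
      DifferentiableAt.fun_sum fun j _ => (hAt j).mul (hd _ _ hW')
    rw [← pderiv_slice hdiff i]
    refine pderiv_congr ?_ i
    have hnh : ∀ᶠ b in 𝓝 a, cn s b ∈ W :=
      (contDiff_cn_right s).continuous.continuousAt.preimage_mem_nhds (hW.mem_nhds hW')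
    filter_upwards [hnh] with b hb
    refine Finset.sum_congr rfl fun j _ => ?_
    rw [tl_cn, pderiv_slice (((hΦ.contDiffAt (hW.mem_nhds hb)).differentiableAt (by simp))) j]
  · have hF : ∀ y : EuclideanSpace ℝ (Fin (n + 1)),
        (∑ j, bigA A q y 0 j * pderiv j Φ y) = q (tl y) * pderiv 0 Φ y := by
      intro y
      rw [Fin.sum_univ_succ]
      simp
    simp only [hF]
    have h1 : pderiv 0 (fun y => q (tl y) * pderiv 0 Φ y) (cn s a) =
        q (tl (cn s a)) * pderiv 0 (pderiv 0 Φ) (cn s a) +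
          pderiv 0 (fun y => q (tl y)) (cn s a) * pderiv 0 Φ (cn s a) := by
      change fderiv ℝ (fun y => q (tl y) * pderiv 0 Φ y) (cn s a) (EuclideanSpace.single 0 1) = _
      rw [fderiv_fun_mul hqt (hd 0 _ hW')]
      simp only [add_apply, smul_apply, smul_eq_mul]
      rw [mul_comm (pderiv 0 Φ (cn s a))]
      rfl
    rw [h1, pderiv_zero_tl hUt, tl_cn]
    ring

end Crest.Agent.R249.EllZ324
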