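import Crest.Agent.R249.EllZB_324

/-!
# R249 (helper324), PDE layer, file 3: elliptic regularity with a zero order term, the theorem
-/

set_option autoImplicit false

noncomputable section

open scoped BigOperators ContDiff
open MeasureTheory Set Filter Topology Crest.GeometryTopology.CoordMetric
open Crest.Agent.R202.Ell

namespace Crest.Agent.R249.EllZ324

variable {n : ℕ}

/-- a function smooth on an open set and supported (closed support) in it is smooth. -/
lemma contDiff_of_tsupport {U : Set (EuclideanSpace ℝ (Fin n))} (hU : IsOpen U)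
    {g : EuclideanSpace ℝ (Fin n) → ℝ} (hg : ContDiffOn ℝ ∞ g U) {K : Set (EuclideanSpace ℝ (Fin n))}
    (hK : IsClosed K) (hKU : K ⊆ U) (h0 : ∀ x, x ∉ K → g x = 0) : ContDiff ℝ ∞ g := by
  rw [contDiff_iff_contDiffAt]
  intro x
  by_cases hx : x ∈ U
  · exact hg.contDiffAt (hU.mem_nhds hx)
  · have hx' : x ∉ K := fun h => hx (hKU h)
    have : g =ᶠ[nhds x] fun _ => 0 := by
      filter_upwards [hK.isOpen_compl.mem_nhds hx'] with y hy using h0 y hy
    exact contDiffAt_const.congr_of_eventuallyEq this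

/-- `∫ κ(s) (F'' + τ F) ds = 0` if `κ'' = - τ κ` and `F` has compact support. -/
lemma integral_kappa {κ : ℝ → ℝ} {τ : ℝ} (hκ : ContDiff ℝ ∞ κ)
    (hκ2 : ∀ s, deriv (deriv κ) s = - τ * κ s) {F F1 F2 : ℝ → ℝ}
    (h1 : ∀ s, HasDerivAt F (F1 s) s) (h2 : ∀ s, HasDerivAt F1 (F2 s) s)
    (hc : Continuous F2) (hs : HasCompactSupport F) (hs1 : HasCompactSupport F1)
    (hs2 : HasCompactSupport F2) :
    ∫ s, κ s * (F2 s + τ * F s) = 0 := by
  have hk1 : ∀ s, HasDerivAt κ (deriv κ s) s := fun s =>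
    (hκ.differentiable (by simp) s).hasDerivAt
  have hκ' : ContDiff ℝ ∞ (deriv κ) := by
    exact (contDiff_infty_iff_deriv.1 hκ).2
  have hk2 : ∀ s, HasDerivAt (deriv κ) (- τ * κ s) s := fun s => by
    rw [← hκ2 s]
    exact (hκ'.differentiable (by simp) s).hasDerivAt
  have hder : ∀ s, HasDerivAt (fun s => κ s * F1 s - deriv κ s * F s)
      (κ s * (F2 s + τ * F s)) s := by
    intro s
    have h := ((hk1 s).mul (h2 s)).sub ((hk2 s).mul (h1 s))
    refine h.congr_deriv ?_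
    ring
  have cF : Continuous F := continuous_iff_continuousAt.2 fun s => (h1 s).continuousAt
  have cF1 : Continuous F1 := continuous_iff_continuousAt.2 fun s => (h2 s).continuousAt
  refine integral_eq_zero_of_hasDerivAt_of_integrable hder ?_ ?_
  · refine Continuous.integrable_of_hasCompactSupport
      (hκ.continuous.mul (hc.add (continuous_const.mul cF))) ?_
    exact HasCompactSupport.mul_left (hs2.add (HasCompactSupport.mul_left hs))
  · refine Continuous.integrable_of_hasCompactSupport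
      ((hκ.continuous.mul cF1).sub (hκ'.continuous.mul cF)) ?_
    exact (HasCompactSupport.mul_left hs1).sub (HasCompactSupport.mul_left hs)

section Fubini

variable {U : Set (EuclideanSpace ℝ (Fin n))} {u : EuclideanSpace ℝ (Fin n) → ℝ}

/-- integrability on the product -/
lemma integrable_prod_loc (hu : LocallyIntegrableOn u U)
    {K : Set (EuclideanSpace ℝ (Fin (n + 1)))} (hK : IsCompact K) (hKU : K ⊆ tl ⁻¹' U)
    {κ : ℝ → ℝ} (hκ : Continuous κ) {G : EuclideanSpace ℝ (Fin (n + 1)) → ℝ} (hG : Continuous G)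
    (h0 : ∀ z, z ∉ K → G z = 0) :
    Integrable (fun p : ℝ × EuclideanSpace ℝ (Fin n) => u p.2 * (κ p.1 * G (cn p.1 p.2)))
      (volume.prod volume) := by
  set K2 : Set (EuclideanSpace ℝ (Fin n)) := tl '' K with hK2
  set K1 : Set ℝ := hd '' K with hK1
  have c2 : IsCompact K2 := hK.image tl.continuous
  have c1 : IsCompact K1 := hK.image hd.continuous
  have hK2U : K2 ⊆ U := by
    rintro _ ⟨z, hz, rfl⟩
    exact hKU hz
  have hu2 : Integrable (K2.indicator u) := by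
    rw [integrable_indicator_iff c2.measurableSet]
    exact hu.integrableOn_compact_subset hK2U c2
  have h1 : Integrable (K1.indicator fun _ : ℝ => (1:ℝ)) := by
    rw [integrable_indicator_iff c1.measurableSet]
    exact integrableOn_const c1.measure_lt_top.ne
  have h12 : Integrable (fun p : ℝ × EuclideanSpace ℝ (Fin n) =>
      K1.indicator (fun _ : ℝ => (1:ℝ)) p.1 * K2.indicator u p.2) (volume.prod volume) :=
    h1.mul_prod hu2
  have hcont : Continuous fun p : ℝ × EuclideanSpace ℝ (Fin n) => κ p.1 * G (cn p.1 p.2) :=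
    (hκ.comp continuous_fst).mul (hG.comp contDiff_cn.continuous)
  have hcs : HasCompactSupport fun p : ℝ × EuclideanSpace ℝ (Fin n) =>
      κ p.1 * G (cn p.1 p.2) := by
    refine HasCompactSupport.intro (c1.prod c2) ?_
    intro p hp
    have : cn p.1 p.2 ∉ K := by
      intro h
      apply hp
      exact ⟨⟨_, h, by simp⟩, ⟨_, h, by simp⟩⟩
    rw [h0 _ this, mul_zero]
  obtain ⟨C, hC⟩ := hcs.exists_bound_of_continuous hcont
  refine (h12.mul_bdd hcont.aestronglyMeasurable (Eventually.of_forall hC)).congr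
    (Eventually.of_forall fun p => ?_)
  dsimp only
  by_cases hp : cn p.1 p.2 ∈ K
  · have e1 : p.1 ∈ K1 := ⟨_, hp, by simp⟩
    have e2 : p.2 ∈ K2 := ⟨_, hp, by simp⟩
    rw [indicator_of_mem e1, indicator_of_mem e2]
    ring
  · rw [h0 _ hp]
    ring

end Fubini

variable {A : EuclideanSpace ℝ (Fin n) → Matrix (Fin n) (Fin n) ℝ}
  {q : EuclideanSpace ℝ (Fin n) → ℝ}

/-- the extended equation in the sense of distributions -/
theorem weak_ext {U : Set (EuclideanSpace ℝ (Fin n))} (hU : IsOpen U)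
    (hA : ∀ i j, ContDiffOn ℝ ∞ (fun x => A x i j) U) (hq : ContDiffOn ℝ ∞ q U)
    {f : EuclideanSpace ℝ (Fin n) → ℝ} (hf : ContDiffOn ℝ ∞ f U)
    {u : EuclideanSpace ℝ (Fin n) → ℝ} (hu : LocallyIntegrableOn u U) {τ : ℝ}
    (h : ∀ φ : EuclideanSpace ℝ (Fin n) → ℝ, ContDiff ℝ ∞ φ → HasCompactSupport φ →
      tsupport φ ⊆ U → ∫ x, u x * (divA A φ x - τ * (q x * φ x)) = ∫ x, f x * φ x)
    {κ : ℝ → ℝ} (hκ : ContDiff ℝ ∞ κ) (hκ2 : ∀ s, deriv (deriv κ) s = - τ * κ s)
    {Φ : EuclideanSpace ℝ (Fin (n + 1)) → ℝ} (hΦ : ContDiff ℝ ∞ Φ) (hc : HasCompactSupport Φ)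
    (hs : tsupport Φ ⊆ tl ⁻¹' U) :
    ∫ z, (u (tl z) * κ (z 0)) * divA (bigA A q) Φ z = ∫ z, (f (tl z) * κ (z 0)) * Φ z := by
  have hU' : IsOpen (tl ⁻¹' U : Set (EuclideanSpace ℝ (Fin (n + 1)))) :=
    hU.preimage tl.continuous
  set K := tsupport Φ with hK
  have hKc : IsCompact K := hc.isCompact
  have hKcl : IsClosed K := isClosed_tsupport Φ
  -- the functions
  have htq : ContDiffOn ℝ ∞ (fun z : EuclideanSpace ℝ (Fin (n + 1)) => q (tl z)) (tl ⁻¹' U) :=
    hq.comp (tl (n := n)).contDiff.contDiffOn fun z hz => hz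
  have htf : ContDiffOn ℝ ∞ (fun z : EuclideanSpace ℝ (Fin (n + 1)) => f (tl z)) (tl ⁻¹' U) :=
    hf.comp (tl (n := n)).contDiff.contDiffOn fun z hz => hz
  have hpp : ContDiff ℝ ∞ (pderiv 0 (pderiv 0 Φ)) := contDiff_pderiv (contDiff_pderiv hΦ 0) 0
  have zpp : ∀ z, z ∉ K → pderiv 0 (pderiv 0 Φ) z = 0 := fun z hz =>
    pderiv_eq_zero_of_notMem (fun h => hz (tsupport_pderiv_subset Φ 0 h)) 0
  have zΦ : ∀ z, z ∉ K → Φ z = 0 := fun z hz => image_eq_zero_of_notMem_tsupport hz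
  have zD : ∀ z, z ∉ K → divA (bigA A q) Φ z = 0 := fun z hz =>
    image_eq_zero_of_notMem_tsupport fun h => hz (tsupport_divA_subset _ Φ h)
  have sD : ContDiff ℝ ∞ (divA (bigA A q) Φ) := by
    refine contDiff_of_tsupport hU' ?_ hKcl hs zD
    intro z hz
    refine ContDiffAt.contDiffWithinAt ?_
    unfold divA
    refine ContDiffAt.sum fun i _ => ?_
    have h1 : ContDiffOn ℝ ∞ (fun y => ∑ j, bigA A q y i j * pderiv j Φ y) (tl ⁻¹' U) :=
      ContDiffOn.sum fun j _ => (contDiffOn_bigA hA hq i j).mul (contDiff_pderiv hΦ j).contDiffOn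
    exact (contDiffOn_pd hU' h1 i).contDiffAt (hU'.mem_nhds hz)
  -- `G₁ = D₁ - τ q Φ`, `G₂ = q (∂₀∂₀Φ + τ Φ)`, `G₃ = f Φ`
  have s2 : ContDiff ℝ ∞ fun z : EuclideanSpace ℝ (Fin (n + 1)) =>
      q (tl z) * (pderiv 0 (pderiv 0 Φ) z + τ * Φ z) := by
    refine contDiff_of_tsupport hU' (htq.mul (hpp.add (contDiff_const.mul hΦ)).contDiffOn) hKcl hs
      fun z hz => ?_
    rw [zpp z hz, zΦ z hz]
    ring
  have z2 : ∀ z, z ∉ K → q (tl z) * (pderiv 0 (pderiv 0 Φ) z + τ * Φ z) = 0 := fun z hz => by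
    rw [zpp z hz, zΦ z hz]
    ring
  have s3 : ContDiff ℝ ∞ fun z : EuclideanSpace ℝ (Fin (n + 1)) => f (tl z) * Φ z :=
    contDiff_of_tsupport hU' (htf.mul hΦ.contDiffOn) hKcl hs fun z hz => by
      rw [zΦ z hz, mul_zero]
  have z3 : ∀ z, z ∉ K → f (tl z) * Φ z = 0 := fun z hz => by rw [zΦ z hz, mul_zero]
  set G1 : EuclideanSpace ℝ (Fin (n + 1)) → ℝ := fun z =>
    divA (bigA A q) Φ z - q (tl z) * (pderiv 0 (pderiv 0 Φ) z + τ * Φ z) with hG1
  have s1 : ContDiff ℝ ∞ G1 := sD.sub s2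
  have z1 : ∀ z, z ∉ K → G1 z = 0 := fun z hz => by rw [hG1]; simp only; rw [zD z hz, z2 z hz, sub_zero]
  -- slices
  have hsl : ∀ s : ℝ, ContDiff ℝ ∞ (fun a => Φ (cn s a)) := fun s => hΦ.comp (contDiff_cn_right s)
  have hslK : ∀ s : ℝ, ∀ a, a ∉ tl '' K → Φ (cn s a) = 0 := fun s a ha =>
    zΦ _ fun h => ha ⟨_, h, by simp⟩
  have hK2 : IsCompact (tl '' K) := hKc.image tl.continuous
  have hK2U : tl '' K ⊆ U := by
    rintro _ ⟨z, hz, rfl⟩
    exact hs hz
  have hslc : ∀ s : ℝ, HasCompactSupport (fun a => Φ (cn s a)) := fun s =>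
    HasCompactSupport.intro hK2 (hslK s)
  have hslt : ∀ s : ℝ, tsupport (fun a => Φ (cn s a)) ⊆ tl '' K := fun s =>
    closure_minimal (fun a ha => by
      by_contra hne
      exact ha (hslK s a hne)) hK2.isClosed
  have hG1s : ∀ (s : ℝ) (a : EuclideanSpace ℝ (Fin n)),
      G1 (cn s a) = divA A (fun b => Φ (cn s b)) a - τ * (q a * Φ (cn s a)) := by
    intro s a
    by_cases ha : a ∈ U
    · rw [hG1]
      simp only
      rw [divA_bigA hU hA hq isOpen_univ hΦ.contDiffOn ha (mem_univ _), tl_cn]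
      ring
    · have h1 : cn s a ∉ K := fun h => ha (by simpa using hs h)
      have h2 : a ∉ tsupport (fun b => Φ (cn s b)) := fun h => ha (hK2U (hslt s h))
      rw [z1 _ h1, zΦ _ h1, image_eq_zero_of_notMem_tsupport fun h => h2 (tsupport_divA_subset A _ h)]
      ring
  -- the first integral
  have i1 := integrable_prod_loc hu hKc hs hκ.continuous s1.continuous z1
  have i2 := integrable_prod_loc hu hKc hs hκ.continuous s2.continuous z2
  have e1 : ∫ p : ℝ × EuclideanSpace ℝ (Fin n), u p.2 * (κ p.1 * G1 (cn p.1 p.2)) =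
      ∫ p : ℝ × EuclideanSpace ℝ (Fin n), κ p.1 * (f (tl (cn p.1 p.2)) * Φ (cn p.1 p.2)) := by
    have i3 : Integrable (fun p : ℝ × EuclideanSpace ℝ (Fin n) =>
        κ p.1 * (f (tl (cn p.1 p.2)) * Φ (cn p.1 p.2))) (volume.prod volume) := by
      have := integrable_prod_loc (u := fun _ => (1:ℝ)) (U := U)
        (locallyIntegrableOn_const _) hKc hs hκ.continuous s3.continuous z3
      simpa only [one_mul] using this
    change ∫ p, _ ∂(volume.prod volume) = ∫ p, _ ∂(volume.prod volume)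
    rw [integral_prod _ i1, integral_prod _ i3]
    refine integral_congr_ae (Eventually.of_forall fun s => ?_)
    dsimp only
    have e4 : ∀ a, u a * (κ s * G1 (cn s a)) =
        κ s * (u a * (divA A (fun b => Φ (cn s b)) a - τ * (q a * Φ (cn s a)))) := by
      intro a
      rw [hG1s s a]
      ring
    simp only [e4, tl_cn]
    rw [integral_const_mul, integral_const_mul,
      h _ (hsl s) (hslc s) ((hslt s).trans hK2U)]
  -- the second integral
  have e2 : ∫ p : ℝ × EuclideanSpace ℝ (Fin n), u p.2 * (κ p.1 *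
      (q (tl (cn p.1 p.2)) * (pderiv 0 (pderiv 0 Φ) (cn p.1 p.2) + τ * Φ (cn p.1 p.2)))) = 0 := by
    change ∫ p, _ ∂(volume.prod volume) = 0
    rw [integral_prod_symm _ i2]
    refine integral_eq_zero_of_ae (Eventually.of_forall fun a => ?_)
    dsimp only
    have e4 : ∀ s, u a * (κ s * (q (tl (cn s a)) *
        (pderiv 0 (pderiv 0 Φ) (cn s a) + τ * Φ (cn s a)))) =
        (u a * q a) * (κ s * (pderiv 0 (pderiv 0 Φ) (cn s a) + τ * Φ (cn s a))) := by
      intro s
      rw [tl_cn]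
      ring
    simp only [e4]
    rw [integral_const_mul]
    have hK1 : IsCompact (hd '' K) := hKc.image hd.continuous
    have hcsl : ∀ {Ψ : EuclideanSpace ℝ (Fin (n + 1)) → ℝ}, (∀ z, z ∉ K → Ψ z = 0) →
        HasCompactSupport (fun s => Ψ (cn s a)) := fun hΨ =>
      HasCompactSupport.intro hK1 fun s hs' => hΨ _ fun h => hs' ⟨_, h, by simp⟩
    have zp : ∀ z, z ∉ K → pderiv 0 Φ z = 0 := fun z hz =>
      pderiv_eq_zero_of_notMem hz 0
    have hd0 := contDiff_pderiv hΦ (0 : Fin (n + 1))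
    rw [integral_kappa hκ hκ2 (F := fun s => Φ (cn s a)) (F1 := fun s => pderiv 0 Φ (cn s a))
      (F2 := fun s => pderiv 0 (pderiv 0 Φ) (cn s a))
      (fun s => hasDerivAt_slice (hΦ.differentiable (by simp) _))
      (fun s => hasDerivAt_slice (hd0.differentiable (by simp) _))
      (hpp.continuous.comp (contDiff_cn_left a).continuous) (hcsl zΦ) (hcsl zp) (hcsl zpp), mul_zero]
    rfl
  rw [integral_cn, integral_cn]
  have e5 : ∀ p : ℝ × EuclideanSpace ℝ (Fin n),
      (u (tl (cn p.1 p.2)) * κ (cn p.1 p.2 0)) * divA (bigA A q) Φ (cn p.1 p.2) =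
        u p.2 * (κ p.1 * G1 (cn p.1 p.2)) + u p.2 * (κ p.1 *
          (q (tl (cn p.1 p.2)) * (pderiv 0 (pderiv 0 Φ) (cn p.1 p.2) + τ * Φ (cn p.1 p.2)))) := by
    intro p
    rw [hG1]
    simp only [tl_cn, cn_zero]
    ring
  have e6 : ∀ p : ℝ × EuclideanSpace ℝ (Fin n),
      (f (tl (cn p.1 p.2)) * κ (cn p.1 p.2 0)) * Φ (cn p.1 p.2) =
        κ p.1 * (f (tl (cn p.1 p.2)) * Φ (cn p.1 p.2)) := by
    intro p
    simp only [cn_zero]
    ring
  simp only [e5, e6]
  rw [← e1]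
  rw [show (∫ p : ℝ × EuclideanSpace ℝ (Fin n), (u p.2 * (κ p.1 * G1 (cn p.1 p.2)) + u p.2 * (κ p.1 *
          (q (tl (cn p.1 p.2)) * (pderiv 0 (pderiv 0 Φ) (cn p.1 p.2) + τ * Φ (cn p.1 p.2)))))) =
      (∫ p : ℝ × EuclideanSpace ℝ (Fin n), u p.2 * (κ p.1 * G1 (cn p.1 p.2))) +
      ∫ p : ℝ × EuclideanSpace ℝ (Fin n), u p.2 * (κ p.1 *
          (q (tl (cn p.1 p.2)) * (pderiv 0 (pderiv 0 Φ) (cn p.1 p.2) + τ * Φ (cn p.1 p.2))))
      from integral_add i1 i2, e2, add_zero]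

end Crest.Agent.R249.EllZ324
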