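import Crest.Agent.R249.EllZC_324

/-!
# R249 (helper324), PDE layer, file 4: elliptic regularity with a zero order term

`ell_regularity_zero`: `u ∈ L¹_loc(U)`, `div (A ∇u) - τ q u = f` in the sense of distributions with
`A` symmetric positive definite, `q > 0`, `f` smooth on `U`, `τ = ± 1`; then `u = v` a.e. on `U` with `v`
smooth on `U` and `div (A ∇v) - τ q v = f` pointwise.
-/

set_option autoImplicit false

noncomputable section

open scoped BigOperators ContDiff
open MeasureTheory Set Filter Topology Crest.GeometryTopology.CoordMetric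
open Crest.Agent.R202.Ell

namespace Crest.Agent.R249.EllZ324

variable {n : ℕ}

/-- the functions `cos`, `cosh` -/
lemma exists_kappa {τ : ℝ} (hτ : τ = 1 ∨ τ = -1) : ∃ κ : ℝ → ℝ, ContDiff ℝ ∞ κ ∧
    (∀ s, deriv (deriv κ) s = - τ * κ s) ∧ κ 0 = 1 := by
  rcases hτ with rfl | rfl
  · refine ⟨Real.cos, Real.contDiff_cos, fun s => ?_, Real.cos_zero⟩
    rw [Real.deriv_cos']
    have h : deriv (fun x => -Real.sin x) s = -Real.cos s := by
      rw [deriv.fun_neg, Real.deriv_sin]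
    rw [h]
    ring
  · refine ⟨Real.cosh, Real.contDiff_cosh, fun s => ?_, Real.cosh_zero⟩
    rw [Real.deriv_cosh, Real.deriv_sinh]
    ring

variable {A : EuclideanSpace ℝ (Fin n) → Matrix (Fin n) (Fin n) ℝ}
  {q : EuclideanSpace ℝ (Fin n) → ℝ}

lemma measurable_set_ext {U : Set (EuclideanSpace ℝ (Fin n))} (hU : IsOpen U) :
    IsOpen (tl ⁻¹' U : Set (EuclideanSpace ℝ (Fin (n + 1)))) := hU.preimage tl.continuous

/-- `u(a) κ(s)` is locally integrable -/
lemma locInt_ext {U : Set (EuclideanSpace ℝ (Fin n))} (hU : IsOpen U)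
    {u : EuclideanSpace ℝ (Fin n) → ℝ} (hu : LocallyIntegrableOn u U) {κ : ℝ → ℝ}
    (hκ : Continuous κ) :
    LocallyIntegrableOn (fun z : EuclideanSpace ℝ (Fin (n + 1)) => u (tl z) * κ (z 0))
      (tl ⁻¹' U) := by
  have hU' := measurable_set_ext (n := n) hU
  rw [locallyIntegrableOn_iff hU'.isLocallyClosed]
  intro K hKU hK
  have c2 : IsCompact (tl '' K) := hK.image tl.continuous
  have c1 : IsCompact (hd '' K) := hK.image hd.continuous
  have hK2U : tl '' K ⊆ U := by
    rintro _ ⟨z, hz, rfl⟩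
    exact hKU hz
  have hu2 : Integrable ((tl '' K).indicator u) := by
    rw [integrable_indicator_iff c2.measurableSet]
    exact hu.integrableOn_compact_subset hK2U c2
  have h1 : Integrable ((hd '' K).indicator fun s : ℝ => κ s) := by
    rw [integrable_indicator_iff c1.measurableSet]
    exact hκ.continuousOn.integrableOn_compact c1
  have h12 : Integrable (fun p : ℝ × EuclideanSpace ℝ (Fin n) =>
      (hd '' K).indicator (fun s : ℝ => κ s) p.1 * (tl '' K).indicator u p.2)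
      (volume.prod volume) := h1.mul_prod hu2
  have h3 : Integrable (fun z : EuclideanSpace ℝ (Fin (n + 1)) =>
      (hd '' K).indicator (fun s : ℝ => κ s) (z 0) * (tl '' K).indicator u (tl z)) := by
    have h4 := (measurePreserving_mkE (n := n)).symm.integrable_comp_of_integrable
      (g := fun p : ℝ × EuclideanSpace ℝ (Fin n) =>
      (hd '' K).indicator (fun s : ℝ => κ s) p.1 * (tl '' K).indicator u p.2) h12
    refine h4.congr (Eventually.of_forall fun z => ?_)
    have h5 : (mkE n).symm z = (z 0, tl z) := by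
      rw [MeasurableEquiv.symm_apply_eq]
      change z = mkE n (z 0, tl z)
      rw [mkE_apply, cn_hd_tl]
    simp only [Function.comp_apply]
    rw [h5]
  have h6 : IntegrableOn (fun z : EuclideanSpace ℝ (Fin (n + 1)) =>
      (hd '' K).indicator (fun s : ℝ => κ s) (z 0) * (tl '' K).indicator u (tl z)) K :=
    h3.integrableOn
  refine h6.congr_fun (fun z hz => ?_) hK.measurableSet
  have e1 : z 0 ∈ hd '' K := ⟨z, hz, rfl⟩
  have e2 : tl z ∈ tl '' K := ⟨z, hz, rfl⟩
  simp only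
  rw [indicator_of_mem e1, indicator_of_mem e2, mul_comm]

/-- **Elliptic regularity with a zero order term.** -/
theorem ell_regularity_zero {U : Set (EuclideanSpace ℝ (Fin n))} (hU : IsOpen U)
    (hA : ∀ i j, ContDiffOn ℝ ∞ (fun x => A x i j) U) (hpos : ∀ x ∈ U, (A x).PosDef)
    (hq : ContDiffOn ℝ ∞ q U) (hqpos : ∀ x ∈ U, 0 < q x)
    {f : EuclideanSpace ℝ (Fin n) → ℝ} (hf : ContDiffOn ℝ ∞ f U)
    {u : EuclideanSpace ℝ (Fin n) → ℝ} (hu : LocallyIntegrableOn u U)
    {τ : ℝ} (hτ : τ = 1 ∨ τ = -1)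
    (h : ∀ φ : EuclideanSpace ℝ (Fin n) → ℝ, ContDiff ℝ ∞ φ → HasCompactSupport φ →
      tsupport φ ⊆ U → ∫ x, u x * (divA A φ x - τ * (q x * φ x)) = ∫ x, f x * φ x) :
    ∃ v : EuclideanSpace ℝ (Fin n) → ℝ, ContDiffOn ℝ ∞ v U ∧ (∀ᵐ x, x ∈ U → v x = u x) ∧
      ∀ x ∈ U, divA A v x - τ * (q x * v x) = f x := by
  obtain ⟨κ, hκ, hκ2, hκ0⟩ := exists_kappa hτ
  have hU' := measurable_set_ext (n := n) hU
  -- the extended solution
  have hfe : ContDiffOn ℝ ∞ (fun z : EuclideanSpace ℝ (Fin (n + 1)) => f (tl z) * κ (z 0))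
      (tl ⁻¹' U) :=
    (hf.comp (tl (n := n)).contDiff.contDiffOn fun z hz => hz).mul
      (hκ.comp (hd (n := n)).contDiff).contDiffOn
  obtain ⟨V, hV, hVu, hVf⟩ := ell_regularity (n + 1) (tl ⁻¹' U) hU' (bigA A q)
    (contDiffOn_bigA hA hq) (fun z hz => posDef_bigA (hpos _ hz) (hqpos _ hz))
    (fun z => f (tl z) * κ (z 0)) hfe (fun z => u (tl z) * κ (z 0))
    (locInt_ext hU hu hκ.continuous)
    (fun Φ hΦ hc hs => weak_ext hU hA hq hf hu h hκ hκ2 hΦ hc hs)
  -- a good slice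
  have hae := Measure.ae_ae_of_ae_prod (ae_cn hVu : ∀ᵐ t : ℝ × EuclideanSpace ℝ (Fin n),
    cn t.1 t.2 ∈ (tl ⁻¹' U : Set (EuclideanSpace ℝ (Fin (n + 1)))) →
      V (cn t.1 t.2) = u (tl (cn t.1 t.2)) * κ (cn t.1 t.2 0))
  have hopen : IsOpen {s : ℝ | κ s ≠ 0} := isOpen_ne_fun hκ.continuous continuous_const
  have hne : ({s : ℝ | κ s ≠ 0}).Nonempty := ⟨0, by simp [hκ0]⟩
  obtain ⟨s0, hs0, hs0'⟩ : ∃ s ∈ {s : ℝ | κ s ≠ 0}, ∀ᵐ a : EuclideanSpace ℝ (Fin n),
      cn s a ∈ (tl ⁻¹' U : Set (EuclideanSpace ℝ (Fin (n + 1)))) →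
        V (cn s a) = u (tl (cn s a)) * κ (cn s a 0) := by
    by_contra hcon
    have h1 : ∀ᵐ s : ℝ, s ∉ {s : ℝ | κ s ≠ 0} := by
      filter_upwards [hae] with s hs hs'
      exact hcon ⟨s, hs', hs⟩
    have h2 : volume {s : ℝ | κ s ≠ 0} = 0 := by
      have := ae_iff.1 h1
      simpa using this
    exact (hopen.measure_pos volume hne).ne' h2
  set v : EuclideanSpace ℝ (Fin n) → ℝ := fun a => V (cn s0 a) / κ s0 with hv
  have hvs : ContDiffOn ℝ ∞ v U := by
    refine (hV.comp (contDiff_cn_right s0).contDiffOn fun a ha => ?_).div_const _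
    change tl (cn s0 a) ∈ U
    rw [tl_cn]
    exact ha
  have hvu : ∀ᵐ x, x ∈ U → v x = u x := by
    filter_upwards [hs0'] with a ha haU
    have h1 := ha (by change tl (cn s0 a) ∈ U; rw [tl_cn]; exact haU)
    rw [hv]
    simp only
    rw [h1, tl_cn, cn_zero]
    exact mul_div_cancel_right₀ _ hs0
  -- `V (s, a) = v a κ(s)` on `ℝ × U`
  have hvve : ContDiffOn ℝ ∞ (fun z : EuclideanSpace ℝ (Fin (n + 1)) => v (tl z) * κ (z 0))
      (tl ⁻¹' U) :=
    (hvs.comp (tl (n := n)).contDiff.contDiffOn fun z hz => hz).mul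
      (hκ.comp (hd (n := n)).contDiff).contDiffOn
  have hVv : Set.EqOn V (fun z => v (tl z) * κ (z 0)) (tl ⁻¹' U) := by
    refine Measure.eqOn_open_of_ae_eq (μ := volume) ?_ hU' hV.continuousOn hvve.continuousOn
    rw [EventuallyEq, ae_restrict_iff' hU'.measurableSet]
    have h1 : ∀ᵐ z : EuclideanSpace ℝ (Fin (n + 1)), tl z ∈ U → v (tl z) = u (tl z) := by
      refine of_ae_cn ?_
      have h2 : ∀ᵐ t : ℝ × EuclideanSpace ℝ (Fin n), t.2 ∈ U → v t.2 = u t.2 :=
        Measure.quasiMeasurePreserving_snd.ae hvu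
      filter_upwards [h2] with t ht ht'
      rw [tl_cn] at ht' ⊢
      exact ht ht'
    filter_upwards [hVu, h1] with z hz1 hz2 hz
    rw [hz1 hz, hz2 hz]
  refine ⟨v, hvs, hvu, fun x hx => ?_⟩
  have hmem : cn 0 x ∈ (tl ⁻¹' U : Set (EuclideanSpace ℝ (Fin (n + 1)))) := by
    change tl (cn 0 x) ∈ U
    rw [tl_cn]
    exact hx
  have h1 := hVf (cn 0 x) hmem
  rw [divA_bigA hU hA hq hU' hV hx hmem] at h1
  simp only [tl_cn, cn_zero, hκ0, mul_one] at h1
  have e1 : divA A v x = divA A (fun b => V (cn 0 b)) x := by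
    refine divA_congr_of_open hU (fun _ _ _ _ => rfl) (fun b hb => ?_) hx
    have h2 := hVv (x := cn 0 b) (by change tl (cn 0 b) ∈ U; rw [tl_cn]; exact hb)
    simp only [tl_cn, cn_zero, hκ0, mul_one] at h2
    exact h2.symm
  have e2 : pderiv 0 (pderiv 0 V) (cn 0 x) = - τ * v x := by
    have hder : ∀ s : ℝ, HasDerivAt (fun t => V (cn t x)) (pderiv 0 V (cn s x)) s := fun s =>
      hasDerivAt_slice ((hV.contDiffAt (hU'.mem_nhds (by
        change tl (cn s x) ∈ U; rw [tl_cn]; exact hx))).differentiableAt (by simp))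
    have hfun : (fun t => V (cn t x)) = fun t => v x * κ t := by
      funext t
      have h2 := hVv (x := cn t x) (by change tl (cn t x) ∈ U; rw [tl_cn]; exact hx)
      simpa only [tl_cn, cn_zero] using h2
    have hd1 : ∀ s : ℝ, pderiv 0 V (cn s x) = v x * deriv κ s := by
      intro s
      have h2 := (hder s).deriv
      rw [hfun] at h2
      rw [← h2, deriv_const_mul _ (hκ.differentiable (by simp) s)]
    have hder2 : HasDerivAt (fun t => pderiv 0 V (cn t x)) (pderiv 0 (pderiv 0 V) (cn 0 x)) 0 :=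
      hasDerivAt_slice (((contDiffOn_pd hU' hV 0).contDiffAt (hU'.mem_nhds hmem)).differentiableAt
        (by simp))
    have hfun2 : (fun t => pderiv 0 V (cn t x)) = fun t => v x * deriv κ t := funext hd1
    have hκ' : ContDiff ℝ ∞ (deriv κ) := (contDiff_infty_iff_deriv.1 hκ).2
    have h3 := hder2.deriv
    rw [hfun2, deriv_const_mul _ (hκ'.differentiable (by simp) 0), hκ2, hκ0] at h3
    rw [← h3]
    ring
  rw [e1, ← h1, e2]
  ring

end Crest.Agent.R249.EllZ324
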