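import Crest.Agent.R249.SobH_982
import Crest.Agent.R247.Bo8_84

/-!
# R249 (D3-SOB), part I: Moser iteration (`n = 4`)

`w ≥ 0`, `Δ w ≥ 0` near `closedBall x0 r` ⟹ `sup_{ball x0 (r/2)} w ≤ CM √(r⁻⁴ ∫_{ball x0 r} w²)`.
-/

set_option autoImplicit false
set_option maxSynthPendingDepth 3
set_option linter.unusedSectionVars false
open Bundle Set MeasureTheory Manifold Filter Metric
open scoped ENNReal ContDiff Topology NNReal
open Crest.GeometryTopology.CoordMetric Crest.GeometryTopology.ChartCurvature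
open Crest.Agent.R249.SobA_982 Crest.Agent.R249.SobC_982 Crest.Agent.R249.SobD_982
  Crest.Agent.R249.SobE_982 Crest.Agent.R249.SobG_982 Crest.Agent.R249.SobH_982
open Crest.Agent.R247 Crest.Agent.R247.Ms322 Crest.Agent.R247.Mcp688

noncomputable section
namespace Crest.Agent.R249.SobI_982

section real

lemma iter {A : ℕ → ℝ} (hA : ∀ k, 0 ≤ A k) {c : ℝ} (_hc : 0 ≤ c)
    (h : ∀ k, √(A (k + 1)) ≤ c * 4 ^ k * A k) (k : ℕ) :
    16 ^ (k + 1) * c ^ 2 * A k ≤ (4 * c * √(A 0)) ^ (2 ^ (k + 1)) := by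
  induction k with
  | zero =>
    have h1 := Real.sq_sqrt (hA 0)
    have h2 : (4 * c * √(A 0)) ^ (2 ^ (0 + 1)) = 16 * c ^ 2 * √(A 0) ^ 2 := by ring
    rw [h2, h1]
    norm_num
  | succ k ih =>
    have h1 : A (k + 1) ≤ (c * 4 ^ k * A k) ^ 2 := by
      rw [← Real.sq_sqrt (hA (k + 1))]
      exact pow_le_pow_left₀ (Real.sqrt_nonneg _) (h k) 2
    have h16 : (16:ℝ) ^ k = 4 ^ k * 4 ^ k := by rw [← mul_pow]; norm_num
    have hAk := hA k
    calc 16 ^ (k + 1 + 1) * c ^ 2 * A (k + 1) ≤ 16 ^ (k + 1 + 1) * c ^ 2 * (c * 4 ^ k * A k) ^ 2 := by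
          gcongr
      _ = (16 ^ (k + 1) * c ^ 2 * A k) ^ 2 := by
          rw [pow_succ (16:ℝ) (k + 1), pow_succ (16:ℝ) k, h16]
          ring
      _ ≤ ((4 * c * √(A 0)) ^ (2 ^ (k + 1))) ^ 2 := by gcongr
      _ = _ := by rw [← pow_mul]; congr 1

lemma sup_of_iter {c m X Y : ℝ} (hc : 0 < c) (hm : 0 < m) (hX : 0 ≤ X) (hXY : X < Y)
    (h : ∀ k : ℕ, 16 ^ (k + 1) * c ^ 2 * (m * Y ^ (2 ^ (k + 1))) ≤ X ^ (2 ^ (k + 1))) : False := by
  have hY : 0 < Y := hX.trans_lt hXY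
  obtain ⟨k, hk⟩ := pow_unbounded_of_one_lt (1 / (c ^ 2 * m)) (by norm_num : (1:ℝ) < 16)
  have h1 := h k
  have h2 : X ^ (2 ^ (k + 1)) ≤ Y ^ (2 ^ (k + 1)) := by gcongr
  have h3 : 0 < Y ^ (2 ^ (k + 1)) := by positivity
  have h4 : 16 ^ (k + 1) * c ^ 2 * m ≤ 1 := by
    have h5 : (16 ^ (k + 1) * c ^ 2 * m) * Y ^ (2 ^ (k + 1)) ≤ 1 * Y ^ (2 ^ (k + 1)) := by
      calc _ = 16 ^ (k + 1) * c ^ 2 * (m * Y ^ (2 ^ (k + 1))) := by ring
        _ ≤ _ := h1
        _ ≤ _ := h2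
        _ = _ := by ring
    exact le_of_mul_le_mul_right h5 h3
  rw [div_lt_iff₀ (by positivity)] at hk
  have h6 : (16:ℝ) ^ (k + 1) * c ^ 2 * m = 16 * (16 ^ k * (c ^ 2 * m)) := by ring
  rw [h6] at h4
  linarith

end real

section pw
variable {n : ℕ} {M : Type*} [MetricSpace M] [ChartedSpace (EuclideanSpace ℝ (Fin n)) M]
  [IsManifold (𝓡 n) ∞ M]
  [RiemannianBundle (fun p : M => TangentSpace (𝓡 n) p)]
  [IsContMDiffRiemannianBundle (𝓡 n) ∞ (EuclideanSpace ℝ (Fin n)) (fun p : M => TangentSpace (𝓡 n) p)]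

/-- powers of a nonnegative subharmonic function are subharmonic. -/
lemma mLap_pow_nonneg {f : M → ℝ} {z : M} (hf : ContMDiffAt (𝓡 n) 𝓘(ℝ, ℝ) 2 f z) (h0 : 0 ≤ f z)
    (hL : 0 ≤ Bo84.mLap n f z) (m : ℕ) : 0 ≤ Bo84.mLap n (fun y => f y ^ m) z := by
  have h := Bo84.mLap_comp (n := n) (φ := fun t : ℝ => t ^ m) (contDiff_id.pow m).contDiffAt hf
  have h1 : ∀ t : ℝ, deriv (fun t : ℝ => t ^ m) t = m * t ^ (m - 1) := by
    intro t; simp
  have h2 : deriv (deriv fun t : ℝ => t ^ m) (f z) = m * ((m - 1 : ℕ) * f z ^ (m - 1 - 1)) := by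
    have : (deriv fun t : ℝ => t ^ m) = fun t : ℝ => (m : ℝ) * t ^ (m - 1) := funext h1
    rw [this]
    simp
  rw [h1, h2] at h
  have h3 : (fun q => (fun t : ℝ => t ^ m) (f q)) = fun y => f y ^ m := rfl
  rw [h3] at h
  rw [h]
  have := Bo84.mGam_self_nonneg (n := n) f z
  positivity

end pw

section M
variable {M : Type*} [MetricSpace M] [ChartedSpace (EuclideanSpace ℝ (Fin 4)) M]
  [IsManifold (𝓡 4) ∞ M]
  [RiemannianBundle (fun p : M => TangentSpace (𝓡 4) p)]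
  [IsContMDiffRiemannianBundle (𝓡 4) ∞ (EuclideanSpace ℝ (Fin 4)) (fun p : M => TangentSpace (𝓡 4) p)]
  [IsRiemannianManifold (𝓡 4) M] [CompleteSpace M]
  [MeasurableSpace M] [BorelSpace M]

/-- one Moser step -/
theorem step {κ : ℝ} (C : Rad 4 κ M (μHE[4] : Measure M)) (hκ : 0 ≤ κ) {om : ℝ} (hom : 0 ≤ om)
    (hup : ∀ (y : M) (s : ℝ), 0 < s → (μHE[4] : Measure M) (ball y s) ≤ ENNReal.ofReal (om * s ^ 4))
    {x0 : M} {r Λ v : ℝ} (hr : 0 < r) (hΛ : 2 ≤ Λ) (hv : 16 * om + 1 ≤ v * Λ ^ 4)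
    (hlo : ENNReal.ofReal (v * (Λ * r) ^ 4) ≤ (μHE[4] : Measure M) (ball x0 (Λ * r)))
    {U : Set M} (hU : IsOpen U) {w : M → ℝ} (hw : ∀ z ∈ U, ContMDiffAt (𝓡 4) 𝓘(ℝ, ℝ) 2 w z)
    (hw0 : ∀ z ∈ U, 0 ≤ w z) (hL : ∀ z ∈ U, 0 ≤ Bo84.mLap 4 w z)
    {a b : ℝ} (hab : a < b) (hb : b ≤ 2 * r) (hbU : closedBall x0 b ⊆ U) :
    √(∫ x in closedBall x0 a, w x ^ 4 ∂(μHE[4] : Measure M)) ≤
      KS κ om Λ r * (10 * (Cth / (b - a)) ^ 2) *
        ∫ x in closedBall x0 b, w x ^ 2 ∂(μHE[4] : Measure M) := by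
  have := HR216.properSpace_of_riemannian 4 M
  have := HR216.secondCountable_of_riemannian 4 M
  have := isLocallyFiniteMeasure 4 M
  have : Nonempty M := ⟨x0⟩
  have : SFinite (μHE[4] : Measure M) := inferInstance
  have hba : 0 < b - a := by linarith
  have hCth := Cth_pos
  set μ : Measure M := μHE[4] with hμ
  set η := cut2 x0 a b with hη
  set F := dcut2 x0 a b with hF
  set G : M → ℝ := fun z => ‖Gr (n := 4) w z‖ with hG
  have hwL : LGOn U w G := lgOn_of_contMDiffAt hU fun z hz => (hw z hz).of_le (by norm_num)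
  have hLG : LG (fun y => η y * w y) (fun y => |η y| * G y + |w y| * F y) :=
    hwL.cut (LG_cut2 hab) ((tsupport_cut2 hab).trans hbU) ((tsupport_dcut2 hab).trans hbU)
  set H : M → ℝ := fun y => |η y| * G y + |w y| * F y with hH
  have hH0 : ∀ x, b ≤ dist x x0 → H x = 0 := by
    intro x hx
    simp only [hH, hη, hF]
    rw [cut2_zero hab hx, dcut2_zero hab hx]
    simp
  have hη0 : ∀ x, b ≤ dist x x0 → η x = 0 := fun x hx => cut2_zero hab hx
  have hHi : Integrable (fun y => H y ^ 2) μ :=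
    integrable_of_zero_off (hLG.contG.pow 2) (fun x hx => by rw [hH0 x hx.le]; norm_num) (x0 := x0)
      (R := b)
  have key := sobR C hκ hom hup hr hΛ hv hlo hLG
    (fun x hx => by rw [hη0 x (hb.trans hx), zero_mul]) hHi
  have hψi : Integrable (fun y => (η y * w y) ^ 4) μ :=
    integrable_of_zero_off (hLG.continuous.pow 4) (fun x hx => by
      rw [hη0 x hx.le, zero_mul]; norm_num) (x0 := x0) (R := b)
  have h1 : ∫ x in closedBall x0 a, w x ^ 4 ∂μ ≤ ∫ x, (η x * w x) ^ 4 ∂μ := by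
    calc ∫ x in closedBall x0 a, w x ^ 4 ∂μ = ∫ x in closedBall x0 a, (η x * w x) ^ 4 ∂μ := by
          apply setIntegral_congr_fun isClosed_closedBall.measurableSet
          intro x hx
          simp only [hη]
          rw [cut2_one hab hx, one_mul]
      _ ≤ _ := setIntegral_le_integral hψi (Eventually.of_forall fun x => by positivity)
  -- Caccioppoli
  have hηlip : LipschitzWith (Real.toNNReal (Cth / (b - a))) η :=
    LipschitzWith.of_dist_le_mul fun x y => by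
      rw [Real.dist_eq, Real.coe_toNNReal _ (by positivity)]
      exact cut2_lip hab x y
  have hηc : HasCompactSupport η :=
    HasCompactSupport.intro (isCompact_closedBall x0 b) fun x hx => hη0 x (by
      have : ¬ dist x x0 ≤ b := hx
      linarith)
  have hcacc := cacc hU hw hw0 hL hηlip.locallyLipschitz hηc ((tsupport_cut2 hab).trans hbU)
  have hGη : ∀ z, ‖Gr (n := 4) η z‖ ≤ Cth / (b - a) := by
    intro z
    have := norm_Gr_le_of_lipschitzOn (n := 4) (z := z) (U := univ) univ_mem hηlip.lipschitzOnWith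
    rwa [Real.coe_toNNReal _ (by positivity)] at this
  have hwc : ContinuousOn w (closedBall x0 b) := fun y hy =>
    (hw y (hbU hy)).continuousAt.continuousWithinAt
  have hGc : ContinuousOn G (closedBall x0 b) := fun y hy =>
    (hwL.contG y (hbU hy)).continuousWithinAt
  have hηcont : ContinuousOn η (closedBall x0 b) := hηlip.continuous.continuousOn
  have hiw : IntegrableOn (fun x => w x ^ 2) (closedBall x0 b) μ :=
    (hwc.pow 2).integrableOn_compact (isCompact_closedBall x0 b)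
  have hiη : IntegrableOn (fun x => η x ^ 2 * G x ^ 2) (closedBall x0 b) μ :=
    ((hηcont.pow 2).mul (hGc.pow 2)).integrableOn_compact (isCompact_closedBall x0 b)
  set J := ∫ x in closedBall x0 b, w x ^ 2 ∂μ with hJ
  have h2 : ∫ z, w z ^ 2 * ‖Gr (n := 4) η z‖ ^ 2 ∂μ ≤ (Cth / (b - a)) ^ 2 * J := by
    have e : ∫ z, w z ^ 2 * ‖Gr (n := 4) η z‖ ^ 2 ∂μ =
        ∫ z in closedBall x0 b, w z ^ 2 * ‖Gr (n := 4) η z‖ ^ 2 ∂μ := by
      symm
      apply setIntegral_eq_integral_of_forall_compl_eq_zero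
      intro x hx
      rw [Gr_zero_off fun h => hx (tsupport_cut2 hab h), norm_zero]
      norm_num
    rw [e, hJ, ← integral_const_mul]
    apply integral_mono_of_nonneg (Eventually.of_forall fun x => by positivity) (hiw.const_mul _)
    refine Eventually.of_forall fun x => ?_
    show w x ^ 2 * ‖Gr (n := 4) η x‖ ^ 2 ≤ (Cth / (b - a)) ^ 2 * w x ^ 2
    rw [mul_comm]
    gcongr
    exact hGη x
  have h4 : ∫ x in closedBall x0 b, η x ^ 2 * G x ^ 2 ∂μ = ∫ x, η x ^ 2 * G x ^ 2 ∂μ := by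
    apply setIntegral_eq_integral_of_forall_compl_eq_zero
    intro x hx
    rw [hη0 x (by
      have : ¬ dist x x0 ≤ b := hx
      linarith)]
    norm_num
  have h3 : ∫ x, H x ^ 2 ∂μ ≤ 2 * (∫ x, η x ^ 2 * G x ^ 2 ∂μ) + 2 * ((Cth / (b - a)) ^ 2 * J) := by
    have e : ∫ x, H x ^ 2 ∂μ = ∫ x in closedBall x0 b, H x ^ 2 ∂μ := by
      symm
      apply setIntegral_eq_integral_of_forall_compl_eq_zero
      intro x hx
      rw [hH0 x (by
        have : ¬ dist x x0 ≤ b := hx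
        linarith)]
      norm_num
    rw [e, ← h4, hJ, ← integral_const_mul, ← integral_const_mul, ← integral_const_mul,
      ← integral_add (hiη.const_mul _) ((hiw.const_mul _).const_mul _)]
    apply integral_mono hHi.integrableOn ((hiη.const_mul _).add ((hiw.const_mul _).const_mul _))
    intro x
    show H x ^ 2 ≤ 2 * (η x ^ 2 * G x ^ 2) + 2 * ((Cth / (b - a)) ^ 2 * w x ^ 2)
    have a2 : F x ≤ Cth / (b - a) := dcut2_le hab
    have a3 : 0 ≤ F x := dcut2_nonneg hab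
    have a4 : H x ^ 2 ≤ 2 * (|η x| * G x) ^ 2 + 2 * (|w x| * F x) ^ 2 := by
      simp only [hH]
      nlinarith [sq_nonneg (|η x| * G x - |w x| * F x)]
    have a5 : (|η x| * G x) ^ 2 = η x ^ 2 * G x ^ 2 := by
      rw [mul_pow, sq_abs]
    have a6 : (|w x| * F x) ^ 2 ≤ (Cth / (b - a)) ^ 2 * w x ^ 2 := by
      rw [mul_pow, sq_abs, mul_comm]
      gcongr
    linarith
  calc √(∫ x in closedBall x0 a, w x ^ 4 ∂μ) ≤ √(∫ x, (η x * w x) ^ 4 ∂μ) := Real.sqrt_le_sqrt h1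
    _ ≤ KS κ om Λ r * ∫ x, H x ^ 2 ∂μ := key
    _ ≤ KS κ om Λ r * ((10 * (Cth / (b - a)) ^ 2) * J) := by
        have := KS_nonneg κ om Λ r
        gcongr
        linarith
    _ = _ := by ring

/-- the constant of the `L²` mean value inequality -/
def CM (κ om Λ r : ℝ) : ℝ := 2560 * KS κ om Λ (r / 2) * Cth ^ 2

lemma KS_pos {κ om Λ r : ℝ} (hom : 0 ≤ om) (hΛ : 2 ≤ Λ) : 0 < KS κ om Λ r := by
  unfold KS
  have := Cth_pos
  have h2 : 0 < Λ + 2 := by linarith
  positivity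

lemma CM_pos {κ om Λ r : ℝ} (hom : 0 ≤ om) (hΛ : 2 ≤ Λ) : 0 < CM κ om Λ r := by
  unfold CM
  have := Cth_pos
  have := KS_pos (κ := κ) (r := r / 2) hom hΛ
  positivity

/-- **`L²` mean value inequality** for nonnegative subharmonic functions, `n = 4`. -/
theorem mv2' {κ : ℝ} (C : Rad 4 κ M (μHE[4] : Measure M)) (hκ : 0 ≤ κ) {om : ℝ} (hom : 0 ≤ om)
    (hup : ∀ (y : M) (s : ℝ), 0 < s → (μHE[4] : Measure M) (ball y s) ≤ ENNReal.ofReal (om * s ^ 4))
    {x0 : M} {r Λ v : ℝ} (hr : 0 < r) (hΛ : 2 ≤ Λ) (hv : 16 * om + 1 ≤ v * Λ ^ 4)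
    (hlo : ENNReal.ofReal (v * (Λ * (r / 2)) ^ 4) ≤ (μHE[4] : Measure M) (ball x0 (Λ * (r / 2))))
    {U : Set M} (hU : IsOpen U) (hrU : closedBall x0 (3 * r / 4) ⊆ U)
    {f : M → ℝ} (hf : ∀ z ∈ U, ContMDiffAt (𝓡 4) 𝓘(ℝ, ℝ) 2 f z)
    (hf0 : ∀ z ∈ U, 0 ≤ f z) (hL : ∀ z ∈ U, 0 ≤ Bo84.mLap 4 f z) {x : M} (hx : x ∈ ball x0 (r / 2)) :
    f x ≤ CM κ om Λ r * √((∫ y in closedBall x0 (3 * r / 4), f y ^ 2 ∂(μHE[4] : Measure M)) / r ^ 4) := by
  have := HR216.properSpace_of_riemannian 4 M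
  have := HR216.secondCountable_of_riemannian 4 M
  have := isLocallyFiniteMeasure 4 M
  have := isOpenPosMeasure 4 M
  have hCth := Cth_pos
  have hKS : 0 < KS κ om Λ (r / 2) := KS_pos hom hΛ
  set μ : Measure M := μHE[4] with hμ
  set ρ : ℕ → ℝ := fun k => r / 2 + (r / 4) / 2 ^ k with hρ
  have hρ1 : ∀ k, r / 2 < ρ k := fun k => by
    have : 0 < (r / 4) / 2 ^ k := by positivity
    simp only [hρ]; linarith
  have hρ2 : ∀ k, ρ k ≤ 3 * r / 4 := fun k => by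
    have h1 : (1:ℝ) ≤ 2 ^ k := one_le_pow₀ (by norm_num)
    have : (r / 4) / 2 ^ k ≤ r / 4 := div_le_self (by positivity) h1
    simp only [hρ]; linarith
  have hρ3 : ∀ k, ρ k - ρ (k + 1) = r / (8 * 2 ^ k) := fun k => by
    simp only [hρ]
    rw [pow_succ]
    field_simp
    ring
  have hρ4 : ∀ k, ρ (k + 1) < ρ k := fun k => by
    have h1 := hρ3 k
    have : 0 < r / (8 * 2 ^ k) := by positivity
    linarith
  set A : ℕ → ℝ := fun k => ∫ y in closedBall x0 (ρ k), f y ^ (2 ^ (k + 1)) ∂μ with hA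
  have hBU : ∀ k, closedBall x0 (ρ k) ⊆ U := fun k =>
    (closedBall_subset_closedBall (hρ2 k)).trans hrU
  have hA0 : ∀ k, 0 ≤ A k := fun k =>
    setIntegral_nonneg isClosed_closedBall.measurableSet fun y hy => pow_nonneg (hf0 y (hBU k hy)) _
  set c : ℝ := KS κ om Λ (r / 2) * (640 * Cth ^ 2 / r ^ 2) with hc
  have hc0 : 0 < c := by positivity
  have hstep : ∀ k, √(A (k + 1)) ≤ c * 4 ^ k * A k := by
    intro k
    have h := step C hκ hom hup (x0 := x0) (r := r / 2) (by positivity) hΛ hv hlo hU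
      (w := fun y => f y ^ (2 ^ k)) (fun z hz => (hf z hz).pow _)
      (fun z hz => pow_nonneg (hf0 z hz) _)
      (fun z hz => mLap_pow_nonneg (hf z hz) (hf0 z hz) (hL z hz) _) (hρ4 k)
      (by linarith [hρ2 k]) (hBU k)
    have e1 : ∀ y, (f y ^ (2 ^ k)) ^ 4 = f y ^ (2 ^ (k + 1 + 1)) := fun y => by
      rw [← pow_mul]; congr 1; ring
    have e2 : ∀ y, (f y ^ (2 ^ k)) ^ 2 = f y ^ (2 ^ (k + 1)) := fun y => by
      rw [← pow_mul]; congr 1
    simp only [e1, e2] at h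
    refine h.trans (le_of_eq ?_)
    rw [hρ3 k]
    have h4 : (4:ℝ) ^ k = 2 ^ k * 2 ^ k := by rw [← mul_pow]; norm_num
    simp only [hA, hc]
    rw [h4]
    field_simp
    ring
  have hit := iter hA0 hc0.le hstep
  have hXe : 4 * c * √(A 0) = CM κ om Λ r *
      √((∫ y in closedBall x0 (3 * r / 4), f y ^ 2 ∂μ) / r ^ 4) := by
    have e1 : A 0 = ∫ y in closedBall x0 (3 * r / 4), f y ^ 2 ∂μ := by
      simp only [hA, hρ]
      norm_num
      congr 3
      ring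
    rw [← e1, Real.sqrt_div (hA0 0), show r ^ 4 = (r ^ 2) ^ 2 by ring, Real.sqrt_sq (by positivity)]
    simp only [hc, CM]
    field_simp
    ring
  rw [← hXe]
  by_contra hlt
  rw [not_le] at hlt
  set X := 4 * c * √(A 0) with hX
  have hX0 : 0 ≤ X := by positivity
  have hxU : x ∈ U := hBU 0 (mem_closedBall.2 ((mem_ball.1 hx).le.trans (hρ1 0).le))
  have hev : ∀ᶠ y in 𝓝 x, (X + f x) / 2 < f y ∧ y ∈ ball x0 (r / 2) :=
    ((hf x hxU).continuousAt.eventually_const_lt (by linarith)).and (isOpen_ball.mem_nhds hx)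
  obtain ⟨δ, hδ, hδB⟩ := Metric.eventually_nhds_iff_ball.1 hev
  have hm : 0 < μ.real (ball x δ) := by
    apply ENNReal.toReal_pos
    · exact (measure_ball_pos μ x hδ).ne'
    · exact measure_ball_lt_top.ne
  refine sup_of_iter hc0 hm hX0 (Y := (X + f x) / 2) (by linarith) fun k => ?_
  refine le_trans ?_ (hit k)
  gcongr
  -- lower bound of `A k`
  have hfc : ContinuousOn f (closedBall x0 (ρ k)) := fun y hy =>
    (hf y (hBU k hy)).continuousAt.continuousWithinAt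
  have hi : IntegrableOn (fun y => f y ^ (2 ^ (k + 1))) (closedBall x0 (ρ k)) μ :=
    (hfc.pow _).integrableOn_compact (isCompact_closedBall _ _)
  have hsub : ball x δ ⊆ closedBall x0 (ρ k) := fun y hy =>
    mem_closedBall.2 ((mem_ball.1 (hδB y hy).2).le.trans (hρ1 k).le)
  calc μ.real (ball x δ) * ((X + f x) / 2) ^ (2 ^ (k + 1))
      = ∫ y in ball x δ, ((X + f x) / 2) ^ (2 ^ (k + 1)) ∂μ := by
        rw [setIntegral_const, smul_eq_mul]
    _ ≤ ∫ y in ball x δ, f y ^ (2 ^ (k + 1)) ∂μ := by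
        apply setIntegral_mono_on _ (hi.mono_set hsub) isOpen_ball.measurableSet
        · intro y hy
          have h1 := (hδB y hy).1
          exact pow_le_pow_left₀ (by linarith) h1.le _
        · exact integrableOn_const (hs := measure_ball_lt_top.ne)
    _ ≤ A k := by
        apply setIntegral_mono_set hi _ hsub.eventuallyLE
        filter_upwards [ae_restrict_mem isClosed_closedBall.measurableSet] with y hy
        exact pow_nonneg (hf0 y (hBU k hy)) _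

/-- **`L²` mean value inequality**, frozen form. -/
theorem mv2 {κ : ℝ} (C : Rad 4 κ M (μHE[4] : Measure M)) (hκ : 0 ≤ κ) {om : ℝ} (hom : 0 ≤ om)
    (hup : ∀ (y : M) (s : ℝ), 0 < s → (μHE[4] : Measure M) (ball y s) ≤ ENNReal.ofReal (om * s ^ 4))
    {x0 : M} {r Λ v : ℝ} (hr : 0 < r) (hΛ : 2 ≤ Λ) (hv : 16 * om + 1 ≤ v * Λ ^ 4)
    (hlo : ENNReal.ofReal (v * (Λ * (r / 2)) ^ 4) ≤ (μHE[4] : Measure M) (ball x0 (Λ * (r / 2))))
    {U : Set M} (hU : IsOpen U) (hrU : closedBall x0 r ⊆ U)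
    {f : M → ℝ} (hf : ∀ z ∈ U, ContMDiffAt (𝓡 4) 𝓘(ℝ, ℝ) 2 f z)
    (hf0 : ∀ z ∈ U, 0 ≤ f z) (hL : ∀ z ∈ U, 0 ≤ Bo84.mLap 4 f z) {x : M} (hx : x ∈ ball x0 (r / 2)) :
    f x ≤ CM κ om Λ r * √((∫ y in ball x0 r, f y ^ 2 ∂(μHE[4] : Measure M)) / r ^ 4) := by
  have := HR216.properSpace_of_riemannian 4 M
  have := isLocallyFiniteMeasure 4 M
  have h := mv2' C hκ hom hup hr hΛ hv hlo hU
    ((closedBall_subset_closedBall (by linarith)).trans hrU) hf hf0 hL hx
  refine h.trans ?_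
  have hCM := CM_pos (κ := κ) (r := r) hom hΛ
  have hfc : ContinuousOn f (closedBall x0 r) := fun y hy =>
    (hf y (hrU hy)).continuousAt.continuousWithinAt
  have hi : IntegrableOn (fun y => f y ^ 2) (closedBall x0 r) (μHE[4] : Measure M) :=
    (hfc.pow _).integrableOn_compact (isCompact_closedBall _ _)
  have h2 : ∫ y in closedBall x0 (3 * r / 4), f y ^ 2 ∂(μHE[4] : Measure M) ≤
      ∫ y in ball x0 r, f y ^ 2 ∂(μHE[4] : Measure M) :=
    setIntegral_mono_set (hi.mono_set ball_subset_closedBall)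
      (Eventually.of_forall fun y => sq_nonneg _)
      (closedBall_subset_ball (by linarith)).eventuallyLE
  gcongr

end M

end Crest.Agent.R249.SobI_982
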