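import Crest.Agent.R249.Cod6_992
import Crest.Agent.R249.SobI_982

/-!
# R249, leaf D3-DECAY/E1 (helper920): energy and `L⁴` bound for the Hessian of a harmonic function

`n = 4`, `f` of class `C⁴` and harmonic on the open set `W ⊇ closedBall x0 (2s)`, `B` a continuous
curvature bound on `W` with `∫_{ball x0 (2s)} B² ≤ (1/(256 KS))²`, `|∇f| ≤ lam` on `ball x0 (2s)`:

* `en_l4` : `√(∫_{ball x0 s} |Hess f|⁴) ≤ KS (112 Cth²/s² ∫_{B_2s} |Hess f|² + 384 lam² ∫_{B_2s} B²)`;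
* `en_h3` : `∫_{ball x0 s} |∇Hess f|² ≤ 52 Cth²/s² ∫_{B_2s} |Hess f|² + 192 lam² ∫_{B_2s} B²`.
-/

set_option autoImplicit false
set_option maxSynthPendingDepth 3
set_option linter.unusedSectionVars false
set_option linter.unusedVariables false

open Bundle Bornology Set MeasureTheory Manifold Filter Metric
open scoped ENNReal ContDiff Topology NNReal
open Crest.GeometryTopology.CoordMetric Crest.GeometryTopology.ChartCurvature
open Crest.GeometryTopology.PointedLimit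
open Crest.Agent.R226.ChartMet842
open Crest.Agent.R247.Ms322
open Crest.Agent.R247 Crest.Agent.R249.Vf281 Crest.Agent.R249.Cod992
open Crest.Agent.R247.Mcp688 Crest.Agent.R249.SobA_982 Crest.Agent.R249.SobB_982
  Crest.Agent.R249.SobC_982 Crest.Agent.R249.SobD_982 Crest.Agent.R249.SobE_982
  Crest.Agent.R249.SobG_982 Crest.Agent.R249.SobH_982 Crest.Agent.R249.SobI_982

noncomputable section

namespace Crest.Agent.R249.En920

/-- Cauchy–Schwarz, squared form. -/
theorem cs_sq {X : Type*} [MeasurableSpace X] {μ : Measure X} {f g : X → ℝ}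
    (hf : Integrable (fun x => f x ^ 2) μ) (hg : Integrable (fun x => g x ^ 2) μ)
    (hfg : Integrable (fun x => f x * g x) μ) :
    (∫ x, f x * g x ∂μ) ^ 2 ≤ (∫ x, f x ^ 2 ∂μ) * ∫ x, g x ^ 2 ∂μ := by
  have h : ∀ t : ℝ, 0 ≤ (∫ x, f x ^ 2 ∂μ) * (t * t) + (2 * ∫ x, f x * g x ∂μ) * t +
      ∫ x, g x ^ 2 ∂μ := by
    intro t
    have h0 : 0 ≤ ∫ x, (t * f x + g x) ^ 2 ∂μ := integral_nonneg fun x => sq_nonneg _
    have e : ∀ x, (t * f x + g x) ^ 2 = (t * t) * f x ^ 2 + (2 * t) * (f x * g x) + g x ^ 2 := by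
      intro x; ring
    simp_rw [e] at h0
    have j1 : Integrable (fun x => (t * t) * f x ^ 2) μ := hf.const_mul _
    have j2 : Integrable (fun x => (2 * t) * (f x * g x)) μ := hfg.const_mul _
    have j3 : Integrable (fun x => (t * t) * f x ^ 2 + (2 * t) * (f x * g x)) μ := j1.add j2
    rw [integral_add j3 hg, integral_add j1 j2, integral_const_mul, integral_const_mul] at h0
    linarith
  have := discrim_le_zero h
  unfold discrim at this
  linarith

theorem sq_add_le (p q : ℝ) : (p + q) ^ 2 ≤ 2 * p ^ 2 + 2 * q ^ 2 := by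
  nlinarith [sq_nonneg (p - q)]

section reg
variable {n : ℕ} {M : Type*} [MetricSpace M] [ChartedSpace (EuclideanSpace ℝ (Fin n)) M]
  [IsManifold (𝓡 n) ∞ M]
  [RiemannianBundle (fun p : M => TangentSpace (𝓡 n) p)]
  [IsContMDiffRiemannianBundle (𝓡 n) ∞ (EuclideanSpace ℝ (Fin n)) (fun p : M => TangentSpace (𝓡 n) p)]

local notation "𝔼" => EuclideanSpace ℝ (Fin n)

/-- regularity of the squared norm of the Hessian. -/
theorem contMDiffAt_mHessSq {p : M} {f : M → ℝ} (hf : ContMDiffAt (𝓡 n) 𝓘(ℝ, ℝ) 3 f p) :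
    ContMDiffAt (𝓡 n) 𝓘(ℝ, ℝ) 1 (Bo84.mHessSq n f) p := by
  refine Bo84.contMDiffAt_of_inCh (k := 1) Bo84.one_le_infty (mem_chart_source 𝔼 p) ?_
  have h1 : ContDiffAt ℝ 1 (Bo84.hessSq (chartMetric n M p) (Bo84.inCh n p f))
      (chartCentre n M p) := by
    have hA := contDiffAt_hessE (Bo84.isRiemannianOn_chartMetric (n := n) p) (Bo84.centre_mem p)
      (m := 1) (Bo84.contDiffAt_centre Bo84.three_le_infty hf) (by norm_num)
      (WithTop.coe_le_coe.2 le_top)
    exact contDiffAt_const.clm_apply (hA.clm_comp hA)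
  refine ContDiffAt.congr_of_eventuallyEq h1 ?_
  have hf2 : ∀ᶠ z in 𝓝 (chartCentre n M p), ContMDiffAt (𝓡 n) 𝓘(ℝ, ℝ) 2 f
      ((chartAt 𝔼 p).symm z) := by
    refine eventually_contMDiffAt Bo84.two_le_infty (by simp) (Bo84.centre_mem p) ?_
    rw [symm_centre]; exact hf.of_le (by norm_num)
  filter_upwards [(chartAt 𝔼 p).open_target.mem_nhds (Bo84.centre_mem p), hf2] with z hz hfz
  exact Bo84.mHessSq_chart hz hfz

end reg

section M
variable {M : Type*} [MetricSpace M] [ChartedSpace (EuclideanSpace ℝ (Fin 4)) M]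
  [IsManifold (𝓡 4) ∞ M]
  [RiemannianBundle (fun p : M => TangentSpace (𝓡 4) p)]
  [IsContMDiffRiemannianBundle (𝓡 4) ∞ (EuclideanSpace ℝ (Fin 4)) (fun p : M => TangentSpace (𝓡 4) p)]
  [IsRiemannianManifold (𝓡 4) M] [CompleteSpace M]
  [MeasurableSpace M] [BorelSpace M]

/-- the regularised norm of the Hessian and its gradient bound. -/
theorem lgOn_w {W : Set M} (hW : IsOpen W) {f : M → ℝ}
    [SecondCountableTopology M] [Nonempty M]
    (hf : ∀ z ∈ W, ContMDiffAt (𝓡 4) 𝓘(ℝ, ℝ) 4 f z) {ε : ℝ} (hε : 0 < ε) :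
    ∃ G : M → ℝ, LGOn W (fun z => √(Bo84.mHessSq 4 f z + ε ^ 2)) G ∧
      ∀ z ∈ W, G z ^ 2 ≤ mHess3Sq 4 f z := by
  have hT1 : ∀ z ∈ W, ContMDiffAt (𝓡 4) 𝓘(ℝ, ℝ) 1 (Bo84.mHessSq 4 f) z := fun z hz =>
    contMDiffAt_mHessSq ((hf z hz).of_le (by norm_num))
  have hT0 : ∀ z ∈ W, 0 ≤ Bo84.mHessSq 4 f z := fun z hz =>
    Bo84.mHessSq_nonneg ((hf z hz).of_le (by norm_num))
  have hL := lgOn_of_contMDiffAt (n := 4) hW hT1
  have hΦ : ∀ y ∈ W, ContDiffAt ℝ 1 (fun t : ℝ => √(t + ε ^ 2)) (Bo84.mHessSq 4 f y) := by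
    intro y hy
    have h0 := hT0 y hy
    exact (contDiffAt_id.add contDiffAt_const).sqrt (by
      have : 0 < ε ^ 2 := by positivity
      simp only [id]
      positivity)
  refine ⟨_, hL.comp hΦ, fun z hz => ?_⟩
  have h0 := hT0 z hz
  have hε2 : 0 < ε ^ 2 := by positivity
  have hpos : 0 < Bo84.mHessSq 4 f z + ε ^ 2 := by positivity
  have hd : HasDerivAt (fun t : ℝ => √(t + ε ^ 2)) (1 / (2 * √(Bo84.mHessSq 4 f z + ε ^ 2)))
      (Bo84.mHessSq 4 f z) := by
    have := ((hasDerivAt_id (Bo84.mHessSq 4 f z)).add_const (ε ^ 2)).sqrt hpos.ne'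
    simpa using this
  have hk := mkato3 (n := 4) (p := z) ((hf z hz).of_le (show (3 : WithTop ℕ∞) ≤ 4 by norm_num))
  have h3 : 0 ≤ mHess3Sq 4 f z :=
    mHess3Sq_nonneg ((hf z hz).of_le (show (3 : WithTop ℕ∞) ≤ 4 by norm_num))
  show (|deriv (fun t : ℝ => √(t + ε ^ 2)) (Bo84.mHessSq 4 f z)| *
    ‖Gr (n := 4) (Bo84.mHessSq 4 f) z‖) ^ 2 ≤ _
  rw [hd.deriv, mul_pow, sq_abs, sq_norm_Gr, div_pow, mul_pow, Real.sq_sqrt hpos.le, one_pow,
    one_div, inv_mul_eq_div, div_le_iff₀ (by positivity)]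
  nlinarith [mul_nonneg h3 hε2.le]

variable {κ : ℝ} {om : ℝ} {x0 : M} {s Λ v : ℝ} {W : Set M} {f B : M → ℝ} {lam : ℝ}

/-- the arithmetic of the absorption. -/
theorem absorb {K x Y a IT IB l R : ℝ} (hK : 0 < K) (hx0 : 0 ≤ x) (ha : 0 ≤ a) (hIT : 0 ≤ IT)
    (hIB : 0 ≤ IB) (hl : 0 ≤ l) (hR0 : 0 ≤ R) (hR : R ≤ 1 / (256 * K))
    (h1 : x ≤ K * (2 * Y + 2 * a * IT))
    (h2 : Y ≤ 6 * (a * IT) + 96 * (l * IB) + 64 * (R * x)) :
    x ≤ K * (28 * a * IT + 384 * l * IB) ∧ Y ≤ 13 * a * IT + 192 * l * IB := by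
  have h3 : R * x ≤ 1 / (256 * K) * x := mul_le_mul_of_nonneg_right hR hx0
  have h4 : K * (1 / (256 * K) * x) = x / 256 := by field_simp
  have h5 : K * (2 * Y) ≤ K * (2 * (6 * (a * IT) + 96 * (l * IB) + 64 * (1 / (256 * K) * x))) := by
    apply mul_le_mul_of_nonneg_left _ hK.le
    linarith
  have h6 : x ≤ K * (28 * a * IT + 384 * l * IB) := by
    nlinarith
  refine ⟨h6, ?_⟩
  have h7 : 1 / (256 * K) * x ≤ 1 / (256 * K) * (K * (28 * a * IT + 384 * l * IB)) :=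
    mul_le_mul_of_nonneg_left h6 (by positivity)
  have h8 : 1 / (256 * K) * (K * (28 * a * IT + 384 * l * IB)) =
      (28 * a * IT + 384 * l * IB) / 256 := by field_simp
  have h9 : 0 ≤ a * IT := mul_nonneg ha hIT
  have h10 : 0 ≤ l * IB := mul_nonneg hl hIB
  linarith

set_option maxHeartbeats 1000000 in
/-- **Energy and `L⁴` bounds.** -/
theorem energy (C : Rad 4 κ M (μHE[4] : Measure M)) (hκ : 0 ≤ κ) (hom : 0 ≤ om)
    (hup : ∀ (y : M) (s : ℝ), 0 < s → (μHE[4] : Measure M) (ball y s) ≤ ENNReal.ofReal (om * s ^ 4))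
    (hs : 0 < s) (hΛ : 2 ≤ Λ) (hv : 16 * om + 1 ≤ v * Λ ^ 4)
    (hlo : ENNReal.ofReal (v * (Λ * s) ^ 4) ≤ (μHE[4] : Measure M) (ball x0 (Λ * s)))
    (hW : IsOpen W) (hWs : closedBall x0 (2 * s) ⊆ W)
    (hf : ∀ z ∈ W, ContMDiffAt (𝓡 4) 𝓘(ℝ, ℝ) 4 f z) (hh : ∀ z ∈ W, Bo84.mLap 4 f z = 0)
    (hB0 : ∀ z ∈ W, 0 ≤ B z) (hBc : ContinuousOn B W) (hB : ∀ z ∈ W, MCurvLe 4 z (B z))
    (hlam : ∀ z ∈ ball x0 (2 * s), Bo84.mGam 4 f f z ≤ lam ^ 2)
    (hE : ∫ z in ball x0 (2 * s), B z ^ 2 ∂(μHE[4] : Measure M) ≤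
      (1 / (256 * KS κ om Λ s)) ^ 2) :
    √(∫ z in ball x0 s, Bo84.mHessSq 4 f z ^ 2 ∂(μHE[4] : Measure M)) ≤
        KS κ om Λ s * (112 * Cth ^ 2 / s ^ 2 *
            ∫ z in ball x0 (2 * s), Bo84.mHessSq 4 f z ∂(μHE[4] : Measure M) +
          384 * lam ^ 2 * ∫ z in ball x0 (2 * s), B z ^ 2 ∂(μHE[4] : Measure M)) ∧
      ∫ z in ball x0 s, mHess3Sq 4 f z ∂(μHE[4] : Measure M) ≤
        52 * Cth ^ 2 / s ^ 2 *
            ∫ z in ball x0 (2 * s), Bo84.mHessSq 4 f z ∂(μHE[4] : Measure M) +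
          192 * lam ^ 2 * ∫ z in ball x0 (2 * s), B z ^ 2 ∂(μHE[4] : Measure M) := by
  have := HR216.properSpace_of_riemannian 4 M
  have := HR216.secondCountable_of_riemannian 4 M
  have := isLocallyFiniteMeasure 4 M
  have : Nonempty M := ⟨x0⟩
  have : SFinite (μHE[4] : Measure M) := inferInstance
  have hCth := Cth_pos
  have hKpos : 0 < KS κ om Λ s := KS_pos hom hΛ
  set K := KS κ om Λ s with hKdef
  set μ : Measure M := μHE[4] with hμ
  set T : M → ℝ := Bo84.mHessSq 4 f with hT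
  set h3 : M → ℝ := mHess3Sq 4 f with hh3
  set b : ℝ := 3 / 2 * s with hb
  have hab : s < b := by rw [hb]; linarith
  have hb2 : b < 2 * s := by rw [hb]; linarith
  have hbs : b - s = s / 2 := by rw [hb]; ring
  set η := cut2 x0 s b with hη
  set F := dcut2 x0 s b with hF
  set a : ℝ := (Cth / (b - s)) ^ 2 with ha
  have ha0 : 0 ≤ a := sq_nonneg _
  -- regularity
  have hf3 : ∀ z ∈ W, ContMDiffAt (𝓡 4) 𝓘(ℝ, ℝ) 3 f z := fun z hz => (hf z hz).of_le (by norm_num)
  have hf2 : ∀ z ∈ W, ContMDiffAt (𝓡 4) 𝓘(ℝ, ℝ) 2 f z := fun z hz => (hf z hz).of_le (by norm_num)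
  have hf1 : ∀ z ∈ W, ContMDiffAt (𝓡 4) 𝓘(ℝ, ℝ) 1 f z := fun z hz => (hf z hz).of_le (by norm_num)
  have hTc : ContinuousOn T W := continuousOn_mHessSq hf2
  have h3c : ContinuousOn h3 W := continuousOn_mHess3Sq hf3
  have hGc : ContinuousOn (Bo84.mGam 4 f f) W := continuousOn_mGam hf1 hf1
  have hT0 : ∀ z ∈ W, 0 ≤ T z := fun z hz => Bo84.mHessSq_nonneg (hf2 z hz)
  have h30 : ∀ z ∈ W, 0 ≤ h3 z := fun z hz => mHess3Sq_nonneg (hf3 z hz)
  have hG0 : ∀ z, 0 ≤ Bo84.mGam 4 f f z := fun z => Bo84.mGam_self_nonneg (n := 4) f z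
  have hcb : closedBall x0 b ⊆ ball x0 (2 * s) := closedBall_subset_ball hb2
  have hbW : closedBall x0 b ⊆ W := (hcb.trans ball_subset_closedBall).trans hWs
  have h2W : ball x0 (2 * s) ⊆ W := ball_subset_closedBall.trans hWs
  -- the cut-off
  have hη0 : ∀ x, b ≤ dist x x0 → η x = 0 := fun x hx => cut2_zero hab hx
  have hη1 : ∀ x, |η x| ≤ 1 := fun x => by
    rw [abs_of_nonneg (cut2_nonneg x0 s b x)]; exact cut2_le_one x0 s b x
  have hη2 : ∀ x, η x ^ 2 ≤ 1 := fun x => by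
    have := hη1 x
    rw [← sq_abs]
    nlinarith [abs_nonneg (η x)]
  have hηlip : LipschitzWith (Real.toNNReal (Cth / (b - s))) η :=
    LipschitzWith.of_dist_le_mul fun x y => by
      rw [Real.dist_eq, Real.coe_toNNReal _ (by rw [hbs]; positivity)]
      exact cut2_lip hab x y
  have hηc : HasCompactSupport η :=
    HasCompactSupport.intro (isCompact_closedBall x0 b) fun x hx => hη0 x (by
      have : ¬ dist x x0 ≤ b := hx
      linarith)
  have hηs : tsupport η ⊆ W := (tsupport_cut2 hab).trans hbW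
  have hGη : ∀ z, ‖Gr (n := 4) η z‖ ≤ Cth / (b - s) := by
    intro z
    have := norm_Gr_le_of_lipschitzOn (n := 4) (z := z) (U := univ) univ_mem hηlip.lipschitzOnWith
    rwa [Real.coe_toNNReal _ (by rw [hbs]; positivity)] at this
  -- integrals
  have iT : IntegrableOn T (ball x0 (2 * s)) μ :=
    ((hTc.mono hWs).integrableOn_compact (isCompact_closedBall x0 (2 * s))).mono_set
      ball_subset_closedBall
  have iB : IntegrableOn (fun z => B z ^ 2) (ball x0 (2 * s)) μ :=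
    (((hBc.pow 2).mono hWs).integrableOn_compact (isCompact_closedBall x0 (2 * s))).mono_set
      ball_subset_closedBall
  set IT := ∫ z in ball x0 (2 * s), T z ∂μ with hIT
  set IB := ∫ z in ball x0 (2 * s), B z ^ 2 ∂μ with hIB
  have hIT0 : 0 ≤ IT := setIntegral_nonneg isOpen_ball.measurableSet fun z hz => hT0 z (h2W hz)
  have hIB0 : 0 ≤ IB := setIntegral_nonneg isOpen_ball.measurableSet fun z hz => sq_nonneg _
  -- multiplication by continuous compactly supported functions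
  have hη2c : HasCompactSupport (fun z => η z ^ 2) :=
    hηc.comp_left (g := fun t : ℝ => t ^ 2) (by simp)
  have hη4c : HasCompactSupport (fun z => η z ^ 4) :=
    hηc.comp_left (g := fun t : ℝ => t ^ 4) (by simp)
  have hs2 : tsupport (fun z => η z ^ 2) ⊆ W :=
    (closure_mono (fun z hz => by
      rw [Function.mem_support] at hz ⊢
      intro h0; apply hz; simp [h0])).trans hηs
  have hs4 : tsupport (fun z => η z ^ 4) ⊆ W :=
    (closure_mono (fun z hz => by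
      rw [Function.mem_support] at hz ⊢
      intro h0; apply hz; simp [h0])).trans hηs
  have hηcont := hηlip.continuous
  have i3 : Integrable (fun z => η z ^ 2 * h3 z) μ :=
    integrable_mul_of_continuousOn_M (n := 4) h3c (hηcont.pow 2) hη2c hs2
  have iBG : Integrable (fun z => η z ^ 2 * (B z ^ 2 * Bo84.mGam 4 f f z)) μ :=
    integrable_mul_of_continuousOn_M (n := 4) ((hBc.pow 2).mul hGc) (hηcont.pow 2) hη2c hs2
  have iBT : Integrable (fun z => η z ^ 2 * (B z * T z)) μ :=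
    integrable_mul_of_continuousOn_M (n := 4) (hBc.mul hTc) (hηcont.pow 2) hη2c hs2
  have iQ : Integrable (fun z => η z ^ 4 * T z ^ 2) μ :=
    integrable_mul_of_continuousOn_M (n := 4) (hTc.pow 2) (hηcont.pow 4) hη4c hs4
  have iGη : Integrable (fun z => Bo84.mGam 4 η η z * T z) μ :=
    integrable_mGam_mul (n := 4) hTc hηlip.locallyLipschitz hηc hηs
  set Q := ∫ z, η z ^ 4 * T z ^ 2 ∂μ with hQ
  set Y := ∫ z, η z ^ 2 * h3 z ∂μ with hY
  have hQ0 : 0 ≤ Q := integral_nonneg fun z => by positivity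
  have hoff : ∀ {g : M → ℝ}, (∀ z, b ≤ dist z x0 → g z = 0) →
      ∫ z, g z ∂μ = ∫ z in ball x0 (2 * s), g z ∂μ := by
    intro g hg
    symm
    apply setIntegral_eq_integral_of_forall_compl_eq_zero
    intro z hz
    apply hg
    have : ¬ dist z x0 < 2 * s := hz
    linarith
  -- the third order estimate
  have hc3 := int_hess3_le (n := 4) hW hf hh hB0 hBc hB hηlip.locallyLipschitz hηc hηs
  have e1 : ∫ z, Bo84.mGam 4 η η z * T z ∂μ ≤ a * IT := by
    have e : ∫ z, Bo84.mGam 4 η η z * T z ∂μ =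
        ∫ z in ball x0 (2 * s), Bo84.mGam 4 η η z * T z ∂μ := by
      symm
      apply setIntegral_eq_integral_of_forall_compl_eq_zero
      intro z hz
      rw [← norm_Gr_sq_eq_mGam, Gr_zero_off fun h => hz (hcb (tsupport_cut2 hab h)), norm_zero]
      norm_num
    rw [e, hIT, ← integral_const_mul]
    refine setIntegral_mono_on iGη.integrableOn (iT.const_mul _) isOpen_ball.measurableSet ?_
    intro z hz
    have h1 : Bo84.mGam 4 η η z ≤ a := by
      rw [← norm_Gr_sq_eq_mGam, ha]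
      have := hGη z
      gcongr
    exact mul_le_mul_of_nonneg_right h1 (hT0 z (h2W hz))
  have e2 : ∫ z, η z ^ 2 * (B z ^ 2 * Bo84.mGam 4 f f z) ∂μ ≤ lam ^ 2 * IB := by
    rw [hoff (fun z hz => by rw [hη0 z hz]; ring), hIB, ← integral_const_mul]
    refine setIntegral_mono_on iBG.integrableOn (iB.const_mul _) isOpen_ball.measurableSet ?_
    intro z hz
    have h1 := hlam z hz
    have h2 := hη2 z
    have h4 := hG0 z
    calc η z ^ 2 * (B z ^ 2 * Bo84.mGam 4 f f z) ≤ 1 * (B z ^ 2 * lam ^ 2) := by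
          gcongr
      _ = lam ^ 2 * B z ^ 2 := by ring
  have e3 : ∫ z, η z ^ 2 * (B z * T z) ∂μ ≤ √IB * √Q := by
    have e : ∫ z, η z ^ 2 * (B z * T z) ∂μ =
        ∫ z in ball x0 (2 * s), B z * (η z ^ 2 * T z) ∂μ := by
      rw [hoff (fun z hz => by rw [hη0 z hz]; ring)]
      congr 1
      funext z
      ring
    have eQ : Q = ∫ z in ball x0 (2 * s), (η z ^ 2 * T z) ^ 2 ∂μ := by
      rw [hQ, hoff (fun z hz => by rw [hη0 z hz]; ring)]
      congr 1
      funext z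
      ring
    have k1 : IntegrableOn (fun z => (η z ^ 2 * T z) ^ 2) (ball x0 (2 * s)) μ := by
      have : (fun z => (η z ^ 2 * T z) ^ 2) = fun z => η z ^ 4 * T z ^ 2 := by funext z; ring
      rw [this]
      exact iQ.integrableOn
    have k2 : IntegrableOn (fun z => B z * (η z ^ 2 * T z)) (ball x0 (2 * s)) μ := by
      have : (fun z => B z * (η z ^ 2 * T z)) = fun z => η z ^ 2 * (B z * T z) := by
        funext z; ring
      rw [this]
      exact iBT.integrableOn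
    have h1 := cs_sq (μ := μ.restrict (ball x0 (2 * s))) iB k1 k2
    rw [← eQ, ← hIB, ← e] at h1
    rw [← Real.sqrt_mul hIB0]
    exact Real.le_sqrt_of_sq_le h1
  have hYle : Y ≤ 6 * (a * IT) + 96 * (lam ^ 2 * IB) + 64 * (√IB * √Q) := by
    have : Y ≤ 6 * ∫ z, Bo84.mGam 4 η η z * T z ∂μ +
        6 * (4:ℕ) ^ 2 * ∫ z, η z ^ 2 * (B z ^ 2 * Bo84.mGam 4 f f z) ∂μ +
        4 * (4:ℕ) ^ 2 * ∫ z, η z ^ 2 * (B z * T z) ∂μ := hc3
    norm_num at this
    linarith
  -- Sobolev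
  have hSob : ∀ ε : ℝ, 0 < ε → √Q ≤ K * (2 * Y + 2 * a * IT +
      ε ^ 2 * (2 * a * μ.real (ball x0 (2 * s)))) := by
    intro ε hε
    obtain ⟨G, hwL, hG⟩ := lgOn_w hW hf hε
    set w : M → ℝ := fun z => √(Bo84.mHessSq 4 f z + ε ^ 2) with hw
    have hLG : LG (fun y => η y * w y) (fun y => |η y| * G y + |w y| * F y) :=
      hwL.cut (LG_cut2 hab) ((tsupport_cut2 hab).trans hbW) ((tsupport_dcut2 hab).trans hbW)
    set H : M → ℝ := fun y => |η y| * G y + |w y| * F y with hH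
    have hH0 : ∀ x, b ≤ dist x x0 → H x = 0 := by
      intro x hx
      simp only [hH, hη, hF]
      rw [cut2_zero hab hx, dcut2_zero hab hx]
      simp
    have hHi : Integrable (fun y => H y ^ 2) μ :=
      integrable_of_zero_off (hLG.contG.pow 2) (fun x hx => by rw [hH0 x hx.le]; norm_num)
        (x0 := x0) (R := b)
    have key := sobR C hκ hom hup hs hΛ hv hlo hLG
      (fun x hx => by rw [hη0 x (hb2.le.trans hx), zero_mul]) hHi
    have hψi : Integrable (fun y => (η y * w y) ^ 4) μ :=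
      integrable_of_zero_off (hLG.continuous.pow 4) (fun x hx => by
        rw [hη0 x hx.le, zero_mul]; norm_num) (x0 := x0) (R := b)
    have hQle : Q ≤ ∫ x, (η x * w x) ^ 4 ∂μ := by
      refine integral_mono iQ hψi fun z => ?_
      show η z ^ 4 * T z ^ 2 ≤ (η z * w z) ^ 4
      by_cases hz : b ≤ dist z x0
      · rw [hη0 z hz]; simp
      · have hzW : z ∈ W := hbW (by
          rw [mem_closedBall]; exact (not_le.1 hz).le)
        have h0 := hT0 z hzW
        have hw4 : w z ^ 4 = (T z + ε ^ 2) ^ 2 := by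
          have : w z ^ 2 = T z + ε ^ 2 := Real.sq_sqrt (by positivity)
          calc w z ^ 4 = (w z ^ 2) ^ 2 := by ring
            _ = _ := by rw [this]
        rw [mul_pow, hw4]
        have : T z ^ 2 ≤ (T z + ε ^ 2) ^ 2 := by
          have : 0 ≤ ε ^ 2 := sq_nonneg _
          nlinarith
        gcongr
    have hVfin : μ (ball x0 (2 * s)) ≠ ⊤ := measure_ball_lt_top.ne
    have iε : IntegrableOn (fun _ : M => ε ^ 2) (ball x0 (2 * s)) μ := integrableOn_const hVfin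
    have hHle : ∫ x, H x ^ 2 ∂μ ≤ 2 * Y + (2 * a * IT +
        ε ^ 2 * (2 * a * μ.real (ball x0 (2 * s)))) := by
      have e : ∫ x, H x ^ 2 ∂μ = ∫ x in ball x0 (2 * s), H x ^ 2 ∂μ :=
        hoff (fun z hz => by rw [hH0 z hz]; norm_num)
      have eY : Y = ∫ x in ball x0 (2 * s), η x ^ 2 * h3 x ∂μ :=
        hoff (fun z hz => by rw [hη0 z hz]; ring)
      have eV : ε ^ 2 * (2 * a * μ.real (ball x0 (2 * s))) =
          2 * a * ∫ x in ball x0 (2 * s), ε ^ 2 ∂μ := by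
        rw [setIntegral_const, smul_eq_mul]; ring
      have iTε : IntegrableOn (fun z => T z + ε ^ 2) (ball x0 (2 * s)) μ := iT.add iε
      have m1 : IntegrableOn (fun z => 2 * (η z ^ 2 * h3 z)) (ball x0 (2 * s)) μ :=
        i3.integrableOn.const_mul _
      have m2 : IntegrableOn (fun z => 2 * a * (T z + ε ^ 2)) (ball x0 (2 * s)) μ :=
        iTε.const_mul _
      rw [e, eY, eV, hIT, ← mul_add (2 * a), ← integral_add iT iε, ← integral_const_mul,
        ← integral_const_mul, ← integral_add m1 m2]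
      refine setIntegral_mono_on hHi.integrableOn (m1.add m2) isOpen_ball.measurableSet ?_
      intro z hz
      have hzW := h2W hz
      have h0 := hT0 z hzW
      have hw2 : w z ^ 2 = T z + ε ^ 2 := Real.sq_sqrt (by positivity)
      have a2 : F z ≤ Cth / (b - s) := dcut2_le hab
      have a3 : 0 ≤ F z := dcut2_nonneg hab
      have a4 : H z ^ 2 ≤ 2 * (|η z| * G z) ^ 2 + 2 * (|w z| * F z) ^ 2 := by
        exact sq_add_le _ _
      have a5 : (|η z| * G z) ^ 2 ≤ η z ^ 2 * h3 z := by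
        rw [mul_pow, sq_abs]
        exact mul_le_mul_of_nonneg_left (hG z hzW) (sq_nonneg _)
      have a6 : (|w z| * F z) ^ 2 ≤ a * (T z + ε ^ 2) := by
        rw [mul_pow, sq_abs, hw2, mul_comm, ha]
        have : 0 ≤ T z + ε ^ 2 := by positivity
        gcongr
      show H z ^ 2 ≤ 2 * (η z ^ 2 * h3 z) + 2 * a * (T z + ε ^ 2)
      linarith
    calc √Q ≤ √(∫ x, (η x * w x) ^ 4 ∂μ) := Real.sqrt_le_sqrt hQle
      _ ≤ K * ∫ x, H x ^ 2 ∂μ := key
      _ ≤ K * (2 * Y + (2 * a * IT + ε ^ 2 * (2 * a * μ.real (ball x0 (2 * s))))) := by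
          gcongr
      _ = _ := by ring
  have hlim : √Q ≤ K * (2 * Y + 2 * a * IT) := by
    have ht : Tendsto (fun ε : ℝ => K * (2 * Y + 2 * a * IT +
        ε ^ 2 * (2 * a * μ.real (ball x0 (2 * s))))) (𝓝[>] 0)
        (𝓝 (K * (2 * Y + 2 * a * IT + 0 ^ 2 * (2 * a * μ.real (ball x0 (2 * s)))))) := by
      apply tendsto_nhdsWithin_of_tendsto_nhds
      apply Continuous.tendsto
      fun_prop
    have h0 : K * (2 * Y + 2 * a * IT + 0 ^ 2 * (2 * a * μ.real (ball x0 (2 * s)))) =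
        K * (2 * Y + 2 * a * IT) := by ring
    rw [h0] at ht
    refine ge_of_tendsto ht ?_
    filter_upwards [self_mem_nhdsWithin] with ε hε using hSob ε hε
  have hR : √IB ≤ 1 / (256 * K) := by
    rw [← Real.sqrt_sq (show (0:ℝ) ≤ 1 / (256 * K) by positivity)]
    exact Real.sqrt_le_sqrt hE
  obtain ⟨r1, r2⟩ := absorb hKpos (Real.sqrt_nonneg Q) ha0 hIT0 hIB0 (sq_nonneg lam)
    (Real.sqrt_nonneg IB) hR hlim hYle
  have haeq : a = 4 * Cth ^ 2 / s ^ 2 := by
    rw [ha, hbs]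
    field_simp
    ring
  have hsub : ball x0 s ⊆ ball x0 (2 * s) := ball_subset_ball (by linarith)
  constructor
  · have h1 : ∫ z in ball x0 s, T z ^ 2 ∂μ ≤ Q := by
      calc ∫ z in ball x0 s, T z ^ 2 ∂μ = ∫ z in ball x0 s, η z ^ 4 * T z ^ 2 ∂μ := by
            apply setIntegral_congr_fun isOpen_ball.measurableSet
            intro z hz
            have : η z = 1 := cut2_one hab (le_of_lt hz)
            simp only [this]
            ring
        _ ≤ Q := setIntegral_le_integral iQ (Eventually.of_forall fun z => by positivity)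
    calc √(∫ z in ball x0 s, T z ^ 2 ∂μ) ≤ √Q := Real.sqrt_le_sqrt h1
      _ ≤ _ := r1
      _ = _ := by rw [haeq]; ring
  · calc ∫ z in ball x0 s, h3 z ∂μ = ∫ z in ball x0 s, η z ^ 2 * h3 z ∂μ := by
            apply setIntegral_congr_fun isOpen_ball.measurableSet
            intro z hz
            have : η z = 1 := cut2_one hab (le_of_lt hz)
            simp only [this]
            ring
        _ ≤ Y := setIntegral_le_integral i3 (Eventually.of_forall fun z => by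
            show 0 ≤ η z ^ 2 * h3 z
            by_cases hz : b ≤ dist z x0
            · rw [hη0 z hz]; simp
            · have hzW : z ∈ W := hbW (by
                rw [mem_closedBall]; exact (not_le.1 hz).le)
              have := h30 z hzW
              positivity)
        _ ≤ _ := r2
        _ = _ := by rw [haeq]; ring

/-- for `Ric ≥ 0` the Sobolev constant is scale invariant. -/
def K0 (om Λ : ℝ) : ℝ := (12 * (Λ + 2) ^ 4 * (4 ^ 4 * om + 1) * Cth) ^ 2

theorem KS_zero (om Λ s : ℝ) : KS 0 om Λ s = K0 om Λ := by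
  simp [KS, K0]

theorem K0_pos (hom : 0 ≤ om) (hΛ : 2 ≤ Λ) : 0 < K0 om Λ := by
  rw [← KS_zero om Λ 1]; exact KS_pos hom hΛ

end M

section ric
universe u
variable {M : Type u} [MetricSpace M] [CompleteSpace M] [ConnectedSpace M]
  [ChartedSpace (EuclideanSpace ℝ (Fin 4)) M]
  [IsManifold (𝓡 4) ∞ M]
  [RiemannianBundle (fun p : M => TangentSpace (𝓡 4) p)]
  [IsContMDiffRiemannianBundle (𝓡 4) ∞ (EuclideanSpace ℝ (Fin 4)) (fun p : M => TangentSpace (𝓡 4) p)]
  [IsRiemannianManifold (𝓡 4) M]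
  [MeasurableSpace M] [BorelSpace M]

variable {om : ℝ} {x0 : M} {s Λ v : ℝ} {W : Set M} {f B : M → ℝ} {lam : ℝ}

/-- **Energy and `L⁴` bounds**, `Ric ≥ 0`. -/
theorem energy0 (hRic : HasRicciLowerBound 4 M 0) (hom : 0 ≤ om)
    (hup : ∀ (y : M) (s : ℝ), 0 < s → (μHE[4] : Measure M) (ball y s) ≤ ENNReal.ofReal (om * s ^ 4))
    (hs : 0 < s) (hΛ : 2 ≤ Λ) (hv : 16 * om + 1 ≤ v * Λ ^ 4)
    (hlo : ENNReal.ofReal (v * (Λ * s) ^ 4) ≤ (μHE[4] : Measure M) (ball x0 (Λ * s)))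
    (hW : IsOpen W) (hWs : closedBall x0 (2 * s) ⊆ W)
    (hf : ∀ z ∈ W, ContMDiffAt (𝓡 4) 𝓘(ℝ, ℝ) 4 f z) (hh : ∀ z ∈ W, Bo84.mLap 4 f z = 0)
    (hB0 : ∀ z ∈ W, 0 ≤ B z) (hBc : ContinuousOn B W) (hB : ∀ z ∈ W, MCurvLe 4 z (B z))
    (hlam : ∀ z ∈ ball x0 (2 * s), Bo84.mGam 4 f f z ≤ lam ^ 2)
    (hE : ∫ z in ball x0 (2 * s), B z ^ 2 ∂(μHE[4] : Measure M) ≤
      (1 / (256 * K0 om Λ)) ^ 2) :
    √(∫ z in ball x0 s, Bo84.mHessSq 4 f z ^ 2 ∂(μHE[4] : Measure M)) ≤
        K0 om Λ * (112 * Cth ^ 2 / s ^ 2 *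
            ∫ z in ball x0 (2 * s), Bo84.mHessSq 4 f z ∂(μHE[4] : Measure M) +
          384 * lam ^ 2 * ∫ z in ball x0 (2 * s), B z ^ 2 ∂(μHE[4] : Measure M)) ∧
      ∫ z in ball x0 s, mHess3Sq 4 f z ∂(μHE[4] : Measure M) ≤
        52 * Cth ^ 2 / s ^ 2 *
            ∫ z in ball x0 (2 * s), Bo84.mHessSq 4 f z ∂(μHE[4] : Measure M) +
          192 * lam ^ 2 * ∫ z in ball x0 (2 * s), B z ^ 2 ∂(μHE[4] : Measure M) := by
  obtain ⟨C⟩ := Bgr546.rad_all 4 0 le_rfl M (by rw [neg_zero]; exact hRic)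
  have h := energy C le_rfl hom hup hs hΛ hv hlo hW hWs hf hh hB0 hBc hB hlam
    (by rw [KS_zero]; exact hE)
  rwa [KS_zero] at h

end ric

end Crest.Agent.R249.En920
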