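import Crest.Agent.R249.En1_920
import Crest.Agent.R249.Dec6_308

/-!
# R249, leaf D3-DECAY/E1 (helper920), part 2: the `L⁴` bound for a system, in the form of
`Dec308.one_step4` (`hE`), and the third order energy of a system.
-/

set_option autoImplicit false
set_option maxSynthPendingDepth 3
set_option linter.unusedSectionVars false

open scoped ContDiff ENNReal NNReal Topology Manifold Bundle RealInnerProductSpace
open MeasureTheory Set Filter Metric Bundle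
open Crest.GeometryTopology.CoordMetric Crest.GeometryTopology.ChartCurvature
open Crest.Agent.R247 Crest.Agent.R247.Bo84 Crest.Agent.R247.Ms322 Crest.Agent.R247.Bs84
open Crest.GeometryTopology.PointedLimit Crest.Agent.R247.Mcp688
open Crest.Agent.R249.SobE_982 Crest.Agent.R249.SobG_982 Crest.Agent.R249.SobC_982
open Crest.Agent.R249.Cod992 Crest.Agent.R249.Dec308

noncomputable section

namespace Crest.Agent.R249.En920

universe u
variable {M : Type u} [MetricSpace M] [CompleteSpace M] [ConnectedSpace M]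
  [ChartedSpace (EuclideanSpace ℝ (Fin 4)) M]
  [IsManifold 𝓘(ℝ, EuclideanSpace ℝ (Fin 4)) ∞ M]
  [RiemannianBundle (fun x : M => TangentSpace 𝓘(ℝ, EuclideanSpace ℝ (Fin 4)) x)]
  [IsContMDiffRiemannianBundle 𝓘(ℝ, EuclideanSpace ℝ (Fin 4)) ∞ (EuclideanSpace ℝ (Fin 4))
    (fun x : M => TangentSpace 𝓘(ℝ, EuclideanSpace ℝ (Fin 4)) x)]
  [IsRiemannianManifold 𝓘(ℝ, EuclideanSpace ℝ (Fin 4)) M]
  [MeasurableSpace M] [BorelSpace M] [SecondCountableTopology M] [Nonempty M]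

local notation "μM" => (μHE[4] : Measure M)

/-- the constant of the `L⁴` bound -/
def CE4 : ℝ := 2 * K0 om4 3 * (112 * Cth ^ 2 + 6144)

/-- the smallness of the curvature energy -/
def kE : ℝ := (1 / (256 * K0 om4 3)) ^ 2

theorem K04_pos : 0 < K0 om4 3 := K0_pos (by have := om4_ge; linarith) (by norm_num)

theorem CE4_pos : 0 < CE4 := by
  have h1 := K04_pos
  have h2 := Cth_pos
  unfold CE4
  positivity

theorem kE_pos : 0 < kE := by
  have h1 := K04_pos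
  unfold kE
  positivity

/-- the constant of the third order energy -/
def CH3 : ℝ := 52 * Cth ^ 2 + 3072

variable {U : Fin 4 → M → ℝ}

theorem gam_le_of_Gr {f : M → ℝ} {z : M} (h : ‖Gr (n := 4) f z‖ ≤ 2) : mGam 4 f f z ≤ 2 ^ 2 := by
  rw [← sq_norm_Gr]
  gcongr

/-- one function -/
theorem energyPin (hRic : HasRicciLowerBound 4 M 0) {x : M} {R s : ℝ} (hP : Pin x R)
    (hs : 0 < s) (hsR : s ≤ R) {W : Set M} (hWo : IsOpen W) (hW : closedBall x (2 * s) ⊆ W)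
    {f : M → ℝ} (hU : ∀ z ∈ W, ContMDiffAt (𝓡 4) 𝓘(ℝ, ℝ) 4 f z)
    (hL : ∀ z ∈ W, mLap 4 f z = 0) (hΛ : ∀ z ∈ W, ‖Gr (n := 4) f z‖ ≤ 2)
    {B : M → ℝ} (hB0 : ∀ z ∈ W, 0 ≤ B z) (hBc : ContinuousOn B W)
    (hB : ∀ z ∈ W, MCurvLe 4 z (B z)) (hE : ∫ z in ball x (2 * s), B z ^ 2 ∂μM ≤ kE) :
    √(∫ z in ball x s, mHessSq 4 f z ^ 2 ∂μM) ≤
        K0 om4 3 * (112 * Cth ^ 2 / s ^ 2 * ∫ z in ball x (2 * s), mHessSq 4 f z ∂μM +
          384 * 2 ^ 2 * ∫ z in ball x (2 * s), B z ^ 2 ∂μM) ∧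
      ∫ z in ball x s, mHess3Sq 4 f z ∂μM ≤
        52 * Cth ^ 2 / s ^ 2 * ∫ z in ball x (2 * s), mHessSq 4 f z ∂μM +
          192 * 2 ^ 2 * ∫ z in ball x (2 * s), B z ^ 2 ∂μM := by
  have h0 := om4_ge
  have hR0 : 0 < R := by linarith
  refine energy0 hRic (om := om4) (by linarith) (vol_up hRic) hs (Λ := 3) (v := om4 / 2)
    (by norm_num) (by linarith) ?_ hWo hW hU hL hB0 hBc hB ?_ hE
  · exact vol_lo hP (mem_ball_self hR0) (by positivity) (by linarith)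
  · intro z hz
    exact gam_le_of_Gr (hΛ z (hW (ball_subset_closedBall hz)))

theorem sqrt_sum_le (q : Fin 4 → ℝ) (hq : ∀ a, 0 ≤ q a) : √(4 * ∑ a, q a) ≤ 2 * ∑ a, √(q a) := by
  rw [Real.sqrt_le_left (by positivity)]
  have h1 : ∑ a, q a ≤ (∑ a, √(q a)) ^ 2 := by
    calc ∑ a, q a = ∑ a, √(q a) ^ 2 := Finset.sum_congr rfl fun a _ => (Real.sq_sqrt (hq a)).symm
      _ ≤ (∑ a, √(q a)) ^ 2 := Finset.sum_sq_le_sq_sum_of_nonneg fun a _ => Real.sqrt_nonneg _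
  nlinarith

/-- **the hypothesis `hE` of `one_step4`.** -/
theorem hE4 (hRic : HasRicciLowerBound 4 M 0) {x : M} {R s : ℝ} (hP : Pin x R)
    (hs : 0 < s) (hsR : s ≤ R) {W : Set M} (hWo : IsOpen W) (hW : closedBall x (2 * s) ⊆ W)
    (hU : ∀ a, ∀ z ∈ W, ContMDiffAt (𝓡 4) 𝓘(ℝ, ℝ) ∞ (U a) z)
    (hL : ∀ a, ∀ z ∈ W, mLap 4 (U a) z = 0)
    (hΛ : ∀ a, ∀ z ∈ W, ‖Gr (n := 4) (U a) z‖ ≤ 2)
    {B : M → ℝ} (hB0 : ∀ z ∈ W, 0 ≤ B z) (hBc : ContinuousOn B W)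
    (hB : ∀ z ∈ W, MCurvLe 4 z (B z)) (hE : ∫ z in ball x (2 * s), B z ^ 2 ∂μM ≤ kE) :
    √(∫ z in ball x s, T2 4 U z ^ 2 ∂μM) ≤
      CE4 * (s⁻¹ ^ 2 * (∫ z in ball x (2 * s), T2 4 U z ∂μM) +
        ∫ z in ball x (2 * s), B z ^ 2 ∂μM) := by
  have := HR216.properSpace_of_riemannian 4 M
  have := isLocallyFinite_muHE 4 M
  have hU4 : ∀ a, ∀ z ∈ W, ContMDiffAt (𝓡 4) 𝓘(ℝ, ℝ) 4 (U a) z := fun a z hz =>
    (hU a z hz).of_le (WithTop.coe_le_coe.2 le_top)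
  have hU2 : ∀ a, ∀ z ∈ W, ContMDiffAt (𝓡 4) 𝓘(ℝ, ℝ) 2 (U a) z := fun a z hz =>
    (hU a z hz).of_le two_le_infty
  have hW1 : closedBall x s ⊆ W := (closedBall_subset_closedBall (by linarith)).trans hW
  have hca : ∀ a, ∀ z ∈ W, ContinuousAt (mHessSq 4 (U a)) z := fun a z hz =>
    Cod992.continuousAt_mHessSq (hU2 a z hz)
  have hi1 : ∀ a, IntegrableOn (mHessSq 4 (U a)) (ball x (2 * s)) μM := fun a =>
    integrableOn_ball_of_contAt (hca a) hW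
  have hi2 : ∀ a, IntegrableOn (fun z => mHessSq 4 (U a) z ^ 2) (ball x s) μM := fun a =>
    integrableOn_ball_of_contAt (U := W) (fun z hz => (hca a z hz).pow 2) hW1
  have hcT : ∀ z ∈ W, ContinuousAt (T2 4 U) z := fun z hz => continuousAt_T2 fun a => hU2 a z hz
  have hiT2 : IntegrableOn (fun z => T2 4 U z ^ 2) (ball x s) μM :=
    integrableOn_ball_of_contAt (U := W) (fun z hz => (hcT z hz).pow 2) hW1
  have hk := fun a => (energyPin hRic hP hs hsR hWo hW (hU4 a) (hL a) (hΛ a) hB0 hBc hB hE).1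
  have h1 : ∫ z in ball x s, T2 4 U z ^ 2 ∂μM ≤
      4 * ∑ a, ∫ z in ball x s, mHessSq 4 (U a) z ^ 2 ∂μM := by
    rw [← integral_finsetSum _ fun a _ => hi2 a, ← integral_const_mul]
    refine integral_mono hiT2 ((integrable_finsetSum _ fun a _ => hi2 a).const_mul _) fun z => ?_
    show (∑ a, mHessSq 4 (U a) z) ^ 2 ≤ 4 * ∑ a, mHessSq 4 (U a) z ^ 2
    have := sq_sum_le_card_mul_sum_sq (s := Finset.univ) (f := fun a => mHessSq 4 (U a) z)
    simpa using this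
  have hsum : ∑ a, ∫ z in ball x (2 * s), mHessSq 4 (U a) z ∂μM =
      ∫ z in ball x (2 * s), T2 4 U z ∂μM := by
    rw [← integral_finsetSum _ fun a _ => hi1 a]
    rfl
  have hB2 : 0 ≤ ∫ z in ball x (2 * s), B z ^ 2 ∂μM := integral_nonneg fun z => sq_nonneg _
  have hT0 : 0 ≤ ∫ z in ball x (2 * s), T2 4 U z ∂μM :=
    setIntegral_nonneg isOpen_ball.measurableSet fun z hz =>
      T2_nonneg fun a => hU2 a z (hW (ball_subset_closedBall hz))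
  have hK := K04_pos
  have hC := Cth_pos
  calc √(∫ z in ball x s, T2 4 U z ^ 2 ∂μM)
      ≤ √(4 * ∑ a, ∫ z in ball x s, mHessSq 4 (U a) z ^ 2 ∂μM) := Real.sqrt_le_sqrt h1
    _ ≤ 2 * ∑ a, √(∫ z in ball x s, mHessSq 4 (U a) z ^ 2 ∂μM) :=
        sqrt_sum_le _ fun a => integral_nonneg fun z => sq_nonneg _
    _ ≤ 2 * ∑ a, (K0 om4 3 * (112 * Cth ^ 2 / s ^ 2 *
          ∫ z in ball x (2 * s), mHessSq 4 (U a) z ∂μM +
          384 * 2 ^ 2 * ∫ z in ball x (2 * s), B z ^ 2 ∂μM)) := by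
        gcongr with a
        exact hk a
    _ = 2 * K0 om4 3 * (112 * Cth ^ 2 * (s⁻¹ ^ 2 * ∫ z in ball x (2 * s), T2 4 U z ∂μM) +
          6144 * ∫ z in ball x (2 * s), B z ^ 2 ∂μM) := by
        rw [← hsum, ← Finset.mul_sum, Finset.sum_add_distrib, ← Finset.mul_sum, Finset.sum_const,
          Finset.card_univ, Fintype.card_fin, nsmul_eq_mul]
        push_cast
        field_simp
        ring
    _ ≤ CE4 * (s⁻¹ ^ 2 * (∫ z in ball x (2 * s), T2 4 U z ∂μM) +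
        ∫ z in ball x (2 * s), B z ^ 2 ∂μM) := by
        unfold CE4
        have e1 : 0 ≤ s⁻¹ ^ 2 * ∫ z in ball x (2 * s), T2 4 U z ∂μM := by positivity
        have e2 : 0 ≤ 2 * K0 om4 3 := by positivity
        rw [mul_assoc (2 * K0 om4 3)]
        apply mul_le_mul_of_nonneg_left _ e2
        nlinarith [sq_nonneg Cth, mul_nonneg (sq_nonneg Cth) hB2]

/-- the third order energy of a system -/
theorem h3_sum (hRic : HasRicciLowerBound 4 M 0) {x : M} {R s : ℝ} (hP : Pin x R)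
    (hs : 0 < s) (hsR : s ≤ R) {W : Set M} (hWo : IsOpen W) (hW : closedBall x (2 * s) ⊆ W)
    (hU : ∀ a, ∀ z ∈ W, ContMDiffAt (𝓡 4) 𝓘(ℝ, ℝ) ∞ (U a) z)
    (hL : ∀ a, ∀ z ∈ W, mLap 4 (U a) z = 0)
    (hΛ : ∀ a, ∀ z ∈ W, ‖Gr (n := 4) (U a) z‖ ≤ 2)
    {B : M → ℝ} (hB0 : ∀ z ∈ W, 0 ≤ B z) (hBc : ContinuousOn B W)
    (hB : ∀ z ∈ W, MCurvLe 4 z (B z)) (hE : ∫ z in ball x (2 * s), B z ^ 2 ∂μM ≤ kE) :
    ∑ a, ∫ z in ball x s, mHess3Sq 4 (U a) z ∂μM ≤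
      CH3 * (s⁻¹ ^ 2 * (∫ z in ball x (2 * s), T2 4 U z ∂μM) +
        ∫ z in ball x (2 * s), B z ^ 2 ∂μM) := by
  have := HR216.properSpace_of_riemannian 4 M
  have := isLocallyFinite_muHE 4 M
  have hU4 : ∀ a, ∀ z ∈ W, ContMDiffAt (𝓡 4) 𝓘(ℝ, ℝ) 4 (U a) z := fun a z hz =>
    (hU a z hz).of_le (WithTop.coe_le_coe.2 le_top)
  have hU2 : ∀ a, ∀ z ∈ W, ContMDiffAt (𝓡 4) 𝓘(ℝ, ℝ) 2 (U a) z := fun a z hz =>
    (hU a z hz).of_le two_le_infty
  have hca : ∀ a, ∀ z ∈ W, ContinuousAt (mHessSq 4 (U a)) z := fun a z hz =>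
    Cod992.continuousAt_mHessSq (hU2 a z hz)
  have hi1 : ∀ a, IntegrableOn (mHessSq 4 (U a)) (ball x (2 * s)) μM := fun a =>
    integrableOn_ball_of_contAt (hca a) hW
  have hsum : ∑ a, ∫ z in ball x (2 * s), mHessSq 4 (U a) z ∂μM =
      ∫ z in ball x (2 * s), T2 4 U z ∂μM := by
    rw [← integral_finsetSum _ fun a _ => hi1 a]
    rfl
  have hB2 : 0 ≤ ∫ z in ball x (2 * s), B z ^ 2 ∂μM := integral_nonneg fun z => sq_nonneg _
  have hT0 : 0 ≤ ∫ z in ball x (2 * s), T2 4 U z ∂μM :=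
    setIntegral_nonneg isOpen_ball.measurableSet fun z hz =>
      T2_nonneg fun a => hU2 a z (hW (ball_subset_closedBall hz))
  have hC := Cth_pos
  calc ∑ a, ∫ z in ball x s, mHess3Sq 4 (U a) z ∂μM
      ≤ ∑ a, (52 * Cth ^ 2 / s ^ 2 * ∫ z in ball x (2 * s), mHessSq 4 (U a) z ∂μM +
          192 * 2 ^ 2 * ∫ z in ball x (2 * s), B z ^ 2 ∂μM) :=
        Finset.sum_le_sum fun a _ =>
          (energyPin hRic hP hs hsR hWo hW (hU4 a) (hL a) (hΛ a) hB0 hBc hB hE).2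
    _ = 52 * Cth ^ 2 * (s⁻¹ ^ 2 * ∫ z in ball x (2 * s), T2 4 U z ∂μM) +
          3072 * ∫ z in ball x (2 * s), B z ^ 2 ∂μM := by
        rw [← hsum, Finset.sum_add_distrib, ← Finset.mul_sum, Finset.sum_const,
          Finset.card_univ, Fintype.card_fin, nsmul_eq_mul]
        push_cast
        field_simp
        ring
    _ ≤ _ := by
        unfold CH3
        have e1 : 0 ≤ s⁻¹ ^ 2 * ∫ z in ball x (2 * s), T2 4 U z ∂μM := by positivity
        nlinarith [sq_nonneg Cth, mul_nonneg (sq_nonneg Cth) hB2]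

end Crest.Agent.R249.En920
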