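import Mathlib

/-!
Row 249, part C3 (helper805): pointwise end game of case (I), C3.8 of BP-C3.
-/

set_option autoImplicit false

namespace Crest.Agent.R249.End_805

open Matrix Finset

/-- A Clifford triple of skew 4x4 matrices (only `J_a J_b + J_b J_a = -2 δ_ab` is used). -/
structure Cliff (J : Fin 3 → Matrix (Fin 4) (Fin 4) ℝ) : Prop where
  skew : ∀ a, (J a)ᵀ = - J a
  sq : ∀ a, J a * J a = -1
  anti : ∀ a b, a ≠ b → J a * J b + J b * J a = 0

lemma Cliff.norm {J : Fin 3 → Matrix (Fin 4) (Fin 4) ℝ} (h : Cliff J) (a : Fin 3) (x : Fin 4 → ℝ) :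
    (J a *ᵥ x) ⬝ᵥ (J a *ᵥ x) = x ⬝ᵥ x := by
  rw [Matrix.dotProduct_mulVec, Matrix.vecMul_mulVec, h.skew, Matrix.neg_mul, h.sq, neg_neg]
  simp

lemma Cliff.eq_zero {J : Fin 3 → Matrix (Fin 4) (Fin 4) ℝ} (h : Cliff J) {a : Fin 3}
    {x : Fin 4 → ℝ} (h0 : J a *ᵥ x = 0) : x = 0 := by
  have := h.norm a x
  rw [h0] at this
  simpa using this.symm

/-- polynomial contradiction in the distinct case -/
lemma poly_false {a0 a1 a2 P : ℝ} (hlam : 0 < a0 + a1 + a2) (h01 : a0 ≠ a1) (h12 : a1 ≠ a2)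
    (h02 : a0 ≠ a2) (hP : 0 ≤ P)
    (h3 : 6 * P = 18 * (a0 * a1 * a2) - 2 * (a0 + a1 + a2) * (a0 * a1 + a1 * a2 + a0 * a2))
    (h4 : (a0 + a1 + a2) ^ 2 * (a0 * a1 + a1 * a2 + a0 * a2) + 9 * (a0 + a1 + a2) * (a0 * a1 * a2)
      - 6 * (a0 * a1 + a1 * a2 + a0 * a2) ^ 2 = 0) : False := by
  obtain ⟨c, hc⟩ : ∃ c, c = (a0 + a1 + a2) / 3 := ⟨_, rfl⟩
  obtain ⟨e2, he2⟩ : ∃ e2, e2 = a0 * a1 + a1 * a2 + a0 * a2 := ⟨_, rfl⟩
  obtain ⟨e3, he3⟩ : ∃ e3, e3 = a0 * a1 * a2 := ⟨_, rfl⟩
  obtain ⟨D, hD⟩ : ∃ D, D = ((a0 - a1) * (a1 - a2) * (a0 - a2)) ^ 2 := ⟨_, rfl⟩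
  have hlam3 : a0 + a1 + a2 = 3 * c := by rw [hc]; ring
  have hcpos : 0 < c := by rw [hc]; linarith
  have hDpos : 0 < D := by
    rw [hD]
    have : (a0 - a1) * (a1 - a2) * (a0 - a2) ≠ 0 :=
      mul_ne_zero (mul_ne_zero (sub_ne_zero.mpr h01) (sub_ne_zero.mpr h12)) (sub_ne_zero.mpr h02)
    positivity
  have hDid : D = 9 * c ^ 2 * e2 ^ 2 - 4 * e2 ^ 3 - 108 * c ^ 3 * e3 + 54 * c * e2 * e3
      - 27 * e3 ^ 2 := by
    rw [hD, he2, he3, hc]; ring
  rw [hlam3, ← he2, ← he3] at h3 h4
  have hm : c * e3 = (2 * e2 ^ 2 - 3 * c ^ 2 * e2) / 9 := by linarith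
  have hcD : c ^ 2 * D = 4 / 3 * e2 * (3 * c ^ 2 - e2) ^ 3 := by
    rw [hDid]
    linear_combination (-108 * c ^ 4 + 54 * c ^ 2 * e2 - 27 * (c * e3)
      - 27 * ((2 * e2 ^ 2 - 3 * c ^ 2 * e2) / 9)) * hm
  have hgap : 0 < 3 * c ^ 2 - e2 := by
    have e : 3 * c ^ 2 - e2 = ((a0 - a1) ^ 2 + (a1 - a2) ^ 2 + (a0 - a2) ^ 2) / 6 := by
      rw [he2, hc]; ring
    rw [e]
    have := sub_ne_zero.mpr h01
    positivity
  have hPc : 3 * c * P = 2 * e2 * (e2 - 3 * c ^ 2) := by
    linear_combination (c / 2) * h3 + 9 * hm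
  have he2neg : e2 ≤ 0 := by
    by_contra hpos
    push Not at hpos
    have h1 : 0 ≤ 3 * c * P := by positivity
    have h2 : 0 < e2 * (3 * c ^ 2 - e2) := mul_pos hpos hgap
    linarith
  have h5 : 0 < c ^ 2 * D := by positivity
  have h6 : 0 ≤ (-e2) * (3 * c ^ 2 - e2) ^ 3 := mul_nonneg (by linarith) (by positivity)
  linarith

section diag

variable {J : Fin 3 → Matrix (Fin 4) (Fin 4) ℝ} {a : Fin 3 → ℝ} {T : Fin 4 → Fin 3 → Fin 3 → ℝ}

/-- The end game when `A` is diagonal. -/
lemma diag (hJ : Cliff J) (hlam : 0 < a 0 + a 1 + a 2)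
    (hsym : ∀ k i j, T k i j = T k j i)
    (hBI : ∀ i, ∑ j, J j *ᵥ (fun l => T l i j) = 0)
    (t1 : ∀ k, T k 0 0 + T k 1 1 + T k 2 2 = 0)
    (t2 : ∀ k, a 0 * T k 0 0 + a 1 * T k 1 1 + a 2 * T k 2 2 = 0)
    (t3 : ∀ k, a 0 ^ 2 * T k 0 0 + a 1 ^ 2 * T k 1 1 + a 2 ^ 2 * T k 2 2 = 0)
    {e2 : ℝ} (he2 : e2 = a 0 * a 1 + a 1 * a 2 + a 0 * a 2)
    (h3 : ∑ i, a i * (6 * (a 0 + a 1 + a 2) * a i - 6 * a i ^ 2 - 4 * e2)
      + ∑ k, ∑ i, ∑ j, T k i j ^ 2 = 0)
    (h4 : ∑ i, a i ^ 2 * (6 * (a 0 + a 1 + a 2) * a i - 6 * a i ^ 2 - 4 * e2)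
      + 2 * ∑ k, ∑ i, a i * ∑ j, T k i j ^ 2 = 0)
    (hN : ∀ x y : ℝ, (∀ i, (a i - x) * (a i - y) = 0) → ∀ k i j, T k i j * (a i + a j - x - y) = 0) :
    ∀ k i j, T k i j = 0 := by
  -- two equal eigenvalues
  have two : ∀ p q r : Fin 3, p ≠ q → p ≠ r → q ≠ r → a p = a q → ∀ k i j, T k i j = 0 := by
    intro p q r hpq hpr hqr he
    have cases3 : ∀ i : Fin 3, i = p ∨ i = q ∨ i = r := by
      intro i; omega
    have hx := hN (a p) (a r) (by
      intro i
      rcases cases3 i with h | h | h <;> rw [h]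
      · simp
      · rw [he]; simp
      · simp)
    by_cases hr : a p = a r
    · -- all equal
      have hx := hN (a p) (a p + 1) (by
        intro i
        rcases cases3 i with h | h | h <;> rw [h]
        · simp
        · rw [he]; simp
        · rw [← hr]; simp)
      have hall : ∀ i, a i = a p := by
        intro i
        rcases cases3 i with h | h | h <;> rw [h]
        · exact he.symm
        · exact hr.symm
      intro k i j
      have := hx k i j
      rw [hall i, hall j] at this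
      linarith
    · have z1 : ∀ k, ∀ i j, a i = a j → T k i j = 0 := by
        intro k i j hij
        have := hx k i j
        rw [← hij] at this
        rcases mul_eq_zero.mp this with h | h
        · exact h
        · exfalso
          rcases cases3 i with hi | hi | hi <;> rw [hi] at h
          · exact hr (by linarith)
          · exact hr (by linarith)
          · exact hr (by linarith)
      have hzero : ∀ i, (i = p ∨ i = q) → ∀ k, T k i r = 0 := by
        intro i hi
        have hb := hBI i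
        have hai : a i = a p := by rcases hi with h | h <;> rw [h]; exact he.symm
        have hu : (Finset.univ : Finset (Fin 3)) = {p, q, r} := by
          ext i; simp; exact cases3 i
        rw [hu, Finset.sum_insert (by simp [hpq, hpr]), Finset.sum_insert (by simp [hqr]),
          Finset.sum_singleton] at hb
        have e1 : (fun l => T l i p) = 0 := by
          funext l; exact z1 l i p hai
        have e2 : (fun l => T l i q) = 0 := by
          funext l; exact z1 l i q (hai.trans he)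
        rw [e1, e2, Matrix.mulVec_zero, Matrix.mulVec_zero, zero_add, zero_add] at hb
        intro k
        exact congrFun (hJ.eq_zero hb) k
      intro k i j
      rcases cases3 i with hi | hi | hi <;> rcases cases3 j with hj | hj | hj <;> rw [hi, hj]
      · exact z1 k _ _ rfl
      · exact z1 k _ _ he
      · exact hzero p (Or.inl rfl) k
      · exact z1 k _ _ he.symm
      · exact z1 k _ _ rfl
      · exact hzero q (Or.inr rfl) k
      · rw [hsym]; exact hzero p (Or.inl rfl) k
      · rw [hsym]; exact hzero q (Or.inr rfl) k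
      · exact z1 k _ _ rfl
  by_cases h01 : a 0 = a 1
  · exact two 0 1 2 (by decide) (by decide) (by decide) h01
  by_cases h12 : a 1 = a 2
  · exact two 1 2 0 (by decide) (by decide) (by decide) h12
  by_cases h02 : a 0 = a 2
  · exact two 0 2 1 (by decide) (by decide) (by decide) h02
  exfalso
  -- diagonal entries vanish
  have d01 := sub_ne_zero.mpr h01
  have d12 := sub_ne_zero.mpr h12
  have d02 := sub_ne_zero.mpr h02
  have T0 : ∀ k, T k 0 0 = 0 := by
    intro k
    have : (a 0 - a 1) * (a 0 - a 2) * T k 0 0 = 0 := by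
      linear_combination t3 k - (a 1 + a 2) * t2 k + a 1 * a 2 * t1 k
    rcases mul_eq_zero.mp this with h | h
    · exact absurd h (mul_ne_zero d01 d02)
    · exact h
  have T1 : ∀ k, T k 1 1 = 0 := by
    intro k
    have : (a 0 - a 1) * (a 1 - a 2) * T k 1 1 = 0 := by
      linear_combination -t3 k + (a 0 + a 2) * t2 k - a 0 * a 2 * t1 k
    rcases mul_eq_zero.mp this with h | h
    · exact absurd h (mul_ne_zero d01 d12)
    · exact h
  have T2 : ∀ k, T k 2 2 = 0 := by
    intro k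
    have := t1 k
    rw [T0, T1] at this
    linarith
  -- norms
  have n1 : (fun l => T l 0 1) ⬝ᵥ (fun l => T l 0 1) = (fun l => T l 0 2) ⬝ᵥ (fun l => T l 0 2) := by
    have hb := hBI 0
    rw [Fin.sum_univ_three] at hb
    have e : (fun l => T l 0 0) = 0 := by funext l; exact T0 l
    rw [e, Matrix.mulVec_zero, zero_add] at hb
    have : J 1 *ᵥ (fun l => T l 0 1) = - (J 2 *ᵥ (fun l => T l 0 2)) := eq_neg_of_add_eq_zero_left hb
    rw [← hJ.norm 1, ← hJ.norm 2 (fun l => T l 0 2), this]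
    simp
  have n2 : (fun l => T l 1 0) ⬝ᵥ (fun l => T l 1 0) = (fun l => T l 1 2) ⬝ᵥ (fun l => T l 1 2) := by
    have hb := hBI 1
    rw [Fin.sum_univ_three] at hb
    have e : (fun l => T l 1 1) = 0 := by funext l; exact T1 l
    rw [e, Matrix.mulVec_zero, add_zero] at hb
    have : J 0 *ᵥ (fun l => T l 1 0) = - (J 2 *ᵥ (fun l => T l 1 2)) := eq_neg_of_add_eq_zero_left hb
    rw [← hJ.norm 0, ← hJ.norm 2 (fun l => T l 1 2), this]
    simp
  simp only [dotProduct, Fin.sum_univ_four] at n1 n2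
  obtain ⟨P, hP⟩ : ∃ P, P = T 0 0 1 ^ 2 + T 1 0 1 ^ 2 + T 2 0 1 ^ 2 + T 3 0 1 ^ 2 := ⟨_, rfl⟩
  have hPn : 0 ≤ P := by rw [hP]; positivity
  have s10 : ∀ k, T k 1 0 = T k 0 1 := fun k => hsym k 1 0
  have s20 : ∀ k, T k 2 0 = T k 0 2 := fun k => hsym k 2 0
  have s21 : ∀ k, T k 2 1 = T k 1 2 := fun k => hsym k 2 1
  simp only [s10] at n2
  have m1 : T 0 0 2 ^ 2 + T 1 0 2 ^ 2 + T 2 0 2 ^ 2 + T 3 0 2 ^ 2 = P := by
    rw [hP]; linear_combination -n1
  have m2 : T 0 1 2 ^ 2 + T 1 1 2 ^ 2 + T 2 1 2 ^ 2 + T 3 1 2 ^ 2 = P := by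
    rw [hP]; linear_combination -n2
  simp only [Fin.sum_univ_three, Fin.sum_univ_four, T0, T1, T2, s10, s20, s21] at h3 h4
  rw [he2] at h3 h4
  have h3P : 6 * P = 18 * (a 0 * a 1 * a 2)
      - 2 * (a 0 + a 1 + a 2) * (a 0 * a 1 + a 1 * a 2 + a 0 * a 2) := by
    linear_combination h3 + 2 * hP - 2 * m1 - 2 * m2
  refine poly_false hlam h01 h12 h02 hPn (P := P) h3P ?_
  linear_combination (3 / 2) * h4 + 3 * (a 0 + a 1) * hP - 3 * (a 0 + a 2) * m1
      - 3 * (a 1 + a 2) * m2 - (a 0 + a 1 + a 2) * h3P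

end diag

lemma exists_diag {A : Matrix (Fin 3) (Fin 3) ℝ} (hA : Aᵀ = A) :
    ∃ (O : Matrix (Fin 3) (Fin 3) ℝ) (a : Fin 3 → ℝ), O * Oᵀ = 1 ∧ Oᵀ * O = 1 ∧
      O * A * Oᵀ = Matrix.diagonal a := by
  have hH : A.IsHermitian := by
    rw [Matrix.IsHermitian, Matrix.conjTranspose_eq_transpose_of_trivial, hA]
  have hU := hH.eigenvectorUnitary.2
  have h1 := (Matrix.mem_unitaryGroup_iff).mp hU
  have h2 := (Matrix.mem_unitaryGroup_iff').mp hU
  rw [Matrix.star_eq_conjTranspose, Matrix.conjTranspose_eq_transpose_of_trivial] at h1 h2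
  refine ⟨(hH.eigenvectorUnitary : Matrix (Fin 3) (Fin 3) ℝ)ᵀ, hH.eigenvalues, ?_, ?_, ?_⟩
  · rw [Matrix.transpose_transpose]; exact h2
  · rw [Matrix.transpose_transpose]; exact h1
  · have h := hH.conjStarAlgAut_star_eigenvectorUnitary
    rw [Unitary.conjStarAlgAut_star_apply] at h
    rw [Matrix.transpose_transpose]
    rw [Matrix.star_eq_conjTranspose, Matrix.conjTranspose_eq_transpose_of_trivial] at h
    rw [h]
    congr 1

/-- C3.8, general form. `A` is the curvature block at the point, `T k = ∇_k A`. -/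
theorem endgame {J : Fin 3 → Matrix (Fin 4) (Fin 4) ℝ} (hJ : Cliff J)
    {A : Matrix (Fin 3) (Fin 3) ℝ} {T : Fin 4 → Matrix (Fin 3) (Fin 3) ℝ}
    (hA : Aᵀ = A) (hT : ∀ k, (T k)ᵀ = T k) (hlam : 0 < A.trace)
    (hBI : ∀ i, ∑ j, J j *ᵥ (fun l => T l i j) = 0)
    (t1 : ∀ k, (T k).trace = 0) (t2 : ∀ k, (A * T k).trace = 0)
    (t3 : ∀ k, (A * A * T k).trace = 0)
    {L : Matrix (Fin 3) (Fin 3) ℝ}
    (hL : L = (6 * A.trace) • A - (6 : ℝ) • (A * A)
      - (2 * (A.trace ^ 2 - (A * A).trace)) • (1 : Matrix (Fin 3) (Fin 3) ℝ))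
    (h3 : (A * L).trace + ∑ k, (T k * T k).trace = 0)
    (h4 : (A * A * L).trace + 2 * ∑ k, (A * T k * T k).trace = 0)
    (hN : ∀ x y : ℝ, (A - x • (1 : Matrix (Fin 3) (Fin 3) ℝ)) * (A - y • (1 : Matrix (Fin 3) (Fin 3) ℝ)) = 0 →
      ∀ k, T k * (A - y • (1 : Matrix (Fin 3) (Fin 3) ℝ))
        + (A - x • (1 : Matrix (Fin 3) (Fin 3) ℝ)) * T k = 0) :
    ∀ k, T k = 0 := by
  obtain ⟨O, a, hO1, hO2, hD⟩ := exists_diag hA
  -- conjugation
  have conj_mul : ∀ X Y : Matrix (Fin 3) (Fin 3) ℝ, O * (X * Y) * Oᵀ = (O * X * Oᵀ) * (O * Y * Oᵀ) := by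
    intro X Y
    calc O * (X * Y) * Oᵀ = O * X * (1 * Y) * Oᵀ := by simp only [Matrix.one_mul, Matrix.mul_assoc]
      _ = _ := by rw [← hO2]; simp only [Matrix.mul_assoc]
  have conj_tr : ∀ X : Matrix (Fin 3) (Fin 3) ℝ, (O * X * Oᵀ).trace = X.trace := by
    intro X
    rw [Matrix.trace_mul_comm, ← Matrix.mul_assoc, hO2, Matrix.one_mul]
  have conj_back : ∀ X : Matrix (Fin 3) (Fin 3) ℝ, X = Oᵀ * (O * X * Oᵀ) * O := by
    intro X
    calc X = 1 * X * 1 := by simp
      _ = _ := by rw [← hO2]; simp only [Matrix.mul_assoc]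
  set J' : Fin 3 → Matrix (Fin 4) (Fin 4) ℝ := fun i => ∑ m, O i m • J m with hJ'def
  set T' : Fin 4 → Fin 3 → Fin 3 → ℝ := fun k => O * T k * Oᵀ with hT'def
  have hJall : ∀ m n, J m * J n + J n * J m = if m = n then (-2 : ℝ) • (1 : Matrix (Fin 4) (Fin 4) ℝ) else 0 := by
    intro m n
    split_ifs with h
    · rw [h, hJ.sq]; ext i j; simp; ring
    · exact hJ.anti m n h
  have hJ'all : ∀ i j, J' i * J' j + J' j * J' i
      = if i = j then (-2 : ℝ) • (1 : Matrix (Fin 4) (Fin 4) ℝ) else 0 := by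
    intro i j
    have e1 : J' i * J' j + J' j * J' i = ∑ m, ∑ n, (O i m * O j n) • (J m * J n + J n * J m) := by
      have e : ∀ i j, J' i * J' j = ∑ m, ∑ n, (O i m * O j n) • (J m * J n) := by
        intro i j
        simp only [hJ'def, Finset.sum_mul, Finset.mul_sum, Matrix.smul_mul, Matrix.mul_smul, smul_smul]
        rw [Finset.sum_comm]
        refine Finset.sum_congr rfl fun m _ => Finset.sum_congr rfl fun n _ => ?_
        rw [mul_comm]
      rw [e i j, e j i]
      rw [Finset.sum_comm (f := fun m n => (O j m * O i n) • (J m * J n)), ← Finset.sum_add_distrib]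
      refine Finset.sum_congr rfl fun m _ => ?_
      rw [← Finset.sum_add_distrib]
      refine Finset.sum_congr rfl fun n _ => ?_
      rw [smul_add, mul_comm (O j n) (O i m)]
    rw [e1]
    simp only [hJall, smul_ite, smul_zero, Finset.sum_ite_eq, Finset.mem_univ, if_true]
    rw [← Finset.sum_smul]
    have e2 : ∑ m, O i m * O j m = (O * Oᵀ) i j := by
      rw [Matrix.mul_apply]; rfl
    rw [e2, hO1, Matrix.one_apply]
    split_ifs <;> simp
  have hJ'c : Cliff J' := by
    refine ⟨fun i => ?_, fun i => ?_, fun i j hij => ?_⟩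
    · simp only [hJ'def, Matrix.transpose_sum, Matrix.transpose_smul, hJ.skew, smul_neg,
        Finset.sum_neg_distrib]
    · have := hJ'all i i
      rw [if_pos rfl] at this
      have e : (2 : ℝ) • (J' i * J' i) = (2 : ℝ) • (-1 : Matrix (Fin 4) (Fin 4) ℝ) := by
        rw [two_smul, this]; ext p q; simp
      exact smul_right_injective _ (two_ne_zero) e
    · rw [hJ'all, if_neg hij]
  have hT'sym : ∀ k i j, T' k i j = T' k j i := by
    intro k i j
    have : (O * T k * Oᵀ)ᵀ = O * T k * Oᵀ := by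
      rw [Matrix.transpose_mul, Matrix.transpose_mul, Matrix.transpose_transpose, hT,
        Matrix.mul_assoc]
    exact (congrFun (congrFun this j) i)
  have htr : A.trace = a 0 + a 1 + a 2 := by
    rw [← conj_tr A, hD, Matrix.trace_diagonal, Fin.sum_univ_three]
  have htr2 : (A * A).trace = a 0 ^ 2 + a 1 ^ 2 + a 2 ^ 2 := by
    rw [← conj_tr, conj_mul, hD, Matrix.diagonal_mul_diagonal, Matrix.trace_diagonal,
      Fin.sum_univ_three]; ring
  have hT'0 : ∀ k i j, T' k i j = 0 := by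
    refine diag (J := J') (a := a) (T := T') hJ'c (by rw [← htr]; exact hlam) hT'sym ?_ ?_ ?_ ?_
      (e2 := a 0 * a 1 + a 1 * a 2 + a 0 * a 2) rfl ?_ ?_ ?_
    · intro i
      have e : ∀ j, J' j *ᵥ (fun l => T' l i j)
          = ∑ m, ∑ q, (O j m * O j q) • ∑ p, O i p • (J m *ᵥ (fun l => T l p q)) := by
        intro j
        have e0 : (fun l => T' l i j) = ∑ q, ∑ p, (O j q * O i p) • (fun l => T l p q) := by
          funext l
          simp only [hT'def, Finset.sum_apply, Pi.smul_apply, smul_eq_mul, Matrix.mul_apply,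
            Matrix.transpose_apply, Finset.sum_mul]
          refine Finset.sum_congr rfl fun q _ => Finset.sum_congr rfl fun p _ => ?_
          ring
        rw [e0, hJ'def]
        simp only [Matrix.sum_mulVec, Matrix.smul_mulVec, Matrix.mulVec_sum, Matrix.mulVec_smul,
          Finset.smul_sum, smul_smul]
        rw [Finset.sum_congr rfl fun q _ => Finset.sum_comm, Finset.sum_comm]
        refine Finset.sum_congr rfl fun m _ => Finset.sum_congr rfl fun q _ =>
          Finset.sum_congr rfl fun p _ => ?_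
        congr 1; ring
      simp only [e]
      rw [Finset.sum_comm]
      have e2 : ∀ m, ∑ j, ∑ q, (O j m * O j q) • ∑ p, O i p • (J m *ᵥ (fun l => T l p q))
          = ∑ p, O i p • (J m *ᵥ (fun l => T l p m)) := by
        intro m
        rw [Finset.sum_comm]
        simp only [← Finset.sum_smul]
        have e3 : ∀ q, ∑ j, O j m * O j q = (Oᵀ * O) m q := by
          intro q; rw [Matrix.mul_apply]; rfl
        simp only [e3, hO2, Matrix.one_apply, ite_smul, one_smul, zero_smul, Finset.sum_ite_eq,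
          Finset.mem_univ, if_true]
      simp only [e2]
      rw [Finset.sum_comm]
      simp only [← Finset.smul_sum, hBI, smul_zero, Finset.sum_const_zero]
    · intro k
      have := t1 k
      rw [← conj_tr, Matrix.trace_fin_three] at this
      exact this
    · intro k
      have := t2 k
      rw [← conj_tr, conj_mul, hD, Matrix.trace_fin_three, Matrix.diagonal_mul, Matrix.diagonal_mul,
        Matrix.diagonal_mul] at this
      exact this
    · intro k
      have := t3 k
      rw [← conj_tr, conj_mul, conj_mul, hD, Matrix.diagonal_mul_diagonal, Matrix.trace_fin_three,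
        Matrix.diagonal_mul, Matrix.diagonal_mul, Matrix.diagonal_mul] at this
      rw [← this]; simp only [hT'def]; ring
    · have hLD : O * L * Oᵀ = Matrix.diagonal (fun i => 6 * (a 0 + a 1 + a 2) * a i - 6 * a i ^ 2
          - 4 * (a 0 * a 1 + a 1 * a 2 + a 0 * a 2)) := by
        rw [hL]
        simp only [Matrix.mul_sub, Matrix.sub_mul, Matrix.mul_smul, Matrix.smul_mul, conj_mul, hD,
          Matrix.mul_one, hO1, htr, htr2, Matrix.diagonal_mul_diagonal]
        ext i j
        by_cases hij : i = j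
        · subst hij; simp; ring
        · simp [hij]
      rw [← conj_tr, conj_mul, hD, hLD, Matrix.diagonal_mul_diagonal, Matrix.trace_diagonal] at h3
      rw [← h3]
      congr 1
      refine Finset.sum_congr rfl fun k _ => ?_
      rw [← conj_tr, conj_mul, Matrix.trace]
      refine Finset.sum_congr rfl fun i _ => ?_
      rw [Matrix.diag_apply, Matrix.mul_apply]
      refine Finset.sum_congr rfl fun j _ => ?_
      change T' k i j ^ 2 = T' k i j * T' k j i
      rw [hT'sym k j i]; ring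
    · have hLD : O * L * Oᵀ = Matrix.diagonal (fun i => 6 * (a 0 + a 1 + a 2) * a i - 6 * a i ^ 2
          - 4 * (a 0 * a 1 + a 1 * a 2 + a 0 * a 2)) := by
        rw [hL]
        simp only [Matrix.mul_sub, Matrix.sub_mul, Matrix.mul_smul, Matrix.smul_mul, conj_mul, hD,
          Matrix.mul_one, hO1, htr, htr2, Matrix.diagonal_mul_diagonal]
        ext i j
        by_cases hij : i = j
        · subst hij; simp; ring
        · simp [hij]
      rw [← conj_tr, conj_mul, conj_mul, hD, hLD, Matrix.diagonal_mul_diagonal,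
        Matrix.diagonal_mul_diagonal, Matrix.trace_diagonal] at h4
      rw [← h4]
      congr 1
      · refine Finset.sum_congr rfl fun i _ => ?_
        ring
      · congr 1
        refine Finset.sum_congr rfl fun k _ => ?_
        rw [← conj_tr, conj_mul, conj_mul, hD, Matrix.trace]
        refine Finset.sum_congr rfl fun i _ => ?_
        rw [Matrix.diag_apply, Matrix.mul_apply, Finset.mul_sum]
        refine Finset.sum_congr rfl fun j _ => ?_
        rw [Matrix.diagonal_mul]
        change a i * T' k i j ^ 2 = a i * T' k i j * T' k j i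
        rw [hT'sym k j i]; ring
    · intro x y hxy k i j
      have e0 : (A - x • (1 : Matrix (Fin 3) (Fin 3) ℝ)) * (A - y • (1 : Matrix (Fin 3) (Fin 3) ℝ)) = 0 := by
        rw [conj_back ((A - x • (1 : Matrix (Fin 3) (Fin 3) ℝ)) * (A - y • (1 : Matrix (Fin 3) (Fin 3) ℝ))),
          conj_mul]
        have : ∀ z : ℝ, O * (A - z • (1 : Matrix (Fin 3) (Fin 3) ℝ)) * Oᵀ
            = Matrix.diagonal (fun i => a i - z) := by
          intro z
          rw [Matrix.mul_sub, Matrix.sub_mul, Matrix.mul_smul, Matrix.smul_mul, hD, Matrix.mul_one, hO1]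
          ext i j
          by_cases hij : i = j
          · subst hij; simp
          · simp [hij]
        rw [this, this, Matrix.diagonal_mul_diagonal]
        have : (fun i => (a i - x) * (a i - y)) = 0 := by funext i; exact hxy i
        rw [this]; simp
      have e1 := hN x y e0 k
      have e2 : O * (T k * (A - y • (1 : Matrix (Fin 3) (Fin 3) ℝ))
        + (A - x • (1 : Matrix (Fin 3) (Fin 3) ℝ)) * T k) * Oᵀ = 0 := by rw [e1]; simp
      rw [Matrix.mul_add, Matrix.add_mul, conj_mul, conj_mul] at e2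
      have this : ∀ z : ℝ, O * (A - z • (1 : Matrix (Fin 3) (Fin 3) ℝ)) * Oᵀ
            = Matrix.diagonal (fun i => a i - z) := by
          intro z
          rw [Matrix.mul_sub, Matrix.sub_mul, Matrix.mul_smul, Matrix.smul_mul, hD, Matrix.mul_one, hO1]
          ext i j
          by_cases hij : i = j
          · subst hij; simp
          · simp [hij]
      rw [this, this] at e2
      have e3 := congrFun (congrFun e2 i) j
      rw [Matrix.add_apply, Matrix.mul_diagonal, Matrix.diagonal_mul] at e3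
      change T' k i j * (a j - y) + (a i - x) * T' k i j = 0 at e3
      linear_combination e3
  intro k
  rw [conj_back (T k)]
  have : O * T k * Oᵀ = 0 := by ext i j; exact hT'0 k i j
  rw [this]; simp

end Crest.Agent.R249.End_805
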