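import Crest.Agent.R249.Pen_806

/-!
R249, part A2 (helper806), file 4: section 1 of BP-A2 v2 (the regularised subsolutions `reg d F`)
and the elementary properties (P1), (P2) of the penalised pair.
-/

set_option autoImplicit false
set_option linter.unusedVariables false
set_option linter.unusedSectionVars false

open MeasureTheory Set Filter Topology Matrix
open scoped ContDiff

noncomputable section

namespace Crest.Agent.R249.Pen_806

open Calc_806 Calc_806.Calc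

variable {X : Type*} [TopologicalSpace X] [CompactSpace X] [MeasurableSpace X]
  [OpensMeasurableSpace X] {μ : Measure X} [IsFiniteMeasure μ]

/-! ### the regularisation -/

/-- the hypothesis of (ST) in normalised form, `F = 3 |W|² / (2 lam²)`. -/
structure STC (C : Calc X μ) (F : X → ℝ) : Prop where
  smooth : C.Sm F
  nonneg : ∀ x, 0 ≤ F x
  ineq : ∀ x, 0 < F x →
    (5 / 6) * (C.G F F x / F x) + 4 * F x * (1 - Real.sqrt (F x)) ≤ C.L F x
  zero : ∀ x, F x = 0 → C.G F F x = 0 ∧ 0 ≤ C.L F x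

/-- the factor `θ³` -/
def th3 (d : ℝ) : ℝ := (2 - 4 * d) / (2 + 2 * d)

/-- the regularised function `θ (F + d²)^(1/6)` -/
def reg (d : ℝ) (F : X → ℝ) (x : X) : ℝ := (th3 d) ^ (1 / 3 : ℝ) * (F x + d ^ 2) ^ (1 / 6 : ℝ)

lemma th3_ge {d : ℝ} (hd : 0 < d) (hd8 : d ≤ 1 / 8) : 1 / 2 ≤ th3 d := by
  unfold th3
  rw [le_div_iff₀ (by positivity)]
  linarith

lemma th3_le {d : ℝ} (hd : 0 < d) : th3 d ≤ 1 := by
  unfold th3
  rw [div_le_one (by positivity)]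
  linarith

lemma one_sub_th3 {d : ℝ} (hd : 0 < d) : 1 - th3 d ≤ 3 * d := by
  unfold th3
  rw [sub_le_iff_le_add, ← sub_le_iff_le_add', le_div_iff₀ (by positivity)]
  nlinarith

lemma six_rpow {a : ℝ} (ha : 0 ≤ a) : (a ^ (1 / 6 : ℝ)) ^ 3 = Real.sqrt a := by
  rw [← Real.rpow_natCast, ← Real.rpow_mul ha, Real.sqrt_eq_rpow]
  norm_num

lemma reg_pos {d : ℝ} (hd : 0 < d) (hd8 : d ≤ 1 / 8) {F : X → ℝ} (hF : ∀ x, 0 ≤ F x) (x : X) :
    0 < reg d F x := by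
  have h1 := th3_ge hd hd8
  have h2 := hF x
  unfold reg
  positivity

lemma reg_cube {d : ℝ} (hd : 0 < d) (hd8 : d ≤ 1 / 8) {F : X → ℝ} (hF : ∀ x, 0 ≤ F x) (x : X) :
    reg d F x ^ 3 = th3 d * Real.sqrt (F x + d ^ 2) := by
  have h1 := th3_ge hd hd8
  have h2 := hF x
  unfold reg
  rw [mul_pow, cube_rpow (by linarith), six_rpow (by positivity)]

lemma reg_six {d : ℝ} (hd : 0 < d) (hd8 : d ≤ 1 / 8) {F : X → ℝ} (hF : ∀ x, 0 ≤ F x) (x : X) :
    reg d F x ^ 6 = th3 d ^ 2 * (F x + d ^ 2) := by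
  have h2 := hF x
  have e : reg d F x ^ 6 = (reg d F x ^ 3) ^ 2 := by ring
  rw [e, reg_cube hd hd8 hF, mul_pow, Real.sq_sqrt (by positivity)]

lemma sm_reg {C : Calc X μ} {d : ℝ} (hd : 0 < d) {F : X → ℝ} (hF : ∀ x, 0 ≤ F x)
    (sF : C.Sm F) : C.Sm (reg d F) := by
  refine sm_smul _ (sm_rpow (sm_add sF (sm_const _)) (fun x => ?_) _)
  have := hF x
  positivity

/-- the sixth power -/
lemma L_six {C : Calc X μ} {f : X → ℝ} (hf : C.Sm f) (x : X) :
    C.L (fun y => f y ^ 6) x = 6 * f x ^ 5 * C.L f x + 30 * f x ^ 4 * C.G f f x := by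
  have h1 := L_comp' (C := C) (φ := fun p => p ^ 6) (contDiff_id.pow 6) hf x
  have e1 : deriv (fun p : ℝ => p ^ 6) = fun p => 6 * p ^ 5 := by
    funext p; simp
  have e2 : deriv (deriv (fun p : ℝ => p ^ 6)) = fun p => 30 * p ^ 4 := by
    rw [e1]; funext p
    rw [deriv_const_mul _ (by fun_prop)]; simp; ring
  rw [h1, e2, e1]

lemma G_six {C : Calc X μ} {f : X → ℝ} (hf : C.Sm f) (x : X) :
    C.G (fun y => f y ^ 6) (fun y => f y ^ 6) x = 36 * f x ^ 10 * C.G f f x := by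
  have e1 : deriv (fun p : ℝ => p ^ 6) = fun p => 6 * p ^ 5 := by
    funext p; simp
  rw [G_comp'_left (C := C) (φ := fun p => p ^ 6) (contDiff_id.pow 6) hf,
    G_symm, G_comp'_left (C := C) (φ := fun p => p ^ 6) (contDiff_id.pow 6) hf, e1]
  ring

/-- **the differential inequality of the regularised function** -/
theorem reg_sub {C : Calc X μ} {d : ℝ} (hd : 0 < d) (hd8 : d ≤ 1 / 8) {F : X → ℝ} (H : STC C F)
    (h2 : ∀ x, Real.sqrt (F x) ≤ 2) (x : X) : fd d (reg d F x) ≤ C.L (reg d F) x := by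
  have hF := H.nonneg x
  have hp := reg_pos hd hd8 H.nonneg x
  have t1 := th3_ge hd hd8
  have t2 := th3_le hd
  have t3 := one_sub_th3 hd
  set φ : ℝ := reg d F x with hφ
  set w : ℝ := F x + d ^ 2 with hw
  have hw0 : 0 < w := by positivity
  have sR := sm_reg (C := C) hd H.nonneg H.smooth
  -- the two identities
  have e0 : (fun y => reg d F y ^ 6) = fun y => th3 d ^ 2 * (F y + d ^ 2) := by
    funext y; exact reg_six hd hd8 H.nonneg y
  have hL := L_six (C := C) sR x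
  have hG := G_six (C := C) sR x
  rw [e0] at hL hG
  have sFd : C.Sm (fun y => F y + d ^ 2) := sm_add H.smooth (sm_const _)
  rw [L_smul _ sFd, C.L_add H.smooth (sm_const _), C.L_const, add_zero] at hL
  rw [G_smul_left _ sFd, G_symm, G_smul_left _ sFd, G_add_left H.smooth (sm_const _), G_const_left,
    add_zero, G_symm F, G_add_left H.smooth (sm_const _), G_const_left, add_zero] at hG
  rw [← hφ] at hL hG
  have h6 : φ ^ 6 = th3 d ^ 2 * w := reg_six hd hd8 H.nonneg x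
  have h3 : φ ^ 3 = th3 d * Real.sqrt w := reg_cube hd hd8 H.nonneg x
  -- `30 φ⁴ G = (5/6) θ⁶ G(F,F) / w`
  have hG2 : 30 * φ ^ 4 * C.G (reg d F) (reg d F) x = (5 / 6) * th3 d ^ 2 * (C.G F F x / w) := by
    have e1 : 36 * φ ^ 10 * C.G (reg d F) (reg d F) x =
        φ ^ 6 * (36 * φ ^ 4 * C.G (reg d F) (reg d F) x) := by ring
    have ht : (th3 d) ^ 2 ≠ 0 := by positivity
    rw [e1, h6] at hG
    have hG3 : th3 d ^ 2 * C.G F F x = w * (36 * φ ^ 4 * C.G (reg d F) (reg d F) x) := by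
      refine mul_left_cancel₀ ht ?_
      linarith
    field_simp
    linarith
  have hkey : 6 * φ ^ 5 * C.L (reg d F) x = th3 d ^ 2 * (C.L F x - (5 / 6) * (C.G F F x / w)) := by
    linarith
  -- the target
  have hfd : 6 * φ ^ 5 * fd d φ = th3 d ^ 2 * (4 * w * (1 - φ ^ 3) - 36 * d * w) - 4 * d ^ 2 := by
    have e1 : 6 * φ ^ 5 * fd d φ = φ ^ 6 * (4 * (1 - φ ^ 3) - 36 * d) - 4 * d ^ 2 := by
      unfold fd
      field_simp
      ring
    rw [e1, h6]; ring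
  have hG0 : 0 ≤ C.G F F x := G_self_nonneg F x
  have hsw : Real.sqrt w ≤ 17 / 8 := by
    have a1 : Real.sqrt w ≤ Real.sqrt (F x) + d := by
      rw [Real.sqrt_le_left (by positivity)]
      have := Real.sq_sqrt hF
      have h5 : 0 ≤ Real.sqrt (F x) * d := by positivity
      nlinarith
    have := h2 x
    linarith
  have hsw0 : 0 < Real.sqrt w := Real.sqrt_pos.2 hw0
  have key : 6 * φ ^ 5 * fd d φ ≤ 6 * φ ^ 5 * C.L (reg d F) x := by
    rw [hkey, hfd]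
    have ht2 : th3 d ^ 2 ≤ 1 := by nlinarith
    have ht20 : 0 < th3 d ^ 2 := by positivity
    rcases eq_or_lt_of_le hF with h0 | h0
    · -- `F = 0`
      obtain ⟨z1, z2⟩ := H.zero x h0.symm
      rw [z1]
      have hwd : w = d ^ 2 := by rw [hw, ← h0, zero_add]
      have h5 : 0 ≤ φ ^ 3 := by positivity
      have h7 : 4 * w * (1 - φ ^ 3) - 36 * d * w ≤ 4 * d ^ 2 := by
        rw [hwd]; nlinarith [sq_nonneg d, mul_nonneg (sq_nonneg d) h5, mul_nonneg hd.le (sq_nonneg d)]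
      have h8 : th3 d ^ 2 * (4 * w * (1 - φ ^ 3) - 36 * d * w) ≤ th3 d ^ 2 * (4 * d ^ 2) :=
        mul_le_mul_of_nonneg_left h7 ht20.le
      have h9 : th3 d ^ 2 * (4 * d ^ 2) ≤ 1 * (4 * d ^ 2) :=
        mul_le_mul_of_nonneg_right ht2 (by positivity)
      have h10 : 0 ≤ th3 d ^ 2 * (C.L F x - 5 / 6 * (0 / w)) := by
        rw [zero_div, mul_zero, sub_zero]; positivity
      linarith
    · have hin := H.ineq x h0
      have hdiv : C.G F F x / w ≤ C.G F F x / F x := by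
        refine div_le_div_of_nonneg_left hG0 h0 ?_
        rw [hw]; nlinarith [sq_nonneg d]
      have h7 : 4 * F x * (1 - Real.sqrt (F x)) ≤ C.L F x - (5 / 6) * (C.G F F x / w) := by linarith
      have h8 : Real.sqrt (F x) ≤ Real.sqrt w := Real.sqrt_le_sqrt (by rw [hw]; nlinarith [sq_nonneg d])
      have h9 : F x * Real.sqrt (F x) ≤ w * Real.sqrt w :=
        mul_le_mul (by rw [hw]; nlinarith [sq_nonneg d]) h8 (Real.sqrt_nonneg _) hw0.le
      have h10 : (1 - th3 d) * Real.sqrt w ≤ 9 * d := by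
        have : (1 - th3 d) * Real.sqrt w ≤ 3 * d * (17 / 8) :=
          mul_le_mul t3 hsw hsw0.le (by positivity)
        linarith
      have h11 : 4 * w * (1 - φ ^ 3) - 36 * d * w - 4 * d ^ 2 ≤ 4 * F x * (1 - Real.sqrt (F x)) := by
        rw [h3]
        have e2 : 4 * F x * (1 - Real.sqrt (F x)) -
            (4 * w * (1 - th3 d * Real.sqrt w) - 36 * d * w - 4 * d ^ 2) =
            4 * (w * Real.sqrt w - F x * Real.sqrt (F x)) +
              4 * w * (9 * d - (1 - th3 d) * Real.sqrt w) := by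
          rw [hw]; ring
        have h12 : 0 ≤ 4 * w * (9 * d - (1 - th3 d) * Real.sqrt w) :=
          mul_nonneg (by positivity) (by linarith)
        linarith
      have h13 : th3 d ^ 2 * (4 * w * (1 - φ ^ 3) - 36 * d * w - 4 * d ^ 2) ≤
          th3 d ^ 2 * (C.L F x - (5 / 6) * (C.G F F x / w)) :=
        mul_le_mul_of_nonneg_left (h11.trans h7) ht20.le
      have h14 : th3 d ^ 2 * (4 * d ^ 2) ≤ 1 * (4 * d ^ 2) :=
        mul_le_mul_of_nonneg_right ht2 (by positivity)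
      have e3 : th3 d ^ 2 * (4 * w * (1 - φ ^ 3) - 36 * d * w - 4 * d ^ 2) =
          th3 d ^ 2 * (4 * w * (1 - φ ^ 3) - 36 * d * w) - th3 d ^ 2 * (4 * d ^ 2) := by ring
      linarith
  have hpos : 0 < 6 * φ ^ 5 := by positivity
  exact le_of_mul_le_mul_left key hpos

/-- **the data of the penalisation**, from the hypothesis of (ST). -/
theorem dat_of_STC {C : Calc X μ} {d : ℝ} (hd : 0 < d) (hd8 : d ≤ 1 / 8) {F₁ F₂ : X → ℝ}
    (H₁ : STC C F₁) (H₂ : STC C F₂) (hs : ∀ x, Real.sqrt (F₁ x) + Real.sqrt (F₂ x) ≤ 2) :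
    Dat C d (reg d F₁) (reg d F₂) := by
  have t1 := th3_ge hd hd8
  have low : ∀ F : X → ℝ, (∀ x, 0 ≤ F x) → ∀ x, d / 2 ≤ reg d F x ^ 3 := fun F hF x => by
    rw [reg_cube hd hd8 hF]
    have h1 : d ≤ Real.sqrt (F x + d ^ 2) := by
      refine Real.le_sqrt_of_sq_le ?_
      have := hF x; linarith
    nlinarith
  have b1 : ∀ x, Real.sqrt (F₁ x) ≤ 2 := fun x => by
    have := hs x; have := Real.sqrt_nonneg (F₂ x); linarith
  have b2 : ∀ x, Real.sqrt (F₂ x) ≤ 2 := fun x => by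
    have := hs x; have := Real.sqrt_nonneg (F₁ x); linarith
  have up : ∀ F : X → ℝ, (∀ x, 0 ≤ F x) → ∀ x,
      Real.sqrt (F x + d ^ 2) ≤ Real.sqrt (F x) + d := fun F hF x => by
    rw [Real.sqrt_le_left (by have := Real.sqrt_nonneg (F x); linarith)]
    have h1 := Real.sq_sqrt (hF x)
    have h5 : 0 ≤ Real.sqrt (F x) * d := by positivity
    nlinarith
  refine ⟨sm_reg hd H₁.nonneg H₁.smooth, sm_reg hd H₂.nonneg H₂.smooth,
    reg_pos hd hd8 H₁.nonneg, reg_pos hd hd8 H₂.nonneg, low F₁ H₁.nonneg, low F₂ H₂.nonneg,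
    fun x => ?_, reg_sub hd hd8 H₁ b1, reg_sub hd hd8 H₂ b2⟩
  rw [reg_cube hd hd8 H₁.nonneg, reg_cube hd hd8 H₂.nonneg, ← mul_add]
  have h1 := up F₁ H₁.nonneg x
  have h2 := up F₂ H₂.nonneg x
  have h3 := hs x
  have h4 : Real.sqrt (F₁ x + d ^ 2) + Real.sqrt (F₂ x + d ^ 2) ≤ 2 + 2 * d := by linarith
  calc th3 d * (Real.sqrt (F₁ x + d ^ 2) + Real.sqrt (F₂ x + d ^ 2)) ≤ th3 d * (2 + 2 * d) :=
        mul_le_mul_of_nonneg_left h4 (by linarith)
    _ = 2 - 4 * d := by unfold th3; field_simp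

/-- the regularisation converges -/
theorem tendsto_reg {F : X → ℝ} (hF : ∀ x, 0 ≤ F x) (x : X) :
    Tendsto (fun d : ℝ => reg d F x) (𝓝 0) (𝓝 ((F x) ^ (1 / 6 : ℝ))) := by
  have h1 : Tendsto (fun d : ℝ => th3 d) (𝓝 0) (𝓝 1) := by
    have hc : ContinuousAt (fun d : ℝ => (2 - 4 * d) / (2 + 2 * d)) 0 := by
      refine ContinuousAt.div (by fun_prop) (by fun_prop) (by norm_num)
    have := hc.tendsto
    simpa [th3] using this
  have h2 : Tendsto (fun d : ℝ => (th3 d) ^ (1 / 3 : ℝ)) (𝓝 0) (𝓝 1) := by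
    have := h1.rpow_const (p := (1 / 3 : ℝ)) (Or.inl one_ne_zero)
    simpa using this
  have h3 : Tendsto (fun d : ℝ => F x + d ^ 2) (𝓝 0) (𝓝 (F x)) := by
    have hc : ContinuousAt (fun d : ℝ => F x + d ^ 2) 0 := by fun_prop
    have := hc.tendsto
    simpa using this
  have h4 : Tendsto (fun d : ℝ => (F x + d ^ 2) ^ (1 / 6 : ℝ)) (𝓝 0) (𝓝 ((F x) ^ (1 / 6 : ℝ))) :=
    h3.rpow_const (Or.inr (by norm_num))
  have := h2.mul h4
  simpa [reg] using this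

/-! ### (P1), (P2) -/

section Props

variable {C : Calc X μ} {d K e ε : ℝ} {φ₀ ψ₀ : X → ℝ}

lemma cube_le_63 {u : ℝ} (hu : 0 ≤ u) (h : u ^ 3 ≤ 2) : u ≤ 63 / 50 :=
  le_of_cube_le (by norm_num) (h.trans (by norm_num))

lemma cub2 {e u : ℝ} (he : 0 ≤ e) (he1 : e ≤ 1 / 320) (hu : 0 ≤ u) (hu1 : u ≤ 63 / 50) :
    (u + 2 * e) ^ 3 ≤ u ^ 3 + 11 * e := by
  have a1 : u ^ 2 ≤ 1.5876 := by nlinarith
  have a2 : u * e ≤ 0.00394 := by nlinarith
  have a3 : e ^ 2 ≤ 0.00001 := by nlinarith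
  nlinarith [mul_le_mul_of_nonneg_left a1 he, mul_le_mul_of_nonneg_left a2 he,
    mul_le_mul_of_nonneg_left a3 he]

lemma cub1 {e u v : ℝ} (he : 0 ≤ e) (he1 : e ≤ 1 / 320) (hv : 0 ≤ v) (hu : 0 ≤ u)
    (hu1 : u ≤ 63 / 50) (h : u - v ≤ e) : u ^ 3 - v ^ 3 ≤ 5 * e := by
  rcases le_total u v with huv | huv
  · have := pow_le_pow_left₀ hu huv 3
    linarith
  · have e1 : u ^ 3 - v ^ 3 = (u - v) * (u ^ 2 + u * v + v ^ 2) := by ring
    have h1 : u ^ 2 + u * v + v ^ 2 ≤ 5 := by nlinarith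
    rw [e1]
    nlinarith [mul_nonneg hu hv, sq_nonneg u, sq_nonneg v]

variable (S : PenSol C φ₀ ψ₀ d K e ε) (D : Dat C d φ₀ ψ₀) (hd : 0 < d) (he : 0 < e)
  (he1 : e ≤ 1 / 320)
include D

lemma PenSol.φpos (x : X) : 0 < S.φ x := (D.φpos x).trans_le (S.φge x)

lemma PenSol.ψpos (x : X) : 0 < S.ψ x := (D.ψpos x).trans_le (S.ψge x)

lemma PenSol.φlow (x : X) : d / 2 ≤ S.φ x ^ 3 :=
  (D.φlow x).trans (pow_le_pow_left₀ (D.φpos x).le (S.φge x) 3)

lemma PenSol.ψlow (x : X) : d / 2 ≤ S.ψ x ^ 3 :=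
  (D.ψlow x).trans (pow_le_pow_left₀ (D.ψpos x).le (S.ψge x) 3)

include he

lemma PenSol.h₁u (x : X) : S.h₁ x ≤ 63 / 50 := cube_le_63 (S.h₁pos x).le (by
  rw [S.h₁cube x]; have := pow_pos (D.ψpos x) 3; linarith)

omit he in
lemma PenSol.h₂u (x : X) : S.h₂ x ≤ 63 / 50 := cube_le_63 (S.h₂pos x).le (by
  rw [S.h₂cube x]; have := pow_pos (S.φpos D x) 3; linarith)

include he1

/-- `φ³ ≤ h₁³ + 11 e` -/
lemma PenSol.φcub (x : X) : S.φ x ^ 3 ≤ S.h₁ x ^ 3 + 11 * e :=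
  (pow_le_pow_left₀ (S.φpos D x).le (S.φle x) 3).trans
    (cub2 he.le he1 (S.h₁pos x).le (S.h₁u D he x))

/-- `ψ³ ≤ h₂³ + 11 e` -/
lemma PenSol.ψcub (x : X) : S.ψ x ^ 3 ≤ S.h₂ x ^ 3 + 11 * e :=
  (pow_le_pow_left₀ (S.ψpos D x).le (S.ψle x) 3).trans
    (cub2 he.le he1 (S.h₂pos x).le (S.h₂u D x))

/-- (P1) `κ ≥ -11 e` -/
lemma PenSol.kap_ge (x : X) : -(11 * e) ≤ 2 - S.φ x ^ 3 - S.ψ x ^ 3 := by
  have h1 := S.ψcub D he he1 x
  rw [S.h₂cube x] at h1
  linarith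

lemma PenSol.φu (x : X) : S.φ x ≤ 13 / 10 := by
  have := S.φle x; have := S.h₁u D he x; linarith

lemma PenSol.ψu (x : X) : S.ψ x ≤ 13 / 10 := by
  have := S.ψle x; have := S.h₂u D x; linarith

/-- (P2) on the support of `m₂` -/
lemma PenSol.kap_le₂ (x : X) (h : S.m₂ x ≠ 0) : 2 - S.φ x ^ 3 - S.ψ x ^ 3 ≤ 5 * e := by
  have h1 := cub1 he.le he1 (S.ψpos D x).le (S.h₂pos x).le (S.h₂u D x) (S.m₂sup x h)
  rw [S.h₂cube x] at h1
  linarith

/-- on the support of `m₁`, `h₁³ - φ³ ≤ 5e` -/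
lemma PenSol.v₁_le (x : X) (h : S.m₁ x ≠ 0) : S.h₁ x ^ 3 - S.φ x ^ 3 ≤ 5 * e :=
  cub1 he.le he1 (S.φpos D x).le (S.h₁pos x).le (S.h₁u D he x) (S.m₁sup x h)

/-- (P2) on the support of `m₁` -/
lemma PenSol.kap_le₁ (x : X) (h : S.m₁ x ≠ 0) : 2 - S.φ x ^ 3 - S.ψ x ^ 3 ≤ 45 * e := by
  have h1 := S.v₁_le D he he1 x h
  rw [S.h₁cube x] at h1
  have h2 := pow_le_pow_left₀ (D.ψpos x).le (S.ψge x) 3
  linarith

/-- on the support of `m₁`, `ψ³ - ψ₀³ ≤ 56 e` -/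
lemma PenSol.v₂_le (x : X) (h : S.m₁ x ≠ 0) : S.ψ x ^ 3 - ψ₀ x ^ 3 ≤ 56 * e := by
  have h1 := S.v₁_le D he he1 x h
  have h2 := S.kap_ge D he he1 x
  rw [S.h₁cube x] at h1
  linarith

end Props

end Crest.Agent.R249.Pen_806
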