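import Crest.Agent.R249.Lim3_621
import Crest.Agent.R249.Pen2_806

/-!
# Row 249, part A2 (BP-A2 section 9): the limit passage over `C : Calc X μ`

* `jt C φ ψ θ x` : the jet of the pair at `x`, `H = ℝ × Matrix` (`L φ` and the Hessian of the one
  species `θ`);
* `BdData` : what the penalised pair must satisfy (bounds with constant `A`, errors `≤ δ`);
* `limit_passage` : `∫ Om ≤ ∫ R + δ'`.
-/

set_option autoImplicit false
set_option linter.unusedVariables false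
set_option linter.unusedSectionVars false

open MeasureTheory Set Filter Topology Matrix
open scoped ContDiff

noncomputable section

namespace Crest.Agent.R249.Lim621

open Calc_806 Calc_806.Calc

attribute [local instance] Matrix.frobeniusNormedAddCommGroup Matrix.frobeniusNormedSpace

/-- the model tangent space -/
abbrev E4 : Type := EuclideanSpace ℝ (Fin 4)

/-- `L φ` and the Hessian of `θ` -/
abbrev H4 : Type := ℝ × Matrix (Fin 4) (Fin 4) ℝ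

/-- the "trace" -/
def trH : H4 →L[ℝ] ℝ := ContinuousLinearMap.fst ℝ ℝ (Matrix (Fin 4) (Fin 4) ℝ)

@[simp] theorem trH_apply (P : H4) : trH P = P.1 := rfl

/-- the element of trace one -/
def oneH : H4 := (1, 0)

theorem trH_one : trH oneH = 1 := rfl

/-- the symmetric ones -/
def SyH : Submodule ℝ H4 where
  carrier := {P | P.2.IsSymm}
  add_mem' := by
    intro P Q hP hQ
    exact hP.add hQ
  zero_mem' := by
    show (0 : Matrix (Fin 4) (Fin 4) ℝ).IsSymm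
    exact Matrix.isSymm_zero
  smul_mem' := by
    intro c P hP
    exact hP.smul c

theorem mem_SyH {P : H4} : P ∈ SyH ↔ P.2.IsSymm := Iff.rfl

theorem oneH_mem : oneH ∈ SyH := Matrix.isSymm_zero

section Int

variable {X : Type*} [MeasurableSpace X] {μ : Measure X}

theorem int_add3 {a b c : X → ℝ} (ha : Integrable a μ) (hb : Integrable b μ)
    (hc : Integrable c μ) : Integrable (fun x => a x + b x + c x) μ ∧
    ∫ x, (a x + b x + c x) ∂μ = ∫ x, a x ∂μ + ∫ x, b x ∂μ + ∫ x, c x ∂μ := by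
  have h1 : Integrable (fun x => a x + b x) μ := ha.add hb
  have h2 : Integrable (fun x => a x + b x + c x) μ := h1.add hc
  refine ⟨h2, ?_⟩
  rw [integral_add h1 hc, integral_add ha hb]

theorem int_add4 {a b c d : X → ℝ} (ha : Integrable a μ) (hb : Integrable b μ)
    (hc : Integrable c μ) (hd : Integrable d μ) :
    Integrable (fun x => a x + b x + c x + d x) μ ∧
    ∫ x, (a x + b x + c x + d x) ∂μ =
      ∫ x, a x ∂μ + ∫ x, b x ∂μ + ∫ x, c x ∂μ + ∫ x, d x ∂μ := by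
  obtain ⟨h1, h2⟩ := int_add3 ha hb hc
  have h3 : Integrable (fun x => a x + b x + c x + d x) μ := h1.add hd
  refine ⟨h3, ?_⟩
  rw [integral_add h1 hd, h2]

theorem int_add5 {a b c d e : X → ℝ} (ha : Integrable a μ) (hb : Integrable b μ)
    (hc : Integrable c μ) (hd : Integrable d μ) (he : Integrable e μ) :
    Integrable (fun x => a x + b x + c x + d x + e x) μ ∧
    ∫ x, (a x + b x + c x + d x + e x) ∂μ =
      ∫ x, a x ∂μ + ∫ x, b x ∂μ + ∫ x, c x ∂μ + ∫ x, d x ∂μ + ∫ x, e x ∂μ := by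
  obtain ⟨h1, h2⟩ := int_add4 ha hb hc hd
  have h3 : Integrable (fun x => a x + b x + c x + d x + e x) μ := h1.add he
  refine ⟨h3, ?_⟩
  rw [integral_add h1 he, h2]

/-- integration of the pointwise inequality -/
theorem int_er {Om V R w l e r r' : X → ℝ} {K θ : ℝ}
    (iOm : Integrable Om μ) (iV : Integrable V μ) (hV : ∫ x, V x ∂μ ≤ 0) (iR : Integrable R μ)
    (iZ : Integrable (fun x => (w x + e x + |r x| + |r' x|) ^ 2) μ)
    (il : Integrable (fun x => l x ^ 4) μ) (ie : Integrable (fun x => e x ^ 2) μ)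
    (ir : Integrable (fun x => r x ^ 2) μ) (ir' : Integrable (fun x => r' x ^ 2) μ)
    (h : ∀ x, Om x ≤ V x + R x + K * Er θ (w x + e x + |r x| + |r' x|) (l x) (e x) (r x) (r' x)) :
    ∫ x, Om x ∂μ ≤ ∫ x, R x ∂μ + K * (θ * ∫ x, (w x + e x + |r x| + |r' x|) ^ 2 ∂μ +
      (θ ^ 3)⁻¹ * (∫ x, l x ^ 4 ∂μ + ∫ x, e x ^ 2 ∂μ + ∫ x, r x ^ 2 ∂μ + ∫ x, r' x ^ 2 ∂μ)) := by
  obtain ⟨i4, e4⟩ := int_add4 il ie ir ir'
  have i5 := i4.const_mul ((θ ^ 3)⁻¹)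
  have iE : Integrable (fun x => Er θ (w x + e x + |r x| + |r' x|) (l x) (e x) (r x) (r' x)) μ := by
    unfold Er
    exact (iZ.const_mul θ).add i5
  have h2 : ∫ x, Er θ (w x + e x + |r x| + |r' x|) (l x) (e x) (r x) (r' x) ∂μ =
      θ * ∫ x, (w x + e x + |r x| + |r' x|) ^ 2 ∂μ +
      (θ ^ 3)⁻¹ * (∫ x, l x ^ 4 ∂μ + ∫ x, e x ^ 2 ∂μ + ∫ x, r x ^ 2 ∂μ + ∫ x, r' x ^ 2 ∂μ) := by
    unfold Er
    rw [integral_add (iZ.const_mul θ) i5, integral_const_mul, integral_const_mul, e4]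
  obtain ⟨i6, e6⟩ := int_add3 iV iR (iE.const_mul K)
  have h1 := integral_mono iOm i6 h
  rw [e6, integral_const_mul, h2] at h1
  linarith

end Int

variable {X : Type*} [TopologicalSpace X] [CompactSpace X] [MeasurableSpace X]
  [OpensMeasurableSpace X] {μ : Measure X} [IsFiniteMeasure μ]

/-- the jet of the pair `(φ, ψ)` at `x`, with the Hessian of `θ` -/
def jt (C : Calc X μ) (φ ψ θ : X → ℝ) (x : X) : Jet E4 H4 where
  f := φ x
  g := ψ x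
  p := WithLp.toLp 2 (C.D φ x)
  q := WithLp.toLp 2 (C.D ψ x)
  P := (C.L φ x, C.Hs θ x)
  Q := (C.L ψ x, 0)

theorem norm_sq_toLp (v : Fin 4 → ℝ) : ‖(WithLp.toLp 2 v : E4)‖ ^ 2 = v ⬝ᵥ v := by
  rw [EuclideanSpace.norm_sq_eq]
  simp only [dotProduct, Real.norm_eq_abs, sq_abs]
  refine Finset.sum_congr rfl fun i _ => ?_
  ring

theorem norm_p_sq (C : Calc X μ) (φ ψ θ : X → ℝ) (x : X) :
    ‖(jt C φ ψ θ x).p‖ ^ 2 = C.G φ φ x := norm_sq_toLp _

theorem norm_q_sq (C : Calc X μ) (φ ψ θ : X → ℝ) (x : X) :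
    ‖(jt C φ ψ θ x).q‖ ^ 2 = C.G ψ ψ x := norm_sq_toLp _

theorem norm_Hs (C : Calc X μ) (θ : X → ℝ) (x : X) :
    ‖C.Hs θ x‖ = Real.sqrt (C.Q θ x) := by
  rw [Matrix.frobenius_norm_def, Calc0.Q, Real.sqrt_eq_rpow]
  congr 1
  refine Finset.sum_congr rfl fun i _ => Finset.sum_congr rfl fun j _ => ?_
  rw [Real.rpow_two, Real.norm_eq_abs, sq_abs]

theorem W_jt_le {C : Calc X μ} {φ ψ θ : X → ℝ} (hθ : C.Sm θ) (x : X) :
    (jt C φ ψ θ x).W ≤ 1 + C.G φ φ x + C.G ψ ψ x + |C.L φ x| + |C.L ψ x| +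
      Real.sqrt (C.Rb θ x) := by
  have h1 : ‖(jt C φ ψ θ x).P‖ ≤ |C.L φ x| + Real.sqrt (C.Rb θ x) := by
    show ‖((C.L φ x, C.Hs θ x) : H4)‖ ≤ _
    rw [Prod.norm_def]
    apply max_le
    · show |C.L φ x| ≤ _
      have := Real.sqrt_nonneg (C.Rb θ x)
      linarith
    · show ‖C.Hs θ x‖ ≤ _
      rw [norm_Hs]
      have h2 := Real.sqrt_le_sqrt (Q_le_Rb hθ x)
      have h3 := abs_nonneg (C.L φ x)
      linarith
  have h2 : ‖(jt C φ ψ θ x).Q‖ ≤ |C.L ψ x| := by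
    show ‖((C.L ψ x, 0) : H4)‖ ≤ _
    rw [Prod.norm_def]
    apply max_le
    · exact le_rfl
    · show ‖(0 : Matrix (Fin 4) (Fin 4) ℝ)‖ ≤ _
      rw [norm_zero]
      exact abs_nonneg _
  unfold Jet.W
  rw [norm_p_sq, norm_q_sq]
  linarith

/-- `κ` -/
def kapf (φ ψ : X → ℝ) (x : X) : ℝ := 2 - (φ x ^ 3 + ψ x ^ 3)

theorem kap_jt (C : Calc X μ) (φ ψ θ : X → ℝ) (x : X) :
    (jt C φ ψ θ x).kap = kapf φ ψ x := rfl

theorem sm_kapf {C : Calc X μ} {φ ψ : X → ℝ} (hφ : C.Sm φ) (hψ : C.Sm ψ) :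
    C.Sm (kapf φ ψ) :=
  sm_sub (sm_const 2) (sm_add (sm_pow hφ 3) (sm_pow hψ 3))

theorem D_kapf {C : Calc X μ} {φ ψ : X → ℝ} (hφ : C.Sm φ) (hψ : C.Sm ψ) (x : X) :
    C.D (kapf φ ψ) x = (-3 : ℝ) • (φ x ^ 2 • C.D φ x + ψ x ^ 2 • C.D ψ x) := by
  have h1 := D_sub (sm_const (C := C) 2) (sm_add (sm_pow hφ 3) (sm_pow hψ 3)) x
  have h2 := D_add (sm_pow hφ 3) (sm_pow hψ 3) x
  have h3 := D_pow hφ 3 x
  have h4 := D_pow hψ 3 x
  have h5 := D_const (C := C) 2 x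
  show C.D (fun y => 2 - (φ y ^ 3 + ψ y ^ 3)) x = _
  rw [h1, h2, h3, h4, h5]
  norm_num
  module

theorem norm_L_jt {C : Calc X μ} {φ ψ : X → ℝ} (hφ : C.Sm φ) (hψ : C.Sm ψ) (θ : X → ℝ) (x : X) :
    ‖(jt C φ ψ θ x).L‖ ^ 2 = C.G (kapf φ ψ) (kapf φ ψ) x := by
  have h1 : (jt C φ ψ θ x).L = WithLp.toLp 2 (C.D (kapf φ ψ) x) := by
    rw [D_kapf hφ hψ]
    rfl
  rw [h1]
  exact norm_sq_toLp _

/-- **what the penalised pair has to satisfy** -/
structure BdData (C : Calc X μ) (b c0 A δ : ℝ) (F : ℝ → ℝ) (φ ψ m m' r r' er : X → ℝ)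
    (ε : ℝ) : Prop where
  sφ : C.Sm φ
  sψ : C.Sm ψ
  φge : ∀ x, b ≤ φ x
  ψge : ∀ x, b ≤ ψ x
  ε0 : 0 ≤ ε
  ε12 : ε ≤ 1 / 2
  εδ : ε ≤ δ
  kap : ∀ x, -ε ≤ kapf φ ψ x
  eqφ : ∀ x, C.L φ x = F (φ x) + m x + r x
  eqψ : ∀ x, C.L ψ x = F (ψ x) + m' x + r' x
  m0 : ∀ x, 0 ≤ m x
  m0' : ∀ x, 0 ≤ m' x
  off : ∀ x, ε < kapf φ ψ x → m x = 0 ∧ m' x = 0
  er0 : ∀ x, 0 ≤ er x
  simplex : ∀ x, kapf φ ψ x ≤ ε → 3 * φ x ^ 2 * m x + 3 * ψ x ^ 2 * m' x ≤
    max ((φ x ^ 3 - ψ x ^ 3) ^ 2 - 6 * (φ x * C.G φ φ x + ψ x * C.G ψ ψ x)) 0 + c0 + er x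
  mr : AEStronglyMeasurable r μ
  mr' : AEStronglyMeasurable r' μ
  mer : AEStronglyMeasurable er μ
  ir : Integrable (fun x => r x ^ 2) μ
  ir' : Integrable (fun x => r' x ^ 2) μ
  ier : Integrable (fun x => er x ^ 2) μ
  br : ∫ x, r x ^ 2 ∂μ ≤ δ
  br' : ∫ x, r' x ^ 2 ∂μ ≤ δ
  ber : ∫ x, er x ^ 2 ∂μ ≤ δ
  bκ : ∫ x in {x | kapf φ ψ x ≤ ε}, (C.G (kapf φ ψ) (kapf φ ψ) x) ^ 2 ∂μ ≤ δ
  bA : ∫ x, (1 + C.G φ φ x + C.G ψ ψ x + |C.L φ x| + |C.L ψ x|) ^ 2 ∂μ ≤ A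

/-- the certificate over `C`: `I` dominates the divergence of a smooth field, `θ` is the species. -/
structure DivCert (C : Calc X μ) (b Cθ : ℝ) (I : Jet E4 H4 → ℝ) (φ ψ θ V : X → ℝ) : Prop where
  sθ : C.Sm θ
  iV : Integrable V μ
  hV : ∫ x, V x ∂μ ≤ 0
  le : ∀ x, I (jt C φ ψ θ x) ≤ V x
  Lθ : ∀ x, |C.L θ x| ≤ Cθ * (1 + C.G φ φ x + C.G ψ ψ x + |C.L φ x| + |C.L ψ x|)

theorem sq_sum5 (a b c d e : ℝ) : (a + b + c + d + e) ^ 2 ≤
    5 * (a ^ 2 + b ^ 2 + c ^ 2 + d ^ 2 + e ^ 2) := by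
  nlinarith [sq_nonneg (a - b), sq_nonneg (a - c), sq_nonneg (a - d), sq_nonneg (a - e),
    sq_nonneg (b - c), sq_nonneg (b - d), sq_nonneg (b - e), sq_nonneg (c - d),
    sq_nonneg (c - e), sq_nonneg (d - e)]

/-- **The limit passage.** -/
theorem limit_passage (C : Calc X μ) {b CF c0 CI CO CR Cθ A : ℝ} {F : ℝ → ℝ}
    {I Om R : Jet E4 H4 → ℝ}
    (hb : 0 < b) (hCF : 0 ≤ CF) (hc0 : 0 ≤ c0)
    (hF : ∀ u v, b / 2 ≤ u → u ≤ 2 → b / 2 ≤ v → v ≤ 2 → |F u - F v| ≤ CF * |u - v|)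
    (hI : Lip (b / 2) CI I) (hO : Lip (b / 2) CO Om)
    (hR : Lip (b / 2) CR R) (hCI : 0 ≤ CI) (hCO : 0 ≤ CO) (hCR : 0 ≤ CR)
    (hC : Cert trH SyH F c0 I Om R) {δ' : ℝ} (hδ' : 0 < δ') :
    ∃ δ : ℝ, 0 < δ ∧ ∀ (φ ψ m m' r r' er θ V : X → ℝ) (ε : ℝ),
      BdData C b c0 A δ F φ ψ m m' r r' er ε → DivCert C b Cθ I φ ψ θ V →
      Integrable (fun x => Om (jt C φ ψ θ x)) μ → Integrable (fun x => R (jt C φ ψ θ x)) μ →
      ∫ x, Om (jt C φ ψ θ x) ∂μ ≤ ∫ x, R (jt C φ ψ θ x) ∂μ + δ' := by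
  obtain ⟨K, hK0, hK⟩ := pointwise (E := E4) trH SyH oneH trH_one oneH_mem F b CF c0 CI CO CR
    hb hCF hc0 hF I Om R hI hO hR hCI hCO hCR hC
  -- choice of the parameters
  obtain ⟨A', hA'⟩ : ∃ A', A' = 5 * (|A| + Cθ ^ 2 * |A| + 3) := ⟨_, rfl⟩
  have hA'0 : 0 < A' := by rw [hA']; positivity
  obtain ⟨t, ht0, ht1, htA⟩ : ∃ t : ℝ, 0 < t ∧ t ≤ 1 ∧ K * (t * A') ≤ δ' / 2 := by
    refine ⟨min 1 (δ' / (2 * K * A')), lt_min one_pos (by positivity), min_le_left _ _, ?_⟩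
    calc K * (min 1 (δ' / (2 * K * A')) * A') ≤ K * ((δ' / (2 * K * A')) * A') := by
          apply mul_le_mul_of_nonneg_left _ hK0.le
          exact mul_le_mul_of_nonneg_right (min_le_right _ _) hA'0.le
      _ = δ' / 2 := by field_simp
  obtain ⟨δ, hδ0, hδ1, hδt, hδ2⟩ : ∃ δ : ℝ, 0 < δ ∧ δ ≤ 1 ∧ δ ≤ t ∧
      K * ((t ^ 3)⁻¹ * (4 * δ)) ≤ δ' / 2 := by
    refine ⟨min (min 1 t) (δ' * t ^ 3 / (8 * K)), lt_min (lt_min one_pos ht0) (by positivity),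
      (min_le_left _ _).trans (min_le_left _ _), (min_le_left _ _).trans (min_le_right _ _), ?_⟩
    calc K * ((t ^ 3)⁻¹ * (4 * min (min 1 t) (δ' * t ^ 3 / (8 * K)))) ≤
        K * ((t ^ 3)⁻¹ * (4 * (δ' * t ^ 3 / (8 * K)))) := by
          apply mul_le_mul_of_nonneg_left _ hK0.le
          apply mul_le_mul_of_nonneg_left _ (by positivity)
          apply mul_le_mul_of_nonneg_left (min_le_right _ _) (by norm_num)
      _ = δ' / 2 := by field_simp; ring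
  refine ⟨δ, hδ0, ?_⟩
  intro φ ψ m m' r r' er θ V ε B DC iOm iR
  have sκ := sm_kapf B.sφ B.sψ
  have hGκ := C.sm_cont (C.sm_G sκ sκ)
  have hzone : MeasurableSet {x | kapf φ ψ x ≤ ε} :=
    (isClosed_le (C.sm_cont sκ) continuous_const).measurableSet
  -- the functions
  have hRb0 : ∀ x, 0 ≤ C.Rb θ x := fun x => Rb_nonneg DC.sθ x
  let g : X → ℝ := fun x => 1 + C.G φ φ x + C.G ψ ψ x + |C.L φ x| + |C.L ψ x|
  let w : X → ℝ := fun x => g x + Real.sqrt (C.Rb θ x)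
  let l : X → ℝ := indicator {x | kapf φ ψ x ≤ ε}
    (fun x => Real.sqrt (C.G (kapf φ ψ) (kapf φ ψ) x))
  have hg0 : ∀ x, 0 ≤ g x := fun x => by
    have h1 := G_self_nonneg (C := C) φ x
    have h2 := G_self_nonneg (C := C) ψ x
    have h3 := abs_nonneg (C.L φ x)
    have h4 := abs_nonneg (C.L ψ x)
    show 0 ≤ 1 + C.G φ φ x + C.G ψ ψ x + |C.L φ x| + |C.L ψ x|
    linarith
  have cg : Continuous g := by
    have h1 := C.sm_cont (C.sm_G B.sφ B.sφ)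
    have h2 := C.sm_cont (C.sm_G B.sψ B.sψ)
    have h3 := C.sm_cont (C.sm_L B.sφ)
    have h4 := C.sm_cont (C.sm_L B.sψ)
    exact (((continuous_const.add h1).add h2).add h3.abs).add h4.abs
  have cRb : Continuous (C.Rb θ) := C.sm_cont (sm_Rb DC.sθ)
  have cw : Continuous w := cg.add cRb.sqrt
  have hl0 : ∀ x, 0 ≤ l x := fun x => indicator_nonneg (fun _ _ => Real.sqrt_nonneg _) x
  -- pointwise inequality
  have hpt : ∀ x, Om (jt C φ ψ θ x) ≤ V x + R (jt C φ ψ θ x) +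
      K * Er t (w x + er x + |r x| + |r' x|) (l x) (er x) (r x) (r' x) := by
    intro x
    have hnL : ‖(jt C φ ψ θ x).L‖ = Real.sqrt (C.G (kapf φ ψ) (kapf φ ψ) x) := by
      rw [← norm_L_jt B.sφ B.sψ θ x, Real.sqrt_sq (norm_nonneg _)]
    have h1 := hK t ht0 ht1 (jt C φ ψ θ x) (m x) (m' x) (r x) (r' x) (er x) ε (l x)
      (B.φge x) (B.ψge x)
      (by
        rw [mem_SyH]
        ext i j
        exact C.hs_symm DC.sθ x j i)
      (by rw [mem_SyH]; exact Matrix.isSymm_zero)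
      B.ε0 B.ε12 (B.εδ.trans hδt) (B.kap x) (B.eqφ x) (B.eqψ x) (B.m0 x) (B.m0' x) (B.er0 x)
      (hl0 x) (B.off x)
      (by
        intro hz
        have : l x = Real.sqrt (C.G (kapf φ ψ) (kapf φ ψ) x) :=
          indicator_of_mem (show x ∈ {x | kapf φ ψ x ≤ ε} from hz) _
        rw [this, hnL])
      (by
        intro hz
        have h2 := B.simplex x hz
        have h3 : (jt C φ ψ θ x).Ee = (φ x ^ 3 - ψ x ^ 3) ^ 2 -
            6 * (φ x * C.G φ φ x + ψ x * C.G ψ ψ x) := by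
          unfold Jet.Ee
          rw [norm_p_sq, norm_q_sq]
          rfl
        rw [h3]
        exact h2)
    have h2 := DC.le x
    have h3 := W_jt_le (φ := φ) (ψ := ψ) DC.sθ x
    have h4 : Er t ((jt C φ ψ θ x).W + er x + |r x| + |r' x|) (l x) (er x) (r x) (r' x) ≤
        Er t (w x + er x + |r x| + |r' x|) (l x) (er x) (r x) (r' x) := by
      unfold Er
      have hW0 := (jt C φ ψ θ x).W_nonneg
      have he0 := B.er0 x
      have hr0 := abs_nonneg (r x)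
      have hr0' := abs_nonneg (r' x)
      have h5 : (jt C φ ψ θ x).W + er x + |r x| + |r' x| ≤ w x + er x + |r x| + |r' x| := by
        show _ ≤ (1 + C.G φ φ x + C.G ψ ψ x + |C.L φ x| + |C.L ψ x|) + Real.sqrt (C.Rb θ x)
          + er x + |r x| + |r' x|
        linarith
      have h6 := pow_le_pow_left₀ (by linarith : 0 ≤ (jt C φ ψ θ x).W + er x + |r x| + |r' x|) h5 2
      have h7 := mul_le_mul_of_nonneg_left h6 ht0.le
      linarith
    have h5 := mul_le_mul_of_nonneg_left h4 hK0.le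
    linarith
  -- integrability
  have mw : AEStronglyMeasurable w μ := cw.aestronglyMeasurable
  have iw : Integrable (fun x => w x ^ 2) μ := integrable_cont (cw.pow 2)
  have ig : Integrable (fun x => g x ^ 2) μ := integrable_cont (cg.pow 2)
  have iRb : Integrable (C.Rb θ) μ := integrable_cont cRb
  have mZ : AEStronglyMeasurable (fun x => (w x + er x + |r x| + |r' x|) ^ 2) μ := by
    have h1 := ((mw.add B.mer).add B.mr.norm).add B.mr'.norm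
    exact h1.pow 2
  have hZle : ∀ x, (w x + er x + |r x| + |r' x|) ^ 2 ≤
      5 * (g x ^ 2 + C.Rb θ x + er x ^ 2 + r x ^ 2 + r' x ^ 2) := by
    intro x
    have h1 := sq_sum5 (g x) (Real.sqrt (C.Rb θ x)) (er x) (|r x|) (|r' x|)
    rw [Real.sq_sqrt (hRb0 x), sq_abs, sq_abs] at h1
    exact h1
  obtain ⟨i5', e5'⟩ := int_add5 ig iRb B.ier B.ir B.ir'
  have i5 := i5'.const_mul 5
  have iZ : Integrable (fun x => (w x + er x + |r x| + |r' x|) ^ 2) μ := by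
    refine i5.mono' mZ (Eventually.of_forall fun x => ?_)
    rw [Real.norm_of_nonneg (sq_nonneg _)]
    exact hZle x
  have hl4 : ∀ x, l x ^ 4 = indicator {x | kapf φ ψ x ≤ ε}
      (fun x => (C.G (kapf φ ψ) (kapf φ ψ) x) ^ 2) x := by
    intro x
    by_cases hx : kapf φ ψ x ≤ ε
    · have hx' : x ∈ {x | kapf φ ψ x ≤ ε} := hx
      have h1 : l x = Real.sqrt (C.G (kapf φ ψ) (kapf φ ψ) x) := indicator_of_mem hx' _
      have h2 : indicator {x | kapf φ ψ x ≤ ε} (fun x => (C.G (kapf φ ψ) (kapf φ ψ) x) ^ 2) x =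
        (C.G (kapf φ ψ) (kapf φ ψ) x) ^ 2 := indicator_of_mem hx' _
      rw [h1, h2]
      have h3 : ∀ y : ℝ, y ^ 4 = (y ^ 2) ^ 2 := fun y => by ring
      rw [h3, Real.sq_sqrt (G_self_nonneg _ x)]
    · have hx' : x ∉ {x | kapf φ ψ x ≤ ε} := hx
      have h1 : l x = 0 := indicator_of_notMem hx' _
      have h2 : indicator {x | kapf φ ψ x ≤ ε} (fun x => (C.G (kapf φ ψ) (kapf φ ψ) x) ^ 2) x =
        0 := indicator_of_notMem hx' _
      rw [h1, h2]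
      norm_num
  have iG : Integrable (fun x => (C.G (kapf φ ψ) (kapf φ ψ) x) ^ 2) μ :=
    integrable_cont (hGκ.pow 2)
  have il : Integrable (fun x => l x ^ 4) μ := by
    simp_rw [hl4]
    exact iG.indicator hzone
  have hl4int : ∫ x, l x ^ 4 ∂μ ≤ δ := by
    simp_rw [hl4]
    rw [integral_indicator hzone]
    exact B.bκ
  -- integral of `Z²`
  have hRbint : ∫ x, C.Rb θ x ∂μ ≤ Cθ ^ 2 * A := by
    refine (int_Rb_le DC.sθ).trans ?_
    have h1 : ∫ x, C.L θ x ^ 2 ∂μ ≤ ∫ x, Cθ ^ 2 * g x ^ 2 ∂μ := by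
      refine integral_mono (integrable_sm (sm_pow (C.sm_L DC.sθ) 2)) (ig.const_mul _) fun x => ?_
      show C.L θ x ^ 2 ≤ Cθ ^ 2 * g x ^ 2
      rw [← mul_pow, ← sq_abs (C.L θ x)]
      exact pow_le_pow_left₀ (abs_nonneg _) (DC.Lθ x) 2
    rw [integral_const_mul] at h1
    exact h1.trans (mul_le_mul_of_nonneg_left B.bA (sq_nonneg _))
  have hZint : ∫ x, (w x + er x + |r x| + |r' x|) ^ 2 ∂μ ≤ A' := by
    have h1 := integral_mono iZ i5 hZle
    rw [integral_const_mul, e5'] at h1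
    have h2 := B.bA
    have h3 := B.br
    have h4 := B.br'
    have h5 := B.ber
    have h6 : A ≤ |A| := le_abs_self A
    have h7 : Cθ ^ 2 * A ≤ Cθ ^ 2 * |A| := mul_le_mul_of_nonneg_left h6 (sq_nonneg _)
    have h8 : ∫ x, g x ^ 2 ∂μ ≤ A := B.bA
    rw [hA']
    linarith
  have hfin := int_er iOm DC.iV DC.hV iR iZ il B.ier B.ir B.ir' hpt
  have h1 : K * (t * ∫ x, (w x + er x + |r x| + |r' x|) ^ 2 ∂μ) ≤ δ' / 2 :=
    (mul_le_mul_of_nonneg_left (mul_le_mul_of_nonneg_left hZint ht0.le) hK0.le).trans htA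
  have h2 : K * ((t ^ 3)⁻¹ * (∫ x, l x ^ 4 ∂μ + ∫ x, er x ^ 2 ∂μ + ∫ x, r x ^ 2 ∂μ +
      ∫ x, r' x ^ 2 ∂μ)) ≤ δ' / 2 := by
    refine le_trans ?_ hδ2
    apply mul_le_mul_of_nonneg_left _ hK0.le
    apply mul_le_mul_of_nonneg_left _ (by positivity)
    have h3 := B.br
    have h4 := B.br'
    have h5 := B.ber
    linarith
  rw [mul_add] at hfin
  linarith

end Crest.Agent.R249.Lim621
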