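import Crest.Agent.R249.DivC2_467
import Crest.Agent.R249.Lim4_621

/-!
# R249 (helper467), A2-ETA part 1

The integrand of `V = A dη + B dm + W J_η` (`η = φ - ψ`, `m = (φ + ψ)/2`, `A B W` functions of
`(η, m, |dη|²)`) as a function `IE A B W : Jet E4 H4 → ℝ` on helper621's jets, and
`divCert_eta : DivCert`.
-/

set_option autoImplicit false
set_option linter.unusedVariables false
set_option linter.unusedSectionVars false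

open MeasureTheory Set Filter Topology Matrix
open scoped ContDiff

noncomputable section

namespace Crest.Agent.R249.Eta467

open Calc_806 Calc_806.Calc DivC467 Lim621

attribute [local instance] Matrix.frobeniusNormedAddCommGroup Matrix.frobeniusNormedSpace

/-! ### the jet quantities -/

/-- `dη`. -/
def uJ (j : Jet E4 H4) : Fin 4 → ℝ := WithLp.ofLp (j.p - j.q)

/-- `dm`. -/
def vJ (j : Jet E4 H4) : Fin 4 → ℝ := (1 / 2 : ℝ) • WithLp.ofLp (j.p + j.q)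

/-- `Lη`. -/
def xJ (j : Jet E4 H4) : ℝ := j.P.1 - j.Q.1

/-- `Lm`. -/
def kJ (j : Jet E4 H4) : ℝ := 1 / 2 * (j.P.1 + j.Q.1)

/-- the Hessian of `η` with the right trace. -/
def sJ (j : Jet E4 H4) : Matrix (Fin 4) (Fin 4) ℝ :=
  j.P.2 + ((xJ j - j.P.2.trace) / 4) • (1 : Matrix (Fin 4) (Fin 4) ℝ)

/-- the base point `(η, m, |dη|²)`. -/
def bJ (j : Jet E4 H4) : ℝ × ℝ × ℝ := (j.f - j.g, 1 / 2 * (j.f + j.g), uJ j ⬝ᵥ uJ j)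

lemma trace_sJ (j : Jet E4 H4) : (sJ j).trace = xJ j := by
  rw [sJ, Matrix.trace_add, Matrix.trace_smul, Matrix.trace_one]
  simp only [Fintype.card_fin, smul_eq_mul]
  push_cast
  ring

lemma symm_sJ {j : Jet E4 H4} (hj : j.P ∈ SyH) (a b : Fin 4) : sJ j a b = sJ j b a := by
  have h1 : j.P.2.IsSymm := hj
  have h2 : j.P.2 a b = j.P.2 b a := by
    conv_lhs => rw [← h1]
    rfl
  rw [sJ, Matrix.add_apply, Matrix.add_apply, Matrix.smul_apply, Matrix.smul_apply, h2]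
  by_cases h : a = b
  · rw [h]
  · rw [Matrix.one_apply_ne h, Matrix.one_apply_ne (Ne.symm h)]

/-- the integrand. -/
def IE (A B W : ℝ × ℝ × ℝ → ℝ) (j : Jet E4 H4) : ℝ :=
  NN (A (bJ j)) (B (bJ j)) (W (bJ j))
    (pd1 A (bJ j) • uJ j + pd2 A (bJ j) • vJ j + pd3 A (bJ j) • ((2 : ℝ) • (sJ j *ᵥ uJ j)))
    (pd1 B (bJ j) • uJ j + pd2 B (bJ j) • vJ j + pd3 B (bJ j) • ((2 : ℝ) • (sJ j *ᵥ uJ j)))
    (pd1 W (bJ j) • uJ j + pd2 W (bJ j) • vJ j + pd3 W (bJ j) • ((2 : ℝ) • (sJ j *ᵥ uJ j)))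
    (uJ j) (vJ j) (sJ j) (kJ j) (∑ a, ∑ b, sJ j a b ^ 2)

lemma NN_mono {a b c : ℝ} {da db dc u v : Fin 4 → ℝ} {S : Matrix (Fin 4) (Fin 4) ℝ} {K ρ ρ' : ℝ}
    (hc : 0 ≤ c) (h : ρ ≤ ρ') : NN a b c da db dc u v S K ρ ≤ NN a b c da db dc u v S K ρ' := by
  simp only [NN]
  nlinarith

section Calculus

variable {X : Type*} [TopologicalSpace X] [CompactSpace X] [MeasurableSpace X]
  [OpensMeasurableSpace X] {μ : Measure X} [IsFiniteMeasure μ] {C : Calc X μ} {φ ψ : X → ℝ}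

lemma uJ_jt (hφ : C.Sm φ) (hψ : C.Sm ψ) (x : X) :
    uJ (jt C φ ψ (eta φ ψ) x) = C.D (eta φ ψ) x := by
  rw [D_eta hφ hψ]; rfl

lemma vJ_jt (hφ : C.Sm φ) (hψ : C.Sm ψ) (x : X) :
    vJ (jt C φ ψ (eta φ ψ) x) = C.D (mm φ ψ) x := by
  rw [D_mm hφ hψ]; rfl

lemma xJ_jt (hφ : C.Sm φ) (hψ : C.Sm ψ) (x : X) :
    xJ (jt C φ ψ (eta φ ψ) x) = C.L (eta φ ψ) x := (L_sub hφ hψ x).symm

lemma kJ_jt (hφ : C.Sm φ) (hψ : C.Sm ψ) (x : X) :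
    kJ (jt C φ ψ (eta φ ψ) x) = C.L (mm φ ψ) x := by
  have h2 := L_smul (C := C) (1 / 2) (sm_add hφ hψ) x
  rw [C.L_add hφ hψ] at h2
  exact h2.symm

lemma sJ_jt (hφ : C.Sm φ) (hψ : C.Sm ψ) (x : X) :
    sJ (jt C φ ψ (eta φ ψ) x) = C.Hs (eta φ ψ) x := by
  rw [sJ, xJ_jt hφ hψ]
  have h1 : (jt C φ ψ (eta φ ψ) x).P.2 = C.Hs (eta φ ψ) x := rfl
  rw [h1]
  have h2 : C.L (eta φ ψ) x = (C.Hs (eta φ ψ) x).trace := rfl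
  rw [h2, sub_self, zero_div, zero_smul, add_zero]

lemma bJ_jt (hφ : C.Sm φ) (hψ : C.Sm ψ) (x : X) :
    bJ (jt C φ ψ (eta φ ψ) x) = (eta φ ψ x, mm φ ψ x, C.G (eta φ ψ) (eta φ ψ) x) := by
  rw [bJ, uJ_jt hφ hψ]; rfl

variable {A B W : ℝ × ℝ × ℝ → ℝ} {U : Set (ℝ × ℝ × ℝ)}

/-- the field. -/
def VE (C : Calc X μ) (A B W : ℝ × ℝ × ℝ → ℝ) (φ ψ : X → ℝ) (x : X) : ℝ :=
  - dvC C (co C A (eta φ ψ) (mm φ ψ)) (co C B (eta φ ψ) (mm φ ψ)) (co C W (eta φ ψ) (mm φ ψ))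
    (eta φ ψ) (mm φ ψ) x

lemma sm_VE (hU : IsOpen U) (hA : ContDiffOn ℝ ∞ A U) (hB : ContDiffOn ℝ ∞ B U)
    (hW : ContDiffOn ℝ ∞ W U) (hφ : C.Sm φ) (hψ : C.Sm ψ)
    (hx : ∀ x, (eta φ ψ x, mm φ ψ x, C.G (eta φ ψ) (eta φ ψ) x) ∈ U) : C.Sm (VE C A B W φ ψ) := by
  have h1 := sm_eta (C := C) hφ hψ
  have h2 := sm_mm (C := C) hφ hψ
  exact sm_neg (sm_dvC (sm_co hU hA h1 h2 hx) (sm_co hU hB h1 h2 hx) (sm_co hU hW h1 h2 hx) h1 h2)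

theorem int_VE (hU : IsOpen U) (hA : ContDiffOn ℝ ∞ A U) (hB : ContDiffOn ℝ ∞ B U)
    (hW : ContDiffOn ℝ ∞ W U) (hφ : C.Sm φ) (hψ : C.Sm ψ)
    (hx : ∀ x, (eta φ ψ x, mm φ ψ x, C.G (eta φ ψ) (eta φ ψ) x) ∈ U) :
    ∫ x, VE C A B W φ ψ x ∂μ = 0 := by
  have h1 := sm_eta (C := C) hφ hψ
  have h2 := sm_mm (C := C) hφ hψ
  simp only [VE]
  rw [integral_neg, int_dvC3 hU hA hB hW h1 h2 hx, neg_zero]

theorem IE_le_VE (hU : IsOpen U) (hA : ContDiffOn ℝ ∞ A U) (hB : ContDiffOn ℝ ∞ B U)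
    (hW : ContDiffOn ℝ ∞ W U) (hφ : C.Sm φ) (hψ : C.Sm ψ)
    (hx : ∀ x, (eta φ ψ x, mm φ ψ x, C.G (eta φ ψ) (eta φ ψ) x) ∈ U) (x : X)
    (hW0 : 0 ≤ W (eta φ ψ x, mm φ ψ x, C.G (eta φ ψ) (eta φ ψ) x)) :
    IE A B W (jt C φ ψ (eta φ ψ) x) ≤ VE C A B W φ ψ x := by
  have h1 := sm_eta (C := C) hφ hψ
  have h2 := sm_mm (C := C) hφ hψ
  rw [VE, neg_dvC h1, D_co hU hA h1 h2 hx, D_co hU hB h1 h2 hx, D_co hU hW h1 h2 hx, IE,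
    uJ_jt hφ hψ, vJ_jt hφ hψ, sJ_jt hφ hψ, kJ_jt hφ hψ, bJ_jt hφ hψ]
  exact NN_mono hW0 (Q_le_Rb h1 x)

/-- **the divergence certificate.** -/
theorem divCert_eta {b : ℝ} (hU : IsOpen U) (hA : ContDiffOn ℝ ∞ A U) (hB : ContDiffOn ℝ ∞ B U)
    (hW : ContDiffOn ℝ ∞ W U) (hφ : C.Sm φ) (hψ : C.Sm ψ)
    (hx : ∀ x, (eta φ ψ x, mm φ ψ x, C.G (eta φ ψ) (eta φ ψ) x) ∈ U)
    (hW0 : ∀ x, 0 ≤ W (eta φ ψ x, mm φ ψ x, C.G (eta φ ψ) (eta φ ψ) x)) :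
    DivCert C b 1 (IE A B W) φ ψ (eta φ ψ) (VE C A B W φ ψ) where
  sθ := sm_eta hφ hψ
  iV := integrable_sm (sm_VE hU hA hB hW hφ hψ hx)
  hV := (int_VE hU hA hB hW hφ hψ hx).le
  le := fun x => IE_le_VE hU hA hB hW hφ hψ hx x (hW0 x)
  Lθ := fun x => by
    have h1 : C.L (eta φ ψ) x = C.L φ x - C.L ψ x := L_sub hφ hψ x
    have h2 : |C.L φ x - C.L ψ x| ≤ |C.L φ x| + |C.L ψ x| := abs_sub _ _
    have h3 := G_self_nonneg (C := C) φ x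
    have h4 := G_self_nonneg (C := C) ψ x
    rw [h1]
    linarith

end Calculus

end Crest.Agent.R249.Eta467
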