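import Crest.Agent.R249.Eta1_467

/-!
# R249 (helper467), A2-ETA part 2: symbol calculus for a pair of jets

`Est Z M k C a a'` : `|a|, |a'| ≤ C Z^k`, `|a - a'| Z² ≤ C M Z^k`; closed under `+`, `*`.
`lip_IE` : weight four Lipschitz condition for `IE A B W` on pairs of jets with the same `u = p - q`
(`RelE`), from bounds on the coefficient functions (`Cf`).
-/

set_option autoImplicit false
set_option linter.unusedVariables false
set_option linter.unusedSectionVars false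

open MeasureTheory Set Filter Topology Matrix
open scoped ContDiff

noncomputable section

namespace Crest.Agent.R249.Eta467

open Calc_806 Calc_806.Calc DivC467 Lim621

attribute [local instance] Matrix.frobeniusNormedAddCommGroup Matrix.frobeniusNormedSpace

/-! ### estimates for a pair of numbers -/

/-- `a`, `a'` have weight `k` (constant `C`). -/
structure Est (Z M : ℝ) (k : ℕ) (C a a' : ℝ) : Prop where
  C0 : 0 ≤ C
  b1 : |a| ≤ C * Z ^ k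
  b2 : |a'| ≤ C * Z ^ k
  d : |a - a'| * Z ^ 2 ≤ C * M * Z ^ k

namespace Est

variable {Z M : ℝ} {k l : ℕ} {C D a a' b b' : ℝ}

lemma add (h : Est Z M k C a a') (g : Est Z M k D b b') : Est Z M k (C + D) (a + b) (a' + b') where
  C0 := add_nonneg h.C0 g.C0
  b1 := (abs_add_le _ _).trans (by rw [add_mul]; exact add_le_add h.b1 g.b1)
  b2 := (abs_add_le _ _).trans (by rw [add_mul]; exact add_le_add h.b2 g.b2)
  d := by
    have h1 : |a + b - (a' + b')| ≤ |a - a'| + |b - b'| := by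
      have : a + b - (a' + b') = (a - a') + (b - b') := by ring
      rw [this]; exact abs_add_le _ _
    have h2 := mul_le_mul_of_nonneg_right h1 (sq_nonneg Z)
    have := h.d
    have := g.d
    nlinarith

lemma neg (h : Est Z M k C a a') : Est Z M k C (-a) (-a') where
  C0 := h.C0
  b1 := by rw [abs_neg]; exact h.b1
  b2 := by rw [abs_neg]; exact h.b2
  d := by
    have : -a - -a' = -(a - a') := by ring
    rw [this, abs_neg]; exact h.d

lemma sub (h : Est Z M k C a a') (g : Est Z M k D b b') : Est Z M k (C + D) (a - b) (a' - b') := by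
  rw [sub_eq_add_neg, sub_eq_add_neg]; exact h.add g.neg

lemma mul (hZ : 0 ≤ Z) (h : Est Z M k C a a') (g : Est Z M l D b b') :
    Est Z M (k + l) (2 * (C * D)) (a * b) (a' * b') := by
  have hC := h.C0
  have hD := g.C0
  have hZk : 0 ≤ Z ^ k := pow_nonneg hZ k
  have hZl : 0 ≤ Z ^ l := pow_nonneg hZ l
  have hCk : 0 ≤ C * Z ^ k := mul_nonneg hC hZk
  have hDl : 0 ≤ D * Z ^ l := mul_nonneg hD hZl
  refine ⟨by positivity, ?_, ?_, ?_⟩
  · rw [abs_mul, pow_add]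
    have := mul_le_mul h.b1 g.b1 (abs_nonneg _) hCk
    nlinarith [mul_nonneg hCk hDl]
  · rw [abs_mul, pow_add]
    have := mul_le_mul h.b2 g.b2 (abs_nonneg _) hCk
    nlinarith [mul_nonneg hCk hDl]
  · have h1 : |a * b - a' * b'| ≤ |a| * |b - b'| + |a - a'| * |b'| := by
      have : a * b - a' * b' = a * (b - b') + (a - a') * b' := by ring
      rw [this]
      exact (abs_add_le _ _).trans (by rw [abs_mul, abs_mul])
    have h2 := mul_le_mul_of_nonneg_right h1 (sq_nonneg Z)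
    have h3 : |a| * (|b - b'| * Z ^ 2) ≤ (C * Z ^ k) * (D * M * Z ^ l) :=
      mul_le_mul h.b1 g.d (by positivity) hCk
    have h4 : (|a - a'| * Z ^ 2) * |b'| ≤ (C * M * Z ^ k) * (D * Z ^ l) :=
      mul_le_mul h.d g.b2 (abs_nonneg _) (le_trans (by positivity) h.d)
    rw [pow_add]
    calc |a * b - a' * b'| * Z ^ 2 ≤ (|a| * |b - b'| + |a - a'| * |b'|) * Z ^ 2 := h2
      _ = |a| * (|b - b'| * Z ^ 2) + (|a - a'| * Z ^ 2) * |b'| := by ring
      _ ≤ (C * Z ^ k) * (D * M * Z ^ l) + (C * M * Z ^ k) * (D * Z ^ l) := add_le_add h3 h4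
      _ = 2 * (C * D) * M * (Z ^ k * Z ^ l) := by ring

lemma smul (c : ℝ) (h : Est Z M k C a a') : Est Z M k (|c| * C) (c * a) (c * a') where
  C0 := mul_nonneg (abs_nonneg _) h.C0
  b1 := by rw [abs_mul, mul_assoc]; exact mul_le_mul_of_nonneg_left h.b1 (abs_nonneg _)
  b2 := by rw [abs_mul, mul_assoc]; exact mul_le_mul_of_nonneg_left h.b2 (abs_nonneg _)
  d := by
    have : c * a - c * a' = c * (a - a') := by ring
    rw [this, abs_mul, mul_assoc, mul_assoc, mul_assoc, ← mul_assoc C]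
    exact mul_le_mul_of_nonneg_left h.d (abs_nonneg _)

lemma mono_C (hZ : 0 ≤ Z) (hM : 0 ≤ M) (h : Est Z M k C a a') (hD : C ≤ D) :
    Est Z M k D a a' where
  C0 := h.C0.trans hD
  b1 := h.b1.trans (mul_le_mul_of_nonneg_right hD (pow_nonneg hZ k))
  b2 := h.b2.trans (mul_le_mul_of_nonneg_right hD (pow_nonneg hZ k))
  d := h.d.trans (by
    have := pow_nonneg hZ k
    exact mul_le_mul_of_nonneg_right (mul_le_mul_of_nonneg_right hD hM) this)

lemma mono_k (hZ : 1 ≤ Z) (hM : 0 ≤ M) (h : Est Z M k C a a') (hkl : k ≤ l) :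
    Est Z M l C a a' where
  C0 := h.C0
  b1 := h.b1.trans (mul_le_mul_of_nonneg_left (pow_le_pow_right₀ hZ hkl) h.C0)
  b2 := h.b2.trans (mul_le_mul_of_nonneg_left (pow_le_pow_right₀ hZ hkl) h.C0)
  d := h.d.trans (mul_le_mul_of_nonneg_left (pow_le_pow_right₀ hZ hkl) (mul_nonneg h.C0 hM))

lemma sum {n : ℕ} {F F' : Fin n → ℝ} (h : ∀ i, Est Z M k C (F i) (F' i)) (hC : 0 ≤ C)
    (hM : 0 ≤ M) (hZ : 0 ≤ Z) :
    Est Z M k (n * C) (∑ i, F i) (∑ i, F' i) := by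
  have hn : (0:ℝ) ≤ n := Nat.cast_nonneg n
  refine ⟨by positivity, ?_, ?_, ?_⟩
  · refine (Finset.abs_sum_le_sum_abs _ _).trans ?_
    refine (Finset.sum_le_sum fun i _ => (h i).b1).trans ?_
    simp [mul_assoc]
  · refine (Finset.abs_sum_le_sum_abs _ _).trans ?_
    refine (Finset.sum_le_sum fun i _ => (h i).b2).trans ?_
    simp [mul_assoc]
  · rw [← Finset.sum_sub_distrib]
    have h1 : |∑ i, (F i - F' i)| ≤ ∑ i, |F i - F' i| := Finset.abs_sum_le_sum_abs _ _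
    refine (mul_le_mul_of_nonneg_right h1 (sq_nonneg Z)).trans ?_
    rw [Finset.sum_mul]
    refine (Finset.sum_le_sum fun i _ => (h i).d).trans ?_
    simp [mul_assoc]

end Est

/-! ### jets -/

/-- pairs of jets with the same `u = p - q`. -/
structure RelE (ε : ℝ) (j j' : Jet E4 H4) : Prop where
  u : j'.p - j'.q = j.p - j.q
  f : |j.f - j'.f| ≤ ε
  g : |j.g - j'.g| ≤ ε

/-- bounds of a coefficient function on `(η, m) ∈ D`, `G ≥ 0`: `|c| (1+G)^i ≤ C (1+G)^k`. -/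
structure Cf (D : Set (ℝ × ℝ)) (C : ℝ) (i k : ℕ) (c : ℝ × ℝ × ℝ → ℝ) : Prop where
  C0 : 0 ≤ C
  b : ∀ η m G, (η, m) ∈ D → 0 ≤ G → |c (η, m, G)| * (1 + G) ^ i ≤ C * (1 + G) ^ k
  d : ∀ η m η' m' G, (η, m) ∈ D → (η', m') ∈ D → 0 ≤ G →
    |c (η, m, G) - c (η', m', G)| * (1 + G) ^ i ≤ C * (|η - η'| + |m - m'|) * (1 + G) ^ k

/-- the domain condition. -/
def inD (D : Set (ℝ × ℝ)) (j : Jet E4 H4) : Prop := (j.f - j.g, 1 / 2 * (j.f + j.g)) ∈ D

section Pair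

/-- `Z`. -/
def Zj (j j' : Jet E4 H4) : ℝ := Real.sqrt (j.W + j'.W)

/-- `M`. -/
def Mj (ε : ℝ) (j j' : Jet E4 H4) : ℝ :=
  ε * Zj j j' ^ 2 + (‖j.p - j'.p‖ + ‖j.q - j'.q‖) * Zj j j' + (‖j.P - j'.P‖ + ‖j.Q - j'.Q‖)

variable {ε : ℝ} {j j' : Jet E4 H4}

lemma Zj_sq (j j' : Jet E4 H4) : Zj j j' ^ 2 = j.W + j'.W :=
  Real.sq_sqrt (add_nonneg j.W_nonneg j'.W_nonneg)

lemma one_le_Zj (j j' : Jet E4 H4) : 1 ≤ Zj j j' := by
  rw [Zj, Real.one_le_sqrt]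
  have := j.one_le_W
  have := j'.W_nonneg
  linarith

lemma Zj_nonneg (j j' : Jet E4 H4) : 0 ≤ Zj j j' := zero_le_one.trans (one_le_Zj j j')

lemma Mj_nonneg (hε : 0 ≤ ε) (j j' : Jet E4 H4) : 0 ≤ Mj ε j j' := by
  have := Zj_nonneg j j'
  unfold Mj
  positivity

lemma norm_p_le (j j' : Jet E4 H4) : ‖j.p‖ ≤ Zj j j' ∧ ‖j.q‖ ≤ Zj j j' ∧ ‖j'.p‖ ≤ Zj j j' ∧
    ‖j'.q‖ ≤ Zj j j' := by
  have h1 : j.W = 1 + ‖j.p‖ ^ 2 + ‖j.q‖ ^ 2 + ‖j.P‖ + ‖j.Q‖ := rfl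
  have h2 : j'.W = 1 + ‖j'.p‖ ^ 2 + ‖j'.q‖ ^ 2 + ‖j'.P‖ + ‖j'.Q‖ := rfl
  have a1 := norm_nonneg j.P
  have a2 := norm_nonneg j.Q
  have a3 := norm_nonneg j'.P
  have a4 := norm_nonneg j'.Q
  have a5 := sq_nonneg ‖j.p‖
  have a6 := sq_nonneg ‖j.q‖
  have a7 := sq_nonneg ‖j'.p‖
  have a8 := sq_nonneg ‖j'.q‖
  refine ⟨?_, ?_, ?_, ?_⟩ <;> · rw [Zj]; apply Real.le_sqrt_of_sq_le; linarith

lemma norm_P_le (j j' : Jet E4 H4) : ‖j.P‖ ≤ Zj j j' ^ 2 ∧ ‖j.Q‖ ≤ Zj j j' ^ 2 ∧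
    ‖j'.P‖ ≤ Zj j j' ^ 2 ∧ ‖j'.Q‖ ≤ Zj j j' ^ 2 ∧ ‖j.P‖ + ‖j.Q‖ ≤ Zj j j' ^ 2 ∧
    ‖j'.P‖ + ‖j'.Q‖ ≤ Zj j j' ^ 2 := by
  have h1 : j.W = 1 + ‖j.p‖ ^ 2 + ‖j.q‖ ^ 2 + ‖j.P‖ + ‖j.Q‖ := rfl
  have h2 : j'.W = 1 + ‖j'.p‖ ^ 2 + ‖j'.q‖ ^ 2 + ‖j'.P‖ + ‖j'.Q‖ := rfl
  have a1 := norm_nonneg j.P
  have a2 := norm_nonneg j.Q
  have a3 := norm_nonneg j'.P
  have a4 := norm_nonneg j'.Q
  have a5 := sq_nonneg ‖j.p‖
  have a6 := sq_nonneg ‖j.q‖
  have a7 := sq_nonneg ‖j'.p‖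
  have a8 := sq_nonneg ‖j'.q‖
  rw [Zj_sq]
  refine ⟨?_, ?_, ?_, ?_, ?_, ?_⟩ <;> linarith

lemma abs_coord_le (x : E4) (i : Fin 4) : |WithLp.ofLp x i| ≤ ‖x‖ := by
  have := PiLp.norm_apply_le x i
  simpa [Real.norm_eq_abs] using this

lemma abs_entry_le (A : Matrix (Fin 4) (Fin 4) ℝ) (a b : Fin 4) : |A a b| ≤ ‖A‖ := by
  have h0 : ‖A‖ ^ 2 = ∑ i, ∑ k, A i k ^ 2 := by
    rw [Matrix.frobenius_norm_def, ← Real.sqrt_eq_rpow, Real.sq_sqrt]
    · refine Finset.sum_congr rfl fun i _ => Finset.sum_congr rfl fun k _ => ?_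
      rw [Real.rpow_two, Real.norm_eq_abs, sq_abs]
    · exact Finset.sum_nonneg fun i _ => Finset.sum_nonneg fun k _ => by positivity
  apply abs_le_of_sq_le_sq _ (norm_nonneg _)
  rw [h0]
  calc A a b ^ 2 ≤ ∑ k, A a k ^ 2 :=
        Finset.single_le_sum (f := fun k => A a k ^ 2) (fun k _ => sq_nonneg _) (Finset.mem_univ b)
    _ ≤ ∑ i, ∑ k, A i k ^ 2 :=
        Finset.single_le_sum (f := fun i => ∑ k, A i k ^ 2)
          (fun i _ => Finset.sum_nonneg fun k _ => sq_nonneg _) (Finset.mem_univ a)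

variable (hε : 0 ≤ ε) (hr : RelE ε j j')

include hr in
lemma uJ_eq : uJ j' = uJ j := by
  unfold uJ; rw [hr.u]

include hε hr in
lemma est_u (i : Fin 4) : Est (Zj j j') (Mj ε j j') 1 2 (uJ j i) (uJ j' i) := by
  have hu := uJ_eq hr
  have h1 : |uJ j i| ≤ 2 * Zj j j' := by
    have := abs_coord_le (j.p - j.q) i
    have h2 := norm_sub_le j.p j.q
    obtain ⟨h3, h4, -, -⟩ := norm_p_le j j'
    exact this.trans (by linarith)
  refine ⟨by norm_num, by simpa using h1, by rw [hu]; simpa using h1, ?_⟩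
  rw [hu, sub_self, abs_zero, zero_mul]
  have := Mj_nonneg hε j j'
  have := Zj_nonneg j j'
  positivity

include hε in
lemma est_v (i : Fin 4) : Est (Zj j j') (Mj ε j j') 1 1 (vJ j i) (vJ j' i) := by
  obtain ⟨h3, h4, h5, h6⟩ := norm_p_le j j'
  have hZ := Zj_nonneg j j'
  have e : ∀ j : Jet E4 H4, vJ j i = 1 / 2 * WithLp.ofLp (j.p + j.q) i := fun j => rfl
  have h1 : ∀ j : Jet E4 H4, |vJ j i| ≤ 1 / 2 * (‖j.p‖ + ‖j.q‖) := by
    intro j
    rw [e, abs_mul, abs_of_pos (by norm_num : (0:ℝ) < 1 / 2)]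
    exact mul_le_mul_of_nonneg_left ((abs_coord_le _ i).trans (norm_add_le _ _)) (by norm_num)
  refine ⟨by norm_num, ?_, ?_, ?_⟩
  · have := h1 j; rw [one_mul, pow_one]; linarith
  · have := h1 j'; rw [one_mul, pow_one]; linarith
  · have h2 : |vJ j i - vJ j' i| ≤ 1 / 2 * (‖j.p - j'.p‖ + ‖j.q - j'.q‖) := by
      have e2 : vJ j i - vJ j' i = 1 / 2 * WithLp.ofLp ((j.p - j'.p) + (j.q - j'.q)) i := by
        rw [e, e]
        simp only [WithLp.ofLp_add, WithLp.ofLp_sub, Pi.add_apply, Pi.sub_apply]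
        ring
      rw [e2, abs_mul, abs_of_pos (by norm_num : (0:ℝ) < 1 / 2)]
      exact mul_le_mul_of_nonneg_left ((abs_coord_le _ i).trans (norm_add_le _ _)) (by norm_num)
    have h7 : (0:ℝ) ≤ ‖j.p - j'.p‖ + ‖j.q - j'.q‖ := by positivity
    have h8 : (0:ℝ) ≤ ‖j.P - j'.P‖ + ‖j.Q - j'.Q‖ := by positivity
    have h9 : (‖j.p - j'.p‖ + ‖j.q - j'.q‖) * Zj j j' ≤ Mj ε j j' := by
      unfold Mj
      have : 0 ≤ ε * Zj j j' ^ 2 := by positivity
      linarith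
    rw [one_mul, pow_one]
    calc |vJ j i - vJ j' i| * Zj j j' ^ 2 ≤
          (1 / 2 * (‖j.p - j'.p‖ + ‖j.q - j'.q‖)) * Zj j j' ^ 2 :=
          mul_le_mul_of_nonneg_right h2 (by positivity)
      _ ≤ ((‖j.p - j'.p‖ + ‖j.q - j'.q‖) * Zj j j') * Zj j j' := by
          have : 0 ≤ (‖j.p - j'.p‖ + ‖j.q - j'.q‖) * Zj j j' ^ 2 := by positivity
          nlinarith
      _ ≤ Mj ε j j' * Zj j j' := mul_le_mul_of_nonneg_right h9 hZ

include hε in
lemma est_lin {L : Jet E4 H4 → ℝ} {c : ℝ} (hc : 0 ≤ c) (h1 : ∀ j, |L j| ≤ c * (‖j.P‖ + ‖j.Q‖))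
    (h2 : ∀ j j', |L j - L j'| ≤ c * (‖j.P - j'.P‖ + ‖j.Q - j'.Q‖)) :
    Est (Zj j j') (Mj ε j j') 2 c (L j) (L j') := by
  obtain ⟨-, -, -, -, h5, h6⟩ := norm_P_le j j'
  refine ⟨hc, (h1 j).trans (mul_le_mul_of_nonneg_left h5 hc),
    (h1 j').trans (mul_le_mul_of_nonneg_left h6 hc), ?_⟩
  have h9 : ‖j.P - j'.P‖ + ‖j.Q - j'.Q‖ ≤ Mj ε j j' := by
    unfold Mj
    have := Zj_nonneg j j'
    have : 0 ≤ ε * Zj j j' ^ 2 := by positivity
    have : 0 ≤ (‖j.p - j'.p‖ + ‖j.q - j'.q‖) * Zj j j' := by positivity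
    linarith
  exact mul_le_mul_of_nonneg_right ((h2 j j').trans (mul_le_mul_of_nonneg_left h9 hc)) (by positivity)

lemma fst_le (P : H4) : |P.1| ≤ ‖P‖ := norm_fst_le P

lemma snd_le (P : H4) (a b : Fin 4) : |P.2 a b| ≤ ‖P‖ := (abs_entry_le _ a b).trans (norm_snd_le P)

include hε in
lemma est_x : Est (Zj j j') (Mj ε j j') 2 1 (xJ j) (xJ j') := by
  refine est_lin hε zero_le_one (fun j => ?_) (fun j j' => ?_)
  · rw [one_mul, xJ]
    exact (abs_sub _ _).trans (add_le_add (fst_le _) (fst_le _))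
  · rw [one_mul]
    have : xJ j - xJ j' = (j.P - j'.P).1 - (j.Q - j'.Q).1 := by
      simp only [xJ, Prod.fst_sub]; ring
    rw [this]
    exact (abs_sub _ _).trans (add_le_add (fst_le _) (fst_le _))

include hε in
lemma est_kJ : Est (Zj j j') (Mj ε j j') 2 1 (kJ j) (kJ j') := by
  have key : ∀ P Q : H4, |1 / 2 * (P.1 + Q.1)| ≤ 1 * (‖P‖ + ‖Q‖) := by
    intro P Q
    rw [abs_mul, abs_of_pos (by norm_num : (0:ℝ) < 1 / 2)]
    have h1 := abs_add_le P.1 Q.1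
    have h2 := fst_le P
    have h3 := fst_le Q
    have h4 := norm_nonneg P
    have h5 := norm_nonneg Q
    linarith
  refine est_lin hε zero_le_one (fun j => key _ _) (fun j j' => ?_)
  have : kJ j - kJ j' = 1 / 2 * ((j.P - j'.P).1 + (j.Q - j'.Q).1) := by
    simp only [kJ, Prod.fst_sub]; ring
  rw [this]
  exact key _ _

lemma sJ_bound (P Q : H4) (a b : Fin 4) :
    |P.2 a b + ((P.1 - Q.1 - P.2.trace) / 4) * (1 : Matrix (Fin 4) (Fin 4) ℝ) a b| ≤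
      3 * (‖P‖ + ‖Q‖) := by
  have h1 := snd_le P a b
  have h2 : |P.2.trace| ≤ 4 * ‖P‖ := by
    rw [Matrix.trace, Fin.sum_univ_four]
    simp only [Matrix.diag_apply]
    have e0 := abs_le.1 (snd_le P 0 0)
    have e1 := abs_le.1 (snd_le P 1 1)
    have e2 := abs_le.1 (snd_le P 2 2)
    have e3 := abs_le.1 (snd_le P 3 3)
    rw [abs_le]; constructor <;> linarith
  have h3 := fst_le P
  have h4 := fst_le Q
  have h5 : |(1 : Matrix (Fin 4) (Fin 4) ℝ) a b| ≤ 1 := by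
    by_cases h : a = b
    · rw [h, Matrix.one_apply_eq]; norm_num
    · rw [Matrix.one_apply_ne h]; norm_num
  have h6 : |(P.1 - Q.1 - P.2.trace) / 4| ≤ (5 * ‖P‖ + ‖Q‖) / 4 := by
    rw [abs_div, abs_of_pos (by norm_num : (0:ℝ) < 4)]
    have a1 := abs_le.1 h2
    have a2 := abs_le.1 h3
    have a3 := abs_le.1 h4
    have : |P.1 - Q.1 - P.2.trace| ≤ 5 * ‖P‖ + ‖Q‖ := by
      rw [abs_le]; constructor <;> linarith
    linarith
  have h7 := norm_nonneg P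
  have h8 := norm_nonneg Q
  refine (abs_add_le _ _).trans ?_
  rw [abs_mul]
  have h9 : |(P.1 - Q.1 - P.2.trace) / 4| * |(1 : Matrix (Fin 4) (Fin 4) ℝ) a b| ≤
      (5 * ‖P‖ + ‖Q‖) / 4 * 1 := mul_le_mul h6 h5 (abs_nonneg _) (by positivity)
  linarith

include hε in
lemma est_s (a b : Fin 4) : Est (Zj j j') (Mj ε j j') 2 3 (sJ j a b) (sJ j' a b) := by
  have e : ∀ j : Jet E4 H4, sJ j a b =
      j.P.2 a b + ((j.P.1 - j.Q.1 - j.P.2.trace) / 4) * (1 : Matrix (Fin 4) (Fin 4) ℝ) a b := by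
    intro j
    rw [sJ, Matrix.add_apply, Matrix.smul_apply, smul_eq_mul]; rfl
  have h : Est (Zj j j') (Mj ε j j') 2 3 (sJ j a b) (sJ j' a b) := by
    refine est_lin (L := fun j => sJ j a b) hε (by norm_num) (fun j => ?_) (fun j j' => ?_)
    · show |sJ j a b| ≤ _
      rw [e]
      exact sJ_bound _ _ a b
    · show |sJ j a b - sJ j' a b| ≤ _
      have := sJ_bound (j.P - j'.P) (j.Q - j'.Q) a b
      refine (le_of_eq ?_).trans this
      congr 1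
      rw [e, e]
      simp only [Prod.fst_sub, Prod.snd_sub, Matrix.sub_apply, Matrix.trace_sub]
      ring
  exact h

end Pair

end Crest.Agent.R249.Eta467
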