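import Crest.Agent.R249.Eta2_467

/-!
# R249 (helper467), A2-ETA part 3: `lip_IE`
-/

set_option autoImplicit false
set_option linter.unusedVariables false
set_option linter.unusedSectionVars false

open MeasureTheory Set Filter Topology Matrix
open scoped ContDiff

noncomputable section

namespace Crest.Agent.R249.Eta467

open Calc_806 Calc_806.Calc DivC467 Lim621

attribute [local instance] Matrix.frobeniusNormedAddCommGroup Matrix.frobeniusNormedSpace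

variable {ε : ℝ} {j j' : Jet E4 H4} (hε : 0 ≤ ε) (hr : RelE ε j j')

/-! ### scalars -/

include hε hr in
lemma est_uu : Est (Zj j j') (Mj ε j j') 2 32 (uJ j ⬝ᵥ uJ j) (uJ j' ⬝ᵥ uJ j') := by
  have hM := Mj_nonneg hε j j'
  have hZ := Zj_nonneg j j'
  have h : ∀ i, Est (Zj j j') (Mj ε j j') 2 8 (uJ j i * uJ j i) (uJ j' i * uJ j' i) := fun i => by
    have := (est_u hε hr i).mul hZ (est_u hε hr i)
    exact this.mono_C hZ hM (by norm_num)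
  have := Est.sum h (by norm_num) hM hZ
  exact this.mono_C hZ hM (by norm_num)

include hε hr in
lemma est_vu : Est (Zj j j') (Mj ε j j') 2 16 (vJ j ⬝ᵥ uJ j) (vJ j' ⬝ᵥ uJ j') := by
  have hM := Mj_nonneg hε j j'
  have hZ := Zj_nonneg j j'
  have h : ∀ i, Est (Zj j j') (Mj ε j j') 2 4 (vJ j i * uJ j i) (vJ j' i * uJ j' i) := fun i => by
    have := (est_v hε i).mul hZ (est_u hε hr i)
    exact this.mono_C hZ hM (by norm_num)
  have := Est.sum h (by norm_num) hM hZ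
  exact this.mono_C hZ hM (by norm_num)

include hε in
lemma est_vv : Est (Zj j j') (Mj ε j j') 2 8 (vJ j ⬝ᵥ vJ j) (vJ j' ⬝ᵥ vJ j') := by
  have hM := Mj_nonneg hε j j'
  have hZ := Zj_nonneg j j'
  have h : ∀ i, Est (Zj j j') (Mj ε j j') 2 2 (vJ j i * vJ j i) (vJ j' i * vJ j' i) := fun i => by
    have := (est_v hε i).mul hZ (est_v hε i)
    exact this.mono_C hZ hM (by norm_num)
  have := Est.sum h (by norm_num) hM hZ
  exact this.mono_C hZ hM (by norm_num)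

include hε hr in
/-- `(S u)_i`. -/
lemma est_Su (i : Fin 4) : Est (Zj j j') (Mj ε j j') 3 48 ((sJ j *ᵥ uJ j) i) ((sJ j' *ᵥ uJ j') i) := by
  have hM := Mj_nonneg hε j j'
  have hZ := Zj_nonneg j j'
  have h : ∀ k, Est (Zj j j') (Mj ε j j') 3 12 (sJ j i k * uJ j k) (sJ j' i k * uJ j' k) :=
    fun k => by
      have := (est_s hε i k).mul hZ (est_u hε hr k)
      exact this.mono_C hZ hM (by norm_num)
  have := Est.sum h (by norm_num) hM hZ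
  exact this.mono_C hZ hM (by norm_num)

include hε hr in
lemma est_uSu : Est (Zj j j') (Mj ε j j') 4 768 (uJ j ⬝ᵥ (sJ j *ᵥ uJ j))
    (uJ j' ⬝ᵥ (sJ j' *ᵥ uJ j')) := by
  have hM := Mj_nonneg hε j j'
  have hZ := Zj_nonneg j j'
  have h : ∀ k, Est (Zj j j') (Mj ε j j') 4 192 (uJ j k * (sJ j *ᵥ uJ j) k)
      (uJ j' k * (sJ j' *ᵥ uJ j') k) :=
    fun k => by
      have := (est_u hε hr k).mul hZ (est_Su hε hr k)
      exact this.mono_C hZ hM (by norm_num)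
  have := Est.sum h (by norm_num) hM hZ
  exact this.mono_C hZ hM (by norm_num)

include hε hr in
lemma est_vSu : Est (Zj j j') (Mj ε j j') 4 384 (vJ j ⬝ᵥ (sJ j *ᵥ uJ j))
    (vJ j' ⬝ᵥ (sJ j' *ᵥ uJ j')) := by
  have hM := Mj_nonneg hε j j'
  have hZ := Zj_nonneg j j'
  have h : ∀ k, Est (Zj j j') (Mj ε j j') 4 96 (vJ j k * (sJ j *ᵥ uJ j) k)
      (vJ j' k * (sJ j' *ᵥ uJ j') k) :=
    fun k => by
      have := (est_v hε k).mul hZ (est_Su hε hr k)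
      exact this.mono_C hZ hM (by norm_num)
  have := Est.sum h (by norm_num) hM hZ
  exact this.mono_C hZ hM (by norm_num)

include hε in
lemma est_rho : Est (Zj j j') (Mj ε j j') 4 288 (∑ a, ∑ b, sJ j a b ^ 2)
    (∑ a, ∑ b, sJ j' a b ^ 2) := by
  have hM := Mj_nonneg hε j j'
  have hZ := Zj_nonneg j j'
  have h : ∀ a, Est (Zj j j') (Mj ε j j') 4 72 (∑ b, sJ j a b ^ 2) (∑ b, sJ j' a b ^ 2) := by
    intro a
    have h1 : ∀ b, Est (Zj j j') (Mj ε j j') 4 18 (sJ j a b ^ 2) (sJ j' a b ^ 2) := by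
      intro b
      rw [sq, sq]
      exact ((est_s hε a b).mul hZ (est_s hε a b)).mono_C hZ hM (by norm_num)
    exact (Est.sum h1 (by norm_num) hM hZ).mono_C hZ hM (by norm_num)
  exact (Est.sum h (by norm_num) hM hZ).mono_C hZ hM (by norm_num)

/-! ### coefficients -/

/-- bounds of a coefficient function at a pair of points with the same `G`. -/
structure CfP (C : ℝ) (i k : ℕ) (c : ℝ × ℝ × ℝ → ℝ) (z z' : ℝ × ℝ × ℝ) : Prop where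
  C0 : 0 ≤ C
  b : |c z| * (1 + z.2.2) ^ i ≤ C * (1 + z.2.2) ^ k
  b' : |c z'| * (1 + z.2.2) ^ i ≤ C * (1 + z.2.2) ^ k
  d : |c z - c z'| * (1 + z.2.2) ^ i ≤ C * (|z.1 - z'.1| + |z.2.1 - z'.2.1|) * (1 + z.2.2) ^ k

variable {D : Set (ℝ × ℝ)} {C₀ : ℝ} {c : ℝ × ℝ × ℝ → ℝ}

lemma uu_nonneg (j : Jet E4 H4) : 0 ≤ uJ j ⬝ᵥ uJ j :=
  Finset.sum_nonneg fun i _ => mul_self_nonneg _

lemma uu_le (j j' : Jet E4 H4) : 1 + uJ j ⬝ᵥ uJ j ≤ 5 * Zj j j' ^ 2 := by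
  obtain ⟨h3, h4, -, -⟩ := norm_p_le j j'
  have hZ := one_le_Zj j j'
  have e : uJ j ⬝ᵥ uJ j = ‖j.p - j.q‖ ^ 2 := by
    rw [EuclideanSpace.norm_sq_eq, uJ]
    simp only [dotProduct, Real.norm_eq_abs, sq_abs]
    exact Finset.sum_congr rfl fun i _ => by ring
  have h1 := norm_sub_le j.p j.q
  have h2 : ‖j.p - j.q‖ ^ 2 ≤ (2 * Zj j j') ^ 2 :=
    pow_le_pow_left₀ (norm_nonneg _) (by linarith) 2
  rw [e]
  nlinarith

include hr hε in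
lemma dEta_le : |(j.f - j.g) - (j'.f - j'.g)| + |1 / 2 * (j.f + j.g) - 1 / 2 * (j'.f + j'.g)| ≤
    3 * ε := by
  have h1 := abs_le.1 hr.f
  have h2 := abs_le.1 hr.g
  have h3 : |(j.f - j.g) - (j'.f - j'.g)| ≤ 2 * ε := by
    rw [abs_le]; constructor <;> linarith
  have h4 : |1 / 2 * (j.f + j.g) - 1 / 2 * (j'.f + j'.g)| ≤ ε := by
    rw [abs_le]; constructor <;> linarith
  linarith

lemma le_Mj (hε : 0 ≤ ε) (j j' : Jet E4 H4) : ε * Zj j j' ^ 2 ≤ Mj ε j j' := by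
  unfold Mj
  have := Zj_nonneg j j'
  have : 0 ≤ (‖j.p - j'.p‖ + ‖j.q - j'.q‖) * Zj j j' := by positivity
  have : 0 ≤ ‖j.P - j'.P‖ + ‖j.Q - j'.Q‖ := by positivity
  linarith

include hr in
lemma bJ_snd : (bJ j').2.2 = (bJ j).2.2 := by
  show uJ j' ⬝ᵥ uJ j' = uJ j ⬝ᵥ uJ j
  rw [uJ_eq hr]

include hr in
lemma Cf.pair {i k : ℕ} (hc : Cf D C₀ i k c) (hD : inD D j) (hD' : inD D j') :
    CfP C₀ i k c (bJ j) (bJ j') := by
  have hG := uu_nonneg j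
  have hu : uJ j' ⬝ᵥ uJ j' = uJ j ⬝ᵥ uJ j := by rw [uJ_eq hr]
  have e3 : bJ j' = (j'.f - j'.g, 1 / 2 * (j'.f + j'.g), uJ j ⬝ᵥ uJ j) := by rw [bJ, hu]
  refine ⟨hc.C0, hc.b _ _ _ hD hG, ?_, ?_⟩
  · rw [e3]; exact hc.b _ _ _ hD' hG
  · rw [e3]; exact hc.d _ _ _ _ _ hD hD' hG

include hε hr in
/-- a coefficient of weight `2 k` -/
lemma est_coef (k : ℕ) (hc : CfP C₀ 0 k c (bJ j) (bJ j')) :
    Est (Zj j j') (Mj ε j j') (2 * k) (3 * 5 ^ k * C₀) (c (bJ j)) (c (bJ j')) := by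
  have hZ := Zj_nonneg j j'
  have hM := Mj_nonneg hε j j'
  have hC := hc.C0
  have hG := uu_nonneg j
  have hG' := uu_nonneg j'
  have hu : uJ j' ⬝ᵥ uJ j' = uJ j ⬝ᵥ uJ j := by rw [uJ_eq hr]
  have hle : (1 + uJ j ⬝ᵥ uJ j) ^ k ≤ 5 ^ k * Zj j j' ^ (2 * k) := by
    refine (pow_le_pow_left₀ (by linarith) (uu_le j j') k).trans (le_of_eq ?_)
    rw [mul_pow, ← pow_mul]
  have hpos : 0 ≤ 5 ^ k * Zj j j' ^ (2 * k) := by positivity
  have h1 : |c (bJ j)| * (1 + uJ j ⬝ᵥ uJ j) ^ 0 ≤ C₀ * (1 + uJ j ⬝ᵥ uJ j) ^ k := hc.b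
  have h2 : |c (bJ j')| * (1 + uJ j ⬝ᵥ uJ j) ^ 0 ≤ C₀ * (1 + uJ j ⬝ᵥ uJ j) ^ k := hc.b'
  rw [pow_zero, mul_one] at h1 h2
  refine ⟨by positivity, ?_, ?_, ?_⟩
  · refine h1.trans ((mul_le_mul_of_nonneg_left hle hC).trans ?_)
    nlinarith [mul_nonneg hC hpos]
  · refine h2.trans ((mul_le_mul_of_nonneg_left hle hC).trans ?_)
    nlinarith [mul_nonneg hC hpos]
  · have h3 : |c (bJ j) - c (bJ j')| * (1 + uJ j ⬝ᵥ uJ j) ^ 0 ≤
        C₀ * (|(j.f - j.g) - (j'.f - j'.g)| + |1 / 2 * (j.f + j.g) - 1 / 2 * (j'.f + j'.g)|) *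
          (1 + uJ j ⬝ᵥ uJ j) ^ k := hc.d
    rw [pow_zero, mul_one] at h3
    have h4 := dEta_le hε hr
    have h5 : |c (bJ j) - c (bJ j')| ≤
        C₀ * (3 * ε) * (5 ^ k * Zj j j' ^ (2 * k)) := by
      refine h3.trans ?_
      refine mul_le_mul (mul_le_mul_of_nonneg_left h4 hC) hle (by positivity) (by positivity)
    refine (mul_le_mul_of_nonneg_right h5 (sq_nonneg _)).trans ?_
    have h6 := le_Mj hε j j'
    have h7 : 0 ≤ C₀ * 3 * (5 ^ k * Zj j j' ^ (2 * k)) := by positivity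
    calc C₀ * (3 * ε) * (5 ^ k * Zj j j' ^ (2 * k)) * Zj j j' ^ 2 =
        (C₀ * 3 * (5 ^ k * Zj j j' ^ (2 * k))) * (ε * Zj j j' ^ 2) := by ring
      _ ≤ (C₀ * 3 * (5 ^ k * Zj j j' ^ (2 * k))) * Mj ε j j' := mul_le_mul_of_nonneg_left h6 h7
      _ = _ := by ring

lemma abs_u_mul_le (j : Jet E4 H4) (a b : Fin 4) : |uJ j a * uJ j b| ≤ 1 + uJ j ⬝ᵥ uJ j := by
  have h1 : ∀ a, uJ j a * uJ j a ≤ uJ j ⬝ᵥ uJ j := fun a =>
    Finset.single_le_sum (f := fun i => uJ j i * uJ j i) (fun i _ => mul_self_nonneg _)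
      (Finset.mem_univ a)
  have ha := h1 a
  have hb := h1 b
  rw [abs_le]
  constructor <;> nlinarith [sq_nonneg (uJ j a + uJ j b), sq_nonneg (uJ j a - uJ j b)]

include hε hr in
/-- `W₃ u_a u_b`. -/
lemma est_cuu (hc : CfP C₀ 1 0 c (bJ j) (bJ j')) (a b : Fin 4) :
    Est (Zj j j') (Mj ε j j') 0 (3 * C₀) (c (bJ j) * (uJ j a * uJ j b))
      (c (bJ j') * (uJ j' a * uJ j' b)) := by
  have hZ := Zj_nonneg j j'
  have hM := Mj_nonneg hε j j'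
  have hC := hc.C0
  have hG := uu_nonneg j
  have hG' := uu_nonneg j'
  have hu : uJ j' ⬝ᵥ uJ j' = uJ j ⬝ᵥ uJ j := by rw [uJ_eq hr]
  have h1 : |c (bJ j)| * (1 + uJ j ⬝ᵥ uJ j) ^ 1 ≤ C₀ * (1 + uJ j ⬝ᵥ uJ j) ^ 0 := hc.b
  have h2 : |c (bJ j')| * (1 + uJ j ⬝ᵥ uJ j) ^ 1 ≤ C₀ * (1 + uJ j ⬝ᵥ uJ j) ^ 0 := hc.b'
  rw [pow_zero, mul_one, pow_one] at h1 h2
  have ha := abs_u_mul_le j a b
  have ha' : |uJ j' a * uJ j' b| ≤ 1 + uJ j ⬝ᵥ uJ j := by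
    have := abs_u_mul_le j' a b
    rwa [hu] at this
  refine ⟨by positivity, ?_, ?_, ?_⟩
  · rw [abs_mul, pow_zero, mul_one]
    refine (mul_le_mul_of_nonneg_left ha (abs_nonneg _)).trans (h1.trans (by linarith))
  · rw [abs_mul, pow_zero, mul_one]
    refine (mul_le_mul_of_nonneg_left ha' (abs_nonneg _)).trans (h2.trans (by linarith))
  · have h3 : |c (bJ j) - c (bJ j')| * (1 + uJ j ⬝ᵥ uJ j) ^ 1 ≤
        C₀ * (|(j.f - j.g) - (j'.f - j'.g)| + |1 / 2 * (j.f + j.g) - 1 / 2 * (j'.f + j'.g)|) *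
          (1 + uJ j ⬝ᵥ uJ j) ^ 0 := hc.d
    rw [pow_zero, mul_one, pow_one] at h3
    have h4 := dEta_le hε hr
    have e4 : c (bJ j) * (uJ j a * uJ j b) - c (bJ j') * (uJ j' a * uJ j' b) =
        (c (bJ j) - c (bJ j')) * (uJ j a * uJ j b) := by
      rw [uJ_eq hr]; ring
    rw [e4, abs_mul]
    have h5 : |c (bJ j) - c (bJ j')| * |uJ j a * uJ j b| ≤ C₀ * (3 * ε) := by
      refine (mul_le_mul_of_nonneg_left ha (abs_nonneg _)).trans (h3.trans ?_)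
      exact mul_le_mul_of_nonneg_left h4 hC
    refine (mul_le_mul_of_nonneg_right h5 (sq_nonneg _)).trans ?_
    have h6 := le_Mj hε j j'
    calc C₀ * (3 * ε) * Zj j j' ^ 2 = (3 * C₀) * (ε * Zj j j' ^ 2) := by ring
      _ ≤ (3 * C₀) * Mj ε j j' := mul_le_mul_of_nonneg_left h6 (by positivity)
      _ = 3 * C₀ * Mj ε j j' * Zj j j' ^ 0 := by rw [pow_zero, mul_one]

include hε hr in
/-- `W₃ ⟨S u, u⟩`. -/
lemma est_cSuu (hc : CfP C₀ 1 0 c (bJ j) (bJ j')) :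
    Est (Zj j j') (Mj ε j j') 2 (288 * C₀) (c (bJ j) * (uJ j ⬝ᵥ (sJ j *ᵥ uJ j)))
      (c (bJ j') * (uJ j' ⬝ᵥ (sJ j' *ᵥ uJ j'))) := by
  have hZ := Zj_nonneg j j'
  have hM := Mj_nonneg hε j j'
  have hC := hc.C0
  have e : ∀ j : Jet E4 H4, c (bJ j) * (uJ j ⬝ᵥ (sJ j *ᵥ uJ j)) =
      ∑ a, ∑ b, (c (bJ j) * (uJ j a * uJ j b)) * sJ j a b := by
    intro j
    simp only [dotProduct, Matrix.mulVec, Finset.mul_sum]
    refine Finset.sum_congr rfl fun a _ => Finset.sum_congr rfl fun b _ => ?_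
    ring
  rw [e, e]
  have h1 : ∀ a b, Est (Zj j j') (Mj ε j j') 2 (18 * C₀) ((c (bJ j) * (uJ j a * uJ j b)) * sJ j a b)
      ((c (bJ j') * (uJ j' a * uJ j' b)) * sJ j' a b) := by
    intro a b
    have := (est_cuu hε hr hc a b).mul hZ (est_s hε a b)
    exact this.mono_C hZ hM (by linarith)
  have h2 : ∀ a, Est (Zj j j') (Mj ε j j') 2 (72 * C₀)
      (∑ b, (c (bJ j) * (uJ j a * uJ j b)) * sJ j a b)
      (∑ b, (c (bJ j') * (uJ j' a * uJ j' b)) * sJ j' a b) := by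
    intro a
    exact (Est.sum (h1 a) (by positivity) hM hZ).mono_C hZ hM (by push_cast; linarith)
  exact (Est.sum h2 (by positivity) hM hZ).mono_C hZ hM (by push_cast; linarith)

include hε hr in
/-- `W₃ |S u|²`. -/
lemma est_cSuSu (hc : CfP C₀ 1 0 c (bJ j) (bJ j')) :
    Est (Zj j j') (Mj ε j j') 4 (6912 * C₀) (c (bJ j) * ((sJ j *ᵥ uJ j) ⬝ᵥ (sJ j *ᵥ uJ j)))
      (c (bJ j') * ((sJ j' *ᵥ uJ j') ⬝ᵥ (sJ j' *ᵥ uJ j'))) := by
  have hZ := Zj_nonneg j j'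
  have hM := Mj_nonneg hε j j'
  have hC := hc.C0
  have e : ∀ j : Jet E4 H4, c (bJ j) * ((sJ j *ᵥ uJ j) ⬝ᵥ (sJ j *ᵥ uJ j)) =
      ∑ a, ∑ b, ∑ d, (c (bJ j) * (uJ j b * uJ j d)) * (sJ j a b * sJ j a d) := by
    intro j
    simp only [dotProduct, Matrix.mulVec, Finset.mul_sum, Finset.sum_mul]
    refine Finset.sum_congr rfl fun a _ => ?_
    rw [Finset.sum_comm]
    refine Finset.sum_congr rfl fun b _ => Finset.sum_congr rfl fun d _ => ?_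
    ring
  rw [e, e]
  have h1 : ∀ a b d, Est (Zj j j') (Mj ε j j') 4 (108 * C₀)
      ((c (bJ j) * (uJ j b * uJ j d)) * (sJ j a b * sJ j a d))
      ((c (bJ j') * (uJ j' b * uJ j' d)) * (sJ j' a b * sJ j' a d)) := by
    intro a b d
    have h2 := (est_s (j := j) (j' := j') hε a b).mul hZ (est_s hε a d)
    have := (est_cuu hε hr hc b d).mul hZ h2
    exact this.mono_C hZ hM (by linarith)
  have h2 : ∀ a b, Est (Zj j j') (Mj ε j j') 4 (432 * C₀)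
      (∑ d, (c (bJ j) * (uJ j b * uJ j d)) * (sJ j a b * sJ j a d))
      (∑ d, (c (bJ j') * (uJ j' b * uJ j' d)) * (sJ j' a b * sJ j' a d)) := by
    intro a b
    exact (Est.sum (h1 a b) (by positivity) hM hZ).mono_C hZ hM (by push_cast; linarith)
  have h3 : ∀ a, Est (Zj j j') (Mj ε j j') 4 (1728 * C₀)
      (∑ b, ∑ d, (c (bJ j) * (uJ j b * uJ j d)) * (sJ j a b * sJ j a d))
      (∑ b, ∑ d, (c (bJ j') * (uJ j' b * uJ j' d)) * (sJ j' a b * sJ j' a d)) := by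
    intro a
    exact (Est.sum (h2 a) (by positivity) hM hZ).mono_C hZ hM (by push_cast; linarith)
  exact (Est.sum h3 (by positivity) hM hZ).mono_C hZ hM (by push_cast; linarith)

/-! ### the integrand -/

/-- expanded form of `IE`. -/
lemma IE_eq (A B W : ℝ × ℝ × ℝ → ℝ) (j : Jet E4 H4) : IE A B W j =
    -(A (bJ j) * xJ j + (pd1 A (bJ j) * (uJ j ⬝ᵥ uJ j) + pd2 A (bJ j) * (vJ j ⬝ᵥ uJ j) +
        pd3 A (bJ j) * (2 * (uJ j ⬝ᵥ (sJ j *ᵥ uJ j)))) +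
      B (bJ j) * kJ j + (pd1 B (bJ j) * (vJ j ⬝ᵥ uJ j) + pd2 B (bJ j) * (vJ j ⬝ᵥ vJ j) +
        pd3 B (bJ j) * (2 * (vJ j ⬝ᵥ (sJ j *ᵥ uJ j)))) +
      W (bJ j) * (xJ j * xJ j - (∑ a, ∑ b, sJ j a b ^ 2) - uJ j ⬝ᵥ uJ j) +
      xJ j * (pd1 W (bJ j) * (uJ j ⬝ᵥ uJ j) + pd2 W (bJ j) * (vJ j ⬝ᵥ uJ j) +
        2 * (pd3 W (bJ j) * (uJ j ⬝ᵥ (sJ j *ᵥ uJ j)))) -
      (pd1 W (bJ j) * (uJ j ⬝ᵥ (sJ j *ᵥ uJ j)) + pd2 W (bJ j) * (vJ j ⬝ᵥ (sJ j *ᵥ uJ j)) +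
        2 * (pd3 W (bJ j) * ((sJ j *ᵥ uJ j) ⬝ᵥ (sJ j *ᵥ uJ j))))) := by
  have c1 : (sJ j *ᵥ uJ j) ⬝ᵥ uJ j = uJ j ⬝ᵥ (sJ j *ᵥ uJ j) := dotProduct_comm _ _
  have c2 : (sJ j *ᵥ uJ j) ⬝ᵥ vJ j = vJ j ⬝ᵥ (sJ j *ᵥ uJ j) := dotProduct_comm _ _
  have c3 : uJ j ⬝ᵥ vJ j = vJ j ⬝ᵥ uJ j := dotProduct_comm _ _
  simp only [IE, NN, add_dotProduct, smul_dotProduct, smul_eq_mul, trace_sJ, c1, c2, c3]
  ring

/-- bounds of all coefficients. -/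
structure CfAll (D : Set (ℝ × ℝ)) (C₀ : ℝ) (A B W : ℝ × ℝ × ℝ → ℝ) : Prop where
  A0 : Cf D C₀ 0 1 A
  A1 : Cf D C₀ 0 1 (pd1 A)
  A2 : Cf D C₀ 0 1 (pd2 A)
  A3 : Cf D C₀ 0 0 (pd3 A)
  B0 : Cf D C₀ 0 1 B
  B1 : Cf D C₀ 0 1 (pd1 B)
  B2 : Cf D C₀ 0 1 (pd2 B)
  B3 : Cf D C₀ 0 0 (pd3 B)
  W0 : Cf D C₀ 0 0 W
  W1 : Cf D C₀ 0 0 (pd1 W)
  W2 : Cf D C₀ 0 0 (pd2 W)
  W3 : Cf D C₀ 1 0 (pd3 W)

/-- bounds of all coefficients at a pair of points. -/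
structure CfAllP (C₀ : ℝ) (A B W : ℝ × ℝ × ℝ → ℝ) (z z' : ℝ × ℝ × ℝ) : Prop where
  A0 : CfP C₀ 0 1 A z z'
  A1 : CfP C₀ 0 1 (pd1 A) z z'
  A2 : CfP C₀ 0 1 (pd2 A) z z'
  A3 : CfP C₀ 0 0 (pd3 A) z z'
  B0 : CfP C₀ 0 1 B z z'
  B1 : CfP C₀ 0 1 (pd1 B) z z'
  B2 : CfP C₀ 0 1 (pd2 B) z z'
  B3 : CfP C₀ 0 0 (pd3 B) z z'
  W0 : CfP C₀ 0 0 W z z'
  W1 : CfP C₀ 0 0 (pd1 W) z z'
  W2 : CfP C₀ 0 0 (pd2 W) z z'
  W3 : CfP C₀ 1 0 (pd3 W) z z'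

include hε hr in
/-- **weight four estimate for `IE`**, pair version. -/
theorem est_IE_P {A B W : ℝ × ℝ × ℝ → ℝ} (h : CfAllP C₀ A B W (bJ j) (bJ j')) :
    Est (Zj j j') (Mj ε j j') 4 (10 ^ 5 * C₀) (IE A B W j) (IE A B W j') := by
  have hC := h.A0.C0
  have hZ := Zj_nonneg j j'
  have hM := Mj_nonneg hε j j'
  have cA := est_coef hε hr 1 h.A0
  have cA1 := est_coef hε hr 1 h.A1
  have cA2 := est_coef hε hr 1 h.A2
  have cA3 := est_coef hε hr 0 h.A3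
  have cB := est_coef hε hr 1 h.B0
  have cB1 := est_coef hε hr 1 h.B1
  have cB2 := est_coef hε hr 1 h.B2
  have cB3 := est_coef hε hr 0 h.B3
  have cW := est_coef hε hr 0 h.W0
  have cW1 := est_coef hε hr 0 h.W1
  have cW2 := est_coef hε hr 0 h.W2
  have eX := est_x (j := j) (j' := j') hε
  have eK := est_kJ (j := j) (j' := j') hε
  have euu := est_uu hε hr
  have evu := est_vu hε hr
  have evv := est_vv (j := j) (j' := j') hε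
  have euSu := est_uSu hε hr
  have evSu := est_vSu hε hr
  have erho := est_rho (j := j) (j' := j') hε
  have cSuu := est_cSuu hε hr h.W3
  have cSS := est_cSuSu hε hr h.W3
  rw [IE_eq, IE_eq]
  have t1 := cA.mul hZ eX
  have t2 := cA1.mul hZ euu
  have t3 := cA2.mul hZ evu
  have t4 := cA3.mul hZ (euSu.smul 2)
  have t5 := cB.mul hZ eK
  have t6 := cB1.mul hZ evu
  have t7 := cB2.mul hZ evv
  have t8 := cB3.mul hZ (evSu.smul 2)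
  have t9 := cW.mul hZ (((eX.mul hZ eX).sub erho).sub (euu.mono_k (one_le_Zj j j') hM
    (by norm_num : 2 ≤ 4)))
  have t10 := eX.mul hZ (((cW1.mul hZ euu).add (cW2.mul hZ evu)).add (cSuu.smul 2))
  have t11 := ((cW1.mul hZ euSu).add (cW2.mul hZ evSu)).add (cSS.smul 2)
  have t := ((((((t1.add ((t2.add t3).add t4)).add t5).add ((t6.add t7).add t8)).add t9).add
    t10).sub t11).neg
  refine t.mono_C hZ hM ?_
  simp only [abs_of_pos (by norm_num : (0:ℝ) < 2)]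
  nlinarith

/-- **weight four estimate for `IE`.** -/
theorem est_IE {A B W : ℝ × ℝ × ℝ → ℝ} (h : CfAll D C₀ A B W) :
    ∃ K : ℝ, 0 ≤ K ∧ ∀ (ε : ℝ) (j j' : Jet E4 H4), 0 ≤ ε → RelE ε j j' → inD D j → inD D j' →
      Est (Zj j j') (Mj ε j j') 4 K (IE A B W j) (IE A B W j') := by
  have hC := h.A0.C0
  refine ⟨10 ^ 5 * C₀, by positivity, fun ε j j' hε hr hD hD' => est_IE_P hε hr ?_⟩
  exact ⟨h.A0.pair hr hD hD', h.A1.pair hr hD hD', h.A2.pair hr hD hD', h.A3.pair hr hD hD',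
    h.B0.pair hr hD hD', h.B1.pair hr hD hD', h.B2.pair hr hD hD', h.B3.pair hr hD hD',
    h.W0.pair hr hD hD', h.W1.pair hr hD hD', h.W2.pair hr hD hD', h.W3.pair hr hD hD'⟩

/-- weight four Lipschitz condition on pairs of jets with the same `u`. -/
def LipE (D : Set (ℝ × ℝ)) (K : ℝ) (I : Jet E4 H4 → ℝ) : Prop :=
  ∀ (ε : ℝ) (j j' : Jet E4 H4), 0 ≤ ε → RelE ε j j' → inD D j → inD D j' →
    |I j - I j'| ≤ K * Lim621.Mod ε j j'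

lemma Est.lip {K a a' : ℝ} {ε : ℝ} {j j' : Jet E4 H4} (h : Est (Zj j j') (Mj ε j j') 4 K a a') :
    |a - a'| ≤ K * Lim621.Mod ε j j' := by
  have hZ := one_le_Zj j j'
  have hZ2 : 0 < Zj j j' ^ 2 := by positivity
  have h1 : |a - a'| * Zj j j' ^ 2 ≤ (K * (Mj ε j j' * Zj j j' ^ 2)) * Zj j j' ^ 2 := by
    refine h.d.trans (le_of_eq ?_)
    ring
  have h2 := le_of_mul_le_mul_right h1 hZ2
  refine h2.trans (le_of_eq ?_)
  congr 1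
  have e1 : Real.sqrt (j.W + j'.W) = Zj j j' := rfl
  rw [Lim621.Mod, Mj, e1, ← Zj_sq]
  ring

/-- **Lipschitz condition for the integrand.** -/
theorem lip_IE {D : Set (ℝ × ℝ)} {C₀ : ℝ} {A B W : ℝ × ℝ × ℝ → ℝ} (h : CfAll D C₀ A B W) :
    ∃ K : ℝ, 0 ≤ K ∧ LipE D K (IE A B W) := by
  obtain ⟨K, hK, h1⟩ := est_IE h
  exact ⟨K, hK, fun ε j j' hε hr hD hD' => (h1 ε j j' hε hr hD hD').lip⟩

end Crest.Agent.R249.Eta467
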