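import Crest.Agent.R249.Eta3_467

/-!
# R249 (helper467), A2-ETA part 3b: change of the traces

`shT α β j` : the traces `P.1`, `Q.1` are changed by `α`, `β`; `IE_shT` exact formula; `tr_IE` bound.
-/

set_option autoImplicit false
set_option linter.unusedVariables false
set_option linter.unusedSectionVars false

open MeasureTheory Set Filter Topology Matrix
open scoped ContDiff

noncomputable section

namespace Crest.Agent.R249.Eta467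

open Calc_806 Calc_806.Calc DivC467 Lim621

attribute [local instance] Matrix.frobeniusNormedAddCommGroup Matrix.frobeniusNormedSpace

/-- change of the traces. -/
def shT (α β : ℝ) (j : Jet E4 H4) : Jet E4 H4 where
  f := j.f
  g := j.g
  p := j.p
  q := j.q
  P := (j.P.1 + α, j.P.2)
  Q := (j.Q.1 + β, j.Q.2)

lemma xJ_shT (α β : ℝ) (j : Jet E4 H4) : xJ (shT α β j) = xJ j + (α - β) := by
  simp only [xJ, shT]; ring

lemma kJ_shT (α β : ℝ) (j : Jet E4 H4) : kJ (shT α β j) = kJ j + (α + β) / 2 := by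
  simp only [kJ, shT]; ring

lemma sJ_shT (α β : ℝ) (j : Jet E4 H4) :
    sJ (shT α β j) = sJ j + ((α - β) / 4) • (1 : Matrix (Fin 4) (Fin 4) ℝ) := by
  rw [sJ, sJ, xJ_shT]
  have h : (shT α β j).P.2 = j.P.2 := rfl
  rw [h, add_assoc, ← add_smul]
  congr 2
  ring

/-- **exact change of the integrand** under a change of the traces. -/
theorem IE_shT (A B W : ℝ × ℝ × ℝ → ℝ) (α β : ℝ) (j : Jet E4 H4) :
    IE A B W (shT α β j) = IE A B W j - (B (bJ j) * ((α + β) / 2) + (α - β) / 4 *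
      (4 * A (bJ j) + 2 * (pd3 A (bJ j) * (uJ j ⬝ᵥ uJ j)) + 2 * (pd3 B (bJ j) * (vJ j ⬝ᵥ uJ j)) +
        6 * (W (bJ j) * xJ j) + 12 * (W (bJ j) * ((α - β) / 4)) +
        3 * (pd1 W (bJ j) * (uJ j ⬝ᵥ uJ j) + pd2 W (bJ j) * (vJ j ⬝ᵥ uJ j)) +
        2 * (pd3 W (bJ j) * (uJ j ⬝ᵥ uJ j) * (xJ j + 3 * ((α - β) / 4))) +
        4 * (pd3 W (bJ j) * (uJ j ⬝ᵥ (sJ j *ᵥ uJ j))))) := by
  have hb : bJ (shT α β j) = bJ j := rfl
  have hu : uJ (shT α β j) = uJ j := rfl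
  have hv : vJ (shT α β j) = vJ j := rfl
  set t : ℝ := (α - β) / 4 with ht
  have hSu : sJ (shT α β j) *ᵥ uJ j = sJ j *ᵥ uJ j + t • uJ j := by
    rw [sJ_shT, Matrix.add_mulVec, Matrix.smul_mulVec, Matrix.one_mulVec]
  have hρ : ∑ a, ∑ b, sJ (shT α β j) a b ^ 2 =
      ∑ a, ∑ b, sJ j a b ^ 2 + 2 * t * xJ j + 4 * t ^ 2 := by
    have e1 : ∀ a b, sJ (shT α β j) a b ^ 2 = sJ j a b ^ 2 +
        (if a = b then (2 * t * sJ j a b + t ^ 2) else 0) := by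
      intro a b
      rw [sJ_shT, ← ht, Matrix.add_apply, Matrix.smul_apply, smul_eq_mul]
      by_cases h : a = b
      · rw [if_pos h, h, Matrix.one_apply_eq]; ring
      · rw [if_neg h, Matrix.one_apply_ne h]; ring
    have e2 : ∀ a, ∑ b, sJ (shT α β j) a b ^ 2 = ∑ b, sJ j a b ^ 2 +
        (2 * t * sJ j a a + t ^ 2) := by
      intro a
      simp only [e1, Finset.sum_add_distrib, Finset.sum_ite_eq, Finset.mem_univ, if_true]
    have e3 : ∑ a, sJ j a a = xJ j := trace_sJ j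
    simp only [e2, Finset.sum_add_distrib, ← Finset.mul_sum, e3]
    simp only [Finset.sum_const, Finset.card_univ, Fintype.card_fin, nsmul_eq_mul]
    push_cast
    ring
  have hα : α - β = 4 * t := by rw [ht]; ring
  rw [IE_eq, IE_eq, hb, hu, hv, xJ_shT, kJ_shT, hSu, hρ, hα]
  simp only [dotProduct_add, add_dotProduct, dotProduct_smul, smul_dotProduct, smul_eq_mul]
  have c1 : (sJ j *ᵥ uJ j) ⬝ᵥ uJ j = uJ j ⬝ᵥ (sJ j *ᵥ uJ j) := dotProduct_comm _ _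
  rw [c1]
  ring

/-- weight of a jet without the Hessian. -/
def Nj (j : Jet E4 H4) : ℝ := 1 + ‖j.p‖ ^ 2 + ‖j.q‖ ^ 2 + |j.P.1| + |j.Q.1|

lemma uu_norm (j : Jet E4 H4) : uJ j ⬝ᵥ uJ j = ‖j.p - j.q‖ ^ 2 := by
  rw [EuclideanSpace.norm_sq_eq, uJ]
  simp only [dotProduct, Real.norm_eq_abs, sq_abs]
  exact Finset.sum_congr rfl fun i _ => by ring

lemma uu_le_Nj (j : Jet E4 H4) : 1 + uJ j ⬝ᵥ uJ j ≤ 2 * Nj j := by
  rw [uu_norm, Nj]
  have h1 := norm_sub_le j.p j.q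
  have h2 : ‖j.p - j.q‖ ^ 2 ≤ (‖j.p‖ + ‖j.q‖) ^ 2 := pow_le_pow_left₀ (norm_nonneg _) h1 2
  nlinarith [sq_nonneg (‖j.p‖ - ‖j.q‖), abs_nonneg j.P.1, abs_nonneg j.Q.1]

lemma abs_vu_le_Nj (j : Jet E4 H4) : |vJ j ⬝ᵥ uJ j| ≤ Nj j := by
  have e : vJ j ⬝ᵥ uJ j = 1 / 2 * (‖j.p‖ ^ 2 - ‖j.q‖ ^ 2) := by
    rw [EuclideanSpace.norm_sq_eq, EuclideanSpace.norm_sq_eq, uJ, vJ]
    simp only [dotProduct, Real.norm_eq_abs, sq_abs, Pi.smul_apply, smul_eq_mul,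
      WithLp.ofLp_add, WithLp.ofLp_sub, Pi.add_apply, Pi.sub_apply]
    rw [← Finset.sum_sub_distrib, Finset.mul_sum]
    exact Finset.sum_congr rfl fun i _ => by ring
  rw [e, Nj, abs_le]
  have := abs_nonneg j.P.1
  have := abs_nonneg j.Q.1
  constructor <;> nlinarith [sq_nonneg ‖j.p‖, sq_nonneg ‖j.q‖]

lemma abs_xJ_le_Nj (j : Jet E4 H4) : |xJ j| ≤ Nj j := by
  have h1 : |xJ j| ≤ |j.P.1| + |j.Q.1| := abs_sub _ _
  rw [Nj]
  nlinarith [sq_nonneg ‖j.p‖, sq_nonneg ‖j.q‖]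

lemma one_le_Nj (j : Jet E4 H4) : 1 ≤ Nj j := by
  rw [Nj]
  nlinarith [sq_nonneg ‖j.p‖, sq_nonneg ‖j.q‖, abs_nonneg j.P.1, abs_nonneg j.Q.1]

/-- **bound of the change of the integrand** under a change of the traces. -/
theorem tr_IE {D : Set (ℝ × ℝ)} {C₀ : ℝ} {A B W : ℝ × ℝ × ℝ → ℝ} (h : CfAll D C₀ A B W)
    (α β : ℝ) (j : Jet E4 H4) (hj : inD D j) :
    |IE A B W (shT α β j) - IE A B W j| ≤
      10 * C₀ * ((|α| + |β|) * (Nj j + (|α| + |β|))) +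
      |α - β| * |pd3 W (bJ j) * (uJ j ⬝ᵥ (sJ j *ᵥ uJ j))| := by
  have hC := h.A0.C0
  have hG := uu_nonneg j
  have hN := one_le_Nj j
  have h1G := uu_le_Nj j
  have hvu := abs_vu_le_Nj j
  have hx := abs_xJ_le_Nj j
  have bA : |A (bJ j)| ≤ C₀ * (2 * Nj j) := by
    have := h.A0.b _ _ _ hj hG
    rw [pow_zero, mul_one, pow_one] at this
    exact this.trans (mul_le_mul_of_nonneg_left h1G hC)
  have bB : |B (bJ j)| ≤ C₀ * (2 * Nj j) := by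
    have := h.B0.b _ _ _ hj hG
    rw [pow_zero, mul_one, pow_one] at this
    exact this.trans (mul_le_mul_of_nonneg_left h1G hC)
  have b0 : ∀ {c : ℝ × ℝ × ℝ → ℝ}, Cf D C₀ 0 0 c → |c (bJ j)| ≤ C₀ := by
    intro c hc
    have := hc.b _ _ _ hj hG
    rwa [pow_zero, mul_one, mul_one] at this
  have bA3 := b0 h.A3
  have bB3 := b0 h.B3
  have bW := b0 h.W0
  have bW1 := b0 h.W1
  have bW2 := b0 h.W2
  have bW3 : |pd3 W (bJ j) * (uJ j ⬝ᵥ uJ j)| ≤ C₀ := by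
    have := h.W3.b _ _ _ hj hG
    rw [pow_one, pow_zero, mul_one] at this
    rw [abs_mul, abs_of_nonneg hG]
    refine le_trans ?_ this
    exact mul_le_mul_of_nonneg_left (by linarith) (abs_nonneg _)
  set a : ℝ := |α| + |β| with ha
  have ha0 : 0 ≤ a := by positivity
  have ht : |(α - β) / 4| ≤ a / 4 := by
    rw [abs_div, abs_of_pos (by norm_num : (0:ℝ) < 4)]
    have := abs_sub α β
    linarith
  have hab : |(α + β) / 2| ≤ a / 2 := by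
    rw [abs_div, abs_of_pos (by norm_num : (0:ℝ) < 2)]
    have := abs_add_le α β
    linarith
  have hG2 : |uJ j ⬝ᵥ uJ j| ≤ 2 * Nj j := by rw [abs_of_nonneg hG]; linarith
  have prod : ∀ {x y p q : ℝ}, |x| ≤ p → |y| ≤ q → |x * y| ≤ p * q := by
    intro x y p q hx hy
    rw [abs_mul]
    exact mul_le_mul hx hy (abs_nonneg _) ((abs_nonneg _).trans hx)
  set t : ℝ := (α - β) / 4 with htd
  have e1 : IE A B W (shT α β j) - IE A B W j = -(B (bJ j) * ((α + β) / 2)) - t *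
      (4 * A (bJ j) + 2 * (pd3 A (bJ j) * (uJ j ⬝ᵥ uJ j)) + 2 * (pd3 B (bJ j) * (vJ j ⬝ᵥ uJ j)) +
        6 * (W (bJ j) * xJ j) + 12 * (W (bJ j) * t) +
        3 * (pd1 W (bJ j) * (uJ j ⬝ᵥ uJ j) + pd2 W (bJ j) * (vJ j ⬝ᵥ uJ j)) +
        2 * (pd3 W (bJ j) * (uJ j ⬝ᵥ uJ j) * (xJ j + 3 * t))) -
        (α - β) * (pd3 W (bJ j) * (uJ j ⬝ᵥ (sJ j *ᵥ uJ j))) := by
    rw [IE_shT, ← htd]
    have : α - β = 4 * t := by rw [htd]; ring
    rw [this]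
    ring
  have p1 := prod bB hab
  have p2 := prod bA3 hG2
  have p3 := prod bB3 hvu
  have p4 := prod bW hx
  have p5 := prod bW ht
  have p6 := prod bW1 hG2
  have p7 := prod bW2 hvu
  have p8 : |xJ j + 3 * t| ≤ Nj j + 3 * (a / 4) := by
    have := abs_add_le (xJ j) (3 * t)
    rw [abs_mul, abs_of_pos (by norm_num : (0:ℝ) < 3)] at this
    linarith
  have p9 := prod bW3 p8
  have q : |4 * A (bJ j) + 2 * (pd3 A (bJ j) * (uJ j ⬝ᵥ uJ j)) + 2 * (pd3 B (bJ j) * (vJ j ⬝ᵥ uJ j)) +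
        6 * (W (bJ j) * xJ j) + 12 * (W (bJ j) * t) +
        3 * (pd1 W (bJ j) * (uJ j ⬝ᵥ uJ j) + pd2 W (bJ j) * (vJ j ⬝ᵥ uJ j)) +
        2 * (pd3 W (bJ j) * (uJ j ⬝ᵥ uJ j) * (xJ j + 3 * t))| ≤ C₀ * (32 * Nj j + 5 * a) := by
    rw [abs_le] at bA p2 p3 p4 p5 p6 p7 p9 ⊢
    have hCN : 0 ≤ C₀ * Nj j := mul_nonneg hC (by linarith)
    have hCa : 0 ≤ C₀ * a := mul_nonneg hC ha0
    obtain ⟨x1, y1⟩ := bA
    obtain ⟨x2, y2⟩ := p2
    obtain ⟨x3, y3⟩ := p3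
    obtain ⟨x4, y4⟩ := p4
    obtain ⟨x5, y5⟩ := p5
    obtain ⟨x6, y6⟩ := p6
    obtain ⟨x7, y7⟩ := p7
    obtain ⟨x9, y9⟩ := p9
    clear bB bA3 bB3 bW bW1 bW2 bW3 p1 p8 prod
    constructor <;> linarith
  have p10 := prod ht q
  have e2 : |(α - β) * (pd3 W (bJ j) * (uJ j ⬝ᵥ (sJ j *ᵥ uJ j)))| =
      |α - β| * |pd3 W (bJ j) * (uJ j ⬝ᵥ (sJ j *ᵥ uJ j))| := abs_mul _ _
  rw [← e2]
  generalize (α - β) * (pd3 W (bJ j) * (uJ j ⬝ᵥ (sJ j *ᵥ uJ j))) = Y at *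
  rw [e1]
  have hCN : 0 ≤ C₀ * a * Nj j := mul_nonneg (mul_nonneg hC ha0) (by linarith)
  have hCa : 0 ≤ C₀ * a * a := mul_nonneg (mul_nonneg hC ha0) ha0
  have h3 := abs_le.1 p1
  have h4 := abs_le.1 p10
  have h5 := abs_le.1 (le_refl |Y|)
  obtain ⟨x3, y3⟩ := h3
  obtain ⟨x4, y4⟩ := h4
  obtain ⟨x5, y5⟩ := h5
  clear bA bB bA3 bB3 bW bW1 bW2 bW3 p1 p2 p3 p4 p5 p6 p7 p8 p9 p10 q prod e1 e2
  rw [abs_le]
  constructor <;> linarith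

end Crest.Agent.R249.Eta467
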