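import Crest.Agent.R247.Frd2_657

/-!
Row 249, part D, leaf D3-LIM/L-EUC (helper330), file 1: the commutator lemma
(Constantin-E-Titi): if `m` is divergence free, `m`, `k` are Hölder with exponent `a > 1/2` on
compact sets and `div (k m) = p` weakly with `p ∈ L²_loc`, then `k` has weak derivatives
`m⁻¹ p`; and the limit energy identity.
-/

set_option autoImplicit false
open scoped ContDiff ENNReal Topology
open MeasureTheory Set Filter
open Crest.GeometryTopology.CoordMetric
open Crest.Agent.R202.Ell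
open Crest.Agent.R247.Frd657

namespace Crest.Agent.R249.Euc330

noncomputable section

variable {n : ℕ}

/-! ### the mollifier -/

theorem tsupport_rho (j : ℕ) : tsupport (rho n j) ⊆ Metric.closedBall 0 (1 / ((j : ℝ) + 1)) := by
  have h : tsupport (rho n j) = Metric.closedBall 0 (1 / ((j : ℝ) + 1)) := by
    rw [rho, ContDiffBump.tsupport_normed_eq]
    rfl
  exact h.subset

theorem tsupport_shift (j : ℕ) (x : EE n) :
    tsupport (fun t => rho n j (x - t)) ⊆ Metric.closedBall x (1 / ((j : ℝ) + 1)) := by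
  apply closure_minimal _ Metric.isClosed_closedBall
  intro t ht
  have h1 : x - t ∈ tsupport (rho n j) := subset_tsupport _ ht
  have h2 := tsupport_rho j h1
  rw [Metric.mem_closedBall, dist_zero_right] at h2
  rw [Metric.mem_closedBall, dist_comm, dist_eq_norm]
  exact h2

theorem pderiv_shift (j : ℕ) (x : EE n) (d : Fin n) (t : EE n) :
    pderiv d (fun t => rho n j (x - t)) t = - pderiv d (rho n j) (x - t) :=
  pderiv_comp_sub d x t ((rho_test j).smooth.differentiable (by simp) _)

theorem dshift_zero (j : ℕ) {x t : EE n} (d : Fin n)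
    (ht : t ∉ Metric.closedBall x (1 / ((j : ℝ) + 1))) : pderiv d (rho n j) (x - t) = 0 := by
  have h1 : x - t ∉ tsupport (pderiv d (rho n j)) := by
    intro h
    have h2 := tsupport_rho j (tsupport_pderiv _ d h)
    rw [Metric.mem_closedBall, dist_zero_right] at h2
    apply ht
    rw [Metric.mem_closedBall, dist_comm, dist_eq_norm]
    exact h2
  exact image_eq_zero_of_notMem_tsupport h1

theorem integral_pderiv {φ : EE n → ℝ} (hφ : IsTest φ) (d : Fin n) : ∫ x, pderiv d φ x = 0 := by
  have h := WD.of_smooth (n := n) (i := d) (f := fun _ => (1 : ℝ)) contDiff_const φ hφ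
  have h2 : ∀ x, pderiv d (fun _ : EE n => (1 : ℝ)) x = 0 := by
    intro x
    unfold Crest.GeometryTopology.CoordMetric.pderiv
    simp
  simp only [one_mul, h2, zero_mul, integral_zero, neg_zero] at h
  exact h

theorem integral_dshift (j : ℕ) (x : EE n) (d : Fin n) :
    ∫ t, pderiv d (rho n j) (x - t) = 0 := by
  rw [integral_sub_left_eq_self (fun z => pderiv d (rho n j) z) volume x]
  exact integral_pderiv (rho_test j) d

theorem integral_kerK_le (j : ℕ) (l : Fin n) : ∫ z, ‖kerK n j l z‖ ≤ cK n := by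
  have h := kerK_lintegral (n := n) j l
  rw [← ofReal_integral_norm_eq_lintegral_enorm (kerK_int j l)] at h
  exact (ENNReal.ofReal_le_ofReal_iff (cK_nonneg n)).1 h

/-- test function `∂_d ρ_j (x - ·)` -/
theorem dshift_test (j : ℕ) (x : EE n) (d : Fin n) :
    IsTest (fun t => pderiv d (rho n j) (x - t)) := ((rho_test j).pderiv d).comp_sub x

theorem dshift_tsupport (j : ℕ) (x : EE n) (d : Fin n) :
    tsupport (fun t => pderiv d (rho n j) (x - t)) ⊆ Metric.closedBall x (1 / ((j : ℝ) + 1)) := by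
  apply closure_minimal _ Metric.isClosed_closedBall
  intro t ht
  by_contra h
  exact ht (dshift_zero j d h)

/-! ### the commutator -/

theorem comm_le {Ω K' : Set (EE n)} (hK' : K' ⊆ Ω) {m : Fin n → EE n → ℝ} {k p : EE n → ℝ}
    (hm : ∀ d, ContinuousOn (m d) Ω) (hk : ContinuousOn k Ω) 
    {C a : ℝ} (hC : 0 ≤ C) (ha : 1 < 2 * a)
    (hHm : ∀ d, ∀ x ∈ K', ∀ y ∈ K', |m d x - m d y| ≤ C * ‖x - y‖ ^ a)
    (hHk : ∀ x ∈ K', ∀ y ∈ K', |k x - k y| ≤ C * ‖x - y‖ ^ a)
    (hdiv : ∀ φ, IsTest φ → tsupport φ ⊆ Ω → ∫ x, ∑ d, m d x * pderiv d φ x = 0)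
    (hP : ∀ φ, IsTest φ → tsupport φ ⊆ Ω →
      ∫ x, k x * ∑ d, m d x * pderiv d φ x = - ∫ x, p x * φ x)
    (j : ℕ) {x : EE n} (hx : Metric.closedBall x (1 / ((j : ℝ) + 1)) ⊆ K') :
    |∑ d, m d x * (∫ t, k t * pderiv d (rho n j) (x - t)) - ∫ t, p t * rho n j (x - t)|
      ≤ C ^ 2 * (1 / ((j : ℝ) + 1)) ^ (2 * a - 1) * ((n : ℝ) * cK n) := by
  set ε : ℝ := 1 / ((j : ℝ) + 1) with hε
  have hε0 : 0 < ε := by rw [hε]; positivity
  have hxK : x ∈ K' := hx (Metric.mem_closedBall_self hε0.le)
  set D : Fin n → EE n → ℝ := fun d t => pderiv d (rho n j) (x - t) with hD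
  have hφ : IsTest (fun t => rho n j (x - t)) := (rho_test j).comp_sub x
  have hφs : tsupport (fun t => rho n j (x - t)) ⊆ Ω := (tsupport_shift j x).trans (hx.trans hK')
  have hDt : ∀ d, IsTest (D d) := fun d => dshift_test j x d
  have hDs : ∀ d, tsupport (D d) ⊆ Ω := fun d => (dshift_tsupport j x d).trans (hx.trans hK')
  have e0 : ∀ d t, pderiv d (fun t => rho n j (x - t)) t = - D d t := fun d t => pderiv_shift j x d t
  have e1 : ∫ t, ∑ d, m d t * D d t = 0 := by
    have h := hdiv _ hφ hφs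
    simp only [e0, mul_neg, Finset.sum_neg_distrib, integral_neg] at h
    linarith
  have e2 : ∫ t, k t * ∑ d, m d t * D d t = ∫ t, p t * rho n j (x - t) := by
    have h := hP _ hφ hφs
    simp only [e0, mul_neg, Finset.sum_neg_distrib, integral_neg] at h
    linarith
  have e3 : ∀ d, ∫ t, D d t = 0 := fun d => integral_dshift j x d
  -- integrability
  have i1 : ∀ d, Integrable (fun t => k t * D d t) := fun d =>
    (L2On.of_continuousOn hk).int_test (hDt d).continuous (hDt d).cpt (hDs d)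
  have i2 : ∀ d, Integrable (fun t => m d t * D d t) := fun d =>
    (L2On.of_continuousOn (hm d)).int_test (hDt d).continuous (hDt d).cpt (hDs d)
  have i3 : ∀ d, Integrable (fun t => (k t * m d t) * D d t) := fun d =>
    (L2On.of_continuousOn (hk.mul (hm d))).int_test (hDt d).continuous (hDt d).cpt (hDs d)
  have i4 : ∀ d, Integrable (D d) := fun d => (hDt d).integrable
  have hI : ∑ d, m d x * (∫ t, k t * D d t) - ∫ t, p t * rho n j (x - t)
      = ∫ t, ∑ d, (m d x - m d t) * (k t - k x) * D d t := by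
    have h1 : ∀ t, ∑ d, (m d x - m d t) * (k t - k x) * D d t
        = (∑ d, m d x * (k t * D d t)) - (k t * ∑ d, m d t * D d t)
          - (∑ d, (k x * m d x) * D d t) + k x * ∑ d, m d t * D d t := by
      intro t
      rw [Finset.mul_sum, Finset.mul_sum, ← Finset.sum_sub_distrib, ← Finset.sum_sub_distrib,
        ← Finset.sum_add_distrib]
      refine Finset.sum_congr rfl fun d _ => ?_
      ring
    have j1 : Integrable (fun t => ∑ d, m d x * (k t * D d t)) :=
      integrable_finsetSum _ fun d _ => (i1 d).const_mul _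
    have j2 : Integrable (fun t => k t * ∑ d, m d t * D d t) := by
      have : (fun t => k t * ∑ d, m d t * D d t) = fun t => ∑ d, (k t * m d t) * D d t := by
        ext t
        rw [Finset.mul_sum]
        refine Finset.sum_congr rfl fun d _ => ?_
        ring
      rw [this]
      exact integrable_finsetSum _ fun d _ => i3 d
    have j3 : Integrable (fun t => ∑ d, (k x * m d x) * D d t) :=
      integrable_finsetSum _ fun d _ => (i4 d).const_mul _
    have j4 : Integrable (fun t => ∑ d, m d t * D d t) :=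
      integrable_finsetSum _ fun d _ => i2 d
    simp only [h1]
    have j12 : Integrable (fun t => (∑ d, m d x * (k t * D d t)) - k t * ∑ d, m d t * D d t) :=
      j1.sub j2
    have j123 : Integrable (fun t => (∑ d, m d x * (k t * D d t)) - (k t * ∑ d, m d t * D d t)
        - ∑ d, (k x * m d x) * D d t) := j12.sub j3
    rw [integral_add j123 (j4.const_mul _), integral_sub j12 j3,
      integral_sub j1 j2, integral_const_mul, e1, e2,
      integral_finsetSum _ fun d _ => (i1 d).const_mul _,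
      integral_finsetSum _ fun d _ => (i4 d).const_mul _]
    simp only [integral_const_mul, e3, mul_zero, Finset.sum_const_zero, sub_zero, add_zero]
  rw [hI]
  -- the bound
  have hb : ∀ t, ‖∑ d, (m d x - m d t) * (k t - k x) * D d t‖
      ≤ ∑ d : Fin n, C ^ 2 * ε ^ (2 * a - 1) * ‖kerK n j d (x - t)‖ := by
    intro t
    refine (norm_sum_le _ _).trans (Finset.sum_le_sum fun d _ => ?_)
    by_cases ht : t ∈ Metric.closedBall x ε
    · have htK : t ∈ K' := hx ht
      have h1 := hHm d x hxK t htK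
      have h2 := hHk t htK x hxK
      rw [norm_sub_rev t x] at h2
      have h3 : ‖x - t‖ ≤ ε := by
        rw [Metric.mem_closedBall, dist_comm, dist_eq_norm] at ht; exact ht
      have h4 : ‖x - t‖ ^ a * ‖x - t‖ ^ a ≤ ε ^ (2 * a - 1) * ‖x - t‖ := by
        rcases eq_or_lt_of_le (norm_nonneg (x - t)) with h0 | h0
        · rw [← h0, Real.zero_rpow (by linarith), mul_zero, mul_zero]
        · have h5 : ‖x - t‖ ^ a * ‖x - t‖ ^ a = ‖x - t‖ ^ (2 * a - 1) * ‖x - t‖ := by
            rw [← Real.rpow_add h0]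
            nth_rewrite 3 [← Real.rpow_one ‖x - t‖]
            rw [← Real.rpow_add h0]
            congr 1; ring
          rw [h5]
          exact mul_le_mul_of_nonneg_right
            (Real.rpow_le_rpow h0.le h3 (by linarith)) h0.le
      rw [norm_mul, norm_mul, Real.norm_eq_abs, Real.norm_eq_abs]
      have h6 : ‖kerK n j d (x - t)‖ = ‖x - t‖ * ‖D d t‖ := by
        rw [kerK, norm_mul, norm_norm]
      rw [h6]
      have h7 : |m d x - m d t| * |k t - k x| ≤ C ^ 2 * ε ^ (2 * a - 1) * ‖x - t‖ := by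
        calc |m d x - m d t| * |k t - k x| ≤ (C * ‖x - t‖ ^ a) * (C * ‖x - t‖ ^ a) :=
              mul_le_mul h1 h2 (abs_nonneg _) (by positivity)
          _ = C ^ 2 * (‖x - t‖ ^ a * ‖x - t‖ ^ a) := by ring
          _ ≤ C ^ 2 * (ε ^ (2 * a - 1) * ‖x - t‖) := by gcongr
          _ = _ := by ring
      calc |m d x - m d t| * |k t - k x| * ‖D d t‖
          ≤ (C ^ 2 * ε ^ (2 * a - 1) * ‖x - t‖) * ‖D d t‖ :=
            mul_le_mul_of_nonneg_right h7 (norm_nonneg _)
        _ = _ := by ring
    · have h0 : D d t = 0 := dshift_zero j d ht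
      rw [h0, mul_zero, norm_zero]
      positivity
  have hker : ∀ d : Fin n, Integrable (fun t => ‖kerK n j d (x - t)‖) := fun d =>
    ((kerK_int j d).comp_sub_left x).norm
  have hi : Integrable (fun t => ∑ d : Fin n, C ^ 2 * ε ^ (2 * a - 1) * ‖kerK n j d (x - t)‖) :=
    integrable_finsetSum _ fun d _ => (hker d).const_mul _
  have h8 := norm_integral_le_of_norm_le hi (Eventually.of_forall hb)
  rw [Real.norm_eq_abs] at h8
  refine h8.trans ?_
  rw [integral_finsetSum _ fun d _ => (hker d).const_mul _]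
  simp only [integral_const_mul]
  have h9 : ∀ d : Fin n, ∫ t, ‖kerK n j d (x - t)‖ ≤ cK n := by
    intro d
    rw [integral_sub_left_eq_self (fun z => ‖kerK n j d z‖) volume x]
    exact integral_kerK_le j d
  have hc0 : 0 ≤ C ^ 2 * ε ^ (2 * a - 1) := by positivity
  calc ∑ d : Fin n, C ^ 2 * ε ^ (2 * a - 1) * ∫ t, ‖kerK n j d (x - t)‖
      ≤ ∑ _d : Fin n, C ^ 2 * ε ^ (2 * a - 1) * cK n :=
        Finset.sum_le_sum fun d _ => mul_le_mul_of_nonneg_left (h9 d) hc0
    _ = C ^ 2 * ε ^ (2 * a - 1) * ((n : ℝ) * cK n) := by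
        rw [Finset.sum_const, Finset.card_univ, Fintype.card_fin, nsmul_eq_mul]; ring

/-! ### `L²` pairing with mollifications -/

theorem tendsto_int_cv {g ψ : EE n → ℝ} (hg : MemLp g 2) (hψ : MemLp ψ 2) :
    Tendsto (fun j => ∫ x, cv (rho n j) g x * ψ x) atTop (𝓝 (∫ x, g x * ψ x)) := by
  have h1 : ∀ j, MemLp (cv (rho n j) g) 2 := fun j => memLp_cv (rho_test j) hg
  have h2 : ∀ j, MemLp (fun x => cv (rho n j) g x - g x) 2 := fun j => memLp_sub' (h1 j) hg
  have h3 : ∀ j, |(∫ x, cv (rho n j) g x * ψ x) - ∫ x, g x * ψ x|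
      ≤ nm (fun x => cv (rho n j) g x - g x) * nm ψ := by
    intro j
    have h4 := abs_integral_mul_le (h2 j) hψ
    have h5 : ∫ x, (cv (rho n j) g x - g x) * ψ x
        = (∫ x, cv (rho n j) g x * ψ x) - ∫ x, g x * ψ x := by
      simp only [sub_mul]
      rw [integral_sub (integrable_mul (h1 j) hψ) (integrable_mul hg hψ)]
    rw [h5] at h4
    exact h4
  rw [tendsto_iff_norm_sub_tendsto_zero]
  have h6 : Tendsto (fun j => nm (fun x => cv (rho n j) g x - g x) * nm ψ) atTop (𝓝 0) := by
    have := (tendsto_nm_cv hg).mul_const (nm ψ)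
    rwa [zero_mul] at this
  exact squeeze_zero (fun _ => norm_nonneg _) (fun j => by
    rw [Real.norm_eq_abs]; exact h3 j) h6

/-- Hölder condition on compact subsets. -/
def HolOn (Ω : Set (EE n)) (a : ℝ) (f : EE n → ℝ) : Prop :=
  ∀ K, K ⊆ Ω → IsCompact K → ∃ C, ∀ x ∈ K, ∀ y ∈ K, |f x - f y| ≤ C * ‖x - y‖ ^ a

/-- **Commutator lemma.** -/
theorem wdOn_of_div {Ω : Set (EE n)} (hΩ : IsOpen Ω) {m w : Fin n → Fin n → EE n → ℝ}
    {k : EE n → ℝ} {p : Fin n → EE n → ℝ} {a : ℝ} (ha : 1 / 2 < a)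
    (hm : ∀ d c, ContinuousOn (m d c) Ω) (hk : ContinuousOn k Ω) (hp : ∀ c, L2On Ω (p c))
    (hHm : ∀ d c, HolOn Ω a (m d c)) (hHk : HolOn Ω a k)
    (hdiv : ∀ c φ, IsTest φ → tsupport φ ⊆ Ω → ∫ x, ∑ d, m d c x * pderiv d φ x = 0)
    (hP : ∀ c φ, IsTest φ → tsupport φ ⊆ Ω →
      ∫ x, k x * ∑ d, m d c x * pderiv d φ x = - ∫ x, p c x * φ x)
    (hw : ∀ e c, ContinuousOn (w e c) Ω)
    (hwm : ∀ x ∈ Ω, ∀ e d, ∑ c, w e c x * m d c x = if d = e then 1 else 0) (e : Fin n) :
    WDOn Ω e k (fun x => ∑ c, w e c x * p c x) := by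
  intro φ hφ hφΩ
  set K := tsupport φ with hKdef
  have hK : IsCompact K := hφ.cpt
  obtain ⟨δ, hδ, hδΩ⟩ := hK.exists_cthickening_subset_open hΩ hφΩ
  set K' := Metric.cthickening δ K with hK'def
  have hK' : IsCompact K' := hK.cthickening
  have hKK' : K ⊆ K' := Metric.self_subset_cthickening K
  obtain ⟨θ, hθ, hθΩ, -, hθ1, -⟩ := exists_cutoff hK' hΩ hδΩ
  -- Hölder constants
  choose Cm hCm using fun d c => hHm d c K' hδΩ hK'
  obtain ⟨Ck, hCk⟩ := hHk K' hδΩ hK'
  set C : ℝ := |Ck| + ∑ d, ∑ c, |Cm d c| with hCdef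
  have hC0 : 0 ≤ C := add_nonneg (abs_nonneg _)
    (Finset.sum_nonneg fun d _ => Finset.sum_nonneg fun c _ => abs_nonneg _)
  have hCk' : ∀ x ∈ K', ∀ y ∈ K', |k x - k y| ≤ C * ‖x - y‖ ^ a := by
    intro x hx y hy
    refine (hCk x hx y hy).trans (mul_le_mul_of_nonneg_right ?_ (by positivity))
    have : (0 : ℝ) ≤ ∑ d, ∑ c, |Cm d c| :=
      Finset.sum_nonneg fun d _ => Finset.sum_nonneg fun c _ => abs_nonneg _
    linarith [le_abs_self Ck]
  have hCm' : ∀ d c, ∀ x ∈ K', ∀ y ∈ K', |m d c x - m d c y| ≤ C * ‖x - y‖ ^ a := by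
    intro d c x hx y hy
    refine (hCm d c x hx y hy).trans (mul_le_mul_of_nonneg_right ?_ (by positivity))
    have h1 : |Cm d c| ≤ ∑ c, |Cm d c| :=
      Finset.single_le_sum (f := fun c => |Cm d c|) (fun _ _ => abs_nonneg _) (Finset.mem_univ c)
    have h2 : ∑ c, |Cm d c| ≤ ∑ d, ∑ c, |Cm d c| :=
      Finset.single_le_sum (f := fun d => ∑ c, |Cm d c|)
        (fun _ _ => Finset.sum_nonneg fun _ _ => abs_nonneg _) (Finset.mem_univ d)
    linarith [le_abs_self (Cm d c), abs_nonneg Ck]
  -- localised functions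
  have hk2 : MemLp (fun x => θ x * k x) 2 :=
    (L2On.of_continuousOn hk).mul_test hθ.continuous hθ.cpt hθΩ
  have hp2 : ∀ c, MemLp (fun x => θ x * p c x) 2 := fun c =>
    (hp c).mul_test hθ.continuous hθ.cpt hθΩ
  have hkl : LocallyIntegrable (fun x => θ x * k x) := MemLp.locInt hk2
  set u : ℕ → EE n → ℝ := fun j => cv (rho n j) (fun x => θ x * k x) with hu
  have husm : ∀ j, ContDiff ℝ ∞ (u j) := fun j => cv_smooth (rho_test j) hkl
  -- the weights
  set ψ : Fin n → EE n → ℝ := fun c x => w e c x * φ x with hψ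
  have hψ2 : ∀ c, MemLp (ψ c) 2 := by
    intro c
    have := (L2On.of_continuousOn (hw e c)).mul_test hφ.continuous hφ.cpt hφΩ
    refine this.ae_eq (Eventually.of_forall fun x => ?_)
    simp only [hψ]; ring
  have hψi : ∀ c, Integrable (ψ c) := fun c =>
    (L2On.of_continuousOn (hw e c)).int_test hφ.continuous hφ.cpt hφΩ
  -- pointwise identity on `K`
  set M : ℕ → ℝ := fun j => C ^ 2 * (1 / ((j : ℝ) + 1)) ^ (2 * a - 1) * ((n : ℝ) * cK n) with hM
  set R : ℕ → EE n → ℝ := fun j x => pderiv e (u j) x * φ x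
      - ∑ c, cv (rho n j) (fun x => θ x * p c x) x * ψ c x with hR
  obtain ⟨J, hJ⟩ := exists_nat_one_div_lt hδ
  have hball : ∀ j, J ≤ j → ∀ x ∈ K, Metric.closedBall x (1 / ((j : ℝ) + 1)) ⊆ K' := by
    intro j hj x hx y hy
    have h1 : (1 : ℝ) / ((j : ℝ) + 1) ≤ 1 / ((J : ℝ) + 1) := by
      apply one_div_le_one_div_of_le (by positivity)
      have : (J : ℝ) ≤ j := by exact_mod_cast hj
      linarith
    apply Metric.mem_cthickening_of_dist_le y x δ K hx
    have := Metric.mem_closedBall.1 hy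
    linarith
  have hRb : ∀ j, J ≤ j → ∀ x, ‖R j x‖ ≤ ∑ c, M j * ‖ψ c x‖ := by
    intro j hj x
    by_cases hx : x ∈ K
    · have hb := hball j hj x hx
      have hxΩ : x ∈ Ω := hφΩ hx
      have h1 : ∀ c, |∑ d, m d c x * pderiv d (u j) x - cv (rho n j) (fun x => θ x * p c x) x|
          ≤ M j := by
        intro c
        have h2 := comm_le hδΩ (m := fun d => m d c) (k := k) (p := p c) (fun d => hm d c) hk
          hC0 (by linarith) (fun d => hCm' d c) hCk' (hdiv c) (hP c) j hb
        have h3 : ∀ d, pderiv d (u j) x = ∫ t, k t * pderiv d (rho n j) (x - t) := by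
          intro d
          rw [hu]
          simp only
          rw [pderiv_cv (rho_test j) hkl, cv_apply]
          apply integral_congr_ae
          refine Eventually.of_forall fun t => ?_
          by_cases ht : t ∈ Metric.closedBall x (1 / ((j : ℝ) + 1))
          · simp only [hθ1 t (hb ht), one_mul]
          · simp only [dshift_zero j d ht, mul_zero]
        have h4 : cv (rho n j) (fun x => θ x * p c x) x = ∫ t, p c t * rho n j (x - t) := by
          rw [cv_apply]
          apply integral_congr_ae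
          refine Eventually.of_forall fun t => ?_
          by_cases ht : t ∈ Metric.closedBall x (1 / ((j : ℝ) + 1))
          · simp only [hθ1 t (hb ht), one_mul]
          · have h5 : rho n j (x - t) = 0 :=
              image_eq_zero_of_notMem_tsupport (f := fun t => rho n j (x - t))
                fun h => ht (tsupport_shift j x h)
            simp only [h5, mul_zero]
        simp only [h3, h4]
        exact h2
      have h5 : R j x = ∑ c, (∑ d, m d c x * pderiv d (u j) x
          - cv (rho n j) (fun x => θ x * p c x) x) * ψ c x := by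
        simp only [hR, sub_mul, Finset.sum_sub_distrib]
        congr 1
        have h6 : pderiv e (u j) x = ∑ c, w e c x * ∑ d, m d c x * pderiv d (u j) x := by
          have h7 : ∑ c, w e c x * ∑ d, m d c x * pderiv d (u j) x
              = ∑ d, (∑ c, w e c x * m d c x) * pderiv d (u j) x := by
            simp only [Finset.mul_sum, Finset.sum_mul]
            rw [Finset.sum_comm]
            refine Finset.sum_congr rfl fun d _ => Finset.sum_congr rfl fun c _ => ?_
            ring
          rw [h7]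
          simp only [hwm x hxΩ e, ite_mul, one_mul, zero_mul]
          rw [Finset.sum_ite_eq' Finset.univ e (fun d => pderiv d (u j) x)]
          simp
        rw [h6, Finset.sum_mul]
        refine Finset.sum_congr rfl fun c _ => ?_
        simp only [hψ]; ring
      rw [h5]
      refine (norm_sum_le _ _).trans (Finset.sum_le_sum fun c _ => ?_)
      rw [norm_mul, Real.norm_eq_abs]
      exact mul_le_mul_of_nonneg_right (h1 c) (norm_nonneg _)
    · have h0 : φ x = 0 := image_eq_zero_of_notMem_tsupport hx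
      have h1 : ∀ c, ψ c x = 0 := fun c => by simp only [hψ, h0, mul_zero]
      simp only [hR, h0, h1, mul_zero, Finset.sum_const_zero, sub_zero, norm_zero]
      exact le_refl _
  -- integrals
  have hM0 : Tendsto M atTop (𝓝 0) := by
    have h1 : Tendsto (fun j : ℕ => (1 : ℝ) / ((j : ℝ) + 1)) atTop (𝓝 0) :=
      tendsto_one_div_add_atTop_nhds_zero_nat
    have h2 : Tendsto (fun j : ℕ => ((1 : ℝ) / ((j : ℝ) + 1)) ^ (2 * a - 1)) atTop (𝓝 0) := by
      have h3 : Tendsto (fun y : ℝ => y ^ (2 * a - 1)) (𝓝 0) (𝓝 ((0 : ℝ) ^ (2 * a - 1))) :=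
        (Real.continuousAt_rpow_const 0 (2 * a - 1) (Or.inr (by linarith))).tendsto
      rw [Real.zero_rpow (by linarith)] at h3
      exact h3.comp h1
    have h4 := (h2.const_mul (C ^ 2)).mul_const ((n : ℝ) * cK n)
    simpa [hM] using h4
  have hI1 : ∀ j, Integrable (fun x => pderiv e (u j) x * φ x) := fun j => by
    have h1 : IsTest (fun x => pderiv e (u j) x * φ x) := by
      refine hφ.mul_left ?_
      have h2 : ContDiff ℝ ∞ (fderiv ℝ (u j)) := (husm j).fderiv_right (m := ∞) (by simp)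
      exact h2.clm_apply contDiff_const
    exact h1.integrable
  have hI2 : ∀ j c, Integrable (fun x => cv (rho n j) (fun x => θ x * p c x) x * ψ c x) :=
    fun j c => integrable_mul (memLp_cv (rho_test j) (hp2 c)) (hψ2 c)
  have hRi : ∀ j, ∫ x, R j x = (∫ x, pderiv e (u j) x * φ x)
      - ∑ c, ∫ x, cv (rho n j) (fun x => θ x * p c x) x * ψ c x := by
    intro j
    simp only [hR]
    rw [integral_sub (hI1 j) (integrable_finsetSum _ fun c _ => hI2 j c),
      integral_finsetSum _ fun c _ => hI2 j c]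
  have hRlim : Tendsto (fun j => ∫ x, R j x) atTop (𝓝 0) := by
    have h1 : ∀ᶠ j in atTop, ‖∫ x, R j x‖ ≤ M j * ∫ x, ∑ c, ‖ψ c x‖ := by
      filter_upwards [eventually_ge_atTop J] with j hj
      have h2 : Integrable (fun x => ∑ c, M j * ‖ψ c x‖) :=
        integrable_finsetSum _ fun c _ => (hψi c).norm.const_mul _
      refine (norm_integral_le_of_norm_le h2 (Eventually.of_forall (hRb j hj))).trans ?_
      rw [← integral_const_mul]
      apply le_of_eq
      congr 1
      ext x
      rw [Finset.mul_sum]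
    have h3 : Tendsto (fun j => M j * ∫ x, ∑ c, ‖ψ c x‖) atTop (𝓝 0) := by
      have := hM0.mul_const (∫ x, ∑ c, ‖ψ c x‖)
      rwa [zero_mul] at this
    exact squeeze_zero_norm' h1 h3
  have hlim2 : Tendsto (fun j => ∑ c, ∫ x, cv (rho n j) (fun x => θ x * p c x) x * ψ c x) atTop
      (𝓝 (∑ c, ∫ x, (θ x * p c x) * ψ c x)) :=
    tendsto_finsetSum _ fun c _ => tendsto_int_cv (hp2 c) (hψ2 c)
  have hlim3 : Tendsto (fun j => ∫ x, pderiv e (u j) x * φ x) atTop
      (𝓝 (∑ c, ∫ x, (θ x * p c x) * ψ c x)) := by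
    have h1 := hRlim.add hlim2
    rw [zero_add] at h1
    refine h1.congr fun j => ?_
    rw [hRi j]; ring
  have hlim4 : Tendsto (fun j => ∫ x, u j x * pderiv e φ x) atTop
      (𝓝 (∫ x, (θ x * k x) * pderiv e φ x)) := tendsto_int_cv hk2 ((hφ.pderiv e).memLp 2)
  have hparts : ∀ j, ∫ x, u j x * pderiv e φ x = - ∫ x, pderiv e (u j) x * φ x := fun j =>
    WD.of_smooth (i := e) ((husm j).of_le (by exact_mod_cast le_top)) φ hφ
  have hlim5 : Tendsto (fun j => ∫ x, u j x * pderiv e φ x) atTop
      (𝓝 (- ∑ c, ∫ x, (θ x * p c x) * ψ c x)) := by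
    refine hlim3.neg.congr fun j => ?_
    rw [hparts j]
  have hfin := tendsto_nhds_unique hlim4 hlim5
  have g1 : ∫ x, k x * pderiv e φ x = ∫ x, (θ x * k x) * pderiv e φ x := by
    congr 1
    ext x
    by_cases hx : x ∈ K
    · rw [hθ1 x (hKK' hx), one_mul]
    · rw [image_eq_zero_of_notMem_tsupport (f := pderiv e φ)
        (fun h => hx (tsupport_pderiv φ e h)), mul_zero, mul_zero]
  have g2 : ∑ c, ∫ x, (θ x * p c x) * ψ c x = ∫ x, (∑ c, w e c x * p c x) * φ x := by
    rw [← integral_finsetSum _ fun c _ => integrable_mul (hp2 c) (hψ2 c)]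
    congr 1
    ext x
    rw [Finset.sum_mul]
    refine Finset.sum_congr rfl fun c _ => ?_
    by_cases hx : x ∈ K
    · rw [hθ1 x (hKK' hx), one_mul]
      simp only [hψ]; ring
    · have h0 : φ x = 0 := image_eq_zero_of_notMem_tsupport hx
      simp only [hψ, h0, mul_zero]
  rw [g1, hfin, g2]

end

end Crest.Agent.R249.Euc330
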