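import Crest.Agent.R249.Euc1_330

/-!
Row 249, part D, leaf D3-LIM/L-EUC (helper330), file 2: products with local `W^{1,2}` functions:
a weak divergence equation may be tested with `k φ`, `k` continuous with weak derivatives in
`L²_loc`; the limit energy identity; product and chain rules.
-/

set_option autoImplicit false
open scoped ContDiff ENNReal Topology
open MeasureTheory Set Filter
open Crest.GeometryTopology.CoordMetric
open Crest.Agent.R202.Ell
open Crest.Agent.R247.Frd657

namespace Crest.Agent.R249.Euc330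

noncomputable section

variable {n : ℕ}

theorem pderiv_eq_zero_of_one {θ : EE n → ℝ} {K : Set (EE n)} (h : ∀ᶠ y in 𝓝ˢ K, θ y = 1)
    {x : EE n} (hx : x ∈ K) (c : Fin n) : pderiv c θ x = 0 := by
  have h1 : ∀ᶠ y in 𝓝 x, θ y = 1 := h.filter_mono (nhds_le_nhdsSet hx)
  unfold Crest.GeometryTopology.CoordMetric.pderiv
  have h2 : θ =ᶠ[𝓝 x] fun _ => (1 : ℝ) := h1
  rw [h2.fderiv_eq]
  simp

theorem L2On.mul_cont {Ω : Set (EE n)} {g a : EE n → ℝ} (hg : L2On Ω g) (ha : ContinuousOn a Ω) :
    L2On Ω (fun x => a x * g x) := by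
  intro K hK hc
  have h0 := hg K hK hc
  obtain ⟨C, hC⟩ := hc.exists_bound_of_continuousOn (ha.mono hK)
  refine MemLp.of_le_mul (c := C) h0 (((ha.mono hK).aestronglyMeasurable hc.measurableSet).mul h0.1) ?_
  rw [ae_restrict_iff' hc.measurableSet]
  refine Eventually.of_forall fun x hx => ?_
  rw [norm_mul]
  exact mul_le_mul_of_nonneg_right (hC x hx) (norm_nonneg _)

theorem L2On.add {Ω : Set (EE n)} {g h : EE n → ℝ} (hg : L2On Ω g) (hh : L2On Ω h) :
    L2On Ω (fun x => g x + h x) := fun K hK hc => (hg K hK hc).add (hh K hK hc)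

theorem L2On.sum {Ω : Set (EE n)} {ι : Type*} (s : Finset ι) {g : ι → EE n → ℝ}
    (hg : ∀ i ∈ s, L2On Ω (g i)) : L2On Ω (fun x => ∑ i ∈ s, g i x) := fun K hK hc =>
  memLp_finsetSum s fun i hi => hg i hi K hK hc

/-- The weak divergence equation `div p = G` tested with `k φ`. -/
theorem test_mul {Ω : Set (EE n)} (hΩ : IsOpen Ω) {k G : EE n → ℝ} {p H : Fin n → EE n → ℝ}
    (hk : L2On Ω k) (hp : ∀ c, L2On Ω (p c)) (hH : ∀ c, L2On Ω (H c)) (hG : L2On Ω G)
    (hW : ∀ c, WDOn Ω c k (H c))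
    (heq : ∀ φ, IsTest φ → tsupport φ ⊆ Ω →
      ∫ x, ∑ c, p c x * pderiv c φ x = - ∫ x, G x * φ x)
    {φ : EE n → ℝ} (hφ : IsTest φ) (hφΩ : tsupport φ ⊆ Ω) :
    ∫ x, (∑ c, H c x * p c x) * φ x
      = - (∫ x, (k x * G x) * φ x) - ∫ x, k x * ∑ c, p c x * pderiv c φ x := by
  set K := tsupport φ with hKdef
  have hK : IsCompact K := hφ.cpt
  obtain ⟨θ, hθ, hθΩ, hθe, hθ1, -⟩ := exists_cutoff hK hΩ hφΩ
  have hk2 : MemLp (fun x => θ x * k x) 2 := hk.mul_test hθ.continuous hθ.cpt hθΩ
  have hkl : LocallyIntegrable (fun x => θ x * k x) := MemLp.locInt hk2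
  set g : Fin n → EE n → ℝ := fun c x => pderiv c θ x * k x + θ x * H c x with hg
  have hg2 : ∀ c, MemLp (g c) 2 := fun c =>
    (hk.mul_test (hθ.pderiv c).continuous (hθ.pderiv c).cpt
      ((tsupport_pderiv θ c).trans hθΩ)).add ((hH c).mul_test hθ.continuous hθ.cpt hθΩ)
  have hwd : ∀ c, WD c (fun x => θ x * k x) (g c) := fun c =>
    WDOn.mul_test hk (hH c) (hW c) hθ hθΩ
  set u : ℕ → EE n → ℝ := fun j => cv (rho n j) (fun x => θ x * k x) with hu
  have husm : ∀ j, ContDiff ℝ ∞ (u j) := fun j => cv_smooth (rho_test j) hkl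
  have hdu : ∀ j c x, pderiv c (u j) x = cv (rho n j) (g c) x := fun j c x =>
    pderiv_cv_wd (rho_test j) hkl (hwd c) x
  have a1 : ∀ c, MemLp (fun x => φ x * p c x) 2 := fun c =>
    (hp c).mul_test hφ.continuous hφ.cpt hφΩ
  have a2 : ∀ c, MemLp (fun x => pderiv c φ x * p c x) 2 := fun c =>
    (hp c).mul_test (hφ.pderiv c).continuous (hφ.pderiv c).cpt ((tsupport_pderiv φ c).trans hφΩ)
  have a3 : MemLp (fun x => φ x * G x) 2 := hG.mul_test hφ.continuous hφ.cpt hφΩ
  have b1 : ∀ j c, Integrable (fun x => cv (rho n j) (g c) x * (φ x * p c x)) := fun j c =>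
    integrable_mul (memLp_cv (rho_test j) (hg2 c)) (a1 c)
  have b2 : ∀ j c, Integrable (fun x => u j x * (pderiv c φ x * p c x)) := fun j c =>
    integrable_mul (memLp_cv (rho_test j) hk2) (a2 c)
  have hj : ∀ j, (∑ c, ∫ x, cv (rho n j) (g c) x * (φ x * p c x))
      + (∑ c, ∫ x, u j x * (pderiv c φ x * p c x)) = - ∫ x, u j x * (φ x * G x) := by
    intro j
    have hT : IsTest (fun x => u j x * φ x) := hφ.mul_left (husm j)
    have hTs : tsupport (fun x => u j x * φ x) ⊆ Ω := (tsupport_mul_on φ (u j)).trans hφΩ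
    have h1 := heq _ hT hTs
    have h2 : ∀ x, ∑ c, p c x * pderiv c (fun x => u j x * φ x) x
        = (∑ c, cv (rho n j) (g c) x * (φ x * p c x))
          + ∑ c, u j x * (pderiv c φ x * p c x) := by
      intro x
      rw [← Finset.sum_add_distrib]
      refine Finset.sum_congr rfl fun c _ => ?_
      rw [pderiv_mul c x ((husm j).differentiable (by simp) x)
        (hφ.smooth.differentiable (by simp) x), hdu]
      ring
    simp only [h2] at h1
    rw [integral_add (integrable_finsetSum _ fun c _ => b1 j c)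
      (integrable_finsetSum _ fun c _ => b2 j c),
      integral_finsetSum _ fun c _ => b1 j c, integral_finsetSum _ fun c _ => b2 j c] at h1
    rw [h1]
    congr 1
    congr 1
    ext x
    ring
  have l1 : Tendsto (fun j => ∑ c, ∫ x, cv (rho n j) (g c) x * (φ x * p c x)) atTop
      (𝓝 (∑ c, ∫ x, g c x * (φ x * p c x))) :=
    tendsto_finsetSum _ fun c _ => tendsto_int_cv (hg2 c) (a1 c)
  have l2 : Tendsto (fun j => ∑ c, ∫ x, u j x * (pderiv c φ x * p c x)) atTop
      (𝓝 (∑ c, ∫ x, (θ x * k x) * (pderiv c φ x * p c x))) :=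
    tendsto_finsetSum _ fun c _ => tendsto_int_cv hk2 (a2 c)
  have l3 : Tendsto (fun j => - ∫ x, u j x * (φ x * G x)) atTop
      (𝓝 (- ∫ x, (θ x * k x) * (φ x * G x))) := (tendsto_int_cv hk2 a3).neg
  have l4 := tendsto_nhds_unique (l1.add l2) (l3.congr fun j => (hj j).symm)
  have c1 : ∫ x, (∑ c, H c x * p c x) * φ x = ∑ c, ∫ x, g c x * (φ x * p c x) := by
    rw [← integral_finsetSum _ fun c _ => integrable_mul (hg2 c) (a1 c)]
    congr 1
    ext x
    rw [Finset.sum_mul]
    refine Finset.sum_congr rfl fun c _ => ?_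
    by_cases hx : x ∈ K
    · simp only [hg, hθ1 x hx, pderiv_eq_zero_of_one hθe hx c]; ring
    · have h0 : φ x = 0 := image_eq_zero_of_notMem_tsupport hx
      rw [h0]; ring
  have c2 : ∫ x, k x * ∑ c, p c x * pderiv c φ x
      = ∑ c, ∫ x, (θ x * k x) * (pderiv c φ x * p c x) := by
    rw [← integral_finsetSum _ fun c _ => integrable_mul hk2 (a2 c)]
    congr 1
    ext x
    rw [Finset.mul_sum]
    refine Finset.sum_congr rfl fun c _ => ?_
    by_cases hx : x ∈ K
    · simp only [hθ1 x hx]; ring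
    · have h0 : pderiv c φ x = 0 := image_eq_zero_of_notMem_tsupport
        (fun h => hx (tsupport_pderiv φ c h))
      rw [h0]; ring
  have c3 : ∫ x, (k x * G x) * φ x = ∫ x, (θ x * k x) * (φ x * G x) := by
    congr 1
    ext x
    by_cases hx : x ∈ K
    · simp only [hθ1 x hx]; ring
    · have h0 : φ x = 0 := image_eq_zero_of_notMem_tsupport hx
      rw [h0]; ring
  rw [c1, c2, c3]
  linarith

/-- product rule for continuous local `W^{1,2}` functions -/
theorem wdOn_mul {Ω : Set (EE n)} (hΩ : IsOpen Ω) {k l K' L' : EE n → ℝ} {i : Fin n}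
    (hk : ContinuousOn k Ω) (hl : ContinuousOn l Ω) (hK : L2On Ω K') (hL : L2On Ω L')
    (h1 : WDOn Ω i k K') (h2 : WDOn Ω i l L') :
    WDOn Ω i (fun x => k x * l x) (fun x => K' x * l x + k x * L' x) := by
  classical
  intro φ hφ hφΩ
  -- `div (l e_i) = L'`, tested with `k φ`
  set K := tsupport φ with hKdef
  have hKc : IsCompact K := hφ.cpt
  obtain ⟨θ, hθ, hθΩ, hθe, hθ1, -⟩ := exists_cutoff hKc hΩ hφΩ
  have hk0 := L2On.of_continuousOn hk
  have hl0 := L2On.of_continuousOn hl
  have hk2 : MemLp (fun x => θ x * k x) 2 := hk0.mul_test hθ.continuous hθ.cpt hθΩ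
  have hkl : LocallyIntegrable (fun x => θ x * k x) := MemLp.locInt hk2
  set g : EE n → ℝ := fun x => pderiv i θ x * k x + θ x * K' x with hg
  have hg2 : MemLp g 2 :=
    (hk0.mul_test (hθ.pderiv i).continuous (hθ.pderiv i).cpt
      ((tsupport_pderiv θ i).trans hθΩ)).add (hK.mul_test hθ.continuous hθ.cpt hθΩ)
  have hwd : WD i (fun x => θ x * k x) g := WDOn.mul_test hk0 hK h1 hθ hθΩ
  set u : ℕ → EE n → ℝ := fun j => cv (rho n j) (fun x => θ x * k x) with hu
  have husm : ∀ j, ContDiff ℝ ∞ (u j) := fun j => cv_smooth (rho_test j) hkl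
  have hdu : ∀ j x, pderiv i (u j) x = cv (rho n j) g x := fun j x =>
    pderiv_cv_wd (rho_test j) hkl hwd x
  have a1 : MemLp (fun x => φ x * l x) 2 := hl0.mul_test hφ.continuous hφ.cpt hφΩ
  have a2 : MemLp (fun x => pderiv i φ x * l x) 2 :=
    hl0.mul_test (hφ.pderiv i).continuous (hφ.pderiv i).cpt ((tsupport_pderiv φ i).trans hφΩ)
  have a3 : MemLp (fun x => φ x * L' x) 2 := hL.mul_test hφ.continuous hφ.cpt hφΩ
  have b1 : ∀ j, Integrable (fun x => cv (rho n j) g x * (φ x * l x)) := fun j =>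
    integrable_mul (memLp_cv (rho_test j) hg2) a1
  have b2 : ∀ j, Integrable (fun x => u j x * (pderiv i φ x * l x)) := fun j =>
    integrable_mul (memLp_cv (rho_test j) hk2) a2
  have hj : ∀ j, (∫ x, cv (rho n j) g x * (φ x * l x)) + (∫ x, u j x * (pderiv i φ x * l x))
      = - ∫ x, u j x * (φ x * L' x) := by
    intro j
    have hT : IsTest (fun x => u j x * φ x) := hφ.mul_left (husm j)
    have hTs : tsupport (fun x => u j x * φ x) ⊆ Ω := (tsupport_mul_on φ (u j)).trans hφΩ
    have h3 := h2 _ hT hTs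
    have h4 : ∀ x, l x * pderiv i (fun x => u j x * φ x) x
        = cv (rho n j) g x * (φ x * l x) + u j x * (pderiv i φ x * l x) := by
      intro x
      rw [pderiv_mul i x ((husm j).differentiable (by simp) x)
        (hφ.smooth.differentiable (by simp) x), hdu]
      ring
    simp only [h4] at h3
    rw [integral_add (b1 j) (b2 j)] at h3
    rw [h3]
    congr 1
    congr 1
    ext x
    ring
  have l1 := tendsto_int_cv hg2 a1
  have l2 := tendsto_int_cv hk2 a2
  have l3 := (tendsto_int_cv hk2 a3).neg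
  have l4 := tendsto_nhds_unique (l1.add l2) (l3.congr fun j => (hj j).symm)
  have i1 : Integrable (fun x => g x * (φ x * l x)) := integrable_mul hg2 a1
  have i2 : Integrable (fun x => (θ x * k x) * (pderiv i φ x * l x)) := integrable_mul hk2 a2
  have i3 : Integrable (fun x => (θ x * k x) * (φ x * L' x)) := integrable_mul hk2 a3
  have c1 : ∫ x, k x * l x * pderiv i φ x = ∫ x, (θ x * k x) * (pderiv i φ x * l x) := by
    congr 1
    ext x
    by_cases hx : x ∈ K
    · simp only [hθ1 x hx]; ring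
    · have h0 : pderiv i φ x = 0 := image_eq_zero_of_notMem_tsupport
        (fun h => hx (tsupport_pderiv φ i h))
      rw [h0]; ring
  have c2 : ∫ x, (K' x * l x + k x * L' x) * φ x
      = (∫ x, g x * (φ x * l x)) + ∫ x, (θ x * k x) * (φ x * L' x) := by
    rw [← integral_add i1 i3]
    congr 1
    ext x
    by_cases hx : x ∈ K
    · simp only [hg, hθ1 x hx, pderiv_eq_zero_of_one hθe hx i]; ring
    · have h0 : φ x = 0 := image_eq_zero_of_notMem_tsupport hx
      rw [h0]; ring
  rw [c1, c2]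
  linarith

end

end Crest.Agent.R249.Euc330
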