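import Crest.Agent.R249.IntA_780

/-!
Row 249, part A2 v3 (helper780): families of functions on `X` indexed by a type `ι` with a
smallness predicate `good`, bounded uniformly in `L²`: calculus of such families, the bounds of
`∫ Rb`, `∫ |dv|⁴` and the truncated bounds.
-/

set_option autoImplicit false
set_option linter.unusedVariables false
set_option linter.unusedSectionVars false

open MeasureTheory Set Filter Topology Matrix
open scoped ContDiff

noncomputable section

namespace Crest.Agent.R249.FamA_780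

open Crest.Agent.R249.Calc_806 Crest.Agent.R249.Calc_806.Calc Crest.Agent.R249.IntA_780

variable {X : Type*} [TopologicalSpace X] [CompactSpace X] [MeasurableSpace X]
  [OpensMeasurableSpace X] {μ : Measure X} [IsFiniteMeasure μ] {C : Calc X μ}
variable {ι : Type*} {good : ι → Prop} {F F' : ι → X → ℝ}

/-- uniform bound of a number. -/
def UB (good : ι → Prop) (q : ι → ℝ) : Prop := ∃ A : ℝ, 0 ≤ A ∧ ∀ i, good i → q i ≤ A

/-- uniform pointwise bound. -/
def PB (good : ι → Prop) (F : ι → X → ℝ) : Prop := ∃ A : ℝ, 0 ≤ A ∧ ∀ i, good i → ∀ x, F i x ≤ A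

lemma UB.mono {q q' : ι → ℝ} (h : UB good q) (hle : ∀ i, good i → q' i ≤ q i) : UB good q' := by
  obtain ⟨A, hA, h1⟩ := h
  exact ⟨A, hA, fun i hi => (hle i hi).trans (h1 i hi)⟩

lemma UB.const (c : ℝ) : UB good (fun _ => c) := ⟨max c 0, le_max_right _ _, fun _ _ => le_max_left _ _⟩

lemma UB.add {q q' : ι → ℝ} (h : UB good q) (h' : UB good q') : UB good (fun i => q i + q' i) := by
  obtain ⟨A, hA, h1⟩ := h
  obtain ⟨B, hB, h2⟩ := h'
  exact ⟨A + B, add_nonneg hA hB, fun i hi => add_le_add (h1 i hi) (h2 i hi)⟩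

lemma UB.mul {q : ι → ℝ} (h : UB good q) {c : ℝ} (hc : 0 ≤ c) : UB good (fun i => c * q i) := by
  obtain ⟨A, hA, h1⟩ := h
  exact ⟨c * A, mul_nonneg hc hA, fun i hi => mul_le_mul_of_nonneg_left (h1 i hi) hc⟩

/-- a family of continuous functions, uniformly bounded in `L²`. -/
structure LB (μ : Measure X) (good : ι → Prop) (F : ι → X → ℝ) : Prop where
  cont : ∀ i, Continuous (F i)
  ub : UB good (fun i => ∫ x, F i x ^ 2 ∂μ)

lemma LB.const (c : ℝ) : LB μ good (fun _ _ => c) := ⟨fun _ => continuous_const, UB.const _⟩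

lemma LB.fix {u : X → ℝ} (hu : Continuous u) : LB μ good (fun _ => u) := ⟨fun _ => hu, UB.const _⟩

lemma LB.add (h : LB μ good F) (h' : LB μ good F') : LB μ good (fun i x => F i x + F' i x) where
  cont := fun i => (h.cont i).add (h'.cont i)
  ub := by
    refine ((h.ub.mul (c := 2) (by norm_num)).add (h'.ub.mul (c := 2) (by norm_num))).mono
      fun i _ => ?_
    have i1 : Integrable (fun x => F i x ^ 2) μ := integrable_cont ((h.cont i).pow 2)
    have i2 : Integrable (fun x => F' i x ^ 2) μ := integrable_cont ((h'.cont i).pow 2)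
    have i3 : Integrable (fun x => (F i x + F' i x) ^ 2) μ :=
      integrable_cont (((h.cont i).add (h'.cont i)).pow 2)
    rw [← integral_const_mul, ← integral_const_mul, ← integral_add (i1.const_mul _) (i2.const_mul _)]
    refine integral_mono i3 ((i1.const_mul _).add (i2.const_mul _)) fun x => ?_
    simp only
    nlinarith [sq_nonneg (F i x - F' i x)]

lemma LB.mul (h : LB μ good F) (c : ℝ) : LB μ good (fun i x => c * F i x) where
  cont := fun i => continuous_const.mul (h.cont i)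
  ub := by
    refine (h.ub.mul (c := c ^ 2) (by positivity)).mono fun i _ => ?_
    rw [← integral_const_mul]
    refine le_of_eq (integral_congr_ae (Eventually.of_forall fun x => ?_))
    simp only
    ring

lemma LB.abs (h : LB μ good F) : LB μ good (fun i x => |F i x|) where
  cont := fun i => (h.cont i).abs
  ub := by
    refine h.ub.mono fun i _ => ?_
    simp only [sq_abs]
    exact le_rfl

lemma LB.mono (h : LB μ good F) (hc : ∀ i, Continuous (F' i))
    (hle : ∀ i, good i → ∀ x, |F' i x| ≤ F i x) : LB μ good F' where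
  cont := hc
  ub := by
    refine h.ub.mono fun i hi => ?_
    refine integral_mono (integrable_cont ((hc i).pow 2)) (integrable_cont ((h.cont i).pow 2))
      fun x => ?_
    simp only
    rw [← sq_abs (F' i x)]
    exact pow_le_pow_left₀ (abs_nonneg _) (hle i hi x) 2

lemma LB.of_pb (hc : ∀ i, Continuous (F i)) (h : PB good (fun i x => |F i x|)) :
    LB μ good F := by
  obtain ⟨A, hA, h1⟩ := h
  exact (LB.const A).mono hc fun i hi x => h1 i hi x

/-! ### the calculus -/

variable {v u : ι → X → ℝ}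

lemma ub_Rb (hF : ∀ i, C.Sm (v i)) (h : LB μ good (fun i => C.L (v i))) :
    UB good (fun i => ∫ x, C.Rb (v i) x ∂μ) :=
  h.ub.mono fun i _ => int_Rb_le (hF i)

lemma lb_G (hF : ∀ i, C.Sm (v i)) {s : ℝ} (hs : 0 < s) (hFs : ∀ i, good i → ∀ x, |v i x| ≤ s)
    (h : LB μ good (fun i => C.L (v i))) : LB μ good (fun i => C.G (v i) (v i)) where
  cont := fun i => C.sm_cont (C.sm_G (hF i) (hF i))
  ub := by
    refine ((ub_Rb hF h).mul (c := 16 * s ^ 2) (by positivity)).mono fun i hi => ?_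
    exact int_G_sq_le (hF i) hs (hFs i hi)

lemma lb_L_sub (hu : ∀ i, C.Sm (u i)) (hv : ∀ i, C.Sm (v i)) (h1 : LB μ good (fun i => C.L (u i)))
    (h2 : LB μ good (fun i => C.L (v i))) :
    LB μ good (fun i => C.L (fun y => u i y - v i y)) := by
  refine (h1.abs.add h2.abs).mono (fun i => C.sm_cont (C.sm_L (sm_sub (hu i) (hv i))))
    fun i _ x => ?_
  rw [L_sub (hu i) (hv i)]
  exact abs_sub _ _

/-- `|d(u-v)|² ≤ 2 |du|² + 2 |dv|²` -/
lemma G_sub_le {f g : X → ℝ} (hf : C.Sm f) (hg : C.Sm g) (x : X) :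
    C.G (fun y => f y - g y) (fun y => f y - g y) x ≤ 2 * C.G f f x + 2 * C.G g g x := by
  have h1 : C.G (fun y => f y - g y) (fun y => f y - g y) x =
      C.G f f x - 2 * C.G f g x + C.G g g x := by
    rw [G_sub_left hf hg, G_sub_right hf hg, G_sub_right hf hg, G_symm g f]
    ring
  have h2 := two_G_le (C := C) f g x one_pos
  have h3 := neg_abs_le (C.G f g x)
  rw [h1]
  simp only [one_mul, inv_one] at h2
  linarith

/-- `||du|² - |dv|²| ≤ (1/(2s)) |d(u-v)|²·... ` in the form needed: for `s > 0`,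
`(|du|² - |dv|²)² ≤ s⁻¹ |d(u-v)|⁴ + 4 s (|du|² + |dv|²)²`. -/
lemma G_diff_sq {f g : X → ℝ} (hf : C.Sm f) (hg : C.Sm g) (x : X) {s : ℝ} (hs : 0 < s) :
    (C.G f f x - C.G g g x) ^ 2 ≤
      s⁻¹ * C.G (fun y => f y - g y) (fun y => f y - g y) x ^ 2 +
        s * (C.G f f x + C.G g g x) ^ 2 := by
  have hp := sm_add hf hg
  have hm := sm_sub hf hg
  have h1 : C.G f f x - C.G g g x = C.G (fun y => f y - g y) (fun y => f y + g y) x := by
    rw [G_sub_left hf hg, G_add_right hf hg, G_add_right hf hg, G_symm g f]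
    ring
  have h2 := G_sq_le (C := C) (fun y => f y - g y) (fun y => f y + g y) x
  have h3 : C.G (fun y => f y + g y) (fun y => f y + g y) x ≤ 2 * (C.G f f x + C.G g g x) := by
    have e1 : C.G (fun y => f y + g y) (fun y => f y + g y) x =
        C.G f f x + 2 * C.G f g x + C.G g g x := by
      rw [G_add_left hf hg, G_add_right hf hg, G_add_right hf hg, G_symm g f]
      ring
    have h2 := two_G_le (C := C) f g x one_pos
    have h3 := le_abs_self (C.G f g x)
    simp only [one_mul, inv_one] at h2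
    rw [e1]
    linarith
  set a := C.G (fun y => f y - g y) (fun y => f y - g y) x with ha
  set q := C.G f f x + C.G g g x with hq
  have ha0 : 0 ≤ a := G_self_nonneg _ _
  have h4 : (C.G f f x - C.G g g x) ^ 2 ≤ 2 * a * q := by
    rw [h1]
    refine h2.trans ?_
    have := mul_le_mul_of_nonneg_left h3 ha0
    linarith
  have h5 : 2 * a * q ≤ s⁻¹ * a ^ 2 + s * q ^ 2 := by
    have h6 : 0 ≤ (s⁻¹) * (a - s * q) ^ 2 := by positivity
    have h7 : s⁻¹ * (a - s * q) ^ 2 = s⁻¹ * a ^ 2 - 2 * a * q + s * q ^ 2 := by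
      field_simp
      ring
    linarith
  linarith

/-- **the truncated bounds of a family**: `e : ι → ℝ` the width. -/
theorem trunc_family {e : ι → ℝ} (he : ∀ i, good i → 0 < e i) (hv : ∀ i, C.Sm (v i))
    {s α β : ℝ} (hs : 0 < s) (hα : 0 ≤ α) (hβ : 0 < β)
    (hvs : ∀ i, good i → ∀ x, |v i x| ≤ s)
    (hlo : ∀ i, good i → ∀ x, -(α * e i) ≤ v i x)
    (hL : LB μ good (fun i => C.L (v i))) :
    ∃ A : ℝ, 0 ≤ A ∧ ∀ i, good i → ∀ T : Set X, MeasurableSet T → (∀ x ∈ T, v i x ≤ β * e i) →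
        ∫ x in T, C.G (v i) (v i) x ^ 2 ∂μ ≤ A * e i ∧
        ∫ x in T, C.G (v i) (v i) x ∂μ ≤ A * e i := by
  obtain ⟨A₁, hA₁, h1⟩ := hL.ub
  obtain ⟨A₂, hA₂, h2⟩ := (lb_G hv hs hvs hL).ub
  obtain ⟨A₃, hA₃, h3⟩ := ub_Rb hv hL
  refine ⟨6 * (α + β) * (A₂ + A₃) + 3 * (α + β) * (μ.real univ + A₁), by positivity,
    fun i hi T hT hTb => ?_⟩
  have hei := he i hi
  have hc : 0 < α * e i + β * e i := by
    have : 0 < β * e i := mul_pos hβ hei
    have : 0 ≤ α * e i := mul_nonneg hα hei.le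
    linarith
  have g1 := h1 i hi
  have g2 := h2 i hi
  have g3 := h3 i hi
  have t4 := trunc_four (hv i) hc (hlo i hi) T hT hTb
  have t2 := trunc_two (hv i) hc (hlo i hi) T hT hTb
  have hV : 0 ≤ μ.real univ := measureReal_nonneg
  constructor
  · refine t4.trans ?_
    have e1 : 6 * (α * e i + β * e i) * (∫ x, C.G (v i) (v i) x ^ 2 ∂μ +
        ∫ x, C.Rb (v i) x ∂μ) ≤ 6 * (α * e i + β * e i) * (A₂ + A₃) :=
      mul_le_mul_of_nonneg_left (add_le_add g2 g3) (by positivity)
    have e2 : 0 ≤ 3 * (α + β) * (μ.real univ + A₁) * e i := by positivity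
    have e3 : 6 * (α * e i + β * e i) * (A₂ + A₃) = 6 * (α + β) * (A₂ + A₃) * e i := by ring
    rw [e3] at e1
    rw [add_mul]
    linarith
  · refine t2.trans ?_
    have i1 : Integrable (fun x => C.L (v i) x ^ 2) μ :=
      integrable_sm (sm_pow (C.sm_L (hv i)) 2)
    have e0 : ∫ x, |C.L (v i) x| ∂μ ≤ μ.real univ + A₁ := by
      have : ∫ x, |C.L (v i) x| ∂μ ≤ ∫ x, (1 + C.L (v i) x ^ 2) ∂μ := by
        refine integral_mono (integrable_sm (C.sm_L (hv i))).abs
          ((integrable_const _).add i1) fun x => ?_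
        simp only
        nlinarith [sq_nonneg (|C.L (v i) x| - 1), sq_abs (C.L (v i) x),
          abs_nonneg (C.L (v i) x)]
      rw [integral_add (integrable_const _) i1, integral_const, smul_eq_mul, mul_one] at this
      linarith
    have e1 : 3 * (α * e i + β * e i) * ∫ x, |C.L (v i) x| ∂μ ≤
        3 * (α * e i + β * e i) * (μ.real univ + A₁) :=
      mul_le_mul_of_nonneg_left e0 (by positivity)
    have e2 : 0 ≤ 6 * (α + β) * (A₂ + A₃) * e i := by positivity
    have e3 : 3 * (α * e i + β * e i) * (μ.real univ + A₁) =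
      3 * (α + β) * (μ.real univ + A₁) * e i := by ring
    rw [e3] at e1
    rw [add_mul]
    linarith

/-! ### the residuals -/

lemma int_sq_le_of_four {r : X → ℝ} (hr : Continuous r) {e vs : ℝ} (he : 0 < e) (hvs : vs ≤ e ^ 2)
    (h : ∫ x, r x ^ 4 ∂μ ≤ vs) : ∫ x, r x ^ 2 ∂μ ≤ e * (μ.real univ + 1) / 2 := by
  have i1 : Integrable (fun x => r x ^ 4) μ := integrable_cont (hr.pow 4)
  have i2 : Integrable (fun x => r x ^ 2) μ := integrable_cont (hr.pow 2)
  have h1 : ∫ x, r x ^ 2 ∂μ ≤ ∫ x, (e / 2 + (1 / (2 * e)) * r x ^ 4) ∂μ := by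
    refine integral_mono i2 ((integrable_const _).add (i1.const_mul _)) fun x => ?_
    simp only
    have h4 : e / 2 + 1 / (2 * e) * r x ^ 4 - r x ^ 2 = (e - r x ^ 2) ^ 2 / (2 * e) := by
      field_simp
      ring
    have h5 : 0 ≤ (e - r x ^ 2) ^ 2 / (2 * e) := by positivity
    linarith
  rw [integral_add (integrable_const _) (i1.const_mul _), integral_const, integral_const_mul] at h1
  have h2 : 1 / (2 * e) * ∫ x, r x ^ 4 ∂μ ≤ 1 / (2 * e) * e ^ 2 :=
    mul_le_mul_of_nonneg_left (h.trans hvs) (by positivity)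
  have h3 : 1 / (2 * e) * e ^ 2 = e / 2 := by field_simp
  simp only [smul_eq_mul] at h1
  rw [h3] at h2
  linarith

/-- the constant of `∫ g²`. -/
def Kg (K : ℝ) (μ : Measure X) : ℝ := 2 * K ^ 2 * μ.real univ + (μ.real univ + 1)

lemma Kg_nonneg (K : ℝ) : 0 ≤ Kg K μ := by unfold Kg; positivity

lemma int_g_sq {K : ℝ} {g r : X → ℝ} (hg : C.Sm g) (hr : Continuous r) {e vs : ℝ} (he : 0 < e)
    (he1 : e ≤ 1) (hvs : vs ≤ e ^ 2) (h : ∫ x, r x ^ 4 ∂μ ≤ vs)
    (hgr : ∀ x, |g x| ≤ K * e + |r x|) : ∫ x, g x ^ 2 ∂μ ≤ Kg K μ * e := by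
  have i1 : Integrable (fun x => g x ^ 2) μ := integrable_sm (sm_pow hg 2)
  have i2 : Integrable (fun x => r x ^ 2) μ := integrable_cont (hr.pow 2)
  have h1 : ∫ x, g x ^ 2 ∂μ ≤ ∫ x, (2 * K ^ 2 * e ^ 2 + 2 * r x ^ 2) ∂μ := by
    refine integral_mono i1 ((integrable_const _).add (i2.const_mul _)) fun x => ?_
    have h2 : g x ^ 2 ≤ (K * e + |r x|) ^ 2 := by
      rw [← sq_abs (g x)]
      exact pow_le_pow_left₀ (abs_nonneg _) (hgr x) 2
    have h3 : (K * e + |r x|) ^ 2 ≤ 2 * (K * e) ^ 2 + 2 * |r x| ^ 2 := by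
      nlinarith [sq_nonneg (K * e - |r x|)]
    rw [sq_abs] at h3
    simp only
    nlinarith
  rw [integral_add (integrable_const _) (i2.const_mul _), integral_const, integral_const_mul] at h1
  have h2 := int_sq_le_of_four hr he hvs h
  simp only [smul_eq_mul] at h1
  have h3 : μ.real univ * (2 * K ^ 2 * e ^ 2) ≤ 2 * K ^ 2 * μ.real univ * e := by
    have : e ^ 2 ≤ e := by nlinarith
    have h4 : 0 ≤ 2 * K ^ 2 * μ.real univ := by positivity
    nlinarith
  unfold Kg
  nlinarith

end Crest.Agent.R249.FamA_780
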