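import Mathlib

/-!
# R249 (helper174), leaf D2-FLAT (1): isometric pieces of Euclidean space

* `affine_of_isom` : a map which is distance preserving on a ball of `ℝⁿ` into `ℝⁿ` is there
  `v ↦ f x + L (v - x)` with a linear isometry `L`;
* `Cht n z ρ` : the ball of radius `ρ` about `z : Y` is isometric to the Euclidean one;
* `Cht.move`, `exists_uniform` : charts of nearby points, uniform radius on compact sets.
-/

set_option autoImplicit false
noncomputable section
open Set Filter Topology Metric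

namespace Crest.Agent.R249.Fl174

/-- Euclidean space -/
abbrev E (n : ℕ) : Type := EuclideanSpace ℝ (Fin n)

variable {n : ℕ}

/-! ### isometric maps of balls are affine -/

theorem affine_of_isom {f : E n → E n} {x : E n} {r : ℝ} (hr : 0 < r)
    (h : ∀ v ∈ ball x r, ∀ w ∈ ball x r, dist (f v) (f w) = dist v w) :
    ∃ L : E n ≃ₗᵢ[ℝ] E n, ∀ v ∈ ball x r, f v = f x + L (v - x) := by
  classical
  set F : E n → E n := fun v => f (x + v) - f x with hF
  have hmem : ∀ v : E n, ‖v‖ < r → x + v ∈ ball x r := by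
    intro v hv
    rw [mem_ball, dist_eq_norm, add_sub_cancel_left]
    exact hv
  have hd : ∀ v w : E n, ‖v‖ < r → ‖w‖ < r → ‖F v - F w‖ = ‖v - w‖ := by
    intro v w hv hw
    have := h _ (hmem v hv) _ (hmem w hw)
    rw [dist_eq_norm, dist_eq_norm, add_sub_add_left_eq_sub] at this
    rw [← this]
    simp only [hF]
    congr 1
    abel
  have hF0 : F 0 = 0 := by simp [hF]
  have hn : ∀ v : E n, ‖v‖ < r → ‖F v‖ = ‖v‖ := by
    intro v hv
    have := hd v 0 hv (by simpa using hr)
    rwa [hF0, sub_zero, sub_zero] at this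
  have hi : ∀ v w : E n, ‖v‖ < r → ‖w‖ < r → inner ℝ (F v) (F w) = inner ℝ v w := by
    intro v w hv hw
    rw [real_inner_eq_norm_mul_self_add_norm_mul_self_sub_norm_sub_mul_self_div_two,
      real_inner_eq_norm_mul_self_add_norm_mul_self_sub_norm_sub_mul_self_div_two,
      hd v w hv hw, hn v hv, hn w hw]
  set t : ℝ := r / 2 with ht
  have ht0 : 0 < t := by positivity
  set e : Fin n → E n := fun i => EuclideanSpace.basisFun (Fin n) ℝ i with he
  have he1 : Orthonormal ℝ e := (EuclideanSpace.basisFun (Fin n) ℝ).orthonormal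
  have hte : ∀ i, ‖t • e i‖ < r := by
    intro i
    rw [norm_smul, he1.1 i, Real.norm_eq_abs, abs_of_pos ht0, mul_one]
    linarith
  set b : Fin n → E n := fun i => t⁻¹ • F (t • e i) with hb
  have hbo : Orthonormal ℝ b := by
    rw [orthonormal_iff_ite]
    intro i j
    have h1 := (orthonormal_iff_ite.1 he1) i j
    simp only [hb]
    rw [real_inner_smul_left, real_inner_smul_right, hi _ _ (hte i) (hte j),
      real_inner_smul_left, real_inner_smul_right, h1]
    field_simp
  have hcard : Module.finrank ℝ (E n) = Fintype.card (Fin n) := by simp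
  obtain ⟨B, hB⟩ := Orthonormal.exists_orthonormalBasis_extension_of_card_eq hcard
    (v := b) (s := Set.univ) (hbo.comp _ Subtype.val_injective)
  have hBb : ∀ i, B i = b i := fun i => hB i (mem_univ i)
  set L : E n ≃ₗᵢ[ℝ] E n := (EuclideanSpace.basisFun (Fin n) ℝ).equiv B (Equiv.refl _) with hL
  have hLe : ∀ i, L (e i) = b i := by
    intro i
    rw [hL, he, OrthonormalBasis.equiv_apply_basis]
    exact hBb i
  refine ⟨L, ?_⟩
  have hmain : ∀ v : E n, ‖v‖ < r → F v = L v := by
    intro v hv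
    apply B.repr.injective
    ext i
    rw [B.repr_apply_apply, B.repr_apply_apply, hBb]
    have h1 : inner ℝ (b i) (F v) = inner ℝ (e i) v := by
      simp only [hb]
      rw [real_inner_smul_left, hi _ _ (hte i) hv, real_inner_smul_left]
      field_simp
    rw [h1, ← hLe, L.inner_map_map]
  intro v hv
  have h1 : ‖v - x‖ < r := by rwa [← dist_eq_norm]
  have h2 := hmain (v - x) h1
  simp only [hF, add_sub_cancel] at h2
  rw [← h2]
  abel

/-- linear isometries are determined on an open set -/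
theorem lin_eq_of_eventually {L L' : E n ≃ₗᵢ[ℝ] E n} {a a' x s : E n}
    (h : ∀ᶠ v in 𝓝 s, a + L (v - x) = a' + L' (v - x)) : a = a' ∧ L = L' := by
  obtain ⟨ε, hε, hb⟩ := Metric.eventually_nhds_iff_ball.1 h
  have hL : ∀ w : E n, L w = L' w := by
    intro w
    have h1 := hb s (mem_ball_self hε)
    set t : ℝ := ε / (2 * (‖w‖ + 1)) with ht
    have hw : 0 < ‖w‖ + 1 := by positivity
    have ht0 : 0 < t := by positivity
    have h2 := hb (s + t • w) (by
      rw [mem_ball, dist_eq_norm, add_sub_cancel_left, norm_smul, Real.norm_eq_abs,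
        abs_of_pos ht0, ht, div_mul_eq_mul_div, div_lt_iff₀ (by positivity)]
      nlinarith [norm_nonneg w])
    have h3 : t • L w = t • L' w := by
      have h4 : s + t • w - x = (s - x) + t • w := by abel
      rw [h4, map_add, map_add, map_smul, map_smul, ← add_assoc, ← add_assoc, h1] at h2
      exact add_left_cancel h2
    exact smul_right_injective _ ht0.ne' h3
  refine ⟨?_, by ext1 w; exact hL w⟩
  have h1 := hb s (mem_ball_self hε)
  rw [hL] at h1
  exact add_right_cancel h1

/-! ### Euclidean balls in a metric space -/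

variable {Y : Type*} [MetricSpace Y]

/-- the ball of radius `ρ` about `z` is isometric to the Euclidean ball, by `φ` -/
structure IsCht (φ : E n → Y) (z : Y) (ρ : ℝ) : Prop where
  zero : φ 0 = z
  isom : ∀ v ∈ ball (0 : E n) ρ, ∀ w ∈ ball (0 : E n) ρ, dist (φ v) (φ w) = dist v w
  surj : ball z ρ ⊆ φ '' ball 0 ρ

/-- the ball of radius `ρ` about `z` is isometric to the Euclidean ball -/
def Cht (n : ℕ) {Y : Type*} [MetricSpace Y] (z : Y) (ρ : ℝ) : Prop :=
  ∃ φ : E n → Y, IsCht φ z ρ

theorem IsCht.mapsTo {φ : E n → Y} {z : Y} {ρ : ℝ} (h : IsCht φ z ρ) {v : E n}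
    (hv : v ∈ ball (0 : E n) ρ) : dist z (φ v) = ‖v‖ := by
  have h0 : (0 : E n) ∈ ball (0 : E n) ρ := mem_ball_self (by
    have := mem_ball.1 hv
    exact lt_of_le_of_lt dist_nonneg this)
  have := h.isom 0 h0 v hv
  rw [h.zero] at this
  rw [this, dist_zero_left]

theorem IsCht.mono {φ : E n → Y} {z : Y} {ρ ρ' : ℝ} (h : IsCht φ z ρ) (hρ : ρ' ≤ ρ) :
    IsCht φ z ρ' := by
  have hs : ball (0 : E n) ρ' ⊆ ball 0 ρ := ball_subset_ball hρ
  refine ⟨h.zero, fun v hv w hw => h.isom v (hs hv) w (hs hw), fun y hy => ?_⟩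
  obtain ⟨v, hv, rfl⟩ := h.surj (ball_subset_ball hρ hy)
  refine ⟨v, ?_, rfl⟩
  have h1 := h.mapsTo hv
  rw [mem_ball, dist_comm, h1] at hy
  simpa using hy

theorem Cht.mono {z : Y} {ρ ρ' : ℝ} (h : Cht n z ρ) (hρ : ρ' ≤ ρ) : Cht n z ρ' := by
  obtain ⟨φ, hφ⟩ := h
  exact ⟨φ, hφ.mono hρ⟩

theorem Cht.move {z z' : Y} {ρ ρ' : ℝ} (h : Cht n z ρ) (hz : dist z z' + ρ' ≤ ρ)
    (hρ' : 0 < ρ') : Cht n z' ρ' := by
  obtain ⟨φ, hφ⟩ := h
  have hz' : z' ∈ ball z ρ := by
    rw [mem_ball, dist_comm]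
    linarith
  obtain ⟨a, ha, haz⟩ := hφ.surj hz'
  have hna : ‖a‖ = dist z z' := by rw [← haz, hφ.mapsTo ha]
  have hsub : ∀ v ∈ ball (0 : E n) ρ', a + v ∈ ball (0 : E n) ρ := by
    intro v hv
    have h1 : ‖v‖ < ρ' := by simpa using hv
    have h2 := norm_add_le a v
    simp only [mem_ball, dist_zero_right]
    linarith
  refine ⟨fun v => φ (a + v), by simpa using haz, ?_, ?_⟩
  · intro v hv w hw
    rw [hφ.isom _ (hsub v hv) _ (hsub w hw), dist_add_left]
  · intro y hy
    have hy' : y ∈ ball z ρ := by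
      rw [mem_ball] at hy ⊢
      have := dist_triangle y z' z
      rw [dist_comm z' z] at this
      linarith
    obtain ⟨b, hb, hby⟩ := hφ.surj hy'
    refine ⟨b - a, ?_, ?_⟩
    · have h1 := hφ.isom b hb a ha
      rw [hby, haz] at h1
      rw [mem_ball] at hy
      rw [mem_ball, dist_zero_right, ← dist_eq_norm, ← h1]
      exact hy
    · simp only [add_sub_cancel]
      exact hby

/-- a uniform radius on compact sets -/
theorem exists_uniform (h : ∀ z : Y, ∃ ρ > 0, Cht n z ρ) {K : Set Y} (hK : IsCompact K) :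
    ∃ ρ > 0, ∀ z ∈ K, Cht n z ρ := by
  classical
  choose ρ hρ hc using h
  obtain ⟨t, -, ht⟩ := hK.elim_nhds_subcover (fun z => ball z (ρ z / 2))
    (fun z _ => ball_mem_nhds z (by have := hρ z; positivity))
  obtain ⟨δ, hδ, hδt⟩ : ∃ δ > 0, ∀ z ∈ t, δ ≤ ρ z / 2 := by
    rcases t.eq_empty_or_nonempty with rfl | hne
    · exact ⟨1, one_pos, by simp⟩
    · obtain ⟨z0, hz0, hmin⟩ := t.exists_min_image (fun z => ρ z / 2) hne
      exact ⟨ρ z0 / 2, by have := hρ z0; positivity, hmin⟩
  refine ⟨δ, hδ, fun z hz => ?_⟩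
  obtain ⟨y, hy, hzy⟩ := mem_iUnion₂.1 (ht hz)
  refine (hc y).move (z' := z) ?_ hδ
  have h1 := hδt y hy
  rw [mem_ball, dist_comm] at hzy
  linarith

end Crest.Agent.R249.Fl174
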