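import Crest.Agent.R249.Fl1_174

/-!
# R249 (helper174), leaf D2-FLAT (2): the developing map of a locally Euclidean metric space

* `Ext G x r` : `G` maps `ball x r` isometrically onto `ball (G x) r`;
* `LI U D` : `D` is locally (near every point of the open set `U`) of this form;
* `identity_principle`, `exists_ext`, `LI.lip`, `LI.extend`, `exists_developing`.
-/

set_option autoImplicit false
noncomputable section
open Set Filter Topology Metric

namespace Crest.Agent.R249.Fl174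

variable {n : ℕ} {Y : Type*} [MetricSpace Y]

/-- `G` maps `ball x r` isometrically onto `ball (G x) r` -/
structure Ext (G : E n → Y) (x : E n) (r : ℝ) : Prop where
  isom : ∀ v ∈ ball x r, ∀ w ∈ ball x r, dist (G v) (G w) = dist v w
  surj : ball (G x) r ⊆ G '' ball x r

theorem Ext.mono {G : E n → Y} {x : E n} {r r' : ℝ} (h : Ext G x r) (hr : r' ≤ r) :
    Ext G x r' := by
  have hs : ball x r' ⊆ ball x r := ball_subset_ball hr
  refine ⟨fun v hv w hw => h.isom v (hs hv) w (hs hw), fun y hy => ?_⟩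
  obtain ⟨v, hv, rfl⟩ := h.surj (ball_subset_ball hr hy)
  refine ⟨v, ?_, rfl⟩
  have hx : x ∈ ball x r := mem_ball_self (lt_of_le_of_lt dist_nonneg (mem_ball.1 hv))
  rwa [mem_ball, h.isom v hv x hx] at hy

theorem Ext.move {G : E n → Y} {x y : E n} {r s : ℝ} (h : Ext G x r) (hs : 0 < s)
    (hy : dist x y + s ≤ r) : Ext G y s := by
  have hsub : ball y s ⊆ ball x r := ball_subset_ball' (by rw [dist_comm y x]; linarith)
  have hyr : y ∈ ball x r := hsub (mem_ball_self hs)
  have hx : x ∈ ball x r := mem_ball_self (lt_of_le_of_lt dist_nonneg (mem_ball.1 hyr))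
  refine ⟨fun v hv w hw => h.isom v (hsub hv) w (hsub hw), fun z hz => ?_⟩
  have hzr : z ∈ ball (G x) r := by
    rw [mem_ball] at hz ⊢
    have h1 := dist_triangle z (G y) (G x)
    rw [h.isom y hyr x hx, dist_comm y x] at h1
    linarith
  obtain ⟨v, hv, rfl⟩ := h.surj hzr
  refine ⟨v, ?_, rfl⟩
  rwa [mem_ball, h.isom v hv y hyr] at hz

theorem Ext.congr {G G' : E n → Y} {x : E n} {r : ℝ} (hr : 0 < r) (h : Ext G x r)
    (hG : ∀ v ∈ ball x r, G' v = G v) : Ext G' x r := by
  refine ⟨fun v hv w hw => by rw [hG v hv, hG w hw]; exact h.isom v hv w hw, ?_⟩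
  rw [hG x (mem_ball_self hr)]
  intro y hy
  obtain ⟨v, hv, rfl⟩ := h.surj hy
  exact ⟨v, hv, hG v hv⟩

/-- locally an isometry onto an open set -/
def LI (U : Set (E n)) (D : E n → Y) : Prop :=
  ∀ x ∈ U, ∃ r > 0, ball x r ⊆ U ∧ Ext D x r

theorem LI.mono {U V : Set (E n)} {D : E n → Y} (h : LI U D) (hVU : V ⊆ U) (hV : IsOpen V) :
    LI V D := by
  intro x hx
  obtain ⟨r, hr, -, hE⟩ := h x (hVU hx)
  obtain ⟨s, hs, hsV⟩ := Metric.isOpen_iff.1 hV x hx
  refine ⟨min r s, lt_min hr hs, ?_, hE.mono (min_le_left _ _)⟩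
  exact (ball_subset_ball (min_le_right _ _)).trans hsV

theorem LI.congr {U : Set (E n)} {D D' : E n → Y} (h : LI U D) (hD : ∀ x ∈ U, D' x = D x) :
    LI U D' := by
  intro x hx
  obtain ⟨r, hr, hU, hE⟩ := h x hx
  exact ⟨r, hr, hU, hE.congr hr fun v hv => hD v (hU hv)⟩

/-- distance preserving near `x` -/
def IsoAt (D : E n → Y) (x : E n) : Prop :=
  ∃ r > 0, ∀ v ∈ ball x r, ∀ w ∈ ball x r, dist (D v) (D w) = dist v w

theorem LI.isoAt {U : Set (E n)} {D : E n → Y} (h : LI U D) {x : E n} (hx : x ∈ U) :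
    IsoAt D x := by
  obtain ⟨r, hr, -, hE⟩ := h x hx
  exact ⟨r, hr, hE.isom⟩

theorem Ext.isoAt {G : E n → Y} {x y : E n} {r : ℝ} (h : Ext G x r) (hy : y ∈ ball x r) :
    IsoAt G y := by
  have h1 : dist y x < r := hy
  refine ⟨r - dist y x, by linarith, (h.move (s := r - dist y x) (by linarith) ?_).isom⟩
  rw [dist_comm x y]
  linarith

/-- factorisation through a Euclidean chart -/
theorem factor {D : E n → Y} {x : E n} {r ρ : ℝ}
    (hD : ∀ v ∈ ball x r, ∀ w ∈ ball x r, dist (D v) (D w) = dist v w) (hr : 0 < r) (hrρ : r ≤ ρ)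
    {φ : E n → Y} (hφ : IsCht φ (D x) ρ) :
    ∃ L : E n ≃ₗᵢ[ℝ] E n, ∀ v ∈ ball x r, D v = φ (L (v - x)) := by
  classical
  have hx : x ∈ ball x r := mem_ball_self hr
  have h1 : ∀ v : E n, ∃ a ∈ ball (0 : E n) ρ, v ∈ ball x r → φ a = D v := by
    intro v
    by_cases hv : v ∈ ball x r
    · have h2 : D v ∈ ball (D x) ρ := by
        rw [mem_ball, hD v hv x hx]
        exact lt_of_lt_of_le (mem_ball.1 hv) hrρ
      obtain ⟨a, ha, hav⟩ := hφ.surj h2
      exact ⟨a, ha, fun _ => hav⟩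
    · exact ⟨0, mem_ball_self (lt_of_lt_of_le hr hrρ), fun h => absurd h hv⟩
  choose ψ hψ1 hψ2 using h1
  have hψ : ∀ v ∈ ball x r, ∀ w ∈ ball x r, dist (ψ v) (ψ w) = dist v w := by
    intro v hv w hw
    rw [← hφ.isom _ (hψ1 v) _ (hψ1 w), hψ2 v hv, hψ2 w hw, hD v hv w hw]
  obtain ⟨L, hL⟩ := affine_of_isom hr hψ
  have hψx : ψ x = 0 := by
    have h2 := hφ.isom _ (hψ1 x) 0 (mem_ball_self (lt_of_lt_of_le hr hrρ))
    rw [hψ2 x hx, hφ.zero, dist_self] at h2
    exact dist_eq_zero.1 h2.symm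
  refine ⟨L, fun v hv => ?_⟩
  rw [← hψ2 v hv, hL v hv, hψx, zero_add]

/-- **extension**: a germ of isometry extends to the full size of a Euclidean chart -/
theorem exists_ext {D : E n → Y} {x : E n} {r : ℝ} (hr : 0 < r) (hD : IsoAt D x)
    (hc : Cht n (D x) r) : ∃ G : E n → Y, Ext G x r ∧ G =ᶠ[𝓝 x] D := by
  obtain ⟨ε, hε, hD⟩ := hD
  obtain ⟨φ, hφ⟩ := hc
  have hm : 0 < min ε r := lt_min hε hr
  have hsub : ball x (min ε r) ⊆ ball x ε := ball_subset_ball (min_le_left _ _)
  obtain ⟨L, hL⟩ := factor (fun v hv w hw => hD v (hsub hv) w (hsub hw)) hm (min_le_right _ _) hφ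
  have hmem : ∀ v ∈ ball x r, L (v - x) ∈ ball (0 : E n) r := by
    intro v hv
    rw [mem_ball, dist_zero_right, L.norm_map, ← dist_eq_norm]
    exact hv
  refine ⟨fun v => φ (L (v - x)), ⟨?_, ?_⟩, ?_⟩
  · intro v hv w hw
    rw [hφ.isom _ (hmem v hv) _ (hmem w hw), L.dist_map, dist_sub_right]
  · intro y hy
    simp only [sub_self, map_zero, hφ.zero] at hy
    obtain ⟨b, hb, hby⟩ := hφ.surj hy
    refine ⟨x + L.symm b, ?_, ?_⟩
    · rw [mem_ball, dist_eq_norm, add_sub_cancel_left, L.symm.norm_map]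
      simpa using hb
    · simp only [add_sub_cancel_left, LinearIsometryEquiv.apply_symm_apply]
      exact hby
  · filter_upwards [ball_mem_nhds x hm] with v hv
    exact (hL v hv).symm

/-- **identity principle** -/
theorem identity_principle (hY : ∀ z : Y, ∃ ρ > 0, Cht n z ρ) {U : Set (E n)}
    (hU : IsPreconnected U) {D D' : E n → Y} (hD : ∀ x ∈ U, IsoAt D x)
    (hD' : ∀ x ∈ U, IsoAt D' x) {x₀ : E n} (hx₀ : x₀ ∈ U) (h₀ : D =ᶠ[𝓝 x₀] D') :
    ∀ x ∈ U, D =ᶠ[𝓝 x] D' := by
  set S : Set (E n) := {x | D =ᶠ[𝓝 x] D'} with hS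
  have hSo : IsOpen S := isOpen_iff_mem_nhds.2 fun x hx => eventually_eventually_nhds.2 hx
  refine hU.subset_of_closure_inter_subset hSo ⟨x₀, hx₀, h₀⟩ ?_
  rintro x ⟨hxc, hxU⟩
  obtain ⟨r, hr, hDr⟩ := hD x hxU
  obtain ⟨r', hr', hDr'⟩ := hD' x hxU
  obtain ⟨ρ, hρ, φ, hφ⟩ := hY (D x)
  set ε : ℝ := min (min r r') ρ with hε
  have hε0 : 0 < ε := lt_min (lt_min hr hr') hρ
  have hs1 : ball x ε ⊆ ball x r :=
    ball_subset_ball ((min_le_left _ _).trans (min_le_left _ _))
  have hs2 : ball x ε ⊆ ball x r' :=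
    ball_subset_ball ((min_le_left _ _).trans (min_le_right _ _))
  have hx : x ∈ ball x ε := mem_ball_self hε0
  have hi1 : ∀ v ∈ ball x ε, ∀ w ∈ ball x ε, dist (D v) (D w) = dist v w :=
    fun v hv w hw => hDr v (hs1 hv) w (hs1 hw)
  have hi2 : ∀ v ∈ ball x ε, ∀ w ∈ ball x ε, dist (D' v) (D' w) = dist v w :=
    fun v hv w hw => hDr' v (hs2 hv) w (hs2 hw)
  have hxx : D' x = D x := by
    by_contra hne
    have hpos : 0 < dist (D' x) (D x) := dist_pos.2 hne
    obtain ⟨s, hs, hsx⟩ := Metric.mem_closure_iff.1 hxc (min ε (dist (D' x) (D x) / 2))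
      (lt_min hε0 (by positivity))
    have hsε : s ∈ ball x ε := by
      rw [mem_ball, dist_comm]
      exact lt_of_lt_of_le hsx (min_le_left _ _)
    have h1 : D s = D' s := (show D =ᶠ[𝓝 s] D' from hs).self_of_nhds
    have h2 := dist_triangle (D' x) (D' s) (D x)
    rw [hi2 x hx s hsε, ← h1, dist_comm (D s) (D x), hi1 x hx s hsε] at h2
    have h3 := lt_of_lt_of_le hsx (min_le_right _ _)
    linarith
  obtain ⟨L, hL⟩ := factor hi1 hε0 (min_le_right _ _) hφ
  obtain ⟨L', hL'⟩ := factor (φ := φ) hi2 hε0 (min_le_right _ _) (by rw [hxx]; exact hφ)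
  obtain ⟨s, hs, hsx⟩ := Metric.mem_closure_iff.1 hxc ε hε0
  have hsε : s ∈ ball x ε := by
    rw [mem_ball, dist_comm]
    exact hsx
  have hLL : L = L' := by
    have h1 : ∀ᶠ v in 𝓝 s, (0 : E n) + L (v - x) = 0 + L' (v - x) := by
      filter_upwards [(show D =ᶠ[𝓝 s] D' from hs), isOpen_ball.mem_nhds hsε] with v hv hvε
      have h2 : φ (L (v - x)) = φ (L' (v - x)) := by rw [← hL v hvε, ← hL' v hvε, hv]
      have hn : ‖v - x‖ < ρ := by
        rw [← dist_eq_norm]
        exact lt_of_lt_of_le (mem_ball.1 hvε) (min_le_right _ _)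
      have h3 := hφ.isom (L (v - x)) (by rw [mem_ball, dist_zero_right, L.norm_map]; exact hn)
        (L' (v - x)) (by rw [mem_ball, dist_zero_right, L'.norm_map]; exact hn)
      rw [h2, dist_self] at h3
      rw [zero_add, zero_add]
      exact dist_eq_zero.1 h3.symm
    exact (lin_eq_of_eventually h1).2
  change D =ᶠ[𝓝 x] D'
  filter_upwards [ball_mem_nhds x hε0] with v hv
  rw [hL v hv, hL' v hv, hLL]

/-- two isometric pieces which agree near a point of a convex set agree on it -/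
theorem eq_on_convex (hY : ∀ z : Y, ∃ ρ > 0, Cht n z ρ) {U : Set (E n)}
    (hU : Convex ℝ U) {D D' : E n → Y} (hD : ∀ x ∈ U, IsoAt D x)
    (hD' : ∀ x ∈ U, IsoAt D' x) {x₀ : E n} (hx₀ : x₀ ∈ U) (h₀ : D =ᶠ[𝓝 x₀] D')
    {x : E n} (hx : x ∈ U) : D x = D' x :=
  (identity_principle hY hU.isPreconnected hD hD' hx₀ h₀ x hx).self_of_nhds

/-- a local isometry on a convex set has Lipschitz constant one -/
theorem lip_of_isoAt {U : Set (E n)} (hU : Convex ℝ U) {D : E n → Y} (hD : ∀ x ∈ U, IsoAt D x)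
    {a b : E n} (ha : a ∈ U) (hb : b ∈ U) : dist (D a) (D b) ≤ dist a b := by
  set γ : ℝ → E n := fun t => a + t • (b - a) with hγ
  have hγd : ∀ s t : ℝ, dist (γ s) (γ t) = |s - t| * dist a b := by
    intro s t
    rw [dist_eq_norm]
    have : γ s - γ t = (s - t) • (b - a) := by simp only [hγ]; module
    rw [this, norm_smul, Real.norm_eq_abs, dist_comm, dist_eq_norm]
  have hγU : ∀ t ∈ Icc (0 : ℝ) 1, γ t ∈ U := by
    intro t ht
    have := hU.add_smul_sub_mem ha hb ht
    exact this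
  have hγc : Continuous γ := by simp only [hγ]; fun_prop
  set S : Set ℝ := {t | dist (D a) (D (γ t)) ≤ t * dist a b} with hS
  have hDc : ∀ t ∈ Icc (0 : ℝ) 1, ContinuousAt (fun t => D (γ t)) t := by
    intro t ht
    obtain ⟨r, hr, hi⟩ := hD _ (hγU t ht)
    have : ContinuousAt D (γ t) := by
      rw [Metric.continuousAt_iff]
      intro ε hε
      refine ⟨min r ε, lt_min hr hε, fun {y} hy => ?_⟩
      rw [hi y (lt_of_lt_of_le hy (min_le_left _ _)) _ (mem_ball_self hr)]
      exact lt_of_lt_of_le hy (min_le_right _ _)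
    exact this.comp hγc.continuousAt
  have hcl : IsClosed (S ∩ Icc 0 1) := by
    have h1 : ContinuousOn (fun t => dist (D a) (D (γ t)) - t * dist a b) (Icc (0:ℝ) 1) := by
      intro t ht
      have h2 : ContinuousAt (fun t => dist (D a) (D (γ t))) t :=
        Tendsto.dist continuousAt_const (hDc t ht)
      have h3 : ContinuousAt (fun t : ℝ => t * dist a b) t := by fun_prop
      exact (h2.sub h3).continuousWithinAt
    have h2 := h1.preimage_isClosed_of_isClosed isClosed_Icc (isClosed_Iic (a := (0:ℝ)))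
    convert h2 using 1
    ext t
    simp only [hS, mem_inter_iff, mem_ofPred_eq, mem_preimage, mem_Iic, sub_nonpos]
    exact and_comm
  have h0 : (0:ℝ) ∈ S := by
    simp [hS, hγ]
  have hgt : ∀ t ∈ S ∩ Ico (0:ℝ) 1, ∀ y ∈ Ioi t, (S ∩ Ioc t y).Nonempty := by
    rintro t ⟨htS, ht0, ht1⟩ y hy
    obtain ⟨r, hr, hi⟩ := hD _ (hγU t ⟨ht0, ht1.le⟩)
    set d : ℝ := min (y - t) (r / (2 * (dist a b + 1))) with hd
    have hdab : 0 ≤ dist a b := dist_nonneg
    have hd0 : 0 < d := lt_min (by simpa using hy) (by positivity)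
    refine ⟨t + d, ?_, by linarith, by linarith [min_le_left (y - t) (r / (2 * (dist a b + 1)))]⟩
    have h1 : dist (γ t) (γ (t + d)) = d * dist a b := by
      rw [hγd]
      congr 1
      rw [show t - (t + d) = -d by ring, abs_neg, abs_of_pos hd0]
    have h2 : d * dist a b < r := by
      have h3 : d ≤ r / (2 * (dist a b + 1)) := min_le_right _ _
      have h4 : d * (dist a b + 1) ≤ r / 2 := by
        calc d * (dist a b + 1) ≤ r / (2 * (dist a b + 1)) * (dist a b + 1) := by gcongr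
          _ = r / 2 := by field_simp
      nlinarith
    have h5 : dist (D (γ t)) (D (γ (t + d))) = d * dist a b := by
      rw [hi _ (mem_ball_self hr) _ (by rw [mem_ball, dist_comm, h1]; exact h2), h1]
    have h6 : dist (D a) (D (γ t)) ≤ t * dist a b := htS
    have h7 := dist_triangle (D a) (D (γ t)) (D (γ (t + d)))
    change dist (D a) (D (γ (t + d))) ≤ (t + d) * dist a b
    linarith
  have h1 := IsClosed.Icc_subset_of_forall_exists_gt hcl h0 hgt (right_mem_Icc.2 zero_le_one)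
  have h2 : dist (D a) (D (γ 1)) ≤ 1 * dist a b := h1
  simpa [hγ] using h2

/-- **one extension step** -/
theorem LI.extend (hY : ∀ z : Y, ∃ ρ > 0, Cht n z ρ) {R r : ℝ} (hr : 0 < r) (hrR : r ≤ R)
    {D : E n → Y} (hD : LI (ball 0 R) D) (hc : ∀ x ∈ ball (0 : E n) R, Cht n (D x) r) :
    ∃ D' : E n → Y, LI (ball 0 (R + r / 8)) D' ∧ ∀ x ∈ ball (0 : E n) R, D' x = D x := by
  classical
  have hR : 0 < R := lt_of_lt_of_le hr hrR
  have hG : ∀ x : E n, ∃ G : E n → Y, x ∈ ball (0 : E n) R → Ext G x r ∧ G =ᶠ[𝓝 x] D := by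
    intro x
    by_cases hx : x ∈ ball (0 : E n) R
    · obtain ⟨G, h1, h2⟩ := exists_ext hr (hD.isoAt hx) (hc x hx)
      exact ⟨G, fun _ => ⟨h1, h2⟩⟩
    · exact ⟨D, fun h => absurd h hx⟩
  choose G hG using hG
  -- `G x = D` on the common domain
  have hGD : ∀ x ∈ ball (0 : E n) R, ∀ v ∈ ball x r, v ∈ ball (0 : E n) R → G x v = D v := by
    intro x hx v hv hvR
    refine eq_on_convex hY ((convex_ball x r).inter (convex_ball (0 : E n) R))
      (fun y hy => (hG x hx).1.isoAt hy.1) (fun y hy => hD.isoAt hy.2)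
      (x₀ := x) ⟨mem_ball_self hr, hx⟩ (hG x hx).2 ⟨hv, hvR⟩
  -- the projection
  set p : E n → E n := fun z => ((R - r / 8) / ‖z‖) • z with hp
  have hpn : ∀ z : E n, R ≤ ‖z‖ → ‖p z‖ = R - r / 8 := by
    intro z hz
    have hz0 : 0 < ‖z‖ := lt_of_lt_of_le hR hz
    simp only [hp]
    rw [norm_smul, Real.norm_eq_abs, abs_div, abs_of_pos hz0, abs_of_nonneg (by linarith)]
    field_simp
  have hpd : ∀ z : E n, R ≤ ‖z‖ → dist z (p z) = ‖z‖ - (R - r / 8) := by
    intro z hz
    have hz0 : 0 < ‖z‖ := lt_of_lt_of_le hR hz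
    rw [dist_eq_norm]
    have : z - p z = (1 - (R - r / 8) / ‖z‖) • z := by
      simp only [hp]; module
    rw [this, norm_smul, Real.norm_eq_abs, abs_of_nonneg]
    · field_simp
    · rw [sub_nonneg, div_le_one hz0]
      linarith
  have hpR : ∀ z : E n, R ≤ ‖z‖ → p z ∈ ball (0 : E n) R := by
    intro z hz
    rw [mem_ball, dist_zero_right, hpn z hz]
    linarith
  set D' : E n → Y := fun z => if ‖z‖ < R then D z else G (p z) z with hD'
  have hD'1 : ∀ z ∈ ball (0 : E n) R, D' z = D z := by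
    intro z hz
    have : ‖z‖ < R := by simpa using hz
    simp only [hD', if_pos this]
  refine ⟨D', ?_, hD'1⟩
  intro z hz
  by_cases hzR : ‖z‖ < R
  · have hz' : z ∈ ball (0 : E n) R := by simpa using hzR
    obtain ⟨s, hs, hsU, hE⟩ := hD z hz'
    refine ⟨s, hs, hsU.trans (ball_subset_ball (by linarith)), ?_⟩
    exact hE.congr hs fun v hv => hD'1 v (hsU hv)
  · push Not at hzR
    have hzn : ‖z‖ < R + r / 8 := by simpa using hz
    set x := p z with hx
    have hxR : x ∈ ball (0 : E n) R := hpR z hzR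
    have hzx : dist z x < r / 4 := by
      rw [hx, hpd z hzR]
      linarith
    -- a small ball
    set s : ℝ := min (r / 8) (R + r / 8 - ‖z‖) with hs
    have hs0 : 0 < s := lt_min (by positivity) (by linarith)
    have hs8 : s ≤ r / 8 := min_le_left _ _
    have hsub : ball z s ⊆ ball (0 : E n) (R + r / 8) := by
      refine ball_subset_ball' ?_
      rw [dist_zero_right]
      linarith [min_le_right (r / 8) (R + r / 8 - ‖z‖)]
    have hkey : ∀ v ∈ ball z s, D' v = G x v := by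
      intro v hv
      have hvz : dist v z < r / 8 := lt_of_lt_of_le (mem_ball.1 hv) hs8
      have hvx : v ∈ ball x r := by
        rw [mem_ball]
        have := dist_triangle v z x
        linarith
      by_cases hvR : ‖v‖ < R
      · have hvR' : v ∈ ball (0 : E n) R := by simpa using hvR
        rw [hD'1 v hvR', hGD x hxR v hvx hvR']
      · push Not at hvR
        have hvn : ‖v‖ < R + r / 8 := by simpa using hsub hv
        simp only [hD', if_neg (not_lt.2 hvR)]
        set x' := p v with hx'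
        have hx'R : x' ∈ ball (0 : E n) R := hpR v hvR
        have hvx' : dist v x' < r / 4 := by
          rw [hx', hpd v hvR]
          linarith
        have hxx' : x ∈ ball x' r := by
          rw [mem_ball]
          have h1 := dist_triangle x z x'
          have h2 := dist_triangle z v x'
          rw [dist_comm x z] at h1
          rw [dist_comm z v] at h2
          linarith
        refine eq_on_convex hY ((convex_ball x r).inter (convex_ball x' r))
          (fun y hy => (hG x' hx'R).1.isoAt hy.2) (fun y hy => (hG x hxR).1.isoAt hy.1)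
          (x₀ := x) ⟨mem_ball_self hr, hxx'⟩ ?_ ⟨hvx, ?_⟩
        · filter_upwards [(hG x hxR).2, isOpen_ball.mem_nhds hxx', isOpen_ball.mem_nhds hxR]
            with w hw1 hw2 hw3
          rw [hw1, hGD x' hx'R w hw2 hw3]
        · rw [mem_ball]
          linarith
    refine ⟨s, hs0, hsub, ?_⟩
    refine Ext.congr hs0 ((hG x hxR).1.move hs0 ?_) hkey
    rw [dist_comm x z]
    linarith

/-- **the developing map** -/
theorem exists_developing [ProperSpace Y] (hY : ∀ z : Y, ∃ ρ > 0, Cht n z ρ) (y₀ : Y) :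
    ∃ D : E n → Y, LI univ D ∧ D 0 = y₀ := by
  classical
  obtain ⟨ρ₀, hρ₀, φ₀, hφ₀⟩ := hY y₀
  set S : ℝ → Prop := fun R => ∃ D : E n → Y, LI (ball 0 R) D ∧ D =ᶠ[𝓝 0] φ₀ with hS
  have hSmono : ∀ R R', R' ≤ R → S R → S R' := by
    rintro R R' h ⟨D, h1, h2⟩
    exact ⟨D, h1.mono (ball_subset_ball h) isOpen_ball, h2⟩
  have hφE : Ext φ₀ 0 ρ₀ := ⟨hφ₀.isom, by rw [hφ₀.zero]; exact hφ₀.surj⟩
  have hS0 : S ρ₀ := by
    refine ⟨φ₀, fun x hx => ?_, EventuallyEq.rfl⟩
    have h1 : ‖x‖ < ρ₀ := by simpa using hx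
    refine ⟨ρ₀ - ‖x‖, by linarith, ball_subset_ball' (by rw [dist_zero_right]; linarith), ?_⟩
    exact hφE.move (by linarith) (by rw [dist_zero_left]; linarith)
  have hSN : ∀ N : ℝ, S N := by
    intro N
    obtain ⟨r₁, hr₁, hu⟩ := exists_uniform hY (isCompact_closedBall y₀ N)
    set r : ℝ := min r₁ ρ₀ with hr
    have hr0 : 0 < r := lt_min hr₁ hρ₀
    have hclaim : ∀ m : ℕ, ∃ R, S R ∧ ρ₀ ≤ R ∧ (N ≤ R ∨ ρ₀ + m * (r / 8) ≤ R) := by
      intro m
      induction m with
      | zero => exact ⟨ρ₀, hS0, le_rfl, Or.inr (by simp)⟩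
      | succ m ih =>
        obtain ⟨R, hSR, hRρ, hR⟩ := ih
        rcases hR with hR | hR
        · exact ⟨R, hSR, hRρ, Or.inl hR⟩
        · by_cases hRN : N ≤ R
          · exact ⟨R, hSR, hRρ, Or.inl hRN⟩
          · push Not at hRN
            obtain ⟨D, hD1, hD2⟩ := hSR
            have hRpos : 0 < R := lt_of_lt_of_le hρ₀ hRρ
            have hD0 : D 0 = y₀ := by rw [hD2.self_of_nhds, hφ₀.zero]
            have hcc : ∀ x ∈ ball (0 : E n) R, Cht n (D x) r := by
              intro x hx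
              refine (hu (D x) ?_).mono (min_le_left _ _)
              have h1 := lip_of_isoAt (convex_ball (0 : E n) R) (fun y hy => hD1.isoAt hy)
                hx (mem_ball_self hRpos)
              rw [hD0] at h1
              have h2 : dist x 0 < R := hx
              rw [mem_closedBall]
              linarith
            obtain ⟨D', h1, h2⟩ := hD1.extend hY hr0 ((min_le_right _ _).trans hRρ) hcc
            refine ⟨R + r / 8, ⟨D', h1, ?_⟩, by linarith, Or.inr ?_⟩
            · refine EventuallyEq.trans ?_ hD2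
              filter_upwards [ball_mem_nhds (0 : E n) hRpos] with v hv
              exact h2 v hv
            · push_cast
              linarith
    obtain ⟨m, hm⟩ := exists_nat_gt (N / (r / 8))
    obtain ⟨R, hSR, -, hR⟩ := hclaim m
    refine hSmono R N ?_ hSR
    rcases hR with hR | hR
    · exact hR
    · rw [div_lt_iff₀ (by positivity)] at hm
      linarith
  have h1 : ∀ N : ℕ, ∃ D : E n → Y, LI (ball 0 ((N : ℝ) + 1)) D ∧ D =ᶠ[𝓝 0] φ₀ :=
    fun N => hSN _
  choose DD hDD1 hDD2 using h1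
  have hDD : ∀ (N N' : ℕ) (x : E n), ‖x‖ < N + 1 → ‖x‖ < N' + 1 → DD N x = DD N' x := by
    intro N N' x h h'
    refine eq_on_convex hY ((convex_ball (0 : E n) ((N : ℝ) + 1)).inter
      (convex_ball (0 : E n) ((N' : ℝ) + 1)))
      (fun y hy => (hDD1 N).isoAt hy.1) (fun y hy => (hDD1 N').isoAt hy.2)
      (x₀ := 0) ⟨mem_ball_self (by positivity), mem_ball_self (by positivity)⟩
      ((hDD2 N).trans (hDD2 N').symm) ⟨by simpa using h, by simpa using h'⟩
  set D : E n → Y := fun x => DD ⌈‖x‖⌉₊ x with hD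
  have hDe : ∀ (N : ℕ) (x : E n), ‖x‖ < N + 1 → D x = DD N x := by
    intro N x hx
    refine hDD _ _ x ?_ hx
    have := Nat.le_ceil ‖x‖
    linarith
  refine ⟨D, ?_, ?_⟩
  · intro x _
    obtain ⟨N, hN⟩ := exists_nat_gt ‖x‖
    obtain ⟨r, hr, hrU, hE⟩ := hDD1 N x (by simp; linarith)
    refine ⟨r, hr, subset_univ _, hE.congr hr fun v hv => hDe N v ?_⟩
    simpa using hrU hv
  · rw [hDe 0 0 (by simp), (hDD2 0).self_of_nhds, hφ₀.zero]

end Crest.Agent.R249.Fl174
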