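import Mathlib
import Crest.Agent.Lib.ODEFlow

/-!
# R249, leaf D2-FLATLOC, part 1: Frobenius theorem for linear total differential equations

`E, V, W` Banach spaces, `Γ : E → E →L V →L V` smooth on the open set `U` with vanishing curvature
`DΓ(x)(u)(v) - DΓ(x)(v)(u) + Γ(u)Γ(v) - Γ(v)Γ(u) = 0`. Then for every `x0 ∈ U` and `P0 : V →L W` the
equation `DP(x)(u) = P(x) ∘ Γ(x)(u)`, `P(x0) = P0` has a smooth solution on a ball around `x0`
(`exists_frobenius`), and it is unique on convex open sets (`eqOn_of_total`).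
-/

set_option autoImplicit false
set_option maxSynthPendingDepth 3

open Set Filter Topology Metric
open scoped ContDiff

namespace Crest.Agent.R249.Flat676

open Crest.Agent.Lib

noncomputable section

/-- A function on a convex open set which vanishes at one point and whose derivative is controlled
by the function vanishes identically. -/
theorem eqOn_zero_of_norm_fderiv_le {E G : Type*} [NormedAddCommGroup E] [NormedSpace ℝ E]
    [NormedAddCommGroup G] [NormedSpace ℝ G] {s : Set E} (hs : Convex ℝ s)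
    {H : E → G} {H' : E → E →L[ℝ] G} {K : E → ℝ} (hK : ContinuousOn K s)
    (hH : ∀ x ∈ s, HasFDerivAt H (H' x) x) (hb : ∀ x ∈ s, ‖H' x‖ ≤ K x * ‖H x‖)
    {x0 : E} (hx0 : x0 ∈ s) (h0 : H x0 = 0) : ∀ x ∈ s, H x = 0 := by
  intro x hx
  set c : ℝ → E := fun t => x0 + t • (x - x0) with hc
  have hcs : ∀ t ∈ Icc (0 : ℝ) 1, c t ∈ s := fun t ht =>
    hs.add_smul_sub_mem hx0 hx ht
  have hcd : ∀ t, HasDerivAt c (x - x0) t := by
    intro t
    have := ((hasDerivAt_id t).smul_const (x - x0)).const_add x0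
    simpa [hc] using this
  have hcc : Continuous c := continuous_iff_continuousAt.2 fun t => (hcd t).continuousAt
  have hKc : ContinuousOn (fun t => K (c t)) (Icc (0 : ℝ) 1) :=
    hK.comp hcc.continuousOn hcs
  obtain ⟨M, hM⟩ := (isCompact_Icc (a := (0 : ℝ)) (b := 1)).exists_bound_of_continuousOn hKc
  have hd : ∀ t ∈ Icc (0 : ℝ) 1, HasDerivAt (fun t => H (c t)) (H' (c t) (x - x0)) t := fun t ht =>
    (hH _ (hcs t ht)).comp_hasDerivAt t (hcd t)
  have hcont : ContinuousOn (fun t => H (c t)) (Icc (0 : ℝ) 1) := fun t ht =>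
    (hd t ht).continuousAt.continuousWithinAt
  have key := norm_le_gronwallBound_of_norm_deriv_right_le (f := fun t => H (c t))
    (f' := fun t => H' (c t) (x - x0)) (δ := 0) (K := M * ‖x - x0‖) (ε := 0) (a := 0) (b := 1)
    hcont (fun t ht => (hd t (Ico_subset_Icc_self ht)).hasDerivWithinAt) (by
      simp [hc, h0]) (by
      intro t ht
      have ht' := Ico_subset_Icc_self ht
      have h1 := (H' (c t)).le_opNorm (x - x0)
      have h2 := hb _ (hcs t ht')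
      have h3 := hM t ht'
      rw [Real.norm_eq_abs] at h3
      have h4 : K (c t) ≤ M := (le_abs_self _).trans h3
      have h5 : K (c t) * ‖H (c t)‖ ≤ M * ‖H (c t)‖ :=
        mul_le_mul_of_nonneg_right h4 (norm_nonneg _)
      calc ‖H' (c t) (x - x0)‖ ≤ ‖H' (c t)‖ * ‖x - x0‖ := h1
        _ ≤ (M * ‖H (c t)‖) * ‖x - x0‖ :=
            mul_le_mul_of_nonneg_right (h2.trans h5) (norm_nonneg _)
        _ = M * ‖x - x0‖ * ‖H (c t)‖ + 0 := by ring)
    1 (right_mem_Icc.2 zero_le_one)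
  rw [gronwallBound_ε0_δ0] at key
  have h1 : c 1 = x := by simp [hc]
  rw [h1] at key
  exact norm_le_zero_iff.1 key

section Frob

variable {E V W : Type*} [NormedAddCommGroup E] [NormedSpace ℝ E] [NormedAddCommGroup V]
  [NormedSpace ℝ V] [NormedAddCommGroup W] [NormedSpace ℝ W]

/-- the vector field on `E × E × Hom(V,W)` whose integral curves are parallel transports along
straight rays -/
def fld (Γ : E → E →L[ℝ] V →L[ℝ] V) (s : E × (E × (V →L[ℝ] W))) : E × (E × (V →L[ℝ] W)) :=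
  (s.2.1, (0, s.2.2.comp (Γ s.1 s.2.1)))

theorem contDiffOn_fld {Γ : E → E →L[ℝ] V →L[ℝ] V} {U : Set E} (hΓ : ContDiffOn ℝ ∞ Γ U) :
    ContDiffOn ℝ ∞ (fld (W := W) Γ) (U ×ˢ univ) := by
  have h1 : ContDiffOn ℝ ∞ (fun s : E × (E × (V →L[ℝ] W)) => Γ s.1) (U ×ˢ univ) :=
    hΓ.comp contDiff_fst.contDiffOn (fun s hs => hs.1)
  have h2 : ContDiffOn ℝ ∞ (fun s : E × (E × (V →L[ℝ] W)) => Γ s.1 s.2.1) (U ×ˢ univ) :=
    h1.clm_apply (contDiff_fst.comp contDiff_snd).contDiffOn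
  have h3 : ContDiffOn ℝ ∞ (fun s : E × (E × (V →L[ℝ] W)) => s.2.2.comp (Γ s.1 s.2.1))
      (U ×ˢ univ) :=
    ((contDiff_snd.comp contDiff_snd).contDiffOn).clm_comp h2
  exact ((contDiff_fst.comp contDiff_snd).contDiffOn).prodMk (contDiffOn_const.prodMk h3)

theorem fderiv_fld {Γ : E → E →L[ℝ] V →L[ℝ] V} {s : E × (E × (V →L[ℝ] W))}
    (h : DifferentiableAt ℝ Γ s.1) (z : E × (E × (V →L[ℝ] W))) :
    fderiv ℝ (fld Γ) s z = (z.2.1, ((0 : E), z.2.2.comp (Γ s.1 s.2.1)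
      + s.2.2.comp (fderiv ℝ Γ s.1 z.1 s.2.1 + Γ s.1 z.2.1))) := by
  have hfst : HasFDerivAt (fun s : E × (E × (V →L[ℝ] W)) => s.1)
      (ContinuousLinearMap.fst ℝ E (E × (V →L[ℝ] W))) s := hasFDerivAt_fst
  have hsnd : HasFDerivAt (fun s : E × (E × (V →L[ℝ] W)) => s.2)
      (ContinuousLinearMap.snd ℝ E (E × (V →L[ℝ] W))) s := hasFDerivAt_snd
  have hx : HasFDerivAt (fun s : E × (E × (V →L[ℝ] W)) => s.2.1)
      ((ContinuousLinearMap.fst ℝ E (V →L[ℝ] W)).comp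
        (ContinuousLinearMap.snd ℝ E (E × (V →L[ℝ] W)))) s := hsnd.fst
  have hA : HasFDerivAt (fun s : E × (E × (V →L[ℝ] W)) => s.2.2)
      ((ContinuousLinearMap.snd ℝ E (V →L[ℝ] W)).comp
        (ContinuousLinearMap.snd ℝ E (E × (V →L[ℝ] W)))) s := hsnd.snd
  have hG : HasFDerivAt (fun s : E × (E × (V →L[ℝ] W)) => Γ s.1)
      ((fderiv ℝ Γ s.1).comp (ContinuousLinearMap.fst ℝ E (E × (V →L[ℝ] W)))) s :=
    HasFDerivAt.comp (g := Γ) (f := fun s : E × (E × (V →L[ℝ] W)) => s.1) s h.hasFDerivAt hfst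
  have h1 := hA.clm_comp (hG.clm_apply hx)
  have h2 := hx.prodMk ((hasFDerivAt_const (0 : E) s).prodMk h1)
  have h3 : fderiv ℝ (fld Γ) s = _ := h2.fderiv
  rw [h3]
  simp only [ContinuousLinearMap.prod_apply, ContinuousLinearMap.comp_apply,
    ContinuousLinearMap.coe_fst', ContinuousLinearMap.coe_snd', zero_apply, add_apply]
  congr 2
  ext w
  simp
  abel

/-- curvature zero -/
def IsFlat (U : Set E) (Γ : E → E →L[ℝ] V →L[ℝ] V) : Prop :=
  ∀ x ∈ U, ∀ u v : E, fderiv ℝ Γ x u v - fderiv ℝ Γ x v u + (Γ x u).comp (Γ x v)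
    - (Γ x v).comp (Γ x u) = 0

/-- **Frobenius theorem for linear total differential equations.** -/
theorem exists_frobenius [CompleteSpace E] [CompleteSpace W]
    {Γ : E → E →L[ℝ] V →L[ℝ] V} {U : Set E} (hU : IsOpen U)
    (hΓ : ContDiffOn ℝ ∞ Γ U) (hflat : IsFlat U Γ) {x0 : E} (hx0 : x0 ∈ U) (P0 : V →L[ℝ] W) :
    ∃ r > 0, ball x0 r ⊆ U ∧ ∃ P : E → V →L[ℝ] W, ContDiffOn ℝ ∞ P (ball x0 r) ∧ P x0 = P0 ∧
      ∀ x ∈ ball x0 r,
        HasFDerivAt P ((ContinuousLinearMap.compL ℝ V V W (P x)).comp (Γ x)) x := by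
  set v : E × (E × (V →L[ℝ] W)) → E × (E × (V →L[ℝ] W)) := fld Γ with hvdef
  set U' : Set (E × (E × (V →L[ℝ] W))) := U ×ˢ univ with hU'
  have hU'o : IsOpen U' := hU.prod isOpen_univ
  have hvC : ContDiffOn ℝ ((⊤ : ℕ∞) : WithTop ℕ∞) v U' := contDiffOn_fld hΓ
  have hv2 : ContDiffOn ℝ 2 v U' := hvC.of_le (by exact ENat.LEInfty.out)
  have hv1 : ContDiffOn ℝ 1 v U' := hvC.of_le (by exact_mod_cast le_top)
  have hrest : ∀ t : ℝ, ((x0, ((0 : E), P0)), t) ∈ ODEFlow.dom v U' ∧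
      ODEFlow.flow v U' ((x0, ((0 : E), P0)), t) = (x0, ((0 : E), P0)) := fun t =>
    ODEFlow.flow_of_zero hU'o hv1 (x := (x0, ((0 : E), P0))) ⟨hx0, trivial⟩ (by simp [hvdef, fld]) t
  obtain ⟨W0, J, hW0, hJ, hmem, hIJ, hsub⟩ := ODEFlow.exists_prod_subset_dom hU'o hv1
    (x₀ := (x0, ((0 : E), P0))) (a := 0) (b := 1) (fun t _ => (hrest t).1)
  have hpre : ∀ᶠ ξ in 𝓝 (0 : E), (x0, (ξ, P0)) ∈ W0 := by
    have hcont : Continuous fun ξ : E => ((x0, (ξ, P0)) : E × (E × (V →L[ℝ] W))) := by fun_prop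
    exact hcont.continuousAt.eventually_mem (hW0.mem_nhds hmem)
  obtain ⟨r1, hr1, hball1⟩ := Metric.eventually_nhds_iff_ball.1 hpre
  obtain ⟨r2, hr2, hball2⟩ := Metric.isOpen_iff.1 hU x0 hx0
  refine ⟨min r1 r2, lt_min hr1 hr2, (ball_subset_ball (min_le_right _ _)).trans hball2, ?_⟩
  have hdom : ∀ ξ : E, ‖ξ‖ < min r1 r2 → ∀ t ∈ Icc (0 : ℝ) 1,
      ((x0, (ξ, P0)), t) ∈ ODEFlow.dom v U' := by
    intro ξ hξ t ht
    exact hsub ⟨hball1 ξ (by simpa using hξ.trans_le (min_le_left _ _)), hIJ ht⟩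
  have hopen : IsOpen (ODEFlow.dom v U') := ODEFlow.isOpen_dom hU'o hv1
  have hflowC : ContDiffOn ℝ ((⊤ : ℕ∞) : WithTop ℕ∞) (ODEFlow.flow v U') (ODEFlow.dom v U') :=
    ODEFlow.contDiffOn_flow (by simp) hU'o hvC
  -- the flow along the rays
  set Ψ : E → ℝ → E × (E × (V →L[ℝ] W)) := fun ξ t => ODEFlow.flow v U' ((x0, (ξ, P0)), t)
    with hΨ
  have hΨd : ∀ ξ : E, ‖ξ‖ < min r1 r2 → ∀ t ∈ Icc (0 : ℝ) 1,
      HasDerivAt (Ψ ξ) (v (Ψ ξ t)) t := fun ξ hξ t ht =>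
    ODEFlow.hasDerivAt_flow hU'o hv1 (hdom ξ hξ t ht)
  have hΨ0 : ∀ ξ : E, Ψ ξ 0 = (x0, (ξ, P0)) := fun ξ =>
    ODEFlow.flow_zero hU'o hv1 (x := (x0, (ξ, P0))) ⟨hx0, trivial⟩
  have hfst : ∀ {f : ℝ → E × (E × (V →L[ℝ] W))} {f' : E × (E × (V →L[ℝ] W))} {t : ℝ},
      HasDerivAt f f' t → HasDerivAt (fun t => (f t).1) f'.1 t := fun h => h.fst
  have hs1 : ∀ {f : ℝ → E × (E × (V →L[ℝ] W))} {f' : E × (E × (V →L[ℝ] W))} {t : ℝ},
      HasDerivAt f f' t → HasDerivAt (fun t => (f t).2.1) f'.2.1 t := fun h => h.snd.fst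
  have hs2 : ∀ {f : ℝ → E × (E × (V →L[ℝ] W))} {f' : E × (E × (V →L[ℝ] W))} {t : ℝ},
      HasDerivAt f f' t → HasDerivAt (fun t => (f t).2.2) f'.2.2 t := fun h => h.snd.snd
  have hconst : ∀ {G : Type _} [NormedAddCommGroup G] [NormedSpace ℝ G] {f : ℝ → G},
      (∀ t ∈ Icc (0 : ℝ) 1, HasDerivAt f 0 t) → ∀ t ∈ Icc (0 : ℝ) 1, f t = f 0 := by
    intro G _ _ f hf t ht
    exact constant_of_has_deriv_right_zero (f := f) (a := 0) (b := 1)
      (fun s hs => (hf s hs).continuousAt.continuousWithinAt)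
      (fun s hs => (hf s (Ico_subset_Icc_self hs)).hasDerivWithinAt) t ht
  have hΨ21 : ∀ ξ : E, ‖ξ‖ < min r1 r2 → ∀ t ∈ Icc (0 : ℝ) 1, (Ψ ξ t).2.1 = ξ := by
    intro ξ hξ t ht
    have h := hconst (f := fun t => (Ψ ξ t).2.1) (fun s hs => hs1 (hΨd ξ hξ s hs)) t ht
    simp only [hΨ0] at h
    exact h
  have hΨ1 : ∀ ξ : E, ‖ξ‖ < min r1 r2 → ∀ t ∈ Icc (0 : ℝ) 1, (Ψ ξ t).1 = x0 + t • ξ := by
    intro ξ hξ t ht
    have h := hconst (f := fun t => (Ψ ξ t).1 - t • ξ) (fun s hs => by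
      have h1 := hfst (hΨd ξ hξ s hs)
      have h2 := (hasDerivAt_id s).smul_const ξ
      have h3 := h1.sub h2
      have h4 : (v (Ψ ξ s)).1 - (1 : ℝ) • ξ = 0 := by
        have : (v (Ψ ξ s)).1 = (Ψ ξ s).2.1 := rfl
        rw [this, hΨ21 ξ hξ s hs]; simp
      rw [h4] at h3
      exact h3) t ht
    simp only [hΨ0, zero_smul, sub_zero] at h
    exact sub_eq_iff_eq_add.1 h
  -- main computation
  have hmain : ∀ ξ : E, ‖ξ‖ < min r1 r2 → ∀ u : E,
      (fderiv ℝ (ODEFlow.flow v U') ((x0, (ξ, P0)), (1 : ℝ)) (((0 : E), (u, (0 : V →L[ℝ] W))), 0)).2.2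
        = (Ψ ξ 1).2.2.comp (Γ (x0 + ξ) u) := by
    intro ξ hξ u
    set Z : ℝ → E × (E × (V →L[ℝ] W)) := fun t =>
      fderiv ℝ (ODEFlow.flow v U') ((x0, (ξ, P0)), t) (((0 : E), (u, (0 : V →L[ℝ] W))), 0) with hZ
    have hmemU : ∀ t ∈ Icc (0 : ℝ) 1, x0 + t • ξ ∈ U := by
      intro t ht
      have := ODEFlow.flow_mem hU'o hv1 (hdom ξ hξ t ht)
      have h2 : (Ψ ξ t).1 ∈ U := this.1
      rwa [hΨ1 ξ hξ t ht] at h2
    have hΓd : ∀ t ∈ Icc (0 : ℝ) 1, DifferentiableAt ℝ Γ (x0 + t • ξ) := fun t ht =>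
      (hΓ.contDiffAt (hU.mem_nhds (hmemU t ht))).differentiableAt (by simp)
    have hZd : ∀ t ∈ Icc (0 : ℝ) 1, HasDerivAt Z (fderiv ℝ v (Ψ ξ t) (Z t)) t := fun t ht =>
      ODEFlow.hasDerivAt_fderiv_flow hU'o hv2 (hdom ξ hξ t ht) _
    have hZ0 : Z 0 = ((0 : E), (u, (0 : V →L[ℝ] W))) :=
      ODEFlow.fderiv_flow_zero hU'o hv1 (x := (x0, (ξ, P0))) ⟨hx0, trivial⟩ _
    have hZd' : ∀ t ∈ Icc (0 : ℝ) 1, HasDerivAt Z ((Z t).2.1, ((0 : E),
        (Z t).2.2.comp (Γ (x0 + t • ξ) ξ) + (Ψ ξ t).2.2.comp (fderiv ℝ Γ (x0 + t • ξ) (Z t).1 ξ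
          + Γ (x0 + t • ξ) (Z t).2.1))) t := by
      intro t ht
      have h1 := hZd t ht
      rw [hvdef, fderiv_fld (by rw [hΨ1 ξ hξ t ht]; exact hΓd t ht), hΨ1 ξ hξ t ht,
        hΨ21 ξ hξ t ht] at h1
      exact h1
    have hZ21 : ∀ t ∈ Icc (0 : ℝ) 1, (Z t).2.1 = u := by
      intro t ht
      have h := hconst (f := fun t => (Z t).2.1) (fun s hs => hs1 (hZd' s hs)) t ht
      simp only [hZ0] at h
      exact h
    have hZ1 : ∀ t ∈ Icc (0 : ℝ) 1, (Z t).1 = t • u := by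
      intro t ht
      have h := hconst (f := fun t => (Z t).1 - t • u) (fun s hs => by
        have h1 := hfst (hZd' s hs)
        have h2 := (hasDerivAt_id s).smul_const u
        have h3 := h1.sub h2
        have h4 : (Z s).2.1 - (1 : ℝ) • u = 0 := by
          rw [hZ21 s hs]; simp
        simp only [h4] at h3
        exact h3) t ht
      simp only [hZ0, zero_smul, sub_zero] at h
      exact sub_eq_zero.1 h
    -- the defect
    set B : ℝ → V →L[ℝ] W := fun t => (Z t).2.2 - (Ψ ξ t).2.2.comp (Γ (x0 + t • ξ) (t • u)) with hB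
    have hΓc : ∀ t ∈ Icc (0 : ℝ) 1, HasDerivAt (fun t : ℝ => Γ (x0 + t • ξ))
        (fderiv ℝ Γ (x0 + t • ξ) ξ) t := by
      intro t ht
      have h1 : HasDerivAt (fun t : ℝ => x0 + t • ξ) ξ t := by
        simpa using ((hasDerivAt_id t).smul_const ξ).const_add x0
      exact (hΓd t ht).hasFDerivAt.comp_hasDerivAt t h1
    have hΨ22 : ∀ t ∈ Icc (0 : ℝ) 1, HasDerivAt (fun t => (Ψ ξ t).2.2)
        ((Ψ ξ t).2.2.comp (Γ (x0 + t • ξ) ξ)) t := by
      intro t ht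
      have h1 := hs2 (hΨd ξ hξ t ht)
      have h2 : (v (Ψ ξ t)).2.2 = (Ψ ξ t).2.2.comp (Γ (Ψ ξ t).1 (Ψ ξ t).2.1) := rfl
      rw [h2, hΨ1 ξ hξ t ht, hΨ21 ξ hξ t ht] at h1
      exact h1
    have hBd : ∀ t ∈ Icc (0 : ℝ) 1, HasDerivAt B ((B t).comp (Γ (x0 + t • ξ) ξ)) t := by
      intro t ht
      have h1 := hs2 (hZd' t ht)
      have h2 : HasDerivAt (fun t : ℝ => Γ (x0 + t • ξ) (t • u))
          (fderiv ℝ Γ (x0 + t • ξ) ξ (t • u) + Γ (x0 + t • ξ) u) t := by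
        have := (hΓc t ht).clm_apply ((hasDerivAt_id t).smul_const u)
        simpa using this
      have h3 := (hΨ22 t ht).clm_comp h2
      have h4 := h1.sub h3
      refine h4.congr_deriv ?_
      have hf := hflat _ (hmemU t ht) (t • u) ξ
      have hf2 := congrArg (fun L : V →L[ℝ] V => (Ψ ξ t).2.2.comp L) hf
      simp only [hB]
      simp only [hZ1 t ht, hZ21 t ht]
      ext w
      have hf3 := DFunLike.congr_fun hf2 w
      simp only [ContinuousLinearMap.comp_apply, sub_apply, add_apply, map_sub, map_add,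
        ContinuousLinearMap.comp_zero, zero_apply] at hf3 ⊢
      have := sub_eq_zero.1 hf3
      rw [← sub_eq_zero] at hf3 ⊢
      rw [← hf3]
      abel
    have hKc : ContinuousOn (fun t : ℝ => Γ (x0 + t • ξ) ξ) (Icc (0 : ℝ) 1) := fun t ht =>
      ((hΓc t ht).continuousAt.clm_apply continuousAt_const).continuousWithinAt
    obtain ⟨M, hM⟩ := (isCompact_Icc (a := (0 : ℝ)) (b := 1)).exists_bound_of_continuousOn hKc
    have key := norm_le_gronwallBound_of_norm_deriv_right_le (f := B)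
      (f' := fun t => (B t).comp (Γ (x0 + t • ξ) ξ)) (δ := 0) (K := M) (ε := 0) (a := 0) (b := 1)
      (fun t ht => (hBd t ht).continuousAt.continuousWithinAt)
      (fun t ht => (hBd t (Ico_subset_Icc_self ht)).hasDerivWithinAt) (by
        simp [hB, hZ0]) (by
        intro t ht
        have ht' := Ico_subset_Icc_self ht
        calc ‖(B t).comp (Γ (x0 + t • ξ) ξ)‖ ≤ ‖B t‖ * ‖Γ (x0 + t • ξ) ξ‖ :=
              ContinuousLinearMap.opNorm_comp_le _ _
          _ ≤ ‖B t‖ * M := mul_le_mul_of_nonneg_left (hM t ht') (norm_nonneg _)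
          _ = M * ‖B t‖ + 0 := by ring)
      1 (right_mem_Icc.2 zero_le_one)
    rw [gronwallBound_ε0_δ0] at key
    have hB1 : B 1 = 0 := norm_le_zero_iff.1 key
    have h5 := sub_eq_zero.1 hB1
    simp only [one_smul] at h5
    exact h5
  -- definition of the solution
  refine ⟨fun x => (ODEFlow.flow v U' ((x0, (x - x0, P0)), (1 : ℝ))).2.2, ?_, ?_, ?_⟩
  · have hin : ContDiff ℝ ((⊤ : ℕ∞) : WithTop ℕ∞) (fun x : E =>
        (((x0, (x - x0, P0)), (1 : ℝ)) : (E × (E × (V →L[ℝ] W))) × ℝ)) := by fun_prop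
    have h1 := hflowC.comp (s := ball x0 (min r1 r2)) hin.contDiffOn (fun x hx =>
      hdom (x - x0) (by simpa [dist_eq_norm] using hx) 1 (right_mem_Icc.2 zero_le_one))
    exact (contDiff_snd.comp contDiff_snd).comp_contDiffOn h1
  · simp only [sub_self]
    rw [(hrest 1).2]
  · intro x hx
    have hξ : ‖x - x0‖ < min r1 r2 := by simpa [dist_eq_norm] using hx
    have hd : DifferentiableAt ℝ (ODEFlow.flow v U') ((x0, (x - x0, P0)), (1 : ℝ)) :=
      (hflowC.contDiffAt (hopen.mem_nhds (hdom _ hξ 1 (right_mem_Icc.2 zero_le_one)))).differentiableAt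
        (by simp)
    have hin : HasFDerivAt (fun x : E =>
        (((x0, (x - x0, P0)), (1 : ℝ)) : (E × (E × (V →L[ℝ] W))) × ℝ))
        (((0 : E →L[ℝ] E).prod ((ContinuousLinearMap.id ℝ E).prod (0 : E →L[ℝ] (V →L[ℝ] W)))).prod
          (0 : E →L[ℝ] ℝ)) x :=
      ((hasFDerivAt_const x0 x).prodMk (((hasFDerivAt_id x).sub_const x0).prodMk
        (hasFDerivAt_const P0 x))).prodMk (hasFDerivAt_const (1 : ℝ) x)
    have h1 := HasFDerivAt.comp x hd.hasFDerivAt hin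
    have h2 := h1.snd.snd
    refine h2.congr_fderiv ?_
    ext u : 1
    have h3 := hmain (x - x0) hξ u
    rw [add_sub_cancel] at h3
    simpa using h3

/-- uniqueness for total differential equations on convex sets -/
theorem eqOn_of_total {Γ : E → E →L[ℝ] V →L[ℝ] V} {U : Set E} (hU : Convex ℝ U)
    (hΓ : ContinuousOn Γ U) {P Q : E → V →L[ℝ] W}
    (hP : ∀ x ∈ U, HasFDerivAt P ((ContinuousLinearMap.compL ℝ V V W (P x)).comp (Γ x)) x)
    (hQ : ∀ x ∈ U, HasFDerivAt Q ((ContinuousLinearMap.compL ℝ V V W (Q x)).comp (Γ x)) x)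
    {x0 : E} (hx0 : x0 ∈ U) (h0 : P x0 = Q x0) : ∀ x ∈ U, P x = Q x := by
  intro x hx
  have h := eqOn_zero_of_norm_fderiv_le (H := fun x => P x - Q x)
    (H' := fun x => (ContinuousLinearMap.compL ℝ V V W (P x - Q x)).comp (Γ x))
    (K := fun x => ‖Γ x‖) hU hΓ.norm (fun y hy => by
      refine ((hP y hy).sub (hQ y hy)).congr_fderiv ?_
      rw [map_sub, ContinuousLinearMap.sub_comp]) (fun y hy => by
      refine ContinuousLinearMap.opNorm_le_bound _ (by positivity) fun u => ?_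
      simp only [ContinuousLinearMap.comp_apply, ContinuousLinearMap.compL_apply]
      calc ‖(P y - Q y).comp (Γ y u)‖ ≤ ‖P y - Q y‖ * ‖Γ y u‖ :=
            ContinuousLinearMap.opNorm_comp_le _ _
        _ ≤ ‖P y - Q y‖ * (‖Γ y‖ * ‖u‖) :=
            mul_le_mul_of_nonneg_left ((Γ y).le_opNorm u) (norm_nonneg _)
        _ = ‖Γ y‖ * ‖P y - Q y‖ * ‖u‖ := by ring) hx0 (by simp [h0]) x hx
  exact sub_eq_zero.1 h

end Frob

end

end Crest.Agent.R249.Flat676
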