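import Mathlib

/-!
Frame calculus over a differential ring (row 249, helper129).

`S` is a commutative ℝ-algebra (germs of smooth functions), `D k` derivations (an orthonormal
frame `e_k`), `w k i j = ⟨∇_{e_k} e_i, e_j⟩`.
-/

set_option autoImplicit false

namespace Crest.Agent.R249.Fr129

open Finset

/-- An orthonormal frame with its Levi-Civita connection, over a commutative ring of functions. -/
structure Frame (n : ℕ) (S : Type*) [CommRing S] [Algebra ℝ S] where
  /-- derivative in the direction of the `k`-th frame vector -/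
  D : Fin n → Derivation ℝ S S
  /-- `w k i j = ⟨∇_{e_k} e_i, e_j⟩` -/
  w : Fin n → Fin n → Fin n → S
  anti : ∀ k i j, w k i j = - w k j i
  tors : ∀ k l f, D k (D l f) - D l (D k f) = ∑ m, (w k l m - w l k m) * D m f
  indep : ∀ c : Fin n → S, (∀ f, ∑ m, c m * D m f = 0) → ∀ m, c m = 0

namespace Frame

variable {n : ℕ} {S : Type*} [CommRing S] [Algebra ℝ S] (F : Frame n S)

/-- torsion coefficients: `[e_k, e_l] = ∑ T k l m e_m` -/
def T (k l m : Fin n) : S := F.w k l m - F.w l k m

lemma T_anti (k l m : Fin n) : F.T k l m = - F.T l k m := by simp [T]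

lemma tors' (k l : Fin n) (f : S) :
    F.D k (F.D l f) = F.D l (F.D k f) + ∑ m, F.T k l m * F.D m f := by
  have := F.tors k l f
  simp only [T]
  rw [← this]; ring

lemma D_sum (k : Fin n) {ι : Type*} (s : Finset ι) (f : ι → S) :
    F.D k (∑ i ∈ s, f i) = ∑ i ∈ s, F.D k (f i) := map_sum _ _ _

lemma D_mul (k : Fin n) (f g : S) : F.D k (f * g) = F.D k f * g + f * F.D k g := by
  rw [Derivation.leibniz]; simp only [smul_eq_mul]; ring

/-- Jacobi identity for the frame. -/
lemma jacobi (j k l m : Fin n) :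
    F.D j (F.T k l m) + F.D k (F.T l j m) + F.D l (F.T j k m)
      + ∑ p, (F.T k l p * F.T j p m + F.T l j p * F.T k p m + F.T j k p * F.T l p m) = 0 := by
  have key : ∀ f, ∑ m, (F.D j (F.T k l m) + F.D k (F.T l j m) + F.D l (F.T j k m)
      + ∑ p, (F.T k l p * F.T j p m + F.T l j p * F.T k p m + F.T j k p * F.T l p m)) * F.D m f
        = 0 := by
    intro f
    -- [D_j,[D_k,D_l]] f + cyc = 0
    have h : ∀ j k l : Fin n, F.D j (∑ m, F.T k l m * F.D m f) - ∑ m, F.T k l m * F.D m (F.D j f)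
        = ∑ m, (F.D j (F.T k l m) + ∑ p, F.T k l p * F.T j p m) * F.D m f := by
      intro j k l
      rw [D_sum]
      have h1 : ∀ m, F.D j (F.T k l m * F.D m f) = F.D j (F.T k l m) * F.D m f
          + F.T k l m * F.D m (F.D j f) + ∑ p, F.T k l m * (F.T j m p * F.D p f) := by
        intro m
        rw [D_mul, tors' F j m f, mul_add, mul_sum]; ring
      simp_rw [h1, sum_add_distrib, add_mul, sum_add_distrib, sum_mul]
      rw [sum_comm (f := fun m p => F.T k l m * (F.T j m p * F.D p f))]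
      have : ∀ p m : Fin n, F.T k l m * (F.T j m p * F.D p f) = F.T k l m * F.T j m p * F.D p f := by
        intros; ring
      simp_rw [this]
      ring
    have hc : ∀ k l : Fin n, ∑ m, F.T k l m * F.D m f = F.D k (F.D l f) - F.D l (F.D k f) := by
      intro k l; rw [tors' F k l f]; ring
    have hc2 : ∀ j k l : Fin n, ∑ m, F.T k l m * F.D m (F.D j f)
        = F.D k (F.D l (F.D j f)) - F.D l (F.D k (F.D j f)) := by
      intro j k l; rw [tors' F k l (F.D j f)]; ring
    have e : ∑ m, (F.D j (F.T k l m) + F.D k (F.T l j m) + F.D l (F.T j k m)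
      + ∑ p, (F.T k l p * F.T j p m + F.T l j p * F.T k p m + F.T j k p * F.T l p m)) * F.D m f
      = ∑ m, (F.D j (F.T k l m) + ∑ p, F.T k l p * F.T j p m) * F.D m f
        + ∑ m, (F.D k (F.T l j m) + ∑ p, F.T l j p * F.T k p m) * F.D m f
        + ∑ m, (F.D l (F.T j k m) + ∑ p, F.T j k p * F.T l p m) * F.D m f := by
      rw [← sum_add_distrib, ← sum_add_distrib]
      refine sum_congr rfl fun m _ => ?_
      rw [sum_add_distrib, sum_add_distrib]; ring
    rw [e, ← h, ← h, ← h, hc, hc, hc, hc2, hc2, hc2, map_sub, map_sub, map_sub]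
    ring
  exact F.indep _ key m

/-- Riemann tensor `R i j k l = ⟨R(e_i,e_j) e_k, e_l⟩`. -/
def Rm (i j k l : Fin n) : S :=
  F.D i (F.w j k l) - F.D j (F.w i k l) + ∑ m, (F.w j k m * F.w i m l - F.w i k m * F.w j m l)
    - ∑ m, F.T i j m * F.w m k l

lemma Rm_anti12 (i j k l : Fin n) : F.Rm i j k l = - F.Rm j i k l := by
  have h1 : ∑ m, F.T i j m * F.w m k l = - ∑ m, F.T j i m * F.w m k l := by
    rw [← sum_neg_distrib]; exact sum_congr rfl fun m _ => by rw [F.T_anti i j m]; ring
  have h2 : ∑ m, (F.w j k m * F.w i m l - F.w i k m * F.w j m l)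
      = - ∑ m, (F.w i k m * F.w j m l - F.w j k m * F.w i m l) := by
    rw [← sum_neg_distrib]; exact sum_congr rfl fun m _ => by ring
  rw [Rm, Rm, h1, h2]; ring

lemma Rm_anti34 (i j k l : Fin n) : F.Rm i j k l = - F.Rm i j l k := by
  have h1 : ∑ m, F.T i j m * F.w m k l = - ∑ m, F.T i j m * F.w m l k := by
    rw [← sum_neg_distrib]; exact sum_congr rfl fun m _ => by rw [F.anti m k l]; ring
  have h2 : ∑ m, (F.w j k m * F.w i m l - F.w i k m * F.w j m l)
      = - ∑ m, (F.w j l m * F.w i m k - F.w i l m * F.w j m k) := by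
    rw [← sum_neg_distrib]
    exact sum_congr rfl fun m _ => by
      rw [F.anti j k m, F.anti i m l, F.anti i k m, F.anti j m l]; ring
  rw [Rm, Rm, h1, h2, F.anti j k l, F.anti i k l, map_neg, map_neg]; ring

/-- First Bianchi identity. -/
lemma bianchi1 (i j k l : Fin n) : F.Rm i j k l + F.Rm j k i l + F.Rm k i j l = 0 := by
  have hJ := F.jacobi i j k l
  simp only [Rm]
  have hT : ∀ a b c : Fin n, F.D a (F.T b c l) = F.D a (F.w b c l) - F.D a (F.w c b l) := by
    intro a b c; rw [T, map_sub]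
  rw [hT, hT, hT] at hJ
  have : ∑ m, (F.w j k m * F.w i m l - F.w i k m * F.w j m l)
      + ∑ m, (F.w k i m * F.w j m l - F.w j i m * F.w k m l)
      + ∑ m, (F.w i j m * F.w k m l - F.w k j m * F.w i m l)
      - ∑ m, F.T i j m * F.w m k l - ∑ m, F.T j k m * F.w m i l - ∑ m, F.T k i m * F.w m j l
      = ∑ p, (F.T j k p * F.T i p l + F.T k i p * F.T j p l + F.T i j p * F.T k p l) := by
    rw [← sum_add_distrib, ← sum_add_distrib, ← sum_sub_distrib, ← sum_sub_distrib,
      ← sum_sub_distrib]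
    refine sum_congr rfl fun m _ => ?_
    simp only [T]; ring
  linear_combination hJ + this

lemma eq_zero_of_two {x : S} (h : 2 * x = 0) : x = 0 := by
  have : x = (algebraMap ℝ S (1/2)) * (2 * x) := by
    have h2 : (algebraMap ℝ S (1/2)) * 2 = 1 := by
      have : (2 : S) = algebraMap ℝ S 2 := (map_ofNat (algebraMap ℝ S) 2).symm
      rw [this, ← map_mul]; norm_num
    rw [← mul_assoc, h2, one_mul]
  rw [this, h, mul_zero]

lemma eq_of_two {x y : S} (h : 2 * x = 2 * y) : x = y := by
  have : x - y = 0 := eq_zero_of_two (by rw [mul_sub, h, sub_self])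
  exact sub_eq_zero.mp this

/-- Pair symmetry. -/
lemma Rm_pair (i j k l : Fin n) : F.Rm i j k l = F.Rm k l i j := by
  apply eq_of_two
  have h1 := F.bianchi1 i j k l
  have h2 := F.bianchi1 j k l i
  have h3 := F.bianchi1 k l i j
  have h4 := F.bianchi1 l i j k
  have e1 := F.Rm_anti34 j k l i
  have e2 := F.Rm_anti34 k l j i
  have e3 := F.Rm_anti12 l j k i
  have e4 : F.Rm l i k j = F.Rm i l j k := by rw [F.Rm_anti12 l i k j, F.Rm_anti34 i l k j, neg_neg]
  have e5 : F.Rm i k l j = F.Rm k i j l := by rw [F.Rm_anti12 i k l j, F.Rm_anti34 k i l j, neg_neg]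
  have e6 := F.Rm_anti12 l i j k
  have e7 := F.Rm_anti34 i j l k
  have e8 := F.Rm_anti34 j l i k
  linear_combination h1 + h2 - h3 - h4 - e1 - e2 - e3 + e4 + e5 + e6 + e7 + e8

end Frame

end Crest.Agent.R249.Fr129
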