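import Crest.Agent.R249.FrA_129

/-!
Vector bundles with connection over a frame ring: covariant derivatives, curvature, Ricci identity,
second Bianchi identity. (row 249, helper129)
-/

set_option autoImplicit false

namespace Crest.Agent.R249.Fr129

open Finset Matrix

namespace Frame

variable {n : ℕ} {S : Type*} [CommRing S] [Algebra ℝ S] (F : Frame n S)
variable {ι : Type*} [Fintype ι] [DecidableEq ι]

/-- Covariant derivative `∇_{e_k} u` of a section `u : ι → S`, connection matrices `a k`. -/
def cov (a : Fin n → Matrix ι ι S) (k : Fin n) (u : ι → S) : ι → S :=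
  fun i => F.D k (u i) + ∑ j, a k i j * u j

/-- Curvature matrices of the connection `a`. -/
def curv (a : Fin n → Matrix ι ι S) (k l : Fin n) : Matrix ι ι S := fun i j =>
  F.D k (a l i j) - F.D l (a k i j) + ∑ p, (a k i p * a l p j - a l i p * a k p j)
    - ∑ m, F.T k l m * a m i j

/-- Second covariant derivative `∇²_{e_k,e_l} u`. -/
def hess (a : Fin n → Matrix ι ι S) (k l : Fin n) (u : ι → S) : ι → S :=
  fun i => F.cov a k (F.cov a l u) i - ∑ m, F.w k l m * F.cov a m u i

/-- Rough Laplacian. -/
def lap (a : Fin n → Matrix ι ι S) (u : ι → S) : ι → S := fun i => ∑ k, F.hess a k k u i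

/-- Covariant derivative of an endomorphism valued function. -/
def covE (a : Fin n → Matrix ι ι S) (k : Fin n) (M : Matrix ι ι S) : Matrix ι ι S := fun i j =>
  F.D k (M i j) + ∑ p, (a k i p * M p j - M i p * a k p j)

variable (a : Fin n → Matrix ι ι S)

omit [DecidableEq ι] in
lemma curv_anti (k l : Fin n) (i j : ι) : F.curv a k l i j = - F.curv a l k i j := by
  have h1 : ∑ m, F.T k l m * a m i j = - ∑ m, F.T l k m * a m i j := by
    rw [← sum_neg_distrib]; exact sum_congr rfl fun m _ => by rw [F.T_anti k l m]; ring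
  have h2 : ∑ p, (a k i p * a l p j - a l i p * a k p j)
      = - ∑ p, (a l i p * a k p j - a k i p * a l p j) := by
    rw [← sum_neg_distrib]; exact sum_congr rfl fun m _ => by ring
  rw [curv, curv, h1, h2]; ring

omit [DecidableEq ι] in
lemma cov_add (k : Fin n) (u v : ι → S) : F.cov a k (u + v) = F.cov a k u + F.cov a k v := by
  funext i; simp only [cov, Pi.add_apply, map_add, mul_add, sum_add_distrib]; ring

omit [DecidableEq ι] in
lemma cov_neg (k : Fin n) (u : ι → S) : F.cov a k (-u) = -F.cov a k u := by
  funext i; simp only [cov, Pi.neg_apply, map_neg, mul_neg, sum_neg_distrib]; ring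

omit [DecidableEq ι] in
lemma cov_sub (k : Fin n) (u v : ι → S) : F.cov a k (u - v) = F.cov a k u - F.cov a k v := by
  rw [sub_eq_add_neg, cov_add, cov_neg, sub_eq_add_neg]

omit [DecidableEq ι] in
lemma cov_smul (k : Fin n) (f : S) (u : ι → S) :
    F.cov a k (f • u) = F.D k f • u + f • F.cov a k u := by
  funext i; simp only [cov, Pi.add_apply, Pi.smul_apply, smul_eq_mul, D_mul, mul_add, mul_sum]
  have : ∀ j, a k i j * (f * u j) = f * (a k i j * u j) := by intro j; ring
  simp_rw [this]; ring

omit [DecidableEq ι] in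
lemma cov_sum (k : Fin n) {κ : Type*} (s : Finset κ) (u : κ → ι → S) :
    F.cov a k (∑ x ∈ s, u x) = ∑ x ∈ s, F.cov a k (u x) := by
  classical
  induction s using Finset.induction_on with
  | empty =>
      simp only [sum_empty]
      funext i; simp [cov]
  | insert x s hx ih => rw [sum_insert hx, cov_add, ih, sum_insert hx]

omit [DecidableEq ι] in
/-- Commutator of covariant derivatives. -/
lemma cov_comm (k l : Fin n) (u : ι → S) :
    F.cov a k (F.cov a l u) = F.cov a l (F.cov a k u) + F.curv a k l *ᵥ u
      + ∑ m, F.T k l m • F.cov a m u := by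
  funext i
  simp only [cov, curv, Pi.add_apply, Matrix.mulVec, dotProduct, Finset.sum_apply, Pi.smul_apply,
    smul_eq_mul]
  have e1 : ∀ k l : Fin n, F.D k (F.D l (u i) + ∑ j, a l i j * u j)
      + ∑ j, a k i j * (F.D l (u j) + ∑ p, a l j p * u p)
      = F.D k (F.D l (u i)) + ∑ j, (F.D k (a l i j) * u j + a l i j * F.D k (u j)
        + a k i j * F.D l (u j) + (∑ p, a k i p * a l p j) * u j) := by
    intro k l
    rw [map_add, D_sum]
    simp_rw [D_mul, mul_add, sum_add_distrib, mul_sum, sum_mul]
    rw [sum_comm (f := fun j p => a k i j * (a l j p * u p))]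
    have : ∀ p j, a k i j * (a l j p * u p) = a k i j * a l j p * u p := by intros; ring
    simp_rw [this]; ring
  rw [e1, e1, tors' F k l (u i)]
  have e2 : ∑ j, (F.D k (a l i j) - F.D l (a k i j) + ∑ p, (a k i p * a l p j - a l i p * a k p j)
      - ∑ m, F.T k l m * a m i j) * u j
      = ∑ j, (F.D k (a l i j) * u j - F.D l (a k i j) * u j + (∑ p, a k i p * a l p j) * u j
        - (∑ p, a l i p * a k p j) * u j) - ∑ m, F.T k l m * ∑ j, a m i j * u j := by
    have hA : ∑ m, F.T k l m * ∑ j, a m i j * u j = ∑ j, (∑ m, F.T k l m * a m i j) * u j := by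
      simp_rw [mul_sum, sum_mul]
      rw [sum_comm]
      exact sum_congr rfl fun j _ => sum_congr rfl fun m _ => by ring
    rw [hA, ← sum_sub_distrib]
    refine sum_congr rfl fun j _ => ?_
    rw [sum_sub_distrib]; ring
  have e3 : ∑ m, F.T k l m * (F.D m (u i) + ∑ j, a m i j * u j)
      = ∑ m, F.T k l m * F.D m (u i) + ∑ m, F.T k l m * ∑ j, a m i j * u j := by
    simp_rw [mul_add, sum_add_distrib]
  rw [e2, e3]
  simp only [sum_add_distrib, sum_sub_distrib]
  ring

omit [DecidableEq ι] in
/-- Ricci identity. -/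
lemma hess_comm (k l : Fin n) (u : ι → S) :
    F.hess a k l u = F.hess a l k u + F.curv a k l *ᵥ u := by
  funext i
  have h := congrFun (F.cov_comm a k l u) i
  simp only [Pi.add_apply, Finset.sum_apply, Pi.smul_apply, smul_eq_mul] at h
  simp only [hess, Pi.add_apply]
  rw [h]
  have : ∑ m, F.T k l m * F.cov a m u i = ∑ m, F.w k l m * F.cov a m u i
      - ∑ m, F.w l k m * F.cov a m u i := by
    rw [← sum_sub_distrib]; exact sum_congr rfl fun m _ => by rw [T]; ring
  rw [this]; ring

omit [DecidableEq ι] in
lemma cov_mulVec (k : Fin n) (M : Matrix ι ι S) (u : ι → S) :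
    F.cov a k (M *ᵥ u) = F.covE a k M *ᵥ u + M *ᵥ F.cov a k u := by
  funext i
  simp only [cov, covE, Pi.add_apply, Matrix.mulVec, dotProduct]
  rw [D_sum]
  simp_rw [D_mul, add_mul, mul_add, sum_add_distrib, sum_mul, mul_sum, sub_mul, sum_sub_distrib]
  rw [sum_comm (f := fun j p => a k i j * (M j p * u p)),
    sum_comm (f := fun j p => M i j * (a k j p * u p))]
  have h1 : ∀ p j, a k i j * (M j p * u p) = a k i j * M j p * u p := by intros; ring
  have h2 : ∀ p j, M i j * (a k j p * u p) = M i j * a k j p * u p := by intros; ring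
  simp_rw [h1, h2]; ring

/-- Second Bianchi identity for the connection `a`. -/
theorem bianchi2 (j k l : Fin n) :
    (F.covE a j (F.curv a k l) - ∑ m, F.w j k m • F.curv a m l - ∑ m, F.w j l m • F.curv a k m)
    + (F.covE a k (F.curv a l j) - ∑ m, F.w k l m • F.curv a m j - ∑ m, F.w k j m • F.curv a l m)
    + (F.covE a l (F.curv a j k) - ∑ m, F.w l j m • F.curv a m k - ∑ m, F.w l k m • F.curv a j m)
    = 0 := by
  have anti : ∀ k l, F.curv a k l = - F.curv a l k := by
    intro k l; ext i j; exact F.curv_anti a k l i j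
  have key : ∀ u : ι → S,
      (F.covE a j (F.curv a k l) + F.covE a k (F.curv a l j) + F.covE a l (F.curv a j k)
        + ∑ m, (F.T k l m • F.curv a j m + F.T l j m • F.curv a k m + F.T j k m • F.curv a l m))
        *ᵥ u = 0 := by
    intro u
    have h : ∀ j k l : Fin n, F.cov a j (F.cov a k (F.cov a l u) - F.cov a l (F.cov a k u))
        - (F.cov a k (F.cov a l (F.cov a j u)) - F.cov a l (F.cov a k (F.cov a j u)))
        = (F.covE a j (F.curv a k l)) *ᵥ u
          + ∑ m, (F.D j (F.T k l m) + ∑ p, F.T k l p * F.T j p m) • F.cov a m u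
          + (∑ m, F.T k l m • F.curv a j m) *ᵥ u := by
      intro j k l
      have e1 : F.cov a k (F.cov a l u) - F.cov a l (F.cov a k u)
          = F.curv a k l *ᵥ u + ∑ m, F.T k l m • F.cov a m u := by
        rw [F.cov_comm a k l u]; abel
      have e2 : F.cov a k (F.cov a l (F.cov a j u)) - F.cov a l (F.cov a k (F.cov a j u))
          = F.curv a k l *ᵥ F.cov a j u + ∑ m, F.T k l m • F.cov a m (F.cov a j u) := by
        rw [F.cov_comm a k l (F.cov a j u)]; abel
      have e3 : ∑ m, F.T k l m • F.cov a j (F.cov a m u)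
          = ∑ m, F.T k l m • F.cov a m (F.cov a j u) + (∑ m, F.T k l m • F.curv a j m) *ᵥ u
            + ∑ m, (∑ p, F.T k l p * F.T j p m) • F.cov a m u := by
        have h3 : ∀ m, F.T k l m • F.cov a j (F.cov a m u)
            = F.T k l m • F.cov a m (F.cov a j u) + (F.T k l m • F.curv a j m) *ᵥ u
              + ∑ p, (F.T k l m * F.T j m p) • F.cov a p u := by
          intro m
          rw [F.cov_comm a j m u, smul_add, smul_add, Matrix.smul_mulVec, smul_sum]
          simp_rw [smul_smul]
        simp_rw [h3, sum_add_distrib]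
        rw [sum_comm (f := fun m p => (F.T k l m * F.T j m p) • F.cov a p u)]
        simp_rw [← sum_smul]
        rw [Matrix.sum_mulVec]
      rw [e1, e2, cov_add, cov_mulVec, cov_sum]
      simp_rw [cov_smul, sum_add_distrib, e3, add_smul, sum_add_distrib]
      abel
    have hs := F.jacobi j k l
    have tot : (F.covE a j (F.curv a k l) + F.covE a k (F.curv a l j) + F.covE a l (F.curv a j k)
        + ∑ m, (F.T k l m • F.curv a j m + F.T l j m • F.curv a k m + F.T j k m • F.curv a l m))
        *ᵥ u
        = (F.cov a j (F.cov a k (F.cov a l u) - F.cov a l (F.cov a k u))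
        - (F.cov a k (F.cov a l (F.cov a j u)) - F.cov a l (F.cov a k (F.cov a j u))))
        + (F.cov a k (F.cov a l (F.cov a j u) - F.cov a j (F.cov a l u))
        - (F.cov a l (F.cov a j (F.cov a k u)) - F.cov a j (F.cov a l (F.cov a k u))))
        + (F.cov a l (F.cov a j (F.cov a k u) - F.cov a k (F.cov a j u))
        - (F.cov a j (F.cov a k (F.cov a l u)) - F.cov a k (F.cov a j (F.cov a l u))))
        - ∑ m, (F.D j (F.T k l m) + F.D k (F.T l j m) + F.D l (F.T j k m)
      + ∑ p, (F.T k l p * F.T j p m + F.T l j p * F.T k p m + F.T j k p * F.T l p m))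
          • F.cov a m u := by
      rw [h, h, h]
      simp only [sum_add_distrib, add_smul, Matrix.add_mulVec]
      abel
    rw [tot]
    simp_rw [hs, cov_sub]
    simp only [zero_smul, sum_const_zero]
    abel
  have key' : F.covE a j (F.curv a k l) + F.covE a k (F.curv a l j) + F.covE a l (F.curv a j k)
        + ∑ m, (F.T k l m • F.curv a j m + F.T l j m • F.curv a k m + F.T j k m • F.curv a l m)
        = 0 := by
    ext p q
    have := congrFun (key (Pi.single q 1)) p
    simpa using this
  rw [← key']
  have e : ∑ m, (F.T k l m • F.curv a j m + F.T l j m • F.curv a k m + F.T j k m • F.curv a l m)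
      = - ∑ m, F.w j k m • F.curv a m l - ∑ m, F.w j l m • F.curv a k m
        - ∑ m, F.w k l m • F.curv a m j - ∑ m, F.w k j m • F.curv a l m
        - ∑ m, F.w l j m • F.curv a m k - ∑ m, F.w l k m • F.curv a j m := by
    rw [← sum_neg_distrib, ← sum_sub_distrib, ← sum_sub_distrib, ← sum_sub_distrib,
      ← sum_sub_distrib, ← sum_sub_distrib]
    refine sum_congr rfl fun m _ => ?_
    rw [anti m l, anti m j, anti m k]
    simp only [T]
    module
  rw [e]; abel

/-- Connection matrices of the tangent bundle: `(∇_k v)_j = D_k v_j + ∑ w k i j v_i`. -/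
def tan (k : Fin n) : Matrix (Fin n) (Fin n) S := fun j i => F.w k i j

lemma curv_tan (k l i j : Fin n) : F.curv F.tan k l j i = F.Rm k l i j := by
  simp only [curv, Rm, tan]
  have : ∀ p, F.w k p j * F.w l i p - F.w l p j * F.w k i p
      = F.w l i p * F.w k p j - F.w k i p * F.w l p j := by intro p; ring
  simp_rw [this]

end Frame

end Crest.Agent.R249.Fr129
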