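import Crest.Agent.R249.FrB_129

/-!
Metric connections, functions (Laplacian, gradient), tensor products of bundles with connection.
(row 249, helper129)
-/

set_option autoImplicit false

namespace Crest.Agent.R249.Fr129

open Finset Matrix

namespace Frame

variable {n : ℕ} {S : Type*} [CommRing S] [Algebra ℝ S] (F : Frame n S)

/-- Hessian of a function: `∇²f(e_k,e_l)`. -/
def hess0 (k l : Fin n) (f : S) : S := F.D k (F.D l f) - ∑ m, F.w k l m * F.D m f

/-- Laplacian of a function. -/
def lap0 (f : S) : S := ∑ k, F.hess0 k k f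

/-- `⟨∇f, ∇g⟩`. -/
def gam (f g : S) : S := ∑ k, F.D k f * F.D k g

lemma hess0_symm (k l : Fin n) (f : S) : F.hess0 k l f = F.hess0 l k f := by
  rw [hess0, hess0, tors' F k l f]
  have : ∑ m, F.T k l m * F.D m f = ∑ m, F.w k l m * F.D m f - ∑ m, F.w l k m * F.D m f := by
    rw [← sum_sub_distrib]; exact sum_congr rfl fun m _ => by rw [T]; ring
  rw [this]; ring

lemma hess0_add (k l : Fin n) (f g : S) : F.hess0 k l (f + g) = F.hess0 k l f + F.hess0 k l g := by
  simp only [hess0, map_add, mul_add, sum_add_distrib]; ring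

lemma lap0_add (f g : S) : F.lap0 (f + g) = F.lap0 f + F.lap0 g := by
  simp only [lap0, hess0_add, sum_add_distrib]

lemma hess0_mul (k l : Fin n) (f g : S) : F.hess0 k l (f * g) =
    F.hess0 k l f * g + F.D k f * F.D l g + F.D l f * F.D k g + f * F.hess0 k l g := by
  simp only [hess0, D_mul, map_add, mul_add, sum_add_distrib, sub_mul, mul_sub, mul_sum, sum_mul]
  have h1 : ∀ m, F.w k l m * (F.D m f * g) = F.w k l m * F.D m f * g := by intros; ring
  have h2 : ∀ m, F.w k l m * (f * F.D m g) = f * (F.w k l m * F.D m g) := by intros; ring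
  simp_rw [h1, h2]; ring

lemma lap0_mul (f g : S) : F.lap0 (f * g) = F.lap0 f * g + 2 * F.gam f g + f * F.lap0 g := by
  simp only [lap0, hess0_mul, sum_add_distrib, gam, sum_mul, mul_sum]
  rw [← sum_add_distrib, ← sum_add_distrib, ← sum_add_distrib, ← sum_add_distrib,
    ← sum_add_distrib]
  exact sum_congr rfl fun k _ => by ring

variable {ι κ : Type*} [Fintype ι] [Fintype κ]

/-- The connection is metric. -/
def Skew (a : Fin n → Matrix ι ι S) : Prop := ∀ k i j, a k i j = - a k j i

lemma D_dot {a : Fin n → Matrix ι ι S} (ha : Skew a) (k : Fin n) (u v : ι → S) :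
    F.D k (∑ i, u i * v i) = ∑ i, F.cov a k u i * v i + ∑ i, u i * F.cov a k v i := by
  rw [D_sum, ← sum_add_distrib]
  simp only [cov, D_mul]
  have : ∑ i, ((∑ j, a k i j * u j) * v i + u i * ∑ j, a k i j * v j) = 0 := by
    simp_rw [sum_add_distrib, sum_mul, mul_sum]
    rw [sum_comm (f := fun i j => u i * (a k i j * v j)), ← sum_add_distrib]
    refine sum_eq_zero fun i _ => ?_
    rw [← sum_add_distrib]
    refine sum_eq_zero fun j _ => ?_
    rw [ha k j i]; ring
  rw [← add_zero (∑ i, (F.D k (u i) * v i + u i * F.D k (v i))), ← this, ← sum_add_distrib]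
  exact sum_congr rfl fun i _ => by ring

lemma curv_skew {a : Fin n → Matrix ι ι S} (ha : Skew a) (k l : Fin n) (i j : ι) :
    F.curv a k l i j = - F.curv a k l j i := by
  have h1 : ∑ m, F.T k l m * a m i j = - ∑ m, F.T k l m * a m j i := by
    rw [← sum_neg_distrib]; exact sum_congr rfl fun m _ => by rw [ha m i j]; ring
  have h2 : ∑ p, (a k i p * a l p j - a l i p * a k p j)
      = - ∑ p, (a k j p * a l p i - a l j p * a k p i) := by
    rw [← sum_neg_distrib]; exact sum_congr rfl fun p _ => by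
      rw [ha k i p, ha l p j, ha l i p, ha k p j]; ring
  rw [curv, curv, h1, h2, ha l i j, ha k i j, map_neg, map_neg]; ring

lemma hess0_dot {a : Fin n → Matrix ι ι S} (ha : Skew a) (k l : Fin n) (u v : ι → S) :
    F.hess0 k l (∑ i, u i * v i) = ∑ i, F.hess a k l u i * v i + ∑ i, F.cov a k u i * F.cov a l v i
      + ∑ i, F.cov a l u i * F.cov a k v i + ∑ i, u i * F.hess a k l v i := by
  rw [hess0, F.D_dot ha l, map_add, F.D_dot ha k, F.D_dot ha k]
  simp_rw [F.D_dot ha, mul_add, sum_add_distrib, hess, sub_mul, mul_sub, sum_sub_distrib]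
  have h1 : ∑ m, F.w k l m * ∑ i, F.cov a m u i * v i = ∑ i, (∑ m, F.w k l m * F.cov a m u i) * v i := by
    simp_rw [mul_sum, sum_mul]; rw [sum_comm]
    exact sum_congr rfl fun i _ => sum_congr rfl fun m _ => by ring
  have h2 : ∑ m, F.w k l m * ∑ i, u i * F.cov a m v i = ∑ i, u i * ∑ m, F.w k l m * F.cov a m v i := by
    simp_rw [mul_sum]; rw [sum_comm]
    exact sum_congr rfl fun i _ => sum_congr rfl fun m _ => by ring
  rw [h1, h2]; ring

/-- Bochner/Leibniz formula for the Laplacian of `⟨u,v⟩`. -/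
lemma lap0_dot {a : Fin n → Matrix ι ι S} (ha : Skew a) (u v : ι → S) :
    F.lap0 (∑ i, u i * v i) = ∑ i, F.lap a u i * v i + 2 * ∑ k, ∑ i, F.cov a k u i * F.cov a k v i
      + ∑ i, u i * F.lap a v i := by
  simp only [lap0, F.hess0_dot ha, sum_add_distrib, lap, sum_mul, mul_sum]
  rw [sum_comm (f := fun k i => F.hess a k k u i * v i),
    sum_comm (f := fun k i => u i * F.hess a k k v i)]
  simp_rw [two_mul, sum_add_distrib]; ring

/-- Tensor product connection. -/
def tens (a : Fin n → Matrix ι ι S) (b : Fin n → Matrix κ κ S) [DecidableEq ι] [DecidableEq κ]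
    (k : Fin n) : Matrix (ι × κ) (ι × κ) S :=
  fun x y => (if x.2 = y.2 then a k x.1 y.1 else 0) + (if x.1 = y.1 then b k x.2 y.2 else 0)

section tens

variable [DecidableEq ι] [DecidableEq κ] (a : Fin n → Matrix ι ι S) (b : Fin n → Matrix κ κ S)

omit [CommRing S] [Algebra ℝ S] in
lemma sum_tens_aux [CommRing S] (A : Matrix ι ι S) (B : Matrix κ κ S) (x : ι × κ) (u : ι × κ → S) :
    ∑ y : ι × κ, ((if x.2 = y.2 then A x.1 y.1 else 0) + (if x.1 = y.1 then B x.2 y.2 else 0)) * u y
      = ∑ i, A x.1 i * u (i, x.2) + ∑ j, B x.2 j * u (x.1, j) := by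
  simp_rw [add_mul, sum_add_distrib, ite_mul, zero_mul]
  congr 1
  · rw [Fintype.sum_prod_type]
    refine sum_congr rfl fun i _ => ?_
    simp
  · rw [Fintype.sum_prod_type_right]
    refine sum_congr rfl fun j _ => ?_
    simp

lemma cov_tens (k : Fin n) (u : ι × κ → S) (x : ι × κ) :
    F.cov (tens a b) k u x = F.D k (u x) + ∑ i, a k x.1 i * u (i, x.2)
      + ∑ j, b k x.2 j * u (x.1, j) := by
  rw [cov]; simp only [tens]; rw [sum_tens_aux]; ring

lemma curv_tens (k l : Fin n) (x y : ι × κ) :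
    F.curv (tens a b) k l x y = (if x.2 = y.2 then F.curv a k l x.1 y.1 else 0)
      + (if x.1 = y.1 then F.curv b k l x.2 y.2 else 0) := by
  obtain ⟨x1, x2⟩ := x
  obtain ⟨y1, y2⟩ := y
  simp only [curv]
  have h : ∀ k l : Fin n, ∑ p : ι × κ, tens a b k (x1, x2) p * tens a b l p (y1, y2)
      = (if x2 = y2 then ∑ i, a k x1 i * a l i y1 else 0)
        + (if x1 = y1 then ∑ j, b k x2 j * b l j y2 else 0)
        + a k x1 y1 * b l x2 y2 + a l x1 y1 * b k x2 y2 := by
    intro k l
    simp only [tens]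
    rw [sum_tens_aux (a k) (b k) (x1, x2)
      (fun p => (if p.2 = y2 then a l p.1 y1 else 0) + (if p.1 = y1 then b l p.2 y2 else 0))]
    simp only [mul_add, sum_add_distrib, mul_ite, mul_zero, sum_ite_eq', mem_univ, if_true]
    by_cases h1 : x1 = y1 <;> by_cases h2 : x2 = y2 <;> simp [h1, h2] <;> ring
  simp_rw [sum_sub_distrib, h]
  by_cases h1 : x1 = y1 <;> by_cases h2 : x2 = y2 <;>
    simp [h1, h2, tens, mul_add, sum_add_distrib] <;> ring

/-- Curvature of a tensor product acting on a section. -/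
lemma curv_tens_mulVec (k l : Fin n) (u : ι × κ → S) (x : ι × κ) :
    (F.curv (tens a b) k l *ᵥ u) x = ∑ i, F.curv a k l x.1 i * u (i, x.2)
      + ∑ j, F.curv b k l x.2 j * u (x.1, j) := by
  simp only [Matrix.mulVec, dotProduct, curv_tens]
  exact sum_tens_aux (F.curv a k l) (F.curv b k l) x u

lemma tens_skew {a : Fin n → Matrix ι ι S} {b : Fin n → Matrix κ κ S} (ha : Skew a) (hb : Skew b) :
    Skew (tens a b) := by
  intro k x y
  simp only [tens, ha k x.1 y.1, hb k x.2 y.2, eq_comm (a := x.1), eq_comm (a := x.2)]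
  split_ifs <;> ring

end tens

end Frame

end Crest.Agent.R249.Fr129
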