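import Crest.Agent.R249.FrC_129

/-!
Dimension four: the bundle `Λ⁺`, its `so(3)`-connection and curvature, the self-dual block of the
curvature operator. (row 249, helper129)

Basis of `Λ⁺`: `ω₀ = e01 + e23`, `ω₁ = e02 - e13`, `ω₂ = e03 + e12`.
-/

set_option autoImplicit false

namespace Crest.Agent.R249.Fr129

open Finset Matrix

/-- Matrix of `u ↦ p × u`. -/
def cr {S : Type*} [CommRing S] (p : Fin 3 → S) : Matrix (Fin 3) (Fin 3) S :=
  !![0, -p 2, p 1; p 2, 0, -p 0; -p 1, p 0, 0]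

lemma cr_inj {S : Type*} [CommRing S] {p q : Fin 3 → S} (h : cr p = cr q) : p = q := by
  have h0 := congrFun (congrFun h 2) 1
  have h1 := congrFun (congrFun h 0) 2
  have h2 := congrFun (congrFun h 1) 0
  simp [cr] at h0 h1 h2
  funext i; fin_cases i <;> simp [h0, h1, h2]

lemma cr_skew {S : Type*} [CommRing S] (p : Fin 3 → S) (i j : Fin 3) :
    cr p i j = - cr p j i := by
  fin_cases i <;> fin_cases j <;> simp [cr]

namespace Frame

variable {S : Type*} [CommRing S] [Algebra ℝ S] (F : Frame 4 S)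

lemma w_self {n : ℕ} (F : Frame n S) (k i : Fin n) : F.w k i i = 0 :=
  eq_zero_of_two (by have := F.anti k i i; linear_combination this)

lemma Rm_self34 {n : ℕ} (F : Frame n S) (i j k : Fin n) : F.Rm i j k k = 0 :=
  eq_zero_of_two (by have := F.Rm_anti34 i j k k; linear_combination this)

lemma Rm_self12 {n : ℕ} (F : Frame n S) (i k l : Fin n) : F.Rm i i k l = 0 :=
  eq_zero_of_two (by have := F.Rm_anti12 i i k l; linear_combination this)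

lemma w10 (k : Fin 4) : F.w k 1 0 = - F.w k 0 1 := F.anti k 1 0
lemma w20 (k : Fin 4) : F.w k 2 0 = - F.w k 0 2 := F.anti k 2 0
lemma w30 (k : Fin 4) : F.w k 3 0 = - F.w k 0 3 := F.anti k 3 0
lemma w21 (k : Fin 4) : F.w k 2 1 = - F.w k 1 2 := F.anti k 2 1
lemma w31 (k : Fin 4) : F.w k 3 1 = - F.w k 1 3 := F.anti k 3 1
lemma w32 (k : Fin 4) : F.w k 3 2 = - F.w k 2 3 := F.anti k 3 2

lemma R10 (i j : Fin 4) : F.Rm i j 1 0 = - F.Rm i j 0 1 := F.Rm_anti34 i j 1 0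
lemma R20 (i j : Fin 4) : F.Rm i j 2 0 = - F.Rm i j 0 2 := F.Rm_anti34 i j 2 0
lemma R30 (i j : Fin 4) : F.Rm i j 3 0 = - F.Rm i j 0 3 := F.Rm_anti34 i j 3 0
lemma R21 (i j : Fin 4) : F.Rm i j 2 1 = - F.Rm i j 1 2 := F.Rm_anti34 i j 2 1
lemma R31 (i j : Fin 4) : F.Rm i j 3 1 = - F.Rm i j 1 3 := F.Rm_anti34 i j 3 1
lemma R32 (i j : Fin 4) : F.Rm i j 3 2 = - F.Rm i j 2 3 := F.Rm_anti34 i j 3 2
lemma L10 (i j : Fin 4) : F.Rm 1 0 i j = - F.Rm 0 1 i j := F.Rm_anti12 1 0 i j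
lemma L20 (i j : Fin 4) : F.Rm 2 0 i j = - F.Rm 0 2 i j := F.Rm_anti12 2 0 i j
lemma L30 (i j : Fin 4) : F.Rm 3 0 i j = - F.Rm 0 3 i j := F.Rm_anti12 3 0 i j
lemma L21 (i j : Fin 4) : F.Rm 2 1 i j = - F.Rm 1 2 i j := F.Rm_anti12 2 1 i j
lemma L31 (i j : Fin 4) : F.Rm 3 1 i j = - F.Rm 1 3 i j := F.Rm_anti12 3 1 i j
lemma L32 (i j : Fin 4) : F.Rm 3 2 i j = - F.Rm 2 3 i j := F.Rm_anti12 3 2 i j

/-- Components of the connection on `Λ⁺`. -/
def pp (k : Fin 4) : Fin 3 → S :=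
  ![F.w k 0 1 + F.w k 2 3, F.w k 0 2 - F.w k 1 3, F.w k 0 3 + F.w k 1 2]

/-- The connection of `Λ⁺`. -/
def sdc (k : Fin 4) : Matrix (Fin 3) (Fin 3) S := cr (F.pp k)

/-- Components of the curvature of `Λ⁺`. -/
def PP (k l : Fin 4) : Fin 3 → S :=
  ![F.Rm k l 0 1 + F.Rm k l 2 3, F.Rm k l 0 2 - F.Rm k l 1 3, F.Rm k l 0 3 + F.Rm k l 1 2]

lemma sdc_skew : Skew F.sdc := fun _ i j => cr_skew _ i j

lemma curv_sdc (k l : Fin 4) : F.curv F.sdc k l = cr (F.PP k l) := by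
  ext i j
  fin_cases i <;> fin_cases j <;>
    simp [curv, sdc, cr, pp, PP, Rm, Fin.sum_univ_four, Fin.sum_univ_three, w_self, w10, w20,
      w21, w31, w32, map_add, map_sub, map_neg] <;> ring

lemma PP_anti (k l : Fin 4) (c : Fin 3) : F.PP k l c = - F.PP l k c := by
  fin_cases c <;> simp [PP, F.Rm_anti12 k l] <;> ring

/-- Ricci tensor in the frame. -/
def Ric {n : ℕ} (F : Frame n S) (j k : Fin n) : S := ∑ i, F.Rm i j k i

/-- Einstein condition with constant `c`. -/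
def Einstein {n : ℕ} (F : Frame n S) (c : S) : Prop := ∀ j k, F.Ric j k = if j = k then c else 0

/-- one half -/
noncomputable def half : S := algebraMap ℝ S (1 / 2)

lemma two_half : (2 : S) * half = 1 := by
  have : (2 : S) = algebraMap ℝ S 2 := (map_ofNat (algebraMap ℝ S) 2).symm
  rw [half, this, ← map_mul]; norm_num

/-- The `Λ⁺`-block of the curvature operator. -/
noncomputable def AA (c d : Fin 3) : S :=
  - half * (![F.PP 0 1 c + F.PP 2 3 c, F.PP 0 2 c - F.PP 1 3 c, F.PP 0 3 c + F.PP 1 2 c] d)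

/-- The mixed block `Λ⁺ → Λ⁻`. -/
noncomputable def BB (c d : Fin 3) : S :=
  - half * (![F.PP 0 1 c - F.PP 2 3 c, F.PP 0 2 c + F.PP 1 3 c, F.PP 0 3 c - F.PP 1 2 c] d)

lemma AA_symm (c d : Fin 3) : F.AA c d = F.AA d c := by
  have hp := F.Rm_pair
  fin_cases c <;> fin_cases d <;> simp [AA, PP]
  · rw [hp 0 1 0 2, hp 0 1 1 3, hp 2 3 0 2, hp 2 3 1 3]; ring
  · rw [hp 0 1 0 3, hp 0 1 1 2, hp 2 3 0 3, hp 2 3 1 2]; ring
  · rw [hp 0 2 0 1, hp 0 2 2 3, hp 1 3 0 1, hp 1 3 2 3]; ring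
  · rw [hp 0 2 0 3, hp 0 2 1 2, hp 1 3 0 3, hp 1 3 1 2]; ring
  · rw [hp 0 3 0 1, hp 0 3 2 3, hp 1 2 0 1, hp 1 2 2 3]; ring
  · rw [hp 0 3 0 2, hp 0 3 1 3, hp 1 2 0 2, hp 1 2 1 3]; ring

/-- Einstein: the curvature of `Λ⁺` is self-dual. -/
lemma PP_sd {c : S} (hE : F.Einstein c) (i : Fin 3) :
    F.PP 2 3 i = F.PP 0 1 i ∧ F.PP 1 3 i = - F.PP 0 2 i ∧ F.PP 1 2 i = F.PP 0 3 i := by
  have h00 := hE 0 0
  have h11 := hE 1 1
  have h22 := hE 2 2
  have h33 := hE 3 3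
  have h01 := hE 0 1
  have h02 := hE 0 2
  have h03 := hE 0 3
  have h12 := hE 1 2
  have h13 := hE 1 3
  have h23 := hE 2 3
  simp [Ric, Fin.sum_univ_four, Rm_self12, R10, R20, R30, R21, R31, R32, L10, L20, L30,
    L21, L31, L32, Rm_self34] at h00 h11 h22 h33 h01 h02 h03 h12 h13 h23
  have hp := F.Rm_pair
  have k1 : F.Rm 2 3 2 3 = F.Rm 0 1 0 1 := by
    apply eq_of_two
    linear_combination h00 + h11 - h22 - h33
  have k2 : F.Rm 1 3 1 3 = F.Rm 0 2 0 2 := by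
    apply eq_of_two
    linear_combination h00 - h11 + h22 - h33
  have k3 : F.Rm 1 2 1 2 = F.Rm 0 3 0 3 := by
    apply eq_of_two
    linear_combination h00 - h11 - h22 + h33
  refine ⟨?_, ?_, ?_⟩ <;> fin_cases i <;> simp [PP]
  · rw [hp 2 3 0 1, k1]; ring
  · rw [hp 2 3 0 2, hp 2 3 1 3]; linear_combination h12 + h03
  · rw [hp 2 3 0 3, hp 2 3 1 2]; linear_combination h13 - h02
  · rw [hp 1 3 0 1, hp 0 2 0 1]; linear_combination h03 - h12
  · rw [hp 1 3 0 2, k2]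
  · rw [hp 1 3 0 3, hp 1 3 1 2]; linear_combination -h01 - h23
  · rw [hp 1 2 0 1, hp 0 3 0 1]; linear_combination h02 + h13
  · rw [hp 1 2 0 2, hp 0 3 0 2]; linear_combination -h01 + h23
  · rw [hp 1 2 0 3, k3]; ring

/-- Einstein: `A` in terms of `P_{0,·}`. -/
lemma PP_eq {c : S} (hE : F.Einstein c) (i : Fin 3) :
    F.PP 0 1 i = - F.AA i 0 ∧ F.PP 2 3 i = - F.AA i 0 ∧ F.PP 0 2 i = - F.AA i 1 ∧
    F.PP 1 3 i = F.AA i 1 ∧ F.PP 0 3 i = - F.AA i 2 ∧ F.PP 1 2 i = - F.AA i 2 := by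
  obtain ⟨h1, h2, h3⟩ := F.PP_sd hE i
  have hh := two_half (S := S)
  rw [h1, h2, h3]
  simp only [AA, h1, h2, h3, Matrix.cons_val_zero, Matrix.cons_val_one, Matrix.cons_val]
  refine ⟨?_, ?_, ?_, ?_, ?_, ?_⟩
  · linear_combination -F.PP 0 1 i * hh
  · linear_combination -F.PP 0 1 i * hh
  · linear_combination -F.PP 0 2 i * hh
  · linear_combination F.PP 0 2 i * hh
  · linear_combination -F.PP 0 3 i * hh
  · linear_combination -F.PP 0 3 i * hh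

/-- trace of the `Λ⁺` block -/
lemma AA_trace {c : S} (hE : F.Einstein c) : F.AA 0 0 + F.AA 1 1 + F.AA 2 2 = c := by
  obtain ⟨h1, -, -, -, -, -⟩ := F.PP_eq hE 0
  obtain ⟨-, -, h2, -, -, -⟩ := F.PP_eq hE 1
  obtain ⟨-, -, -, -, h3, -⟩ := F.PP_eq hE 2
  have h00 := hE 0 0
  simp [Ric, Fin.sum_univ_four, Rm_self12, L10, L20, L30] at h00
  have hb := F.bianchi1 0 1 2 3
  simp [PP] at h1 h2 h3
  rw [F.Rm_anti12 2 0 1 3] at hb
  rw [F.Rm_pair 0 3 1 2] at h3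
  linear_combination h1 + h2 + h3 + h00 - hb

end Frame

end Crest.Agent.R249.Fr129
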