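import Crest.Agent.R249.FrD_129

/-!
The second Bianchi identity for the `Λ⁺`-block `A` of an Einstein metric, and the Laplacian of `A`.
(row 249, helper129)
-/

set_option autoImplicit false
set_option linter.unusedSimpArgs false
set_option linter.unusedSectionVars false

namespace Crest.Agent.R249.Fr129

open Finset Matrix

lemma cr_add {S : Type*} [CommRing S] (p q : Fin 3 → S) : cr (p + q) = cr p + cr q := by
  ext i j; fin_cases i <;> fin_cases j <;> simp [cr] <;> ring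

lemma cr_smul {S : Type*} [CommRing S] (x : S) (p : Fin 3 → S) : cr (x • p) = x • cr p := by
  ext i j; fin_cases i <;> fin_cases j <;> simp [cr]

lemma cr_neg {S : Type*} [CommRing S] (p : Fin 3 → S) : cr (-p) = - cr p := by
  ext i j; fin_cases i <;> fin_cases j <;> simp [cr]

lemma cr_sub {S : Type*} [CommRing S] (p q : Fin 3 → S) : cr (p - q) = cr p - cr q := by
  rw [sub_eq_add_neg, cr_add, cr_neg, sub_eq_add_neg]

lemma cr_zero {S : Type*} [CommRing S] : cr (0 : Fin 3 → S) = 0 := by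
  ext i j; fin_cases i <;> fin_cases j <;> simp [cr]

lemma cr_sum {S : Type*} [CommRing S] {κ : Type*} (s : Finset κ) (p : κ → Fin 3 → S) :
    cr (∑ x ∈ s, p x) = ∑ x ∈ s, cr (p x) := by
  classical
  induction s using Finset.induction_on with
  | empty => simp [cr_zero]
  | insert x s hx ih => rw [sum_insert hx, cr_add, ih, sum_insert hx]

namespace Frame

variable {S : Type*} [CommRing S] [Algebra ℝ S] (F : Frame 4 S)

lemma covE_cr (j : Fin 4) (P : Fin 3 → S) : F.covE F.sdc j (cr P) = cr (F.cov F.sdc j P) := by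
  ext i k
  fin_cases i <;> fin_cases k <;>
    simp [covE, cov, cr, sdc, Fin.sum_univ_three] <;> ring

/-- Second Bianchi identity for the curvature of `Λ⁺`. -/
lemma PP_bianchi (j k l : Fin 4) :
    (F.cov F.sdc j (F.PP k l) - ∑ m, F.w j k m • F.PP m l - ∑ m, F.w j l m • F.PP k m)
    + (F.cov F.sdc k (F.PP l j) - ∑ m, F.w k l m • F.PP m j - ∑ m, F.w k j m • F.PP l m)
    + (F.cov F.sdc l (F.PP j k) - ∑ m, F.w l j m • F.PP m k - ∑ m, F.w l k m • F.PP j m) = 0 := by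
  apply cr_inj
  have h := F.bianchi2 F.sdc j k l
  simp only [curv_sdc, covE_cr] at h
  simp only [cr_add, cr_sub, cr_sum, cr_smul, cr_zero]
  exact h

/-- `A` as a section of `Λ⁺ ⊗ Λ⁺`. -/
noncomputable def AV : Fin 3 × Fin 3 → S := fun x => F.AA x.1 x.2

/-- the connection of `Λ⁺ ⊗ Λ⁺` -/
def s2 : Fin 4 → Matrix (Fin 3 × Fin 3) (Fin 3 × Fin 3) S := tens F.sdc F.sdc

/-- `(∇_k A)_{cd}`. -/
noncomputable def NN (k : Fin 4) (c d : Fin 3) : S := F.cov F.s2 k F.AV (c, d)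

lemma NN_eq (k : Fin 4) (c d : Fin 3) : F.NN k c d = F.D k (F.AA c d)
    + ∑ i, F.sdc k c i * F.AA i d + ∑ j, F.sdc k d j * F.AA c j := by
  rw [NN, s2, cov_tens]; rfl

lemma NN_symm (k : Fin 4) (c d : Fin 3) : F.NN k c d = F.NN k d c := by
  have h1 : ∑ i, F.sdc k c i * F.AA i d = ∑ i, F.sdc k c i * F.AA d i :=
    sum_congr rfl fun i _ => by rw [F.AA_symm i d]
  have h2 : ∑ i, F.sdc k d i * F.AA i c = ∑ i, F.sdc k d i * F.AA c i :=
    sum_congr rfl fun i _ => by rw [F.AA_symm i c]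
  rw [NN_eq, NN_eq, F.AA_symm c d, h1, h2]; ring

lemma PP_self (k : Fin 4) (c : Fin 3) : F.PP k k c = 0 :=
  eq_zero_of_two (by have := F.PP_anti k k c; linear_combination this)

section
variable {lam : S} (hE : F.Einstein lam)
include hE

lemma P01 (c : Fin 3) : F.PP 0 1 c = - F.AA c 0 := (F.PP_eq hE c).1
lemma P23 (c : Fin 3) : F.PP 2 3 c = - F.AA c 0 := (F.PP_eq hE c).2.1
lemma P02 (c : Fin 3) : F.PP 0 2 c = - F.AA c 1 := (F.PP_eq hE c).2.2.1
lemma P13 (c : Fin 3) : F.PP 1 3 c = F.AA c 1 := (F.PP_eq hE c).2.2.2.1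
lemma P03 (c : Fin 3) : F.PP 0 3 c = - F.AA c 2 := (F.PP_eq hE c).2.2.2.2.1
lemma P12 (c : Fin 3) : F.PP 1 2 c = - F.AA c 2 := (F.PP_eq hE c).2.2.2.2.2
lemma P10 (c : Fin 3) : F.PP 1 0 c = F.AA c 0 := by rw [F.PP_anti 1 0, F.P01 hE, neg_neg]
lemma P32 (c : Fin 3) : F.PP 3 2 c = F.AA c 0 := by rw [F.PP_anti 3 2, F.P23 hE, neg_neg]
lemma P20 (c : Fin 3) : F.PP 2 0 c = F.AA c 1 := by rw [F.PP_anti 2 0, F.P02 hE, neg_neg]
lemma P31 (c : Fin 3) : F.PP 3 1 c = - F.AA c 1 := by rw [F.PP_anti 3 1, F.P13 hE]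
lemma P30 (c : Fin 3) : F.PP 3 0 c = F.AA c 2 := by rw [F.PP_anti 3 0, F.P03 hE, neg_neg]
lemma P21 (c : Fin 3) : F.PP 2 1 c = F.AA c 2 := by rw [F.PP_anti 2 1, F.P12 hE, neg_neg]

/-! The divergence-type constraints (second Bianchi identity) on `∇A`. -/

lemma z0 (c : Fin 3) : F.NN 1 c 0 + F.NN 2 c 1 + F.NN 3 c 2 = 0 := by
  have h := congrFun (F.PP_bianchi 1 2 3) c
  simp only [Pi.add_apply, Pi.sub_apply, Pi.smul_apply, smul_eq_mul,
    Fin.sum_univ_four, cov, Fin.sum_univ_three, F.P01 hE, F.P23 hE, F.P02 hE, F.P13 hE, F.P03 hE,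
    F.P12 hE, F.P10 hE, F.P32 hE, F.P20 hE, F.P31 hE, F.P30 hE, F.P21 hE, F.PP_self, w_self,
    w10, w20, w30, w21, w31, w32, map_neg, Pi.zero_apply] at h
  simp only [NN_eq, Fin.sum_univ_three]
  simp [sdc, cr, pp] at h ⊢
  linear_combination -h

lemma z1 (c : Fin 3) : F.NN 0 c 0 + F.NN 3 c 1 - F.NN 2 c 2 = 0 := by
  have h := congrFun (F.PP_bianchi 0 2 3) c
  simp only [Pi.add_apply, Pi.sub_apply, Pi.smul_apply, smul_eq_mul,
    Fin.sum_univ_four, cov, Fin.sum_univ_three, F.P01 hE, F.P23 hE, F.P02 hE, F.P13 hE, F.P03 hE,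
    F.P12 hE, F.P10 hE, F.P32 hE, F.P20 hE, F.P31 hE, F.P30 hE, F.P21 hE, F.PP_self, w_self,
    w10, w20, w30, w21, w31, w32, map_neg, Pi.zero_apply] at h
  simp only [NN_eq, Fin.sum_univ_three]
  simp [sdc, cr, pp] at h ⊢
  linear_combination -h

lemma z2 (c : Fin 3) : F.NN 0 c 1 + F.NN 1 c 2 - F.NN 3 c 0 = 0 := by
  have h := congrFun (F.PP_bianchi 0 1 3) c
  simp only [Pi.add_apply, Pi.sub_apply, Pi.smul_apply, smul_eq_mul,
    Fin.sum_univ_four, cov, Fin.sum_univ_three, F.P01 hE, F.P23 hE, F.P02 hE, F.P13 hE, F.P03 hE,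
    F.P12 hE, F.P10 hE, F.P32 hE, F.P20 hE, F.P31 hE, F.P30 hE, F.P21 hE, F.PP_self, w_self,
    w10, w20, w30, w21, w31, w32, map_neg, Pi.zero_apply] at h
  simp only [NN_eq, Fin.sum_univ_three]
  simp [sdc, cr, pp] at h ⊢
  linear_combination h

lemma z3 (c : Fin 3) : F.NN 0 c 2 + F.NN 2 c 0 - F.NN 1 c 1 = 0 := by
  have h := congrFun (F.PP_bianchi 0 1 2) c
  simp only [Pi.add_apply, Pi.sub_apply, Pi.smul_apply, smul_eq_mul,
    Fin.sum_univ_four, cov, Fin.sum_univ_three, F.P01 hE, F.P23 hE, F.P02 hE, F.P13 hE, F.P03 hE,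
    F.P12 hE, F.P10 hE, F.P32 hE, F.P20 hE, F.P31 hE, F.P30 hE, F.P21 hE, F.PP_self, w_self,
    w10, w20, w30, w21, w31, w32, map_neg, Pi.zero_apply] at h
  simp only [NN_eq, Fin.sum_univ_three]
  simp [sdc, cr, pp] at h ⊢
  linear_combination -h

end

end Frame

end Crest.Agent.R249.Fr129
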