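import Crest.Agent.R249.FrE_129

/-!
Laplacian of the `Λ⁺`-block `A` of the curvature operator of an Einstein metric:
`ΔA = 6 λ A - 6 A² - 2 (λ² - |A|²) I`, and the Bochner formula for `|W⁺|²`.
(row 249, helper129)
-/

set_option autoImplicit false
set_option linter.unusedSimpArgs false
set_option linter.unusedSectionVars false

namespace Crest.Agent.R249.Fr129

open Finset Matrix

namespace Frame

variable {S : Type*} [CommRing S] [Algebra ℝ S] (F : Frame 4 S)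

/-- `(∇²_{m,i} A)_{cd}`. -/
noncomputable def HH (m i : Fin 4) (c d : Fin 3) : S := F.hess F.s2 m i F.AV (c, d)

/-- `(ΔA)_{cd}`. -/
noncomputable def LL (c d : Fin 3) : S := F.lap F.s2 F.AV (c, d)

lemma LL_eq (c d : Fin 3) : F.LL c d = F.HH 0 0 c d + F.HH 1 1 c d + F.HH 2 2 c d + F.HH 3 3 c d := by
  rw [LL, lap, Fin.sum_univ_four]; rfl

lemma HH_eq (m i : Fin 4) (c d : Fin 3) : F.HH m i c d = F.D m (F.NN i c d)
    + (F.sdc m c 0 * F.NN i 0 d + F.sdc m c 1 * F.NN i 1 d + F.sdc m c 2 * F.NN i 2 d)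
    + (F.sdc m d 0 * F.NN i c 0 + F.sdc m d 1 * F.NN i c 1 + F.sdc m d 2 * F.NN i c 2)
    - (F.w m i 0 * F.NN 0 c d + F.w m i 1 * F.NN 1 c d + F.w m i 2 * F.NN 2 c d
        + F.w m i 3 * F.NN 3 c d) := by
  have h : F.cov F.s2 m (F.cov F.s2 i F.AV) (c, d) = F.D m (F.NN i c d)
      + ∑ p, F.sdc m c p * F.NN i p d + ∑ p, F.sdc m d p * F.NN i c p := by
    conv_lhs => rw [s2, cov_tens]
    rfl
  rw [HH, hess, h, Fin.sum_univ_three, Fin.sum_univ_three, Fin.sum_univ_four]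
  rfl

lemma HH_comm (m l : Fin 4) (c d : Fin 3) : F.HH m l c d = F.HH l m c d
    + (cr (F.PP m l) c 0 * F.AA 0 d + cr (F.PP m l) c 1 * F.AA 1 d + cr (F.PP m l) c 2 * F.AA 2 d)
    + (cr (F.PP m l) d 0 * F.AA c 0 + cr (F.PP m l) d 1 * F.AA c 1
        + cr (F.PP m l) d 2 * F.AA c 2) := by
  have h := congrFun (F.hess_comm F.s2 m l F.AV) (c, d)
  rw [Pi.add_apply, s2, curv_tens_mulVec, Fin.sum_univ_three, Fin.sum_univ_three, curv_sdc] at h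
  rw [HH, HH, s2, h]
  simp only [AV]; ring

section
variable {lam : S} (hE : F.Einstein lam)
include hE

lemma x0 (m : Fin 4) (c : Fin 3) : F.HH m 1 c 0 + F.HH m 2 c 1 + F.HH m 3 c 2 = 0 := by
  have h := congrArg (F.D m) (F.z0 hE c)
  rw [map_add, map_add, map_zero] at h
  simp only [HH_eq, sdc, cr, pp, w_self, w10, w20, w30, w21, w31, w32]
  have a0 := F.z0 hE 0
  have a1 := F.z0 hE 1
  have a2 := F.z0 hE 2
  have b1 := F.z1 hE c
  have b2 := F.z2 hE c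
  have b3 := F.z3 hE c
  fin_cases c <;> simp at h b1 b2 b3 ⊢
  · linear_combination h - (F.w m 0 3 + F.w m 1 2) * a1 + (F.w m 0 2 - F.w m 1 3) * a2
      + F.w m 0 1 * b1 + F.w m 0 2 * b2 + F.w m 0 3 * b3
  · linear_combination h + (F.w m 0 3 + F.w m 1 2) * a0 - (F.w m 0 1 + F.w m 2 3) * a2
      + F.w m 0 1 * b1 + F.w m 0 2 * b2 + F.w m 0 3 * b3
  · linear_combination h - (F.w m 0 2 - F.w m 1 3) * a0 + (F.w m 0 1 + F.w m 2 3) * a1
      + F.w m 0 1 * b1 + F.w m 0 2 * b2 + F.w m 0 3 * b3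

lemma x1 (m : Fin 4) (c : Fin 3) : F.HH m 0 c 0 + F.HH m 3 c 1 - F.HH m 2 c 2 = 0 := by
  have h := congrArg (F.D m) (F.z1 hE c)
  rw [map_sub, map_add, map_zero] at h
  simp only [HH_eq, sdc, cr, pp, w_self, w10, w20, w30, w21, w31, w32]
  have a0 := F.z1 hE 0
  have a1 := F.z1 hE 1
  have a2 := F.z1 hE 2
  have b0 := F.z0 hE c
  have b2 := F.z2 hE c
  have b3 := F.z3 hE c
  fin_cases c <;> simp at h b0 b2 b3 ⊢
  · linear_combination h - (F.w m 0 3 + F.w m 1 2) * a1 + (F.w m 0 2 - F.w m 1 3) * a2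
      - F.w m 0 1 * b0 - F.w m 1 2 * b2 - F.w m 1 3 * b3
  · linear_combination h + (F.w m 0 3 + F.w m 1 2) * a0 - (F.w m 0 1 + F.w m 2 3) * a2
      - F.w m 0 1 * b0 - F.w m 1 2 * b2 - F.w m 1 3 * b3
  · linear_combination h - (F.w m 0 2 - F.w m 1 3) * a0 + (F.w m 0 1 + F.w m 2 3) * a1
      - F.w m 0 1 * b0 - F.w m 1 2 * b2 - F.w m 1 3 * b3

lemma x2 (m : Fin 4) (c : Fin 3) : F.HH m 0 c 1 + F.HH m 1 c 2 - F.HH m 3 c 0 = 0 := by
  have h := congrArg (F.D m) (F.z2 hE c)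
  rw [map_sub, map_add, map_zero] at h
  simp only [HH_eq, sdc, cr, pp, w_self, w10, w20, w30, w21, w31, w32]
  have a0 := F.z2 hE 0
  have a1 := F.z2 hE 1
  have a2 := F.z2 hE 2
  have b0 := F.z0 hE c
  have b1 := F.z1 hE c
  have b3 := F.z3 hE c
  fin_cases c <;> simp at h b0 b1 b3 ⊢
  · linear_combination h - (F.w m 0 3 + F.w m 1 2) * a1 + (F.w m 0 2 - F.w m 1 3) * a2
      - F.w m 0 2 * b0 + F.w m 1 2 * b1 - F.w m 2 3 * b3
  · linear_combination h + (F.w m 0 3 + F.w m 1 2) * a0 - (F.w m 0 1 + F.w m 2 3) * a2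
      - F.w m 0 2 * b0 + F.w m 1 2 * b1 - F.w m 2 3 * b3
  · linear_combination h - (F.w m 0 2 - F.w m 1 3) * a0 + (F.w m 0 1 + F.w m 2 3) * a1
      - F.w m 0 2 * b0 + F.w m 1 2 * b1 - F.w m 2 3 * b3

lemma x3 (m : Fin 4) (c : Fin 3) : F.HH m 0 c 2 + F.HH m 2 c 0 - F.HH m 1 c 1 = 0 := by
  have h := congrArg (F.D m) (F.z3 hE c)
  rw [map_sub, map_add, map_zero] at h
  simp only [HH_eq, sdc, cr, pp, w_self, w10, w20, w30, w21, w31, w32]
  have a0 := F.z3 hE 0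
  have a1 := F.z3 hE 1
  have a2 := F.z3 hE 2
  have b0 := F.z0 hE c
  have b1 := F.z1 hE c
  have b2 := F.z2 hE c
  fin_cases c <;> simp at h b0 b1 b2 ⊢
  · linear_combination h - (F.w m 0 3 + F.w m 1 2) * a1 + (F.w m 0 2 - F.w m 1 3) * a2
      - F.w m 0 3 * b0 + F.w m 1 3 * b1 + F.w m 2 3 * b2
  · linear_combination h + (F.w m 0 3 + F.w m 1 2) * a0 - (F.w m 0 1 + F.w m 2 3) * a2
      - F.w m 0 3 * b0 + F.w m 1 3 * b1 + F.w m 2 3 * b2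
  · linear_combination h - (F.w m 0 2 - F.w m 1 3) * a0 + (F.w m 0 1 + F.w m 2 3) * a1
      - F.w m 0 3 * b0 + F.w m 1 3 * b1 + F.w m 2 3 * b2

/-- `ΔA = 6 (tr A) A - 6 A² - 2 ((tr A)² - |A|²) I`. -/
theorem LL_formula (c e : Fin 3) : F.LL c e = 6 * (F.AA 0 0 + F.AA 1 1 + F.AA 2 2) * F.AA c e
    - 6 * (F.AA c 0 * F.AA 0 e + F.AA c 1 * F.AA 1 e + F.AA c 2 * F.AA 2 e)
    - (if c = e then 2 * ((F.AA 0 0 + F.AA 1 1 + F.AA 2 2) ^ 2 - (F.AA 0 0 ^ 2 + F.AA 1 1 ^ 2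
        + F.AA 2 2 ^ 2 + 2 * F.AA 0 1 ^ 2 + 2 * F.AA 0 2 ^ 2 + 2 * F.AA 1 2 ^ 2)) else 0) := by
  rw [LL_eq]
  have s10 : F.AA 1 0 = F.AA 0 1 := F.AA_symm 1 0
  have s20 : F.AA 2 0 = F.AA 0 2 := F.AA_symm 2 0
  have s21 : F.AA 2 1 = F.AA 1 2 := F.AA_symm 2 1
  fin_cases e
  · have h := F.x0 hE 1 c
    have h1 := F.x1 hE 0 c
    have h2 := F.x2 hE 3 c
    have h3 := F.x3 hE 2 c
    have c1 := F.HH_comm 3 0 c 1
    have c2 := F.HH_comm 2 1 c 1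
    have c3 := F.HH_comm 0 2 c 2
    have c4 := F.HH_comm 3 1 c 2
    simp only [cr, F.P01 hE, F.P23 hE, F.P02 hE, F.P13 hE, F.P03 hE,
      F.P12 hE, F.P10 hE, F.P32 hE, F.P20 hE, F.P31 hE, F.P30 hE, F.P21 hE] at c1 c2 c3 c4
    fin_cases c <;> simp [s10, s20, s21] at h h1 h2 h3 c1 c2 c3 c4 ⊢
    · linear_combination h + h1 - h2 + h3 + c1 + c2 + c3 + c4
    · linear_combination h + h1 - h2 + h3 + c1 + c2 + c3 + c4
    · linear_combination h + h1 - h2 + h3 + c1 + c2 + c3 + c4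
  · have h := F.x0 hE 2 c
    have h1 := F.x2 hE 0 c
    have h2 := F.x3 hE 1 c
    have h3 := F.x1 hE 3 c
    have c1 := F.HH_comm 2 1 c 0
    have c2 := F.HH_comm 3 0 c 0
    have c3 := F.HH_comm 1 0 c 2
    have c4 := F.HH_comm 3 2 c 2
    simp only [cr, F.P01 hE, F.P23 hE, F.P02 hE, F.P13 hE, F.P03 hE,
      F.P12 hE, F.P10 hE, F.P32 hE, F.P20 hE, F.P31 hE, F.P30 hE, F.P21 hE] at c1 c2 c3 c4
    fin_cases c <;> simp [s10, s20, s21] at h h1 h2 h3 c1 c2 c3 c4 ⊢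
    · linear_combination h + h1 - h2 + h3 - c1 - c2 + c3 + c4
    · linear_combination h + h1 - h2 + h3 - c1 - c2 + c3 + c4
    · linear_combination h + h1 - h2 + h3 - c1 - c2 + c3 + c4
  · have h := F.x0 hE 3 c
    have h1 := F.x3 hE 0 c
    have h2 := F.x1 hE 2 c
    have h3 := F.x2 hE 1 c
    have c1 := F.HH_comm 3 1 c 0
    have c2 := F.HH_comm 2 0 c 0
    have c3 := F.HH_comm 3 2 c 1
    have c4 := F.HH_comm 1 0 c 1
    simp only [cr, F.P01 hE, F.P23 hE, F.P02 hE, F.P13 hE, F.P03 hE,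
      F.P12 hE, F.P10 hE, F.P32 hE, F.P20 hE, F.P31 hE, F.P30 hE, F.P21 hE] at c1 c2 c3 c4
    fin_cases c <;> simp [s10, s20, s21] at h h1 h2 h3 c1 c2 c3 c4 ⊢
    · linear_combination h + h1 - h2 + h3 - c1 + c2 - c3 - c4
    · linear_combination h + h1 - h2 + h3 - c1 + c2 - c3 - c4
    · linear_combination h + h1 - h2 + h3 - c1 + c2 - c3 - c4

end

end Frame

end Crest.Agent.R249.Fr129
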