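import Mathlib

/-!
Linear algebra at a point: refined Kato inequality for symmetric tracefree `N` with the second Bianchi
constraint; eigenvalue estimates for 3×3 tracefree symmetric matrices. (row 249, helper129)
-/

set_option autoImplicit false
set_option linter.unusedSimpArgs false

namespace Crest.Agent.R249.FrK129

open Finset

/-- The linear constraints of the second Bianchi identity. -/
structure BianchiN (N : Fin 4 → Fin 3 → Fin 3 → ℝ) : Prop where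
  symm : ∀ i c d, N i c d = N i d c
  tr : ∀ i, N i 0 0 + N i 1 1 + N i 2 2 = 0
  z0 : ∀ c, N 1 c 0 + N 2 c 1 + N 3 c 2 = 0
  z1 : ∀ c, N 0 c 0 + N 3 c 1 - N 2 c 2 = 0
  z2 : ∀ c, N 0 c 1 + N 1 c 2 - N 3 c 0 = 0
  z3 : ∀ c, N 0 c 2 + N 2 c 0 - N 1 c 1 = 0

/-- Symmetric tracefree matrices. -/
structure Sym0 (W : Fin 3 → Fin 3 → ℝ) : Prop where
  symm : ∀ c d, W c d = W d c
  tr : W 0 0 + W 1 1 + W 2 2 = 0

/-- `Y_{cl} = ∑ I_d(i,l) v_i W_{cd}` -/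
def Y (v : Fin 4 → ℝ) (W : Fin 3 → Fin 3 → ℝ) (c : Fin 3) : Fin 4 → ℝ :=
  ![-(v 1 * W c 0 + v 2 * W c 1 + v 3 * W c 2), v 0 * W c 0 + v 3 * W c 1 - v 2 * W c 2,
    v 0 * W c 1 + v 1 * W c 2 - v 3 * W c 0, v 0 * W c 2 + v 2 * W c 0 - v 1 * W c 1]

/-- `(Z* Y)_{i,cd}` -/
def ZY (v : Fin 4 → ℝ) (W : Fin 3 → Fin 3 → ℝ) (i : Fin 4) (c : Fin 3) : Fin 3 → ℝ :=
  (![![Y v W c 1, Y v W c 2, Y v W c 3], ![-Y v W c 0, -Y v W c 3, Y v W c 2],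
    ![Y v W c 3, -Y v W c 0, -Y v W c 1], ![-Y v W c 2, Y v W c 1, -Y v W c 0]] :
      Fin 4 → Fin 3 → ℝ) i

/-- The projection of `v ⊗ W` onto the constraint space (times 5, up to pure trace). -/
noncomputable def MM (v : Fin 4 → ℝ) (W : Fin 3 → Fin 3 → ℝ) (i : Fin 4) (c d : Fin 3) : ℝ :=
  v i * W c d - (1 / 5) * (ZY v W i c d + ZY v W i d c)
    + (if c = d then (2 / 15) * (ZY v W i 0 0 + ZY v W i 1 1 + ZY v W i 2 2) else 0)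

lemma MM_norm (v : Fin 4 → ℝ) {W : Fin 3 → Fin 3 → ℝ} (hW : Sym0 W) :
    5 * ∑ i, ∑ c, ∑ d, MM v W i c d ^ 2 = 3 * (∑ i, v i ^ 2) * ∑ c, ∑ d, W c d ^ 2 := by
  have s10 : W 1 0 = W 0 1 := hW.symm 1 0
  have s20 : W 2 0 = W 0 2 := hW.symm 2 0
  have s21 : W 2 1 = W 1 2 := hW.symm 2 1
  have s22 : W 2 2 = - W 0 0 - W 1 1 := by linarith [hW.tr]
  simp only [MM, ZY, Y, Fin.sum_univ_four, Fin.sum_univ_three]
  simp [s10, s20, s21, s22]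
  ring

lemma MM_dot (v : Fin 4 → ℝ) {W : Fin 3 → Fin 3 → ℝ} (_hW : Sym0 W)
    {N : Fin 4 → Fin 3 → Fin 3 → ℝ} (hN : BianchiN N) :
    ∑ i, ∑ c, ∑ d, MM v W i c d * N i c d = ∑ i, v i * ∑ c, ∑ d, N i c d * W c d := by
  have s10 : ∀ i, N i 1 0 = N i 0 1 := fun i => hN.symm i 1 0
  have s20 : ∀ i, N i 2 0 = N i 0 2 := fun i => hN.symm i 2 0
  have s21 : ∀ i, N i 2 1 = N i 1 2 := fun i => hN.symm i 2 1
  have s22 : ∀ i, N i 2 2 = - N i 0 0 - N i 1 1 := fun i => by linarith [hN.tr i]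
  have a := hN.z0
  have b := hN.z1
  have c := hN.z2
  have d := hN.z3
  have a0 := a 0
  have a1 := a 1
  have a2 := a 2
  have b0 := b 0
  have b1 := b 1
  have b2 := b 2
  have c0 := c 0
  have c1 := c 1
  have c2 := c 2
  have d0 := d 0
  have d1 := d 1
  have d2 := d 2
  simp only [MM, ZY, Fin.sum_univ_four, Fin.sum_univ_three]
  simp [s10, s20, s21, s22] at a0 a1 a2 b0 b1 b2 c0 c1 c2 d0 d1 d2 ⊢
  linear_combination (2 / 5) * (Y v W 0 0 * a0 + Y v W 1 0 * a1 + Y v W 2 0 * a2)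
    - (2 / 5) * (Y v W 0 1 * b0 + Y v W 1 1 * b1 + Y v W 2 1 * b2)
    - (2 / 5) * (Y v W 0 2 * c0 + Y v W 1 2 * c1 + Y v W 2 2 * c2)
    - (2 / 5) * (Y v W 0 3 * d0 + Y v W 1 3 * d1 + Y v W 2 3 * d2)

lemma sum_expand (q : ℝ) (X Y : Fin 4 → Fin 3 → Fin 3 → ℝ) :
    ∑ i, ∑ c, ∑ d, (3 * q * X i c d - 5 * Y i c d) ^ 2
      = 9 * q ^ 2 * (∑ i, ∑ c, ∑ d, X i c d ^ 2) - 30 * q * ∑ i, ∑ c, ∑ d, Y i c d * X i c d
        + 25 * ∑ i, ∑ c, ∑ d, Y i c d ^ 2 := by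
  have : ∀ i c d, (3 * q * X i c d - 5 * Y i c d) ^ 2 = 9 * q ^ 2 * X i c d ^ 2
      - 30 * q * (Y i c d * X i c d) + 25 * Y i c d ^ 2 := by intros; ring
  simp_rw [this, sum_add_distrib, sum_sub_distrib, ← mul_sum]

/-- **Refined Kato inequality.** -/
theorem kato {W : Fin 3 → Fin 3 → ℝ} (hW : Sym0 W) {N : Fin 4 → Fin 3 → Fin 3 → ℝ}
    (hN : BianchiN N) :
    5 * ∑ i, (∑ c, ∑ d, N i c d * W c d) ^ 2
      ≤ 3 * (∑ i, ∑ c, ∑ d, N i c d ^ 2) * ∑ c, ∑ d, W c d ^ 2 := by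
  set v : Fin 4 → ℝ := fun i => ∑ c, ∑ d, N i c d * W c d with hv
  set Q := ∑ c, ∑ d, W c d ^ 2 with hQ
  set NN := ∑ i, ∑ c, ∑ d, N i c d ^ 2 with hNN
  have h1 := MM_norm v hW
  have h2 := MM_dot v hW hN
  have h3 : ∑ i, v i * ∑ c, ∑ d, N i c d * W c d = ∑ i, v i ^ 2 :=
    sum_congr rfl fun i _ => by rw [pow_two]
  rw [h3] at h2
  rw [← hQ] at h1
  have h4 : 0 ≤ ∑ i, ∑ c, ∑ d, (3 * Q * N i c d - 5 * MM v W i c d) ^ 2 :=
    sum_nonneg fun _ _ => sum_nonneg fun _ _ => sum_nonneg fun _ _ => sq_nonneg _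
  have h5 : ∑ i, ∑ c, ∑ d, (3 * Q * N i c d - 5 * MM v W i c d) ^ 2
      = 9 * Q ^ 2 * NN - 30 * Q * ∑ i, ∑ c, ∑ d, MM v W i c d * N i c d
        + 25 * ∑ i, ∑ c, ∑ d, MM v W i c d ^ 2 := by
    exact sum_expand Q N (MM v W)
  rw [h5, h2] at h4
  have hv' : ∑ i, (∑ c, ∑ d, N i c d * W c d) ^ 2 = ∑ i, v i ^ 2 := rfl
  rw [hv']
  have hQ0 : 0 ≤ Q := sum_nonneg fun _ _ => sum_nonneg fun _ _ => sq_nonneg _
  rcases hQ0.eq_or_lt with h0 | h0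
  · have hW0 : ∀ c d, W c d = 0 := by
      intro c d
      have := (sum_eq_zero_iff_of_nonneg (fun c _ => sum_nonneg fun d _ => sq_nonneg (W c d))).1
        h0.symm c (mem_univ c)
      have := (sum_eq_zero_iff_of_nonneg (fun d _ => sq_nonneg (W c d))).1 this d (mem_univ d)
      exact pow_eq_zero_iff (two_ne_zero) |>.1 this
    have : ∑ i, v i ^ 2 = 0 := by
      refine sum_eq_zero fun i _ => ?_
      simp [hv, hW0]
    rw [this, ← h0]; simp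
  · have : 0 ≤ Q * (3 * NN * Q - 5 * ∑ i, v i ^ 2) := by nlinarith [h4, h1]
    have := nonneg_of_mul_nonneg_right this h0
    linarith

end Crest.Agent.R249.FrK129
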