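import Mathlib

/-!
Linear algebra in `Λ²ℝ⁴ = Λ⁺ ⊕ Λ⁻` and eigenvalues of tracefree symmetric `3×3` matrices.
(row 249, helper129)
-/

set_option autoImplicit false
set_option linter.unusedSimpArgs false

namespace Crest.Agent.R249.FrL129

open Finset

/-- self-dual part of `x ∧ y` -/
def sp (x y : Fin 4 → ℝ) : Fin 3 → ℝ :=
  ![(x 0 * y 1 - x 1 * y 0) + (x 2 * y 3 - x 3 * y 2),
    (x 0 * y 2 - x 2 * y 0) - (x 1 * y 3 - x 3 * y 1),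
    (x 0 * y 3 - x 3 * y 0) + (x 1 * y 2 - x 2 * y 1)]

/-- anti-self-dual part of `x ∧ y` (orientation reversed basis `e01 - e23, e02 + e13, -e03 + e12`) -/
def sm (x y : Fin 4 → ℝ) : Fin 3 → ℝ :=
  ![(x 0 * y 1 - x 1 * y 0) - (x 2 * y 3 - x 3 * y 2),
    (x 0 * y 2 - x 2 * y 0) + (x 1 * y 3 - x 3 * y 1),
    -(x 0 * y 3 - x 3 * y 0) + (x 1 * y 2 - x 2 * y 1)]

/-- `x I_u` -/
def mI (u : Fin 3 → ℝ) (x : Fin 4 → ℝ) : Fin 4 → ℝ :=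
  ![-(x 1 * u 0 + x 2 * u 1 + x 3 * u 2), x 0 * u 0 - x 2 * u 2 + x 3 * u 1,
    x 0 * u 1 + x 1 * u 2 - x 3 * u 0, x 0 * u 2 - x 1 * u 1 + x 2 * u 0]

/-- `x J_v` -/
def mJ (v : Fin 3 → ℝ) (x : Fin 4 → ℝ) : Fin 4 → ℝ :=
  ![-(x 1 * v 0 + x 2 * v 1 - x 3 * v 2), x 0 * v 0 - x 2 * v 2 - x 3 * v 1,
    x 0 * v 1 + x 1 * v 2 + x 3 * v 0, -(x 0 * v 2) + x 1 * v 1 - x 2 * v 0]

lemma sp_mI (u : Fin 3 → ℝ) (x : Fin 4 → ℝ) (a : Fin 3) :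
    sp x (mI u x) a = (x 0 ^ 2 + x 1 ^ 2 + x 2 ^ 2 + x 3 ^ 2) * u a := by
  fin_cases a <;> simp [sp, mI] <;> ring

lemma sm_mJ (v : Fin 3 → ℝ) (x : Fin 4 → ℝ) (a : Fin 3) :
    sm x (mJ v x) a = (x 0 ^ 2 + x 1 ^ 2 + x 2 ^ 2 + x 3 ^ 2) * v a := by
  fin_cases a <;> simp [sm, mJ] <;> ring

lemma mI_eq_mJ {u v : Fin 3 → ℝ} (h : u 0 ^ 2 + u 1 ^ 2 + u 2 ^ 2 = v 0 ^ 2 + v 1 ^ 2 + v 2 ^ 2)
    (z : Fin 4 → ℝ) : mI u (mI u z + mJ v z) = mJ v (mI u z + mJ v z) := by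
  funext i
  fin_cases i <;> simp [mI, mJ]
  · linear_combination (-z 0) * h
  · linear_combination (-z 1) * h
  · linear_combination (-z 2) * h
  · linear_combination (-z 3) * h

/-- Every pair of unit vectors `u ∈ Λ⁺, v ∈ Λ⁻` comes from a decomposable 2-form. -/
theorem exists_xy (u v : Fin 3 → ℝ) (hu : u 0 ^ 2 + u 1 ^ 2 + u 2 ^ 2 = 1)
    (hv : v 0 ^ 2 + v 1 ^ 2 + v 2 ^ 2 = 1) :
    ∃ x y : Fin 4 → ℝ, ∃ r : ℝ, 0 < r ∧ (∀ a, sp x y a = r * u a) ∧ (∀ a, sm x y a = r * v a) := by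
  have key : ∀ z : Fin 4 → ℝ,
      (0 < (mI u z + mJ v z) 0 ^ 2 + (mI u z + mJ v z) 1 ^ 2 + (mI u z + mJ v z) 2 ^ 2
        + (mI u z + mJ v z) 3 ^ 2) →
      ∃ x y : Fin 4 → ℝ, ∃ r : ℝ, 0 < r ∧ (∀ a, sp x y a = r * u a) ∧
        (∀ a, sm x y a = r * v a) := by
    intro z hz
    refine ⟨mI u z + mJ v z, mI u (mI u z + mJ v z), _, hz, fun a => sp_mI _ _ a, fun a => ?_⟩
    rw [mI_eq_mJ (by rw [hu, hv])]
    exact sm_mJ _ _ a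
  by_contra hcon
  have h0 := not_lt.1 (mt (key ![1, 0, 0, 0]) hcon)
  have h1 := not_lt.1 (mt (key ![0, 1, 0, 0]) hcon)
  have h2 := not_lt.1 (mt (key ![0, 0, 1, 0]) hcon)
  have h3 := not_lt.1 (mt (key ![0, 0, 0, 1]) hcon)
  simp [mI, mJ] at h0 h1 h2 h3
  nlinarith [h0, h1, h2, h3, hu, hv]

/-- Eigenvalues of a symmetric `3×3` matrix with the elementary symmetric functions. -/
theorem eig3 (W : Fin 3 → Fin 3 → ℝ) (hs : ∀ c d, W c d = W d c) :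
    ∃ m : Fin 3 → ℝ, m 0 + m 1 + m 2 = W 0 0 + W 1 1 + W 2 2 ∧
      m 0 * m 1 + m 0 * m 2 + m 1 * m 2 = W 0 0 * W 1 1 + W 0 0 * W 2 2 + W 1 1 * W 2 2
        - W 0 1 ^ 2 - W 0 2 ^ 2 - W 1 2 ^ 2 ∧
      m 0 * m 1 * m 2 = W 0 0 * W 1 1 * W 2 2 + 2 * W 0 1 * W 0 2 * W 1 2 - W 0 0 * W 1 2 ^ 2
        - W 1 1 * W 0 2 ^ 2 - W 2 2 * W 0 1 ^ 2 ∧
      ∀ i, ∃ u : Fin 3 → ℝ, u 0 ^ 2 + u 1 ^ 2 + u 2 ^ 2 = 1 ∧
        ∀ c, W c 0 * u 0 + W c 1 * u 1 + W c 2 * u 2 = m i * u c := by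
  set A : Matrix (Fin 3) (Fin 3) ℝ := Matrix.of W with hAdef
  have hA : A.IsHermitian := by
    ext i j
    simp [hAdef, Matrix.conjTranspose_apply, hs j i]
  refine ⟨hA.eigenvalues, ?_, ?_, ?_, ?_⟩
  · have := hA.trace_eq_sum_eigenvalues
    simp [Matrix.trace, Fin.sum_univ_three, hAdef] at this
    linarith
  · have h := congrArg (Polynomial.eval (1 : ℝ)) hA.charpoly_eq
    have hd := hA.det_eq_prod_eigenvalues
    have ht := hA.trace_eq_sum_eigenvalues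
    rw [Matrix.eval_charpoly] at h
    simp [Matrix.det_fin_three, Fin.prod_univ_three, Matrix.trace, Fin.sum_univ_three,
      Polynomial.eval_prod, hAdef, Matrix.sub_apply, Matrix.diagonal_apply] at h hd ht
    rw [hs 1 0, hs 2 0, hs 2 1] at h hd
    nlinarith [h, hd, ht]
  · have hd := hA.det_eq_prod_eigenvalues
    simp [Matrix.det_fin_three, Fin.prod_univ_three, hAdef] at hd
    rw [hs 1 0, hs 2 0, hs 2 1] at hd
    linarith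
  · intro i
    refine ⟨fun c => hA.eigenvectorBasis i c, ?_, fun c => ?_⟩
    · have := hA.eigenvectorBasis.orthonormal.1 i
      rw [EuclideanSpace.norm_eq] at this
      have h2 := congrArg (fun x => x ^ 2) this
      simp only [Real.sq_sqrt (Finset.sum_nonneg fun _ _ => sq_nonneg _), one_pow] at h2
      simpa [Fin.sum_univ_three] using h2
    · have := congrFun (hA.mulVec_eigenvectorBasis i) c
      simpa [Matrix.mulVec, dotProduct, Fin.sum_univ_three, hAdef] using this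

end Crest.Agent.R249.FrL129
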