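import Crest.Agent.R249.FrK_129
import Crest.Agent.R249.FrL_129

/-!
Estimates for tracefree symmetric `3×3` matrices; sectional curvature `≥ 0` gives
`|W⁺| + |W⁻| ≤ √6 · 2λ/3`. (row 249, helper129)
-/

set_option autoImplicit false
set_option linter.unusedSimpArgs false

namespace Crest.Agent.R249.FrM129

open Finset FrK129 FrL129

/-- `|W|²` -/
def nsq (W : Fin 3 → Fin 3 → ℝ) : ℝ := ∑ c, ∑ d, W c d ^ 2

lemma nsq_nonneg (W : Fin 3 → Fin 3 → ℝ) : 0 ≤ nsq W :=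
  sum_nonneg fun _ _ => sum_nonneg fun _ _ => sq_nonneg _

/-- determinant of a symmetric `3×3` matrix -/
def sdet (W : Fin 3 → Fin 3 → ℝ) : ℝ := W 0 0 * W 1 1 * W 2 2 + 2 * W 0 1 * W 0 2 * W 1 2
  - W 0 0 * W 1 2 ^ 2 - W 1 1 * W 0 2 ^ 2 - W 2 2 * W 0 1 ^ 2

/-- quadratic form -/
def qf (W : Fin 3 → Fin 3 → ℝ) (u : Fin 3 → ℝ) : ℝ := ∑ c, ∑ d, W c d * u c * u d

lemma nsq_eq {W : Fin 3 → Fin 3 → ℝ} (hW : Sym0 W) {m : Fin 3 → ℝ}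
    (h1 : m 0 + m 1 + m 2 = W 0 0 + W 1 1 + W 2 2)
    (h2 : m 0 * m 1 + m 0 * m 2 + m 1 * m 2 = W 0 0 * W 1 1 + W 0 0 * W 2 2 + W 1 1 * W 2 2
        - W 0 1 ^ 2 - W 0 2 ^ 2 - W 1 2 ^ 2) :
    nsq W = m 0 ^ 2 + m 1 ^ 2 + m 2 ^ 2 := by
  have s10 : W 1 0 = W 0 1 := hW.symm 1 0
  have s20 : W 2 0 = W 0 2 := hW.symm 2 0
  have s21 : W 2 1 = W 1 2 := hW.symm 2 1
  simp only [nsq, Fin.sum_univ_three, s10, s20, s21]
  linear_combination 2 * h2 - (m 0 + m 1 + m 2 + W 0 0 + W 1 1 + W 2 2) * h1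

/-- `54 (det W)² ≤ |W|⁶`. -/
theorem sdet_sq_le {W : Fin 3 → Fin 3 → ℝ} (hW : Sym0 W) : 54 * sdet W ^ 2 ≤ nsq W ^ 3 := by
  obtain ⟨m, h1, h2, h3, -⟩ := eig3 W hW.symm
  have hn := nsq_eq hW h1 h2
  have hd : sdet W = m 0 * m 1 * m 2 := h3.symm
  have h0 : m 2 = - m 0 - m 1 := by linarith [hW.tr]
  rw [hn, hd, h0]
  nlinarith [sq_nonneg ((m 0 - m 1) * (2 * m 0 + m 1) * (m 0 + 2 * m 1))]

/-- `18 det W ≤ √6 |W|³`. -/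
theorem sdet_le {W : Fin 3 → Fin 3 → ℝ} (hW : Sym0 W) :
    18 * sdet W ≤ Real.sqrt 6 * Real.sqrt (nsq W) ^ 3 := by
  have h := sdet_sq_le hW
  have hq := Real.sqrt_nonneg (nsq W)
  have h6 := Real.sqrt_nonneg (6 : ℝ)
  refine le_of_sq_le_sq ?_ (by positivity)
  have e : (Real.sqrt 6 * Real.sqrt (nsq W) ^ 3) ^ 2 = 6 * nsq W ^ 3 := by
    have : (Real.sqrt 6 * Real.sqrt (nsq W) ^ 3) ^ 2
        = (Real.sqrt 6 ^ 2) * (Real.sqrt (nsq W) ^ 2) ^ 3 := by ring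
    rw [this, Real.sq_sqrt (by norm_num), Real.sq_sqrt (nsq_nonneg W)]
  rw [e]; nlinarith

/-- Some unit vector has `⟨Wu,u⟩ ≤ -|W|/√6`. -/
theorem exists_neg {W : Fin 3 → Fin 3 → ℝ} (hW : Sym0 W) :
    ∃ u : Fin 3 → ℝ, u 0 ^ 2 + u 1 ^ 2 + u 2 ^ 2 = 1 ∧
      Real.sqrt (nsq W) ≤ - Real.sqrt 6 * qf W u := by
  obtain ⟨m, h1, h2, -, h4⟩ := eig3 W hW.symm
  have hn := nsq_eq hW h1 h2
  have h0 : m 0 + m 1 + m 2 = 0 := by linarith [hW.tr]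
  -- the smallest eigenvalue
  obtain ⟨i, hi⟩ : ∃ i, ∀ j, m i ≤ m j := Finite.exists_min m
  obtain ⟨u, hu, he⟩ := h4 i
  refine ⟨u, hu, ?_⟩
  have hq : qf W u = m i := by
    have : qf W u = ∑ c, (W c 0 * u 0 + W c 1 * u 1 + W c 2 * u 2) * u c := by
      simp only [qf, Fin.sum_univ_three]; ring
    rw [this]; simp_rw [he, Fin.sum_univ_three]
    linear_combination m i * hu
  rw [hq]
  have hneg : m i ≤ 0 := by
    have a := hi 0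
    have b := hi 1
    have c := hi 2
    linarith
  have hle : nsq W ≤ 6 * m i ^ 2 := by
    rw [hn]
    have a := hi 0
    have b := hi 1
    have c := hi 2
    have e : m 2 = - m 0 - m 1 := by linarith
    have p1 := mul_nonneg (sub_nonneg.2 a) (sub_nonneg.2 b)
    have p2 := mul_nonneg (sub_nonneg.2 b) (sub_nonneg.2 c)
    have p3 := mul_nonneg (sub_nonneg.2 a) (sub_nonneg.2 c)
    generalize m i = x at *
    rw [e] at p2 p3 ⊢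
    nlinarith [p1, p2, p3]
  have : Real.sqrt (nsq W) ≤ Real.sqrt (6 * m i ^ 2) := Real.sqrt_le_sqrt hle
  rw [Real.sqrt_mul (by norm_num), Real.sqrt_sq_eq_abs, abs_of_nonpos hneg] at this
  linarith

/-- **Pinching.** If `⟨Au,u⟩ + ⟨Cv,v⟩ ≥ 0` for unit vectors, `A = W⁺ + λ/3`, `C = W⁻ + λ/3`, then
`|W⁺| + |W⁻| ≤ √6 · (2λ/3)`. -/
theorem pinch {Wp Wm : Fin 3 → Fin 3 → ℝ} (hp : Sym0 Wp) (hm : Sym0 Wm) {lam : ℝ}
    (h : ∀ u v : Fin 3 → ℝ, u 0 ^ 2 + u 1 ^ 2 + u 2 ^ 2 = 1 → v 0 ^ 2 + v 1 ^ 2 + v 2 ^ 2 = 1 →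
      0 ≤ qf Wp u + qf Wm v + 2 * lam / 3) :
    Real.sqrt (nsq Wp) + Real.sqrt (nsq Wm) ≤ Real.sqrt 6 * (2 * lam / 3) := by
  obtain ⟨u, hu, h1⟩ := exists_neg hp
  obtain ⟨v, hv, h2⟩ := exists_neg hm
  have h3 := h u v hu hv
  have := mul_nonneg (Real.sqrt_nonneg (6 : ℝ)) h3
  linarith

/-- Pointwise form of the subsolution inequality for `(|W|² + δ²)^{1/6}`: with `q = |W|²`,
`Δq = 2|N|² + 4λq - 36 det W`, `∂_i q = 2⟨N_i,W⟩`. -/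
theorem bochner_ineq {W : Fin 3 → Fin 3 → ℝ} (hW : Sym0 W) {N : Fin 4 → Fin 3 → Fin 3 → ℝ}
    (hN : BianchiN N) {lam d lapq : ℝ} {dq : Fin 4 → ℝ}
    (hlap : lapq = 2 * ∑ i, ∑ c, ∑ d, N i c d ^ 2 + 4 * lam * nsq W - 36 * sdet W)
    (hdq : ∀ i, dq i = 2 * ∑ c, ∑ d, N i c d * W c d) :
    4 * lam * nsq W - 2 * Real.sqrt 6 * Real.sqrt (nsq W) ^ 3
      ≤ lapq - (5 / 6) * (∑ i, dq i ^ 2) / (nsq W + d ^ 2) := by
  have hk := kato hW hN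
  have hd := sdet_le hW
  set NN := ∑ i, ∑ c, ∑ d, N i c d ^ 2 with hNN
  have hNN0 : 0 ≤ NN := sum_nonneg fun _ _ => sum_nonneg fun _ _ => sum_nonneg fun _ _ =>
    sq_nonneg _
  have hq : 0 ≤ nsq W := nsq_nonneg W
  have e : ∑ i, dq i ^ 2 = 4 * ∑ i, (∑ c, ∑ d, N i c d * W c d) ^ 2 := by
    rw [mul_sum]; exact sum_congr rfl fun i _ => by rw [hdq]; ring
  have h1 : (5 / 6) * (∑ i, dq i ^ 2) / (nsq W + d ^ 2) ≤ 2 * NN := by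
    rcases (add_nonneg hq (sq_nonneg d)).eq_or_lt with h0 | h0
    · rw [← h0, div_zero]; linarith
    · rw [div_le_iff₀ h0, e]
      have : 5 * ∑ i, (∑ c, ∑ d, N i c d * W c d) ^ 2 ≤ 3 * NN * nsq W := hk
      nlinarith [mul_nonneg hNN0 (sq_nonneg d)]
  rw [hlap]; linarith

end Crest.Agent.R249.FrM129
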