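import Crest.Agent.R249.FrH_129
import Crest.Agent.R249.FrM_129

/-!
Evaluation at a point: the pointwise statements of part B1 of row 249 (Einstein 4-manifolds):
Bochner inequality for `|W^±|²` and the pinching `|W⁺| + |W⁻| ≤ √6 (2λ/3)` from `sec ≥ 0`.
(row 249, helper129)
-/

set_option autoImplicit false
set_option linter.unusedSimpArgs false
set_option linter.unusedSectionVars false

namespace Crest.Agent.R249.Fr129

open Finset FrK129 FrL129 FrM129

namespace Frame

variable {S : Type*} [CommRing S] [Algebra ℝ S] (F : Frame 4 S) (ev : S →ₐ[ℝ] ℝ) (lam : ℝ)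

/-- `W⁺` at the point. -/
noncomputable def Wr (c d : Fin 3) : ℝ := ev (F.WW (algebraMap ℝ S lam) c d)

/-- `∇W⁺` at the point. -/
noncomputable def Nr (i : Fin 4) (c d : Fin 3) : ℝ := ev (F.NN i c d)

/-- the curvature tensor at the point. -/
noncomputable def Rr (i j k l : Fin 4) : ℝ := ev (F.Rm i j k l)

variable {lam}
variable (hE : F.Einstein (algebraMap ℝ S lam))
include hE

lemma Wr_sym0 : Sym0 (F.Wr ev lam) where
  symm c d := by rw [Wr, Wr, F.WW_symm]
  tr := by
    have := congrArg ev (F.WW_trace hE)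
    simpa only [Wr, Nr, map_add, map_zero] using this

lemma Nr_bianchi : BianchiN (F.Nr ev) where
  symm i c d := by rw [Nr, Nr, F.NN_symm]
  tr i := by
    have := congrArg ev (F.NN_trace0 hE i)
    simpa only [Wr, Nr, map_add, map_zero] using this
  z0 c := by
    have := congrArg ev (F.z0 hE c)
    simpa only [Wr, Nr, map_add, map_sub, map_zero] using this
  z1 c := by
    have := congrArg ev (F.z1 hE c)
    simpa only [Wr, Nr, map_add, map_sub, map_zero] using this
  z2 c := by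
    have := congrArg ev (F.z2 hE c)
    simpa only [Wr, Nr, map_add, map_sub, map_zero] using this
  z3 c := by
    have := congrArg ev (F.z3 hE c)
    simpa only [Wr, Nr, map_add, map_sub, map_zero] using this

omit hE in
lemma ev_qq : ev (F.qq (algebraMap ℝ S lam)) = nsq (F.Wr ev lam) := by
  simp only [qq, nsq, Wr, map_sum, map_mul, pow_two]

lemma ev_lap_qq : ev (F.lap0 (F.qq (algebraMap ℝ S lam)))
    = 2 * ∑ i, ∑ c, ∑ d, F.Nr ev i c d ^ 2 + 4 * lam * nsq (F.Wr ev lam)
      - 36 * sdet (F.Wr ev lam) := by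
  rw [F.lap_qq hE]
  simp only [map_sub, map_add, map_mul, map_sum, map_pow, F.ev_qq ev, map_ofNat, AlgHom.commutes,
    Algebra.algebraMap_self, RingHom.id_apply, sdet, Wr, Nr]

lemma ev_D_qq (i : Fin 4) : ev (F.D i (F.qq (algebraMap ℝ S lam)))
    = 2 * ∑ c, ∑ d, F.Nr ev i c d * F.Wr ev lam c d := by
  rw [F.D_qq hE]
  simp only [map_mul, map_sum, map_ofNat, Wr, Nr]

/-- Bochner inequality for `q = |W⁺|²`:
`4λq - 2√6 q^{3/2} ≤ Δq - (5/6) |∇q|²/(q + d²)`. -/
theorem bochner_pt (d : ℝ) :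
    4 * lam * ev (F.qq (algebraMap ℝ S lam))
        - 2 * Real.sqrt 6 * Real.sqrt (ev (F.qq (algebraMap ℝ S lam))) ^ 3
      ≤ ev (F.lap0 (F.qq (algebraMap ℝ S lam)))
        - (5 / 6) * ev (F.gam (F.qq (algebraMap ℝ S lam)) (F.qq (algebraMap ℝ S lam)))
          / (ev (F.qq (algebraMap ℝ S lam)) + d ^ 2) := by
  have h := bochner_ineq (F.Wr_sym0 ev hE) (F.Nr_bianchi ev hE) (d := d) (F.ev_lap_qq ev hE)
    (F.ev_D_qq ev hE)
  have g : ev (F.gam (F.qq (algebraMap ℝ S lam)) (F.qq (algebraMap ℝ S lam)))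
      = ∑ i, ev (F.D i (F.qq (algebraMap ℝ S lam))) ^ 2 := by
    simp only [gam, map_sum, map_mul, pow_two]
  rw [g, F.ev_qq ev]; exact h

lemma AA_eq_W (c d : Fin 3) : ev (F.AA c d) = F.Wr ev lam c d + if c = d then lam / 3 else 0 := by
  simp only [Wr, WW, map_sub]
  split_ifs
  · simp only [map_mul, third, AlgHom.commutes, Algebra.algebraMap_self, RingHom.id_apply]; ring
  · simp

/-- Sectional curvature `≥ 0` gives `|W⁺| + |W⁻| ≤ √6 (2λ/3)`. -/
theorem pinch_pt (hK : ∀ x y : Fin 4 → ℝ,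
      0 ≤ ∑ i, ∑ j, ∑ k, ∑ l, ev (F.Rm i j k l) * x i * y j * y k * x l) :
    Real.sqrt (ev (F.qq (algebraMap ℝ S lam))) + Real.sqrt (ev (F.flip.qq (algebraMap ℝ S lam)))
      ≤ Real.sqrt 6 * (2 * lam / 3) := by
  have hE' := F.Einstein_flip hE
  rw [F.ev_qq ev, F.flip.ev_qq ev]
  refine pinch (F.Wr_sym0 ev hE) (F.flip.Wr_sym0 ev hE') ?_
  intro u v hu hv
  obtain ⟨x, y, r, hr, h1, h2⟩ := FrL129.exists_xy u v hu hv
  have h3 := hK x y
  have h4 := congrArg ev (F.sec_eq hE (fun i => algebraMap ℝ S (x i)) (fun i => algebraMap ℝ S (y i)))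
  have e1 : ∀ a, ev (Frame.sp (fun i => algebraMap ℝ S (x i)) (fun i => algebraMap ℝ S (y i)) a)
      = FrL129.sp x y a := by
    intro a
    fin_cases a <;> simp [Frame.sp, FrL129.sp]
  have e2 : ∀ a, ev (Frame.sm (fun i => algebraMap ℝ S (x i)) (fun i => algebraMap ℝ S (y i)) a)
      = FrL129.sm x y a := by
    intro a
    fin_cases a <;> simp [Frame.sm, FrL129.sm]
  simp only [map_mul, map_add, map_sum, map_ofNat, AlgHom.commutes, Algebra.algebraMap_self,
    RingHom.id_apply, e1, e2, h1, h2, F.AA_eq_W ev hE, F.flip.AA_eq_W ev hE'] at h4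
  have h5 : 0 ≤ r ^ 2 * (qf (F.Wr ev lam) u + qf (F.flip.Wr ev lam) v + 2 * lam / 3) := by
    have e : r ^ 2 * (qf (F.Wr ev lam) u + qf (F.flip.Wr ev lam) v + 2 * lam / 3)
        = 2 * ∑ i, ∑ j, ∑ k, ∑ l, ev (F.Rm i j k l) * x i * y j * y k * x l := by
      rw [h4]
      simp only [qf, Fin.sum_univ_three, Fin.isValue, reduceIte, Fin.reduceEq, add_zero,
        zero_ne_one, one_ne_zero]
      linear_combination (-(r ^ 2) * lam / 3) * hu + (-(r ^ 2) * lam / 3) * hv
    rw [e]; linarith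
  exact nonneg_of_mul_nonneg_right h5 (by positivity)

end Frame

end Crest.Agent.R249.Fr129
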