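import Crest.Agent.R247.Bo2_84

/-!
# R249, leaf FRM (helper285), part B: smooth oriented orthonormal frames

`orth_matrix` : `Eᵀ g E = 1`; `isFrame_of_orth`; `exists_frame` : near every point there is a
smooth, positively oriented, orthonormal frame.
-/

set_option autoImplicit false

open Filter Topology Set
open scoped ContDiff
open Crest.GeometryTopology.CoordMetric Crest.GeometryTopology.ChartCurvature
open Crest.Agent.R202.Tens Crest.Agent.R247.Bo84

noncomputable section

namespace Crest.Agent.R249.FrmB_285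

variable {n : ℕ}

local notation "𝔼" => EuclideanSpace ℝ (Fin n)

variable {g : MetricField n} {U : Set (EuclideanSpace ℝ (Fin n))} {x : EuclideanSpace ℝ (Fin n)}

/-- orthonormality for the bilinear form of a matrix. -/
def Orth (A : Matrix (Fin n) (Fin n) ℝ) (e : Fin n → EuclideanSpace ℝ (Fin n)) : Prop :=
  ∀ a b, bil A (e a) (e b) = if a = b then 1 else 0

/-- the matrix whose columns are the `e i`. -/
def mat (e : Fin n → EuclideanSpace ℝ (Fin n)) : Matrix (Fin n) (Fin n) ℝ :=
  Matrix.of fun a i => e i a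

@[simp] lemma mat_apply (e : Fin n → EuclideanSpace ℝ (Fin n)) (a i : Fin n) :
    mat e a i = e i a := rfl

lemma bil_eq_matrix (A : Matrix (Fin n) (Fin n) ℝ) (e : Fin n → EuclideanSpace ℝ (Fin n))
    (a b : Fin n) : bil A (e a) (e b) = ((mat e).transpose * A * mat e) a b := by
  rw [bil_apply, Matrix.mul_apply]
  have h3 : ∀ j, ((mat e).transpose * A) a j * mat e j b = ∑ i, A i j * e a i * e b j := by
    intro j
    rw [Matrix.mul_apply, Finset.sum_mul]
    refine Finset.sum_congr rfl fun i _ => ?_
    rw [Matrix.transpose_apply, mat_apply, mat_apply]; ring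
  simp only [h3]
  rw [Finset.sum_comm]

lemma Orth.matrix {A : Matrix (Fin n) (Fin n) ℝ} {e : Fin n → EuclideanSpace ℝ (Fin n)}
    (h : Orth A e) : (mat e).transpose * A * mat e = 1 := by
  ext a b
  rw [← bil_eq_matrix, h a b, Matrix.one_apply]

lemma Orth.det_ne {A : Matrix (Fin n) (Fin n) ℝ} {e : Fin n → EuclideanSpace ℝ (Fin n)}
    (h : Orth A e) : (mat e).det ≠ 0 := by
  have h1 := congrArg Matrix.det h.matrix
  rw [Matrix.det_mul, Matrix.det_one] at h1
  intro h2
  rw [h2, mul_zero] at h1
  exact zero_ne_one h1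

/-- an orthonormal family is a frame in the sense of `Bo2_84`. -/
lemma Orth.isFrame {A : Matrix (Fin n) (Fin n) ℝ} {e : Fin n → EuclideanSpace ℝ (Fin n)}
    (h : Orth A e) : IsFrame A e := by
  refine ⟨h, fun i j => ?_⟩
  have h1 := h.matrix
  have hu : IsUnit (mat e).det := h.det_ne.isUnit
  have h2 : A * (mat e * (mat e).transpose) = 1 := by
    have h3 : (mat e).transpose * (A * mat e) = 1 := by rw [← Matrix.mul_assoc]; exact h1
    have h4 : (A * mat e) * (mat e).transpose = 1 := mul_eq_one_comm.mp h3
    rw [← Matrix.mul_assoc]; exact h4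
  rw [Matrix.inv_eq_right_inv h2, Matrix.mul_apply]
  rfl

lemma contDiffAt_bil (hg : IsRiemannianOn g U) (hx : x ∈ U) {k : WithTop ℕ∞} (hk : k ≤ ∞)
    {V W : 𝔼 → 𝔼}
    (hV : ContDiffAt ℝ k V x) (hW : ContDiffAt ℝ k W x) :
    ContDiffAt ℝ k (fun y => bil (g y) (V y) (W y)) x := by
  simp only [bil_apply]
  refine ContDiffAt.sum fun i _ => ContDiffAt.sum fun j _ => ?_
  have h1 : ContDiffAt ℝ k (fun y => V y i) x :=
    (EuclideanSpace.proj i : 𝔼 →L[ℝ] ℝ).contDiff.contDiffAt.comp x hV
  have h2 : ContDiffAt ℝ k (fun y => W y j) x :=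
    (EuclideanSpace.proj j : 𝔼 →L[ℝ] ℝ).contDiff.contDiffAt.comp x hW
  exact (((contDiffAt_entry hg hx i j).of_le hk).mul h1).mul h2

/-- smooth orthonormal families, Gram–Schmidt. -/
lemma exists_family (hg : IsRiemannianOn g U) (hx : x ∈ U) (k : ℕ) (hk : k ≤ n) :
    ∃ e : ℕ → 𝔼 → 𝔼, (∀ i < k, ContDiffAt ℝ ∞ (e i) x) ∧
      ∀ᶠ y in 𝓝 x, ∀ i < k, ∀ j < k, bil (g y) (e i y) (e j y) = if i = j then 1 else 0 := by
  induction k with
  | zero =>
    exact ⟨fun _ _ => 0, fun i hi => absurd hi (Nat.not_lt_zero i),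
      Eventually.of_forall fun y i hi => absurd hi (Nat.not_lt_zero i)⟩
  | succ k ih =>
    obtain ⟨e, he, ho⟩ := ih (by omega)
    -- a vector orthogonal to the given ones at `x`
    obtain ⟨v, hv0, hv⟩ : ∃ v : 𝔼, v ≠ 0 ∧ ∀ i < k, bil (g x) v (e i x) = 0 := by
      let L : 𝔼 →ₗ[ℝ] (Fin k → ℝ) :=
        LinearMap.pi fun i => ((bil (g x)).flip (e i x) : 𝔼 →L[ℝ] ℝ).toLinearMap
      have hL : LinearMap.ker L ≠ ⊥ := by
        apply LinearMap.ker_ne_bot_of_finrank_lt
        simp
        omega
      obtain ⟨v, hv, hv0⟩ := (Submodule.ne_bot_iff _).1 hL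
      refine ⟨v, hv0, fun i hi => ?_⟩
      have := congrFun (LinearMap.mem_ker.1 hv) ⟨i, hi⟩
      exact this
    let w : 𝔼 → 𝔼 := fun y => v - ∑ i ∈ Finset.range k, bil (g y) v (e i y) • e i y
    have hw : ContDiffAt ℝ ∞ w x := by
      refine contDiffAt_const.sub (ContDiffAt.sum fun i hi => ?_)
      have hi' := he i (Finset.mem_range.1 hi)
      exact (contDiffAt_bil hg hx le_rfl contDiffAt_const hi').smul hi'
    have hwx : w x = v := by
      have : ∑ i ∈ Finset.range k, bil (g x) v (e i x) • e i x = 0 :=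
        Finset.sum_eq_zero fun i hi => by rw [hv i (Finset.mem_range.1 hi), zero_smul]
      simp only [w, this, sub_zero]
    have hN : ContDiffAt ℝ ∞ (fun y => bil (g y) (w y) (w y)) x :=
      contDiffAt_bil hg hx le_rfl hw hw
    have hpos : 0 < bil (g x) (w x) (w x) := by
      rw [hwx]; exact bil_pos hg hx hv0
    have hpos' : ∀ᶠ y in 𝓝 x, 0 < bil (g y) (w y) (w y) :=
      hN.continuousAt.eventually (lt_mem_nhds hpos)
    let E : 𝔼 → 𝔼 := fun y => (Real.sqrt (bil (g y) (w y) (w y)))⁻¹ • w y
    have hE : ContDiffAt ℝ ∞ E x := by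
      have hs : ContDiffAt ℝ ∞ (fun y => (Real.sqrt (bil (g y) (w y) (w y)))⁻¹) x :=
        (hN.sqrt hpos.ne').inv (Real.sqrt_ne_zero'.2 hpos)
      exact hs.smul hw
    refine ⟨Function.update e k E, fun i hi => ?_, ?_⟩
    · rcases Nat.lt_succ_iff_lt_or_eq.1 hi with h | h
      · rw [Function.update_of_ne h.ne]; exact he i h
      · rw [h, Function.update_self]; exact hE
    · filter_upwards [ho, hpos', hg.isOpen.mem_nhds hx] with y hy hp hyU
      have hwe : ∀ j < k, bil (g y) (w y) (e j y) = 0 := by
        intro j hj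
        simp only [w, map_sub, map_sum, map_smul, _root_.sub_apply, _root_.sum_apply,
          _root_.smul_apply, smul_eq_mul]
        rw [Finset.sum_eq_single j]
        · rw [hy j hj j hj, if_pos rfl]; ring
        · intro i hi hij
          rw [hy i (Finset.mem_range.1 hi) j hj, if_neg hij, mul_zero]
        · intro h; exact absurd (Finset.mem_range.2 hj) h
      have hEe : ∀ j < k, bil (g y) (E y) (e j y) = 0 := by
        intro j hj
        simp only [E, map_smul, _root_.smul_apply, smul_eq_mul, hwe j hj, mul_zero]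
      have hEE : bil (g y) (E y) (E y) = 1 := by
        simp only [E, map_smul, _root_.smul_apply, smul_eq_mul]
        have h1 := Real.mul_self_sqrt hp.le
        have h2 : Real.sqrt (bil (g y) (w y) (w y)) ≠ 0 := Real.sqrt_ne_zero'.2 hp
        field_simp
        nlinarith [h1]
      intro i hi j hj
      rcases Nat.lt_succ_iff_lt_or_eq.1 hi with h | h <;>
        rcases Nat.lt_succ_iff_lt_or_eq.1 hj with h' | h'
      · rw [Function.update_of_ne h.ne, Function.update_of_ne h'.ne]; exact hy i h j h'
      · subst h'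
        rw [Function.update_of_ne h.ne, Function.update_self, if_neg h.ne, bil_symm hg hyU]
        exact hEe i h
      · subst h
        rw [Function.update_of_ne h'.ne, Function.update_self, if_neg h'.ne']
        exact hEe j h'
      · subst h; subst h'
        rw [Function.update_self, if_pos rfl]
        exact hEE

lemma contDiffAt_det {e : Fin n → 𝔼 → 𝔼} {k : WithTop ℕ∞} (he : ∀ i, ContDiffAt ℝ k (e i) x) :
    ContDiffAt ℝ k (fun y => (mat fun i => e i y).det) x := by
  simp only [Matrix.det_apply]
  refine ContDiffAt.sum fun σ _ => ContDiffAt.const_smul _ (contDiffAt_prod fun i _ => ?_)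
  exact (EuclideanSpace.proj (σ i) : 𝔼 →L[ℝ] ℝ).contDiff.contDiffAt.comp x (he i)

/-- a smooth orthonormal frame near every point. -/
lemma exists_frame_any (hg : IsRiemannianOn g U) (hx : x ∈ U) :
    ∃ e : Fin n → 𝔼 → 𝔼, (∀ i, ContDiffAt ℝ ∞ (e i) x) ∧
      ∀ᶠ y in 𝓝 x, Orth (g y) fun i => e i y := by
  obtain ⟨e, he, ho⟩ := exists_family hg hx n le_rfl
  refine ⟨fun i => e i, fun i => he i i.2, ?_⟩
  filter_upwards [ho] with y hy
  intro a b
  rw [hy a a.2 b b.2]
  simp [Fin.ext_iff]

/-- a smooth, positively oriented, orthonormal frame near every point. -/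
theorem exists_frame (hg : IsRiemannianOn g U) (hx : x ∈ U) :
    ∃ e : Fin n → 𝔼 → 𝔼, (∀ i, ContDiffAt ℝ ∞ (e i) x) ∧
      ∀ᶠ y in 𝓝 x, Orth (g y) (fun i => e i y) ∧ 0 < (mat fun i => e i y).det := by
  obtain ⟨e, he, ho⟩ := exists_frame_any hg hx
  have hx1 : Orth (g x) fun i => e i x := ho.self_of_nhds
  rcases lt_or_gt_of_ne hx1.det_ne with h | h
  · -- flip the first vector
    rcases Nat.eq_zero_or_pos n with hn | hn
    · subst hn
      exfalso
      rw [Matrix.det_isEmpty] at h
      norm_num at h
    · let i0 : Fin n := ⟨0, hn⟩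
      let e' : Fin n → 𝔼 → 𝔼 := fun i y => if i = i0 then - e i y else e i y
      have he' : ∀ i, ContDiffAt ℝ ∞ (e' i) x := by
        intro i
        by_cases hi : i = i0
        · simp only [e', hi, if_true]; exact (he i0).neg
        · simp only [e', hi, if_false]; exact he i
      have ho' : ∀ y, Orth (g y) (fun i => e i y) → Orth (g y) fun i => e' i y := by
        intro y hy a b
        have := hy a b
        by_cases ha : a = i0 <;> by_cases hb : b = i0 <;>
          simp only [e', ha, hb, if_true, if_false, map_neg, _root_.neg_apply] at this ⊢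
        · simpa using this
        · have h1 : ¬ (i0 = b) := fun h => hb h.symm
          simp only [h1, if_false] at this ⊢
          rw [this, neg_zero]
        · rw [this]; simp
        · exact this
      have hdet : (mat fun i => e' i x).det = - (mat fun i => e i x).det := by
        have h1 : (mat fun i => e' i x) =
            (mat fun i => e i x).updateCol i0 (fun a => (-1 : ℝ) * (mat fun i => e i x) a i0) := by
          ext a i
          rw [Matrix.updateCol_apply]
          by_cases hi : i = i0
          · simp [e', hi]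
          · simp [e', hi]
        have h2 : (fun a => (-1 : ℝ) * (mat fun i => e i x) a i0) =
            (-1 : ℝ) • (fun a => (mat fun i => e i x) a i0) := rfl
        rw [h1, h2, Matrix.det_updateCol_smul]
        have h3 : (mat fun i => e i x).updateCol i0 (fun a => (mat fun i => e i x) a i0) =
            mat fun i => e i x := Matrix.updateCol_eq_self _ _
        rw [h3]; ring
      refine ⟨e', he', ?_⟩
      have hc := (contDiffAt_det he').continuousAt.eventually
        (lt_mem_nhds (show (0:ℝ) < (mat fun i => e' i x).det by rw [hdet]; linarith))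
      filter_upwards [ho, hc] with y hy hy'
      exact ⟨ho' y hy, hy'⟩
  · refine ⟨e, he, ?_⟩
    have hc := (contDiffAt_det he).continuousAt.eventually (lt_mem_nhds h)
    filter_upwards [ho, hc] with y hy hy'
    exact ⟨hy, hy'⟩

end Crest.Agent.R249.FrmB_285
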