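import Mathlib

/-!
# R249 (helper330), GB part a: the weight `om λ q = exp (-λ/q)` (`0` for `q ≤ 0`) and the scalar
inequalities of the gradient bound.
-/

set_option autoImplicit false
set_option linter.unusedVariables false

open Set Filter Topology
open scoped ContDiff

noncomputable section

namespace Crest.Agent.R249.GB330

/-- the weight. -/
def om (l q : ℝ) : ℝ := expNegInvGlue (q / l)

/-- its derivative. -/
def om1 (l q : ℝ) : ℝ := l * (q⁻¹) ^ 2 * om l q

section Om

variable {l : ℝ}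

lemma om_nonneg (l q : ℝ) : 0 ≤ om l q := expNegInvGlue.nonneg _

lemma om_zero (hl : 0 < l) {q : ℝ} (hq : q ≤ 0) : om l q = 0 :=
  expNegInvGlue.zero_of_nonpos (div_nonpos_of_nonpos_of_nonneg hq hl.le)

lemma om_pos (hl : 0 < l) {q : ℝ} (hq : 0 < q) : 0 < om l q :=
  expNegInvGlue.pos_of_pos (div_pos hq hl)

lemma om_mono (hl : 0 < l) {q q' : ℝ} (h : q ≤ q') : om l q ≤ om l q' :=
  expNegInvGlue.monotone (div_le_div_of_nonneg_right h hl.le)

lemma om_eq (hl : 0 < l) {q : ℝ} (hq : 0 < q) : om l q = Real.exp (-(l / q)) := by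
  have h1 : 0 < q / l := div_pos hq hl
  rw [om, expNegInvGlue, if_neg (not_le.2 h1), inv_div]

lemma om_le_one (hl : 0 < l) (q : ℝ) : om l q ≤ 1 := by
  rcases le_or_gt q 0 with h | h
  · rw [om_zero hl h]; exact zero_le_one
  · rw [om_eq hl h, Real.exp_le_one_iff]
    have : 0 < l / q := div_pos hl h
    linarith

lemma om1_nonneg (hl : 0 < l) (q : ℝ) : 0 ≤ om1 l q := by
  have := om_nonneg l q
  unfold om1
  positivity

lemma om1_zero (hl : 0 < l) {q : ℝ} (hq : q ≤ 0) : om1 l q = 0 := by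
  rw [om1, om_zero hl hq, mul_zero]

lemma contDiff_om (l : ℝ) : ContDiff ℝ ∞ (om l) :=
  expNegInvGlue.contDiff.comp (contDiff_id.div_const l)

lemma hasDerivAt_om (hl : 0 < l) (q : ℝ) : HasDerivAt (om l) (om1 l q) q := by
  have h1 := expNegInvGlue.hasDerivAt_polynomial_eval_inv_mul 1 (q / l)
  simp only [Polynomial.eval_one, one_mul, Polynomial.derivative_one, sub_zero, mul_one,
    Polynomial.eval_pow, Polynomial.eval_X] at h1
  have h2 : HasDerivAt (fun q : ℝ => q / l) (1 / l) q := (hasDerivAt_id q).div_const l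
  have h3 := HasDerivAt.comp q h1 h2
  refine HasDerivAt.congr_deriv h3 ?_
  rw [om1, om, inv_div]
  field_simp

lemma deriv_om (hl : 0 < l) (q : ℝ) : deriv (om l) q = om1 l q := (hasDerivAt_om hl q).deriv

/-- `exp (-y) y ^ k ≤ k!`. -/
lemma exp_neg_mul_pow_le (k : ℕ) {y : ℝ} (hy : 0 ≤ y) : Real.exp (-y) * y ^ k ≤ k.factorial := by
  have h1 := Real.pow_div_factorial_le_exp y hy k
  have h2 : (0:ℝ) < k.factorial := by exact_mod_cast k.factorial_pos
  have h3 : y ^ k ≤ Real.exp y * k.factorial := by rwa [div_le_iff₀ h2] at h1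
  calc Real.exp (-y) * y ^ k ≤ Real.exp (-y) * (Real.exp y * k.factorial) :=
        mul_le_mul_of_nonneg_left h3 (Real.exp_pos _).le
    _ = k.factorial := by rw [← mul_assoc, ← Real.exp_add]; simp

/-- the bound of the weight. -/
lemma om_bound (hl : 0 < l) {M : ℝ} (hM : 0 ≤ M) : ∃ K : ℝ, 1 ≤ K ∧ ∀ q w, 0 ≤ w → w ≤ q + M →
    om l q + om1 l q * w ≤ K ∧ om l q + om1 l q * w ≤ K * (max q 0) ^ 2 := by
  refine ⟨1 + (1 + M * 2 / l) + (2 + 6 + M * 24 / l) / l ^ 2, ?_, ?_⟩
  · have : 0 ≤ (1 + M * 2 / l) + (2 + 6 + M * 24 / l) / l ^ 2 := by positivity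
    linarith
  intro q w hw hwq
  have hA : 0 ≤ (1 + M * 2 / l) := by positivity
  have hB : 0 ≤ (2 + 6 + M * 24 / l) / l ^ 2 := by positivity
  rcases le_or_gt q 0 with h | h
  · rw [om_zero hl h, om1_zero hl h]
    constructor
    · linarith
    · have : 0 ≤ (1 + (1 + M * 2 / l) + (2 + 6 + M * 24 / l) / l ^ 2) * (max q 0) ^ 2 := by
        positivity
      linarith
  · set y := l / q with hy
    have hy0 : 0 < y := div_pos hl h
    have hq : q = l / y := by rw [hy]; field_simp
    have e0 := om_eq hl h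
    have hom0 := om_nonneg l q
    have k1 := exp_neg_mul_pow_le 1 hy0.le
    have k2 := exp_neg_mul_pow_le 2 hy0.le
    have k3 := exp_neg_mul_pow_le 3 hy0.le
    have k4 := exp_neg_mul_pow_le 4 hy0.le
    rw [← hy] at e0
    rw [← e0] at k1 k2 k3 k4
    simp only [Nat.factorial, Nat.cast_one, Nat.cast_ofNat, mul_one, Nat.succ_eq_add_one] at k1 k2 k3 k4
    norm_num at k1 k2 k3 k4
    have e1 : om1 l q = y ^ 2 * om l q / l := by
      rw [om1, hy]; field_simp
    have hM1 : om1 l q * w ≤ y ^ 2 * om l q / l * (q + M) := by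
      rw [e1]
      exact mul_le_mul_of_nonneg_left hwq (by positivity)
    have e2 : y ^ 2 * om l q / l * (q + M) = om l q * y + M * (om l q * y ^ 2) / l := by
      rw [hq]; field_simp
    rw [e2] at hM1
    have o1 := om_le_one hl q
    have m1 : M * (om l q * y ^ 2) / l ≤ M * 2 / l := by
      apply div_le_div_of_nonneg_right _ hl.le
      exact mul_le_mul_of_nonneg_left k2 hM
    constructor
    · linarith
    · rw [max_eq_left h.le]
      have e3 : ∀ a : ℝ, a / l ^ 2 * q ^ 2 = a / y ^ 2 := by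
        intro a; rw [hq]; field_simp
      have c1 : om l q ≤ 2 / y ^ 2 := by
        rw [le_div_iff₀ (by positivity)]; exact k2
      have c2 : om l q * y ≤ 6 / y ^ 2 := by
        rw [le_div_iff₀ (by positivity)]; linarith
      have c3 : M * (om l q * y ^ 2) / l ≤ (M * 24 / l) / y ^ 2 := by
        rw [div_div, mul_comm l, ← div_div]
        apply div_le_div_of_nonneg_right _ hl.le
        rw [le_div_iff₀ (by positivity), mul_assoc]
        exact mul_le_mul_of_nonneg_left (by linarith) hM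
      have c4 : (2 + 6 + M * 24 / l) / l ^ 2 * q ^ 2 = 2 / y ^ 2 + 6 / y ^ 2 + (M * 24 / l) / y ^ 2 := by
        rw [e3]; ring
      have c5 : 0 ≤ (1 + (1 + M * 2 / l)) * q ^ 2 := by positivity
      have c6 : (1 + (1 + M * 2 / l) + (2 + 6 + M * 24 / l) / l ^ 2) * q ^ 2 =
          (1 + (1 + M * 2 / l)) * q ^ 2 + (2 + 6 + M * 24 / l) / l ^ 2 * q ^ 2 := by ring
      rw [c6, c4]
      linarith

end Om

end Crest.Agent.R249.GB330
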