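import Crest.Agent.R249.GBa_330
import Crest.Agent.R249.DivC1_467

/-!
# R249 (helper330), GB part b: barriers and the pointwise inequality of the gradient bound

`Bar f g B Φ` : `Φ` is a gradient barrier for `L φ = f φ` on `[g, B]`.
`core` : the pointwise inequality.
-/

set_option autoImplicit false
set_option linter.unusedVariables false
set_option linter.unusedSectionVars false

open MeasureTheory Set Filter Topology Matrix
open scoped ContDiff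

noncomputable section

namespace Crest.Agent.R249.GB330

open Crest.Agent.R249.Calc_806 Crest.Agent.R249.Calc_806.Calc DivC467

set_option maxHeartbeats 1000000 in
/-- the scalar inequality -/
lemma core {c M w h F0 η0 f1 a1 a2 n ρ o o1 ss : ℝ}
    (hc : 0 < c) (hM : 0 ≤ M) (hF : |F0| ≤ M) (ha : |a1| ≤ M) (hw : 0 ≤ w) (hss : 0 ≤ ss)
    (ho : 0 ≤ o) (ho1 : 0 ≤ o1) (hc1 : c ≤ 1)
    (hη : 0 ≤ η0) (hη1 : η0 * (8 * (2 * M + 1)) ≤ c)
    (hess : h ^ 2 + 2 * ss + (F0 - η0 + n - h) ^ 2 / 3 ≤ ρ)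
    (key : c * (1 + w + h ^ 2) * o ≤
      o * (h ^ 2 + (F0 - h) ^ 2 / 3 + (1 + f1 - a2 / 2) * w - a1 / 2 * F0) +
        o1 * w * (h - a1 / 2) ^ 2) :
    c / (8 * (2 + M ^ 2)) * (o * (1 + w + ρ)) - (4 * (3 * M + 1) ^ 2 / c + 1) * (n ^ 2 * (o + o1 * w)) ≤
      o * (ρ + (1 + f1 - a2 / 2) * w + (F0 - η0 + n) * (-(a1 / 2) - n)) +
        o1 * (w / 2 * ((2 * h - a1) ^ 2 + 4 * ss) - n * (w * (2 * h - a1))) := by
  set θ := c / (8 * (2 + M ^ 2)) with hθ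
  set K := 4 * (3 * M + 1) ^ 2 / c with hK
  have hθ0 : 0 < θ := by positivity
  have hθ1 : θ * (8 * (2 + M ^ 2)) = c := by rw [hθ]; field_simp
  have hθc : θ ≤ c / 16 := by nlinarith [sq_nonneg M]
  have hK0 : 0 ≤ K := by positivity
  have hKc : K * c = 4 * (3 * M + 1) ^ 2 := by rw [hK]; field_simp
  have ha1 := abs_le.1 ha
  have hF1 := abs_le.1 hF
  have hb0 := abs_nonneg h
  have hn0 := abs_nonneg n
  have hb2 : |h| ^ 2 = h ^ 2 := sq_abs h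
  have hn2 : |n| ^ 2 = n ^ 2 := sq_abs n
  have hη8 : η0 ≤ 1 := by nlinarith
  -- the products
  have p1 : |(F0 - h) * (n - η0)| ≤ (M + |h|) * (|n| + η0) := by
    rw [abs_mul]
    refine mul_le_mul ?_ ?_ (abs_nonneg _) (by positivity)
    · exact (abs_sub _ _).trans (by linarith)
    · refine (abs_sub _ _).trans ?_
      rw [abs_of_nonneg hη]
  have p1' := neg_abs_le ((F0 - h) * (n - η0))
  have p2 : n * (a1 / 2 + F0 - η0) ≤ |n| * (2 * M + 1) := by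
    refine (le_abs_self _).trans ?_
    rw [abs_mul]
    refine mul_le_mul_of_nonneg_left ?_ hn0
    rw [abs_le]
    constructor <;> linarith
  -- first step
  have s1 : θ * ρ + (h ^ 2 + (F0 - h) ^ 2 / 3) - c / 8 * (1 + h ^ 2) -
      2 / 3 * ((M + |h|) * (|n| + η0)) ≤ ρ := by
    have t1 : (1 - θ) * (h ^ 2 + (F0 - η0 + n - h) ^ 2 / 3) ≤ (1 - θ) * ρ :=
      mul_le_mul_of_nonneg_left (by linarith) (by linarith)
    have t2 : θ * (h ^ 2 + (F0 - h) ^ 2 / 3) ≤ c / 8 * (1 + h ^ 2) := by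
      have u1 : h ^ 2 + (F0 - h) ^ 2 / 3 ≤ (2 + M ^ 2) * (1 + h ^ 2) := by
        have : F0 ^ 2 ≤ M ^ 2 := by rw [← sq_abs F0]; exact pow_le_pow_left₀ (abs_nonneg _) hF 2
        have t4 : (F0 - h) ^ 2 = 2 * F0 ^ 2 + 2 * h ^ 2 - (F0 + h) ^ 2 := by ring
        have t5 : (2 + M ^ 2) * (1 + h ^ 2) = 2 + M ^ 2 + 2 * h ^ 2 + (M * h) ^ 2 := by ring
        have t6 := sq_nonneg (F0 + h)
        have t7 := sq_nonneg (M * h)
        have t8 := sq_nonneg M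
        have t9 := sq_nonneg h
        rw [t4, t5]
        linarith
      have u2 : θ * (h ^ 2 + (F0 - h) ^ 2 / 3) ≤ θ * ((2 + M ^ 2) * (1 + h ^ 2)) :=
        mul_le_mul_of_nonneg_left u1 hθ0.le
      have u3 : θ * ((2 + M ^ 2) * (1 + h ^ 2)) = c / 8 * (1 + h ^ 2) := by
        rw [← hθ1]; ring
      linarith
    have t3 : (1 - θ) * ((F0 - h) ^ 2 / 3) - 2 / 3 * ((M + |h|) * (|n| + η0)) ≤
        (1 - θ) * ((F0 - η0 + n - h) ^ 2 / 3) := by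
      have v1 : (F0 - η0 + n - h) ^ 2 = (F0 - h) ^ 2 + 2 * ((F0 - h) * (n - η0)) + (n - η0) ^ 2 := by
        ring
      rw [v1]
      have v2 : 0 ≤ (M + |h|) * (|n| + η0) := by positivity
      have v3 : 0 ≤ 1 - θ := by linarith
      have v4 : 1 - θ ≤ 1 := by linarith
      have v5 : (1 - θ) * (-((M + |h|) * (|n| + η0))) ≤ (1 - θ) * ((F0 - h) * (n - η0)) :=
        mul_le_mul_of_nonneg_left (by linarith) v3
      have v6 : 0 ≤ (1 - θ) * (n - η0) ^ 2 := mul_nonneg v3 (sq_nonneg _)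
      have v7 : (1 - θ) * ((M + |h|) * (|n| + η0)) ≤ 1 * ((M + |h|) * (|n| + η0)) :=
        mul_le_mul_of_nonneg_right v4 v2
      have v8 : (1 - θ) * (((F0 - h) ^ 2 + 2 * ((F0 - h) * (n - η0)) + (n - η0) ^ 2) / 3) =
        (1 - θ) * ((F0 - h) ^ 2 / 3) + 2 / 3 * ((1 - θ) * ((F0 - h) * (n - η0))) +
          (1 - θ) * (n - η0) ^ 2 / 3 := by ring
      rw [v8]
      linarith
    have t4 : (1 - θ) * (h ^ 2 + (F0 - η0 + n - h) ^ 2 / 3) =
        h ^ 2 - θ * h ^ 2 + (1 - θ) * ((F0 - η0 + n - h) ^ 2 / 3) := by ring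
    have t5 : (1 - θ) * ((F0 - h) ^ 2 / 3) = (F0 - h) ^ 2 / 3 - θ * ((F0 - h) ^ 2 / 3) := by ring
    have t6 : θ * (h ^ 2 + (F0 - h) ^ 2 / 3) = θ * h ^ 2 + θ * ((F0 - h) ^ 2 / 3) := by ring
    have t7 : (1 - θ) * ρ = ρ - θ * ρ := by ring
    linarith
  -- second step
  have s2 : 2 / 3 * ((M + |h|) * (|n| + η0)) + |n| * (2 * M + 1) + η0 * (M / 2) ≤
      c / 4 * (1 + h ^ 2) + K * n ^ 2 := by
    have w1 : |n| * (3 * M + 1 + |h|) ≤ c / 8 * (1 + h ^ 2) + K * n ^ 2 := by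
      -- AM-GM
      have x1 : (3 * M + 1 + |h|) ^ 2 ≤ 2 * (3 * M + 1) ^ 2 * (1 + h ^ 2) := by
        rw [← hb2]
        have z1 : 2 * (3 * M + 1) ^ 2 * (1 + |h| ^ 2) - (3 * M + 1 + |h|) ^ 2 =
          (3 * M + 1 - |h|) ^ 2 + 2 * ((3 * M) ^ 2 + 6 * M) * |h| ^ 2 := by ring
        have z2 : 0 ≤ (3 * M + 1 - |h|) ^ 2 + 2 * ((3 * M) ^ 2 + 6 * M) * |h| ^ 2 := by positivity
        linarith
      have x2 : 0 < (3 * M + 1) ^ 2 := by positivity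
      have x3 : 16 * (3 * M + 1) ^ 2 * (|n| * (3 * M + 1 + |h|)) * c ≤
          c ^ 2 * (3 * M + 1 + |h|) ^ 2 + 64 * (3 * M + 1) ^ 4 * |n| ^ 2 := by
        have x8 := sq_nonneg (c * (3 * M + 1 + |h|) - 8 * (3 * M + 1) ^ 2 * |n|)
        have x9 : (c * (3 * M + 1 + |h|) - 8 * (3 * M + 1) ^ 2 * |n|) ^ 2 =
          c ^ 2 * (3 * M + 1 + |h|) ^ 2 + 64 * (3 * M + 1) ^ 4 * |n| ^ 2 -
            16 * (3 * M + 1) ^ 2 * (|n| * (3 * M + 1 + |h|)) * c := by ring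
        rw [x9] at x8
        linarith
      have x4 : c ^ 2 * (3 * M + 1 + |h|) ^ 2 ≤ c ^ 2 * (2 * (3 * M + 1) ^ 2 * (1 + h ^ 2)) :=
        mul_le_mul_of_nonneg_left x1 (sq_nonneg _)
      have x5 : 16 * (3 * M + 1) ^ 2 * c * (|n| * (3 * M + 1 + |h|)) ≤
          16 * (3 * M + 1) ^ 2 * c * (c / 8 * (1 + h ^ 2) + K * n ^ 2) := by
        have : 16 * (3 * M + 1) ^ 2 * c * (c / 8 * (1 + h ^ 2) + K * n ^ 2) =
            c ^ 2 * (2 * (3 * M + 1) ^ 2 * (1 + h ^ 2)) + 16 * (3 * M + 1) ^ 2 * (K * c) * n ^ 2 := by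
          ring
        rw [this, hKc]
        rw [hn2] at x3
        have x6 : 16 * (3 * M + 1) ^ 2 * c * (|n| * (3 * M + 1 + |h|)) =
          16 * (3 * M + 1) ^ 2 * (|n| * (3 * M + 1 + |h|)) * c := by ring
        have x7 : 16 * (3 * M + 1) ^ 2 * (4 * (3 * M + 1) ^ 2) * n ^ 2 = 64 * (3 * M + 1) ^ 4 * n ^ 2 := by
          ring
        rw [x6, x7]
        linarith
      exact le_of_mul_le_mul_left x5 (by positivity)
    have w2 : η0 * (2 * M + |h|) ≤ c / 8 * (1 + h ^ 2) := by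
      have y1 : 2 * M + |h| ≤ (2 * M + 1) * (1 + h ^ 2) := by
        rw [← hb2]
        have z1 : (2 * M + 1) * (1 + |h| ^ 2) - (2 * M + |h|) =
          (|h| - 1 / 2) ^ 2 + 3 / 4 + 2 * M * |h| ^ 2 := by ring
        have z2 : 0 ≤ (|h| - 1 / 2) ^ 2 + 3 / 4 + 2 * M * |h| ^ 2 := by positivity
        linarith
      have y2 : η0 * (2 * M + |h|) ≤ η0 * ((2 * M + 1) * (1 + h ^ 2)) :=
        mul_le_mul_of_nonneg_left y1 hη
      have y3 : 0 ≤ 1 + h ^ 2 := by positivity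
      have y4 := mul_le_mul_of_nonneg_right hη1 y3
      have y5 : η0 * (8 * (2 * M + 1)) * (1 + h ^ 2) = 8 * (η0 * ((2 * M + 1) * (1 + h ^ 2))) := by ring
      rw [y5] at y4
      linarith
    have w3 : 0 ≤ |n| * |h| := mul_nonneg hn0 hb0
    have w4 : 0 ≤ η0 * |h| := mul_nonneg hη hb0
    have w5 : 0 ≤ |n| * M := mul_nonneg hn0 hM
    have w6 : 0 ≤ η0 * M := mul_nonneg hη hM
    have w7 : 2 / 3 * ((M + |h|) * (|n| + η0)) + |n| * (2 * M + 1) + η0 * (M / 2) =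
      |n| * (3 * M + 1 + |h|) + η0 * (2 * M + |h|) - 1 / 3 * (|n| * M) - 1 / 3 * (|n| * |h|)
      - 5 / 6 * (η0 * M) - 1 / 3 * (η0 * |h|) := by ring
    rw [w7]
    linarith
  -- the bracket
  have s3 : θ * ρ + (h ^ 2 + (F0 - h) ^ 2 / 3 + (1 + f1 - a2 / 2) * w - a1 / 2 * F0) -
      3 * c / 8 * (1 + h ^ 2) - (K + 1) * n ^ 2 ≤
      ρ + (1 + f1 - a2 / 2) * w + (F0 - η0 + n) * (-(a1 / 2) - n) := by
    have e1 : (F0 - η0 + n) * (-(a1 / 2) - n) =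
        -(a1 / 2 * F0) + η0 * (a1 / 2) - n * (a1 / 2 + F0 - η0) - n ^ 2 := by ring
    have e2 : -(η0 * (M / 2)) ≤ η0 * (a1 / 2) := by nlinarith
    rw [e1]
    linarith
  have s4 := mul_le_mul_of_nonneg_left s3 ho
  -- the second part
  have s5 : o1 * w * (h - a1 / 2) ^ 2 - o1 * w * n ^ 2 ≤
      o1 * (w / 2 * ((2 * h - a1) ^ 2 + 4 * ss) - n * (w * (2 * h - a1))) := by
    have z1 : 0 ≤ o1 * w := mul_nonneg ho1 hw
    have z2 : 0 ≤ (o1 * w) * ((h - a1 / 2 - n) ^ 2 + 2 * ss) :=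
      mul_nonneg z1 (by positivity)
    have z3 : o1 * (w / 2 * ((2 * h - a1) ^ 2 + 4 * ss) - n * (w * (2 * h - a1))) -
      (o1 * w * (h - a1 / 2) ^ 2 - o1 * w * n ^ 2) = (o1 * w) * ((h - a1 / 2 - n) ^ 2 + 2 * ss) := by
      ring
    linarith
  have s7 : 0 ≤ c * (o * h ^ 2) := by positivity
  have s9 : 0 ≤ (5 * c / 8 - θ) * (o * (1 + w)) := mul_nonneg (by linarith) (by positivity)
  have s10 : 0 ≤ c * (o * w) := by positivity
  have s11 : 0 ≤ K * (n ^ 2 * (o1 * w)) := by positivity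
  have s12 : 0 ≤ c * o := by positivity
  have g1 : o * (θ * ρ + (h ^ 2 + (F0 - h) ^ 2 / 3 + (1 + f1 - a2 / 2) * w - a1 / 2 * F0) -
      3 * c / 8 * (1 + h ^ 2) - (K + 1) * n ^ 2) =
      θ * (o * ρ) + o * (h ^ 2 + (F0 - h) ^ 2 / 3 + (1 + f1 - a2 / 2) * w - a1 / 2 * F0)
      - 3 / 8 * (c * o) - 3 / 8 * (c * (o * h ^ 2)) - K * (n ^ 2 * o) - n ^ 2 * o := by ring
  have g2 : o * (ρ + (1 + f1 - a2 / 2) * w + (F0 - η0 + n) * (-(a1 / 2) - n)) =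
      o * (ρ + (1 + f1 - a2 / 2) * w + (F0 - η0 + n) * (-(a1 / 2) - n)) := rfl
  have g3 : θ * (o * (1 + w + ρ)) = θ * (o * (1 + w)) + θ * (o * ρ) := by ring
  have g4 : (5 * c / 8 - θ) * (o * (1 + w)) =
      5 / 8 * (c * o) + 5 / 8 * (c * (o * w)) - θ * (o * (1 + w)) := by ring
  have g5 : c * (1 + w + h ^ 2) * o = c * o + c * (o * w) + c * (o * h ^ 2) := by ring
  have g6 : (K + 1) * (n ^ 2 * (o + o1 * w)) =
      K * (n ^ 2 * o) + n ^ 2 * o + K * (n ^ 2 * (o1 * w)) + o1 * w * n ^ 2 := by ring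
  rw [g1] at s4
  rw [g5] at key
  rw [g3, g6]
  linarith

end Crest.Agent.R249.GB330
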