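import Crest.Agent.R249.GBb_330

/-!
# R249 (helper330), GB part c: the gradient bound for one function

`Bar f g B Φ c N Λ` : `Φ` is a gradient barrier for `L φ = f φ` on `[g, B]`;
`gb_one` : if `L φ = f φ - η₀ + n` then `∫ om(q) (1 + |dφ|² + Rb φ) ≤ K ∫ n² (om(q) + om'(q) |dφ|²)`,
`q = |dφ|² - Φ(φ)`.
-/

set_option autoImplicit false
set_option linter.unusedVariables false
set_option linter.unusedSectionVars false

open MeasureTheory Set Filter Topology Matrix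
open scoped ContDiff

noncomputable section

namespace Crest.Agent.R249.GB330

open Crest.Agent.R249.Calc_806 Crest.Agent.R249.Calc_806.Calc DivC467

/-- `Φ` is a **gradient barrier** for `L φ = f φ` on `[g, B]`. -/
structure Bar (f : ℝ → ℝ) (g B : ℝ) (Φ : ℝ → ℝ) (c N Λ : ℝ) : Prop where
  smooth : ContDiff ℝ ∞ Φ
  c_pos : 0 < c
  c_le : c ≤ 1
  N_pos : 0 < N
  L_pos : 0 < Λ
  nn : ∀ u ∈ Icc g B, 0 ≤ Φ u
  di : ∀ u ∈ Icc g B, ∀ w z : ℝ, Φ u ≤ w → w ≤ Φ u + Λ → c * (1 + w + z ^ 2) ≤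
    z ^ 2 + (f u - z) ^ 2 / 3 + (1 + deriv f u - deriv (deriv Φ) u / 2) * w - deriv Φ u / 2 * f u +
      N * (z - deriv Φ u / 2) ^ 2
  di' : ∀ u ∈ Icc g B, ∀ w z : ℝ, Φ u + Λ ≤ w → c * (1 + w + z ^ 2) ≤
    z ^ 2 + (f u - z) ^ 2 / 3 + (1 + deriv f u - deriv (deriv Φ) u / 2) * w - deriv Φ u / 2 * f u

variable {f : ℝ → ℝ} {g B : ℝ} {Φ : ℝ → ℝ} {c N Λ : ℝ}

lemma Bar.l_pos (b : Bar f g B Φ c N Λ) : 0 < N * Λ := mul_pos b.N_pos b.L_pos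

lemma Bar.key (b : Bar f g B Φ c N Λ) {u w z : ℝ} (hu : u ∈ Icc g B) (hw : 0 ≤ w) :
    c * (1 + w + z ^ 2) * om (N * Λ) (w - Φ u) ≤
      om (N * Λ) (w - Φ u) * (z ^ 2 + (f u - z) ^ 2 / 3 +
        (1 + deriv f u - deriv (deriv Φ) u / 2) * w - deriv Φ u / 2 * f u) +
        om1 (N * Λ) (w - Φ u) * w * (z - deriv Φ u / 2) ^ 2 := by
  have hl := b.l_pos
  have hN := b.N_pos
  have hL := b.L_pos
  have ho := om_nonneg (N * Λ) (w - Φ u)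
  have ho1 := om1_nonneg hl (w - Φ u)
  rcases le_or_gt (w - Φ u) 0 with h | h
  · rw [om_zero hl h, om1_zero hl h]
    simp
  have hnn := b.nn u hu
  rcases le_total (w - Φ u) Λ with h1 | h1
  · have d := b.di u hu w z (by linarith) (by linarith)
    have e1 : N * om (N * Λ) (w - Φ u) ≤ om1 (N * Λ) (w - Φ u) * w := by
      have e2 : om1 (N * Λ) (w - Φ u) * w =
          om (N * Λ) (w - Φ u) * (N * Λ * w / (w - Φ u) ^ 2) := by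
        rw [om1]; field_simp
      rw [e2, mul_comm N]
      refine mul_le_mul_of_nonneg_left ?_ ho
      rw [le_div_iff₀ (by positivity)]
      have e3 : (w - Φ u) ^ 2 ≤ Λ * w := by
        rw [sq]
        exact mul_le_mul h1 (by linarith) h.le hL.le
      calc N * (w - Φ u) ^ 2 ≤ N * (Λ * w) := mul_le_mul_of_nonneg_left e3 hN.le
        _ = N * Λ * w := by ring
    have e4 : N * om (N * Λ) (w - Φ u) * (z - deriv Φ u / 2) ^ 2 ≤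
        om1 (N * Λ) (w - Φ u) * w * (z - deriv Φ u / 2) ^ 2 :=
      mul_le_mul_of_nonneg_right e1 (sq_nonneg _)
    have e5 := mul_le_mul_of_nonneg_left d ho
    have e6 : ∀ T : ℝ, om (N * Λ) (w - Φ u) * (T + N * (z - deriv Φ u / 2) ^ 2) =
      om (N * Λ) (w - Φ u) * T + N * om (N * Λ) (w - Φ u) * (z - deriv Φ u / 2) ^ 2 := by
      intro T; ring
    rw [e6, mul_comm (om (N * Λ) (w - Φ u)) (c * _)] at e5
    linarith
  · have d := b.di' u hu w z (by linarith)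
    have e5 := mul_le_mul_of_nonneg_left d ho
    rw [mul_comm (om (N * Λ) (w - Φ u)) (c * _)] at e5
    have e6 : 0 ≤ om1 (N * Λ) (w - Φ u) * w * (z - deriv Φ u / 2) ^ 2 := by positivity
    linarith

section Calculus

variable {X : Type*} [TopologicalSpace X] [CompactSpace X] [MeasurableSpace X]
  [OpensMeasurableSpace X] {μ : Measure X} [IsFiniteMeasure μ] {C : Calc X μ}

/-- `q = |dφ|² - Φ(φ)`. -/
def qF (C : Calc X μ) (Φ : ℝ → ℝ) (φ : X → ℝ) (x : X) : ℝ := C.G φ φ x - Φ (φ x)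

/-- the weight on `X`. -/
def wF (C : Calc X μ) (l : ℝ) (Φ : ℝ → ℝ) (φ : X → ℝ) (x : X) : ℝ := om l (qF C Φ φ x)

variable {φ : X → ℝ} {η₀ l M : ℝ}

lemma sm_qF (hΦ : ContDiff ℝ ∞ Φ) (hφ : C.Sm φ) : C.Sm (qF C Φ φ) :=
  sm_sub (C.sm_G hφ hφ) (sm_comp' hΦ hφ)

lemma sm_wF (l : ℝ) (hΦ : ContDiff ℝ ∞ Φ) (hφ : C.Sm φ) : C.Sm (wF C l Φ φ) :=
  sm_comp' (contDiff_om l) (sm_qF hΦ hφ)

lemma G_wF (hl : 0 < l) (hΦ : ContDiff ℝ ∞ Φ) (hφ : C.Sm φ) (h : X → ℝ) (x : X) :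
    C.G (wF C l Φ φ) h x = om1 l (qF C Φ φ x) * C.G (qF C Φ φ) h x := by
  have := G_comp'_left (C := C) (contDiff_om l) (sm_qF (C := C) hΦ hφ) h x
  rw [deriv_om hl] at this
  exact this

lemma cont_om1 (hl : 0 < l) (hΦ : ContDiff ℝ ∞ Φ) (hφ : C.Sm φ) :
    Continuous (fun x => om1 l (qF C Φ φ x)) := by
  have h1 : Continuous (deriv (om l)) := (contDiff_om l).continuous_deriv (by simp)
  have h2 : deriv (om l) = om1 l := by funext q; exact deriv_om hl q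
  rw [h2] at h1
  exact h1.comp (C.sm_cont (sm_qF hΦ hφ))

/-- the integrand. -/
def gbI (C : Calc X μ) (f Φ : ℝ → ℝ) (η₀ l : ℝ) (φ : X → ℝ) (x : X) : ℝ :=
  (wF C l Φ φ x * (f (φ x) - η₀ - deriv Φ (φ x) / 2) * C.L φ x +
    C.G (fun y => wF C l Φ φ y * (f (φ y) - η₀ - deriv Φ (φ y) / 2)) φ x) -
  (C.L φ x * C.G (wF C l Φ φ) φ x + wF C l Φ φ x * (C.L φ x ^ 2 - C.Rb φ x - C.G φ φ x)
    - (1 / 2) * C.G (wF C l Φ φ) (C.G φ φ) x)

lemma contDiff_a0 (hf : ContDiff ℝ ∞ f) (hΦ : ContDiff ℝ ∞ Φ) (η₀ : ℝ) :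
    ContDiff ℝ ∞ (fun u => f u - η₀ - deriv Φ u / 2) := by
  have h1 : ContDiff ℝ ∞ (deriv Φ) := by
    have : ContDiff ℝ (∞ + 1) Φ := hΦ
    exact (contDiff_succ_iff_deriv.1 this).2.2
  exact (hf.sub contDiff_const).sub (h1.div_const 2)

lemma sm_gbI (hf : ContDiff ℝ ∞ f) (hΦ : ContDiff ℝ ∞ Φ) (hφ : C.Sm φ) :
    C.Sm (gbI C f Φ η₀ l φ) := by
  have hW := sm_wF (C := C) l hΦ hφ
  have ha := sm_comp' (C := C) (contDiff_a0 hf hΦ η₀) hφ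
  have hL := C.sm_L hφ
  have hT := C.sm_G hφ hφ
  exact sm_sub (sm_add (sm_mul (sm_mul hW ha) hL) (C.sm_G (sm_mul hW ha) hφ))
    (sm_sub (sm_add (sm_mul hL (C.sm_G hW hφ)) (sm_mul hW (sm_sub (sm_sub (sm_pow hL 2)
      (sm_Rb hφ)) hT))) (sm_smul _ (C.sm_G hW hT)))

theorem int_gbI (hf : ContDiff ℝ ∞ f) (hΦ : ContDiff ℝ ∞ Φ) (hφ : C.Sm φ) :
    ∫ x, gbI C f Φ η₀ l φ x ∂μ = 0 := by
  have hW := sm_wF (C := C) l hΦ hφ
  have ha := sm_comp' (C := C) (contDiff_a0 hf hΦ η₀) hφ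
  have hL := C.sm_L hφ
  have hT := C.sm_G hφ hφ
  have h1 := int_div (C := C) (sm_mul hW ha) hφ
  have h2 := weighted_bochner (C := C) hW hφ
  have i1 := integrable_sm (C := C) (μ := μ)
    (sm_add (sm_mul (sm_mul hW ha) hL) (C.sm_G (sm_mul hW ha) hφ))
  have i2 := integrable_sm (C := C) (μ := μ)
    (sm_sub (sm_add (sm_mul hL (C.sm_G hW hφ)) (sm_mul hW (sm_sub (sm_sub (sm_pow hL 2)
      (sm_Rb hφ)) hT))) (sm_smul (1 / 2) (C.sm_G hW hT)))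
  have h3 := integral_sub i1 i2
  rw [h1, h2, sub_zero] at h3
  exact h3

/-- the integrand, expanded. -/
lemma gbI_eq (hl : 0 < l) (hf : ContDiff ℝ ∞ f) (hΦ : ContDiff ℝ ∞ Φ) (hφ : C.Sm φ) {x : X} {n : ℝ}
    (hn : C.L φ x = f (φ x) - η₀ + n) :
    gbI C f Φ η₀ l φ x =
      om l (qF C Φ φ x) * (C.Rb φ x + (1 + deriv f (φ x) - deriv (deriv Φ) (φ x) / 2) * C.G φ φ x +
        (f (φ x) - η₀ + n) * (-(deriv Φ (φ x) / 2) - n)) +
      om1 l (qF C Φ φ x) * (C.G (qF C Φ φ) (qF C Φ φ) x / 2 - n * C.G (qF C Φ φ) φ x) := by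
  have hW := sm_wF (C := C) l hΦ hφ
  have hc := contDiff_a0 hf hΦ η₀
  have ha := sm_comp' (C := C) hc hφ
  have hT := C.sm_G hφ hφ
  have hq := sm_qF (C := C) hΦ hφ
  have hΦ' : ContDiff ℝ ∞ (deriv Φ) := by
    have : ContDiff ℝ (∞ + 1) Φ := hΦ
    exact (contDiff_succ_iff_deriv.1 this).2.2
  have e1 : C.G (fun y => wF C l Φ φ y * (f (φ y) - η₀ - deriv Φ (φ y) / 2)) φ x =
      (f (φ x) - η₀ - deriv Φ (φ x) / 2) * (om1 l (qF C Φ φ x) * C.G (qF C Φ φ) φ x) +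
        om l (qF C Φ φ x) * ((deriv f (φ x) - deriv (deriv Φ) (φ x) / 2) * C.G φ φ x) := by
    rw [G_mul_left hW ha, G_wF hl hΦ hφ, G_comp'_left hc hφ]
    have e2 : deriv (fun u => f u - η₀ - deriv Φ u / 2) (φ x) =
        deriv f (φ x) - deriv (deriv Φ) (φ x) / 2 := by
      have d1 : HasDerivAt f (deriv f (φ x)) (φ x) :=
        (hf.differentiable (by simp) _).hasDerivAt
      have d2 : HasDerivAt (deriv Φ) (deriv (deriv Φ) (φ x)) (φ x) :=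
        (hΦ'.differentiable (by simp) _).hasDerivAt
      exact ((d1.sub_const η₀).sub (d2.div_const 2)).deriv
    rw [e2, wF]
  have e3 : C.G (wF C l Φ φ) (C.G φ φ) x = om1 l (qF C Φ φ x) *
      (C.G (qF C Φ φ) (qF C Φ φ) x + deriv Φ (φ x) * C.G (qF C Φ φ) φ x) := by
    rw [G_wF hl hΦ hφ]
    have e4 : C.toCalc0.G φ φ = fun y => qF C Φ φ y + Φ (φ y) := by
      funext y; simp only [qF]; ring
    have e5 : C.G (qF C Φ φ) (C.G φ φ) x =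
        C.G (qF C Φ φ) (qF C Φ φ) x + deriv Φ (φ x) * C.G (qF C Φ φ) φ x := by
      have e6 : C.G (qF C Φ φ) (C.G φ φ) x = C.G (qF C Φ φ) (fun y => qF C Φ φ y + Φ (φ y)) x := by
        rw [← e4]
      rw [e6, G_add_right hq (sm_comp' hΦ hφ), G_symm (qF C Φ φ) (fun y => Φ (φ y)),
        G_comp'_left hΦ hφ, G_symm φ (qF C Φ φ)]
    rw [e5]
  rw [gbI, e1, e3, G_wF hl hΦ hφ, hn]
  simp only [wF]
  ring

/-- the pointwise inequality on `X`. -/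
lemma gbI_ge (b : Bar f g B Φ c N Λ) (hf : ContDiff ℝ ∞ f) (hφ : C.Sm φ) {x : X} {n : ℝ}
    (hM : 0 ≤ M) (hφx : φ x ∈ Icc g B) (hFM : |f (φ x)| ≤ M) (hΦM : |deriv Φ (φ x)| ≤ M)
    (hη : 0 ≤ η₀) (hη1 : η₀ * (8 * (2 * M + 1)) ≤ c) (hn : C.L φ x = f (φ x) - η₀ + n) :
    c / (8 * (2 + M ^ 2)) * (wF C (N * Λ) Φ φ x * (1 + C.G φ φ x + C.Rb φ x)) -
      (4 * (3 * M + 1) ^ 2 / c + 1) * (n ^ 2 * (wF C (N * Λ) Φ φ x +
        om1 (N * Λ) (qF C Φ φ x) * C.G φ φ x)) ≤ gbI C f Φ η₀ (N * Λ) φ x := by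
  obtain ⟨e, t, h, k, s, w, J⟩ := exists_Adp (C.D φ x) (C.D φ x) (fun i j => C.hs_symm hφ x i j)
  have hP : C.G φ φ x = t ^ 2 := J.uu
  have hDq : C.D (qF C Φ φ) x = (2 : ℝ) • (C.Hs φ x *ᵥ C.D φ x) - deriv Φ (φ x) • C.D φ x := by
    have h1 := D_sub (C := C) (C.sm_G hφ hφ) (sm_comp' (C := C) b.smooth hφ) x
    rw [D_T hφ, D_comp' b.smooth hφ] at h1
    exact h1
  have hqφ : C.G (qF C Φ φ) φ x = t ^ 2 * (2 * h - deriv Φ (φ x)) := by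
    rw [Calc0.G, hDq, sub_dotProduct, smul_dotProduct, smul_dotProduct, J.symm_vu, J.uu]
    simp only [smul_eq_mul]
    ring
  have hqq : C.G (qF C Φ φ) (qF C Φ φ) x =
      t ^ 2 * ((2 * h - deriv Φ (φ x)) ^ 2 + 4 * (s ⬝ᵥ s)) := by
    rw [Calc0.G, hDq]
    simp only [sub_dotProduct, dotProduct_sub, smul_dotProduct, dotProduct_smul, smul_eq_mul,
      J.SuSu, J.uu, J.symm_vu, J.Suu]
    ring
  have hss : 0 ≤ s ⬝ᵥ s := by
    rw [dotProduct]; exact Finset.sum_nonneg fun i _ => mul_self_nonneg _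
  have hw0 : 0 ≤ C.G φ φ x := G_self_nonneg φ x
  have hess : h ^ 2 + 2 * (s ⬝ᵥ s) + (f (φ x) - η₀ + n - h) ^ 2 / 3 ≤ C.Rb φ x := by
    have h1 := J.hess
    have h2 := Q_le_Rb hφ x
    have h3 : (C.Hs φ x).trace = f (φ x) - η₀ + n := hn
    rw [h3] at h1
    rw [Calc0.Q] at h2
    exact h1.trans h2
  have hkey := b.key (z := h) hφx hw0
  have hl := b.l_pos
  have h1 := core b.c_pos hM hFM hΦM hw0 hss (om_nonneg (N * Λ) (qF C Φ φ x))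
    (om1_nonneg hl (qF C Φ φ x)) b.c_le hη hη1 hess hkey
  rw [gbI_eq hl hf b.smooth hφ hn, hqφ, hqq]
  have e1 : t ^ 2 * ((2 * h - deriv Φ (φ x)) ^ 2 + 4 * (s ⬝ᵥ s)) / 2 -
      n * (t ^ 2 * (2 * h - deriv Φ (φ x))) =
      C.G φ φ x / 2 * ((2 * h - deriv Φ (φ x)) ^ 2 + 4 * (s ⬝ᵥ s)) -
      n * (C.G φ φ x * (2 * h - deriv Φ (φ x))) := by
    rw [hP]; ring
  rw [e1]
  exact h1

/-- **the gradient bound for one function.** -/
theorem gb_one (b : Bar f g B Φ c N Λ) (hf : ContDiff ℝ ∞ f) (hφ : C.Sm φ)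
    (hM : 0 ≤ M) (hφx : ∀ x, φ x ∈ Icc g B) (hFM : ∀ u ∈ Icc g B, |f u| ≤ M)
    (hΦM : ∀ u ∈ Icc g B, |deriv Φ u| ≤ M)
    (hη : 0 ≤ η₀) (hη1 : η₀ * (8 * (2 * M + 1)) ≤ c) {n : X → ℝ}
    (hnc : Continuous n) (hn : ∀ x, C.L φ x = f (φ x) - η₀ + n x) :
    c / (8 * (2 + M ^ 2)) * ∫ x, wF C (N * Λ) Φ φ x * (1 + C.G φ φ x + C.Rb φ x) ∂μ ≤
      (4 * (3 * M + 1) ^ 2 / c + 1) * ∫ x, n x ^ 2 * (wF C (N * Λ) Φ φ x +
        om1 (N * Λ) (qF C Φ φ x) * C.G φ φ x) ∂μ := by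
  have hl := b.l_pos
  have hcW : Continuous (wF C (N * Λ) Φ φ) := C.sm_cont (sm_wF _ b.smooth hφ)
  have hcP : Continuous (C.G φ φ) := C.sm_cont (C.sm_G hφ hφ)
  have hcR : Continuous (C.Rb φ) := C.sm_cont (sm_Rb hφ)
  have i1 : Integrable (fun x => wF C (N * Λ) Φ φ x * (1 + C.G φ φ x + C.Rb φ x)) μ :=
    integrable_cont (hcW.mul ((continuous_const.add hcP).add hcR))
  have i2 : Integrable (fun x => n x ^ 2 * (wF C (N * Λ) Φ φ x +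
      om1 (N * Λ) (qF C Φ φ x) * C.G φ φ x)) μ :=
    integrable_cont ((hnc.pow 2).mul (hcW.add ((cont_om1 hl b.smooth hφ).mul hcP)))
  have h0 := int_gbI (C := C) (μ := μ) (η₀ := η₀) (l := N * Λ) hf b.smooth hφ
  have h1 : ∫ x, (c / (8 * (2 + M ^ 2)) * (wF C (N * Λ) Φ φ x * (1 + C.G φ φ x + C.Rb φ x)) -
      (4 * (3 * M + 1) ^ 2 / c + 1) * (n x ^ 2 * (wF C (N * Λ) Φ φ x +
        om1 (N * Λ) (qF C Φ φ x) * C.G φ φ x))) ∂μ ≤ ∫ x, gbI C f Φ η₀ (N * Λ) φ x ∂μ :=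
    integral_mono ((i1.const_mul _).sub (i2.const_mul _)) (integrable_sm (sm_gbI hf b.smooth hφ))
      fun x => gbI_ge b hf hφ hM (hφx x) (hFM _ (hφx x)) (hΦM _ (hφx x)) hη hη1 (hn x)
  rw [h0, integral_sub (i1.const_mul _) (i2.const_mul _), integral_const_mul,
    integral_const_mul] at h1
  linarith

end Calculus

end Crest.Agent.R249.GB330
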