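import Crest.Agent.R249.PenH_806

/-!
R249, part A2 v3 (helper806), file 3: existence of the penalised pair `PenSolG`.
-/

set_option autoImplicit false
set_option linter.unusedVariables false
set_option linter.unusedSectionVars false

open MeasureTheory Set Filter Topology Matrix
open scoped ContDiff

noncomputable section

namespace Crest.Agent.R249.PenH_806

open Calc_806 Calc_806.Calc Pen_806 PenG_806

namespace Ob

variable {g B : ℝ} (O : Ob g B)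

lemma k_symm (u v : ℝ) : O.k u v = O.k v u := by
  unfold k
  have := O.even (v - u)
  rw [neg_sub] at this
  rw [this, add_comm u v]

/-- `ζ η = Γ η - η/2` -/
def ζ (η : ℝ) : ℝ := O.Γ η - η / 2

lemma k_eq (u v : ℝ) : O.k u v = O.ζ (u - v) - v := by
  unfold k ζ; ring

lemma hasDerivAt_Γ (η : ℝ) : HasDerivAt O.Γ (deriv O.Γ η) η :=
  (O.smooth.differentiable (by simp) η).hasDerivAt

lemma hasDerivAt_ζ (η : ℝ) : HasDerivAt O.ζ (deriv O.Γ η - 1 / 2) η := by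
  have h := (O.hasDerivAt_Γ η).sub ((hasDerivAt_id η).div_const 2)
  exact h

lemma contDiff_ζ : ContDiff ℝ ∞ O.ζ := O.smooth.sub (contDiff_id.div_const 2)

lemma dζ_le {η : ℝ} (h : |η| ≤ B - g) : deriv O.Γ η - 1 / 2 ≤ -O.c := by
  have := (abs_le.1 (O.slope η h)).2
  linarith

lemma dζ_ge {η : ℝ} (h : |η| ≤ B - g) : -(1 - O.c) ≤ deriv O.Γ η - 1 / 2 := by
  have := (abs_le.1 (O.slope η h)).1
  linarith

lemma c_le : O.c ≤ 1 / 2 := by
  have := O.slope 0 (by rw [abs_zero]; linarith [O.g_lt])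
  linarith [abs_nonneg (deriv O.Γ 0)]

/-- `ζ` decreases at rate at least `c` -/
lemma ζ_sub_le {s t : ℝ} (hs : |s| ≤ B - g) (ht : |t| ≤ B - g) (hst : s ≤ t) :
    O.ζ t - O.ζ s ≤ -(O.c * (t - s)) := by
  have h1 : AntitoneOn (fun η => O.ζ η + O.c * η) (Icc (-(B - g)) (B - g)) := by
    refine antitoneOn_of_deriv_nonpos (convex_Icc _ _) ?_ ?_ ?_
    · exact (O.contDiff_ζ.continuous.add (continuous_const.mul continuous_id)).continuousOn
    · exact (((O.contDiff_ζ.differentiable (by simp)).add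
        (differentiable_id.const_mul _))).differentiableOn
    · intro η hη
      rw [interior_Icc] at hη
      have h2 : HasDerivAt (fun η => O.ζ η + O.c * η) (deriv O.Γ η - 1 / 2 + O.c * 1) η :=
        (O.hasDerivAt_ζ η).add ((hasDerivAt_id η).const_mul O.c)
      rw [h2.deriv]
      have := O.dζ_le (abs_le.2 ⟨hη.1.le, hη.2.le⟩)
      linarith
  have := h1 (abs_le.1 hs) (abs_le.1 ht) hst
  simp only at this
  linarith

/-- `ζ` decreases at rate at most `1` -/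
lemma ζ_sub_ge {s t : ℝ} (hs : |s| ≤ B - g) (ht : |t| ≤ B - g) (hst : s ≤ t) :
    -(t - s) ≤ O.ζ t - O.ζ s := by
  have h1 : MonotoneOn (fun η => O.ζ η + η) (Icc (-(B - g)) (B - g)) := by
    refine monotoneOn_of_deriv_nonneg (convex_Icc _ _) ?_ ?_ ?_
    · exact (O.contDiff_ζ.continuous.add continuous_id).continuousOn
    · exact ((O.contDiff_ζ.differentiable (by simp)).add differentiable_id).differentiableOn
    · intro η hη
      rw [interior_Icc] at hη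
      have h2 : HasDerivAt (fun η => O.ζ η + η) (deriv O.Γ η - 1 / 2 + 1) η :=
        (O.hasDerivAt_ζ η).add (hasDerivAt_id η)
      rw [h2.deriv]
      have := O.dζ_ge (abs_le.2 ⟨hη.1.le, hη.2.le⟩)
      linarith [O.c_pos]
  have := h1 (abs_le.1 hs) (abs_le.1 ht) hst
  simp only at this
  linarith

lemma ζ_anti {s t : ℝ} (hs : |s| ≤ B - g) (ht : |t| ≤ B - g) (hst : s < t) : O.ζ t < O.ζ s := by
  have := O.ζ_sub_le hs ht hst.le
  have h2 := mul_pos O.c_pos (sub_pos.2 hst)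
  linarith

lemma ζ_inj {s t : ℝ} (hs : |s| ≤ B - g) (ht : |t| ≤ B - g) (h : O.ζ s = O.ζ t) : s = t := by
  rcases lt_trichotomy s t with h1 | h1 | h1
  · have := O.ζ_anti hs ht h1; linarith
  · exact h1
  · have := O.ζ_anti ht hs h1; linarith

/-- the smooth inverse of `ζ` on the open interval `|η| < B - g`. -/
theorem exists_inv : ∃ (Λ : ℝ → ℝ) (I : Set ℝ), IsOpen I ∧ ContDiffOn ℝ ∞ Λ I ∧
    (∀ s ∈ I, |Λ s| < B - g ∧ O.ζ (Λ s) = s) ∧ (∀ η, |η| < B - g → O.ζ η ∈ I) := by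
  classical
  set J : Set ℝ := {η | |η| < B - g} with hJ
  have hJo : IsOpen J := isOpen_lt continuous_abs continuous_const
  have hstrict : ∀ η ∈ J, HasStrictDerivAt O.ζ (deriv O.Γ η - 1 / 2) η := fun η _ =>
    (O.contDiff_ζ.contDiffAt.hasStrictDerivAt' (O.hasDerivAt_ζ η) (by simp))
  have hne : ∀ η ∈ J, deriv O.Γ η - 1 / 2 ≠ 0 := fun η hη => by
    have := O.dζ_le (le_of_lt hη)
    have h2 := O.c_pos
    intro h0
    linarith
  let Λ : ℝ → ℝ := Function.invFunOn O.ζ J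
  have hΛ : ∀ s ∈ O.ζ '' J, Λ s ∈ J ∧ O.ζ (Λ s) = s := fun s hs =>
    ⟨Function.invFunOn_mem (by obtain ⟨a, ha, h⟩ := hs; exact ⟨a, ha, h⟩),
      Function.invFunOn_eq (by obtain ⟨a, ha, h⟩ := hs; exact ⟨a, ha, h⟩)⟩
  refine ⟨Λ, O.ζ '' J, ?_, ?_, fun s hs => hΛ s hs, fun η hη => ⟨η, hη, rfl⟩⟩
  · rw [isOpen_iff_mem_nhds]
    rintro s ⟨η, hη, rfl⟩
    rw [← (hstrict η hη).map_nhds_eq (hne η hη)]
    exact image_mem_map (hJo.mem_nhds hη)
  · rintro s ⟨η, hη, rfl⟩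
    refine ContDiffAt.contDiffWithinAt ?_
    -- the local inverse
    have hd := ((hstrict η hη).hasStrictFDerivAt_equiv (hne η hη)).hasFDerivAt
    have hc : ContDiffAt ℝ ∞ O.ζ η := O.contDiff_ζ.contDiffAt
    have h1 := hc.to_localInverse hd (by simp)
    refine h1.congr_of_eventuallyEq ?_
    have hs := hc.hasStrictFDerivAt' hd (by simp)
    have e1 : ∀ᶠ y in 𝓝 (O.ζ η), O.ζ (hc.localInverse hd (by simp) y) = y :=
      hs.eventually_right_inverse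
    have e2 : ∀ᶠ y in 𝓝 (O.ζ η), hc.localInverse hd (by simp) y ∈ J :=
      hs.localInverse_tendsto (hJo.mem_nhds hη)
    filter_upwards [e1, e2] with y h3 h4
    have h5 := hΛ y ⟨_, h4, h3⟩
    exact O.ζ_inj (le_of_lt h5.1) (le_of_lt h4) (h5.2.trans h3.symm)

/-- the obstacle function: for `t ≤ k u v` and `k B' v ≤ t`, the solution of `k h v = t`. -/
theorem exists_h {Λ : ℝ → ℝ} {I : Set ℝ} (hΛ : ∀ s ∈ I, |Λ s| < B - g ∧ O.ζ (Λ s) = s)
    (hI : ∀ η, |η| < B - g → O.ζ η ∈ I) {u v t B' : ℝ} (hu : g ≤ u) (huB : u ≤ B') (hB : B' < B)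
    (hv : g ≤ v) (hvB : v ≤ B) (ht : 0 ≤ t) (h1 : t ≤ O.k u v) (h2 : O.k B' v ≤ t) :
    v + t ∈ I ∧ u ≤ v + Λ (v + t) ∧ v + Λ (v + t) ≤ B' ∧ O.k (v + Λ (v + t)) v = t := by
  -- `|u - v| < B - g`
  have hlt : |u - v| < B - g := by
    rw [abs_lt]
    refine ⟨?_, by linarith⟩
    rcases lt_or_eq_of_le (show g - B ≤ u - v by linarith) with h | h
    · linarith
    · exfalso
      have e1 : u = g := by linarith
      have e2 : v = B := by linarith
      rw [e1, e2] at h1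
      have h3 : O.k g B < 0 := by
        rw [O.k_symm]; unfold k; have := O.corner; linarith
      linarith
  have hlt2 : |B' - v| < B - g := by
    rw [abs_lt]
    refine ⟨?_, by linarith⟩
    have := (abs_lt.1 hlt).1
    linarith
  rw [O.k_eq] at h1 h2
  have hiv := intermediate_value_Icc' (show u - v ≤ B' - v by linarith)
    (O.contDiff_ζ.continuous.continuousOn (s := Icc (u - v) (B' - v)))
  have hmem : v + t ∈ Icc (O.ζ (B' - v)) (O.ζ (u - v)) := ⟨by linarith, by linarith⟩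
  obtain ⟨η, hη, hη2⟩ := hiv hmem
  have hηJ : |η| < B - g := by
    rw [abs_lt]
    exact ⟨(abs_lt.1 hlt).1.trans_le hη.1, hη.2.trans_lt (abs_lt.1 hlt2).2⟩
  have hI' : v + t ∈ I := hη2 ▸ hI η hηJ
  have h3 := hΛ _ hI'
  have h4 : Λ (v + t) = η := O.ζ_inj h3.1.le hηJ.le (h3.2.trans hη2.symm)
  refine ⟨hI', ?_, ?_, ?_⟩
  · rw [h4]; linarith [hη.1]
  · rw [h4]; linarith [hη.2]
  · rw [O.k_eq, h4, show v + η - v = η by ring, hη2]; ring

/-- monotonicity of `k` in the first variable -/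
lemma k_anti {s t v : ℝ} (hs : g ≤ s) (hst : s ≤ t) (ht : t ≤ B) (hv : g ≤ v) (hvB : v ≤ B) :
    O.k t v ≤ O.k s v - O.c * (t - s) := by
  rw [O.k_eq, O.k_eq]
  have := O.ζ_sub_le (s := s - v) (t := t - v) (abs_le.2 ⟨by linarith, by linarith⟩)
    (abs_le.2 ⟨by linarith, by linarith⟩) (by linarith)
  have e : t - v - (s - v) = t - s := by ring
  rw [e] at this
  linarith

lemma k_lip {s t v : ℝ} (hs : g ≤ s) (hst : s ≤ t) (ht : t ≤ B) (hv : g ≤ v) (hvB : v ≤ B) :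
    O.k s v - (t - s) ≤ O.k t v := by
  rw [O.k_eq, O.k_eq]
  have := O.ζ_sub_ge (s := s - v) (t := t - v) (abs_le.2 ⟨by linarith, by linarith⟩)
    (abs_le.2 ⟨by linarith, by linarith⟩) (by linarith)
  have e : t - v - (s - v) = t - s := by ring
  rw [e] at this
  linarith

lemma k_anti2 {s t u : ℝ} (hs : g ≤ s) (hst : s ≤ t) (ht : t ≤ B) (hu : g ≤ u) (huB : u ≤ B) :
    O.k u t ≤ O.k u s - O.c * (t - s) := by
  rw [O.k_symm u t, O.k_symm u s]
  exact O.k_anti hs hst ht hu huB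

lemma k_lip2 {s t u : ℝ} (hs : g ≤ s) (hst : s ≤ t) (ht : t ≤ B) (hu : g ≤ u) (huB : u ≤ B) :
    O.k u s - (t - s) ≤ O.k u t := by
  rw [O.k_symm u t, O.k_symm u s]
  exact O.k_lip hs hst ht hu huB

/-- `-k B g > 0` -/
def κB : ℝ := (B + g) / 2 - O.Γ (B - g)

lemma κB_pos : 0 < O.κB := by unfold κB; linarith [O.corner]

lemma k_B {v e : ℝ} (hv : g ≤ v) (hvB : v ≤ B) (he : 0 ≤ e) (he2 : 2 * e ≤ O.κB)
    (heB : 2 * e ≤ B - g) : O.k (B - 2 * e) v ≤ 0 := by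
  have h1 := O.k_anti2 (s := g) (t := v) (u := B - 2 * e) le_rfl hv hvB (by linarith) (by linarith)
  have h2 := O.k_lip (s := B - 2 * e) (t := B) (v := g) (by linarith) (by linarith) le_rfl le_rfl
    O.g_lt.le
  have h3 : O.k B g = - O.κB := by unfold k κB; ring
  have h4 : 0 ≤ O.c * (v - g) := mul_nonneg O.c_pos.le (by linarith)
  rw [h3] at h2
  linarith

end Ob

variable {X : Type*} [TopologicalSpace X] [CompactSpace X] [MeasurableSpace X]
  [OpensMeasurableSpace X] {μ : Measure X} [IsFiniteMeasure μ]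

lemma exists_lip {f : ℝ → ℝ} (hf : ContDiff ℝ ∞ f) (g B : ℝ) :
    ∃ Ld : ℝ, 0 < Ld ∧ ∀ s t, g ≤ s → s ≤ t → t ≤ B → |f t - f s| ≤ Ld * (t - s) := by
  have hd : Continuous (deriv f) := hf.continuous_deriv (by simp)
  obtain ⟨K, hK⟩ := (isCompact_Icc (a := g) (b := B)).exists_bound_of_continuousOn
    hd.continuousOn
  refine ⟨max K 1, lt_of_lt_of_le one_pos (le_max_right _ _), fun s t hs hst ht => ?_⟩
  have h1 : ∀ x ∈ Icc g B, ‖deriv f x‖ ≤ max K 1 := fun x hx => (hK x hx).trans (le_max_left _ _)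
  have h2 := Convex.norm_image_sub_le_of_norm_deriv_le (𝕜 := ℝ) (f := f)
    (fun x _ => (hf.differentiable (by simp)) x) h1 (convex_Icc g B)
    (x := s) (y := t) ⟨hs, hst.trans ht⟩ ⟨hs.trans hst, ht⟩
  rw [Real.norm_eq_abs, Real.norm_eq_abs, abs_of_nonneg (sub_nonneg.2 hst)] at h2
  exact h2

/-- **existence of the penalised pair**, general obstacle and nonlinearity. -/
theorem exists_penG (C : Calc X μ) {g B : ℝ} (O : Ob g B) {f : ℝ → ℝ} (hf : ContDiff ℝ ∞ f) :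
    ∃ K : ℝ, 0 < K ∧ ∀ {η₀ t₀ : ℝ} {φ₀ ψ₀ : X → ℝ}, DatG C O f η₀ t₀ φ₀ ψ₀ →
      ∀ {e : ℝ}, 0 < e → 5 * e ≤ t₀ → 2 * e ≤ O.κB → 2 * e ≤ B - g → ∀ {ε : ℝ}, 0 < ε →
      Nonempty (PenSolG C O f η₀ φ₀ ψ₀ K e ε) := by
  obtain ⟨Ld, hLd, hlip⟩ := exists_lip hf g B
  obtain ⟨Λ, I, hIo, hΛs, hΛ, hI⟩ := O.exists_inv
  refine ⟨2 * Ld, by positivity, ?_⟩
  intro η₀ t₀ φ₀ ψ₀ D e he he5 heκ heB ε hε
  have hc := O.c_pos
  have hc2 := O.c_le
  -- the nonlinearity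
  have hf' : ContDiff ℝ ∞ (fun u => f u - η₀) := hf.sub contDiff_const
  have hlip' : ∀ s t, g ≤ s → s ≤ t → t ≤ B → |(f t - η₀) - (f s - η₀)| ≤ Ld * (t - s) := by
    intro s t h1 h2 h3
    have e1 : (f t - η₀) - (f s - η₀) = f t - f s := by ring
    rw [e1]; exact hlip s t h1 h2 h3
  have hBe : B - 2 * e < B := by linarith
  -- `φ₀ + e ≤ B - 2e`
  have k0 : ∀ x, O.k (B - 2 * e) (ψ₀ x) ≤ 0 := fun x =>
    O.k_B (D.ψge x) (D.ψle x) he.le heκ heB
  have hφB : ∀ x, φ₀ x ≤ B - 2 * e := fun x => by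
    by_contra hcon
    push Not at hcon
    have h1 := O.k_anti (s := B - 2 * e) (t := φ₀ x) (v := ψ₀ x) (by linarith) hcon.le (D.φle x)
      (D.ψge x) (D.ψle x)
    have h2 := D.kge x
    have h3 := k0 x
    have h4 : 0 ≤ O.c * (φ₀ x - (B - 2 * e)) := mul_nonneg hc.le (by linarith)
    linarith
  have hφB' : ∀ x, φ₀ x + e ≤ B - 2 * e := fun x => by
    by_contra hcon
    push Not at hcon
    have h1 := O.k_lip (s := φ₀ x) (t := B - 2 * e) (v := ψ₀ x) (D.φge x) (hφB x) hBe.le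
      (D.ψge x) (D.ψle x)
    have h2 := D.kge x
    have h3 := k0 x
    linarith
  have kφ : ∀ x, 4 * e ≤ O.k (φ₀ x + e) (ψ₀ x) := fun x => by
    have h1 := O.k_lip (s := φ₀ x) (t := φ₀ x + e) (v := ψ₀ x) (D.φge x) (by linarith)
      (by linarith [hφB' x]) (D.ψge x) (D.ψle x)
    have h2 := D.kge x
    linarith
  -- step 1
  have H1 : ∀ x, ψ₀ x + 4 * e ∈ I ∧ φ₀ x + e ≤ ψ₀ x + Λ (ψ₀ x + 4 * e) ∧
      ψ₀ x + Λ (ψ₀ x + 4 * e) ≤ B - 2 * e ∧ O.k (ψ₀ x + Λ (ψ₀ x + 4 * e)) (ψ₀ x) = 4 * e :=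
    fun x => O.exists_h hΛ hI (by linarith [D.φge x]) (hφB' x) hBe (D.ψge x) (D.ψle x)
      (by positivity) (kφ x) ((k0 x).trans (by positivity))
  let h₁ : X → ℝ := fun x => ψ₀ x + Λ (ψ₀ x + 4 * e)
  have sh₁ : C.Sm h₁ := sm_add D.sψ (sm_comp1 hIo hΛs (sm_add D.sψ (sm_const _)) fun x => (H1 x).1)
  obtain ⟨φ, m₁, g₁, r₁, sφ, sm₁, sg₁, sr₁, φge, φle, eqφ, m₁nn, m₁le, m₁sup, g₁le, r₁int⟩ :=
    stepG C hf' hLd hlip' he D.sφ sh₁ D.φge (fun x => (H1 x).2.1)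
      (fun x => by have := (H1 x).2.2.1; simp only [h₁]; linarith) D.subφ hε
  -- step 2
  have φge' : ∀ x, g ≤ φ x := fun x => (D.φge x).trans (φge x)
  have φleB : ∀ x, φ x ≤ B := fun x => by
    have h1 := φle x
    have h2 := (H1 x).2.2.1
    simp only [h₁] at h1
    linarith
  -- `2 e ≤ k φ ψ₀`
  have kφψ : ∀ x, 2 * e ≤ O.k (φ x) (ψ₀ x) := fun x => by
    have h2 := (H1 x).2.2.2
    rcases le_total (φ x) (h₁ x) with h | h
    · have h1 := O.k_anti (s := φ x) (t := h₁ x) (v := ψ₀ x) (φge' x) h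
        (by linarith [(H1 x).2.2.1]) (D.ψge x) (D.ψle x)
      have h4 : 0 ≤ O.c * (h₁ x - φ x) := mul_nonneg hc.le (by linarith)
      simp only [h₁] at h1 h4
      rw [h2] at h1
      linarith
    · have h1 := O.k_lip (s := h₁ x) (t := φ x) (v := ψ₀ x)
        (by linarith [(H1 x).2.1, D.φge x]) h (φleB x) (D.ψge x) (D.ψle x)
      have h3 := φle x
      simp only [h₁] at h1 h3
      rw [h2] at h1
      linarith
  have k0' : ∀ x, O.k (B - 2 * e) (φ x) ≤ 0 := fun x =>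
    O.k_B (φge' x) (φleB x) he.le heκ heB
  have hψB : ∀ x, ψ₀ x ≤ B - 2 * e := fun x => by
    by_contra hcon
    push Not at hcon
    have h1 := O.k_anti (s := B - 2 * e) (t := ψ₀ x) (v := φ x) (by linarith) hcon.le (D.ψle x)
      (φge' x) (φleB x)
    have h2 := kφψ x
    rw [O.k_symm] at h2
    have h3 := k0' x
    have h4 : 0 ≤ O.c * (ψ₀ x - (B - 2 * e)) := mul_nonneg hc.le (by linarith)
    linarith
  have hψB' : ∀ x, ψ₀ x + e ≤ B - 2 * e := fun x => by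
    by_contra hcon
    push Not at hcon
    have h1 := O.k_lip (s := ψ₀ x) (t := B - 2 * e) (v := φ x) (D.ψge x) (hψB x) hBe.le
      (φge' x) (φleB x)
    have h2 := kφψ x
    rw [O.k_symm] at h2
    have h3 := k0' x
    linarith
  have kψ : ∀ x, 0 ≤ O.k (ψ₀ x + e) (φ x) := fun x => by
    have h1 := O.k_lip (s := ψ₀ x) (t := ψ₀ x + e) (v := φ x) (D.ψge x) (by linarith)
      (by linarith [hψB' x]) (φge' x) (φleB x)
    have h2 := kφψ x
    rw [O.k_symm] at h2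
    linarith
  have H2 : ∀ x, φ x + 0 ∈ I ∧ ψ₀ x + e ≤ φ x + Λ (φ x + 0) ∧
      φ x + Λ (φ x + 0) ≤ B - 2 * e ∧ O.k (φ x + Λ (φ x + 0)) (φ x) = 0 :=
    fun x => O.exists_h hΛ hI (by linarith [D.ψge x]) (hψB' x) hBe (φge' x) (φleB x)
      le_rfl (kψ x) (k0' x)
  let h₂ : X → ℝ := fun x => φ x + Λ (φ x + 0)
  have sh₂ : C.Sm h₂ := sm_add sφ (sm_comp1 hIo hΛs (sm_add sφ (sm_const _)) fun x => (H2 x).1)
  obtain ⟨ψ, m₂, g₂, r₂, sψ, sm₂, sg₂, sr₂, ψge, ψle, eqψ, m₂nn, m₂le, m₂sup, g₂le, r₂int⟩ :=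
    stepG C hf' hLd hlip' he D.sψ sh₂ D.ψge (fun x => (H2 x).2.1)
      (fun x => by have := (H2 x).2.2.1; simp only [h₂]; linarith) D.subψ hε
  exact ⟨⟨φ, ψ, h₁, h₂, m₁, m₂, g₁, g₂, r₁, r₂, sφ, sψ, sh₁, sh₂, sm₁, sm₂, sg₁, sg₂, sr₁, sr₂,
    fun x => by have := (H1 x).2.1; have := D.φge x; simp only [h₁]; linarith,
    fun x => by have := (H2 x).2.1; have := D.ψge x; simp only [h₂]; linarith,
    fun x => by have := (H1 x).2.2.1; simp only [h₁]; linarith,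
    fun x => by have := (H2 x).2.2.1; simp only [h₂]; linarith,
    fun x => (H1 x).2.2.2, fun x => by rw [O.k_symm]; exact (H2 x).2.2.2,
    φge, φle, ψge, ψle, eqφ, eqψ, m₁nn, m₂nn, m₁le, m₂le, m₁sup, m₂sup, g₁le, g₂le,
    r₁int, r₂int⟩⟩

end Crest.Agent.R249.PenH_806
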