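import Crest.Agent.R249.ObE_780
import Crest.Agent.R249.PenI_806

/-!
Row 249, part A2 v3 (helper780), file 6: existence of penalised pairs with all bounds.
-/

set_option autoImplicit false
set_option linter.unusedVariables false
set_option linter.unusedSectionVars false

open MeasureTheory Set Filter Topology Matrix
open scoped ContDiff

noncomputable section

namespace Crest.Agent.R249.ObF_780

open Crest.Agent.R249.Calc_806 Crest.Agent.R249.Calc_806.Calc Crest.Agent.R249.PenH_806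
  Crest.Agent.R249.ObE_780

variable {X : Type*} [TopologicalSpace X] [CompactSpace X] [MeasurableSpace X]
  [OpensMeasurableSpace X] {μ : Measure X} [IsFiniteMeasure μ]

/-- **sections 3-6 of A2 v3**: existence of penalised pairs with all bounds. -/
theorem exists_pairG (C : Calc X μ) {g B : ℝ} (O : Ob g B) {f : ℝ → ℝ} (hf : ContDiff ℝ ∞ f) :
    ∃ K : ℝ, 0 < K ∧ ∀ {η₀ t₀ : ℝ} {φ₀ ψ₀ : X → ℝ}, DatG C O f η₀ t₀ φ₀ ψ₀ → 0 < t₀ → 0 ≤ η₀ →
      ∃ A : ℝ, 0 ≤ A ∧ ∀ δ > 0, ∃ e ε : ℝ, 0 < e ∧ e ≤ δ ∧ 5 * e ≤ t₀ ∧ 0 < ε ∧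
        ∃ S : PenSolG C O f η₀ φ₀ ψ₀ K e ε, ∃ er : X → ℝ, OutG S A δ er := by
  obtain ⟨K, hK, h⟩ := exists_penG C O hf
  refine ⟨K, hK, fun {η₀ t₀ φ₀ ψ₀} D ht hη => ?_⟩
  obtain ⟨A, hA, h1⟩ := exists_outG (K := K) hf D hη
  refine ⟨A, hA, fun δ hδ => ?_⟩
  obtain ⟨e₀, he₀, h2⟩ := h1 δ hδ
  have hκ := O.κB_pos
  have hgB := O.g_lt
  set e := min (min e₀ δ) (min (t₀ / 5) (min (O.κB / 2) ((B - g) / 2))) with he
  have e0 : 0 < e := lt_min (lt_min he₀ hδ) (lt_min (by positivity)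
    (lt_min (by positivity) (by linarith)))
  have e1 : e ≤ e₀ := (min_le_left _ _).trans (min_le_left _ _)
  have e2 : e ≤ δ := (min_le_left _ _).trans (min_le_right _ _)
  have e3 : e ≤ t₀ / 5 := (min_le_right _ _).trans (min_le_left _ _)
  have e4 : e ≤ O.κB / 2 := (min_le_right _ _).trans ((min_le_right _ _).trans (min_le_left _ _))
  have e5 : e ≤ (B - g) / 2 := (min_le_right _ _).trans ((min_le_right _ _).trans (min_le_right _ _))
  obtain ⟨S⟩ := h D e0 (by linarith) (by linarith) (by linarith) (show 0 < e ^ 2 by positivity)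
  obtain ⟨er, her⟩ := h2 e e0 e1 (e ^ 2) le_rfl S
  exact ⟨e, e ^ 2, e0, e2, by linarith, by positivity, S, er, her⟩

end Crest.Agent.R249.ObF_780
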