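import Crest.Agent.R249.GBc_330
import Crest.Agent.R249.ObF_780

/-!
# R249 (helper330), GB part d: the gradient bound for both species of the penalised pair

`Con O f Φ s t` : the contact condition; `exists_con` : it follows from the strict inequality on the
contact curve (compactness); `gb_contact` : one species with obstacle; `gb_phi`, `gb_psi`.
-/

set_option autoImplicit false
set_option linter.unusedVariables false
set_option linter.unusedSectionVars false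

open MeasureTheory Set Filter Topology Matrix
open scoped ContDiff

noncomputable section

namespace Crest.Agent.R249.GB330

open Crest.Agent.R249.Calc_806 Crest.Agent.R249.Calc_806.Calc DivC467 PenH_806
  ObC_780 ObE_780 ObB_780

/-- **contact condition** for the barrier `Φ`. -/
def Con {g B : ℝ} (O : Ob g B) (f Φ : ℝ → ℝ) (s t : ℝ) : Prop :=
  ∀ u ∈ Icc g B, ∀ v ∈ Icc g B, |O.k u v| ≤ t → ∀ P : ℝ, 0 ≤ P → -t ≤ O.E f u v P →
    O.k2 u v ^ 2 * P ≤ Φ u - s ∧ O.k1 u v ^ 2 * P ≤ Φ v - s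

/-- the contact condition by compactness. -/
theorem exists_con {g B : ℝ} (O : Ob g B) {f Φ : ℝ → ℝ} (hf : Continuous f) (hΦ : Continuous Φ)
    (hconc : ∀ η, |η| ≤ B - g → deriv (deriv O.Γ) η < 0)
    (h : ∀ u ∈ Icc g B, ∀ v ∈ Icc g B, O.k u v = 0 → ∀ P : ℝ, 0 ≤ P → 0 ≤ O.E f u v P →
      O.k2 u v ^ 2 * P < Φ u ∧ O.k1 u v ^ 2 * P < Φ v) :
    ∃ s > 0, s ≤ 1 ∧ Con O f Φ s s := by
  have hΓ1 : ContDiff ℝ ∞ (deriv O.Γ) := by
    have : ContDiff ℝ (∞ + 1) O.Γ := O.smooth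
    exact (contDiff_succ_iff_deriv.1 this).2.2
  have hΓ2 : Continuous (deriv (deriv O.Γ)) := hΓ1.continuous_deriv (by simp)
  have cΓ := O.smooth.continuous
  have cΓ1 := hΓ1.continuous
  set K : Set (ℝ × ℝ) := Icc g B ×ˢ Icc g B with hK
  have hKc : IsCompact K := isCompact_Icc.prod isCompact_Icc
  have ck : Continuous (fun p : ℝ × ℝ => O.k p.1 p.2) := by unfold Ob.k; fun_prop
  have ck1 : Continuous (fun p : ℝ × ℝ => O.k1 p.1 p.2) := by unfold Ob.k1; fun_prop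
  have ck2 : Continuous (fun p : ℝ × ℝ => O.k2 p.1 p.2) := by unfold Ob.k2; fun_prop
  have cΓd : Continuous (fun p : ℝ × ℝ => deriv (deriv O.Γ) (p.1 - p.2)) := by fun_prop
  have cE0 : Continuous (fun p : ℝ × ℝ => O.k1 p.1 p.2 * f p.1 + O.k2 p.1 p.2 * f p.2) := by fun_prop
  -- the upper bound of `P`
  obtain ⟨a, ha⟩ := hKc.exists_bound_of_continuousOn cE0.continuousOn
  have hneK : K.Nonempty := ⟨(g, g), ⟨⟨le_rfl, O.g_lt.le⟩, ⟨le_rfl, O.g_lt.le⟩⟩⟩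
  obtain ⟨p0, hp0, hmax⟩ := hKc.exists_isMaxOn hneK cΓd.continuousOn
  set γ : ℝ := -deriv (deriv O.Γ) (p0.1 - p0.2) with hγ
  have hdiff : ∀ p ∈ K, |p.1 - p.2| ≤ B - g := by
    intro p hp
    obtain ⟨⟨h1, h2⟩, ⟨h3, h4⟩⟩ := hp
    rw [abs_le]; constructor <;> linarith
  have hγ0 : 0 < γ := by
    have := hconc (p0.1 - p0.2) (hdiff p0 hp0)
    rw [hγ]; linarith
  have hγle : ∀ p ∈ K, deriv (deriv O.Γ) (p.1 - p.2) ≤ -γ := by
    intro p hp
    have := hmax hp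
    simp only [mem_setOf_eq] at this
    rw [hγ]; linarith
  set T : ℝ := (|a| + 1) / γ with hT
  have hT0 : 0 ≤ T := by positivity
  set J : Set ((ℝ × ℝ) × ℝ) := K ×ˢ Icc 0 T with hJ
  have hJc : IsCompact J := hKc.prod isCompact_Icc
  set F : (ℝ × ℝ) × ℝ → ℝ := fun p => max (|O.k p.1.1 p.1.2|) (max (-(O.E f p.1.1 p.1.2 p.2))
    (min (Φ p.1.1 - O.k2 p.1.1 p.1.2 ^ 2 * p.2) (Φ p.1.2 - O.k1 p.1.1 p.1.2 ^ 2 * p.2))) with hF
  have cF : Continuous F := by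
    have c1 : Continuous (fun p : (ℝ × ℝ) × ℝ => |O.k p.1.1 p.1.2|) :=
      (ck.comp continuous_fst).abs
    have c2 : Continuous (fun p : (ℝ × ℝ) × ℝ => -(O.E f p.1.1 p.1.2 p.2)) := by
      unfold Ob.E
      exact ((cE0.comp continuous_fst).add ((cΓd.comp continuous_fst).mul continuous_snd)).neg
    have c3 : Continuous (fun p : (ℝ × ℝ) × ℝ => Φ p.1.1 - O.k2 p.1.1 p.1.2 ^ 2 * p.2) :=
      (hΦ.comp (continuous_fst.comp continuous_fst)).sub
        (((ck2.comp continuous_fst).pow 2).mul continuous_snd)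
    have c4 : Continuous (fun p : (ℝ × ℝ) × ℝ => Φ p.1.2 - O.k1 p.1.1 p.1.2 ^ 2 * p.2) :=
      (hΦ.comp (continuous_snd.comp continuous_fst)).sub
        (((ck1.comp continuous_fst).pow 2).mul continuous_snd)
    exact c1.max (c2.max (c3.min c4))
  have hneJ : J.Nonempty := by
    obtain ⟨p, hp⟩ := hneK
    exact ⟨(p, 0), hp, ⟨le_rfl, hT0⟩⟩
  obtain ⟨z, hz, hmin⟩ := hJc.exists_isMinOn hneJ cF.continuousOn
  have hFz : 0 < F z := by
    obtain ⟨hz1, hz2⟩ := hz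
    simp only [hF]
    rcases eq_or_ne (O.k z.1.1 z.1.2) 0 with h0 | h0
    · rcases lt_or_ge (O.E f z.1.1 z.1.2 z.2) 0 with h1 | h1
      · exact lt_max_of_lt_right (lt_max_of_lt_left (by linarith))
      · obtain ⟨h2, h3⟩ := h z.1.1 hz1.1 z.1.2 hz1.2 h0 z.2 hz2.1 h1
        exact lt_max_of_lt_right (lt_max_of_lt_right (lt_min (by linarith) (by linarith)))
    · exact lt_max_of_lt_left (abs_pos.2 h0)
  set s : ℝ := min 1 (F z / 2) with hs
  have hs0 : 0 < s := lt_min one_pos (by linarith)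
  have hs1 : s ≤ F z / 2 := min_le_right _ _
  refine ⟨s, hs0, min_le_left _ _, ?_⟩
  intro u hu v hv hk P hP hE
  have huv : ((u, v) : ℝ × ℝ) ∈ K := ⟨hu, hv⟩
  have hPT : P ≤ T := by
    have h1 := ha (u, v) huv
    have h2 := hγle (u, v) huv
    simp only [Real.norm_eq_abs] at h1 h2
    have h3 : O.E f u v P = O.k1 u v * f u + O.k2 u v * f v + deriv (deriv O.Γ) (u - v) * P := rfl
    rw [h3] at hE
    have h4 : deriv (deriv O.Γ) (u - v) * P ≤ -γ * P := mul_le_mul_of_nonneg_right h2 hP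
    have h5 := le_abs_self (O.k1 u v * f u + O.k2 u v * f v)
    have h6 := le_abs_self a
    have h7 : s ≤ 1 := min_le_left _ _
    rw [hT, le_div_iff₀ hγ0]
    linarith
  have hmem : (((u, v), P) : (ℝ × ℝ) × ℝ) ∈ J := ⟨huv, ⟨hP, hPT⟩⟩
  have h1 := hmin hmem
  simp only [mem_setOf_eq] at h1
  by_contra hcon
  have h2 : F ((u, v), P) ≤ s := by
    simp only [hF]
    refine max_le hk (max_le (by linarith) ?_)
    rw [not_and_or, not_le, not_le] at hcon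
    rcases hcon with h3 | h3
    · exact (min_le_left _ _).trans (by linarith)
    · exact (min_le_right _ _).trans (by linarith)
  linarith

variable {X : Type*} [TopologicalSpace X] [CompactSpace X] [MeasurableSpace X]
  [OpensMeasurableSpace X] {μ : Measure X} [IsFiniteMeasure μ] {C : Calc X μ}
variable {f : ℝ → ℝ} {g B : ℝ} {Φ : ℝ → ℝ} {c N Λ : ℝ}

/-- `|du|² ≤ (1 + τ)|dv|² + (1 + 1/τ)|d(v - u)|²`. -/
lemma G_split {u v : X → ℝ} (hu : C.Sm u) (hv : C.Sm v) (x : X) {τ : ℝ} (hτ : 0 < τ) :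
    C.G u u x ≤ (1 + τ) * C.G v v x +
      (1 + τ⁻¹) * C.G (fun y => v y - u y) (fun y => v y - u y) x := by
  have hd := sm_sub (C := C) hv hu
  have e1 : C.G u u x = C.G v v x - 2 * C.G v (fun y => v y - u y) x +
      C.G (fun y => v y - u y) (fun y => v y - u y) x := by
    rw [G_sub_right hv hu, G_sub_right hv hu, G_sub_left hv hu, G_sub_left hv hu, G_symm u v]
    ring
  have h1 := two_G_le (C := C) v (fun y => v y - u y) x hτ
  have h2 := neg_abs_le (C.G v (fun y => v y - u y) x)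
  rw [e1]
  linarith

/-- **the gradient bound for one species with obstacle `h`.** -/
theorem gb_contact (b : Bar f g B Φ c N Λ) (hf : ContDiff ℝ ∞ f) {M M1 c0 s : ℝ}
    (hM : 1 ≤ M) (hM1 : 0 ≤ M1) (hc0 : 0 < c0) (hs : 0 < s)
    (hFM : ∀ u ∈ Icc g B, |f u| ≤ M) (hΦ0 : ∀ u ∈ Icc g B, Φ u ≤ M)
    (hΦM : ∀ u ∈ Icc g B, |deriv Φ u| ≤ M) :
    ∃ K : ℝ, 0 ≤ K ∧ ∀ (C : Calc X μ) (φ h m gg bb : X → ℝ) (η₀ e δ : ℝ), C.Sm φ → C.Sm h →
      (∀ x, φ x ∈ Icc g B) → (∀ x, h x ∈ Icc g B) → 0 ≤ η₀ → η₀ * (8 * (2 * M + 1)) ≤ c →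
      0 ≤ e → 4 * M * e ≤ s → Continuous m → Continuous gg → Continuous bb → (∀ x, 0 ≤ m x) →
      (∀ x, 0 ≤ bb x) →
      (∀ x, C.L φ x = f (φ x) - η₀ + (m x + gg x)) →
      (∀ x, m x ≠ 0 → c0 * m x ≤ bb x ∨
        (c0 * m x ≤ M1 + bb x ∧ C.G h h x ≤ Φ (h x) - s ∧ |φ x - h x| ≤ 2 * e)) →
      ∫ x, gg x ^ 2 ∂μ ≤ δ → ∫ x, bb x ^ 2 ∂μ ≤ δ →
      ∫ x in {x | m x ≠ 0}, C.G (fun y => h y - φ y) (fun y => h y - φ y) x ^ 2 ∂μ ≤ δ →
      ∫ x, wF C (N * Λ) Φ φ x * (1 + C.G φ φ x + C.Rb φ x) ∂μ ≤ K * δ := by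
  have hl := b.l_pos
  obtain ⟨K1, hK1, hKb⟩ := om_bound hl (M := M) (by linarith)
  set τ : ℝ := s / (2 * M) with hτ
  have hτ0 : 0 < τ := by positivity
  set K2 : ℝ := 2 * K1 + 4 * K1 / c0 ^ 2 + 4 * K1 * M1 ^ 2 * (1 + τ⁻¹) ^ 2 / c0 ^ 2 with hK2
  have hK20 : 0 ≤ K2 := by positivity
  set θ : ℝ := c / (8 * (2 + M ^ 2)) with hθ
  have hc := b.c_pos
  have hθ0 : 0 < θ := by positivity
  refine ⟨θ⁻¹ * ((4 * (3 * M + 1) ^ 2 / c + 1) * K2), by positivity, ?_⟩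
  intro C φ h m gg bb η₀ e δ hφ hh hφx hhx hη hη1 he hes hmc hgc hbc hm0 hb0 hL hcon hg2 hb2 hZ
  have h1 := gb_one (C := C) (μ := μ) b hf hφ (by linarith : 0 ≤ M) hφx hFM hΦM hη hη1
    (n := fun x => m x + gg x) (hmc.add hgc) hL
  have hcW : Continuous (wF C (N * Λ) Φ φ) := C.sm_cont (sm_wF _ b.smooth hφ)
  have hcP : Continuous (C.G φ φ) := C.sm_cont (C.sm_G hφ hφ)
  set Z : X → ℝ := C.G (fun y => h y - φ y) (fun y => h y - φ y) with hZdef
  have hcZ : Continuous Z := C.sm_cont (C.sm_G (sm_sub hh hφ) (sm_sub hh hφ))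
  have hT : MeasurableSet {x | m x ≠ 0} := (isOpen_ne_fun hmc continuous_const).measurableSet
  -- the pointwise bound
  have key : ∀ x, (m x + gg x) ^ 2 * (wF C (N * Λ) Φ φ x +
      om1 (N * Λ) (qF C Φ φ x) * C.G φ φ x) ≤ 2 * K1 * gg x ^ 2 + 4 * K1 / c0 ^ 2 * bb x ^ 2 +
        4 * K1 * M1 ^ 2 * (1 + τ⁻¹) ^ 2 / c0 ^ 2 * {x | m x ≠ 0}.indicator (fun x => Z x ^ 2) x := by
    intro x
    have hP := G_self_nonneg (C := C) φ x
    have hΦx := hΦ0 _ (hφx x)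
    obtain ⟨y1, y2⟩ := hKb (qF C Φ φ x) (C.G φ φ x) hP (by rw [qF]; linarith)
    change wF C (N * Λ) Φ φ x + om1 (N * Λ) (qF C Φ φ x) * C.G φ φ x ≤ K1 at y1
    change wF C (N * Λ) Φ φ x + om1 (N * Λ) (qF C Φ φ x) * C.G φ φ x ≤
      K1 * (max (qF C Φ φ x) 0) ^ 2 at y2
    have y0 : 0 ≤ wF C (N * Λ) Φ φ x + om1 (N * Λ) (qF C Φ φ x) * C.G φ φ x := by
      have := om_nonneg (N * Λ) (qF C Φ φ x)
      have := om1_nonneg hl (qF C Φ φ x)
      unfold wF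
      positivity
    set Y := wF C (N * Λ) Φ φ x + om1 (N * Λ) (qF C Φ φ x) * C.G φ φ x with hY
    have a1 : (m x + gg x) ^ 2 * Y ≤ 2 * m x ^ 2 * Y + 2 * K1 * gg x ^ 2 := by
      have b1 : (m x + gg x) ^ 2 * Y ≤ (2 * m x ^ 2 + 2 * gg x ^ 2) * Y :=
        mul_le_mul_of_nonneg_right (by linarith [sq_nonneg (m x - gg x)]) y0
      have b2 : 2 * gg x ^ 2 * Y ≤ 2 * gg x ^ 2 * K1 :=
        mul_le_mul_of_nonneg_left y1 (by positivity)
      linarith
    have hind0 : 0 ≤ 4 * K1 * M1 ^ 2 * (1 + τ⁻¹) ^ 2 / c0 ^ 2 *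
        {x | m x ≠ 0}.indicator (fun x => Z x ^ 2) x := by
      have : 0 ≤ {x | m x ≠ 0}.indicator (fun x => Z x ^ 2) x :=
        indicator_nonneg (fun _ _ => sq_nonneg _) _
      positivity
    have hbb0 : 0 ≤ 4 * K1 / c0 ^ 2 * bb x ^ 2 := by positivity
    by_cases hmx : m x = 0
    · rw [hmx] at a1 ⊢
      have : (2:ℝ) * 0 ^ 2 * Y = 0 := by ring
      rw [this] at a1
      linarith
    · rcases hcon x hmx with h2 | ⟨h2, h3, h4⟩
      · have b1 : m x ≤ bb x / c0 := by rw [le_div_iff₀ hc0]; linarith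
        have b2 : m x ^ 2 ≤ (bb x / c0) ^ 2 := pow_le_pow_left₀ (hm0 x) b1 2
        have b3 : 2 * m x ^ 2 * Y ≤ 2 * (bb x / c0) ^ 2 * K1 :=
          mul_le_mul (by linarith) y1 y0 (by positivity)
        have b4 : 2 * (bb x / c0) ^ 2 * K1 = 2 * K1 / c0 ^ 2 * bb x ^ 2 := by
          field_simp
        have b5 : 2 * K1 / c0 ^ 2 * bb x ^ 2 ≤ 4 * K1 / c0 ^ 2 * bb x ^ 2 := by
          apply mul_le_mul_of_nonneg_right _ (sq_nonneg _)
          apply div_le_div_of_nonneg_right _ (sq_nonneg _)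
          linarith
        linarith
      · have b1 : m x ≤ (M1 + bb x) / c0 := by rw [le_div_iff₀ hc0]; linarith
        have b2 : m x ^ 2 ≤ ((M1 + bb x) / c0) ^ 2 := pow_le_pow_left₀ (hm0 x) b1 2
        have b3 : m x ^ 2 ≤ 2 * (M1 ^ 2 + bb x ^ 2) / c0 ^ 2 := by
          refine b2.trans ?_
          rw [div_pow]
          apply div_le_div_of_nonneg_right _ (sq_nonneg _)
          linarith [sq_nonneg (M1 - bb x)]
        -- `q ≤ (1 + 1/τ) Z`
        have hq : qF C Φ φ x ≤ (1 + τ⁻¹) * Z x := by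
          have c1 := G_split (C := C) hφ hh x hτ0
          have c2 : τ * C.G h h x ≤ s / 2 := by
            have : C.G h h x ≤ M := h3.trans (by linarith [hΦ0 _ (hhx x)])
            have h5 : τ * C.G h h x ≤ τ * M := mul_le_mul_of_nonneg_left this hτ0.le
            have h6 : τ * M = s / 2 := by rw [hτ]; field_simp
            linarith
          have c3 : Φ (h x) - Φ (φ x) ≤ s / 2 := by
            have h5 : |Φ (h x) - Φ (φ x)| ≤ M * |h x - φ x| := by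
              have := Convex.norm_image_sub_le_of_norm_deriv_le (𝕜 := ℝ) (f := Φ) (s := Icc g B)
                (x := φ x) (y := h x) (C := M)
                (fun y _ => (b.smooth.differentiable (by simp)) y) (fun y hy => hΦM y hy)
                (convex_Icc g B) (hφx x) (hhx x)
              simpa only [Real.norm_eq_abs] using this
            have h6 : M * |h x - φ x| ≤ M * (2 * e) := by
              rw [abs_sub_comm]
              exact mul_le_mul_of_nonneg_left h4 (by linarith)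
            have h7 := le_abs_self (Φ (h x) - Φ (φ x))
            linarith
          have c4 : (1 + τ) * C.G h h x = C.G h h x + τ * C.G h h x := by ring
          rw [qF]
          linarith
        have hZ0 : 0 ≤ Z x := G_self_nonneg _ _
        have hq2 : (max (qF C Φ φ x) 0) ^ 2 ≤ (1 + τ⁻¹) ^ 2 * Z x ^ 2 := by
          rw [← mul_pow]
          refine pow_le_pow_left₀ (le_max_right _ _) (max_le hq ?_) 2
          positivity
        have b4 : 2 * m x ^ 2 * Y ≤ 4 * (M1 ^ 2 + bb x ^ 2) / c0 ^ 2 * Y := by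
          refine mul_le_mul_of_nonneg_right ?_ y0
          have : 4 * (M1 ^ 2 + bb x ^ 2) / c0 ^ 2 = 2 * (2 * (M1 ^ 2 + bb x ^ 2) / c0 ^ 2) := by ring
          rw [this]
          linarith
        have b5 : 4 * M1 ^ 2 / c0 ^ 2 * Y ≤ 4 * M1 ^ 2 / c0 ^ 2 * (K1 * ((1 + τ⁻¹) ^ 2 * Z x ^ 2)) := by
          refine mul_le_mul_of_nonneg_left (y2.trans ?_) (by positivity)
          exact mul_le_mul_of_nonneg_left hq2 (by linarith)
        have b6 : 4 * bb x ^ 2 / c0 ^ 2 * Y ≤ 4 * bb x ^ 2 / c0 ^ 2 * K1 :=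
          mul_le_mul_of_nonneg_left y1 (by positivity)
        have b7 : 4 * (M1 ^ 2 + bb x ^ 2) / c0 ^ 2 * Y =
            4 * M1 ^ 2 / c0 ^ 2 * Y + 4 * bb x ^ 2 / c0 ^ 2 * Y := by ring
        have hmem : x ∈ {x | m x ≠ 0} := hmx
        rw [indicator_of_mem hmem]
        have b8 : 4 * M1 ^ 2 / c0 ^ 2 * (K1 * ((1 + τ⁻¹) ^ 2 * Z x ^ 2)) =
            4 * K1 * M1 ^ 2 * (1 + τ⁻¹) ^ 2 / c0 ^ 2 * Z x ^ 2 := by ring
        have b9 : 4 * bb x ^ 2 / c0 ^ 2 * K1 = 4 * K1 / c0 ^ 2 * bb x ^ 2 := by ring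
        rw [b8] at b5
        rw [b9] at b6
        linarith
  have i0 : Integrable (fun x => (m x + gg x) ^ 2 * (wF C (N * Λ) Φ φ x +
      om1 (N * Λ) (qF C Φ φ x) * C.G φ φ x)) μ :=
    integrable_cont (((hmc.add hgc).pow 2).mul (hcW.add ((cont_om1 hl b.smooth hφ).mul hcP)))
  have i1 : Integrable (fun x => gg x ^ 2) μ := integrable_cont (hgc.pow 2)
  have i2 : Integrable (fun x => bb x ^ 2) μ := integrable_cont (hbc.pow 2)
  have i3 : Integrable ({x | m x ≠ 0}.indicator (fun x => Z x ^ 2)) μ :=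
    (integrable_cont (hcZ.pow 2)).indicator hT
  have i12 : Integrable (fun x => 2 * K1 * gg x ^ 2 + 4 * K1 / c0 ^ 2 * bb x ^ 2) μ :=
    (i1.const_mul _).add (i2.const_mul _)
  have h2 := integral_mono i0 (i12.add (i3.const_mul (4 * K1 * M1 ^ 2 * (1 + τ⁻¹) ^ 2 / c0 ^ 2))) key
  rw [integral_add' i12 (i3.const_mul _), integral_add (i1.const_mul _) (i2.const_mul _),
    integral_const_mul, integral_const_mul, integral_const_mul, integral_indicator hT] at h2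
  have h3 : 2 * K1 * ∫ x, gg x ^ 2 ∂μ + 4 * K1 / c0 ^ 2 * ∫ x, bb x ^ 2 ∂μ +
      4 * K1 * M1 ^ 2 * (1 + τ⁻¹) ^ 2 / c0 ^ 2 * ∫ x in {x | m x ≠ 0}, Z x ^ 2 ∂μ ≤ K2 * δ := by
    have k1 : 2 * K1 * ∫ x, gg x ^ 2 ∂μ ≤ 2 * K1 * δ :=
      mul_le_mul_of_nonneg_left hg2 (by positivity)
    have k2 : 4 * K1 / c0 ^ 2 * ∫ x, bb x ^ 2 ∂μ ≤ 4 * K1 / c0 ^ 2 * δ :=
      mul_le_mul_of_nonneg_left hb2 (by positivity)
    have k3 : 4 * K1 * M1 ^ 2 * (1 + τ⁻¹) ^ 2 / c0 ^ 2 * ∫ x in {x | m x ≠ 0}, Z x ^ 2 ∂μ ≤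
        4 * K1 * M1 ^ 2 * (1 + τ⁻¹) ^ 2 / c0 ^ 2 * δ :=
      mul_le_mul_of_nonneg_left hZ (by positivity)
    have k4 : K2 * δ = 2 * K1 * δ + 4 * K1 / c0 ^ 2 * δ +
        4 * K1 * M1 ^ 2 * (1 + τ⁻¹) ^ 2 / c0 ^ 2 * δ := by rw [hK2]; ring
    linarith
  have h4 : θ * ∫ x, wF C (N * Λ) Φ φ x * (1 + C.G φ φ x + C.Rb φ x) ∂μ ≤
      (4 * (3 * M + 1) ^ 2 / c + 1) * (K2 * δ) :=
    h1.trans (mul_le_mul_of_nonneg_left (h2.trans h3) (by positivity))
  have h5 : ∫ x, wF C (N * Λ) Φ φ x * (1 + C.G φ φ x + C.Rb φ x) ∂μ =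
      θ⁻¹ * (θ * ∫ x, wF C (N * Λ) Φ φ x * (1 + C.G φ φ x + C.Rb φ x) ∂μ) := by
    rw [← mul_assoc, inv_mul_cancel₀ hθ0.ne', one_mul]
  rw [h5, mul_assoc]
  refine mul_le_mul_of_nonneg_left (h4.trans (le_of_eq ?_)) (by positivity)
  ring

end Crest.Agent.R249.GB330
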