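import Crest.Agent.R249.GBd_330

/-!
# R249 (helper330), GB part e: the gradient bound for both species of the penalised pair

`gb_pair` : `∫ om(q) (1 + |dφ|² + Rb φ) ≤ K (δ + e)` for `φ` and for `ψ`.
-/

set_option autoImplicit false
set_option linter.unusedVariables false
set_option linter.unusedSectionVars false

open MeasureTheory Set Filter Topology Matrix
open scoped ContDiff

noncomputable section

namespace Crest.Agent.R249.GB330

open Crest.Agent.R249.Calc_806 Crest.Agent.R249.Calc_806.Calc DivC467 PenH_806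
  ObC_780 ObE_780 ObB_780

variable {X : Type*} [TopologicalSpace X] [CompactSpace X] [MeasurableSpace X]
  [OpensMeasurableSpace X] {μ : Measure X} [IsFiniteMeasure μ]
variable {f : ℝ → ℝ} {g B : ℝ} {Φ : ℝ → ℝ} {c N Λ : ℝ} {O : Ob g B}

section Grad

variable {C : Calc X μ} {η₀ t₀ K e ε : ℝ} {φ₀ ψ₀ : X → ℝ}

lemma dot_smul_self (a : ℝ) (p : Fin 4 → ℝ) : (a • p) ⬝ᵥ (a • p) = a ^ 2 * (p ⬝ᵥ p) := by
  simp only [smul_dotProduct, dotProduct_smul, smul_eq_mul]; ring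

/-- `|dh₁|² = k2² |d(h₁ - ψ₀)|²`. -/
lemma G_h₁_eq (S : PenSolG C O f η₀ φ₀ ψ₀ K e ε) (D : DatG C O f η₀ t₀ φ₀ ψ₀) (x : X) :
    C.G S.h₁ S.h₁ x = O.k2 (S.h₁ x) (ψ₀ x) ^ 2 *
      C.G (fun y => S.h₁ y - ψ₀ y) (fun y => S.h₁ y - ψ₀ y) x := by
  have h1 := D_k O S.sh₁ D.sψ x
  have h2 : (fun x => O.k (S.h₁ x) (ψ₀ x)) = fun _ => 4 * e := by funext y; exact S.kh₁ y
  rw [h2, D_const] at h1
  have h3 : O.k1 (S.h₁ x) (ψ₀ x) + O.k2 (S.h₁ x) (ψ₀ x) = -1 := by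
    simp only [Ob.k1, Ob.k2]; ring
  have h4 : C.D S.h₁ x = (-O.k2 (S.h₁ x) (ψ₀ x)) • C.D (fun y => S.h₁ y - ψ₀ y) x := by
    rw [D_sub S.sh₁ D.sψ]
    have h5 : O.k2 (S.h₁ x) (ψ₀ x) • C.D ψ₀ x = -(O.k1 (S.h₁ x) (ψ₀ x) • C.D S.h₁ x) := by
      rw [eq_neg_iff_add_eq_zero, add_comm]; exact h1.symm
    have h6 : O.k1 (S.h₁ x) (ψ₀ x) = -1 - O.k2 (S.h₁ x) (ψ₀ x) := by linarith
    rw [smul_sub, neg_smul, neg_smul, h5, h6]
    module
  have e1 : C.G S.h₁ S.h₁ x = C.D S.h₁ x ⬝ᵥ C.D S.h₁ x := rfl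
  rw [e1, h4, dot_smul_self, neg_sq]
  rfl

/-- `|dh₂|² = k1² |d(φ - h₂)|²`. -/
lemma G_h₂_eq (S : PenSolG C O f η₀ φ₀ ψ₀ K e ε) (x : X) :
    C.G S.h₂ S.h₂ x = O.k1 (S.φ x) (S.h₂ x) ^ 2 *
      C.G (fun y => S.φ y - S.h₂ y) (fun y => S.φ y - S.h₂ y) x := by
  have h1 := D_k O S.sφ S.sh₂ x
  have h2 : (fun x => O.k (S.φ x) (S.h₂ x)) = fun _ => 0 := by funext y; exact S.kh₂ y
  rw [h2, D_const] at h1
  have h3 : O.k1 (S.φ x) (S.h₂ x) + O.k2 (S.φ x) (S.h₂ x) = -1 := by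
    simp only [Ob.k1, Ob.k2]; ring
  have h4 : C.D S.h₂ x = (O.k1 (S.φ x) (S.h₂ x)) • C.D (fun y => S.φ y - S.h₂ y) x := by
    rw [D_sub S.sφ S.sh₂]
    have h5 : O.k1 (S.φ x) (S.h₂ x) • C.D S.φ x = -(O.k2 (S.φ x) (S.h₂ x) • C.D S.h₂ x) := by
      rw [eq_neg_iff_add_eq_zero]; exact h1.symm
    have h6 : O.k2 (S.φ x) (S.h₂ x) = -1 - O.k1 (S.φ x) (S.h₂ x) := by linarith
    rw [smul_sub, h5, h6]
    module
  have e1 : C.G S.h₂ S.h₂ x = C.D S.h₂ x ⬝ᵥ C.D S.h₂ x := rfl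
  rw [e1, h4, dot_smul_self]
  rfl

end Grad

/-- **the gradient bound for both species.** -/
theorem gb_pair (b : Bar f g B Φ c N Λ) (hf : ContDiff ℝ ∞ f)
    (hconc : ∀ η, |η| ≤ B - g → deriv (deriv O.Γ) η ≤ 0) {s : ℝ} (hs : 0 < s) (hs1 : s ≤ 1)
    (con : Con O f Φ s s) :
    ∃ K : ℝ, 0 ≤ K ∧ ∃ η₁ > 0, ∃ e₁ > 0, η₁ ≤ 1 ∧ e₁ ≤ 1 ∧ ∀ (C : Calc X μ) (η₀ t₀ Kp e ε : ℝ)
      (φ₀ ψ₀ : X → ℝ), 0 ≤ η₀ → η₀ ≤ η₁ → 0 < e → e ≤ e₁ → ∀ D : DatG C O f η₀ t₀ φ₀ ψ₀,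
      ∀ S : PenSolG C O f η₀ φ₀ ψ₀ Kp e ε, ∀ A δ er, OutG S A δ er →
      ∫ x, wF C (N * Λ) Φ S.φ x * (1 + C.G S.φ S.φ x + C.Rb S.φ x) ∂μ ≤ K * (δ + e) ∧
      ∫ x, wF C (N * Λ) Φ S.ψ x * (1 + C.G S.ψ S.ψ x + C.Rb S.ψ x) ∂μ ≤ K * (δ + e) := by
  obtain ⟨M₁, hM₁⟩ := isCompact_Icc.exists_bound_of_continuousOn
    (hf.continuous.continuousOn (s := Icc g B))
  obtain ⟨M₂, hM₂⟩ := isCompact_Icc.exists_bound_of_continuousOn
    (b.smooth.continuous.continuousOn (s := Icc g B))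
  obtain ⟨M₃, hM₃⟩ := isCompact_Icc.exists_bound_of_continuousOn
    ((b.smooth.continuous_deriv (by simp)).continuousOn (s := Icc g B))
  set M : ℝ := max 1 (max M₁ (max M₂ M₃)) with hMdef
  have hM : 1 ≤ M := le_max_left _ _
  have hFM : ∀ u ∈ Icc g B, |f u| ≤ M := fun u hu =>
    (hM₁ u hu).trans ((le_max_left _ _).trans (le_max_right _ _))
  have hΦ0 : ∀ u ∈ Icc g B, Φ u ≤ M := fun u hu => (le_abs_self _).trans
    ((hM₂ u hu).trans (((le_max_left _ _).trans (le_max_right _ _)).trans (le_max_right _ _)))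
  have hΦM : ∀ u ∈ Icc g B, |deriv Φ u| ≤ M := fun u hu =>
    ((hM₃ u hu).trans (((le_max_right _ _).trans (le_max_right _ _)).trans (le_max_right _ _)))
  have hM0 : 0 < M := by linarith
  have hc := b.c_pos
  obtain ⟨K, hK0, hK⟩ := gb_contact (X := X) (μ := μ) b hf (M := M) (M1 := 2 * M + 1) (c0 := O.c)
    (s := s) hM (by positivity) O.c_pos hs hFM hΦ0 hΦM
  set V : ℝ := μ.real univ with hV
  have hV0 : 0 ≤ V := measureReal_nonneg
  refine ⟨K * (2 + 2 * V), by positivity, min s (min 1 (c / (8 * (2 * M + 1)))), by positivity,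
    min (s / (4 * M)) (min (s / 4) 1), by positivity,
    (min_le_right _ _).trans (min_le_left _ _), (min_le_right _ _).trans (min_le_right _ _), ?_⟩
  intro C η₀ t₀ Kp e ε φ₀ ψ₀ hη hη1 he he1 D S A δ er out
  have l1 : η₀ ≤ s := hη1.trans (min_le_left _ _)
  have l2 : η₀ ≤ 1 := hη1.trans ((min_le_right _ _).trans (min_le_left _ _))
  have l3 : η₀ * (8 * (2 * M + 1)) ≤ c := by
    have : η₀ ≤ c / (8 * (2 * M + 1)) := hη1.trans ((min_le_right _ _).trans (min_le_right _ _))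
    rwa [le_div_iff₀ (by positivity)] at this
  have l4 : 4 * M * e ≤ s := by
    have : e ≤ s / (4 * M) := he1.trans (min_le_left _ _)
    rw [le_div_iff₀ (by positivity)] at this
    linarith
  have l5 : 4 * e ≤ s := by
    have : e ≤ s / 4 := he1.trans ((min_le_right _ _).trans (min_le_left _ _))
    linarith
  have l6 : e ≤ 1 := he1.trans ((min_le_right _ _).trans (min_le_right _ _))
  have hδ : 0 ≤ δ := (integral_nonneg fun x => sq_nonneg (er x)).trans out.er_le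
  have hee : e ^ 2 ≤ e := by nlinarith
  have hEle : ∀ u ∈ Icc g B, ∀ v ∈ Icc g B, ∀ P : ℝ, 0 ≤ P → O.E f u v P ≤ 2 * M := by
    intro u hu v hv P hP
    have a1 := abs_k1 O hu hv
    have a2 := abs_k2 O hu hv
    have a3 : deriv (deriv O.Γ) (u - v) * P ≤ 0 := by
      refine mul_nonpos_of_nonpos_of_nonneg (hconc _ ?_) hP
      obtain ⟨h1, h2⟩ := hu
      obtain ⟨h3, h4⟩ := hv
      rw [abs_le]; constructor <;> linarith
    have a4 : O.k1 u v * f u ≤ M := by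
      refine (le_abs_self _).trans ?_
      rw [abs_mul]
      calc |O.k1 u v| * |f u| ≤ 1 * M := mul_le_mul a1 (hFM u hu) (abs_nonneg _) zero_le_one
        _ = M := one_mul _
    have a5 : O.k2 u v * f v ≤ M := by
      refine (le_abs_self _).trans ?_
      rw [abs_mul]
      calc |O.k2 u v| * |f v| ≤ 1 * M := mul_le_mul a2 (hFM v hv) (abs_nonneg _) zero_le_one
        _ = M := one_mul _
    unfold Ob.E
    linarith
  have hδ' : δ ≤ (2 + 2 * V) * (δ + e) := by nlinarith [mul_nonneg hV0 hδ, mul_nonneg hV0 he.le]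
  have hint1 : ∫ x : X, (e:ℝ) ^ 2 ∂μ = V * e ^ 2 := by
    rw [integral_const, smul_eq_mul]
  have hb1 : ∫ x : X, (e:ℝ) ^ 2 ∂μ ≤ (2 + 2 * V) * (δ + e) := by
    rw [hint1]
    have : V * e ^ 2 ≤ V * e := mul_le_mul_of_nonneg_left hee hV0
    nlinarith [mul_nonneg hV0 hδ, mul_nonneg hV0 he.le]
  have hb2 : ∫ x, (|S.g₁ x| + e) ^ 2 ∂μ ≤ (2 + 2 * V) * (δ + e) := by
    have i1 : Integrable (fun x => (|S.g₁ x| + e) ^ 2) μ :=
      integrable_cont (((C.sm_cont S.sg₁).abs.add continuous_const).pow 2)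
    have i2 : Integrable (fun x => S.g₁ x ^ 2) μ := integrable_cont ((C.sm_cont S.sg₁).pow 2)
    have h1 : ∫ x, (|S.g₁ x| + e) ^ 2 ∂μ ≤ ∫ x, (2 * S.g₁ x ^ 2 + 2 * e ^ 2) ∂μ := by
      refine integral_mono i1 ((i2.const_mul 2).add (integrable_const _)) fun x => ?_
      simp only
      rw [← sq_abs (S.g₁ x)]
      linarith [sq_nonneg (|S.g₁ x| - e)]
    rw [integral_add (i2.const_mul 2) (integrable_const _), integral_const_mul, integral_const,
      smul_eq_mul] at h1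
    have h2 := out.g₁_sq
    have : V * e ^ 2 ≤ V * e := mul_le_mul_of_nonneg_left hee hV0
    have h3 : V * (2 * e ^ 2) = 2 * (V * e ^ 2) := by ring
    rw [h3] at h1
    nlinarith [mul_nonneg hV0 hδ, mul_nonneg hV0 he.le]
  constructor
  · have h1 := hK C S.φ S.h₁ S.m₁ S.g₁ (fun _ => e) η₀ e ((2 + 2 * V) * (δ + e)) S.sφ S.sh₁
      out.φ_mem (fun x => h₁_mem S he x) hη l3 he.le l4 (C.sm_cont S.sm₁) (C.sm_cont S.sg₁)
      continuous_const S.m₁nn (fun _ => he.le) (fun x => by rw [S.eqφ x]; ring) ?_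
      (out.g₁_sq.trans hδ') hb1 (out.near₁.trans hδ')
    · rw [← mul_assoc] at h1; exact h1
    · intro x hm
      have hk1 := k1_le O (h₁_mem S he x) (ψ₀_mem D x)
      have hc1 := out.contact₁ x
      have hm0 := S.m₁nn x
      have hle : O.c * S.m₁ x ≤ -O.k1 (S.h₁ x) (ψ₀ x) * S.m₁ x :=
        mul_le_mul_of_nonneg_right (by linarith) hm0
      set P₁ := C.G (fun y => S.h₁ y - ψ₀ y) (fun y => S.h₁ y - ψ₀ y) x with hP₁
      have hP0 : 0 ≤ P₁ := G_self_nonneg _ _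
      rcases le_or_gt (O.E f (S.h₁ x) (ψ₀ x) P₁ + η₀) 0 with hE | hE
      · left
        rw [max_eq_left hE] at hc1
        linarith
      · right
        rw [max_eq_right hE.le] at hc1
        have hE2 := hEle _ (h₁_mem S he x) _ (ψ₀_mem D x) P₁ hP0
        refine ⟨by linarith, ?_, ?_⟩
        · rw [G_h₁_eq S D x]
          refine (con _ (h₁_mem S he x) _ (ψ₀_mem D x) ?_ P₁ hP0 (by linarith)).1
          rw [S.kh₁ x, abs_of_pos (by linarith)]
          exact l5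
        · have h2 := S.m₁sup x hm
          have h3 := S.φle x
          rw [abs_le]; constructor <;> linarith
  · have h1 := hK C S.ψ S.h₂ S.m₂ S.g₂ (fun x => |S.g₁ x| + e) η₀ e ((2 + 2 * V) * (δ + e)) S.sψ
      S.sh₂ out.ψ_mem (fun x => h₂_mem S he x) hη l3 he.le l4 (C.sm_cont S.sm₂) (C.sm_cont S.sg₂)
      ((C.sm_cont S.sg₁).abs.add continuous_const) S.m₂nn (fun x => by positivity)
      (fun x => by rw [S.eqψ x]; ring) ?_
      (out.g₂_sq.trans hδ') hb2 (out.near₃.trans hδ')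
    · rw [← mul_assoc] at h1; exact h1
    · intro x hm
      have hk2 := k2_le O (out.φ_mem x) (h₂_mem S he x)
      have hk1 := k1_le O (out.φ_mem x) (h₂_mem S he x)
      have hcp := O.c_pos
      have hc1 := out.contact₂ x
      have hm0 := S.m₂nn x
      have hm1 := S.m₁nn x
      have hle : O.c * S.m₂ x ≤ -O.k2 (S.φ x) (S.h₂ x) * S.m₂ x :=
        mul_le_mul_of_nonneg_right (by linarith) hm0
      have hkm : O.k1 (S.φ x) (S.h₂ x) * S.m₁ x ≤ 0 :=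
        mul_nonpos_of_nonpos_of_nonneg (by linarith) hm1
      have hg := abs_nonneg (S.g₁ x)
      set P₂ := C.G (fun y => S.φ y - S.h₂ y) (fun y => S.φ y - S.h₂ y) x with hP₂
      have hP0 : 0 ≤ P₂ := G_self_nonneg _ _
      rcases le_or_gt (O.E f (S.φ x) (S.h₂ x) P₂ + η₀) 0 with hE | hE
      · left
        have : max 0 (O.E f (S.φ x) (S.h₂ x) P₂ + η₀ + O.k1 (S.φ x) (S.h₂ x) * S.m₁ x +
            |S.g₁ x|) ≤ |S.g₁ x| := max_le hg (by linarith)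
        linarith
      · right
        have : max 0 (O.E f (S.φ x) (S.h₂ x) P₂ + η₀ + O.k1 (S.φ x) (S.h₂ x) * S.m₁ x +
            |S.g₁ x|) ≤ O.E f (S.φ x) (S.h₂ x) P₂ + η₀ + |S.g₁ x| :=
          max_le (by linarith) (by linarith)
        have hE2 := hEle _ (out.φ_mem x) _ (h₂_mem S he x) P₂ hP0
        refine ⟨by linarith, ?_, ?_⟩
        · rw [G_h₂_eq S x]
          refine (con _ (out.φ_mem x) _ (h₂_mem S he x) ?_ P₂ hP0 (by linarith)).2
          rw [S.kh₂ x, abs_zero]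
          exact hs.le
        · have h2 := S.m₂sup x hm
          have h3 := S.ψle x
          rw [abs_le]; constructor <;> linarith

end Crest.Agent.R249.GB330
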