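import Crest.Agent.R249.GBe_330

/-!
# R249 (helper330), GB part f: the mixed bound

If `∫ om(q_φ) (1 + |dφ|² + Rb φ) ≤ δ`, `∫ om(q_ψ) (1 + |dψ|² + Rb ψ) ≤ δ` and `(L ψ)² ≤ A (1 + r²)`,
`∫ r² ≤ δ`, then `∫ om(q_φ)³ χ(q_ψ) Rb ψ ≤ K δ`.
-/

set_option autoImplicit false
set_option linter.unusedVariables false
set_option linter.unusedSectionVars false

open MeasureTheory Set Filter Topology Matrix
open scoped ContDiff

noncomputable section

namespace Crest.Agent.R249.GB330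

open Crest.Agent.R249.Calc_806 Crest.Agent.R249.Calc_806.Calc DivC467

/-- the cutoff: `1` for `q ≤ 1`, `0` for `q ≥ 2`. -/
def cut (q : ℝ) : ℝ := Real.smoothTransition (2 - q)

lemma contDiff_cut : ContDiff ℝ ∞ cut :=
  Real.smoothTransition.contDiff.comp (contDiff_const.sub contDiff_id)

lemma cut_nonneg (q : ℝ) : 0 ≤ cut q := Real.smoothTransition.nonneg _
lemma cut_le_one (q : ℝ) : cut q ≤ 1 := Real.smoothTransition.le_one _
lemma cut_one {q : ℝ} (h : q ≤ 1) : cut q = 1 := Real.smoothTransition.one_of_one_le (by linarith)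
lemma cut_zero {q : ℝ} (h : 2 ≤ q) : cut q = 0 :=
  Real.smoothTransition.zero_of_nonpos (by linarith)

lemma deriv_cut_zero {q : ℝ} (h : q < 1 ∨ 2 < q) : deriv cut q = 0 := by
  rcases h with h | h
  · have h1 : cut =ᶠ[𝓝 q] fun _ => 1 := by
      filter_upwards [Iio_mem_nhds h] with y hy
      exact cut_one (le_of_lt hy)
    rw [h1.deriv_eq, deriv_const]
  · have h1 : cut =ᶠ[𝓝 q] fun _ => 0 := by
      filter_upwards [Ioi_mem_nhds h] with y hy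
      exact cut_zero (le_of_lt hy)
    rw [h1.deriv_eq, deriv_const]

lemma exists_deriv_cut : ∃ T : ℝ, 0 ≤ T ∧ ∀ q, |deriv cut q| ≤ T := by
  have hc : Continuous (deriv cut) := contDiff_cut.continuous_deriv (by simp)
  obtain ⟨T, hT⟩ := isCompact_Icc.exists_bound_of_continuousOn (hc.continuousOn (s := Icc 1 2))
  refine ⟨max T 0, le_max_right _ _, fun q => ?_⟩
  by_cases h : q ∈ Icc (1:ℝ) 2
  · exact (hT q h).trans (le_max_left _ _)
  · have h2 : q < 1 ∨ 2 < q := by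
      by_contra h3
      rw [not_or, not_lt, not_lt] at h3
      exact h h3
    rw [deriv_cut_zero h2, abs_zero]
    exact le_max_right _ _

variable {X : Type*} [TopologicalSpace X] [CompactSpace X] [MeasurableSpace X]
  [OpensMeasurableSpace X] {μ : Measure X} [IsFiniteMeasure μ] {C : Calc X μ}
variable {Φ : ℝ → ℝ} {φ ψ : X → ℝ} {l M : ℝ}

/-- `|S p|² ≤ |S|² |p|²`. -/
lemma mulVec_sq_le (S : Matrix (Fin 4) (Fin 4) ℝ) (p : Fin 4 → ℝ) :
    (S *ᵥ p) ⬝ᵥ (S *ᵥ p) ≤ (∑ i, ∑ j, S i j ^ 2) * (p ⬝ᵥ p) := by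
  have h1 : ∀ i, (S *ᵥ p) i * (S *ᵥ p) i ≤ (∑ j, S i j ^ 2) * (p ⬝ᵥ p) := by
    intro i
    have := Finset.sum_mul_sq_le_sq_mul_sq Finset.univ (fun j => S i j) p
    simp only [Matrix.mulVec, dotProduct]
    rw [← sq]
    refine this.trans (le_of_eq ?_)
    congr 1
    exact Finset.sum_congr rfl fun j _ => sq _
  rw [Finset.sum_mul]
  exact Finset.sum_le_sum fun i _ => h1 i

/-- `(L u)² ≤ 4 |Hess u|²`. -/
lemma L_sq_le (u : X → ℝ) (x : X) : C.L u x ^ 2 ≤ 4 * C.Q u x := by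
  have h1 : C.L u x = ∑ i, C.Hs u x i i := rfl
  have h2 : C.Q u x = ∑ i, ∑ j, C.Hs u x i j ^ 2 := rfl
  have h3 : (∑ i, C.Hs u x i i) ^ 2 ≤ 4 * ∑ i, C.Hs u x i i ^ 2 := by
    have := sq_sum_le_card_mul_sum_sq (s := (Finset.univ : Finset (Fin 4)))
      (f := fun i => C.Hs u x i i)
    simpa using this
  have h4 : ∑ i, C.Hs u x i i ^ 2 ≤ ∑ i, ∑ j, C.Hs u x i j ^ 2 :=
    Finset.sum_le_sum fun i _ => Finset.single_le_sum (f := fun j => C.Hs u x i j ^ 2)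
      (fun j _ => sq_nonneg _) (Finset.mem_univ i)
  rw [h1, h2]
  linarith

/-- the vector `j = L u du - Hess u du`. -/
def jv (C : Calc X μ) (u : X → ℝ) (x : X) : Fin 4 → ℝ :=
  C.L u x • C.D u x - C.Hs u x *ᵥ C.D u x

lemma dot_nonneg (p : Fin 4 → ℝ) : 0 ≤ p ⬝ᵥ p := by
  rw [dotProduct]; exact Finset.sum_nonneg fun i _ => mul_self_nonneg _

lemma jv_sq (hu : C.Sm φ) (x : X) : jv C φ x ⬝ᵥ jv C φ x ≤ 10 * C.G φ φ x * C.Rb φ x := by
  have h1 := L_sq_le (C := C) φ x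
  have h2 := mulVec_sq_le (C.Hs φ x) (C.D φ x)
  have h3 := Q_le_Rb hu x
  have h4 := G_self_nonneg (C := C) φ x
  have e1 : C.G φ φ x = C.D φ x ⬝ᵥ C.D φ x := rfl
  have e2 : ∑ i, ∑ j, C.Hs φ x i j ^ 2 = C.Q φ x := rfl
  rw [e2, ← e1] at h2
  have h5 : jv C φ x ⬝ᵥ jv C φ x ≤ 2 * (C.L φ x ^ 2 * C.G φ φ x) +
      2 * ((C.Hs φ x *ᵥ C.D φ x) ⬝ᵥ (C.Hs φ x *ᵥ C.D φ x)) := by
    have h6 := dot_nonneg (C.L φ x • C.D φ x + C.Hs φ x *ᵥ C.D φ x)
    simp only [jv, add_dotProduct, dotProduct_add, sub_dotProduct, dotProduct_sub, smul_dotProduct,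
      dotProduct_smul, smul_eq_mul, e1] at h6 ⊢
    linarith
  have h7 : C.L φ x ^ 2 * C.G φ φ x ≤ 4 * C.Q φ x * C.G φ φ x := mul_le_mul_of_nonneg_right h1 h4
  have h8 : C.Q φ x * C.G φ φ x ≤ C.Rb φ x * C.G φ φ x := mul_le_mul_of_nonneg_right h3 h4
  linarith

/-- `Lψ ⟨dW,dψ⟩ - ½ ⟨dW, d|dψ|²⟩ = ⟨dW, j⟩`. -/
lemma dW_jv {W : X → ℝ} (hψ : C.Sm ψ) (x : X) :
    C.L ψ x * C.G W ψ x - (1 / 2) * C.G W (C.G ψ ψ) x = C.D W x ⬝ᵥ jv C ψ x := by
  have e1 : C.G W ψ x = C.D W x ⬝ᵥ C.D ψ x := rfl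
  have e2 : C.G W (C.G ψ ψ) x = C.D W x ⬝ᵥ C.D (C.G ψ ψ) x := rfl
  rw [e1, e2, D_T hψ, jv, dotProduct_sub, dotProduct_smul, dotProduct_smul]
  simp only [smul_eq_mul]
  ring

lemma dot_sq_le (p q : Fin 4 → ℝ) : (p ⬝ᵥ q) ^ 2 ≤ (p ⬝ᵥ p) * (q ⬝ᵥ q) := by
  simp only [dotProduct]
  have := Finset.sum_mul_sq_le_sq_mul_sq Finset.univ p q
  simpa [sq] using this

lemma dot_abs_le (p q : Fin 4 → ℝ) : |p ⬝ᵥ q| ≤ √(p ⬝ᵥ p) * √(q ⬝ᵥ q) := by
  rw [← Real.sqrt_mul (dot_nonneg p)]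
  exact Real.abs_le_sqrt (dot_sq_le p q)

/-- `|dq|² ≤ (8 Rb + 2 M²) |dφ|²`. -/
lemma D_qF_sq (hΦ : ContDiff ℝ ∞ Φ) (hφ : C.Sm φ) {x : X} (hM : |deriv Φ (φ x)| ≤ M) :
    C.D (qF C Φ φ) x ⬝ᵥ C.D (qF C Φ φ) x ≤ (8 * C.Rb φ x + 2 * M ^ 2) * C.G φ φ x := by
  have hDq : C.D (qF C Φ φ) x = (2 : ℝ) • (C.Hs φ x *ᵥ C.D φ x) - deriv Φ (φ x) • C.D φ x := by
    have h1 := D_sub (C := C) (C.sm_G hφ hφ) (sm_comp' (C := C) hΦ hφ) x
    rw [D_T hφ, D_comp' hΦ hφ] at h1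
    exact h1
  have h2 := mulVec_sq_le (C.Hs φ x) (C.D φ x)
  have h3 := Q_le_Rb hφ x
  have h4 := G_self_nonneg (C := C) φ x
  have e1 : C.G φ φ x = C.D φ x ⬝ᵥ C.D φ x := rfl
  have e2 : ∑ i, ∑ j, C.Hs φ x i j ^ 2 = C.Q φ x := rfl
  rw [e2, ← e1] at h2
  have h5 : C.D (qF C Φ φ) x ⬝ᵥ C.D (qF C Φ φ) x ≤
      8 * ((C.Hs φ x *ᵥ C.D φ x) ⬝ᵥ (C.Hs φ x *ᵥ C.D φ x)) + 2 * (deriv Φ (φ x) ^ 2 * C.G φ φ x) := by
    rw [hDq]
    have h6 := dot_nonneg ((2 : ℝ) • (C.Hs φ x *ᵥ C.D φ x) + deriv Φ (φ x) • C.D φ x)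
    simp only [add_dotProduct, dotProduct_add, sub_dotProduct, dotProduct_sub, smul_dotProduct,
      dotProduct_smul, smul_eq_mul, e1] at h6 ⊢
    linarith
  have h7 : deriv Φ (φ x) ^ 2 * C.G φ φ x ≤ M ^ 2 * C.G φ φ x := by
    refine mul_le_mul_of_nonneg_right ?_ h4
    rw [← sq_abs (deriv Φ (φ x))]
    exact pow_le_pow_left₀ (abs_nonneg _) hM 2
  have h8 : C.Q φ x * C.G φ φ x ≤ C.Rb φ x * C.G φ φ x := mul_le_mul_of_nonneg_right h3 h4
  linarith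

/-- the AM-GM step -/
lemma amgm_aux {a c1 x y κ : ℝ} (ha : 0 ≤ a) (hκ : 0 < κ) :
    3 * (a ^ 2 * c1) * (x * y) ≤ κ * (a ^ 3 * y ^ 2) + 9 / (4 * κ) * (a * (c1 * x) ^ 2) := by
  have h1 : 0 ≤ a * (2 * κ * (a * y) - 3 * (c1 * x)) ^ 2 := mul_nonneg ha (sq_nonneg _)
  have h2 : κ * (a ^ 3 * y ^ 2) + 9 / (4 * κ) * (a * (c1 * x) ^ 2) - 3 * (a ^ 2 * c1) * (x * y) =
      a * (2 * κ * (a * y) - 3 * (c1 * x)) ^ 2 / (4 * κ) := by
    field_simp
    ring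
  have h3 : 0 ≤ a * (2 * κ * (a * y) - 3 * (c1 * x)) ^ 2 / (4 * κ) := by positivity
  linarith

/-- the weight -/
def wM (C : Calc X μ) (l : ℝ) (Φ : ℝ → ℝ) (φ ψ : X → ℝ) (x : X) : ℝ :=
  wF C l Φ φ x ^ 3 * cut (qF C Φ ψ x)

set_option maxHeartbeats 2000000 in
/-- **the mixed bound.** -/
theorem gb_mixed (hl : 0 < l) (hΦ : ContDiff ℝ ∞ Φ) {g B A : ℝ} (hM : 1 ≤ M) (hA : 0 ≤ A)
    (hΦ0 : ∀ u ∈ Icc g B, 0 ≤ Φ u ∧ Φ u ≤ M) (hΦM : ∀ u ∈ Icc g B, |deriv Φ u| ≤ M) :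
    ∃ K : ℝ, 0 ≤ K ∧ ∀ (C : Calc X μ) (φ ψ r : X → ℝ) (δ : ℝ), C.Sm φ → C.Sm ψ →
      (∀ x, φ x ∈ Icc g B) → (∀ x, ψ x ∈ Icc g B) → Continuous r →
      (∀ x, C.L ψ x ^ 2 ≤ A * (1 + r x ^ 2)) → ∫ x, r x ^ 2 ∂μ ≤ δ →
      ∫ x, wF C l Φ φ x * (1 + C.G φ φ x + C.Rb φ x) ∂μ ≤ δ →
      ∫ x, wF C l Φ ψ x * (1 + C.G ψ ψ x + C.Rb ψ x) ∂μ ≤ δ →
      ∫ x, wM C l Φ φ ψ x * C.Rb ψ x ∂μ ≤ K * δ := by
  obtain ⟨T, hT0, hT⟩ := exists_deriv_cut
  obtain ⟨K1, hK1, hKb⟩ := om_bound hl (M := M) (by linarith)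
  set κ : ℝ := 1 / (40 * (2 + M)) with hκ
  have hκ0 : 0 < κ := by positivity
  set a1 : ℝ := om l 1 with ha1
  have ha10 : 0 < a1 := om_pos hl one_pos
  set K2 : ℝ := 9 / (4 * κ) * (K1 ^ 2 * (8 + 2 * M ^ 2)) with hK2
  set K3 : ℝ := T * (2 + M) * (9 + 2 * M ^ 2) / a1 with hK3
  refine ⟨2 * (2 * A + K2 + K3), by positivity, ?_⟩
  intro C φ ψ r δ hφ hψ hφx hψx hrc hL hr h1 h2
  have hα0 : ∀ x, 0 ≤ wF C l Φ φ x := fun x => om_nonneg _ _
  have hα1 : ∀ x, wF C l Φ φ x ≤ 1 := fun x => om_le_one hl _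
  have hβ0 : ∀ x, 0 ≤ wF C l Φ ψ x := fun x => om_nonneg _ _
  have hsα := sm_wF (C := C) l hΦ hφ
  have hsq := sm_qF (C := C) hΦ hψ
  have hsχ : C.Sm (fun x => cut (qF C Φ ψ x)) := sm_comp' contDiff_cut hsq
  have hsW : C.Sm (wM C l Φ φ ψ) := sm_mul (sm_pow hsα 3) hsχ
  -- the gradient of the weight
  have hDW : ∀ x, C.D (wM C l Φ φ ψ) x =
      (3 * wF C l Φ φ x ^ 2 * cut (qF C Φ ψ x) * om1 l (qF C Φ φ x)) • C.D (qF C Φ φ) x +
      (wF C l Φ φ x ^ 3 * deriv cut (qF C Φ ψ x)) • C.D (qF C Φ ψ) x := by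
    intro x
    have e1 := D_mul (C := C) (sm_pow hsα 3) hsχ x
    have e2 := D_pow (C := C) hsα 3 x
    have e3 : C.D (wF C l Φ φ) x = om1 l (qF C Φ φ x) • C.D (qF C Φ φ) x := by
      have := D_comp' (C := C) (contDiff_om l) (sm_qF (C := C) hΦ hφ) x
      rw [deriv_om hl] at this
      exact this
    have e4 := D_comp' (C := C) contDiff_cut hsq x
    have e5 : C.D (wM C l Φ φ ψ) x =
      C.D (fun y => wF C l Φ φ y ^ 3 * (fun x => cut (qF C Φ ψ x)) y) x := rfl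
    have e6 : ((3:ℕ) : ℝ) * wF C l Φ φ x ^ (3 - 1) = 3 * wF C l Φ φ x ^ 2 := by norm_num
    rw [e6] at e2
    rw [e5, e1, e2, e3, e4, smul_smul, smul_smul, smul_smul]
    congr 2
    ring
  have h3 := weighted_bochner (C := C) hsW hψ
  -- pointwise estimate of the bracket
  have key : ∀ x, wM C l Φ φ ψ x * C.Rb ψ x - (C.L ψ x * C.G (wM C l Φ φ ψ) ψ x +
      wM C l Φ φ ψ x * (C.L ψ x ^ 2 - C.Rb ψ x - C.G ψ ψ x) -
      (1 / 2) * C.G (wM C l Φ φ ψ) (C.G ψ ψ) x) ≥ 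
      2 * (wM C l Φ φ ψ x * C.Rb ψ x) - (A * wF C l Φ φ x + A * r x ^ 2) -
      (1 / 4 * (wM C l Φ φ ψ x * C.Rb ψ x) + K2 * (wF C l Φ φ x * (1 + C.G φ φ x + C.Rb φ x))) -
      K3 * (wF C l Φ ψ x * (1 + C.G ψ ψ x + C.Rb ψ x)) := by
    intro x
    have hP := G_self_nonneg (C := C) φ x
    have hQ := G_self_nonneg (C := C) ψ x
    have hRφ := Rb_nonneg (C := C) hφ x
    have hRψ := Rb_nonneg (C := C) hψ x
    have hc0 := cut_nonneg (qF C Φ ψ x)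
    have hc1 := cut_le_one (qF C Φ ψ x)
    have hWn : 0 ≤ wM C l Φ φ ψ x := mul_nonneg (pow_nonneg (hα0 x) 3) hc0
    have hα3 : wF C l Φ φ x ^ 3 ≤ wF C l Φ φ x := by
      have := hα0 x; have := hα1 x
      calc wF C l Φ φ x ^ 3 = wF C l Φ φ x * wF C l Φ φ x ^ 2 := by ring
        _ ≤ wF C l Φ φ x * 1 := by
          refine mul_le_mul_of_nonneg_left ?_ (hα0 x)
          exact pow_le_one₀ (hα0 x) (hα1 x)
        _ = _ := mul_one _
    have hWα : wM C l Φ φ ψ x ≤ wF C l Φ φ x := by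
      calc wM C l Φ φ ψ x ≤ wF C l Φ φ x ^ 3 * 1 :=
            mul_le_mul_of_nonneg_left hc1 (pow_nonneg (hα0 x) 3)
        _ ≤ wF C l Φ φ x := by rw [mul_one]; exact hα3
    -- (i) the term with `(L ψ)²`
    have t1 : wM C l Φ φ ψ x * C.L ψ x ^ 2 ≤ A * wF C l Φ φ x + A * r x ^ 2 := by
      have u1 : wM C l Φ φ ψ x * C.L ψ x ^ 2 ≤ wM C l Φ φ ψ x * (A * (1 + r x ^ 2)) :=
        mul_le_mul_of_nonneg_left (hL x) hWn
      have u2 : wM C l Φ φ ψ x * A ≤ wF C l Φ φ x * A := mul_le_mul_of_nonneg_right hWα hA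
      have u3 : wM C l Φ φ ψ x * (A * r x ^ 2) ≤ 1 * (A * r x ^ 2) :=
        mul_le_mul_of_nonneg_right (hWα.trans (hα1 x)) (by positivity)
      linarith
    -- (ii) the gradient term
    have e1 := dW_jv (C := C) (W := wM C l Φ φ ψ) hψ x
    have t2 : C.D (wM C l Φ φ ψ) x ⬝ᵥ jv C ψ x ≤
        1 / 4 * (wM C l Φ φ ψ x * C.Rb ψ x) + K2 * (wF C l Φ φ x * (1 + C.G φ φ x + C.Rb φ x)) +
        K3 * (wF C l Φ ψ x * (1 + C.G ψ ψ x + C.Rb ψ x)) := by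
      rw [hDW x, add_dotProduct, smul_dotProduct, smul_dotProduct, smul_eq_mul, smul_eq_mul]
      have hj := jv_sq (C := C) hψ x
      have hjn := dot_nonneg (jv C ψ x)
      have hoc := om1_nonneg hl (qF C Φ φ x)
      -- first part
      have v1 : 3 * wF C l Φ φ x ^ 2 * cut (qF C Φ ψ x) * om1 l (qF C Φ φ x) *
          (C.D (qF C Φ φ) x ⬝ᵥ jv C ψ x) ≤
          1 / 4 * (wM C l Φ φ ψ x * C.Rb ψ x) + K2 * (wF C l Φ φ x * (1 + C.G φ φ x + C.Rb φ x)) := by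
        have hK2n : 0 ≤ K2 * (wF C l Φ φ x * (1 + C.G φ φ x + C.Rb φ x)) := by
          have := hα0 x
          positivity
        rcases le_or_gt 2 (qF C Φ ψ x) with hq | hq
        · rw [cut_zero hq]
          have : 0 ≤ 1 / 4 * (wM C l Φ φ ψ x * C.Rb ψ x) := by positivity
          linarith
        · have hQM : C.G ψ ψ x ≤ 2 + M := by
            have := (hΦ0 _ (hψx x)).2
            unfold qF at hq
            linarith
          have w1 := amgm_aux (c1 := om1 l (qF C Φ φ x)) (x := √(C.D (qF C Φ φ) x ⬝ᵥ C.D (qF C Φ φ) x))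
            (y := √(jv C ψ x ⬝ᵥ jv C ψ x)) (hα0 x) hκ0
          rw [Real.sq_sqrt hjn, mul_pow, Real.sq_sqrt (dot_nonneg _)] at w1
          have w2 : C.D (qF C Φ φ) x ⬝ᵥ jv C ψ x ≤ √(C.D (qF C Φ φ) x ⬝ᵥ C.D (qF C Φ φ) x) *
              √(jv C ψ x ⬝ᵥ jv C ψ x) := (le_abs_self _).trans (dot_abs_le _ _)
          have w3 : κ * (wF C l Φ φ x ^ 3 * (jv C ψ x ⬝ᵥ jv C ψ x)) ≤
              1 / 4 * (wF C l Φ φ x ^ 3 * C.Rb ψ x) := by
            have z1 : jv C ψ x ⬝ᵥ jv C ψ x ≤ 10 * (2 + M) * C.Rb ψ x := by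
              refine hj.trans ?_
              refine mul_le_mul_of_nonneg_right ?_ hRψ
              linarith
            have z2 : wF C l Φ φ x ^ 3 * (jv C ψ x ⬝ᵥ jv C ψ x) ≤
                wF C l Φ φ x ^ 3 * (10 * (2 + M) * C.Rb ψ x) :=
              mul_le_mul_of_nonneg_left z1 (pow_nonneg (hα0 x) 3)
            have z3 := mul_le_mul_of_nonneg_left z2 hκ0.le
            have z4 : κ * (wF C l Φ φ x ^ 3 * (10 * (2 + M) * C.Rb ψ x)) =
                1 / 4 * (wF C l Φ φ x ^ 3 * C.Rb ψ x) := by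
              rw [hκ]; field_simp; ring
            linarith
          have w4 : 9 / (4 * κ) * (wF C l Φ φ x * (om1 l (qF C Φ φ x) ^ 2 *
              (C.D (qF C Φ φ) x ⬝ᵥ C.D (qF C Φ φ) x))) ≤
              K2 * (wF C l Φ φ x * (1 + C.G φ φ x + C.Rb φ x)) := by
            have z1 := D_qF_sq (C := C) hΦ hφ (hΦM _ (hφx x))
            have z2 : om1 l (qF C Φ φ x) ^ 2 * (C.D (qF C Φ φ) x ⬝ᵥ C.D (qF C Φ φ) x) ≤
                K1 ^ 2 * (8 + 2 * M ^ 2) * (1 + C.G φ φ x + C.Rb φ x) := by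
              rcases le_or_gt (qF C Φ φ x) 0 with hq0 | hq0
              · rw [om1_zero hl hq0]
                have : 0 ≤ K1 ^ 2 * (8 + 2 * M ^ 2) * (1 + C.G φ φ x + C.Rb φ x) := by positivity
                linarith
              · have hΦx := hΦ0 _ (hφx x)
                have y1 := (hKb (qF C Φ φ x) (C.G φ φ x) hP (by rw [qF]; linarith [hΦx.2])).1
                have y2 := (hKb (qF C Φ φ x) 1 zero_le_one (by linarith)).1
                have y0 := om_nonneg l (qF C Φ φ x)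
                have y3 : om1 l (qF C Φ φ x) * C.G φ φ x ≤ K1 := by linarith
                have y4 : om1 l (qF C Φ φ x) ≤ K1 := by linarith
                have y5 : om1 l (qF C Φ φ x) ^ 2 * (C.D (qF C Φ φ) x ⬝ᵥ C.D (qF C Φ φ) x) ≤
                    om1 l (qF C Φ φ x) ^ 2 * ((8 * C.Rb φ x + 2 * M ^ 2) * C.G φ φ x) :=
                  mul_le_mul_of_nonneg_left z1 (sq_nonneg _)
                have y6 : om1 l (qF C Φ φ x) ^ 2 * ((8 * C.Rb φ x + 2 * M ^ 2) * C.G φ φ x) =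
                    (om1 l (qF C Φ φ x) * (om1 l (qF C Φ φ x) * C.G φ φ x)) *
                      (8 * C.Rb φ x + 2 * M ^ 2) := by ring
                have y7 : om1 l (qF C Φ φ x) * (om1 l (qF C Φ φ x) * C.G φ φ x) ≤ K1 * K1 :=
                  mul_le_mul y4 y3 (by positivity) (by linarith)
                have y8 : 8 * C.Rb φ x + 2 * M ^ 2 ≤ (8 + 2 * M ^ 2) * (1 + C.G φ φ x + C.Rb φ x) := by
                  have : 0 ≤ (8 + 2 * M ^ 2) * C.G φ φ x := by positivity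
                  have : 0 ≤ 2 * M ^ 2 * C.Rb φ x := by positivity
                  linarith
                calc _ ≤ _ := y5
                  _ = _ := y6
                  _ ≤ (K1 * K1) * ((8 + 2 * M ^ 2) * (1 + C.G φ φ x + C.Rb φ x)) :=
                    mul_le_mul y7 y8 (by positivity) (by positivity)
                  _ = _ := by ring
            have z3 : wF C l Φ φ x * (om1 l (qF C Φ φ x) ^ 2 *
              (C.D (qF C Φ φ) x ⬝ᵥ C.D (qF C Φ φ) x)) ≤ wF C l Φ φ x *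
                (K1 ^ 2 * (8 + 2 * M ^ 2) * (1 + C.G φ φ x + C.Rb φ x)) :=
              mul_le_mul_of_nonneg_left z2 (hα0 x)
            have z4 := mul_le_mul_of_nonneg_left z3 (by positivity : (0:ℝ) ≤ 9 / (4 * κ))
            refine z4.trans (le_of_eq ?_)
            rw [hK2]; ring
          have w5 : 3 * wF C l Φ φ x ^ 2 * om1 l (qF C Φ φ x) * (C.D (qF C Φ φ) x ⬝ᵥ jv C ψ x) ≤
              1 / 4 * (wF C l Φ φ x ^ 3 * C.Rb ψ x) +
                K2 * (wF C l Φ φ x * (1 + C.G φ φ x + C.Rb φ x)) := by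
            have z1 : 3 * wF C l Φ φ x ^ 2 * om1 l (qF C Φ φ x) * (C.D (qF C Φ φ) x ⬝ᵥ jv C ψ x) ≤
                3 * wF C l Φ φ x ^ 2 * om1 l (qF C Φ φ x) *
                (√(C.D (qF C Φ φ) x ⬝ᵥ C.D (qF C Φ φ) x) * √(jv C ψ x ⬝ᵥ jv C ψ x)) :=
              mul_le_mul_of_nonneg_left w2 (by positivity)
            have z2 : 3 * wF C l Φ φ x ^ 2 * om1 l (qF C Φ φ x) *
                (√(C.D (qF C Φ φ) x ⬝ᵥ C.D (qF C Φ φ) x) * √(jv C ψ x ⬝ᵥ jv C ψ x)) =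
                3 * (wF C l Φ φ x ^ 2 * om1 l (qF C Φ φ x)) *
                (√(C.D (qF C Φ φ) x ⬝ᵥ C.D (qF C Φ φ) x) * √(jv C ψ x ⬝ᵥ jv C ψ x)) := by ring
            linarith
          have w6 := mul_le_mul_of_nonneg_left w5 hc0
          have w7 : cut (qF C Φ ψ x) * (K2 * (wF C l Φ φ x * (1 + C.G φ φ x + C.Rb φ x))) ≤
              1 * (K2 * (wF C l Φ φ x * (1 + C.G φ φ x + C.Rb φ x))) :=
            mul_le_mul_of_nonneg_right hc1 hK2n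
          have w8 : 1 / 4 * (wM C l Φ φ ψ x * C.Rb ψ x) =
              cut (qF C Φ ψ x) * (1 / 4 * (wF C l Φ φ x ^ 3 * C.Rb ψ x)) := by
            rw [wM]; ring
          rw [w8]
          linarith
      -- second part
      have v2 : wF C l Φ φ x ^ 3 * deriv cut (qF C Φ ψ x) * (C.D (qF C Φ ψ) x ⬝ᵥ jv C ψ x) ≤
          K3 * (wF C l Φ ψ x * (1 + C.G ψ ψ x + C.Rb ψ x)) := by
        have hK3n : 0 ≤ K3 * (wF C l Φ ψ x * (1 + C.G ψ ψ x + C.Rb ψ x)) := by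
          have := hβ0 x
          positivity
        by_cases hq : qF C Φ ψ x < 1 ∨ 2 < qF C Φ ψ x
        · rw [deriv_cut_zero hq]
          linarith
        · rw [not_or, not_lt, not_lt] at hq
          have hQM : C.G ψ ψ x ≤ 2 + M := by
            have := (hΦ0 _ (hψx x)).2
            have := hq.2
            unfold qF at this
            linarith
          have z1 := D_qF_sq (C := C) hΦ hψ (hΦM _ (hψx x))
          have z2 : |C.D (qF C Φ ψ) x ⬝ᵥ jv C ψ x| ≤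
              1 / 2 * (C.D (qF C Φ ψ) x ⬝ᵥ C.D (qF C Φ ψ) x + jv C ψ x ⬝ᵥ jv C ψ x) := by
            have y1 := dot_nonneg (C.D (qF C Φ ψ) x + jv C ψ x)
            have y2 := dot_nonneg (C.D (qF C Φ ψ) x - jv C ψ x)
            simp only [add_dotProduct, dotProduct_add, sub_dotProduct, dotProduct_sub] at y1 y2
            rw [dotProduct_comm (jv C ψ x) (C.D (qF C Φ ψ) x)] at y1 y2
            rw [abs_le]; constructor <;> linarith
          have z3 : |C.D (qF C Φ ψ) x ⬝ᵥ jv C ψ x| ≤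
              (2 + M) * (9 + 2 * M ^ 2) * (1 + C.G ψ ψ x + C.Rb ψ x) := by
            have y1 : (8 * C.Rb ψ x + 2 * M ^ 2) * C.G ψ ψ x ≤ (8 * C.Rb ψ x + 2 * M ^ 2) * (2 + M) :=
              mul_le_mul_of_nonneg_left hQM (by positivity)
            have y2 : 10 * C.G ψ ψ x * C.Rb ψ x ≤ 10 * (2 + M) * C.Rb ψ x :=
              mul_le_mul_of_nonneg_right (by linarith) hRψ
            have y3 : 0 ≤ (2 + M) * (9 + 2 * M ^ 2) * C.G ψ ψ x := by positivity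
            have y4 : 0 ≤ (2 + M) * M ^ 2 * C.Rb ψ x := by positivity
            have y5 : 0 ≤ (2 + M) * M ^ 2 := by positivity
            have y6 : (0:ℝ) ≤ 2 + M := by positivity
            nlinarith
          have z4 : a1 ≤ wF C l Φ ψ x := om_mono hl hq.1
          have z5 : |wF C l Φ φ x ^ 3 * deriv cut (qF C Φ ψ x)| ≤ T := by
            rw [abs_mul, abs_of_nonneg (pow_nonneg (hα0 x) 3)]
            calc wF C l Φ φ x ^ 3 * |deriv cut (qF C Φ ψ x)| ≤ 1 * T :=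
                  mul_le_mul (pow_le_one₀ (hα0 x) (hα1 x)) (hT _) (abs_nonneg _) zero_le_one
              _ = T := one_mul _
          have z6 : wF C l Φ φ x ^ 3 * deriv cut (qF C Φ ψ x) * (C.D (qF C Φ ψ) x ⬝ᵥ jv C ψ x) ≤
              T * ((2 + M) * (9 + 2 * M ^ 2) * (1 + C.G ψ ψ x + C.Rb ψ x)) := by
            refine (le_abs_self _).trans ?_
            rw [abs_mul]
            exact mul_le_mul z5 z3 (abs_nonneg _) hT0
          have z7 : T * ((2 + M) * (9 + 2 * M ^ 2) * (1 + C.G ψ ψ x + C.Rb ψ x)) =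
              K3 * (a1 * (1 + C.G ψ ψ x + C.Rb ψ x)) := by
            rw [hK3]; field_simp
          have z8 : K3 * (a1 * (1 + C.G ψ ψ x + C.Rb ψ x)) ≤
              K3 * (wF C l Φ ψ x * (1 + C.G ψ ψ x + C.Rb ψ x)) :=
            mul_le_mul_of_nonneg_left (mul_le_mul_of_nonneg_right z4 (by positivity)) (by positivity)
          linarith
      linarith
    have t3 : 0 ≤ wM C l Φ φ ψ x * C.G ψ ψ x := mul_nonneg hWn hQ
    have e2 : C.L ψ x * C.G (wM C l Φ φ ψ) ψ x +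
      wM C l Φ φ ψ x * (C.L ψ x ^ 2 - C.Rb ψ x - C.G ψ ψ x) -
      (1 / 2) * C.G (wM C l Φ φ ψ) (C.G ψ ψ) x =
      C.D (wM C l Φ φ ψ) x ⬝ᵥ jv C ψ x + wM C l Φ φ ψ x * C.L ψ x ^ 2 -
        wM C l Φ φ ψ x * C.Rb ψ x - wM C l Φ φ ψ x * C.G ψ ψ x := by
      rw [← e1]; ring
    rw [e2, ge_iff_le]
    linarith
  -- integrate
  have cα := C.sm_cont hsα
  have cβ := C.sm_cont (sm_wF (C := C) l hΦ hψ)
  have cW := C.sm_cont hsW
  have cRφ := C.sm_cont (sm_Rb (C := C) hφ)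
  have cRψ := C.sm_cont (sm_Rb (C := C) hψ)
  have cP := C.sm_cont (C.sm_G hφ hφ)
  have cQ := C.sm_cont (C.sm_G hψ hψ)
  have i1 : Integrable (fun x => wM C l Φ φ ψ x * C.Rb ψ x) μ := integrable_cont (cW.mul cRψ)
  have i2 : Integrable (wF C l Φ φ) μ := integrable_cont cα
  have i3 : Integrable (fun x => r x ^ 2) μ := integrable_cont (hrc.pow 2)
  have i4 : Integrable (fun x => wF C l Φ φ x * (1 + C.G φ φ x + C.Rb φ x)) μ :=
    integrable_cont (cα.mul ((continuous_const.add cP).add cRφ))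
  have i5 : Integrable (fun x => wF C l Φ ψ x * (1 + C.G ψ ψ x + C.Rb ψ x)) μ :=
    integrable_cont (cβ.mul ((continuous_const.add cQ).add cRψ))
  have i6 : Integrable (fun x => C.L ψ x * C.G (wM C l Φ φ ψ) ψ x +
      wM C l Φ φ ψ x * (C.L ψ x ^ 2 - C.Rb ψ x - C.G ψ ψ x) -
      (1 / 2) * C.G (wM C l Φ φ ψ) (C.G ψ ψ) x) μ :=
    integrable_sm (C := C) (sm_sub (sm_add (sm_mul (C.sm_L hψ) (C.sm_G hsW hψ))
      (sm_mul hsW (sm_sub (sm_sub (sm_pow (C.sm_L hψ) 2) (sm_Rb hψ)) (C.sm_G hψ hψ))))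
      (sm_smul _ (C.sm_G hsW (C.sm_G hψ hψ))))
  have h4 : ∫ x, wF C l Φ φ x ∂μ ≤ δ := by
    refine (integral_mono i2 i4 fun x => ?_).trans h1
    have := hα0 x
    have h5 := G_self_nonneg (C := C) φ x
    have h6 := Rb_nonneg (C := C) hφ x
    nlinarith [mul_nonneg this h5, mul_nonneg this h6]
  have h5 : ∫ x, (2 * (wM C l Φ φ ψ x * C.Rb ψ x) - (A * wF C l Φ φ x + A * r x ^ 2) -
      (1 / 4 * (wM C l Φ φ ψ x * C.Rb ψ x) + K2 * (wF C l Φ φ x * (1 + C.G φ φ x + C.Rb φ x))) -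
      K3 * (wF C l Φ ψ x * (1 + C.G ψ ψ x + C.Rb ψ x))) ∂μ ≤
      ∫ x, (wM C l Φ φ ψ x * C.Rb ψ x - (C.L ψ x * C.G (wM C l Φ φ ψ) ψ x +
      wM C l Φ φ ψ x * (C.L ψ x ^ 2 - C.Rb ψ x - C.G ψ ψ x) -
      (1 / 2) * C.G (wM C l Φ φ ψ) (C.G ψ ψ) x)) ∂μ := by
    refine integral_mono ?_ (i1.sub i6) fun x => key x
    exact (((i1.const_mul 2).sub ((i2.const_mul A).add (i3.const_mul A))).sub
      ((i1.const_mul _).add (i4.const_mul _))).sub (i5.const_mul _)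
  have j1 : Integrable (fun x => A * wF C l Φ φ x + A * r x ^ 2) μ :=
    (i2.const_mul A).add (i3.const_mul A)
  have j2 : Integrable (fun x => 1 / 4 * (wM C l Φ φ ψ x * C.Rb ψ x) +
      K2 * (wF C l Φ φ x * (1 + C.G φ φ x + C.Rb φ x))) μ := (i1.const_mul _).add (i4.const_mul _)
  have j3 : Integrable (fun x => 2 * (wM C l Φ φ ψ x * C.Rb ψ x) -
      (A * wF C l Φ φ x + A * r x ^ 2)) μ := (i1.const_mul 2).sub j1
  have j4 : Integrable (fun x => 2 * (wM C l Φ φ ψ x * C.Rb ψ x) -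
      (A * wF C l Φ φ x + A * r x ^ 2) - (1 / 4 * (wM C l Φ φ ψ x * C.Rb ψ x) +
      K2 * (wF C l Φ φ x * (1 + C.G φ φ x + C.Rb φ x)))) μ := j3.sub j2
  rw [integral_sub i1 i6, h3, sub_zero, integral_sub j4 (i5.const_mul K3),
    integral_sub j3 j2, integral_sub (i1.const_mul 2) j1,
    integral_add (i2.const_mul A) (i3.const_mul A), integral_add (i1.const_mul _) (i4.const_mul _),
    integral_const_mul, integral_const_mul, integral_const_mul, integral_const_mul,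
    integral_const_mul, integral_const_mul] at h5
  have k1 : A * ∫ x, wF C l Φ φ x ∂μ ≤ A * δ := mul_le_mul_of_nonneg_left h4 hA
  have k2 : A * ∫ x, r x ^ 2 ∂μ ≤ A * δ := mul_le_mul_of_nonneg_left hr hA
  have k3 : K2 * ∫ x, wF C l Φ φ x * (1 + C.G φ φ x + C.Rb φ x) ∂μ ≤ K2 * δ :=
    mul_le_mul_of_nonneg_left h1 (by positivity)
  have k4 : K3 * ∫ x, wF C l Φ ψ x * (1 + C.G ψ ψ x + C.Rb ψ x) ∂μ ≤ K3 * δ :=
    mul_le_mul_of_nonneg_left h2 (by positivity)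
  have k5 : 0 ≤ ∫ x, wM C l Φ φ ψ x * C.Rb ψ x ∂μ := integral_nonneg fun x =>
    mul_nonneg (mul_nonneg (pow_nonneg (hα0 x) 3) (cut_nonneg _)) (Rb_nonneg (C := C) hψ x)
  linarith

end Crest.Agent.R249.GB330
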