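import Crest.Agent.R249.GBf_330

/-!
# R249 (helper330), GB part g: the final form of the gradient bound

* `bar_newton` : `Φ = 2 H + C₁`, `H' = f`, is a gradient barrier if `Φ > 0` on `[g, B]`;
* `gb_final` : for every `s > 0` the penalised pairs satisfy
  `∫_{q_φ > s or q_ψ > s} (1 + |dφ|² + |dψ|² + Rb φ + Rb ψ) ≤ K (δ + e)`.
-/

set_option autoImplicit false
set_option linter.unusedVariables false
set_option linter.unusedSectionVars false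

open MeasureTheory Set Filter Topology Matrix
open scoped ContDiff

noncomputable section

namespace Crest.Agent.R249.GB330

open Crest.Agent.R249.Calc_806 Crest.Agent.R249.Calc_806.Calc DivC467 PenH_806
  ObC_780 ObE_780 ObB_780

/-- **Newton barrier.** -/
theorem bar_newton {f : ℝ → ℝ} {g B : ℝ} {Φ : ℝ → ℝ} {c1 M : ℝ} (hΦ : ContDiff ℝ ∞ Φ)
    (hd : ∀ u, HasDerivAt Φ (2 * f u) u) (hc1 : 0 < c1) (hc2 : c1 ≤ 1)
    (hpos : ∀ u ∈ Icc g B, c1 ≤ Φ u) (hM : 0 ≤ M) (hfM : ∀ u ∈ Icc g B, |f u| ≤ M) :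
    Bar f g B Φ (c1 / (8 * (1 + M ^ 2))) (2 * M ^ 2 / c1 + 1) (2 * (M ^ 2 + 1)) := by
  have hd1 : deriv Φ = fun u => 2 * f u := funext fun u => (hd u).deriv
  have hd2 : ∀ u, deriv (deriv Φ) u / 2 = deriv f u := by
    intro u
    have hf : DifferentiableAt ℝ f u := by
      have h1 : ContDiff ℝ ∞ (deriv Φ) := by
        have : ContDiff ℝ (∞ + 1) Φ := hΦ
        exact (contDiff_succ_iff_deriv.1 this).2.2
      have h2 : f = fun u => (1 / 2) * deriv Φ u := by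
        funext v; rw [hd1]; ring
      rw [h2]
      exact (h1.differentiable (by simp) u).const_mul _
    rw [hd1, deriv_const_mul _ hf]
    ring
  set c : ℝ := c1 / (8 * (1 + M ^ 2)) with hc
  have hcM : c * (1 + M ^ 2) = c1 / 8 := by rw [hc]; field_simp
  have hc0 : 0 < c := by positivity
  have hc8 : c ≤ 1 / 8 := by nlinarith [sq_nonneg M, mul_nonneg hc0.le (sq_nonneg M)]
  refine ⟨hΦ, hc0, by linarith, by positivity, by positivity, fun u hu => hc1.le.trans (hpos u hu),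
    ?_, ?_⟩
  · intro u hu w z hw hw2
    have hw1 : c1 ≤ w := (hpos u hu).trans hw
    have hF : f u ^ 2 ≤ M ^ 2 := by
      rw [← sq_abs]; exact pow_le_pow_left₀ (abs_nonneg _) (hfM u hu) 2
    have hN : 2 * M ^ 2 / c1 * c1 = 2 * M ^ 2 := by field_simp
    rw [hd2, hd1]
    have e1 : z ^ 2 + (f u - z) ^ 2 / 3 + (1 + deriv f u - deriv f u) * w - 2 * f u / 2 * f u +
        (2 * M ^ 2 / c1 + 1) * (z - 2 * f u / 2) ^ 2 - c * (1 + w + z ^ 2) =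
        (4 / 3 + 1 - 2 * c) * (z - f u) ^ 2 + (2 * M ^ 2 / c1) * (z - f u) ^ 2 +
        2 * f u * (z - f u) + (1 - c) * w - c - 2 * c * f u ^ 2 + c * (z - 2 * f u) ^ 2 := by ring
    have e2 : 0 ≤ (2 * M ^ 2 / c1) * (z - f u) ^ 2 + 2 * f u * (z - f u) + c1 / 2 := by
      have h1 : (2 * f u * (z - f u)) ^ 2 ≤ 4 * (M ^ 2 * (z - f u) ^ 2) := by
        have : f u ^ 2 * (z - f u) ^ 2 ≤ M ^ 2 * (z - f u) ^ 2 :=
          mul_le_mul_of_nonneg_right hF (sq_nonneg _)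
        have h2 : (2 * f u * (z - f u)) ^ 2 = 4 * (f u ^ 2 * (z - f u) ^ 2) := by ring
        linarith
      set a : ℝ := 2 * M ^ 2 / c1 * (z - f u) ^ 2 with ha
      have ha0 : 0 ≤ a := by positivity
      have h3 : 4 * (M ^ 2 * (z - f u) ^ 2) = 4 * (a * (c1 / 2)) := by
        rw [ha]; field_simp
      rw [h3] at h1
      by_contra hcon
      have h4 : a + c1 / 2 < -(2 * f u * (z - f u)) := by linarith
      have h5 : (a + c1 / 2) ^ 2 < (2 * f u * (z - f u)) ^ 2 := by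
        rw [← neg_sq (2 * f u * (z - f u))]
        exact pow_lt_pow_left₀ h4 (by positivity) (by norm_num)
      nlinarith [sq_nonneg (a - c1 / 2)]
    have e3 : (1 - c) * c1 ≤ (1 - c) * w := mul_le_mul_of_nonneg_left hw1 (by linarith)
    have e4 : c * f u ^ 2 ≤ c * M ^ 2 := mul_le_mul_of_nonneg_left hF hc0.le
    have e5 : 0 ≤ (4 / 3 + 1 - 2 * c) * (z - f u) ^ 2 := mul_nonneg (by linarith) (sq_nonneg _)
    have e6 : 0 ≤ c * (z - 2 * f u) ^ 2 := by positivity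
    have e7 : c * c1 ≤ 1 / 8 * c1 := mul_le_mul_of_nonneg_right hc8 hc1.le
    have e8 : c * M ^ 2 + c = c1 / 8 := by rw [← hcM]; ring
    have e9 : 0 ≤ c * M ^ 2 := by positivity
    linarith
  · intro u hu w z hw
    have hw1 : 2 * (M ^ 2 + 1) ≤ w := by have := hpos u hu; linarith
    have hF : f u ^ 2 ≤ M ^ 2 := by
      rw [← sq_abs]; exact pow_le_pow_left₀ (abs_nonneg _) (hfM u hu) 2
    rw [hd2, hd1]
    have e1 : z ^ 2 + (f u - z) ^ 2 / 3 + (1 + deriv f u - deriv f u) * w - 2 * f u / 2 * f u -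
        c * (1 + w + z ^ 2) =
        (z - f u + f u) ^ 2 + (1 / 3 - 2 * c) * (z - f u) ^ 2 - 2 * f u ^ 2
         + (1 - c) * w - c - 2 * c * f u ^ 2 + c * (z - 2 * f u) ^ 2 + f u ^ 2 := by ring
    have e3 : (1 - c) * (2 * (M ^ 2 + 1)) ≤ (1 - c) * w := mul_le_mul_of_nonneg_left hw1 (by linarith)
    have e4 : c * f u ^ 2 ≤ c * M ^ 2 := mul_le_mul_of_nonneg_left hF hc0.le
    have e5 : 0 ≤ (1 / 3 - 2 * c) * (z - f u) ^ 2 := mul_nonneg (by linarith) (sq_nonneg _)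
    have e6 : 0 ≤ c * (z - 2 * f u) ^ 2 := by positivity
    have e7 : 0 ≤ (z - f u + f u) ^ 2 := sq_nonneg _
    have e10 := sq_nonneg M
    have e8 : c * M ^ 2 + c = c1 / 8 := by rw [← hcM]; ring
    have e9 : 0 ≤ c * M ^ 2 := by positivity
    linarith

variable {X : Type*} [TopologicalSpace X] [CompactSpace X] [MeasurableSpace X]
  [OpensMeasurableSpace X] {μ : Measure X} [IsFiniteMeasure μ]
variable {f : ℝ → ℝ} {g B : ℝ} {Φ : ℝ → ℝ} {c N Λ : ℝ} {O : Ob g B}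

/-- the bad set. -/
def bad (C : Calc X μ) (Φ : ℝ → ℝ) (s : ℝ) (φ ψ : X → ℝ) : Set X :=
  {x | s < qF C Φ φ x ∨ s < qF C Φ ψ x}

/-- the pointwise bound on the bad set. -/
lemma bad_le {C : Calc X μ} {l s M : ℝ} (hl : 0 < l) (hs : 0 < s) (hs1 : s ≤ 1) (hM : 0 ≤ M)
    {φ ψ : X → ℝ} (hφ : C.Sm φ) (hψ : C.Sm ψ) {x : X} (hΦφ : Φ (φ x) ≤ M) (hΦψ : Φ (ψ x) ≤ M)
    (hx : s < qF C Φ φ x) :
    1 + C.G φ φ x + C.G ψ ψ x + C.Rb φ x + C.Rb ψ x ≤
      (3 + M) / om l s ^ 3 * (wF C l Φ φ x * (1 + C.G φ φ x + C.Rb φ x) +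
        wF C l Φ ψ x * (1 + C.G ψ ψ x + C.Rb ψ x) + wM C l Φ φ ψ x * C.Rb ψ x +
        wM C l Φ ψ φ x * C.Rb φ x) := by
  set a := om l s with ha
  have ha0 : 0 < a := om_pos hl hs
  have ha1 : a ≤ 1 := om_le_one hl s
  have hP := G_self_nonneg (C := C) φ x
  have hQ := G_self_nonneg (C := C) ψ x
  have hRφ := Rb_nonneg (C := C) hφ x
  have hRψ := Rb_nonneg (C := C) hψ x
  have hα : a ≤ wF C l Φ φ x := om_mono hl hx.le
  have hβ0 : 0 ≤ wF C l Φ ψ x := om_nonneg _ _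
  have ha3 : 0 < a ^ 3 := by positivity
  have ha31 : a ^ 3 ≤ a := by
    calc a ^ 3 = a * a ^ 2 := by ring
      _ ≤ a * 1 := mul_le_mul_of_nonneg_left (pow_le_one₀ ha0.le ha1) ha0.le
      _ = a := mul_one a
  have hWφ : 0 ≤ wM C l Φ ψ φ x * C.Rb φ x :=
    mul_nonneg (mul_nonneg (pow_nonneg hβ0 3) (cut_nonneg _)) hRφ
  have hWψ : 0 ≤ wM C l Φ φ ψ x * C.Rb ψ x :=
    mul_nonneg (mul_nonneg (pow_nonneg (ha0.le.trans hα) 3) (cut_nonneg _)) hRψ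
  rw [div_mul_eq_mul_div, le_div_iff₀ ha3]
  have t1 : (1 + C.G φ φ x + C.Rb φ x) * a ^ 3 ≤ wF C l Φ φ x * (1 + C.G φ φ x + C.Rb φ x) := by
    rw [mul_comm]
    exact mul_le_mul_of_nonneg_right (ha31.trans hα) (by positivity)
  have t1' : a ^ 3 ≤ wF C l Φ φ x * (1 + C.G φ φ x + C.Rb φ x) := by
    refine le_trans ?_ t1
    nlinarith [mul_nonneg hP ha3.le, mul_nonneg hRφ ha3.le]
  have hsum : 0 ≤ wF C l Φ ψ x * (1 + C.G ψ ψ x + C.Rb ψ x) := mul_nonneg hβ0 (by positivity)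
  rcases le_or_gt (qF C Φ ψ x) 1 with hq | hq
  · have hQM : C.G ψ ψ x ≤ 1 + M := by unfold qF at hq; linarith
    have t2 : C.Rb ψ x * a ^ 3 ≤ wM C l Φ φ ψ x * C.Rb ψ x := by
      rw [mul_comm, wM, cut_one hq, mul_one]
      exact mul_le_mul_of_nonneg_right (pow_le_pow_left₀ ha0.le hα 3) hRψ
    have t3 : C.G ψ ψ x * a ^ 3 ≤ (1 + M) * (wF C l Φ φ x * (1 + C.G φ φ x + C.Rb φ x)) :=
      mul_le_mul hQM t1' ha3.le (by positivity)
    have e1 : (1 + C.G φ φ x + C.G ψ ψ x + C.Rb φ x + C.Rb ψ x) * a ^ 3 =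
        (1 + C.G φ φ x + C.Rb φ x) * a ^ 3 + C.G ψ ψ x * a ^ 3 + C.Rb ψ x * a ^ 3 := by ring
    rw [e1]
    have h0 : 0 ≤ wF C l Φ φ x * (1 + C.G φ φ x + C.Rb φ x) := ha3.le.trans t1'
    nlinarith [mul_nonneg hM h0, mul_nonneg hM hsum, mul_nonneg hM hWφ, mul_nonneg hM hWψ]
  · have hβ : a ≤ wF C l Φ ψ x := om_mono hl (hs1.trans hq.le)
    have t2 : (1 + C.G ψ ψ x + C.Rb ψ x) * a ^ 3 ≤ wF C l Φ ψ x * (1 + C.G ψ ψ x + C.Rb ψ x) := by
      rw [mul_comm]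
      exact mul_le_mul_of_nonneg_right (ha31.trans hβ) (by positivity)
    have e1 : (1 + C.G φ φ x + C.G ψ ψ x + C.Rb φ x + C.Rb ψ x) * a ^ 3 ≤
        (1 + C.G φ φ x + C.Rb φ x) * a ^ 3 + (1 + C.G ψ ψ x + C.Rb ψ x) * a ^ 3 := by
      nlinarith
    have h0 : 0 ≤ wF C l Φ φ x * (1 + C.G φ φ x + C.Rb φ x) := ha3.le.trans t1'
    nlinarith [mul_nonneg hM h0, mul_nonneg hM hsum, mul_nonneg hM hWφ, mul_nonneg hM hWψ]

/-- **THE GRADIENT BOUND.** For every `s > 0` there is `K`, depending only on the problem (not on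
the data), such that all penalised pairs satisfy
`∫_{q_φ > s or q_ψ > s} (1 + |dφ|² + |dψ|² + Rb φ + Rb ψ) ≤ K (δ + e)`. -/
theorem gb_final (b : Bar f g B Φ c N Λ) (hf : ContDiff ℝ ∞ f)
    (hconc : ∀ η, |η| ≤ B - g → deriv (deriv O.Γ) η ≤ 0) {s₀ : ℝ} (hs₀ : 0 < s₀) (hs₁ : s₀ ≤ 1)
    (con : Con O f Φ s₀ s₀) {s : ℝ} (hs : 0 < s) (hs1 : s ≤ 1) :
    ∃ K : ℝ, 0 ≤ K ∧ ∃ η₁ > 0, ∃ e₁ > 0, η₁ ≤ 1 ∧ e₁ ≤ 1 ∧ ∀ (C : Calc X μ) (η₀ t₀ Kp e ε : ℝ)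
      (φ₀ ψ₀ : X → ℝ), 0 ≤ η₀ → η₀ ≤ η₁ → 0 < e → e ≤ e₁ → ∀ D : DatG C O f η₀ t₀ φ₀ ψ₀,
      ∀ S : PenSolG C O f η₀ φ₀ ψ₀ Kp e ε, ∀ A δ er, OutG S A δ er →
      ∫ x in bad C Φ s S.φ S.ψ, (1 + C.G S.φ S.φ x + C.G S.ψ S.ψ x + C.Rb S.φ x + C.Rb S.ψ x) ∂μ ≤
        K * (δ + e) := by
  have hl := b.l_pos
  obtain ⟨K, hK0, η₁, hη₁, e₁, he₁, hη1, he1, hK⟩ :=
    gb_pair (X := X) (μ := μ) (O := O) b hf hconc hs₀ hs₁ con
  obtain ⟨M₁, hM₁⟩ := isCompact_Icc.exists_bound_of_continuousOn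
    (hf.continuous.continuousOn (s := Icc g B))
  obtain ⟨M₂, hM₂⟩ := isCompact_Icc.exists_bound_of_continuousOn
    (b.smooth.continuous.continuousOn (s := Icc g B))
  obtain ⟨M₃, hM₃⟩ := isCompact_Icc.exists_bound_of_continuousOn
    ((b.smooth.continuous_deriv (by simp)).continuousOn (s := Icc g B))
  set M : ℝ := max 1 (max M₁ (max M₂ M₃)) with hMdef
  have hM : 1 ≤ M := le_max_left _ _
  have hFM : ∀ u ∈ Icc g B, |f u| ≤ M := fun u hu =>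
    (hM₁ u hu).trans ((le_max_left _ _).trans (le_max_right _ _))
  have hΦ0 : ∀ u ∈ Icc g B, 0 ≤ Φ u ∧ Φ u ≤ M := fun u hu => ⟨b.nn u hu, (le_abs_self _).trans
    ((hM₂ u hu).trans (((le_max_left _ _).trans (le_max_right _ _)).trans (le_max_right _ _)))⟩
  have hΦM : ∀ u ∈ Icc g B, |deriv Φ u| ≤ M := fun u hu =>
    ((hM₃ u hu).trans (((le_max_right _ _).trans (le_max_right _ _)).trans (le_max_right _ _)))
  have hM0 : 0 < M := by linarith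
  set A' : ℝ := M + 1 + (2 * M + 2) / O.c + 1 / O.c + 1 with hA'
  have hOc := O.c_pos
  have hA'0 : 0 ≤ A' := by positivity
  obtain ⟨K', hK'0, hK'⟩ := gb_mixed (X := X) (μ := μ) hl b.smooth (g := g) (B := B)
    (A := 2 * A' ^ 2) hM (by positivity) hΦ0 hΦM
  set as := om (N * Λ) s with has
  have has0 : 0 < as := om_pos hl hs
  refine ⟨(3 + M) / as ^ 3 * (2 * K + 2 * (K' * (K + 4))), by positivity, η₁, hη₁, e₁, he₁, hη1,
    he1, ?_⟩
  intro C η₀ t₀ Kp e ε φ₀ ψ₀ hη hηle he hele D S A δ er out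
  obtain ⟨g1, g2⟩ := hK C η₀ t₀ Kp e ε φ₀ ψ₀ hη hηle he hele D S A δ er out
  have hδ : 0 ≤ δ := (integral_nonneg fun x => sq_nonneg (er x)).trans out.er_le
  have hη01 : η₀ ≤ 1 := hηle.trans hη1
  have he01 : e ≤ 1 := hele.trans he1
  have hEle : ∀ u ∈ Icc g B, ∀ v ∈ Icc g B, ∀ P : ℝ, 0 ≤ P → O.E f u v P ≤ 2 * M := by
    intro u hu v hv P hP
    have a1 := abs_k1 O hu hv
    have a2 := abs_k2 O hu hv
    have a3 : deriv (deriv O.Γ) (u - v) * P ≤ 0 := by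
      refine mul_nonpos_of_nonpos_of_nonneg (hconc _ ?_) hP
      obtain ⟨h1, h2⟩ := hu
      obtain ⟨h3, h4⟩ := hv
      rw [abs_le]; constructor <;> linarith
    have a4 : O.k1 u v * f u ≤ M := by
      refine (le_abs_self _).trans ?_
      rw [abs_mul]
      calc |O.k1 u v| * |f u| ≤ 1 * M := mul_le_mul a1 (hFM u hu) (abs_nonneg _) zero_le_one
        _ = M := one_mul _
    have a5 : O.k2 u v * f v ≤ M := by
      refine (le_abs_self _).trans ?_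
      rw [abs_mul]
      calc |O.k2 u v| * |f v| ≤ 1 * M := mul_le_mul a2 (hFM v hv) (abs_nonneg _) zero_le_one
        _ = M := one_mul _
    unfold Ob.E
    linarith
  -- the bounds of `L φ`, `L ψ`
  set r : X → ℝ := fun x => |S.g₁ x| + |S.g₂ x| with hr
  have crr : Continuous r := (C.sm_cont S.sg₁).abs.add (C.sm_cont S.sg₂).abs
  have hm1 : ∀ x, S.m₁ x ≤ (2 * M + 2) / O.c := by
    intro x
    rw [le_div_iff₀ hOc]
    have hk1 := k1_le O (h₁_mem S he x) (ψ₀_mem D x)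
    have hc1 := out.contact₁ x
    have h2 : S.m₁ x * O.c ≤ -O.k1 (S.h₁ x) (ψ₀ x) * S.m₁ x := by
      rw [mul_comm]; exact mul_le_mul_of_nonneg_right (by linarith) (S.m₁nn x)
    have h3 := hEle _ (h₁_mem S he x) _ (ψ₀_mem D x)
      (C.G (fun y => S.h₁ y - ψ₀ y) (fun y => S.h₁ y - ψ₀ y) x) (G_self_nonneg _ _)
    have h4 : max 0 (O.E f (S.h₁ x) (ψ₀ x)
      (C.G (fun y => S.h₁ y - ψ₀ y) (fun y => S.h₁ y - ψ₀ y) x) + η₀) ≤ 2 * M + 1 :=
      max_le (by positivity) (by linarith)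
    linarith
  have hm2 : ∀ x, S.m₂ x ≤ (2 * M + 2) / O.c + 1 / O.c * |S.g₁ x| := by
    intro x
    have e0 : (2 * M + 2) / O.c + 1 / O.c * |S.g₁ x| = (2 * M + 2 + |S.g₁ x|) / O.c := by ring
    rw [e0, le_div_iff₀ hOc]
    have hk2 := k2_le O (out.φ_mem x) (h₂_mem S he x)
    have hk1 := k1_le O (out.φ_mem x) (h₂_mem S he x)
    have hc1 := out.contact₂ x
    have h2 : S.m₂ x * O.c ≤ -O.k2 (S.φ x) (S.h₂ x) * S.m₂ x := by
      rw [mul_comm]; exact mul_le_mul_of_nonneg_right (by linarith) (S.m₂nn x)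
    have hkm : O.k1 (S.φ x) (S.h₂ x) * S.m₁ x ≤ 0 :=
      mul_nonpos_of_nonpos_of_nonneg (by linarith) (S.m₁nn x)
    have h3 := hEle _ (out.φ_mem x) _ (h₂_mem S he x)
      (C.G (fun y => S.φ y - S.h₂ y) (fun y => S.φ y - S.h₂ y) x) (G_self_nonneg _ _)
    have h4 : max 0 (O.E f (S.φ x) (S.h₂ x)
      (C.G (fun y => S.φ y - S.h₂ y) (fun y => S.φ y - S.h₂ y) x) + η₀ +
        O.k1 (S.φ x) (S.h₂ x) * S.m₁ x + |S.g₁ x|) ≤ 2 * M + 1 + |S.g₁ x| :=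
      max_le (by positivity) (by linarith)
    linarith
  have hLaux : ∀ (x : X) (a : ℝ), |a| ≤ A' * (1 + r x) → a ^ 2 ≤ 2 * A' ^ 2 * (1 + r x ^ 2) := by
    intro x a ha
    have h1 : a ^ 2 ≤ (A' * (1 + r x)) ^ 2 := by
      rw [← sq_abs]; exact pow_le_pow_left₀ (abs_nonneg _) ha 2
    have h2 : (1 + r x) ^ 2 ≤ 2 * (1 + r x ^ 2) := by nlinarith [sq_nonneg (r x - 1)]
    have h3 : A' ^ 2 * (1 + r x) ^ 2 ≤ A' ^ 2 * (2 * (1 + r x ^ 2)) :=
      mul_le_mul_of_nonneg_left h2 (sq_nonneg _)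
    calc a ^ 2 ≤ (A' * (1 + r x)) ^ 2 := h1
      _ = A' ^ 2 * (1 + r x) ^ 2 := by ring
      _ ≤ _ := h3
      _ = _ := by ring
  have hLφ : ∀ x, C.L S.φ x ^ 2 ≤ 2 * A' ^ 2 * (1 + r x ^ 2) := by
    intro x
    refine hLaux x _ ?_
    rw [S.eqφ x]
    have h1 := hFM _ (out.φ_mem x)
    have h2 := hm1 x
    have h3 := S.m₁nn x
    have h4 : |f (S.φ x) - η₀ + S.m₁ x + S.g₁ x| ≤ |f (S.φ x)| + η₀ + S.m₁ x + |S.g₁ x| := by
      have a1 := abs_add_le (f (S.φ x) - η₀ + S.m₁ x) (S.g₁ x)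
      have a2 := abs_add_le (f (S.φ x) - η₀) (S.m₁ x)
      have a3 := abs_sub (f (S.φ x)) η₀
      rw [abs_of_nonneg h3] at a2
      rw [abs_of_nonneg hη] at a3
      linarith
    have h5 : (2 * M + 2) / O.c + 1 / O.c = (2 * M + 2) / O.c + 1 / O.c := rfl
    have h6 : |S.g₁ x| ≤ r x := by rw [hr]; linarith [abs_nonneg (S.g₂ x)]
    have h7 : 0 ≤ r x := (abs_nonneg _).trans h6
    have h8 : 0 ≤ 1 / O.c := by positivity
    have h9 : 1 ≤ A' := by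
      rw [hA']
      have : 0 ≤ (2 * M + 2) / O.c := by positivity
      linarith
    have h10 : r x ≤ A' * r x := by nlinarith
    have h11 : A' * (1 + r x) = A' + A' * r x := by ring
    rw [h11]
    linarith
  have hLψ : ∀ x, C.L S.ψ x ^ 2 ≤ 2 * A' ^ 2 * (1 + r x ^ 2) := by
    intro x
    refine hLaux x _ ?_
    rw [S.eqψ x]
    have h1 := hFM _ (out.ψ_mem x)
    have h2 := hm2 x
    have h3 := S.m₂nn x
    have h4 : |f (S.ψ x) - η₀ + S.m₂ x + S.g₂ x| ≤ |f (S.ψ x)| + η₀ + S.m₂ x + |S.g₂ x| := by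
      have a1 := abs_add_le (f (S.ψ x) - η₀ + S.m₂ x) (S.g₂ x)
      have a2 := abs_add_le (f (S.ψ x) - η₀) (S.m₂ x)
      have a3 := abs_sub (f (S.ψ x)) η₀
      rw [abs_of_nonneg h3] at a2
      rw [abs_of_nonneg hη] at a3
      linarith
    have h6 : |S.g₂ x| ≤ r x := by rw [hr]; linarith [abs_nonneg (S.g₁ x)]
    have h6' : |S.g₁ x| ≤ r x := by rw [hr]; linarith [abs_nonneg (S.g₂ x)]
    have h7 : 0 ≤ r x := (abs_nonneg _).trans h6
    have h8 : 0 ≤ 1 / O.c := by positivity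
    have h9 : 1 / O.c * |S.g₁ x| ≤ 1 / O.c * r x := mul_le_mul_of_nonneg_left h6' h8
    have h9' : 1 / O.c + 1 ≤ A' := by
      rw [hA']
      have : 0 ≤ (2 * M + 2) / O.c := by positivity
      linarith
    have h10 : (1 / O.c + 1) * r x ≤ A' * r x := mul_le_mul_of_nonneg_right h9' h7
    have h11 : A' * (1 + r x) = A' + A' * r x := by ring
    rw [h11]
    linarith
  have hrint : ∫ x, r x ^ 2 ∂μ ≤ 4 * δ := by
    have i1 : Integrable (fun x => S.g₁ x ^ 2) μ := integrable_cont ((C.sm_cont S.sg₁).pow 2)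
    have i2 : Integrable (fun x => S.g₂ x ^ 2) μ := integrable_cont ((C.sm_cont S.sg₂).pow 2)
    have i0 : Integrable (fun x => r x ^ 2) μ := integrable_cont (crr.pow 2)
    have h1 : ∫ x, r x ^ 2 ∂μ ≤ ∫ x, (2 * S.g₁ x ^ 2 + 2 * S.g₂ x ^ 2) ∂μ := by
      refine integral_mono i0 ((i1.const_mul 2).add (i2.const_mul 2)) fun x => ?_
      simp only [hr]
      rw [← sq_abs (S.g₁ x), ← sq_abs (S.g₂ x)]
      linarith [sq_nonneg (|S.g₁ x| - |S.g₂ x|)]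
    rw [integral_add (i1.const_mul 2) (i2.const_mul 2), integral_const_mul,
      integral_const_mul] at h1
    have := out.g₁_sq
    have := out.g₂_sq
    linarith
  have hKδ : K * (δ + e) ≤ (K + 4) * (δ + e) := by nlinarith
  have hrδ : ∫ x, r x ^ 2 ∂μ ≤ (K + 4) * (δ + e) := by nlinarith [mul_nonneg hK0 (add_nonneg hδ he.le)]
  have g3 := hK' C S.φ S.ψ r ((K + 4) * (δ + e)) S.sφ S.sψ out.φ_mem out.ψ_mem crr hLψ hrδ
    (g1.trans hKδ) (g2.trans hKδ)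
  have g4 := hK' C S.ψ S.φ r ((K + 4) * (δ + e)) S.sψ S.sφ out.ψ_mem out.φ_mem crr hLφ hrδ
    (g2.trans hKδ) (g1.trans hKδ)
  -- conclusion
  have cα := C.sm_cont (sm_wF (C := C) (N * Λ) b.smooth S.sφ)
  have cβ := C.sm_cont (sm_wF (C := C) (N * Λ) b.smooth S.sψ)
  have cqφ := C.sm_cont (sm_qF (C := C) b.smooth S.sφ)
  have cqψ := C.sm_cont (sm_qF (C := C) b.smooth S.sψ)
  have cχ : Continuous cut := contDiff_cut.continuous
  have cRφ := C.sm_cont (sm_Rb (C := C) S.sφ)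
  have cRψ := C.sm_cont (sm_Rb (C := C) S.sψ)
  have cP := C.sm_cont (C.sm_G S.sφ S.sφ)
  have cQ := C.sm_cont (C.sm_G S.sψ S.sψ)
  have i1 : Integrable (fun x => wF C (N * Λ) Φ S.φ x * (1 + C.G S.φ S.φ x + C.Rb S.φ x)) μ :=
    integrable_cont (cα.mul ((continuous_const.add cP).add cRφ))
  have i2 : Integrable (fun x => wF C (N * Λ) Φ S.ψ x * (1 + C.G S.ψ S.ψ x + C.Rb S.ψ x)) μ :=
    integrable_cont (cβ.mul ((continuous_const.add cQ).add cRψ))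
  have i3 : Integrable (fun x => wM C (N * Λ) Φ S.φ S.ψ x * C.Rb S.ψ x) μ :=
    integrable_cont (((cα.pow 3).mul (cχ.comp cqψ)).mul cRψ)
  have i4 : Integrable (fun x => wM C (N * Λ) Φ S.ψ S.φ x * C.Rb S.φ x) μ :=
    integrable_cont (((cβ.pow 3).mul (cχ.comp cqφ)).mul cRφ)
  have i12 : Integrable (fun x => wF C (N * Λ) Φ S.φ x * (1 + C.G S.φ S.φ x + C.Rb S.φ x) +
      wF C (N * Λ) Φ S.ψ x * (1 + C.G S.ψ S.ψ x + C.Rb S.ψ x)) μ := i1.add i2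
  have i123 : Integrable (fun x => wF C (N * Λ) Φ S.φ x * (1 + C.G S.φ S.φ x + C.Rb S.φ x) +
      wF C (N * Λ) Φ S.ψ x * (1 + C.G S.ψ S.ψ x + C.Rb S.ψ x) +
      wM C (N * Λ) Φ S.φ S.ψ x * C.Rb S.ψ x) μ := i12.add i3
  have i1234 : Integrable (fun x => wF C (N * Λ) Φ S.φ x * (1 + C.G S.φ S.φ x + C.Rb S.φ x) +
      wF C (N * Λ) Φ S.ψ x * (1 + C.G S.ψ S.ψ x + C.Rb S.ψ x) +
      wM C (N * Λ) Φ S.φ S.ψ x * C.Rb S.ψ x + wM C (N * Λ) Φ S.ψ S.φ x * C.Rb S.φ x) μ :=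
    i123.add i4
  have hbad : MeasurableSet (bad C Φ s S.φ S.ψ) :=
    ((isOpen_lt continuous_const cqφ).union (isOpen_lt continuous_const cqψ)).measurableSet
  have i0 : Integrable (fun x => 1 + C.G S.φ S.φ x + C.G S.ψ S.ψ x + C.Rb S.φ x + C.Rb S.ψ x) μ :=
    integrable_cont ((((continuous_const.add cP).add cQ).add cRφ).add cRψ)
  have hpt : ∀ x, (bad C Φ s S.φ S.ψ).indicator
      (fun x => 1 + C.G S.φ S.φ x + C.G S.ψ S.ψ x + C.Rb S.φ x + C.Rb S.ψ x) x ≤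
      (3 + M) / as ^ 3 * (wF C (N * Λ) Φ S.φ x * (1 + C.G S.φ S.φ x + C.Rb S.φ x) +
      wF C (N * Λ) Φ S.ψ x * (1 + C.G S.ψ S.ψ x + C.Rb S.ψ x) +
      wM C (N * Λ) Φ S.φ S.ψ x * C.Rb S.ψ x + wM C (N * Λ) Φ S.ψ S.φ x * C.Rb S.φ x) := by
    intro x
    by_cases hx : x ∈ bad C Φ s S.φ S.ψ
    · rw [indicator_of_mem hx]
      rcases hx with h | h
      · exact bad_le hl hs hs1 hM0.le S.sφ S.sψ (hΦ0 _ (out.φ_mem x)).2 (hΦ0 _ (out.ψ_mem x)).2 h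
      · have := bad_le hl hs hs1 hM0.le S.sψ S.sφ (hΦ0 _ (out.ψ_mem x)).2 (hΦ0 _ (out.φ_mem x)).2 h
        refine le_trans (le_of_eq ?_) (this.trans (le_of_eq ?_))
        · ring
        · ring
    · rw [indicator_of_notMem hx]
      have hP := G_self_nonneg (C := C) S.φ x
      have hQ := G_self_nonneg (C := C) S.ψ x
      have hRφ := Rb_nonneg (C := C) S.sφ x
      have hRψ := Rb_nonneg (C := C) S.sψ x
      have hα0 : 0 ≤ wF C (N * Λ) Φ S.φ x := om_nonneg _ _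
      have hβ0 : 0 ≤ wF C (N * Λ) Φ S.ψ x := om_nonneg _ _
      have h1 : 0 ≤ wM C (N * Λ) Φ S.φ S.ψ x := mul_nonneg (pow_nonneg hα0 3) (cut_nonneg _)
      have h2 : 0 ≤ wM C (N * Λ) Φ S.ψ S.φ x := mul_nonneg (pow_nonneg hβ0 3) (cut_nonneg _)
      positivity
  have h1 := integral_mono (i0.indicator hbad) (i1234.const_mul ((3 + M) / as ^ 3)) hpt
  rw [integral_indicator hbad, integral_const_mul, integral_add i123 i4, integral_add i12 i3,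
    integral_add i1 i2] at h1
  refine h1.trans ?_
  have e1 : (3 + M) / as ^ 3 * (2 * K + 2 * (K' * (K + 4))) * (δ + e) =
      (3 + M) / as ^ 3 * (K * (δ + e) + K * (δ + e) + K' * ((K + 4) * (δ + e)) +
        K' * ((K + 4) * (δ + e))) := by ring
  rw [e1]
  exact mul_le_mul_of_nonneg_left (by linarith) (by positivity)

end Crest.Agent.R249.GB330
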