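import Crest.Agent.R249.FrP_129

/-!
Gauge law, pure algebra: under a rotation `O ∈ SO(4)` of the frame the `Λ⁺`-block of the curvature
tensor is conjugated by a matrix `ρ(O)` with `ρᵀ ρ = 1`, hence `|W⁺|²` is invariant; under
`det O = -1` the two blocks are exchanged. (row 249, helper129)
-/

set_option autoImplicit false
set_option linter.unusedSectionVars false
set_option linter.unusedSimpArgs false

namespace Crest.Agent.R249.Ga129

open Finset Matrix Crest.Agent.R249.Fr129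
open Crest.Agent.R249.Fr129.Frame (half two_half third three_third e3 eq_zero_of_two eq_of_two)

variable {S : Type*} [CommRing S] [Algebra ℝ S]

/-- components of the `Λ⁺` part in the last two indices -/
def PPa (R : Fin 4 → Fin 4 → Fin 4 → Fin 4 → S) (k l : Fin 4) : Fin 3 → S :=
  ![R k l 0 1 + R k l 2 3, R k l 0 2 - R k l 1 3, R k l 0 3 + R k l 1 2]

/-- the `Λ⁺` block -/
noncomputable def AAa (R : Fin 4 → Fin 4 → Fin 4 → Fin 4 → S) (c d : Fin 3) : S :=
  - half * (![PPa R 0 1 c + PPa R 2 3 c, PPa R 0 2 c - PPa R 1 3 c, PPa R 0 3 c + PPa R 1 2 c] d)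

/-- `W⁺` -/
noncomputable def WWa (lam : S) (R : Fin 4 → Fin 4 → Fin 4 → Fin 4 → S) (c d : Fin 3) : S :=
  AAa R c d - if c = d then third * lam else 0

/-- `|W⁺|²` -/
noncomputable def qqa (lam : S) (R : Fin 4 → Fin 4 → Fin 4 → Fin 4 → S) : S :=
  ∑ c, ∑ d, WWa lam R c d * WWa lam R c d

lemma AA_eq (F : Frame 4 S) (c d : Fin 3) : F.AA c d = AAa F.Rm c d := rfl

lemma WW_eq (F : Frame 4 S) (lam : S) (c d : Fin 3) : F.WW lam c d = WWa lam F.Rm c d := rfl

lemma qq_eq (F : Frame 4 S) (lam : S) : F.qq lam = qqa lam F.Rm := rfl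

section map

variable {T : Type*} [CommRing T] [Algebra ℝ T] (φ : S →ₐ[ℝ] T)

lemma map_half : φ (half : S) = half := AlgHom.commutes φ _
lemma map_third : φ (third : S) = third := AlgHom.commutes φ _

lemma map_AAa (R : Fin 4 → Fin 4 → Fin 4 → Fin 4 → S) (c d : Fin 3) :
    φ (AAa R c d) = AAa (fun i j k l => φ (R i j k l)) c d := by
  fin_cases c <;> fin_cases d <;> simp [AAa, PPa, map_half]

lemma map_WWa (lam : S) (R : Fin 4 → Fin 4 → Fin 4 → Fin 4 → S) (c d : Fin 3) :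
    φ (WWa lam R c d) = WWa (φ lam) (fun i j k l => φ (R i j k l)) c d := by
  rw [WWa, WWa, map_sub, map_AAa]
  split_ifs
  · rw [map_mul, map_third]
  · rw [map_zero]

lemma map_qqa (lam : S) (R : Fin 4 → Fin 4 → Fin 4 → Fin 4 → S) :
    φ (qqa lam R) = qqa (φ lam) (fun i j k l => φ (R i j k l)) := by
  simp only [qqa, map_sum, map_mul, map_WWa]

end map

/-- antisymmetry in the first and in the last pair -/
structure Anti (R : Fin 4 → Fin 4 → Fin 4 → Fin 4 → S) : Prop where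
  a12 : ∀ i j k l, R i j k l = - R j i k l
  a34 : ∀ i j k l, R i j k l = - R i j l k

lemma anti_Rm (F : Frame 4 S) : Anti F.Rm := ⟨F.Rm_anti12, F.Rm_anti34⟩

/-- change of frame -/
def cj (O : Matrix (Fin 4) (Fin 4) S) (R : Fin 4 → Fin 4 → Fin 4 → Fin 4 → S)
    (i j k l : Fin 4) : S :=
  ∑ a, ∑ b, ∑ c, ∑ d, R a b c d * O a i * O b j * O c k * O d l

/-- orientation reversal -/
def flp (R : Fin 4 → Fin 4 → Fin 4 → Fin 4 → S) (i j k l : Fin 4) : S :=
  e3 i * e3 j * e3 k * e3 l * R i j k l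

lemma Rm_flip_eq (F : Frame 4 S) : F.flip.Rm = flp F.Rm := by
  funext i j k l; exact F.Rm_flip i j k l

lemma flip_qq (F : Frame 4 S) (lam : S) : F.flip.qq lam = qqa lam (flp F.Rm) := by
  rw [qq_eq, Rm_flip_eq]

lemma Anti.cj {R : Fin 4 → Fin 4 → Fin 4 → Fin 4 → S} (hR : Anti R)
    (O : Matrix (Fin 4) (Fin 4) S) : Anti (cj O R) where
  a12 i j k l := by
    simp only [Ga129.cj]
    rw [sum_comm, ← sum_neg_distrib]
    refine sum_congr rfl fun b _ => ?_
    rw [← sum_neg_distrib]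
    refine sum_congr rfl fun a _ => ?_
    rw [← sum_neg_distrib]
    refine sum_congr rfl fun c _ => ?_
    rw [← sum_neg_distrib]
    refine sum_congr rfl fun d _ => ?_
    rw [hR.a12 a b]; ring
  a34 i j k l := by
    simp only [Ga129.cj]
    rw [← sum_neg_distrib]
    refine sum_congr rfl fun a _ => ?_
    rw [← sum_neg_distrib]
    refine sum_congr rfl fun b _ => ?_
    rw [sum_comm, ← sum_neg_distrib]
    refine sum_congr rfl fun d _ => ?_
    rw [← sum_neg_distrib]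
    refine sum_congr rfl fun c _ => ?_
    rw [hR.a34 a b]; ring

/-- the basis of `Λ⁺` -/
def II : Fin 3 → Matrix (Fin 4) (Fin 4) S :=
  ![!![0, 1, 0, 0; -1, 0, 0, 0; 0, 0, 0, 1; 0, 0, -1, 0],
    !![0, 0, 1, 0; 0, 0, 0, -1; -1, 0, 0, 0; 0, 1, 0, 0],
    !![0, 0, 0, 1; 0, 0, 1, 0; 0, -1, 0, 0; -1, 0, 0, 0]]

/-- the curvature as a bilinear form on matrices -/
def Q (R : Fin 4 → Fin 4 → Fin 4 → Fin 4 → S) (A B : Matrix (Fin 4) (Fin 4) S) : S :=
  ∑ i, ∑ j, ∑ k, ∑ l, R i j k l * A i j * B k l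

lemma Q_eq (R : Fin 4 → Fin 4 → Fin 4 → Fin 4 → S) (A B : Matrix (Fin 4) (Fin 4) S) :
    Q R A B = ∑ i, ∑ j, (∑ k, ∑ l, R i j k l * B k l) * A i j := by
  refine sum_congr rfl fun i _ => sum_congr rfl fun j _ => ?_
  rw [sum_mul]
  refine sum_congr rfl fun k _ => ?_
  rw [sum_mul]
  exact sum_congr rfl fun l _ => by ring

lemma sum_II {X : Fin 4 → Fin 4 → S} (hX : ∀ i j, X i j = - X j i) (c : Fin 3) :
    ∑ k, ∑ l, X k l * II c k l
      = 2 * (![X 0 1 + X 2 3, X 0 2 - X 1 3, X 0 3 + X 1 2] c) := by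
  have h10 := hX 1 0
  have h20 := hX 2 0
  have h30 := hX 3 0
  have h21 := hX 2 1
  have h31 := hX 3 1
  have h32 := hX 3 2
  fin_cases c <;> simp [Fin.sum_univ_four, II, h10, h20, h30, h21, h31, h32] <;> ring

lemma Q_II {R : Fin 4 → Fin 4 → Fin 4 → Fin 4 → S} (hR : Anti R) (c d : Fin 3) :
    Q R (II d) (II c) = - 8 * AAa R c d := by
  rw [Q_eq]
  have h1 : ∀ i j, ∑ k, ∑ l, R i j k l * II c k l = 2 * PPa R i j c := by
    intro i j
    rw [sum_II (hR.a34 i j)]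
    fin_cases c <;> simp [PPa]
  simp_rw [h1]
  have h2 : ∀ i j, 2 * PPa R i j c = - (2 * PPa R j i c) := by
    intro i j
    fin_cases c <;> simp [PPa, hR.a12 i j] <;> ring
  rw [sum_II h2, AAa]
  have hh := two_half (S := S)
  fin_cases d <;> simp only [Fin.zero_eta, Fin.mk_one, Fin.reduceFinMk, Matrix.cons_val_zero,
    Matrix.cons_val_one, Matrix.cons_val]
  · linear_combination (-4 * (PPa R 0 1 c + PPa R 2 3 c)) * hh
  · linear_combination (-4 * (PPa R 0 2 c - PPa R 1 3 c)) * hh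
  · linear_combination (-4 * (PPa R 0 3 c + PPa R 1 2 c)) * hh

lemma mul_conj (O A : Matrix (Fin 4) (Fin 4) S) (a b : Fin 4) :
    (O * A * Oᵀ) a b = ∑ i, ∑ j, O a i * A i j * O b j := by
  simp only [Matrix.mul_apply, Matrix.transpose_apply, sum_mul]
  exact sum_comm

lemma sum4 (f : Fin 4 → Fin 4 → Fin 4 → Fin 4 → S) :
    ∑ k, ∑ l, ∑ c, ∑ d, f k l c d = ∑ c, ∑ d, ∑ k, ∑ l, f k l c d := by
  have h1 : ∀ k, ∑ l, ∑ c, ∑ d, f k l c d = ∑ c, ∑ d, ∑ l, f k l c d := fun k => by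
    rw [sum_comm]; exact sum_congr rfl fun c _ => sum_comm
  simp_rw [h1]
  rw [sum_comm]
  exact sum_congr rfl fun c _ => sum_comm

lemma conj_aux (O B : Matrix (Fin 4) (Fin 4) S) (X : Fin 4 → Fin 4 → S) :
    ∑ k, ∑ l, (∑ c, ∑ d, X c d * O c k * O d l) * B k l = ∑ c, ∑ d, X c d * (O * B * Oᵀ) c d := by
  simp only [mul_conj, sum_mul, mul_sum]
  rw [sum4]
  exact sum_congr rfl fun a _ => sum_congr rfl fun b _ => sum_congr rfl fun c _ =>
    sum_congr rfl fun d _ => by ring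

lemma Q_cj (O : Matrix (Fin 4) (Fin 4) S) (R : Fin 4 → Fin 4 → Fin 4 → Fin 4 → S)
    (A B : Matrix (Fin 4) (Fin 4) S) :
    Q (cj O R) A B = Q R (O * A * Oᵀ) (O * B * Oᵀ) := by
  rw [Q_eq, Q_eq]
  have h : ∀ i j, ∑ k, ∑ l, cj O R i j k l * B k l
      = ∑ a, ∑ b, (∑ c, ∑ d, R a b c d * (O * B * Oᵀ) c d) * O a i * O b j := by
    intro i j
    have e1 : ∀ k l, cj O R i j k l * B k l
        = ∑ a, ∑ b, (∑ c, ∑ d, R a b c d * O c k * O d l) * B k l * (O a i * O b j) := by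
      intro k l
      simp only [cj, sum_mul]
      exact sum_congr rfl fun a _ => sum_congr rfl fun b _ => sum_congr rfl fun c _ =>
        sum_congr rfl fun d _ => by ring
    simp_rw [e1]
    rw [sum4]
    refine sum_congr rfl fun a _ => sum_congr rfl fun b _ => ?_
    rw [← conj_aux, mul_assoc, sum_mul]
    refine sum_congr rfl fun k _ => ?_
    rw [sum_mul]
  simp_rw [h]
  rw [conj_aux]

/-! ### rotations -/

/-- `A ∧ B` -/
def wd (A B : Matrix (Fin 4) (Fin 4) S) : S :=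
  A 0 1 * B 2 3 + A 2 3 * B 0 1 - A 0 2 * B 1 3 - A 1 3 * B 0 2 + A 0 3 * B 1 2 + A 1 2 * B 0 3

/-- `⟨A, B⟩` -/
def ip (A B : Matrix (Fin 4) (Fin 4) S) : S :=
  A 0 1 * B 0 1 + A 2 3 * B 2 3 + A 0 2 * B 0 2 + A 1 3 * B 1 3 + A 0 3 * B 0 3 + A 1 2 * B 1 2

/-- skew matrices -/
def Sk (A : Matrix (Fin 4) (Fin 4) S) : Prop := ∀ i j, A i j = - A j i

lemma Sk.diag {A : Matrix (Fin 4) (Fin 4) S} (h : Sk A) (i : Fin 4) : A i i = 0 :=
  eq_zero_of_two (by have := h i i; linear_combination this)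

lemma Sk.conj {A : Matrix (Fin 4) (Fin 4) S} (h : Sk A) (O : Matrix (Fin 4) (Fin 4) S) :
    Sk (O * A * Oᵀ) := by
  intro i j
  rw [mul_conj, mul_conj, sum_comm, ← sum_neg_distrib]
  refine sum_congr rfl fun b _ => ?_
  rw [← sum_neg_distrib]
  refine sum_congr rfl fun a _ => ?_
  rw [h a b]; ring

lemma Sk_II (c : Fin 3) : Sk (II c : Matrix (Fin 4) (Fin 4) S) := by
  intro i j
  fin_cases c <;> fin_cases i <;> fin_cases j <;> simp [II]

set_option maxHeartbeats 2000000 in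
lemma wd_conj {A B : Matrix (Fin 4) (Fin 4) S} (hA : Sk A) (hB : Sk B)
    (O : Matrix (Fin 4) (Fin 4) S) :
    wd (O * A * Oᵀ) (O * B * Oᵀ) = O.det * wd A B := by
  have hA10 := hA 1 0
  have hA20 := hA 2 0
  have hA30 := hA 3 0
  have hA21 := hA 2 1
  have hA31 := hA 3 1
  have hA32 := hA 3 2
  have hB10 := hB 1 0
  have hB20 := hB 2 0
  have hB30 := hB 3 0
  have hB21 := hB 2 1
  have hB31 := hB 3 1
  have hB32 := hB 3 2
  simp only [wd, mul_conj, Fin.sum_univ_four, hA10, hA20, hA30, hA21, hA31, hA32, hA.diag,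
    hB10, hB20, hB30, hB21, hB31, hB32, hB.diag, Matrix.det_succ_row_zero (n := 3),
    Matrix.det_fin_three, Matrix.submatrix_apply]
  simp [Fin.succAbove]
  ring

lemma two_ip {A B : Matrix (Fin 4) (Fin 4) S} (hA : Sk A) (hB : Sk B) :
    2 * ip A B = (A * Bᵀ).trace := by
  simp only [ip, Matrix.trace, Matrix.diag, Matrix.mul_apply, Matrix.transpose_apply,
    Fin.sum_univ_four, hA 1 0, hA 2 0, hA 3 0, hA 2 1, hA 3 1, hA 3 2, hA.diag,
    hB 1 0, hB 2 0, hB 3 0, hB 2 1, hB 3 1, hB 3 2, hB.diag]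
  ring

lemma ip_conj {A B : Matrix (Fin 4) (Fin 4) S} (hA : Sk A) (hB : Sk B)
    {O : Matrix (Fin 4) (Fin 4) S} (hO : Oᵀ * O = 1) : ip (O * A * Oᵀ) (O * B * Oᵀ) = ip A B := by
  apply eq_of_two
  rw [two_ip (hA.conj O) (hB.conj O), two_ip hA hB]
  have : O * A * Oᵀ * (O * B * Oᵀ)ᵀ = O * (A * Bᵀ * Oᵀ) := by
    simp only [Matrix.transpose_mul, Matrix.transpose_transpose]
    calc O * A * Oᵀ * (O * (Bᵀ * Oᵀ)) = O * A * (Oᵀ * O) * (Bᵀ * Oᵀ) := by
          simp only [Matrix.mul_assoc]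
      _ = _ := by rw [hO]; simp only [Matrix.mul_one, Matrix.mul_assoc]
  rw [this, Matrix.trace_mul_comm, Matrix.mul_assoc, Matrix.mul_assoc, hO, Matrix.mul_one]

lemma ip_II {B : Matrix (Fin 4) (Fin 4) S} (c : Fin 3) : ip (II c) B = wd (II c) B := by
  fin_cases c <;> simp [ip, wd, II] <;> ring

/-- self-dual matrices -/
structure SD (X : Matrix (Fin 4) (Fin 4) S) : Prop where
  sk : Sk X
  h0 : X 2 3 = X 0 1
  h1 : X 1 3 = - X 0 2
  h2 : X 1 2 = X 0 3

lemma SD_II (c : Fin 3) : SD (II c : Matrix (Fin 4) (Fin 4) S) := by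
  refine ⟨Sk_II c, ?_, ?_, ?_⟩ <;> fin_cases c <;> simp [II]

/-- elementary skew matrices -/
def El (i j : Fin 4) : Matrix (Fin 4) (Fin 4) S :=
  Matrix.of fun a b => (if a = i ∧ b = j then 1 else 0) - (if a = j ∧ b = i then 1 else 0)

lemma Sk_El (i j : Fin 4) : Sk (El i j : Matrix (Fin 4) (Fin 4) S) := by
  intro a b
  simp only [El, Matrix.of_apply]
  rw [neg_sub]
  congr 1 <;> simp only [and_comm]

/-- rotations preserve self-duality -/
lemma SD.conj {X : Matrix (Fin 4) (Fin 4) S} (hX : SD X)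
    {O : Matrix (Fin 4) (Fin 4) S} (hO : Oᵀ * O = 1) (hd : O.det = 1) : SD (O * X * Oᵀ) := by
  have hO' : O * Oᵀ = 1 := mul_eq_one_comm.1 hO
  have key : ∀ C : Matrix (Fin 4) (Fin 4) S, Sk C → ip (O * X * Oᵀ) C = wd (O * X * Oᵀ) C := by
    intro C hC
    have hB : Sk (Oᵀ * C * O) := by
      have := hC.conj Oᵀ
      rwa [Matrix.transpose_transpose] at this
    have hC' : O * (Oᵀ * C * O) * Oᵀ = C := by
      calc O * (Oᵀ * C * O) * Oᵀ = (O * Oᵀ) * C * (O * Oᵀ) := by simp only [Matrix.mul_assoc]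
        _ = C := by rw [hO', Matrix.one_mul, Matrix.mul_one]
    have h1 := ip_conj hX.sk hB hO
    have h2 := wd_conj hX.sk hB O
    rw [hC'] at h1 h2
    rw [h1, h2, hd, one_mul]
    have hB10 := hB 1 0
    simp only [ip, wd, hX.h0, hX.h1, hX.h2]
    ring
  refine ⟨hX.sk.conj O, ?_, ?_, ?_⟩
  · have := key (El 0 1) (Sk_El 0 1)
    simp [ip, wd, El] at this
    exact this.symm
  · have := key (El 0 2) (Sk_El 0 2)
    simp [ip, wd, El] at this
    rw [this]; ring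
  · have := key (El 0 3) (Sk_El 0 3)
    simp [ip, wd, El] at this
    exact this.symm

/-- the rotation of `Λ⁺` induced by a rotation -/
def rho (O : Matrix (Fin 4) (Fin 4) S) : Matrix (Fin 3) (Fin 3) S :=
  Matrix.of fun a c => (O * II c * Oᵀ : Matrix (Fin 4) (Fin 4) S) 0 (Fin.succ a)

lemma SD.eq_sum {X : Matrix (Fin 4) (Fin 4) S} (hX : SD X) :
    X = ∑ a : Fin 3, X 0 (Fin.succ a) • II a := by
  have h10 := hX.sk 1 0
  have h20 := hX.sk 2 0
  have h30 := hX.sk 3 0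
  have h21 := hX.sk 2 1
  have h31 := hX.sk 3 1
  have h32 := hX.sk 3 2
  ext i j
  simp only [Matrix.sum_apply, Matrix.smul_apply, smul_eq_mul, Fin.sum_univ_three]
  fin_cases i <;> fin_cases j <;>
    simp [II, h10, h20, h30, h21, h31, h32, hX.sk.diag, hX.h0, hX.h1, hX.h2,
      show Fin.succ (0 : Fin 3) = 1 from rfl, show Fin.succ (1 : Fin 3) = 2 from rfl,
      show Fin.succ (2 : Fin 3) = 3 from rfl]

lemma conj_II {O : Matrix (Fin 4) (Fin 4) S} (hO : Oᵀ * O = 1) (hd : O.det = 1) (c : Fin 3) :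
    O * II c * Oᵀ = ∑ a, rho O a c • II a :=
  ((SD_II c).conj hO hd).eq_sum

lemma ip_II_II (c d : Fin 3) : ip (II c : Matrix (Fin 4) (Fin 4) S) (II d)
    = 2 * (if c = d then 1 else 0) := by
  fin_cases c <;> fin_cases d <;> simp [ip, II] <;> norm_num

lemma rho_orth {O : Matrix (Fin 4) (Fin 4) S} (hO : Oᵀ * O = 1) (hd : O.det = 1) :
    (rho O)ᵀ * rho O = 1 := by
  ext c d
  apply eq_of_two
  have h1 := ip_conj (Sk_II (S := S) c) (Sk_II d) hO
  have hc := (SD_II (S := S) c).conj hO hd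
  have hd' := (SD_II (S := S) d).conj hO hd
  rw [ip_II_II] at h1
  rw [Matrix.one_apply, ← h1, Matrix.mul_apply, Fin.sum_univ_three]
  simp only [ip, hc.h0, hc.h1, hc.h2, hd'.h0, hd'.h1, hd'.h2, rho, Matrix.transpose_apply,
    Matrix.of_apply, show Fin.succ (0 : Fin 3) = 1 from rfl,
    show Fin.succ (1 : Fin 3) = 2 from rfl, show Fin.succ (2 : Fin 3) = 3 from rfl]
  ring

lemma Q_sum (R : Fin 4 → Fin 4 → Fin 4 → Fin 4 → S) (p q : Fin 3 → S)
    (A B : Fin 3 → Matrix (Fin 4) (Fin 4) S) :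
    Q R (∑ a, p a • A a) (∑ b, q b • B b) = ∑ a, ∑ b, p a * q b * Q R (A a) (B b) := by
  simp only [Q, Matrix.sum_apply, Matrix.smul_apply, smul_eq_mul, Fin.sum_univ_three]
  simp only [mul_sum, ← sum_add_distrib]
  exact sum_congr rfl fun i _ => sum_congr rfl fun j _ => sum_congr rfl fun k _ =>
    sum_congr rfl fun l _ => by ring

/-- **gauge law for the block** -/
theorem AAa_cj {R : Fin 4 → Fin 4 → Fin 4 → Fin 4 → S} (hR : Anti R)
    {O : Matrix (Fin 4) (Fin 4) S} (hO : Oᵀ * O = 1) (hd : O.det = 1) :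
    Matrix.of (AAa (cj O R)) = (rho O)ᵀ * Matrix.of (AAa R) * rho O := by
  ext c d
  have h8 : ∀ {x y : S}, -8 * x = -8 * y → x = y := by
    intro x y h
    have h3 : (8 : S) * algebraMap ℝ S (1 / 8) = 1 := by
      have : (8 : S) = algebraMap ℝ S 8 := (map_ofNat (algebraMap ℝ S) 8).symm
      rw [this, ← map_mul]; norm_num
    linear_combination (x - y) * (-h3) - algebraMap ℝ S (1 / 8) * h
  apply h8
  rw [Matrix.of_apply, ← Q_II (hR.cj O), Q_cj, conj_II hO hd, conj_II hO hd, Q_sum]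
  simp_rw [Q_II hR]
  rw [Matrix.mul_apply]
  simp only [Matrix.mul_apply, Matrix.transpose_apply, Matrix.of_apply, mul_sum, sum_mul]
  exact sum_congr rfl fun a _ => sum_congr rfl fun b _ => by ring

lemma WWa_matrix (lam : S) (R : Fin 4 → Fin 4 → Fin 4 → Fin 4 → S) :
    Matrix.of (WWa lam R) = Matrix.of (AAa R) - (third * lam) • (1 : Matrix (Fin 3) (Fin 3) S) := by
  ext c d
  simp [WWa, Matrix.one_apply]

lemma WWa_cj (lam : S) {R : Fin 4 → Fin 4 → Fin 4 → Fin 4 → S} (hR : Anti R)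
    {O : Matrix (Fin 4) (Fin 4) S} (hO : Oᵀ * O = 1) (hd : O.det = 1) :
    Matrix.of (WWa lam (cj O R)) = (rho O)ᵀ * Matrix.of (WWa lam R) * rho O := by
  rw [WWa_matrix, AAa_cj hR hO hd, WWa_matrix, Matrix.mul_sub, Matrix.sub_mul, Matrix.mul_smul,
    Matrix.smul_mul, Matrix.mul_one, rho_orth hO hd]

lemma qqa_trace (lam : S) (R : Fin 4 → Fin 4 → Fin 4 → Fin 4 → S) :
    qqa lam R = (Matrix.of (WWa lam R) * (Matrix.of (WWa lam R))ᵀ).trace := by
  simp [qqa, Matrix.trace, Matrix.mul_apply, Matrix.transpose_apply, Matrix.diag]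

/-- **`|W⁺|²` is invariant under rotations** -/
theorem qqa_cj (lam : S) {R : Fin 4 → Fin 4 → Fin 4 → Fin 4 → S} (hR : Anti R)
    {O : Matrix (Fin 4) (Fin 4) S} (hO : Oᵀ * O = 1) (hd : O.det = 1) :
    qqa lam (cj O R) = qqa lam R := by
  rw [qqa_trace, qqa_trace, WWa_cj lam hR hO hd]
  set W := Matrix.of (WWa lam R)
  set P := rho O
  have h1 : Pᵀ * P = 1 := rho_orth hO hd
  have h2 : P * Pᵀ = 1 := mul_eq_one_comm.1 h1
  have : Pᵀ * W * P * (Pᵀ * W * P)ᵀ = Pᵀ * (W * Wᵀ * P) := by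
    simp only [Matrix.transpose_mul, Matrix.transpose_transpose]
    calc Pᵀ * W * P * (Pᵀ * (Wᵀ * P)) = Pᵀ * W * (P * Pᵀ) * (Wᵀ * P) := by
          simp only [Matrix.mul_assoc]
      _ = _ := by rw [h2]; simp only [Matrix.mul_one, Matrix.mul_assoc]
  rw [this, Matrix.trace_mul_comm, Matrix.mul_assoc, Matrix.mul_assoc, h2, Matrix.mul_one]

/-! ### reversal of orientation -/

/-- the reflection -/
def E3 : Matrix (Fin 4) (Fin 4) S := Matrix.diagonal fun i => ((e3 i : ℤ) : S)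

lemma E3_E3 : (E3 : Matrix (Fin 4) (Fin 4) S) * E3 = 1 := by
  rw [E3, Matrix.diagonal_mul_diagonal, ← Matrix.diagonal_one]
  congr 1
  funext i
  exact Frame.cast_sq Frame.e3_sq i

lemma E3_T : (E3 : Matrix (Fin 4) (Fin 4) S)ᵀ = E3 := Matrix.diagonal_transpose _

lemma E3_det : (E3 : Matrix (Fin 4) (Fin 4) S).det = -1 := by
  rw [E3, Matrix.det_diagonal]
  simp [Fin.prod_univ_four, e3]

lemma cj_E3 (R : Fin 4 → Fin 4 → Fin 4 → Fin 4 → S) : cj E3 R = flp R := by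
  funext i j k l
  simp only [cj, flp, E3, Matrix.diagonal_apply]
  simp only [mul_ite, mul_zero, Finset.sum_ite_eq', Finset.mem_univ, if_true, ite_mul, zero_mul,
    Finset.sum_ite_eq]
  ring

lemma Q_single (R : Fin 4 → Fin 4 → Fin 4 → Fin 4 → S) (i j k l : Fin 4) :
    Q R (Matrix.single i j 1) (Matrix.single k l 1) = R i j k l := by
  simp only [Q, Matrix.single_apply]
  rw [Finset.sum_eq_single i, Finset.sum_eq_single j, Finset.sum_eq_single k,
    Finset.sum_eq_single l]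
  · simp
  · intro b _ hb; simp [hb.symm]
  · simp
  · intro b _ hb; simp [hb.symm]
  · simp
  · intro b _ hb; simp [hb.symm]
  · simp
  · intro b _ hb; simp [hb.symm]
  · simp

lemma cj_cj (O P : Matrix (Fin 4) (Fin 4) S) (R : Fin 4 → Fin 4 → Fin 4 → Fin 4 → S) :
    cj P (cj O R) = cj (O * P) R := by
  funext i j k l
  rw [← Q_single (cj P (cj O R)), ← Q_single (cj (O * P) R), Q_cj, Q_cj, Q_cj]
  simp only [Matrix.transpose_mul, Matrix.mul_assoc]

lemma cj_one (R : Fin 4 → Fin 4 → Fin 4 → Fin 4 → S) : cj 1 R = R := by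
  funext i j k l
  rw [← Q_single (cj 1 R), Q_cj]
  simp [Q_single]

lemma Anti.flp {R : Fin 4 → Fin 4 → Fin 4 → Fin 4 → S} (hR : Anti R) : Anti (flp R) := by
  rw [← cj_E3]; exact hR.cj E3

lemma flp_flp (R : Fin 4 → Fin 4 → Fin 4 → Fin 4 → S) : flp (flp R) = R := by
  rw [← cj_E3, ← cj_E3, cj_cj, E3_E3, cj_one]

variable {R : Fin 4 → Fin 4 → Fin 4 → Fin 4 → S} {O : Matrix (Fin 4) (Fin 4) S}

lemma cj_eq_flp (R : Fin 4 → Fin 4 → Fin 4 → Fin 4 → S) (O : Matrix (Fin 4) (Fin 4) S) :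
    cj O R = cj (E3 * O) (flp R) := by
  rw [← cj_E3, cj_cj, ← Matrix.mul_assoc, E3_E3, Matrix.one_mul]

lemma flp_cj (R : Fin 4 → Fin 4 → Fin 4 → Fin 4 → S) (O : Matrix (Fin 4) (Fin 4) S) :
    flp (cj O R) = cj (O * E3) R := by
  rw [← cj_E3, cj_cj]

lemma E3_mul_orth (hO : Oᵀ * O = 1) : (E3 * O)ᵀ * (E3 * O) = 1 := by
  rw [Matrix.transpose_mul, E3_T]
  calc Oᵀ * E3 * (E3 * O) = Oᵀ * (E3 * E3) * O := by simp only [Matrix.mul_assoc]
    _ = 1 := by rw [E3_E3, Matrix.mul_one, hO]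

lemma mul_E3_orth (hO : Oᵀ * O = 1) : (O * E3)ᵀ * (O * E3) = 1 := by
  rw [Matrix.transpose_mul, E3_T]
  calc E3 * Oᵀ * (O * E3) = E3 * (Oᵀ * O) * E3 := by simp only [Matrix.mul_assoc]
    _ = 1 := by rw [hO, Matrix.mul_one, E3_E3]

/-- `|W⁻|²` is invariant under rotations -/
theorem qqa_flp_cj (lam : S) (hR : Anti R) (hO : Oᵀ * O = 1) (hd : O.det = 1) :
    qqa lam (flp (cj O R)) = qqa lam (flp R) := by
  rw [flp_cj, cj_eq_flp, qqa_cj lam hR.flp]
  · exact E3_mul_orth (mul_E3_orth hO)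
  · rw [Matrix.det_mul, Matrix.det_mul, E3_det, hd]; ring

/-- reflections exchange `|W⁺|²` and `|W⁻|²` -/
theorem qqa_cj_neg (lam : S) (hR : Anti R) (hO : Oᵀ * O = 1) (hd : O.det = -1) :
    qqa lam (cj O R) = qqa lam (flp R) := by
  rw [cj_eq_flp, qqa_cj lam hR.flp (E3_mul_orth hO)]
  rw [Matrix.det_mul, E3_det, hd]; ring

theorem qqa_flp_cj_neg (lam : S) (hR : Anti R) (hO : Oᵀ * O = 1) (hd : O.det = -1) :
    qqa lam (flp (cj O R)) = qqa lam R := by
  rw [flp_cj, qqa_cj lam hR (mul_E3_orth hO)]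
  rw [Matrix.det_mul, E3_det, hd]; ring

/-- gauge law of the `Λ⁻` block -/
theorem AAa_flp_cj (hR : Anti R) (hO : Oᵀ * O = 1) (hd : O.det = 1) :
    Matrix.of (AAa (flp (cj O R)))
      = (rho (E3 * (O * E3)))ᵀ * Matrix.of (AAa (flp R)) * rho (E3 * (O * E3)) := by
  rw [flp_cj, cj_eq_flp]
  refine AAa_cj hR.flp (E3_mul_orth (mul_E3_orth hO)) ?_
  rw [Matrix.det_mul, Matrix.det_mul, E3_det, hd]; ring

end Crest.Agent.R249.Ga129
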