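/-
Row 249, part C1 (HK), helper654.  Gaussian asymptotics in `R^n`.

* `integrable_pow_mul_gauss` : `‖u‖^m exp (-b ‖u‖²)` is integrable;
* `tendsto_gauss` : if `ρ v = ρ₀ v + o(‖v‖²)`, `q v = h v + o(‖v‖^m)` at `0`, `ρ₀` homogeneous of degree 2,
  `h` homogeneous of degree `m`, `ρ ≥ c ‖v‖²` and `|q| ≤ C ‖v‖^m` on `S`, then
  `s^(-(m+n)) ∫_S exp (-ρ/(4 s²)) q → ∫ exp (-ρ₀/4) h` as `s → 0+`;
* `integral_gauss`, `integral_gauss_coord` : the moments of order 0 and 2.
-/
import Mathlib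

set_option autoImplicit false

open MeasureTheory Filter Topology Set
open scoped RealInnerProductSpace

noncomputable section

namespace Crest.Agent.R249.Gau1_654

variable {n : ℕ}

local notation "𝔼" => EuclideanSpace ℝ (Fin n)

theorem integrable_gauss {b : ℝ} (hb : 0 < b) :
    Integrable (fun u : 𝔼 => Real.exp (-b * ‖u‖ ^ 2)) := by
  have h := GaussianFourier.integrable_cexp_neg_mul_sq_norm_add (V := 𝔼) (b := (b : ℂ))
    (by simpa using hb) 0 0
  have h2 := h.norm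
  refine h2.congr (Eventually.of_forall fun u => ?_)
  simp only [Complex.norm_exp]
  norm_cast
  simp

theorem pow_mul_exp_le (m : ℕ) {b : ℝ} (hb : 0 < b) :
    ∃ K : ℝ, 0 < K ∧ ∀ r : ℝ, 0 ≤ r → r ^ m * Real.exp (-(2 * b) * r ^ 2) ≤ K * Real.exp (-b * r ^ 2) := by
  -- r^m exp(-b r²) is bounded
  have hlim : Tendsto (fun r : ℝ => r ^ m * Real.exp (-b * r ^ 2)) atTop (𝓝 0) := by
    have h1 : (fun r : ℝ => r ^ (m : ℝ) * Real.exp (-b * r ^ 2)) =o[atTop]
        (fun r : ℝ => Real.exp (-(1 / 2) * r)) :=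
      rpow_mul_exp_neg_mul_sq_isLittleO_exp_neg hb m
    have h2 : Tendsto (fun r : ℝ => Real.exp (-(1 / 2) * r)) atTop (𝓝 0) := by
      refine Real.tendsto_exp_atBot.comp ?_
      exact tendsto_id.const_mul_atTop_of_neg (by norm_num)
    have h3 := h1.trans_tendsto h2
    refine h3.congr fun r => ?_
    rw [Real.rpow_natCast]
  have hcont : Continuous (fun r : ℝ => r ^ m * Real.exp (-b * r ^ 2)) := by fun_prop
  obtain ⟨R, hR⟩ : ∃ R : ℝ, ∀ r ≥ R, r ^ m * Real.exp (-b * r ^ 2) < 1 :=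
    (hlim.eventually (gt_mem_nhds one_pos)).exists_forall_of_atTop
  obtain ⟨B, hB⟩ := (isCompact_Icc (a := (0 : ℝ)) (b := R)).exists_bound_of_continuousOn
    hcont.continuousOn
  refine ⟨max 1 B, lt_max_of_lt_left one_pos, fun r hr => ?_⟩
  have h4 : r ^ m * Real.exp (-b * r ^ 2) ≤ max 1 B := by
    rcases le_total r R with h | h
    · exact (le_abs_self _).trans ((hB r ⟨hr, h⟩).trans (le_max_right _ _))
    · exact (hR r h).le.trans (le_max_left _ _)
  have h5 : Real.exp (-(2 * b) * r ^ 2) = Real.exp (-b * r ^ 2) * Real.exp (-b * r ^ 2) := by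
    rw [← Real.exp_add]; ring_nf
  rw [h5, ← mul_assoc]
  exact mul_le_mul_of_nonneg_right h4 (Real.exp_pos _).le

theorem integrable_pow_mul_gauss (m : ℕ) {b : ℝ} (hb : 0 < b) :
    Integrable (fun u : 𝔼 => ‖u‖ ^ m * Real.exp (-b * ‖u‖ ^ 2)) := by
  obtain ⟨K, hK, h⟩ := pow_mul_exp_le m (b := b / 2) (by positivity)
  refine ((integrable_gauss (n := n) (b := b / 2) (by positivity)).const_mul K).mono' ?_ ?_
  · exact (Continuous.aestronglyMeasurable (by fun_prop))
  · refine Eventually.of_forall fun u => ?_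
    have h1 := h ‖u‖ (norm_nonneg _)
    rw [Real.norm_of_nonneg (by positivity)]
    have h2 : -(2 * (b / 2)) * ‖u‖ ^ 2 = -b * ‖u‖ ^ 2 := by ring
    rw [h2] at h1
    exact h1

/-- pointwise limit of the rescaled remainder -/
theorem tendsto_scaled {m : ℕ} {f h : 𝔼 → ℝ} (hh : ∀ (s : ℝ) (v : 𝔼), 0 < s → h (s • v) = s ^ m * h v)
    (hf : (fun v => f v - h v) =o[𝓝 0] fun v => ‖v‖ ^ m) (u : 𝔼) :
    Tendsto (fun s : ℝ => (s ^ m)⁻¹ * f (s • u)) (𝓝[>] 0) (𝓝 (h u)) := by
  have h0 : Tendsto (fun s : ℝ => s • u) (𝓝[>] 0) (𝓝 0) := by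
    have : Tendsto (fun s : ℝ => s • u) (𝓝 0) (𝓝 ((0 : ℝ) • u)) :=
      (continuous_id.smul continuous_const).tendsto 0
    rw [zero_smul] at this
    exact this.mono_left nhdsWithin_le_nhds
  have h1 := hf.comp_tendsto h0
  have h2 : (fun s : ℝ => (s ^ m)⁻¹ * (f (s • u) - h (s • u))) =o[𝓝[>] 0] fun _ : ℝ => (1 : ℝ) := by
    have h3 : (fun s : ℝ => (s ^ m)⁻¹ * (f (s • u) - h (s • u))) =o[𝓝[>] 0]
        (fun s : ℝ => (s ^ m)⁻¹ * ‖s • u‖ ^ m) :=
      (Asymptotics.isBigO_refl _ _).mul_isLittleO h1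
    refine h3.trans_isBigO ?_
    refine Asymptotics.IsBigO.of_bound (‖u‖ ^ m) ?_
    filter_upwards [self_mem_nhdsWithin] with s hs
    have hs' : (0 : ℝ) < s := hs
    rw [norm_smul, Real.norm_of_nonneg hs'.le, mul_pow, ← mul_assoc, inv_mul_cancel₀ (by positivity),
      one_mul, norm_one, mul_one, norm_pow, norm_norm]
  have h4 : Tendsto (fun s : ℝ => (s ^ m)⁻¹ * (f (s • u) - h (s • u))) (𝓝[>] 0) (𝓝 0) :=
    (Asymptotics.isLittleO_one_iff ℝ).1 h2
  have h5 : Tendsto (fun s : ℝ => (s ^ m)⁻¹ * (f (s • u) - h (s • u)) + h u) (𝓝[>] 0)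
      (𝓝 (0 + h u)) := h4.add_const _
  rw [zero_add] at h5
  refine h5.congr' ?_
  filter_upwards [self_mem_nhdsWithin] with s hs
  have hs' : (0 : ℝ) < s := hs
  rw [hh s u hs', mul_sub, ← mul_assoc (s ^ m)⁻¹, inv_mul_cancel₀ (by positivity)]
  ring

/-- **Gaussian asymptotics**. -/
theorem tendsto_gauss {m : ℕ} {S : Set 𝔼} (hS : S ∈ 𝓝 (0 : 𝔼)) {ρ q ρ₀ h : 𝔼 → ℝ} {c C : ℝ}
    (hc : 0 < c) (hρc : ∀ v ∈ S, c * ‖v‖ ^ 2 ≤ ρ v) (hqC : ∀ v ∈ S, |q v| ≤ C * ‖v‖ ^ m)
    (hρm : Measurable (S.indicator ρ)) (hqm : Measurable (S.indicator q)) (hSm : MeasurableSet S)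
    (hρ₀ : ∀ (s : ℝ) (v : 𝔼), 0 < s → ρ₀ (s • v) = s ^ 2 * ρ₀ v)
    (hh : ∀ (s : ℝ) (v : 𝔼), 0 < s → h (s • v) = s ^ m * h v)
    (hρ : (fun v => ρ v - ρ₀ v) =o[𝓝 0] fun v => ‖v‖ ^ 2)
    (hq : (fun v => q v - h v) =o[𝓝 0] fun v => ‖v‖ ^ m) :
    Tendsto (fun s : ℝ => (s ^ (m + n))⁻¹ * ∫ v in S, Real.exp (-ρ v / (4 * s ^ 2)) * q v)
      (𝓝[>] 0) (𝓝 (∫ v, Real.exp (-ρ₀ v / 4) * h v)) := by
  set F : ℝ → 𝔼 → ℝ := fun s u =>
    (s ^ m)⁻¹ * (Real.exp (-(S.indicator ρ (s • u)) / (4 * s ^ 2)) * S.indicator q (s • u)) with hF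
  have hC : 0 ≤ C * 1 ∨ S ⊆ {0} := by
    by_cases h : ∃ v ∈ S, v ≠ 0
    · obtain ⟨v, hv, hv0⟩ := h
      left
      have h1 := (abs_nonneg _).trans (hqC v hv)
      have h2 : 0 < ‖v‖ ^ m := by positivity
      by_contra h3
      push Not at h3
      nlinarith
    · right
      push Not at h
      intro v hv
      exact h v hv
  -- substitution
  have hsub : ∀ s : ℝ, 0 < s → (s ^ (m + n))⁻¹ * ∫ v in S, Real.exp (-ρ v / (4 * s ^ 2)) * q v
      = ∫ u, F s u := by
    intro s hs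
    have h1 : ∫ v in S, Real.exp (-ρ v / (4 * s ^ 2)) * q v
        = ∫ v, Real.exp (-(S.indicator ρ v) / (4 * s ^ 2)) * S.indicator q v := by
      rw [← integral_indicator hSm]
      congr 1
      ext v
      by_cases hv : v ∈ S
      · simp [indicator_of_mem hv]
      · simp [indicator_of_notMem hv]
    have h2 := Measure.integral_comp_smul (volume : Measure 𝔼)
      (fun v => Real.exp (-(S.indicator ρ v) / (4 * s ^ 2)) * S.indicator q v) s
    rw [h1]
    simp only [hF]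
    rw [integral_const_mul, h2, finrank_euclideanSpace_fin, abs_of_nonneg (by positivity), smul_eq_mul,
      ← mul_assoc, pow_add, mul_inv]
  have hmain : Tendsto (fun s : ℝ => ∫ u, F s u) (𝓝[>] 0)
      (𝓝 (∫ v, Real.exp (-ρ₀ v / 4) * h v)) := by
    refine tendsto_integral_filter_of_dominated_convergence
      (fun u : 𝔼 => |C| * (‖u‖ ^ m * Real.exp (-(c / 4) * ‖u‖ ^ 2))) ?_ ?_ ?_ ?_
    · filter_upwards with s
      refine Measurable.aestronglyMeasurable ?_
      have hm : Measurable (fun u : 𝔼 => s • u) := measurable_const_smul s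
      exact measurable_const.mul ((Real.measurable_exp.comp ((hρm.comp hm).neg.div_const _)).mul
        (hqm.comp hm))
    · filter_upwards [self_mem_nhdsWithin] with s hs
      have hs' : (0 : ℝ) < s := hs
      refine Eventually.of_forall fun u => ?_
      simp only [hF]
      by_cases hu : s • u ∈ S
      · rw [indicator_of_mem hu, indicator_of_mem hu, norm_mul, norm_mul, Real.norm_eq_abs,
          Real.norm_eq_abs, Real.norm_eq_abs, Real.abs_exp, abs_inv, abs_of_pos (pow_pos hs' m)]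
        have h1 := hρc _ hu
        have h2 := hqC _ hu
        rw [norm_smul, Real.norm_of_nonneg hs'.le] at h1 h2
        have h3 : Real.exp (-ρ (s • u) / (4 * s ^ 2)) ≤ Real.exp (-(c / 4) * ‖u‖ ^ 2) := by
          refine Real.exp_le_exp.2 ?_
          rw [div_le_iff₀ (by positivity)]
          nlinarith
        have h4 : |q (s • u)| ≤ |C| * (s ^ m * ‖u‖ ^ m) := by
          refine h2.trans ?_
          rw [mul_pow]
          exact mul_le_mul_of_nonneg_right (le_abs_self C) (by positivity)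
        calc (s ^ m)⁻¹ * (Real.exp (-ρ (s • u) / (4 * s ^ 2)) * |q (s • u)|)
            ≤ (s ^ m)⁻¹ * (Real.exp (-(c / 4) * ‖u‖ ^ 2) * (|C| * (s ^ m * ‖u‖ ^ m))) := by
              refine mul_le_mul_of_nonneg_left ?_ (by positivity)
              exact mul_le_mul h3 h4 (abs_nonneg _) (Real.exp_pos _).le
          _ = |C| * (‖u‖ ^ m * Real.exp (-(c / 4) * ‖u‖ ^ 2)) := by
              field_simp
      · rw [indicator_of_notMem hu, indicator_of_notMem hu]
        simp only [mul_zero, norm_zero]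
        positivity
    · exact (integrable_pow_mul_gauss m (by positivity)).const_mul _
    · refine Eventually.of_forall fun u => ?_
      have h1 := tendsto_scaled hρ₀ hρ u
      have h2 := tendsto_scaled hh hq u
      have h3 : Tendsto (fun s : ℝ => Real.exp (-((s ^ 2)⁻¹ * ρ (s • u)) / 4) *
          ((s ^ m)⁻¹ * q (s • u))) (𝓝[>] 0) (𝓝 (Real.exp (-ρ₀ u / 4) * h u)) :=
        ((Real.continuous_exp.tendsto _).comp ((h1.neg).div_const 4)).mul h2
      refine h3.congr' ?_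
      have h0 : Tendsto (fun s : ℝ => s • u) (𝓝[>] 0) (𝓝 0) := by
        have : Tendsto (fun s : ℝ => s • u) (𝓝 0) (𝓝 ((0 : ℝ) • u)) :=
          (continuous_id.smul continuous_const).tendsto 0
        rw [zero_smul] at this
        exact this.mono_left nhdsWithin_le_nhds
      filter_upwards [h0 hS, self_mem_nhdsWithin] with s hs1 hs2
      have hs' : (0 : ℝ) < s := hs2
      simp only [hF]
      rw [indicator_of_mem (show s • u ∈ S from hs1), indicator_of_mem (show s • u ∈ S from hs1)]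
      have h4 : -ρ (s • u) / (4 * s ^ 2) = -((s ^ 2)⁻¹ * ρ (s • u)) / 4 := by
        field_simp
      rw [h4]
      ring
  refine hmain.congr' ?_
  filter_upwards [self_mem_nhdsWithin] with s hs
  exact (hsub s hs).symm

end Crest.Agent.R249.Gau1_654
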