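/-
Row 249, part C1 (HK), helper654.  Moments of the Gaussian in `R^n` and the final asymptotics.

* `integral_gauss` : `∫ exp (-‖u‖²/4) = (4π)^(n/2)`;
* `integral_gauss_inner` : `∫ exp (-‖u‖²/4) ⟪u,v⟫⟪u,w⟫ = 2 ⟪v,w⟫ (4π)^(n/2)`;
* `integral_gauss_bilin` : `∫ exp (-‖u‖²/4) B u u = 2 (4π)^(n/2) ∑ B e_i e_i`;
* `tendsto_gauss_zero`, `tendsto_gauss_two` : the limits of `(4πσ)^(-n/2) ∫_S exp (-ρ/(4σ)) q` for
  `ρ ~ ‖A v‖²`.
-/
import Crest.Agent.R249.Gau1_654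

set_option autoImplicit false

open MeasureTheory Filter Topology Set
open scoped RealInnerProductSpace

noncomputable section

namespace Crest.Agent.R249.Gau2_654

open Gau1_654

variable {n : ℕ}

local notation "𝔼" => EuclideanSpace ℝ (Fin n)

/-- the normalising constant `(4π)^(n/2)` -/
def gc (n : ℕ) : ℝ := (4 * Real.pi) ^ ((n : ℝ) / 2)

theorem gc_pos (n : ℕ) : 0 < gc n := Real.rpow_pos_of_pos (by positivity) _

theorem gc_ne (n : ℕ) : gc n ≠ 0 := (gc_pos n).ne'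

theorem integral_gauss : ∫ u : 𝔼, Real.exp (-‖u‖ ^ 2 / 4) = gc n := by
  have h := GaussianFourier.integral_rexp_neg_mul_sq_norm (V := 𝔼) (b := 1 / 4) (by norm_num)
  rw [finrank_euclideanSpace_fin] at h
  have h1 : (fun u : 𝔼 => Real.exp (-‖u‖ ^ 2 / 4)) = fun u : 𝔼 => Real.exp (-(1 / 4) * ‖u‖ ^ 2) := by
    ext u
    congr 1
    ring
  rw [h1, h, gc]
  congr 1
  ring

theorem hasFDerivAt_gauss (u : 𝔼) :
    HasFDerivAt (fun u : 𝔼 => Real.exp (-‖u‖ ^ 2 / 4))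
      (Real.exp (-‖u‖ ^ 2 / 4) • ((-(1 / 2 : ℝ)) • (innerSL ℝ u))) u := by
  have h1 : HasFDerivAt (fun u : 𝔼 => ‖u‖ ^ 2) (2 • (innerSL ℝ u)) u :=
    (hasStrictFDerivAt_norm_sq u).hasFDerivAt
  have h2 : HasFDerivAt (fun u : 𝔼 => -‖u‖ ^ 2 / 4) ((-(1 / 2 : ℝ)) • (innerSL ℝ u)) u := by
    have h3 := (h1.const_mul (-(1 / 4 : ℝ)))
    have h4 : (fun u : 𝔼 => -(1 / 4 : ℝ) * ‖u‖ ^ 2) = fun u : 𝔼 => -‖u‖ ^ 2 / 4 := by
      ext u; ring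
    rw [h4] at h3
    have h5 : (-(1 / 4 : ℝ)) • (2 • (innerSL ℝ u)) = (-(1 / 2 : ℝ)) • (innerSL ℝ u) := by
      rw [← Nat.cast_smul_eq_nsmul ℝ, smul_smul]
      norm_num
    rw [h5] at h3
    exact h3
  exact h2.exp

theorem exp_form (u : 𝔼) : Real.exp (-‖u‖ ^ 2 / 4) = Real.exp (-(1 / 4) * ‖u‖ ^ 2) := by
  congr 1; ring

theorem integrable_of_le {f : 𝔼 → ℝ} (hf : Continuous f) {K : ℝ} {m : ℕ}
    (h : ∀ u, |f u| ≤ K * ‖u‖ ^ m) :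
    Integrable (fun u : 𝔼 => Real.exp (-‖u‖ ^ 2 / 4) * f u) := by
  refine ((integrable_pow_mul_gauss (n := n) m (b := 1 / 4) (by norm_num)).const_mul K).mono' ?_ ?_
  · exact Continuous.aestronglyMeasurable (by fun_prop)
  · refine Eventually.of_forall fun u => ?_
    rw [norm_mul, Real.norm_eq_abs, Real.norm_eq_abs, Real.abs_exp, exp_form]
    calc Real.exp (-(1 / 4) * ‖u‖ ^ 2) * |f u| ≤ Real.exp (-(1 / 4) * ‖u‖ ^ 2) * (K * ‖u‖ ^ m) :=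
          mul_le_mul_of_nonneg_left (h u) (Real.exp_pos _).le
      _ = K * (‖u‖ ^ m * Real.exp (-(1 / 4) * ‖u‖ ^ 2)) := by ring

theorem integral_gauss_inner (v w : 𝔼) :
    ∫ u : 𝔼, Real.exp (-‖u‖ ^ 2 / 4) * (⟪u, v⟫ * ⟪u, w⟫) = 2 * ⟪v, w⟫ * gc n := by
  have hwd : ∀ u : 𝔼, HasFDerivAt (fun u : 𝔼 => ⟪u, w⟫) (innerSL ℝ w) u := by
    intro u
    have h1 := (innerSL ℝ w).hasFDerivAt (x := u)
    refine h1.congr_of_eventuallyEq (Eventually.of_forall fun z => ?_)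
    simp [real_inner_comm]
  have hfd : ∀ u : 𝔼, fderiv ℝ (fun u : 𝔼 => ⟪u, w⟫) u v = ⟪v, w⟫ := by
    intro u
    rw [(hwd u).fderiv]
    simp [real_inner_comm]
  have hgd : ∀ u : 𝔼, fderiv ℝ (fun u : 𝔼 => Real.exp (-‖u‖ ^ 2 / 4)) u v
      = -(1 / 2) * (Real.exp (-‖u‖ ^ 2 / 4) * ⟪u, v⟫) := by
    intro u
    rw [(hasFDerivAt_gauss u).fderiv]
    simp
    ring
  have hb : ∀ u : 𝔼, |⟪u, v⟫ * ⟪u, w⟫| ≤ (‖v‖ * ‖w‖) * ‖u‖ ^ 2 := by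
    intro u
    rw [abs_mul]
    calc |⟪u, v⟫| * |⟪u, w⟫| ≤ (‖u‖ * ‖v‖) * (‖u‖ * ‖w‖) :=
          mul_le_mul (abs_real_inner_le_norm _ _) (abs_real_inner_le_norm _ _) (abs_nonneg _)
            (by positivity)
      _ = (‖v‖ * ‖w‖) * ‖u‖ ^ 2 := by ring
  have hi0 : Integrable (fun u : 𝔼 => Real.exp (-‖u‖ ^ 2 / 4) * (⟪u, v⟫ * ⟪u, w⟫)) :=
    integrable_of_le (by fun_prop) hb
  have hi1 : Integrable (fun u : 𝔼 => Real.exp (-‖u‖ ^ 2 / 4) * ⟪u, w⟫) := by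
    refine integrable_of_le (K := ‖w‖) (m := 1) (by fun_prop) fun u => ?_
    rw [pow_one, mul_comm]
    exact abs_real_inner_le_norm _ _
  have hi2 : Integrable (fun u : 𝔼 => Real.exp (-‖u‖ ^ 2 / 4) * (1 : ℝ)) := by
    refine integrable_of_le (K := 1) (m := 0) (by fun_prop) fun u => ?_
    simp
  have h := integral_mul_fderiv_eq_neg_fderiv_mul_of_integrable (μ := (volume : Measure 𝔼))
    (f := fun u : 𝔼 => ⟪u, w⟫) (g := fun u : 𝔼 => Real.exp (-‖u‖ ^ 2 / 4)) (v := v)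
    (by
      refine (hi2.const_mul ⟪v, w⟫).congr (Eventually.of_forall fun u => ?_)
      show ⟪v, w⟫ * (Real.exp (-‖u‖ ^ 2 / 4) * 1)
        = fderiv ℝ (fun u : 𝔼 => ⟪u, w⟫) u v * Real.exp (-‖u‖ ^ 2 / 4)
      rw [hfd, mul_one])
    (by
      refine (hi0.const_mul (-(1 / 2 : ℝ))).congr (Eventually.of_forall fun u => ?_)
      show -(1 / 2) * (Real.exp (-‖u‖ ^ 2 / 4) * (⟪u, v⟫ * ⟪u, w⟫))
        = ⟪u, w⟫ * fderiv ℝ (fun u : 𝔼 => Real.exp (-‖u‖ ^ 2 / 4)) u v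
      rw [hgd]
      ring)
    (by
      refine hi1.congr (Eventually.of_forall fun u => ?_)
      show Real.exp (-‖u‖ ^ 2 / 4) * ⟪u, w⟫ = _
      ring)
    (fun u _ => (hwd u).differentiableAt)
    (fun u _ => (hasFDerivAt_gauss u).differentiableAt)
  have h1 : ∫ u : 𝔼, ⟪u, w⟫ * fderiv ℝ (fun u : 𝔼 => Real.exp (-‖u‖ ^ 2 / 4)) u v
      = -(1 / 2) * ∫ u : 𝔼, Real.exp (-‖u‖ ^ 2 / 4) * (⟪u, v⟫ * ⟪u, w⟫) := by
    rw [← integral_const_mul]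
    congr 1
    ext u
    rw [hgd]
    ring
  have h2 : ∫ u : 𝔼, fderiv ℝ (fun u : 𝔼 => ⟪u, w⟫) u v * Real.exp (-‖u‖ ^ 2 / 4)
      = ⟪v, w⟫ * gc n := by
    rw [← integral_gauss, ← integral_const_mul]
    congr 1
    ext u
    rw [hfd]
  rw [h1, h2] at h
  linarith

theorem integral_gauss_bilin (B : 𝔼 →L[ℝ] 𝔼 →L[ℝ] ℝ) :
    ∫ u : 𝔼, Real.exp (-‖u‖ ^ 2 / 4) * B u u
      = 2 * gc n * ∑ i, B (EuclideanSpace.single i 1) (EuclideanSpace.single i 1) := by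
  have hexp : ∀ u : 𝔼, B u u = ∑ i, ∑ j, (⟪u, EuclideanSpace.single i (1 : ℝ)⟫ *
      ⟪u, EuclideanSpace.single j (1 : ℝ)⟫) * B (EuclideanSpace.single i 1) (EuclideanSpace.single j 1) := by
    intro u
    have hu : u = ∑ i, ⟪u, EuclideanSpace.single i (1 : ℝ)⟫ • EuclideanSpace.single i (1 : ℝ) := by
      conv_lhs => rw [← (EuclideanSpace.basisFun (Fin n) ℝ).sum_repr' u]
      refine Finset.sum_congr rfl fun i _ => ?_
      rw [EuclideanSpace.basisFun_apply, real_inner_comm]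
    conv_lhs => rw [hu]
    simp only [map_sum, map_smul, sum_apply, FunLike.coe_smul, Pi.smul_apply,
      smul_eq_mul, Finset.mul_sum]
    rw [Finset.sum_comm]
    refine Finset.sum_congr rfl fun i _ => Finset.sum_congr rfl fun j _ => ?_
    ring
  have hi : ∀ i j : Fin n, Integrable (fun u : 𝔼 => Real.exp (-‖u‖ ^ 2 / 4) *
      (⟪u, EuclideanSpace.single i (1 : ℝ)⟫ * ⟪u, EuclideanSpace.single j (1 : ℝ)⟫)) := by
    intro i j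
    refine integrable_of_le (K := 1) (m := 2) (by fun_prop) fun u => ?_
    rw [abs_mul]
    calc |⟪u, EuclideanSpace.single i (1 : ℝ)⟫| * |⟪u, EuclideanSpace.single j (1 : ℝ)⟫|
        ≤ (‖u‖ * ‖EuclideanSpace.single i (1 : ℝ)‖) * (‖u‖ * ‖EuclideanSpace.single j (1 : ℝ)‖) :=
          mul_le_mul (abs_real_inner_le_norm _ _) (abs_real_inner_le_norm _ _) (abs_nonneg _)
            (by positivity)
      _ = 1 * ‖u‖ ^ 2 := by simp; ring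
  have h0 : (fun u : 𝔼 => Real.exp (-‖u‖ ^ 2 / 4) * B u u) = fun u : 𝔼 => ∑ i, ∑ j,
      (Real.exp (-‖u‖ ^ 2 / 4) * (⟪u, EuclideanSpace.single i (1 : ℝ)⟫ *
        ⟪u, EuclideanSpace.single j (1 : ℝ)⟫)) *
          B (EuclideanSpace.single i 1) (EuclideanSpace.single j 1) := by
    ext u
    rw [hexp u, Finset.mul_sum]
    refine Finset.sum_congr rfl fun i _ => ?_
    rw [Finset.mul_sum]
    refine Finset.sum_congr rfl fun j _ => ?_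
    ring
  rw [h0, integral_finsetSum]
  swap
  · intro i _
    exact integrable_finsetSum _ fun j _ => (hi i j).mul_const _
  have h1 : ∀ i : Fin n, ∫ u : 𝔼, ∑ j, (Real.exp (-‖u‖ ^ 2 / 4) *
      (⟪u, EuclideanSpace.single i (1 : ℝ)⟫ * ⟪u, EuclideanSpace.single j (1 : ℝ)⟫)) *
          B (EuclideanSpace.single i 1) (EuclideanSpace.single j 1)
      = 2 * gc n * B (EuclideanSpace.single i 1) (EuclideanSpace.single i 1) := by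
    intro i
    rw [integral_finsetSum]
    swap
    · intro j _
      exact (hi i j).mul_const _
    rw [Finset.sum_eq_single i]
    · rw [integral_mul_const, integral_gauss_inner]
      simp
    · intro j _ hj
      rw [integral_mul_const, integral_gauss_inner]
      have hij : ⟪(EuclideanSpace.single i 1 : 𝔼), EuclideanSpace.single j (1 : ℝ)⟫ = 0 := by
        rw [EuclideanSpace.inner_single_left]
        simp [hj.symm]
      rw [hij]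
      simp
    · simp
  simp only [h1]
  rw [← Finset.mul_sum]

/-- linear change of variables -/
theorem integral_comp_equiv (A : 𝔼 ≃L[ℝ] 𝔼) (F : 𝔼 → ℝ) :
    ∫ v : 𝔼, F (A v) = |(A : 𝔼 →L[ℝ] 𝔼).det|⁻¹ * ∫ v : 𝔼, F v := by
  have hdet : LinearMap.det ((A : 𝔼 →L[ℝ] 𝔼) : 𝔼 →ₗ[ℝ] 𝔼) ≠ 0 := by
    have h := LinearEquiv.isUnit_det' A.toLinearEquiv
    exact h.ne_zero
  have h1 : Measure.map (fun v => A v) (volume : Measure 𝔼)
      = ENNReal.ofReal |(LinearMap.det ((A : 𝔼 →L[ℝ] 𝔼) : 𝔼 →ₗ[ℝ] 𝔼))⁻¹| • (volume : Measure 𝔼) :=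
    Measure.map_linearMap_addHaar_eq_smul_addHaar _ hdet
  have h2 : ∫ v : 𝔼, F (A v) = ∫ v, F v ∂(Measure.map (fun v => A v) (volume : Measure 𝔼)) :=
    (A.toHomeomorph.measurableEmbedding.integral_map F).symm
  rw [h2, h1, integral_smul_measure, ENNReal.toReal_ofReal (abs_nonneg _), abs_inv, smul_eq_mul]

theorem integral_gauss_comp (A : 𝔼 ≃L[ℝ] 𝔼) :
    ∫ v : 𝔼, Real.exp (-‖A v‖ ^ 2 / 4) = |(A : 𝔼 →L[ℝ] 𝔼).det|⁻¹ * gc n := by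
  rw [integral_comp_equiv A (fun v => Real.exp (-‖v‖ ^ 2 / 4)), integral_gauss]

theorem integral_gauss_bilin_comp (A : 𝔼 ≃L[ℝ] 𝔼) (B : 𝔼 →L[ℝ] 𝔼 →L[ℝ] ℝ) :
    ∫ v : 𝔼, Real.exp (-‖A v‖ ^ 2 / 4) * B v v
      = |(A : 𝔼 →L[ℝ] 𝔼).det|⁻¹ * (2 * gc n * ∑ i, B (A.symm (EuclideanSpace.single i 1))
          (A.symm (EuclideanSpace.single i 1))) := by
  have h := integral_gauss_bilin (n := n)
    (((ContinuousLinearMap.compL ℝ 𝔼 𝔼 ℝ).flip (A.symm : 𝔼 →L[ℝ] 𝔼)).comp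
      (B.comp (A.symm : 𝔼 →L[ℝ] 𝔼)))
  have h1 : (fun v : 𝔼 => Real.exp (-‖A v‖ ^ 2 / 4) * B v v)
      = fun v : 𝔼 => (fun w : 𝔼 => Real.exp (-‖w‖ ^ 2 / 4) * B (A.symm w) (A.symm w)) (A v) := by
    ext v
    simp
  rw [h1, integral_comp_equiv A (fun w : 𝔼 => Real.exp (-‖w‖ ^ 2 / 4) * B (A.symm w) (A.symm w))]
  congr 1

/-- the Gaussian kernel normalisation -/
def nrm (n : ℕ) (σ : ℝ) : ℝ := (4 * Real.pi * σ) ^ (-((n : ℝ) / 2))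

theorem nrm_sq {s : ℝ} (hs : 0 < s) : nrm n (s ^ 2) = (gc n)⁻¹ * (s ^ n)⁻¹ := by
  unfold nrm gc
  rw [Real.mul_rpow (by positivity) (by positivity), Real.rpow_neg (by positivity),
    Real.rpow_neg (by positivity)]
  congr 2
  rw [← Real.rpow_natCast s 2, ← Real.rpow_mul hs.le]
  have h : ((2 : ℕ) : ℝ) * ((n : ℝ) / 2) = (n : ℝ) := by push_cast; ring
  rw [h, Real.rpow_natCast]

theorem tendsto_sqrt_pos : Tendsto Real.sqrt (𝓝[>] 0) (𝓝[>] 0) := by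
  refine tendsto_nhdsWithin_iff.2 ⟨?_, ?_⟩
  · have h : Tendsto Real.sqrt (𝓝 0) (𝓝 (Real.sqrt 0)) := Real.continuous_sqrt.tendsto 0
    rw [Real.sqrt_zero] at h
    exact h.mono_left nhdsWithin_le_nhds
  · filter_upwards [self_mem_nhdsWithin] with s hs
    exact Real.sqrt_pos.2 hs

/-- general form in the variable `σ = s²` -/
theorem tendsto_gauss_general {m : ℕ} {S : Set 𝔼} (hS : S ∈ 𝓝 (0 : 𝔼)) {ρ q ρ₀ h : 𝔼 → ℝ} {c C : ℝ}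
    (hc : 0 < c) (hρc : ∀ v ∈ S, c * ‖v‖ ^ 2 ≤ ρ v) (hqC : ∀ v ∈ S, |q v| ≤ C * ‖v‖ ^ m)
    (hρm : Measurable (S.indicator ρ)) (hqm : Measurable (S.indicator q)) (hSm : MeasurableSet S)
    (hρ₀ : ∀ (s : ℝ) (v : 𝔼), 0 < s → ρ₀ (s • v) = s ^ 2 * ρ₀ v)
    (hh : ∀ (s : ℝ) (v : 𝔼), 0 < s → h (s • v) = s ^ m * h v)
    (hρ : (fun v => ρ v - ρ₀ v) =o[𝓝 0] fun v => ‖v‖ ^ 2)
    (hq : (fun v => q v - h v) =o[𝓝 0] fun v => ‖v‖ ^ m) :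
    Tendsto (fun σ : ℝ => (Real.sqrt σ ^ m)⁻¹ * (nrm n σ * ∫ v in S, Real.exp (-ρ v / (4 * σ)) * q v))
      (𝓝[>] 0) (𝓝 ((gc n)⁻¹ * ∫ v, Real.exp (-ρ₀ v / 4) * h v)) := by
  have h1 := (tendsto_gauss hS hc hρc hqC hρm hqm hSm hρ₀ hh hρ hq).comp tendsto_sqrt_pos
  have h2 := h1.const_mul (gc n)⁻¹
  refine h2.congr' ?_
  filter_upwards [self_mem_nhdsWithin] with σ hσ
  have hs : 0 < Real.sqrt σ := Real.sqrt_pos.2 hσ
  have h3 := nrm_sq (n := n) hs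
  have h4 : Real.sqrt σ ^ 2 = σ := Real.sq_sqrt (le_of_lt hσ)
  rw [h4] at h3
  simp only [Function.comp]
  rw [h3, h4, pow_add, mul_inv]
  ring

/-- order zero -/
theorem tendsto_gauss_zero {S : Set 𝔼} (hS : S ∈ 𝓝 (0 : 𝔼)) {ρ q : 𝔼 → ℝ} {c C : ℝ}
    (hc : 0 < c) (hρc : ∀ v ∈ S, c * ‖v‖ ^ 2 ≤ ρ v) (hqC : ∀ v ∈ S, |q v| ≤ C)
    (hρm : Measurable (S.indicator ρ)) (hqm : Measurable (S.indicator q)) (hSm : MeasurableSet S)
    (A : 𝔼 ≃L[ℝ] 𝔼) (hρ : (fun v => ρ v - ‖A v‖ ^ 2) =o[𝓝 0] fun v => ‖v‖ ^ 2)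
    {q₀ : ℝ} (hq : Tendsto q (𝓝 0) (𝓝 q₀)) :
    Tendsto (fun σ : ℝ => nrm n σ * ∫ v in S, Real.exp (-ρ v / (4 * σ)) * q v)
      (𝓝[>] 0) (𝓝 (|(A : 𝔼 →L[ℝ] 𝔼).det|⁻¹ * q₀)) := by
  have h := tendsto_gauss_general (m := 0) (ρ₀ := fun v => ‖A v‖ ^ 2) (h := fun _ => q₀) hS hc hρc
    (C := C) (fun v hv => by simpa using hqC v hv) hρm hqm hSm
    (fun s v hs => by
      show ‖A (s • v)‖ ^ 2 = s ^ 2 * ‖A v‖ ^ 2
      rw [map_smul, norm_smul, mul_pow, Real.norm_of_nonneg hs.le])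
    (fun s v hs => by simp) hρ
    (by
      have h1 : Tendsto (fun v => q v - q₀) (𝓝 0) (𝓝 0) := by
        simpa using hq.sub_const q₀
      simpa using (Asymptotics.isLittleO_one_iff ℝ).2 h1)
  simp only [pow_zero, inv_one, one_mul] at h
  rw [integral_mul_const, integral_gauss_comp] at h
  have h2 : (gc n)⁻¹ * (|(A : 𝔼 →L[ℝ] 𝔼).det|⁻¹ * gc n * q₀) = |(A : 𝔼 →L[ℝ] 𝔼).det|⁻¹ * q₀ := by
    have := gc_ne n
    field_simp
  rw [h2] at h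
  exact h

/-- order two -/
theorem tendsto_gauss_two {S : Set 𝔼} (hS : S ∈ 𝓝 (0 : 𝔼)) {ρ q : 𝔼 → ℝ} {c C : ℝ}
    (hc : 0 < c) (hρc : ∀ v ∈ S, c * ‖v‖ ^ 2 ≤ ρ v) (hqC : ∀ v ∈ S, |q v| ≤ C * ‖v‖ ^ 2)
    (hρm : Measurable (S.indicator ρ)) (hqm : Measurable (S.indicator q)) (hSm : MeasurableSet S)
    (A : 𝔼 ≃L[ℝ] 𝔼) (hρ : (fun v => ρ v - ‖A v‖ ^ 2) =o[𝓝 0] fun v => ‖v‖ ^ 2)
    {B : 𝔼 →L[ℝ] 𝔼 →L[ℝ] ℝ} (hq : (fun v => q v - B v v) =o[𝓝 0] fun v => ‖v‖ ^ 2) :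
    Tendsto (fun σ : ℝ => σ⁻¹ * (nrm n σ * ∫ v in S, Real.exp (-ρ v / (4 * σ)) * q v))
      (𝓝[>] 0) (𝓝 (|(A : 𝔼 →L[ℝ] 𝔼).det|⁻¹ * (2 * ∑ i, B (A.symm (EuclideanSpace.single i 1))
          (A.symm (EuclideanSpace.single i 1))))) := by
  have h := tendsto_gauss_general (m := 2) (ρ₀ := fun v => ‖A v‖ ^ 2) (h := fun v => B v v) hS hc hρc
    (C := C) hqC hρm hqm hSm
    (fun s v hs => by
      show ‖A (s • v)‖ ^ 2 = s ^ 2 * ‖A v‖ ^ 2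
      rw [map_smul, norm_smul, mul_pow, Real.norm_of_nonneg hs.le])
    (fun s v hs => by
      simp only [map_smul, FunLike.coe_smul, Pi.smul_apply, smul_eq_mul]
      ring) hρ hq
  rw [integral_gauss_bilin_comp] at h
  have h2 : (gc n)⁻¹ * (|(A : 𝔼 →L[ℝ] 𝔼).det|⁻¹ * (2 * gc n * ∑ i, B (A.symm (EuclideanSpace.single i 1))
          (A.symm (EuclideanSpace.single i 1)))) = |(A : 𝔼 →L[ℝ] 𝔼).det|⁻¹ *
          (2 * ∑ i, B (A.symm (EuclideanSpace.single i 1)) (A.symm (EuclideanSpace.single i 1))) := by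
    have := gc_ne n
    field_simp
  rw [h2] at h
  refine h.congr' ?_
  filter_upwards [self_mem_nhdsWithin] with σ hσ
  rw [Real.sq_sqrt (le_of_lt hσ)]

end Crest.Agent.R249.Gau2_654
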