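/-
Row 249, part C1 (HK), helper654.  Gaussian asymptotics on a closed Riemannian manifold.

`x` is a point of the source of the chart at `x₀`, `A` an isometry from `(R^n, g_x)` to `R^n`,
`rho ≥ c dist x ·²`, `rho = dist x ·² (1 + o(1))` at `x`.

* `tendsto_gauss_M` : general form, `q z = h (φ z - φ x) + o(dist^m)`, `h` homogeneous of degree `m`;
* `tendsto_gauss_M_zero` : (G0) `(4πσ)^(-n/2) ∫ exp (-rho/(4σ)) f → f x`;
* `tendsto_gauss_M_two` : (G1) `σ⁻¹ (4πσ)^(-n/2) ∫ exp (-rho/(4σ)) q → 2 ∑ B (A⁻¹ e_i) (A⁻¹ e_i)`.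
-/
import Crest.Agent.R247.Ms10_322
import Crest.Agent.R249.Gau2_654

set_option autoImplicit false
set_option maxSynthPendingDepth 3
set_option linter.unusedSectionVars false
set_option linter.unusedVariables false

open Bundle Bornology Set MeasureTheory Manifold Filter Metric
open scoped ENNReal ContDiff Topology NNReal
open Crest.GeometryTopology.CoordMetric Crest.GeometryTopology.ChartCurvature
open Crest.GeometryTopology.Geodesic
open Crest.Agent.R226.ChartMet842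

noncomputable section

namespace Crest.Agent.R249.Gau3_654

open Gau1_654 Gau2_654
open Crest.Agent.R247.Ms322 (dens exists_isometry exists_bilip continuousOn_dens dens_pos dens_nonneg
  integral_symm_image)

/-- exponential smallness of the far part -/
theorem tendsto_far (n m : ℕ) {b : ℝ} (hb : 0 < b) :
    Tendsto (fun σ : ℝ => (Real.sqrt σ ^ m)⁻¹ * (nrm n σ * Real.exp (-b / σ))) (𝓝[>] 0) (𝓝 0) := by
  obtain ⟨K, hK, h⟩ := pow_mul_exp_le (m + n) (b := b / 2) (by positivity)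
  have h1 : Tendsto (fun σ : ℝ => (gc n)⁻¹ * (K * Real.exp (-(b / 2) / σ))) (𝓝[>] 0) (𝓝 0) := by
    have h2 : Tendsto (fun σ : ℝ => -(b / 2) / σ) (𝓝[>] 0) atBot := by
      have h3 := tendsto_inv_nhdsGT_zero (𝕜 := ℝ)
      exact h3.const_mul_atTop_of_neg (by linarith : -(b / 2) < 0)
    have h4 := (Real.tendsto_exp_atBot.comp h2).const_mul K
    have h5 := h4.const_mul (gc n)⁻¹
    simpa using h5
  refine squeeze_zero' ?_ ?_ h1
  · filter_upwards [self_mem_nhdsWithin] with σ hσ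
    have : 0 ≤ nrm n σ := Real.rpow_nonneg (by have : (0:ℝ) < σ := hσ; positivity) _
    positivity
  · filter_upwards [self_mem_nhdsWithin] with σ hσ
    have hσ' : (0 : ℝ) < σ := hσ
    have hs : 0 < Real.sqrt σ := Real.sqrt_pos.2 hσ'
    have h3 := nrm_sq (n := n) hs
    have h4 : Real.sqrt σ ^ 2 = σ := Real.sq_sqrt hσ'.le
    rw [h4] at h3
    rw [h3]
    have h5 := h (Real.sqrt σ)⁻¹ (by positivity)
    have h6 : -(2 * (b / 2)) * (Real.sqrt σ)⁻¹ ^ 2 = -b / σ := by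
      rw [inv_pow, h4]; field_simp
    have h7 : -(b / 2) * (Real.sqrt σ)⁻¹ ^ 2 = -(b / 2) / σ := by
      rw [inv_pow, h4]; field_simp
    rw [h6, h7] at h5
    calc (Real.sqrt σ ^ m)⁻¹ * ((gc n)⁻¹ * (Real.sqrt σ ^ n)⁻¹ * Real.exp (-b / σ))
        = (gc n)⁻¹ * ((Real.sqrt σ)⁻¹ ^ (m + n) * Real.exp (-b / σ)) := by
          rw [pow_add, inv_pow, inv_pow]; ring
      _ ≤ (gc n)⁻¹ * (K * Real.exp (-(b / 2) / σ)) :=
          mul_le_mul_of_nonneg_left h5 (inv_nonneg.2 (gc_pos n).le)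

section M

variable {n : ℕ} {M : Type*} [MetricSpace M] [ChartedSpace (EuclideanSpace ℝ (Fin n)) M]
  [IsManifold (𝓡 n) ∞ M]
  [RiemannianBundle (fun p : M => TangentSpace (𝓡 n) p)]
  [IsContMDiffRiemannianBundle (𝓡 n) ∞ (EuclideanSpace ℝ (Fin n)) (fun p : M => TangentSpace (𝓡 n) p)]
  [IsRiemannianManifold (𝓡 n) M] [MeasurableSpace M] [BorelSpace M]

local notation "𝔼" => EuclideanSpace ℝ (Fin n)

theorem measurable_indicator_comp {rho : M → ℝ} (hm : Measurable rho) {S : Set 𝔼}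
    (hS : MeasurableSet S) {ψ : 𝔼 → M} (hψ : ContinuousOn ψ S) :
    Measurable (S.indicator fun v => rho (ψ v)) := by
  classical
  rcases S.eq_empty_or_nonempty with rfl | ⟨v₀, hv₀⟩
  · simp only [indicator_empty]
    exact measurable_const
  have h := hψ.measurable_piecewise (continuousOn_const (c := ψ v₀) (s := Sᶜ)) hS
  have h2 : (S.indicator fun v => rho (ψ v))
      = S.indicator (fun v => rho (S.piecewise ψ (fun _ => ψ v₀) v)) := by
    ext v
    by_cases hv : v ∈ S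
    · rw [indicator_of_mem hv, indicator_of_mem hv, piecewise_eq_of_mem _ _ _ hv]
    · rw [indicator_of_notMem hv, indicator_of_notMem hv]
  rw [h2]
  exact (hm.comp h).indicator hS

/-- two-sided comparison of the distance with the norm in the chart -/
theorem exists_ball_compare (x₀ : M) {x : M} (hx : x ∈ (chartAt 𝔼 x₀).source) {A : 𝔼 ≃L[ℝ] 𝔼}
    (hA : ∀ u v, inner ℝ (A u) (A v) = gm x₀ (chartAt 𝔼 x₀ x) u v) {η : ℝ} (hη : 0 < η) :
    ∃ r : ℝ, 0 < r ∧ ball (chartAt 𝔼 x₀ x) r ⊆ (chartAt 𝔼 x₀).target ∧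
      ∀ v : 𝔼, ‖v‖ < r → dist x ((chartAt 𝔼 x₀).symm (chartAt 𝔼 x₀ x + v)) ≤ (1 + η) * ‖A v‖ ∧
        ‖A v‖ ≤ (1 + η) * dist x ((chartAt 𝔼 x₀).symm (chartAt 𝔼 x₀ x + v)) := by
  set a := chartAt 𝔼 x₀ x with ha_def
  have ha : a ∈ (chartAt 𝔼 x₀).target := (chartAt 𝔼 x₀).map_source hx
  obtain ⟨r, hr, hrt, hL1, hL2⟩ := exists_bilip (n := n) x₀ ha hA (η := ⟨η, hη.le⟩) hη
  refine ⟨r, hr, hrt, fun v hv => ?_⟩
  have hxa : (chartAt 𝔼 x₀).symm a = x := (chartAt 𝔼 x₀).left_inv hx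
  have hav : a + v ∈ ball a r := by simpa [mem_ball, dist_eq_norm] using hv
  have haa : a ∈ ball a r := mem_ball_self hr
  constructor
  · have h := hL1.dist_le_mul (A a) (mem_image_of_mem _ haa) (A (a + v)) (mem_image_of_mem _ hav)
    simp only [ContinuousLinearEquiv.symm_apply_apply, hxa] at h
    refine h.trans (le_of_eq ?_)
    rw [dist_eq_norm, map_add, sub_add_cancel_left, norm_neg]
    rfl
  · have h := hL2.dist_le_mul ((chartAt 𝔼 x₀).symm a) (mem_image_of_mem _ haa)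
      ((chartAt 𝔼 x₀).symm (a + v)) (mem_image_of_mem _ hav)
    rw [(chartAt 𝔼 x₀).right_inv ha, (chartAt 𝔼 x₀).right_inv (hrt hav), hxa] at h
    rw [dist_eq_norm, map_add, sub_add_cancel_left, norm_neg] at h
    exact h

theorem tendsto_symm_add (x₀ : M) {x : M} (hx : x ∈ (chartAt 𝔼 x₀).source) :
    Tendsto (fun v : 𝔼 => (chartAt 𝔼 x₀).symm (chartAt 𝔼 x₀ x + v)) (𝓝 0) (𝓝 x) := by
  have h1 : ContinuousAt (chartAt 𝔼 x₀).symm (chartAt 𝔼 x₀ x) :=
    (chartAt 𝔼 x₀).continuousAt_symm ((chartAt 𝔼 x₀).map_source hx)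
  have h2 : Tendsto (fun v : 𝔼 => chartAt 𝔼 x₀ x + v) (𝓝 0) (𝓝 (chartAt 𝔼 x₀ x)) := by
    have : Tendsto (fun v : 𝔼 => chartAt 𝔼 x₀ x + v) (𝓝 0) (𝓝 (chartAt 𝔼 x₀ x + 0)) :=
      (continuous_const.add continuous_id).tendsto 0
    rwa [add_zero] at this
  have h3 := h1.tendsto.comp h2
  rw [(chartAt 𝔼 x₀).left_inv hx] at h3
  exact h3

theorem dist_isBigO (x₀ : M) {x : M} (hx : x ∈ (chartAt 𝔼 x₀).source) {A : 𝔼 ≃L[ℝ] 𝔼}
    (hA : ∀ u v, inner ℝ (A u) (A v) = gm x₀ (chartAt 𝔼 x₀ x) u v) :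
    (fun v : 𝔼 => dist x ((chartAt 𝔼 x₀).symm (chartAt 𝔼 x₀ x + v))) =O[𝓝 0] fun v => ‖v‖ := by
  obtain ⟨r, hr, hrt, h⟩ := exists_ball_compare x₀ hx hA one_pos
  refine Asymptotics.IsBigO.of_bound ((1 + 1) * ‖(A : 𝔼 →L[ℝ] 𝔼)‖) ?_
  filter_upwards [Metric.ball_mem_nhds (0 : 𝔼) hr] with v hv
  have hv' : ‖v‖ < r := by simpa using hv
  rw [Real.norm_of_nonneg dist_nonneg, norm_norm, mul_assoc]
  exact (h v hv').1.trans (mul_le_mul_of_nonneg_left ((A : 𝔼 →L[ℝ] 𝔼).le_opNorm v) (by norm_num))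

theorem dist_sq_isLittleO (x₀ : M) {x : M} (hx : x ∈ (chartAt 𝔼 x₀).source) {A : 𝔼 ≃L[ℝ] 𝔼}
    (hA : ∀ u v, inner ℝ (A u) (A v) = gm x₀ (chartAt 𝔼 x₀ x) u v) :
    (fun v : 𝔼 => dist x ((chartAt 𝔼 x₀).symm (chartAt 𝔼 x₀ x + v)) ^ 2 - ‖A v‖ ^ 2)
      =o[𝓝 0] fun v => ‖v‖ ^ 2 := by
  rw [Asymptotics.isLittleO_iff]
  intro ε hε
  set L : ℝ := ‖(A : 𝔼 →L[ℝ] 𝔼)‖ ^ 2 + 1 with hL
  have hL0 : 0 < L := by positivity
  obtain ⟨η, hη, hη1, hηε⟩ : ∃ η : ℝ, 0 < η ∧ η ≤ 1 ∧ 3 * η * L ≤ ε := by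
    refine ⟨min 1 (ε / (3 * L)), by positivity, min_le_left _ _, ?_⟩
    calc 3 * min 1 (ε / (3 * L)) * L ≤ 3 * (ε / (3 * L)) * L := by
          gcongr
          exact min_le_right _ _
      _ = ε := by field_simp
  obtain ⟨r, hr, hrt, h⟩ := exists_ball_compare x₀ hx hA hη
  filter_upwards [Metric.ball_mem_nhds (0 : 𝔼) hr] with v hv
  have hv' : ‖v‖ < r := by simpa using hv
  obtain ⟨h1, h2⟩ := h v hv'
  set d := dist x ((chartAt 𝔼 x₀).symm (chartAt 𝔼 x₀ x + v))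
  have hd : 0 ≤ d := dist_nonneg
  have h3 : ‖A v‖ ≤ ‖(A : 𝔼 →L[ℝ] 𝔼)‖ * ‖v‖ := (A : 𝔼 →L[ℝ] 𝔼).le_opNorm v
  have h4 : ‖A v‖ ^ 2 ≤ L * ‖v‖ ^ 2 := by
    calc ‖A v‖ ^ 2 ≤ (‖(A : 𝔼 →L[ℝ] 𝔼)‖ * ‖v‖) ^ 2 := by gcongr
      _ = ‖(A : 𝔼 →L[ℝ] 𝔼)‖ ^ 2 * ‖v‖ ^ 2 := by ring
      _ ≤ L * ‖v‖ ^ 2 := by
          refine mul_le_mul_of_nonneg_right ?_ (by positivity)
          rw [hL]; linarith
  have h5 : d ^ 2 ≤ (1 + η) ^ 2 * ‖A v‖ ^ 2 := by
    calc d ^ 2 ≤ ((1 + η) * ‖A v‖) ^ 2 := by gcongr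
      _ = _ := by ring
  have h6 : ‖A v‖ ^ 2 ≤ (1 + η) ^ 2 * d ^ 2 := by
    calc ‖A v‖ ^ 2 ≤ ((1 + η) * d) ^ 2 := by gcongr
      _ = _ := by ring
  have h7 : (1 + η) ^ 2 - 1 ≤ 3 * η := by nlinarith
  have h8 : |d ^ 2 - ‖A v‖ ^ 2| ≤ 3 * η * ‖A v‖ ^ 2 := by
    rw [abs_le]
    constructor
    · -- ‖Av‖² - d² ≤ 3 η ‖Av‖²
      by_cases hc : ‖A v‖ ^ 2 ≤ d ^ 2
      · have : 0 ≤ 3 * η * ‖A v‖ ^ 2 := by positivity
        linarith
      · push Not at hc
        have h9 : ‖A v‖ ^ 2 - d ^ 2 ≤ 3 * η * d ^ 2 := by nlinarith [sq_nonneg d]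
        have h10 : 3 * η * d ^ 2 ≤ 3 * η * ‖A v‖ ^ 2 := by gcongr
        linarith
    · nlinarith [sq_nonneg ‖A v‖]
  rw [Real.norm_eq_abs, Real.norm_of_nonneg (by positivity)]
  calc |d ^ 2 - ‖A v‖ ^ 2| ≤ 3 * η * ‖A v‖ ^ 2 := h8
    _ ≤ 3 * η * (L * ‖v‖ ^ 2) := by gcongr
    _ = (3 * η * L) * ‖v‖ ^ 2 := by ring
    _ ≤ ε * ‖v‖ ^ 2 := by gcongr

theorem isFiniteMeasure_muHE [CompactSpace M] : IsFiniteMeasure (μHE[n] : Measure M) := by
  have : IsLocallyFiniteMeasure (μHE[n] : Measure M) :=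
    Crest.Agent.R247.Ms322.isLocallyFiniteMeasure n M
  exact ⟨isCompact_univ.measure_lt_top⟩

/-- change of variables in a small ball of the chart -/
theorem integral_near (x₀ : M) {x : M} {r : ℝ}
    (hrt : ball (chartAt 𝔼 x₀ x) r ⊆ (chartAt 𝔼 x₀).target) (F : M → ℝ) :
    ∫ z in (chartAt 𝔼 x₀).symm '' ball (chartAt 𝔼 x₀ x) r, F z ∂(μHE[n] : Measure M)
      = ∫ v in ball (0 : 𝔼) r, dens (n := n) x₀ (chartAt 𝔼 x₀ x + v) *
          F ((chartAt 𝔼 x₀).symm (chartAt 𝔼 x₀ x + v)) := by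
  rw [integral_symm_image x₀ hrt measurableSet_ball, ← integral_indicator measurableSet_ball,
    ← integral_indicator measurableSet_ball, ← integral_add_left_eq_self _ (chartAt 𝔼 x₀ x)]
  congr 1
  ext v
  by_cases hv : v ∈ ball (0 : 𝔼) r
  · have hv' : chartAt 𝔼 x₀ x + v ∈ ball (chartAt 𝔼 x₀ x) r := by
      simpa [mem_ball, dist_eq_norm] using hv
    rw [indicator_of_mem hv, indicator_of_mem hv', smul_eq_mul]
  · have hv' : chartAt 𝔼 x₀ x + v ∉ ball (chartAt 𝔼 x₀ x) r := by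
      simpa [mem_ball, dist_eq_norm] using hv
    rw [indicator_of_notMem hv, indicator_of_notMem hv']

theorem tendsto_gauss_M [CompactSpace M] (x₀ : M) {x : M} (hx : x ∈ (chartAt 𝔼 x₀).source)
    {A : 𝔼 ≃L[ℝ] 𝔼} (hA : ∀ u v, inner ℝ (A u) (A v) = gm x₀ (chartAt 𝔼 x₀ x) u v) {m : ℕ}
    {rho q : M → ℝ} (hrm : Measurable rho) (hqm : Measurable q) {c C : ℝ} (hc : 0 < c)
    (hρc : ∀ z, c * dist x z ^ 2 ≤ rho z) (hqC : ∀ z, |q z| ≤ C * dist x z ^ m)
    (hρ : (fun z => rho z - dist x z ^ 2) =o[𝓝 x] fun z => dist x z ^ 2)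
    {h : 𝔼 → ℝ} (hh : ∀ (s : ℝ) (v : 𝔼), 0 < s → h (s • v) = s ^ m * h v)
    (hq : (fun z => q z - h (chartAt 𝔼 x₀ z - chartAt 𝔼 x₀ x)) =o[𝓝 x] fun z => dist x z ^ m) :
    Tendsto (fun σ : ℝ => (Real.sqrt σ ^ m)⁻¹ *
        (nrm n σ * ∫ z, Real.exp (-rho z / (4 * σ)) * q z ∂(μHE[n] : Measure M)))
      (𝓝[>] 0) (𝓝 ((gc n)⁻¹ * (dens (n := n) x₀ (chartAt 𝔼 x₀ x) *
        ∫ v, Real.exp (-‖A v‖ ^ 2 / 4) * h v))) := by
  have hfin : IsFiniteMeasure (μHE[n] : Measure M) := isFiniteMeasure_muHE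
  set a := chartAt 𝔼 x₀ x with ha_def
  have ha : a ∈ (chartAt 𝔼 x₀).target := (chartAt 𝔼 x₀).map_source hx
  have hxa : (chartAt 𝔼 x₀).symm a = x := (chartAt 𝔼 x₀).left_inv hx
  obtain ⟨r₁, hr₁, hrt₁, hcmp₁⟩ := exists_ball_compare x₀ hx hA one_pos
  -- the density is bounded near `a`
  have hdc : ContinuousAt (dens (n := n) x₀) a :=
    (continuousOn_dens x₀).continuousAt ((chartAt 𝔼 x₀).open_target.mem_nhds ha)
  obtain ⟨r₂, hr₂, hden⟩ : ∃ r₂ > 0, ∀ b ∈ ball a r₂, dens (n := n) x₀ b < dens (n := n) x₀ a + 1 := by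
    have h1 := hdc.eventually (gt_mem_nhds (lt_add_one (dens (n := n) x₀ a)))
    obtain ⟨r₂, hr₂, h2⟩ := Metric.mem_nhds_iff.1 h1
    exact ⟨r₂, hr₂, fun b hb => h2 hb⟩
  set r := min r₁ r₂ with hr_def
  have hr : 0 < r := lt_min hr₁ hr₂
  have hrt : ball a r ⊆ (chartAt 𝔼 x₀).target := (ball_subset_ball (min_le_left _ _)).trans hrt₁
  have hcmp : ∀ v : 𝔼, ‖v‖ < r → dist x ((chartAt 𝔼 x₀).symm (a + v)) ≤ (1 + 1) * ‖A v‖ ∧
      ‖A v‖ ≤ (1 + 1) * dist x ((chartAt 𝔼 x₀).symm (a + v)) :=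
    fun v hv => hcmp₁ v (hv.trans_le (min_le_left _ _))
  set S : Set 𝔼 := ball (0 : 𝔼) r with hS_def
  set U : Set M := (chartAt 𝔼 x₀).symm '' ball a r with hU_def
  have hUo : IsOpen U := (chartAt 𝔼 x₀).symm.isOpen_image_of_subset_source isOpen_ball hrt
  have hxU : x ∈ U := ⟨a, mem_ball_self hr, hxa⟩
  obtain ⟨r₀, hr₀, hr₀U⟩ := Metric.mem_nhds_iff.1 (hUo.mem_nhds hxU)
  have hψc : ContinuousOn (fun v : 𝔼 => (chartAt 𝔼 x₀).symm (a + v)) S := by
    refine (chartAt 𝔼 x₀).continuousOn_symm.comp (continuous_const.add continuous_id).continuousOn ?_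
    intro v hv
    exact hrt (by simpa [hS_def, mem_ball, dist_eq_norm] using hv)
  have hSn : S ∈ 𝓝 (0 : 𝔼) := Metric.ball_mem_nhds _ hr
  -- bounds
  set N : ℝ := ‖(A : 𝔼 →L[ℝ] 𝔼)‖ with hN
  set N' : ℝ := ‖(A.symm : 𝔼 →L[ℝ] 𝔼)‖ with hN'
  have hAle : ∀ v : 𝔼, ‖A v‖ ≤ N * ‖v‖ := fun v => (A : 𝔼 →L[ℝ] 𝔼).le_opNorm v
  have hAge : ∀ v : 𝔼, ‖v‖ ≤ (N' + 1) * ‖A v‖ := by
    intro v
    have h1 := (A.symm : 𝔼 →L[ℝ] 𝔼).le_opNorm (A v)
    have h2 : (A.symm : 𝔼 →L[ℝ] 𝔼) (A v) = v := A.symm_apply_apply v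
    rw [h2] at h1
    have h3 : 0 ≤ ‖A v‖ := norm_nonneg _
    nlinarith
  have hN'0 : 0 ≤ N' := norm_nonneg _
  have hN0 : 0 ≤ N := norm_nonneg _
  -- near part
  have hnear := tendsto_gauss_general (n := n) (m := m) (S := S)
    (ρ := fun v => rho ((chartAt 𝔼 x₀).symm (a + v)))
    (q := fun v => dens (n := n) x₀ (a + v) * q ((chartAt 𝔼 x₀).symm (a + v)))
    (ρ₀ := fun v => ‖A v‖ ^ 2) (h := fun v => dens (n := n) x₀ a * h v)
    (c := c * (2 * (N' + 1))⁻¹ ^ 2) (C := (dens (n := n) x₀ a + 1) * (|C| * (2 * N) ^ m))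
    hSn (by positivity)
    (by
      intro v hv
      have hv' : ‖v‖ < r := by simpa [hS_def] using hv
      refine le_trans ?_ (hρc _)
      rw [mul_assoc, ← mul_pow]
      refine mul_le_mul_of_nonneg_left ?_ hc.le
      refine pow_le_pow_left₀ (by positivity) ?_ 2
      rw [inv_mul_le_iff₀ (by positivity)]
      calc ‖v‖ ≤ (N' + 1) * ‖A v‖ := hAge v
        _ ≤ (N' + 1) * ((1 + 1) * dist x ((chartAt 𝔼 x₀).symm (a + v))) :=
            mul_le_mul_of_nonneg_left (hcmp v hv').2 (by positivity)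
        _ = _ := by ring)
    (by
      intro v hv
      have hv' : ‖v‖ < r := by simpa [hS_def] using hv
      have hav : a + v ∈ ball a r₂ := by
        have : ‖v‖ < r₂ := hv'.trans_le (min_le_right _ _)
        simpa [mem_ball, dist_eq_norm] using this
      rw [abs_mul, abs_of_nonneg (dens_nonneg x₀ _), mul_assoc]
      refine mul_le_mul (hden _ hav).le ?_ (abs_nonneg _) (by
        have := dens_nonneg (n := n) x₀ a; positivity)
      refine (hqC _).trans ?_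
      calc C * dist x ((chartAt 𝔼 x₀).symm (a + v)) ^ m
          ≤ |C| * dist x ((chartAt 𝔼 x₀).symm (a + v)) ^ m :=
            mul_le_mul_of_nonneg_right (le_abs_self C) (by positivity)
        _ ≤ |C| * (2 * N * ‖v‖) ^ m := by
            refine mul_le_mul_of_nonneg_left ?_ (abs_nonneg _)
            refine pow_le_pow_left₀ dist_nonneg ?_ m
            refine (hcmp v hv').1.trans ?_
            have := hAle v
            linarith
        _ = |C| * (2 * N) ^ m * ‖v‖ ^ m := by rw [mul_pow]; ring)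
    (measurable_indicator_comp hrm measurableSet_ball hψc)
    (by
      have h1 : Measurable (S.indicator fun v => q ((chartAt 𝔼 x₀).symm (a + v))) :=
        measurable_indicator_comp hqm measurableSet_ball hψc
      have h2 : Measurable (S.indicator fun v => dens (n := n) x₀ (a + v)) := by
        have hc2 : ContinuousOn (fun v : 𝔼 => dens (n := n) x₀ (a + v)) S := by
          refine (continuousOn_dens x₀).comp (continuous_const.add continuous_id).continuousOn ?_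
          intro v hv
          exact hrt (by simpa [hS_def, mem_ball, dist_eq_norm] using hv)
        classical
        have h3 := hc2.measurable_piecewise (continuousOn_const (c := (0 : ℝ)) (s := Sᶜ))
          measurableSet_ball
        have h4 : (S.indicator fun v => dens (n := n) x₀ (a + v))
            = S.piecewise (fun v => dens (n := n) x₀ (a + v)) (fun _ => (0 : ℝ)) := by
          ext v
          by_cases hv : v ∈ S
          · rw [indicator_of_mem hv, piecewise_eq_of_mem _ _ _ hv]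
          · rw [indicator_of_notMem hv, piecewise_eq_of_notMem _ _ _ hv]
        rw [h4]
        exact h3
      have h3 : (S.indicator fun v => dens (n := n) x₀ (a + v) * q ((chartAt 𝔼 x₀).symm (a + v)))
          = fun v => (S.indicator (fun v => dens (n := n) x₀ (a + v)) v) *
            (S.indicator (fun v => q ((chartAt 𝔼 x₀).symm (a + v))) v) := by
        ext v
        by_cases hv : v ∈ S
        · rw [indicator_of_mem hv, indicator_of_mem hv, indicator_of_mem hv]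
        · rw [indicator_of_notMem hv, indicator_of_notMem hv, zero_mul]
      rw [h3]
      exact h2.mul h1)
    measurableSet_ball
    (fun s v hs => by
      show ‖A (s • v)‖ ^ 2 = s ^ 2 * ‖A v‖ ^ 2
      rw [map_smul, norm_smul, mul_pow, Real.norm_of_nonneg hs.le])
    (fun s v hs => by
      show dens (n := n) x₀ a * h (s • v) = s ^ m * (dens (n := n) x₀ a * h v)
      rw [hh s v hs]; ring)
    (by
      have h1 := (hρ.comp_tendsto (tendsto_symm_add x₀ hx)).trans_isBigO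
        ((dist_isBigO x₀ hx hA).pow 2)
      have h2 := h1.add (dist_sq_isLittleO x₀ hx hA)
      refine h2.congr_left fun v => ?_
      simp only [Function.comp]
      ring)
    (by
      have hO := dist_isBigO x₀ hx hA
      have h1 : (fun v : 𝔼 => q ((chartAt 𝔼 x₀).symm (a + v)) - h v) =o[𝓝 0] fun v => ‖v‖ ^ m := by
        have h2 := (hq.comp_tendsto (tendsto_symm_add x₀ hx)).trans_isBigO (hO.pow m)
        refine h2.congr' ?_ (EventuallyEq.refl _ _)
        filter_upwards [hSn] with v hv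
        have hv' : a + v ∈ ball a r := by simpa [hS_def, mem_ball, dist_eq_norm] using hv
        simp only [Function.comp]
        rw [(chartAt 𝔼 x₀).right_inv (hrt hv'), add_sub_cancel_left]
      have h3 : (fun v : 𝔼 => q ((chartAt 𝔼 x₀).symm (a + v))) =O[𝓝 0] fun v => ‖v‖ ^ m := by
        have h4 : (fun v : 𝔼 => q ((chartAt 𝔼 x₀).symm (a + v))) =O[𝓝 0]
            fun v => dist x ((chartAt 𝔼 x₀).symm (a + v)) ^ m := by
          refine Asymptotics.IsBigO.of_bound |C| (Eventually.of_forall fun v => ?_)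
          rw [Real.norm_eq_abs, Real.norm_of_nonneg (by positivity)]
          exact (hqC _).trans (mul_le_mul_of_nonneg_right (le_abs_self C) (by positivity))
        exact h4.trans (hO.pow m)
      have h5 : h =O[𝓝 0] fun v => ‖v‖ ^ m := by
        have h6 := h3.sub h1.isBigO
        refine h6.congr_left fun v => ?_
        ring
      have h7 : Tendsto (fun v : 𝔼 => dens (n := n) x₀ (a + v)) (𝓝 0) (𝓝 (dens (n := n) x₀ a)) := by
        have h8 : Tendsto (fun v : 𝔼 => a + v) (𝓝 0) (𝓝 a) := by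
          have : Tendsto (fun v : 𝔼 => a + v) (𝓝 0) (𝓝 (a + 0)) :=
            (continuous_const.add continuous_id).tendsto 0
          rwa [add_zero] at this
        exact hdc.tendsto.comp h8
      have h9 : (fun v : 𝔼 => dens (n := n) x₀ (a + v) * (q ((chartAt 𝔼 x₀).symm (a + v)) - h v))
          =o[𝓝 0] fun v => ‖v‖ ^ m := by
        have h10 := (h7.isBigO_one ℝ).mul_isLittleO h1
        simpa using h10
      have h11 : (fun v : 𝔼 => (dens (n := n) x₀ (a + v) - dens (n := n) x₀ a) * h v)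
          =o[𝓝 0] fun v => ‖v‖ ^ m := by
        have h12 : (fun v : 𝔼 => dens (n := n) x₀ (a + v) - dens (n := n) x₀ a) =o[𝓝 0]
            fun _ => (1 : ℝ) := by
          rw [Asymptotics.isLittleO_one_iff]
          simpa using h7.sub_const (dens (n := n) x₀ a)
        have h13 := h12.mul_isBigO h5
        simpa using h13
      refine (h9.add h11).congr_left fun v => ?_
      ring)
  -- far part
  have hD : ∀ z, dist x z ≤ diam (univ : Set M) := fun z =>
    dist_le_diam_of_mem isCompact_univ.isBounded (mem_univ _) (mem_univ _)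
  set D := diam (univ : Set M) with hD_def
  have hD0 : 0 ≤ D := diam_nonneg
  have hqD : ∀ z, |q z| ≤ |C| * D ^ m := fun z =>
    (hqC z).trans ((mul_le_mul_of_nonneg_right (le_abs_self C) (by positivity)).trans
      (mul_le_mul_of_nonneg_left (pow_le_pow_left₀ dist_nonneg (hD z) m) (abs_nonneg _)))
  have hFm : ∀ σ : ℝ, Measurable fun z => Real.exp (-rho z / (4 * σ)) * q z := fun σ =>
    (Real.measurable_exp.comp (hrm.neg.div_const _)).mul hqm
  have hFb : ∀ σ : ℝ, 0 < σ → ∀ z, ‖Real.exp (-rho z / (4 * σ)) * q z‖ ≤ |C| * D ^ m := by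
    intro σ hσ z
    rw [norm_mul, Real.norm_eq_abs, Real.norm_eq_abs, Real.abs_exp]
    have h1 : Real.exp (-rho z / (4 * σ)) ≤ 1 := by
      rw [Real.exp_le_one_iff]
      have h2 : 0 ≤ rho z := le_trans (by positivity) (hρc z)
      have h3 : 0 ≤ rho z / (4 * σ) := by positivity
      rw [neg_div]
      linarith
    calc Real.exp (-rho z / (4 * σ)) * |q z| ≤ 1 * (|C| * D ^ m) :=
          mul_le_mul h1 (hqD z) (abs_nonneg _) zero_le_one
      _ = _ := one_mul _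
  have hFi : ∀ σ : ℝ, 0 < σ → Integrable (fun z => Real.exp (-rho z / (4 * σ)) * q z)
      (μHE[n] : Measure M) := fun σ hσ =>
    Integrable.of_bound (hFm σ).aestronglyMeasurable _ (Eventually.of_forall (hFb σ hσ))
  have hfar : Tendsto (fun σ : ℝ => (Real.sqrt σ ^ m)⁻¹ *
      (nrm n σ * ∫ z in Uᶜ, Real.exp (-rho z / (4 * σ)) * q z ∂(μHE[n] : Measure M)))
      (𝓝[>] 0) (𝓝 0) := by
    have h1 := (tendsto_far n m (b := c * r₀ ^ 2 / 4) (by positivity)).mul_const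
      (|C| * D ^ m * (μHE[n] : Measure M).real univ)
    rw [zero_mul] at h1
    refine squeeze_zero_norm' ?_ h1
    filter_upwards [self_mem_nhdsWithin] with σ hσ
    have hσ' : (0 : ℝ) < σ := hσ
    have hs : 0 < Real.sqrt σ := Real.sqrt_pos.2 hσ'
    have hnn : 0 ≤ nrm n σ := Real.rpow_nonneg (by positivity) _
    have h2 : ‖∫ z in Uᶜ, Real.exp (-rho z / (4 * σ)) * q z ∂(μHE[n] : Measure M)‖
        ≤ Real.exp (-(c * r₀ ^ 2 / 4) / σ) * (|C| * D ^ m) * (μHE[n] : Measure M).real univ := by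
      refine (norm_setIntegral_le_of_norm_le_const (C := Real.exp (-(c * r₀ ^ 2 / 4) / σ) *
        (|C| * D ^ m)) (measure_lt_top _ _) (fun z hz => ?_)).trans ?_
      · rw [norm_mul, Real.norm_eq_abs, Real.norm_eq_abs, Real.abs_exp]
        refine mul_le_mul ?_ (hqD z) (abs_nonneg _) (Real.exp_pos _).le
        refine Real.exp_le_exp.2 ?_
        have h3 : r₀ ≤ dist x z := by
          by_contra hlt
          push Not at hlt
          exact hz (hr₀U (by rw [mem_ball, dist_comm]; exact hlt))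
        have h4 : c * r₀ ^ 2 ≤ rho z := by
          refine le_trans ?_ (hρc z)
          gcongr
        rw [div_le_div_iff₀ (by positivity) hσ']
        nlinarith
      · refine mul_le_mul_of_nonneg_left ?_ (by positivity)
        exact measureReal_mono (subset_univ _)
    rw [norm_mul, norm_mul, Real.norm_of_nonneg (inv_nonneg.2 (pow_nonneg hs.le m)),
      Real.norm_of_nonneg hnn]
    calc (Real.sqrt σ ^ m)⁻¹ * (nrm n σ *
        ‖∫ z in Uᶜ, Real.exp (-rho z / (4 * σ)) * q z ∂(μHE[n] : Measure M)‖)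
        ≤ (Real.sqrt σ ^ m)⁻¹ * (nrm n σ * (Real.exp (-(c * r₀ ^ 2 / 4) / σ) * (|C| * D ^ m) *
          (μHE[n] : Measure M).real univ)) := by gcongr
      _ = _ := by ring
  have hsum := hnear.add hfar
  rw [add_zero] at hsum
  have hlim : (gc n)⁻¹ * ∫ v : 𝔼, Real.exp (-‖A v‖ ^ 2 / 4) * (dens (n := n) x₀ a * h v)
      = (gc n)⁻¹ * (dens (n := n) x₀ a * ∫ v, Real.exp (-‖A v‖ ^ 2 / 4) * h v) := by
    congr 1
    rw [← integral_const_mul]
    refine integral_congr_ae (Eventually.of_forall fun v => ?_)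
    show Real.exp (-‖A v‖ ^ 2 / 4) * (dens (n := n) x₀ a * h v)
      = dens (n := n) x₀ a * (Real.exp (-‖A v‖ ^ 2 / 4) * h v)
    ring
  rw [hlim] at hsum
  refine hsum.congr' ?_
  filter_upwards [self_mem_nhdsWithin] with σ hσ
  have hσ' : (0 : ℝ) < σ := hσ
  rw [← integral_add_compl hUo.measurableSet (hFi σ hσ'), hU_def, ha_def, integral_near x₀ hrt]
  have h1 : ∫ v in ball (0 : 𝔼) r, dens (n := n) x₀ (chartAt 𝔼 x₀ x + v) *
      (Real.exp (-rho ((chartAt 𝔼 x₀).symm (chartAt 𝔼 x₀ x + v)) / (4 * σ)) *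
        q ((chartAt 𝔼 x₀).symm (chartAt 𝔼 x₀ x + v)))
      = ∫ v in S, Real.exp (-rho ((chartAt 𝔼 x₀).symm (a + v)) / (4 * σ)) *
        (dens (n := n) x₀ (a + v) * q ((chartAt 𝔼 x₀).symm (a + v))) := by
    refine integral_congr_ae (Eventually.of_forall fun v => ?_)
    simp only [ha_def]
    ring
  rw [h1]
  ring

/-- the determinant of an isometry `(R^n, g_a) → R^n` is the volume density -/
theorem abs_det_eq_dens (x₀ : M) {a : 𝔼} {A : 𝔼 ≃L[ℝ] 𝔼}
    (hA : ∀ u v, inner ℝ (A u) (A v) = gm x₀ a u v) :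
    |(A : 𝔼 →L[ℝ] 𝔼).det| = dens (n := n) x₀ a := by
  have e : (chartMetric n M x₀ a) =
      (LinearMap.toMatrix (EuclideanSpace.basisFun (Fin n) ℝ).toBasis
        (EuclideanSpace.basisFun (Fin n) ℝ).toBasis (A : 𝔼 →ₗ[ℝ] 𝔼)).transpose *
      (LinearMap.toMatrix (EuclideanSpace.basisFun (Fin n) ℝ).toBasis
        (EuclideanSpace.basisFun (Fin n) ℝ).toBasis (A : 𝔼 →ₗ[ℝ] 𝔼)) := by
    ext i j
    rw [Crest.Agent.R247.Ms322.chartMetric_apply, ← hA, Matrix.mul_apply]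
    simp only [PiLp.inner_apply, Matrix.transpose_apply, LinearMap.toMatrix_apply]
    refine Finset.sum_congr rfl fun k _ => ?_
    simp [mul_comm]
  unfold dens
  rw [e, Matrix.det_mul, Matrix.det_transpose, LinearMap.det_toMatrix]
  rw [← sq, Real.sqrt_sq_eq_abs]
  rfl

/-- (G0) -/
theorem tendsto_gauss_M_zero [CompactSpace M] (x : M)
    {rho f : M → ℝ} (hrm : Measurable rho) (hfm : Measurable f) {c C : ℝ} (hc : 0 < c)
    (hρc : ∀ z, c * dist x z ^ 2 ≤ rho z) (hfC : ∀ z, |f z| ≤ C)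
    (hρ : (fun z => rho z - dist x z ^ 2) =o[𝓝 x] fun z => dist x z ^ 2)
    (hf : ContinuousAt f x) :
    Tendsto (fun σ : ℝ => nrm n σ * ∫ z, Real.exp (-rho z / (4 * σ)) * f z ∂(μHE[n] : Measure M))
      (𝓝[>] 0) (𝓝 (f x)) := by
  have hx : x ∈ (chartAt 𝔼 x).source := mem_chart_source 𝔼 x
  have ha : chartAt 𝔼 x x ∈ (chartAt 𝔼 x).target := (chartAt 𝔼 x).map_source hx
  obtain ⟨A, hA, hdet⟩ := exists_isometry (n := n) x ha
  have h := tendsto_gauss_M (n := n) x hx hA (m := 0) hrm hfm hc hρc (C := C)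
    (fun z => by simpa using hfC z) hρ (h := fun _ => f x) (fun s v hs => by simp)
    (by
      have h1 : Tendsto (fun z => f z - f x) (𝓝 x) (𝓝 0) := by
        simpa using hf.tendsto.sub_const (f x)
      simpa using (Asymptotics.isLittleO_one_iff ℝ).2 h1)
  simp only [pow_zero, inv_one, one_mul] at h
  rw [integral_mul_const, integral_gauss_comp, hdet] at h
  have hd : √(chartMetric n M x (chartAt 𝔼 x x)).det ≠ 0 := (dens_pos x ha).ne'
  have hval : (gc n)⁻¹ * (dens (n := n) x (chartAt 𝔼 x x) *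
      ((√(chartMetric n M x (chartAt 𝔼 x x)).det)⁻¹ * gc n * f x)) = f x := by
    have := gc_ne n
    unfold dens
    field_simp
  rw [hval] at h
  exact h

/-- (G1) -/
theorem tendsto_gauss_M_two [CompactSpace M] (x₀ : M) {x : M} (hx : x ∈ (chartAt 𝔼 x₀).source)
    {A : 𝔼 ≃L[ℝ] 𝔼} (hA : ∀ u v, inner ℝ (A u) (A v) = gm x₀ (chartAt 𝔼 x₀ x) u v)
    {rho q : M → ℝ} (hrm : Measurable rho) (hqm : Measurable q) {c C : ℝ} (hc : 0 < c)
    (hρc : ∀ z, c * dist x z ^ 2 ≤ rho z) (hqC : ∀ z, |q z| ≤ C * dist x z ^ 2)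
    (hρ : (fun z => rho z - dist x z ^ 2) =o[𝓝 x] fun z => dist x z ^ 2)
    {B : 𝔼 →L[ℝ] 𝔼 →L[ℝ] ℝ}
    (hq : (fun z => q z - B (chartAt 𝔼 x₀ z - chartAt 𝔼 x₀ x) (chartAt 𝔼 x₀ z - chartAt 𝔼 x₀ x))
      =o[𝓝 x] fun z => dist x z ^ 2) :
    Tendsto (fun σ : ℝ => σ⁻¹ *
        (nrm n σ * ∫ z, Real.exp (-rho z / (4 * σ)) * q z ∂(μHE[n] : Measure M)))
      (𝓝[>] 0) (𝓝 (2 * ∑ i, B (A.symm (EuclideanSpace.single i 1))
        (A.symm (EuclideanSpace.single i 1)))) := by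
  have ha : chartAt 𝔼 x₀ x ∈ (chartAt 𝔼 x₀).target := (chartAt 𝔼 x₀).map_source hx
  have h := tendsto_gauss_M (n := n) x₀ hx hA (m := 2) hrm hqm hc hρc hqC hρ
    (h := fun v => B v v)
    (fun s v hs => by
      simp only [map_smul, FunLike.coe_smul, Pi.smul_apply, smul_eq_mul]
      ring) hq
  rw [integral_gauss_bilin_comp, abs_det_eq_dens x₀ hA] at h
  have hd : dens (n := n) x₀ (chartAt 𝔼 x₀ x) ≠ 0 := (dens_pos x₀ ha).ne'
  have hval : (gc n)⁻¹ * (dens (n := n) x₀ (chartAt 𝔼 x₀ x) *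
      ((dens (n := n) x₀ (chartAt 𝔼 x₀ x))⁻¹ * (2 * gc n *
        ∑ i, B (A.symm (EuclideanSpace.single i 1)) (A.symm (EuclideanSpace.single i 1)))))
      = 2 * ∑ i, B (A.symm (EuclideanSpace.single i 1)) (A.symm (EuclideanSpace.single i 1)) := by
    have := gc_ne n
    field_simp
  rw [hval] at h
  refine h.congr' ?_
  filter_upwards [self_mem_nhdsWithin] with σ hσ
  rw [Real.sq_sqrt (le_of_lt hσ)]

end M

end Crest.Agent.R249.Gau3_654
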