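import Mathlib

/-!
# R249, part D4: gluing local maps into a metric space with a smooth chart atlas (1)

* `unif_near` : uniformity near a compact set;
* `Atl` : finitely many charts of a metric space with smooth transitions, with compact cores;
* `Atl.unif_chart`, `unif_symm`, `unif_trans`, `bound_trans` : uniform estimates.
-/

set_option autoImplicit false
noncomputable section
open Set Filter Topology Metric
open scoped ContDiff Manifold

namespace Crest.Agent.R249.Glue832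

/-- Uniformity near a compact set. -/
theorem unif_near {X : Type*} [MetricSpace X] {K : Set X} (hK : IsCompact K) {P : X → X → Prop}
    (h : ∀ q ∈ K, ∀ᶠ z : X × X in 𝓝 (q, q), P z.1 z.2) :
    ∃ δ : ℝ, 0 < δ ∧ ∀ p q : X, q ∈ K → dist p q ≤ δ → P p q := by
  have h1 : ∀ q : X, ∃ r : ℝ, 0 < r ∧ (q ∈ K → ∀ p' ∈ ball q r, ∀ q' ∈ ball q r, P p' q') := by
    intro q
    by_cases hq : q ∈ K
    · obtain ⟨r, hr, hr'⟩ := Metric.eventually_nhds_iff_ball.1 (h q hq)
      refine ⟨r, hr, fun _ p' hp' q' hq' => ?_⟩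
      have : (p', q') ∈ ball (q, q) r := by
        rw [mem_ball, Prod.dist_eq]
        exact max_lt hp' hq'
      exact hr' _ this
    · exact ⟨1, one_pos, fun hq' => absurd hq' hq⟩
  choose r hr hr' using h1
  obtain ⟨δ, hδ, hδ'⟩ := lebesgue_number_lemma_of_metric (c := fun q : K => ball (q : X) (r q)) hK
    (fun q => isOpen_ball) (fun q hq => mem_iUnion.2 ⟨⟨q, hq⟩, mem_ball_self (hr q)⟩)
  refine ⟨δ / 2, by positivity, fun p q hq hpq => ?_⟩
  obtain ⟨i, hi⟩ := hδ' q hq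
  refine hr' i i.2 p (hi ?_) q (hi (mem_ball_self hδ))
  rw [mem_ball]
  linarith

/-- Charts of a metric space with smooth transitions and compact cores. -/
structure Atl (n : ℕ) (ι : Type*) (X : Type*) [MetricSpace X] where
  /-- the charts -/
  e : ι → OpenPartialHomeomorph X (EuclideanSpace ℝ (Fin n))
  /-- the cores -/
  C : ι → Set (EuclideanSpace ℝ (Fin n))
  isCompact_C : ∀ a, IsCompact (C a)
  C_sub : ∀ a, C a ⊆ (e a).target
  smooth : ∀ a b, ContDiffOn ℝ ∞ (fun y => e b ((e a).symm y))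
    {y | y ∈ (e a).target ∧ (e a).symm y ∈ (e b).source}

variable {n : ℕ} {ι : Type*} {X : Type*} [MetricSpace X]

namespace Atl

variable (A : Atl n ι X)

/-- transition map from chart `a` to chart `b` -/
def tr (a b : ι) (y : EuclideanSpace ℝ (Fin n)) : EuclideanSpace ℝ (Fin n) :=
  A.e b ((A.e a).symm y)

/-- the core of chart `a` in `X` -/
def core (a : ι) : Set X := (A.e a).symm '' A.C a

theorem mem_core {a : ι} {p : X} : p ∈ A.core a ↔ p ∈ (A.e a).source ∧ A.e a p ∈ A.C a := by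
  constructor
  · rintro ⟨y, hy, rfl⟩
    refine ⟨(A.e a).map_target (A.C_sub a hy), ?_⟩
    rwa [(A.e a).right_inv (A.C_sub a hy)]
  · rintro ⟨h1, h2⟩
    exact ⟨_, h2, (A.e a).left_inv h1⟩

theorem isCompact_core (a : ι) : IsCompact (A.core a) :=
  (A.isCompact_C a).image_of_continuousOn ((A.e a).continuousOn_symm.mono (A.C_sub a))

theorem isOpen_trans_dom (a b : ι) :
    IsOpen {y | y ∈ (A.e a).target ∧ (A.e a).symm y ∈ (A.e b).source} := by
  have := (A.e a).isOpen_inter_preimage_symm (A.e b).open_source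
  exact this

theorem contDiffAt_tr {a b : ι} {y : EuclideanSpace ℝ (Fin n)} (h1 : y ∈ (A.e a).target)
    (h2 : (A.e a).symm y ∈ (A.e b).source) : ContDiffAt ℝ ∞ (A.tr a b) y :=
  (A.smooth a b).contDiffAt ((A.isOpen_trans_dom a b).mem_nhds ⟨h1, h2⟩)

theorem unif_chart (a : ι) {η : ℝ} (hη : 0 < η) : ∃ δ : ℝ, 0 < δ ∧ ∀ p q : X, q ∈ A.core a →
    dist p q ≤ δ → p ∈ (A.e a).source ∧ dist (A.e a p) (A.e a q) ≤ η := by
  refine unif_near (A.isCompact_core a) fun q hq => ?_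
  have hs := (A.mem_core.1 hq).1
  have h1 : ∀ᶠ z : X × X in 𝓝 (q, q), z.1 ∈ (A.e a).source :=
    continuousAt_fst.eventually ((A.e a).open_source.mem_nhds hs)
  have hc := (A.e a).continuousAt hs
  have h2 : Tendsto (fun z : X × X => dist (A.e a z.1) (A.e a z.2)) (𝓝 (q, q))
      (𝓝 (dist (A.e a q) (A.e a q))) := by
    have c1 : Tendsto (fun z : X × X => A.e a z.1) (𝓝 (q, q)) (𝓝 (A.e a q)) :=
      hc.tendsto.comp continuousAt_fst
    have c2 : Tendsto (fun z : X × X => A.e a z.2) (𝓝 (q, q)) (𝓝 (A.e a q)) :=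
      hc.tendsto.comp continuousAt_snd
    exact c1.dist c2
  rw [dist_self] at h2
  filter_upwards [h1, h2.eventually (gt_mem_nhds hη)] with z hz1 hz2
  exact ⟨hz1, hz2.le⟩

theorem unif_symm (a : ι) {η : ℝ} (hη : 0 < η) : ∃ δ : ℝ, 0 < δ ∧
    ∀ z y : EuclideanSpace ℝ (Fin n), y ∈ A.C a → dist z y ≤ δ →
      z ∈ (A.e a).target ∧ dist ((A.e a).symm z) ((A.e a).symm y) ≤ η := by
  refine unif_near (A.isCompact_C a) fun q hq => ?_
  have hs := A.C_sub a hq
  have h1 : ∀ᶠ z : EuclideanSpace ℝ (Fin n) × EuclideanSpace ℝ (Fin n) in 𝓝 (q, q),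
      z.1 ∈ (A.e a).target :=
    continuousAt_fst.eventually ((A.e a).open_target.mem_nhds hs)
  have hc := (A.e a).continuousAt_symm hs
  have h2 : Tendsto (fun z : EuclideanSpace ℝ (Fin n) × EuclideanSpace ℝ (Fin n) =>
      dist ((A.e a).symm z.1) ((A.e a).symm z.2)) (𝓝 (q, q))
      (𝓝 (dist ((A.e a).symm q) ((A.e a).symm q))) := by
    have c1 : Tendsto (fun z : EuclideanSpace ℝ (Fin n) × EuclideanSpace ℝ (Fin n) =>
        (A.e a).symm z.1) (𝓝 (q, q)) (𝓝 ((A.e a).symm q)) :=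
      hc.tendsto.comp continuousAt_fst
    have c2 : Tendsto (fun z : EuclideanSpace ℝ (Fin n) × EuclideanSpace ℝ (Fin n) =>
        (A.e a).symm z.2) (𝓝 (q, q)) (𝓝 ((A.e a).symm q)) :=
      hc.tendsto.comp continuousAt_snd
    exact c1.dist c2
  rw [dist_self] at h2
  filter_upwards [h1, h2.eventually (gt_mem_nhds hη)] with z hz1 hz2
  exact ⟨hz1, hz2.le⟩

/-- the compact set where both cores meet, in the coordinates of `a` -/
def dbl (a b : ι) : Set (EuclideanSpace ℝ (Fin n)) := A.e a '' (A.core a ∩ A.core b)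

theorem isCompact_dbl (a b : ι) : IsCompact (A.dbl a b) :=
  ((A.isCompact_core a).inter (A.isCompact_core b)).image_of_continuousOn
    ((A.e a).continuousOn.mono fun _ hp => (A.mem_core.1 hp.1).1)

theorem mem_dbl {a b : ι} {y : EuclideanSpace ℝ (Fin n)} (hy : y ∈ A.dbl a b) :
    y ∈ A.C a ∧ (A.e a).symm y ∈ A.core b := by
  obtain ⟨p, ⟨h1, h2⟩, rfl⟩ := hy
  refine ⟨(A.mem_core.1 h1).2, ?_⟩
  rwa [(A.e a).left_inv (A.mem_core.1 h1).1]

theorem unif_trans (a b : ι) {η : ℝ} (hη : 0 < η) : ∃ δ : ℝ, 0 < δ ∧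
    ∀ z y : EuclideanSpace ℝ (Fin n), y ∈ A.dbl a b → dist z y ≤ δ →
      z ∈ (A.e a).target ∧ (A.e a).symm z ∈ (A.e b).source ∧
        ‖fderiv ℝ (A.tr a b) z - fderiv ℝ (A.tr a b) y‖ ≤ η := by
  refine unif_near (A.isCompact_dbl a b) fun q hq => ?_
  have hq' := A.mem_dbl hq
  have hs := A.C_sub a hq'.1
  have hs' := (A.mem_core.1 hq'.2).1
  have hopen := A.isOpen_trans_dom a b
  have h1 : ∀ᶠ z : EuclideanSpace ℝ (Fin n) × EuclideanSpace ℝ (Fin n) in 𝓝 (q, q),
      z.1 ∈ {y | y ∈ (A.e a).target ∧ (A.e a).symm y ∈ (A.e b).source} :=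
    continuousAt_fst.eventually (hopen.mem_nhds ⟨hs, hs'⟩)
  have hc : ContinuousAt (fderiv ℝ (A.tr a b)) q :=
    (A.contDiffAt_tr hs hs').continuousAt_fderiv (by simp)
  have h2 : Tendsto (fun z : EuclideanSpace ℝ (Fin n) × EuclideanSpace ℝ (Fin n) =>
      ‖fderiv ℝ (A.tr a b) z.1 - fderiv ℝ (A.tr a b) z.2‖) (𝓝 (q, q))
      (𝓝 ‖fderiv ℝ (A.tr a b) q - fderiv ℝ (A.tr a b) q‖) := by
    have c1 : Tendsto (fun z : EuclideanSpace ℝ (Fin n) × EuclideanSpace ℝ (Fin n) =>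
        fderiv ℝ (A.tr a b) z.1) (𝓝 (q, q)) (𝓝 (fderiv ℝ (A.tr a b) q)) :=
      hc.tendsto.comp continuousAt_fst
    have c2 : Tendsto (fun z : EuclideanSpace ℝ (Fin n) × EuclideanSpace ℝ (Fin n) =>
        fderiv ℝ (A.tr a b) z.2) (𝓝 (q, q)) (𝓝 (fderiv ℝ (A.tr a b) q)) :=
      hc.tendsto.comp continuousAt_snd
    exact (c1.sub c2).norm
  rw [sub_self, norm_zero] at h2
  filter_upwards [h1, h2.eventually (gt_mem_nhds hη)] with z hz1 hz2
  exact ⟨hz1.1, hz1.2, hz2.le⟩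

theorem bound_trans (a b : ι) : ∃ B : ℝ, 0 ≤ B ∧ ∀ y ∈ A.dbl a b, ‖fderiv ℝ (A.tr a b) y‖ ≤ B := by
  have hc : ContinuousOn (fderiv ℝ (A.tr a b)) (A.dbl a b) := by
    intro q hq
    have hq' := A.mem_dbl hq
    exact ((A.contDiffAt_tr (A.C_sub a hq'.1) (A.mem_core.1 hq'.2).1).continuousAt_fderiv
      (by simp)).continuousWithinAt
  obtain ⟨B, hB⟩ := (A.isCompact_dbl a b).exists_bound_of_continuousOn hc
  exact ⟨max B 0, le_max_right _ _, fun y hy => (hB y hy).trans (le_max_left _ _)⟩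

end Atl

end Crest.Agent.R249.Glue832
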