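import Crest.Agent.R249.Glue1_832

/-!
# R249, part D4: gluing local maps into a metric space with a smooth chart atlas (2)

* `Cut` : cut-off functions on the charts, existence;
* `combD` : derivative of the interpolation `(1 - θ(q)) p + θ(q) q`.
-/

set_option autoImplicit false
noncomputable section
open Set Filter Topology Metric
open scoped ContDiff Manifold

namespace Crest.Agent.R249.Glue832

variable {n : ℕ} {ι : Type*} {X : Type*} [MetricSpace X]

/-- Cut-off functions: `θ a = 1` near `C' a`, `θ a = 0` off the compact set `K a ⊆ interior (C a)`. -/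
structure Cut (A : Atl n ι X) (C' : ι → Set (EuclideanSpace ℝ (Fin n))) where
  /-- the cut-off -/
  θ : ι → EuclideanSpace ℝ (Fin n) → ℝ
  /-- its support -/
  K : ι → Set (EuclideanSpace ℝ (Fin n))
  isCompact_K : ∀ a, IsCompact (K a)
  K_sub : ∀ a, K a ⊆ interior (A.C a)
  smooth : ∀ a, ContDiff ℝ ∞ (θ a)
  nonneg : ∀ a y, 0 ≤ θ a y
  le_one : ∀ a y, θ a y ≤ 1
  zero : ∀ a y, y ∉ K a → θ a y = 0
  one : ∀ a, ∀ y ∈ C' a, ∀ᶠ z in 𝓝 y, θ a z = 1

theorem exists_cut (A : Atl n ι X) (C' : ι → Set (EuclideanSpace ℝ (Fin n)))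
    (h1 : ∀ a, IsCompact (C' a)) (h2 : ∀ a, C' a ⊆ interior (A.C a)) : Nonempty (Cut A C') := by
  have key : ∀ a, ∃ (θ : EuclideanSpace ℝ (Fin n) → ℝ) (K : Set (EuclideanSpace ℝ (Fin n))),
      IsCompact K ∧ K ⊆ interior (A.C a) ∧ ContDiff ℝ ∞ θ ∧ (∀ y, 0 ≤ θ y) ∧ (∀ y, θ y ≤ 1) ∧
      (∀ y, y ∉ K → θ y = 0) ∧ ∀ y ∈ C' a, ∀ᶠ z in 𝓝 y, θ z = 1 := by
    intro a
    obtain ⟨K, hK, hK1, hK2⟩ := exists_compact_between (h1 a) isOpen_interior (h2 a)
    obtain ⟨f, hf1, hf2, hf3⟩ := exists_contMDiffMap_one_nhds_of_subset_interior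
      (n := (⊤ : ℕ∞)) 𝓘(ℝ, EuclideanSpace ℝ (Fin n)) (s := C' a) (t := K) (h1 a).isClosed hK1
    refine ⟨f, K, hK, hK2, f.contMDiff.contDiff, fun y => (hf3 y).1, fun y => (hf3 y).2, hf2, ?_⟩
    intro y hy
    exact eventually_nhdsSet_iff_forall.1 hf1 y hy
  choose θ K k1 k2 k3 k4 k5 k6 k7 using key
  exact ⟨⟨θ, K, k1, k2, k3, k4, k5, k6, k7⟩⟩

namespace Cut

variable {A : Atl n ι X} {C' : ι → Set (EuclideanSpace ℝ (Fin n))} (Θ : Cut A C')

theorem bound_fderiv (a : ι) : ∃ B : ℝ, 0 ≤ B ∧ ∀ y, ‖fderiv ℝ (Θ.θ a) y‖ ≤ B := by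
  have hs : HasCompactSupport (Θ.θ a) :=
    HasCompactSupport.intro (Θ.isCompact_K a) (Θ.zero a)
  have hc : Continuous (fderiv ℝ (Θ.θ a)) := (Θ.smooth a).continuous_fderiv (by simp)
  obtain ⟨B, hB⟩ := hc.bounded_above_of_compact_support (hs.fderiv (𝕜 := ℝ))
  exact ⟨max B 0, le_max_right _ _, fun y => (hB y).trans (le_max_left _ _)⟩

theorem unif_one (a : ι) (hC : IsCompact (C' a)) : ∃ δ : ℝ, 0 < δ ∧
    ∀ z y : EuclideanSpace ℝ (Fin n), y ∈ C' a → dist z y ≤ δ → ∀ᶠ w in 𝓝 z, Θ.θ a w = 1 := by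
  refine unif_near hC fun q hq => ?_
  have h1 := eventually_eventually_nhds.2 (Θ.one a q hq)
  have h2 : ContinuousAt (Prod.fst : EuclideanSpace ℝ (Fin n) × EuclideanSpace ℝ (Fin n) → _)
    (q, q) := continuousAt_fst
  exact h2.eventually h1

/-- If `q` has coordinates close to the support of `θ a` and `p` is close to `q` then `p` lies in the
core of `a`. -/
theorem unif_core (a : ι) : ∃ δ : ℝ, 0 < δ ∧ ∀ p q : X, q ∈ (A.e a).source →
    (∃ z ∈ Θ.K a, dist (A.e a q) z ≤ δ) → dist p q ≤ δ → p ∈ A.core a := by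
  obtain ⟨δ₁, hδ₁, h1⟩ := (Θ.isCompact_K a).exists_cthickening_subset_open isOpen_interior
    (Θ.K_sub a)
  set K₁ := cthickening δ₁ (Θ.K a) with hK₁
  have hK₁c : IsCompact K₁ := (Θ.isCompact_K a).cthickening
  have hK₁t : K₁ ⊆ (A.e a).target := h1.trans (interior_subset.trans (A.C_sub a))
  set S : Set X := (A.e a).symm '' K₁ with hS
  have hSc : IsCompact S := hK₁c.image_of_continuousOn ((A.e a).continuousOn_symm.mono hK₁t)
  obtain ⟨δ₂, hδ₂, h2⟩ := unif_near hSc (P := fun p _ => p ∈ A.core a) (by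
    rintro q ⟨y, hy, rfl⟩
    have hs : (A.e a).symm y ∈ (A.e a).source := (A.e a).map_target (hK₁t hy)
    have h3 : ∀ᶠ p in 𝓝 ((A.e a).symm y), p ∈ (A.e a).source ∧ A.e a p ∈ interior (A.C a) := by
      have h4 : ∀ᶠ p in 𝓝 ((A.e a).symm y), A.e a p ∈ interior (A.C a) := by
        refine ((A.e a).continuousAt hs).eventually (isOpen_interior.mem_nhds ?_)
        rw [(A.e a).right_inv (hK₁t hy)]
        exact h1 hy
      filter_upwards [(A.e a).open_source.mem_nhds hs, h4] with p hp1 hp2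
      exact ⟨hp1, hp2⟩
    have h5 : ContinuousAt (Prod.fst : X × X → X) ((A.e a).symm y, (A.e a).symm y) :=
      continuousAt_fst
    filter_upwards [h5.eventually h3] with z hz
    exact A.mem_core.2 ⟨hz.1, interior_subset hz.2⟩)
  refine ⟨min δ₁ δ₂, lt_min hδ₁ hδ₂, ?_⟩
  rintro p q hq ⟨z, hz, hqz⟩ hpq
  refine h2 p q ⟨A.e a q, ?_, (A.e a).left_inv hq⟩ (hpq.trans (min_le_right _ _))
  exact mem_cthickening_of_dist_le _ _ _ _ hz (hqz.trans (min_le_left _ _))

end Cut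

/-! ### the interpolation -/

section comb

variable {V : Type*} [NormedAddCommGroup V] [NormedSpace ℝ V]

/-- interpolation `(1 - θ(q)) p + θ(q) q`. -/
def comb (θ : V → ℝ) (w : V × V) : V := (1 - θ w.2) • w.1 + θ w.2 • w.2

theorem comb_eq (θ : V → ℝ) (w : V × V) : comb θ w = w.1 + θ w.2 • (w.2 - w.1) := by
  simp only [comb, smul_sub, sub_smul, one_smul]
  abel

theorem contDiff_comb {θ : V → ℝ} (h : ContDiff ℝ ∞ θ) : ContDiff ℝ ∞ (comb θ) := by
  have : comb θ = fun w => w.1 + θ w.2 • (w.2 - w.1) := funext (comb_eq θ)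
  rw [this]
  exact contDiff_fst.add ((h.comp contDiff_snd).smul (contDiff_snd.sub contDiff_fst))

theorem fderiv_comb {θ : V → ℝ} (h : ContDiff ℝ ∞ θ) (w u : V × V) :
    fderiv ℝ (comb θ) w u = (1 - θ w.2) • u.1 + θ w.2 • u.2 + (fderiv ℝ θ w.2 u.2) • (w.2 - w.1) := by
  have h0 : comb θ = fun w => w.1 + θ w.2 • (w.2 - w.1) := funext (comb_eq θ)
  have hθ : HasFDerivAt θ (fderiv ℝ θ w.2) w.2 :=
    (h.differentiable (by simp)).differentiableAt.hasFDerivAt
  have h1 : HasFDerivAt (fun w : V × V => θ w.2)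
      ((fderiv ℝ θ w.2).comp (ContinuousLinearMap.snd ℝ V V)) w :=
    HasFDerivAt.comp w hθ hasFDerivAt_snd
  have h2 : HasFDerivAt (fun w : V × V => w.2 - w.1)
      (ContinuousLinearMap.snd ℝ V V - ContinuousLinearMap.fst ℝ V V) w :=
    hasFDerivAt_snd.sub hasFDerivAt_fst
  have h3 : HasFDerivAt (fun w : V × V => w.1 + θ w.2 • (w.2 - w.1)) _ w :=
    hasFDerivAt_fst.add (h1.smul h2)
  rw [h0, h3.fderiv]
  simp only [add_apply, smul_apply,
    ContinuousLinearMap.smulRight_apply, ContinuousLinearMap.comp_apply,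
    sub_apply, ContinuousLinearMap.coe_fst', ContinuousLinearMap.coe_snd']
  simp only [smul_sub, sub_smul, one_smul]
  abel

end comb

end Crest.Agent.R249.Glue832
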