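import Crest.Agent.R249.Glue2_832

/-!
# R249, part D4: gluing local maps into a metric space with a smooth chart atlas (3)

* `DM` : derivative of a vector valued map on a manifold;
* `SmAt`, `ClAt` : smoothness and `C^1` closeness of a map into the metric space `X`;
* `Atl.coord` : the basic estimate in one chart.
-/

set_option autoImplicit false
noncomputable section
open Set Filter Topology Metric Bundle
open scoped ContDiff Manifold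

namespace Crest.Agent.R249.Glue832

section DM

variable {n : ℕ} {M : Type*} [TopologicalSpace M] [ChartedSpace (EuclideanSpace ℝ (Fin n)) M]
  {V W : Type*} [NormedAddCommGroup V] [NormedSpace ℝ V] [NormedAddCommGroup W] [NormedSpace ℝ W]

/-- derivative of a vector valued map. -/
def DM (G : M → V) (x : M) : TangentSpace 𝓘(ℝ, EuclideanSpace ℝ (Fin n)) x →L[ℝ] V :=
  mfderiv 𝓘(ℝ, EuclideanSpace ℝ (Fin n)) 𝓘(ℝ, V) G x

theorem DM_congr {G H : M → V} {x : M} (h : G =ᶠ[𝓝 x] H) : DM (n := n) G x = DM H x := by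
  unfold DM
  exact h.mfderiv_eq

theorem DM_comp {G : M → V} {x : M} {g : V → W}
    (hg : DifferentiableAt ℝ g (G x))
    (hG : MDifferentiableAt 𝓘(ℝ, EuclideanSpace ℝ (Fin n)) 𝓘(ℝ, V) G x) (v) :
    DM (n := n) (fun y => g (G y)) x v = fderiv ℝ g (G x) (DM G x v) := by
  have h1 := hg.hasFDerivAt.hasMFDerivAt.comp x hG.hasMFDerivAt
  have h2 := h1.mfderiv
  have h3 : (fun y => g (G y)) = g ∘ G := rfl
  unfold DM
  rw [h3, h2]
  rfl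

theorem DM_prod {G : M → V} {H : M → W} {x : M}
    (hG : MDifferentiableAt 𝓘(ℝ, EuclideanSpace ℝ (Fin n)) 𝓘(ℝ, V) G x)
    (hH : MDifferentiableAt 𝓘(ℝ, EuclideanSpace ℝ (Fin n)) 𝓘(ℝ, W) H x) (v) :
    DM (n := n) (fun y => (G y, H y)) x v = (DM G x v, DM H x v) := by
  have h1 : HasMFDerivAt 𝓘(ℝ, EuclideanSpace ℝ (Fin n)) 𝓘(ℝ, V × W) (fun y => (G y, H y)) x
      ((DM (n := n) G x).prod (DM H x)) := by
    have a1 := hG.hasMFDerivAt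
    have a2 := hH.hasMFDerivAt
    exact ⟨a1.1.prodMk a2.1, a1.2.prodMk a2.2⟩
  have h2 := h1.mfderiv
  unfold DM at h2 ⊢
  rw [h2]
  rfl

end DM

section data

variable {n : ℕ} {ι : Type*} {X : Type*} [MetricSpace X] (A : Atl n ι X)
  {M : Type*} [TopologicalSpace M] [ChartedSpace (EuclideanSpace ℝ (Fin n)) M]

/-- `Φ : M → X` is smooth at `x` (in the charts of `A`). -/
def Atl.SmAt (Φ : M → X) (x : M) : Prop :=
  ContinuousAt Φ x ∧ ∀ b, Φ x ∈ (A.e b).source →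
    ContMDiffAt 𝓘(ℝ, EuclideanSpace ℝ (Fin n)) 𝓘(ℝ, EuclideanSpace ℝ (Fin n)) ∞
      (fun y => A.e b (Φ y)) x

variable {A}

theorem Atl.SmAt.congr {Φ Φ' : M → X} {x : M} (h : A.SmAt Φ x) (he : Φ' =ᶠ[𝓝 x] Φ) :
    A.SmAt Φ' x := by
  refine ⟨h.1.congr he.symm, fun b hb => ?_⟩
  rw [he.self_of_nhds] at hb
  refine (h.2 b hb).congr_of_eventuallyEq ?_
  filter_upwards [he] with y hy
  rw [hy]

theorem Atl.smAt_coord {a : ι} {G : M → EuclideanSpace ℝ (Fin n)} {Φ : M → X} {x : M}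
    (hG : ContMDiffAt 𝓘(ℝ, EuclideanSpace ℝ (Fin n)) 𝓘(ℝ, EuclideanSpace ℝ (Fin n)) ∞ G x)
    (hGt : G x ∈ (A.e a).target) (h : Φ =ᶠ[𝓝 x] fun y => (A.e a).symm (G y)) : A.SmAt Φ x := by
  have hc : ContinuousAt (fun y => (A.e a).symm (G y)) x :=
    ((A.e a).continuousAt_symm hGt).comp hG.continuousAt
  refine ⟨hc.congr h.symm, fun b hb => ?_⟩
  rw [h.self_of_nhds] at hb
  have h1 : ContDiffAt ℝ ∞ (A.tr a b) (G x) := A.contDiffAt_tr hGt hb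
  have h2 : ContMDiffAt 𝓘(ℝ, EuclideanSpace ℝ (Fin n)) 𝓘(ℝ, EuclideanSpace ℝ (Fin n)) ∞
      (fun y => A.tr a b (G y)) x := h1.contMDiffAt.comp x hG
  refine h2.congr_of_eventuallyEq ?_
  filter_upwards [h] with y hy
  rw [hy]
  rfl

variable [RiemannianBundle (fun x : M => TangentSpace 𝓘(ℝ, EuclideanSpace ℝ (Fin n)) x)]

variable (A)

/-- `Φ` is `η`-close to `f` and its derivative is `η`-close to `L`. -/
def Atl.ClAt (f : M → X)
    (L : ι → ∀ x : M, TangentSpace 𝓘(ℝ, EuclideanSpace ℝ (Fin n)) x → EuclideanSpace ℝ (Fin n))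
    (η : ℝ) (Φ : M → X) (x : M) : Prop :=
  dist (Φ x) (f x) ≤ η ∧ ∀ b, f x ∈ A.core b →
    ∀ v : TangentSpace 𝓘(ℝ, EuclideanSpace ℝ (Fin n)) x,
      ‖DM (fun y => A.e b (Φ y)) x v - L b x v‖ ≤ η * ‖v‖

/-- Local data: near `f`, smooth local maps `Ψ a : W a → ℝⁿ` (coordinates of chart `a`), with
derivatives close to the reference linear maps `L a x`. -/
structure Atl.Loc (c ε : ℝ) (f : M → X)
    (L : ι → ∀ x : M, TangentSpace 𝓘(ℝ, EuclideanSpace ℝ (Fin n)) x → EuclideanSpace ℝ (Fin n))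
    (W : ι → Set M) (Ψ : ι → M → EuclideanSpace ℝ (Fin n)) : Prop where
  quasi : ∀ x, ∀ᶠ y in 𝓝 x, dist (f x) (f y) ≤ ε
  open_W : ∀ a, IsOpen (W a)
  mem_W : ∀ a x, f x ∈ A.core a → x ∈ W a
  src : ∀ a, ∀ x ∈ W a, f x ∈ (A.e a).source
  smoothΨ : ∀ a, ContMDiffOn 𝓘(ℝ, EuclideanSpace ℝ (Fin n)) 𝓘(ℝ, EuclideanSpace ℝ (Fin n)) ∞
    (Ψ a) (W a)
  distΨ : ∀ a, ∀ x ∈ W a, dist (A.e a (f x)) (Ψ a x) ≤ ε
  dΨ : ∀ a x, f x ∈ A.core a → ∀ v : TangentSpace 𝓘(ℝ, EuclideanSpace ℝ (Fin n)) x,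
    ‖DM (Ψ a) x v - L a x v‖ ≤ ε * ‖v‖
  Lbd : ∀ a x, f x ∈ A.core a → ∀ v : TangentSpace 𝓘(ℝ, EuclideanSpace ℝ (Fin n)) x,
    ‖L a x v‖ ≤ c * ‖v‖
  compat : ∀ a b x, f x ∈ A.core a → f x ∈ A.core b →
    ∀ v : TangentSpace 𝓘(ℝ, EuclideanSpace ℝ (Fin n)) x,
      ‖fderiv ℝ (A.tr a b) (A.e a (f x)) (L a x v) - L b x v‖ ≤ ε * ‖v‖

/-- The estimate in one chart. -/
theorem Atl.clAt_coord {f : M → X}
    {L : ι → ∀ x : M, TangentSpace 𝓘(ℝ, EuclideanSpace ℝ (Fin n)) x → EuclideanSpace ℝ (Fin n)}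
    {a : ι} {G : M → EuclideanSpace ℝ (Fin n)} {Φ : M → X} {x : M} {c ε B κ σ η : ℝ}
    (hG : ContMDiffAt 𝓘(ℝ, EuclideanSpace ℝ (Fin n)) 𝓘(ℝ, EuclideanSpace ℝ (Fin n)) ∞ G x)
    (hGt : G x ∈ (A.e a).target) (h : Φ =ᶠ[𝓝 x] fun y => (A.e a).symm (G y))
    (hfx : f x ∈ A.core a)
    (hd : dist ((A.e a).symm (G x)) (f x) ≤ η)
    (hσ : 0 ≤ σ) (hκ : 0 ≤ κ) (hB : ∀ b, f x ∈ A.core b →
      ‖fderiv ℝ (A.tr a b) (A.e a (f x))‖ ≤ B)
    (hs : ∀ b, f x ∈ A.core b → (A.e a).symm (G x) ∈ (A.e b).source ∧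
      ‖fderiv ℝ (A.tr a b) (G x) - fderiv ℝ (A.tr a b) (A.e a (f x))‖ ≤ σ)
    (hL : ∀ v : TangentSpace 𝓘(ℝ, EuclideanSpace ℝ (Fin n)) x, ‖L a x v‖ ≤ c * ‖v‖)
    (hcomp : ∀ b, f x ∈ A.core b → ∀ v : TangentSpace 𝓘(ℝ, EuclideanSpace ℝ (Fin n)) x,
      ‖fderiv ℝ (A.tr a b) (A.e a (f x)) (L a x v) - L b x v‖ ≤ ε * ‖v‖)
    (hDG : ∀ v : TangentSpace 𝓘(ℝ, EuclideanSpace ℝ (Fin n)) x,
      ‖DM G x v - L a x v‖ ≤ κ * ‖v‖)
    (hη : (B + σ) * κ + σ * c + ε ≤ η) :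
    A.ClAt f L η Φ x := by
  refine ⟨by rw [h.self_of_nhds]; exact hd, fun b hb v => ?_⟩
  have h1 : ContDiffAt ℝ ∞ (A.tr a b) (G x) := A.contDiffAt_tr hGt (hs b hb).1
  have h2 : DM (n := n) (fun y => A.e b (Φ y)) x v = fderiv ℝ (A.tr a b) (G x) (DM G x v) := by
    rw [← DM_comp (n := n) (g := A.tr a b) (h1.differentiableAt (by simp))
      (hG.mdifferentiableAt (by simp)) v]
    have : (fun y => A.e b (Φ y)) =ᶠ[𝓝 x] fun y => A.tr a b (G y) := by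
      filter_upwards [h] with y hy
      rw [hy]
      rfl
    rw [DM_congr this]
  rw [h2]
  set T := fderiv ℝ (A.tr a b) (G x) with hT
  set T' := fderiv ℝ (A.tr a b) (A.e a (f x)) with hT'
  have hTT : ‖T‖ ≤ B + σ := by
    calc ‖T‖ = ‖T' + (T - T')‖ := by congr 1; abel
      _ ≤ ‖T'‖ + ‖T - T'‖ := norm_add_le _ _
      _ ≤ B + σ := add_le_add (hB b hb) (hs b hb).2
  have e1 : T (DM G x v) - L b x v = T (DM G x v - L a x v) + (T - T') (L a x v) +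
      (T' (L a x v) - L b x v) := by
    rw [map_sub, sub_apply]
    abel
  rw [e1]
  have n1 : ‖T (DM G x v - L a x v)‖ ≤ (B + σ) * (κ * ‖v‖) :=
    (T.le_opNorm _).trans (mul_le_mul hTT (hDG v) (norm_nonneg _)
      ((norm_nonneg T).trans hTT))
  have n2 : ‖(T - T') (L a x v)‖ ≤ σ * (c * ‖v‖) :=
    ((T - T').le_opNorm _).trans (mul_le_mul (hs b hb).2 (hL v) (norm_nonneg _) hσ)
  calc ‖T (DM G x v - L a x v) + (T - T') (L a x v) + (T' (L a x v) - L b x v)‖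
      ≤ ‖T (DM G x v - L a x v)‖ + ‖(T - T') (L a x v)‖ + ‖T' (L a x v) - L b x v‖ :=
        norm_add₃_le
    _ ≤ (B + σ) * (κ * ‖v‖) + σ * (c * ‖v‖) + ε * ‖v‖ :=
        add_le_add (add_le_add n1 n2) (hcomp b hb v)
    _ = ((B + σ) * κ + σ * c + ε) * ‖v‖ := by ring
    _ ≤ η * ‖v‖ := mul_le_mul_of_nonneg_right hη (norm_nonneg _)

end data

end Crest.Agent.R249.Glue832
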