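import Crest.Agent.R249.Glue3_832

/-!
# R249, part D4: gluing local maps into a metric space with a smooth chart atlas (4)

`Atl.step` : one step of the induction over the charts.
-/

set_option autoImplicit false
noncomputable section
open Set Filter Topology Metric Bundle
open scoped ContDiff Manifold

namespace Crest.Agent.R249.Glue832

theorem exists_pos_le {ι : Type*} [Finite ι] (δ : ι → ℝ) (h : ∀ b, 0 < δ b) :
    ∃ r : ℝ, 0 < r ∧ ∀ b, r ≤ δ b := by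
  cases isEmpty_or_nonempty ι
  · exact ⟨1, one_pos, fun b => isEmptyElim b⟩
  · obtain ⟨b, hb⟩ := Finite.exists_min δ
    exact ⟨δ b, h b, hb⟩

theorem exists_ge' {ι : Type*} [Finite ι] (B : ι → ℝ) : ∃ r : ℝ, 0 ≤ r ∧ ∀ b, B b ≤ r := by
  cases isEmpty_or_nonempty ι
  · exact ⟨0, le_rfl, fun b => isEmptyElim b⟩
  · obtain ⟨b, hb⟩ := Finite.exists_max B
    exact ⟨max (B b) 0, le_max_right _ _, fun b' => (hb b').trans (le_max_left _ _)⟩

universe u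

variable {n : ℕ} {ι : Type*} {X : Type*} [MetricSpace X]

/-- One step of the gluing. -/
theorem Atl.step [Finite ι] (A : Atl n ι X) {C' : ι → Set (EuclideanSpace ℝ (Fin n))}
    (Θ : Cut A C') (a : ι) {c : ℝ} (hc : 0 ≤ c) {η : ℝ} (hη : 0 < η) :
    ∃ ε₀ : ℝ, 0 < ε₀ ∧ ∀ (M : Type u) [TopologicalSpace M]
      [ChartedSpace (EuclideanSpace ℝ (Fin n)) M]
      [RiemannianBundle (fun x : M => TangentSpace 𝓘(ℝ, EuclideanSpace ℝ (Fin n)) x)]
      (f : M → X)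
      (L : ι → ∀ x : M, TangentSpace 𝓘(ℝ, EuclideanSpace ℝ (Fin n)) x →
        EuclideanSpace ℝ (Fin n))
      (W : ι → Set M) (Ψ : ι → M → EuclideanSpace ℝ (Fin n)) (ε : ℝ), 0 ≤ ε → ε ≤ ε₀ →
      A.Loc c ε f L W Ψ → ∀ (O : Set M) (Φ : M → X),
      (∀ x ∈ O, A.SmAt Φ x ∧ A.ClAt f L ε₀ Φ x) →
      ∃ Φ' : M → X, ∀ x ∈ O ∪ {x | x ∈ W a ∧ ∀ᶠ z in 𝓝 (Ψ a x), Θ.θ a z = 1},
        A.SmAt Φ' x ∧ A.ClAt f L η Φ' x := by
  classical
  -- constants
  choose B hB0 hB using fun b => A.bound_trans a b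
  obtain ⟨B', hB'0, hB'⟩ := exists_ge' B
  obtain ⟨Bθ, hBθ0, hBθ⟩ := Θ.bound_fderiv a
  set σ : ℝ := min 1 (η / (4 * (c + 1))) with hσ
  have hσ0 : 0 < σ := lt_min one_pos (by positivity)
  set κ : ℝ := η / (4 * (B' + 1)) with hκ
  have hκ0 : 0 < κ := by positivity
  obtain ⟨δs, hδs, hsymm⟩ := A.unif_symm a hη
  choose δt hδt htrans using fun b => A.unif_trans a b hσ0
  obtain ⟨δt', hδt'0, hδt'⟩ := exists_pos_le δt hδt
  set τ : ℝ := min (min δs δt') (κ / (6 * ((Bθ + 1) * (c + 1)))) with hτ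
  have hτ0 : 0 < τ := lt_min (lt_min hδs hδt'0) (by positivity)
  have hτs : τ ≤ δs := (min_le_left _ _).trans (min_le_left _ _)
  have hτt : ∀ b, τ ≤ δt b := fun b => ((min_le_left _ _).trans (min_le_right _ _)).trans (hδt' b)
  have hτκ : 2 * (Bθ * (c + 1)) * τ ≤ κ / 3 := by
    have h1 : τ ≤ κ / (6 * ((Bθ + 1) * (c + 1))) := min_le_right _ _
    have h2 : 0 < (Bθ + 1) * (c + 1) := by positivity
    have h3 : τ * (6 * ((Bθ + 1) * (c + 1))) ≤ κ := (le_div_iff₀ (by positivity)).1 h1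
    nlinarith [mul_nonneg hτ0.le (by positivity : (0:ℝ) ≤ c + 1)]
  obtain ⟨δ₁, hδ₁, hchart⟩ := A.unif_chart a hτ0
  obtain ⟨δ₄, hδ₄, hcore⟩ := Θ.unif_core a
  set ε₀ : ℝ := min (min (min (η / 4) (κ / 3)) (min τ δ₁)) (min δ₄ 1) with hε₀
  have hε₀0 : 0 < ε₀ :=
    lt_min (lt_min (lt_min (by positivity) (by positivity)) (lt_min hτ0 hδ₁)) (lt_min hδ₄ one_pos)
  have e1 : ε₀ ≤ η / 4 := ((min_le_left _ _).trans (min_le_left _ _)).trans (min_le_left _ _)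
  have e2 : ε₀ ≤ κ / 3 := ((min_le_left _ _).trans (min_le_left _ _)).trans (min_le_right _ _)
  have e3 : ε₀ ≤ τ := ((min_le_left _ _).trans (min_le_right _ _)).trans (min_le_left _ _)
  have e4 : ε₀ ≤ δ₁ := ((min_le_left _ _).trans (min_le_right _ _)).trans (min_le_right _ _)
  have e5 : ε₀ ≤ δ₄ := (min_le_right _ _).trans (min_le_left _ _)
  have e6 : ε₀ ≤ 1 := (min_le_right _ _).trans (min_le_right _ _)
  refine ⟨ε₀, hε₀0, ?_⟩
  intro M _ _ _ f L W Ψ ε hε0 hε hloc O Φ hΦ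
  have hfin : ∀ κ' : ℝ, κ' ≤ κ → (B' + σ) * κ' + σ * c + ε ≤ η := by
    intro κ' hκ'
    have h1 : σ ≤ 1 := min_le_left _ _
    have h2 : σ ≤ η / (4 * (c + 1)) := min_le_right _ _
    have h3 : (B' + σ) * κ' ≤ (B' + 1) * κ :=
      (mul_le_mul_of_nonneg_left hκ' (by positivity)).trans
        (mul_le_mul_of_nonneg_right (by linarith) hκ0.le)
    have h4 : (B' + 1) * κ = η / 4 := by rw [hκ]; field_simp
    have h5 : σ * c ≤ η / 4 := by
      have : σ * (4 * (c + 1)) ≤ η := (le_div_iff₀ (by positivity)).1 h2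
      nlinarith
    linarith
  -- the new map
  set P : M → Prop := fun y => y ∈ W a ∧ Θ.θ a (Ψ a y) ≠ 0 with hP
  set Φ' : M → X := fun y => if P y then
    (A.e a).symm (comb (Θ.θ a) (A.e a (Φ y), Ψ a y)) else Φ y with hΦ'
  have hPK : ∀ y, Θ.θ a (Ψ a y) ≠ 0 → Ψ a y ∈ Θ.K a := by
    intro y hy
    by_contra h
    exact hy (Θ.zero a _ h)
  -- the chart estimate
  have main : ∀ (x : M) (G : M → EuclideanSpace ℝ (Fin n)) (κ' : ℝ), 0 ≤ κ' → κ' ≤ κ →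
      f x ∈ A.core a →
      ContMDiffAt 𝓘(ℝ, EuclideanSpace ℝ (Fin n)) 𝓘(ℝ, EuclideanSpace ℝ (Fin n)) ∞ G x →
      (Φ' =ᶠ[𝓝 x] fun y => (A.e a).symm (G y)) → dist (G x) (A.e a (f x)) ≤ τ →
      (∀ v : TangentSpace 𝓘(ℝ, EuclideanSpace ℝ (Fin n)) x,
        ‖DM G x v - L a x v‖ ≤ κ' * ‖v‖) → A.SmAt Φ' x ∧ A.ClAt f L η Φ' x := by
    intro x G κ' hκ'0 hκ' hfx hG hΦG hdist hDG
    have hfx' := A.mem_core.1 hfx
    obtain ⟨g1, g2⟩ := hsymm (G x) (A.e a (f x)) hfx'.2 (hdist.trans hτs)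
    rw [(A.e a).left_inv hfx'.1] at g2
    refine ⟨A.smAt_coord hG g1 hΦG, ?_⟩
    refine A.clAt_coord (B := B') (κ := κ') (σ := σ) (c := c) (ε := ε) hG g1 hΦG hfx g2 hσ0.le
      hκ'0 ?_ ?_ (hloc.Lbd a x hfx) (fun b hb => hloc.compat a b x hfx hb) hDG (hfin κ' hκ')
    · intro b hb
      exact (hB b _ ⟨f x, ⟨hfx, hb⟩, rfl⟩).trans (hB' b)
    · intro b hb
      have := htrans b (G x) (A.e a (f x)) ⟨f x, ⟨hfx, hb⟩, rfl⟩ (hdist.trans (hτt b))
      exact ⟨this.2.1, this.2.2⟩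
  refine ⟨Φ', fun x hx => ?_⟩
  by_cases hxA : x ∈ W a ∧ ∀ᶠ z in 𝓝 (Ψ a x), Θ.θ a z = 1
  · -- near `x` the new map is `Ψ a`
    obtain ⟨hxW, hx1⟩ := hxA
    have hΨ : ContMDiffAt 𝓘(ℝ, EuclideanSpace ℝ (Fin n)) 𝓘(ℝ, EuclideanSpace ℝ (Fin n)) ∞
        (Ψ a) x := (hloc.smoothΨ a).contMDiffAt ((hloc.open_W a).mem_nhds hxW)
    have hK : Ψ a x ∈ Θ.K a := hPK x (by rw [hx1.self_of_nhds]; exact one_ne_zero)
    have hfx : f x ∈ A.core a := by
      refine hcore (f x) (f x) (hloc.src a x hxW) ⟨_, hK, ?_⟩ (by rw [dist_self]; exact hδ₄.le)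
      exact ((hloc.distΨ a x hxW).trans hε).trans e5
    refine main x (Ψ a) ε hε0 (by linarith) hfx hΨ ?_ ?_ (hloc.dΨ a x hfx)
    · filter_upwards [hΨ.continuousAt.eventually hx1, (hloc.open_W a).mem_nhds hxW] with y hy hyW
      have hPy : P y := ⟨hyW, by rw [hy]; exact one_ne_zero⟩
      simp only [hΦ', if_pos hPy, comb, hy, sub_self, zero_smul, one_smul, zero_add]
    · rw [dist_comm]
      exact ((hloc.distΨ a x hxW).trans hε).trans e3
  have hxO : x ∈ O := hx.resolve_right hxA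
  obtain ⟨hΦs, hΦc⟩ := hΦ x hxO
  by_cases hxC : x ∈ W a ∧ f x ∈ A.core a
  · obtain ⟨hxW, hfx⟩ := hxC
    have hΨ : ContMDiffAt 𝓘(ℝ, EuclideanSpace ℝ (Fin n)) 𝓘(ℝ, EuclideanSpace ℝ (Fin n)) ∞
        (Ψ a) x := (hloc.smoothΨ a).contMDiffAt ((hloc.open_W a).mem_nhds hxW)
    obtain ⟨s1, s2⟩ := hchart (Φ x) (f x) hfx (hΦc.1.trans e4)
    have hΦa := hΦs.2 a s1
    set G : M → EuclideanSpace ℝ (Fin n) := fun y => comb (Θ.θ a) (A.e a (Φ y), Ψ a y) with hG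
    have hpair : ContMDiffAt 𝓘(ℝ, EuclideanSpace ℝ (Fin n))
        𝓘(ℝ, EuclideanSpace ℝ (Fin n) × EuclideanSpace ℝ (Fin n)) ∞
        (fun y => (A.e a (Φ y), Ψ a y)) x := hΦa.prodMk_space hΨ
    have hGs : ContMDiffAt 𝓘(ℝ, EuclideanSpace ℝ (Fin n)) 𝓘(ℝ, EuclideanSpace ℝ (Fin n)) ∞ G x :=
      (contDiff_comb (Θ.smooth a)).contMDiff.contMDiffAt.comp x hpair
    have t0 := Θ.nonneg a (Ψ a x)
    have t1 := Θ.le_one a (Ψ a x)
    have d1 : ‖A.e a (Φ x) - A.e a (f x)‖ ≤ τ := by rw [← dist_eq_norm]; exact s2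
    have d2 : ‖Ψ a x - A.e a (f x)‖ ≤ τ := by
      rw [← dist_eq_norm, dist_comm]
      exact ((hloc.distΨ a x hxW).trans hε).trans e3
    refine main x G κ hκ0.le le_rfl hfx hGs ?_ ?_ ?_
    · have hsrc : ∀ᶠ y in 𝓝 x, Φ y ∈ (A.e a).source :=
        hΦs.1.eventually ((A.e a).open_source.mem_nhds s1)
      filter_upwards [hsrc, (hloc.open_W a).mem_nhds hxW] with y hy hyW
      by_cases hPy : P y
      · simp only [hΦ', if_pos hPy, hG]
      · have h0 : Θ.θ a (Ψ a y) = 0 := by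
          by_contra h
          exact hPy ⟨hyW, h⟩
        simp only [hΦ', if_neg hPy, hG, comb, h0, sub_zero, one_smul, zero_smul, add_zero]
        rw [(A.e a).left_inv hy]
    · rw [dist_eq_norm]
      have : G x - A.e a (f x) = (1 - Θ.θ a (Ψ a x)) • (A.e a (Φ x) - A.e a (f x)) +
          Θ.θ a (Ψ a x) • (Ψ a x - A.e a (f x)) := by
        simp only [hG, comb, smul_sub, sub_smul, one_smul]
        abel
      rw [this]
      calc _ ≤ ‖(1 - Θ.θ a (Ψ a x)) • (A.e a (Φ x) - A.e a (f x))‖ +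
          ‖Θ.θ a (Ψ a x) • (Ψ a x - A.e a (f x))‖ := norm_add_le _ _
        _ = (1 - Θ.θ a (Ψ a x)) * ‖A.e a (Φ x) - A.e a (f x)‖ +
          Θ.θ a (Ψ a x) * ‖Ψ a x - A.e a (f x)‖ := by
            rw [norm_smul, norm_smul, Real.norm_of_nonneg t0, Real.norm_of_nonneg (by linarith)]
        _ ≤ (1 - Θ.θ a (Ψ a x)) * τ + Θ.θ a (Ψ a x) * τ :=
            add_le_add (mul_le_mul_of_nonneg_left d1 (by linarith))
              (mul_le_mul_of_nonneg_left d2 t0)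
        _ = τ := by ring
    · intro v
      have hmd1 := hΦa.mdifferentiableAt (by simp : (∞ : WithTop ℕ∞) ≠ 0)
      have hmd2 := hΨ.mdifferentiableAt (by simp : (∞ : WithTop ℕ∞) ≠ 0)
      have hDG : DM (n := n) G x v = (1 - Θ.θ a (Ψ a x)) • DM (fun y => A.e a (Φ y)) x v +
          Θ.θ a (Ψ a x) • DM (Ψ a) x v +
          (fderiv ℝ (Θ.θ a) (Ψ a x) (DM (Ψ a) x v)) • (Ψ a x - A.e a (Φ x)) := by
        have h1 := DM_comp (n := n) (G := fun y => (A.e a (Φ y), Ψ a y)) (x := x)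
          (g := comb (Θ.θ a)) ((contDiff_comb (Θ.smooth a)).differentiable (by simp)).differentiableAt
          (hpair.mdifferentiableAt (by simp)) v
        rw [DM_prod hmd1 hmd2, fderiv_comb (Θ.smooth a)] at h1
        exact h1
      have b1 := hΦc.2 a hfx v
      have b2 := hloc.dΨ a x hfx v
      have b3 : ‖DM (Ψ a) x v‖ ≤ (c + 1) * ‖v‖ := by
        calc ‖DM (Ψ a) x v‖ = ‖(DM (Ψ a) x v - L a x v) + L a x v‖ := by
              congr 1; abel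
          _ ≤ ‖DM (Ψ a) x v - L a x v‖ + ‖L a x v‖ := norm_add_le _ _
          _ ≤ ε * ‖v‖ + c * ‖v‖ := add_le_add b2 (hloc.Lbd a x hfx v)
          _ ≤ (c + 1) * ‖v‖ := by
              have : ε ≤ 1 := hε.trans e6
              nlinarith [norm_nonneg v]
      have b4 : ‖(fderiv ℝ (Θ.θ a) (Ψ a x) (DM (Ψ a) x v)) • (Ψ a x - A.e a (Φ x))‖ ≤
          Bθ * ((c + 1) * ‖v‖) * (2 * τ) := by
        rw [norm_smul]
        have h1 : ‖fderiv ℝ (Θ.θ a) (Ψ a x) (DM (Ψ a) x v)‖ ≤ Bθ * ((c + 1) * ‖v‖) :=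
          (ContinuousLinearMap.le_opNorm _ _).trans
            (mul_le_mul (hBθ _) b3 (norm_nonneg _) hBθ0)
        have h2 : ‖Ψ a x - A.e a (Φ x)‖ ≤ 2 * τ := by
          calc ‖Ψ a x - A.e a (Φ x)‖ = ‖(Ψ a x - A.e a (f x)) - (A.e a (Φ x) - A.e a (f x))‖ := by
                congr 1; abel
            _ ≤ ‖Ψ a x - A.e a (f x)‖ + ‖A.e a (Φ x) - A.e a (f x)‖ := norm_sub_le _ _
            _ ≤ 2 * τ := by linarith
        exact mul_le_mul h1 h2 (norm_nonneg _) (by positivity)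
      have hdec : DM (n := n) G x v - L a x v =
          (1 - Θ.θ a (Ψ a x)) • (DM (fun y => A.e a (Φ y)) x v - L a x v) +
          Θ.θ a (Ψ a x) • (DM (Ψ a) x v - L a x v) +
          (fderiv ℝ (Θ.θ a) (Ψ a x) (DM (Ψ a) x v)) • (Ψ a x - A.e a (Φ x)) := by
        rw [hDG]
        simp only [smul_sub, sub_smul, one_smul]
        abel
      rw [hdec]
      calc _ ≤ ‖(1 - Θ.θ a (Ψ a x)) • (DM (fun y => A.e a (Φ y)) x v - L a x v)‖ +
          ‖Θ.θ a (Ψ a x) • (DM (Ψ a) x v - L a x v)‖ +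
          ‖(fderiv ℝ (Θ.θ a) (Ψ a x) (DM (Ψ a) x v)) • (Ψ a x - A.e a (Φ x))‖ := norm_add₃_le
        _ ≤ (1 - Θ.θ a (Ψ a x)) * (ε₀ * ‖v‖) + Θ.θ a (Ψ a x) * (ε₀ * ‖v‖) +
            Bθ * ((c + 1) * ‖v‖) * (2 * τ) := by
          refine add_le_add (add_le_add ?_ ?_) b4
          · rw [norm_smul, Real.norm_of_nonneg (by linarith : (0:ℝ) ≤ 1 - Θ.θ a (Ψ a x))]
            exact mul_le_mul_of_nonneg_left b1 (by linarith)
          · rw [norm_smul, Real.norm_of_nonneg t0]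
            refine mul_le_mul_of_nonneg_left (b2.trans ?_) t0
            exact mul_le_mul_of_nonneg_right hε (norm_nonneg _)
        _ = (ε₀ + 2 * (Bθ * (c + 1)) * τ) * ‖v‖ := by ring
        _ ≤ κ * ‖v‖ := mul_le_mul_of_nonneg_right (by linarith) (norm_nonneg _)
  · -- away from the chart `a` the map is unchanged
    have hev : Φ' =ᶠ[𝓝 x] Φ := by
      filter_upwards [hloc.quasi x] with y hy
      have hPy : ¬ P y := by
        rintro ⟨hyW, hy0⟩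
        have hK := hPK y hy0
        have : f x ∈ A.core a :=
          hcore (f x) (f y) (hloc.src a y hyW)
            ⟨_, hK, ((hloc.distΨ a y hyW).trans hε).trans e5⟩ ((hy.trans hε).trans e5)
        exact hxC ⟨hloc.mem_W a x this, this⟩
      simp only [hΦ', if_neg hPy]
    refine ⟨hΦs.congr hev, ?_, fun b hb v => ?_⟩
    · rw [hev.self_of_nhds]
      exact hΦc.1.trans (by linarith)
    · have h1 : (fun y => A.e b (Φ' y)) =ᶠ[𝓝 x] fun y => A.e b (Φ y) := by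
        filter_upwards [hev] with y hy
        rw [hy]
      rw [DM_congr h1]
      exact (hΦc.2 b hb v).trans (mul_le_mul_of_nonneg_right (by linarith) (norm_nonneg _))

end Crest.Agent.R249.Glue832
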