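import Crest.Agent.R249.Glue4_832

/-!
# R249, part D4: gluing local maps into a metric space with a smooth chart atlas (5)

* `Atl.glue` : the gluing theorem;
* `Atl.glue_diffeo` : if the reference maps are bounded below, the glued map is a local
  diffeomorphism in the charts.
-/

set_option autoImplicit false
noncomputable section
open Set Filter Topology Metric Bundle
open scoped ContDiff Manifold

namespace Crest.Agent.R249.Glue832

universe u

variable {n : ℕ} {ι : Type*} {X : Type*} [MetricSpace X]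

/-- **Gluing theorem.** -/
theorem Atl.glue [Finite ι] (A : Atl n ι X) (C' : ι → Set (EuclideanSpace ℝ (Fin n)))
    (h1 : ∀ a, IsCompact (C' a)) (h2 : ∀ a, C' a ⊆ interior (A.C a))
    (hcov : ∀ p : X, ∃ a, p ∈ (A.e a).source ∧ A.e a p ∈ C' a) {c : ℝ} (hc : 0 ≤ c) {η : ℝ}
    (hη : 0 < η) :
    ∃ ε₀ : ℝ, 0 < ε₀ ∧ ∀ (M : Type u) [TopologicalSpace M]
      [ChartedSpace (EuclideanSpace ℝ (Fin n)) M]
      [RiemannianBundle (fun x : M => TangentSpace 𝓘(ℝ, EuclideanSpace ℝ (Fin n)) x)]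
      (f : M → X)
      (L : ι → ∀ x : M, TangentSpace 𝓘(ℝ, EuclideanSpace ℝ (Fin n)) x →
        EuclideanSpace ℝ (Fin n))
      (W : ι → Set M) (Ψ : ι → M → EuclideanSpace ℝ (Fin n)) (ε : ℝ), 0 ≤ ε → ε ≤ ε₀ →
      A.Loc c ε f L W Ψ → ∃ Φ : M → X, ∀ x, A.SmAt Φ x ∧ A.ClAt f L η Φ x := by
  classical
  obtain ⟨Θ⟩ := exists_cut A C' h1 h2
  have key : ∀ s : Finset ι, ∀ η : ℝ, 0 < η → ∃ ε₀ : ℝ, 0 < ε₀ ∧ ∀ (M : Type u)
      [TopologicalSpace M] [ChartedSpace (EuclideanSpace ℝ (Fin n)) M]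
      [RiemannianBundle (fun x : M => TangentSpace 𝓘(ℝ, EuclideanSpace ℝ (Fin n)) x)]
      (f : M → X)
      (L : ι → ∀ x : M, TangentSpace 𝓘(ℝ, EuclideanSpace ℝ (Fin n)) x →
        EuclideanSpace ℝ (Fin n))
      (W : ι → Set M) (Ψ : ι → M → EuclideanSpace ℝ (Fin n)) (ε : ℝ), 0 ≤ ε → ε ≤ ε₀ →
      A.Loc c ε f L W Ψ → ∃ Φ : M → X,
        ∀ x ∈ {x | ∃ a ∈ s, x ∈ W a ∧ ∀ᶠ z in 𝓝 (Ψ a x), Θ.θ a z = 1},
          A.SmAt Φ x ∧ A.ClAt f L η Φ x := by
    intro s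
    induction s using Finset.induction_on with
    | empty =>
      intro η hη
      refine ⟨1, one_pos, ?_⟩
      intro M _ _ _ f L W Ψ ε _ _ _
      refine ⟨f, ?_⟩
      rintro x ⟨a, ha, -⟩
      exact absurd ha (Finset.notMem_empty a)
    | insert a s ha ih =>
      intro η hη
      obtain ⟨ε₁, hε₁, hstep⟩ := A.step.{u} Θ a hc hη
      obtain ⟨ε₂, hε₂, hih⟩ := ih ε₁ hε₁
      refine ⟨min ε₁ ε₂, lt_min hε₁ hε₂, ?_⟩
      intro M _ _ _ f L W Ψ ε hε0 hε hloc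
      obtain ⟨Φ, hΦ⟩ := hih M f L W Ψ ε hε0 (hε.trans (min_le_right _ _)) hloc
      obtain ⟨Φ', hΦ'⟩ := hstep M f L W Ψ ε hε0 (hε.trans (min_le_left _ _)) hloc _ Φ hΦ
      refine ⟨Φ', ?_⟩
      rintro x ⟨b, hb, hbx⟩
      apply hΦ'
      rcases Finset.mem_insert.1 hb with rfl | hb
      · exact Or.inr hbx
      · exact Or.inl ⟨b, hb, hbx⟩
  have hfin : Fintype ι := Fintype.ofFinite ι
  obtain ⟨ε₁, hε₁, H⟩ := key Finset.univ η hη
  choose δ hδ hδ' using fun a => Θ.unif_one a (h1 a)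
  obtain ⟨ε₂, hε₂, hε₂'⟩ := exists_pos_le δ hδ
  refine ⟨min ε₁ ε₂, lt_min hε₁ hε₂, ?_⟩
  intro M _ _ _ f L W Ψ ε hε0 hε hloc
  obtain ⟨Φ, hΦ⟩ := H M f L W Ψ ε hε0 (hε.trans (min_le_left _ _)) hloc
  refine ⟨Φ, fun x => hΦ x ?_⟩
  obtain ⟨a, ha1, ha2⟩ := hcov (f x)
  have hxW : x ∈ W a := hloc.mem_W a x (A.mem_core.2 ⟨ha1, interior_subset (h2 a ha2)⟩)
  refine ⟨a, Finset.mem_univ _, hxW, hδ' a _ _ ha2 ?_⟩
  rw [dist_comm]
  exact ((hloc.distΨ a x hxW).trans (hε.trans (min_le_right _ _))).trans (hε₂' a)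

/-- The derivative of a transition map is bijective. -/
theorem Atl.bijective_tr (A : Atl n ι X) {a b : ι} {p : X} (ha : p ∈ (A.e a).source)
    (hb : p ∈ (A.e b).source) : Function.Bijective (fderiv ℝ (A.tr a b) (A.e a p)) := by
  have key : ∀ a b : ι, p ∈ (A.e a).source → p ∈ (A.e b).source →
      ∀ v, fderiv ℝ (A.tr b a) (A.e b p) (fderiv ℝ (A.tr a b) (A.e a p) v) = v := by
    intro a b ha hb v
    have ta : A.e a p ∈ (A.e a).target := (A.e a).map_source ha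
    have tb : A.e b p ∈ (A.e b).target := (A.e b).map_source hb
    have la : (A.e a).symm (A.e a p) = p := (A.e a).left_inv ha
    have lb : (A.e b).symm (A.e b p) = p := (A.e b).left_inv hb
    have d1 : DifferentiableAt ℝ (A.tr a b) (A.e a p) :=
      (A.contDiffAt_tr ta (by rw [la]; exact hb)).differentiableAt (by simp)
    have d2 : DifferentiableAt ℝ (A.tr b a) (A.e b p) :=
      (A.contDiffAt_tr tb (by rw [lb]; exact ha)).differentiableAt (by simp)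
    have e1 : A.tr a b (A.e a p) = A.e b p := by unfold Atl.tr; rw [la]
    have hcomp : HasFDerivAt (A.tr b a ∘ A.tr a b)
        ((fderiv ℝ (A.tr b a) (A.e b p)).comp (fderiv ℝ (A.tr a b) (A.e a p))) (A.e a p) := by
      refine HasFDerivAt.comp _ ?_ d1.hasFDerivAt
      rw [e1]
      exact d2.hasFDerivAt
    have hid : (A.tr b a ∘ A.tr a b) =ᶠ[𝓝 (A.e a p)] id := by
      filter_upwards [(A.isOpen_trans_dom a b).mem_nhds ⟨ta, by rw [la]; exact hb⟩] with y hy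
      simp only [Function.comp, Atl.tr, id]
      rw [(A.e b).left_inv hy.2, (A.e a).right_inv hy.1]
    have h3 := hcomp.congr_of_eventuallyEq hid.symm
    have h4 := h3.unique (hasFDerivAt_id _)
    have h5 := congrArg (fun T => T v) h4
    simpa using h5
  refine ⟨fun v w hvw => ?_, fun w => ⟨_, key b a hb ha w⟩⟩
  have h1 := key a b ha hb v
  have h2 := key a b ha hb w
  rw [← h1, ← h2]
  exact congrArg _ hvw

/-- **Gluing theorem, local diffeomorphism form.** -/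
theorem Atl.glue_diffeo [Finite ι] (A : Atl n ι X) (C' : ι → Set (EuclideanSpace ℝ (Fin n)))
    (h1 : ∀ a, IsCompact (C' a)) (h2 : ∀ a, C' a ⊆ interior (A.C a))
    (hcov : ∀ p : X, ∃ a, p ∈ (A.e a).source ∧ A.e a p ∈ C' a) {c c₁ : ℝ} (hc : 0 ≤ c)
    (hc₁ : 0 < c₁) {η : ℝ} (hη : 0 < η) :
    ∃ ε₀ : ℝ, 0 < ε₀ ∧ ∀ (M : Type u) [TopologicalSpace M]
      [ChartedSpace (EuclideanSpace ℝ (Fin n)) M]
      [RiemannianBundle (fun x : M => TangentSpace 𝓘(ℝ, EuclideanSpace ℝ (Fin n)) x)]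
      (f : M → X)
      (L : ι → ∀ x : M, TangentSpace 𝓘(ℝ, EuclideanSpace ℝ (Fin n)) x →
        EuclideanSpace ℝ (Fin n))
      (W : ι → Set M) (Ψ : ι → M → EuclideanSpace ℝ (Fin n)) (ε : ℝ), 0 ≤ ε → ε ≤ ε₀ →
      A.Loc c ε f L W Ψ →
      (∀ a x, f x ∈ A.core a → ∀ v : TangentSpace 𝓘(ℝ, EuclideanSpace ℝ (Fin n)) x,
        c₁ * ‖v‖ ≤ ‖L a x v‖) →
      ∃ Φ : M → X, Continuous Φ ∧ (∀ x, dist (Φ x) (f x) ≤ η) ∧
        ∀ a, ContMDiffOn 𝓘(ℝ, EuclideanSpace ℝ (Fin n)) 𝓘(ℝ, EuclideanSpace ℝ (Fin n)) ∞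
          (fun x => A.e a (Φ x)) (Φ ⁻¹' (A.e a).source) ∧
        ∀ x, Φ x ∈ (A.e a).source → Function.Bijective
          (mfderiv 𝓘(ℝ, EuclideanSpace ℝ (Fin n)) 𝓘(ℝ, EuclideanSpace ℝ (Fin n))
            (fun x => A.e a (Φ x)) x) := by
  classical
  choose δ hδ hδ' using fun a => A.unif_chart a (one_pos : (0:ℝ) < 1)
  obtain ⟨δ₀, hδ₀, hδ₀'⟩ := exists_pos_le δ hδ
  set η' : ℝ := min (min η (c₁ / 2)) δ₀ with hη'
  have hη'0 : 0 < η' := lt_min (lt_min hη (by positivity)) hδ₀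
  have m1 : η' ≤ η := (min_le_left _ _).trans (min_le_left _ _)
  have m2 : η' ≤ c₁ / 2 := (min_le_left _ _).trans (min_le_right _ _)
  have m3 : η' ≤ δ₀ := min_le_right _ _
  obtain ⟨ε₀, hε₀, H⟩ := A.glue.{u} C' h1 h2 hcov hc hη'0
  refine ⟨ε₀, hε₀, ?_⟩
  intro M _ _ _ f L W Ψ ε hε0 hε hloc hlow
  obtain ⟨Φ, hΦ⟩ := H M f L W Ψ ε hε0 hε hloc
  refine ⟨Φ, continuous_iff_continuousAt.2 fun x => (hΦ x).1.1, fun x => (hΦ x).2.1.trans m1,
    fun a => ⟨fun x hx => ((hΦ x).1.2 a hx).contMDiffWithinAt, fun x hx => ?_⟩⟩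
  obtain ⟨b, hb1, hb2⟩ := hcov (f x)
  have hcore : f x ∈ A.core b := A.mem_core.2 ⟨hb1, interior_subset (h2 b hb2)⟩
  have hbsrc : Φ x ∈ (A.e b).source :=
    (hδ' b (Φ x) (f x) hcore ((hΦ x).2.1.trans (m3.trans (hδ₀' b)))).1
  have hsm := (hΦ x).1.2 b hbsrc
  -- bijectivity in chart `b`
  have hfd : FiniteDimensional ℝ (TangentSpace 𝓘(ℝ, EuclideanSpace ℝ (Fin n)) x) :=
    inferInstanceAs (FiniteDimensional ℝ (EuclideanSpace ℝ (Fin n)))
  have hfr : Module.finrank ℝ (TangentSpace 𝓘(ℝ, EuclideanSpace ℝ (Fin n)) x) =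
      Module.finrank ℝ (EuclideanSpace ℝ (Fin n)) := rfl
  have hinj : Function.Injective (DM (n := n) (fun y => A.e b (Φ y)) x) := by
    refine (injective_iff_map_eq_zero _).2 fun v hv => ?_
    have e1 := (hΦ x).2.2 b hcore v
    have e2 := hlow b x hcore v
    rw [hv, zero_sub, norm_neg] at e1
    have e3 : c₁ * ‖v‖ ≤ c₁ / 2 * ‖v‖ :=
      e2.trans (e1.trans (mul_le_mul_of_nonneg_right m2 (norm_nonneg _)))
    have e4 : ‖v‖ ≤ 0 := by
      by_contra h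
      push Not at h
      nlinarith
    exact norm_le_zero_iff.1 e4
  have hbij : Function.Bijective (DM (n := n) (fun y => A.e b (Φ y)) x) := by
    refine ⟨hinj, ?_⟩
    have := (LinearMap.injective_iff_surjective_of_finrank_eq_finrank
      (f := (DM (n := n) (fun y => A.e b (Φ y)) x).toLinearMap) hfr).1 hinj
    exact this
  -- transition
  have hev : (fun y => A.e a (Φ y)) =ᶠ[𝓝 x] fun y => A.tr b a (A.e b (Φ y)) := by
    filter_upwards [(hΦ x).1.1.eventually ((A.e b).open_source.mem_nhds hbsrc)] with y hy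
    unfold Atl.tr
    rw [(A.e b).left_inv hy]
  have htr := A.bijective_tr hbsrc hx
  have hdt : DifferentiableAt ℝ (A.tr b a) (A.e b (Φ x)) :=
    (A.contDiffAt_tr ((A.e b).map_source hbsrc)
      (by rw [(A.e b).left_inv hbsrc]; exact hx)).differentiableAt (by simp)
  have heq : ∀ v, DM (n := n) (fun y => A.e a (Φ y)) x v =
      fderiv ℝ (A.tr b a) (A.e b (Φ x)) (DM (fun y => A.e b (Φ y)) x v) := by
    intro v
    rw [DM_congr hev]
    exact DM_comp (n := n) (G := fun y => A.e b (Φ y)) hdt (hsm.mdifferentiableAt (by simp)) v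
  have hfun : (DM (n := n) (fun y => A.e a (Φ y)) x :
      TangentSpace 𝓘(ℝ, EuclideanSpace ℝ (Fin n)) x → EuclideanSpace ℝ (Fin n)) =
      (fderiv ℝ (A.tr b a) (A.e b (Φ x))) ∘ (DM (fun y => A.e b (Φ y)) x) := funext heq
  have hfinal : Function.Bijective (DM (n := n) (fun y => A.e a (Φ y)) x) := by
    rw [hfun]
    exact htr.comp hbij
  exact hfinal

end Crest.Agent.R249.Glue832
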