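import Crest.Agent.R247.Ms11_322
import Crest.Agent.R247.Bo8_84
import Crest.Agent.R247.Bs2_84
import Crest.Agent.R226.EucMin_77

/-!
# R249 (helper324), PDE layer, file 5: integral identities on a closed Riemannian manifold

`∫ mLap f = 0`, `∫ φ mLap f = - ∫ ⟨df, dφ⟩`, Green's symmetry, integrated Bochner, the bound
`∫ |df|⁴ ≤ C sup|f|² ∫ |Hess f|²`; everything for the functions `mLap`, `mGam`, `mHessSq`, `mRic` of
`R247.Bo84` and the measure `μHE[n]`.
-/

set_option autoImplicit false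
set_option maxSynthPendingDepth 3
set_option linter.unusedSectionVars false

open Bundle Set MeasureTheory Manifold Filter Metric
open scoped ContDiff Topology NNReal
open Crest.GeometryTopology.CoordMetric Crest.GeometryTopology.ChartCurvature
  Crest.GeometryTopology.PointedLimit
open Crest.Agent.R247.Bo84 Crest.Agent.R247.Ms322

noncomputable section

namespace Crest.Agent.R249.Grn324

variable {n : ℕ} {M : Type*} [MetricSpace M] [ChartedSpace (EuclideanSpace ℝ (Fin n)) M]
  [IsManifold (𝓡 n) ∞ M]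
  [RiemannianBundle (fun p : M => TangentSpace (𝓡 n) p)]
  [IsContMDiffRiemannianBundle (𝓡 n) ∞ (EuclideanSpace ℝ (Fin n)) (fun p : M => TangentSpace (𝓡 n) p)]

local notation "𝔼" => EuclideanSpace ℝ (Fin n)

lemma two_le_inf : (2 : WithTop ℕ∞) ≤ ∞ := Crest.Agent.R247.Bo84.two_le_infty

lemma three_le_inf : (3 : WithTop ℕ∞) ≤ ∞ := Crest.Agent.R247.Bo84.three_le_infty

section Reg

variable {f h : M → ℝ}

/-- `⟨df, dh⟩` is smooth. -/
theorem contMDiff_mGam (hf : ContMDiff (𝓡 n) 𝓘(ℝ) ∞ f) (hh : ContMDiff (𝓡 n) 𝓘(ℝ) ∞ h) :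
    ContMDiff (𝓡 n) 𝓘(ℝ) ∞ (mGam n f h) := fun p =>
  contMDiffAt_mGam (a := ∞) (m := ∞) (hf p) (hh p) (by simp) le_rfl

/-- `mLap f` is smooth. -/
theorem contMDiff_mLap (hf : ContMDiff (𝓡 n) 𝓘(ℝ) ∞ f) : ContMDiff (𝓡 n) 𝓘(ℝ) ∞ (mLap n f) :=
  fun p => contMDiffAt_mLap (a := ∞) (m := ∞) (hf p) (by simp) le_rfl

theorem continuous_mLap (hf : ContMDiff (𝓡 n) 𝓘(ℝ) 2 f) : Continuous (mLap n f) :=
  continuous_iff_continuousAt.2 fun p =>
    (contMDiffAt_mLap (a := 2) (m := 0) (hf p) (by norm_num) two_le_inf).continuousAt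

theorem continuous_mGam (hf : ContMDiff (𝓡 n) 𝓘(ℝ) 1 f) (hh : ContMDiff (𝓡 n) 𝓘(ℝ) 1 h) :
    Continuous (mGam n f h) :=
  continuous_iff_continuousAt.2 fun p =>
    (contMDiffAt_mGam (a := 1) (m := 0) (hf p) (hh p) (by norm_num) (by simp)).continuousAt

theorem continuous_mHessSq (hf : ContMDiff (𝓡 n) 𝓘(ℝ) 2 f) : Continuous (mHessSq n f) :=
  continuous_iff_continuousAt.2 fun p => Crest.Agent.R247.Bs84.continuousAt_mHessSq (hf p)

/-- `Ric(df, df)` is continuous -/
theorem continuous_mRic_mgrad (hf : ContMDiff (𝓡 n) 𝓘(ℝ) ∞ f) :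
    Continuous fun p => mRic n p (mgrad n f p) (mgrad n f p) := by
  have h1 : (fun p => mRic n p (mgrad n f p) (mgrad n f p)) = fun p =>
      (1 / 2) * mLap n (mGam n f f) p - mHessSq n f p - mGam n f (mLap n f) p := by
    funext p
    have := mBochner (n := n) ((hf p).of_le three_le_inf)
    linarith
  rw [h1]
  exact ((continuous_const.mul (contMDiff_mLap (contMDiff_mGam hf hf)).continuous).sub
    (continuous_mHessSq (hf.of_le two_le_inf))).sub
    (contMDiff_mGam hf (contMDiff_mLap hf)).continuous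

end Reg

section Max

variable {F : M → ℝ} {p : M}

lemma isLocalMin_inCh (hmin : IsLocalMin F p) :
    IsLocalMin (inCh n p F) (chartCentre n M p) := by
  have hc : chartCentre n M p ∈ (chartAt 𝔼 p).target := mem_chart_target 𝔼 p
  have hs : p ∈ (chartAt 𝔼 p).source := mem_chart_source 𝔼 p
  have h3 : Tendsto (chartAt 𝔼 p).symm (𝓝 (chartCentre n M p)) (𝓝 p) := by
    have := (chartAt 𝔼 p).continuousAt_symm hc
    have e : (chartAt 𝔼 p).symm (chartCentre n M p) = p := (chartAt 𝔼 p).left_inv hs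
    rwa [ContinuousAt, e] at this
  have h4 := h3.eventually hmin
  filter_upwards [h4] with a ha
  have e : inCh n p F (chartCentre n M p) = F p := inCh_centre F p
  rw [e]
  exact ha

/-- minimum principle for the Laplacian -/
theorem mLap_nonneg_of_min (hF : ContMDiffAt (𝓡 n) 𝓘(ℝ) 2 F p) (hmin : IsLocalMin F p) :
    0 ≤ mLap n F p := by
  have hg := Crest.Agent.R247.Bo84.isRiemannianOn_chartMetric (n := n) p
  have hc : chartCentre n M p ∈ (chartAt 𝔼 p).target := mem_chart_target 𝔼 p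
  have h1 : ContDiffAt ℝ 2 (inCh n p F) (chartCentre n M p) := contDiffAt_centre (by norm_cast) hF
  have h2 := isLocalMin_inCh (n := n) hmin
  obtain ⟨ξ, hξ⟩ := exists_frame hg hc
  unfold mLap
  rw [lap_frame hg hc h1 hξ]
  apply Finset.sum_nonneg
  intro a _
  rw [hess_apply, h2.fderiv_eq_zero]
  simpa using Crest.Agent.R226.EucMin77.hess_nonneg_of_isLocalMin h1 h2 (ξ a)

/-- the differential vanishes at a local minimum -/
theorem mGam_eq_zero_of_min (h : M → ℝ) (hmin : IsLocalMin F p) : mGam n F h p = 0 := by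
  have h2 := isLocalMin_inCh (n := n) hmin
  have h3 : ∀ i, pderiv i (inCh n p F) (chartCentre n M p) = 0 := fun i => by
    rw [pderiv, h2.fderiv_eq_zero]; rfl
  rw [mGam, gam]
  simp [h3]

/-- maximum principle for the Laplacian -/
theorem mLap_nonpos_of_max (hF : ContMDiffAt (𝓡 n) 𝓘(ℝ) 2 F p) (hmax : IsLocalMax F p) :
    mLap n F p ≤ 0 := by
  have h1 : IsLocalMin (fun q => (-1) * F q) p := by
    filter_upwards [hmax] with q hq
    linarith
  have hF' : ContMDiffAt (𝓡 n) 𝓘(ℝ) 2 (fun q => (-1) * F q) p := contMDiffAt_const.mul hF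
  have h2 := mLap_nonneg_of_min (n := n) hF' h1
  rw [mLap_const_mul (-1) hF] at h2
  linarith

theorem mGam_eq_zero_of_max (hF : MDifferentiableAt (𝓡 n) 𝓘(ℝ) F p) (h : M → ℝ)
    (hmax : IsLocalMax F p) : mGam n F h p = 0 := by
  have h1 : IsLocalMin (fun q => (-1) * F q) p := by
    filter_upwards [hmax] with q hq
    linarith
  have h2 := mGam_eq_zero_of_min (n := n) h h1
  rw [mGam_const_mul_left (-1) hF] at h2
  linarith

/-- **maximum principle**: `mLap u - c u ≥ 0`, `c > 0` gives `u ≤ 0`. -/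
theorem max_principle [CompactSpace M] {u c : M → ℝ} (hc : ∀ p, 0 < c p)
    (hu : ContMDiff (𝓡 n) 𝓘(ℝ) 2 u) (h : ∀ p, 0 ≤ mLap n u p - c p * u p) : ∀ p, u p ≤ 0 := by
  intro p
  obtain ⟨q, -, hq⟩ := isCompact_univ.exists_isMaxOn ⟨p, mem_univ p⟩ hu.continuous.continuousOn
  have h1 : IsLocalMax u q := hq.isLocalMax univ_mem
  have h2 := mLap_nonpos_of_max (n := n) (hu q) h1
  have h3 := h q
  have h4 : u q ≤ 0 := by
    by_contra h5
    push Not at h5
    have := mul_pos (hc q) h5
    linarith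
  exact (hq (mem_univ p)).trans h4

/-- **minimum principle**: `mLap u - c u ≤ 0`, `c > 0` gives `u ≥ 0`. -/
theorem min_principle [CompactSpace M] {u c : M → ℝ} (hc : ∀ p, 0 < c p)
    (hu : ContMDiff (𝓡 n) 𝓘(ℝ) 2 u) (h : ∀ p, mLap n u p - c p * u p ≤ 0) : ∀ p, 0 ≤ u p := by
  intro p
  have hu' : ContMDiff (𝓡 n) 𝓘(ℝ) 2 (fun q => (-1) * u q) := contMDiff_const.mul hu
  have h1 := max_principle (n := n) (u := fun q => (-1) * u q) hc hu' (fun q => by
      rw [mLap_const_mul (-1) (hu q)]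
      have := h q
      linarith) p
  linarith

/-- comparison of two functions -/
theorem comparison [CompactSpace M] {u v c : M → ℝ} (hc : ∀ p, 0 < c p)
    (hu : ContMDiff (𝓡 n) 𝓘(ℝ) 2 u) (hv : ContMDiff (𝓡 n) 𝓘(ℝ) 2 v)
    (h : ∀ p, mLap n v p - c p * v p ≤ mLap n u p - c p * u p) : ∀ p, u p ≤ v p := by
  intro p
  have huv : ContMDiff (𝓡 n) 𝓘(ℝ) 2 (fun q => u q - v q) := hu.sub hv
  have h1 := max_principle (n := n) (u := fun q => u q - v q) hc huv (fun q => by
    rw [mLap_sub (hu q) (hv q)]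
    have := h q
    linarith) p
  linarith

/-- uniqueness -/
theorem unique_resolvent [CompactSpace M] {u v c : M → ℝ} (hc : ∀ p, 0 < c p)
    (hu : ContMDiff (𝓡 n) 𝓘(ℝ) 2 u) (hv : ContMDiff (𝓡 n) 𝓘(ℝ) 2 v)
    (h : ∀ p, mLap n u p - c p * u p = mLap n v p - c p * v p) : u = v :=
  funext fun p => le_antisymm (comparison hc hu hv (fun q => (h q).ge) p)
    (comparison hc hv hu (fun q => (h q).le) p)

/-- sup bound: `mLap u - c u = g` with `|g| ≤ G` gives `c |u| ≤ G`. -/
theorem abs_le_of_resolvent [CompactSpace M] {u g : M → ℝ} {c G : ℝ} (hc : 0 < c)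
    (hu : ContMDiff (𝓡 n) 𝓘(ℝ) 2 u) (h : ∀ p, mLap n u p - c * u p = g p)
    (hG : ∀ p, |g p| ≤ G) : ∀ p, c * |u p| ≤ G := by
  intro p
  have k : ∀ b : ℝ, ContMDiff (𝓡 n) 𝓘(ℝ) 2 fun _ : M => b := fun b => contMDiff_const
  have h1 := comparison (n := n) (c := fun _ => c) (fun _ => hc) hu (k (G / c)) (fun q => by
    rw [mLap_const, h q]
    have := (abs_le.1 (hG q)).1
    have e : c * (G / c) = G := by field_simp
    rw [e]; linarith) p
  have h2 := comparison (n := n) (c := fun _ => c) (fun _ => hc) (k (-(G / c))) hu (fun q => by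
    rw [mLap_const, h q]
    have := (abs_le.1 (hG q)).2
    have e : c * (-(G / c)) = -G := by field_simp
    rw [e]; linarith) p
  have h3 : |u p| ≤ G / c := abs_le.2 ⟨h2, h1⟩
  calc c * |u p| ≤ c * (G / c) := by gcongr
    _ = G := by field_simp

end Max

section Closed

variable [IsRiemannianManifold (𝓡 n) M] [CompactSpace M] [MeasurableSpace M] [BorelSpace M]

theorem secondCountable (M : Type*) [MetricSpace M] [CompactSpace M] :
    SecondCountableTopology M := inferInstance

variable (n M) in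
theorem isFiniteMeasure : IsFiniteMeasure (μHE[n] : Measure M) := by
  have := isLocallyFiniteMeasure n M
  infer_instance

theorem integrable_cont {f : M → ℝ} (hf : Continuous f) : Integrable f (μHE[n] : Measure M) := by
  have := isFiniteMeasure n M
  exact hf.integrable_of_hasCompactSupport (HasCompactSupport.of_compactSpace f)

theorem locallyLipschitz_of_contMDiff {f : M → ℝ} (hf : ContMDiff (𝓡 n) 𝓘(ℝ) 1 f) :
    LocallyLipschitz f := by
  have := secondCountable M
  rcases isEmpty_or_nonempty M with hM | hM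
  · intro x; exact (hM.false x).elim
  · exact LLo.loc (LLo.of_contMDiffAt (n := n) fun z _ => hf z)

/-- **integration by parts** -/
theorem integral_mul_mLap {f φ : M → ℝ} (hf : ContMDiff (𝓡 n) 𝓘(ℝ) 2 f)
    (hφ : ContMDiff (𝓡 n) 𝓘(ℝ) 1 φ) :
    ∫ z, φ z * mLap n f z ∂(μHE[n] : Measure M) = - ∫ z, mGam n f φ z ∂(μHE[n] : Measure M) := by
  have := secondCountable M
  rcases isEmpty_or_nonempty M with hM | hM
  · simp [Measure.eq_zero_of_isEmpty]
  · have h := ibp_mLap (n := n) (U := univ) isOpen_univ (f := f) (φ := φ) (fun z _ => hf z)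
      (locallyLipschitz_of_contMDiff (n := n) hφ) (HasCompactSupport.of_compactSpace φ)
      (subset_univ _)
    simp only [inner_Gr_eq_mGam] at h
    linarith

theorem integral_mLap {f : M → ℝ} (hf : ContMDiff (𝓡 n) 𝓘(ℝ) 2 f) :
    ∫ z, mLap n f z ∂(μHE[n] : Measure M) = 0 := by
  have h := integral_mul_mLap (n := n) hf (φ := fun _ : M => (1:ℝ)) contMDiff_const
  have e : ∀ z : M, mGam n f (fun _ : M => (1:ℝ)) z = 0 := fun z => mGam_const_right 1
  simpa [e] using h

/-- Green's symmetry -/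
theorem green_symm {f h : M → ℝ} (hf : ContMDiff (𝓡 n) 𝓘(ℝ) 2 f) (hh : ContMDiff (𝓡 n) 𝓘(ℝ) 2 h) :
    ∫ z, h z * mLap n f z ∂(μHE[n] : Measure M) = ∫ z, f z * mLap n h z ∂(μHE[n] : Measure M) := by
  rw [integral_mul_mLap hf (hh.of_le (by norm_num)), integral_mul_mLap hh (hf.of_le (by norm_num))]
  congr 1
  refine integral_congr_ae (Eventually.of_forall fun z => ?_)
  exact mGam_comm f h z

/-- **integrated Bochner formula** -/
theorem integral_bochner {f : M → ℝ} (hf : ContMDiff (𝓡 n) 𝓘(ℝ) ∞ f) :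
    ∫ z, mLap n f z ^ 2 ∂(μHE[n] : Measure M) =
      ∫ z, (mHessSq n f z + mRic n z (mgrad n f z) (mgrad n f z)) ∂(μHE[n] : Measure M) := by
  have hL := contMDiff_mLap hf
  have hG := contMDiff_mGam hf hf
  have h1 := integral_mul_mLap (n := n) (hf.of_le two_le_inf) (hL.of_le (by simp))
  have h2 := integral_mLap (n := n) (hG.of_le two_le_inf)
  have e : ∀ z, mHessSq n f z + mRic n z (mgrad n f z) (mgrad n f z) =
      (1 / 2) * mLap n (mGam n f f) z - mGam n f (mLap n f) z := by
    intro z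
    have := mBochner (n := n) ((hf z).of_le three_le_inf)
    linarith
  simp only [e]
  have i1 : Integrable (fun z => (1 / 2) * mLap n (mGam n f f) z) (μHE[n] : Measure M) :=
    integrable_cont (n := n) (continuous_const.mul (contMDiff_mLap hG).continuous)
  have i2 : Integrable (fun z => mGam n f (mLap n f) z) (μHE[n] : Measure M) :=
    integrable_cont (n := n) (contMDiff_mGam hf hL).continuous
  rw [integral_sub i1 i2, integral_const_mul, h2, mul_zero, zero_sub, ← h1]
  refine integral_congr_ae (Eventually.of_forall fun z => ?_)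
  simp only
  ring

/-- `∫ |Hess f|² ≤ ∫ (mLap f)² - K ∫ |df|²` if `Ric ≥ K`. -/
theorem integral_mHessSq_le {K : ℝ} (hK : HasRicciLowerBound n M K) {f : M → ℝ}
    (hf : ContMDiff (𝓡 n) 𝓘(ℝ) ∞ f) :
    ∫ z, mHessSq n f z ∂(μHE[n] : Measure M) + K * ∫ z, mGam n f f z ∂(μHE[n] : Measure M) ≤
      ∫ z, mLap n f z ^ 2 ∂(μHE[n] : Measure M) := by
  have hf2 := hf.of_le two_le_inf
  have i1 : Integrable (fun z => mHessSq n f z) (μHE[n] : Measure M) :=
    integrable_cont (n := n) (continuous_mHessSq hf2)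
  have i2 : Integrable (fun z => K * mGam n f f z) (μHE[n] : Measure M) :=
    integrable_cont (n := n) (continuous_const.mul (contMDiff_mGam hf hf).continuous)
  have i3 : Integrable (fun z => mRic n z (mgrad n f z) (mgrad n f z)) (μHE[n] : Measure M) :=
    integrable_cont (n := n) (continuous_mRic_mgrad hf)
  rw [integral_bochner hf, ← integral_const_mul, ← integral_add i1 i2]
  refine integral_mono (i1.add i2) (i1.add i3) fun z => ?_
  have h1 := mRic_ge hK z (mgrad n f z)
  rw [← mGam_self] at h1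
  simp only
  linarith

/-- `∫ |df|⁴ ≤ (2 + √n)² S² ∫ |Hess f|²` if `|f| ≤ S`. -/
theorem integral_mGam_sq_le {f : M → ℝ} (hf : ContMDiff (𝓡 n) 𝓘(ℝ) ∞ f) {S : ℝ}
    (hS : ∀ p, |f p| ≤ S) :
    ∫ z, mGam n f f z ^ 2 ∂(μHE[n] : Measure M) ≤
      ((2 + √n) * S) ^ 2 * ∫ z, mHessSq n f z ∂(μHE[n] : Measure M) := by
  set P := mGam n f f with hPdef
  have hP : ContMDiff (𝓡 n) 𝓘(ℝ) ∞ P := contMDiff_mGam hf hf
  have hf2 := hf.of_le two_le_inf
  have hcH := continuous_mHessSq hf2
  have hfP : ContMDiff (𝓡 n) 𝓘(ℝ) 1 fun q => f q * P q := (hf.mul hP).of_le (by simp)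
  have h1 := integral_mul_mLap (n := n) hf2 hfP
  have e1 : ∀ z, mGam n f (fun q => f q * P q) z = P z ^ 2 + f z * mGam n f P z := by
    intro z
    rw [mGam_mul_right ((hf z).mdifferentiableAt (by simp)) ((hP z).mdifferentiableAt (by simp))]
    rw [hPdef]
    ring
  simp only [e1] at h1
  have iP : Integrable (fun z => P z ^ 2) (μHE[n] : Measure M) :=
    integrable_cont (n := n) (hP.continuous.pow 2)
  have iG : Integrable (fun z => f z * mGam n f P z) (μHE[n] : Measure M) :=
    integrable_cont (n := n) (hf.continuous.mul (contMDiff_mGam hf hP).continuous)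
  rw [integral_add iP iG] at h1
  -- pointwise bound
  set A : ℝ := (2 + √n) * S with hA
  have hpt : ∀ z, -(f z * P z * mLap n f z) - f z * mGam n f P z ≤
      (1 / 2) * P z ^ 2 + (1 / 2) * (A ^ 2 * mHessSq n f z) := by
    intro z
    have hH := mHessSq_nonneg (n := n) (hf2 z)
    have hPz : 0 ≤ P z := mGam_self_nonneg f z
    set h : ℝ := √(mHessSq n f z) with hh
    have hh2 : h ^ 2 = mHessSq n f z := Real.sq_sqrt hH
    have hh0 : 0 ≤ h := Real.sqrt_nonneg _
    have hn : (√n) ^ 2 = (n : ℝ) := Real.sq_sqrt (Nat.cast_nonneg n)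
    have hn0 : 0 ≤ √(n : ℝ) := Real.sqrt_nonneg _
    have hS0 : 0 ≤ S := (abs_nonneg _).trans (hS z)
    have a1 : |mLap n f z| ≤ √n * h := by
      refine abs_le_of_sq_le_sq ?_ (by positivity)
      rw [mul_pow, hn, hh2]
      exact mLap_sq_le (hf2 z)
    have a2 : |mGam n f P z| ≤ 2 * h * P z := by
      refine abs_le_of_sq_le_sq ?_ (by positivity)
      refine (mGam_sq_le f P z).trans ?_
      have := mkato (n := n) (hf2 z)
      calc mGam n f f z * mGam n P P z ≤ mGam n f f z * (4 * mHessSq n f z * mGam n f f z) := by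
            gcongr
        _ = (2 * h * P z) ^ 2 := by rw [hPdef, ← hh2]; ring
    have a3 : -(f z * P z * mLap n f z) ≤ S * P z * (√n * h) := by
      have : |f z * P z * mLap n f z| ≤ S * P z * (√n * h) := by
        rw [abs_mul, abs_mul, abs_of_nonneg hPz]
        exact mul_le_mul (mul_le_mul_of_nonneg_right (hS z) hPz) a1 (abs_nonneg _)
          (mul_nonneg hS0 hPz)
      exact (neg_le_abs _).trans this
    have a4 : - (f z * mGam n f P z) ≤ S * (2 * h * P z) := by
      have : |f z * mGam n f P z| ≤ S * (2 * h * P z) := by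
        rw [abs_mul]
        exact mul_le_mul (hS z) a2 (abs_nonneg _) hS0
      exact (neg_le_abs _).trans this
    have a5 : A * h * P z ≤ (1 / 2) * P z ^ 2 + (1 / 2) * (A ^ 2 * h ^ 2) := by
      nlinarith [sq_nonneg (A * h - P z)]
    rw [← hh2]
    have a6 : S * P z * (√n * h) + S * (2 * h * P z) = A * h * P z := by rw [hA]; ring
    linarith
  have iL : Integrable (fun z => f z * P z * mLap n f z) (μHE[n] : Measure M) :=
    integrable_cont (n := n) ((hf.continuous.mul hP.continuous).mul (contMDiff_mLap hf).continuous)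
  have iLn : Integrable (fun z => -(f z * P z * mLap n f z)) (μHE[n] : Measure M) := iL.neg
  have h2 : ∫ z, P z ^ 2 ∂(μHE[n] : Measure M) =
      ∫ z, (-(f z * P z * mLap n f z) - f z * mGam n f P z) ∂(μHE[n] : Measure M) := by
    rw [integral_sub iLn iG, integral_neg]
    linarith
  have h3 : ∫ z, (-(f z * P z * mLap n f z) - f z * mGam n f P z) ∂(μHE[n] : Measure M) ≤
      ∫ z, ((1 / 2) * P z ^ 2 + (1 / 2) * (A ^ 2 * mHessSq n f z)) ∂(μHE[n] : Measure M) :=
    integral_mono (iLn.sub iG) ((iP.const_mul _).add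
      (((integrable_cont (n := n) hcH).const_mul _).const_mul _)) hpt
  rw [integral_add (iP.const_mul _) (((integrable_cont (n := n) hcH).const_mul _).const_mul _),
    integral_const_mul, integral_const_mul, integral_const_mul, ← h2] at h3
  linarith

end Closed

end Crest.Agent.R249.Grn324
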