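import Crest.Agent.R249.Grn1_324
import Crest.Agent.R249.EllZD_324

/-!
# R249 (helper324), PDE layer, file 6: chart transfer

Test functions of the chart target extended by zero to `M`; `√det g · mLap = div (A ∇ ·)` in the chart;
a.e. statements and local integrability in the chart; the weak equation on `M` read in a chart.
-/

set_option autoImplicit false
set_option maxSynthPendingDepth 3
set_option linter.unusedSectionVars false

open Bundle Set MeasureTheory Manifold Filter Metric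
open scoped ContDiff Topology NNReal
open Crest.GeometryTopology.CoordMetric Crest.GeometryTopology.ChartCurvature
  Crest.GeometryTopology.PointedLimit
open Crest.Agent.R247.Bo84
open Crest.Agent.R247.Ms322 hiding isRiemannianOn_chartMetric
open Crest.Agent.R202.Ell (divA contDiff_mul_of_tsupport divA_congr_of_open contDiffOn_pd)

noncomputable section

namespace Crest.Agent.R249.Grn324

variable {n : ℕ} {M : Type*} [MetricSpace M] [ChartedSpace (EuclideanSpace ℝ (Fin n)) M]
  [IsManifold (𝓡 n) ∞ M]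
  [RiemannianBundle (fun p : M => TangentSpace (𝓡 n) p)]
  [IsContMDiffRiemannianBundle (𝓡 n) ∞ (EuclideanSpace ℝ (Fin n)) (fun p : M => TangentSpace (𝓡 n) p)]

local notation "𝔼" => EuclideanSpace ℝ (Fin n)

/-! ### coefficients -/

/-- `√(det g) g⁻¹` in the chart at `x` -/
def cA (x : M) (a : EuclideanSpace ℝ (Fin n)) : Matrix (Fin n) (Fin n) ℝ :=
  Matrix.of fun i j => dens x a * inverseField (chartMetric n M x) a i j

lemma cA_apply (x : M) (a : 𝔼) (i j : Fin n) :
    cA (n := n) x a i j = dens x a * inverseField (chartMetric n M x) a i j := rfl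

lemma contDiffOn_cA (x : M) (i j : Fin n) :
    ContDiffOn ℝ ∞ (fun a => cA (n := n) x a i j) (chartAt 𝔼 x).target := by
  refine (contDiffOn_dens (n := n) x).mul ?_
  intro a ha
  exact (contDiffAt_inv (Crest.Agent.R247.Bo84.isRiemannianOn_chartMetric x) ha i j).contDiffWithinAt

lemma posDef_cA (x : M) {a : 𝔼} (ha : a ∈ (chartAt 𝔼 x).target) : (cA (n := n) x a).PosDef := by
  have h1 := ((Crest.Agent.R247.Bo84.isRiemannianOn_chartMetric (n := n) x).posDef a ha).inv
  have h2 := h1.smul (dens_pos (n := n) x ha)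
  have e : cA (n := n) x a = dens x a • (chartMetric n M x a)⁻¹ := by
    ext i j
    rw [cA_apply, Matrix.smul_apply, smul_eq_mul]
    rfl
  rw [e]
  exact h2

/-- `√det g · Δ = div (A ∇)` -/
lemma dens_mul_lap (x : M) {a : 𝔼} (ha : a ∈ (chartAt 𝔼 x).target) (ψ : 𝔼 → ℝ) :
    dens x a * laplaceBeltrami (chartMetric n M x) ψ a = divA (cA x) ψ a := by
  have hd := dens_pos (n := n) x ha
  unfold laplaceBeltrami divA
  have e : dens (n := n) x a = Real.sqrt (chartMetric n M x a).det := rfl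
  rw [← mul_assoc, ← e, mul_one_div_cancel hd.ne', one_mul]
  refine Finset.sum_congr rfl fun i _ => ?_
  congr 1
  funext y
  have e2 : dens (n := n) x y = Real.sqrt (chartMetric n M x y).det := rfl
  rw [← e2, Finset.mul_sum]
  refine Finset.sum_congr rfl fun j _ => ?_
  rw [cA_apply]
  ring

/-! ### extension by zero of test functions -/

/-- `ψ` on the chart, `0` outside -/
def psh (x : M) (ψ : EuclideanSpace ℝ (Fin n) → ℝ) : M → ℝ :=
  (chartAt (EuclideanSpace ℝ (Fin n)) x).source.indicator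
    fun z => ψ (chartAt (EuclideanSpace ℝ (Fin n)) x z)

lemma psh_of_mem (x : M) (ψ : 𝔼 → ℝ) {z : M} (hz : z ∈ (chartAt 𝔼 x).source) :
    psh x ψ z = ψ (chartAt 𝔼 x z) := indicator_of_mem hz _

lemma psh_of_notMem (x : M) (ψ : 𝔼 → ℝ) {z : M} (hz : z ∉ (chartAt 𝔼 x).source) :
    psh x ψ z = 0 := indicator_of_notMem hz _

lemma psh_symm (x : M) (ψ : 𝔼 → ℝ) {a : 𝔼} (ha : a ∈ (chartAt 𝔼 x).target) :
    psh x ψ ((chartAt 𝔼 x).symm a) = ψ a := by
  rw [psh_of_mem x ψ ((chartAt 𝔼 x).map_target ha), (chartAt 𝔼 x).right_inv ha]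

lemma contMDiff_psh (x : M) {ψ : 𝔼 → ℝ} (hψ : ContDiff ℝ ∞ ψ) (hc : HasCompactSupport ψ)
    (hs : tsupport ψ ⊆ (chartAt 𝔼 x).target) : ContMDiff (𝓡 n) 𝓘(ℝ) ∞ (psh x ψ) := by
  intro z
  by_cases hz : z ∈ (chartAt 𝔼 x).source
  · have h1 : ContMDiffAt (𝓡 n) (𝓡 n) ∞ (chartAt 𝔼 x) z :=
      (contMDiffOn_chart (I := 𝓡 n) (n := ∞) (x := x)).contMDiffAt
        ((chartAt 𝔼 x).open_source.mem_nhds hz)
    have h2 : ContMDiffAt (𝓡 n) 𝓘(ℝ) ∞ (fun y => ψ (chartAt 𝔼 x y)) z :=
      (contMDiffAt_iff_contDiffAt.2 hψ.contDiffAt).comp z h1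
    refine h2.congr_of_eventuallyEq ?_
    filter_upwards [(chartAt 𝔼 x).open_source.mem_nhds hz] with y hy using psh_of_mem x ψ hy
  · have hK : IsCompact ((chartAt 𝔼 x).symm '' tsupport ψ) :=
      hc.isCompact.image_of_continuousOn ((chartAt 𝔼 x).continuousOn_symm.mono hs)
    have hz' : z ∈ ((chartAt 𝔼 x).symm '' tsupport ψ)ᶜ := by
      rintro ⟨a, ha, rfl⟩
      exact hz ((chartAt 𝔼 x).map_target (hs ha))
    have h3 : psh x ψ =ᶠ[𝓝 z] fun _ => 0 := by
      filter_upwards [hK.isClosed.isOpen_compl.mem_nhds hz'] with y hy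
      by_cases hys : y ∈ (chartAt 𝔼 x).source
      · rw [psh_of_mem x ψ hys]
        refine image_eq_zero_of_notMem_tsupport fun h => hy ⟨_, h, (chartAt 𝔼 x).left_inv hys⟩
      · exact psh_of_notMem x ψ hys
    exact contMDiffAt_const.congr_of_eventuallyEq h3

/-- the Laplacian of the extension, read in the chart -/
lemma mLap_psh (x : M) {ψ : 𝔼 → ℝ} (hψ : ContDiff ℝ ∞ ψ) (hc : HasCompactSupport ψ)
    (hs : tsupport ψ ⊆ (chartAt 𝔼 x).target) {a : 𝔼} (ha : a ∈ (chartAt 𝔼 x).target) :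
    mLap n (psh x ψ) ((chartAt 𝔼 x).symm a) = laplaceBeltrami (chartMetric n M x) ψ a := by
  rw [mLap_chart ha ((contMDiff_psh x hψ hc hs _).of_le two_le_inf)]
  refine lap_congr ?_
  filter_upwards [(chartAt 𝔼 x).open_target.mem_nhds ha] with b hb using psh_symm x ψ hb

lemma mLap_psh_off (x : M) {ψ : 𝔼 → ℝ} {z : M} (hz : z ∉ (chartAt 𝔼 x).source)
    (hc : HasCompactSupport ψ) (hs : tsupport ψ ⊆ (chartAt 𝔼 x).target) :
    mLap n (psh x ψ) z = 0 := by
  have hK : IsCompact ((chartAt 𝔼 x).symm '' tsupport ψ) :=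
    hc.isCompact.image_of_continuousOn ((chartAt 𝔼 x).continuousOn_symm.mono hs)
  have hz' : z ∈ ((chartAt 𝔼 x).symm '' tsupport ψ)ᶜ := by
    rintro ⟨a, ha, rfl⟩
    exact hz ((chartAt 𝔼 x).map_target (hs ha))
  have h3 : psh x ψ =ᶠ[𝓝 z] fun _ => 0 := by
    filter_upwards [hK.isClosed.isOpen_compl.mem_nhds hz'] with y hy
    by_cases hys : y ∈ (chartAt 𝔼 x).source
    · rw [psh_of_mem x ψ hys]
      refine image_eq_zero_of_notMem_tsupport fun h => hy ⟨_, h, (chartAt 𝔼 x).left_inv hys⟩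
    · exact psh_of_notMem x ψ hys
  rw [mLap_congr h3, mLap_const]

section Meas

variable [IsRiemannianManifold (𝓡 n) M] [MeasurableSpace M] [BorelSpace M]

/-- a.e. statements pass from the chart to the manifold -/
theorem ae_source_of_chart (x : M) {P : M → Prop}
    (h : ∀ᵐ a : 𝔼, a ∈ (chartAt 𝔼 x).target → P ((chartAt 𝔼 x).symm a)) :
    ∀ᵐ z ∂(μHE[n] : Measure M), z ∈ (chartAt 𝔼 x).source → P z := by
  rw [← ae_restrict_iff' (chartAt 𝔼 x).open_source.measurableSet, restrict_source_eq,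
    (measurableEmbedding_symm x).ae_map_iff]
  have h1 : ∀ᵐ a ∂((cvol (n := n) x).restrict (chartAt 𝔼 x).target), P ((chartAt 𝔼 x).symm a) := by
    have hac : ((cvol (n := n) x).restrict (chartAt 𝔼 x).target) ≪
        (volume.restrict (chartAt 𝔼 x).target : Measure 𝔼) := by
      refine Measure.restrict_le_self.absolutelyContinuous.trans ?_
      exact withDensity_absolutelyContinuous _ _
    exact hac.ae_le ((ae_restrict_iff' (measurableSet_target (n := n) x)).2 h)
  exact (ae_restrict_iff_subtype (measurableSet_target x)).1 h1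

/-- integrable functions are locally integrable in charts -/
theorem locallyIntegrableOn_chart (x : M) {u : M → ℝ} (hu : Integrable u (μHE[n] : Measure M)) :
    LocallyIntegrableOn (fun a : 𝔼 => u ((chartAt 𝔼 x).symm a)) (chartAt 𝔼 x).target := by
  have h1 := (integrableOn_source_iff (n := n) x u).1 hu.integrableOn
  have h2 : LocallyIntegrableOn (fun a : 𝔼 => dens x a • u ((chartAt 𝔼 x).symm a))
      (chartAt 𝔼 x).target := h1.locallyIntegrableOn
  have hc : ContinuousOn (fun a : 𝔼 => (dens (n := n) x a)⁻¹) (chartAt 𝔼 x).target :=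
    (continuousOn_dens x).inv₀ fun a ha => (dens_pos x ha).ne'
  rw [locallyIntegrableOn_iff (chartAt 𝔼 x).open_target.isLocallyClosed] at h2 ⊢
  intro K hKT hK
  have h3 := (h2 K hKT hK).continuousOn_mul (hc.mono hKT) hK
  refine h3.congr_fun (fun a ha => ?_) hK.measurableSet
  simp only [smul_eq_mul]
  rw [← mul_assoc, inv_mul_cancel₀ (dens_pos x (hKT ha)).ne', one_mul]

/-- the weak equation on `M` read in a chart -/
theorem weak_chart {u q g : M → ℝ}
    (h : ∀ φ : M → ℝ, ContMDiff (𝓡 n) 𝓘(ℝ) ∞ φ →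
      ∫ z, u z * (mLap n φ z - q z * φ z) ∂(μHE[n] : Measure M) =
        ∫ z, g z * φ z ∂(μHE[n] : Measure M)) (x : M)
    {ψ : 𝔼 → ℝ} (hψ : ContDiff ℝ ∞ ψ) (hc : HasCompactSupport ψ)
    (hs : tsupport ψ ⊆ (chartAt 𝔼 x).target) :
    ∫ a, u ((chartAt 𝔼 x).symm a) * (divA (cA x) ψ a -
        1 * ((dens x a * q ((chartAt 𝔼 x).symm a)) * ψ a)) =
      ∫ a, (dens x a * g ((chartAt 𝔼 x).symm a)) * ψ a := by
  set T := (chartAt 𝔼 x).target with hT
  have hTm : MeasurableSet T := (chartAt 𝔼 x).open_target.measurableSet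
  have h1 := h _ (contMDiff_psh x hψ hc hs)
  rw [integral_eq_of_support (n := n) x _ (fun z hz => by
      rw [mLap_psh_off x hz hc hs, psh_of_notMem x ψ hz]; ring),
    integral_eq_of_support (n := n) x _ (fun z hz => by
      rw [psh_of_notMem x ψ hz, mul_zero])] at h1
  have z1 : ∀ a, a ∉ T → u ((chartAt 𝔼 x).symm a) * (divA (cA x) ψ a -
      1 * ((dens x a * q ((chartAt 𝔼 x).symm a)) * ψ a)) = 0 := by
    intro a ha
    have h2 : a ∉ tsupport ψ := fun h => ha (hs h)
    rw [image_eq_zero_of_notMem_tsupport h2, image_eq_zero_of_notMem_tsupport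
      (fun h => h2 (Crest.Agent.R202.Ell.tsupport_divA_subset _ _ h))]
    ring
  have z2 : ∀ a, a ∉ T → (dens x a * g ((chartAt 𝔼 x).symm a)) * ψ a = 0 := by
    intro a ha
    rw [image_eq_zero_of_notMem_tsupport (fun h => ha (hs h)), mul_zero]
  rw [← setIntegral_eq_integral_of_forall_compl_eq_zero (s := T) z1,
    ← setIntegral_eq_integral_of_forall_compl_eq_zero (s := T) z2]
  have e1 : ∫ a in T, u ((chartAt 𝔼 x).symm a) * (divA (cA x) ψ a -
      1 * ((dens x a * q ((chartAt 𝔼 x).symm a)) * ψ a)) =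
      ∫ a in T, dens x a • (u ((chartAt 𝔼 x).symm a) * (mLap n (psh x ψ) ((chartAt 𝔼 x).symm a) -
        q ((chartAt 𝔼 x).symm a) * psh x ψ ((chartAt 𝔼 x).symm a))) := by
    refine setIntegral_congr_fun hTm fun a ha => ?_
    simp only [smul_eq_mul]
    rw [mLap_psh x hψ hc hs ha, psh_symm x ψ ha, ← dens_mul_lap x ha]
    ring
  have e2 : ∫ a in T, (dens x a * g ((chartAt 𝔼 x).symm a)) * ψ a =
      ∫ a in T, dens x a • (g ((chartAt 𝔼 x).symm a) * psh x ψ ((chartAt 𝔼 x).symm a)) := by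
    refine setIntegral_congr_fun hTm fun a ha => ?_
    simp only [smul_eq_mul]
    rw [psh_symm x ψ ha]
    ring
  rw [e1, e2, h1]

end Meas

end Crest.Agent.R249.Grn324
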