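import Crest.Agent.R249.Grn2_324

/-!
# R249 (helper324), PDE layer, file 7: weak solutions on `M` are smooth; the resolvent

`weak_regularity`: `u ∈ L¹(M)`, `∫ u (mLap φ - q φ) = ∫ g φ` for all smooth `φ`, `q > 0`, `q`, `g`
smooth: `u` is a.e. a smooth solution of `mLap v - q v = g`.
`exists_resolvent`: `M` closed: for `q > 0`, `g` smooth there is a smooth solution.
-/

set_option autoImplicit false
set_option maxSynthPendingDepth 3
set_option linter.unusedSectionVars false

open Bundle Set MeasureTheory Manifold Filter Metric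
open scoped ContDiff Topology NNReal
open Crest.GeometryTopology.CoordMetric Crest.GeometryTopology.ChartCurvature
  Crest.GeometryTopology.PointedLimit
open Crest.Agent.R247.Bo84
open Crest.Agent.R247.Ms322 hiding isRiemannianOn_chartMetric
open Crest.Agent.R202.Ell (divA contDiff_mul_of_tsupport divA_congr_of_open contDiffOn_pd)

noncomputable section

namespace Crest.Agent.R249.Grn324

variable {n : ℕ} {M : Type*} [MetricSpace M] [ChartedSpace (EuclideanSpace ℝ (Fin n)) M]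
  [IsManifold (𝓡 n) ∞ M]
  [RiemannianBundle (fun p : M => TangentSpace (𝓡 n) p)]
  [IsContMDiffRiemannianBundle (𝓡 n) ∞ (EuclideanSpace ℝ (Fin n)) (fun p : M => TangentSpace (𝓡 n) p)]

local notation "𝔼" => EuclideanSpace ℝ (Fin n)

/-- smooth functions read in a chart -/
lemma contDiffOn_symm {g : M → ℝ} (hg : ContMDiff (𝓡 n) 𝓘(ℝ) ∞ g) (x : M) :
    ContDiffOn ℝ ∞ (fun a : 𝔼 => g ((chartAt 𝔼 x).symm a)) (chartAt 𝔼 x).target := fun _ ha =>
  (contDiffAt_inCh (n := n) (x₀ := x) le_rfl ha (hg _)).contDiffWithinAt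

variable [IsRiemannianManifold (𝓡 n) M] [MeasurableSpace M] [BorelSpace M]

/-- **regularity of weak solutions on `M`.** -/
theorem weak_regularity {u q g : M → ℝ} (hu : Integrable u (μHE[n] : Measure M))
    (hq : ContMDiff (𝓡 n) 𝓘(ℝ) ∞ q) (hq0 : ∀ p, 0 < q p) (hg : ContMDiff (𝓡 n) 𝓘(ℝ) ∞ g)
    (h : ∀ φ : M → ℝ, ContMDiff (𝓡 n) 𝓘(ℝ) ∞ φ →
      ∫ z, u z * (mLap n φ z - q z * φ z) ∂(μHE[n] : Measure M) =
        ∫ z, g z * φ z ∂(μHE[n] : Measure M)) :
    ∃ v : M → ℝ, ContMDiff (𝓡 n) 𝓘(ℝ) ∞ v ∧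
      (∀ x : M, ∀ᵐ z ∂(μHE[n] : Measure M), z ∈ (chartAt 𝔼 x).source → v z = u z) ∧
      ∀ p, mLap n v p - q p * v p = g p := by
  have hloc : ∀ x : M, ∃ v : 𝔼 → ℝ, ContDiffOn ℝ ∞ v (chartAt 𝔼 x).target ∧
      (∀ᵐ a : 𝔼, a ∈ (chartAt 𝔼 x).target → v a = u ((chartAt 𝔼 x).symm a)) ∧
      ∀ a ∈ (chartAt 𝔼 x).target, divA (cA x) v a -
        1 * ((dens x a * q ((chartAt 𝔼 x).symm a)) * v a) =
          dens x a * g ((chartAt 𝔼 x).symm a) := fun x =>
    EllZ324.ell_regularity_zero (chartAt 𝔼 x).open_target (contDiffOn_cA x)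
      (fun a ha => posDef_cA x ha) ((contDiffOn_dens x).mul (contDiffOn_symm hq x))
      (fun a ha => mul_pos (dens_pos x ha) (hq0 _))
      ((contDiffOn_dens x).mul (contDiffOn_symm hg x)) (locallyIntegrableOn_chart x hu) (Or.inl rfl)
      (fun ψ hψ hc hs => weak_chart h x hψ hc hs)
  choose V hV hVu hVf using hloc
  -- the local solutions on `M`
  have hW : ∀ x : M, ContMDiffOn (𝓡 n) 𝓘(ℝ) ∞ (fun z => V x (chartAt 𝔼 x z))
      (chartAt 𝔼 x).source := by
    intro x z hz
    have h1 : ContMDiffAt (𝓡 n) (𝓡 n) ∞ (chartAt 𝔼 x) z :=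
      (contMDiffOn_chart (I := 𝓡 n) (n := ∞) (x := x)).contMDiffAt
        ((chartAt 𝔼 x).open_source.mem_nhds hz)
    have h2 : ContDiffAt ℝ ∞ (V x) (chartAt 𝔼 x z) :=
      (hV x).contDiffAt ((chartAt 𝔼 x).open_target.mem_nhds ((chartAt 𝔼 x).map_source hz))
    exact ((contMDiffAt_iff_contDiffAt.2 h2).comp z h1).contMDiffWithinAt
  have hWae : ∀ x : M, ∀ᵐ z ∂(μHE[n] : Measure M), z ∈ (chartAt 𝔼 x).source →
      V x (chartAt 𝔼 x z) = u z := by
    intro x
    refine ae_source_of_chart (n := n) x (P := fun z => V x (chartAt 𝔼 x z) = u z) ?_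
    filter_upwards [hVu x] with a ha haT
    rw [(chartAt 𝔼 x).right_inv haT]
    exact ha haT
  have hopen := isOpenPosMeasure n M
  have hcons : ∀ x y : M, Set.EqOn (fun z => V x (chartAt 𝔼 x z)) (fun z => V y (chartAt 𝔼 y z))
      ((chartAt 𝔼 x).source ∩ (chartAt 𝔼 y).source) := by
    intro x y
    refine Measure.eqOn_open_of_ae_eq (μ := (μHE[n] : Measure M)) ?_
      ((chartAt 𝔼 x).open_source.inter (chartAt 𝔼 y).open_source)
      ((hW x).continuousOn.mono inter_subset_left) ((hW y).continuousOn.mono inter_subset_right)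
    rw [EventuallyEq, ae_restrict_iff'
      ((chartAt 𝔼 x).open_source.inter (chartAt 𝔼 y).open_source).measurableSet]
    filter_upwards [hWae x, hWae y] with z h1 h2 hz
    rw [h1 hz.1, h2 hz.2]
  set v : M → ℝ := fun z => V z (chartAt 𝔼 z z) with hv
  have hvx : ∀ x z : M, z ∈ (chartAt 𝔼 x).source → v z = V x (chartAt 𝔼 x z) := fun x z hz =>
    hcons z x ⟨mem_chart_source 𝔼 z, hz⟩
  have hvs : ContMDiff (𝓡 n) 𝓘(ℝ) ∞ v := by
    intro z
    have hz := mem_chart_source 𝔼 z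
    refine (((hW z) z hz).contMDiffAt ((chartAt 𝔼 z).open_source.mem_nhds hz)).congr_of_eventuallyEq
      ?_
    filter_upwards [(chartAt 𝔼 z).open_source.mem_nhds hz] with y hy using hvx z y hy
  refine ⟨v, hvs, fun x => ?_, fun p => ?_⟩
  · filter_upwards [hWae x] with z h1 hz
    rw [hvx x z hz, h1 hz]
  · have hp := mem_chart_source 𝔼 p
    set a : 𝔼 := chartAt 𝔼 p p with ha
    have hat : a ∈ (chartAt 𝔼 p).target := (chartAt 𝔼 p).map_source hp
    have hpa : (chartAt 𝔼 p).symm a = p := (chartAt 𝔼 p).left_inv hp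
    have h1 := hVf p a hat
    have h2 : divA (cA p) (V p) a = divA (cA p) (inCh n p v) a := by
      refine divA_congr_of_open (chartAt 𝔼 p).open_target (fun _ _ _ _ => rfl) (fun b hb => ?_) hat
      change V p b = v ((chartAt 𝔼 p).symm b)
      rw [hvx p _ ((chartAt 𝔼 p).map_target hb), (chartAt 𝔼 p).right_inv hb]
    have h3 : V p a = v p := (hvx p p hp).symm
    have h4 : mLap n v p = laplaceBeltrami (chartMetric n M p) (inCh n p v) a :=
      mLap_chart' hp ((hvs p).of_le two_le_inf)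
    rw [h2, ← dens_mul_lap p hat, ← h4, hpa, h3] at h1
    have hd := dens_pos (n := n) p hat
    have h5 : dens (n := n) p a * (mLap n v p - q p * v p) = dens p a * g p := by
      rw [← h1]; ring
    exact mul_left_cancel₀ hd.ne' h5

/-- abstract duality lemma -/
theorem exists_dual {V H : Type*} [AddCommGroup V] [Module ℝ V] [NormedAddCommGroup H]
    [InnerProductSpace ℝ H] [CompleteSpace H] (T : V →ₗ[ℝ] H) (l : V →ₗ[ℝ] ℝ) {C : ℝ}
    (hl : ∀ v, |l v| ≤ C * ‖T v‖) : ∃ u : H, ∀ v, inner ℝ u (T v) = l v := by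
  obtain ⟨s, hs⟩ := T.rangeRestrict.exists_rightInverse_of_surjective T.range_rangeRestrict
  have hs' : ∀ y, T.rangeRestrict (s y) = y := fun y => LinearMap.congr_fun hs y
  have hsT : ∀ y : LinearMap.range T, T (s y) = y := fun y => by
    have := congrArg Subtype.val (hs' y)
    simpa using this
  let f : LinearMap.range T →L[ℝ] ℝ := (l.comp s).mkContinuous C (fun y => by
    have h1 := hl (s y)
    rw [hsT y] at h1
    simpa using h1)
  obtain ⟨g, hg, -⟩ := exists_extension_norm_eq (LinearMap.range T) f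
  refine ⟨(InnerProductSpace.toDual ℝ H).symm g, fun v => ?_⟩
  rw [InnerProductSpace.toDual_symm_apply]
  have h2 : g (T v) = f ⟨T v, LinearMap.mem_range_self T v⟩ :=
    hg ⟨T v, LinearMap.mem_range_self T v⟩
  rw [h2]
  change l (s ⟨T v, LinearMap.mem_range_self T v⟩) = l v
  have h3 := hl (s ⟨T v, LinearMap.mem_range_self T v⟩ - v)
  rw [map_sub, map_sub, hsT, sub_self, norm_zero, mul_zero] at h3
  exact sub_eq_zero.1 (abs_eq_zero.1 (le_antisymm h3 (abs_nonneg _)))

end Crest.Agent.R249.Grn324
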