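import Crest.Agent.R249.Grn3_324

/-!
# R249 (helper324), PDE layer, file 8: the resolvent on a closed manifold

`exists_resolvent`: `M` closed, `q > 0`, `g` smooth: there is a smooth `u` with
`mLap u - q u = g`.  The abstract solver `exists_of_apriori` (also used for the Poisson equation).
-/

set_option autoImplicit false
set_option maxSynthPendingDepth 3
set_option linter.unusedSectionVars false

open Bundle Set MeasureTheory Manifold Filter Metric
open scoped ContDiff Topology NNReal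
open Crest.GeometryTopology.CoordMetric Crest.GeometryTopology.ChartCurvature
  Crest.GeometryTopology.PointedLimit
open Crest.Agent.R247.Bo84
open Crest.Agent.R247.Ms322 hiding isRiemannianOn_chartMetric

noncomputable section

namespace Crest.Agent.R249.Grn324

variable {n : ℕ} {M : Type*} [MetricSpace M] [ChartedSpace (EuclideanSpace ℝ (Fin n)) M]
  [IsManifold (𝓡 n) ∞ M]
  [RiemannianBundle (fun p : M => TangentSpace (𝓡 n) p)]
  [IsContMDiffRiemannianBundle (𝓡 n) ∞ (EuclideanSpace ℝ (Fin n)) (fun p : M => TangentSpace (𝓡 n) p)]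

local notation "𝔼" => EuclideanSpace ℝ (Fin n)

variable (n M) in
/-- the smooth functions -/
def Sm : Submodule ℝ (M → ℝ) where
  carrier := {φ | ContMDiff (𝓡 n) 𝓘(ℝ) ∞ φ}
  add_mem' := fun h1 h2 => h1.add h2
  zero_mem' := (contMDiff_const : ContMDiff (𝓡 n) 𝓘(ℝ) ∞ fun _ : M => (0:ℝ))
  smul_mem' := fun c _ h => (contMDiff_const.mul h : ContMDiff (𝓡 n) 𝓘(ℝ) ∞ _)

section

variable [IsRiemannianManifold (𝓡 n) M] [CompactSpace M] [MeasurableSpace M] [BorelSpace M]

theorem memLp_cont {f : M → ℝ} (hf : Continuous f) (p : ENNReal) :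
    MemLp f p (μHE[n] : Measure M) := by
  have := isFiniteMeasure n M
  exact hf.memLp_of_hasCompactSupport (HasCompactSupport.of_compactSpace f)

theorem inner_toLp {f g : M → ℝ} (hf : MemLp f 2 (μHE[n] : Measure M))
    (hg : MemLp g 2 (μHE[n] : Measure M)) :
    inner ℝ (hf.toLp f) (hg.toLp g) = ∫ z, f z * g z ∂(μHE[n] : Measure M) := by
  rw [L2.inner_def]
  refine integral_congr_ae ?_
  filter_upwards [hf.coeFn_toLp, hg.coeFn_toLp] with z h1 h2
  rw [h1, h2]
  simp [mul_comm]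

theorem continuous_op {q φ : M → ℝ} (hq : Continuous q) (hφ : ContMDiff (𝓡 n) 𝓘(ℝ) ∞ φ) :
    Continuous fun z => mLap n φ z - q z * φ z :=
  (contMDiff_mLap hφ).continuous.sub (hq.mul hφ.continuous)

/-- `φ ↦ mLap φ - q φ` into `L²` -/
def TL {q : M → ℝ} (hq : Continuous q) : Sm n M →ₗ[ℝ] Lp ℝ 2 (μHE[n] : Measure M) where
  toFun := fun φ => (memLp_cont (n := n) (continuous_op hq φ.2) 2).toLp _
  map_add' := by
    intro φ ψ
    rw [← MemLp.toLp_add]
    congr 1
    funext z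
    have h1 : mLap n (fun y => (φ : M → ℝ) y + (ψ : M → ℝ) y) z = mLap n φ z + mLap n ψ z :=
      mLap_add ((φ.2 z).of_le two_le_inf) ((ψ.2 z).of_le two_le_inf)
    change mLap n (fun y => (φ : M → ℝ) y + (ψ : M → ℝ) y) z -
      q z * ((φ : M → ℝ) z + (ψ : M → ℝ) z) =
        (mLap n φ z - q z * (φ : M → ℝ) z) + (mLap n ψ z - q z * (ψ : M → ℝ) z)
    rw [h1]
    ring
  map_smul' := by
    intro c φ
    rw [RingHom.id_apply, ← MemLp.toLp_const_smul]
    congr 1
    funext z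
    have h1 : mLap n (fun y => c * (φ : M → ℝ) y) z = c * mLap n φ z :=
      mLap_const_mul c ((φ.2 z).of_le two_le_inf)
    change mLap n (fun y => c * (φ : M → ℝ) y) z - q z * (c * (φ : M → ℝ) z) =
      c • (mLap n φ z - q z * (φ : M → ℝ) z)
    rw [h1, smul_eq_mul]
    ring

/-- integration against `g` -/
def ITL {g : M → ℝ} (hg : Continuous g) : Sm n M →ₗ[ℝ] ℝ where
  toFun := fun φ => ∫ z, g z * (φ : M → ℝ) z ∂(μHE[n] : Measure M)
  map_add' := by
    intro φ ψ
    have i1 : Integrable (fun z => g z * (φ : M → ℝ) z) (μHE[n] : Measure M) :=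
      integrable_cont (n := n) (hg.mul φ.2.continuous)
    have i2 : Integrable (fun z => g z * (ψ : M → ℝ) z) (μHE[n] : Measure M) :=
      integrable_cont (n := n) (hg.mul ψ.2.continuous)
    rw [← integral_add i1 i2]
    refine integral_congr_ae (Eventually.of_forall fun z => ?_)
    change g z * ((φ : M → ℝ) z + (ψ : M → ℝ) z) = g z * (φ : M → ℝ) z + g z * (ψ : M → ℝ) z
    ring
  map_smul' := by
    intro c φ
    rw [RingHom.id_apply, smul_eq_mul, ← integral_const_mul]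
    refine integral_congr_ae (Eventually.of_forall fun z => ?_)
    change g z * (c * (φ : M → ℝ) z) = c * (g z * (φ : M → ℝ) z)
    ring

/-- **solvability from an a priori estimate** for the weak equation. -/
theorem exists_weak_of_apriori {q g : M → ℝ} (hq : Continuous q) (hg : Continuous g) {C : ℝ}
    (hap : ∀ φ : M → ℝ, ContMDiff (𝓡 n) 𝓘(ℝ) ∞ φ →
      |∫ z, g z * φ z ∂(μHE[n] : Measure M)| ≤
        C * √(∫ z, (mLap n φ z - q z * φ z) ^ 2 ∂(μHE[n] : Measure M))) :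
    ∃ u : M → ℝ, MemLp u 2 (μHE[n] : Measure M) ∧ ∀ φ : M → ℝ, ContMDiff (𝓡 n) 𝓘(ℝ) ∞ φ →
      ∫ z, u z * (mLap n φ z - q z * φ z) ∂(μHE[n] : Measure M) =
        ∫ z, g z * φ z ∂(μHE[n] : Measure M) := by
  obtain ⟨u, hu⟩ := exists_dual (TL (n := n) hq) (ITL (n := n) hg) (C := C) (fun φ => by
    have h1 := hap φ φ.2
    have h2 : ‖TL (n := n) hq φ‖ = √(∫ z, (mLap n φ z - q z * (φ : M → ℝ) z) ^ 2
        ∂(μHE[n] : Measure M)) := by
      rw [← Real.sqrt_sq (norm_nonneg (TL (n := n) hq φ)), ← real_inner_self_eq_norm_sq]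
      congr 1
      change inner ℝ ((memLp_cont (n := n) (continuous_op hq φ.2) 2).toLp _)
        ((memLp_cont (n := n) (continuous_op hq φ.2) 2).toLp _) = _
      rw [inner_toLp]
      refine integral_congr_ae (Eventually.of_forall fun z => ?_)
      simp only
      ring
    rw [h2]
    exact h1)
  refine ⟨u, Lp.memLp u, fun φ hφ => ?_⟩
  have h1 := hu ⟨φ, hφ⟩
  have h2 : inner ℝ u (TL (n := n) hq ⟨φ, hφ⟩) =
      ∫ z, u z * (mLap n φ z - q z * φ z) ∂(μHE[n] : Measure M) := by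
    rw [L2.inner_def]
    refine integral_congr_ae ?_
    have h3 := (memLp_cont (n := n) (continuous_op hq hφ) 2).coeFn_toLp
    filter_upwards [h3] with z hz
    change inner ℝ (u z) ((memLp_cont (n := n) (continuous_op hq hφ) 2).toLp _ z) = _
    rw [hz]
    simp [mul_comm]
  rw [← h2, h1]
  rfl

/-- Cauchy–Schwarz for continuous functions -/
theorem abs_integral_mul_le {f g : M → ℝ} (hf : Continuous f) (hg : Continuous g) :
    |∫ z, f z * g z ∂(μHE[n] : Measure M)| ≤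
      √(∫ z, f z ^ 2 ∂(μHE[n] : Measure M)) * √(∫ z, g z ^ 2 ∂(μHE[n] : Measure M)) := by
  have hf2 := memLp_cont (n := n) hf 2
  have hg2 := memLp_cont (n := n) hg 2
  have h1 := abs_real_inner_le_norm (hf2.toLp f) (hg2.toLp g)
  rw [inner_toLp] at h1
  have key : ∀ {h : M → ℝ} (hh : MemLp h 2 (μHE[n] : Measure M)),
      ‖hh.toLp h‖ = √(∫ z, h z ^ 2 ∂(μHE[n] : Measure M)) := by
    intro h hh
    rw [← Real.sqrt_sq (norm_nonneg (hh.toLp h)), ← real_inner_self_eq_norm_sq, inner_toLp]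
    congr 1
    refine integral_congr_ae (Eventually.of_forall fun z => ?_)
    simp only
    ring
  rwa [key hf2, key hg2] at h1

/-- `q₀ ‖φ‖ ≤ ‖mLap φ - q φ‖` if `q ≥ q₀`. -/
theorem apriori_resolvent {q : M → ℝ} (hq : Continuous q) {q0 : ℝ} (hq0 : 0 < q0)
    (hqq : ∀ z, q0 ≤ q z) {φ : M → ℝ} (hφ : ContMDiff (𝓡 n) 𝓘(ℝ) ∞ φ) :
    q0 * √(∫ z, φ z ^ 2 ∂(μHE[n] : Measure M)) ≤
      √(∫ z, (mLap n φ z - q z * φ z) ^ 2 ∂(μHE[n] : Measure M)) := by
  have hφ2 := hφ.of_le two_le_inf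
  have hop := continuous_op hq hφ
  have h1 := abs_integral_mul_le (n := n) hφ.continuous hop
  have h2 := integral_mul_mLap (n := n) hφ2 (hφ.of_le (by simp) : ContMDiff (𝓡 n) 𝓘(ℝ) 1 φ)
  have i1 : Integrable (fun z => φ z * mLap n φ z) (μHE[n] : Measure M) :=
    integrable_cont (n := n) (hφ.continuous.mul (contMDiff_mLap hφ).continuous)
  have i2 : Integrable (fun z => q z * φ z ^ 2) (μHE[n] : Measure M) :=
    integrable_cont (n := n) (hq.mul (hφ.continuous.pow 2))
  have i3 : Integrable (fun z => φ z ^ 2) (μHE[n] : Measure M) :=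
    integrable_cont (n := n) (hφ.continuous.pow 2)
  have h3 : ∫ z, φ z * (mLap n φ z - q z * φ z) ∂(μHE[n] : Measure M) =
      - ∫ z, mGam n φ φ z ∂(μHE[n] : Measure M) - ∫ z, q z * φ z ^ 2 ∂(μHE[n] : Measure M) := by
    rw [← h2, ← integral_sub i1 i2]
    refine integral_congr_ae (Eventually.of_forall fun z => ?_)
    simp only
    ring
  have h4 : 0 ≤ ∫ z, mGam n φ φ z ∂(μHE[n] : Measure M) :=
    integral_nonneg fun z => mGam_self_nonneg φ z
  have h5 : q0 * ∫ z, φ z ^ 2 ∂(μHE[n] : Measure M) ≤ ∫ z, q z * φ z ^ 2 ∂(μHE[n] : Measure M) := by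
    rw [← integral_const_mul]
    exact integral_mono (i3.const_mul _) i2 fun z =>
      mul_le_mul_of_nonneg_right (hqq z) (sq_nonneg _)
  set A := √(∫ z, φ z ^ 2 ∂(μHE[n] : Measure M)) with hA
  set B := √(∫ z, (mLap n φ z - q z * φ z) ^ 2 ∂(μHE[n] : Measure M)) with hB
  have hA2 : A ^ 2 = ∫ z, φ z ^ 2 ∂(μHE[n] : Measure M) :=
    Real.sq_sqrt (integral_nonneg fun z => sq_nonneg _)
  have hA0 : 0 ≤ A := Real.sqrt_nonneg _
  have h6 : q0 * A ^ 2 ≤ A * B := by
    rw [hA2]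
    have := (abs_le.1 h1).1
    linarith
  rcases hA0.eq_or_lt with h | h
  · rw [← h, mul_zero]; exact Real.sqrt_nonneg _
  · have : A * (q0 * A) ≤ A * B := by nlinarith
    exact le_of_mul_le_mul_left this h

/-- **the resolvent equation** `mLap u - q u = g` on a closed manifold. -/
theorem exists_resolvent' {q g : M → ℝ} (hq : ContMDiff (𝓡 n) 𝓘(ℝ) ∞ q) (hq0 : ∀ p, 0 < q p)
    (hg : ContMDiff (𝓡 n) 𝓘(ℝ) ∞ g) :
    ∃ u : M → ℝ, ContMDiff (𝓡 n) 𝓘(ℝ) ∞ u ∧ ∀ p, mLap n u p - q p * u p = g p := by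
  rcases isEmpty_or_nonempty M with hM | hM
  · exact ⟨fun _ => 0, contMDiff_const, fun p => (hM.false p).elim⟩
  obtain ⟨p0, -, hp0⟩ := isCompact_univ.exists_isMinOn univ_nonempty hq.continuous.continuousOn
  have hqq : ∀ z, q p0 ≤ q z := fun z => hp0 (mem_univ z)
  have hfin := isFiniteMeasure n M
  obtain ⟨u, hu, hw⟩ := exists_weak_of_apriori (n := n) hq.continuous hg.continuous
    (C := (q p0)⁻¹ * √(∫ z, g z ^ 2 ∂(μHE[n] : Measure M))) (fun φ hφ => by
      have h1 := abs_integral_mul_le (n := n) hg.continuous hφ.continuous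
      have h2 := apriori_resolvent (n := n) hq.continuous (hq0 p0) hqq hφ
      have h3 := hq0 p0
      refine h1.trans ?_
      have h4 : √(∫ z, φ z ^ 2 ∂(μHE[n] : Measure M)) ≤ (q p0)⁻¹ *
          √(∫ z, (mLap n φ z - q z * φ z) ^ 2 ∂(μHE[n] : Measure M)) := by
        rw [le_inv_mul_iff₀ h3]
        exact h2
      calc _ ≤ √(∫ z, g z ^ 2 ∂(μHE[n] : Measure M)) * ((q p0)⁻¹ *
          √(∫ z, (mLap n φ z - q z * φ z) ^ 2 ∂(μHE[n] : Measure M))) := by gcongr
        _ = _ := by ring)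
  obtain ⟨v, hv, -, hve⟩ := weak_regularity (n := n) (hu.integrable (by norm_num)) hq hq0 hg hw
  exact ⟨v, hv, hve⟩

/-- **the resolvent equation** with a constant. -/
theorem exists_resolvent {c : ℝ} (hc : 0 < c) {g : M → ℝ} (hg : ContMDiff (𝓡 n) 𝓘(ℝ) ∞ g) :
    ∃ u : M → ℝ, ContMDiff (𝓡 n) 𝓘(ℝ) ∞ u ∧ ∀ p, mLap n u p - c * u p = g p :=
  exists_resolvent' (q := fun _ => c) contMDiff_const (fun _ => hc) hg

end

end Crest.Agent.R249.Grn324
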