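import Crest.Agent.R249.Grn4_324

/-!
# R249 (helper324), PDE layer, file 9: the Poisson equation

* `weak_regularity0`: weak solutions of `mLap u = g` are smooth (no zero order term);
* `const_of_mGam_zero`, `const_of_mLap_zero`: harmonic functions on a closed connected manifold are
  constant;
* `approx_poisson`: `∫ g = 0` ⇒ `g` is an `L²` limit of `mLap φ`, `φ` smooth;
* `lichnerowicz`: `Ric ≥ K > 0`, `∫ f = 0` ⇒ `n K ∫ f² ≤ (n-1) ∫ |df|²`;
* `exists_poisson_of_poincare`, `exists_poisson_pos`: the Poisson equation.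
-/

set_option autoImplicit false
set_option maxSynthPendingDepth 3
set_option linter.unusedSectionVars false

open Bundle Set MeasureTheory Manifold Filter Metric
open scoped ContDiff Topology NNReal
open Crest.GeometryTopology.CoordMetric Crest.GeometryTopology.ChartCurvature
  Crest.GeometryTopology.PointedLimit
open Crest.Agent.R247.Bo84
open Crest.Agent.R247.Ms322 hiding isRiemannianOn_chartMetric
open Crest.Agent.R202.Ell (divA contDiff_mul_of_tsupport divA_congr_of_open contDiffOn_pd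
  ell_regularity)

noncomputable section

namespace Crest.Agent.R249.Grn324

variable {n : ℕ} {M : Type*} [MetricSpace M] [ChartedSpace (EuclideanSpace ℝ (Fin n)) M]
  [IsManifold (𝓡 n) ∞ M]
  [RiemannianBundle (fun p : M => TangentSpace (𝓡 n) p)]
  [IsContMDiffRiemannianBundle (𝓡 n) ∞ (EuclideanSpace ℝ (Fin n)) (fun p : M => TangentSpace (𝓡 n) p)]

local notation "𝔼" => EuclideanSpace ℝ (Fin n)

/-- a `C¹` function with vanishing gradient on a connected manifold is constant -/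
theorem const_of_mGam_zero [PreconnectedSpace M] {f : M → ℝ} (hf : ContMDiff (𝓡 n) 𝓘(ℝ) 1 f)
    (h0 : ∀ p, mGam n f f p = 0) (p q : M) : f p = f q := by
  have hz : ∀ p (v : TangentSpace (𝓡 n) p), mfderiv (𝓡 n) 𝓘(ℝ, ℝ) f p v = 0 := by
    intro p v
    have h1 : mgrad n f p = 0 := by
      have := h0 p
      rw [mGam_self] at this
      exact norm_eq_zero.1 (pow_eq_zero_iff two_ne_zero |>.1 this)
    rw [← inner_mgrad, h1, inner_zero_left]
    rfl
  have hloc : IsLocallyConstant f := by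
    rw [IsLocallyConstant.iff_eventually_eq]
    intro x
    have hx := mem_chart_source 𝔼 x
    have hxt : chartAt 𝔼 x x ∈ (chartAt 𝔼 x).target := (chartAt 𝔼 x).map_source hx
    obtain ⟨r, hr, hB⟩ := Metric.isOpen_iff.1 (chartAt 𝔼 x).open_target _ hxt
    have hdiff : ∀ y ∈ (chartAt 𝔼 x).target, DifferentiableAt ℝ (inCh n x f) y := fun y hy => by
      have h1 : ContDiffAt ℝ 1 (inCh n x f) y :=
        contDiffAt_inCh (n := n) (x₀ := x) (by simp) hy (hf _)
      exact h1.differentiableAt (by norm_num)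
    have hconst : ∀ y ∈ ball (chartAt 𝔼 x x) r, inCh n x f y = inCh n x f (chartAt 𝔼 x x) := by
      intro y hy
      refine isOpen_ball.is_const_of_fderiv_eq_zero (𝕜 := ℝ) (convex_ball _ _).isPreconnected
        (fun z hz => (hdiff z (hB hz)).differentiableWithinAt) (fun z hzB => ?_) hy
        (mem_ball_self hr)
      ext v
      rw [fderiv_inCh (hB hzB)]
      exact hz _ _
    filter_upwards [(chartAt 𝔼 x).open_source.mem_nhds hx,
      ((chartAt 𝔼 x).continuousAt hx).preimage_mem_nhds (ball_mem_nhds _ hr)] with y hy1 hy2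
    have := hconst _ hy2
    change f ((chartAt 𝔼 x).symm (chartAt 𝔼 x y)) = f ((chartAt 𝔼 x).symm (chartAt 𝔼 x x)) at this
    rwa [(chartAt 𝔼 x).left_inv hy1, (chartAt 𝔼 x).left_inv hx] at this
  exact hloc.apply_eq_of_preconnectedSpace p q

variable [IsRiemannianManifold (𝓡 n) M] [MeasurableSpace M] [BorelSpace M]

/-- gluing smooth local representatives -/
theorem glue_local {u : M → ℝ} {V : M → EuclideanSpace ℝ (Fin n) → ℝ}
    (hV : ∀ x : M, ContDiffOn ℝ ∞ (V x) (chartAt (EuclideanSpace ℝ (Fin n)) x).target)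
    (hVu : ∀ x : M, ∀ᵐ a : EuclideanSpace ℝ (Fin n),
      a ∈ (chartAt (EuclideanSpace ℝ (Fin n)) x).target →
        V x a = u ((chartAt (EuclideanSpace ℝ (Fin n)) x).symm a)) :
    ∃ v : M → ℝ, ContMDiff (𝓡 n) 𝓘(ℝ) ∞ v ∧
      (∀ x : M, ∀ᵐ z ∂(μHE[n] : Measure M),
        z ∈ (chartAt (EuclideanSpace ℝ (Fin n)) x).source → v z = u z) ∧
      ∀ x z : M, z ∈ (chartAt (EuclideanSpace ℝ (Fin n)) x).source →
        v z = V x (chartAt (EuclideanSpace ℝ (Fin n)) x z) := by
  have hW : ∀ x : M, ContMDiffOn (𝓡 n) 𝓘(ℝ) ∞ (fun z => V x (chartAt 𝔼 x z))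
      (chartAt 𝔼 x).source := by
    intro x z hz
    have h1 : ContMDiffAt (𝓡 n) (𝓡 n) ∞ (chartAt 𝔼 x) z :=
      (contMDiffOn_chart (I := 𝓡 n) (n := ∞) (x := x)).contMDiffAt
        ((chartAt 𝔼 x).open_source.mem_nhds hz)
    have h2 : ContDiffAt ℝ ∞ (V x) (chartAt 𝔼 x z) :=
      (hV x).contDiffAt ((chartAt 𝔼 x).open_target.mem_nhds ((chartAt 𝔼 x).map_source hz))
    exact ((contMDiffAt_iff_contDiffAt.2 h2).comp z h1).contMDiffWithinAt
  have hWae : ∀ x : M, ∀ᵐ z ∂(μHE[n] : Measure M), z ∈ (chartAt 𝔼 x).source →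
      V x (chartAt 𝔼 x z) = u z := by
    intro x
    refine ae_source_of_chart (n := n) x (P := fun z => V x (chartAt 𝔼 x z) = u z) ?_
    filter_upwards [hVu x] with a ha haT
    rw [(chartAt 𝔼 x).right_inv haT]
    exact ha haT
  have hopen := isOpenPosMeasure n M
  have hcons : ∀ x y : M, Set.EqOn (fun z => V x (chartAt 𝔼 x z)) (fun z => V y (chartAt 𝔼 y z))
      ((chartAt 𝔼 x).source ∩ (chartAt 𝔼 y).source) := by
    intro x y
    refine Measure.eqOn_open_of_ae_eq (μ := (μHE[n] : Measure M)) ?_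
      ((chartAt 𝔼 x).open_source.inter (chartAt 𝔼 y).open_source)
      ((hW x).continuousOn.mono inter_subset_left) ((hW y).continuousOn.mono inter_subset_right)
    rw [EventuallyEq, ae_restrict_iff'
      ((chartAt 𝔼 x).open_source.inter (chartAt 𝔼 y).open_source).measurableSet]
    filter_upwards [hWae x, hWae y] with z h1 h2 hz
    rw [h1 hz.1, h2 hz.2]
  have hvx : ∀ x z : M, z ∈ (chartAt 𝔼 x).source → V z (chartAt 𝔼 z z) = V x (chartAt 𝔼 x z) :=
    fun x z hz => hcons z x ⟨mem_chart_source 𝔼 z, hz⟩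
  refine ⟨fun z => V z (chartAt 𝔼 z z), ?_, fun x => ?_, hvx⟩
  · intro z
    have hz := mem_chart_source 𝔼 z
    refine (((hW z) z hz).contMDiffAt ((chartAt 𝔼 z).open_source.mem_nhds hz)).congr_of_eventuallyEq
      ?_
    filter_upwards [(chartAt 𝔼 z).open_source.mem_nhds hz] with y hy using hvx z y hy
  · filter_upwards [hWae x] with z h1 hz
    rw [hvx x z hz, h1 hz]

/-- a.e. statements are local -/
theorem ae_of_charts [SecondCountableTopology M] {P : M → Prop}
    (h : ∀ x : M, ∀ᵐ z ∂(μHE[n] : Measure M),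
      z ∈ (chartAt (EuclideanSpace ℝ (Fin n)) x).source → P z) :
    ∀ᵐ z ∂(μHE[n] : Measure M), P z := by
  rw [ae_iff]
  refine measure_null_of_locally_null _ fun x _ => ?_
  refine ⟨(chartAt 𝔼 x).source ∩ {z | ¬ P z}, ?_, ?_⟩
  · exact inter_mem (mem_nhdsWithin_of_mem_nhds ((chartAt 𝔼 x).open_source.mem_nhds
      (mem_chart_source 𝔼 x))) self_mem_nhdsWithin
  · have := h x
    rw [ae_iff] at this
    convert this using 2
    ext z
    simp only [mem_inter_iff, mem_ofPred_eq, Classical.not_imp]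

/-- **weak solutions of `mLap u = g` are smooth.** -/
theorem weak_regularity0 {u g : M → ℝ} (hu : Integrable u (μHE[n] : Measure M))
    (hg : ContMDiff (𝓡 n) 𝓘(ℝ) ∞ g)
    (h : ∀ φ : M → ℝ, ContMDiff (𝓡 n) 𝓘(ℝ) ∞ φ →
      ∫ z, u z * mLap n φ z ∂(μHE[n] : Measure M) =
        ∫ z, g z * φ z ∂(μHE[n] : Measure M)) :
    ∃ v : M → ℝ, ContMDiff (𝓡 n) 𝓘(ℝ) ∞ v ∧
      (∀ x : M, ∀ᵐ z ∂(μHE[n] : Measure M),
        z ∈ (chartAt (EuclideanSpace ℝ (Fin n)) x).source → v z = u z) ∧
      ∀ p, mLap n v p = g p := by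
  have hloc : ∀ x : M, ∃ v : 𝔼 → ℝ, ContDiffOn ℝ ∞ v (chartAt 𝔼 x).target ∧
      (∀ᵐ a : 𝔼, a ∈ (chartAt 𝔼 x).target → v a = u ((chartAt 𝔼 x).symm a)) ∧
      ∀ a ∈ (chartAt 𝔼 x).target, divA (cA x) v a = dens x a * g ((chartAt 𝔼 x).symm a) := by
    intro x
    refine ell_regularity n _ (chartAt 𝔼 x).open_target (cA x) (contDiffOn_cA x)
      (fun a ha => posDef_cA x ha) (fun a => dens x a * g ((chartAt 𝔼 x).symm a))
      ((contDiffOn_dens x).mul (contDiffOn_symm hg x)) (fun a => u ((chartAt 𝔼 x).symm a))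
      (locallyIntegrableOn_chart x hu) (fun ψ hψ hc hs => ?_)
    have h1 := weak_chart (n := n) (q := fun _ => 0) (u := u) (g := g)
      (fun φ hφ => by simpa using h φ hφ) x hψ hc hs
    simpa using h1
  choose V hV hVu hVf using hloc
  obtain ⟨v, hvs, hvu, hvx⟩ := glue_local (n := n) hV hVu
  refine ⟨v, hvs, hvu, fun p => ?_⟩
  have hp := mem_chart_source 𝔼 p
  set a : 𝔼 := chartAt 𝔼 p p with ha
  have hat : a ∈ (chartAt 𝔼 p).target := (chartAt 𝔼 p).map_source hp
  have hpa : (chartAt 𝔼 p).symm a = p := (chartAt 𝔼 p).left_inv hp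
  have h1 := hVf p a hat
  have h2 : divA (cA p) (V p) a = divA (cA p) (inCh n p v) a := by
    refine divA_congr_of_open (chartAt 𝔼 p).open_target (fun _ _ _ _ => rfl) (fun b hb => ?_) hat
    change V p b = v ((chartAt 𝔼 p).symm b)
    rw [hvx p _ ((chartAt 𝔼 p).map_target hb), (chartAt 𝔼 p).right_inv hb]
  have h4 : mLap n v p = laplaceBeltrami (chartMetric n M p) (inCh n p v) a :=
    mLap_chart' hp ((hvs p).of_le two_le_inf)
  rw [h2, ← dens_mul_lap p hat, ← h4, hpa] at h1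
  exact mul_left_cancel₀ (dens_pos (n := n) p hat).ne' h1

section Closed

variable [CompactSpace M]

/-- **harmonic functions on a closed connected manifold are constant.** -/
theorem const_of_mLap_zero [PreconnectedSpace M] {f : M → ℝ} (hf : ContMDiff (𝓡 n) 𝓘(ℝ) ∞ f)
    (h0 : ∀ p, mLap n f p = 0) (p q : M) : f p = f q := by
  have h1 := integral_mul_mLap (n := n) (hf.of_le two_le_inf)
    (hf.of_le (by simp) : ContMDiff (𝓡 n) 𝓘(ℝ) 1 f)
  simp only [h0, mul_zero, integral_zero] at h1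
  have h2 : ∫ z, mGam n f f z ∂(μHE[n] : Measure M) = 0 := by linarith
  have hc := (contMDiff_mGam hf hf).continuous
  have hopen := isOpenPosMeasure n M
  have h3 := (integral_eq_zero_iff_of_nonneg (fun z => mGam_self_nonneg f z)
    (integrable_cont (n := n) hc)).1 h2
  have h4 := (hc.ae_eq_iff_eq (μHE[n] : Measure M) continuous_const).1 h3
  exact const_of_mGam_zero (hf.of_le (by simp)) (fun z => congrFun h4 z) p q

/-- **approximate Poisson equation.** -/
theorem approx_poisson [PreconnectedSpace M] {g : M → ℝ} (hg : ContMDiff (𝓡 n) 𝓘(ℝ) ∞ g)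
    (h0 : ∫ z, g z ∂(μHE[n] : Measure M) = 0) {δ : ℝ} (hδ : 0 < δ) :
    ∃ φ : M → ℝ, ContMDiff (𝓡 n) 𝓘(ℝ) ∞ φ ∧
      ∫ z, (mLap n φ z - g z) ^ 2 ∂(μHE[n] : Measure M) ≤ δ ^ 2 := by
  have := secondCountable M
  have hfin := isFiniteMeasure n M
  set T := TL (n := n) (M := M) (q := fun _ => 0) continuous_const with hT
  have hg2 := memLp_cont (n := n) hg.continuous 2
  have key : hg2.toLp g ∈ (LinearMap.range T).topologicalClosure := by
    rw [← Submodule.orthogonal_orthogonal_eq_closure, Submodule.mem_orthogonal]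
    intro u hu
    rw [Submodule.mem_orthogonal] at hu
    have hw : ∀ φ : M → ℝ, ContMDiff (𝓡 n) 𝓘(ℝ) ∞ φ →
        ∫ z, u z * mLap n φ z ∂(μHE[n] : Measure M) =
        ∫ z, (0 : M → ℝ) z * φ z ∂(μHE[n] : Measure M) := by
      intro φ hφ
      have h1 := hu (T ⟨φ, hφ⟩) (LinearMap.mem_range_self T _)
      rw [real_inner_comm, L2.inner_def] at h1
      have h3 := (memLp_cont (n := n) (continuous_op (q := fun _ : M => (0:ℝ)) continuous_const hφ)
        2).coeFn_toLp
      simp only [Pi.zero_apply, zero_mul, integral_zero]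
      rw [← h1]
      refine integral_congr_ae ?_
      filter_upwards [h3] with z hz
      change _ = inner ℝ (u z) ((memLp_cont (n := n)
        (continuous_op (q := fun _ : M => (0:ℝ)) continuous_const hφ) 2).toLp _ z)
      rw [hz]
      simp [mul_comm]
    obtain ⟨v, hv, hvu, hvL⟩ := weak_regularity0 (n := n) ((Lp.memLp u).integrable (by norm_num))
      (contMDiff_const : ContMDiff (𝓡 n) 𝓘(ℝ) ∞ (0 : M → ℝ)) hw
    have hvu' : ∀ᵐ z ∂(μHE[n] : Measure M), v z = u z := ae_of_charts hvu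
    have hconst := const_of_mLap_zero hv hvL
    rw [L2.inner_def]
    rcases isEmpty_or_nonempty M with hM | ⟨⟨p0⟩⟩
    · simp [Measure.eq_zero_of_isEmpty]
    have h5 : ∫ z, v p0 * g z ∂(μHE[n] : Measure M) = 0 := by
      rw [integral_const_mul, h0, mul_zero]
    rw [← h5]
    refine integral_congr_ae ?_
    filter_upwards [hvu', hg2.coeFn_toLp] with z h1 h2
    rw [h2, ← h1, hconst z p0]
    simp [mul_comm]
  rw [← SetLike.mem_coe, Submodule.topologicalClosure_coe, Metric.mem_closure_iff] at key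
  obtain ⟨_, ⟨φ, rfl⟩, hφ⟩ := key δ hδ
  refine ⟨φ, φ.2, ?_⟩
  have h1 : ‖T φ - hg2.toLp g‖ ^ 2 ≤ δ ^ 2 := by
    have : ‖T φ - hg2.toLp g‖ ≤ δ := by
      rw [← dist_eq_norm, dist_comm]; exact hφ.le
    exact pow_le_pow_left₀ (norm_nonneg _) this 2
  refine le_trans (le_of_eq ?_) h1
  have hc := continuous_op (n := n) (q := fun _ : M => (0:ℝ)) continuous_const φ.2
  have e : T φ - hg2.toLp g = ((memLp_cont (n := n) hc 2).sub hg2).toLp _ := by
    rw [MemLp.toLp_sub (memLp_cont (n := n) hc 2) hg2]; rfl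
  rw [e, ← real_inner_self_eq_norm_sq, inner_toLp]
  refine integral_congr_ae (Eventually.of_forall fun z => ?_)
  simp only [Pi.sub_apply]
  ring

theorem sq_sqrt_integral {f : M → ℝ} (h : ∀ z, 0 ≤ f z) :
    √(∫ z, f z ∂(μHE[n] : Measure M)) ^ 2 = ∫ z, f z ∂(μHE[n] : Measure M) :=
  Real.sq_sqrt (integral_nonneg h)

/-- Cauchy–Schwarz for the gradients -/
theorem abs_integral_mGam_le {f h : M → ℝ} (hf : ContMDiff (𝓡 n) 𝓘(ℝ) 1 f)
    (hh : ContMDiff (𝓡 n) 𝓘(ℝ) 1 h) :
    |∫ z, mGam n f h z ∂(μHE[n] : Measure M)| ≤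
      √(∫ z, mGam n f f z ∂(μHE[n] : Measure M)) * √(∫ z, mGam n h h z ∂(μHE[n] : Measure M)) := by
  have hcf := continuous_mGam hf hf
  have hch := continuous_mGam hh hh
  have hcfh := continuous_mGam hf hh
  have h1 : |∫ z, mGam n f h z ∂(μHE[n] : Measure M)| ≤
      ∫ z, √(mGam n f f z) * √(mGam n h h z) ∂(μHE[n] : Measure M) := by
    refine (abs_integral_le_integral_abs).trans ?_
    refine integral_mono (integrable_cont (n := n) hcfh.abs)
      (integrable_cont (n := n) (hcf.sqrt.mul hch.sqrt)) fun z => ?_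
    refine abs_le_of_sq_le_sq ?_ (by positivity)
    rw [mul_pow, Real.sq_sqrt (mGam_self_nonneg f z), Real.sq_sqrt (mGam_self_nonneg h z)]
    exact mGam_sq_le f h z
  refine h1.trans ((le_abs_self _).trans ((abs_integral_mul_le (n := n) hcf.sqrt hch.sqrt).trans
    (le_of_eq ?_)))
  congr 2
  · exact integral_congr_ae (Eventually.of_forall fun z => Real.sq_sqrt (mGam_self_nonneg f z))
  · exact integral_congr_ae (Eventually.of_forall fun z => Real.sq_sqrt (mGam_self_nonneg h z))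

/-- **the estimate dual to the Poincaré inequality**: if `a ∫ |dφ|² ≤ ∫ (mLap φ)²` for all smooth
`φ`, `a > 0`, then `a ∫ f² ≤ ∫ |df|²` for all smooth `f` with `∫ f = 0`. -/
theorem poincare_of_dual [PreconnectedSpace M] {a : ℝ} (ha : 0 < a)
    (hap : ∀ φ : M → ℝ, ContMDiff (𝓡 n) 𝓘(ℝ) ∞ φ →
      a * ∫ z, mGam n φ φ z ∂(μHE[n] : Measure M) ≤ ∫ z, mLap n φ z ^ 2 ∂(μHE[n] : Measure M))
    {f : M → ℝ} (hf : ContMDiff (𝓡 n) 𝓘(ℝ) ∞ f) (h0 : ∫ z, f z ∂(μHE[n] : Measure M) = 0) :
    a * ∫ z, f z ^ 2 ∂(μHE[n] : Measure M) ≤ ∫ z, mGam n f f z ∂(μHE[n] : Measure M) := by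
  set A := √(∫ z, f z ^ 2 ∂(μHE[n] : Measure M)) with hA
  set B := √(∫ z, mGam n f f z ∂(μHE[n] : Measure M)) with hB
  have hA0 : 0 ≤ A := Real.sqrt_nonneg _
  have hB0 : 0 ≤ B := Real.sqrt_nonneg _
  have hA2 : A ^ 2 = ∫ z, f z ^ 2 ∂(μHE[n] : Measure M) := sq_sqrt_integral fun z => sq_nonneg _
  have hB2 : B ^ 2 = ∫ z, mGam n f f z ∂(μHE[n] : Measure M) :=
    sq_sqrt_integral fun z => mGam_self_nonneg f z
  rw [← hA2, ← hB2]
  have hsa : 0 < √a := Real.sqrt_pos.2 ha
  have hsa2 : √a ^ 2 = a := Real.sq_sqrt ha.le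
  have key : ∀ δ : ℝ, 0 < δ → √a * A ^ 2 ≤ B * (A + δ) + √a * A * δ := by
    intro δ hδ
    obtain ⟨φ, hφ, hφδ⟩ := approx_poisson hf h0 hδ
    have hcL := (contMDiff_mLap hφ).continuous
    have hcd : Continuous fun z => mLap n φ z - f z := hcL.sub hf.continuous
    have h1 : √(∫ z, (mLap n φ z - f z) ^ 2 ∂(μHE[n] : Measure M)) ≤ δ :=
      (Real.sqrt_le_sqrt hφδ).trans (by rw [Real.sqrt_sq hδ.le])
    -- the gradient of `φ`
    set D := √(∫ z, mGam n φ φ z ∂(μHE[n] : Measure M)) with hD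
    set L := √(∫ z, mLap n φ z ^ 2 ∂(μHE[n] : Measure M)) with hL
    have hD0 : 0 ≤ D := Real.sqrt_nonneg _
    have hL0 : 0 ≤ L := Real.sqrt_nonneg _
    have h2 : √a * D ≤ L := by
      refine abs_le_of_sq_le_sq' ?_ hL0 |>.2
      rw [mul_pow, hsa2, hD, hL, sq_sqrt_integral fun z => mGam_self_nonneg φ z,
        sq_sqrt_integral fun z => sq_nonneg _]
      exact hap φ hφ
    have h3 : L ≤ A + δ := by
      have hm := memLp_cont (n := n) hcL 2
      have hmf := memLp_cont (n := n) hf.continuous 2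
      have key2 : ∀ {h : M → ℝ} (hh : MemLp h 2 (μHE[n] : Measure M)),
          ‖hh.toLp h‖ = √(∫ z, h z ^ 2 ∂(μHE[n] : Measure M)) := by
        intro h hh
        rw [← Real.sqrt_sq (norm_nonneg (hh.toLp h)), ← real_inner_self_eq_norm_sq, inner_toLp]
        congr 1
        refine integral_congr_ae (Eventually.of_forall fun z => ?_)
        simp only
        ring
      have h4 := norm_add_le (hmf.toLp f) ((hm.sub hmf).toLp _)
      have h5 : hmf.toLp f + (hm.sub hmf).toLp _ = hm.toLp _ := by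
        rw [MemLp.toLp_sub hm hmf]; abel
      rw [h5, key2, key2, key2] at h4
      exact h4.trans (add_le_add le_rfl h1)
    have h6 := integral_mul_mLap (n := n) (hφ.of_le two_le_inf)
      (hf.of_le (by simp) : ContMDiff (𝓡 n) 𝓘(ℝ) 1 f)
    have h7 : A ^ 2 = - ∫ z, mGam n φ f z ∂(μHE[n] : Measure M) -
        ∫ z, f z * (mLap n φ z - f z) ∂(μHE[n] : Measure M) := by
      have i1 : Integrable (fun z => f z * mLap n φ z) (μHE[n] : Measure M) :=
        integrable_cont (n := n) (hf.continuous.mul hcL)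
      have i2 : Integrable (fun z => f z * (mLap n φ z - f z)) (μHE[n] : Measure M) :=
        integrable_cont (n := n) (hf.continuous.mul hcd)
      rw [hA2, ← h6, ← integral_sub i1 i2]
      refine integral_congr_ae (Eventually.of_forall fun z => ?_)
      simp only
      ring
    have h8 : |∫ z, mGam n φ f z ∂(μHE[n] : Measure M)| ≤ D * B :=
      abs_integral_mGam_le (n := n) (hφ.of_le (by simp)) (hf.of_le (by simp))
    have h9 := abs_integral_mul_le (n := n) hf.continuous hcd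
    have h10 : |∫ z, f z * (mLap n φ z - f z) ∂(μHE[n] : Measure M)| ≤ A * δ :=
      h9.trans (mul_le_mul_of_nonneg_left h1 hA0)
    have h11 : A ^ 2 ≤ D * B + A * δ := by
      have := (abs_le.1 h8).1
      have := (abs_le.1 h10).1
      linarith
    calc √a * A ^ 2 ≤ √a * (D * B + A * δ) := mul_le_mul_of_nonneg_left h11 hsa.le
      _ = (√a * D) * B + √a * A * δ := by ring
      _ ≤ (A + δ) * B + √a * A * δ := by
          have := mul_le_mul_of_nonneg_right (h2.trans h3) hB0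
          linarith
      _ = _ := by ring
  have hlim : √a * A ^ 2 ≤ B * A := by
    refine le_of_forall_pos_le_add fun ε hε => ?_
    have hk : 0 < B + √a * A + 1 := by positivity
    have h1 := key (ε / (B + √a * A + 1)) (by positivity)
    have h2 : (B + √a * A) * (ε / (B + √a * A + 1)) ≤ ε := by
      rw [mul_div_assoc', div_le_iff₀ hk]
      nlinarith
    calc √a * A ^ 2 ≤ _ := h1
      _ = B * A + (B + √a * A) * (ε / (B + √a * A + 1)) := by ring
      _ ≤ _ := by linarith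
  have h12 : √a * A ≤ B := by
    rcases hA0.eq_or_lt with h | h
    · rw [← h, mul_zero]; exact hB0
    · have : A * (√a * A) ≤ A * B := by nlinarith
      exact le_of_mul_le_mul_left this h
  calc a * A ^ 2 = (√a * A) ^ 2 := by rw [mul_pow, hsa2]
    _ ≤ B ^ 2 := pow_le_pow_left₀ (by positivity) h12 2

/-- `∫ (mLap φ)² ≥ (n/(n-1)) K ∫ |dφ|²` if `Ric ≥ K` -/
theorem integral_mGam_le_of_ricci {K : ℝ} (hK : HasRicciLowerBound n M K) (hn : 0 < n)
    {φ : M → ℝ} (hφ : ContMDiff (𝓡 n) 𝓘(ℝ) ∞ φ) :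
    (n : ℝ) * K * ∫ z, mGam n φ φ z ∂(μHE[n] : Measure M) ≤
      ((n : ℝ) - 1) * ∫ z, mLap n φ z ^ 2 ∂(μHE[n] : Measure M) := by
  have h1 := integral_mHessSq_le (n := n) hK hφ
  have hn' : (0 : ℝ) < n := by exact_mod_cast hn
  have hφ2 := hφ.of_le two_le_inf
  have h2 : ∫ z, mLap n φ z ^ 2 ∂(μHE[n] : Measure M) ≤
      n * ∫ z, mHessSq n φ z ∂(μHE[n] : Measure M) := by
    rw [← integral_const_mul]
    exact integral_mono (integrable_cont (n := n) ((contMDiff_mLap hφ).continuous.pow 2))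
      ((integrable_cont (n := n) (continuous_mHessSq hφ2)).const_mul _)
      fun z => mLap_sq_le (hφ2 z)
  nlinarith

end Closed

end Crest.Agent.R249.Grn324
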