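import Crest.Agent.R249.SobD_982
import Crest.Agent.R247.Ar3_659
import Crest.Agent.R247.Bs1_84
import Crest.Agent.R247.Bgr3_546

/-!
# R249 (D3-LIM / L-PO): the Poincaré inequalities of `SobD_982` in the template classes

For a complete connected Riemannian manifold `M` (template instances, any `n`, no compactness)
with `Ric ≥ -κ` and `f : M → ℝ` of class `C¹`; `B = ball x₀ s`, `2B = ball x₀ (2s)`,
`E = exp (2 κ s²) 2ⁿ`:

* `LG_Gr`, `LG_mGam` : `LG f (fun y => ‖Gr f y‖)`, `LG f (fun y => √(mGam n f f y))`;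
* `l_po`, `l_po_two` : `∫_B ∫_B |f y - f z|^p ≤ (4s resp. 8s²) E μ(B) ∫_{2B} |grad f|^p`
  (`p = 1, 2`) in `ℝ≥0∞`; `l_po_real`, `l_po_two_real` the same with real integrals;
* `poinc`, `poinc_sq`, `poinc_real`, `poinc_sq_real` :
  `∫_B |f - f_B|^p ≤ (4s resp. 8s²) E ∫_{2B} |grad f|^p`.

`|grad f|` is written `√(mGam n f f y)`, `|grad f|²` is `mGam n f f y`
(`norm_Gr_sqrt : ‖Gr f z‖ = √(mGam n f f z)`).
-/

set_option autoImplicit false
set_option maxSynthPendingDepth 3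
set_option linter.unusedSectionVars false
noncomputable section
open Set Filter Topology MeasureTheory Metric
open scoped ContDiff Manifold ENNReal NNReal
open Bundle Crest.GeometryTopology.CoordMetric Crest.GeometryTopology.ChartCurvature
  Crest.GeometryTopology.PointedLimit

namespace Crest.Agent.R249.LPO_897

open Crest.Agent.R247.Mcp688 Crest.Agent.R247.Ms322 Crest.Agent.R247
open Crest.Agent.R249.SobA_982 Crest.Agent.R249.SobD_982

variable {n : ℕ} {M : Type*} [MetricSpace M] [ChartedSpace (EuclideanSpace ℝ (Fin n)) M]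
  [IsManifold (𝓡 n) ∞ M]
  [RiemannianBundle (fun p : M => TangentSpace (𝓡 n) p)]
  [IsContMDiffRiemannianBundle (𝓡 n) ∞ (EuclideanSpace ℝ (Fin n))
    (fun p : M => TangentSpace (𝓡 n) p)]

theorem continuous_mGam {f : M → ℝ} (hf : ContMDiff (𝓡 n) 𝓘(ℝ) 1 f) :
    Continuous (Bo84.mGam n f f) := by
  rw [continuous_iff_continuousAt]
  intro z
  exact (Bo84.contMDiffAt_mGam (m := 0) (hf z) (hf z) (by simp)
    (by exact_mod_cast le_top)).continuousAt

section LG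
variable [SecondCountableTopology M] [Nonempty M] [IsRiemannianManifold (𝓡 n) M]

theorem norm_Gr_sqrt (f : M → ℝ) (z : M) : ‖Gr (n := n) f z‖ = √(Bo84.mGam n f f z) := by
  rw [← Bs84.norm_Gr_sq_eq, Real.sqrt_sq (norm_nonneg _)]

theorem mGam_nonneg (f : M → ℝ) (z : M) : 0 ≤ Bo84.mGam n f f z := by
  rw [← Bs84.norm_Gr_sq_eq]; positivity

theorem LG_mGam {f : M → ℝ} (hf : ContMDiff (𝓡 n) 𝓘(ℝ) 1 f) :
    LG f (fun y => √(Bo84.mGam n f f y)) where
  contG := (continuous_mGam hf).sqrt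
  nonneg y := Real.sqrt_nonneg _
  lip y ε hε := by
    have h := Ar659.ev_le (n := n) ((hf y).mdifferentiableAt (by norm_num)) hε
    rw [norm_Gr_sqrt] at h
    exact h

theorem LG_Gr {f : M → ℝ} (hf : ContMDiff (𝓡 n) 𝓘(ℝ) 1 f) :
    LG f (fun y => ‖Gr (n := n) f y‖) :=
  (LG_mGam hf).congr (fun _ => rfl) fun y => norm_Gr_sqrt f y

end LG

section main
variable [IsRiemannianManifold (𝓡 n) M] [CompleteSpace M] [ConnectedSpace M]
  [MeasurableSpace M] [BorelSpace M]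

theorem rad_of {κ : ℝ} (hκ : 0 ≤ κ) (hric : HasRicciLowerBound n M (-κ)) :
    Nonempty (Rad n κ M (μHE[n] : Measure M)) := Bgr546.rad_all n κ hκ M hric

variable {κ : ℝ} {f : M → ℝ}

/-- **L-PO** : double integral form of the `L¹` Poincaré inequality. -/
theorem l_po (hκ : 0 ≤ κ) (hric : HasRicciLowerBound n M (-κ))
    (hf : ContMDiff (𝓡 n) 𝓘(ℝ) 1 f) (x₀ : M) {s : ℝ} (hs : 0 < s) :
    ∫⁻ y in ball x₀ s, ∫⁻ z in ball x₀ s, ENNReal.ofReal |f y - f z| ∂μHE[n] ∂μHE[n] ≤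
      ENNReal.ofReal (4 * s * (Real.exp (2 * κ * s ^ 2) * 2 ^ n)) *
        (μHE[n] : Measure M) (ball x₀ s) *
        ∫⁻ y in ball x₀ (2 * s), ENNReal.ofReal (√(Bo84.mGam n f f y)) ∂μHE[n] := by
  obtain ⟨C⟩ := rad_of hκ hric
  have := HR216.properSpace_of_riemannian n M
  have := isLocallyFinite_muHE n M
  exact dbl_one C hκ (LG_mGam hf) x₀ hs

/-- **L-PO**, exponent two. -/
theorem l_po_two (hκ : 0 ≤ κ) (hric : HasRicciLowerBound n M (-κ))
    (hf : ContMDiff (𝓡 n) 𝓘(ℝ) 1 f) (x₀ : M) {s : ℝ} (hs : 0 < s) :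
    ∫⁻ y in ball x₀ s, ∫⁻ z in ball x₀ s, ENNReal.ofReal ((f y - f z) ^ 2) ∂μHE[n] ∂μHE[n] ≤
      ENNReal.ofReal (8 * s ^ 2 * (Real.exp (2 * κ * s ^ 2) * 2 ^ n)) *
        (μHE[n] : Measure M) (ball x₀ s) *
        ∫⁻ y in ball x₀ (2 * s), ENNReal.ofReal (Bo84.mGam n f f y) ∂μHE[n] := by
  obtain ⟨C⟩ := rad_of hκ hric
  have := HR216.properSpace_of_riemannian n M
  have := isLocallyFinite_muHE n M
  have h := dbl_two C hκ (LG_mGam hf) x₀ hs
  simpa only [Real.sq_sqrt (mGam_nonneg (n := n) f _)] using h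

omit [ConnectedSpace M] in
variable (n) in
theorem ball_ne_top (x₀ : M) (s : ℝ) : (μHE[n] : Measure M) (ball x₀ s) ≠ ⊤ := by
  have := HR216.properSpace_of_riemannian n M
  have := isLocallyFinite_muHE n M
  exact measure_ball_lt_top.ne

omit [ConnectedSpace M] in
theorem integrableOn_ball {g : M → ℝ} (hg : Continuous g) (x₀ : M) (s : ℝ) :
    IntegrableOn g (ball x₀ s) (μHE[n] : Measure M) := by
  have := HR216.properSpace_of_riemannian n M
  have := isLocallyFinite_muHE n M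
  exact (hg.continuousOn.integrableOn_compact (isCompact_closedBall x₀ s)).mono_set
    ball_subset_closedBall

omit [ConnectedSpace M] in
/-- a double integral over a ball, in `ℝ≥0∞` -/
theorem ofReal_dbl {F : M → M → ℝ} (hF : Continuous fun p : M × M => F p.1 p.2)
    (h0 : ∀ y z, 0 ≤ F y z) (x₀ : M) (s : ℝ) :
    ENNReal.ofReal (∫ y in ball x₀ s, ∫ z in ball x₀ s, F y z ∂μHE[n] ∂μHE[n]) =
      ∫⁻ y in ball x₀ s, ∫⁻ z in ball x₀ s, ENNReal.ofReal (F y z) ∂μHE[n] ∂μHE[n] := by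
  have := HR216.properSpace_of_riemannian n M
  have := isLocallyFinite_muHE n M
  set μ : Measure M := μHE[n] with hμ
  set B := ball x₀ s with hB
  have hI : Integrable (fun p : M × M => F p.1 p.2) ((μ.restrict B).prod (μ.restrict B)) := by
    rw [Measure.prod_restrict]
    exact (hF.continuousOn.integrableOn_compact
      ((isCompact_closedBall x₀ s).prod (isCompact_closedBall x₀ s))).mono_set
      (prod_mono ball_subset_closedBall ball_subset_closedBall)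
  rw [ofReal_integral_eq_lintegral_ofReal hI.integral_prod_left
    (Eventually.of_forall fun y => integral_nonneg (h0 y))]
  refine lintegral_congr fun y => ?_
  refine ofReal_integral_eq_lintegral_ofReal ?_ (Eventually.of_forall (h0 y))
  exact integrableOn_ball (hF.comp (Continuous.prodMk continuous_const continuous_id)) x₀ s

omit [ConnectedSpace M] in
theorem ofReal_sgl {g : M → ℝ} (hg : Continuous g) (h0 : ∀ y, 0 ≤ g y) (x₀ : M) (s : ℝ) :
    ENNReal.ofReal (∫ y in ball x₀ s, g y ∂μHE[n]) =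
      ∫⁻ y in ball x₀ s, ENNReal.ofReal (g y) ∂μHE[n] :=
  ofReal_integral_eq_lintegral_ofReal (integrableOn_ball hg x₀ s) (Eventually.of_forall h0)

theorem l_po_real (hκ : 0 ≤ κ) (hric : HasRicciLowerBound n M (-κ))
    (hf : ContMDiff (𝓡 n) 𝓘(ℝ) 1 f) (x₀ : M) {s : ℝ} (hs : 0 < s) :
    ∫ y in ball x₀ s, ∫ z in ball x₀ s, |f y - f z| ∂μHE[n] ∂μHE[n] ≤
      4 * s * (Real.exp (2 * κ * s ^ 2) * 2 ^ n) *
        (μHE[n] : Measure M).real (ball x₀ s) *
        ∫ y in ball x₀ (2 * s), √(Bo84.mGam n f f y) ∂μHE[n] := by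
  have h := l_po hκ hric hf x₀ hs
  have hc := hf.continuous
  rw [← ofReal_dbl (F := fun y z => |f y - f z|)
      ((hc.comp continuous_fst).sub (hc.comp continuous_snd)).abs (fun _ _ => abs_nonneg _),
    ← ofReal_sgl (continuous_mGam hf).sqrt (fun _ => Real.sqrt_nonneg _),
    ← ENNReal.ofReal_toReal (ball_ne_top n x₀ s), ← ENNReal.ofReal_mul (by positivity),
    ← ENNReal.ofReal_mul (by positivity)] at h
  refine (ENNReal.ofReal_le_ofReal_iff ?_).1 h
  have : 0 ≤ ∫ y in ball x₀ (2 * s), √(Bo84.mGam n f f y) ∂μHE[n] :=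
    integral_nonneg fun _ => Real.sqrt_nonneg _
  positivity

theorem l_po_two_real (hκ : 0 ≤ κ) (hric : HasRicciLowerBound n M (-κ))
    (hf : ContMDiff (𝓡 n) 𝓘(ℝ) 1 f) (x₀ : M) {s : ℝ} (hs : 0 < s) :
    ∫ y in ball x₀ s, ∫ z in ball x₀ s, (f y - f z) ^ 2 ∂μHE[n] ∂μHE[n] ≤
      8 * s ^ 2 * (Real.exp (2 * κ * s ^ 2) * 2 ^ n) *
        (μHE[n] : Measure M).real (ball x₀ s) *
        ∫ y in ball x₀ (2 * s), Bo84.mGam n f f y ∂μHE[n] := by
  have := HR216.properSpace_of_riemannian n M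
  have h := l_po_two hκ hric hf x₀ hs
  have hc := hf.continuous
  rw [← ofReal_dbl (F := fun y z => (f y - f z) ^ 2)
      (((hc.comp continuous_fst).sub (hc.comp continuous_snd)).pow 2) (fun _ _ => sq_nonneg _),
    ← ofReal_sgl (continuous_mGam hf) (mGam_nonneg (n := n) f),
    ← ENNReal.ofReal_toReal (ball_ne_top n x₀ s), ← ENNReal.ofReal_mul (by positivity),
    ← ENNReal.ofReal_mul (by positivity)] at h
  refine (ENNReal.ofReal_le_ofReal_iff ?_).1 h
  have : 0 ≤ ∫ y in ball x₀ (2 * s), Bo84.mGam n f f y ∂μHE[n] :=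
    integral_nonneg (mGam_nonneg (n := n) f)
  positivity

/-- **Neumann–Poincaré inequality**, exponent one. -/
theorem poinc (hκ : 0 ≤ κ) (hric : HasRicciLowerBound n M (-κ))
    (hf : ContMDiff (𝓡 n) 𝓘(ℝ) 1 f) (x₀ : M) {s : ℝ} (hs : 0 < s) :
    ∫⁻ y in ball x₀ s, ENNReal.ofReal |f y - ⨍ z in ball x₀ s, f z ∂μHE[n]| ∂μHE[n] ≤
      ENNReal.ofReal (4 * s * (Real.exp (2 * κ * s ^ 2) * 2 ^ n)) *
        ∫⁻ y in ball x₀ (2 * s), ENNReal.ofReal (√(Bo84.mGam n f f y)) ∂μHE[n] := by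
  obtain ⟨C⟩ := rad_of hκ hric
  have := HR216.properSpace_of_riemannian n M
  have := isLocallyFinite_muHE n M
  exact poinc_one C hκ (LG_mGam hf) x₀ hs (ball_ne_top n x₀ s)
    (integrableOn_ball hf.continuous x₀ s)

/-- **Neumann–Poincaré inequality**, exponent two. -/
theorem poinc_sq (hκ : 0 ≤ κ) (hric : HasRicciLowerBound n M (-κ))
    (hf : ContMDiff (𝓡 n) 𝓘(ℝ) 1 f) (x₀ : M) {s : ℝ} (hs : 0 < s) :
    ∫⁻ y in ball x₀ s, ENNReal.ofReal ((f y - ⨍ z in ball x₀ s, f z ∂μHE[n]) ^ 2) ∂μHE[n] ≤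
      ENNReal.ofReal (8 * s ^ 2 * (Real.exp (2 * κ * s ^ 2) * 2 ^ n)) *
        ∫⁻ y in ball x₀ (2 * s), ENNReal.ofReal (Bo84.mGam n f f y) ∂μHE[n] := by
  obtain ⟨C⟩ := rad_of hκ hric
  have := HR216.properSpace_of_riemannian n M
  have := isLocallyFinite_muHE n M
  have h := poinc_two C hκ (LG_mGam hf) x₀ hs (ball_ne_top n x₀ s)
    (integrableOn_ball hf.continuous x₀ s) (integrableOn_ball (hf.continuous.pow 2) x₀ s)
  simpa only [Real.sq_sqrt (mGam_nonneg (n := n) f _)] using h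

theorem poinc_real (hκ : 0 ≤ κ) (hric : HasRicciLowerBound n M (-κ))
    (hf : ContMDiff (𝓡 n) 𝓘(ℝ) 1 f) (x₀ : M) {s : ℝ} (hs : 0 < s) :
    ∫ y in ball x₀ s, |f y - ⨍ z in ball x₀ s, f z ∂μHE[n]| ∂μHE[n] ≤
      4 * s * (Real.exp (2 * κ * s ^ 2) * 2 ^ n) *
        ∫ y in ball x₀ (2 * s), √(Bo84.mGam n f f y) ∂μHE[n] := by
  have h := poinc hκ hric hf x₀ hs
  rw [← ofReal_sgl (g := fun y => |f y - ⨍ z in ball x₀ s, f z ∂μHE[n]|)
      (hf.continuous.sub continuous_const).abs (fun _ => abs_nonneg _),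
    ← ofReal_sgl (continuous_mGam hf).sqrt (fun _ => Real.sqrt_nonneg _),
    ← ENNReal.ofReal_mul (by positivity)] at h
  refine (ENNReal.ofReal_le_ofReal_iff ?_).1 h
  have : 0 ≤ ∫ y in ball x₀ (2 * s), √(Bo84.mGam n f f y) ∂μHE[n] :=
    integral_nonneg fun _ => Real.sqrt_nonneg _
  positivity

theorem poinc_sq_real (hκ : 0 ≤ κ) (hric : HasRicciLowerBound n M (-κ))
    (hf : ContMDiff (𝓡 n) 𝓘(ℝ) 1 f) (x₀ : M) {s : ℝ} (hs : 0 < s) :
    ∫ y in ball x₀ s, (f y - ⨍ z in ball x₀ s, f z ∂μHE[n]) ^ 2 ∂μHE[n] ≤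
      8 * s ^ 2 * (Real.exp (2 * κ * s ^ 2) * 2 ^ n) *
        ∫ y in ball x₀ (2 * s), Bo84.mGam n f f y ∂μHE[n] := by
  have := HR216.properSpace_of_riemannian n M
  have h := poinc_sq hκ hric hf x₀ hs
  rw [← ofReal_sgl (g := fun y => (f y - ⨍ z in ball x₀ s, f z ∂μHE[n]) ^ 2)
      ((hf.continuous.sub continuous_const).pow 2) (fun _ => sq_nonneg _),
    ← ofReal_sgl (continuous_mGam hf) (mGam_nonneg (n := n) f),
    ← ENNReal.ofReal_mul (by positivity)] at h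
  refine (ENNReal.ofReal_le_ofReal_iff ?_).1 h
  have : 0 ≤ ∫ y in ball x₀ (2 * s), Bo84.mGam n f f y ∂μHE[n] :=
    integral_nonneg (mGam_nonneg (n := n) f)
  positivity

end main

end Crest.Agent.R249.LPO_897
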