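import Crest.Agent.R249.Grn5_324
import Crest.Agent.R249.LPO_897
import Crest.Agent.R247.Bs3_84

/-!
# R249 (helper324), PDE layer, file 10: Poincaré and the Poisson equation on closed `M`

* `exists_ricciLowerBound`: a closed manifold has `Ric ≥ -κ` for some `κ ≥ 0`;
* `poincare_closed`, `exists_poincare`: `∫ f = 0` ⇒ `∫ f² ≤ C ∫ |df|²`;
* `lichnerowicz`: `Ric ≥ K > 0`: `n K ∫ f² ≤ (n-1) ∫ |df|²` if `∫ f = 0`;
* `exists_poisson`: `∫ g = 0` ⇒ `mLap u = g` has a smooth solution with `∫ u = 0` (unique: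
  `unique_poisson`).
-/

set_option autoImplicit false
set_option maxSynthPendingDepth 3
set_option linter.unusedSectionVars false

open Bundle Set MeasureTheory Manifold Filter Metric
open scoped ContDiff Topology NNReal
open Crest.GeometryTopology.CoordMetric Crest.GeometryTopology.ChartCurvature
  Crest.GeometryTopology.PointedLimit
open Crest.Agent.R247.Bo84
open Crest.Agent.R247.Ms322 hiding isRiemannianOn_chartMetric

noncomputable section

namespace Crest.Agent.R249.Grn324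

variable {n : ℕ} {M : Type*} [MetricSpace M] [ChartedSpace (EuclideanSpace ℝ (Fin n)) M]
  [IsManifold (𝓡 n) ∞ M]
  [RiemannianBundle (fun p : M => TangentSpace (𝓡 n) p)]
  [IsContMDiffRiemannianBundle (𝓡 n) ∞ (EuclideanSpace ℝ (Fin n)) (fun p : M => TangentSpace (𝓡 n) p)]
  [IsRiemannianManifold (𝓡 n) M] [MeasurableSpace M] [BorelSpace M] [CompactSpace M]

local notation "𝔼" => EuclideanSpace ℝ (Fin n)

theorem vf_surj [Nonempty M] (z : M) (V : TangentSpace (𝓡 n) z) :
    ∃ w : EuclideanSpace ℝ (Fin n), Crest.Agent.R247.Ib939.vf z w = V :=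
  ⟨WithLp.toLp 2 fun j => inner ℝ V (fr z j),
    (mgrad_frame (Crest.Agent.R247.Ib939.fr_orth z) V).symm⟩

variable (n M) in
/-- a closed manifold has a lower Ricci bound -/
theorem exists_ricciLowerBound : ∃ κ : ℝ, 0 ≤ κ ∧ HasRicciLowerBound n M (-κ) := by
  have := secondCountable M
  rcases isEmpty_or_nonempty M with hM | hM
  · exact ⟨0, le_rfl, fun x => (hM.false x).elim⟩
  obtain ⟨C, hC⟩ := Crest.Agent.R247.Bs84.Ricf_bdd (n := n) (M := M) isCompact_univ
  have hC0 : 0 ≤ C := (norm_nonneg _).trans (hC (Classical.arbitrary M) (mem_univ _))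
  refine ⟨C, hC0, fun x v => ?_⟩
  have hc := centre_mem (n := n) x
  -- the tangent vector with coordinates `v`
  set V : TangentSpace (𝓡 n) x := dSy x (chartCentre n M x) v with hV
  have h1 : dCh x x V = v := by
    have h2 := dCh_dSy x hc v
    have h3 : (chartAt 𝔼 x).symm (chartCentre n M x) = x :=
      (chartAt 𝔼 x).left_inv (mem_chart_source 𝔼 x)
    rw [h3] at h2
    exact h2
  obtain ⟨w, hw⟩ := vf_surj x V
  have h4 : mRic n x V V = ∑ i, ∑ j, ricci (chartMetric n M x) (chartCentre n M x) i j * v i * v j :=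
    by rw [mRic, h1]
  have h5 : quadForm (chartMetric n M x) (chartCentre n M x) v = ‖V‖ ^ 2 := by
    rw [Crest.Agent.R202.Tens.quadForm_eq, ← real_inner_self_eq_norm_sq, inner_centre, h1]
  rw [← h4, h5, ← hw, Crest.Agent.R247.Ib939.norm_vf, ← Crest.Agent.R247.Ib939.inner_mv_Rf]
  have h6 := abs_real_inner_le_norm (Crest.Agent.R247.Hes124.mv
    (Crest.Agent.R247.Ib939.Rf (n := n) x) w) w
  have h7 := Crest.Agent.R247.Hes124.norm_mv_le (Crest.Agent.R247.Ib939.Rf (n := n) x) w
  have h8 : ‖Crest.Agent.R247.Ib939.Rf (n := n) x‖ ≤ C := hC x (mem_univ _)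
  have h9 := (abs_le.1 h6).1
  have h10 : ‖Crest.Agent.R247.Hes124.mv (Crest.Agent.R247.Ib939.Rf (n := n) x) w‖ * ‖w‖ ≤
      C * ‖w‖ ^ 2 := by
    calc _ ≤ (‖Crest.Agent.R247.Ib939.Rf (n := n) x‖ * ‖w‖) * ‖w‖ := by gcongr
      _ ≤ (C * ‖w‖) * ‖w‖ := by gcongr
      _ = _ := by ring
  linarith

/-- **Lichnerowicz**: the first eigenvalue for `Ric ≥ K > 0`. -/
theorem lichnerowicz [PreconnectedSpace M] (hn : 2 ≤ n) {K : ℝ} (hK0 : 0 < K)
    (hK : HasRicciLowerBound n M K) {f : M → ℝ} (hf : ContMDiff (𝓡 n) 𝓘(ℝ) ∞ f)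
    (h0 : ∫ z, f z ∂(μHE[n] : Measure M) = 0) :
    (n : ℝ) * K * ∫ z, f z ^ 2 ∂(μHE[n] : Measure M) ≤
      ((n : ℝ) - 1) * ∫ z, mGam n f f z ∂(μHE[n] : Measure M) := by
  have hn1 : (0 : ℝ) < (n : ℝ) - 1 := by
    have : (2 : ℝ) ≤ n := by exact_mod_cast hn
    linarith
  have hn0 : (0 : ℝ) < n := by linarith
  have h1 := poincare_of_dual (n := n) (a := n * K / ((n : ℝ) - 1)) (by positivity)
    (fun φ hφ => by
      have h2 := integral_mGam_le_of_ricci hK (by omega) hφ
      rw [div_mul_eq_mul_div, div_le_iff₀ hn1]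
      linarith) hf h0
  rw [div_mul_eq_mul_div, div_le_iff₀ hn1] at h1
  linarith

/-- the mean value -/
theorem integral_sub_mean {f : M → ℝ} (hf : Continuous f) :
    ∫ z, (f z - ⨍ y, f y ∂(μHE[n] : Measure M)) ∂(μHE[n] : Measure M) = 0 := by
  have hfin := isFiniteMeasure n M
  rcases isEmpty_or_nonempty M with hM | hM
  · simp [Measure.eq_zero_of_isEmpty]
  have := secondCountable M
  have hopen := isOpenPosMeasure n M
  rw [integral_sub (integrable_cont (n := n) hf) (integrable_const _), integral_const,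
    average_eq, smul_smul, mul_inv_cancel₀, one_smul, sub_self]
  have : 0 < (μHE[n] : Measure M) univ := isOpen_univ.measure_pos _ univ_nonempty
  exact (ENNReal.toReal_pos this.ne' (measure_ne_top _ _)).ne'

/-- **the Poincaré inequality on a closed connected manifold.** -/
theorem poincare_closed [ConnectedSpace M] {κ : ℝ} (hκ : 0 ≤ κ)
    (hric : HasRicciLowerBound n M (-κ)) {s : ℝ} (hs : diam (univ : Set M) < s)
    {f : M → ℝ} (hf : ContMDiff (𝓡 n) 𝓘(ℝ) 1 f) (h0 : ∫ z, f z ∂(μHE[n] : Measure M) = 0) :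
    ∫ z, f z ^ 2 ∂(μHE[n] : Measure M) ≤
      8 * s ^ 2 * (Real.exp (2 * κ * s ^ 2) * 2 ^ n) * ∫ z, mGam n f f z ∂(μHE[n] : Measure M) := by
  obtain ⟨x₀⟩ := (inferInstance : Nonempty M)
  have hs0 : 0 < s := diam_nonneg.trans_lt hs
  have hball : ∀ r, s ≤ r → ball x₀ r = univ := by
    intro r hr
    refine eq_univ_of_forall fun y => ?_
    rw [mem_ball]
    exact ((dist_le_diam_of_mem isCompact_univ.isBounded (mem_univ y) (mem_univ x₀)).trans_lt
      hs).trans_le hr
  have h1 := LPO_897.poinc_sq_real (n := n) hκ hric hf x₀ hs0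
  rw [hball s le_rfl, hball (2 * s) (by linarith), Measure.restrict_univ] at h1
  have h2 : ⨍ z, f z ∂(μHE[n] : Measure M) = 0 := by rw [average_eq, h0, smul_zero]
  simpa only [h2, sub_zero] using h1

variable (n M) in
/-- a closed connected manifold has a Poincaré constant -/
theorem exists_poincare [ConnectedSpace M] : ∃ C : ℝ, 0 < C ∧
    ∀ f : M → ℝ, ContMDiff (𝓡 n) 𝓘(ℝ) 1 f → ∫ z, f z ∂(μHE[n] : Measure M) = 0 →
      ∫ z, f z ^ 2 ∂(μHE[n] : Measure M) ≤ C * ∫ z, mGam n f f z ∂(μHE[n] : Measure M) := by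
  obtain ⟨κ, hκ, hric⟩ := exists_ricciLowerBound n M
  refine ⟨8 * (diam (univ : Set M) + 1) ^ 2 *
    (Real.exp (2 * κ * (diam (univ : Set M) + 1) ^ 2) * 2 ^ n), ?_, fun f hf h0 =>
      poincare_closed hκ hric (lt_add_one _) hf h0⟩
  have : 0 ≤ diam (univ : Set M) := diam_nonneg
  positivity

/-- **the Poisson equation from a Poincaré inequality.** -/
theorem exists_poisson_of_poincare [ConnectedSpace M] {C : ℝ} (hC : 0 < C)
    (hP : ∀ f : M → ℝ, ContMDiff (𝓡 n) 𝓘(ℝ) 1 f → ∫ z, f z ∂(μHE[n] : Measure M) = 0 →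
      ∫ z, f z ^ 2 ∂(μHE[n] : Measure M) ≤ C * ∫ z, mGam n f f z ∂(μHE[n] : Measure M))
    {g : M → ℝ} (hg : ContMDiff (𝓡 n) 𝓘(ℝ) ∞ g) (h0 : ∫ z, g z ∂(μHE[n] : Measure M) = 0) :
    ∃ u : M → ℝ, ContMDiff (𝓡 n) 𝓘(ℝ) ∞ u ∧ (∀ p, mLap n u p = g p) ∧
      ∫ z, u z ∂(μHE[n] : Measure M) = 0 := by
  have hfin := isFiniteMeasure n M
  obtain ⟨u, hu, hw⟩ := exists_weak_of_apriori (n := n) (q := fun _ => 0) continuous_const
    hg.continuous (C := √(∫ z, g z ^ 2 ∂(μHE[n] : Measure M)) * C) (fun φ hφ => by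
      set m := ⨍ y, φ y ∂(μHE[n] : Measure M) with hm
      have hφ0 : ContMDiff (𝓡 n) 𝓘(ℝ) ∞ fun z => φ z - m := hφ.sub contMDiff_const
      have hi0 : ∫ z, (φ z - m) ∂(μHE[n] : Measure M) = 0 := integral_sub_mean hφ.continuous
      have e1 : ∀ z, mLap n (fun z => φ z - m) z = mLap n φ z := by
        intro z
        have h1 : mLap n (fun z => φ z - (fun _ => m) z) z = mLap n φ z - mLap n (fun _ => m) z :=
          mLap_sub ((hφ z).of_le two_le_inf) contMDiffAt_const
        rw [mLap_const, sub_zero] at h1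
        exact h1
      have h1 : ∫ z, g z * φ z ∂(μHE[n] : Measure M) =
          ∫ z, g z * (φ z - m) ∂(μHE[n] : Measure M) := by
        have i1 : Integrable (fun z => g z * φ z) (μHE[n] : Measure M) :=
          integrable_cont (n := n) (hg.continuous.mul hφ.continuous)
        have i2 : Integrable (fun z => g z * m) (μHE[n] : Measure M) :=
          integrable_cont (n := n) (hg.continuous.mul continuous_const)
        have h2 : ∫ z, g z * (φ z - m) ∂(μHE[n] : Measure M) =
            ∫ z, (g z * φ z - g z * m) ∂(μHE[n] : Measure M) := by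
          refine integral_congr_ae (Eventually.of_forall fun z => ?_)
          simp only
          ring
        rw [h2, integral_sub i1 i2, integral_mul_const, h0, zero_mul, sub_zero]
      have h2 := abs_integral_mul_le (n := n) hg.continuous hφ0.continuous
      have h3 := hP _ (hφ0.of_le (by simp)) hi0
      have h4 := integral_mul_mLap (n := n) (hφ0.of_le two_le_inf)
        (hφ0.of_le (by simp) : ContMDiff (𝓡 n) 𝓘(ℝ) 1 _)
      have hcL : Continuous fun z => mLap n φ z - 0 * φ z := continuous_op (n := n) continuous_const hφ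
      have h5 := abs_integral_mul_le (n := n) hφ0.continuous hcL
      simp only [e1] at h4
      have h6 : ∫ z, (φ z - m) * (mLap n φ z - 0 * φ z) ∂(μHE[n] : Measure M) =
          - ∫ z, mGam n (fun z => φ z - m) (fun z => φ z - m) z ∂(μHE[n] : Measure M) := by
        rw [← h4]
        refine integral_congr_ae (Eventually.of_forall fun z => ?_)
        simp only
        ring
      rw [h6, abs_neg] at h5
      set A := √(∫ z, (φ z - m) ^ 2 ∂(μHE[n] : Measure M)) with hA
      set B := √(∫ z, (mLap n φ z - 0 * φ z) ^ 2 ∂(μHE[n] : Measure M)) with hB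
      have hA0 : 0 ≤ A := Real.sqrt_nonneg _
      have hB0 : 0 ≤ B := Real.sqrt_nonneg _
      have hA2 : A ^ 2 = ∫ z, (φ z - m) ^ 2 ∂(μHE[n] : Measure M) :=
        sq_sqrt_integral fun z => sq_nonneg _
      have h7 : A ^ 2 ≤ C * (A * B) := by
        rw [hA2]
        exact h3.trans (mul_le_mul_of_nonneg_left ((le_abs_self _).trans h5) hC.le)
      have h8 : A ≤ C * B := by
        rcases hA0.eq_or_lt with h | h
        · rw [← h]; positivity
        · have : A * A ≤ A * (C * B) := by nlinarith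
          exact le_of_mul_le_mul_left this h
      rw [h1]
      calc _ ≤ √(∫ z, g z ^ 2 ∂(μHE[n] : Measure M)) * A := h2
        _ ≤ √(∫ z, g z ^ 2 ∂(μHE[n] : Measure M)) * (C * B) := by gcongr
        _ = _ := by ring)
  obtain ⟨v, hv, -, hve⟩ := weak_regularity0 (n := n) (hu.integrable (by norm_num)) hg
    (fun φ hφ => by simpa using hw φ hφ)
  refine ⟨fun z => v z - ⨍ y, v y ∂(μHE[n] : Measure M), hv.sub contMDiff_const, fun p => ?_,
    integral_sub_mean hv.continuous⟩
  have h1 : mLap n (fun z => v z - (fun _ => ⨍ y, v y ∂(μHE[n] : Measure M)) z) p =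
      mLap n v p - mLap n (fun _ => ⨍ y, v y ∂(μHE[n] : Measure M)) p :=
    mLap_sub ((hv p).of_le two_le_inf) contMDiffAt_const
  rw [mLap_const, sub_zero, hve] at h1
  exact h1

/-- **the Poisson equation on a closed connected manifold.** -/
theorem exists_poisson [ConnectedSpace M] {g : M → ℝ} (hg : ContMDiff (𝓡 n) 𝓘(ℝ) ∞ g)
    (h0 : ∫ z, g z ∂(μHE[n] : Measure M) = 0) :
    ∃ u : M → ℝ, ContMDiff (𝓡 n) 𝓘(ℝ) ∞ u ∧ (∀ p, mLap n u p = g p) ∧
      ∫ z, u z ∂(μHE[n] : Measure M) = 0 := by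
  obtain ⟨C, hC, hP⟩ := exists_poincare n M
  exact exists_poisson_of_poincare hC hP hg h0

/-- uniqueness up to constants -/
theorem unique_poisson [ConnectedSpace M] {u v : M → ℝ} (hu : ContMDiff (𝓡 n) 𝓘(ℝ) ∞ u)
    (hv : ContMDiff (𝓡 n) 𝓘(ℝ) ∞ v) (h : ∀ p, mLap n u p = mLap n v p) (p q : M) :
    u p - v p = u q - v q :=
  const_of_mLap_zero (f := fun z => u z - v z) (hu.sub hv) (fun z => by
    rw [mLap_sub ((hu z).of_le two_le_inf) ((hv z).of_le two_le_inf), h, sub_self]) p q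

end Crest.Agent.R249.Grn324
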