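import Mathlib

/-!
# Row 249, PART C, block HK (helper286): local heat trace comparison, DEFINITIONS

Everything on `E4 = EuclideanSpace ℝ (Fin 4)`.  `ι` is an arbitrary index type: all data are families over `ι`
and all constants are uniform in `ι` (in the application `ι` = points `y` of a compact set of a chart, everything
is translated so that `y = 0`, cut off outside a ball, and the gauge is adapted at `y`).

* `UB f`     : `f i` smooth, all derivatives bounded uniformly in `i`;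
* `Met ι`    : metric `g`, inverse `h`, density `w = √det g`;
* `Con M κ`  : skew connection matrices `a i j`, `a = 0` and symmetrised first derivative `= 0` at the origin,
               symmetric potential `P`;
* `Con.LL`   : `-(1/w) (∂_j + a_j)(w h^{jl} (∂_l + a_l) f) + P f`;
* `Sys`      : a Parseval system `u k` of weak eigenfunctions on the ball of radius `R` (no smoothness needed);
* kernels    : `rho`, `GG`, cut-offs `ps m` (`m = 1, 2, 3`), `HH m`, `eM m` (matrix), `e0 m` (scalar), `ep = eM - e0`;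
* `star K f` : `∫_0^t ∫ K(t-s, x, z) f(s, z) w(z) dz ds`.
-/

set_option autoImplicit false
open scoped ContDiff
open MeasureTheory Set Metric

namespace Crest.Agent.R249.HK286

abbrev E4 := EuclideanSpace ℝ (Fin 4)

/-- partial derivative -/
noncomputable def pd (j : Fin 4) (f : E4 → ℝ) (x : E4) : ℝ := fderiv ℝ f x (EuclideanSpace.single j 1)

/-- smooth with derivatives of every order bounded uniformly in the family parameter -/
def UB {ι : Type*} (f : ι → E4 → ℝ) : Prop :=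
  (∀ i, ContDiff ℝ ∞ (f i)) ∧ ∀ n : ℕ, ∃ C : ℝ, ∀ i x, ‖iteratedFDeriv ℝ n (f i) x‖ ≤ C

/-- a family of metrics on `E4` -/
structure Met (ι : Type*) where
  g : ι → Fin 4 → Fin 4 → E4 → ℝ
  h : ι → Fin 4 → Fin 4 → E4 → ℝ
  w : ι → E4 → ℝ
  ubg : ∀ a b, UB fun i => g i a b
  ubh : ∀ a b, UB fun i => h i a b
  ubw : UB w
  gsymm : ∀ i a b x, g i a b x = g i b a x
  hsymm : ∀ i a b x, h i a b x = h i b a x
  inv : ∀ i a b x, ∑ c, h i a c x * g i c b x = if a = b then 1 else 0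
  ell : ∃ c > 0, ∀ i x (v : Fin 4 → ℝ), c * ∑ a, v a ^ 2 ≤ ∑ a, ∑ b, g i a b x * v a * v b
  wpos : ∃ c > 0, ∀ i x, c ≤ w i x
  wdet : ∀ i x, w i x ^ 2 = Matrix.det (Matrix.of fun a b => g i a b x)

/-- a family of connections in a gauge adapted at the origin, with potential -/
structure Con {ι : Type*} (M : Met ι) (κ : Type*) [Fintype κ] [DecidableEq κ] where
  a : ι → Fin 4 → κ → κ → E4 → ℝ
  P : ι → κ → κ → E4 → ℝ
  uba : ∀ j p q, UB fun i => a i j p q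
  ubP : ∀ p q, UB fun i => P i p q
  askew : ∀ i j p q x, a i j p q x = - a i j q p x
  Psymm : ∀ i p q x, P i p q x = P i q p x
  azero : ∀ i j p q, a i j p q 0 = 0
  arad : ∀ i j l p q, pd l (a i j p q) 0 = - pd j (a i l p q) 0

section
variable {ι : Type*} {M : Met ι} {κ : Type*} [Fintype κ] [DecidableEq κ]

/-- covariant derivative `∂_l f + a_l f` of a vector valued function -/
noncomputable def Con.cov (D : Con M κ) (i : ι) (l : Fin 4) (f : E4 → κ → ℝ) (x : E4) (p : κ) : ℝ :=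
  pd l (fun y => f y p) x + ∑ q, D.a i l p q x * f x q

/-- `L f = -(1/w) (∂_j + a_j)(w h^{jl} (∂_l + a_l) f) + P f` -/
noncomputable def Con.LL (D : Con M κ) (i : ι) (f : E4 → κ → ℝ) (x : E4) (p : κ) : ℝ :=
  -((M.w i x)⁻¹ * ∑ j, ∑ l, (pd j (fun y => M.w i y * M.h i j l y * D.cov i l f y p) x
      + ∑ q, D.a i j p q x * (M.w i x * M.h i j l x * D.cov i l f x q)))
    + ∑ q, D.P i p q x * f x q

/-- scalar Laplacian `(1/w) ∂_j (w h^{jl} ∂_l φ)` (non-positive sign convention of analysts) -/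
noncomputable def Met.lap (M : Met ι) (i : ι) (φ : E4 → ℝ) (x : E4) : ℝ :=
  (M.w i x)⁻¹ * ∑ j, ∑ l, pd j (fun y => M.w i y * M.h i j l y * pd l φ y) x

/-- test vector functions: smooth, supported in a ball of radius `< R` -/
def Tst (R : ℝ) (f : E4 → κ → ℝ) : Prop :=
  (∀ p, ContDiff ℝ ∞ fun x => f x p) ∧ ∃ r < R, ∀ x p, r ≤ ‖x‖ → f x p = 0

/-- bounded measurable vector functions supported in a ball of radius `< R` -/
def Bdm (R : ℝ) (f : E4 → κ → ℝ) : Prop :=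
  (∀ p, Measurable fun x => f x p) ∧ (∃ B : ℝ, ∀ x p, |f x p| ≤ B) ∧ ∃ r < R, ∀ x p, r ≤ ‖x‖ → f x p = 0

/-- `∫ ⟨f, u⟩ w` -/
noncomputable def Met.ip (M : Met ι) (i : ι) (f u : E4 → κ → ℝ) : ℝ := ∫ x, (∑ p, f x p * u x p) * M.w i x

/-- A Parseval system of weak eigenfunctions on the ball of radius `R`. -/
structure Sys {ι : Type*} {M : Met ι} {κ : Type*} [Fintype κ] [DecidableEq κ] (D : Con M κ) (R : ℝ)
    (K : Type*) where
  u : ι → K → E4 → κ → ℝ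
  mu : ι → K → ℝ
  mu_nonneg : ∀ i k, 0 ≤ mu i k
  cont : ∀ i k p, ContinuousOn (fun x => u i k x p) (ball 0 R)
  eig : ∀ i k f, Tst R f → M.ip i (D.LL i f) (u i k) = mu i k * M.ip i f (u i k)
  pars : ∀ i f, Bdm R f → HasSum (fun k => M.ip i f (u i k) ^ 2) (M.ip i f f)

/-- diagonal value of the spectral sum: `∑_k e^{-2 t μ_k} |u_k(0)|²` -/
noncomputable def Sys.diag {D : Con M κ} {R : ℝ} {K : Type*} (S : Sys D R K) (i : ι) (t : ℝ) : ℝ :=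
  ∑' k, Real.exp (-(2 * t * S.mu i k)) * ∑ p, S.u i k 0 p ^ 2

/-- the limit density: `(1/32π²) tr P² + (1/48π²) h^{ij} h^{lm} tr (∂_l a_i ∂_m a_j)` at the origin
(`∂_l a_i (0) = F_{li}(0)/2` in the adapted gauge, so the second term is `(1/192π²) h h tr F F`) -/
noncomputable def Con.dens (D : Con M κ) (i : ι) : ℝ :=
  1 / (32 * Real.pi ^ 2) * (∑ p, ∑ q, D.P i p q 0 * D.P i q p 0)
  + 1 / (48 * Real.pi ^ 2) * ∑ j, ∑ k, ∑ l, ∑ m, M.h i j k 0 * M.h i l m 0 *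
      ∑ p, ∑ q, pd l (D.a i j p q) 0 * pd m (D.a i k q p) 0

/-! ### kernels -/

/-- dominating Gaussian `t⁻² exp (- c |x|² / t)` -/
noncomputable def Gam (c t : ℝ) (x : E4) : ℝ := (t ^ 2)⁻¹ * Real.exp (-(c * ‖x‖ ^ 2 / t))

/-- `ρ(x,z) = (1/2) (g(x) + g(z))(x - z, x - z)` -/
noncomputable def Met.rho (M : Met ι) (i : ι) (x z : E4) : ℝ :=
  1 / 2 * ∑ a, ∑ b, (M.g i a b x + M.g i a b z) * (x a - z a) * (x b - z b)

/-- the scalar parametrix `(4 π t)⁻² exp (- ρ / 4t)` -/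
noncomputable def Met.GG (M : Met ι) (i : ι) (t : ℝ) (x z : E4) : ℝ :=
  ((4 * Real.pi * t) ^ 2)⁻¹ * Real.exp (-(M.rho i x z / (4 * t)))

/-- cut-off of level `m ∈ {1,2,3}`: `= 1` for `‖x‖ ≤ 2 m R / 8`, `= 0` for `‖x‖ ≥ (2 m + 1) R / 8` -/
structure Cut (R : ℝ) where
  ps : ℕ → E4 → ℝ
  smooth : ∀ m, ContDiff ℝ ∞ (ps m)
  mem : ∀ m x, 0 ≤ ps m x ∧ ps m x ≤ 1
  one : ∀ (m : ℕ) x, ‖x‖ ≤ 2 * m * R / 8 → ps m x = 1
  zero : ∀ (m : ℕ) x, (2 * m + 1) * R / 8 ≤ ‖x‖ → ps m x = 0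

/-- `H_m(t,x,z) = ψ_m(x) G(t,x,z)` -/
noncomputable def Met.HH (M : Met ι) {R : ℝ} (c : Cut R) (m : ℕ) (i : ι) (t : ℝ) (x z : E4) : ℝ :=
  c.ps m x * M.GG i t x z

/-- `∂ρ/∂x_j`, explicit -/
noncomputable def Met.rx (M : Met ι) (j : Fin 4) (i : ι) (x z : E4) : ℝ :=
  ∑ b, (M.g i j b x + M.g i j b z) * (x b - z b)
    + 1 / 2 * ∑ a, ∑ b, pd j (M.g i a b) x * (x a - z a) * (x b - z b)

/-- `∂²ρ/∂x_j∂x_l`, explicit -/
noncomputable def Met.rxx (M : Met ι) (j l : Fin 4) (i : ι) (x z : E4) : ℝ :=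
  (M.g i j l x + M.g i j l z) + ∑ a, pd j (M.g i l a) x * (x a - z a) + ∑ a, pd l (M.g i j a) x * (x a - z a)
    + 1 / 2 * ∑ a, ∑ b, pd j (pd l (M.g i a b)) x * (x a - z a) * (x b - z b)

/-- first order coefficients of the Laplacian: `β^l = (1/w) ∂_j (w h^{jl})` -/
noncomputable def Met.be (M : Met ι) (l : Fin 4) (i : ι) (x : E4) : ℝ :=
  (M.w i x)⁻¹ * ∑ j, pd j (fun y => M.w i y * M.h i j l y) x

/-- `Δ_x ρ`, explicit -/
noncomputable def Met.lr (M : Met ι) (i : ι) (x z : E4) : ℝ :=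
  ∑ j, ∑ l, M.h i j l x * M.rxx j l i x z + ∑ l, M.be l i x * M.rx l i x z

/-- `(∂_t - Δ_x) G`, explicit -/
noncomputable def Met.qq (M : Met ι) (i : ι) (t : ℝ) (x z : E4) : ℝ :=
  M.GG i t x z * ((4 * M.rho i x z - ∑ j, ∑ l, M.h i j l x * M.rx j i x z * M.rx l i x z) / (16 * t ^ 2)
    + (M.lr i x z - 8) / (4 * t))

/-- `∂_j` (in `x`) of `H_m`, explicit -/
noncomputable def Met.dH (M : Met ι) {R : ℝ} (c : Cut R) (m : ℕ) (j : Fin 4) (i : ι) (t : ℝ) (x z : E4) : ℝ :=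
  pd j (c.ps m) x * M.GG i t x z - c.ps m x * M.GG i t x z * (M.rx j i x z / (4 * t))

/-- scalar error kernel `(∂_t - Δ_x) H_m`, explicit -/
noncomputable def Met.e0 (M : Met ι) {R : ℝ} (c : Cut R) (m : ℕ) (i : ι) (t : ℝ) (x z : E4) : ℝ :=
  c.ps m x * M.qq i t x z
    + 2 * ∑ j, ∑ l, M.h i j l x * pd j (c.ps m) x * (M.GG i t x z * (M.rx l i x z / (4 * t)))
    - M.GG i t x z * M.lap i (c.ps m) x

/-- `div_w a = (1/w) ∂_j (w h^{jl} a_l)` -/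
noncomputable def Con.dv (D : Con M κ) (i : ι) (x : E4) (p q : κ) : ℝ :=
  (M.w i x)⁻¹ * ∑ j, ∑ l, pd j (fun y => M.w i y * M.h i j l y * D.a i l p q y) x

/-- skew part of the error: `- 2 h^{jl} ∂_j H_m a_l - H_m div a` -/
noncomputable def Con.sk (D : Con M κ) {R : ℝ} (c : Cut R) (m : ℕ) (i : ι) (t : ℝ) (x z : E4) (p q : κ) : ℝ :=
  -(2 * ∑ j, ∑ l, M.h i j l x * M.dH c m j i t x z * D.a i l p q x) - M.HH c m i t x z * D.dv i x p q

/-- `h^{jl} (a_j a_l)_{pq}` -/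
noncomputable def Con.aa (D : Con M κ) (i : ι) (x : E4) (p q : κ) : ℝ :=
  ∑ j, ∑ l, M.h i j l x * ∑ r, D.a i j p r x * D.a i l r q x

/-- symmetric part of the error: `- H_m h^{jl} a_j a_l + H_m P` -/
noncomputable def Con.sy (D : Con M κ) {R : ℝ} (c : Cut R) (m : ℕ) (i : ι) (t : ℝ) (x z : E4) (p q : κ) : ℝ :=
  M.HH c m i t x z * (D.P i p q x - D.aa i x p q)

/-- matrix error kernel: component `p` of `(∂_t + L_x) (H_m(t,·,z) e_q)`, explicit (see `EMStmt`) -/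
noncomputable def Con.eM (D : Con M κ) {R : ℝ} (c : Cut R) (m : ℕ) (i : ι) (t : ℝ) (x z : E4) (p q : κ) : ℝ :=
  (if p = q then M.e0 c m i t x z else 0) + D.sk c m i t x z p q + D.sy c m i t x z p q

/-- HK3 (identity): for `t > 0`, `eM` is `(∂_t + L_x)` applied to `H_m(t,·,z) e_q` -/
def EMStmt {R : ℝ} (c : Cut R) (D : Con M κ) : Prop :=
  ∀ m i t x z p q, 0 < t →
    (if p = q then deriv (fun s => M.HH c m i s x z) t else 0)
      + D.LL i (fun y r => if r = q then M.HH c m i t y z else 0) x p = D.eM c m i t x z p q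

/-- time-space convolution of a matrix kernel with a matrix function, weight `w` -/
noncomputable def Met.star (M : Met ι) (Kr : ι → ℝ → E4 → E4 → κ → κ → ℝ) (f : ι → ℝ → E4 → κ → κ → ℝ)
    (i : ι) (t : ℝ) (x : E4) (p q : κ) : ℝ :=
  ∫ s in Ioo 0 t, ∫ z, (∑ r, Kr i (t - s) x z p r * f i s z r q) * M.w i z

/-- scalar version of `star` -/
noncomputable def Met.star0 (M : Met ι) (Kr : ι → ℝ → E4 → E4 → ℝ) (f : ι → ℝ → E4 → ℝ)
    (i : ι) (t : ℝ) (x : E4) : ℝ :=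
  ∫ s in Ioo 0 t, ∫ z, Kr i (t - s) x z * f i s z * M.w i z

/-- scalar kernel as a multiple of the identity matrix -/
def sc {ι : Type*} {κ : Type*} [DecidableEq κ] (Kr : ι → ℝ → E4 → E4 → ℝ) :
    ι → ℝ → E4 → E4 → κ → κ → ℝ := fun i t x z p q => if p = q then Kr i t x z else 0

/-- the class `V_a`: `|f(t,x)| ≤ C t^a Γ_c(t,x)` for `t ∈ (0,1]`, jointly measurable -/
def VB {ι : Type*} (a : ℝ) (f : ι → ℝ → E4 → ℝ) : Prop :=
  (∀ i, Measurable fun z : ℝ × E4 => f i z.1 z.2) ∧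
  ∃ C c : ℝ, 0 ≤ C ∧ 0 < c ∧ ∀ i, ∀ t ∈ Ioc (0 : ℝ) 1, ∀ x, |f i t x| ≤ C * t ^ a * Gam c t x

/-- kernels bounded by `C Γ_c(t, x - z)`: class `K0` -/
def KB {ι : Type*} (Kr : ι → ℝ → E4 → E4 → ℝ) : Prop :=
  (∀ i, Measurable fun z : ℝ × E4 × E4 => Kr i z.1 z.2.1 z.2.2) ∧
  ∃ C c : ℝ, 0 ≤ C ∧ 0 < c ∧ ∀ i, ∀ t ∈ Ioc (0 : ℝ) 1, ∀ x z, |Kr i t x z| ≤ C * Gam c t (x - z)

/-- kernels bounded by `C (1 + |x|/√t) Γ_c(t, x - z)` -/
def KW {ι : Type*} (Kr : ι → ℝ → E4 → E4 → ℝ) : Prop :=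
  (∀ i, Measurable fun z : ℝ × E4 × E4 => Kr i z.1 z.2.1 z.2.2) ∧
  ∃ C c : ℝ, 0 ≤ C ∧ 0 < c ∧ ∀ i, ∀ t ∈ Ioc (0 : ℝ) 1, ∀ x z,
    |Kr i t x z| ≤ C * (1 + ‖x‖ / Real.sqrt t) * Gam c t (x - z)

/-! ### the iterates -/

/-- `f¹ = e_1(·,0)`, `f² = e_2 ⋆ f¹`, `f³ = e_3 ⋆ f²` -/
noncomputable def Con.f1 (D : Con M κ) {R : ℝ} (c : Cut R) (i : ι) (t : ℝ) (x : E4) (p q : κ) : ℝ :=
  D.eM c 1 i t x 0 p q
noncomputable def Con.f2 (D : Con M κ) {R : ℝ} (c : Cut R) : ι → ℝ → E4 → κ → κ → ℝ :=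
  M.star (D.eM c 2) (D.f1 c)
noncomputable def Con.f3 (D : Con M κ) {R : ℝ} (c : Cut R) : ι → ℝ → E4 → κ → κ → ℝ :=
  M.star (D.eM c 3) (D.f2 c)

/-- the explicit kernel `k = H_1 - H_2 ⋆ f¹ + H_3 ⋆ f²` -/
noncomputable def Con.kk (D : Con M κ) {R : ℝ} (c : Cut R) (i : ι) (t : ℝ) (x : E4) (p q : κ) : ℝ :=
  (if p = q then M.HH c 1 i t x 0 else 0) - M.star (sc (M.HH c 2)) (D.f1 c) i t x p q
    + M.star (sc (M.HH c 3)) (D.f2 c) i t x p q

/-! ### the statements of the leaves -/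

/-- HK5 (Duhamel): `∑_k e^{-2tμ}|u_k(0)|² = ∫ |k_t|² w + O(t)` -/
def CoreStmt {R : ℝ} (c : Cut R) (D : Con M κ) : Prop :=
  ∀ (K : Type) [Countable K] (S : Sys D R K), ∃ C : ℝ, ∀ i, ∀ t ∈ Ioc (0 : ℝ) 1,
    Summable (fun k => Real.exp (-(2 * t * S.mu i k)) * ∑ p, S.u i k 0 p ^ 2) ∧
    |S.diag i t - ∫ x, (∑ p, ∑ q, D.kk c i t x p q ^ 2) * M.w i x| ≤ C * t

/-- the three main terms -/
noncomputable def Con.m1 (D : Con M κ) {R : ℝ} (c : Cut R) (i : ι) (t : ℝ) : ℝ :=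
  ∫ x, M.HH c 1 i t x 0 *
    M.star0 (M.HH c 2) (fun i t z => M.HH c 1 i t z 0 * ∑ p, D.aa i z p p) i t x * M.w i x
noncomputable def Con.m2 (D : Con M κ) {R : ℝ} (c : Cut R) (i : ι) (t : ℝ) : ℝ :=
  ∫ x, M.HH c 1 i t x 0 *
    (∑ p, M.star (sc (M.HH c 3)) (M.star (fun i t x z p q => M.HH c 2 i t x z * D.P i p q x)
      (fun i t z p q => M.HH c 1 i t z 0 * D.P i p q z)) i t x p p) * M.w i x
noncomputable def Con.m3 (D : Con M κ) {R : ℝ} (c : Cut R) (i : ι) (t : ℝ) : ℝ :=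
  ∫ x, (∑ p, ∑ q, M.star (sc (M.HH c 2)) (fun i t z p q => M.HH c 1 i t z 0 * D.P i p q z) i t x p q ^ 2)
    * M.w i x

/-- HK7 (limits of the main terms), pointwise in `i` -/
def LimStmt {R : ℝ} (c : Cut R) (D : Con M κ) : Prop :=
  (∃ C : ℝ, ∀ i, ∀ t ∈ Ioc (0 : ℝ) 1, |D.m1 c i t| ≤ C ∧ |D.m2 c i t| ≤ C ∧ |D.m3 c i t| ≤ C) ∧
  (∀ i, Filter.Tendsto (fun t => D.m1 c i t) (nhdsWithin 0 (Ioi 0))
      (nhds (1 / (96 * Real.pi ^ 2) * ∑ j, ∑ k, ∑ l, ∑ m, M.h i j k 0 * M.h i l m 0 *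
        ∑ p, ∑ q, pd l (D.a i j p q) 0 * pd m (D.a i k q p) 0))) ∧
  (∀ i, Filter.Tendsto (fun t => D.m2 c i t) (nhdsWithin 0 (Ioi 0))
      (nhds (1 / (128 * Real.pi ^ 2) * ∑ p, ∑ q, D.P i p q 0 * D.P i q p 0))) ∧
  (∀ i, Filter.Tendsto (fun t => D.m3 c i t) (nhdsWithin 0 (Ioi 0))
      (nhds (1 / (64 * Real.pi ^ 2) * ∑ p, ∑ q, D.P i p q 0 * D.P i q p 0)))

/-- HK6 (comparison): the difference of `∫ |k_t|² w` for two connections over the same metric -/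
def CmpStmt {R : ℝ} (c : Cut R) {κ' : Type} [Fintype κ'] [DecidableEq κ'] (D : Con M κ) (D' : Con M κ') : Prop :=
  Fintype.card κ = Fintype.card κ' → (∀ i x, ∑ p, D.P i p p x = ∑ p, D'.P i p p x) →
  ∃ C : ℝ, ∀ i, ∀ t ∈ Ioc (0 : ℝ) 1,
    |((∫ x, (∑ p, ∑ q, D.kk c i t x p q ^ 2) * M.w i x) - ∫ x, (∑ p, ∑ q, D'.kk c i t x p q ^ 2) * M.w i x)
      - ((2 * D.m1 c i t + 2 * D.m2 c i t + D.m3 c i t)
        - (2 * D'.m1 c i t + 2 * D'.m2 c i t + D'.m3 c i t))| ≤ C * Real.sqrt t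

end

/-- HK (main statement): two systems over the same metric, same rank, same trace of the potentials. -/
def MainStmt : Prop :=
  ∀ (ι : Type) (M : Met ι) (κ κ' : Type) [Fintype κ] [DecidableEq κ] [Fintype κ'] [DecidableEq κ']
    (D : Con M κ) (D' : Con M κ') (R : ℝ) (K K' : Type) [Countable K] [Countable K'],
    0 < R → Fintype.card κ = Fintype.card κ' →
    (∀ i x, ∑ p, D.P i p p x = ∑ p, D'.P i p p x) →
    ∀ (S : Sys D R K) (S' : Sys D' R K'),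
      (∃ C : ℝ, ∀ i, ∀ t ∈ Ioc (0 : ℝ) 1,
        Summable (fun k => Real.exp (-(2 * t * S.mu i k)) * ∑ p, S.u i k 0 p ^ 2) ∧
        Summable (fun k => Real.exp (-(2 * t * S'.mu i k)) * ∑ p, S'.u i k 0 p ^ 2) ∧
        S.diag i t ≤ C / t ^ 2 ∧ S'.diag i t ≤ C / t ^ 2 ∧
        |S.diag i t - S'.diag i t| ≤ C) ∧
      ∀ i, Filter.Tendsto (fun t => S.diag i t - S'.diag i t) (nhdsWithin 0 (Ioi 0))
        (nhds (D.dens i - D'.dens i))

end Crest.Agent.R249.HK286
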