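/-
Row 249, part C, leaf HK1 (helper654), file a: Gaussian calculus on `E4`.
-/
import Crest.Agent.R249.HKDef_286
import Crest.Agent.R249.Gau1_654

set_option autoImplicit false

open MeasureTheory Filter Topology Set
open scoped RealInnerProductSpace

noncomputable section

namespace Crest.Agent.R249.HK1_654

open Crest.Agent.R249.HK286

theorem Gam_nonneg (c t : ℝ) (x : E4) : 0 ≤ Gam c t x := by
  unfold Gam; positivity

theorem Gam_mono {c c' t : ℝ} (h : c' ≤ c) (ht : 0 < t) (x : E4) : Gam c t x ≤ Gam c' t x := by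
  unfold Gam
  refine mul_le_mul_of_nonneg_left (Real.exp_le_exp.2 ?_) (by positivity)
  rw [neg_le_neg_iff]
  gcongr

theorem Gam_split (c t : ℝ) (x : E4) :
    Gam c t x = Gam (c / 2) t x * Real.exp (-(c / 2 * ‖x‖ ^ 2 / t)) := by
  unfold Gam
  rw [mul_assoc, ← Real.exp_add]
  congr 2
  ring

theorem continuous_Gam (c t : ℝ) : Continuous fun x : E4 => Gam c t x := by
  unfold Gam
  fun_prop

theorem measurable_Gam (c : ℝ) : Measurable fun z : ℝ × E4 => Gam c z.1 z.2 := by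
  unfold Gam
  fun_prop

/-- powers of `‖x‖` are absorbed -/
theorem pow_mul_Gam (k : ℕ) {c : ℝ} (hc : 0 < c) :
    ∃ K : ℝ, 0 < K ∧ ∀ (t : ℝ) (x : E4), 0 < t →
      ‖x‖ ^ k * Gam c t x ≤ K * t ^ ((k : ℝ) / 2) * Gam (c / 2) t x := by
  obtain ⟨K, hK, h⟩ := Gau1_654.pow_mul_exp_le k (b := c / 4) (by positivity)
  refine ⟨K, hK, fun t x ht => ?_⟩
  have hs : 0 < Real.sqrt t := Real.sqrt_pos.2 ht
  have h1 := h (‖x‖ / Real.sqrt t) (by positivity)
  have h2 : Real.sqrt t ^ 2 = t := Real.sq_sqrt ht.le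
  have h3 : -(2 * (c / 4)) * (‖x‖ / Real.sqrt t) ^ 2 = -(c / 2 * ‖x‖ ^ 2 / t) := by
    rw [div_pow, h2]; ring
  have h4 : Real.exp (-(c / 4) * (‖x‖ / Real.sqrt t) ^ 2) ≤ 1 := by
    rw [Real.exp_le_one_iff]
    have : 0 ≤ (‖x‖ / Real.sqrt t) ^ 2 := by positivity
    nlinarith
  have h5 : (‖x‖ / Real.sqrt t) ^ k * Real.exp (-(c / 2 * ‖x‖ ^ 2 / t)) ≤ K := by
    rw [← h3]
    calc _ ≤ K * Real.exp (-(c / 4) * (‖x‖ / Real.sqrt t) ^ 2) := h1
      _ ≤ K * 1 := mul_le_mul_of_nonneg_left h4 hK.le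
      _ = K := mul_one K
  have h6 : t ^ ((k : ℝ) / 2) = Real.sqrt t ^ k := by
    rw [Real.sqrt_eq_rpow, ← Real.rpow_natCast, ← Real.rpow_mul ht.le]
    congr 1
    ring
  rw [Gam_split, h6]
  have h7 : ‖x‖ ^ k = Real.sqrt t ^ k * (‖x‖ / Real.sqrt t) ^ k := by
    rw [div_pow]; field_simp
  rw [h7]
  calc Real.sqrt t ^ k * (‖x‖ / Real.sqrt t) ^ k * (Gam (c / 2) t x * Real.exp (-(c / 2 * ‖x‖ ^ 2 / t)))
      = (Real.sqrt t ^ k * Gam (c / 2) t x) *
          ((‖x‖ / Real.sqrt t) ^ k * Real.exp (-(c / 2 * ‖x‖ ^ 2 / t))) := by ring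
    _ ≤ (Real.sqrt t ^ k * Gam (c / 2) t x) * K :=
        mul_le_mul_of_nonneg_left h5 (mul_nonneg (by positivity) (Gam_nonneg _ _ _))
    _ = _ := by ring

theorem Gam_eq (c t : ℝ) (x : E4) : Gam c t x = (t ^ 2)⁻¹ * Real.exp (-(c / t) * ‖x‖ ^ 2) := by
  unfold Gam
  congr 2
  ring

theorem integrable_Gam {c t : ℝ} (hc : 0 < c) (ht : 0 < t) : Integrable fun x : E4 => Gam c t x := by
  have h := (Gau1_654.integrable_gauss (n := 4) (b := c / t) (by positivity)).const_mul ((t ^ 2)⁻¹)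
  refine h.congr (Eventually.of_forall fun x => ?_)
  simp only [Gam_eq]

theorem integral_exp {b : ℝ} (hb : 0 < b) :
    ∫ x : E4, Real.exp (-b * ‖x‖ ^ 2) = (Real.pi / b) ^ 2 := by
  have h := GaussianFourier.integral_rexp_neg_mul_sq_norm (V := E4) hb
  rw [finrank_euclideanSpace_fin] at h
  rw [h, ← Real.rpow_natCast]
  congr 1
  norm_num

theorem integral_Gam {c t : ℝ} (hc : 0 < c) (ht : 0 < t) :
    ∫ x : E4, Gam c t x = (Real.pi / c) ^ 2 := by
  simp only [Gam_eq]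
  rw [integral_const_mul, integral_exp (by positivity)]
  field_simp

/-- completing the square -/
theorem Gam_mul_Gam {c s t : ℝ} (hs : 0 < s) (hst : s < t) (x z : E4) :
    Gam c (t - s) (x - z) * Gam c s z
      = (t ^ 2 * ((t - s) ^ 2)⁻¹ * (s ^ 2)⁻¹) * Gam c t x *
        Real.exp (-(c * t / (s * (t - s))) * ‖z - (s / t) • x‖ ^ 2) := by
  have ht : 0 < t := hs.trans hst
  have hts : 0 < t - s := sub_pos.2 hst
  have hsq : c * ‖x - z‖ ^ 2 / (t - s) + c * ‖z‖ ^ 2 / s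
      = c * ‖x‖ ^ 2 / t + c * t / (s * (t - s)) * ‖z - (s / t) • x‖ ^ 2 := by
    have h1 : ‖x - z‖ ^ 2 = ‖x‖ ^ 2 - 2 * ⟪x, z⟫ + ‖z‖ ^ 2 := norm_sub_sq_real x z
    have h2 : ‖z - (s / t) • x‖ ^ 2 = ‖z‖ ^ 2 - 2 * ((s / t) * ⟪x, z⟫) + (s / t) ^ 2 * ‖x‖ ^ 2 := by
      rw [norm_sub_sq_real, real_inner_smul_right, norm_smul, mul_pow, Real.norm_eq_abs, sq_abs,
        real_inner_comm]
    rw [h1, h2]
    field_simp
    ring
  unfold Gam
  have h3 : (((t - s) ^ 2)⁻¹ * Real.exp (-(c * ‖x - z‖ ^ 2 / (t - s)))) *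
      ((s ^ 2)⁻¹ * Real.exp (-(c * ‖z‖ ^ 2 / s)))
      = ((t - s) ^ 2)⁻¹ * (s ^ 2)⁻¹ *
        Real.exp (-(c * ‖x - z‖ ^ 2 / (t - s) + c * ‖z‖ ^ 2 / s)) := by
    rw [neg_add, Real.exp_add]; ring
  rw [h3, hsq, neg_add, Real.exp_add]
  field_simp

theorem integrable_conv {c s t : ℝ} (hc : 0 < c) (hs : 0 < s) (hst : s < t) (x : E4) :
    Integrable fun z : E4 => Gam c (t - s) (x - z) * Gam c s z := by
  have ht : 0 < t := hs.trans hst
  have hts : 0 < t - s := sub_pos.2 hst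
  have h1 : Integrable fun z : E4 => Real.exp (-(c * t / (s * (t - s))) * ‖z - (s / t) • x‖ ^ 2) :=
    (Gau1_654.integrable_gauss (n := 4) (b := c * t / (s * (t - s))) (by positivity)).comp_sub_right _
  refine (h1.const_mul ((t ^ 2 * ((t - s) ^ 2)⁻¹ * (s ^ 2)⁻¹) * Gam c t x)).congr
    (Eventually.of_forall fun z => ?_)
  simp only [Gam_mul_Gam hs hst]

theorem integral_conv {c s t : ℝ} (hc : 0 < c) (hs : 0 < s) (hst : s < t) (x : E4) :
    ∫ z : E4, Gam c (t - s) (x - z) * Gam c s z = (Real.pi / c) ^ 2 * Gam c t x := by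
  have ht : 0 < t := hs.trans hst
  have hts : 0 < t - s := sub_pos.2 hst
  simp only [Gam_mul_Gam hs hst]
  rw [integral_const_mul, integral_sub_right_eq_self
    (fun z : E4 => Real.exp (-(c * t / (s * (t - s))) * ‖z‖ ^ 2)) ((s / t) • x),
    integral_exp (by positivity)]
  field_simp

/-- `∫_0^t ds / √(t-s) = 2 √t` and integrability -/
theorem integral_inv_sqrt {t : ℝ} (ht : 0 < t) :
    IntegrableOn (fun s : ℝ => (Real.sqrt (t - s))⁻¹) (Ioo 0 t) ∧
      ∫ s in Ioo 0 t, (Real.sqrt (t - s))⁻¹ = 2 * Real.sqrt t := by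
  have h0 : IntervalIntegrable (fun u : ℝ => u ^ (-(1 / 2) : ℝ)) volume 0 t :=
    intervalIntegral.intervalIntegrable_rpow' (by norm_num)
  have h1 : IntervalIntegrable (fun s : ℝ => (t - s) ^ (-(1 / 2) : ℝ)) volume 0 t := by
    have := (h0.comp_sub_left t).symm
    simpa using this
  have hcongr : ∀ s ∈ Ioo 0 t, (t - s) ^ (-(1 / 2) : ℝ) = (Real.sqrt (t - s))⁻¹ := by
    intro s hs
    have : 0 ≤ t - s := by linarith [hs.2]
    rw [Real.rpow_neg this, ← Real.sqrt_eq_rpow]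
  have h2 : ∫ s in (0 : ℝ)..t, (t - s) ^ (-(1 / 2) : ℝ) = 2 * Real.sqrt t := by
    rw [intervalIntegral.integral_comp_sub_left (fun u : ℝ => u ^ (-(1 / 2) : ℝ)) t, sub_self, sub_zero,
      integral_rpow (Or.inl (by norm_num))]
    rw [show (-(1 / 2) : ℝ) + 1 = 1 / 2 by norm_num, Real.zero_rpow (by norm_num), Real.sqrt_eq_rpow]
    ring
  constructor
  · have h3 := (intervalIntegrable_iff_integrableOn_Ioo_of_le ht.le).1 h1
    exact h3.congr_fun hcongr measurableSet_Ioo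
  · rw [← setIntegral_congr_fun measurableSet_Ioo hcongr, ← integral_Ioc_eq_integral_Ioo,
      ← intervalIntegral.integral_of_le ht.le]
    exact h2

end Crest.Agent.R249.HK1_654
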