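import Crest.Agent.R249.HKDef_286

/-!
# Row 249, PART C, block HK (helper286): INTERFACES between the leaves (statements only)

* `Cal M`   : the calculus of the classes `VB`, `KB`, `KW` (leaf HK1);
* `Inp c D` : bounds of the kernels `HH`, `e0`, `sk`, `aa`, `P` (leaves HK2, HK3).
-/

set_option autoImplicit false
open scoped ContDiff
open MeasureTheory Set Metric

namespace Crest.Agent.R249.HK286

/-- calculus of the classes (leaf HK1) -/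
structure Cal {ι : Type*} (M : Met ι) : Prop where
  vb_mono : ∀ (a b : ℝ) (f : ι → ℝ → E4 → ℝ), b ≤ a → VB a f → VB b f
  vb_add : ∀ (a : ℝ) (f g : ι → ℝ → E4 → ℝ), VB a f → VB a g → VB a (fun i t x => f i t x + g i t x)
  vb_smul : ∀ (a C : ℝ) (f : ι → ℝ → E4 → ℝ), VB a f → VB a (fun i t x => C * f i t x)
  vb_mul : ∀ (a : ℝ) (k : ℕ) (φ : ι → E4 → ℝ) (f : ι → ℝ → E4 → ℝ), (∀ i, Measurable (φ i)) →
    (∃ C, ∀ i x, |φ i x| ≤ C * ‖x‖ ^ k) → VB a f → VB (a + k / 2) (fun i t x => φ i x * f i t x)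
  kb_kw : ∀ K : ι → ℝ → E4 → E4 → ℝ, KB K → KW K
  kw_add : ∀ K K' : ι → ℝ → E4 → E4 → ℝ, KW K → KW K' → KW (fun i t x z => K i t x z + K' i t x z)
  kw_mul : ∀ (K : ι → ℝ → E4 → E4 → ℝ) (φ : ι → E4 → ℝ), (∀ i, Measurable (φ i)) →
    (∃ C, ∀ i x, |φ i x| ≤ C) → KW K → KW (fun i t x z => φ i x * K i t x z)
  star0_vb : ∀ (a : ℝ) (K : ι → ℝ → E4 → E4 → ℝ) (f : ι → ℝ → E4 → ℝ), 0 ≤ a → KW K → VB a f →
    VB (a + 1) (M.star0 K f)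
  star0_add_right : ∀ (K : ι → ℝ → E4 → E4 → ℝ) (f g : ι → ℝ → E4 → ℝ), KW K → VB 0 f → VB 0 g →
    ∀ i, ∀ t ∈ Ioc (0 : ℝ) 1, ∀ x, M.star0 K (fun i t x => f i t x + g i t x) i t x
      = M.star0 K f i t x + M.star0 K g i t x
  star0_add_left : ∀ (K K' : ι → ℝ → E4 → E4 → ℝ) (f : ι → ℝ → E4 → ℝ), KW K → KW K' → VB 0 f →
    ∀ i, ∀ t ∈ Ioc (0 : ℝ) 1, ∀ x, M.star0 (fun i t x z => K i t x z + K' i t x z) f i t x
      = M.star0 K f i t x + M.star0 K' f i t x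
  star_eq : ∀ {κ : Type} [Fintype κ] (K : ι → ℝ → E4 → E4 → κ → κ → ℝ) (f : ι → ℝ → E4 → κ → κ → ℝ),
    (∀ p r, KW fun i t x z => K i t x z p r) → (∀ r q, VB 0 fun i t x => f i t x r q) →
    ∀ i, ∀ t ∈ Ioc (0 : ℝ) 1, ∀ x p q, M.star K f i t x p q
      = ∑ r, M.star0 (fun i t x z => K i t x z p r) (fun i t x => f i t x r q) i t x
  star_vb : ∀ {κ : Type} [Fintype κ] (a : ℝ) (K : ι → ℝ → E4 → E4 → κ → κ → ℝ)
    (f : ι → ℝ → E4 → κ → κ → ℝ), 0 ≤ a → (∀ p r, KW fun i t x z => K i t x z p r) →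
    (∀ r q, VB a fun i t x => f i t x r q) → ∀ p q, VB (a + 1) fun i t x => M.star K f i t x p q
  int_mul : ∀ (a b : ℝ) (f g : ι → ℝ → E4 → ℝ), 0 ≤ a → 0 ≤ b → VB a f → VB b g →
    (∀ i, ∀ t ∈ Ioc (0 : ℝ) 1, Integrable fun x => f i t x * g i t x * M.w i x) ∧
    ∃ C : ℝ, ∀ i, ∀ t ∈ Ioc (0 : ℝ) 1, |∫ x, f i t x * g i t x * M.w i x| ≤ C * t ^ (a + b - 2)

section
variable {ι : Type*} {M : Met ι} {κ : Type*} [Fintype κ] [DecidableEq κ]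

/-- bounds of the scalar kernels (leaf HK2) -/
structure InpM (M : Met ι) {R : ℝ} (c : Cut R) : Prop where
  HH : ∀ m, KB (M.HH c m)
  h0 : ∀ m, VB 0 (fun i t x => M.HH c m i t x 0)
  e0 : ∀ m, KW (M.e0 c m)
  e1 : VB 0 (fun i t x => M.e0 c 1 i t x 0)
  qq : KB M.qq
  dH : ∀ m j, (∀ i, Measurable fun z : ℝ × E4 × E4 => M.dH c m j i z.1 z.2.1 z.2.2) ∧
    ∃ C d : ℝ, 0 ≤ C ∧ 0 < d ∧ ∀ i, ∀ t ∈ Ioc (0 : ℝ) 1, ∀ x z,
      |M.dH c m j i t x z| ≤ C / Real.sqrt t * Gam d t (x - z)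
  rx0 : ∀ l, ∃ C : ℝ, ∀ i x, |∑ j, M.h i j l x * M.rx j i x 0 - 2 * x l| ≤ C * ‖x‖ ^ 2
  rho_ge : ∃ d > 0, ∀ i x z, d * ‖x - z‖ ^ 2 ≤ M.rho i x z
  rho_le : ∃ C, ∀ i x z, M.rho i x z ≤ C * ‖x - z‖ ^ 2
  hd : ∀ m i t x z, 0 < t → HasDerivAt (fun s => M.HH c m i s x z)
    (M.e0 c m i t x z + M.lap i (fun y => M.HH c m i t y z) x) t

/-- bounds of the matrix kernels (leaf HK3) -/
structure InpD {R : ℝ} (c : Cut R) (D : Con M κ) : Prop where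
  sk : ∀ m p q, KW (fun i t x z => D.sk c m i t x z p q)
  sk0 : ∀ p q, VB (1 / 2) (fun i t x => D.sk c 1 i t x 0 p q)
  skew : ∀ m i t x z p q, D.sk c m i t x z p q = -D.sk c m i t x z q p
  aam : ∀ p q i, Measurable fun x => D.aa i x p q
  aab : ∀ p q, ∃ C, ∀ i x, |D.aa i x p q| ≤ C
  aa2 : ∀ p q, ∃ C, ∀ i x, |D.aa i x p q| ≤ C * ‖x‖ ^ 2
  aas : ∀ i x p q, D.aa i x p q = D.aa i x q p
  Pm : ∀ p q i, Measurable fun x => D.P i p q x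
  Pb : ∀ p q, ∃ C, ∀ i x, |D.P i p q x| ≤ C
  em : EMStmt c D

end

end Crest.Agent.R249.HK286
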