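/-
Row 249, part C, leaf HK1 (helper654), file b: the classes `VB`, `KB`, `KW`, the bound of `star0`.
-/
import Crest.Agent.R249.HKCal_286
import Crest.Agent.R249.HK1a_654

set_option autoImplicit false

open MeasureTheory Filter Topology Set
open scoped RealInnerProductSpace

noncomputable section

namespace Crest.Agent.R249.HK1_654

open Crest.Agent.R249.HK286

variable {ι : Type*}

theorem vb_mono {a b : ℝ} {f : ι → ℝ → E4 → ℝ} (hab : b ≤ a) (hf : VB a f) : VB b f := by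
  obtain ⟨hm, C, c, hC, hc, h⟩ := hf
  refine ⟨hm, C, c, hC, hc, fun i t ht x => (h i t ht x).trans ?_⟩
  refine mul_le_mul_of_nonneg_right ?_ (Gam_nonneg _ _ _)
  refine mul_le_mul_of_nonneg_left ?_ hC
  exact Real.rpow_le_rpow_of_exponent_ge ht.1 ht.2 hab

theorem vb_add {a : ℝ} {f g : ι → ℝ → E4 → ℝ} (hf : VB a f) (hg : VB a g) :
    VB a (fun i t x => f i t x + g i t x) := by
  obtain ⟨hm, C, c, hC, hc, h⟩ := hf
  obtain ⟨hm', C', c', hC', hc', h'⟩ := hg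
  refine ⟨fun i => (hm i).add (hm' i), C + C', min c c', by positivity, lt_min hc hc',
    fun i t ht x => ?_⟩
  have h1 : C * t ^ a * Gam c t x ≤ C * t ^ a * Gam (min c c') t x :=
    mul_le_mul_of_nonneg_left (Gam_mono (min_le_left _ _) ht.1 x)
      (mul_nonneg hC (Real.rpow_nonneg ht.1.le _))
  have h2 : C' * t ^ a * Gam c' t x ≤ C' * t ^ a * Gam (min c c') t x :=
    mul_le_mul_of_nonneg_left (Gam_mono (min_le_right _ _) ht.1 x)
      (mul_nonneg hC' (Real.rpow_nonneg ht.1.le _))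
  calc |f i t x + g i t x| ≤ |f i t x| + |g i t x| := abs_add_le _ _
    _ ≤ C * t ^ a * Gam (min c c') t x + C' * t ^ a * Gam (min c c') t x :=
        add_le_add ((h i t ht x).trans h1) ((h' i t ht x).trans h2)
    _ = _ := by ring

theorem vb_smul {a : ℝ} (C : ℝ) {f : ι → ℝ → E4 → ℝ} (hf : VB a f) :
    VB a (fun i t x => C * f i t x) := by
  obtain ⟨hm, C', c, hC', hc, h⟩ := hf
  refine ⟨fun i => (hm i).const_mul C, |C| * C', c, by positivity, hc, fun i t ht x => ?_⟩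
  rw [abs_mul]
  calc |C| * |f i t x| ≤ |C| * (C' * t ^ a * Gam c t x) :=
        mul_le_mul_of_nonneg_left (h i t ht x) (abs_nonneg _)
    _ = _ := by ring

theorem vb_mul {a : ℝ} {k : ℕ} {φ : ι → E4 → ℝ} {f : ι → ℝ → E4 → ℝ} (hφm : ∀ i, Measurable (φ i))
    (hφ : ∃ C, ∀ i x, |φ i x| ≤ C * ‖x‖ ^ k) (hf : VB a f) :
    VB (a + k / 2) (fun i t x => φ i x * f i t x) := by
  obtain ⟨hm, C, c, hC, hc, h⟩ := hf
  obtain ⟨B, hB⟩ := hφ
  obtain ⟨K, hK, hKb⟩ := pow_mul_Gam k hc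
  refine ⟨fun i => ((hφm i).comp measurable_snd).mul (hm i), |B| * C * K, c / 2, by positivity,
    by positivity, fun i t ht x => ?_⟩
  have h1 : |φ i x| ≤ |B| * ‖x‖ ^ k :=
    (hB i x).trans (mul_le_mul_of_nonneg_right (le_abs_self B) (by positivity))
  have hta : 0 ≤ t ^ a := Real.rpow_nonneg ht.1.le _
  rw [abs_mul, Real.rpow_add ht.1]
  calc |φ i x| * |f i t x| ≤ (|B| * ‖x‖ ^ k) * (C * t ^ a * Gam c t x) :=
        mul_le_mul h1 (h i t ht x) (abs_nonneg _) (by positivity)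
    _ = (|B| * C * t ^ a) * (‖x‖ ^ k * Gam c t x) := by ring
    _ ≤ (|B| * C * t ^ a) * (K * t ^ ((k : ℝ) / 2) * Gam (c / 2) t x) :=
        mul_le_mul_of_nonneg_left (hKb t x ht.1) (by positivity)
    _ = _ := by ring

theorem kb_kw {K : ι → ℝ → E4 → E4 → ℝ} (hK : KB K) : KW K := by
  obtain ⟨hm, C, c, hC, hc, h⟩ := hK
  refine ⟨hm, C, c, hC, hc, fun i t ht x z => (h i t ht x z).trans ?_⟩
  refine mul_le_mul_of_nonneg_right ?_ (Gam_nonneg _ _ _)
  have : 0 ≤ ‖x‖ / Real.sqrt t := by positivity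
  nlinarith

theorem kw_add {K K' : ι → ℝ → E4 → E4 → ℝ} (hK : KW K) (hK' : KW K') :
    KW (fun i t x z => K i t x z + K' i t x z) := by
  obtain ⟨hm, C, c, hC, hc, h⟩ := hK
  obtain ⟨hm', C', c', hC', hc', h'⟩ := hK'
  refine ⟨fun i => (hm i).add (hm' i), C + C', min c c', by positivity, lt_min hc hc',
    fun i t ht x z => ?_⟩
  have hp : 0 ≤ 1 + ‖x‖ / Real.sqrt t := by positivity
  have h1 : C * (1 + ‖x‖ / Real.sqrt t) * Gam c t (x - z)
      ≤ C * (1 + ‖x‖ / Real.sqrt t) * Gam (min c c') t (x - z) :=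
    mul_le_mul_of_nonneg_left (Gam_mono (min_le_left _ _) ht.1 _) (mul_nonneg hC hp)
  have h2 : C' * (1 + ‖x‖ / Real.sqrt t) * Gam c' t (x - z)
      ≤ C' * (1 + ‖x‖ / Real.sqrt t) * Gam (min c c') t (x - z) :=
    mul_le_mul_of_nonneg_left (Gam_mono (min_le_right _ _) ht.1 _) (mul_nonneg hC' hp)
  calc |K i t x z + K' i t x z| ≤ |K i t x z| + |K' i t x z| := abs_add_le _ _
    _ ≤ _ := add_le_add ((h i t ht x z).trans h1) ((h' i t ht x z).trans h2)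
    _ = _ := by ring

theorem kw_mul {K : ι → ℝ → E4 → E4 → ℝ} {φ : ι → E4 → ℝ} (hφm : ∀ i, Measurable (φ i))
    (hφ : ∃ C, ∀ i x, |φ i x| ≤ C) (hK : KW K) : KW (fun i t x z => φ i x * K i t x z) := by
  obtain ⟨hm, C, c, hC, hc, h⟩ := hK
  obtain ⟨B, hB⟩ := hφ
  refine ⟨fun i => ((hφm i).comp (measurable_fst.comp measurable_snd)).mul (hm i), |B| * C, c,
    by positivity, hc, fun i t ht x z => ?_⟩
  rw [abs_mul]
  calc |φ i x| * |K i t x z| ≤ |B| * (C * (1 + ‖x‖ / Real.sqrt t) * Gam c t (x - z)) :=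
        mul_le_mul ((hB i x).trans (le_abs_self B)) (h i t ht x z) (abs_nonneg _) (abs_nonneg _)
    _ = _ := by ring

variable {M : Met ι}

theorem w_cont (M : Met ι) (i : ι) : Continuous (M.w i) := (M.ubw.1 i).continuous

theorem w_bound (M : Met ι) : ∃ W : ℝ, 0 < W ∧ ∀ i x, |M.w i x| ≤ W := by
  obtain ⟨C, hC⟩ := M.ubw.2 0
  refine ⟨|C| + 1, by positivity, fun i x => ?_⟩
  have h := hC i x
  rw [norm_iteratedFDeriv_zero, Real.norm_eq_abs] at h
  linarith [le_abs_self C]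

/-- measurability of the integrand, jointly -/
theorem meas_integrand {K : ι → ℝ → E4 → E4 → ℝ} {f : ι → ℝ → E4 → ℝ}
    (hK : ∀ i, Measurable fun z : ℝ × E4 × E4 => K i z.1 z.2.1 z.2.2)
    (hf : ∀ i, Measurable fun z : ℝ × E4 => f i z.1 z.2) (i : ι) :
    Measurable fun z : ((ℝ × E4) × ℝ) × E4 =>
      K i (z.1.1.1 - z.1.2) z.1.1.2 z.2 * f i z.1.2 z.2 * M.w i z.2 := by
  refine (Measurable.mul ?_ ?_).mul ((w_cont M i).measurable.comp measurable_snd)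
  · have h1 : Measurable fun z : ((ℝ × E4) × ℝ) × E4 => ((z.1.1.1 - z.1.2, z.1.1.2, z.2) : ℝ × E4 × E4) := by
      fun_prop
    exact (hK i).comp h1
  · have h1 : Measurable fun z : ((ℝ × E4) × ℝ) × E4 => ((z.1.2, z.2) : ℝ × E4) := by
      fun_prop
    exact (hf i).comp h1

theorem meas_inner {K : ι → ℝ → E4 → E4 → ℝ} {f : ι → ℝ → E4 → ℝ}
    (hK : ∀ i, Measurable fun z : ℝ × E4 × E4 => K i z.1 z.2.1 z.2.2)
    (hf : ∀ i, Measurable fun z : ℝ × E4 => f i z.1 z.2) (i : ι) :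
    StronglyMeasurable fun z : (ℝ × E4) × ℝ =>
      ∫ y : E4, K i (z.1.1 - z.2) z.1.2 y * f i z.2 y * M.w i y := by
  have h := (meas_integrand (M := M) hK hf i).stronglyMeasurable
  exact h.integral_prod_right'

theorem meas_star0 {K : ι → ℝ → E4 → E4 → ℝ} {f : ι → ℝ → E4 → ℝ}
    (hK : ∀ i, Measurable fun z : ℝ × E4 × E4 => K i z.1 z.2.1 z.2.2)
    (hf : ∀ i, Measurable fun z : ℝ × E4 => f i z.1 z.2) (i : ι) :
    Measurable fun z : ℝ × E4 => M.star0 K f i z.1 z.2 := by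
  have h := meas_inner (M := M) hK hf i
  have hS : MeasurableSet {z : (ℝ × E4) × ℝ | 0 < z.2 ∧ z.2 < z.1.1} :=
    (measurableSet_lt measurable_const measurable_snd).inter
      (measurableSet_lt measurable_snd (measurable_fst.comp measurable_fst))
  have h2 := (h.indicator hS).integral_prod_right' (ν := (volume : Measure ℝ))
  have h3 : (fun z : ℝ × E4 => M.star0 K f i z.1 z.2) = fun z : ℝ × E4 => ∫ s : ℝ,
      ({z : (ℝ × E4) × ℝ | 0 < z.2 ∧ z.2 < z.1.1}.indicator (fun z : (ℝ × E4) × ℝ =>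
        ∫ y : E4, K i (z.1.1 - z.2) z.1.2 y * f i z.2 y * M.w i y)) (z, s) := by
    ext z
    unfold Met.star0
    rw [← integral_indicator measurableSet_Ioo]
    refine integral_congr_ae (Eventually.of_forall fun s => ?_)
    by_cases hs : s ∈ Ioo 0 z.1
    · have hs' : (z, s) ∈ {z : (ℝ × E4) × ℝ | 0 < z.2 ∧ z.2 < z.1.1} := hs
      show (Ioo 0 z.1).indicator _ s = indicator _ _ (z, s)
      rw [indicator_of_mem hs, indicator_of_mem hs']
    · have hs' : (z, s) ∉ {z : (ℝ × E4) × ℝ | 0 < z.2 ∧ z.2 < z.1.1} := hs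
      show (Ioo 0 z.1).indicator _ s = indicator _ _ (z, s)
      rw [indicator_of_notMem hs, indicator_of_notMem hs']
  rw [h3]
  exact h2.measurable

/-- data extracted from `KW K`, `VB a f` (one Gaussian constant) -/
theorem bounds {a : ℝ} {K : ι → ℝ → E4 → E4 → ℝ} {f : ι → ℝ → E4 → ℝ} (hK : KW K) (hf : VB a f) :
    ∃ C c : ℝ, 0 ≤ C ∧ 0 < c ∧ ∀ i, ∀ t ∈ Ioc (0 : ℝ) 1, ∀ s ∈ Ioo (0 : ℝ) t, ∀ x z,
      |K i (t - s) x z * f i s z * M.w i z|
        ≤ (C * (1 + ‖x‖ * (Real.sqrt (t - s))⁻¹) * s ^ a) * (Gam c (t - s) (x - z) * Gam c s z) := by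
  obtain ⟨_, C1, c1, hC1, hc1, h1⟩ := hK
  obtain ⟨_, C2, c2, hC2, hc2, h2⟩ := hf
  obtain ⟨W, hW, hWb⟩ := w_bound M
  refine ⟨C1 * C2 * W, min c1 c2, by positivity, lt_min hc1 hc2, fun i t ht s hs x z => ?_⟩
  have hts : 0 < t - s := sub_pos.2 hs.2
  have hts1 : t - s ∈ Ioc (0 : ℝ) 1 := ⟨hts, by linarith [ht.2, hs.1]⟩
  have hs1 : s ∈ Ioc (0 : ℝ) 1 := ⟨hs.1, (hs.2.le).trans ht.2⟩
  have hsa : 0 ≤ s ^ a := Real.rpow_nonneg hs.1.le _
  have hp : 0 ≤ 1 + ‖x‖ / Real.sqrt (t - s) := by positivity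
  have hb1 : |K i (t - s) x z| ≤ C1 * (1 + ‖x‖ / Real.sqrt (t - s)) * Gam (min c1 c2) (t - s) (x - z) :=
    (h1 i _ hts1 x z).trans (mul_le_mul_of_nonneg_left (Gam_mono (min_le_left _ _) hts _)
      (mul_nonneg hC1 hp))
  have hb2 : |f i s z| ≤ C2 * s ^ a * Gam (min c1 c2) s z :=
    (h2 i _ hs1 z).trans (mul_le_mul_of_nonneg_left (Gam_mono (min_le_right _ _) hs.1 _)
      (mul_nonneg hC2 hsa))
  have hg1 := Gam_nonneg (min c1 c2) (t - s) (x - z)
  have hg2 := Gam_nonneg (min c1 c2) s z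
  rw [abs_mul, abs_mul]
  calc |K i (t - s) x z| * |f i s z| * |M.w i z|
      ≤ (C1 * (1 + ‖x‖ / Real.sqrt (t - s)) * Gam (min c1 c2) (t - s) (x - z)) *
          (C2 * s ^ a * Gam (min c1 c2) s z) * W := by
        refine mul_le_mul (mul_le_mul hb1 hb2 (abs_nonneg _) ?_) (hWb i z) (abs_nonneg _) ?_
        · exact mul_nonneg (mul_nonneg hC1 hp) hg1
        · exact mul_nonneg (mul_nonneg (mul_nonneg hC1 hp) hg1) (mul_nonneg (mul_nonneg hC2 hsa) hg2)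
    _ = _ := by rw [div_eq_mul_inv]; ring

theorem inner_integrable {a : ℝ} {K : ι → ℝ → E4 → E4 → ℝ} {f : ι → ℝ → E4 → ℝ} (hK : KW K)
    (hf : VB a f) (i : ι) {t : ℝ} (ht : t ∈ Ioc (0 : ℝ) 1) {s : ℝ} (hs : s ∈ Ioo (0 : ℝ) t) (x : E4) :
    Integrable fun z : E4 => K i (t - s) x z * f i s z * M.w i z := by
  obtain ⟨C, c, hC, hc, h⟩ := bounds (M := M) hK hf
  have hm : Measurable fun z : E4 => K i (t - s) x z * f i s z * M.w i z := by
    have h1 := meas_integrand (M := M) hK.1 hf.1 i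
    exact h1.comp (measurable_prodMk_left (x := (((t, x), s) : (ℝ × E4) × ℝ)))
  refine ((integrable_conv hc hs.1 hs.2 x).const_mul
    (C * (1 + ‖x‖ * (Real.sqrt (t - s))⁻¹) * s ^ a)).mono' hm.aestronglyMeasurable ?_
  exact Eventually.of_forall fun z => h i t ht s hs x z

theorem inner_bound {a : ℝ} {K : ι → ℝ → E4 → E4 → ℝ} {f : ι → ℝ → E4 → ℝ} (hK : KW K)
    (hf : VB a f) : ∃ C c : ℝ, 0 ≤ C ∧ 0 < c ∧ ∀ i, ∀ t ∈ Ioc (0 : ℝ) 1, ∀ s ∈ Ioo (0 : ℝ) t, ∀ x,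
      |∫ z : E4, K i (t - s) x z * f i s z * M.w i z|
        ≤ (1 + ‖x‖ * (Real.sqrt (t - s))⁻¹) * s ^ a * (C * Gam c t x) := by
  obtain ⟨C, c, hC, hc, h⟩ := bounds (M := M) hK hf
  refine ⟨C * (Real.pi / c) ^ 2, c, by positivity, hc, fun i t ht s hs x => ?_⟩
  have h1 := norm_integral_le_of_norm_le (f := fun z : E4 => K i (t - s) x z * f i s z * M.w i z)
    ((integrable_conv hc hs.1 hs.2 x).const_mul
    (C * (1 + ‖x‖ * (Real.sqrt (t - s))⁻¹) * s ^ a))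
    (Eventually.of_forall fun z => h i t ht s hs x z)
  rw [Real.norm_eq_abs] at h1
  refine h1.trans (le_of_eq ?_)
  rw [integral_const_mul, integral_conv hc hs.1 hs.2]
  ring

theorem outer_meas {a : ℝ} {K : ι → ℝ → E4 → E4 → ℝ} {f : ι → ℝ → E4 → ℝ} (hK : KW K)
    (hf : VB a f) (i : ι) (t : ℝ) (x : E4) :
    StronglyMeasurable fun s : ℝ => ∫ z : E4, K i (t - s) x z * f i s z * M.w i z := by
  have h := meas_inner (M := M) hK.1 hf.1 i
  exact h.comp_measurable (measurable_prodMk_left (x := ((t, x) : ℝ × E4)))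

theorem outer_weight {t : ℝ} (ht : 0 < t) (r : ℝ) :
    IntegrableOn (fun s : ℝ => 1 + r * (Real.sqrt (t - s))⁻¹) (Ioo 0 t) ∧
      ∫ s in Ioo 0 t, (1 + r * (Real.sqrt (t - s))⁻¹) = t + r * (2 * Real.sqrt t) := by
  obtain ⟨h1, h2⟩ := integral_inv_sqrt ht
  have h3 : IntegrableOn (fun _ : ℝ => (1 : ℝ)) (Ioo 0 t) := integrableOn_const (by simp)
  have h4 : IntegrableOn (fun s : ℝ => r * (Real.sqrt (t - s))⁻¹) (Ioo 0 t) := h1.const_mul r
  refine ⟨h3.add h4, ?_⟩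
  rw [integral_add h3 h4, integral_const_mul, h2]
  simp [ht.le]

/-- integrability of the outer integrand -/
theorem outer_integrable {a : ℝ} (ha : 0 ≤ a) {K : ι → ℝ → E4 → E4 → ℝ} {f : ι → ℝ → E4 → ℝ}
    (hK : KW K) (hf : VB a f) (i : ι) {t : ℝ} (ht : t ∈ Ioc (0 : ℝ) 1) (x : E4) :
    IntegrableOn (fun s : ℝ => ∫ z : E4, K i (t - s) x z * f i s z * M.w i z) (Ioo 0 t) := by
  obtain ⟨C, c, hC, hc, h⟩ := inner_bound (M := M) hK hf
  have h1 : IntegrableOn (fun s : ℝ => (1 + ‖x‖ * (Real.sqrt (t - s))⁻¹) * (C * Gam c t x)) (Ioo 0 t) := by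
    exact (outer_weight ht.1 ‖x‖).1.mul_const _
  refine h1.mono' (outer_meas (M := M) hK hf i t x).aestronglyMeasurable ?_
  filter_upwards [ae_restrict_mem measurableSet_Ioo] with s hs
  refine (h i t ht s hs x).trans ?_
  have h2 : s ^ a ≤ 1 := Real.rpow_le_one hs.1.le ((hs.2.le).trans ht.2) ha
  have h3 : 0 ≤ 1 + ‖x‖ * (Real.sqrt (t - s))⁻¹ := by positivity
  refine mul_le_mul_of_nonneg_right ?_ (mul_nonneg hC (Gam_nonneg _ _ _))
  nlinarith

theorem star0_vb {a : ℝ} (ha : 0 ≤ a) {K : ι → ℝ → E4 → E4 → ℝ} {f : ι → ℝ → E4 → ℝ}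
    (hK : KW K) (hf : VB a f) : VB (a + 1) (M.star0 K f) := by
  obtain ⟨C, c, hC, hc, h⟩ := inner_bound (M := M) hK hf
  obtain ⟨B, hB, hBb⟩ := pow_mul_Gam 1 hc
  refine ⟨fun i => meas_star0 hK.1 hf.1 i, C + 2 * C * B, c / 2, by positivity, by positivity,
    fun i t ht x => ?_⟩
  have ht0 : 0 < t := ht.1
  have hta : 0 ≤ t ^ a := Real.rpow_nonneg ht0.le _
  have hG := Gam_nonneg c t x
  have h1 : IntegrableOn (fun s : ℝ => (1 + ‖x‖ * (Real.sqrt (t - s))⁻¹) * (t ^ a * (C * Gam c t x)))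
      (Ioo 0 t) := by
    exact (outer_weight ht.1 ‖x‖).1.mul_const _
  have h2 : |M.star0 K f i t x| ≤ ∫ s in Ioo 0 t,
      (1 + ‖x‖ * (Real.sqrt (t - s))⁻¹) * (t ^ a * (C * Gam c t x)) := by
    unfold Met.star0
    have hbd : ∀ᵐ s ∂(volume.restrict (Ioo 0 t)),
        ‖∫ z : E4, K i (t - s) x z * f i s z * M.w i z‖
          ≤ (1 + ‖x‖ * (Real.sqrt (t - s))⁻¹) * (t ^ a * (C * Gam c t x)) := by
      filter_upwards [ae_restrict_mem measurableSet_Ioo] with s hs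
      refine (h i t ht s hs x).trans ?_
      have h3 : s ^ a ≤ t ^ a := Real.rpow_le_rpow hs.1.le hs.2.le ha
      have h4 : 0 ≤ 1 + ‖x‖ * (Real.sqrt (t - s))⁻¹ := by positivity
      rw [mul_assoc]
      refine mul_le_mul_of_nonneg_left ?_ h4
      exact mul_le_mul_of_nonneg_right h3 (mul_nonneg hC hG)
    exact norm_integral_le_of_norm_le h1 hbd
  have h3 : ∫ s in Ioo 0 t, (1 + ‖x‖ * (Real.sqrt (t - s))⁻¹) * (t ^ a * (C * Gam c t x))
      = (t + ‖x‖ * (2 * Real.sqrt t)) * (t ^ a * (C * Gam c t x)) := by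
    rw [integral_mul_const, (outer_weight ht.1 ‖x‖).2]
  rw [h3] at h2
  refine h2.trans ?_
  have h5 : Gam c t x ≤ Gam (c / 2) t x := Gam_mono (by linarith) ht0 x
  have h6 := hBb t x ht0
  rw [pow_one, Nat.cast_one, ← Real.sqrt_eq_rpow] at h6
  have h7 : t ^ (a + 1) = t ^ a * t := by rw [Real.rpow_add ht0, Real.rpow_one]
  have h8 : Real.sqrt t * Real.sqrt t = t := Real.mul_self_sqrt ht0.le
  rw [h7]
  calc (t + ‖x‖ * (2 * Real.sqrt t)) * (t ^ a * (C * Gam c t x))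
      = C * t ^ a * (t * Gam c t x) + 2 * C * t ^ a * Real.sqrt t * (‖x‖ * Gam c t x) := by ring
    _ ≤ C * t ^ a * (t * Gam (c / 2) t x) +
        2 * C * t ^ a * Real.sqrt t * (B * Real.sqrt t * Gam (c / 2) t x) := by
        refine add_le_add ?_ ?_
        · exact mul_le_mul_of_nonneg_left (mul_le_mul_of_nonneg_left h5 ht0.le) (by positivity)
        · exact mul_le_mul_of_nonneg_left h6 (by positivity)
    _ = C * t ^ a * (t * Gam (c / 2) t x) +
        2 * C * t ^ a * B * (Real.sqrt t * Real.sqrt t) * Gam (c / 2) t x := by ring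
    _ = (C + 2 * C * B) * (t ^ a * t) * Gam (c / 2) t x := by rw [h8]; ring

end Crest.Agent.R249.HK1_654
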