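/-
Row 249, part C, leaf HK1 (helper654): the calculus of the classes `VB`, `KB`, `KW`:
`cal : Cal M` for every family of metrics `M`.
-/
import Crest.Agent.R249.HK1b_654

set_option autoImplicit false

open MeasureTheory Filter Topology Set
open scoped RealInnerProductSpace

noncomputable section

namespace Crest.Agent.R249.HK1_654

open Crest.Agent.R249.HK286

variable {ι : Type*} {M : Met ι}

theorem star0_add_right {K : ι → ℝ → E4 → E4 → ℝ} {f g : ι → ℝ → E4 → ℝ} (hK : KW K)
    (hf : VB 0 f) (hg : VB 0 g) (i : ι) (t : ℝ) (ht : t ∈ Ioc (0 : ℝ) 1) (x : E4) :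
    M.star0 K (fun i t x => f i t x + g i t x) i t x = M.star0 K f i t x + M.star0 K g i t x := by
  unfold Met.star0
  rw [← integral_add (outer_integrable le_rfl hK hf i ht x) (outer_integrable le_rfl hK hg i ht x)]
  refine setIntegral_congr_fun measurableSet_Ioo fun s hs => ?_
  show ∫ z, K i (t - s) x z * (f i s z + g i s z) * M.w i z = _
  rw [← integral_add (inner_integrable hK hf i ht hs x) (inner_integrable hK hg i ht hs x)]
  refine integral_congr_ae (Eventually.of_forall fun z => ?_)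
  simp only []
  ring

theorem star0_add_left {K K' : ι → ℝ → E4 → E4 → ℝ} {f : ι → ℝ → E4 → ℝ} (hK : KW K) (hK' : KW K')
    (hf : VB 0 f) (i : ι) (t : ℝ) (ht : t ∈ Ioc (0 : ℝ) 1) (x : E4) :
    M.star0 (fun i t x z => K i t x z + K' i t x z) f i t x
      = M.star0 K f i t x + M.star0 K' f i t x := by
  unfold Met.star0
  rw [← integral_add (outer_integrable le_rfl hK hf i ht x) (outer_integrable le_rfl hK' hf i ht x)]
  refine setIntegral_congr_fun measurableSet_Ioo fun s hs => ?_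
  show ∫ z, (K i (t - s) x z + K' i (t - s) x z) * f i s z * M.w i z = _
  rw [← integral_add (inner_integrable hK hf i ht hs x) (inner_integrable hK' hf i ht hs x)]
  refine integral_congr_ae (Eventually.of_forall fun z => ?_)
  simp only []
  ring

theorem star_eq {κ : Type*} [Fintype κ] {a : ℝ} (ha : 0 ≤ a) {K : ι → ℝ → E4 → E4 → κ → κ → ℝ}
    {f : ι → ℝ → E4 → κ → κ → ℝ}
    (hK : ∀ p r, KW fun i t x z => K i t x z p r) (hf : ∀ r q, VB a fun i t x => f i t x r q)
    (i : ι) (t : ℝ) (ht : t ∈ Ioc (0 : ℝ) 1) (x : E4) (p q : κ) :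
    M.star K f i t x p q
      = ∑ r, M.star0 (fun i t x z => K i t x z p r) (fun i t x => f i t x r q) i t x := by
  unfold Met.star Met.star0
  rw [← integral_finsetSum _ fun r _ => outer_integrable ha (hK p r) (hf r q) i ht x]
  refine setIntegral_congr_fun measurableSet_Ioo fun s hs => ?_
  show ∫ z, (∑ r, K i (t - s) x z p r * f i s z r q) * M.w i z = _
  rw [← integral_finsetSum _ fun r _ => inner_integrable (hK p r) (hf r q) i ht hs x]
  refine integral_congr_ae (Eventually.of_forall fun z => ?_)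
  simp only [Finset.sum_mul]

theorem meas_star {κ : Type*} [Fintype κ] {K : ι → ℝ → E4 → E4 → κ → κ → ℝ}
    {f : ι → ℝ → E4 → κ → κ → ℝ}
    (hK : ∀ i p r, Measurable fun z : ℝ × E4 × E4 => K i z.1 z.2.1 z.2.2 p r)
    (hf : ∀ i r q, Measurable fun z : ℝ × E4 => f i z.1 z.2 r q) (i : ι) (p q : κ) :
    Measurable fun z : ℝ × E4 => M.star K f i z.1 z.2 p q := by
  have h0 : Measurable fun z : ((ℝ × E4) × ℝ) × E4 =>
      (∑ r, K i (z.1.1.1 - z.1.2) z.1.1.2 z.2 p r * f i z.1.2 z.2 r q) * M.w i z.2 := by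
    refine Measurable.mul ?_ ((w_cont M i).measurable.comp measurable_snd)
    refine Finset.measurable_fun_sum _ fun r _ => ?_
    refine Measurable.mul ?_ ?_
    · have h1 : Measurable fun z : ((ℝ × E4) × ℝ) × E4 =>
          ((z.1.1.1 - z.1.2, z.1.1.2, z.2) : ℝ × E4 × E4) := by
        fun_prop
      exact (hK i p r).comp h1
    · have h1 : Measurable fun z : ((ℝ × E4) × ℝ) × E4 => ((z.1.2, z.2) : ℝ × E4) := by
        fun_prop
      exact (hf i r q).comp h1
  have h := h0.stronglyMeasurable.integral_prod_right' (ν := (volume : Measure E4))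
  have hS : MeasurableSet {z : (ℝ × E4) × ℝ | 0 < z.2 ∧ z.2 < z.1.1} :=
    (measurableSet_lt measurable_const measurable_snd).inter
      (measurableSet_lt measurable_snd (measurable_fst.comp measurable_fst))
  have h2 := (h.indicator hS).integral_prod_right' (ν := (volume : Measure ℝ))
  have h3 : (fun z : ℝ × E4 => M.star K f i z.1 z.2 p q) = fun z : ℝ × E4 => ∫ s : ℝ,
      ({z : (ℝ × E4) × ℝ | 0 < z.2 ∧ z.2 < z.1.1}.indicator (fun z : (ℝ × E4) × ℝ =>
        ∫ y : E4, (∑ r, K i (z.1.1 - z.2) z.1.2 y p r * f i z.2 y r q) * M.w i y)) (z, s) := by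
    ext z
    unfold Met.star
    rw [← integral_indicator measurableSet_Ioo]
    refine integral_congr_ae (Eventually.of_forall fun s => ?_)
    by_cases hs : s ∈ Ioo 0 z.1
    · have hs' : (z, s) ∈ {z : (ℝ × E4) × ℝ | 0 < z.2 ∧ z.2 < z.1.1} := hs
      show (Ioo 0 z.1).indicator _ s = indicator _ _ (z, s)
      rw [indicator_of_mem hs, indicator_of_mem hs']
    · have hs' : (z, s) ∉ {z : (ℝ × E4) × ℝ | 0 < z.2 ∧ z.2 < z.1.1} := hs
      show (Ioo 0 z.1).indicator _ s = indicator _ _ (z, s)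
      rw [indicator_of_notMem hs, indicator_of_notMem hs']
  rw [h3]
  exact h2.measurable

theorem vb_zero (a : ℝ) : VB a (fun (_ : ι) (_ : ℝ) (_ : E4) => (0 : ℝ)) := by
  refine ⟨fun i => measurable_const, 0, 1, le_rfl, one_pos, fun i t ht x => ?_⟩
  simp

theorem vb_sum {κ : Type*} (s : Finset κ) {a : ℝ} {f : κ → ι → ℝ → E4 → ℝ}
    (hf : ∀ r ∈ s, VB a (f r)) : VB a (fun i t x => ∑ r ∈ s, f r i t x) := by
  classical
  induction s using Finset.induction_on with
  | empty => simpa using vb_zero a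
  | insert r s hr ih =>
    have h1 := vb_add (hf r (Finset.mem_insert_self r s))
      (ih fun r' hr' => hf r' (Finset.mem_insert_of_mem hr'))
    simpa [Finset.sum_insert hr] using h1

theorem star_vb {κ : Type*} [Fintype κ] {a : ℝ} (ha : 0 ≤ a) {K : ι → ℝ → E4 → E4 → κ → κ → ℝ}
    {f : ι → ℝ → E4 → κ → κ → ℝ}
    (hK : ∀ p r, KW fun i t x z => K i t x z p r) (hf : ∀ r q, VB a fun i t x => f i t x r q)
    (p q : κ) : VB (a + 1) fun i t x => M.star K f i t x p q := by
  obtain ⟨_, C, c, hC, hc, h⟩ := vb_sum (Finset.univ : Finset κ)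
    (f := fun r => M.star0 (fun i t x z => K i t x z p r) (fun i t x => f i t x r q))
    fun r _ => star0_vb (M := M) ha (hK p r) (hf r q)
  refine ⟨fun i => meas_star (fun i p r => (hK p r).1 i) (fun i r q => (hf r q).1 i) i p q,
    C, c, hC, hc, fun i t ht x => ?_⟩
  show |M.star K f i t x p q| ≤ _
  rw [star_eq ha hK hf i t ht x p q]
  exact h i t ht x

theorem int_mul {a b : ℝ} {f g : ι → ℝ → E4 → ℝ} (hf : VB a f) (hg : VB b g) :
    (∀ i, ∀ t ∈ Ioc (0 : ℝ) 1, Integrable fun x => f i t x * g i t x * M.w i x) ∧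
    ∃ C : ℝ, ∀ i, ∀ t ∈ Ioc (0 : ℝ) 1,
      |∫ x, f i t x * g i t x * M.w i x| ≤ C * t ^ (a + b - 2) := by
  obtain ⟨hfm, C1, c1, hC1, hc1, h1⟩ := hf
  obtain ⟨hgm, C2, c2, hC2, hc2, h2⟩ := hg
  obtain ⟨W, hW, hWb⟩ := w_bound M
  have hb : ∀ i, ∀ t ∈ Ioc (0 : ℝ) 1, ∀ x, ‖f i t x * g i t x * M.w i x‖
      ≤ (C1 * C2 * W * t ^ (a + b - 2)) * Gam c1 t x := by
    intro i t ht x
    have ht0 : 0 < t := ht.1
    have hta : 0 ≤ t ^ a := Real.rpow_nonneg ht0.le _
    have htb : 0 ≤ t ^ b := Real.rpow_nonneg ht0.le _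
    have hG1 := Gam_nonneg c1 t x
    have hG2 : Gam c2 t x ≤ (t ^ 2)⁻¹ := by
      unfold Gam
      have : Real.exp (-(c2 * ‖x‖ ^ 2 / t)) ≤ 1 := by
        rw [Real.exp_le_one_iff]
        have : 0 ≤ c2 * ‖x‖ ^ 2 / t := by positivity
        linarith
      calc (t ^ 2)⁻¹ * Real.exp (-(c2 * ‖x‖ ^ 2 / t)) ≤ (t ^ 2)⁻¹ * 1 :=
            mul_le_mul_of_nonneg_left this (by positivity)
        _ = _ := mul_one _
    have h3 : t ^ (a + b - 2) = t ^ a * t ^ b * (t ^ 2)⁻¹ := by
      rw [Real.rpow_sub ht0, Real.rpow_add ht0]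
      rw [div_eq_mul_inv]
      norm_num
    rw [Real.norm_eq_abs, abs_mul, abs_mul, h3]
    calc |f i t x| * |g i t x| * |M.w i x|
        ≤ (C1 * t ^ a * Gam c1 t x) * (C2 * t ^ b * (t ^ 2)⁻¹) * W := by
          refine mul_le_mul (mul_le_mul (h1 i t ht x) ((h2 i t ht x).trans ?_) (abs_nonneg _) ?_)
            (hWb i x) (abs_nonneg _) ?_
          · exact mul_le_mul_of_nonneg_left hG2 (by positivity)
          · positivity
          · positivity
      _ = _ := by ring
  have hmeas : ∀ i t, Measurable fun x => f i t x * g i t x * M.w i x := by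
    intro i t
    exact (((hfm i).comp (measurable_prodMk_left (x := t))).mul
      ((hgm i).comp (measurable_prodMk_left (x := t)))).mul (w_cont M i).measurable
  refine ⟨fun i t ht => ?_, C1 * C2 * W * (Real.pi / c1) ^ 2, fun i t ht => ?_⟩
  · exact ((integrable_Gam hc1 ht.1).const_mul _).mono' (hmeas i t).aestronglyMeasurable
      (Eventually.of_forall fun x => hb i t ht x)
  · have h4 := norm_integral_le_of_norm_le (f := fun x => f i t x * g i t x * M.w i x)
      ((integrable_Gam hc1 ht.1).const_mul (C1 * C2 * W * t ^ (a + b - 2)))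
      (Eventually.of_forall fun x => hb i t ht x)
    rw [Real.norm_eq_abs] at h4
    refine h4.trans (le_of_eq ?_)
    rw [integral_const_mul, integral_Gam hc1 ht.1]
    ring

/-- **HK1** -/
theorem cal (M : Met ι) : Cal M where
  vb_mono _ _ _ h hf := vb_mono h hf
  vb_add _ _ _ hf hg := vb_add hf hg
  vb_smul _ C _ hf := vb_smul C hf
  vb_mul _ _ _ _ hφm hφ hf := vb_mul hφm hφ hf
  kb_kw _ hK := kb_kw hK
  kw_add _ _ hK hK' := kw_add hK hK'
  kw_mul _ _ hφm hφ hK := kw_mul hφm hφ hK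
  star0_vb _ _ _ ha hK hf := star0_vb ha hK hf
  star0_add_right _ _ _ hK hf hg i t ht x := star0_add_right hK hf hg i t ht x
  star0_add_left _ _ _ hK hK' hf i t ht x := star0_add_left hK hK' hf i t ht x
  star_eq _ _ hK hf i t ht x p q := star_eq le_rfl hK hf i t ht x p q
  star_vb _ _ _ ha hK hf p q := star_vb ha hK hf p q
  int_mul _ _ _ _ _ _ hf hg := int_mul hf hg

end Crest.Agent.R249.HK1_654
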