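import Crest.Agent.R249.HK3C_352

/-!
Row 249, Part C, leaf HK2 (helper352), part A: pointwise identities of the metric (Jacobi's formula,
derivative of the inverse), general Taylor formula, the two cancellations
`4ρ - h(∂ρ, ∂ρ) = O(|x-z|^4)` and `Δρ - 8 = O(|x-z|^2)`.
-/

set_option autoImplicit false
set_option linter.unusedSectionVars false
open scoped ContDiff
open MeasureTheory Set Metric

namespace Crest.Agent.R249.HK352
open Crest.Agent.R249.HK286

/-! ### Jacobi's formula (adapted from R208.N3, helper589) -/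

section jacobi

variable {n : ℕ}
attribute [local instance] Matrix.normedAddCommGroup Matrix.normedSpace

theorem det_one_add_deriv (B : Matrix (Fin n) (Fin n) ℝ) :
    HasDerivAt (fun t : ℝ => (1 + t • B).det) B.trace 0 := by
  have h : ∀ t : ℝ, (1 + t • B).det = 1 + B.trace * t
      + (((1 : Matrix (Fin n) (Fin n) (Polynomial ℝ)) + (Polynomial.X : Polynomial ℝ) •
        B.map Polynomial.C).det.divX.divX.eval t) * t ^ 2 := by
    intro t; exact Matrix.det_one_add_smul _ _
  simp only [h]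
  have h0 : HasDerivAt (fun t : ℝ => t) 1 0 := hasDerivAt_id 0
  have h1 := (((1 : Matrix (Fin n) (Fin n) (Polynomial ℝ)) + (Polynomial.X : Polynomial ℝ) •
        B.map Polynomial.C).det.divX.divX).hasDerivAt (0 : ℝ)
  have h2 := ((h0.const_mul B.trace).const_add 1).add (h1.mul (h0.pow 2))
  refine h2.congr_deriv ?_
  simp

theorem diffAt_det (A : Matrix (Fin n) (Fin n) ℝ) :
    DifferentiableAt ℝ (fun B : Matrix (Fin n) (Fin n) ℝ => B.det) A := by
  simp only [Matrix.det_apply]
  refine DifferentiableAt.fun_sum fun σ _ => ?_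
  refine DifferentiableAt.fun_const_smul ?_ _
  have hL : ∀ i : Fin n, ∃ L : Matrix (Fin n) (Fin n) ℝ →L[ℝ] ℝ,
      HasFDerivAt (fun B : Matrix (Fin n) (Fin n) ℝ => B (σ i) i) L A := by
    intro i
    have h1 : HasFDerivAt (fun B : Matrix (Fin n) (Fin n) ℝ => (B (σ i) : Fin n → ℝ))
        (ContinuousLinearMap.proj (R := ℝ) (φ := fun _ : Fin n => Fin n → ℝ) (σ i)) A :=
      (ContinuousLinearMap.proj (R := ℝ) (φ := fun _ : Fin n => Fin n → ℝ) (σ i)).hasFDerivAt
    have h2 : HasFDerivAt (fun r : Fin n → ℝ => r i)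
        (ContinuousLinearMap.proj (R := ℝ) (φ := fun _ : Fin n => ℝ) i) (A (σ i)) :=
      (ContinuousLinearMap.proj (R := ℝ) (φ := fun _ : Fin n => ℝ) i).hasFDerivAt
    exact ⟨_, (h2.comp A h1 : HasFDerivAt ((fun r : Fin n → ℝ => r i) ∘
      (fun B : Matrix (Fin n) (Fin n) ℝ => (B (σ i) : Fin n → ℝ))) _ A)⟩
  choose L hL using hL
  exact (HasFDerivAt.finsetProd (u := Finset.univ)
    (g := fun i (B : Matrix (Fin n) (Fin n) ℝ) => B (σ i) i) (x := A)
      (fun i _ => hL i)).differentiableAt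

theorem det_deriv {A : ℝ → Matrix (Fin n) (Fin n) ℝ} {A' : Matrix (Fin n) (Fin n) ℝ} {t : ℝ}
    (hA : ∀ i j, HasDerivAt (fun t => A t i j) (A' i j) t) (hd : IsUnit (A t).det) :
    HasDerivAt (fun t => (A t).det) ((A t).det * ((A t)⁻¹ * A').trace) t := by
  have hA' : HasDerivAt A A' t := hasDerivAt_pi.2 fun i => hasDerivAt_pi.2 fun j => hA i j
  have h1 := (diffAt_det (A t)).hasFDerivAt
  have h2 := h1.comp_hasDerivAt t hA'
  refine h2.congr_deriv ?_
  have h3 : HasDerivAt (fun s : ℝ => A t + s • A') A' 0 := by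
    have := ((hasDerivAt_id (0 : ℝ)).smul_const A').const_add (A t)
    rw [one_smul] at this
    exact this
  have h4 : HasFDerivAt (fun B : Matrix (Fin n) (Fin n) ℝ => B.det)
      (fderiv ℝ (fun B : Matrix (Fin n) (Fin n) ℝ => B.det) (A t)) (A t + (0 : ℝ) • A') := by
    simpa using h1
  have h5 := h4.comp_hasDerivAt (0 : ℝ) h3
  have h6 : ((fun B : Matrix (Fin n) (Fin n) ℝ => B.det) ∘ fun s : ℝ => A t + s • A')
      = fun s : ℝ => (A t).det * (1 + s • ((A t)⁻¹ * A')).det := by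
    ext s
    simp only [Function.comp]
    rw [← Matrix.det_mul, Matrix.mul_add, Matrix.mul_one, Matrix.mul_smul, ← Matrix.mul_assoc,
      Matrix.mul_nonsing_inv _ hd, Matrix.one_mul]
  rw [h6] at h5
  have h7 := (det_one_add_deriv ((A t)⁻¹ * A')).const_mul (A t).det
  exact h5.unique h7

end jacobi

variable {ι : Type*} {M : Met ι}

theorem hasDerivAt_line {f : E4 → ℝ} {x : E4} (hf : DifferentiableAt ℝ f x) (k : Fin 4) :
    HasDerivAt (fun t : ℝ => f (x + t • EuclideanSpace.single k 1)) (pd k f x) 0 := by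
  have hline : HasDerivAt (fun t : ℝ => x + t • (EuclideanSpace.single k 1 : E4))
      (EuclideanSpace.single k 1 : E4) 0 := by
    have h1 := (hasDerivAt_id (0 : ℝ)).smul_const (EuclideanSpace.single k 1 : E4)
    rw [one_smul] at h1
    exact h1.const_add x
  have hf' : HasFDerivAt f (fderiv ℝ f x) (x + (0 : ℝ) • (EuclideanSpace.single k 1 : E4)) := by
    simpa using hf.hasFDerivAt
  exact hf'.comp_hasDerivAt 0 hline

theorem w_pos (M : Met ι) (i : ι) (x : E4) : 0 < M.w i x := by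
  obtain ⟨c, hc, h⟩ := M.wpos
  exact hc.trans_le (h i x)

theorem dg (M : Met ι) (i : ι) (a b : Fin 4) (x : E4) : DifferentiableAt ℝ (M.g i a b) x :=
  ((M.ubg a b).1 i).differentiable (by simp) x

theorem dh (M : Met ι) (i : ι) (a b : Fin 4) (x : E4) : DifferentiableAt ℝ (M.h i a b) x :=
  ((M.ubh a b).1 i).differentiable (by simp) x

theorem dw (M : Met ι) (i : ι) (x : E4) : DifferentiableAt ℝ (M.w i) x :=
  (M.ubw.1 i).differentiable (by simp) x

/-- Jacobi: `2 ∂_k w = w tr(h ∂_k g)` -/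
theorem jac (M : Met ι) (i : ι) (x : E4) (k : Fin 4) :
    2 * pd k (M.w i) x = M.w i x * ∑ a, ∑ b, M.h i a b x * pd k (M.g i a b) x := by
  set A : ℝ → Matrix (Fin 4) (Fin 4) ℝ := fun t =>
    Matrix.of fun a b => M.g i a b (x + t • EuclideanSpace.single k 1) with hA
  set A' : Matrix (Fin 4) (Fin 4) ℝ := Matrix.of fun a b => pd k (M.g i a b) x with hA'
  have hx0 : x + (0 : ℝ) • (EuclideanSpace.single k 1 : E4) = x := by simp
  have h1 : ∀ a b, HasDerivAt (fun t => A t a b) (A' a b) 0 := fun a b =>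
    hasDerivAt_line (dg M i a b x) k
  have hw := w_pos M i x
  have h2 : (A 0).det = M.w i x ^ 2 := by
    rw [M.wdet i x, hA]; simp only [hx0]
  have h3 : IsUnit (A 0).det := by
    rw [h2]; exact (pow_pos hw 2).ne'.isUnit
  have h4 := det_deriv h1 h3
  have h5 : HasDerivAt (fun t : ℝ => (M.w i (x + t • EuclideanSpace.single k 1)) ^ 2)
      (2 * M.w i x * pd k (M.w i) x) 0 := by
    have := (hasDerivAt_line (dw M i x) k).pow 2
    refine this.congr_deriv ?_
    rw [hx0]; simp
  have h6 : (fun t => (A t).det) =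
      fun t : ℝ => (M.w i (x + t • EuclideanSpace.single k 1)) ^ 2 := by
    funext t; rw [M.wdet]
  rw [h6] at h4
  have h7 := h4.unique h5
  have h8 : (A 0)⁻¹ = Matrix.of fun a b => M.h i a b x := by
    refine Matrix.inv_eq_left_inv ?_
    ext a b
    rw [Matrix.mul_apply, Matrix.one_apply]
    have := M.inv i a b x
    simpa [hA] using this
  have h9 : ((A 0)⁻¹ * A').trace = ∑ a, ∑ b, M.h i a b x * pd k (M.g i a b) x := by
    rw [h8, Matrix.trace]
    refine Finset.sum_congr rfl fun a _ => ?_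
    rw [Matrix.diag_apply, Matrix.mul_apply]
    refine Finset.sum_congr rfl fun b _ => ?_
    simp only [Matrix.of_apply, hA']
    rw [show M.g i b a = M.g i a b from funext fun y => M.gsymm i b a y]
  rw [h2, h9] at h7
  have h10 : M.w i x * (2 * pd k (M.w i) x) =
      M.w i x * (M.w i x * ∑ a, ∑ b, M.h i a b x * pd k (M.g i a b) x) := by
    linarith
  exact mul_left_cancel₀ hw.ne' h10

/-- derivative of `h g = 1` -/
theorem dinv (M : Met ι) (i : ι) (x : E4) (j a b : Fin 4) :
    ∑ c, pd j (M.h i a c) x * M.g i c b x = - ∑ c, M.h i a c x * pd j (M.g i c b) x := by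
  have h1 : pd j (fun y => ∑ c, M.h i a c y * M.g i c b y) x = 0 := by
    have : (fun y => ∑ c, M.h i a c y * M.g i c b y) = fun _ => if a = b then (1 : ℝ) else 0 :=
      funext fun y => M.inv i a b y
    rw [this]
    exact pd_const _ x j
  rw [pd_sum _ fun c _ => (dh M i a c x).fun_mul (dg M i c b x)] at h1
  have h2 : ∀ c, pd j (fun y => M.h i a c y * M.g i c b y) x =
      pd j (M.h i a c) x * M.g i c b x + M.h i a c x * pd j (M.g i c b) x := fun c =>
    pd_mul (dh M i a c x) (dg M i c b x) j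
  simp only [h2, Finset.sum_add_distrib] at h1
  linarith

/-! ### general Taylor formula -/

/-- first order Taylor formula at a general point -/
theorem UB.taylor' {f : ι → E4 → ℝ} (h : UB f) :
    ∃ C : ℝ, 0 ≤ C ∧ ∀ i x z,
      |f i z - f i x + ∑ k, (x k - z k) * HK286.pd k (f i) x| ≤ C * ‖x - z‖ ^ 2 := by
  obtain ⟨C, hC0, hC⟩ := UB.bd h 2
  refine ⟨C, hC0, fun i x z => ?_⟩
  have hfd : ∀ z, ‖fderiv ℝ (fun y => fderiv ℝ (f i) y) z‖ ≤ C := by
    intro z
    have h1 : ‖iteratedFDeriv ℝ 2 (f i) z‖ = ‖fderiv ℝ (fderiv ℝ (f i)) z‖ := by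
      rw [show (2 : ℕ) = 1 + 1 from rfl, ← norm_iteratedFDeriv_fderiv,
        show (1 : ℕ) = 0 + 1 from rfl, ← norm_iteratedFDeriv_fderiv, norm_iteratedFDeriv_zero]
    rw [← h1]; exact hC i z
  have hsm : ContDiff ℝ ∞ (fderiv ℝ (f i)) := (h.1 i).fderiv_right (m := ∞) (by simp)
  have hd : ∀ y, ‖fderiv ℝ (f i) y - fderiv ℝ (f i) x‖ ≤ C * ‖y - x‖ := by
    intro y
    exact Convex.norm_image_sub_le_of_norm_fderiv_le (𝕜 := ℝ) (f := fderiv ℝ (f i)) (s := univ)
      (C := C) (fun y _ => (hsm.differentiable (by simp)) y) (fun y _ => hfd y) convex_univ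
      (mem_univ x) (mem_univ y)
  have key := Convex.norm_image_sub_le_of_norm_hasFDerivWithin_le (𝕜 := ℝ)
    (f := fun y => f i y - fderiv ℝ (f i) x y)
    (f' := fun y => fderiv ℝ (f i) y - fderiv ℝ (f i) x)
    (s := closedBall x ‖z - x‖) (C := C * ‖z - x‖)
    (fun y _ => (((UB.differentiable h i) y).hasFDerivAt.sub
      (fderiv ℝ (f i) x).hasFDerivAt).hasFDerivWithinAt)
    (fun y hy => (hd y).trans (mul_le_mul_of_nonneg_left (by simpa [dist_eq_norm] using hy) hC0))
    (convex_closedBall x ‖z - x‖) (mem_closedBall_self (norm_nonneg _))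
    (by simp [dist_eq_norm] : z ∈ closedBall x ‖z - x‖)
  have e2 : fderiv ℝ (f i) x (x - z) = ∑ k, (x k - z k) * HK286.pd k (f i) x :=
    fderiv_eq_sum_pd x (x - z)
  have e1 : (f i z - fderiv ℝ (f i) x z) - (f i x - fderiv ℝ (f i) x x) =
      f i z - f i x + ∑ k, (x k - z k) * HK286.pd k (f i) x := by
    rw [← e2, map_sub]; ring
  rw [e1, Real.norm_eq_abs, norm_sub_rev z x] at key
  calc |f i z - f i x + ∑ k, (x k - z k) * HK286.pd k (f i) x| ≤ C * ‖x - z‖ * ‖x - z‖ := key
    _ = C * ‖x - z‖ ^ 2 := by ring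

/-! ### the remainders -/

/-- `r = g(z) - g(x) + ∂_v g(x)`, `v = x - z` -/
noncomputable def rr (M : Met ι) (i : ι) (x z : E4) (a b : Fin 4) : ℝ :=
  M.g i a b z - M.g i a b x + ∑ k, (x k - z k) * pd k (M.g i a b) x

/-- `m_l = (g(z) - g(x)) v + (1/2) ∂_l g(x) (v, v)` -/
noncomputable def mm (M : Met ι) (i : ι) (x z : E4) (l : Fin 4) : ℝ :=
  ∑ b, (M.g i l b z - M.g i l b x) * (x b - z b)
    + 1 / 2 * ∑ a, ∑ b, pd l (M.g i a b) x * (x a - z a) * (x b - z b)

theorem rr_le (M : Met ι) : ∃ C : ℝ, 0 ≤ C ∧ ∀ a b i x z, |rr M i x z a b| ≤ C * ‖x - z‖ ^ 2 := by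
  choose C hC0 hC using fun ab : Fin 4 × Fin 4 => UB.taylor' (M.ubg ab.1 ab.2)
  refine ⟨∑ ab, C ab, Finset.sum_nonneg fun _ _ => hC0 _, fun a b i x z => ?_⟩
  exact (hC (a, b) i x z).trans (mul_le_mul_of_nonneg_right
    (Finset.single_le_sum (fun b _ => hC0 b) (Finset.mem_univ (a, b))) (by positivity))

theorem glip (M : Met ι) : ∃ C : ℝ, 0 ≤ C ∧ ∀ a b i x y, |M.g i a b x - M.g i a b y| ≤
    C * ‖x - y‖ := by
  choose C hC0 hC using fun ab : Fin 4 × Fin 4 => UB.lip (M.ubg ab.1 ab.2)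
  refine ⟨∑ ab, C ab, Finset.sum_nonneg fun _ _ => hC0 _, fun a b i x z => ?_⟩
  exact (hC (a, b) i x z).trans (mul_le_mul_of_nonneg_right
    (Finset.single_le_sum (fun b _ => hC0 b) (Finset.mem_univ (a, b))) (by positivity))

theorem dg_le (M : Met ι) : ∃ C : ℝ, 0 ≤ C ∧ ∀ l a b i x, |pd l (M.g i a b) x| ≤ C := by
  obtain ⟨D, hD0, hD⟩ := UB.bdd_fin
    (f := fun jab : Fin 4 × Fin 4 × Fin 4 => fun i => pd jab.1 (M.g i jab.2.1 jab.2.2))
    (fun jab => UB.pd (M.ubg jab.2.1 jab.2.2) jab.1)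
  exact ⟨D, hD0, fun l a b i x => hD (l, a, b) i x⟩

theorem ddg_le (M : Met ι) : ∃ C : ℝ, 0 ≤ C ∧ ∀ j l a b i x,
    |pd j (pd l (M.g i a b)) x| ≤ C := by
  obtain ⟨D, hD0, hD⟩ := UB.bdd_fin
    (f := fun jab : Fin 4 × Fin 4 × Fin 4 × Fin 4 => fun i =>
      pd jab.1 (pd jab.2.1 (M.g i jab.2.2.1 jab.2.2.2)))
    (fun jab => UB.pd (UB.pd (M.ubg jab.2.2.1 jab.2.2.2) jab.2.1) jab.1)
  exact ⟨D, hD0, fun j l a b i x => hD (j, l, a, b) i x⟩

theorem h_le' (M : Met ι) : ∃ C : ℝ, 0 ≤ C ∧ ∀ j l i x, |M.h i j l x| ≤ C := by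
  obtain ⟨C, hC0, hC⟩ := UB.bdd_fin (f := fun jl : Fin 4 × Fin 4 => fun i => M.h i jl.1 jl.2)
    (fun jl => M.ubh _ _)
  exact ⟨C, hC0, fun j l i x => hC (j, l) i x⟩

theorem g_le' (M : Met ι) : ∃ C : ℝ, 0 ≤ C ∧ ∀ j l i x, |M.g i j l x| ≤ C := by
  obtain ⟨C, hC0, hC⟩ := UB.bdd_fin (f := fun jl : Fin 4 × Fin 4 => fun i => M.g i jl.1 jl.2)
    (fun jl => M.ubg _ _)
  exact ⟨C, hC0, fun j l i x => hC (j, l) i x⟩

/-- sums over two indices -/
theorem abs_sum2_le {f : Fin 4 → Fin 4 → ℝ} {B : ℝ} (h : ∀ a b, |f a b| ≤ B) :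
    |∑ a, ∑ b, f a b| ≤ 16 * B := by
  refine (Finset.abs_sum_le_sum_abs _ _).trans ?_
  refine (Finset.sum_le_sum fun j _ => (Finset.abs_sum_le_sum_abs _ _).trans
    (Finset.sum_le_sum fun l _ => h j l)).trans (le_of_eq ?_)
  simp only [Finset.sum_const, Finset.card_univ, Fintype.card_fin, nsmul_eq_mul]
  push_cast
  ring

theorem abs_sum1_le {f : Fin 4 → ℝ} {B : ℝ} (h : ∀ a, |f a| ≤ B) :
    |∑ a, f a| ≤ 4 * B := by
  refine (Finset.abs_sum_le_sum_abs _ _).trans ?_
  refine (Finset.sum_le_sum fun j _ => h j).trans (le_of_eq ?_)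
  simp only [Finset.sum_const, Finset.card_univ, Fintype.card_fin, nsmul_eq_mul]
  push_cast
  ring

/-- quadratic form with entries bounded by `B` -/
theorem quad_le {f : Fin 4 → Fin 4 → ℝ} {B : ℝ} (h : ∀ a b, |f a b| ≤ B) (x z : E4) :
    |∑ a, ∑ b, f a b * (x a - z a) * (x b - z b)| ≤ 16 * (B * ‖x - z‖ ^ 2) := by
  refine abs_sum2_le fun a b => ?_
  have hB : 0 ≤ B := (abs_nonneg _).trans (h a b)
  rw [abs_mul, abs_mul, pow_two, ← mul_assoc]
  exact mul_le_mul (mul_le_mul (h a b) (abs_sub_coord_le x z a)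
    (abs_nonneg _) hB) (abs_sub_coord_le x z b) (abs_nonneg _) (by positivity)

theorem mm_le (M : Met ι) : ∃ C : ℝ, 0 ≤ C ∧ ∀ l i x z, |mm M i x z l| ≤ C * ‖x - z‖ ^ 2 := by
  obtain ⟨C, hC0, hC⟩ := glip M
  obtain ⟨D, hD0, hD⟩ := dg_le M
  refine ⟨4 * C + 8 * D, by positivity, fun l i x z => ?_⟩
  unfold mm
  have h1 : |∑ b, (M.g i l b z - M.g i l b x) * (x b - z b)| ≤ 4 * (C * ‖x - z‖ ^ 2) := by
    refine abs_sum1_le fun b => ?_
    rw [abs_mul, pow_two, ← mul_assoc]
    have e1 := hC l b i z x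
    rw [norm_sub_rev] at e1
    exact mul_le_mul e1 (abs_sub_coord_le x z b) (abs_nonneg _) (by positivity)
  have h2 := quad_le (f := fun a b => pd l (M.g i a b) x) (fun a b => hD l a b i x) x z
  refine (abs_add_le _ _).trans ?_
  rw [abs_mul, abs_of_pos (show (0 : ℝ) < 1 / 2 by norm_num)]
  linarith

theorem rx_eq (M : Met ι) (j : Fin 4) (i : ι) (x z : E4) :
    M.rx j i x z = 2 * ∑ b, M.g i j b x * (x b - z b) + mm M i x z j := by
  unfold Met.rx mm
  have e1 : ∑ b, (M.g i j b x + M.g i j b z) * (x b - z b) =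
      2 * ∑ b, M.g i j b x * (x b - z b) + ∑ b, (M.g i j b z - M.g i j b x) * (x b - z b) := by
    rw [Finset.mul_sum, ← Finset.sum_add_distrib]
    refine Finset.sum_congr rfl fun b _ => ?_
    ring
  rw [e1]
  ring

/-- `Σ_j h^{jl} g_{jb} = δ_lb` -/
theorem inv' (M : Met ι) (i : ι) (x : E4) (l b : Fin 4) :
    ∑ j, M.h i j l x * M.g i j b x = if l = b then 1 else 0 := by
  rw [← M.inv i l b x]
  exact Finset.sum_congr rfl fun j _ => by rw [M.hsymm i j l x]

theorem h_rx (M : Met ι) (l : Fin 4) (i : ι) (x z : E4) :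
    ∑ j, M.h i j l x * M.rx j i x z = 2 * (x l - z l) + ∑ j, M.h i j l x * mm M i x z j := by
  have h1 : ∑ j, M.h i j l x * ∑ b, M.g i j b x * (x b - z b) = x l - z l := by
    have e1 : ∀ j, M.h i j l x * ∑ b, M.g i j b x * (x b - z b) =
        ∑ b, M.h i j l x * M.g i j b x * (x b - z b) := fun j => by
      rw [Finset.mul_sum]; exact Finset.sum_congr rfl fun b _ => by ring
    simp only [e1]
    rw [Finset.sum_comm]
    have e2 : ∀ b, ∑ j, M.h i j l x * M.g i j b x * (x b - z b) =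
        (if l = b then 1 else 0) * (x b - z b) := fun b => by
      rw [← Finset.sum_mul, inv']
    simp only [e2]
    simp
  simp only [rx_eq, mul_add, Finset.sum_add_distrib]
  congr 1
  rw [← h1, Finset.mul_sum]
  exact Finset.sum_congr rfl fun j _ => by ring

theorem sum_rot (F : Fin 4 → Fin 4 → Fin 4 → ℝ) :
    ∑ a, ∑ b, ∑ k, F a b k = ∑ k, ∑ a, ∑ b, F a b k := by
  calc ∑ a, ∑ b, ∑ k, F a b k = ∑ a, ∑ k, ∑ b, F a b k :=
        Finset.sum_congr rfl fun a _ => Finset.sum_comm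
    _ = ∑ k, ∑ a, ∑ b, F a b k := Finset.sum_comm

/-- first cancellation -/
theorem eik (M : Met ι) (i : ι) (x z : E4) :
    4 * M.rho i x z - ∑ j, ∑ l, M.h i j l x * M.rx j i x z * M.rx l i x z =
      -(2 * ∑ a, ∑ b, rr M i x z a b * (x a - z a) * (x b - z b))
      - ∑ j, ∑ l, M.h i j l x * mm M i x z j * mm M i x z l := by
  -- notation
  set v : Fin 4 → ℝ := fun a => x a - z a with hv
  set Sv : Fin 4 → ℝ := fun j => ∑ b, M.g i j b x * v b with hSv
  set m : Fin 4 → ℝ := fun j => mm M i x z j with hm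
  set d : ℝ := ∑ k, ∑ a, ∑ b, pd k (M.g i a b) x * v a * v b * v k with hd
  have hrx : ∀ j, M.rx j i x z = 2 * Sv j + m j := fun j => rx_eq M j i x z
  have hhS : ∀ l, ∑ j, M.h i j l x * Sv j = v l := by
    intro l
    have e1 : ∀ j, M.h i j l x * Sv j = ∑ b, M.h i j l x * M.g i j b x * v b := fun j => by
      rw [hSv]; simp only; rw [Finset.mul_sum]; exact Finset.sum_congr rfl fun b _ => by ring
    simp only [e1]
    rw [Finset.sum_comm]
    have e2 : ∀ b, ∑ j, M.h i j l x * M.g i j b x * v b = (if l = b then 1 else 0) * v b :=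
      fun b => by rw [← Finset.sum_mul, inv']
    simp only [e2]
    simp
  -- expand the quadratic form
  have q1 : ∑ j, ∑ l, M.h i j l x * M.rx j i x z * M.rx l i x z =
      4 * ∑ l, v l * Sv l + 4 * ∑ l, v l * m l + ∑ j, ∑ l, M.h i j l x * m j * m l := by
    have e1 : ∀ j l, M.h i j l x * M.rx j i x z * M.rx l i x z =
        4 * (M.h i j l x * Sv j * Sv l) + 2 * (M.h i j l x * Sv j * m l)
        + 2 * (M.h i j l x * Sv l * m j) + M.h i j l x * m j * m l := by
      intro j l; rw [hrx j, hrx l]; ring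
    simp only [e1, Finset.sum_add_distrib, ← Finset.mul_sum]
    have s1 : ∀ f : Fin 4 → ℝ, ∑ j, ∑ l, M.h i j l x * Sv j * f l = ∑ l, v l * f l := by
      intro f
      rw [Finset.sum_comm]
      refine Finset.sum_congr rfl fun l _ => ?_
      rw [← Finset.sum_mul, hhS]
    have s2 : ∑ j, ∑ l, M.h i j l x * Sv l * m j = ∑ l, v l * m l := by
      refine Finset.sum_congr rfl fun j _ => ?_
      rw [← Finset.sum_mul]
      congr 1
      rw [← hhS j]
      exact Finset.sum_congr rfl fun l _ => by rw [M.hsymm i j l x]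
    rw [s1 Sv, s1 m, s2]
    ring
  -- the terms
  have q2 : ∑ l, v l * m l = ∑ a, ∑ b, rr M i x z a b * v a * v b - d + 1 / 2 * d := by
    have e1 : ∀ l, v l * m l = ∑ b, (M.g i l b z - M.g i l b x) * v l * v b
        + 1 / 2 * ∑ a, ∑ b, pd l (M.g i a b) x * v a * v b * v l := by
      intro l
      simp only [hm, mm, hv]
      rw [mul_add, Finset.mul_sum]
      congr 1
      · exact Finset.sum_congr rfl fun b _ => by ring
      · rw [← mul_assoc, mul_comm (x l - z l) (1 / 2), mul_assoc, Finset.mul_sum]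
        congr 1
        refine Finset.sum_congr rfl fun a _ => ?_
        rw [Finset.mul_sum]
        exact Finset.sum_congr rfl fun b _ => by ring
    simp only [e1, Finset.sum_add_distrib, ← Finset.mul_sum]
    rw [← hd]
    congr 1
    have e2 : ∀ a b, rr M i x z a b * v a * v b = (M.g i a b z - M.g i a b x) * v a * v b
        + ∑ k, pd k (M.g i a b) x * v a * v b * v k := by
      intro a b
      simp only [rr]
      rw [add_mul, add_mul, Finset.sum_mul, Finset.sum_mul]
      congr 1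
      exact Finset.sum_congr rfl fun k _ => by simp only [hv]; ring
    simp only [e2, Finset.sum_add_distrib]
    rw [sum_rot fun a b k => pd k (M.g i a b) x * v a * v b * v k, ← hd]
    ring
  have q3 : 4 * M.rho i x z = 4 * ∑ l, v l * Sv l
      + 2 * ∑ a, ∑ b, rr M i x z a b * v a * v b - 2 * d := by
    have e1 : ∀ a b, (M.g i a b x + M.g i a b z) * (x a - z a) * (x b - z b) =
        2 * (v a * (M.g i a b x * v b)) + rr M i x z a b * v a * v b
        - ∑ k, pd k (M.g i a b) x * v a * v b * v k := by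
      intro a b
      have : ∑ k, pd k (M.g i a b) x * v a * v b * v k =
          (∑ k, (x k - z k) * pd k (M.g i a b) x) * v a * v b := by
        rw [Finset.sum_mul, Finset.sum_mul]
        exact Finset.sum_congr rfl fun k _ => by simp only [hv]; ring
      rw [this]
      simp only [rr, hv]
      ring
    unfold Met.rho
    simp only [e1, Finset.sum_add_distrib, Finset.sum_sub_distrib, ← Finset.mul_sum]
    rw [sum_rot fun a b k => pd k (M.g i a b) x * v a * v b * v k, ← hd]
    ring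
  rw [q1, q2, q3]
  ring

/-- second cancellation -/
theorem lap8 (M : Met ι) (i : ι) (x z : E4) :
    M.lr i x z - 8 = ∑ j, ∑ l, M.h i j l x * rr M i x z j l
      + 1 / 2 * ∑ j, ∑ l, M.h i j l x *
        ∑ a, ∑ b, pd j (pd l (M.g i a b)) x * (x a - z a) * (x b - z b)
      + ∑ l, M.be l i x * mm M i x z l := by
  set v : Fin 4 → ℝ := fun a => x a - z a with hv
  have hw := w_pos M i x
  -- trace of the inverse
  have t0 : ∑ j, ∑ l, M.h i j l x * M.g i j l x = 4 := by
    have : ∀ j, ∑ l, M.h i j l x * M.g i j l x = 1 := by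
      intro j
      have := M.inv i j j x
      rw [if_pos rfl] at this
      rw [← this]
      exact Finset.sum_congr rfl fun l _ => by rw [M.gsymm i j l x]
    simp only [this]
    simp
  -- first order coefficients
  have tb : ∀ b, ∑ l, M.be l i x * M.g i l b x =
      1 / 2 * (∑ j, ∑ l, M.h i j l x * pd b (M.g i j l) x)
      - ∑ j, ∑ l, M.h i j l x * pd j (M.g i l b) x := by
    intro b
    have e1 : ∀ l, M.be l i x * M.g i l b x =
        (M.w i x)⁻¹ * ∑ j, (pd j (M.w i) x * (M.h i j l x * M.g i l b x)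
          + M.w i x * (pd j (M.h i j l) x * M.g i l b x)) := by
      intro l
      unfold Met.be
      rw [mul_assoc, Finset.sum_mul]
      congr 1
      refine Finset.sum_congr rfl fun j _ => ?_
      rw [pd_mul (dw M i x) (dh M i j l x)]
      ring
    simp only [e1, ← Finset.mul_sum]
    rw [Finset.sum_comm]
    simp only [Finset.sum_add_distrib, ← Finset.mul_sum, M.inv i _ b x, dinv M i x]
    have e2 : ∑ j, pd j (M.w i) x * (if j = b then (1 : ℝ) else 0) = pd b (M.w i) x := by simp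
    rw [e2]
    have e3 := jac M i x b
    have e4 : pd b (M.w i) x = M.w i x * (1 / 2 * ∑ a, ∑ c, M.h i a c x * pd b (M.g i a c) x) := by
      linarith
    rw [e4, ← mul_add, ← mul_assoc, inv_mul_cancel₀ hw.ne', one_mul, Finset.sum_neg_distrib]
    ring
  -- expansion of the second order part
  have p1 : ∑ j, ∑ l, M.h i j l x * M.rxx j l i x z =
      8 + ∑ j, ∑ l, M.h i j l x * rr M i x z j l
      - ∑ b, v b * (∑ j, ∑ l, M.h i j l x * pd b (M.g i j l) x)
      + 2 * ∑ b, v b * (∑ j, ∑ l, M.h i j l x * pd j (M.g i l b) x)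
      + 1 / 2 * ∑ j, ∑ l, M.h i j l x *
        ∑ a, ∑ b, pd j (pd l (M.g i a b)) x * v a * v b := by
    have e1 : ∀ j l, M.h i j l x * M.rxx j l i x z =
        2 * (M.h i j l x * M.g i j l x) + M.h i j l x * rr M i x z j l
        - ∑ b, v b * (M.h i j l x * pd b (M.g i j l) x)
        + ∑ b, v b * (M.h i j l x * pd j (M.g i l b) x)
        + ∑ b, v b * (M.h i j l x * pd l (M.g i j b) x)
        + 1 / 2 * (M.h i j l x * ∑ a, ∑ b, pd j (pd l (M.g i a b)) x * v a * v b) := by
      intro j l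
      have s1 : ∑ b, v b * (M.h i j l x * pd b (M.g i j l) x) =
          M.h i j l x * ∑ b, (x b - z b) * pd b (M.g i j l) x := by
        rw [Finset.mul_sum]; exact Finset.sum_congr rfl fun b _ => by simp only [hv]; ring
      have s2 : ∑ b, v b * (M.h i j l x * pd j (M.g i l b) x) =
          M.h i j l x * ∑ a, pd j (M.g i l a) x * (x a - z a) := by
        rw [Finset.mul_sum]; exact Finset.sum_congr rfl fun b _ => by simp only [hv]; ring
      have s3 : ∑ b, v b * (M.h i j l x * pd l (M.g i j b) x) =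
          M.h i j l x * ∑ a, pd l (M.g i j a) x * (x a - z a) := by
        rw [Finset.mul_sum]; exact Finset.sum_congr rfl fun b _ => by simp only [hv]; ring
      rw [s1, s2, s3]
      simp only [Met.rxx, rr]
      ring
    simp only [e1, Finset.sum_add_distrib, Finset.sum_sub_distrib, ← Finset.mul_sum]
    rw [t0, sum_rot fun j l b => v b * (M.h i j l x * pd b (M.g i j l) x),
      sum_rot fun j l b => v b * (M.h i j l x * pd j (M.g i l b) x),
      sum_rot fun j l b => v b * (M.h i j l x * pd l (M.g i j b) x)]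
    have s4 : ∑ b, ∑ j, ∑ l, v b * (M.h i j l x * pd l (M.g i j b) x) =
        ∑ b, ∑ j, ∑ l, v b * (M.h i j l x * pd j (M.g i l b) x) := by
      refine Finset.sum_congr rfl fun b _ => ?_
      rw [Finset.sum_comm]
      refine Finset.sum_congr rfl fun j _ => Finset.sum_congr rfl fun l _ => ?_
      rw [M.hsymm i l j x]
    rw [s4]
    simp only [← Finset.mul_sum]
    ring
  have p2 : ∑ l, M.be l i x * M.rx l i x z =
      ∑ b, v b * (∑ j, ∑ l, M.h i j l x * pd b (M.g i j l) x)
      - 2 * ∑ b, v b * (∑ j, ∑ l, M.h i j l x * pd j (M.g i l b) x)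
      + ∑ l, M.be l i x * mm M i x z l := by
    have e1 : ∀ l, M.be l i x * M.rx l i x z =
        2 * (∑ b, v b * (M.be l i x * M.g i l b x)) + M.be l i x * mm M i x z l := by
      intro l
      have s1 : ∑ b, v b * (M.be l i x * M.g i l b x) =
          M.be l i x * ∑ b, M.g i l b x * (x b - z b) := by
        rw [Finset.mul_sum]; exact Finset.sum_congr rfl fun b _ => by simp only [hv]; ring
      rw [rx_eq, s1]
      ring
    simp only [e1, Finset.sum_add_distrib, ← Finset.mul_sum]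
    rw [Finset.sum_comm]
    simp only [← Finset.mul_sum, tb]
    rw [Finset.mul_sum, Finset.mul_sum, ← Finset.sum_sub_distrib]
    congr 1
    refine Finset.sum_congr rfl fun b _ => ?_
    ring
  unfold Met.lr
  rw [p1, p2]
  ring

end Crest.Agent.R249.HK352
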