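import Crest.Agent.R249.HK2A_352

/-!
Row 249, Part C, leaf HK2 (helper352), part B: second derivatives of `ρ`, the Laplacian of `G` and
`H_m`, time derivative: `∂_t H_m = e0 + Δ H_m`.
-/

set_option autoImplicit false
set_option linter.unusedSectionVars false
open scoped ContDiff
open MeasureTheory Set Metric

namespace Crest.Agent.R249.HK352
open Crest.Agent.R249.HK286

variable {ι : Type*} {M : Met ι}

theorem contDiff_pdg (M : Met ι) (i : ι) (l a b : Fin 4) : ContDiff ℝ ∞ (pd l (M.g i a b)) :=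
  contDiff_pd ((M.ubg a b).1 i) l

theorem pd_sub_coord (a j : Fin 4) (x z : E4) :
    pd j (fun x : E4 => x a - z a) x = if a = j then 1 else 0 := by
  rw [pd_sub ((contDiff_coord a).differentiable (by simp) x) (differentiableAt_const _),
    pd_coord, pd_const, sub_zero]

theorem diff_sub_coord (a : Fin 4) (x z : E4) :
    DifferentiableAt ℝ (fun x : E4 => x a - z a) x :=
  ((contDiff_coord a).differentiable (by simp) x).sub (differentiableAt_const _)

theorem contDiff_rx (M : Met ι) (l : Fin 4) (i : ι) (z : E4) :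
    ContDiff ℝ ∞ (fun x => M.rx l i x z) := by
  have h1 : (fun x => M.rx l i x z) = pd l (fun x => M.rho i x z) :=
    funext fun x => (pd_rho M i x z l).symm
  rw [h1]
  exact contDiff_pd (contDiff_rho M i z) l

theorem pd_rx (M : Met ι) (i : ι) (x z : E4) (j l : Fin 4) :
    pd j (fun x => M.rx l i x z) x = M.rxx j l i x z := by
  have d1 : ∀ b, DifferentiableAt ℝ (fun x => (M.g i l b x + M.g i l b z) * (x b - z b)) x :=
    fun b => ((dg M i l b x).add (differentiableAt_const _)).fun_mul (diff_sub_coord b x z)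
  have d2 : ∀ a b, DifferentiableAt ℝ (fun x => pd l (M.g i a b) x * (x a - z a) * (x b - z b)) x :=
    fun a b => (((contDiff_pdg M i l a b).differentiable (by simp) x).fun_mul
      (diff_sub_coord a x z)).fun_mul (diff_sub_coord b x z)
  have d3 : ∀ a, DifferentiableAt ℝ
      (fun x => ∑ b, pd l (M.g i a b) x * (x a - z a) * (x b - z b)) x := fun a =>
    DifferentiableAt.fun_sum fun b _ => d2 a b
  have p1 : ∀ b, pd j (fun x => (M.g i l b x + M.g i l b z) * (x b - z b)) x =
      pd j (M.g i l b) x * (x b - z b) + (M.g i l b x + M.g i l b z) * (if b = j then 1 else 0) := by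
    intro b
    have e0 : DifferentiableAt ℝ (fun x => M.g i l b x + M.g i l b z) x :=
      (dg M i l b x).add (differentiableAt_const _)
    rw [pd_mul e0 (diff_sub_coord b x z), pd_sub_coord, pd_add (dg M i l b x)
      (differentiableAt_const _), pd_const, add_zero]
  have p2 : ∀ a b, pd j (fun x => pd l (M.g i a b) x * (x a - z a) * (x b - z b)) x =
      pd j (pd l (M.g i a b)) x * (x a - z a) * (x b - z b)
      + pd l (M.g i a b) x * (if a = j then 1 else 0) * (x b - z b)
      + pd l (M.g i a b) x * (x a - z a) * (if b = j then 1 else 0) := by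
    intro a b
    have e0 : DifferentiableAt ℝ (pd l (M.g i a b)) x :=
      (contDiff_pdg M i l a b).differentiable (by simp) x
    have e1 : DifferentiableAt ℝ (fun x => pd l (M.g i a b) x * (x a - z a)) x :=
      e0.fun_mul (diff_sub_coord a x z)
    rw [pd_mul e1 (diff_sub_coord b x z), pd_mul e0 (diff_sub_coord a x z), pd_sub_coord,
      pd_sub_coord]
    ring
  unfold Met.rx Met.rxx
  rw [pd_add (DifferentiableAt.fun_sum fun b _ => d1 b)
    ((differentiableAt_const _).fun_mul (DifferentiableAt.fun_sum fun a _ => d3 a)),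
    pd_sum _ fun b _ => d1 b, pd_const_mul (DifferentiableAt.fun_sum fun a _ => d3 a),
    pd_sum _ fun a _ => d3 a]
  have p3 : ∀ a, pd j (fun x => ∑ b, pd l (M.g i a b) x * (x a - z a) * (x b - z b)) x =
      ∑ b, (pd j (pd l (M.g i a b)) x * (x a - z a) * (x b - z b)
      + pd l (M.g i a b) x * (if a = j then 1 else 0) * (x b - z b)
      + pd l (M.g i a b) x * (x a - z a) * (if b = j then 1 else 0)) := by
    intro a
    rw [pd_sum _ fun b _ => d2 a b]
    exact Finset.sum_congr rfl fun b _ => p2 a b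
  simp only [p1, p3, Finset.sum_add_distrib]
  have q0 : ∑ b, (M.g i l b x + M.g i l b z) * (if b = j then (1 : ℝ) else 0) =
      M.g i j l x + M.g i j l z := by
    simp only [mul_ite, mul_one, mul_zero, Finset.sum_ite_eq', Finset.mem_univ, if_true]
    rw [M.gsymm i l j x, M.gsymm i l j z]
  have q1 : ∑ a, ∑ b, pd l (M.g i a b) x * (if a = j then (1 : ℝ) else 0) * (x b - z b) =
      ∑ a, pd l (M.g i j a) x * (x a - z a) := by
    rw [Finset.sum_comm]
    refine Finset.sum_congr rfl fun b _ => ?_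
    simp
  have q2 : ∑ a, ∑ b, pd l (M.g i a b) x * (x a - z a) * (if b = j then (1 : ℝ) else 0) =
      ∑ a, pd l (M.g i j a) x * (x a - z a) := by
    refine Finset.sum_congr rfl fun a _ => ?_
    simp only [mul_ite, mul_one, mul_zero, Finset.sum_ite_eq', Finset.mem_univ, if_true]
    rw [show M.g i a j = M.g i j a from funext fun y => M.gsymm i a j y]
  rw [q0, q1, q2]
  ring

/-! ### the Laplacian -/

theorem lap_eq (M : Met ι) (i : ι) {φ : E4 → ℝ} (hφ : ContDiff ℝ ∞ φ) (x : E4) :
    M.lap i φ x = ∑ j, ∑ l, M.h i j l x * pd j (pd l φ) x + ∑ l, M.be l i x * pd l φ x := by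
  have hw := w_pos M i x
  have dwh : ∀ j l, DifferentiableAt ℝ (fun y => M.w i y * M.h i j l y) x := fun j l =>
    (dw M i x).fun_mul (dh M i j l x)
  have e1 : ∀ j l, pd j (fun y => M.w i y * M.h i j l y * pd l φ y) x =
      pd j (fun y => M.w i y * M.h i j l y) x * pd l φ x
      + M.w i x * (M.h i j l x * pd j (pd l φ) x) := by
    intro j l
    rw [pd_mul (dwh j l) ((contDiff_pd hφ l).differentiable (by simp) x)]
    ring
  unfold Met.lap
  simp only [e1, Finset.sum_add_distrib, ← Finset.mul_sum]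
  rw [mul_add, ← mul_assoc, inv_mul_cancel₀ hw.ne', one_mul, add_comm]
  congr 1
  unfold Met.be
  rw [Finset.sum_comm, Finset.mul_sum]
  refine Finset.sum_congr rfl fun l _ => ?_
  rw [← Finset.sum_mul]
  ring

theorem pd_pd_mul {φ ψ : E4 → ℝ} (hφ : ContDiff ℝ ∞ φ) (hψ : ContDiff ℝ ∞ ψ) (j l : Fin 4)
    (x : E4) : pd j (pd l (fun y => φ y * ψ y)) x =
      pd j (pd l φ) x * ψ x + pd l φ x * pd j ψ x + pd j φ x * pd l ψ x
      + φ x * pd j (pd l ψ) x := by
  have h1 : pd l (fun y => φ y * ψ y) = fun y => pd l φ y * ψ y + φ y * pd l ψ y :=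
    funext fun y => pd_mul (hφ.differentiable (by simp) y) (hψ.differentiable (by simp) y) l
  have dφ : DifferentiableAt ℝ φ x := hφ.differentiable (by simp) x
  have dψ : DifferentiableAt ℝ ψ x := hψ.differentiable (by simp) x
  have dpφ : DifferentiableAt ℝ (pd l φ) x := (contDiff_pd hφ l).differentiable (by simp) x
  have dpψ : DifferentiableAt ℝ (pd l ψ) x := (contDiff_pd hψ l).differentiable (by simp) x
  rw [h1, pd_add (dpφ.fun_mul dψ) (dφ.fun_mul dpψ), pd_mul dpφ dψ, pd_mul dφ dpψ]
  ring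

theorem lap_mul (M : Met ι) (i : ι) {φ ψ : E4 → ℝ} (hφ : ContDiff ℝ ∞ φ) (hψ : ContDiff ℝ ∞ ψ)
    (x : E4) : M.lap i (fun y => φ y * ψ y) x =
      φ x * M.lap i ψ x + ψ x * M.lap i φ x
      + 2 * ∑ j, ∑ l, M.h i j l x * pd j φ x * pd l ψ x := by
  rw [lap_eq M i (hφ.mul hψ), lap_eq M i hφ, lap_eq M i hψ]
  have e1 : ∀ l, M.be l i x * pd l (fun y => φ y * ψ y) x =
      φ x * (M.be l i x * pd l ψ x) + ψ x * (M.be l i x * pd l φ x) := by
    intro l
    rw [pd_mul (hφ.differentiable (by simp) x) (hψ.differentiable (by simp) x)]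
    ring
  have e2 : ∀ j l, M.h i j l x * pd j (pd l (fun y => φ y * ψ y)) x =
      φ x * (M.h i j l x * pd j (pd l ψ) x) + ψ x * (M.h i j l x * pd j (pd l φ) x)
      + M.h i j l x * pd j φ x * pd l ψ x + M.h i j l x * pd l φ x * pd j ψ x := by
    intro j l
    rw [pd_pd_mul hφ hψ]
    ring
  simp only [e1, e2, Finset.sum_add_distrib, ← Finset.mul_sum]
  have e3 : ∑ j, ∑ l, M.h i j l x * pd l φ x * pd j ψ x =
      ∑ j, ∑ l, M.h i j l x * pd j φ x * pd l ψ x := by
    rw [Finset.sum_comm]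
    refine Finset.sum_congr rfl fun j _ => Finset.sum_congr rfl fun l _ => ?_
    rw [M.hsymm i l j x]
  rw [e3]
  ring

theorem pd_pd_GG (M : Met ι) (i : ι) (t : ℝ) (x z : E4) (j l : Fin 4) :
    pd j (pd l (fun x => M.GG i t x z)) x =
      M.GG i t x z * (M.rx j i x z * M.rx l i x z / (16 * t ^ 2) - M.rxx j l i x z / (4 * t)) := by
  have h1 : pd l (fun x => M.GG i t x z) =
      fun x => (-(4 * t)⁻¹) * (M.GG i t x z * M.rx l i x z) :=
    funext fun x => by rw [pd_GG]; ring
  have dG : DifferentiableAt ℝ (fun x => M.GG i t x z) x :=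
    (contDiff_GG M i t z).differentiable (by simp) x
  have dr : DifferentiableAt ℝ (fun x => M.rx l i x z) x :=
    (contDiff_rx M l i z).differentiable (by simp) x
  rw [h1, pd_const_mul (dG.fun_mul dr), pd_mul dG dr, pd_GG, pd_rx]
  ring

theorem lap_GG (M : Met ι) (i : ι) (t : ℝ) (x z : E4) :
    M.lap i (fun x => M.GG i t x z) x =
      M.GG i t x z * ((∑ j, ∑ l, M.h i j l x * M.rx j i x z * M.rx l i x z) / (16 * t ^ 2)
        - M.lr i x z / (4 * t)) := by
  rw [lap_eq M i (contDiff_GG M i t z)]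
  have e1 : ∀ j l, M.h i j l x * pd j (pd l (fun x => M.GG i t x z)) x =
      M.GG i t x z * (16 * t ^ 2)⁻¹ * (M.h i j l x * M.rx j i x z * M.rx l i x z)
      - M.GG i t x z * (4 * t)⁻¹ * (M.h i j l x * M.rxx j l i x z) := by
    intro j l
    rw [pd_pd_GG]; ring
  have e2 : ∀ l, M.be l i x * pd l (fun x => M.GG i t x z) x =
      -(M.GG i t x z * (4 * t)⁻¹ * (M.be l i x * M.rx l i x z)) := by
    intro l
    rw [pd_GG]; ring
  simp only [e1, e2, Finset.sum_sub_distrib, Finset.sum_neg_distrib, ← Finset.mul_sum]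
  unfold Met.lr
  ring

theorem hasDerivAt_GG (M : Met ι) (i : ι) {t : ℝ} (ht : 0 < t) (x z : E4) :
    HasDerivAt (fun s => M.GG i s x z) (M.GG i t x z * (M.rho i x z / (4 * t ^ 2) - 2 / t)) t := by
  unfold Met.GG
  have h0 : HasDerivAt (fun s : ℝ => s) 1 t := hasDerivAt_id t
  have h1 : HasDerivAt (fun s : ℝ => ((4 * Real.pi * s) ^ 2)⁻¹)
      (((4 * Real.pi * t) ^ 2)⁻¹ * (-(2 / t))) t := by
    have hne : (4 * Real.pi * t) ^ 2 ≠ 0 := by positivity
    have := ((h0.const_mul (4 * Real.pi)).pow 2).fun_inv hne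
    refine this.congr_deriv ?_
    simp only [Pi.pow_apply]
    field_simp
    push_cast
    ring
  have h2 : HasDerivAt (fun s : ℝ => Real.exp (-(M.rho i x z / (4 * s))))
      (Real.exp (-(M.rho i x z / (4 * t))) * (M.rho i x z / (4 * t ^ 2))) t := by
    have hne : 4 * t ≠ 0 := by positivity
    have h3 : HasDerivAt (fun s : ℝ => -(M.rho i x z / (4 * s))) (M.rho i x z / (4 * t ^ 2)) t := by
      have := (((h0.const_mul 4).fun_inv hne).const_mul (M.rho i x z)).fun_neg
      simp only [← div_eq_mul_inv] at this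
      refine this.congr_deriv ?_
      field_simp
    exact h3.exp
  refine (h1.mul h2).congr_deriv ?_
  ring

/-- `∂_t H_m = e0 + Δ H_m` -/
theorem hasDerivAt_HH (M : Met ι) {R : ℝ} (c : Cut R) (m : ℕ) (i : ι) {t : ℝ} (x z : E4)
    (ht : 0 < t) : HasDerivAt (fun s => M.HH c m i s x z)
      (M.e0 c m i t x z + M.lap i (fun y => M.HH c m i t y z) x) t := by
  have h1 : M.lap i (fun y => M.HH c m i t y z) x =
      c.ps m x * M.lap i (fun y => M.GG i t y z) x + M.GG i t x z * M.lap i (c.ps m) x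
      + 2 * ∑ j, ∑ l, M.h i j l x * pd j (c.ps m) x * pd l (fun y => M.GG i t y z) x := by
    unfold Met.HH
    exact lap_mul M i (c.smooth m) (contDiff_GG M i t z) x
  have h2 : ∑ j, ∑ l, M.h i j l x * pd j (c.ps m) x * pd l (fun y => M.GG i t y z) x =
      - ∑ j, ∑ l, M.h i j l x * pd j (c.ps m) x * (M.GG i t x z * (M.rx l i x z / (4 * t))) := by
    rw [← Finset.sum_neg_distrib]
    refine Finset.sum_congr rfl fun j _ => ?_
    rw [← Finset.sum_neg_distrib]
    refine Finset.sum_congr rfl fun l _ => ?_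
    rw [pd_GG]; ring
  have h3 := (hasDerivAt_GG M i ht x z).const_mul (c.ps m x)
  have h4 : (fun s => M.HH c m i s x z) = fun s => c.ps m x * M.GG i s x z := rfl
  rw [h4]
  refine h3.congr_deriv ?_
  rw [h1, h2, lap_GG]
  unfold Met.e0 Met.qq
  field_simp
  ring

end Crest.Agent.R249.HK352
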