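import Crest.Agent.R249.HK2B_352
import Crest.Agent.R249.HKCal_286

/-!
Row 249, Part C, leaf HK2 (helper352), part C: `inpM : InpM M c` (bounds of the scalar kernels).
-/

set_option autoImplicit false
set_option linter.unusedSectionVars false
open scoped ContDiff
open MeasureTheory Set Metric

namespace Crest.Agent.R249.HK352
open Crest.Agent.R249.HK286

variable {ι : Type*} {M : Met ι}

/-! ### measurability -/

theorem measurable_coord (a : Fin 4) : Measurable fun x : E4 => x a :=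
  (contDiff_coord a).continuous.measurable

theorem measurable_rho (M : Met ι) (i : ι) : Measurable fun z : ℝ × E4 × E4 =>
    M.rho i z.2.1 z.2.2 := by
  unfold Met.rho
  have hx : Measurable fun z : ℝ × E4 × E4 => z.2.1 := measurable_snd.fst
  have hz : Measurable fun z : ℝ × E4 × E4 => z.2.2 := measurable_snd.snd
  refine Measurable.const_mul (Finset.measurable_sum _ fun a _ =>
    Finset.measurable_sum _ fun b _ => ?_) _
  exact (((((M.ubg a b).1 i).continuous.measurable.comp hx).add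
    (((M.ubg a b).1 i).continuous.measurable.comp hz)).mul
    (((measurable_coord a).comp hx).sub ((measurable_coord a).comp hz))).mul
    (((measurable_coord b).comp hx).sub ((measurable_coord b).comp hz))

theorem measurable_rx (M : Met ι) (l : Fin 4) (i : ι) : Measurable fun z : ℝ × E4 × E4 =>
    M.rx l i z.2.1 z.2.2 := by
  unfold Met.rx
  have hx : Measurable fun z : ℝ × E4 × E4 => z.2.1 := measurable_snd.fst
  have hz : Measurable fun z : ℝ × E4 × E4 => z.2.2 := measurable_snd.snd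
  refine Measurable.add (Finset.measurable_sum _ fun b _ => ?_)
    (Measurable.const_mul (Finset.measurable_sum _ fun a _ =>
    Finset.measurable_sum _ fun b _ => ?_) _)
  · exact ((((M.ubg l b).1 i).continuous.measurable.comp hx).add
      (((M.ubg l b).1 i).continuous.measurable.comp hz)).mul
      (((measurable_coord b).comp hx).sub ((measurable_coord b).comp hz))
  · exact (((contDiff_pdg M i l a b).continuous.measurable.comp hx).mul
      (((measurable_coord a).comp hx).sub ((measurable_coord a).comp hz))).mul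
      (((measurable_coord b).comp hx).sub ((measurable_coord b).comp hz))

theorem measurable_rxx (M : Met ι) (j l : Fin 4) (i : ι) : Measurable fun z : ℝ × E4 × E4 =>
    M.rxx j l i z.2.1 z.2.2 := by
  unfold Met.rxx
  have hx : Measurable fun z : ℝ × E4 × E4 => z.2.1 := measurable_snd.fst
  have hz : Measurable fun z : ℝ × E4 × E4 => z.2.2 := measurable_snd.snd
  have hc : ∀ a : Fin 4, Measurable fun z : ℝ × E4 × E4 => z.2.1 a - z.2.2 a := fun a =>
    ((measurable_coord a).comp hx).sub ((measurable_coord a).comp hz)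
  refine Measurable.add (Measurable.add (Measurable.add ?_ ?_) ?_) ?_
  · exact (((M.ubg j l).1 i).continuous.measurable.comp hx).add
      (((M.ubg j l).1 i).continuous.measurable.comp hz)
  · exact Finset.measurable_sum _ fun a _ =>
      ((contDiff_pdg M i j l a).continuous.measurable.comp hx).mul (hc a)
  · exact Finset.measurable_sum _ fun a _ =>
      ((contDiff_pdg M i l j a).continuous.measurable.comp hx).mul (hc a)
  · refine Measurable.const_mul (Finset.measurable_sum _ fun a _ =>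
      Finset.measurable_sum _ fun b _ => ?_) _
    exact (((contDiff_pd (contDiff_pdg M i l a b) j).continuous.measurable.comp hx).mul
      (hc a)).mul (hc b)

theorem measurable_GG (M : Met ι) (i : ι) : Measurable fun z : ℝ × E4 × E4 =>
    M.GG i z.1 z.2.1 z.2.2 := by
  unfold Met.GG
  have h1 := measurable_rho M i
  have ht : Measurable fun z : ℝ × E4 × E4 => z.1 := measurable_fst
  exact (((ht.const_mul (4 * Real.pi)).pow_const 2).inv).mul
    (Real.measurable_exp.comp (h1.div (ht.const_mul 4)).neg)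

theorem measurable_HH (M : Met ι) {R : ℝ} (c : Cut R) (m : ℕ) (i : ι) :
    Measurable fun z : ℝ × E4 × E4 => M.HH c m i z.1 z.2.1 z.2.2 := by
  unfold Met.HH
  have hx : Measurable fun z : ℝ × E4 × E4 => z.2.1 := measurable_snd.fst
  exact ((c.smooth m).continuous.measurable.comp hx).mul (measurable_GG M i)

theorem ub_bew (M : Met ι) (l : Fin 4) :
    UB fun i x => ∑ j, pd j (fun y => M.w i y * M.h i j l y) x :=
  UB.sum _ fun j _ => UB.pd (UB.mul M.ubw (M.ubh j l)) j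

theorem measurable_be (M : Met ι) (l : Fin 4) (i : ι) : Measurable fun x => M.be l i x := by
  have h1 : (fun x => M.be l i x) = fun x => (M.w i x)⁻¹ *
    ∑ j, pd j (fun y => M.w i y * M.h i j l y) x := rfl
  rw [h1]
  exact ((M.ubw.1 i).continuous.measurable.inv).mul ((ub_bew M l).1 i).continuous.measurable

theorem be_le (M : Met ι) : ∃ C : ℝ, 0 ≤ C ∧ ∀ l i x, |M.be l i x| ≤ C := by
  obtain ⟨A, hA0, hA⟩ := UB.bdd_fin (f := fun l : Fin 4 => fun i x =>
    ∑ j, pd j (fun y => M.w i y * M.h i j l y) x) (fun l => ub_bew M l)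
  obtain ⟨c, hc, hw⟩ := M.wpos
  refine ⟨c⁻¹ * A, by positivity, fun l i x => ?_⟩
  unfold Met.be
  rw [abs_mul]
  refine mul_le_mul ?_ (hA l i x) (abs_nonneg _) (by positivity)
  rw [abs_inv, abs_of_pos (hc.trans_le (hw i x))]
  exact inv_anti₀ hc (hw i x)

theorem measurable_lr (M : Met ι) (i : ι) : Measurable fun z : ℝ × E4 × E4 =>
    M.lr i z.2.1 z.2.2 := by
  unfold Met.lr
  have hx : Measurable fun z : ℝ × E4 × E4 => z.2.1 := measurable_snd.fst
  refine Measurable.add (Finset.measurable_sum _ fun j _ => Finset.measurable_sum _ fun l _ => ?_)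
    (Finset.measurable_sum _ fun l _ => ?_)
  · exact (((M.ubh j l).1 i).continuous.measurable.comp hx).mul (measurable_rxx M j l i)
  · exact ((measurable_be M l i).comp hx).mul (measurable_rx M l i)

theorem measurable_qq (M : Met ι) (i : ι) : Measurable fun z : ℝ × E4 × E4 =>
    M.qq i z.1 z.2.1 z.2.2 := by
  unfold Met.qq
  have hx : Measurable fun z : ℝ × E4 × E4 => z.2.1 := measurable_snd.fst
  have ht : Measurable fun z : ℝ × E4 × E4 => z.1 := measurable_fst
  refine (measurable_GG M i).mul (Measurable.add (Measurable.div (Measurable.sub ?_ ?_) ?_)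
    (Measurable.div ?_ ?_))
  · exact (measurable_rho M i).const_mul 4
  · exact Finset.measurable_sum _ fun j _ => Finset.measurable_sum _ fun l _ =>
      ((((M.ubh j l).1 i).continuous.measurable.comp hx).mul (measurable_rx M j i)).mul
        (measurable_rx M l i)
  · exact (ht.pow_const 2).const_mul 16
  · exact (measurable_lr M i).sub measurable_const
  · exact ht.const_mul 4

theorem measurable_dH (M : Met ι) {R : ℝ} (c : Cut R) (m : ℕ) (j : Fin 4) (i : ι) :
    Measurable fun z : ℝ × E4 × E4 => M.dH c m j i z.1 z.2.1 z.2.2 := by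
  unfold Met.dH
  have hx : Measurable fun z : ℝ × E4 × E4 => z.2.1 := measurable_snd.fst
  have ht : Measurable fun z : ℝ × E4 × E4 => z.1 := measurable_fst
  refine Measurable.sub ?_ ?_
  · exact ((contDiff_pd (c.smooth m) j).continuous.measurable.comp hx).mul (measurable_GG M i)
  · exact (((c.smooth m).continuous.measurable.comp hx).mul (measurable_GG M i)).mul
      ((measurable_rx M j i).div (ht.const_mul 4))

theorem ub_ps {R : ℝ} (c : Cut R) (m : ℕ) : UB fun (_ : ι) => c.ps m := by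
  refine ⟨fun _ => c.smooth m, fun n => ?_⟩
  have h1 : HasCompactSupport (iteratedFDeriv ℝ n (c.ps m)) :=
    (hasCompactSupport_ps c m).iteratedFDeriv n
  have h2 : Continuous (iteratedFDeriv ℝ n (c.ps m)) :=
    (c.smooth m).continuous_iteratedFDeriv (by exact_mod_cast le_top)
  obtain ⟨C, hC⟩ := h1.exists_bound_of_continuous h2
  exact ⟨C, fun _ x => hC x⟩

theorem ub_lapw (M : Met ι) {R : ℝ} (c : Cut R) (m : ℕ) :
    UB fun i x => ∑ j, ∑ l, pd j (fun y => M.w i y * M.h i j l y * pd l (c.ps m) y) x :=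
  UB.sum _ fun j _ => UB.sum _ fun l _ =>
    UB.pd (UB.mul (UB.mul M.ubw (M.ubh j l)) (UB.pd (ub_ps c m) l)) j

theorem measurable_lap_ps (M : Met ι) {R : ℝ} (c : Cut R) (m : ℕ) (i : ι) :
    Measurable fun x => M.lap i (c.ps m) x := by
  have h1 : (fun x => M.lap i (c.ps m) x) = fun x => (M.w i x)⁻¹ *
    ∑ j, ∑ l, pd j (fun y => M.w i y * M.h i j l y * pd l (c.ps m) y) x := rfl
  rw [h1]
  exact ((M.ubw.1 i).continuous.measurable.inv).mul ((ub_lapw M c m).1 i).continuous.measurable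

theorem lap_ps_le (M : Met ι) {R : ℝ} (c : Cut R) (m : ℕ) :
    ∃ C : ℝ, 0 ≤ C ∧ ∀ i x, |M.lap i (c.ps m) x| ≤ C := by
  obtain ⟨A, hA0, hA⟩ := UB.bdd (ub_lapw M c m)
  obtain ⟨c0, hc, hw⟩ := M.wpos
  refine ⟨c0⁻¹ * A, by positivity, fun i x => ?_⟩
  unfold Met.lap
  rw [abs_mul]
  refine mul_le_mul ?_ (hA i x) (abs_nonneg _) (by positivity)
  rw [abs_inv, abs_of_pos (hc.trans_le (hw i x))]
  exact inv_anti₀ hc (hw i x)

theorem measurable_e0 (M : Met ι) {R : ℝ} (c : Cut R) (m : ℕ) (i : ι) :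
    Measurable fun z : ℝ × E4 × E4 => M.e0 c m i z.1 z.2.1 z.2.2 := by
  unfold Met.e0
  have hx : Measurable fun z : ℝ × E4 × E4 => z.2.1 := measurable_snd.fst
  have ht : Measurable fun z : ℝ × E4 × E4 => z.1 := measurable_fst
  refine Measurable.sub (Measurable.add ?_ ?_) ?_
  · exact ((c.smooth m).continuous.measurable.comp hx).mul (measurable_qq M i)
  · refine Measurable.const_mul (Finset.measurable_sum _ fun j _ =>
      Finset.measurable_sum _ fun l _ => ?_) 2
    exact ((((M.ubh j l).1 i).continuous.measurable.comp hx).mul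
      ((contDiff_pd (c.smooth m) j).continuous.measurable.comp hx)).mul
      ((measurable_GG M i).mul ((measurable_rx M l i).div (ht.const_mul 4)))
  · exact (measurable_GG M i).mul ((measurable_lap_ps M c m i).comp hx)

/-- restriction of a kernel to `z = 0` is measurable -/
theorem meas_zero {F : ℝ → E4 → E4 → ℝ}
    (h : Measurable fun z : ℝ × E4 × E4 => F z.1 z.2.1 z.2.2) :
    Measurable fun z : ℝ × E4 => F z.1 z.2 0 := by
  have h1 : Measurable (fun z : ℝ × E4 => ((z.1, z.2, (0 : E4)) : ℝ × E4 × E4)) :=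
    Measurable.prodMk measurable_fst (Measurable.prodMk measurable_snd measurable_const)
  exact h.comp h1

/-! ### bounds -/

/-- `|4ρ - h(∂ρ,∂ρ)| ≤ C |x-z|^4` -/
theorem eik_le (M : Met ι) : ∃ C : ℝ, 0 ≤ C ∧ ∀ i x z,
    |4 * M.rho i x z - ∑ j, ∑ l, M.h i j l x * M.rx j i x z * M.rx l i x z| ≤
      C * ‖x - z‖ ^ 4 := by
  obtain ⟨A, hA0, hA⟩ := rr_le M
  obtain ⟨B, hB0, hB⟩ := mm_le M
  obtain ⟨H, hH0, hH⟩ := h_le' M
  refine ⟨32 * A + 16 * H * B * B, by positivity, fun i x z => ?_⟩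
  rw [eik]
  have h1 := quad_le (f := fun a b => rr M i x z a b) (fun a b => hA a b i x z) x z
  have h2 : |∑ j, ∑ l, M.h i j l x * mm M i x z j * mm M i x z l| ≤
      16 * (H * (B * ‖x - z‖ ^ 2) * (B * ‖x - z‖ ^ 2)) := by
    refine abs_sum2_le fun j l => ?_
    rw [abs_mul, abs_mul]
    exact mul_le_mul (mul_le_mul (hH j l i x) (hB j i x z) (abs_nonneg _) hH0) (hB l i x z)
      (abs_nonneg _) (by positivity)
  refine (abs_sub _ _).trans ?_
  rw [abs_neg, abs_mul, abs_two]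
  nlinarith [h1, h2]

/-- `|Δρ - 8| ≤ C |x-z|^2` -/
theorem lap8_le (M : Met ι) : ∃ C : ℝ, 0 ≤ C ∧ ∀ i x z,
    |M.lr i x z - 8| ≤ C * ‖x - z‖ ^ 2 := by
  obtain ⟨A, hA0, hA⟩ := rr_le M
  obtain ⟨B, hB0, hB⟩ := mm_le M
  obtain ⟨H, hH0, hH⟩ := h_le' M
  obtain ⟨D, hD0, hD⟩ := ddg_le M
  obtain ⟨E, hE0, hE⟩ := be_le M
  refine ⟨16 * H * A + 128 * H * D + 4 * E * B, by positivity, fun i x z => ?_⟩
  rw [lap8]
  have h1 : |∑ j, ∑ l, M.h i j l x * rr M i x z j l| ≤ 16 * (H * (A * ‖x - z‖ ^ 2)) := by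
    refine abs_sum2_le fun j l => ?_
    rw [abs_mul]
    exact mul_le_mul (hH j l i x) (hA j l i x z) (abs_nonneg _) hH0
  have h2 : |∑ j, ∑ l, M.h i j l x *
      ∑ a, ∑ b, pd j (pd l (M.g i a b)) x * (x a - z a) * (x b - z b)| ≤
      16 * (H * (16 * (D * ‖x - z‖ ^ 2))) := by
    refine abs_sum2_le fun j l => ?_
    rw [abs_mul]
    exact mul_le_mul (hH j l i x) (quad_le (f := fun a b => pd j (pd l (M.g i a b)) x)
      (fun a b => hD j l a b i x) x z) (abs_nonneg _) hH0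
  have h3 : |∑ l, M.be l i x * mm M i x z l| ≤ 4 * (E * (B * ‖x - z‖ ^ 2)) := by
    refine abs_sum1_le fun l => ?_
    rw [abs_mul]
    exact mul_le_mul (hE l i x) (hB l i x z) (abs_nonneg _) hE0
  refine (abs_add_le _ _).trans ((add_le_add_left (abs_add_le _ _) _).trans ?_)
  rw [abs_mul, abs_of_pos (show (0 : ℝ) < 1 / 2 by norm_num)]
  linarith

/-- `|q| ≤ C Γ` -/
theorem qq_le (M : Met ι) : ∃ C c : ℝ, 0 ≤ C ∧ 0 < c ∧ ∀ i, ∀ t : ℝ, 0 < t → ∀ x z,
    |M.qq i t x z| ≤ C * Gam c t (x - z) := by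
  obtain ⟨A, a, hA, ha, hG⟩ := GG_le M
  obtain ⟨B, hB0, hB⟩ := eik_le M
  obtain ⟨D, hD0, hD⟩ := lap8_le M
  obtain ⟨E, hE, h4⟩ := gauss_pow 4 (show a / 2 < a by linarith)
  obtain ⟨F, hF, h2⟩ := gauss_pow 2 (show a / 2 < a by linarith)
  refine ⟨B * A * E + D * A * F, a / 2, by positivity, by positivity, fun i t ht x z => ?_⟩
  have hGn := Gam_nonneg (a / 2) t (x - z)
  have hGa := Gam_nonneg a t (x - z)
  unfold Met.qq
  rw [abs_mul, abs_of_nonneg (GG_nonneg M i t x z)]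
  have u1 : |(4 * M.rho i x z - ∑ j, ∑ l, M.h i j l x * M.rx j i x z * M.rx l i x z) /
      (16 * t ^ 2) + (M.lr i x z - 8) / (4 * t)| ≤ B * ‖x - z‖ ^ 4 / t ^ 2 +
      D * ‖x - z‖ ^ 2 / t := by
    refine (abs_add_le _ _).trans (add_le_add ?_ ?_)
    · rw [abs_div, abs_of_pos (show 0 < 16 * t ^ 2 by positivity)]
      have := hB i x z
      have h0 : 0 ≤ B * ‖x - z‖ ^ 4 := by positivity
      rw [div_le_div_iff₀ (by positivity) (by positivity)]
      nlinarith [pow_pos ht 2]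
    · rw [abs_div, abs_of_pos (show 0 < 4 * t by positivity)]
      have := hD i x z
      have h0 : 0 ≤ D * ‖x - z‖ ^ 2 := by positivity
      rw [div_le_div_iff₀ (by positivity) (by positivity)]
      nlinarith
  have v4 := h4 t ht (x - z)
  have v2 := h2 t ht (x - z)
  have s2 : Real.sqrt t ^ 2 = t := Real.sq_sqrt ht.le
  have s4 : Real.sqrt t ^ 4 = t ^ 2 := by
    rw [show (4 : ℕ) = 2 * 2 from rfl, pow_mul, s2]
  rw [s4] at v4
  rw [s2] at v2
  calc M.GG i t x z * |(4 * M.rho i x z - ∑ j, ∑ l, M.h i j l x * M.rx j i x z * M.rx l i x z) /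
      (16 * t ^ 2) + (M.lr i x z - 8) / (4 * t)|
      ≤ A * Gam a t (x - z) * (B * ‖x - z‖ ^ 4 / t ^ 2 + D * ‖x - z‖ ^ 2 / t) :=
        mul_le_mul (hG i t ht x z) u1 (abs_nonneg _) (by positivity)
    _ = B * A / t ^ 2 * (‖x - z‖ ^ 4 * Gam a t (x - z))
        + D * A / t * (‖x - z‖ ^ 2 * Gam a t (x - z)) := by ring
    _ ≤ B * A / t ^ 2 * (E * t ^ 2 * Gam (a / 2) t (x - z))
        + D * A / t * (F * t * Gam (a / 2) t (x - z)) := by gcongr
    _ = (B * A * E + D * A * F) * Gam (a / 2) t (x - z) := by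
        field_simp

/-- the cut-off is maximal at the origin: `|∂_j ψ_m(x)| ≤ C ‖x‖` -/
theorem pd_ps_lip {R : ℝ} (c : Cut R) (m : ℕ) :
    ∃ C : ℝ, 0 ≤ C ∧ ∀ j x, |pd j (c.ps m) x| ≤ C * ‖x‖ := by
  have hR : 0 < R := by
    by_contra hR
    have h1 := c.one 0 0 (by simp)
    have h2 := c.zero 0 0 (by simp; linarith)
    rw [h1] at h2
    exact one_ne_zero h2
  have h0 : c.ps m 0 = 1 := c.one m 0 (by rw [norm_zero]; positivity)
  have hmax : IsLocalMax (c.ps m) 0 :=
    Filter.Eventually.of_forall fun x => by rw [h0]; exact (c.mem m x).2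
  have hfd : fderiv ℝ (c.ps m) 0 = 0 := hmax.fderiv_eq_zero
  obtain ⟨C, hC0, hC⟩ := UB.lip0_fin (ι := Unit) (f := fun j : Fin 4 => fun _ => pd j (c.ps m))
    (fun j => UB.pd (ub_ps c m) j) (fun j _ => by unfold pd; rw [hfd]; rfl)
  exact ⟨C, hC0, fun j x => hC j () x⟩

/-- the middle term of `e0` -/
theorem mid_le (M : Met ι) {R : ℝ} (c : Cut R) (m : ℕ) :
    ∃ C d : ℝ, 0 ≤ C ∧ 0 < d ∧ ∀ i, ∀ t : ℝ, 0 < t → t ≤ 1 → ∀ x z,
      |2 * ∑ j, ∑ l, M.h i j l x * pd j (c.ps m) x * (M.GG i t x z * (M.rx l i x z / (4 * t)))|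
      ≤ C * (‖x‖ / t) * ((‖x - z‖ + ‖x - z‖ ^ 2) * Gam d t (x - z)) := by
  obtain ⟨A, a, hA, ha, hG⟩ := GG_le M
  obtain ⟨H, hH0, hH⟩ := h_le' M
  obtain ⟨P, hP0, hP⟩ := pd_ps_lip c m
  obtain ⟨D, hD, hr⟩ := rx_le M
  refine ⟨32 * H * P * A * D, a, by positivity, ha, fun i t ht ht1 x z => ?_⟩
  have hGa := Gam_nonneg a t (x - z)
  have h1 : |∑ j, ∑ l, M.h i j l x * pd j (c.ps m) x *
      (M.GG i t x z * (M.rx l i x z / (4 * t)))| ≤
      16 * (H * (P * ‖x‖) * (A * Gam a t (x - z) * (D * (‖x - z‖ + ‖x - z‖ ^ 2) / t))) := by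
    refine abs_sum2_le fun j l => ?_
    rw [abs_mul, abs_mul, abs_mul, abs_of_nonneg (GG_nonneg M i t x z)]
    have u2 : |M.rx l i x z / (4 * t)| ≤ D * (‖x - z‖ + ‖x - z‖ ^ 2) / t := by
      rw [abs_div, abs_of_pos (show 0 < 4 * t by linarith)]
      have := hr l i x z
      have h0 : 0 ≤ D * (‖x - z‖ + ‖x - z‖ ^ 2) := by positivity
      rw [div_le_div_iff₀ (by linarith) ht]
      nlinarith
    exact mul_le_mul (mul_le_mul (hH j l i x) (hP j x) (abs_nonneg _) hH0)
      (mul_le_mul (hG i t ht x z) u2 (abs_nonneg _) (by positivity)) (by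
        have := GG_nonneg M i t x z
        positivity) (by positivity)
  rw [abs_mul, abs_two]
  calc 2 * |∑ j, ∑ l, M.h i j l x * pd j (c.ps m) x *
      (M.GG i t x z * (M.rx l i x z / (4 * t)))|
      ≤ 2 * (16 * (H * (P * ‖x‖) * (A * Gam a t (x - z) *
        (D * (‖x - z‖ + ‖x - z‖ ^ 2) / t)))) := by linarith
    _ = 32 * H * P * A * D * (‖x‖ / t) * ((‖x - z‖ + ‖x - z‖ ^ 2) * Gam a t (x - z)) := by ring

/-- the remaining terms of `e0` -/
theorem side_le (M : Met ι) {R : ℝ} (c : Cut R) (m : ℕ) :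
    ∃ C d : ℝ, 0 ≤ C ∧ 0 < d ∧ ∀ i, ∀ t : ℝ, 0 < t → ∀ x z,
      |c.ps m x * M.qq i t x z| + |M.GG i t x z * M.lap i (c.ps m) x| ≤ C * Gam d t (x - z) := by
  obtain ⟨A, a, hA, ha, hG⟩ := GG_le M
  obtain ⟨B, b, hB, hb, hq⟩ := qq_le M
  obtain ⟨L, hL, hl⟩ := lap_ps_le M c m
  refine ⟨B + A * L, min a b, by positivity, lt_min ha hb, fun i t ht x z => ?_⟩
  have hGm := Gam_mono (min_le_left a b) ht (x - z)
  have hGm' := Gam_mono (min_le_right a b) ht (x - z)
  have h1 : |c.ps m x * M.qq i t x z| ≤ B * Gam (min a b) t (x - z) := by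
    rw [abs_mul, abs_of_nonneg (c.mem m x).1]
    calc c.ps m x * |M.qq i t x z| ≤ 1 * |M.qq i t x z| :=
          mul_le_mul_of_nonneg_right (c.mem m x).2 (abs_nonneg _)
      _ ≤ B * Gam b t (x - z) := by rw [one_mul]; exact hq i t ht x z
      _ ≤ B * Gam (min a b) t (x - z) := by gcongr
  have h2 : |M.GG i t x z * M.lap i (c.ps m) x| ≤ A * L * Gam (min a b) t (x - z) := by
    rw [abs_mul, abs_of_nonneg (GG_nonneg M i t x z)]
    calc M.GG i t x z * |M.lap i (c.ps m) x| ≤ (A * Gam a t (x - z)) * L :=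
          mul_le_mul (hG i t ht x z) (hl i x) (abs_nonneg _)
            (by have := Gam_nonneg a t (x - z); positivity)
      _ ≤ (A * Gam (min a b) t (x - z)) * L := by gcongr
      _ = A * L * Gam (min a b) t (x - z) := by ring
  linarith

theorem e0_kw (M : Met ι) {R : ℝ} (c : Cut R) (m : ℕ) : KW (M.e0 c m) := by
  refine ⟨fun i => measurable_e0 M c m i, ?_⟩
  obtain ⟨A, a, hA, ha, hmid⟩ := mid_le M c m
  obtain ⟨B, b, hB, hb, hs⟩ := side_le M c m
  obtain ⟨E, hE, h1⟩ := gauss_pow 1 (show a / 2 < a by linarith)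
  obtain ⟨F, hF, h2⟩ := gauss_pow 2 (show a / 2 < a by linarith)
  refine ⟨A * E + A * F + B, min (a / 2) b, by positivity, lt_min (by linarith) hb,
    fun i t ht x z => ?_⟩
  have ht0 := ht.1
  have hs0 : 0 < Real.sqrt t := Real.sqrt_pos.2 ht0
  have hs1 := sqrt_le_one' ht
  have g1 := h1 t ht0 (x - z)
  have g2 := h2 t ht0 (x - z)
  rw [pow_one, pow_one] at g1
  have hst : Real.sqrt t * Real.sqrt t = t := Real.mul_self_sqrt ht0.le
  have hGm := Gam_mono (min_le_left (a / 2) b) ht0 (x - z)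
  have hGm' := Gam_mono (min_le_right (a / 2) b) ht0 (x - z)
  have hGn := Gam_nonneg (min (a / 2) b) t (x - z)
  have hGn2 := Gam_nonneg (a / 2) t (x - z)
  have hxt : 0 ≤ ‖x‖ / Real.sqrt t := by positivity
  have k1 : A * (‖x‖ / t) * ((‖x - z‖ + ‖x - z‖ ^ 2) * Gam a t (x - z)) ≤
      (A * E + A * F) * (‖x‖ / Real.sqrt t) * Gam (min (a / 2) b) t (x - z) := by
    calc A * (‖x‖ / t) * ((‖x - z‖ + ‖x - z‖ ^ 2) * Gam a t (x - z))
        = A * (‖x‖ / t) * (‖x - z‖ * Gam a t (x - z) + ‖x - z‖ ^ 2 * Gam a t (x - z)) := by ring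
      _ ≤ A * (‖x‖ / t) * (E * Real.sqrt t * Gam (a / 2) t (x - z) +
          F * Real.sqrt t ^ 2 * Gam (a / 2) t (x - z)) := by gcongr
      _ = A * ‖x‖ * E * (Real.sqrt t / t) * Gam (a / 2) t (x - z) +
          A * ‖x‖ * F * (Real.sqrt t * (Real.sqrt t / t)) * Gam (a / 2) t (x - z) := by ring
      _ = A * ‖x‖ * E * (Real.sqrt t)⁻¹ * Gam (a / 2) t (x - z) +
          A * ‖x‖ * F * (Real.sqrt t * (Real.sqrt t)⁻¹) * Gam (a / 2) t (x - z) := by
          have w1 : Real.sqrt t / t = (Real.sqrt t)⁻¹ := by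
            rw [div_eq_iff ht0.ne', inv_mul_eq_div, eq_div_iff hs0.ne', hst]
          rw [w1]
      _ ≤ A * ‖x‖ * E * (Real.sqrt t)⁻¹ * Gam (a / 2) t (x - z) +
          A * ‖x‖ * F * (1 * (Real.sqrt t)⁻¹) * Gam (a / 2) t (x - z) := by gcongr
      _ = (A * E + A * F) * (‖x‖ / Real.sqrt t) * Gam (a / 2) t (x - z) := by
          rw [div_eq_mul_inv]; ring
      _ ≤ (A * E + A * F) * (‖x‖ / Real.sqrt t) * Gam (min (a / 2) b) t (x - z) := by gcongr
  have k2 := hmid i t ht0 ht.2 x z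
  have k3 := hs i t ht0 x z
  have k4 : B * Gam b t (x - z) ≤ B * Gam (min (a / 2) b) t (x - z) := by gcongr
  have k5 : |M.e0 c m i t x z| ≤ |c.ps m x * M.qq i t x z|
      + |2 * ∑ j, ∑ l, M.h i j l x * pd j (c.ps m) x * (M.GG i t x z * (M.rx l i x z / (4 * t)))|
      + |M.GG i t x z * M.lap i (c.ps m) x| := by
    unfold Met.e0
    exact (abs_sub _ _).trans (add_le_add_left (abs_add_le _ _) _)
  have k6 : 0 ≤ (A * E + A * F) * Gam (min (a / 2) b) t (x - z) := by positivity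
  have k7 : 0 ≤ B * (‖x‖ / Real.sqrt t) * Gam (min (a / 2) b) t (x - z) := by positivity
  calc |M.e0 c m i t x z| ≤ (A * E + A * F) * (‖x‖ / Real.sqrt t) * Gam (min (a / 2) b) t (x - z)
        + B * Gam (min (a / 2) b) t (x - z) := by linarith
    _ ≤ (A * E + A * F + B) * (1 + ‖x‖ / Real.sqrt t) * Gam (min (a / 2) b) t (x - z) := by
        nlinarith

theorem e1_vb (M : Met ι) {R : ℝ} (c : Cut R) (m : ℕ) : VB 0 (fun i t x => M.e0 c m i t x 0) := by
  refine ⟨fun i => meas_zero (F := M.e0 c m i) (measurable_e0 M c m i), ?_⟩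
  obtain ⟨A, a, hA, ha, hmid⟩ := mid_le M c m
  obtain ⟨B, b, hB, hb, hs⟩ := side_le M c m
  obtain ⟨E, hE, h2⟩ := gauss_pow 2 (show a / 2 < a by linarith)
  obtain ⟨F, hF, h3⟩ := gauss_pow 3 (show a / 2 < a by linarith)
  refine ⟨A * E + A * F + B, min (a / 2) b, by positivity, lt_min (by linarith) hb,
    fun i t ht x => ?_⟩
  have ht0 := ht.1
  have hs0 : 0 < Real.sqrt t := Real.sqrt_pos.2 ht0
  have hs1 := sqrt_le_one' ht
  have g2 := h2 t ht0 x
  have g3 := h3 t ht0 x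
  have hGm := Gam_mono (min_le_left (a / 2) b) ht0 x
  have hGm' := Gam_mono (min_le_right (a / 2) b) ht0 x
  have hGn2 := Gam_nonneg (a / 2) t x
  have k2 := hmid i t ht0 ht.2 x 0
  have k3 := hs i t ht0 x 0
  rw [sub_zero] at k2 k3
  have s2 : Real.sqrt t ^ 2 = t := Real.sq_sqrt ht0.le
  have s3 : Real.sqrt t ^ 3 = t * Real.sqrt t := by rw [pow_succ, s2]
  rw [s2] at g2
  rw [s3] at g3
  have k1 : A * (‖x‖ / t) * ((‖x‖ + ‖x‖ ^ 2) * Gam a t x) ≤
      (A * E + A * F) * Gam (min (a / 2) b) t x := by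
    calc A * (‖x‖ / t) * ((‖x‖ + ‖x‖ ^ 2) * Gam a t x)
        = A / t * (‖x‖ ^ 2 * Gam a t x) + A / t * (‖x‖ ^ 3 * Gam a t x) := by ring
      _ ≤ A / t * (E * t * Gam (a / 2) t x) + A / t * (F * (t * Real.sqrt t) * Gam (a / 2) t x) := by
          gcongr
      _ = A * E * Gam (a / 2) t x + A * F * Real.sqrt t * Gam (a / 2) t x := by
          field_simp
      _ ≤ A * E * Gam (a / 2) t x + A * F * 1 * Gam (a / 2) t x := by gcongr
      _ = (A * E + A * F) * Gam (a / 2) t x := by ring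
      _ ≤ (A * E + A * F) * Gam (min (a / 2) b) t x := by gcongr
  have k4 : B * Gam b t x ≤ B * Gam (min (a / 2) b) t x := by gcongr
  have k5 : |M.e0 c m i t x 0| ≤ |c.ps m x * M.qq i t x 0|
      + |2 * ∑ j, ∑ l, M.h i j l x * pd j (c.ps m) x * (M.GG i t x 0 * (M.rx l i x 0 / (4 * t)))|
      + |M.GG i t x 0 * M.lap i (c.ps m) x| := by
    unfold Met.e0
    exact (abs_sub _ _).trans (add_le_add_left (abs_add_le _ _) _)
  rw [Real.rpow_zero, mul_one]
  linarith

theorem rho_le (M : Met ι) : ∃ C : ℝ, ∀ i x z, M.rho i x z ≤ C * ‖x - z‖ ^ 2 := by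
  obtain ⟨G, hG0, hG⟩ := g_le' M
  refine ⟨16 * G, fun i x z => ?_⟩
  unfold Met.rho
  have h1 := quad_le (f := fun a b => M.g i a b x + M.g i a b z) (B := 2 * G) (fun a b => by
    refine (abs_add_le _ _).trans ?_
    have := hG a b i x
    have := hG a b i z
    linarith) x z
  have h2 := (le_abs_self _).trans h1
  linarith

theorem rx0 (M : Met ι) (l : Fin 4) :
    ∃ C : ℝ, ∀ i x, |∑ j, M.h i j l x * M.rx j i x 0 - 2 * x l| ≤ C * ‖x‖ ^ 2 := by
  obtain ⟨B, hB0, hB⟩ := mm_le M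
  obtain ⟨H, hH0, hH⟩ := h_le' M
  refine ⟨4 * (H * B), fun i x => ?_⟩
  rw [h_rx]
  have h1 : 2 * (x l - (0 : E4) l) + ∑ j, M.h i j l x * mm M i x 0 j - 2 * x l =
      ∑ j, M.h i j l x * mm M i x 0 j := by
    have : (0 : E4) l = 0 := rfl
    rw [this]; ring
  rw [h1]
  refine (abs_sum1_le (B := H * (B * ‖x‖ ^ 2)) fun j => ?_).trans (le_of_eq (by ring))
  rw [abs_mul]
  have := hB j i x 0
  rw [sub_zero] at this
  exact mul_le_mul (hH j l i x) this (abs_nonneg _) hH0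

theorem kb_HH (M : Met ι) {R : ℝ} (c : Cut R) (m : ℕ) : KB (M.HH c m) := by
  refine ⟨fun i => measurable_HH M c m i, ?_⟩
  obtain ⟨A, a, hA, ha, hG⟩ := GG_le M
  refine ⟨A, a, hA, ha, fun i t ht x z => ?_⟩
  rw [abs_of_nonneg (HH_nonneg M c m i t x z)]
  exact (HH_le_GG M c m i t x z).trans (hG i t ht.1 x z)

theorem kb_qq (M : Met ι) : KB M.qq := by
  refine ⟨fun i => measurable_qq M i, ?_⟩
  obtain ⟨B, b, hB, hb, hq⟩ := qq_le M
  exact ⟨B, b, hB, hb, fun i t ht x z => hq i t ht.1 x z⟩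

theorem vb_HH (M : Met ι) {R : ℝ} (c : Cut R) (m : ℕ) : VB 0 (fun i t x => M.HH c m i t x 0) := by
  refine ⟨fun i => meas_zero (F := M.HH c m i) (measurable_HH M c m i), ?_⟩
  obtain ⟨A, a, hA, ha, hG⟩ := GG_le M
  refine ⟨A, a, hA, ha, fun i t ht x => ?_⟩
  rw [abs_of_nonneg (HH_nonneg M c m i t x 0), Real.rpow_zero, mul_one]
  have := (HH_le_GG M c m i t x 0).trans (hG i t ht.1 x 0)
  rwa [sub_zero] at this

theorem dH_bd (M : Met ι) {R : ℝ} (c : Cut R) (m : ℕ) (j : Fin 4) :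
    ∃ C d : ℝ, 0 ≤ C ∧ 0 < d ∧ ∀ i, ∀ t ∈ Ioc (0 : ℝ) 1, ∀ x z,
      |M.dH c m j i t x z| ≤ C / Real.sqrt t * Gam d t (x - z) := by
  obtain ⟨C, c', hC, hc', h⟩ := dH_le M c m
  refine ⟨C, c', hC, hc', fun i t ht x z => ?_⟩
  have := h j i t ht x z
  rwa [div_eq_mul_inv]

/-- **HK2.** -/
theorem inpM {R : ℝ} (c : Cut R) : InpM M c where
  HH := fun m => kb_HH M c m
  h0 := fun m => vb_HH M c m
  e0 := fun m => e0_kw M c m
  e1 := e1_vb M c 1
  qq := kb_qq M
  dH := fun m j => ⟨fun i => measurable_dH M c m j i, dH_bd M c m j⟩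
  rx0 := fun l => rx0 M l
  rho_ge := by
    obtain ⟨d, hd, h⟩ := rho_ge M
    exact ⟨d, hd, h⟩
  rho_le := rho_le M
  hd := fun m i t x z ht => hasDerivAt_HH M c m i x z ht

end Crest.Agent.R249.HK352
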