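import Crest.Agent.R249.HKDef_286

/-!
Row 249, Part C, leaf HK3 (helper352), part A: calculus of the class `UB` (sums, products,
derivatives, bounds, Lipschitz and Taylor estimates at the origin), product rules for `pd`.
-/

set_option autoImplicit false
open scoped ContDiff
open MeasureTheory Set Metric

namespace Crest.Agent.R249.HK352
open Crest.Agent.R249.HK286

variable {ι : Type*}

/-! ### partial derivatives -/

theorem pd_add {f g : E4 → ℝ} {x : E4} (hf : DifferentiableAt ℝ f x) (hg : DifferentiableAt ℝ g x)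
    (j : Fin 4) : pd j (fun y => f y + g y) x = pd j f x + pd j g x := by
  unfold pd
  rw [fderiv_fun_add hf hg]; rfl

theorem pd_neg (f : E4 → ℝ) (x : E4) (j : Fin 4) : pd j (fun y => - f y) x = - pd j f x := by
  unfold pd
  rw [fderiv_fun_neg]; rfl

theorem pd_sub {f g : E4 → ℝ} {x : E4} (hf : DifferentiableAt ℝ f x) (hg : DifferentiableAt ℝ g x)
    (j : Fin 4) : pd j (fun y => f y - g y) x = pd j f x - pd j g x := by
  unfold pd
  rw [fderiv_fun_sub hf hg]; rfl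

theorem pd_mul {f g : E4 → ℝ} {x : E4} (hf : DifferentiableAt ℝ f x) (hg : DifferentiableAt ℝ g x)
    (j : Fin 4) : pd j (fun y => f y * g y) x = pd j f x * g x + f x * pd j g x := by
  unfold pd
  rw [fderiv_fun_mul hf hg]
  simp only [add_apply, smul_apply, smul_eq_mul]
  ring

theorem pd_const_mul {f : E4 → ℝ} {x : E4} (hf : DifferentiableAt ℝ f x) (c : ℝ)
    (j : Fin 4) : pd j (fun y => c * f y) x = c * pd j f x := by
  unfold pd
  rw [fderiv_const_mul hf]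
  simp

theorem pd_const (c : ℝ) (x : E4) (j : Fin 4) : pd j (fun _ => c) x = 0 := by
  unfold pd; simp

theorem pd_sum {α : Type*} (s : Finset α) {f : α → E4 → ℝ} {x : E4}
    (hf : ∀ a ∈ s, DifferentiableAt ℝ (f a) x) (j : Fin 4) :
    pd j (fun y => ∑ a ∈ s, f a y) x = ∑ a ∈ s, pd j (f a) x := by
  unfold pd
  rw [fderiv_fun_sum hf]
  simp

theorem pd_congr {f g : E4 → ℝ} {x : E4} (h : f =ᶠ[nhds x] g) (j : Fin 4) :
    pd j f x = pd j g x := by
  unfold pd; rw [h.fderiv_eq]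

theorem contDiff_pd {f : E4 → ℝ} (hf : ContDiff ℝ ∞ f) (j : Fin 4) : ContDiff ℝ ∞ (pd j f) := by
  have h1 : ContDiff ℝ ∞ (fderiv ℝ f) := hf.fderiv_right (m := ∞) (by simp)
  exact h1.clm_apply contDiff_const

theorem fderiv_eq_sum_pd {f : E4 → ℝ} (x v : E4) : fderiv ℝ f x v = ∑ k, v k * pd k f x := by
  have h1 : v = ∑ k, v k • (EuclideanSpace.single k (1 : ℝ)) := by
    have := (EuclideanSpace.basisFun (Fin 4) ℝ).sum_repr v
    simpa using this.symm
  conv_lhs => rw [h1]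
  rw [map_sum]
  simp only [map_smul, smul_eq_mul]
  rfl

theorem abs_coord_le (v : E4) (k : Fin 4) : |v k| ≤ ‖v‖ := by
  have := PiLp.norm_apply_le v k
  simpa using this

/-! ### the class `UB` -/

theorem UB.smooth {f : ι → E4 → ℝ} (h : UB f) (i : ι) : ContDiff ℝ ∞ (f i) := h.1 i

theorem UB.differentiable {f : ι → E4 → ℝ} (h : UB f) (i : ι) : Differentiable ℝ (f i) :=
  (h.1 i).differentiable (by simp)

theorem UB.continuous {f : ι → E4 → ℝ} (h : UB f) (i : ι) : Continuous (f i) :=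
  (h.1 i).continuous

theorem UB.bd {f : ι → E4 → ℝ} (h : UB f) (n : ℕ) :
    ∃ C : ℝ, 0 ≤ C ∧ ∀ i x, ‖iteratedFDeriv ℝ n (f i) x‖ ≤ C := by
  obtain ⟨C, hC⟩ := h.2 n
  exact ⟨|C|, abs_nonneg _, fun i x => (hC i x).trans (le_abs_self _)⟩

theorem UB.bdd {f : ι → E4 → ℝ} (h : UB f) : ∃ C : ℝ, 0 ≤ C ∧ ∀ i x, |f i x| ≤ C := by
  obtain ⟨C, h0, hC⟩ := UB.bd h 0
  refine ⟨C, h0, fun i x => ?_⟩
  have := hC i x
  rwa [norm_iteratedFDeriv_zero, Real.norm_eq_abs] at this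

theorem UB.const (c : ℝ) : UB (fun (_ : ι) (_ : E4) => c) := by
  refine ⟨fun _ => contDiff_const, fun n => ⟨|c|, fun _ x => ?_⟩⟩
  rcases Nat.eq_zero_or_pos n with h0 | h0
  · subst h0
    rw [norm_iteratedFDeriv_zero, Real.norm_eq_abs]
  · rw [iteratedFDeriv_const_of_ne h0.ne']
    simp

theorem UB.neg {f : ι → E4 → ℝ} (h : UB f) : UB (fun i x => - f i x) := by
  refine ⟨fun i => (h.1 i).neg, fun n => ?_⟩
  obtain ⟨C, hC⟩ := h.2 n
  refine ⟨C, fun i x => ?_⟩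
  have : iteratedFDeriv ℝ n (fun y => - f i y) x = - iteratedFDeriv ℝ n (f i) x :=
    iteratedFDeriv_neg_apply
  show ‖iteratedFDeriv ℝ n (fun y => - f i y) x‖ ≤ C
  rw [this, norm_neg]
  exact hC i x

theorem UB.add {f g : ι → E4 → ℝ} (hf : UB f) (hg : UB g) : UB (fun i x => f i x + g i x) := by
  refine ⟨fun i => (hf.1 i).add (hg.1 i), fun n => ?_⟩
  obtain ⟨C, hC⟩ := hf.2 n
  obtain ⟨D, hD⟩ := hg.2 n
  refine ⟨C + D, fun i x => ?_⟩
  have h1 : iteratedFDeriv ℝ n (fun y => f i y + g i y) x =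
      iteratedFDeriv ℝ n (f i) x + iteratedFDeriv ℝ n (g i) x :=
    iteratedFDeriv_add_apply ((hf.1 i).contDiffAt.of_le (by exact_mod_cast le_top))
      ((hg.1 i).contDiffAt.of_le (by exact_mod_cast le_top))
  rw [h1]
  exact (norm_add_le _ _).trans (add_le_add (hC i x) (hD i x))

theorem UB.sub {f g : ι → E4 → ℝ} (hf : UB f) (hg : UB g) : UB (fun i x => f i x - g i x) := by
  have := UB.add hf (UB.neg hg)
  simpa [sub_eq_add_neg] using this

theorem UB.mul {f g : ι → E4 → ℝ} (hf : UB f) (hg : UB g) : UB (fun i x => f i x * g i x) := by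
  refine ⟨fun i => (hf.1 i).mul (hg.1 i), fun n => ?_⟩
  choose C hC0 hC using fun m => UB.bd hf m
  choose D hD0 hD using fun m => UB.bd hg m
  refine ⟨∑ m ∈ Finset.range (n + 1), (n.choose m : ℝ) * C m * D (n - m), fun i x => ?_⟩
  refine (norm_iteratedFDeriv_mul_le (hf.1 i) (hg.1 i) x (by exact_mod_cast le_top)).trans ?_
  refine Finset.sum_le_sum fun m _ => ?_
  have h1 := hC m i x
  have h2 := hD (n - m) i x
  have h3 := hC0 m
  have h4 : (0 : ℝ) ≤ (n.choose m : ℝ) := by positivity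
  exact mul_le_mul (mul_le_mul_of_nonneg_left h1 h4) h2 (norm_nonneg _) (by positivity)

theorem UB.sum {α : Type*} (s : Finset α) {f : α → ι → E4 → ℝ} (h : ∀ a ∈ s, UB (f a)) :
    UB (fun i x => ∑ a ∈ s, f a i x) := by
  classical
  induction s using Finset.induction_on with
  | empty => simpa using UB.const (ι := ι) 0
  | insert a s ha ih =>
    have h1 := UB.add (h a (Finset.mem_insert_self a s))
      (ih fun b hb => h b (Finset.mem_insert_of_mem hb))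
    simpa [Finset.sum_insert ha] using h1

theorem UB.pd {f : ι → E4 → ℝ} (hf : UB f) (j : Fin 4) : UB (fun i => pd j (f i)) := by
  refine ⟨fun i => contDiff_pd (hf.1 i) j, fun n => ?_⟩
  obtain ⟨C, hC⟩ := hf.2 (n + 1)
  refine ⟨C, fun i x => ?_⟩
  have h1 : ContDiff ℝ ∞ (fderiv ℝ (f i)) := (hf.1 i).fderiv_right (m := ∞) (by simp)
  have h2 := norm_iteratedFDeriv_clm_apply_const (𝕜 := ℝ) (f := fderiv ℝ (f i))
    (c := EuclideanSpace.single j (1 : ℝ)) (x := x) (N := ∞) (n := n) h1.contDiffAt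
    (by exact_mod_cast le_top)
  refine h2.trans ?_
  rw [norm_iteratedFDeriv_fderiv]
  have h3 : ‖(EuclideanSpace.single j (1 : ℝ) : E4)‖ = 1 := by simp
  rw [h3, one_mul]
  exact hC i x

theorem UB.mul_indep {f : ι → E4 → ℝ} (c : ℝ) (hf : UB f) : UB (fun i x => c * f i x) :=
  UB.mul (UB.const c) hf

theorem UB.fd {f : ι → E4 → ℝ} (h : UB f) : ∃ C : ℝ, 0 ≤ C ∧ ∀ i x, ‖fderiv ℝ (f i) x‖ ≤ C := by
  obtain ⟨C, h0, hC⟩ := UB.bd h 1
  refine ⟨C, h0, fun i x => ?_⟩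
  have := hC i x
  have h1 : ‖iteratedFDeriv ℝ 1 (f i) x‖ = ‖fderiv ℝ (f i) x‖ := by
    rw [show (1 : ℕ) = 0 + 1 from rfl, ← norm_iteratedFDeriv_fderiv, norm_iteratedFDeriv_zero]
  rwa [h1] at this

theorem UB.lip {f : ι → E4 → ℝ} (h : UB f) :
    ∃ C : ℝ, 0 ≤ C ∧ ∀ i x y, |f i x - f i y| ≤ C * ‖x - y‖ := by
  obtain ⟨C, h0, hC⟩ := UB.fd h
  refine ⟨C, h0, fun i x y => ?_⟩
  have := Convex.norm_image_sub_le_of_norm_fderiv_le (𝕜 := ℝ) (f := f i) (s := univ) (C := C)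
    (fun z _ => (UB.differentiable h i) z) (fun z _ => hC i z) convex_univ (mem_univ y) (mem_univ x)
  simpa [Real.norm_eq_abs] using this

/-- `|f x| ≤ C ‖x‖` if `f 0 = 0` -/
theorem UB.lip0 {f : ι → E4 → ℝ} (h : UB f) (h0 : ∀ i, f i 0 = 0) :
    ∃ C : ℝ, 0 ≤ C ∧ ∀ i x, |f i x| ≤ C * ‖x‖ := by
  obtain ⟨C, hC0, hC⟩ := UB.lip h
  refine ⟨C, hC0, fun i x => ?_⟩
  have := hC i x 0
  rwa [h0 i, sub_zero, sub_zero] at this

/-- first order Taylor formula at the origin -/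
theorem UB.taylor {f : ι → E4 → ℝ} (h : UB f) :
    ∃ C : ℝ, 0 ≤ C ∧ ∀ i x, |f i x - f i 0 - ∑ k, x k * HK286.pd k (f i) 0| ≤ C * ‖x‖ ^ 2 := by
  obtain ⟨C, hC0, hC⟩ := UB.bd h 2
  refine ⟨C, hC0, fun i x => ?_⟩
  have hfd : ∀ z, ‖fderiv ℝ (fun y => fderiv ℝ (f i) y) z‖ ≤ C := by
    intro z
    have h1 : ‖iteratedFDeriv ℝ 2 (f i) z‖ = ‖fderiv ℝ (fderiv ℝ (f i)) z‖ := by
      rw [show (2 : ℕ) = 1 + 1 from rfl, ← norm_iteratedFDeriv_fderiv,
        show (1 : ℕ) = 0 + 1 from rfl, ← norm_iteratedFDeriv_fderiv, norm_iteratedFDeriv_zero]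
    rw [← h1]; exact hC i z
  have hsm : ContDiff ℝ ∞ (fderiv ℝ (f i)) := (h.1 i).fderiv_right (m := ∞) (by simp)
  have hd : ∀ z, ‖fderiv ℝ (f i) z - fderiv ℝ (f i) 0‖ ≤ C * ‖z‖ := by
    intro z
    have := Convex.norm_image_sub_le_of_norm_fderiv_le (𝕜 := ℝ) (f := fderiv ℝ (f i)) (s := univ)
      (C := C) (fun y _ => (hsm.differentiable (by simp)) y) (fun y _ => hfd y) convex_univ
      (mem_univ (0 : E4)) (mem_univ z)
    simpa using this
  -- apply the mean value inequality to `y ↦ f y - f'(0) y` on the ball of radius `‖x‖`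
  have key := Convex.norm_image_sub_le_of_norm_hasFDerivWithin_le (𝕜 := ℝ)
    (f := fun y => f i y - fderiv ℝ (f i) 0 y)
    (f' := fun y => fderiv ℝ (f i) y - fderiv ℝ (f i) 0)
    (s := closedBall 0 ‖x‖) (C := C * ‖x‖)
    (fun y _ => (((UB.differentiable h i) y).hasFDerivAt.sub
      (fderiv ℝ (f i) 0).hasFDerivAt).hasFDerivWithinAt)
    (fun y hy => (hd y).trans (mul_le_mul_of_nonneg_left (by simpa using hy) hC0))
    (convex_closedBall 0 ‖x‖) (mem_closedBall_self (norm_nonneg x))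
    (by simp : x ∈ closedBall (0 : E4) ‖x‖)
  have e1 : (f i x - fderiv ℝ (f i) 0 x) - (f i 0 - fderiv ℝ (f i) 0 0) =
      f i x - f i 0 - ∑ k, x k * HK286.pd k (f i) 0 := by
    rw [map_zero, sub_zero, fderiv_eq_sum_pd]; ring
  rw [e1, Real.norm_eq_abs, sub_zero] at key
  calc |f i x - f i 0 - ∑ k, x k * HK286.pd k (f i) 0| ≤ C * ‖x‖ * ‖x‖ := key
    _ = C * ‖x‖ ^ 2 := by ring

/-- common bound for a finite family -/
theorem UB.bdd_fin {α : Type*} [Fintype α] {f : α → ι → E4 → ℝ} (h : ∀ a, UB (f a)) :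
    ∃ C : ℝ, 0 ≤ C ∧ ∀ a i x, |f a i x| ≤ C := by
  choose C hC0 hC using fun a => UB.bdd (h a)
  exact ⟨∑ a, C a, Finset.sum_nonneg fun a _ => hC0 a, fun a i x =>
    (hC a i x).trans (Finset.single_le_sum (fun b _ => hC0 b) (Finset.mem_univ a))⟩

theorem UB.lip0_fin {α : Type*} [Fintype α] {f : α → ι → E4 → ℝ} (h : ∀ a, UB (f a))
    (h0 : ∀ a i, f a i 0 = 0) : ∃ C : ℝ, 0 ≤ C ∧ ∀ a i x, |f a i x| ≤ C * ‖x‖ := by
  choose C hC0 hC using fun a => UB.lip0 (h a) (h0 a)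
  exact ⟨∑ a, C a, Finset.sum_nonneg fun a _ => hC0 a, fun a i x =>
    (hC a i x).trans (mul_le_mul_of_nonneg_right
      (Finset.single_le_sum (fun b _ => hC0 b) (Finset.mem_univ a)) (norm_nonneg _))⟩

theorem UB.taylor_fin {α : Type*} [Fintype α] {f : α → ι → E4 → ℝ} (h : ∀ a, UB (f a)) :
    ∃ C : ℝ, 0 ≤ C ∧ ∀ a i x,
      |f a i x - f a i 0 - ∑ k, x k * HK286.pd k (f a i) 0| ≤ C * ‖x‖ ^ 2 := by
  choose C hC0 hC using fun a => UB.taylor (h a)
  exact ⟨∑ a, C a, Finset.sum_nonneg fun a _ => hC0 a, fun a i x =>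
    (hC a i x).trans (mul_le_mul_of_nonneg_right
      (Finset.single_le_sum (fun b _ => hC0 b) (Finset.mem_univ a)) (by positivity))⟩

end Crest.Agent.R249.HK352
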