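import Crest.Agent.R249.HK3A_352

/-!
Row 249, Part C, leaf HK3 (helper352), part B: smoothness of the kernels in `x`, first derivative
of `H_m`, and the algebraic identity `(∂_t + L)(H_m e_q) = eM` (`EMStmt`), given the scalar one.
-/

set_option autoImplicit false
set_option linter.unusedSectionVars false
open scoped ContDiff
open MeasureTheory Set Metric

namespace Crest.Agent.R249.HK352
open Crest.Agent.R249.HK286

variable {ι : Type*} {M : Met ι} {κ : Type*} [Fintype κ] [DecidableEq κ]

theorem contDiff_coord (a : Fin 4) : ContDiff ℝ ∞ (fun x : E4 => x a) :=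
  (EuclideanSpace.proj (𝕜 := ℝ) a).contDiff

theorem pd_coord (a j : Fin 4) (x : E4) : pd j (fun x : E4 => x a) x = if a = j then 1 else 0 := by
  unfold pd
  have h1 : HasFDerivAt (fun x : E4 => x a) (EuclideanSpace.proj (𝕜 := ℝ) a : E4 →L[ℝ] ℝ) x :=
    (EuclideanSpace.proj (𝕜 := ℝ) a : E4 →L[ℝ] ℝ).hasFDerivAt
  rw [h1.fderiv]
  by_cases h : a = j
  · subst h; simp
  · simp [h]

theorem contDiff_rho (M : Met ι) (i : ι) (z : E4) : ContDiff ℝ ∞ (fun x => M.rho i x z) := by
  unfold Met.rho
  refine contDiff_const.mul (ContDiff.sum fun a _ => ContDiff.sum fun b _ => ?_)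
  exact ((((M.ubg a b).1 i).add contDiff_const).mul ((contDiff_coord a).sub contDiff_const)).mul
    ((contDiff_coord b).sub contDiff_const)

theorem contDiff_GG (M : Met ι) (i : ι) (t : ℝ) (z : E4) :
    ContDiff ℝ ∞ (fun x => M.GG i t x z) := by
  unfold Met.GG
  exact contDiff_const.mul (((contDiff_rho M i z).div_const _).neg.exp)

theorem contDiff_HH (M : Met ι) {R : ℝ} (c : Cut R) (m : ℕ) (i : ι) (t : ℝ) (z : E4) :
    ContDiff ℝ ∞ (fun x => M.HH c m i t x z) := by
  unfold Met.HH
  exact (c.smooth m).mul (contDiff_GG M i t z)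

theorem pd_rho (M : Met ι) (i : ι) (x z : E4) (j : Fin 4) :
    pd j (fun x => M.rho i x z) x = M.rx j i x z := by
  have dg : ∀ a b, DifferentiableAt ℝ (fun x => M.g i a b x + M.g i a b z) x := fun a b =>
    (((M.ubg a b).1 i).differentiable (by simp) x).add (differentiableAt_const _)
  have dc : ∀ a, DifferentiableAt ℝ (fun x : E4 => x a - z a) x := fun a =>
    ((contDiff_coord a).differentiable (by simp) x).sub (differentiableAt_const _)
  have pc : ∀ a, pd j (fun x : E4 => x a - z a) x = if a = j then 1 else 0 := by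
    intro a
    rw [pd_sub ((contDiff_coord a).differentiable (by simp) x) (differentiableAt_const _),
      pd_coord, pd_const, sub_zero]
  have pg : ∀ a b, pd j (fun x => M.g i a b x + M.g i a b z) x = pd j (M.g i a b) x := by
    intro a b
    rw [pd_add (((M.ubg a b).1 i).differentiable (by simp) x) (differentiableAt_const _),
      pd_const, add_zero]
  have d3 : ∀ a b, DifferentiableAt ℝ
      (fun x => (M.g i a b x + M.g i a b z) * (x a - z a) * (x b - z b)) x := fun a b =>
    ((dg a b).fun_mul (dc a)).fun_mul (dc b)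
  have d2 : ∀ a, DifferentiableAt ℝ
      (fun x => ∑ b, (M.g i a b x + M.g i a b z) * (x a - z a) * (x b - z b)) x := fun a =>
    DifferentiableAt.fun_sum fun b _ => d3 a b
  have p3 : ∀ a b, pd j (fun x => (M.g i a b x + M.g i a b z) * (x a - z a) * (x b - z b)) x =
      pd j (M.g i a b) x * (x a - z a) * (x b - z b)
      + (M.g i a b x + M.g i a b z) * (if a = j then 1 else 0) * (x b - z b)
      + (M.g i a b x + M.g i a b z) * (x a - z a) * (if b = j then 1 else 0) := by
    intro a b
    rw [pd_mul ((dg a b).fun_mul (dc a)) (dc b), pd_mul (dg a b) (dc a), pc, pc, pg]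
    ring
  unfold Met.rho Met.rx
  rw [pd_const_mul (DifferentiableAt.fun_sum fun a _ => d2 a), pd_sum _ fun a _ => d2 a]
  have p2 : ∀ a, pd j (fun x => ∑ b, (M.g i a b x + M.g i a b z) * (x a - z a) * (x b - z b)) x =
      ∑ b, (pd j (M.g i a b) x * (x a - z a) * (x b - z b)
      + (M.g i a b x + M.g i a b z) * (if a = j then 1 else 0) * (x b - z b)
      + (M.g i a b x + M.g i a b z) * (x a - z a) * (if b = j then 1 else 0)) := by
    intro a
    rw [pd_sum _ fun b _ => d3 a b]
    exact Finset.sum_congr rfl fun b _ => p3 a b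
  simp only [p2, Finset.sum_add_distrib]
  have q1 : ∑ a, ∑ b, (M.g i a b x + M.g i a b z) * (if a = j then (1 : ℝ) else 0) * (x b - z b) =
      ∑ b, (M.g i j b x + M.g i j b z) * (x b - z b) := by
    rw [Finset.sum_comm]
    refine Finset.sum_congr rfl fun b _ => ?_
    simp
  have q2 : ∑ a, ∑ b, (M.g i a b x + M.g i a b z) * (x a - z a) * (if b = j then (1 : ℝ) else 0) =
      ∑ b, (M.g i j b x + M.g i j b z) * (x b - z b) := by
    refine Finset.sum_congr rfl fun a _ => ?_
    simp only [mul_ite, mul_one, mul_zero, Finset.sum_ite_eq', Finset.mem_univ, if_true]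
    rw [M.gsymm i a j x, M.gsymm i a j z]
  rw [q1, q2]
  ring

theorem pd_GG (M : Met ι) (i : ι) (t : ℝ) (x z : E4) (j : Fin 4) :
    pd j (fun x => M.GG i t x z) x = - (M.GG i t x z * (M.rx j i x z / (4 * t))) := by
  have h1 := pd_rho M i x z j
  unfold Met.GG
  unfold pd at h1 ⊢
  have hd : HasFDerivAt (fun x => M.rho i x z) (fderiv ℝ (fun x => M.rho i x z) x) x :=
    ((contDiff_rho M i z).differentiable (by simp) x).hasFDerivAt
  have h2 := ((hd.mul_const ((4 * t)⁻¹)).fun_neg.exp).const_mul (((4 * Real.pi * t) ^ 2)⁻¹)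
  have h3 : (fun x => ((4 * Real.pi * t) ^ 2)⁻¹ * Real.exp (-(M.rho i x z / (4 * t)))) =
      fun x => ((4 * Real.pi * t) ^ 2)⁻¹ * Real.exp (-(M.rho i x z * (4 * t)⁻¹)) := by
    funext x; rw [div_eq_mul_inv]
  rw [h3, h2.fderiv]
  simp only [smul_apply, neg_apply, smul_eq_mul, h1, div_eq_mul_inv]
  ring

theorem pd_HH (M : Met ι) {R : ℝ} (c : Cut R) (m : ℕ) (i : ι) (t : ℝ) (x z : E4) (j : Fin 4) :
    pd j (fun x => M.HH c m i t x z) x = M.dH c m j i t x z := by
  unfold Met.HH Met.dH
  rw [pd_mul ((c.smooth m).differentiable (by simp) x)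
    ((contDiff_GG M i t z).differentiable (by simp) x), pd_GG]
  ring

/-! ### the columns are test functions -/

theorem HH_zero (M : Met ι) {R : ℝ} (c : Cut R) (m : ℕ) (i : ι) (t : ℝ) {x : E4} (z : E4)
    (hx : (2 * m + 1) * R / 8 ≤ ‖x‖) : M.HH c m i t x z = 0 := by
  unfold Met.HH
  rw [c.zero m x hx, zero_mul]

theorem tst_col (M : Met ι) {R : ℝ} (hR : 0 < R) (c : Cut R) {m : ℕ} (hm : m ≤ 3) (i : ι) (t : ℝ)
    (z : E4) (q : κ) : Tst R (fun y r => if r = q then M.HH c m i t y z else 0) := by
  refine ⟨fun p => ?_, (2 * m + 1) * R / 8, ?_, fun x p hx => ?_⟩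
  · by_cases h : p = q
    · simpa only [h, if_true] using contDiff_HH M c m i t z
    · simpa only [h, if_false] using contDiff_const
  · have : (m : ℝ) ≤ 3 := by exact_mod_cast hm
    nlinarith
  · by_cases h : p = q
    · simp only [h, if_true]; exact HH_zero M c m i t z hx
    · simp only [h, if_false]

/-! ### the matrix identity -/

theorem cov_col (D : Con M κ) {H : E4 → ℝ} (i : ι) (l : Fin 4) (x : E4) (p q : κ) :
    D.cov i l (fun y r => if r = q then H y else 0) x p =
      (if p = q then pd l H x else 0) + D.a i l p q x * H x := by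
  unfold Con.cov
  congr 1
  · by_cases h : p = q
    · simp only [h, if_true]
    · simp only [h, if_false]
      exact pd_const 0 x l
  · simp

theorem LL_col (D : Con M κ) {H : E4 → ℝ} (hH : ContDiff ℝ ∞ H) (i : ι) (x : E4) (p q : κ) :
    D.LL i (fun y r => if r = q then H y else 0) x p =
      (if p = q then - M.lap i H x else 0)
      - (2 * ∑ j, ∑ l, M.h i j l x * pd j H x * D.a i l p q x)
      - H x * D.dv i x p q + H x * (D.P i p q x - D.aa i x p q) := by
  have hw : M.w i x ≠ 0 := by
    obtain ⟨c, hc, h⟩ := M.wpos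
    exact (hc.trans_le (h i x)).ne'
  have dw : DifferentiableAt ℝ (M.w i) x := (M.ubw.1 i).differentiable (by simp) x
  have dh : ∀ j l, DifferentiableAt ℝ (M.h i j l) x := fun j l =>
    ((M.ubh j l).1 i).differentiable (by simp) x
  have da : ∀ l p q, DifferentiableAt ℝ (D.a i l p q) x := fun l p q =>
    ((D.uba l p q).1 i).differentiable (by simp) x
  have dH : DifferentiableAt ℝ H x := hH.differentiable (by simp) x
  have dpH : ∀ l, DifferentiableAt ℝ (pd l H) x := fun l =>
    (contDiff_pd hH l).differentiable (by simp) x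
  have dwh : ∀ j l, DifferentiableAt ℝ (fun y => M.w i y * M.h i j l y) x := fun j l =>
    dw.fun_mul (dh j l)
  -- expand the covariant derivatives
  unfold Con.LL
  simp only [cov_col]
  have e1 : ∀ j l, pd j (fun y => M.w i y * M.h i j l y *
      ((if p = q then pd l H y else 0) + D.a i l p q y * H y)) x =
      (if p = q then pd j (fun y => M.w i y * M.h i j l y * pd l H y) x else 0)
      + pd j (fun y => M.w i y * M.h i j l y * D.a i l p q y) x * H x
      + M.w i x * M.h i j l x * D.a i l p q x * pd j H x := by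
    intro j l
    have s1 : (fun y => M.w i y * M.h i j l y *
        ((if p = q then pd l H y else 0) + D.a i l p q y * H y)) =
        fun y => (if p = q then M.w i y * M.h i j l y * pd l H y else 0)
          + (M.w i y * M.h i j l y * D.a i l p q y) * H y := by
      funext y; split_ifs <;> ring
    rw [s1]
    have d2 : DifferentiableAt ℝ (fun y => (M.w i y * M.h i j l y * D.a i l p q y) * H y) x :=
      ((dwh j l).fun_mul (da l p q)).fun_mul dH
    by_cases h : p = q
    · simp only [h, if_true]
      subst h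
      rw [pd_add ((dwh j l).fun_mul (dpH l)) d2, pd_mul ((dwh j l).fun_mul (da l p p)) dH]
      ring
    · simp only [h, if_false]
      rw [pd_add (differentiableAt_const _) d2, pd_const, pd_mul ((dwh j l).fun_mul (da l p q)) dH]
      ring
  have e2 : ∀ j l, ∑ r, D.a i j p r x * (M.w i x * M.h i j l x *
      ((if r = q then pd l H x else 0) + D.a i l r q x * H x)) =
      M.w i x * (M.h i j l x * D.a i j p q x * pd l H x)
      + M.w i x * H x * (M.h i j l x * ∑ r, D.a i j p r x * D.a i l r q x) := by
    intro j l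
    have : ∀ r, D.a i j p r x * (M.w i x * M.h i j l x *
        ((if r = q then pd l H x else 0) + D.a i l r q x * H x)) =
        (if r = q then D.a i j p r x * (M.w i x * M.h i j l x) * pd l H x else 0)
        + M.w i x * H x * M.h i j l x * (D.a i j p r x * D.a i l r q x) := by
      intro r; split_ifs <;> ring
    simp only [this, Finset.sum_add_distrib, Finset.sum_ite_eq', Finset.mem_univ, if_true,
      ← Finset.mul_sum]
    ring
  simp only [e1, e2]
  have e3 : ∑ q', D.P i p q' x * (if q' = q then H x else 0) = D.P i p q x * H x := by simp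
  rw [e3]
  -- collect
  have s0 : (∑ j, ∑ l, ((if p = q then pd j (fun y => M.w i y * M.h i j l y * pd l H y) x else 0)
      + pd j (fun y => M.w i y * M.h i j l y * D.a i l p q y) x * H x
      + M.w i x * M.h i j l x * D.a i l p q x * pd j H x
      + (M.w i x * (M.h i j l x * D.a i j p q x * pd l H x)
      + M.w i x * H x * (M.h i j l x * ∑ r, D.a i j p r x * D.a i l r q x)))) =
      (if p = q then ∑ j, ∑ l, pd j (fun y => M.w i y * M.h i j l y * pd l H y) x else 0)
      + (∑ j, ∑ l, pd j (fun y => M.w i y * M.h i j l y * D.a i l p q y) x) * H x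
      + M.w i x * (∑ j, ∑ l, M.h i j l x * pd j H x * D.a i l p q x)
      + M.w i x * (∑ j, ∑ l, M.h i j l x * D.a i j p q x * pd l H x)
      + M.w i x * H x * (∑ j, ∑ l, M.h i j l x * ∑ r, D.a i j p r x * D.a i l r q x) := by
    simp only [Finset.sum_add_distrib, Finset.mul_sum, Finset.sum_mul]
    have t1 : (∑ j, ∑ l, (if p = q then pd j (fun y => M.w i y * M.h i j l y * pd l H y) x
        else 0)) = (if p = q then ∑ j, ∑ l, pd j (fun y => M.w i y * M.h i j l y * pd l H y) x
        else 0) := by
      split_ifs <;> simp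
    have t2 : (∑ j, ∑ l, M.w i x * M.h i j l x * D.a i l p q x * pd j H x) =
        ∑ j, ∑ l, M.w i x * (M.h i j l x * pd j H x * D.a i l p q x) :=
      Finset.sum_congr rfl fun j _ => Finset.sum_congr rfl fun l _ => by ring
    rw [t1, t2]
    ring
  have s1 : (∑ j, ∑ l, M.h i j l x * D.a i j p q x * pd l H x) =
      ∑ j, ∑ l, M.h i j l x * pd j H x * D.a i l p q x := by
    rw [Finset.sum_comm]
    refine Finset.sum_congr rfl fun j _ => Finset.sum_congr rfl fun l _ => ?_
    rw [M.hsymm i l j x]; ring
  rw [s0, s1]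
  unfold Con.dv Con.aa Met.lap
  set S0 := ∑ j, ∑ l, pd j (fun y => M.w i y * M.h i j l y * pd l H y) x
  set S1 := ∑ j, ∑ l, pd j (fun y => M.w i y * M.h i j l y * D.a i l p q y) x
  set S2 := ∑ j, ∑ l, M.h i j l x * pd j H x * D.a i l p q x
  set S3 := ∑ j, ∑ l, M.h i j l x * ∑ r, D.a i j p r x * D.a i l r q x
  split_ifs <;> field_simp <;> ring

/-- `EMStmt` from the scalar identity of HK2. -/
theorem em_of_scalar (D : Con M κ) {R : ℝ} (c : Cut R)
    (h0 : ∀ m i t x z, 0 < t → deriv (fun s => M.HH c m i s x z) t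
      - M.lap i (fun y => M.HH c m i t y z) x = M.e0 c m i t x z) : EMStmt c D := by
  intro m i t x z p q ht
  rw [LL_col D (contDiff_HH M c m i t z)]
  simp only [pd_HH]
  unfold Con.eM Con.sk Con.sy
  rw [← h0 m i t x z ht]
  split_ifs <;> ring

end Crest.Agent.R249.HK352
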