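import Crest.Agent.R249.HK3B_352

/-!
Row 249, Part C, leaf HK3 (helper352), part C: Gaussian bounds and measurability of the kernels.
-/

set_option autoImplicit false
set_option linter.unusedSectionVars false
open scoped ContDiff
open MeasureTheory Set Metric

namespace Crest.Agent.R249.HK352
open Crest.Agent.R249.HK286

/-! ### Gaussian calculus -/

theorem Gam_nonneg (c t : ℝ) (x : E4) : 0 ≤ Gam c t x := by
  unfold Gam; positivity

theorem Gam_mono {c c' t : ℝ} (h : c' ≤ c) (ht : 0 < t) (x : E4) : Gam c t x ≤ Gam c' t x := by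
  unfold Gam
  have h1 : c' * ‖x‖ ^ 2 / t ≤ c * ‖x‖ ^ 2 / t := by gcongr
  have : Real.exp (-(c * ‖x‖ ^ 2 / t)) ≤ Real.exp (-(c' * ‖x‖ ^ 2 / t)) :=
    Real.exp_le_exp.2 (by linarith)
  exact mul_le_mul_of_nonneg_left this (by positivity)

theorem pow_exp_le (k : ℕ) {δ s : ℝ} (hδ : 0 < δ) (hs : 0 ≤ s) :
    s ^ k * Real.exp (-(δ * s ^ 2)) ≤ (k.factorial : ℝ) * Real.exp (1 / (4 * δ)) := by
  have h1 : s ^ k ≤ (k.factorial : ℝ) * Real.exp s := by
    have := Real.pow_div_factorial_le_exp s hs k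
    rw [div_le_iff₀ (by positivity)] at this
    linarith
  have h2 : s + -(δ * s ^ 2) ≤ 1 / (4 * δ) := by
    rw [le_div_iff₀ (by positivity)]
    nlinarith [sq_nonneg (2 * δ * s - 1)]
  calc s ^ k * Real.exp (-(δ * s ^ 2))
      ≤ (k.factorial : ℝ) * Real.exp s * Real.exp (-(δ * s ^ 2)) := by gcongr
    _ = (k.factorial : ℝ) * Real.exp (s + -(δ * s ^ 2)) := by rw [Real.exp_add]; ring
    _ ≤ (k.factorial : ℝ) * Real.exp (1 / (4 * δ)) := by
      gcongr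

/-- `‖x‖^k Γ_c(t,x) ≤ C (√t)^k Γ_{c'}(t,x)` -/
theorem gauss_pow (k : ℕ) {c c' : ℝ} (h : c' < c) :
    ∃ C : ℝ, 0 ≤ C ∧ ∀ t : ℝ, 0 < t → ∀ x : E4,
      ‖x‖ ^ k * Gam c t x ≤ C * Real.sqrt t ^ k * Gam c' t x := by
  refine ⟨(k.factorial : ℝ) * Real.exp (1 / (4 * (c - c'))), by positivity, fun t ht x => ?_⟩
  have hst : 0 < Real.sqrt t := Real.sqrt_pos.2 ht
  have h1 := pow_exp_le k (s := ‖x‖ / Real.sqrt t) (sub_pos.2 h) (by positivity)
  have h2 : (‖x‖ / Real.sqrt t) ^ 2 = ‖x‖ ^ 2 / t := by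
    rw [div_pow, Real.sq_sqrt ht.le]
  rw [h2] at h1
  have h3 : Real.exp (-(c * ‖x‖ ^ 2 / t)) =
      Real.exp (-((c - c') * (‖x‖ ^ 2 / t))) * Real.exp (-(c' * ‖x‖ ^ 2 / t)) := by
    rw [← Real.exp_add]; congr 1; ring
  unfold Gam
  rw [h3]
  have h4 : ‖x‖ ^ k = Real.sqrt t ^ k * (‖x‖ / Real.sqrt t) ^ k := by
    rw [← mul_pow, mul_div_cancel₀ _ hst.ne']
  rw [h4]
  have h5 : 0 ≤ Real.sqrt t ^ k * ((t ^ 2)⁻¹ * Real.exp (-(c' * ‖x‖ ^ 2 / t))) := by positivity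
  have h6 := mul_le_mul_of_nonneg_left h1 h5
  calc Real.sqrt t ^ k * (‖x‖ / Real.sqrt t) ^ k * ((t ^ 2)⁻¹ *
        (Real.exp (-((c - c') * (‖x‖ ^ 2 / t))) * Real.exp (-(c' * ‖x‖ ^ 2 / t))))
      = Real.sqrt t ^ k * ((t ^ 2)⁻¹ * Real.exp (-(c' * ‖x‖ ^ 2 / t))) *
        ((‖x‖ / Real.sqrt t) ^ k * Real.exp (-((c - c') * (‖x‖ ^ 2 / t)))) := by ring
    _ ≤ Real.sqrt t ^ k * ((t ^ 2)⁻¹ * Real.exp (-(c' * ‖x‖ ^ 2 / t))) *
        ((k.factorial : ℝ) * Real.exp (1 / (4 * (c - c')))) := h6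
    _ = (k.factorial : ℝ) * Real.exp (1 / (4 * (c - c'))) * Real.sqrt t ^ k *
        ((t ^ 2)⁻¹ * Real.exp (-(c' * ‖x‖ ^ 2 / t))) := by ring

theorem sqrt_le_one' {t : ℝ} (ht : t ∈ Ioc (0 : ℝ) 1) : Real.sqrt t ≤ 1 := by
  rw [Real.sqrt_le_iff]; exact ⟨zero_le_one, by simpa using ht.2⟩

theorem one_le_inv_sqrt {t : ℝ} (ht : t ∈ Ioc (0 : ℝ) 1) : 1 ≤ (Real.sqrt t)⁻¹ :=
  one_le_inv_iff₀.2 ⟨Real.sqrt_pos.2 ht.1, sqrt_le_one' ht⟩

variable {ι : Type*} {M : Met ι} {κ : Type*} [Fintype κ] [DecidableEq κ]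

/-! ### bounds of the scalar kernels -/

theorem rho_ge (M : Met ι) : ∃ c : ℝ, 0 < c ∧ ∀ i x z, c * ‖x - z‖ ^ 2 ≤ M.rho i x z := by
  obtain ⟨c, hc, h⟩ := M.ell
  refine ⟨c, hc, fun i x z => ?_⟩
  have h1 := h i x (fun a => x a - z a)
  have h2 := h i z (fun a => x a - z a)
  have h3 : ‖x - z‖ ^ 2 = ∑ a, (x a - z a) ^ 2 := by
    rw [EuclideanSpace.real_norm_sq_eq]; rfl
  have h4 : M.rho i x z = 1 / 2 * ((∑ a, ∑ b, M.g i a b x * (x a - z a) * (x b - z b)) +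
      ∑ a, ∑ b, M.g i a b z * (x a - z a) * (x b - z b)) := by
    unfold Met.rho
    congr 1
    rw [← Finset.sum_add_distrib]
    refine Finset.sum_congr rfl fun a _ => ?_
    rw [← Finset.sum_add_distrib]
    exact Finset.sum_congr rfl fun b _ => by ring
  rw [h3, h4]
  linarith

theorem GG_nonneg (M : Met ι) (i : ι) (t : ℝ) (x z : E4) : 0 ≤ M.GG i t x z := by
  unfold Met.GG; positivity

theorem GG_le (M : Met ι) : ∃ C c : ℝ, 0 ≤ C ∧ 0 < c ∧ ∀ i, ∀ t : ℝ, 0 < t → ∀ x z,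
    M.GG i t x z ≤ C * Gam c t (x - z) := by
  obtain ⟨c, hc, h⟩ := rho_ge M
  refine ⟨((4 * Real.pi) ^ 2)⁻¹, c / 4, by positivity, by positivity, fun i t ht x z => ?_⟩
  unfold Met.GG Gam
  have h1 : ((4 * Real.pi * t) ^ 2)⁻¹ = ((4 * Real.pi) ^ 2)⁻¹ * (t ^ 2)⁻¹ := by
    rw [mul_pow, mul_inv]
  have h2 : Real.exp (-(M.rho i x z / (4 * t))) ≤ Real.exp (-(c / 4 * ‖x - z‖ ^ 2 / t)) := by
    apply Real.exp_le_exp.2
    have h3 : c / 4 * ‖x - z‖ ^ 2 / t = c * ‖x - z‖ ^ 2 / (4 * t) := by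
      field_simp
    rw [h3]
    have := h i x z
    have h5 : c * ‖x - z‖ ^ 2 / (4 * t) ≤ M.rho i x z / (4 * t) := by gcongr
    linarith
  rw [h1, mul_assoc]
  gcongr

theorem HH_nonneg (M : Met ι) {R : ℝ} (c : Cut R) (m : ℕ) (i : ι) (t : ℝ) (x z : E4) :
    0 ≤ M.HH c m i t x z := mul_nonneg (c.mem m x).1 (GG_nonneg M i t x z)

theorem HH_le_GG (M : Met ι) {R : ℝ} (c : Cut R) (m : ℕ) (i : ι) (t : ℝ) (x z : E4) :
    M.HH c m i t x z ≤ M.GG i t x z := by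
  have := mul_le_mul_of_nonneg_right (c.mem m x).2 (GG_nonneg M i t x z)
  rwa [one_mul] at this

theorem ps_zero_off {R : ℝ} (c : Cut R) (m : ℕ) :
    Function.support (c.ps m) ⊆ closedBall (0 : E4) ((2 * m + 1) * R / 8) := by
  intro x hx
  by_contra h
  apply hx
  apply c.zero
  have : ¬ ‖x‖ ≤ (2 * m + 1) * R / 8 := by simpa using h
  linarith

theorem hasCompactSupport_ps {R : ℝ} (c : Cut R) (m : ℕ) : HasCompactSupport (c.ps m) :=
  HasCompactSupport.of_support_subset_isCompact (isCompact_closedBall _ _) (ps_zero_off c m)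

theorem pd_ps_bdd {R : ℝ} (c : Cut R) (m : ℕ) :
    ∃ C : ℝ, 0 ≤ C ∧ ∀ j x, |pd j (c.ps m) x| ≤ C := by
  have h1 : HasCompactSupport (fderiv ℝ (c.ps m)) := (hasCompactSupport_ps c m).fderiv (𝕜 := ℝ)
  have h2 : Continuous (fderiv ℝ (c.ps m)) :=
    (c.smooth m).continuous_fderiv (by simp)
  obtain ⟨C, hC⟩ := h1.exists_bound_of_continuous h2
  refine ⟨C, (norm_nonneg _).trans (hC 0), fun j x => ?_⟩
  unfold pd
  refine ((fderiv ℝ (c.ps m) x).le_opNorm _).trans ?_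
  have h3 : ‖(EuclideanSpace.single j (1 : ℝ) : E4)‖ = 1 := by simp
  rw [h3, mul_one]
  exact hC x

theorem abs_sub_coord_le (x z : E4) (a : Fin 4) : |x a - z a| ≤ ‖x - z‖ := by
  have := abs_coord_le (x - z) a
  simpa using this

theorem rx_le (M : Met ι) : ∃ C : ℝ, 0 ≤ C ∧ ∀ j i x z,
    |M.rx j i x z| ≤ C * (‖x - z‖ + ‖x - z‖ ^ 2) := by
  obtain ⟨C, hC0, hC⟩ := UB.bdd_fin (f := fun ab : Fin 4 × Fin 4 => fun i => M.g i ab.1 ab.2)
    (fun ab => M.ubg ab.1 ab.2)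
  obtain ⟨D, hD0, hD⟩ := UB.bdd_fin
    (f := fun jab : Fin 4 × Fin 4 × Fin 4 => fun i => pd jab.1 (M.g i jab.2.1 jab.2.2))
    (fun jab => UB.pd (M.ubg jab.2.1 jab.2.2) jab.1)
  refine ⟨8 * C + 8 * D, by positivity, fun j i x z => ?_⟩
  unfold Met.rx
  have h1 : |∑ b, (M.g i j b x + M.g i j b z) * (x b - z b)| ≤ 8 * C * ‖x - z‖ := by
    refine (Finset.abs_sum_le_sum_abs _ _).trans ?_
    have : ∀ b ∈ (Finset.univ : Finset (Fin 4)), |(M.g i j b x + M.g i j b z) * (x b - z b)| ≤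
        2 * C * ‖x - z‖ := by
      intro b _
      rw [abs_mul]
      have e1 : |M.g i j b x + M.g i j b z| ≤ 2 * C := by
        refine (abs_add_le _ _).trans ?_
        have := hC (j, b) i x
        have := hC (j, b) i z
        simp only at *
        linarith
      exact mul_le_mul e1 (abs_sub_coord_le x z b) (abs_nonneg _) (by positivity)
    refine (Finset.sum_le_sum this).trans ?_
    simp
    nlinarith [norm_nonneg (x - z)]
  have h2 : |1 / 2 * ∑ a, ∑ b, pd j (M.g i a b) x * (x a - z a) * (x b - z b)| ≤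
      8 * D * ‖x - z‖ ^ 2 := by
    rw [abs_mul]
    have : |∑ a, ∑ b, pd j (M.g i a b) x * (x a - z a) * (x b - z b)| ≤
        16 * D * ‖x - z‖ ^ 2 := by
      refine (Finset.abs_sum_le_sum_abs _ _).trans ?_
      have e0 : ∀ a ∈ (Finset.univ : Finset (Fin 4)),
          |∑ b, pd j (M.g i a b) x * (x a - z a) * (x b - z b)| ≤ 4 * D * ‖x - z‖ ^ 2 := by
        intro a _
        refine (Finset.abs_sum_le_sum_abs _ _).trans ?_
        have e1 : ∀ b ∈ (Finset.univ : Finset (Fin 4)),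
            |pd j (M.g i a b) x * (x a - z a) * (x b - z b)| ≤ D * ‖x - z‖ ^ 2 := by
          intro b _
          rw [abs_mul, abs_mul, pow_two, ← mul_assoc]
          exact mul_le_mul (mul_le_mul (hD (j, a, b) i x) (abs_sub_coord_le x z a)
            (abs_nonneg _) hD0) (abs_sub_coord_le x z b) (abs_nonneg _) (by positivity)
        refine (Finset.sum_le_sum e1).trans ?_
        simp
        nlinarith [norm_nonneg (x - z)]
      refine (Finset.sum_le_sum e0).trans ?_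
      simp
      nlinarith [norm_nonneg (x - z)]
    have e2 : |(1 / 2 : ℝ)| = 1 / 2 := abs_of_pos (by norm_num)
    rw [e2]
    linarith
  have h3 := norm_nonneg (x - z)
  refine (abs_add_le _ _).trans ?_
  have h4 : 0 ≤ C * ‖x - z‖ ^ 2 := by positivity
  have h5 : 0 ≤ D * ‖x - z‖ := by positivity
  nlinarith

/-- `|∂_j H_m| ≤ C t^{-1/2} Γ` -/
theorem dH_le (M : Met ι) {R : ℝ} (c : Cut R) (m : ℕ) :
    ∃ C c' : ℝ, 0 ≤ C ∧ 0 < c' ∧ ∀ j i, ∀ t ∈ Ioc (0 : ℝ) 1, ∀ x z,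
      |M.dH c m j i t x z| ≤ C * (Real.sqrt t)⁻¹ * Gam c' t (x - z) := by
  obtain ⟨A, a, hA, ha, hG⟩ := GG_le M
  obtain ⟨B, hB, hp⟩ := pd_ps_bdd c m
  obtain ⟨D, hD, hr⟩ := rx_le M
  obtain ⟨E, hE, h1⟩ := gauss_pow 1 (show a / 2 < a by linarith)
  obtain ⟨F, hF, h2⟩ := gauss_pow 2 (show a / 2 < a by linarith)
  refine ⟨B * A + D * A * E + D * A * F, a / 2, by positivity, by positivity,
    fun j i t ht x z => ?_⟩
  have ht0 := ht.1
  have hs0 : 0 < Real.sqrt t := Real.sqrt_pos.2 ht0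
  have hs1 := one_le_inv_sqrt ht
  have hGm := Gam_mono (show a / 2 ≤ a by linarith) ht0 (x - z)
  have hGn := Gam_nonneg (a / 2) t (x - z)
  have hGa := Gam_nonneg a t (x - z)
  have k1 : |pd j (c.ps m) x * M.GG i t x z| ≤ B * A * (Real.sqrt t)⁻¹ * Gam (a / 2) t (x - z) := by
    rw [abs_mul, abs_of_nonneg (GG_nonneg M i t x z)]
    calc |pd j (c.ps m) x| * M.GG i t x z ≤ B * (A * Gam a t (x - z)) :=
          mul_le_mul (hp j x) (hG i t ht0 x z) (GG_nonneg M i t x z) hB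
      _ ≤ B * (A * Gam (a / 2) t (x - z)) := by gcongr
      _ = B * A * 1 * Gam (a / 2) t (x - z) := by ring
      _ ≤ B * A * (Real.sqrt t)⁻¹ * Gam (a / 2) t (x - z) := by gcongr
  have k2 : |c.ps m x * M.GG i t x z * (M.rx j i x z / (4 * t))| ≤
      (D * A * E + D * A * F) * (Real.sqrt t)⁻¹ * Gam (a / 2) t (x - z) := by
    rw [abs_mul, abs_mul, abs_div, abs_of_nonneg (c.mem m x).1,
      abs_of_nonneg (GG_nonneg M i t x z), abs_of_pos (show 0 < 4 * t by linarith)]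
    have u1 : c.ps m x * M.GG i t x z ≤ A * Gam a t (x - z) := by
      have := HH_le_GG M c m i t x z
      unfold Met.HH at this
      exact this.trans (hG i t ht0 x z)
    have u2 : |M.rx j i x z| / (4 * t) ≤ D * (‖x - z‖ + ‖x - z‖ ^ 2) / t := by
      have := hr j i x z
      rw [div_le_div_iff₀ (by linarith) ht0]
      nlinarith [abs_nonneg (M.rx j i x z), this]
    have u3 := h1 t ht0 (x - z)
    have u4 := h2 t ht0 (x - z)
    rw [pow_one, pow_one] at u3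
    have hst : Real.sqrt t * Real.sqrt t = t := Real.mul_self_sqrt ht0.le
    calc c.ps m x * M.GG i t x z * (|M.rx j i x z| / (4 * t))
        ≤ A * Gam a t (x - z) * (D * (‖x - z‖ + ‖x - z‖ ^ 2) / t) :=
          mul_le_mul u1 u2 (by positivity) (by positivity)
      _ = D * A / t * (‖x - z‖ * Gam a t (x - z) + ‖x - z‖ ^ 2 * Gam a t (x - z)) := by
          field_simp
      _ ≤ D * A / t * (E * Real.sqrt t * Gam (a / 2) t (x - z) +
          F * Real.sqrt t ^ 2 * Gam (a / 2) t (x - z)) := by gcongr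
      _ = D * A * E * (Real.sqrt t / t) * Gam (a / 2) t (x - z) +
          D * A * F * (Real.sqrt t ^ 2 / t) * Gam (a / 2) t (x - z) := by ring
      _ = D * A * E * (Real.sqrt t)⁻¹ * Gam (a / 2) t (x - z) +
          D * A * F * 1 * Gam (a / 2) t (x - z) := by
          have w1 : Real.sqrt t / t = (Real.sqrt t)⁻¹ := by
            rw [div_eq_iff ht0.ne', inv_mul_eq_div, eq_div_iff hs0.ne', hst]
          have w2 : Real.sqrt t ^ 2 / t = 1 := by
            rw [Real.sq_sqrt ht0.le, div_self ht0.ne']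
          rw [w1, w2]
      _ ≤ D * A * E * (Real.sqrt t)⁻¹ * Gam (a / 2) t (x - z) +
          D * A * F * (Real.sqrt t)⁻¹ * Gam (a / 2) t (x - z) := by gcongr
      _ = (D * A * E + D * A * F) * (Real.sqrt t)⁻¹ * Gam (a / 2) t (x - z) := by ring
  unfold Met.dH
  refine (abs_sub _ _).trans ?_
  have := add_le_add k1 k2
  refine this.trans (le_of_eq ?_)
  ring

end Crest.Agent.R249.HK352
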