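import Crest.Agent.R249.HK3C_352
import Crest.Agent.R249.HKCal_286

/-!
Row 249, Part C, leaf HK3 (helper352), part D: `inpD : InpM M c → InpD c D`.
-/

set_option autoImplicit false
set_option linter.unusedSectionVars false
open scoped ContDiff
open MeasureTheory Set Metric

namespace Crest.Agent.R249.HK352
open Crest.Agent.R249.HK286

variable {ι : Type*} {M : Met ι} {κ : Type*} [Fintype κ] [DecidableEq κ]

/-! ### the coefficients -/

theorem ub_aa (D : Con M κ) (p q : κ) : UB fun i x => D.aa i x p q := by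
  unfold Con.aa
  exact UB.sum _ fun j _ => UB.sum _ fun l _ => UB.mul (M.ubh j l)
    (UB.sum _ fun r _ => UB.mul (D.uba j p r) (D.uba l r q))

theorem a_le (D : Con M κ) : ∃ C : ℝ, 0 ≤ C ∧ ∀ j p q i x, |D.a i j p q x| ≤ C * ‖x‖ := by
  obtain ⟨C, hC0, hC⟩ := UB.lip0_fin (f := fun jpq : Fin 4 × κ × κ => fun i =>
    D.a i jpq.1 jpq.2.1 jpq.2.2) (fun jpq => D.uba _ _ _) (fun jpq i => D.azero i _ _ _)
  exact ⟨C, hC0, fun j p q i x => hC (j, p, q) i x⟩

theorem h_le (M : Met ι) : ∃ C : ℝ, 0 ≤ C ∧ ∀ j l i x, |M.h i j l x| ≤ C := by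
  obtain ⟨C, hC0, hC⟩ := UB.bdd_fin (f := fun jl : Fin 4 × Fin 4 => fun i => M.h i jl.1 jl.2)
    (fun jl => M.ubh _ _)
  exact ⟨C, hC0, fun j l i x => hC (j, l) i x⟩

theorem aa_sq_le (D : Con M κ) (p q : κ) :
    ∃ C : ℝ, ∀ i x, |D.aa i x p q| ≤ C * ‖x‖ ^ 2 := by
  obtain ⟨A, hA0, hA⟩ := a_le D
  obtain ⟨H, hH0, hH⟩ := h_le M
  refine ⟨∑ _j : Fin 4, ∑ _l : Fin 4, H * ∑ _r : κ, A * A, fun i x => ?_⟩
  unfold Con.aa
  rw [Finset.sum_mul]
  refine (Finset.abs_sum_le_sum_abs _ _).trans (Finset.sum_le_sum fun j _ => ?_)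
  rw [Finset.sum_mul]
  refine (Finset.abs_sum_le_sum_abs _ _).trans (Finset.sum_le_sum fun l _ => ?_)
  rw [abs_mul, mul_assoc]
  refine mul_le_mul (hH j l i x) ?_ (abs_nonneg _) hH0
  rw [Finset.sum_mul]
  refine (Finset.abs_sum_le_sum_abs _ _).trans (Finset.sum_le_sum fun r _ => ?_)
  rw [abs_mul]
  calc |D.a i j p r x| * |D.a i l r q x| ≤ (A * ‖x‖) * (A * ‖x‖) :=
        mul_le_mul (hA _ _ _ _ _) (hA _ _ _ _ _) (abs_nonneg _) (by positivity)
    _ = A * A * ‖x‖ ^ 2 := by ring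

theorem aa_symm (D : Con M κ) (i : ι) (x : E4) (p q : κ) : D.aa i x p q = D.aa i x q p := by
  unfold Con.aa
  rw [Finset.sum_comm]
  refine Finset.sum_congr rfl fun l _ => Finset.sum_congr rfl fun j _ => ?_
  rw [M.hsymm i j l x]
  congr 1
  refine Finset.sum_congr rfl fun r _ => ?_
  rw [D.askew i j p r x, D.askew i l r q x]
  ring

/-- the numerator of `dv` -/
noncomputable def dvN (D : Con M κ) (i : ι) (x : E4) (p q : κ) : ℝ :=
  ∑ j, ∑ l, pd j (fun y => M.w i y * M.h i j l y * D.a i l p q y) x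

theorem ub_dvN (D : Con M κ) (p q : κ) : UB fun i x => dvN D i x p q := by
  unfold dvN
  exact UB.sum _ fun j _ => UB.sum _ fun l _ =>
    UB.pd (UB.mul (UB.mul M.ubw (M.ubh j l)) (D.uba l p q)) j

theorem dvN_zero (D : Con M κ) (i : ι) (p q : κ) : dvN D i 0 p q = 0 := by
  unfold dvN
  have h1 : ∀ j l, pd j (fun y => M.w i y * M.h i j l y * D.a i l p q y) 0 =
      M.w i 0 * M.h i j l 0 * pd j (D.a i l p q) 0 := by
    intro j l
    have hw : DifferentiableAt ℝ (M.w i) 0 := (M.ubw.1 i).differentiable (by simp) 0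
    have hh : DifferentiableAt ℝ (M.h i j l) 0 := ((M.ubh j l).1 i).differentiable (by simp) 0
    have ha : DifferentiableAt ℝ (D.a i l p q) 0 := ((D.uba l p q).1 i).differentiable (by simp) 0
    have hwh : DifferentiableAt ℝ (fun y => M.w i y * M.h i j l y) 0 := hw.fun_mul hh
    rw [pd_mul hwh ha, D.azero, mul_zero, zero_add]
  simp only [h1]
  have h2 : ∑ j, ∑ l, M.w i 0 * M.h i j l 0 * pd j (D.a i l p q) 0 =
      - ∑ j, ∑ l, M.w i 0 * M.h i j l 0 * pd j (D.a i l p q) 0 := by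
    conv_lhs => rw [Finset.sum_comm]
    rw [← Finset.sum_neg_distrib]
    refine Finset.sum_congr rfl fun l _ => ?_
    rw [← Finset.sum_neg_distrib]
    refine Finset.sum_congr rfl fun j _ => ?_
    rw [M.hsymm i j l 0, D.arad i l j p q]
    ring
  linarith

theorem dv_le (D : Con M κ) : ∃ C : ℝ, 0 ≤ C ∧ ∀ p q i x, |D.dv i x p q| ≤ C * ‖x‖ := by
  obtain ⟨A, hA0, hA⟩ := UB.lip0_fin (f := fun pq : κ × κ => fun i x => dvN D i x pq.1 pq.2)
    (fun pq => ub_dvN D _ _) (fun pq i => dvN_zero D i _ _)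
  obtain ⟨c, hc, hw⟩ := M.wpos
  refine ⟨c⁻¹ * A, by positivity, fun p q i x => ?_⟩
  have h1 : D.dv i x p q = (M.w i x)⁻¹ * dvN D i x p q := rfl
  rw [h1, abs_mul, mul_assoc]
  refine mul_le_mul ?_ (hA (p, q) i x) (abs_nonneg _) (by positivity)
  rw [abs_inv, abs_of_pos (hc.trans_le (hw i x))]
  exact inv_anti₀ hc (hw i x)

theorem dv_skew (D : Con M κ) (i : ι) (x : E4) (p q : κ) : D.dv i x p q = - D.dv i x q p := by
  unfold Con.dv
  rw [← mul_neg]
  congr 1
  rw [← Finset.sum_neg_distrib]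
  refine Finset.sum_congr rfl fun j _ => ?_
  rw [← Finset.sum_neg_distrib]
  refine Finset.sum_congr rfl fun l _ => ?_
  rw [← pd_neg]
  congr 1
  funext y
  rw [D.askew i l p q y]; ring

theorem sk_skew (D : Con M κ) {R : ℝ} (c : Cut R) (m : ℕ) (i : ι) (t : ℝ) (x z : E4) (p q : κ) :
    D.sk c m i t x z p q = - D.sk c m i t x z q p := by
  unfold Con.sk
  have h1 : ∑ j, ∑ l, M.h i j l x * M.dH c m j i t x z * D.a i l p q x =
      - ∑ j, ∑ l, M.h i j l x * M.dH c m j i t x z * D.a i l q p x := by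
    rw [← Finset.sum_neg_distrib]
    refine Finset.sum_congr rfl fun j _ => ?_
    rw [← Finset.sum_neg_distrib]
    refine Finset.sum_congr rfl fun l _ => ?_
    rw [D.askew i l p q x]; ring
  rw [h1, dv_skew D i x p q]
  ring

/-! ### measurability -/

theorem measurable_dv (D : Con M κ) (i : ι) (p q : κ) : Measurable fun x => D.dv i x p q := by
  have h1 : (fun x => D.dv i x p q) = fun x => (M.w i x)⁻¹ * dvN D i x p q := rfl
  rw [h1]
  exact ((M.ubw.1 i).continuous.measurable.inv).mul ((ub_dvN D p q).1 i).continuous.measurable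

theorem measurable_sk (D : Con M κ) {R : ℝ} (c : Cut R) (hM : InpM M c) (m : ℕ) (i : ι) (p q : κ) :
    Measurable fun z : ℝ × E4 × E4 => D.sk c m i z.1 z.2.1 z.2.2 p q := by
  unfold Con.sk
  have hx : Measurable fun z : ℝ × E4 × E4 => z.2.1 := measurable_snd.fst
  refine Measurable.sub ?_ ?_
  · refine (Measurable.const_mul (Finset.measurable_sum _ fun j _ =>
      Finset.measurable_sum _ fun l _ => ?_) 2).neg
    exact ((((M.ubh j l).1 i).continuous.measurable.comp hx).mul ((hM.dH m j).1 i)).mul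
      (((D.uba l p q).1 i).continuous.measurable.comp hx)
  · exact ((hM.HH m).1 i).mul ((measurable_dv D i p q).comp hx)

/-! ### bounds of the skew part -/

theorem sk_bound (D : Con M κ) {R : ℝ} (c : Cut R) (m : ℕ) (p q : κ) :
    ∃ C c' : ℝ, 0 ≤ C ∧ 0 < c' ∧ ∀ i, ∀ t ∈ Ioc (0 : ℝ) 1, ∀ x z,
      |D.sk c m i t x z p q| ≤ C * (‖x‖ / Real.sqrt t) * Gam c' t (x - z) := by
  obtain ⟨A, hA0, hA⟩ := a_le D
  obtain ⟨H, hH0, hH⟩ := h_le M
  obtain ⟨V, hV0, hV⟩ := dv_le D
  obtain ⟨B, b, hB0, hb, hB⟩ := dH_le M c m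
  obtain ⟨G, g, hG0, hg, hG⟩ := GG_le M
  refine ⟨32 * H * B * A + G * V, min b g, by positivity, lt_min hb hg, fun i t ht x z => ?_⟩
  have ht0 := ht.1
  have hs1 := one_le_inv_sqrt ht
  have hGm := Gam_mono (min_le_left b g) ht0 (x - z)
  have hGm' := Gam_mono (min_le_right b g) ht0 (x - z)
  have hGn := Gam_nonneg (min b g) t (x - z)
  have hsx : 0 ≤ (Real.sqrt t)⁻¹ := by positivity
  have k1 : |2 * ∑ j, ∑ l, M.h i j l x * M.dH c m j i t x z * D.a i l p q x| ≤
      32 * H * B * A * (‖x‖ / Real.sqrt t) * Gam (min b g) t (x - z) := by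
    rw [abs_mul, abs_two]
    have e0 : ∀ j l, |M.h i j l x * M.dH c m j i t x z * D.a i l p q x| ≤
        H * B * A * (‖x‖ / Real.sqrt t) * Gam (min b g) t (x - z) := by
      intro j l
      rw [abs_mul, abs_mul]
      calc |M.h i j l x| * |M.dH c m j i t x z| * |D.a i l p q x|
          ≤ H * (B * (Real.sqrt t)⁻¹ * Gam b t (x - z)) * (A * ‖x‖) := by
            refine mul_le_mul (mul_le_mul (hH j l i x) (hB j i t ht x z) (abs_nonneg _) hH0)
              (hA l p q i x) (abs_nonneg _) ?_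
            have := Gam_nonneg b t (x - z)
            positivity
        _ ≤ H * (B * (Real.sqrt t)⁻¹ * Gam (min b g) t (x - z)) * (A * ‖x‖) := by gcongr
        _ = H * B * A * (‖x‖ / Real.sqrt t) * Gam (min b g) t (x - z) := by
            rw [div_eq_mul_inv]; ring
    have e1 : |∑ j, ∑ l, M.h i j l x * M.dH c m j i t x z * D.a i l p q x| ≤
        16 * (H * B * A * (‖x‖ / Real.sqrt t) * Gam (min b g) t (x - z)) := by
      refine (Finset.abs_sum_le_sum_abs _ _).trans ?_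
      refine (Finset.sum_le_sum fun j _ => (Finset.abs_sum_le_sum_abs _ _).trans
        (Finset.sum_le_sum fun l _ => e0 j l)).trans (le_of_eq ?_)
      simp only [Finset.sum_const, Finset.card_univ, Fintype.card_fin, nsmul_eq_mul]
      push_cast
      ring
    linarith
  have k2 : |M.HH c m i t x z * D.dv i x p q| ≤
      G * V * (‖x‖ / Real.sqrt t) * Gam (min b g) t (x - z) := by
    rw [abs_mul, abs_of_nonneg (HH_nonneg M c m i t x z)]
    calc M.HH c m i t x z * |D.dv i x p q| ≤ (G * Gam g t (x - z)) * (V * ‖x‖) :=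
          mul_le_mul ((HH_le_GG M c m i t x z).trans (hG i t ht0 x z)) (hV p q i x)
            (abs_nonneg _) (by have := Gam_nonneg g t (x - z); positivity)
      _ ≤ (G * Gam (min b g) t (x - z)) * (V * ‖x‖) := by gcongr
      _ = G * V * (‖x‖ * 1) * Gam (min b g) t (x - z) := by ring
      _ ≤ G * V * (‖x‖ * (Real.sqrt t)⁻¹) * Gam (min b g) t (x - z) := by gcongr
      _ = G * V * (‖x‖ / Real.sqrt t) * Gam (min b g) t (x - z) := by rw [div_eq_mul_inv]
  unfold Con.sk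
  refine (abs_sub _ _).trans ?_
  rw [abs_neg]
  refine (add_le_add k1 k2).trans (le_of_eq ?_)
  ring

/-- radial gauge: `|Σ_l x_l a_l(x)| ≤ C ‖x‖³` -/
theorem radial_le (D : Con M κ) (p q : κ) :
    ∃ C : ℝ, 0 ≤ C ∧ ∀ i x, |∑ l, x l * D.a i l p q x| ≤ C * ‖x‖ ^ 3 := by
  obtain ⟨A, hA0, hA⟩ := UB.taylor_fin (f := fun l : Fin 4 => fun i => D.a i l p q)
    (fun l => D.uba l p q)
  refine ⟨4 * A, by positivity, fun i x => ?_⟩
  have h0 : ∑ l, ∑ k, x l * (x k * pd k (D.a i l p q) 0) = 0 := by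
    have : ∑ l, ∑ k, x l * (x k * pd k (D.a i l p q) 0) =
        - ∑ l, ∑ k, x l * (x k * pd k (D.a i l p q) 0) := by
      conv_lhs => rw [Finset.sum_comm]
      rw [← Finset.sum_neg_distrib]
      refine Finset.sum_congr rfl fun l _ => ?_
      rw [← Finset.sum_neg_distrib]
      refine Finset.sum_congr rfl fun k _ => ?_
      rw [D.arad i k l p q]; ring
    linarith
  have h1 : ∑ l, x l * D.a i l p q x =
      ∑ l, x l * (D.a i l p q x - D.a i l p q 0 - ∑ k, x k * pd k (D.a i l p q) 0) := by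
    have : ∀ l, x l * (D.a i l p q x - D.a i l p q 0 - ∑ k, x k * pd k (D.a i l p q) 0) =
        x l * D.a i l p q x - ∑ k, x l * (x k * pd k (D.a i l p q) 0) := by
      intro l
      rw [D.azero, mul_sub, mul_sub, mul_zero, sub_zero, Finset.mul_sum]
    simp only [this, Finset.sum_sub_distrib, h0, sub_zero]
  rw [h1]
  refine (Finset.abs_sum_le_sum_abs _ _).trans ?_
  have h2 : ∀ l ∈ (Finset.univ : Finset (Fin 4)),
      |x l * (D.a i l p q x - D.a i l p q 0 - ∑ k, x k * pd k (D.a i l p q) 0)| ≤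
      A * ‖x‖ ^ 3 := by
    intro l _
    rw [abs_mul]
    calc |x l| * |D.a i l p q x - D.a i l p q 0 - ∑ k, x k * pd k (D.a i l p q) 0|
        ≤ ‖x‖ * (A * ‖x‖ ^ 2) :=
          mul_le_mul (abs_coord_le x l) (hA l i x) (abs_nonneg _) (norm_nonneg _)
      _ = A * ‖x‖ ^ 3 := by ring
  refine (Finset.sum_le_sum h2).trans (le_of_eq ?_)
  simp only [Finset.sum_const, Finset.card_univ, Fintype.card_fin, nsmul_eq_mul]
  push_cast
  ring

set_option maxHeartbeats 2000000 in
theorem sk0_bound (D : Con M κ) {R : ℝ} (c : Cut R) (hM : InpM M c) (m : ℕ) (p q : κ) :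
    ∃ C c' : ℝ, 0 ≤ C ∧ 0 < c' ∧ ∀ i, ∀ t ∈ Ioc (0 : ℝ) 1, ∀ x,
      |D.sk c m i t x 0 p q| ≤ C * Real.sqrt t * Gam c' t x := by
  obtain ⟨A, hA0, hA⟩ := a_le D
  obtain ⟨H, hH0, hH⟩ := h_le M
  obtain ⟨V, hV0, hV⟩ := dv_le D
  obtain ⟨P, hP0, hP⟩ := pd_ps_bdd c m
  obtain ⟨G, g, hG0, hg, hG⟩ := GG_le M
  obtain ⟨S, hS0, hS⟩ := radial_le D p q
  have hrx : ∃ T : ℝ, 0 ≤ T ∧ ∀ l i x, |∑ j, M.h i j l x * M.rx j i x 0 - 2 * x l| ≤
      T * ‖x‖ ^ 2 := by
    choose T hT using hM.rx0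
    refine ⟨∑ l, |T l|, Finset.sum_nonneg fun _ _ => abs_nonneg _, fun l i x => ?_⟩
    refine (hT l i x).trans (mul_le_mul_of_nonneg_right ?_ (by positivity))
    exact (le_abs_self _).trans (Finset.single_le_sum (f := fun l => |T l|)
      (fun _ _ => abs_nonneg _) (Finset.mem_univ l))
  obtain ⟨T, hT0, hT⟩ := hrx
  obtain ⟨E, hE0, hE⟩ := gauss_pow 1 (show g / 2 < g by linarith)
  obtain ⟨F, hF0, hF⟩ := gauss_pow 3 (show g / 2 < g by linarith)
  refine ⟨(32 * H * P * A + V) * G * E + (2 * S + 4 * T * A) * G * F, g / 2, by positivity,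
    by positivity, fun i t ht x => ?_⟩
  have ht0 := ht.1
  have hs0 : 0 < Real.sqrt t := Real.sqrt_pos.2 ht0
  have hx0 := norm_nonneg x
  have hGG := hG i t ht0 x 0
  rw [sub_zero] at hGG
  have hGG0 := GG_nonneg M i t x 0
  have hps := c.mem m x
  -- split
  have e1 : D.sk c m i t x 0 p q =
      - (2 * ∑ j, ∑ l, M.h i j l x * (pd j (c.ps m) x) * D.a i l p q x) * M.GG i t x 0
      + c.ps m x * M.GG i t x 0 / (2 * t) *
        (∑ l, (∑ j, M.h i j l x * M.rx j i x 0) * D.a i l p q x)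
      - M.HH c m i t x 0 * D.dv i x p q := by
    unfold Con.sk Met.dH
    have s1 : ∑ j, ∑ l, M.h i j l x * (pd j (c.ps m) x * M.GG i t x 0 -
        c.ps m x * M.GG i t x 0 * (M.rx j i x 0 / (4 * t))) * D.a i l p q x =
        (∑ j, ∑ l, M.h i j l x * (pd j (c.ps m) x) * D.a i l p q x) * M.GG i t x 0 -
        c.ps m x * M.GG i t x 0 / (4 * t) *
          (∑ j, ∑ l, M.h i j l x * M.rx j i x 0 * D.a i l p q x) := by
      rw [Finset.sum_mul, Finset.mul_sum, ← Finset.sum_sub_distrib]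
      refine Finset.sum_congr rfl fun j _ => ?_
      rw [Finset.sum_mul, Finset.mul_sum, ← Finset.sum_sub_distrib]
      refine Finset.sum_congr rfl fun l _ => ?_
      ring
    have s2 : (∑ l, (∑ j, M.h i j l x * M.rx j i x 0) * D.a i l p q x) =
        ∑ j, ∑ l, M.h i j l x * M.rx j i x 0 * D.a i l p q x := by
      rw [Finset.sum_comm]
      exact Finset.sum_congr rfl fun l _ => by rw [Finset.sum_mul]
    rw [s1, s2]
    have ht' : t ≠ 0 := ht0.ne'
    field_simp
    ring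
  -- first term
  have b1 : |∑ j, ∑ l, M.h i j l x * (pd j (c.ps m) x) * D.a i l p q x| ≤
      16 * (H * P * A) * ‖x‖ := by
    have e0 : ∀ j l, |M.h i j l x * (pd j (c.ps m) x) * D.a i l p q x| ≤ H * P * A * ‖x‖ := by
      intro j l
      rw [abs_mul, abs_mul, mul_assoc (H * P)]
      exact mul_le_mul (mul_le_mul (hH j l i x) (hP j x) (abs_nonneg _) hH0) (hA l p q i x)
        (abs_nonneg _) (by positivity)
    refine (Finset.abs_sum_le_sum_abs _ _).trans ?_
    refine (Finset.sum_le_sum fun j _ => (Finset.abs_sum_le_sum_abs _ _).trans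
      (Finset.sum_le_sum fun l _ => e0 j l)).trans (le_of_eq ?_)
    simp only [Finset.sum_const, Finset.card_univ, Fintype.card_fin, nsmul_eq_mul]
    push_cast
    ring
  -- second term
  have b2 : |∑ l, (∑ j, M.h i j l x * M.rx j i x 0) * D.a i l p q x| ≤
      (2 * S + 4 * T * A) * ‖x‖ ^ 3 := by
    have s1 : ∑ l, (∑ j, M.h i j l x * M.rx j i x 0) * D.a i l p q x =
        2 * (∑ l, x l * D.a i l p q x) +
        ∑ l, (∑ j, M.h i j l x * M.rx j i x 0 - 2 * x l) * D.a i l p q x := by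
      rw [Finset.mul_sum, ← Finset.sum_add_distrib]
      refine Finset.sum_congr rfl fun l _ => ?_
      ring
    rw [s1]
    refine (abs_add_le _ _).trans ?_
    have s2 : |2 * ∑ l, x l * D.a i l p q x| ≤ 2 * S * ‖x‖ ^ 3 := by
      rw [abs_mul, abs_two]
      have := hS i x
      linarith
    have s3 : |∑ l, (∑ j, M.h i j l x * M.rx j i x 0 - 2 * x l) * D.a i l p q x| ≤
        4 * T * A * ‖x‖ ^ 3 := by
      refine (Finset.abs_sum_le_sum_abs _ _).trans ?_
      have : ∀ l ∈ (Finset.univ : Finset (Fin 4)),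
          |(∑ j, M.h i j l x * M.rx j i x 0 - 2 * x l) * D.a i l p q x| ≤ T * A * ‖x‖ ^ 3 := by
        intro l _
        rw [abs_mul]
        calc _ ≤ (T * ‖x‖ ^ 2) * (A * ‖x‖) :=
              mul_le_mul (hT l i x) (hA l p q i x) (abs_nonneg _) (by positivity)
          _ = T * A * ‖x‖ ^ 3 := by ring
      refine (Finset.sum_le_sum this).trans (le_of_eq ?_)
      simp only [Finset.sum_const, Finset.card_univ, Fintype.card_fin, nsmul_eq_mul]
      push_cast
      ring
    linarith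
  have hgx := Gam_nonneg g t x
  have g1 := hE t ht0 x
  have g3 := hF t ht0 x
  rw [pow_one, pow_one] at g1
  have t1 : |-(2 * ∑ j, ∑ l, M.h i j l x * (pd j (c.ps m) x) * D.a i l p q x) * M.GG i t x 0| ≤
      32 * H * P * A * G * E * Real.sqrt t * Gam (g / 2) t x := by
    rw [abs_mul, abs_neg, abs_mul, abs_two, abs_of_nonneg hGG0]
    calc 2 * |∑ j, ∑ l, M.h i j l x * (pd j (c.ps m) x) * D.a i l p q x| * M.GG i t x 0
        ≤ 2 * (16 * (H * P * A) * ‖x‖) * (G * Gam g t x) := by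
          refine mul_le_mul (by linarith) hGG hGG0 (by positivity)
      _ = 32 * H * P * A * G * (‖x‖ * Gam g t x) := by ring
      _ ≤ 32 * H * P * A * G * (E * Real.sqrt t * Gam (g / 2) t x) := by gcongr
      _ = _ := by ring
  have t3 : |M.HH c m i t x 0 * D.dv i x p q| ≤ V * G * E * Real.sqrt t * Gam (g / 2) t x := by
    rw [abs_mul, abs_of_nonneg (HH_nonneg M c m i t x 0)]
    calc M.HH c m i t x 0 * |D.dv i x p q| ≤ (G * Gam g t x) * (V * ‖x‖) :=
          mul_le_mul ((HH_le_GG M c m i t x 0).trans hGG) (hV p q i x) (abs_nonneg _)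
            (by positivity)
      _ = V * G * (‖x‖ * Gam g t x) := by ring
      _ ≤ V * G * (E * Real.sqrt t * Gam (g / 2) t x) := by gcongr
      _ = _ := by ring
  have t2 : |c.ps m x * M.GG i t x 0 / (2 * t) *
      (∑ l, (∑ j, M.h i j l x * M.rx j i x 0) * D.a i l p q x)| ≤
      (2 * S + 4 * T * A) * G * F * Real.sqrt t * Gam (g / 2) t x := by
    rw [abs_mul, abs_div, abs_mul, abs_of_nonneg hps.1, abs_of_nonneg hGG0,
      abs_of_pos (show 0 < 2 * t by linarith)]
    have u1 : c.ps m x * M.GG i t x 0 / (2 * t) ≤ G * Gam g t x / t := by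
      have v1 : c.ps m x * M.GG i t x 0 ≤ G * Gam g t x := by
        calc c.ps m x * M.GG i t x 0 ≤ 1 * M.GG i t x 0 :=
              mul_le_mul_of_nonneg_right hps.2 hGG0
          _ ≤ G * Gam g t x := by rw [one_mul]; exact hGG
      have v2 : 0 ≤ G * Gam g t x := by positivity
      rw [div_le_div_iff₀ (by linarith) ht0]
      nlinarith
    have hst : Real.sqrt t ^ 3 = t * Real.sqrt t := by
      rw [pow_succ, Real.sq_sqrt ht0.le]
    calc c.ps m x * M.GG i t x 0 / (2 * t) *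
        |∑ l, (∑ j, M.h i j l x * M.rx j i x 0) * D.a i l p q x|
        ≤ G * Gam g t x / t * ((2 * S + 4 * T * A) * ‖x‖ ^ 3) :=
          mul_le_mul u1 b2 (abs_nonneg _) (by positivity)
      _ = (2 * S + 4 * T * A) * G / t * (‖x‖ ^ 3 * Gam g t x) := by ring
      _ ≤ (2 * S + 4 * T * A) * G / t * (F * Real.sqrt t ^ 3 * Gam (g / 2) t x) := by gcongr
      _ = (2 * S + 4 * T * A) * G * F * Real.sqrt t * Gam (g / 2) t x := by
          rw [hst]; field_simp
  rw [e1]
  refine (abs_sub _ _).trans ((add_le_add_left (abs_add_le _ _) _).trans ?_)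
  refine (add_le_add (add_le_add t1 t2) t3).trans (le_of_eq ?_)
  ring

/-! ### the interface -/

theorem kw_sk (D : Con M κ) {R : ℝ} (c : Cut R) (hM : InpM M c) (m : ℕ) (p q : κ) :
    KW fun i t x z => D.sk c m i t x z p q := by
  refine ⟨fun i => measurable_sk D c hM m i p q, ?_⟩
  obtain ⟨C, c', hC, hc', h⟩ := sk_bound D c m p q
  refine ⟨C, c', hC, hc', fun i t ht x z => (h i t ht x z).trans ?_⟩
  have h1 : C * (‖x‖ / Real.sqrt t) ≤ C * (1 + ‖x‖ / Real.sqrt t) := by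
    gcongr
    linarith
  exact mul_le_mul_of_nonneg_right h1 (Gam_nonneg _ _ _)

theorem vb_sk0 (D : Con M κ) {R : ℝ} (c : Cut R) (hM : InpM M c) (p q : κ) :
    VB (1 / 2) fun i t x => D.sk c 1 i t x 0 p q := by
  refine ⟨fun i => ?_, ?_⟩
  · have h1 : Measurable (fun z : ℝ × E4 => ((z.1, z.2, (0 : E4)) : ℝ × E4 × E4)) :=
      Measurable.prodMk measurable_fst (Measurable.prodMk measurable_snd measurable_const)
    have h2 := (measurable_sk D c hM 1 i p q).comp h1
    have h3 : (fun z : ℝ × E4 => (fun (i : ι) (t : ℝ) (x : E4) => D.sk c 1 i t x 0 p q) i z.1 z.2) =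
      (fun z : ℝ × E4 × E4 => D.sk c 1 i z.1 z.2.1 z.2.2 p q) ∘
        (fun z : ℝ × E4 => ((z.1, z.2, (0 : E4)) : ℝ × E4 × E4)) := by
      funext z
      rfl
    rw [h3]
    exact h2
  · obtain ⟨C, c', hC, hc', h⟩ := sk0_bound D c hM 1 p q
    refine ⟨C, c', hC, hc', fun i t ht x => ?_⟩
    have h2 := h i t ht x
    rw [Real.sqrt_eq_rpow] at h2
    exact h2

/-- **HK3.** -/
theorem inpD {R : ℝ} (c : Cut R) (D : Con M κ) (hM : InpM M c) : InpD c D where
  sk := fun m p q => kw_sk D c hM m p q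
  sk0 := fun p q => vb_sk0 D c hM p q
  skew := fun m i t x z p q => sk_skew D c m i t x z p q
  aam := fun p q i => ((ub_aa D p q).1 i).continuous.measurable
  aab := fun p q => by
    obtain ⟨C, _, hC⟩ := UB.bdd (ub_aa D p q)
    exact ⟨C, hC⟩
  aa2 := fun p q => aa_sq_le D p q
  aas := fun i x p q => aa_symm D i x p q
  Pm := fun p q i => ((D.ubP p q).1 i).continuous.measurable
  Pb := fun p q => by
    obtain ⟨C, _, hC⟩ := UB.bdd (D.ubP p q)
    exact ⟨C, hC⟩
  em := em_of_scalar D c fun m i t x z ht => by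
    rw [(hM.hd m i t x z ht).deriv]; ring

end Crest.Agent.R249.HK352
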