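/-
Row 249, part C, leaf HK4 (helper654): the scalar parametrix is an approximate identity.

* `exists_equiv` : an isometry `(R^4, g i z) → R^4`, with `|det| = w i z`;
* `hk4` : `∫ GG i t x z f x w i x dx → f z` as `t → 0+`, `f` bounded measurable, continuous at `z`;
* `hk4'` : the same for the second variable, `∫ GG i t z x f x w i x dx → f z`.
-/
import Crest.Agent.R249.HK1a_654
import Crest.Agent.R249.Gau2_654

set_option autoImplicit false

open MeasureTheory Filter Topology Set
open scoped RealInnerProductSpace MatrixOrder ComplexOrder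

noncomputable section

namespace Crest.Agent.R249.HK4_654

open Crest.Agent.R249.HK286 Crest.Agent.R249.Gau2_654

variable {ι : Type*}

/-- the quadratic form of the metric -/
def qf (M : Met ι) (i : ι) (z v : E4) : ℝ := ∑ a, ∑ b, M.g i a b z * v a * v b

theorem norm_sq_eq (v : E4) : ‖v‖ ^ 2 = ∑ a, v a ^ 2 := by
  rw [EuclideanSpace.norm_sq_eq]
  simp

theorem abs_coord_le (v : E4) (a : Fin 4) : |v a| ≤ ‖v‖ := by
  have := PiLp.norm_apply_le v a
  simpa using this

/-- the metric matrix is positive semidefinite -/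
theorem posSemidef (M : Met ι) (i : ι) (z : E4) :
    (Matrix.of fun a b => M.g i a b z : Matrix (Fin 4) (Fin 4) ℝ).PosSemidef := by
  refine Matrix.PosSemidef.of_dotProduct_mulVec_nonneg ?_ ?_
  · ext a b
    simp [M.gsymm i b a z]
  · intro v
    obtain ⟨c, hc, h⟩ := M.ell
    have h1 := h i z v
    have h2 : star v ⬝ᵥ (Matrix.of fun a b => M.g i a b z).mulVec v
        = ∑ a, ∑ b, M.g i a b z * v a * v b := by
      simp only [dotProduct, Matrix.mulVec, Matrix.of_apply, Finset.mul_sum, star_trivial]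
      refine Finset.sum_congr rfl fun a _ => Finset.sum_congr rfl fun b _ => ?_
      ring
    rw [h2]
    refine le_trans ?_ h1
    positivity

theorem exists_equiv (M : Met ι) (i : ι) (z : E4) :
    ∃ A : E4 ≃L[ℝ] E4, (∀ v, ‖A v‖ ^ 2 = qf M i z v) ∧ |(A : E4 →L[ℝ] E4).det| = M.w i z := by
  obtain ⟨B, hB⟩ := CStarAlgebra.nonneg_iff_eq_star_mul_self.mp (posSemidef M i z).nonneg
  rw [Matrix.star_eq_conjTranspose] at hB
  obtain ⟨cw, hcw, hw⟩ := M.wpos
  have hw0 : 0 < M.w i z := lt_of_lt_of_le hcw (hw i z)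
  have hdet : B.det ^ 2 = M.w i z ^ 2 := by
    rw [M.wdet, hB, Matrix.det_mul, Matrix.det_conjTranspose]
    simp [sq]
  have hdet0 : B.det ≠ 0 := by
    intro h
    rw [h] at hdet
    have h1 : 0 < M.w i z ^ 2 := by positivity
    rw [← hdet] at h1
    norm_num at h1
  have hdetT : LinearMap.det (Matrix.toEuclideanLin B : E4 →ₗ[ℝ] E4) = B.det := by
    rw [Matrix.toEuclideanLin_eq_toLin_orthonormal, LinearMap.det_toLin]
  let A0 : E4 ≃ₗ[ℝ] E4 := LinearMap.equivOfDetNeZero (Matrix.toEuclideanLin B : E4 →ₗ[ℝ] E4)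
    (by rw [hdetT]; exact hdet0)
  have hA0 : ∀ v, A0 v = Matrix.toEuclideanLin B v := fun v => rfl
  let A : E4 ≃L[ℝ] E4 := A0.toContinuousLinearEquiv
  have hA : ∀ v, A v = Matrix.toEuclideanLin B v := fun v => rfl
  refine ⟨A, fun v => ?_, ?_⟩
  · rw [hA, norm_sq_eq]
    have h1 : ∀ a, (Matrix.toEuclideanLin B v : E4) a = ∑ b, B a b * v b := by
      intro a
      rw [Matrix.toEuclideanLin_apply]
      simp [Matrix.mulVec, dotProduct]
    simp only [h1]
    unfold qf
    have h2 : ∀ a b, M.g i a b z = ∑ c, B c a * B c b := by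
      intro a b
      have := congrFun (congrFun hB a) b
      simp only [Matrix.of_apply, Matrix.mul_apply, Matrix.conjTranspose_apply, star_trivial] at this
      exact this
    simp only [h2, sq, Finset.sum_mul, Finset.mul_sum]
    rw [Finset.sum_comm' (t' := Finset.univ) (s' := fun _ => Finset.univ) (by simp)]
    refine Finset.sum_congr rfl fun a _ => ?_
    rw [Finset.sum_comm' (t' := Finset.univ) (s' := fun _ => Finset.univ) (by simp)]
    refine Finset.sum_congr rfl fun b _ => ?_
    refine Finset.sum_congr rfl fun c _ => ?_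
    ring
  · have h1 : (A : E4 →L[ℝ] E4).det = B.det := by
      rw [← hdetT]
      rfl
    rw [h1]
    have h2 : |B.det| = |M.w i z| := (sq_eq_sq_iff_abs_eq_abs _ _).1 hdet
    rw [h2, abs_of_pos hw0]

theorem nrm_four {t : ℝ} (ht : 0 < t) : nrm 4 t = ((4 * Real.pi * t) ^ 2)⁻¹ := by
  unfold nrm
  rw [show (-(((4 : ℕ) : ℝ) / 2)) = -((2 : ℕ) : ℝ) by norm_num, Real.rpow_neg (by positivity),
    Real.rpow_natCast]

theorem isLittleO_rho (M : Met ι) (i : ι) (z : E4) {ρ : E4 → ℝ}
    (hρ : ∀ v, ρ v = 1 / 2 * ∑ a, ∑ b, (M.g i a b (z + v) + M.g i a b z) * v a * v b) :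
    (fun v => ρ v - qf M i z v) =o[𝓝 0] fun v : E4 => ‖v‖ ^ 2 := by
  have h1 : (fun v => ρ v - qf M i z v)
      = fun v => ∑ a, ∑ b, (1 / 2 * (M.g i a b (z + v) - M.g i a b z)) * (v a * v b) := by
    ext v
    rw [hρ, qf, Finset.mul_sum, ← Finset.sum_sub_distrib]
    refine Finset.sum_congr rfl fun a _ => ?_
    rw [Finset.mul_sum, ← Finset.sum_sub_distrib]
    refine Finset.sum_congr rfl fun b _ => ?_
    ring
  rw [h1]
  refine Asymptotics.IsLittleO.fun_sum fun a _ => Asymptotics.IsLittleO.fun_sum fun b _ => ?_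
  have h2 : (fun v : E4 => 1 / 2 * (M.g i a b (z + v) - M.g i a b z)) =o[𝓝 0] fun _ => (1 : ℝ) := by
    rw [Asymptotics.isLittleO_one_iff]
    have hc : Continuous fun v : E4 => 1 / 2 * (M.g i a b (z + v) - M.g i a b z) := by
      have := ((M.ubg a b).1 i).continuous
      fun_prop
    have := hc.tendsto 0
    simpa using this
  have h3 : (fun v : E4 => v a * v b) =O[𝓝 0] fun v : E4 => ‖v‖ ^ 2 := by
    refine Asymptotics.IsBigO.of_bound 1 (Eventually.of_forall fun v => ?_)
    rw [Real.norm_eq_abs, abs_mul, Real.norm_of_nonneg (by positivity), one_mul, sq]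
    exact mul_le_mul (abs_coord_le v a) (abs_coord_le v b) (abs_nonneg _) (norm_nonneg _)
  have h4 := h2.mul_isBigO h3
  simpa using h4

theorem main (M : Met ι) (i : ι) (z : E4) {f : E4 → ℝ} (hfm : Measurable f) {B : ℝ}
    (hfB : ∀ x, |f x| ≤ B) (hf : ContinuousAt f z) {ρ : E4 → ℝ}
    (hρ : ∀ v, ρ v = 1 / 2 * ∑ a, ∑ b, (M.g i a b (z + v) + M.g i a b z) * v a * v b) :
    Tendsto (fun t : ℝ => ∫ v, ((4 * Real.pi * t) ^ 2)⁻¹ * Real.exp (-(ρ v / (4 * t))) *
      f (z + v) * M.w i (z + v)) (𝓝[>] 0) (𝓝 (f z)) := by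
  obtain ⟨A, hA, hdet⟩ := exists_equiv M i z
  obtain ⟨c, hc, hell⟩ := M.ell
  obtain ⟨W, hW⟩ := M.ubw.2 0
  have hWb : ∀ x, |M.w i x| ≤ |W| := by
    intro x
    have h := hW i x
    rw [norm_iteratedFDeriv_zero, Real.norm_eq_abs] at h
    exact h.trans (le_abs_self _)
  have hwc : Continuous (M.w i) := (M.ubw.1 i).continuous
  obtain ⟨cw, hcw, hw⟩ := M.wpos
  have hw0 : 0 < M.w i z := lt_of_lt_of_le hcw (hw i z)
  have hρc : Continuous ρ := by
    have h1 : ρ = fun v => 1 / 2 * ∑ a, ∑ b, (M.g i a b (z + v) + M.g i a b z) * v a * v b :=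
      funext hρ
    rw [h1]
    have h2 : ∀ a b, Continuous (M.g i a b) := fun a b => ((M.ubg a b).1 i).continuous
    fun_prop
  have hzv : Measurable fun v : E4 => z + v := measurable_const_add z
  have h := tendsto_gauss_zero (n := 4) (S := univ) (ρ := ρ) (q := fun v => f (z + v) * M.w i (z + v))
    (c := c) (C := B * |W|) univ_mem hc
    (by
      intro v _
      rw [hρ, norm_sq_eq]
      have h1 := hell i (z + v) v
      have h2 := hell i z v
      have h3 : ∑ a, ∑ b, (M.g i a b (z + v) + M.g i a b z) * v a * v b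
          = (∑ a, ∑ b, M.g i a b (z + v) * v a * v b) + ∑ a, ∑ b, M.g i a b z * v a * v b := by
        rw [← Finset.sum_add_distrib]
        refine Finset.sum_congr rfl fun a _ => ?_
        rw [← Finset.sum_add_distrib]
        refine Finset.sum_congr rfl fun b _ => ?_
        ring
      rw [h3]
      linarith)
    (by
      intro v _
      rw [abs_mul]
      exact mul_le_mul (hfB _) (hWb _) (abs_nonneg _) ((abs_nonneg _).trans (hfB z)))
    (by rw [indicator_univ]; exact hρc.measurable)
    (by rw [indicator_univ]; exact (hfm.comp hzv).mul (hwc.measurable.comp hzv))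
    MeasurableSet.univ A
    (by
      have := isLittleO_rho M i z hρ
      refine this.congr_left fun v => ?_
      rw [hA])
    (q₀ := f z * M.w i z)
    (by
      have h1 : Tendsto (fun v : E4 => z + v) (𝓝 0) (𝓝 z) := by
        have : Tendsto (fun v : E4 => z + v) (𝓝 0) (𝓝 (z + 0)) :=
          (continuous_const.add continuous_id).tendsto 0
        rwa [add_zero] at this
      exact (hf.tendsto.comp h1).mul ((hwc.tendsto z).comp h1))
  rw [hdet] at h
  have h2 : (M.w i z)⁻¹ * (f z * M.w i z) = f z := by field_simp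
  rw [h2] at h
  refine h.congr' ?_
  filter_upwards [self_mem_nhdsWithin] with t ht
  rw [nrm_four ht, ← integral_const_mul, Measure.restrict_univ]
  refine integral_congr_ae (Eventually.of_forall fun v => ?_)
  simp only [neg_div]
  ring

/-- **HK4** -/
theorem hk4 (M : Met ι) (i : ι) (z : E4) {f : E4 → ℝ} (hfm : Measurable f)
    (hfB : ∃ B : ℝ, ∀ x, |f x| ≤ B) (hf : ContinuousAt f z) :
    Tendsto (fun t : ℝ => ∫ x, M.GG i t x z * f x * M.w i x) (𝓝[>] 0) (𝓝 (f z)) := by
  obtain ⟨B, hB⟩ := hfB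
  have h := main M i z hfm hB hf (ρ := fun v => M.rho i (z + v) z) (fun v => by
    unfold Met.rho
    simp)
  refine h.congr fun t => ?_
  have h1 := integral_add_left_eq_self (μ := (volume : Measure E4))
    (fun x => M.GG i t x z * f x * M.w i x) z
  rw [← h1]
  rfl

theorem hk4' (M : Met ι) (i : ι) (z : E4) {f : E4 → ℝ} (hfm : Measurable f)
    (hfB : ∃ B : ℝ, ∀ x, |f x| ≤ B) (hf : ContinuousAt f z) :
    Tendsto (fun t : ℝ => ∫ x, M.GG i t z x * f x * M.w i x) (𝓝[>] 0) (𝓝 (f z)) := by
  obtain ⟨B, hB⟩ := hfB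
  have h := main M i z hfm hB hf (ρ := fun v => M.rho i z (z + v)) (fun v => by
    unfold Met.rho
    simp
    refine Finset.sum_congr rfl fun a _ => Finset.sum_congr rfl fun b _ => ?_
    ring)
  refine h.congr fun t => ?_
  have h1 := integral_add_left_eq_self (μ := (volume : Measure E4))
    (fun x => M.GG i t z x * f x * M.w i x) z
  rw [← h1]
  rfl

end Crest.Agent.R249.HK4_654
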