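import Crest.Agent.R249.HK2C_352
import Crest.Agent.R249.HK1_654

/-!
Row 249, Part C, leaf HK5 (helper352), part A: Fubini lemmas for the time-space convolutions.
-/

set_option autoImplicit false
set_option linter.unusedSectionVars false
open scoped ContDiff
open MeasureTheory Set Metric Filter

namespace Crest.Agent.R249.HK5_352
open Crest.Agent.R249.HK286

variable {ι : Type*} {M : Met ι}

/-! ### integrable majorants -/

theorem indicator_Ioo_eq {q : ℝ → ℝ} {t s : ℝ} (hs : s ∈ Ioo 0 t) : (Ioo 0 t).indicator q s = q s :=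
  indicator_of_mem hs q

/-- majorant on `ℝ × E4` -/
theorem int1 {c t : ℝ} (hc : 0 < c) {q : ℝ → ℝ} (hqm : Measurable q)
    (hq : IntegrableOn q (Ioo 0 t)) :
    Integrable (fun y : ℝ × E4 => (Ioo 0 t).indicator q y.1 * Gam c y.1 y.2) := by
  have hm : Measurable (fun y : ℝ × E4 => (Ioo 0 t).indicator q y.1 * Gam c y.1 y.2) :=
    ((hqm.indicator measurableSet_Ioo).comp measurable_fst).mul (HK1_654.measurable_Gam c)
  rw [Measure.volume_eq_prod, integrable_prod_iff hm.aestronglyMeasurable]
  constructor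
  · refine Eventually.of_forall fun s => ?_
    by_cases hs : s ∈ Ioo 0 t
    · exact (HK1_654.integrable_Gam hc hs.1).const_mul ((Ioo 0 t).indicator q s)
    · simp [indicator_of_notMem hs]
  · have h1 : (fun s : ℝ => ∫ y : E4, ‖(Ioo 0 t).indicator q (s, y).1 * Gam c (s, y).1 (s, y).2‖) =
        (Ioo 0 t).indicator fun s => |q s| * (Real.pi / c) ^ 2 := by
      funext s
      by_cases hs : s ∈ Ioo 0 t
      · rw [indicator_of_mem hs]
        simp only [indicator_of_mem hs, norm_mul, Real.norm_eq_abs]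
        rw [integral_const_mul]
        congr 1
        rw [← HK1_654.integral_Gam hc hs.1]
        exact integral_congr_ae (Eventually.of_forall fun y =>
          abs_of_nonneg (HK1_654.Gam_nonneg c s y))
      · rw [indicator_of_notMem hs]
        simp [indicator_of_notMem hs]
    rw [h1]
    exact (integrable_indicator_iff measurableSet_Ioo).2 (hq.abs.mul_const _)

/-- majorant on `E4 × (ℝ × E4)` -/
theorem int2 {c t : ℝ} (hc : 0 < c) {q : ℝ → ℝ} (hqm : Measurable q)
    (hq : IntegrableOn q (Ioo 0 t)) :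
    Integrable (fun y : E4 × (ℝ × E4) => (Ioo 0 t).indicator q y.2.1 *
      (Gam c (t - y.2.1) (y.1 - y.2.2) * Gam c y.2.1 y.2.2)) := by
  have hG : Measurable fun y : E4 × (ℝ × E4) => Gam c (t - y.2.1) (y.1 - y.2.2) := by
    have h1 : Measurable fun y : E4 × (ℝ × E4) => ((t - y.2.1, y.1 - y.2.2) : ℝ × E4) := by
      fun_prop
    exact (HK1_654.measurable_Gam c).comp h1
  have hG2 : Measurable fun y : E4 × (ℝ × E4) => Gam c y.2.1 y.2.2 :=
    (HK1_654.measurable_Gam c).comp measurable_snd
  have hm : Measurable (fun y : E4 × (ℝ × E4) => (Ioo 0 t).indicator q y.2.1 *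
      (Gam c (t - y.2.1) (y.1 - y.2.2) * Gam c y.2.1 y.2.2)) :=
    ((hqm.indicator measurableSet_Ioo).comp (measurable_fst.comp measurable_snd)).mul (hG.mul hG2)
  rw [Measure.volume_eq_prod, integrable_prod_iff' hm.aestronglyMeasurable]
  have hi : ∀ s ∈ Ioo 0 t, ∀ z : E4, Integrable fun x : E4 => Gam c (t - s) (x - z) :=
    fun s hs z => (HK1_654.integrable_Gam hc (sub_pos.2 hs.2)).comp_sub_right z
  constructor
  · refine Eventually.of_forall fun y => ?_
    by_cases hs : y.1 ∈ Ioo 0 t
    · exact ((hi y.1 hs y.2).mul_const (Gam c y.1 y.2)).const_mul ((Ioo 0 t).indicator q y.1)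
    · simp [indicator_of_notMem hs]
  · have h1 : (fun y : ℝ × E4 => ∫ x : E4, ‖(Ioo 0 t).indicator q (x, y).2.1 *
        (Gam c (t - (x, y).2.1) ((x, y).1 - (x, y).2.2) * Gam c (x, y).2.1 (x, y).2.2)‖) =
        fun y : ℝ × E4 => (Ioo 0 t).indicator (fun s => |q s| * (Real.pi / c) ^ 2) y.1
          * Gam c y.1 y.2 := by
      funext y
      by_cases hs : y.1 ∈ Ioo 0 t
      · rw [indicator_of_mem hs]
        simp only [indicator_of_mem hs, norm_mul, Real.norm_eq_abs]
        rw [integral_const_mul, integral_mul_const, abs_of_nonneg (HK1_654.Gam_nonneg c y.1 y.2)]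
        have h2 : ∫ x : E4, |Gam c (t - y.1) (x - y.2)| = (Real.pi / c) ^ 2 := by
          rw [← HK1_654.integral_Gam hc (sub_pos.2 hs.2),
            ← integral_sub_right_eq_self (fun x : E4 => Gam c (t - y.1) x) y.2]
          exact integral_congr_ae (Eventually.of_forall fun x =>
            abs_of_nonneg (HK1_654.Gam_nonneg c _ _))
        rw [h2]
        ring
      · rw [indicator_of_notMem hs]
        simp [indicator_of_notMem hs]
    rw [h1]
    exact int1 hc (by fun_prop) (hq.abs.mul_const _)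

theorem int_inv_sqrt {s t : ℝ} (hst : s < t) :
    IntegrableOn (fun r : ℝ => (Real.sqrt (r - s))⁻¹) (Ioo s t) ∧
      ∫ r in Ioo s t, (Real.sqrt (r - s))⁻¹ = 2 * Real.sqrt (t - s) := by
  have hts : 0 < t - s := sub_pos.2 hst
  have h0 : IntervalIntegrable (fun u : ℝ => u ^ (-(1 / 2) : ℝ)) volume 0 (t - s) :=
    intervalIntegral.intervalIntegrable_rpow' (by norm_num)
  have h1 : IntervalIntegrable (fun r : ℝ => (r - s) ^ (-(1 / 2) : ℝ)) volume s t := by
    have := h0.comp_sub_right s
    simpa using this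
  have hcongr : ∀ r ∈ Ioo s t, (r - s) ^ (-(1 / 2) : ℝ) = (Real.sqrt (r - s))⁻¹ := by
    intro r hr
    have : 0 ≤ r - s := by linarith [hr.1]
    rw [Real.rpow_neg this, ← Real.sqrt_eq_rpow]
  have h2 : ∫ r in s..t, (r - s) ^ (-(1 / 2) : ℝ) = 2 * Real.sqrt (t - s) := by
    rw [intervalIntegral.integral_comp_sub_right (fun u : ℝ => u ^ (-(1 / 2) : ℝ)) s, sub_self,
      integral_rpow (Or.inl (by norm_num))]
    rw [show (-(1 / 2) : ℝ) + 1 = 1 / 2 by norm_num, Real.zero_rpow (by norm_num), Real.sqrt_eq_rpow]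
    ring
  constructor
  · have h3 := (intervalIntegrable_iff_integrableOn_Ioo_of_le hst.le).1 h1
    exact h3.congr_fun hcongr measurableSet_Ioo
  · rw [← setIntegral_congr_fun measurableSet_Ioo hcongr, ← integral_Ioc_eq_integral_Ioo,
      ← intervalIntegral.integral_of_le hst.le]
    exact h2

/-- the triangle `0 < s < s' < t` in `(ℝ × E4) × ℝ` -/
def Tri (t : ℝ) : Set ((ℝ × E4) × ℝ) := {y | 0 < y.1.1 ∧ y.1.1 < y.2 ∧ y.2 < t}

theorem measurableSet_Tri (t : ℝ) : MeasurableSet (Tri t) := by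
  have h1 : Measurable fun y : (ℝ × E4) × ℝ => y.1.1 := measurable_fst.comp measurable_fst
  exact (measurableSet_lt measurable_const h1).inter
    ((measurableSet_lt h1 measurable_snd).inter (measurableSet_lt measurable_snd measurable_const))

/-- majorant on the triangle -/
theorem int3 {c t : ℝ} (hc : 0 < c) :
    Integrable (fun y : (ℝ × E4) × ℝ => (Tri t).indicator
      (fun y => (Real.sqrt (y.2 - y.1.1))⁻¹ * Gam c y.1.1 y.1.2) y) := by
  have hm : Measurable (fun y : (ℝ × E4) × ℝ => (Tri t).indicator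
      (fun y => (Real.sqrt (y.2 - y.1.1))⁻¹ * Gam c y.1.1 y.1.2) y) := by
    refine Measurable.indicator ?_ (measurableSet_Tri t)
    refine Measurable.mul (by fun_prop) ((HK1_654.measurable_Gam c).comp measurable_fst)
  rw [Measure.volume_eq_prod, integrable_prod_iff hm.aestronglyMeasurable]
  have key : ∀ y : ℝ × E4, (fun r : ℝ => (Tri t).indicator
      (fun y => (Real.sqrt (y.2 - y.1.1))⁻¹ * Gam c y.1.1 y.1.2) (y, r)) =
      (if 0 < y.1 then (Ioo y.1 t).indicator
        (fun r => (Real.sqrt (r - y.1))⁻¹ * Gam c y.1 y.2) else fun _ => 0) := by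
    intro y
    funext r
    by_cases h0 : 0 < y.1
    · rw [if_pos h0]
      by_cases hr : r ∈ Ioo y.1 t
      · rw [indicator_of_mem hr, indicator_of_mem (show ((y, r) : (ℝ × E4) × ℝ) ∈ Tri t from
          ⟨h0, hr.1, hr.2⟩)]
      · rw [indicator_of_notMem hr, indicator_of_notMem (fun h : ((y, r) : (ℝ × E4) × ℝ) ∈ Tri t =>
          hr ⟨h.2.1, h.2.2⟩)]
    · rw [if_neg h0, indicator_of_notMem (fun h : ((y, r) : (ℝ × E4) × ℝ) ∈ Tri t => h0 h.1)]
  have hint : ∀ y : ℝ × E4, Integrable (fun r : ℝ => (Tri t).indicator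
      (fun y => (Real.sqrt (y.2 - y.1.1))⁻¹ * Gam c y.1.1 y.1.2) (y, r)) := by
    intro y
    rw [key y]
    by_cases h0 : 0 < y.1
    · rw [if_pos h0]
      by_cases hyt : y.1 < t
      · exact (integrable_indicator_iff measurableSet_Ioo).2 ((int_inv_sqrt hyt).1.mul_const _)
      · rw [Ioo_eq_empty hyt, indicator_empty]
        exact integrable_zero _ _ _
    · rw [if_neg h0]
      exact integrable_zero _ _ _
  refine ⟨Eventually.of_forall hint, ?_⟩
  have h1 : (fun y : ℝ × E4 => ∫ r : ℝ, ‖(Tri t).indicator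
      (fun y => (Real.sqrt (y.2 - y.1.1))⁻¹ * Gam c y.1.1 y.1.2) (y, r)‖) =
      fun y : ℝ × E4 => (Ioo 0 t).indicator (fun s => 2 * Real.sqrt (t - s)) y.1
        * Gam c y.1 y.2 := by
    funext y
    have hnn : ∀ r : ℝ, 0 ≤ (Tri t).indicator
        (fun y => (Real.sqrt (y.2 - y.1.1))⁻¹ * Gam c y.1.1 y.1.2) (y, r) := fun r =>
      indicator_nonneg (fun z _ => mul_nonneg (by positivity) (HK1_654.Gam_nonneg c _ _)) _
    simp only [Real.norm_of_nonneg (hnn _)]
    rw [key y]
    by_cases h0 : 0 < y.1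
    · rw [if_pos h0, integral_indicator measurableSet_Ioo]
      by_cases hyt : y.1 < t
      · rw [indicator_of_mem (show y.1 ∈ Ioo 0 t from ⟨h0, hyt⟩), integral_mul_const,
          (int_inv_sqrt hyt).2]
      · rw [Ioo_eq_empty hyt, indicator_of_notMem (fun h => hyt h.2)]
        simp
    · rw [if_neg h0, indicator_of_notMem (fun h => h0 h.1)]
      simp
  rw [h1]
  refine int1 hc (by fun_prop) ?_
  exact ((Real.continuous_sqrt.comp (continuous_const.sub continuous_id)).const_mul 2
    |>.continuousOn.integrableOn_compact isCompact_Icc).mono_set Ioo_subset_Icc_self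

end Crest.Agent.R249.HK5_352
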