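import Crest.Agent.R249.HK5A_352

/-!
Row 249, Part C, leaf HK5 (helper352), part B: pairing with a bounded function, Fubini for `star0`,
Volterra lemma.
-/

set_option autoImplicit false
set_option linter.unusedSectionVars false
open scoped ContDiff
open MeasureTheory Set Metric Filter

namespace Crest.Agent.R249.HK5_352
open Crest.Agent.R249.HK286

variable {ι : Type*} {M : Met ι}

/-- bounded measurable functions vanishing outside a ball -/
structure Adm (R : ℝ) (U : E4 → ℝ) : Prop where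
  meas : Measurable U
  bdd : ∃ B : ℝ, 0 ≤ B ∧ ∀ x, |U x| ≤ B
  supp : ∀ x, R ≤ ‖x‖ → U x = 0

/-- pairing in `x`: `∫ K(τ,x,z) U(x) w(x) dx` -/
noncomputable def pr (M : Met ι) (K : ι → ℝ → E4 → E4 → ℝ) (U : E4 → ℝ) (i : ι) (τ : ℝ) (z : E4) :
    ℝ := ∫ x, K i τ x z * U x * M.w i x

theorem pr_meas {K : ι → ℝ → E4 → E4 → ℝ}
    (hK : ∀ i, Measurable fun z : ℝ × E4 × E4 => K i z.1 z.2.1 z.2.2) {U : E4 → ℝ}
    (hU : Measurable U) (i : ι) : Measurable fun y : ℝ × E4 => pr M K U i y.1 y.2 := by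
  have h0 : Measurable fun z : (ℝ × E4) × E4 => K i z.1.1 z.2 z.1.2 * U z.2 * M.w i z.2 := by
    refine Measurable.mul (Measurable.mul ?_ (hU.comp measurable_snd))
      ((HK1_654.w_cont M i).measurable.comp measurable_snd)
    have h1 : Measurable fun z : (ℝ × E4) × E4 => ((z.1.1, z.2, z.1.2) : ℝ × E4 × E4) := by
      fun_prop
    exact (hK i).comp h1
  exact (h0.stronglyMeasurable.integral_prod_right' (ν := (volume : Measure E4))).measurable

theorem pr_integrable {K : ι → ℝ → E4 → E4 → ℝ} (hK : KW K) {R : ℝ} {U : E4 → ℝ} (hU : Adm R U)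
    (i : ι) {τ : ℝ} (hτ : τ ∈ Ioc (0 : ℝ) 1) (z : E4) :
    Integrable fun x => K i τ x z * U x * M.w i x := by
  obtain ⟨hKm, C, c, hC, hc, h⟩ := hK
  obtain ⟨W, hW, hWb⟩ := HK1_654.w_bound M
  obtain ⟨B, hB, hBb⟩ := hU.bdd
  have hm : Measurable fun x => K i τ x z * U x * M.w i x := by
    refine Measurable.mul (Measurable.mul ?_ hU.meas) (HK1_654.w_cont M i).measurable
    have h1 : Measurable fun x : E4 => ((τ, x, z) : ℝ × E4 × E4) := by fun_prop
    exact (hKm i).comp h1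
  have hi := ((HK1_654.integrable_Gam hc hτ.1).comp_sub_right z).const_mul
    (C * (1 + |R| / Real.sqrt τ) * B * W)
  refine hi.mono' hm.aestronglyMeasurable (Eventually.of_forall fun x => ?_)
  have hG := HK1_654.Gam_nonneg c τ (x - z)
  rw [Real.norm_eq_abs, abs_mul, abs_mul]
  by_cases hx : R ≤ ‖x‖
  · rw [hU.supp x hx, abs_zero, mul_zero, zero_mul]
    positivity
  · have hx' : ‖x‖ ≤ |R| := (not_le.1 hx).le.trans (le_abs_self R)
    calc |K i τ x z| * |U x| * |M.w i x|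
        ≤ (C * (1 + ‖x‖ / Real.sqrt τ) * Gam c τ (x - z)) * B * W := by
          refine mul_le_mul (mul_le_mul (h i τ hτ x z) (hBb x) (abs_nonneg _) ?_) (hWb i x)
            (abs_nonneg _) ?_ <;> positivity
      _ ≤ (C * (1 + |R| / Real.sqrt τ) * Gam c τ (x - z)) * B * W := by gcongr
      _ = C * (1 + |R| / Real.sqrt τ) * B * W * Gam c τ (x - z) := by ring

theorem pr_bound {K : ι → ℝ → E4 → E4 → ℝ} (hK : KW K) {R : ℝ} {U : E4 → ℝ} (hU : Adm R U)
    (i : ι) : ∃ C : ℝ, 0 ≤ C ∧ ∀ τ ∈ Ioc (0 : ℝ) 1, ∀ z, |pr M K U i τ z| ≤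
      C * (Real.sqrt τ)⁻¹ := by
  obtain ⟨hKm, C, c, hC, hc, h⟩ := hK
  obtain ⟨W, hW, hWb⟩ := HK1_654.w_bound M
  obtain ⟨B, hB, hBb⟩ := hU.bdd
  refine ⟨C * (1 + |R|) * B * W * (Real.pi / c) ^ 2, by positivity, fun τ hτ z => ?_⟩
  have hs : 1 ≤ (Real.sqrt τ)⁻¹ := HK352.one_le_inv_sqrt hτ
  have hi := ((HK1_654.integrable_Gam hc hτ.1).comp_sub_right z).const_mul
    (C * (1 + |R| / Real.sqrt τ) * B * W)
  have h1 := norm_integral_le_of_norm_le (f := fun x => K i τ x z * U x * M.w i x) hi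
    (Eventually.of_forall fun x => by
      have hG := HK1_654.Gam_nonneg c τ (x - z)
      rw [Real.norm_eq_abs, abs_mul, abs_mul]
      by_cases hx : R ≤ ‖x‖
      · rw [hU.supp x hx, abs_zero, mul_zero, zero_mul]
        positivity
      · have hx' : ‖x‖ ≤ |R| := (not_le.1 hx).le.trans (le_abs_self R)
        calc |K i τ x z| * |U x| * |M.w i x|
            ≤ (C * (1 + ‖x‖ / Real.sqrt τ) * Gam c τ (x - z)) * B * W := by
              refine mul_le_mul (mul_le_mul (h i τ hτ x z) (hBb x) (abs_nonneg _) ?_) (hWb i x)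
                (abs_nonneg _) ?_ <;> positivity
          _ ≤ (C * (1 + |R| / Real.sqrt τ) * Gam c τ (x - z)) * B * W := by gcongr
          _ = C * (1 + |R| / Real.sqrt τ) * B * W * Gam c τ (x - z) := by ring)
  rw [Real.norm_eq_abs, integral_const_mul, integral_sub_right_eq_self (fun x : E4 => Gam c τ x) z,
    HK1_654.integral_Gam hc hτ.1] at h1
  refine h1.trans ?_
  have h2 : 1 + |R| / Real.sqrt τ ≤ (1 + |R|) * (Real.sqrt τ)⁻¹ := by
    rw [div_eq_mul_inv]
    linarith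
  calc C * (1 + |R| / Real.sqrt τ) * B * W * (Real.pi / c) ^ 2
      ≤ C * ((1 + |R|) * (Real.sqrt τ)⁻¹) * B * W * (Real.pi / c) ^ 2 := by gcongr
    _ = C * (1 + |R|) * B * W * (Real.pi / c) ^ 2 * (Real.sqrt τ)⁻¹ := by ring

/-- a function of class `VB` times a bounded function is integrable at fixed time -/
theorem vb_integrable {a : ℝ} {f : ι → ℝ → E4 → ℝ} (hf : VB a f) {U : E4 → ℝ} (hUm : Measurable U)
    {B : ℝ} (hU : ∀ x, |U x| ≤ B) (i : ι) {t : ℝ} (ht : t ∈ Ioc (0 : ℝ) 1) :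
    Integrable fun x => f i t x * U x * M.w i x := by
  obtain ⟨hfm, C, c, hC, hc, h⟩ := hf
  obtain ⟨W, hW, hWb⟩ := HK1_654.w_bound M
  have hB : 0 ≤ B := (abs_nonneg _).trans (hU 0)
  have hm : Measurable fun x => f i t x * U x * M.w i x := by
    refine Measurable.mul (Measurable.mul ?_ hUm) (HK1_654.w_cont M i).measurable
    have h1 : Measurable fun x : E4 => ((t, x) : ℝ × E4) := by fun_prop
    exact (hfm i).comp h1
  refine ((HK1_654.integrable_Gam hc ht.1).const_mul (C * t ^ a * B * W)).mono'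
    hm.aestronglyMeasurable (Eventually.of_forall fun x => ?_)
  have hG := HK1_654.Gam_nonneg c t x
  have hta : 0 ≤ t ^ a := Real.rpow_nonneg ht.1.le _
  rw [Real.norm_eq_abs, abs_mul, abs_mul]
  calc |f i t x| * |U x| * |M.w i x| ≤ (C * t ^ a * Gam c t x) * B * W := by
        refine mul_le_mul (mul_le_mul (h i t ht x) (hU x) (abs_nonneg _) ?_) (hWb i x)
          (abs_nonneg _) ?_ <;> positivity
    _ = C * t ^ a * B * W * Gam c t x := by ring

/-! ### integrability on `ℝ × E4` -/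

/-- `|f| ≤ C Γ_c` for `VB a`, `a ≥ 0` -/
theorem vb_le {a : ℝ} (ha : 0 ≤ a) {f : ι → ℝ → E4 → ℝ} (hf : VB a f) :
    ∃ C c : ℝ, 0 ≤ C ∧ 0 < c ∧ ∀ i, ∀ t ∈ Ioc (0 : ℝ) 1, ∀ x, |f i t x| ≤ C * Gam c t x := by
  obtain ⟨_, C, c, hC, hc, h⟩ := hf
  refine ⟨C, c, hC, hc, fun i t ht x => (h i t ht x).trans ?_⟩
  have h1 : t ^ a ≤ 1 := Real.rpow_le_one ht.1.le ht.2 ha
  have hG := HK1_654.Gam_nonneg c t x
  calc C * t ^ a * Gam c t x ≤ C * 1 * Gam c t x := by gcongr
    _ = C * Gam c t x := by ring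

theorem ew_integrable {f : ι → ℝ → E4 → ℝ} (hf : VB 0 f) (i : ι) {e : ℝ → E4 → ℝ}
    (he : Measurable fun y : ℝ × E4 => e y.1 y.2) {A : ℝ} (hA : 0 ≤ A)
    (heA : ∀ τ ∈ Ioc (0 : ℝ) 1, ∀ z, |e τ z| ≤ A * (Real.sqrt τ)⁻¹) {t : ℝ}
    (ht : t ∈ Ioc (0 : ℝ) 1) :
    Integrable fun y : ℝ × E4 => (Ioo 0 t).indicator
      (fun s => e (t - s) y.2 * f i s y.2 * M.w i y.2) y.1 := by
  obtain ⟨C, c, hC, hc, h⟩ := vb_le le_rfl hf
  obtain ⟨W, hW, hWb⟩ := HK1_654.w_bound M
  have hm : Measurable fun y : ℝ × E4 => (Ioo 0 t).indicator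
      (fun s => e (t - s) y.2 * f i s y.2 * M.w i y.2) y.1 := by
    have h1 : Measurable fun y : ℝ × E4 => e (t - y.1) y.2 * f i y.1 y.2 * M.w i y.2 := by
      refine Measurable.mul (Measurable.mul ?_ (hf.1 i))
        ((HK1_654.w_cont M i).measurable.comp measurable_snd)
      have h2 : Measurable fun y : ℝ × E4 => ((t - y.1, y.2) : ℝ × E4) := by fun_prop
      exact he.comp h2
    have hS : MeasurableSet {y : ℝ × E4 | y.1 ∈ Ioo 0 t} := measurable_fst measurableSet_Ioo
    have h3 := h1.indicator hS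
    have h4 : (fun y : ℝ × E4 => (Ioo 0 t).indicator
      (fun s => e (t - s) y.2 * f i s y.2 * M.w i y.2) y.1) =
        {y : ℝ × E4 | y.1 ∈ Ioo 0 t}.indicator
          (fun y => e (t - y.1) y.2 * f i y.1 y.2 * M.w i y.2) := by
      funext y
      by_cases hy : y.1 ∈ Ioo 0 t
      · rw [indicator_of_mem hy,
          indicator_of_mem (show y ∈ {y : ℝ × E4 | y.1 ∈ Ioo 0 t} from hy)]
      · rw [indicator_of_notMem hy,
          indicator_of_notMem (show y ∉ {y : ℝ × E4 | y.1 ∈ Ioo 0 t} from hy)]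
    rw [h4]
    exact h3
  have hq : IntegrableOn (fun s : ℝ => A * C * W * (Real.sqrt (t - s))⁻¹) (Ioo 0 t) :=
    (HK1_654.integral_inv_sqrt ht.1).1.const_mul _
  refine (int1 hc (by fun_prop) hq).mono' hm.aestronglyMeasurable
    (Eventually.of_forall fun y => ?_)
  by_cases hy : y.1 ∈ Ioo 0 t
  · rw [indicator_of_mem hy, indicator_of_mem hy, Real.norm_eq_abs, abs_mul, abs_mul]
    have h1 : t - y.1 ∈ Ioc (0 : ℝ) 1 := ⟨sub_pos.2 hy.2, by linarith [ht.2, hy.1]⟩
    have h2 : y.1 ∈ Ioc (0 : ℝ) 1 := ⟨hy.1, hy.2.le.trans ht.2⟩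
    have hG := HK1_654.Gam_nonneg c y.1 y.2
    calc |e (t - y.1) y.2| * |f i y.1 y.2| * |M.w i y.2|
        ≤ (A * (Real.sqrt (t - y.1))⁻¹) * (C * Gam c y.1 y.2) * W := by
          refine mul_le_mul (mul_le_mul (heA _ h1 _) (h i _ h2 _) (abs_nonneg _) ?_) (hWb i _)
            (abs_nonneg _) ?_ <;> positivity
      _ = A * C * W * (Real.sqrt (t - y.1))⁻¹ * Gam c y.1 y.2 := by ring
  · rw [indicator_of_notMem hy, indicator_of_notMem hy]
    simp

theorem ew_prod {f : ι → ℝ → E4 → ℝ} (hf : VB 0 f) (i : ι) {e : ℝ → E4 → ℝ}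
    (he : Measurable fun y : ℝ × E4 => e y.1 y.2) {A : ℝ} (hA : 0 ≤ A)
    (heA : ∀ τ ∈ Ioc (0 : ℝ) 1, ∀ z, |e τ z| ≤ A * (Real.sqrt τ)⁻¹) {t : ℝ}
    (ht : t ∈ Ioc (0 : ℝ) 1) :
    ∫ y : ℝ × E4, (Ioo 0 t).indicator (fun s => e (t - s) y.2 * f i s y.2 * M.w i y.2) y.1 =
      ∫ s in Ioo 0 t, ∫ z, e (t - s) z * f i s z * M.w i z := by
  have h1 := ew_integrable (M := M) hf i he hA heA ht
  rw [Measure.volume_eq_prod] at h1 ⊢
  rw [integral_prod _ h1, ← integral_indicator measurableSet_Ioo]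
  refine integral_congr_ae (Eventually.of_forall fun s => ?_)
  by_cases hs : s ∈ Ioo 0 t
  · simp only [indicator_of_mem hs]
  · simp only [indicator_of_notMem hs, integral_zero]

theorem ew_outer {f : ι → ℝ → E4 → ℝ} (hf : VB 0 f) (i : ι) {e : ℝ → E4 → ℝ}
    (he : Measurable fun y : ℝ × E4 => e y.1 y.2) {A : ℝ} (hA : 0 ≤ A)
    (heA : ∀ τ ∈ Ioc (0 : ℝ) 1, ∀ z, |e τ z| ≤ A * (Real.sqrt τ)⁻¹) {t : ℝ}
    (ht : t ∈ Ioc (0 : ℝ) 1) :
    IntegrableOn (fun s => ∫ z, e (t - s) z * f i s z * M.w i z) (Ioo 0 t) := by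
  have h1 := ew_integrable (M := M) hf i he hA heA ht
  rw [Measure.volume_eq_prod] at h1
  have h2 := h1.integral_prod_left
  rw [← integrable_indicator_iff measurableSet_Ioo]
  refine h2.congr (Eventually.of_forall fun s => ?_)
  by_cases hs : s ∈ Ioo 0 t
  · simp only [indicator_of_mem hs]
  · simp only [indicator_of_notMem hs, integral_zero]

/-! ### Fubini for `star0` -/

theorem fub_star {K : ι → ℝ → E4 → E4 → ℝ} (hK : KW K) {f : ι → ℝ → E4 → ℝ} (hf : VB 0 f) {R : ℝ}
    {U : E4 → ℝ} (hU : Adm R U) (i : ι) {t : ℝ} (ht : t ∈ Ioc (0 : ℝ) 1) :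
    ∫ x, M.star0 K f i t x * U x * M.w i x =
      ∫ s in Ioo 0 t, ∫ z, pr M K U i (t - s) z * f i s z * M.w i z := by
  obtain ⟨C, c, hC, hc, h⟩ := HK1_654.bounds (M := M) hK hf
  obtain ⟨W, hW, hWb⟩ := HK1_654.w_bound M
  obtain ⟨B, hB, hBb⟩ := hU.bdd
  set F : E4 × (ℝ × E4) → ℝ := fun y => (Ioo 0 t).indicator
    (fun s => K i (t - s) y.1 y.2.2 * f i s y.2.2 * M.w i y.2.2 * (U y.1 * M.w i y.1)) y.2.1 with hF
  have hFm : Measurable F := by
    have h1 : Measurable fun y : E4 × (ℝ × E4) =>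
        K i (t - y.2.1) y.1 y.2.2 * f i y.2.1 y.2.2 * M.w i y.2.2 * (U y.1 * M.w i y.1) := by
      refine Measurable.mul (Measurable.mul (Measurable.mul ?_ ((hf.1 i).comp measurable_snd))
        ((HK1_654.w_cont M i).measurable.comp (measurable_snd.comp measurable_snd)))
        ((hU.meas.comp measurable_fst).mul ((HK1_654.w_cont M i).measurable.comp measurable_fst))
      have h2 : Measurable fun y : E4 × (ℝ × E4) => ((t - y.2.1, y.1, y.2.2) : ℝ × E4 × E4) := by
        fun_prop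
      exact (hK.1 i).comp h2
    have hS : MeasurableSet {y : E4 × (ℝ × E4) | y.2.1 ∈ Ioo 0 t} :=
      (measurable_fst.comp measurable_snd) measurableSet_Ioo
    have h4 : F = {y : E4 × (ℝ × E4) | y.2.1 ∈ Ioo 0 t}.indicator fun y =>
        K i (t - y.2.1) y.1 y.2.2 * f i y.2.1 y.2.2 * M.w i y.2.2 * (U y.1 * M.w i y.1) := by
      funext y
      by_cases hy : y.2.1 ∈ Ioo 0 t
      · rw [indicator_of_mem (show y ∈ {y : E4 × (ℝ × E4) | y.2.1 ∈ Ioo 0 t} from hy)]
        simp only [hF, indicator_of_mem hy]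
      · rw [indicator_of_notMem (show y ∉ {y : E4 × (ℝ × E4) | y.2.1 ∈ Ioo 0 t} from hy)]
        simp only [hF, indicator_of_notMem hy]
    rw [h4]
    exact h1.indicator hS
  have hq : IntegrableOn (fun s : ℝ => C * B * W * (1 + |R| * (Real.sqrt (t - s))⁻¹)) (Ioo 0 t) :=
    (HK1_654.outer_weight ht.1 |R|).1.const_mul _
  have hFi : Integrable F := by
    refine (int2 hc (by fun_prop) hq).mono' hFm.aestronglyMeasurable
      (Eventually.of_forall fun y => ?_)
    by_cases hy : y.2.1 ∈ Ioo 0 t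
    · simp only [hF]
      rw [indicator_of_mem hy, indicator_of_mem hy, Real.norm_eq_abs,
        abs_mul _ (U y.1 * M.w i y.1), abs_mul (U y.1)]
      have hb := h i t ht y.2.1 hy y.1 y.2.2
      rw [Real.rpow_zero, mul_one] at hb
      have hG := HK1_654.Gam_nonneg c (t - y.2.1) (y.1 - y.2.2)
      have hG2 := HK1_654.Gam_nonneg c y.2.1 y.2.2
      by_cases hx : R ≤ ‖y.1‖
      · rw [hU.supp _ hx, abs_zero, zero_mul, mul_zero]
        positivity
      · have hx' : ‖y.1‖ ≤ |R| := (not_le.1 hx).le.trans (le_abs_self R)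
        calc |K i (t - y.2.1) y.1 y.2.2 * f i y.2.1 y.2.2 * M.w i y.2.2| * (|U y.1| * |M.w i y.1|)
            ≤ (C * (1 + ‖y.1‖ * (Real.sqrt (t - y.2.1))⁻¹) *
              (Gam c (t - y.2.1) (y.1 - y.2.2) * Gam c y.2.1 y.2.2)) * (B * W) :=
              mul_le_mul hb (mul_le_mul (hBb _) (hWb i _) (abs_nonneg _) hB)
                (by positivity) (by positivity)
          _ ≤ (C * (1 + |R| * (Real.sqrt (t - y.2.1))⁻¹) *
              (Gam c (t - y.2.1) (y.1 - y.2.2) * Gam c y.2.1 y.2.2)) * (B * W) := by gcongr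
          _ = C * B * W * (1 + |R| * (Real.sqrt (t - y.2.1))⁻¹) *
              (Gam c (t - y.2.1) (y.1 - y.2.2) * Gam c y.2.1 y.2.2) := by ring
    · simp only [hF]
      rw [indicator_of_notMem hy, indicator_of_notMem hy]
      simp
  -- left-hand side
  have hL : ∫ x, M.star0 K f i t x * U x * M.w i x = ∫ x, ∫ y, F (x, y) := by
    rw [Measure.volume_eq_prod] at hFi
    refine integral_congr_ae ?_
    filter_upwards [hFi.prod_right_ae] with x hx
    rw [Measure.volume_eq_prod, integral_prod _ hx]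
    unfold Met.star0
    rw [← integral_indicator measurableSet_Ioo, mul_assoc, ← integral_mul_const]
    refine integral_congr_ae (Eventually.of_forall fun s => ?_)
    by_cases hs : s ∈ Ioo 0 t
    · simp only [hF, indicator_of_mem hs]
      rw [← integral_mul_const]
    · simp only [hF, indicator_of_notMem hs, integral_zero, zero_mul]
  -- right-hand side
  have hR : ∫ s in Ioo 0 t, ∫ z, pr M K U i (t - s) z * f i s z * M.w i z = ∫ y, ∫ x, F (x, y) := by
    obtain ⟨A, hA, hAb⟩ := pr_bound (M := M) hK hU i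
    rw [← ew_prod (M := M) hf i (pr_meas (M := M) hK.1 hU.meas i) hA hAb ht]
    refine integral_congr_ae (Eventually.of_forall fun y => ?_)
    by_cases hs : y.1 ∈ Ioo 0 t
    · simp only [hF, indicator_of_mem hs]
      unfold pr
      rw [← integral_mul_const, ← integral_mul_const]
      refine integral_congr_ae (Eventually.of_forall fun x => ?_)
      simp only []
      ring
    · simp only [hF, indicator_of_notMem hs, integral_zero]
  rw [hL, hR]
  exact integral_integral_swap (f := fun x y => F (x, y)) (by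
    have h1 : (Function.uncurry fun x y => F (x, y)) = F := by
      funext y; rfl
    rw [h1]
    rwa [Measure.volume_eq_prod] at hFi)

/-! ### the Volterra lemma -/

theorem shift_int {μ s t : ℝ} (g : ℝ → ℝ) :
    ∫ r in Ioo s t, Real.exp (-(μ * (t - r))) * g (r - s) =
      ∫ σ in Ioo 0 (t - s), Real.exp (-(μ * (t - s - σ))) * g σ := by
  rw [← integral_indicator measurableSet_Ioo, ← integral_indicator measurableSet_Ioo,
    ← integral_sub_right_eq_self (fun σ => (Ioo 0 (t - s)).indicator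
      (fun σ => Real.exp (-(μ * (t - s - σ))) * g σ) σ) s]
  refine integral_congr_ae (Eventually.of_forall fun r => ?_)
  by_cases hr : r ∈ Ioo s t
  · have h2 : r - s ∈ Ioo 0 (t - s) := ⟨by linarith [hr.1], by linarith [hr.2]⟩
    simp only [indicator_of_mem hr, indicator_of_mem h2]
    congr 3
    ring
  · have h2 : r - s ∉ Ioo 0 (t - s) := fun h => hr ⟨by linarith [h.1], by linarith [h.2]⟩
    simp only [indicator_of_notMem hr, indicator_of_notMem h2]

theorem volterra {f : ι → ℝ → E4 → ℝ} (hf : VB 0 f) (i : ι) {e : ℝ → E4 → ℝ}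
    (he : Measurable fun y : ℝ × E4 => e y.1 y.2) {A : ℝ} (hA : 0 ≤ A)
    (heA : ∀ τ ∈ Ioc (0 : ℝ) 1, ∀ z, |e τ z| ≤ A * (Real.sqrt τ)⁻¹) {μ : ℝ} (hμ : 0 ≤ μ) {t : ℝ}
    (ht : t ∈ Ioc (0 : ℝ) 1) :
    IntegrableOn (fun s => ∫ z, (∫ σ in Ioo 0 (t - s), Real.exp (-(μ * (t - s - σ))) * e σ z)
        * f i s z * M.w i z) (Ioo 0 t) ∧
    (∀ᵐ s ∂(volume.restrict (Ioo 0 t)), Integrable fun z =>
      (∫ σ in Ioo 0 (t - s), Real.exp (-(μ * (t - s - σ))) * e σ z) * f i s z * M.w i z) ∧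
    IntegrableOn (fun r => Real.exp (-(μ * (t - r))) *
        ∫ s in Ioo 0 r, ∫ z, e (r - s) z * f i s z * M.w i z) (Ioo 0 t) ∧
    ∫ s in Ioo 0 t, ∫ z, (∫ σ in Ioo 0 (t - s), Real.exp (-(μ * (t - s - σ))) * e σ z)
        * f i s z * M.w i z =
      ∫ r in Ioo 0 t, Real.exp (-(μ * (t - r))) *
        ∫ s in Ioo 0 r, ∫ z, e (r - s) z * f i s z * M.w i z := by
  obtain ⟨C, c, hC, hc, h⟩ := vb_le le_rfl hf
  obtain ⟨W, hW, hWb⟩ := HK1_654.w_bound M
  set F : (ℝ × E4) × ℝ → ℝ := fun y => (Tri t).indicator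
    (fun y => Real.exp (-(μ * (t - y.2))) *
      (e (y.2 - y.1.1) y.1.2 * f i y.1.1 y.1.2 * M.w i y.1.2)) y with hF
  have hFm : Measurable F := by
    refine Measurable.indicator ?_ (measurableSet_Tri t)
    refine Measurable.mul (by fun_prop) (Measurable.mul (Measurable.mul ?_
      ((hf.1 i).comp measurable_fst))
      ((HK1_654.w_cont M i).measurable.comp (measurable_snd.comp measurable_fst)))
    have h2 : Measurable fun y : (ℝ × E4) × ℝ => ((y.2 - y.1.1, y.1.2) : ℝ × E4) := by fun_prop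
    exact he.comp h2
  have hFi : Integrable F := by
    refine ((int3 (t := t) hc).const_mul (A * C * W)).mono' hFm.aestronglyMeasurable
      (Eventually.of_forall fun y => ?_)
    by_cases hy : y ∈ Tri t
    · simp only [hF]
      rw [indicator_of_mem hy, indicator_of_mem hy, Real.norm_eq_abs, abs_mul, abs_mul, abs_mul,
        abs_of_pos (Real.exp_pos _)]
      have h1 : y.2 - y.1.1 ∈ Ioc (0 : ℝ) 1 :=
        ⟨sub_pos.2 hy.2.1, by linarith [ht.2, hy.1, hy.2.2]⟩
      have h2 : y.1.1 ∈ Ioc (0 : ℝ) 1 := ⟨hy.1, by linarith [ht.2, hy.2.1, hy.2.2]⟩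
      have hG := HK1_654.Gam_nonneg c y.1.1 y.1.2
      have he1 : Real.exp (-(μ * (t - y.2))) ≤ 1 := by
        rw [Real.exp_le_one_iff]
        have : 0 ≤ μ * (t - y.2) := mul_nonneg hμ (by linarith [hy.2.2])
        linarith
      calc Real.exp (-(μ * (t - y.2))) *
            (|e (y.2 - y.1.1) y.1.2| * |f i y.1.1 y.1.2| * |M.w i y.1.2|)
          ≤ 1 * ((A * (Real.sqrt (y.2 - y.1.1))⁻¹) * (C * Gam c y.1.1 y.1.2) * W) := by
            refine mul_le_mul he1 (mul_le_mul (mul_le_mul (heA _ h1 _) (h i _ h2 _)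
              (abs_nonneg _) ?_) (hWb i _) (abs_nonneg _) ?_) ?_ zero_le_one <;> positivity
        _ = A * C * W * ((Real.sqrt (y.2 - y.1.1))⁻¹ * Gam c y.1.1 y.1.2) := by ring
    · simp only [hF]
      rw [indicator_of_notMem hy, indicator_of_notMem hy]
      simp
  rw [Measure.volume_eq_prod] at hFi
  -- the inner integral in `r`
  have hin : ∀ y : ℝ × E4, ∫ r, F (y, r) = (Ioo 0 t).indicator (fun s =>
      (∫ σ in Ioo 0 (t - s), Real.exp (-(μ * (t - s - σ))) * e σ y.2) * f i s y.2 * M.w i y.2)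
      y.1 := by
    intro y
    by_cases hy : y.1 ∈ Ioo 0 t
    · rw [indicator_of_mem hy, ← shift_int (fun σ => e σ y.2),
        ← integral_indicator measurableSet_Ioo, mul_assoc, ← integral_mul_const]
      refine integral_congr_ae (Eventually.of_forall fun r => ?_)
      by_cases hr : r ∈ Ioo y.1 t
      · have h3 : ((y, r) : (ℝ × E4) × ℝ) ∈ Tri t := ⟨hy.1, hr.1, hr.2⟩
        simp only [hF, indicator_of_mem h3, indicator_of_mem hr]
        ring
      · have h3 : ((y, r) : (ℝ × E4) × ℝ) ∉ Tri t := fun h => hr ⟨h.2.1, h.2.2⟩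
        simp only [hF, indicator_of_notMem h3, indicator_of_notMem hr, zero_mul]
    · rw [indicator_of_notMem hy]
      have h3 : ∀ r, F (y, r) = 0 := fun r => by
        have h4 : ((y, r) : (ℝ × E4) × ℝ) ∉ Tri t := fun h => hy ⟨h.1, h.2.1.trans h.2.2⟩
        simp only [hF, indicator_of_notMem h4]
      simp only [h3, integral_zero]
  have hG1 := hFi.integral_prod_left
  simp only [hin] at hG1
  have hG1' := hG1
  rw [Measure.volume_eq_prod] at hG1'
  -- the inner integral in `(s,z)`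
  have hout : ∀ r, ∫ y, F (y, r) = (Ioo 0 t).indicator (fun r => Real.exp (-(μ * (t - r))) *
      ∫ s in Ioo 0 r, ∫ z, e (r - s) z * f i s z * M.w i z) r := by
    intro r
    by_cases hr : r ∈ Ioo 0 t
    · have hr1 : r ∈ Ioc (0 : ℝ) 1 := ⟨hr.1, hr.2.le.trans ht.2⟩
      rw [indicator_of_mem hr, ← ew_prod (M := M) hf i he hA heA hr1, ← integral_const_mul]
      refine integral_congr_ae (Eventually.of_forall fun y => ?_)
      by_cases hy : y.1 ∈ Ioo 0 r
      · have h3 : ((y, r) : (ℝ × E4) × ℝ) ∈ Tri t := ⟨hy.1, hy.2, hr.2⟩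
        simp only [hF, indicator_of_mem h3, indicator_of_mem hy]
      · have h3 : ((y, r) : (ℝ × E4) × ℝ) ∉ Tri t := fun h => hy ⟨h.1, h.2.1⟩
        simp only [hF, indicator_of_notMem h3, indicator_of_notMem hy, mul_zero]
    · rw [indicator_of_notMem hr]
      have h3 : ∀ y, F (y, r) = 0 := fun y => by
        have h4 : ((y, r) : (ℝ × E4) × ℝ) ∉ Tri t := fun h =>
          hr ⟨h.1.trans h.2.1, h.2.2⟩
        simp only [hF, indicator_of_notMem h4]
      simp only [h3, integral_zero]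
  have hG2 := hFi.integral_prod_right
  simp only [hout] at hG2
  have hswap := integral_integral_swap (f := fun y r => F (y, r)) (μ := (volume : Measure (ℝ × E4)))
    (ν := (volume : Measure ℝ)) hFi
  simp only [hin, hout] at hswap
  refine ⟨?_, ?_, ?_, ?_⟩
  · have h5 := hG1'.integral_prod_left
    rw [← integrable_indicator_iff measurableSet_Ioo]
    refine h5.congr (Eventually.of_forall fun s => ?_)
    by_cases hs : s ∈ Ioo 0 t
    · simp only [indicator_of_mem hs]
    · simp only [indicator_of_notMem hs, integral_zero]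
  · have h5 := hG1'.prod_right_ae
    rw [ae_restrict_iff' measurableSet_Ioo]
    filter_upwards [h5] with s hs hs'
    simpa only [indicator_of_mem hs'] using hs
  · exact (integrable_indicator_iff measurableSet_Ioo).1 hG2
  · rw [integral_indicator measurableSet_Ioo] at hswap
    rw [← hswap, Measure.volume_eq_prod, integral_prod _ hG1', ← integral_indicator measurableSet_Ioo]
    refine integral_congr_ae (Eventually.of_forall fun s => ?_)
    by_cases hs : s ∈ Ioo 0 t
    · simp only [indicator_of_mem hs]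
    · simp only [indicator_of_notMem hs, integral_zero]

end Crest.Agent.R249.HK5_352
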