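import Crest.Agent.R249.HK3D_352
import Crest.Agent.R249.HK2C_352

/-!
Row 249, Part C, leaf HK5 (helper352): interface of the Duhamel identity, supports of the kernels.
-/

set_option autoImplicit false
set_option linter.unusedSectionVars false
open scoped ContDiff
open MeasureTheory Set Metric Filter

namespace Crest.Agent.R249.HK5_352
open Crest.Agent.R249.HK286

variable {ι : Type*} {M : Met ι} {κ : Type*} [Fintype κ] [DecidableEq κ]

/-- Duhamel identity for one weak eigenfunction: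
`e^{-μt} u_k(0)_a = ⟨k_t e_a, u_k⟩ - ∫_0^t e^{-μ(t-s)} ⟨f³_s e_a, u_k⟩ ds` -/
def DuhStmt {R : ℝ} (c : Cut R) (D : Con M κ) : Prop :=
  ∀ (K : Type) (S : Sys D R K) (i : ι) (k : K), ∀ t ∈ Ioc (0 : ℝ) 1, ∀ a : κ,
    Real.exp (-(S.mu i k * t)) * S.u i k 0 a =
      M.ip i (fun x p => D.kk c i t x p a) (S.u i k)
      - ∫ s in Ioo 0 t, Real.exp (-(S.mu i k * (t - s))) *
          M.ip i (fun x p => D.f3 c i s x p a) (S.u i k)

theorem cut_pos {R : ℝ} (c : Cut R) : 0 < R := by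
  by_contra hR
  have h1 := c.one 0 0 (by simp)
  have h2 := c.zero 0 0 (by simp; linarith)
  rw [h1] at h2
  exact one_ne_zero h2

/-- the cut-off vanishes near every point outside the closed ball -/
theorem ps_ev {R : ℝ} (c : Cut R) (m : ℕ) {x : E4} (hx : (2 * m + 1) * R / 8 < ‖x‖) :
    c.ps m =ᶠ[nhds x] fun _ => 0 := by
  have h1 : ∀ᶠ y : E4 in nhds x, (2 * m + 1) * R / 8 < ‖y‖ :=
    continuous_norm.continuousAt.eventually (lt_mem_nhds hx)
  filter_upwards [h1] with y hy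
  exact c.zero m y hy.le

theorem pd_ps_zero {R : ℝ} (c : Cut R) (m : ℕ) {x : E4} (hx : (2 * m + 1) * R / 8 < ‖x‖)
    (j : Fin 4) : pd j (c.ps m) x = 0 := by
  rw [HK352.pd_congr (ps_ev c m hx) j]
  exact HK352.pd_const 0 x j

theorem lap_ps_zero {R : ℝ} (c : Cut R) (m : ℕ) (i : ι) {x : E4}
    (hx : (2 * m + 1) * R / 8 < ‖x‖) : M.lap i (c.ps m) x = 0 := by
  unfold Met.lap
  have h1 : ∀ᶠ y : E4 in nhds x, (2 * m + 1) * R / 8 < ‖y‖ :=
    continuous_norm.continuousAt.eventually (lt_mem_nhds hx)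
  have h2 : ∀ j l, pd j (fun y => M.w i y * M.h i j l y * pd l (c.ps m) y) x = 0 := by
    intro j l
    have h3 : (fun y => M.w i y * M.h i j l y * pd l (c.ps m) y) =ᶠ[nhds x] fun _ => 0 := by
      filter_upwards [h1] with y hy
      rw [pd_ps_zero c m hy l, mul_zero]
    rw [HK352.pd_congr h3 j]
    exact HK352.pd_const 0 x j
  simp only [h2, Finset.sum_const_zero, mul_zero]

theorem HH_supp {R : ℝ} (c : Cut R) (m : ℕ) (i : ι) (t : ℝ) {x : E4} (z : E4)
    (hx : (2 * m + 1) * R / 8 < ‖x‖) : M.HH c m i t x z = 0 := by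
  unfold Met.HH
  rw [c.zero m x hx.le, zero_mul]

theorem dH_supp {R : ℝ} (c : Cut R) (m : ℕ) (j : Fin 4) (i : ι) (t : ℝ) {x : E4} (z : E4)
    (hx : (2 * m + 1) * R / 8 < ‖x‖) : M.dH c m j i t x z = 0 := by
  unfold Met.dH
  rw [c.zero m x hx.le, pd_ps_zero c m hx]
  ring

theorem e0_supp {R : ℝ} (c : Cut R) (m : ℕ) (i : ι) (t : ℝ) {x : E4} (z : E4)
    (hx : (2 * m + 1) * R / 8 < ‖x‖) : M.e0 c m i t x z = 0 := by
  unfold Met.e0
  simp only [c.zero m x hx.le, pd_ps_zero c m hx, lap_ps_zero c m i hx, zero_mul, mul_zero,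
    Finset.sum_const_zero, add_zero, sub_zero]

theorem eM_supp {R : ℝ} (c : Cut R) (D : Con M κ) (m : ℕ) (i : ι) (t : ℝ) {x : E4} (z : E4)
    (p q : κ) (hx : (2 * m + 1) * R / 8 < ‖x‖) : D.eM c m i t x z p q = 0 := by
  unfold Con.eM Con.sk Con.sy
  simp only [e0_supp c m i t z hx, dH_supp c m _ i t z hx, HH_supp c m i t z hx, zero_mul, mul_zero,
    Finset.sum_const_zero, neg_zero, sub_zero, add_zero, ite_self]

theorem star_supp {Kr : ι → ℝ → E4 → E4 → κ → κ → ℝ} {f : ι → ℝ → E4 → κ → κ → ℝ} {i : ι}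
    {x : E4} (h : ∀ t z p r, Kr i t x z p r = 0) (t : ℝ) (p q : κ) : M.star Kr f i t x p q = 0 := by
  unfold Met.star
  simp only [h, zero_mul, Finset.sum_const_zero, integral_zero]

theorem f1_supp {R : ℝ} (c : Cut R) (D : Con M κ) (i : ι) (t : ℝ) {x : E4} (p q : κ)
    (hx : 3 * R / 8 < ‖x‖) : D.f1 c i t x p q = 0 :=
  eM_supp c D 1 i t 0 p q (by push_cast; linarith)

theorem f2_supp {R : ℝ} (c : Cut R) (D : Con M κ) (i : ι) (t : ℝ) {x : E4} (p q : κ)
    (hx : 5 * R / 8 < ‖x‖) : D.f2 c i t x p q = 0 :=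
  star_supp (fun t z p r => eM_supp c D 2 i t z p r (by push_cast; linarith)) t p q

theorem f3_supp {R : ℝ} (c : Cut R) (D : Con M κ) (i : ι) (t : ℝ) {x : E4} (p q : κ)
    (hx : 7 * R / 8 < ‖x‖) : D.f3 c i t x p q = 0 :=
  star_supp (fun t z p r => eM_supp c D 3 i t z p r (by push_cast; linarith)) t p q

theorem sc_supp {R : ℝ} (c : Cut R) (m : ℕ) (i : ι) (t : ℝ) {x : E4} (z : E4) (p r : κ)
    (hx : (2 * m + 1) * R / 8 < ‖x‖) : sc (M.HH c m) i t x z p r = 0 := by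
  unfold sc
  rw [HH_supp c m i t z hx, ite_self]

theorem kk_supp {R : ℝ} (c : Cut R) (D : Con M κ) (i : ι) (t : ℝ) {x : E4} (p q : κ)
    (hx : 7 * R / 8 < ‖x‖) : D.kk c i t x p q = 0 := by
  have hR := cut_pos c
  unfold Con.kk
  rw [HH_supp c 1 i t 0 (by push_cast; linarith), ite_self,
    star_supp (fun t z p r => sc_supp c 2 i t z p r (by push_cast; linarith)) t p q,
    star_supp (fun t z p r => sc_supp c 3 i t z p r (by push_cast; linarith)) t p q]
  ring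

end Crest.Agent.R249.HK5_352
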