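/-
Row 249, part C, leaf HK5 (helper905), file a: Fubini and time convolution lemmas.
-/
import Crest.Agent.R249.HK1_654
import Crest.Agent.R249.HKCal_286

set_option autoImplicit false

open MeasureTheory Filter Topology Set

noncomputable section

namespace Crest.Agent.R249.HK5_905

open Crest.Agent.R249.HK286 Crest.Agent.R249.HK1_654

variable {ι : Type*} {M : Met ι} {R : ℝ}

/-- bounded measurable functions vanishing off the ball of radius `R` -/
def BU (R : ℝ) (U : E4 → ℝ) : Prop :=
  Measurable U ∧ (∃ B : ℝ, ∀ x, |U x| ≤ B) ∧ ∀ x, R ≤ ‖x‖ → U x = 0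

theorem BU.integrable {U : E4 → ℝ} (h : BU R U) : Integrable U := by
  obtain ⟨hm, ⟨B, hB⟩, h0⟩ := h
  have h1 : IntegrableOn (fun _ : E4 => B) (Metric.ball 0 R) :=
    integrableOn_const (by exact (measure_ball_lt_top).ne)
  have h2 : Integrable ((Metric.ball (0 : E4) R).indicator fun _ : E4 => B) :=
    (integrable_indicator_iff measurableSet_ball).2 h1
  refine h2.mono' hm.aestronglyMeasurable (Eventually.of_forall fun x => ?_)
  by_cases hx : x ∈ Metric.ball (0 : E4) R
  · rw [indicator_of_mem hx]; exact hB x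
  · rw [indicator_of_notMem hx, h0 x (by simpa using hx)]; simp

/-- `∫ K(t,x,z) U(x) w(x) dx` -/
def AA (M : Met ι) (K : ι → ℝ → E4 → E4 → ℝ) (U : E4 → ℝ) (i : ι) (t : ℝ) (z : E4) : ℝ :=
  ∫ x, K i t x z * U x * M.w i x

theorem AA_pt {K : ι → ℝ → E4 → E4 → ℝ} (hK : KW K) {U : E4 → ℝ} (hU : BU R U) :
    ∃ C c : ℝ, 0 ≤ C ∧ 0 < c ∧ ∀ i, ∀ t ∈ Ioc (0 : ℝ) 1, ∀ x z,
      |K i t x z * U x * M.w i x| ≤ C * (1 + (Real.sqrt t)⁻¹) * Gam c t (x - z) := by
  obtain ⟨_, C1, c1, hC1, hc1, h1⟩ := hK
  obtain ⟨hm, ⟨B, hB⟩, h0⟩ := hU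
  obtain ⟨W, hW, hWb⟩ := w_bound M
  have hB0 : 0 ≤ B := (abs_nonneg _).trans (hB 0)
  refine ⟨C1 * (1 + |R|) * B * W, c1, by positivity, hc1, fun i t ht x z => ?_⟩
  have hs : 0 < Real.sqrt t := Real.sqrt_pos.2 ht.1
  have hG := Gam_nonneg c1 t (x - z)
  by_cases hx : R ≤ ‖x‖
  · rw [h0 x hx]
    simp only [mul_zero, zero_mul, abs_zero]
    positivity
  · push Not at hx
    have hxR : ‖x‖ ≤ |R| := hx.le.trans (le_abs_self R)
    have h2 : 1 + ‖x‖ / Real.sqrt t ≤ (1 + |R|) * (1 + (Real.sqrt t)⁻¹) := by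
      have h3 : ‖x‖ / Real.sqrt t ≤ |R| * (Real.sqrt t)⁻¹ := by
        rw [div_eq_mul_inv]
        exact mul_le_mul_of_nonneg_right hxR (by positivity)
      have h4 : 0 ≤ (Real.sqrt t)⁻¹ := by positivity
      nlinarith [abs_nonneg R]
    rw [abs_mul, abs_mul]
    calc |K i t x z| * |U x| * |M.w i x|
        ≤ (C1 * (1 + ‖x‖ / Real.sqrt t) * Gam c1 t (x - z)) * B * W := by
          refine mul_le_mul (mul_le_mul (h1 i t ht x z) (hB x) (abs_nonneg _) (by positivity)) (hWb i x)
            (abs_nonneg _) (by positivity)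
      _ ≤ (C1 * ((1 + |R|) * (1 + (Real.sqrt t)⁻¹)) * Gam c1 t (x - z)) * B * W := by
          gcongr
      _ = _ := by ring

theorem AA_int {K : ι → ℝ → E4 → E4 → ℝ} (hK : KW K) {U : E4 → ℝ} (hU : BU R U) (i : ι) {t : ℝ}
    (ht : t ∈ Ioc (0 : ℝ) 1) (z : E4) : Integrable fun x => K i t x z * U x * M.w i x := by
  obtain ⟨C, c, hC, hc, h⟩ := AA_pt (M := M) hK hU
  have hm : Measurable fun x => K i t x z * U x * M.w i x := by
    refine (Measurable.mul ?_ hU.1).mul (w_cont M i).measurable
    have h1 : Measurable fun x : E4 => ((t, x, z) : ℝ × E4 × E4) := by fun_prop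
    exact (hK.1 i).comp h1
  refine (((integrable_Gam hc ht.1).comp_sub_right z).const_mul (C * (1 + (Real.sqrt t)⁻¹))).mono'
    hm.aestronglyMeasurable (Eventually.of_forall fun x => h i t ht x z)

theorem AA_bound {K : ι → ℝ → E4 → E4 → ℝ} (hK : KW K) {U : E4 → ℝ} (hU : BU R U) :
    ∃ C : ℝ, 0 ≤ C ∧ ∀ i, ∀ t ∈ Ioc (0 : ℝ) 1, ∀ z, |AA M K U i t z| ≤ C * (1 + (Real.sqrt t)⁻¹) := by
  obtain ⟨C, c, hC, hc, h⟩ := AA_pt (M := M) hK hU
  refine ⟨C * (Real.pi / c) ^ 2, by positivity, fun i t ht z => ?_⟩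
  have h1 := norm_integral_le_of_norm_le (f := fun x => K i t x z * U x * M.w i x)
    (((integrable_Gam hc ht.1).comp_sub_right z).const_mul (C * (1 + (Real.sqrt t)⁻¹)))
    (Eventually.of_forall fun x => h i t ht x z)
  rw [Real.norm_eq_abs, integral_const_mul, integral_sub_right_eq_self (fun x : E4 => Gam c t x) z,
    integral_Gam hc ht.1] at h1
  refine h1.trans (le_of_eq ?_)
  ring

theorem AA_meas {K : ι → ℝ → E4 → E4 → ℝ} (hK : KW K) {U : E4 → ℝ} (hU : BU R U) (i : ι) :
    Measurable fun z : ℝ × E4 => AA M K U i z.1 z.2 := by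
  have h : Measurable fun z : (ℝ × E4) × E4 => K i z.1.1 z.2 z.1.2 * U z.2 * M.w i z.2 := by
    refine (Measurable.mul ?_ (hU.1.comp measurable_snd)).mul ((w_cont M i).measurable.comp measurable_snd)
    have h1 : Measurable fun z : (ℝ × E4) × E4 => ((z.1.1, z.2, z.1.2) : ℝ × E4 × E4) := by fun_prop
    exact (hK.1 i).comp h1
  exact h.stronglyMeasurable.integral_prod_right'.measurable

/-- `L¹` bound in space of a function of class `VB 0` -/
theorem vb_L1 {f : ι → ℝ → E4 → ℝ} (hf : VB 0 f) : ∃ C : ℝ, 0 ≤ C ∧ ∀ i, ∀ s ∈ Ioc (0 : ℝ) 1,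
    Integrable (fun z => f i s z) ∧ ∫ z, |f i s z * M.w i z| ≤ C := by
  obtain ⟨hm, C, c, hC, hc, h⟩ := hf
  obtain ⟨W, hW, hWb⟩ := w_bound M
  refine ⟨C * W * (Real.pi / c) ^ 2, by positivity, fun i s hs => ?_⟩
  have hb : ∀ z, ‖f i s z‖ ≤ C * Gam c s z := by
    intro z
    have := h i s hs z
    simpa using this
  have hmz : Measurable fun z => f i s z := (hm i).comp (measurable_prodMk_left (x := s))
  have hint : Integrable (fun z => f i s z) :=
    ((integrable_Gam hc hs.1).const_mul C).mono' hmz.aestronglyMeasurable (Eventually.of_forall hb)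
  refine ⟨hint, ?_⟩
  have h1 : ∫ z, |f i s z * M.w i z| ≤ ∫ z, C * W * Gam c s z := by
    refine integral_mono_of_nonneg (Eventually.of_forall fun z => abs_nonneg _)
      ((integrable_Gam hc hs.1).const_mul _) (Eventually.of_forall fun z => ?_)
    show |f i s z * M.w i z| ≤ C * W * Gam c s z
    rw [abs_mul]
    calc |f i s z| * |M.w i z| ≤ (C * Gam c s z) * W := by
          refine mul_le_mul (hb z) (hWb i z) (abs_nonneg _) (mul_nonneg hC (Gam_nonneg _ _ _))
      _ = _ := by ring
  refine h1.trans (le_of_eq ?_)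
  rw [integral_const_mul, integral_Gam hc hs.1]

/-- the `z`-integral of `A(σ,z) f(s,z) w(z)`: integrability and bound -/
theorem AAf_bound {A : ℝ → E4 → ℝ} {C0 : ℝ} (hA : Measurable fun z : ℝ × E4 => A z.1 z.2)
    (hAb : ∀ t ∈ Ioc (0 : ℝ) 1, ∀ z, |A t z| ≤ C0 * (1 + (Real.sqrt t)⁻¹)) {f : ι → ℝ → E4 → ℝ}
    (hf : VB 0 f) (i : ι) : ∃ C : ℝ, 0 ≤ C ∧ ∀ s ∈ Ioc (0 : ℝ) 1, ∀ σ ∈ Ioc (0 : ℝ) 1,
      Integrable (fun z => A σ z * f i s z * M.w i z) ∧
      |∫ z, A σ z * f i s z * M.w i z| ≤ C * (1 + (Real.sqrt σ)⁻¹) := by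
  obtain ⟨C, hC, h⟩ := vb_L1 (M := M) hf
  have hC0 : 0 ≤ C0 := by
    have := (abs_nonneg _).trans (hAb 1 ⟨one_pos, le_rfl⟩ 0)
    simp at this
    linarith
  refine ⟨C0 * C, by positivity, fun s hs σ hσ => ?_⟩
  obtain ⟨h1, h2⟩ := h i s hs
  obtain ⟨W, hW, hWb⟩ := w_bound M
  have hfw : Integrable (fun z => f i s z * M.w i z) := by
    refine (h1.norm.const_mul W).mono' (h1.aestronglyMeasurable.mul (w_cont M i).aestronglyMeasurable)
      (Eventually.of_forall fun z => ?_)
    rw [norm_mul, mul_comm]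
    exact mul_le_mul_of_nonneg_right (by simpa using hWb i z) (norm_nonneg _)
  have hb : ∀ z, ‖A σ z * f i s z * M.w i z‖ ≤ (C0 * (1 + (Real.sqrt σ)⁻¹)) * |f i s z * M.w i z| := by
    intro z
    rw [mul_assoc, norm_mul, Real.norm_eq_abs, Real.norm_eq_abs]
    exact mul_le_mul_of_nonneg_right (hAb σ hσ z) (abs_nonneg _)
  have hAz : Measurable fun z => A σ z := hA.comp (measurable_prodMk_left (x := σ))
  have hint : Integrable (fun z => A σ z * f i s z * M.w i z) := by
    refine (hfw.abs.const_mul (C0 * (1 + (Real.sqrt σ)⁻¹))).mono' ?_ (Eventually.of_forall hb)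
    exact (hAz.aestronglyMeasurable.mul h1.aestronglyMeasurable).mul (w_cont M i).aestronglyMeasurable
  refine ⟨hint, ?_⟩
  have h3 := norm_integral_le_of_norm_le (f := fun z => A σ z * f i s z * M.w i z)
    (hfw.abs.const_mul (C0 * (1 + (Real.sqrt σ)⁻¹))) (Eventually.of_forall hb)
  rw [Real.norm_eq_abs, integral_const_mul] at h3
  refine h3.trans ?_
  have : 0 ≤ (1 + (Real.sqrt σ)⁻¹) := by positivity
  calc C0 * (1 + (Real.sqrt σ)⁻¹) * ∫ z, |f i s z * M.w i z| ≤ C0 * (1 + (Real.sqrt σ)⁻¹) * C :=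
        mul_le_mul_of_nonneg_left h2 (by positivity)
    _ = _ := by ring

theorem AAf_meas {A : ℝ → E4 → ℝ} (hA : Measurable fun z : ℝ × E4 => A z.1 z.2) {f : ι → ℝ → E4 → ℝ}
    (hf : VB 0 f) (i : ι) : Measurable fun z : ℝ × ℝ => ∫ y, A z.1 y * f i z.2 y * M.w i y := by
  have h : Measurable fun z : (ℝ × ℝ) × E4 => A z.1.1 z.2 * f i z.1.2 z.2 * M.w i z.2 := by
    refine (Measurable.mul ?_ ?_).mul ((w_cont M i).measurable.comp measurable_snd)
    · have h1 : Measurable fun z : (ℝ × ℝ) × E4 => ((z.1.1, z.2) : ℝ × E4) := by fun_prop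
      exact hA.comp h1
    · have h1 : Measurable fun z : (ℝ × ℝ) × E4 => ((z.1.2, z.2) : ℝ × E4) := by fun_prop
      exact (hf.1 i).comp h1
  exact h.stronglyMeasurable.integral_prod_right'.measurable

/-- `∫_0^t (1 + 1/√s) ds` -/
theorem int_w {t : ℝ} (ht : 0 < t) :
    IntegrableOn (fun s : ℝ => 1 + (Real.sqrt s)⁻¹) (Ioo 0 t) := by
  have h0 : IntervalIntegrable (fun u : ℝ => u ^ (-(1 / 2) : ℝ)) volume 0 t :=
    intervalIntegral.intervalIntegrable_rpow' (by norm_num)
  have h3 := (intervalIntegrable_iff_integrableOn_Ioo_of_le ht.le).1 h0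
  have h4 : IntegrableOn (fun s : ℝ => (Real.sqrt s)⁻¹) (Ioo 0 t) := by
    refine h3.congr_fun (fun s hs => ?_) measurableSet_Ioo
    show s ^ (-(1 / 2) : ℝ) = _
    rw [Real.rpow_neg hs.1.le, ← Real.sqrt_eq_rpow]
  exact (integrableOn_const (by simp)).add h4

/-- **Fubini**: pairing of a time-space convolution with a bounded function of compact support -/
theorem fub {K : ι → ℝ → E4 → E4 → ℝ} (hK : KW K) {f : ι → ℝ → E4 → ℝ} (hf : VB 0 f)
    {U : E4 → ℝ} (hU : BU R U) (i : ι) {t : ℝ} (ht : t ∈ Ioc (0 : ℝ) 1) :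
    ∫ x, M.star0 K f i t x * U x * M.w i x
      = ∫ s in Ioo 0 t, ∫ z, AA M K U i (t - s) z * f i s z * M.w i z := by
  obtain ⟨hUm, ⟨B, hB⟩, hU0⟩ := id hU
  have hB0 : 0 ≤ B := (abs_nonneg _).trans (hB 0)
  obtain ⟨W, hW, hWb⟩ := w_bound M
  obtain ⟨C, c, hC, hc, h⟩ := inner_bound (M := M) hK hf
  obtain ⟨C', c', hC', hc', h'⟩ := bounds (M := M) hK hf
  -- first swap
  have hG1 : ∀ x, M.star0 K f i t x * U x * M.w i x
      = ∫ s in Ioo 0 t, (∫ z, K i (t - s) x z * f i s z * M.w i z) * (U x * M.w i x) := by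
    intro x
    rw [integral_mul_const, mul_assoc]
    rfl
  have hmeas : Measurable fun z : E4 × ℝ =>
      (∫ y, K i (t - z.2) z.1 y * f i z.2 y * M.w i y) * (U z.1 * M.w i z.1) := by
    refine Measurable.mul ?_ ((hUm.comp measurable_fst).mul ((w_cont M i).measurable.comp measurable_fst))
    have h1 := (meas_inner (M := M) hK.1 hf.1 i).measurable
    have h2 : Measurable fun z : E4 × ℝ => (((t, z.1), z.2) : (ℝ × E4) × ℝ) := by fun_prop
    exact h1.comp h2
  have hint : Integrable (fun z : E4 × ℝ =>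
      (∫ y, K i (t - z.2) z.1 y * f i z.2 y * M.w i y) * (U z.1 * M.w i z.1))
      ((volume : Measure E4).prod (volume.restrict (Ioo 0 t))) := by
    have hb1 : Integrable (fun x : E4 => C * Gam c t x) := (integrable_Gam hc ht.1).const_mul C
    have hb2 : Integrable (fun s : ℝ => (1 + |R| * (Real.sqrt (t - s))⁻¹) * (B * W))
        (volume.restrict (Ioo 0 t)) := (outer_weight ht.1 |R|).1.mul_const _
    refine (hb1.mul_prod hb2).mono' hmeas.aestronglyMeasurable ?_
    have hae : ∀ᵐ z : E4 × ℝ ∂((volume : Measure E4).prod (volume.restrict (Ioo 0 t))), z.2 ∈ Ioo 0 t := by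
      have h3 : (volume : Measure E4).prod (volume.restrict (Ioo 0 t))
          = ((volume : Measure E4).prod volume).restrict (univ ×ˢ Ioo 0 t) := by
        rw [← Measure.prod_restrict, Measure.restrict_univ]
      rw [h3]
      filter_upwards [ae_restrict_mem (MeasurableSet.univ.prod measurableSet_Ioo)] with z hz
      exact hz.2
    filter_upwards [hae] with z hz
    rw [Real.norm_eq_abs, abs_mul, abs_mul]
    by_cases hx : R ≤ ‖z.1‖
    · rw [hU0 z.1 hx]
      simp only [abs_zero, zero_mul, mul_zero]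
      have := Gam_nonneg c t z.1
      positivity
    · push Not at hx
      have hxR : ‖z.1‖ ≤ |R| := hx.le.trans (le_abs_self R)
      have h5 := h i t ht z.2 hz z.1
      rw [Real.rpow_zero, mul_one] at h5
      have h6 : 0 ≤ (Real.sqrt (t - z.2))⁻¹ := by positivity
      have hG := Gam_nonneg c t z.1
      calc |∫ y, K i (t - z.2) z.1 y * f i z.2 y * M.w i y| * (|U z.1| * |M.w i z.1|)
          ≤ ((1 + |R| * (Real.sqrt (t - z.2))⁻¹) * (C * Gam c t z.1)) * (B * W) := by
            refine mul_le_mul (h5.trans ?_) (mul_le_mul (hB _) (hWb _ _) (abs_nonneg _) hB0)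
              (by positivity) (by positivity)
            refine mul_le_mul_of_nonneg_right ?_ (by positivity)
            have := mul_le_mul_of_nonneg_right hxR h6
            linarith
        _ = _ := by ring
  rw [integral_congr_ae (Eventually.of_forall hG1)]
  have hsw := integral_integral_swap (μ := (volume : Measure E4)) (ν := volume.restrict (Ioo 0 t))
    (f := fun x s => (∫ z, K i (t - s) x z * f i s z * M.w i z) * (U x * M.w i x)) hint
  rw [hsw]
  refine setIntegral_congr_fun measurableSet_Ioo fun s hs => ?_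
  show ∫ x, (∫ z, K i (t - s) x z * f i s z * M.w i z) * (U x * M.w i x) = _
  -- second swap
  have hm2 : Measurable fun z : E4 × E4 => K i (t - s) z.1 z.2 * f i s z.2 * M.w i z.2 *
      (U z.1 * M.w i z.1) := by
    refine Measurable.mul (Measurable.mul (Measurable.mul ?_ ?_) ((w_cont M i).measurable.comp measurable_snd))
      ((hUm.comp measurable_fst).mul ((w_cont M i).measurable.comp measurable_fst))
    · have h2 : Measurable fun z : E4 × E4 => ((t - s, z.1, z.2) : ℝ × E4 × E4) := by fun_prop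
      exact (hK.1 i).comp h2
    · have h2 : Measurable fun z : E4 × E4 => ((s, z.2) : ℝ × E4) := by fun_prop
      exact (hf.1 i).comp h2
  have hint2 : Integrable (fun z : E4 × E4 => K i (t - s) z.1 z.2 * f i s z.2 * M.w i z.2 *
      (U z.1 * M.w i z.1)) ((volume : Measure E4).prod volume) := by
    have hbase : Integrable (fun z : E4 × E4 => Gam c' (t - s) (z.1 - z.2) * Gam c' s z.2)
        ((volume : Measure E4).prod volume) := by
      rw [integrable_prod_iff]
      · refine ⟨Eventually.of_forall fun x => integrable_conv hc' hs.1 hs.2 x, ?_⟩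
        have : ∀ x : E4, ∫ y, ‖Gam c' (t - s) (x - y) * Gam c' s y‖ = (Real.pi / c') ^ 2 * Gam c' t x := by
          intro x
          rw [← integral_conv hc' hs.1 hs.2 x]
          refine integral_congr_ae (Eventually.of_forall fun y => ?_)
          show ‖_‖ = _
          rw [Real.norm_of_nonneg (mul_nonneg (Gam_nonneg _ _ _) (Gam_nonneg _ _ _))]
        simp only [this]
        exact (integrable_Gam hc' ht.1).const_mul _
      · refine Measurable.aestronglyMeasurable ?_
        refine Measurable.mul ?_ ?_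
        · exact (continuous_Gam c' (t - s)).measurable.comp (measurable_fst.sub measurable_snd)
        · exact (continuous_Gam c' s).measurable.comp measurable_snd
    refine (hbase.const_mul ((C' * (1 + |R| * (Real.sqrt (t - s))⁻¹)) * (B * W))).mono'
      hm2.aestronglyMeasurable (Eventually.of_forall fun z => ?_)
    rw [Real.norm_eq_abs, abs_mul, abs_mul (U z.1)]
    have h6 : 0 ≤ (Real.sqrt (t - s))⁻¹ := by positivity
    have hG1 := Gam_nonneg c' (t - s) (z.1 - z.2)
    have hG2 := Gam_nonneg c' s z.2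
    by_cases hx : R ≤ ‖z.1‖
    · rw [hU0 z.1 hx]
      simp only [abs_zero, zero_mul, mul_zero]
      positivity
    · push Not at hx
      have hxR : ‖z.1‖ ≤ |R| := hx.le.trans (le_abs_self R)
      have h5 := h' i t ht s hs z.1 z.2
      rw [Real.rpow_zero, mul_one] at h5
      calc |K i (t - s) z.1 z.2 * f i s z.2 * M.w i z.2| * (|U z.1| * |M.w i z.1|)
          ≤ ((C' * (1 + |R| * (Real.sqrt (t - s))⁻¹)) * (Gam c' (t - s) (z.1 - z.2) * Gam c' s z.2))
              * (B * W) := by
            refine mul_le_mul (h5.trans ?_) (mul_le_mul (hB _) (hWb _ _) (abs_nonneg _) hB0)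
              (by positivity) (by positivity)
            refine mul_le_mul_of_nonneg_right (mul_le_mul_of_nonneg_left ?_ hC') (by positivity)
            have := mul_le_mul_of_nonneg_right hxR h6
            linarith
        _ = _ := by ring
  have e1 : ∀ x, (∫ z, K i (t - s) x z * f i s z * M.w i z) * (U x * M.w i x)
      = ∫ z, K i (t - s) x z * f i s z * M.w i z * (U x * M.w i x) := fun x => (integral_mul_const _ _).symm
  rw [integral_congr_ae (Eventually.of_forall e1)]
  have hsw2 := integral_integral_swap (μ := (volume : Measure E4)) (ν := (volume : Measure E4))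
    (f := fun x z => K i (t - s) x z * f i s z * M.w i z * (U x * M.w i x)) hint2
  rw [hsw2]
  refine integral_congr_ae (Eventually.of_forall fun z => ?_)
  show ∫ x, K i (t - s) x z * f i s z * M.w i z * (U x * M.w i x)
    = (∫ x, K i (t - s) x z * U x * M.w i x) * f i s z * M.w i z
  rw [mul_assoc, ← integral_mul_const]
  refine integral_congr_ae (Eventually.of_forall fun x => ?_)
  show _ = _
  ring

/-- time convolution with an exponential, iterated integral identity -/
theorem dt {B : ℝ → ℝ → ℝ} {C : ℝ} (hBm : Measurable fun z : ℝ × ℝ => B z.1 z.2)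
    (hB : ∀ s ∈ Ioc (0 : ℝ) 1, ∀ σ ∈ Ioc (0 : ℝ) 1, |B σ s| ≤ C * (1 + (Real.sqrt σ)⁻¹))
    {μ : ℝ} (hμ : 0 ≤ μ) {t : ℝ} (ht : t ∈ Ioc (0 : ℝ) 1) :
    ∫ s in Ioo 0 t, ∫ σ in Ioo 0 (t - s), Real.exp (-(μ * (t - s - σ))) * B σ s
      = ∫ r in Ioo 0 t, Real.exp (-(μ * (t - r))) * ∫ s in Ioo 0 r, B (r - s) s := by
  set S : Set (ℝ × ℝ) := {z | 0 < z.1 ∧ 0 < z.2 ∧ z.1 + z.2 < t} with hS
  have hSm : MeasurableSet S :=
    (measurableSet_lt measurable_const measurable_fst).inter
      ((measurableSet_lt measurable_const measurable_snd).inter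
        (measurableSet_lt (measurable_fst.add measurable_snd) measurable_const))
  set G : ℝ × ℝ → ℝ := S.indicator fun z => Real.exp (-(μ * (t - z.1 - z.2))) * B z.2 z.1 with hG
  have hC0 : 0 ≤ C := by
    have := (abs_nonneg _).trans (hB 1 ⟨one_pos, le_rfl⟩ 1 ⟨one_pos, le_rfl⟩)
    simp at this
    linarith
  have hm0 : Measurable fun z : ℝ × ℝ => Real.exp (-(μ * (t - z.1 - z.2))) * B z.2 z.1 := by
    refine Measurable.mul (by fun_prop) ?_
    have h2 : Measurable fun z : ℝ × ℝ => ((z.2, z.1) : ℝ × ℝ) := by fun_prop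
    exact hBm.comp h2
  have hGm : Measurable G := hm0.indicator hSm
  have hGi : Integrable G ((volume : Measure ℝ).prod volume) := by
    have h1 : Integrable ((Ioo 0 t).indicator fun _ : ℝ => (1 : ℝ)) :=
      (integrable_indicator_iff measurableSet_Ioo).2 (integrableOn_const (by simp))
    have h2 : Integrable ((Ioo 0 t).indicator fun s : ℝ => C * (1 + (Real.sqrt s)⁻¹)) :=
      (integrable_indicator_iff measurableSet_Ioo).2 ((int_w ht.1).const_mul C)
    refine (h1.mul_prod h2).mono' hGm.aestronglyMeasurable (Eventually.of_forall fun z => ?_)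
    by_cases hz : z ∈ S
    · have hz1 : z.1 ∈ Ioo 0 t := ⟨hz.1, by linarith [hz.2.1, hz.2.2]⟩
      have hz2 : z.2 ∈ Ioo 0 t := ⟨hz.2.1, by linarith [hz.1, hz.2.2]⟩
      rw [hG, indicator_of_mem hz, indicator_of_mem hz1, indicator_of_mem hz2, one_mul, norm_mul,
        Real.norm_eq_abs, Real.norm_eq_abs, abs_of_pos (Real.exp_pos _)]
      have h3 : Real.exp (-(μ * (t - z.1 - z.2))) ≤ 1 := by
        rw [Real.exp_le_one_iff]
        have : 0 ≤ μ * (t - z.1 - z.2) := mul_nonneg hμ (by linarith [hz.2.2])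
        linarith
      have h4 := hB z.1 ⟨hz1.1, hz1.2.le.trans ht.2⟩ z.2 ⟨hz2.1, hz2.2.le.trans ht.2⟩
      calc _ ≤ 1 * |B z.2 z.1| := mul_le_mul_of_nonneg_right h3 (abs_nonneg _)
        _ ≤ _ := by rw [one_mul]; exact h4
    · rw [hG, indicator_of_notMem hz, norm_zero]
      refine mul_nonneg ?_ ?_
      · exact indicator_nonneg (fun _ _ => zero_le_one) _
      · refine indicator_nonneg (fun s _ => ?_) _
        positivity
  have hmp := measurePreserving_prod_sub (volume : Measure ℝ) (volume : Measure ℝ)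
  have hGi2 : Integrable (fun z : ℝ × ℝ => G (z.1, z.2 - z.1)) ((volume : Measure ℝ).prod volume) :=
    hmp.integrable_comp_of_integrable hGi
  have hL : ∫ s in Ioo 0 t, ∫ σ in Ioo 0 (t - s), Real.exp (-(μ * (t - s - σ))) * B σ s
      = ∫ s, ∫ σ, G (s, σ) := by
    rw [← integral_indicator measurableSet_Ioo]
    refine integral_congr_ae (Eventually.of_forall fun s => ?_)
    by_cases hs : s ∈ Ioo 0 t
    · show indicator _ _ s = _
      rw [indicator_of_mem hs, ← integral_indicator measurableSet_Ioo]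
      refine integral_congr_ae (Eventually.of_forall fun σ => ?_)
      by_cases hσ : σ ∈ Ioo 0 (t - s)
      · have h1 : (s, σ) ∈ S := ⟨hs.1, hσ.1, by linarith [hσ.2]⟩
        show indicator _ _ σ = G (s, σ)
        rw [indicator_of_mem hσ, hG, indicator_of_mem h1]
      · have h1 : (s, σ) ∉ S := fun h => hσ ⟨h.2.1, by linarith [h.2.2]⟩
        show indicator _ _ σ = G (s, σ)
        rw [indicator_of_notMem hσ, hG, indicator_of_notMem h1]
    · show indicator _ _ s = _
      rw [indicator_of_notMem hs]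
      have h1 : ∀ σ, G (s, σ) = 0 := by
        intro σ
        rw [hG, indicator_of_notMem]
        intro h
        exact hs ⟨h.1, by linarith [h.2.1, h.2.2]⟩
      simp [h1]
  have hR : ∫ r in Ioo 0 t, Real.exp (-(μ * (t - r))) * ∫ s in Ioo 0 r, B (r - s) s
      = ∫ r, ∫ s, G (s, r - s) := by
    rw [← integral_indicator measurableSet_Ioo]
    refine integral_congr_ae (Eventually.of_forall fun r => ?_)
    by_cases hr : r ∈ Ioo 0 t
    · show indicator _ _ r = _
      rw [indicator_of_mem hr, ← integral_const_mul, ← integral_indicator measurableSet_Ioo]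
      refine integral_congr_ae (Eventually.of_forall fun s => ?_)
      by_cases hs : s ∈ Ioo 0 r
      · have h1 : (s, r - s) ∈ S := ⟨hs.1, by simpa using hs.2, by simpa using hr.2⟩
        show indicator _ _ s = G (s, r - s)
        rw [indicator_of_mem hs, hG, indicator_of_mem h1]
        show _ = Real.exp (-(μ * (t - s - (r - s)))) * _
        congr 3
        ring
      · have h1 : (s, r - s) ∉ S := fun h => hs ⟨h.1, by simpa using h.2.1⟩
        show indicator _ _ s = G (s, r - s)
        rw [indicator_of_notMem hs, hG, indicator_of_notMem h1]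
    · show indicator _ _ r = _
      rw [indicator_of_notMem hr]
      have h1 : ∀ s, G (s, r - s) = 0 := by
        intro s
        rw [hG, indicator_of_notMem]
        intro h
        have h2 : 0 < s := h.1
        have h3 : 0 < r - s := h.2.1
        have h4 : s + (r - s) < t := h.2.2
        exact hr ⟨by linarith, by linarith⟩
      simp [h1]
  rw [hL, hR]
  have e1 : ∀ s : ℝ, ∫ σ, G (s, σ) = ∫ r, G (s, r - s) := fun s =>
    (integral_sub_right_eq_self (fun σ => G (s, σ)) s).symm
  simp only [e1]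
  exact integral_integral_swap (f := fun s r => G (s, r - s)) hGi2

end Crest.Agent.R249.HK5_905
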