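import Crest.Agent.R249.HKCal_286

/-!
# Row 249, PART C, leaf HK6 (helper286): the comparison statement `CmpStmt` from `Cal`, `InpM`, `InpD`.
-/

set_option autoImplicit false
set_option linter.unusedSectionVars false
open scoped ContDiff
open MeasureTheory Set Metric

namespace Crest.Agent.R249.HK286

section basic
variable {ι : Type*} {M : Met ι}

theorem star0_congr {K K' : ι → ℝ → E4 → E4 → ℝ} {f g : ι → ℝ → E4 → ℝ} {i : ι} {t : ℝ} {x : E4}
    (hK : ∀ s ∈ Ioo 0 t, ∀ z, K i s x z = K' i s x z) (h : ∀ s ∈ Ioo 0 t, ∀ z, f i s z = g i s z) :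
    M.star0 K f i t x = M.star0 K' g i t x := by
  unfold Met.star0
  refine setIntegral_congr_fun measurableSet_Ioo fun s hs => ?_
  have h1 : ∀ z, K i (t - s) x z = K' i (t - s) x z :=
    hK (t - s) ⟨by linarith [hs.2], by linarith [hs.1]⟩
  simp only [h s hs, h1]

theorem star0_mul_left (φ : ι → E4 → ℝ) (K : ι → ℝ → E4 → E4 → ℝ) (f : ι → ℝ → E4 → ℝ) (i : ι) (t : ℝ)
    (x : E4) : M.star0 (fun i t x z => φ i x * K i t x z) f i t x = φ i x * M.star0 K f i t x := by
  unfold Met.star0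
  rw [← integral_const_mul]
  refine integral_congr_ae (Filter.Eventually.of_forall fun s => ?_)
  simp only
  rw [← integral_const_mul]
  refine integral_congr_ae (Filter.Eventually.of_forall fun z => ?_)
  simp only
  ring

theorem star0_smul (C : ℝ) (K : ι → ℝ → E4 → E4 → ℝ) (f : ι → ℝ → E4 → ℝ) (i : ι) (t : ℝ) (x : E4) :
    M.star0 K (fun i t x => C * f i t x) i t x = C * M.star0 K f i t x := by
  unfold Met.star0
  rw [← integral_const_mul]
  refine integral_congr_ae (Filter.Eventually.of_forall fun s => ?_)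
  simp only
  rw [← integral_const_mul]
  refine integral_congr_ae (Filter.Eventually.of_forall fun z => ?_)
  simp only
  ring

theorem star0_smul_left (C : ℝ) (K : ι → ℝ → E4 → E4 → ℝ) (f : ι → ℝ → E4 → ℝ) (i : ι) (t : ℝ) (x : E4) :
    M.star0 (fun i t x z => C * K i t x z) f i t x = C * M.star0 K f i t x :=
  star0_mul_left (fun _ _ => C) K f i t x

theorem star0_zero_left (f : ι → ℝ → E4 → ℝ) (i : ι) (t : ℝ) (x : E4) :
    M.star0 (fun _ _ _ _ => 0) f i t x = 0 := by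
  simp [Met.star0]

theorem star0_zero_right (K : ι → ℝ → E4 → E4 → ℝ) (i : ι) (t : ℝ) (x : E4) :
    M.star0 K (fun _ _ _ => 0) i t x = 0 := by
  simp [Met.star0]

theorem vb_zero (a : ℝ) : VB a (fun (_ : ι) (_ : ℝ) (_ : E4) => (0 : ℝ)) :=
  ⟨fun _ => measurable_const, 0, 1, le_rfl, one_pos, fun i t _ x => by simp⟩

theorem kw_zero : KW (fun (_ : ι) (_ : ℝ) (_ _ : E4) => (0 : ℝ)) :=
  ⟨fun _ => measurable_const, 0, 1, le_rfl, one_pos, fun i t _ x z => by simp⟩

variable (hC : Cal M)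
include hC

theorem Cal.vb_sub {a : ℝ} {f g : ι → ℝ → E4 → ℝ} (hf : VB a f) (hg : VB a g) :
    VB a (fun i t x => f i t x - g i t x) := by
  have := hC.vb_add a f _ hf (hC.vb_smul a (-1) g hg)
  simpa [sub_eq_add_neg] using this

theorem Cal.vb_neg {a : ℝ} {g : ι → ℝ → E4 → ℝ} (hg : VB a g) : VB a (fun i t x => -g i t x) := by
  simpa using hC.vb_smul a (-1) g hg

theorem Cal.vb_sum {a : ℝ} {α : Type*} (s : Finset α) {f : α → ι → ℝ → E4 → ℝ}
    (h : ∀ b ∈ s, VB a (f b)) : VB a (fun i t x => ∑ b ∈ s, f b i t x) := by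
  classical
  induction s using Finset.induction_on with
  | empty => simpa using vb_zero a
  | insert b s hb ih =>
    have h1 := hC.vb_add a _ _ (h b (Finset.mem_insert_self b s))
      (ih fun b' hb' => h b' (Finset.mem_insert_of_mem hb'))
    simpa [Finset.sum_insert hb] using h1

theorem Cal.star0_sum_right {α : Type*} (s : Finset α) {K : ι → ℝ → E4 → E4 → ℝ}
    {f : α → ι → ℝ → E4 → ℝ} (hK : KW K) (h : ∀ b ∈ s, VB 0 (f b)) {i : ι} {t : ℝ}
    (ht : t ∈ Ioc (0 : ℝ) 1) (x : E4) :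
    M.star0 K (fun i t x => ∑ b ∈ s, f b i t x) i t x = ∑ b ∈ s, M.star0 K (f b) i t x := by
  classical
  induction s using Finset.induction_on with
  | empty => simpa using star0_zero_right K i t x
  | insert b s hb ih =>
    have h1 := hC.star0_add_right K (f b) (fun i t x => ∑ b ∈ s, f b i t x) hK
      (h b (Finset.mem_insert_self b s))
      (hC.vb_sum s fun b' hb' => h b' (Finset.mem_insert_of_mem hb')) i t ht x
    simp only [Finset.sum_insert hb]
    rw [h1, ih fun b' hb' => h b' (Finset.mem_insert_of_mem hb')]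

theorem Cal.star0_sub_right {K : ι → ℝ → E4 → E4 → ℝ} {f g : ι → ℝ → E4 → ℝ} (hK : KW K) (hf : VB 0 f)
    (hg : VB 0 g) {i : ι} {t : ℝ} (ht : t ∈ Ioc (0 : ℝ) 1) (x : E4) :
    M.star0 K (fun i t x => f i t x - g i t x) i t x = M.star0 K f i t x - M.star0 K g i t x := by
  have h1 := hC.star0_add_right K f (fun i t x => (-1) * g i t x) hK hf (hC.vb_smul 0 (-1) g hg) i t ht x
  rw [star0_smul] at h1
  have h2 : M.star0 K (fun i t x => f i t x - g i t x) i t x
      = M.star0 K (fun i t x => f i t x + (-1) * g i t x) i t x := by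
    refine star0_congr (fun _ _ _ => rfl) fun s _ z => ?_
    ring
  rw [h2, h1]; ring

end basic

section main
variable {ι : Type*} {M : Met ι} {κ : Type} [Fintype κ] [DecidableEq κ] {R : ℝ}

/-- the scalar kernel `h = H_1(·,0)` -/
noncomputable def h1 (M : Met ι) (c : Cut R) (i : ι) (t : ℝ) (x : E4) : ℝ := M.HH c 1 i t x 0
/-- the scalar error `e_1(·,0)` -/
noncomputable def E1 (M : Met ι) (c : Cut R) (i : ι) (t : ℝ) (x : E4) : ℝ := M.e0 c 1 i t x 0
/-- matrix part of the error kernels -/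
noncomputable def Con.ep (D : Con M κ) (c : Cut R) (m : ℕ) (p q : κ) (i : ι) (t : ℝ) (x z : E4) : ℝ :=
  D.sk c m i t x z p q + D.sy c m i t x z p q
noncomputable def Con.ep1 (D : Con M κ) (c : Cut R) (p q : κ) (i : ι) (t : ℝ) (x : E4) : ℝ :=
  D.ep c 1 p q i t x 0
/-- `sk_1 - a a H_1` at `z = 0` -/
noncomputable def Con.re (D : Con M κ) (c : Cut R) (p q : κ) (i : ι) (t : ℝ) (x : E4) : ℝ :=
  D.sk c 1 i t x 0 p q - D.aa i x p q * h1 M c i t x
/-- `P_{pq} H_1` -/
noncomputable def Con.ph (D : Con M κ) (c : Cut R) (p q : κ) (i : ι) (t : ℝ) (x : E4) : ℝ :=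
  D.P i p q x * h1 M c i t x
/-- scalar kernel `k0` -/
noncomputable def k0 (M : Met ι) (c : Cut R) (i : ι) (t : ℝ) (x : E4) : ℝ :=
  h1 M c i t x - M.star0 (M.HH c 2) (E1 M c) i t x
    + M.star0 (M.HH c 3) (M.star0 (M.e0 c 2) (E1 M c)) i t x
noncomputable def Con.Ac (D : Con M κ) (c : Cut R) (p q : κ) : ι → ℝ → E4 → ℝ :=
  M.star0 (M.e0 c 2) (D.ep1 c p q)
noncomputable def Con.Bc (D : Con M κ) (c : Cut R) (p q : κ) : ι → ℝ → E4 → ℝ :=
  M.star0 (D.ep c 2 p q) (E1 M c)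
noncomputable def Con.Cc (D : Con M κ) (c : Cut R) (p q : κ) (i : ι) (t : ℝ) (x : E4) : ℝ :=
  ∑ r, M.star0 (D.ep c 2 p r) (D.ep1 c r q) i t x
noncomputable def Con.dd (D : Con M κ) (c : Cut R) (p q : κ) (i : ι) (t : ℝ) (x : E4) : ℝ :=
  -M.star0 (M.HH c 2) (D.ep1 c p q) i t x
    + M.star0 (M.HH c 3) (fun i t x => D.Ac c p q i t x + D.Bc c p q i t x + D.Cc c p q i t x) i t x

variable {c : Cut R} {D : Con M κ} (hC : Cal M) (hM : InpM M c) (hD : InpD c D)
include hC hM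

theorem vb_h1 : VB 0 (h1 M c) := hM.h0 1
theorem vb_E1 : VB 0 (E1 M c) := hM.e1
theorem kw_HH (m : ℕ) : KW (M.HH c m) := hC.kb_kw _ (hM.HH m)

include hD

theorem kw_ep (m : ℕ) (p q : κ) : KW (D.ep c m p q) := by
  have h2 : KW (fun i t x z => (D.P i p q x - D.aa i x p q) * M.HH c m i t x z) := by
    refine hC.kw_mul _ (fun i x => D.P i p q x - D.aa i x p q) (fun i => (hD.Pm p q i).sub (hD.aam p q i)) ?_
      (kw_HH hC hM m)
    obtain ⟨C1, h1⟩ := hD.Pb p q
    obtain ⟨C2, h2⟩ := hD.aab p q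
    exact ⟨C1 + C2, fun i x => (abs_sub _ _).trans (add_le_add (h1 i x) (h2 i x))⟩
  have h3 := hC.kw_add _ _ (hD.sk m p q) h2
  have h4 : D.ep c m p q = fun i t x z => D.sk c m i t x z p q + (D.P i p q x - D.aa i x p q) * M.HH c m i t x z := by
    funext i t x z
    simp only [Con.ep, Con.sy]; ring
  rw [h4]; exact h3

theorem vb_ph (p q : κ) : VB 0 (D.ph c p q) := by
  obtain ⟨C1, h1'⟩ := hD.Pb p q
  have := hC.vb_mul 0 0 (fun i x => D.P i p q x) (h1 M c) (fun i => hD.Pm p q i) ⟨C1, by simpa using h1'⟩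
    (vb_h1 hC hM)
  have h2 : D.ph c p q = fun i t x => D.P i p q x * h1 M c i t x := rfl
  rw [h2]
  simpa using this

theorem vb_re (p q : κ) : VB (1 / 2) (D.re c p q) := by
  obtain ⟨C1, h1'⟩ := hD.aa2 p q
  have h2 := hC.vb_mul 0 2 (fun i x => D.aa i x p q) (h1 M c) (fun i => hD.aam p q i) ⟨C1, by simpa using h1'⟩
    (vb_h1 hC hM)
  have h3 := hC.vb_mono (0 + (2 : ℕ) / 2) (1 / 2) _ (by norm_num) h2
  exact hC.vb_sub (hD.sk0 p q) h3

theorem ep1_eq (p q : κ) (i : ι) (t : ℝ) (x : E4) :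
    D.ep1 c p q i t x = D.ph c p q i t x + D.re c p q i t x := by
  simp only [Con.ep1, Con.ep, Con.sy, Con.ph, Con.re, h1]; ring

theorem vb_re0 (p q : κ) : VB 0 (D.re c p q) := hC.vb_mono _ _ _ (by norm_num) (vb_re hC hM hD p q)

theorem vb_ep1 (p q : κ) : VB 0 (D.ep1 c p q) := by
  have h := hC.vb_add 0 _ _ (vb_ph hC hM hD p q) (vb_re0 hC hM hD p q)
  have h2 : D.ep1 c p q = fun i t x => D.ph c p q i t x + D.re c p q i t x := by
    funext i t x; exact ep1_eq hC hM hD p q i t x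
  rw [h2]; exact h

theorem vb_f1 (p q : κ) : VB 0 (fun i t x => D.f1 c i t x p q) := by
  have h2 : (fun i t x => D.f1 c i t x p q) = fun i t x => (if p = q then 1 else 0) * E1 M c i t x + D.ep1 c p q i t x := by
    funext i t x
    simp only [Con.f1, Con.eM, E1, Con.ep1, Con.ep]
    split_ifs <;> ring
  rw [h2]
  exact hC.vb_add 0 _ _ (hC.vb_smul 0 _ _ (vb_E1 hC hM)) (vb_ep1 hC hM hD p q)

theorem kw_eM (m : ℕ) (p q : κ) : KW (fun i t x z => D.eM c m i t x z p q) := by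
  have h2 : (fun i t x z => D.eM c m i t x z p q) = fun i t x z => (if p = q then 1 else 0) * M.e0 c m i t x z + D.ep c m p q i t x z := by
    funext i t x z
    simp only [Con.eM, Con.ep]
    split_ifs <;> ring
  rw [h2]
  refine hC.kw_add _ _ ?_ (kw_ep hC hM hD m p q)
  exact hC.kw_mul _ (fun _ _ => if p = q then 1 else 0) (fun _ => measurable_const) ⟨1, fun i x => by split_ifs <;> simp⟩ (hM.e0 m)

theorem vb_f2 (p q : κ) : VB 1 (fun i t x => D.f2 c i t x p q) := by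
  have := hC.star_vb 0 (D.eM c 2) (D.f1 c) le_rfl (kw_eM hC hM hD 2) (vb_f1 hC hM hD) p q
  simpa [Con.f2] using this

theorem vb_A (p q : κ) : VB 1 (D.Ac c p q) := by
  simpa [Con.Ac] using hC.star0_vb 0 _ _ le_rfl (hM.e0 2) (vb_ep1 hC hM hD p q)
theorem vb_B (p q : κ) : VB 1 (D.Bc c p q) := by
  simpa [Con.Bc] using hC.star0_vb 0 _ _ le_rfl (kw_ep hC hM hD 2 p q) (vb_E1 hC hM)
theorem vb_C (p q : κ) : VB 1 (D.Cc c p q) := by
  refine hC.vb_sum Finset.univ fun r _ => ?_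
  simpa using hC.star0_vb 0 _ _ le_rfl (kw_ep hC hM hD 2 p r) (vb_ep1 hC hM hD r q)

theorem vb10 {f : ι → ℝ → E4 → ℝ} (h : VB 1 f) : VB 0 f := hC.vb_mono _ _ _ (by norm_num) h

/-- expansion of `f²` -/
theorem f2_eq {i : ι} {t : ℝ} (ht : t ∈ Ioc (0 : ℝ) 1) (x : E4) (p q : κ) :
    D.f2 c i t x p q = (if p = q then 1 else 0) * M.star0 (M.e0 c 2) (E1 M c) i t x
      + (D.Ac c p q i t x + D.Bc c p q i t x + D.Cc c p q i t x) := by
  have e1 := hC.star_eq (D.eM c 2) (D.f1 c) (kw_eM hC hM hD 2) (vb_f1 hC hM hD) i t ht x p q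
  have e2 : ∀ r, M.star0 (fun i t x z => D.eM c 2 i t x z p r) (fun i t x => D.f1 c i t x r q) i t x
      = (if p = r then 1 else 0) * (M.star0 (M.e0 c 2) (fun i t x => D.f1 c i t x r q) i t x)
        + ((if r = q then 1 else 0) * M.star0 (D.ep c 2 p r) (E1 M c) i t x
          + M.star0 (D.ep c 2 p r) (D.ep1 c r q) i t x) := by
    intro r
    have s1 : M.star0 (fun i t x z => D.eM c 2 i t x z p r) (fun i t x => D.f1 c i t x r q) i t x
        = M.star0 (fun i t x z => (if p = r then 1 else 0) * M.e0 c 2 i t x z + D.ep c 2 p r i t x z)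
          (fun i t x => D.f1 c i t x r q) i t x := by
      refine star0_congr (fun s _ z => ?_) fun s _ z => rfl
      simp only [Con.eM, Con.ep]
      split_ifs <;> ring
    have hk : KW (fun i t x z => (if p = r then 1 else 0) * M.e0 c 2 i t x z) :=
      hC.kw_mul _ (fun _ _ => if p = r then 1 else 0) (fun _ => measurable_const)
        ⟨1, fun i x => by split_ifs <;> simp⟩ (hM.e0 2)
    rw [s1, hC.star0_add_left _ _ _ hk (kw_ep hC hM hD 2 p r) (vb_f1 hC hM hD r q) i t ht x,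
      star0_smul_left]
    congr 1
    have s2 : M.star0 (D.ep c 2 p r) (fun i t x => D.f1 c i t x r q) i t x
        = M.star0 (D.ep c 2 p r) (fun i t x => (if r = q then 1 else 0) * E1 M c i t x + D.ep1 c r q i t x) i t x := by
      refine star0_congr (fun s _ z => rfl) fun s _ z => ?_
      simp only [Con.f1, Con.eM, E1, Con.ep1, Con.ep]
      split_ifs <;> ring
    rw [s2, hC.star0_add_right _ _ _ (kw_ep hC hM hD 2 p r) (hC.vb_smul 0 _ _ (vb_E1 hC hM))
      (vb_ep1 hC hM hD r q) i t ht x, star0_smul]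
  have e3 : M.star0 (M.e0 c 2) (fun i t x => D.f1 c i t x p q) i t x
      = (if p = q then 1 else 0) * M.star0 (M.e0 c 2) (E1 M c) i t x + D.Ac c p q i t x := by
    have s2 : M.star0 (M.e0 c 2) (fun i t x => D.f1 c i t x p q) i t x
        = M.star0 (M.e0 c 2) (fun i t x => (if p = q then 1 else 0) * E1 M c i t x + D.ep1 c p q i t x) i t x := by
      refine star0_congr (fun s _ z => rfl) fun s _ z => ?_
      simp only [Con.f1, Con.eM, E1, Con.ep1, Con.ep]
      split_ifs <;> ring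
    rw [s2, hC.star0_add_right _ _ _ (hM.e0 2) (hC.vb_smul 0 _ _ (vb_E1 hC hM))
      (vb_ep1 hC hM hD p q) i t ht x, star0_smul]
    rfl
  rw [Con.f2, e1]
  simp only [e2, Finset.sum_add_distrib]
  have e4 : ∑ r, (if p = r then (1 : ℝ) else 0) * (M.star0 (M.e0 c 2) (fun i t x => D.f1 c i t x r q) i t x)
      = M.star0 (M.e0 c 2) (fun i t x => D.f1 c i t x p q) i t x := by
    simp [ite_mul]
  have e5 : ∑ r, (if r = q then (1 : ℝ) else 0) * M.star0 (D.ep c 2 p r) (E1 M c) i t x = D.Bc c p q i t x := by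
    simp [ite_mul, Con.Bc]
  rw [e4, e5, e3]
  simp only [Con.Cc]
  ring

/-- `star` with a scalar kernel -/
theorem star_sc {K : ι → ℝ → E4 → E4 → ℝ} (hK : KW K) {f : ι → ℝ → E4 → κ → κ → ℝ}
    (hf : ∀ r q, VB 0 fun i t x => f i t x r q) {i : ι} {t : ℝ} (ht : t ∈ Ioc (0 : ℝ) 1) (x : E4) (p q : κ) :
    M.star (sc K) f i t x p q = M.star0 K (fun i t x => f i t x p q) i t x := by
  have hk : ∀ p r : κ, KW (fun i t x z => (sc K : ι → ℝ → E4 → E4 → κ → κ → ℝ) i t x z p r) := by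
    intro p r
    by_cases h : p = r
    · simpa [sc, h] using hK
    · simpa [sc, h] using (kw_zero : KW (fun (_ : ι) (_ : ℝ) (_ _ : E4) => (0 : ℝ)))
  rw [hC.star_eq (sc K) f hk hf i t ht x p q]
  rw [Finset.sum_eq_single p]
  · refine star0_congr (fun s _ z => ?_) fun s _ z => rfl
    simp [sc]
  · intro r _ hr
    have : M.star0 (fun i t x z => (sc K : ι → ℝ → E4 → E4 → κ → κ → ℝ) i t x z p r) (fun i t x => f i t x r q) i t x
        = M.star0 (fun _ _ _ _ => 0) (fun i t x => f i t x r q) i t x := by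
      refine star0_congr (fun s _ z => ?_) fun s _ z => rfl
      simp [sc, Ne.symm hr]
    rw [this, star0_zero_left]
  · intro h; exact absurd (Finset.mem_univ p) h

/-- `k = k0 1 + d` -/
theorem kk_eq {i : ι} {t : ℝ} (ht : t ∈ Ioc (0 : ℝ) 1) (x : E4) (p q : κ) :
    D.kk c i t x p q = (if p = q then 1 else 0) * k0 M c i t x + D.dd c p q i t x := by
  have hf2 : ∀ r q, VB 0 fun i t x => D.f2 c i t x r q := fun r q => vb10 hC hM hD (vb_f2 hC hM hD r q)
  have a1 := star_sc hC hM hD (i := i) (kw_HH hC hM 2) (vb_f1 hC hM hD) ht x p q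
  have a2 := star_sc hC hM hD (i := i) (kw_HH hC hM 3) hf2 ht x p q
  have hE : VB 0 (M.star0 (M.e0 c 2) (E1 M c)) := by
    have := hC.star0_vb 0 _ _ le_rfl (hM.e0 2) (vb_E1 hC hM)
    exact vb10 hC hM hD (by simpa using this)
  have hA := vb10 hC hM hD (vb_A hC hM hD p q)
  have hB := vb10 hC hM hD (vb_B hC hM hD p q)
  have hCc := vb10 hC hM hD (vb_C hC hM hD p q)
  have b1 : M.star0 (M.HH c 2) (fun i t x => D.f1 c i t x p q) i t x
      = (if p = q then 1 else 0) * M.star0 (M.HH c 2) (E1 M c) i t x + M.star0 (M.HH c 2) (D.ep1 c p q) i t x := by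
    have s2 : M.star0 (M.HH c 2) (fun i t x => D.f1 c i t x p q) i t x
        = M.star0 (M.HH c 2) (fun i t x => (if p = q then 1 else 0) * E1 M c i t x + D.ep1 c p q i t x) i t x := by
      refine star0_congr (fun s _ z => rfl) fun s _ z => ?_
      simp only [Con.f1, Con.eM, E1, Con.ep1, Con.ep]
      split_ifs <;> ring
    rw [s2, hC.star0_add_right _ _ _ (kw_HH hC hM 2) (hC.vb_smul 0 _ _ (vb_E1 hC hM))
      (vb_ep1 hC hM hD p q) i t ht x, star0_smul]
  have b2 : M.star0 (M.HH c 3) (fun i t x => D.f2 c i t x p q) i t x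
      = (if p = q then 1 else 0) * M.star0 (M.HH c 3) (M.star0 (M.e0 c 2) (E1 M c)) i t x
        + M.star0 (M.HH c 3) (fun i t x => D.Ac c p q i t x + D.Bc c p q i t x + D.Cc c p q i t x) i t x := by
    have s2 : M.star0 (M.HH c 3) (fun i t x => D.f2 c i t x p q) i t x
        = M.star0 (M.HH c 3) (fun i t x => (if p = q then 1 else 0) * M.star0 (M.e0 c 2) (E1 M c) i t x
            + (D.Ac c p q i t x + D.Bc c p q i t x + D.Cc c p q i t x)) i t x := by
      refine star0_congr (fun s _ z => rfl) fun s hs z => ?_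
      exact f2_eq hC hM hD ⟨hs.1, hs.2.le.trans ht.2⟩ z p q
    rw [s2, hC.star0_add_right _ _ _ (kw_HH hC hM 3) (hC.vb_smul 0 _ _ hE)
      (hC.vb_add 0 _ _ (hC.vb_add 0 _ _ hA hB) hCc) i t ht x, star0_smul]
  unfold Con.kk
  rw [a1, a2, b1, b2]
  simp only [k0, Con.dd, h1]
  split_ifs <;> ring

/-! ### the trace of `d` -/

/-- trace of the potential -/
noncomputable def Con.tp (D : Con M κ) (i : ι) (x : E4) : ℝ := ∑ p, D.P i p p x
/-- trace of `a a` -/
noncomputable def Con.ta (D : Con M κ) (i : ι) (x : E4) : ℝ := ∑ p, D.aa i x p p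

omit hC hM hD in
/-- the part of `tr d` which only depends on `tr P` -/
noncomputable def UU (M : Met ι) (c : Cut R) (φ : ι → E4 → ℝ) (i : ι) (t : ℝ) (x : E4) : ℝ :=
  -M.star0 (M.HH c 2) (fun i t x => φ i x * h1 M c i t x) i t x
    + M.star0 (M.HH c 3) (fun i t x => M.star0 (M.e0 c 2) (fun i t x => φ i x * h1 M c i t x) i t x
        + φ i x * M.star0 (M.HH c 2) (E1 M c) i t x) i t x

omit hC hM hD in
noncomputable def Con.Q1 (D : Con M κ) (c : Cut R) (i : ι) (t : ℝ) (x : E4) : ℝ :=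
  ∑ p, ∑ r, D.P i p r x * M.star0 (M.HH c 2) (D.ph c r p) i t x

omit hC hM hD in
noncomputable def Con.Q2 (D : Con M κ) (c : Cut R) (i : ι) (t : ℝ) (x : E4) : ℝ :=
  (∑ p, ∑ r, M.star0 (D.ep c 2 p r) (D.re c r p) i t x)
    - ∑ p, ∑ r, D.aa i x p r * M.star0 (M.HH c 2) (D.ph c r p) i t x

omit hC hM hD in
noncomputable def Con.rem (D : Con M κ) (c : Cut R) (i : ι) (t : ℝ) (x : E4) : ℝ :=
  -M.star0 (M.HH c 3) (M.star0 (M.e0 c 2) (fun i t x => D.ta i x * h1 M c i t x)) i t x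
    - M.star0 (M.HH c 3) (fun i t x => D.ta i x * M.star0 (M.HH c 2) (E1 M c) i t x) i t x
    + M.star0 (M.HH c 3) (D.Q2 c) i t x

theorem sum_sk {i : ι} {t : ℝ} (x : E4) :
    ∑ p, ∑ r, M.star0 (fun i t x z => D.sk c 2 i t x z p r) (D.ph c r p) i t x = 0 := by
  have h1 : ∀ p r, M.star0 (fun i t x z => D.sk c 2 i t x z p r) (D.ph c r p) i t x
      = -M.star0 (fun i t x z => D.sk c 2 i t x z r p) (D.ph c p r) i t x := by
    intro p r
    have e1 : M.star0 (fun i t x z => D.sk c 2 i t x z p r) (D.ph c r p) i t x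
        = M.star0 (fun i t x z => (-1) * D.sk c 2 i t x z r p) (D.ph c p r) i t x := by
      refine star0_congr (fun s _ z => ?_) fun s _ z => ?_
      · rw [hD.skew 2 i s x z p r]; ring
      · simp only [Con.ph, D.Psymm i r p z]
    rw [e1, star0_smul_left]; ring
  have h2 : ∑ p, ∑ r, M.star0 (fun i t x z => D.sk c 2 i t x z p r) (D.ph c r p) i t x
      = -∑ p, ∑ r, M.star0 (fun i t x z => D.sk c 2 i t x z p r) (D.ph c r p) i t x := by
    conv_lhs => rw [Finset.sum_comm]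
    simp only [← Finset.sum_neg_distrib]
    refine Finset.sum_congr rfl fun p _ => Finset.sum_congr rfl fun r _ => ?_
    exact h1 r p
  linarith

theorem Cc_tr {i : ι} {t : ℝ} (ht : t ∈ Ioc (0 : ℝ) 1) (x : E4) :
    ∑ p, D.Cc c p p i t x = D.Q1 c i t x + D.Q2 c i t x := by
  have e1 : ∀ p r, M.star0 (D.ep c 2 p r) (D.ep1 c r p) i t x
      = M.star0 (fun i t x z => D.sk c 2 i t x z p r) (D.ph c r p) i t x
        + (D.P i p r x * M.star0 (M.HH c 2) (D.ph c r p) i t x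
          - D.aa i x p r * M.star0 (M.HH c 2) (D.ph c r p) i t x)
        + M.star0 (D.ep c 2 p r) (D.re c r p) i t x := by
    intro p r
    have s1 : M.star0 (D.ep c 2 p r) (D.ep1 c r p) i t x
        = M.star0 (D.ep c 2 p r) (fun i t x => D.ph c r p i t x + D.re c r p i t x) i t x := by
      refine star0_congr (fun s _ z => rfl) fun s _ z => ?_
      exact ep1_eq hC hM hD r p i s z
    rw [s1, hC.star0_add_right _ _ _ (kw_ep hC hM hD 2 p r) (vb_ph hC hM hD r p)
      (vb_re0 hC hM hD r p) i t ht x]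
    congr 1
    have s2 : M.star0 (D.ep c 2 p r) (D.ph c r p) i t x
        = M.star0 (fun i t x z => D.sk c 2 i t x z p r
            + (D.P i p r x - D.aa i x p r) * M.HH c 2 i t x z) (D.ph c r p) i t x := by
      refine star0_congr (fun s _ z => ?_) fun s _ z => rfl
      simp only [Con.ep, Con.sy]; ring
    have hk : KW (fun i t x z => (D.P i p r x - D.aa i x p r) * M.HH c 2 i t x z) := by
      refine hC.kw_mul _ (fun i x => D.P i p r x - D.aa i x p r)
        (fun i => (hD.Pm p r i).sub (hD.aam p r i)) ?_ (kw_HH hC hM 2)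
      obtain ⟨C1, h1⟩ := hD.Pb p r
      obtain ⟨C2, h2⟩ := hD.aab p r
      exact ⟨C1 + C2, fun i x => (abs_sub _ _).trans (add_le_add (h1 i x) (h2 i x))⟩
    rw [s2, hC.star0_add_left _ _ _ (hD.sk 2 p r) hk (vb_ph hC hM hD r p) i t ht x]
    congr 1
    rw [star0_mul_left (fun i x => D.P i p r x - D.aa i x p r)]
    ring
  simp only [Con.Cc, e1, Finset.sum_add_distrib, Finset.sum_sub_distrib]
  rw [sum_sk hC hM hD x]
  simp only [Con.Q1, Con.Q2]
  ring

theorem ep1_tr (i : ι) (t : ℝ) (x : E4) :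
    ∑ p, D.ep1 c p p i t x = D.tp i x * h1 M c i t x - D.ta i x * h1 M c i t x := by
  have hs : ∀ p, D.sk c 1 i t x 0 p p = 0 := fun p => by
    have := hD.skew 1 i t x 0 p p; linarith
  simp only [Con.ep1, Con.ep, hs, Con.sy, zero_add, Con.tp, Con.ta, h1]
  rw [← Finset.mul_sum, Finset.sum_sub_distrib]
  ring

theorem ep_tr (m : ℕ) (i : ι) (t : ℝ) (x z : E4) :
    ∑ p, D.ep c m p p i t x z = (D.tp i x - D.ta i x) * M.HH c m i t x z := by
  have hs : ∀ p, D.sk c m i t x z p p = 0 := fun p => by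
    have := hD.skew m i t x z p p; linarith
  simp only [Con.ep, hs, Con.sy, zero_add, Con.tp, Con.ta]
  rw [← Finset.mul_sum, Finset.sum_sub_distrib]
  ring

theorem tp_meas (i : ι) : Measurable (D.tp i) := by
  unfold Con.tp
  exact Finset.measurable_sum _ fun p _ => hD.Pm p p i
theorem ta_meas (i : ι) : Measurable (D.ta i) := by
  unfold Con.ta
  exact Finset.measurable_sum _ fun p _ => hD.aam p p i
theorem tp_bdd : ∃ C, ∀ i x, |D.tp i x| ≤ C := by
  choose C hCb using fun p => hD.Pb p p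
  exact ⟨∑ p, C p, fun i x => (Finset.abs_sum_le_sum_abs _ _).trans (Finset.sum_le_sum fun p _ => hCb p i x)⟩
theorem ta_bdd : ∃ C, ∀ i x, |D.ta i x| ≤ C := by
  choose C hCb using fun p => hD.aab p p
  exact ⟨∑ p, C p, fun i x => (Finset.abs_sum_le_sum_abs _ _).trans (Finset.sum_le_sum fun p _ => hCb p i x)⟩
theorem ta_two : ∃ C, ∀ i x, |D.ta i x| ≤ C * ‖x‖ ^ 2 := by
  choose C hCb using fun p => hD.aa2 p p
  refine ⟨∑ p, C p, fun i x => (Finset.abs_sum_le_sum_abs _ _).trans ?_⟩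
  rw [Finset.sum_mul]
  exact Finset.sum_le_sum fun p _ => hCb p i x

theorem vb_tp : VB 0 (fun i t x => D.tp i x * h1 M c i t x) := by
  obtain ⟨C1, h1'⟩ := tp_bdd hC hM hD
  have := hC.vb_mul 0 0 D.tp (h1 M c) (tp_meas hC hM hD) ⟨C1, by simpa using h1'⟩ (vb_h1 hC hM)
  simpa using this
theorem vb_ta : VB 1 (fun i t x => D.ta i x * h1 M c i t x) := by
  have := hC.vb_mul 0 2 D.ta (h1 M c) (ta_meas hC hM hD) (ta_two hC hM hD) (vb_h1 hC hM)
  exact hC.vb_mono _ _ _ (by norm_num) this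

theorem vb_H2E : VB 1 (M.star0 (M.HH c 2) (E1 M c)) := by
  simpa using hC.star0_vb 0 _ _ le_rfl (kw_HH hC hM 2) (vb_E1 hC hM)
theorem vb_eE : VB 1 (M.star0 (M.e0 c 2) (E1 M c)) := by
  simpa using hC.star0_vb 0 _ _ le_rfl (hM.e0 2) (vb_E1 hC hM)

/-- trace of `d` -/
theorem dd_tr {i : ι} {t : ℝ} (ht : t ∈ Ioc (0 : ℝ) 1) (x : E4) :
    ∑ p, D.dd c p p i t x = UU M c D.tp i t x
      + M.star0 (M.HH c 2) (fun i t x => D.ta i x * h1 M c i t x) i t x
      + M.star0 (M.HH c 3) (D.Q1 c) i t x + D.rem c i t x := by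
  have hta0 := vb10 hC hM hD (vb_ta hC hM hD)
  have hEt : VB 0 (M.star0 (M.e0 c 2) (fun i t x => D.tp i x * h1 M c i t x)) := by
    refine vb10 hC hM hD ?_
    simpa using hC.star0_vb 0 _ _ le_rfl (hM.e0 2) (vb_tp hC hM hD)
  have hEa : VB 0 (M.star0 (M.e0 c 2) (fun i t x => D.ta i x * h1 M c i t x)) := by
    refine vb10 hC hM hD ?_
    simpa using hC.star0_vb 0 _ _ le_rfl (hM.e0 2) hta0
  have hph : ∀ p r, VB 0 (M.star0 (M.HH c 2) (D.ph c r p)) := fun p r => by
    refine vb10 hC hM hD ?_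
    simpa using hC.star0_vb 0 _ _ le_rfl (kw_HH hC hM 2) (vb_ph hC hM hD r p)
  have hQ1 : VB 0 (D.Q1 c) := by
    refine hC.vb_sum _ fun p _ => hC.vb_sum _ fun r _ => ?_
    obtain ⟨C1, h1'⟩ := hD.Pb p r
    have := hC.vb_mul 0 0 (fun i x => D.P i p r x) _ (fun i => hD.Pm p r i) ⟨C1, by simpa using h1'⟩ (hph p r)
    simpa using this
  have hQ2 : VB 0 (D.Q2 c) := by
    refine hC.vb_sub (hC.vb_sum _ fun p _ => hC.vb_sum _ fun r _ => ?_)
      (hC.vb_sum _ fun p _ => hC.vb_sum _ fun r _ => ?_)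
    · refine vb10 hC hM hD ?_
      simpa using hC.star0_vb 0 _ _ le_rfl (kw_ep hC hM hD 2 p r) (vb_re0 hC hM hD r p)
    · obtain ⟨C1, h1'⟩ := hD.aab p r
      have := hC.vb_mul 0 0 (fun i x => D.aa i x p r) _ (fun i => hD.aam p r i) ⟨C1, by simpa using h1'⟩ (hph p r)
      simpa using this
  have hTE : VB 0 (fun i t x => D.tp i x * M.star0 (M.HH c 2) (E1 M c) i t x) := by
    obtain ⟨C1, h1'⟩ := tp_bdd hC hM hD
    have := hC.vb_mul 0 0 D.tp _ (tp_meas hC hM hD) ⟨C1, by simpa using h1'⟩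
      (vb10 hC hM hD (vb_H2E hC hM hD))
    simpa using this
  have hAE : VB 0 (fun i t x => D.ta i x * M.star0 (M.HH c 2) (E1 M c) i t x) := by
    obtain ⟨C1, h1'⟩ := ta_bdd hC hM hD
    have := hC.vb_mul 0 0 D.ta _ (ta_meas hC hM hD) ⟨C1, by simpa using h1'⟩
      (vb10 hC hM hD (vb_H2E hC hM hD))
    simpa using this
  -- sums
  have s1 : ∑ p, M.star0 (M.HH c 2) (D.ep1 c p p) i t x
      = M.star0 (M.HH c 2) (fun i t x => D.tp i x * h1 M c i t x) i t x
        - M.star0 (M.HH c 2) (fun i t x => D.ta i x * h1 M c i t x) i t x := by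
    rw [← hC.star0_sum_right Finset.univ (f := fun p => D.ep1 c p p) (kw_HH hC hM 2)
      (fun p _ => vb_ep1 hC hM hD p p) ht x,
      ← hC.star0_sub_right (kw_HH hC hM 2) (vb_tp hC hM hD) hta0 ht x]
    refine star0_congr (fun s _ z => rfl) fun s _ z => ?_
    exact ep1_tr hC hM hD i s z
  have sA : ∀ s ∈ Ioc (0:ℝ) 1, ∀ z, ∑ p, D.Ac c p p i s z
      = M.star0 (M.e0 c 2) (fun i t x => D.tp i x * h1 M c i t x) i s z
        - M.star0 (M.e0 c 2) (fun i t x => D.ta i x * h1 M c i t x) i s z := by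
    intro s hs z
    unfold Con.Ac
    rw [← hC.star0_sum_right Finset.univ (f := fun p => D.ep1 c p p) (hM.e0 2)
      (fun p _ => vb_ep1 hC hM hD p p) hs z,
      ← hC.star0_sub_right (hM.e0 2) (vb_tp hC hM hD) hta0 hs z]
    refine star0_congr (fun s _ z => rfl) fun s _ z => ?_
    exact ep1_tr hC hM hD i s z
  have sB : ∀ s ∈ Ioc (0:ℝ) 1, ∀ z, ∑ p, D.Bc c p p i s z
      = D.tp i z * M.star0 (M.HH c 2) (E1 M c) i s z - D.ta i z * M.star0 (M.HH c 2) (E1 M c) i s z := by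
    intro s hs z
    have key : ∀ S : Finset κ, (KW fun i t x z => ∑ p ∈ S, D.ep c 2 p p i t x z) ∧
        ∑ p ∈ S, M.star0 (D.ep c 2 p p) (E1 M c) i s z
          = M.star0 (fun i t x z => ∑ p ∈ S, D.ep c 2 p p i t x z) (E1 M c) i s z := by
      intro S
      induction S using Finset.induction_on with
      | empty => exact ⟨by simpa using (kw_zero : KW (fun (_ : ι) (_ : ℝ) (_ _ : E4) => (0 : ℝ))), by simp [star0_zero_left]⟩
      | insert b S hb ih =>
        refine ⟨?_, ?_⟩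
        · have := hC.kw_add _ _ (kw_ep hC hM hD 2 b b) ih.1
          simpa [Finset.sum_insert hb] using this
        · rw [Finset.sum_insert hb, ih.2, ← hC.star0_add_left _ _ _ (kw_ep hC hM hD 2 b b) ih.1
            (vb_E1 hC hM) i s hs z]
          refine star0_congr (fun s' _ z' => ?_) fun s' _ z' => rfl
          rw [Finset.sum_insert hb]
    have k2 := (key Finset.univ).2
    unfold Con.Bc
    rw [k2]
    have k3 : M.star0 (fun i t x z => ∑ p, D.ep c 2 p p i t x z) (E1 M c) i s z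
        = M.star0 (fun i t x z => (D.tp i x - D.ta i x) * M.HH c 2 i t x z) (E1 M c) i s z := by
      refine star0_congr (fun s' _ z' => ?_) fun s' _ z' => rfl
      exact ep_tr hC hM hD 2 i s' z z'
    rw [k3, star0_mul_left (fun i x => D.tp i x - D.ta i x)]
    ring
  have s2 : ∑ p, M.star0 (M.HH c 3) (fun i t x => D.Ac c p p i t x + D.Bc c p p i t x + D.Cc c p p i t x) i t x
      = M.star0 (M.HH c 3) (fun i t x => M.star0 (M.e0 c 2) (fun i t x => D.tp i x * h1 M c i t x) i t x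
        + D.tp i x * M.star0 (M.HH c 2) (E1 M c) i t x) i t x
        - M.star0 (M.HH c 3) (M.star0 (M.e0 c 2) (fun i t x => D.ta i x * h1 M c i t x)) i t x
        - M.star0 (M.HH c 3) (fun i t x => D.ta i x * M.star0 (M.HH c 2) (E1 M c) i t x) i t x
        + M.star0 (M.HH c 3) (D.Q1 c) i t x + M.star0 (M.HH c 3) (D.Q2 c) i t x := by
    have hABC : ∀ p, VB 0 (fun i t x => D.Ac c p p i t x + D.Bc c p p i t x + D.Cc c p p i t x) := fun p =>
      hC.vb_add 0 _ _ (hC.vb_add 0 _ _ (vb10 hC hM hD (vb_A hC hM hD p p))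
        (vb10 hC hM hD (vb_B hC hM hD p p))) (vb10 hC hM hD (vb_C hC hM hD p p))
    rw [← hC.star0_sum_right Finset.univ
      (f := fun p i t x => D.Ac c p p i t x + D.Bc c p p i t x + D.Cc c p p i t x) (kw_HH hC hM 3)
      (fun p _ => hABC p) ht x,
      ← hC.star0_sub_right (kw_HH hC hM 3) (hC.vb_add 0 _ _ hEt hTE) hEa ht x,
      ← hC.star0_sub_right (kw_HH hC hM 3) (hC.vb_sub (hC.vb_add 0 _ _ hEt hTE) hEa) hAE ht x,
      ← hC.star0_add_right _ _ _ (kw_HH hC hM 3) (hC.vb_sub (hC.vb_sub (hC.vb_add 0 _ _ hEt hTE) hEa) hAE)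
        hQ1 i t ht x,
      ← hC.star0_add_right _ _ _ (kw_HH hC hM 3)
        (hC.vb_add 0 _ _ (hC.vb_sub (hC.vb_sub (hC.vb_add 0 _ _ hEt hTE) hEa) hAE) hQ1) hQ2 i t ht x]
    refine star0_congr (fun s _ z => rfl) fun s hs z => ?_
    have hs' : s ∈ Ioc (0:ℝ) 1 := ⟨hs.1, hs.2.le.trans ht.2⟩
    simp only [Finset.sum_add_distrib]
    rw [sA s hs' z, sB s hs' z, Cc_tr hC hM hD hs' z]
    ring
  simp only [Con.dd, Finset.sum_add_distrib, Finset.sum_neg_distrib]
  rw [s1, s2]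
  simp only [UU, Con.rem]
  ring

end main

end Crest.Agent.R249.HK286
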