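/-
Row 249, part C, leaf HK5 (helper905), file b: the Duhamel identity (D1) for one eigenfunction and one
parametrix `H_m(t,·,z) e_b`.
-/
import Crest.Agent.R249.HK5a_905
import Crest.Agent.R249.HKCmp_286

set_option autoImplicit false

open MeasureTheory Filter Topology Set
open scoped ContDiff

noncomputable section

namespace Crest.Agent.R249.HK5_905

open Crest.Agent.R249.HK286 Crest.Agent.R249.HK1_654

section scalar
variable {ι : Type*} {M : Met ι} {R : ℝ} {c : Cut R}

theorem hasDeriv_GG (i : ι) (x z : E4) {t : ℝ} (ht : 0 < t) :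
    HasDerivAt (fun s => M.GG i s x z) (M.GG i t x z * (M.rho i x z / (4 * t ^ 2) - 2 / t)) t := by
  have hp : (4 * Real.pi * t) ^ 2 ≠ 0 := by positivity
  have h1 : HasDerivAt (fun s : ℝ => ((4 * Real.pi * s) ^ 2)⁻¹)
      (-(2 * (4 * Real.pi * t) * (4 * Real.pi)) / ((4 * Real.pi * t) ^ 2) ^ 2) t := by
    have h0 : HasDerivAt (fun s : ℝ => (4 * Real.pi * s) ^ 2) (2 * (4 * Real.pi * t) * (4 * Real.pi)) t := by
      have h3 : HasDerivAt (fun s : ℝ => 4 * Real.pi * s) (4 * Real.pi) t := by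
        simpa using (hasDerivAt_id t).const_mul (4 * Real.pi)
      refine (h3.fun_pow 2).congr_deriv ?_
      simp
    exact h0.inv hp
  have h2 : HasDerivAt (fun s : ℝ => Real.exp (-(M.rho i x z / (4 * s))))
      (Real.exp (-(M.rho i x z / (4 * t))) * (M.rho i x z / (4 * t ^ 2))) t := by
    have h0 : HasDerivAt (fun s : ℝ => -(M.rho i x z / (4 * s))) (M.rho i x z / (4 * t ^ 2)) t := by
      have h3 : HasDerivAt (fun s : ℝ => 4 * s) 4 t := by
        simpa using (hasDerivAt_id t).const_mul 4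
      have h4 := ((hasDerivAt_const t (M.rho i x z)).div h3 (by positivity)).neg
      refine h4.congr_deriv ?_
      field_simp
      ring
    exact h0.exp
  refine (h1.mul h2).congr_deriv ?_
  unfold Met.GG
  field_simp
  ring

theorem GG_nonneg (i : ι) (t : ℝ) (x z : E4) : 0 ≤ M.GG i t x z := by
  unfold Met.GG; positivity

theorem contDiff_rho (i : ι) (z : E4) : ContDiff ℝ ∞ fun x => M.rho i x z := by
  unfold Met.rho
  refine contDiff_const.mul (ContDiff.sum fun a _ => ContDiff.sum fun b _ => ?_)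
  have h := (M.ubg a b).1 i
  fun_prop

theorem contDiff_GG (i : ι) (t : ℝ) (z : E4) : ContDiff ℝ ∞ fun x => M.GG i t x z := by
  unfold Met.GG
  have h := contDiff_rho (M := M) i z
  fun_prop

theorem contDiff_HH (m : ℕ) (i : ι) (t : ℝ) (z : E4) : ContDiff ℝ ∞ fun x => M.HH c m i t x z := by
  unfold Met.HH
  exact (c.smooth m).mul (contDiff_GG i t z)

theorem meas_rho (i : ι) (z : E4) : Measurable fun x => M.rho i x z :=
  (contDiff_rho i z).continuous.measurable

/-- derivative of `∫ H_m(t,x,z) U(x) w(x) dx` in time -/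
theorem hasDeriv_int (hM : InpM M c) (m : ℕ) (i : ι) {r : ℝ} {U : E4 → ℝ} (hU : BU r U) (z : E4) {t : ℝ}
    (ht : 0 < t) :
    Integrable (fun x => deriv (fun s => M.HH c m i s x z) t * U x * M.w i x) ∧
    HasDerivAt (fun s => ∫ x, M.HH c m i s x z * U x * M.w i x)
      (∫ x, deriv (fun s => M.HH c m i s x z) t * U x * M.w i x) t := by
  obtain ⟨d, hd, hrho⟩ := hM.rho_ge
  obtain ⟨C, hC⟩ := hM.rho_le
  obtain ⟨W, hW, hWb⟩ := w_bound M
  have hder : ∀ x : E4, ∀ s : ℝ, 0 < s → HasDerivAt (fun s => M.HH c m i s x z)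
      (c.ps m x * (M.GG i s x z * (M.rho i x z / (4 * s ^ 2) - 2 / s))) s := fun x s hs =>
    (hasDeriv_GG i x z hs).const_mul (c.ps m x)
  have hD : ∀ x, deriv (fun s => M.HH c m i s x z) t
      = c.ps m x * (M.GG i t x z * (M.rho i x z / (4 * t ^ 2) - 2 / t)) := fun x => (hder x t ht).deriv
  simp only [hD]
  have hUi := hU.integrable
  obtain ⟨hUm, ⟨B, hB⟩, hU0⟩ := hU
  have hw : Measurable (M.w i) := (w_cont M i).measurable
  set bound : E4 → ℝ := fun x => (((4 * Real.pi * (t / 2)) ^ 2)⁻¹ *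
    (|C| * (|r| + ‖z‖) ^ 2 / t ^ 2 + 4 / t)) * W * ‖U x‖ with hbd
  have hbi : Integrable bound := (hUi.norm.const_mul _)
  have hGle : ∀ s x, t / 2 ≤ s → M.GG i s x z ≤ ((4 * Real.pi * (t / 2)) ^ 2)⁻¹ := by
    intro s x hs
    have hs0 : 0 < s := by linarith
    unfold Met.GG
    have h1 : Real.exp (-(M.rho i x z / (4 * s))) ≤ 1 := by
      rw [Real.exp_le_one_iff]
      have : 0 ≤ M.rho i x z := le_trans (by positivity) (hrho i x z)
      have : 0 ≤ M.rho i x z / (4 * s) := by positivity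
      linarith
    have h2 : ((4 * Real.pi * s) ^ 2)⁻¹ ≤ ((4 * Real.pi * (t / 2)) ^ 2)⁻¹ := by
      apply inv_anti₀ (by positivity)
      have : 4 * Real.pi * (t / 2) ≤ 4 * Real.pi * s := by gcongr
      have h0 : 0 ≤ 4 * Real.pi * (t / 2) := by positivity
      nlinarith
    calc _ ≤ ((4 * Real.pi * s) ^ 2)⁻¹ * 1 := mul_le_mul_of_nonneg_left h1 (by positivity)
      _ ≤ _ := by rw [mul_one]; exact h2
  refine hasDerivAt_integral_of_dominated_loc_of_deriv_le (s := Metric.ball t (t / 2)) (bound := bound)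
    (F' := fun s x => c.ps m x * (M.GG i s x z * (M.rho i x z / (4 * s ^ 2) - 2 / s)) * U x * M.w i x)
    (Metric.ball_mem_nhds t (by positivity)) ?_ ?_ ?_ ?_ hbi ?_
  · refine Eventually.of_forall fun s => ?_
    exact (((contDiff_HH m i s z).continuous.measurable.mul hUm).mul hw).aestronglyMeasurable
  · refine (hUi.norm.const_mul ((((4 * Real.pi * (t / 2)) ^ 2)⁻¹) * W)).mono'
      (((contDiff_HH m i t z).continuous.measurable.mul hUm).mul hw).aestronglyMeasurable
      (Eventually.of_forall fun x => ?_)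
    rw [norm_mul, norm_mul]
    have h1 : ‖M.HH c m i t x z‖ ≤ ((4 * Real.pi * (t / 2)) ^ 2)⁻¹ := by
      unfold Met.HH
      rw [Real.norm_eq_abs, abs_of_nonneg (mul_nonneg (c.mem m x).1 (GG_nonneg _ _ _ _))]
      calc _ ≤ 1 * M.GG i t x z := mul_le_mul_of_nonneg_right (c.mem m x).2 (GG_nonneg _ _ _ _)
        _ ≤ _ := by rw [one_mul]; exact hGle t x (by linarith)
    calc ‖M.HH c m i t x z‖ * ‖U x‖ * ‖M.w i x‖ ≤ ((4 * Real.pi * (t / 2)) ^ 2)⁻¹ * ‖U x‖ * W :=
          mul_le_mul (mul_le_mul_of_nonneg_right h1 (norm_nonneg _)) (hWb i x) (norm_nonneg _) (by positivity)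
      _ = _ := by ring
  · refine Measurable.aestronglyMeasurable ?_
    refine (Measurable.mul (Measurable.mul (c.smooth m).continuous.measurable
      (Measurable.mul (contDiff_GG i t z).continuous.measurable ?_)) hUm).mul hw
    exact ((meas_rho i z).div_const _).sub_const _
  · refine Eventually.of_forall fun x s hs => ?_
    rw [Metric.mem_ball, Real.dist_eq, abs_lt] at hs
    have hs1 : t / 2 ≤ s := by linarith [hs.1]
    have hs0 : 0 < s := by linarith
    rw [norm_mul, norm_mul, norm_mul, norm_mul]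
    by_cases hx : r ≤ ‖x‖
    · simp only [hbd, hU0 x hx, norm_zero, mul_zero, zero_mul]
      exact le_rfl
    · push Not at hx
      have h1 : ‖c.ps m x‖ ≤ 1 := by
        rw [Real.norm_eq_abs, abs_of_nonneg (c.mem m x).1]; exact (c.mem m x).2
      have h2 : ‖M.GG i s x z‖ ≤ ((4 * Real.pi * (t / 2)) ^ 2)⁻¹ := by
        rw [Real.norm_eq_abs, abs_of_nonneg (GG_nonneg _ _ _ _)]; exact hGle s x hs1
      have hr0 : 0 ≤ M.rho i x z := le_trans (by positivity) (hrho i x z)
      have hxz : ‖x - z‖ ≤ |r| + ‖z‖ := (norm_sub_le x z).trans (by linarith [le_abs_self r])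
      have h3 : M.rho i x z ≤ |C| * (|r| + ‖z‖) ^ 2 := by
        refine (hC i x z).trans ?_
        calc C * ‖x - z‖ ^ 2 ≤ |C| * ‖x - z‖ ^ 2 := mul_le_mul_of_nonneg_right (le_abs_self C) (by positivity)
          _ ≤ _ := by gcongr
      have h4 : ‖M.rho i x z / (4 * s ^ 2) - 2 / s‖ ≤ |C| * (|r| + ‖z‖) ^ 2 / t ^ 2 + 4 / t := by
        refine (norm_sub_le _ _).trans ?_
        rw [Real.norm_of_nonneg (by positivity), Real.norm_of_nonneg (by positivity)]
        refine add_le_add ?_ ?_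
        · have h5 : t ^ 2 ≤ 4 * s ^ 2 := by nlinarith
          calc M.rho i x z / (4 * s ^ 2) ≤ M.rho i x z / t ^ 2 := by gcongr
            _ ≤ _ := by gcongr
        · rw [div_le_div_iff₀ hs0 ht]
          linarith
      have h5 : ‖M.w i x‖ ≤ W := hWb i x
      calc ‖c.ps m x‖ * (‖M.GG i s x z‖ * ‖M.rho i x z / (4 * s ^ 2) - 2 / s‖) * ‖U x‖ * ‖M.w i x‖
          ≤ 1 * ((((4 * Real.pi * (t / 2)) ^ 2)⁻¹) * (|C| * (|r| + ‖z‖) ^ 2 / t ^ 2 + 4 / t)) * ‖U x‖ * W := by
            gcongr
        _ = bound x := by simp only [hbd]; ring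
  · refine Eventually.of_forall fun x s hs => ?_
    rw [Metric.mem_ball, Real.dist_eq, abs_lt] at hs
    have hs0 : 0 < s := by linarith [hs.1]
    exact ((hder x s hs0).mul_const (U x)).mul_const (M.w i x)

end scalar

section matrix
variable {ι : Type*} {M : Met ι} {κ : Type} [Fintype κ] [DecidableEq κ] {R : ℝ} {c : Cut R} {D : Con M κ}

theorem pd_eq_zero {f : E4 → ℝ} {x : E4} (h : f =ᶠ[𝓝 x] fun _ => 0) (j : Fin 4) : pd j f x = 0 := by
  unfold pd
  rw [h.fderiv_eq]
  simp

/-- the error kernel vanishes outside the support of the cut-off -/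
theorem eM_zero {m : ℕ} {x : E4} (hx : (2 * m + 1) * R / 8 < ‖x‖) (i : ι) (t : ℝ) (z : E4) (p q : κ) :
    D.eM c m i t x z p q = 0 := by
  have hev : c.ps m =ᶠ[𝓝 x] fun _ => 0 := by
    have : ∀ᶠ y in 𝓝 x, (2 * m + 1) * R / 8 < ‖y‖ := continuous_norm.continuousAt.eventually (lt_mem_nhds hx)
    filter_upwards [this] with y hy
    exact c.zero m y hy.le
  have h0 : c.ps m x = 0 := hev.eq_of_nhds
  have h1 : ∀ j, pd j (c.ps m) x = 0 := fun j => pd_eq_zero hev j
  have h2 : M.lap i (c.ps m) x = 0 := by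
    unfold Met.lap
    have : ∀ j l, pd j (fun y => M.w i y * M.h i j l y * pd l (c.ps m) y) x = 0 := by
      intro j l
      refine pd_eq_zero ?_ j
      filter_upwards [hev.eventuallyEq_nhds] with y hy
      rw [pd_eq_zero hy l, mul_zero]
    simp [this]
  have h3 : M.e0 c m i t x z = 0 := by
    unfold Met.e0
    simp [h0, h1, h2]
  have h4 : D.sk c m i t x z p q = 0 := by
    unfold Con.sk Met.dH Met.HH
    simp [h0, h1]
  have h5 : D.sy c m i t x z p q = 0 := by
    unfold Con.sy Met.HH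
    simp [h0]
  unfold Con.eM
  simp [h3, h4, h5]

theorem HH_zero {m : ℕ} {x : E4} (hx : (2 * m + 1) * R / 8 ≤ ‖x‖) (i : ι) (t : ℝ) (z : E4) :
    M.HH c m i t x z = 0 := by
  unfold Met.HH; rw [c.zero m x hx, zero_mul]

variable {K : Type} (S : Sys D R K)

/-- the eigenfunction cut at radius `15 R / 16` -/
def uu (i : ι) (k : K) (b : κ) : E4 → ℝ := (Metric.ball (0 : E4) (15 * R / 16)).indicator fun x => S.u i k x b

theorem uu_BU (hR : 0 < R) (i : ι) (k : K) (b : κ) : BU (15 * R / 16) (uu S i k b) := by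
  classical
  have hsub : Metric.closedBall (0 : E4) (15 * R / 16) ⊆ Metric.ball 0 R :=
    Metric.closedBall_subset_ball (by linarith)
  have hc := (S.cont i k b).mono hsub
  refine ⟨?_, ?_, ?_⟩
  · have h1 : ContinuousOn (fun x => S.u i k x b) (Metric.ball (0 : E4) (15 * R / 16)) :=
      hc.mono Metric.ball_subset_closedBall
    have h2 := h1.measurable_piecewise (g := fun _ => (0 : ℝ)) continuousOn_const measurableSet_ball
    have h3 : (Metric.ball (0 : E4) (15 * R / 16)).piecewise (fun x => S.u i k x b) (fun _ => (0 : ℝ))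
        = uu S i k b := by
      unfold uu
      rw [← Set.piecewise_eq_indicator]
      rfl
    rw [h3] at h2
    exact h2
  · obtain ⟨B, hB⟩ := (isCompact_closedBall (0 : E4) (15 * R / 16)).exists_bound_of_continuousOn hc
    refine ⟨|B|, fun x => ?_⟩
    unfold uu
    by_cases hx : x ∈ Metric.ball (0 : E4) (15 * R / 16)
    · rw [indicator_of_mem hx]
      exact (hB x (Metric.ball_subset_closedBall hx)).trans (le_abs_self B)
    · rw [indicator_of_notMem hx]; simp
  · intro x hx
    unfold uu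
    rw [indicator_of_notMem]
    simpa using hx

theorem uu_eq {i : ι} {k : K} {b : κ} {x : E4} (hx : ‖x‖ < 15 * R / 16) : uu S i k b x = S.u i k x b := by
  unfold uu
  rw [indicator_of_mem]
  simpa using hx

/-- pairing with `u_k` can be computed with `uu` for functions supported in the ball of radius `15R/16` -/
theorem ip_eq {i : ι} {k : K} {f : E4 → κ → ℝ} (hf : ∀ x p, 15 * R / 16 ≤ ‖x‖ → f x p = 0) :
    M.ip i f (S.u i k) = ∫ x, (∑ p, f x p * uu S i k p x) * M.w i x := by
  unfold Met.ip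
  refine integral_congr_ae (Eventually.of_forall fun x => ?_)
  show (∑ p, f x p * S.u i k x p) * M.w i x = (∑ p, f x p * uu S i k p x) * M.w i x
  congr 1
  refine Finset.sum_congr rfl fun p _ => ?_
  by_cases hx : ‖x‖ < 15 * R / 16
  · rw [uu_eq S hx]
  · rw [hf x p (not_lt.1 hx), zero_mul, zero_mul]

theorem tst_HH (hR : 0 < R) {m : ℕ} (hm : m ≤ 3) (i : ι) (t : ℝ) (z : E4) (b : κ) :
    Tst R (fun y r => if r = b then M.HH c m i t y z else 0) := by
  refine ⟨fun p => ?_, (2 * m + 1) * R / 8, ?_, fun x p hx => ?_⟩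
  · by_cases h : p = b
    · simp only [h, if_true]; exact contDiff_HH m i t z
    · simp only [h, if_false]; exact contDiff_const
  · have : (m : ℝ) ≤ 3 := by exact_mod_cast hm
    nlinarith
  · show (if p = b then M.HH c m i t x z else 0) = 0
    rw [HH_zero hx]; simp

variable (hC : Cal M) (hM : InpM M c) (hD : InpD c D)
include hC hM hD

/-- the error pairing `∑_p ∫ eM(σ,x,z)_{pb} u_p w` -/
def Eb (S : Sys D R K) (c : Cut R) (m : ℕ) (i : ι) (k : K) (b : κ) (σ : ℝ) (z : E4) : ℝ :=
  ∑ p, AA M (fun i t x z => D.eM c m i t x z p b) (uu S i k p) i σ z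

theorem Eb_bound (hR : 0 < R) (m : ℕ) (i : ι) (k : K) (b : κ) :
    ∃ C : ℝ, 0 ≤ C ∧ ∀ t ∈ Ioc (0 : ℝ) 1, ∀ z, |Eb S c m i k b t z| ≤ C * (1 + (Real.sqrt t)⁻¹) := by
  choose C hC0 hCb using fun p => AA_bound (M := M) (kw_eM hC hM hD m p b) (uu_BU S hR i k p)
  refine ⟨∑ p, C p, Finset.sum_nonneg fun p _ => hC0 p, fun t ht z => ?_⟩
  unfold Eb
  refine (Finset.abs_sum_le_sum_abs _ _).trans ?_
  rw [Finset.sum_mul]
  exact Finset.sum_le_sum fun p _ => hCb p i t ht z

theorem Eb_meas (hR : 0 < R) (m : ℕ) (i : ι) (k : K) (b : κ) :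
    Measurable fun z : ℝ × E4 => Eb S c m i k b z.1 z.2 :=
  Finset.measurable_fun_sum _ fun p _ => AA_meas (M := M) (kw_eM hC hM hD m p b) (uu_BU S hR i k p) i

theorem Eb_meas1 (hR : 0 < R) (m : ℕ) (i : ι) (k : K) (b : κ) (z : E4) :
    Measurable fun s : ℝ => Eb S c m i k b s z := by
  have h1 : Measurable fun s : ℝ => ((s, z) : ℝ × E4) := by fun_prop
  have h2 := (Eb_meas S hC hM hD hR m i k b).comp h1
  exact h2

theorem Eb_meas2 (hR : 0 < R) (m : ℕ) (i : ι) (k : K) (b : κ) (s : ℝ) :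
    Measurable fun z : E4 => Eb S c m i k b s z := by
  have h1 : Measurable fun z : E4 => ((s, z) : ℝ × E4) := by fun_prop
  have h2 := (Eb_meas S hC hM hD hR m i k b).comp h1
  exact h2

/-- the differential equation in time -/
theorem hasDeriv_phi (hR : 0 < R) {m : ℕ} (hm : m ≤ 3) (i : ι) (k : K) (b : κ) (z : E4) {t : ℝ}
    (ht : t ∈ Ioc (0 : ℝ) 1) :
    HasDerivAt (fun s => AA M (M.HH c m) (uu S i k b) i s z)
      (Eb S c m i k b t z - S.mu i k * AA M (M.HH c m) (uu S i k b) i t z) t := by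
  obtain ⟨h1, h2⟩ := hasDeriv_int hM m i (uu_BU S hR i k b) z ht.1
  refine h2.congr_deriv ?_
  set f : E4 → κ → ℝ := fun y r => if r = b then M.HH c m i t y z else 0 with hf
  have hmr : (m : ℝ) ≤ 3 := by exact_mod_cast hm
  have hm16 : (2 * m + 1) * R / 8 < 15 * R / 16 := by nlinarith
  have hder0 : ∀ x : E4, 15 * R / 16 ≤ ‖x‖ → deriv (fun s => M.HH c m i s x z) t = 0 := by
    intro x hx
    have : (fun s => M.HH c m i s x z) = fun _ => (0 : ℝ) := by
      funext s; exact HH_zero (hm16.le.trans hx) i s z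
    rw [this]; simp
  have hEM : ∀ x p, D.LL i f x p = D.eM c m i t x z p b
      - (if p = b then deriv (fun s => M.HH c m i s x z) t else 0) := by
    intro x p
    have := hD.em m i t x z p b ht.1
    linarith
  have hLL0 : ∀ x p, 15 * R / 16 ≤ ‖x‖ → D.LL i f x p = 0 := by
    intro x p hx
    rw [hEM, eM_zero (hm16.trans_le hx), hder0 x hx]; simp
  have hf0 : ∀ x p, 15 * R / 16 ≤ ‖x‖ → f x p = 0 := by
    intro x p hx
    show (if p = b then M.HH c m i t x z else 0) = 0
    rw [HH_zero (hm16.le.trans hx)]; simp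
  have heig := S.eig i k f (tst_HH hR hm i t z b)
  rw [ip_eq S hLL0, ip_eq S hf0] at heig
  have e1 : ∫ x, (∑ p, f x p * uu S i k p x) * M.w i x = AA M (M.HH c m) (uu S i k b) i t z := by
    unfold AA
    refine integral_congr_ae (Eventually.of_forall fun x => ?_)
    show (∑ p, f x p * uu S i k p x) * M.w i x = _
    simp [hf, ite_mul]
  have hi : ∀ p, Integrable fun x => D.eM c m i t x z p b * uu S i k p x * M.w i x := fun p =>
    AA_int (M := M) (kw_eM hC hM hD m p b) (uu_BU S hR i k p) i ht z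
  have e2 : ∫ x, (∑ p, D.LL i f x p * uu S i k p x) * M.w i x
      = Eb S c m i k b t z - ∫ x, deriv (fun s => M.HH c m i s x z) t * uu S i k b x * M.w i x := by
    unfold Eb AA
    rw [← integral_finsetSum _ fun p _ => hi p,
      ← integral_sub (integrable_finsetSum _ fun p _ => hi p) h1]
    refine integral_congr_ae (Eventually.of_forall fun x => ?_)
    show (∑ p, D.LL i f x p * uu S i k p x) * M.w i x
      = (∑ p, D.eM c m i t x z p b * uu S i k p x * M.w i x)
        - deriv (fun s => M.HH c m i s x z) t * uu S i k b x * M.w i x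
    simp only [hEM, sub_mul, Finset.sum_sub_distrib, ite_mul, zero_mul, Finset.sum_ite_eq',
      Finset.mem_univ, if_true, Finset.sum_mul]
  rw [e1, e2] at heig
  linarith

/-- **(D1)** -/
theorem duhamel (hR : 0 < R)
    (hk4 : ∀ (i : ι) (z : E4) (f : E4 → ℝ), Measurable f → (∃ B, ∀ x, |f x| ≤ B) → ContinuousAt f z →
      Tendsto (fun t => ∫ x, M.GG i t x z * f x * M.w i x) (𝓝[>] 0) (𝓝 (f z)))
    {m : ℕ} (hm : m ≤ 3) (i : ι) (k : K) (b : κ) {z : E4} (hz : ‖z‖ < 15 * R / 16) {t : ℝ}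
    (ht : t ∈ Ioc (0 : ℝ) 1) :
    AA M (M.HH c m) (uu S i k b) i t z
      = Real.exp (-(S.mu i k * t)) * (c.ps m z * S.u i k z b)
        + ∫ σ in Ioo 0 t, Real.exp (-(S.mu i k * (t - σ))) * Eb S c m i k b σ z := by
  set μ := S.mu i k with hμ
  set φ : ℝ → ℝ := fun s => AA M (M.HH c m) (uu S i k b) i s z with hφ
  have hd : ∀ s ∈ Ioc (0 : ℝ) 1, HasDerivAt φ (Eb S c m i k b s z - μ * φ s) s := fun s hs =>
    hasDeriv_phi S hC hM hD hR hm i k b z hs
  -- value at zero
  have h0 : Tendsto φ (𝓝[>] 0) (𝓝 (c.ps m z * S.u i k z b)) := by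
    obtain ⟨hum, ⟨B, hB⟩, _⟩ := uu_BU S hR i k b
    have h1 := hk4 i z (fun x => c.ps m x * uu S i k b x)
      ((c.smooth m).continuous.measurable.mul hum) ⟨B, fun x => ?_⟩ ?_
    · simp only [uu_eq S hz] at h1
      refine h1.congr fun s => ?_
      simp only [hφ, AA, Met.HH]
      refine integral_congr_ae (Eventually.of_forall fun x => ?_)
      show M.GG i s x z * (c.ps m x * uu S i k b x) * M.w i x = c.ps m x * M.GG i s x z * uu S i k b x * M.w i x
      ring
    · rw [abs_mul, abs_of_nonneg (c.mem m x).1]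
      calc _ ≤ 1 * |uu S i k b x| := mul_le_mul_of_nonneg_right (c.mem m x).2 (abs_nonneg _)
        _ ≤ B := by rw [one_mul]; exact hB x
    · refine ((c.smooth m).continuous.continuousAt).mul ?_
      have hzR : z ∈ Metric.ball (0 : E4) R := by
        rw [mem_ball_zero_iff]; linarith
      have h3 : ContinuousAt (fun x => S.u i k x b) z :=
        (S.cont i k b).continuousAt (Metric.isOpen_ball.mem_nhds hzR)
      refine h3.congr ?_
      have h4 : Metric.ball (0 : E4) (15 * R / 16) ∈ 𝓝 z := Metric.isOpen_ball.mem_nhds (by simpa using hz)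
      filter_upwards [h4] with x hx
      exact (uu_eq S (by simpa using hx)).symm
  -- the integrating factor
  obtain ⟨C, hC0, hCb⟩ := Eb_bound S hC hM hD hR m i k b
  have hEm : Measurable fun s => Eb S c m i k b s z := Eb_meas1 S hC hM hD hR m i k b z
  have hg : ∀ s ∈ Ioc (0 : ℝ) 1, HasDerivAt (fun s => Real.exp (μ * s) * φ s)
      (Real.exp (μ * s) * Eb S c m i k b s z) s := by
    intro s hs
    have h1 : HasDerivAt (fun s => Real.exp (μ * s)) (Real.exp (μ * s) * μ) s := by
      have : HasDerivAt (fun s => μ * s) μ s := by simpa using (hasDerivAt_id s).const_mul μ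
      exact this.exp
    refine (h1.mul (hd s hs)).congr_deriv ?_
    ring
  have hint : IntegrableOn (fun s => Real.exp (μ * s) * Eb S c m i k b s z) (Ioo 0 t) := by
    have h1 : IntegrableOn (fun s : ℝ => (Real.exp (|μ|) * C) * (1 + (Real.sqrt s)⁻¹)) (Ioo 0 t) :=
      (int_w ht.1).const_mul _
    refine h1.mono' ((by fun_prop : Measurable fun s : ℝ => Real.exp (μ * s)).mul hEm).aestronglyMeasurable ?_
    filter_upwards [ae_restrict_mem measurableSet_Ioo] with s hs
    have hs1 : s ∈ Ioc (0 : ℝ) 1 := ⟨hs.1, hs.2.le.trans ht.2⟩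
    rw [norm_mul, Real.norm_eq_abs, Real.norm_eq_abs, abs_of_pos (Real.exp_pos _), mul_assoc]
    refine mul_le_mul (Real.exp_le_exp.2 ?_) (hCb s hs1 z) (abs_nonneg _) (Real.exp_pos _).le
    calc μ * s ≤ |μ| * s := mul_le_mul_of_nonneg_right (le_abs_self μ) hs.1.le
      _ ≤ |μ| * 1 := mul_le_mul_of_nonneg_left hs1.2 (abs_nonneg _)
      _ = |μ| := mul_one _
  have hII : IntervalIntegrable (fun s => Real.exp (μ * s) * Eb S c m i k b s z) volume 0 t :=
    (intervalIntegrable_iff_integrableOn_Ioo_of_le ht.1.le).2 hint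
  have hF := intervalIntegral.integral_eq_sub_of_hasDerivAt_of_tendsto ht.1
    (f := fun s => Real.exp (μ * s) * φ s) (fa := c.ps m z * S.u i k z b) (fb := Real.exp (μ * t) * φ t)
    (fun s hs => hg s ⟨hs.1, hs.2.le.trans ht.2⟩) hII ?_ ?_
  · rw [intervalIntegral.integral_of_le ht.1.le, integral_Ioc_eq_integral_Ioo] at hF
    have h5 : φ t = Real.exp (-(μ * t)) * (c.ps m z * S.u i k z b
        + ∫ s in Ioo 0 t, Real.exp (μ * s) * Eb S c m i k b s z) := by
      rw [hF]
      have : Real.exp (-(μ * t)) * Real.exp (μ * t) = 1 := by rw [← Real.exp_add]; simp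
      have h6 : Real.exp (-(μ * t)) * (c.ps m z * S.u i k z b + (Real.exp (μ * t) * φ t - c.ps m z * S.u i k z b))
          = (Real.exp (-(μ * t)) * Real.exp (μ * t)) * φ t := by ring
      rw [h6, this, one_mul]
    show φ t = _
    rw [h5, mul_add]
    congr 1
    rw [← integral_const_mul]
    refine setIntegral_congr_fun measurableSet_Ioo fun s _ => ?_
    show Real.exp (-(μ * t)) * (Real.exp (μ * s) * Eb S c m i k b s z) = _
    rw [← mul_assoc, ← Real.exp_add]
    congr 2
    ring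
  · have h1 : Tendsto (fun s : ℝ => Real.exp (μ * s)) (𝓝[>] 0) (𝓝 1) := by
      have : Tendsto (fun s : ℝ => Real.exp (μ * s)) (𝓝 0) (𝓝 (Real.exp (μ * 0))) :=
        (by fun_prop : Continuous fun s : ℝ => Real.exp (μ * s)).tendsto 0
      rw [mul_zero, Real.exp_zero] at this
      exact this.mono_left nhdsWithin_le_nhds
    simpa using h1.mul h0
  · exact ((hg t ht).continuousAt.tendsto).mono_left nhdsWithin_le_nhds

end matrix

end Crest.Agent.R249.HK5_905
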