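/-
Row 249, part C, leaf HK5 (helper905), file c: the convolution step of the Duhamel iteration.
-/
import Crest.Agent.R249.HK5b_905

set_option autoImplicit false

open MeasureTheory Filter Topology Set
open scoped ContDiff

noncomputable section

namespace Crest.Agent.R249.HK5_905

open Crest.Agent.R249.HK286 Crest.Agent.R249.HK1_654

section scalar
variable {ι : Type*} {M : Met ι} {r : ℝ}

/-- pairing of a time dependent function with `U` -/
def PP (M : Met ι) (h : ι → ℝ → E4 → ℝ) (U : E4 → ℝ) (i : ι) (s : ℝ) : ℝ := ∫ z, h i s z * U z * M.w i z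

/-- time convolution of the pairing -/
def TT (M : Met ι) (μ : ℝ) (h : ι → ℝ → E4 → ℝ) (U : E4 → ℝ) (i : ι) (t : ℝ) : ℝ :=
  ∫ s in Ioo 0 t, Real.exp (-(μ * (t - s))) * PP M h U i s

theorem vb_meas_z {h : ι → ℝ → E4 → ℝ} {a : ℝ} (hh : VB a h) (i : ι) (s : ℝ) : Measurable fun z => h i s z :=
  (hh.1 i).comp (measurable_prodMk_left (x := s))

theorem PP_meas {h : ι → ℝ → E4 → ℝ} (hh : VB 0 h) {U : E4 → ℝ} (hU : BU r U) (i : ι) :
    Measurable fun s => PP M h U i s := by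
  have h1 : Measurable fun z : ℝ × E4 => h i z.1 z.2 * U z.2 * M.w i z.2 :=
    ((hh.1 i).mul (hU.1.comp measurable_snd)).mul ((w_cont M i).measurable.comp measurable_snd)
  exact h1.stronglyMeasurable.integral_prod_right'.measurable

theorem PP_bound {h : ι → ℝ → E4 → ℝ} (hh : VB 0 h) {U : E4 → ℝ} (hU : BU r U) :
    ∃ C : ℝ, 0 ≤ C ∧ ∀ i, ∀ s ∈ Ioc (0 : ℝ) 1,
      Integrable (fun z => h i s z * U z * M.w i z) ∧ |PP M h U i s| ≤ C := by
  obtain ⟨C, hC, hb⟩ := vb_L1 (M := M) hh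
  obtain ⟨hUm, ⟨B, hB⟩, _⟩ := id hU
  have hB0 : 0 ≤ B := (abs_nonneg _).trans (hB 0)
  obtain ⟨W, hW, hWb⟩ := w_bound M
  refine ⟨B * C, by positivity, fun i s hs => ?_⟩
  obtain ⟨h1, h2⟩ := hb i s hs
  have hfw : Integrable (fun z => h i s z * M.w i z) := by
    refine (h1.norm.const_mul W).mono' (h1.aestronglyMeasurable.mul (w_cont M i).aestronglyMeasurable)
      (Eventually.of_forall fun z => ?_)
    rw [norm_mul, mul_comm]
    exact mul_le_mul_of_nonneg_right (by simpa using hWb i z) (norm_nonneg _)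
  have hpt : ∀ z, ‖h i s z * U z * M.w i z‖ ≤ B * |h i s z * M.w i z| := by
    intro z
    have : h i s z * U z * M.w i z = U z * (h i s z * M.w i z) := by ring
    rw [this, norm_mul, Real.norm_eq_abs, Real.norm_eq_abs]
    exact mul_le_mul_of_nonneg_right (hB z) (abs_nonneg _)
  have hint : Integrable (fun z => h i s z * U z * M.w i z) := by
    refine (hfw.abs.const_mul B).mono' ?_ (Eventually.of_forall hpt)
    exact (((vb_meas_z hh i s).mul hUm).mul (w_cont M i).measurable).aestronglyMeasurable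
  refine ⟨hint, ?_⟩
  have h3 := norm_integral_le_of_norm_le (hfw.abs.const_mul B) (Eventually.of_forall hpt)
  rw [Real.norm_eq_abs, integral_const_mul] at h3
  exact h3.trans (mul_le_mul_of_nonneg_left h2 hB0)

theorem TT_int {h : ι → ℝ → E4 → ℝ} (hh : VB 0 h) {U : E4 → ℝ} (hU : BU r U) (i : ι) {μ : ℝ} (hμ : 0 ≤ μ)
    {t : ℝ} (ht : t ∈ Ioc (0 : ℝ) 1) :
    IntegrableOn (fun s => Real.exp (-(μ * (t - s))) * PP M h U i s) (Ioo 0 t) := by
  obtain ⟨C, hC, hb⟩ := PP_bound (M := M) hh hU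
  have h0 : IntegrableOn (fun _ : ℝ => C) (Ioo 0 t) := integrableOn_const (by simp)
  refine h0.mono' ?_ ?_
  · exact ((by fun_prop : Measurable fun s : ℝ => Real.exp (-(μ * (t - s)))).mul
      (PP_meas hh hU i)).aestronglyMeasurable
  · filter_upwards [ae_restrict_mem measurableSet_Ioo] with s hs
    have hs1 : s ∈ Ioc (0 : ℝ) 1 := ⟨hs.1, hs.2.le.trans ht.2⟩
    rw [norm_mul, Real.norm_eq_abs, Real.norm_eq_abs, abs_of_pos (Real.exp_pos _)]
    have h1 : Real.exp (-(μ * (t - s))) ≤ 1 := by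
      rw [Real.exp_le_one_iff]
      have : 0 ≤ μ * (t - s) := mul_nonneg hμ (by linarith [hs.2])
      linarith
    calc _ ≤ 1 * C := mul_le_mul h1 (hb i s hs1).2 (abs_nonneg _) zero_le_one
      _ = C := one_mul C

theorem PP_congr {h h' : ι → ℝ → E4 → ℝ} {U : E4 → ℝ} {i : ι} {s : ℝ} (e : ∀ z, h i s z = h' i s z) :
    PP M h U i s = PP M h' U i s := by
  unfold PP
  simp only [e]

theorem TT_congr {h h' : ι → ℝ → E4 → ℝ} {U : E4 → ℝ} {i : ι} {μ t : ℝ}
    (e : ∀ s ∈ Ioo 0 t, ∀ z, h i s z = h' i s z) : TT M μ h U i t = TT M μ h' U i t := by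
  unfold TT
  refine setIntegral_congr_fun measurableSet_Ioo fun s hs => ?_
  show Real.exp _ * PP M h U i s = Real.exp _ * PP M h' U i s
  rw [PP_congr (e s hs)]

theorem PP_sum {α : Type*} (A : Finset α) {h : α → ι → ℝ → E4 → ℝ} (hh : ∀ b, VB 0 (h b)) {U : E4 → ℝ}
    (hU : BU r U) (i : ι) {s : ℝ} (hs : s ∈ Ioc (0 : ℝ) 1) :
    PP M (fun i t x => ∑ b ∈ A, h b i t x) U i s = ∑ b ∈ A, PP M (h b) U i s := by
  unfold PP
  rw [← integral_finsetSum A fun b _ => ?_]
  · refine integral_congr_ae (Eventually.of_forall fun z => ?_)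
    show (∑ b ∈ A, h b i s z) * U z * M.w i z = ∑ b ∈ A, h b i s z * U z * M.w i z
    rw [Finset.sum_mul, Finset.sum_mul]
  · obtain ⟨C, hC, hb⟩ := PP_bound (M := M) (hh b) hU
    exact (hb i s hs).1

theorem TT_sum {α : Type*} (A : Finset α) {h : α → ι → ℝ → E4 → ℝ} (hh : ∀ b, VB 0 (h b)) {U : E4 → ℝ}
    (hU : BU r U) (i : ι) {μ : ℝ} (hμ : 0 ≤ μ) {t : ℝ} (ht : t ∈ Ioc (0 : ℝ) 1) :
    TT M μ (fun i t x => ∑ b ∈ A, h b i t x) U i t = ∑ b ∈ A, TT M μ (h b) U i t := by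
  unfold TT
  rw [← integral_finsetSum A fun b _ => TT_int (hh b) hU i hμ ht]
  refine setIntegral_congr_fun measurableSet_Ioo fun s hs => ?_
  show Real.exp _ * PP M _ U i s = ∑ b ∈ A, Real.exp _ * PP M (h b) U i s
  rw [PP_sum A hh hU i ⟨hs.1, hs.2.le.trans ht.2⟩, Finset.mul_sum]

/-- swap of the time convolution and the space integral -/
theorem swapE {A : ℝ → E4 → ℝ} {C0 : ℝ} (hA : Measurable fun z : ℝ × E4 => A z.1 z.2)
    (hAb : ∀ t ∈ Ioc (0 : ℝ) 1, ∀ z, |A t z| ≤ C0 * (1 + (Real.sqrt t)⁻¹)) {f : ι → ℝ → E4 → ℝ}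
    (hf : VB 0 f) (i : ι) {s : ℝ} (hs : s ∈ Ioc (0 : ℝ) 1) {τ : ℝ} (hτ : τ ∈ Ioc (0 : ℝ) 1) {μ : ℝ} (hμ : 0 ≤ μ) :
    Integrable (fun z => (∫ σ in Ioo 0 τ, Real.exp (-(μ * (τ - σ))) * A σ z) * (f i s z * M.w i z)) ∧
    ∫ z, (∫ σ in Ioo 0 τ, Real.exp (-(μ * (τ - σ))) * A σ z) * (f i s z * M.w i z)
      = ∫ σ in Ioo 0 τ, Real.exp (-(μ * (τ - σ))) * ∫ z, A σ z * f i s z * M.w i z := by
  obtain ⟨C, hC, hb⟩ := vb_L1 (M := M) hf
  obtain ⟨h1, _⟩ := hb i s hs
  obtain ⟨W, hW, hWb⟩ := w_bound M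
  have hfw : Integrable (fun z => f i s z * M.w i z) := by
    refine (h1.norm.const_mul W).mono' (h1.aestronglyMeasurable.mul (w_cont M i).aestronglyMeasurable)
      (Eventually.of_forall fun z => ?_)
    rw [norm_mul, mul_comm]
    exact mul_le_mul_of_nonneg_right (by simpa using hWb i z) (norm_nonneg _)
  have hmeas : Measurable fun z : E4 × ℝ => Real.exp (-(μ * (τ - z.2))) * A z.2 z.1 * (f i s z.1 * M.w i z.1) := by
    refine Measurable.mul (Measurable.mul (by fun_prop) ?_) ?_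
    · have h2 : Measurable fun z : E4 × ℝ => ((z.2, z.1) : ℝ × E4) := by fun_prop
      exact hA.comp h2
    · exact ((vb_meas_z hf i s).mul (w_cont M i).measurable).comp measurable_fst
  have hint : Integrable (fun z : E4 × ℝ =>
      Real.exp (-(μ * (τ - z.2))) * A z.2 z.1 * (f i s z.1 * M.w i z.1))
      ((volume : Measure E4).prod (volume.restrict (Ioo 0 τ))) := by
    have hb2 : Integrable (fun σ : ℝ => C0 * (1 + (Real.sqrt σ)⁻¹)) (volume.restrict (Ioo 0 τ)) :=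
      (int_w hτ.1).const_mul C0
    refine (hfw.abs.mul_prod hb2).mono' hmeas.aestronglyMeasurable ?_
    have hae : ∀ᵐ z : E4 × ℝ ∂((volume : Measure E4).prod (volume.restrict (Ioo 0 τ))), z.2 ∈ Ioo 0 τ := by
      have h3 : (volume : Measure E4).prod (volume.restrict (Ioo 0 τ))
          = ((volume : Measure E4).prod volume).restrict (univ ×ˢ Ioo 0 τ) := by
        rw [← Measure.prod_restrict, Measure.restrict_univ]
      rw [h3]
      filter_upwards [ae_restrict_mem (MeasurableSet.univ.prod measurableSet_Ioo)] with z hz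
      exact hz.2
    filter_upwards [hae] with z hz
    have hz1 : z.2 ∈ Ioc (0 : ℝ) 1 := ⟨hz.1, hz.2.le.trans hτ.2⟩
    rw [norm_mul, norm_mul, Real.norm_eq_abs, Real.norm_eq_abs, Real.norm_eq_abs, abs_of_pos (Real.exp_pos _)]
    have h3 : Real.exp (-(μ * (τ - z.2))) ≤ 1 := by
      rw [Real.exp_le_one_iff]
      have : 0 ≤ μ * (τ - z.2) := mul_nonneg hμ (by linarith [hz.2])
      linarith
    calc Real.exp (-(μ * (τ - z.2))) * |A z.2 z.1| * |f i s z.1 * M.w i z.1|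
        ≤ (1 * (C0 * (1 + (Real.sqrt z.2)⁻¹))) * |f i s z.1 * M.w i z.1| :=
          mul_le_mul_of_nonneg_right (mul_le_mul h3 (hAb z.2 hz1 z.1) (abs_nonneg _) zero_le_one) (abs_nonneg _)
      _ = _ := by ring
  have e1 : ∀ z, (∫ σ in Ioo 0 τ, Real.exp (-(μ * (τ - σ))) * A σ z) * (f i s z * M.w i z)
      = ∫ σ in Ioo 0 τ, Real.exp (-(μ * (τ - σ))) * A σ z * (f i s z * M.w i z) := fun z =>
    (integral_mul_const _ _).symm
  simp only [e1]
  refine ⟨hint.integral_prod_left, ?_⟩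
  have hsw := integral_integral_swap (μ := (volume : Measure E4)) (ν := volume.restrict (Ioo 0 τ))
    (f := fun z σ => Real.exp (-(μ * (τ - σ))) * A σ z * (f i s z * M.w i z)) hint
  rw [hsw]
  refine setIntegral_congr_fun measurableSet_Ioo fun σ _ => ?_
  show _ = Real.exp (-(μ * (τ - σ))) * ∫ z, A σ z * f i s z * M.w i z
  rw [← integral_const_mul]
  refine integral_congr_ae (Eventually.of_forall fun z => ?_)
  show _ = _
  ring

/-- integrability in time of the inner double integral of `fub` -/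
theorem fub_int {A : ℝ → E4 → ℝ} {C0 : ℝ} (hA : Measurable fun z : ℝ × E4 => A z.1 z.2)
    (hAb : ∀ t ∈ Ioc (0 : ℝ) 1, ∀ z, |A t z| ≤ C0 * (1 + (Real.sqrt t)⁻¹)) {f : ι → ℝ → E4 → ℝ}
    (hf : VB 0 f) (i : ι) {t : ℝ} (ht : t ∈ Ioc (0 : ℝ) 1) :
    IntegrableOn (fun s => ∫ z, A (t - s) z * f i s z * M.w i z) (Ioo 0 t) := by
  obtain ⟨C, hC, hb⟩ := AAf_bound (M := M) hA hAb hf i
  have h0 : IntegrableOn (fun s : ℝ => C * (1 + 1 * (Real.sqrt (t - s))⁻¹)) (Ioo 0 t) :=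
    (outer_weight ht.1 1).1.const_mul C
  have hm : Measurable fun s : ℝ => ∫ z, A (t - s) z * f i s z * M.w i z := by
    have h1 := AAf_meas (M := M) hA hf i
    have h2 : Measurable fun s : ℝ => ((t - s, s) : ℝ × ℝ) := by fun_prop
    exact h1.comp h2
  refine h0.mono' hm.aestronglyMeasurable ?_
  filter_upwards [ae_restrict_mem measurableSet_Ioo] with s hs
  rw [one_mul]
  exact (hb s ⟨hs.1, hs.2.le.trans ht.2⟩ (t - s) ⟨by linarith [hs.2], by linarith [hs.1, ht.2]⟩).2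

/-- integrability of the left side of `dt` -/
theorem dt_int {B : ℝ → ℝ → ℝ} {C : ℝ} (hBm : Measurable fun z : ℝ × ℝ => B z.1 z.2)
    (hB : ∀ s ∈ Ioc (0 : ℝ) 1, ∀ σ ∈ Ioc (0 : ℝ) 1, |B σ s| ≤ C * (1 + (Real.sqrt σ)⁻¹))
    {μ : ℝ} (hμ : 0 ≤ μ) {t : ℝ} (ht : t ∈ Ioc (0 : ℝ) 1) :
    IntegrableOn (fun s => ∫ σ in Ioo 0 (t - s), Real.exp (-(μ * (t - s - σ))) * B σ s) (Ioo 0 t) := by
  set S : Set (ℝ × ℝ) := {z | 0 < z.1 ∧ 0 < z.2 ∧ z.1 + z.2 < t} with hS
  have hSm : MeasurableSet S :=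
    (measurableSet_lt measurable_const measurable_fst).inter
      ((measurableSet_lt measurable_const measurable_snd).inter
        (measurableSet_lt (measurable_fst.add measurable_snd) measurable_const))
  set G : ℝ × ℝ → ℝ := S.indicator fun z => Real.exp (-(μ * (t - z.1 - z.2))) * B z.2 z.1 with hG
  have hC0 : 0 ≤ C := by
    have := (abs_nonneg _).trans (hB 1 ⟨one_pos, le_rfl⟩ 1 ⟨one_pos, le_rfl⟩)
    simp at this
    linarith
  have hm0 : Measurable fun z : ℝ × ℝ => Real.exp (-(μ * (t - z.1 - z.2))) * B z.2 z.1 := by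
    refine Measurable.mul (by fun_prop) ?_
    have h2 : Measurable fun z : ℝ × ℝ => ((z.2, z.1) : ℝ × ℝ) := by fun_prop
    exact hBm.comp h2
  have hGm : Measurable G := hm0.indicator hSm
  have hGi : Integrable G ((volume : Measure ℝ).prod volume) := by
    have h1 : Integrable ((Ioo 0 t).indicator fun _ : ℝ => (1 : ℝ)) :=
      (integrable_indicator_iff measurableSet_Ioo).2 (integrableOn_const (by simp))
    have h2 : Integrable ((Ioo 0 t).indicator fun s : ℝ => C * (1 + (Real.sqrt s)⁻¹)) :=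
      (integrable_indicator_iff measurableSet_Ioo).2 ((int_w ht.1).const_mul C)
    refine (h1.mul_prod h2).mono' hGm.aestronglyMeasurable (Eventually.of_forall fun z => ?_)
    by_cases hz : z ∈ S
    · have hz1 : z.1 ∈ Ioo 0 t := ⟨hz.1, by linarith [hz.2.1, hz.2.2]⟩
      have hz2 : z.2 ∈ Ioo 0 t := ⟨hz.2.1, by linarith [hz.1, hz.2.2]⟩
      rw [hG, indicator_of_mem hz, indicator_of_mem hz1, indicator_of_mem hz2, one_mul, norm_mul,
        Real.norm_eq_abs, Real.norm_eq_abs, abs_of_pos (Real.exp_pos _)]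
      have h3 : Real.exp (-(μ * (t - z.1 - z.2))) ≤ 1 := by
        rw [Real.exp_le_one_iff]
        have : 0 ≤ μ * (t - z.1 - z.2) := mul_nonneg hμ (by linarith [hz.2.2])
        linarith
      have h4 := hB z.1 ⟨hz1.1, hz1.2.le.trans ht.2⟩ z.2 ⟨hz2.1, hz2.2.le.trans ht.2⟩
      calc _ ≤ 1 * |B z.2 z.1| := mul_le_mul_of_nonneg_right h3 (abs_nonneg _)
        _ ≤ _ := by rw [one_mul]; exact h4
    · rw [hG, indicator_of_notMem hz, norm_zero]
      refine mul_nonneg ?_ ?_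
      · exact indicator_nonneg (fun _ _ => zero_le_one) _
      · refine indicator_nonneg (fun s _ => ?_) _
        positivity
  have h5 := hGi.integral_prod_left
  refine h5.integrableOn.congr_fun (fun s hs => ?_) measurableSet_Ioo
  show ∫ σ, G (s, σ) = _
  rw [← integral_indicator measurableSet_Ioo]
  refine integral_congr_ae (Eventually.of_forall fun σ => ?_)
  by_cases hσ : σ ∈ Ioo 0 (t - s)
  · have h1 : (s, σ) ∈ S := ⟨hs.1, hσ.1, by linarith [hσ.2]⟩
    show G (s, σ) = indicator _ _ σ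
    rw [indicator_of_mem hσ, hG, indicator_of_mem h1]
  · have h1 : (s, σ) ∉ S := fun h => hσ ⟨h.2.1, by linarith [h.2.2]⟩
    show G (s, σ) = indicator _ _ σ
    rw [indicator_of_notMem hσ, hG, indicator_of_notMem h1]

end scalar

section matrix
variable {ι : Type*} {M : Met ι} {κ : Type} [Fintype κ] [DecidableEq κ] {R : ℝ} {c : Cut R} {D : Con M κ}
variable {K : Type} (S : Sys D R K)
variable (hC : Cal M) (hM : InpM M c) (hD : InpD c D)
include hC hM hD

/-- **the convolution step** -/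
theorem step (hR : 0 < R)
    (hk4 : ∀ (i : ι) (z : E4) (f : E4 → ℝ), Measurable f → (∃ B, ∀ x, |f x| ≤ B) → ContinuousAt f z →
      Tendsto (fun t => ∫ x, M.GG i t x z * f x * M.w i x) (𝓝[>] 0) (𝓝 (f z)))
    {m : ℕ} (hm : m ≤ 3) (i : ι) (k : K) (b : κ) {f : ι → ℝ → E4 → ℝ} (hf : VB 0 f)
    (hs : ∀ s z, f i s z ≠ 0 → c.ps m z = 1 ∧ ‖z‖ < 15 * R / 16) {t : ℝ} (ht : t ∈ Ioc (0 : ℝ) 1) :
    TT M (S.mu i k) f (uu S i k b) i t
      = PP M (M.star0 (M.HH c m) f) (uu S i k b) i t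
        - ∑ p, TT M (S.mu i k) (M.star0 (fun i t x z => D.eM c m i t x z p b) f) (uu S i k p) i t := by
  set μ := S.mu i k with hμ
  have hμ0 : 0 ≤ μ := S.mu_nonneg i k
  set E : ℝ → E4 → ℝ := fun σ z => Eb S c m i k b σ z with hE
  have hEm : Measurable fun z : ℝ × E4 => E z.1 z.2 := Eb_meas S hC hM hD hR m i k b
  obtain ⟨C0, hC0, hEb⟩ := Eb_bound S hC hM hD hR m i k b
  set B : ℝ → ℝ → ℝ := fun σ s => ∫ z, E σ z * f i s z * M.w i z with hB
  have hBm : Measurable fun z : ℝ × ℝ => B z.1 z.2 := AAf_meas (M := M) hEm hf i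
  obtain ⟨C1, hC1, hBb⟩ := AAf_bound (M := M) hEm hEb hf i
  have hBb' : ∀ s ∈ Ioc (0 : ℝ) 1, ∀ σ ∈ Ioc (0 : ℝ) 1, |B σ s| ≤ C1 * (1 + (Real.sqrt σ)⁻¹) :=
    fun s hs σ hσ => (hBb s hs σ hσ).2
  have hfub := fub (M := M) (kw_HH hC hM m) hf (uu_BU S hR i k b) i ht
  have hpp : PP M (M.star0 (M.HH c m) f) (uu S i k b) i t
      = ∫ s in Ioo 0 t, ∫ z, AA M (M.HH c m) (uu S i k b) i (t - s) z * f i s z * M.w i z := hfub
  obtain ⟨C2, hC2, hPb⟩ := PP_bound (M := M) hf (uu_BU S hR i k b)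
  -- the inner identity
  have hin : ∀ s ∈ Ioo 0 t, ∫ z, AA M (M.HH c m) (uu S i k b) i (t - s) z * f i s z * M.w i z
      = Real.exp (-(μ * (t - s))) * PP M f (uu S i k b) i s
        + ∫ σ in Ioo 0 (t - s), Real.exp (-(μ * (t - s - σ))) * B σ s := by
    intro s hs'
    have hs1 : s ∈ Ioc (0 : ℝ) 1 := ⟨hs'.1, hs'.2.le.trans ht.2⟩
    have hτ : t - s ∈ Ioc (0 : ℝ) 1 := ⟨by linarith [hs'.2], by linarith [hs'.1, ht.2]⟩
    obtain ⟨hi1, hi2⟩ := swapE (M := M) hEm hEb hf i hs1 hτ hμ0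
    have hpt : ∀ z, AA M (M.HH c m) (uu S i k b) i (t - s) z * f i s z * M.w i z
        = Real.exp (-(μ * (t - s))) * (f i s z * uu S i k b z * M.w i z)
          + (∫ σ in Ioo 0 (t - s), Real.exp (-(μ * (t - s - σ))) * E σ z) * (f i s z * M.w i z) := by
      intro z
      by_cases hz : f i s z = 0
      · rw [hz]; ring
      · obtain ⟨h1, h2⟩ := hs s z hz
        rw [duhamel S hC hM hD hR hk4 hm i k b h2 hτ, h1, one_mul, uu_eq S h2]
        ring
    simp only [hpt]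
    rw [integral_add ((hPb i s hs1).1.const_mul _) hi1, integral_const_mul, hi2]
    rfl
  have hT := TT_int (M := M) hf (uu_BU S hR i k b) i hμ0 ht
  have hDi := dt_int hBm hBb' hμ0 ht
  have hmain : PP M (M.star0 (M.HH c m) f) (uu S i k b) i t
      = TT M μ f (uu S i k b) i t
        + ∫ r in Ioo 0 t, Real.exp (-(μ * (t - r))) * ∫ s in Ioo 0 r, B (r - s) s := by
    rw [hpp, setIntegral_congr_fun measurableSet_Ioo hin, integral_add hT hDi, dt hBm hBb' hμ0 ht]
    rfl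
  have hlast : ∫ r in Ioo 0 t, Real.exp (-(μ * (t - r))) * ∫ s in Ioo 0 r, B (r - s) s
      = ∑ p, TT M μ (M.star0 (fun i t x z => D.eM c m i t x z p b) f) (uu S i k p) i t := by
    have hvb : ∀ p, VB 0 (M.star0 (fun i t x z => D.eM c m i t x z p b) f) := fun p =>
      hC.vb_mono _ _ _ (by norm_num) (hC.star0_vb 0 _ _ le_rfl (kw_eM hC hM hD m p b) hf)
    unfold TT
    rw [← integral_finsetSum Finset.univ fun p _ => TT_int (hvb p) (uu_BU S hR i k p) i hμ0 ht]
    refine setIntegral_congr_fun measurableSet_Ioo fun q hq => ?_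
    have hq1 : q ∈ Ioc (0 : ℝ) 1 := ⟨hq.1, hq.2.le.trans ht.2⟩
    show Real.exp (-(μ * (t - q))) * ∫ s in Ioo 0 q, B (q - s) s
      = ∑ p, Real.exp (-(μ * (t - q))) * PP M _ (uu S i k p) i q
    rw [← Finset.mul_sum]
    congr 1
    have e1 : ∀ p, PP M (M.star0 (fun i t x z => D.eM c m i t x z p b) f) (uu S i k p) i q
        = ∫ s in Ioo 0 q, ∫ z, AA M (fun i t x z => D.eM c m i t x z p b) (uu S i k p) i (q - s) z
            * f i s z * M.w i z := fun p =>
      fub (M := M) (kw_eM hC hM hD m p b) hf (uu_BU S hR i k p) i hq1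
    simp only [e1]
    have hAm : ∀ p, Measurable fun z : ℝ × E4 =>
        AA M (fun i t x z => D.eM c m i t x z p b) (uu S i k p) i z.1 z.2 := fun p =>
      AA_meas (M := M) (kw_eM hC hM hD m p b) (uu_BU S hR i k p) i
    choose C3 hC3 hAb using fun p => AA_bound (M := M) (kw_eM hC hM hD m p b) (uu_BU S hR i k p)
    rw [← integral_finsetSum Finset.univ fun p _ => fub_int (M := M) (hAm p) (hAb p i) hf i hq1]
    refine setIntegral_congr_fun measurableSet_Ioo fun s hs' => ?_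
    have hs1 : s ∈ Ioc (0 : ℝ) 1 := ⟨hs'.1, hs'.2.le.trans hq1.2⟩
    have hτ : q - s ∈ Ioc (0 : ℝ) 1 := ⟨by linarith [hs'.2], by linarith [hs'.1, hq1.2]⟩
    have hii : ∀ p, Integrable fun z => AA M (fun i t x z => D.eM c m i t x z p b) (uu S i k p) i (q - s) z
            * f i s z * M.w i z := by
      intro p
      obtain ⟨C4, hC4, h4⟩ := AAf_bound (M := M) (hAm p) (hAb p i) hf i
      exact (h4 s hs1 (q - s) hτ).1
    show (∫ z, E (q - s) z * f i s z * M.w i z) = ∑ p, ∫ z, _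
    rw [← integral_finsetSum Finset.univ fun p _ => hii p]
    refine integral_congr_ae (Eventually.of_forall fun z => ?_)
    show Eb S c m i k b (q - s) z * f i s z * M.w i z = ∑ p, _ * f i s z * M.w i z
    rw [← Finset.sum_mul, ← Finset.sum_mul]
    rfl
  rw [hmain, hlast]
  ring

end matrix

end Crest.Agent.R249.HK5_905
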