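/-
Row 249, part C, leaf HK5 (helper905), file d: the Duhamel formula for the explicit kernel `kk`, Parseval and
the statement `CoreStmt`.
-/
import Crest.Agent.R249.HK5c_905

set_option autoImplicit false

open MeasureTheory Filter Topology Set
open scoped ContDiff

noncomputable section

namespace Crest.Agent.R249.HK5_905

open Crest.Agent.R249.HK286 Crest.Agent.R249.HK1_654

/-- perturbation of an `ℓ²` norm -/
theorem l2_pert {K : Type*} {a e : K → ℝ} {A E : ℝ} (ha : HasSum (fun k => a k ^ 2) A)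
    (he : Summable fun k => e k ^ 2) (hE : ∑' k, e k ^ 2 ≤ E) {ε : ℝ} (hε : 0 < ε) :
    Summable (fun k => (a k - e k) ^ 2) ∧
    |∑' k, (a k - e k) ^ 2 - A| ≤ ε * A + (ε⁻¹ + 1) * E := by
  have hs : Summable fun k => (a k - e k) ^ 2 := by
    refine Summable.of_nonneg_of_le (fun k => sq_nonneg _) (fun k => ?_)
      ((ha.summable.mul_left 2).add (he.mul_left 2))
    nlinarith [sq_nonneg (a k + e k)]
  refine ⟨hs, ?_⟩
  have h1 : HasSum (fun k => (a k - e k) ^ 2 - a k ^ 2) (∑' k, (a k - e k) ^ 2 - A) := hs.hasSum.sub ha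
  have h2 : HasSum (fun k => ε * a k ^ 2 + (ε⁻¹ + 1) * e k ^ 2) (ε * A + (ε⁻¹ + 1) * ∑' k, e k ^ 2) :=
    (ha.mul_left ε).add (he.hasSum.mul_left (ε⁻¹ + 1))
  have h3 : ∀ k, ‖(a k - e k) ^ 2 - a k ^ 2‖ ≤ ε * a k ^ 2 + (ε⁻¹ + 1) * e k ^ 2 := by
    intro k
    rw [Real.norm_eq_abs, abs_le]
    have h4 : 2 * (a k * e k) ≤ ε * a k ^ 2 + ε⁻¹ * e k ^ 2 := by
      have h5 : 0 ≤ ε⁻¹ * (ε * a k - e k) ^ 2 := by positivity
      have h6 : ε⁻¹ * (ε * a k - e k) ^ 2 = ε * a k ^ 2 - 2 * (a k * e k) + ε⁻¹ * e k ^ 2 := by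
        field_simp
        ring
      linarith
    have h7 : -(2 * (a k * e k)) ≤ ε * a k ^ 2 + ε⁻¹ * e k ^ 2 := by
      have h5 : 0 ≤ ε⁻¹ * (ε * a k + e k) ^ 2 := by positivity
      have h6 : ε⁻¹ * (ε * a k + e k) ^ 2 = ε * a k ^ 2 + 2 * (a k * e k) + ε⁻¹ * e k ^ 2 := by
        field_simp
        ring
      linarith
    constructor
    · nlinarith [sq_nonneg (e k)]
    · nlinarith [sq_nonneg (e k)]
  have h4 := tsum_of_norm_bounded h2 h3
  rw [h1.tsum_eq, Real.norm_eq_abs] at h4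
  refine h4.trans ?_
  have : 0 ≤ ε⁻¹ + 1 := by positivity
  have := mul_le_mul_of_nonneg_left hE this
  linarith

/-- Cauchy-Schwarz in time -/
theorem cs_time {w : ℝ → ℝ} {t : ℝ} (ht : 0 < t) (h1 : IntegrableOn w (Ioo 0 t))
    (h2 : IntegrableOn (fun s => w s ^ 2) (Ioo 0 t)) :
    (∫ s in Ioo 0 t, w s) ^ 2 ≤ t * ∫ s in Ioo 0 t, w s ^ 2 := by
  set I := ∫ s in Ioo 0 t, w s with hI
  set J := ∫ s in Ioo 0 t, w s ^ 2 with hJ
  have h0 : ∫ s in Ioo 0 t, (w s - I / t) ^ 2 = J - 2 * (I / t) * I + (I / t) ^ 2 * t := by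
    have e1 : ∀ s, (w s - I / t) ^ 2 = (w s ^ 2 - 2 * (I / t) * w s) + (I / t) ^ 2 := fun s => by ring
    have h3 : IntegrableOn (fun s => 2 * (I / t) * w s) (Ioo 0 t) := h1.const_mul _
    have h4 : IntegrableOn (fun s => w s ^ 2 - 2 * (I / t) * w s) (Ioo 0 t) := h2.sub h3
    have h5 : IntegrableOn (fun _ : ℝ => (I / t) ^ 2) (Ioo 0 t) := integrableOn_const (by simp)
    have h6 : ∫ _s in Ioo 0 t, (I / t) ^ 2 = (I / t) ^ 2 * t := by
      simp [ht.le, mul_comm]
    simp only [e1]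
    rw [integral_add h4 h5, integral_sub h2 h3, integral_const_mul, h6]
  have h3 : 0 ≤ ∫ s in Ioo 0 t, (w s - I / t) ^ 2 := integral_nonneg fun s => sq_nonneg _
  rw [h0] at h3
  have h4 : J - 2 * (I / t) * I + (I / t) ^ 2 * t = J - I ^ 2 / t := by
    field_simp
    ring
  rw [h4] at h3
  have h5 : I ^ 2 / t ≤ J := by linarith
  rw [div_le_iff₀ ht] at h5
  linarith

section matrix
variable {ι : Type*} {M : Met ι} {κ : Type} [Fintype κ] [DecidableEq κ] {R : ℝ} {c : Cut R} {D : Con M κ}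

/-- supports -/
theorem star_zero {Kr : ι → ℝ → E4 → E4 → κ → κ → ℝ} {f : ι → ℝ → E4 → κ → κ → ℝ} {i : ι} {x : E4}
    (h : ∀ t z p r, Kr i t x z p r = 0) (t : ℝ) (p q : κ) : M.star Kr f i t x p q = 0 := by
  unfold Met.star
  simp [h]

theorem f1_zero {i : ι} {t : ℝ} {x : E4} (hx : 3 * R / 8 < ‖x‖) (p q : κ) : D.f1 c i t x p q = 0 := by
  unfold Con.f1
  refine eM_zero ?_ i t 0 p q
  push_cast; linarith

theorem f2_zero {i : ι} {t : ℝ} {x : E4} (hx : 5 * R / 8 < ‖x‖) (p q : κ) : D.f2 c i t x p q = 0 := by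
  unfold Con.f2
  refine star_zero (fun t z p r => eM_zero ?_ i t z p r) t p q
  push_cast; linarith

theorem f3_zero {i : ι} {t : ℝ} {x : E4} (hx : 7 * R / 8 < ‖x‖) (p q : κ) : D.f3 c i t x p q = 0 := by
  unfold Con.f3
  refine star_zero (fun t z p r => eM_zero ?_ i t z p r) t p q
  push_cast; linarith

theorem kk_zero (hR : 0 < R) {i : ι} {t : ℝ} {x : E4} (hx : 7 * R / 8 ≤ ‖x‖) (p q : κ) : D.kk c i t x p q = 0 := by
  unfold Con.kk
  have h1 : M.HH c 1 i t x 0 = 0 := HH_zero (by push_cast; linarith) i t 0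
  have h2 : M.star (sc (M.HH c 2)) (D.f1 c) i t x p q = 0 := by
    refine star_zero (fun t z p r => ?_) t p q
    unfold sc
    rw [HH_zero (by push_cast; linarith) i t z]; simp
  have h3 : M.star (sc (M.HH c 3)) (D.f2 c) i t x p q = 0 := by
    refine star_zero (fun t z p r => ?_) t p q
    unfold sc
    rw [HH_zero (by push_cast; linarith) i t z]; simp
  rw [h1, h2, h3]; simp

variable {K : Type} (S : Sys D R K)

/-- Parseval for functions of class `VB 0` at a fixed time -/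
theorem pars_vb (hR : 0 < R) {h : κ → ι → ℝ → E4 → ℝ} (hh : ∀ p, VB 0 (h p)) {i : ι} {s : ℝ}
    (hs : s ∈ Ioc (0 : ℝ) 1) (h0 : ∀ x p, 15 * R / 16 ≤ ‖x‖ → h p i s x = 0) :
    HasSum (fun k => (∑ p, PP M (h p) (uu S i k p) i s) ^ 2) (∫ x, (∑ p, h p i s x ^ 2) * M.w i x) := by
  have hB : Bdm R (fun x p => h p i s x) := by
    refine ⟨fun p => vb_meas_z (hh p) i s, ?_, 15 * R / 16, by linarith, h0⟩
    choose hm C c' hC hc' hb using hh
    refine ⟨∑ p, C p * (s ^ 2)⁻¹, fun x p => ?_⟩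
    have h1 := hb p i s hs x
    rw [Real.rpow_zero, mul_one] at h1
    have h2 : Gam (c' p) s x ≤ (s ^ 2)⁻¹ := by
      unfold Gam
      have h3 : Real.exp (-(c' p * ‖x‖ ^ 2 / s)) ≤ 1 := by
        rw [Real.exp_le_one_iff]
        have := hc' p
        have := hs.1
        have : 0 ≤ c' p * ‖x‖ ^ 2 / s := by positivity
        linarith
      calc _ ≤ (s ^ 2)⁻¹ * 1 := mul_le_mul_of_nonneg_left h3 (by positivity)
        _ = _ := mul_one _
    have h4 : |h p i s x| ≤ C p * (s ^ 2)⁻¹ := h1.trans (mul_le_mul_of_nonneg_left h2 (hC p))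
    refine h4.trans ?_
    exact Finset.single_le_sum (f := fun p => C p * (s ^ 2)⁻¹) (fun p _ => mul_nonneg (hC p) (by positivity))
      (Finset.mem_univ p)
  have hp := S.pars i _ hB
  have e1 : ∀ k, M.ip i (fun x p => h p i s x) (S.u i k) = ∑ p, PP M (h p) (uu S i k p) i s := by
    intro k
    rw [ip_eq S h0]
    unfold PP
    have hint : ∀ p, Integrable fun z => h p i s z * uu S i k p z * M.w i z := by
      intro p
      obtain ⟨C, hC, hb⟩ := PP_bound (M := M) (hh p) (uu_BU S hR i k p)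
      exact (hb i s hs).1
    rw [← integral_finsetSum Finset.univ fun p _ => hint p]
    refine integral_congr_ae (Eventually.of_forall fun x => ?_)
    show (∑ p, h p i s x * uu S i k p x) * M.w i x = ∑ p, h p i s x * uu S i k p x * M.w i x
    rw [Finset.sum_mul]
  have e2 : M.ip i (fun x p => h p i s x) (fun x p => h p i s x) = ∫ x, (∑ p, h p i s x ^ 2) * M.w i x := by
    unfold Met.ip
    refine integral_congr_ae (Eventually.of_forall fun x => ?_)
    show (∑ p, h p i s x * h p i s x) * M.w i x = (∑ p, h p i s x ^ 2) * M.w i x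
    simp only [pow_two]
  rw [e2] at hp
  simpa only [e1] using hp

variable (hC : Cal M) (hM : InpM M c) (hD : InpD c D)
include hC hM hD

theorem step_sum (hR : 0 < R)
    (hk4 : ∀ (i : ι) (z : E4) (f : E4 → ℝ), Measurable f → (∃ B, ∀ x, |f x| ≤ B) → ContinuousAt f z →
      Tendsto (fun t => ∫ x, M.GG i t x z * f x * M.w i x) (𝓝[>] 0) (𝓝 (f z)))
    {m : ℕ} (hm : m ≤ 3) (i : ι) (k : K) {F : ι → ℝ → E4 → κ → κ → ℝ}
    (hF : ∀ r q, VB 0 fun i t x => F i t x r q) (q : κ)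
    (hs : ∀ s z p, F i s z p q ≠ 0 → c.ps m z = 1 ∧ ‖z‖ < 15 * R / 16) {t : ℝ} (ht : t ∈ Ioc (0 : ℝ) 1) :
    ∑ p, TT M (S.mu i k) (fun i t x => F i t x p q) (uu S i k p) i t
      = ∑ p, PP M (M.star0 (M.HH c m) (fun i t x => F i t x p q)) (uu S i k p) i t
        - ∑ p, TT M (S.mu i k) (fun i t x => M.star (D.eM c m) F i t x p q) (uu S i k p) i t := by
  have hμ0 : 0 ≤ S.mu i k := S.mu_nonneg i k
  have h1 : ∀ p, TT M (S.mu i k) (fun i t x => F i t x p q) (uu S i k p) i t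
      = PP M (M.star0 (M.HH c m) (fun i t x => F i t x p q)) (uu S i k p) i t
        - ∑ r, TT M (S.mu i k) (M.star0 (fun i t x z => D.eM c m i t x z r p) (fun i t x => F i t x p q))
            (uu S i k r) i t := fun p =>
    step S hC hM hD hR hk4 hm i k p (hF p q) (fun s z hz => hs s z p hz) ht
  simp only [h1]
  rw [Finset.sum_sub_distrib, Finset.sum_comm]
  congr 1
  refine Finset.sum_congr rfl fun r _ => ?_
  have hvb : ∀ p, VB 0 (M.star0 (fun i t x z => D.eM c m i t x z r p) (fun i t x => F i t x p q)) := fun p =>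
    hC.vb_mono _ _ _ (by norm_num) (hC.star0_vb 0 _ _ le_rfl (kw_eM hC hM hD m r p) (hF p q))
  rw [← TT_sum Finset.univ (h := fun p => M.star0 (fun i t x z => D.eM c m i t x z r p)
    (fun i t x => F i t x p q)) hvb (uu_BU S hR i k r) i hμ0 ht]
  refine TT_congr fun s hs' z => ?_
  have hs1 : s ∈ Ioc (0 : ℝ) 1 := ⟨hs'.1, hs'.2.le.trans ht.2⟩
  exact (hC.star_eq (D.eM c m) F (kw_eM hC hM hD m) hF i s hs1 z r q).symm

theorem vb_kk (p q : κ) : VB 0 (fun i t x => D.kk c i t x p q) := by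
  have h1 : VB 0 (fun i t x => (if p = q then (1 : ℝ) else 0) * M.HH c 1 i t x 0) := hC.vb_smul 0 _ _ (hM.h0 1)
  have hk : ∀ m, ∀ p r : κ, KW (fun i t x z => (sc (M.HH c m) : ι → ℝ → E4 → E4 → κ → κ → ℝ) i t x z p r) := by
    intro m p r
    by_cases h : p = r
    · simpa [sc, h] using kw_HH hC hM m
    · simpa [sc, h] using (kw_zero : KW (fun (_ : ι) (_ : ℝ) (_ _ : E4) => (0 : ℝ)))
  have h2 : VB 0 (fun i t x => M.star (sc (M.HH c 2)) (D.f1 c) i t x p q) :=
    hC.vb_mono _ _ _ (by norm_num) (hC.star_vb 0 _ _ le_rfl (hk 2) (vb_f1 hC hM hD) p q)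
  have h3 : VB 0 (fun i t x => M.star (sc (M.HH c 3)) (D.f2 c) i t x p q) :=
    hC.vb_mono _ _ _ (by norm_num) (hC.star_vb 1 _ _ (by norm_num) (hk 3) (vb_f2 hC hM hD) p q)
  have h4 := hC.vb_add 0 _ _ (hC.vb_sub h1 h2) h3
  have e : (fun i t x => D.kk c i t x p q) = fun i t x => (if p = q then (1 : ℝ) else 0) * M.HH c 1 i t x 0
      - M.star (sc (M.HH c 2)) (D.f1 c) i t x p q + M.star (sc (M.HH c 3)) (D.f2 c) i t x p q := by
    funext i t x
    unfold Con.kk
    split_ifs <;> ring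
  rw [e]; exact h4

theorem vb_f3 (p q : κ) : VB (1 + 1) (fun i t x => D.f3 c i t x p q) := by
  have := hC.star_vb 1 (D.eM c 3) (D.f2 c) (by norm_num) (kw_eM hC hM hD 3) (vb_f2 hC hM hD) p q
  simpa [Con.f3] using this

/-- **the Duhamel formula** for one eigenfunction -/
theorem ident (hR : 0 < R)
    (hk4 : ∀ (i : ι) (z : E4) (f : E4 → ℝ), Measurable f → (∃ B, ∀ x, |f x| ≤ B) → ContinuousAt f z →
      Tendsto (fun t => ∫ x, M.GG i t x z * f x * M.w i x) (𝓝[>] 0) (𝓝 (f z)))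
    (i : ι) (k : K) (q : κ) {t : ℝ} (ht : t ∈ Ioc (0 : ℝ) 1) :
    Real.exp (-(S.mu i k * t)) * S.u i k 0 q
      = ∑ p, PP M (fun i t x => D.kk c i t x p q) (uu S i k p) i t
        - ∑ p, TT M (S.mu i k) (fun i t x => D.f3 c i t x p q) (uu S i k p) i t := by
  have hμ0 : 0 ≤ S.mu i k := S.mu_nonneg i k
  have hf1 := vb_f1 hC hM hD
  have hf2 : ∀ r q, VB 0 fun i t x => D.f2 c i t x r q := fun r q => vb10 hC hM hD (vb_f2 hC hM hD r q)
  -- first step
  have hz0 : ‖(0 : E4)‖ < 15 * R / 16 := by rw [norm_zero]; positivity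
  have hd := duhamel S hC hM hD hR hk4 (m := 1) (by norm_num) i k q hz0 ht
  have hps : c.ps 1 0 = 1 := c.one 1 0 (by rw [norm_zero]; push_cast; positivity)
  rw [hps, one_mul] at hd
  have e1 : ∫ σ in Ioo 0 t, Real.exp (-(S.mu i k * (t - σ))) * Eb S c 1 i k q σ 0
      = ∑ p, TT M (S.mu i k) (fun i t x => D.f1 c i t x p q) (uu S i k p) i t := by
    unfold TT
    rw [← integral_finsetSum Finset.univ fun p _ => TT_int (hf1 p q) (uu_BU S hR i k p) i hμ0 ht]
    refine setIntegral_congr_fun measurableSet_Ioo fun σ _ => ?_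
    show Real.exp _ * Eb S c 1 i k q σ 0 = ∑ p, Real.exp _ * PP M _ (uu S i k p) i σ
    rw [← Finset.mul_sum]
    rfl
  have e2 : AA M (M.HH c 1) (uu S i k q) i t 0 = PP M (h1 M c) (uu S i k q) i t := rfl
  rw [e1, e2] at hd
  -- second step
  have s2 := step_sum S hC hM hD hR hk4 (m := 2) (by norm_num) i k hf1 q (fun s z p hz => by
    have hz1 : ‖z‖ ≤ 3 * R / 8 := by
      by_contra h
      exact hz (f1_zero (not_le.1 h) p q)
    exact ⟨c.one 2 z (by push_cast; linarith), by linarith⟩) ht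
  have s3 := step_sum S hC hM hD hR hk4 (m := 3) (by norm_num) i k hf2 q (fun s z p hz => by
    have hz1 : ‖z‖ ≤ 5 * R / 8 := by
      by_contra h
      exact hz (f2_zero (not_le.1 h) p q)
    exact ⟨c.one 3 z (by push_cast; linarith), by linarith⟩) ht
  have e3 : ∀ p, TT M (S.mu i k) (fun i t x => M.star (D.eM c 2) (D.f1 c) i t x p q) (uu S i k p) i t
      = TT M (S.mu i k) (fun i t x => D.f2 c i t x p q) (uu S i k p) i t := fun p => rfl
  have e4 : ∀ p, TT M (S.mu i k) (fun i t x => M.star (D.eM c 3) (D.f2 c) i t x p q) (uu S i k p) i t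
      = TT M (S.mu i k) (fun i t x => D.f3 c i t x p q) (uu S i k p) i t := fun p => rfl
  simp only [e3] at s2
  simp only [e4] at s3
  -- the explicit kernel
  have hh2 : ∀ p, VB 0 (M.star0 (M.HH c 2) (fun i t x => D.f1 c i t x p q)) := fun p =>
    hC.vb_mono _ _ _ (by norm_num) (hC.star0_vb 0 _ _ le_rfl (kw_HH hC hM 2) (hf1 p q))
  have hh3 : ∀ p, VB 0 (M.star0 (M.HH c 3) (fun i t x => D.f2 c i t x p q)) := fun p =>
    hC.vb_mono _ _ _ (by norm_num) (hC.star0_vb 0 _ _ le_rfl (kw_HH hC hM 3) (hf2 p q))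
  have ekk : ∀ p, PP M (fun i t x => D.kk c i t x p q) (uu S i k p) i t
      = (if p = q then PP M (h1 M c) (uu S i k p) i t else 0)
        - PP M (M.star0 (M.HH c 2) (fun i t x => D.f1 c i t x p q)) (uu S i k p) i t
        + PP M (M.star0 (M.HH c 3) (fun i t x => D.f2 c i t x p q)) (uu S i k p) i t := by
    intro p
    obtain ⟨C1, _, b1⟩ := PP_bound (M := M) (hC.vb_smul 0 (if p = q then (1 : ℝ) else 0) _ (hM.h0 1))
      (uu_BU S hR i k p)
    obtain ⟨C2, _, b2⟩ := PP_bound (M := M) (hh2 p) (uu_BU S hR i k p)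
    obtain ⟨C3, _, b3⟩ := PP_bound (M := M) (hh3 p) (uu_BU S hR i k p)
    have e5 : ∀ z, D.kk c i t z p q * uu S i k p z * M.w i z
        = (((if p = q then (1 : ℝ) else 0) * M.HH c 1 i t z 0) * uu S i k p z * M.w i z
          - M.star0 (M.HH c 2) (fun i t x => D.f1 c i t x p q) i t z * uu S i k p z * M.w i z)
          + M.star0 (M.HH c 3) (fun i t x => D.f2 c i t x p q) i t z * uu S i k p z * M.w i z := by
      intro z
      have a1 := star_sc hC hM hD (i := i) (kw_HH hC hM 2) hf1 ht z p q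
      have a2 := star_sc hC hM hD (i := i) (kw_HH hC hM 3) hf2 ht z p q
      unfold Con.kk
      rw [a1, a2]
      split_ifs <;> ring
    have e6 : (if p = q then PP M (h1 M c) (uu S i k p) i t else 0)
        = ∫ z, ((if p = q then (1 : ℝ) else 0) * M.HH c 1 i t z 0) * uu S i k p z * M.w i z := by
      by_cases hpq : p = q
      · simp only [hpq, if_true, one_mul]
        rfl
      · simp [hpq]
    have hsub : Integrable fun z => ((if p = q then (1 : ℝ) else 0) * M.HH c 1 i t z 0) * uu S i k p z * M.w i z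
          - M.star0 (M.HH c 2) (fun i t x => D.f1 c i t x p q) i t z * uu S i k p z * M.w i z :=
      ((b1 i t ht).1).sub ((b2 i t ht).1)
    rw [e6]
    unfold PP
    simp only [e5]
    rw [integral_add hsub ((b3 i t ht).1), integral_sub ((b1 i t ht).1) ((b2 i t ht).1)]
  have ekks : ∑ p, PP M (fun i t x => D.kk c i t x p q) (uu S i k p) i t
      = PP M (h1 M c) (uu S i k q) i t
        - ∑ p, PP M (M.star0 (M.HH c 2) (fun i t x => D.f1 c i t x p q)) (uu S i k p) i t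
        + ∑ p, PP M (M.star0 (M.HH c 3) (fun i t x => D.f2 c i t x p q)) (uu S i k p) i t := by
    simp only [ekk]
    rw [Finset.sum_add_distrib, Finset.sum_sub_distrib]
    simp
  rw [ekks]
  linarith

/-- the error terms are small in `ℓ²` -/
theorem err_l2 (hR : 0 < R) (q : κ) : ∃ C : ℝ, ∀ i, ∀ t ∈ Ioc (0 : ℝ) 1,
    Summable (fun k => (∑ p, TT M (S.mu i k) (fun i t x => D.f3 c i t x p q) (uu S i k p) i t) ^ 2) ∧
    ∑' k, (∑ p, TT M (S.mu i k) (fun i t x => D.f3 c i t x p q) (uu S i k p) i t) ^ 2 ≤ C * t ^ 4 := by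
  have hf3 := vb_f3 hC hM hD
  have hf30 : ∀ r q, VB 0 fun i t x => D.f3 c i t x r q := fun r q => hC.vb_mono _ _ _ (by norm_num) (hf3 r q)
  choose hI C hCb using fun p => hC.int_mul (1 + 1) (1 + 1) _ _ (by norm_num) (by norm_num) (hf3 p q) (hf3 p q)
  refine ⟨∑ p, |C p|, fun i t ht => ?_⟩
  -- the energy bound
  have hen : ∀ s ∈ Ioo 0 t, ∫ x, (∑ p, D.f3 c i s x p q ^ 2) * M.w i x ≤ (∑ p, |C p|) * t ^ 2 := by
    intro s hs
    have hs1 : s ∈ Ioc (0 : ℝ) 1 := ⟨hs.1, hs.2.le.trans ht.2⟩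
    have e1 : ∫ x, (∑ p, D.f3 c i s x p q ^ 2) * M.w i x
        = ∑ p, ∫ x, D.f3 c i s x p q * D.f3 c i s x p q * M.w i x := by
      rw [← integral_finsetSum Finset.univ fun p _ => hI p i s hs1]
      refine integral_congr_ae (Eventually.of_forall fun x => ?_)
      show (∑ p, D.f3 c i s x p q ^ 2) * M.w i x = ∑ p, D.f3 c i s x p q * D.f3 c i s x p q * M.w i x
      rw [Finset.sum_mul]
      simp only [pow_two]
    rw [e1, Finset.sum_mul]
    refine Finset.sum_le_sum fun p _ => ?_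
    have h1 := (le_abs_self _).trans (hCb p i s hs1)
    refine h1.trans ?_
    have h2 : s ^ ((1 : ℝ) + 1 + (1 + 1) - 2) = s ^ 2 := by
      rw [← Real.rpow_natCast]; norm_num
    rw [h2]
    calc C p * s ^ 2 ≤ |C p| * s ^ 2 := mul_le_mul_of_nonneg_right (le_abs_self _) (by positivity)
      _ ≤ |C p| * t ^ 2 := by
        refine mul_le_mul_of_nonneg_left ?_ (abs_nonneg _)
        have := hs.1
        have := hs.2.le
        gcongr
  have hg : ∀ s ∈ Ioo 0 t, HasSum (fun k => (∑ p, PP M (fun i t x => D.f3 c i t x p q) (uu S i k p) i s) ^ 2)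
      (∫ x, (∑ p, D.f3 c i s x p q ^ 2) * M.w i x) := by
    intro s hs
    have hs1 : s ∈ Ioc (0 : ℝ) 1 := ⟨hs.1, hs.2.le.trans ht.2⟩
    exact pars_vb S hR (h := fun p i t x => D.f3 c i t x p q) (fun p => hf30 p q) hs1
      (fun x p hx => f3_zero (by linarith) p q)
  set g : K → ℝ → ℝ := fun k s => ∑ p, PP M (fun i t x => D.f3 c i t x p q) (uu S i k p) i s with hgdef
  have hgm : ∀ k, Measurable (g k) := fun k =>
    Finset.measurable_fun_sum _ fun p _ => PP_meas (hf30 p q) (uu_BU S hR i k p) i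
  have hgb : ∀ k, ∀ s ∈ Ioo 0 t, g k s ^ 2 ≤ (∑ p, |C p|) * t ^ 2 := by
    intro k s hs
    have h1 := hg s hs
    have h2 : g k s ^ 2 ≤ ∫ x, (∑ p, D.f3 c i s x p q ^ 2) * M.w i x :=
      le_hasSum h1 k fun j _ => sq_nonneg _
    exact h2.trans (hen s hs)
  have hg2 : ∀ k, IntegrableOn (fun s => g k s ^ 2) (Ioo 0 t) := by
    intro k
    have h0 : IntegrableOn (fun _ : ℝ => (∑ p, |C p|) * t ^ 2) (Ioo 0 t) := integrableOn_const (by simp)
    refine h0.mono' ((hgm k).pow_const 2).aestronglyMeasurable ?_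
    filter_upwards [ae_restrict_mem measurableSet_Ioo] with s hs
    rw [Real.norm_of_nonneg (sq_nonneg _)]
    exact hgb k s hs
  have he : ∀ k, (∑ p, TT M (S.mu i k) (fun i t x => D.f3 c i t x p q) (uu S i k p) i t) ^ 2
      ≤ t * ∫ s in Ioo 0 t, g k s ^ 2 := by
    intro k
    have hμ0 : 0 ≤ S.mu i k := S.mu_nonneg i k
    have e1 : ∑ p, TT M (S.mu i k) (fun i t x => D.f3 c i t x p q) (uu S i k p) i t
        = ∫ s in Ioo 0 t, Real.exp (-(S.mu i k * (t - s))) * g k s := by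
      unfold TT
      rw [← integral_finsetSum Finset.univ fun p _ => TT_int (hf30 p q) (uu_BU S hR i k p) i hμ0 ht]
      refine setIntegral_congr_fun measurableSet_Ioo fun s _ => ?_
      show ∑ p, Real.exp _ * PP M _ (uu S i k p) i s = Real.exp _ * g k s
      rw [← Finset.mul_sum]
    have hle : ∀ s ∈ Ioo 0 t, (Real.exp (-(S.mu i k * (t - s))) * g k s) ^ 2 ≤ g k s ^ 2 := by
      intro s hs
      have h1 : Real.exp (-(S.mu i k * (t - s))) ≤ 1 := by
        rw [Real.exp_le_one_iff]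
        have : 0 ≤ S.mu i k * (t - s) := mul_nonneg hμ0 (by linarith [hs.2])
        linarith
      have h2 : 0 < Real.exp (-(S.mu i k * (t - s))) := Real.exp_pos _
      rw [mul_pow]
      have h3 : Real.exp (-(S.mu i k * (t - s))) ^ 2 ≤ 1 := pow_le_one₀ h2.le h1
      calc _ ≤ 1 * g k s ^ 2 := mul_le_mul_of_nonneg_right h3 (sq_nonneg _)
        _ = _ := one_mul _
    have hmw : Measurable fun s => Real.exp (-(S.mu i k * (t - s))) * g k s :=
      (by fun_prop : Measurable fun s : ℝ => Real.exp (-(S.mu i k * (t - s)))).mul (hgm k)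
    have hw2 : IntegrableOn (fun s => (Real.exp (-(S.mu i k * (t - s))) * g k s) ^ 2) (Ioo 0 t) := by
      refine (hg2 k).mono' (hmw.pow_const 2).aestronglyMeasurable ?_
      filter_upwards [ae_restrict_mem measurableSet_Ioo] with s hs
      rw [Real.norm_of_nonneg (sq_nonneg _)]
      exact hle s hs
    have hw1 : IntegrableOn (fun s => Real.exp (-(S.mu i k * (t - s))) * g k s) (Ioo 0 t) := by
      have h0 : IntegrableOn (fun s : ℝ => 1 + g k s ^ 2) (Ioo 0 t) := (integrableOn_const (by simp)).add (hg2 k)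
      refine h0.mono' hmw.aestronglyMeasurable ?_
      filter_upwards [ae_restrict_mem measurableSet_Ioo] with s hs
      have h1 := hle s hs
      rw [Real.norm_eq_abs]
      have h2 := sq_abs (Real.exp (-(S.mu i k * (t - s))) * g k s)
      nlinarith [sq_nonneg (|Real.exp (-(S.mu i k * (t - s))) * g k s| - 1),
        abs_nonneg (Real.exp (-(S.mu i k * (t - s))) * g k s)]
    rw [e1]
    refine (cs_time ht.1 hw1 hw2).trans (mul_le_mul_of_nonneg_left ?_ ht.1.le)
    exact setIntegral_mono_on hw2 (hg2 k) measurableSet_Ioo hle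
  have hfin : ∀ A : Finset K, ∑ k ∈ A, (∑ p, TT M (S.mu i k) (fun i t x => D.f3 c i t x p q) (uu S i k p) i t) ^ 2
      ≤ (∑ p, |C p|) * t ^ 4 := by
    intro A
    calc _ ≤ ∑ k ∈ A, t * ∫ s in Ioo 0 t, g k s ^ 2 := Finset.sum_le_sum fun k _ => he k
      _ = t * ∫ s in Ioo 0 t, ∑ k ∈ A, g k s ^ 2 := by
        rw [← Finset.mul_sum, integral_finsetSum A fun k _ => hg2 k]
      _ ≤ t * ∫ s in Ioo 0 t, (∑ p, |C p|) * t ^ 2 := by
        refine mul_le_mul_of_nonneg_left ?_ ht.1.le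
        refine setIntegral_mono_on (integrable_finsetSum _ fun k _ => hg2 k) (integrableOn_const (by simp))
          measurableSet_Ioo fun s hs => ?_
        exact (sum_le_hasSum A (fun k _ => sq_nonneg _) (hg s hs)).trans (hen s hs)
      _ = (∑ p, |C p|) * t ^ 4 := by
        simp [ht.1.le]
        ring
  have hsum : Summable (fun k => (∑ p, TT M (S.mu i k) (fun i t x => D.f3 c i t x p q) (uu S i k p) i t) ^ 2) :=
    summable_of_sum_le (fun k => sq_nonneg _) hfin
  exact ⟨hsum, hsum.tsum_le_of_sum_le hfin⟩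

/-- one column -/
theorem column (hR : 0 < R)
    (hk4 : ∀ (i : ι) (z : E4) (f : E4 → ℝ), Measurable f → (∃ B, ∀ x, |f x| ≤ B) → ContinuousAt f z →
      Tendsto (fun t => ∫ x, M.GG i t x z * f x * M.w i x) (𝓝[>] 0) (𝓝 (f z))) (q : κ) :
    ∃ C : ℝ, ∀ i, ∀ t ∈ Ioc (0 : ℝ) 1,
      Summable (fun k => (Real.exp (-(S.mu i k * t)) * S.u i k 0 q) ^ 2) ∧
      |∑' k, (Real.exp (-(S.mu i k * t)) * S.u i k 0 q) ^ 2
        - ∫ x, (∑ p, D.kk c i t x p q ^ 2) * M.w i x| ≤ C * t := by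
  obtain ⟨C1, h1⟩ := err_l2 S hC hM hD hR q
  have hkk := vb_kk hC hM hD
  choose hI C hCb using fun p => hC.int_mul 0 0 _ _ le_rfl le_rfl (hkk p q) (hkk p q)
  refine ⟨(∑ p, |C p|) + 2 * |C1|, fun i t ht => ?_⟩
  obtain ⟨hs, hb⟩ := h1 i t ht
  have hpar := pars_vb S hR (h := fun p i t x => D.kk c i t x p q) (fun p => hkk p q) (i := i) ht
      (fun x p hx => kk_zero hR (by linarith) p q)
  have hE : ∑' k, (∑ p, TT M (S.mu i k) (fun i t x => D.f3 c i t x p q) (uu S i k p) i t) ^ 2 ≤ |C1| * t ^ 4 :=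
    hb.trans (mul_le_mul_of_nonneg_right (le_abs_self _) (by have := ht.1; positivity))
  have ht3 : 0 < t ^ 3 := pow_pos ht.1 3
  obtain ⟨g1, g2⟩ := l2_pert hpar hs hE ht3
  have e1 : ∀ k, Real.exp (-(S.mu i k * t)) * S.u i k 0 q
      = ∑ p, PP M (fun i t x => D.kk c i t x p q) (uu S i k p) i t
        - ∑ p, TT M (S.mu i k) (fun i t x => D.f3 c i t x p q) (uu S i k p) i t := fun k =>
    ident S hC hM hD hR hk4 i k q ht
  simp only [e1]
  refine ⟨g1, g2.trans ?_⟩
  -- the bound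
  have hA : ∫ x, (∑ p, D.kk c i t x p q ^ 2) * M.w i x ≤ (∑ p, |C p|) * (t ^ 2)⁻¹ := by
    have e2 : ∫ x, (∑ p, D.kk c i t x p q ^ 2) * M.w i x
        = ∑ p, ∫ x, D.kk c i t x p q * D.kk c i t x p q * M.w i x := by
      rw [← integral_finsetSum Finset.univ fun p _ => hI p i t ht]
      refine integral_congr_ae (Eventually.of_forall fun x => ?_)
      show (∑ p, D.kk c i t x p q ^ 2) * M.w i x = ∑ p, D.kk c i t x p q * D.kk c i t x p q * M.w i x
      rw [Finset.sum_mul]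
      simp only [pow_two]
    rw [e2, Finset.sum_mul]
    refine Finset.sum_le_sum fun p _ => ?_
    have h3 := (le_abs_self _).trans (hCb p i t ht)
    refine h3.trans ?_
    have h4 : t ^ ((0 : ℝ) + 0 - 2) = (t ^ 2)⁻¹ := by
      rw [show (0 : ℝ) + 0 - 2 = -(2 : ℕ) by norm_num, Real.rpow_neg ht.1.le, Real.rpow_natCast]
    rw [h4]
    exact mul_le_mul_of_nonneg_right (le_abs_self _) (by positivity)
  have ht0 := ht.1
  have hCn : 0 ≤ ∑ p, |C p| := Finset.sum_nonneg fun p _ => abs_nonneg _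
  have b1 : t ^ 3 * ∫ x, (∑ p, D.kk c i t x p q ^ 2) * M.w i x ≤ (∑ p, |C p|) * t := by
    calc _ ≤ t ^ 3 * ((∑ p, |C p|) * (t ^ 2)⁻¹) := mul_le_mul_of_nonneg_left hA ht3.le
      _ = (∑ p, |C p|) * t := by
        field_simp
  have b2 : ((t ^ 3)⁻¹ + 1) * (|C1| * t ^ 4) ≤ 2 * |C1| * t := by
    have e3 : ((t ^ 3)⁻¹ + 1) * (|C1| * t ^ 4) = |C1| * t + |C1| * t ^ 4 := by
      field_simp
    rw [e3]
    have h5 : t ^ 4 ≤ t := by
      have := pow_le_pow_of_le_one ht0.le ht.2 (show 1 ≤ 4 by norm_num)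
      simpa using this
    have := mul_le_mul_of_nonneg_left h5 (abs_nonneg C1)
    linarith
  have b3 := add_le_add b1 b2
  rw [← add_mul] at b3
  exact b3

/-- **HK5** -/
theorem core (hR : 0 < R)
    (hk4 : ∀ (i : ι) (z : E4) (f : E4 → ℝ), Measurable f → (∃ B, ∀ x, |f x| ≤ B) → ContinuousAt f z →
      Tendsto (fun t => ∫ x, M.GG i t x z * f x * M.w i x) (𝓝[>] 0) (𝓝 (f z))) : CoreStmt c D := by
  intro K' _ S'
  choose C hCb using fun q => column S' hC hM hD hR hk4 q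
  have hkk := vb_kk hC hM hD
  refine ⟨∑ q, C q, fun i t ht => ?_⟩
  have hs : ∀ q, Summable (fun k => (Real.exp (-(S'.mu i k * t)) * S'.u i k 0 q) ^ 2) := fun q =>
    (hCb q i t ht).1
  have hb := fun q => (hCb q i t ht).2
  have e1 : ∀ k, Real.exp (-(2 * t * S'.mu i k)) * ∑ p, S'.u i k 0 p ^ 2
      = ∑ q, (Real.exp (-(S'.mu i k * t)) * S'.u i k 0 q) ^ 2 := by
    intro k
    rw [Finset.mul_sum]
    refine Finset.sum_congr rfl fun q _ => ?_
    rw [mul_pow, ← Real.exp_nat_mul]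
    congr 2
    push_cast
    ring
  have hH := hasSum_sum (s := Finset.univ) fun (q : κ) _ => (hs q).hasSum
  have hdiag : S'.diag i t = ∑ q, ∑' k, (Real.exp (-(S'.mu i k * t)) * S'.u i k 0 q) ^ 2 := by
    unfold Sys.diag
    simp only [e1]
    exact hH.tsum_eq
  refine ⟨?_, ?_⟩
  · simp only [e1]
    exact hH.summable
  · have hI : ∀ p q, Integrable fun x => D.kk c i t x p q * D.kk c i t x p q * M.w i x := fun p q =>
      (hC.int_mul 0 0 _ _ le_rfl le_rfl (hkk p q) (hkk p q)).1 i t ht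
    have e2 : ∫ x, (∑ p, ∑ q, D.kk c i t x p q ^ 2) * M.w i x
        = ∑ q, ∫ x, (∑ p, D.kk c i t x p q ^ 2) * M.w i x := by
      rw [← integral_finsetSum Finset.univ fun q _ => ?_]
      · refine integral_congr_ae (Eventually.of_forall fun x => ?_)
        show (∑ p, ∑ q, D.kk c i t x p q ^ 2) * M.w i x = ∑ q, (∑ p, D.kk c i t x p q ^ 2) * M.w i x
        rw [Finset.sum_comm, Finset.sum_mul]
      · have h1 : Integrable fun x => ∑ p, D.kk c i t x p q * D.kk c i t x p q * M.w i x :=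
          integrable_finsetSum _ fun p _ => hI p q
        refine h1.congr (Eventually.of_forall fun x => ?_)
        show ∑ p, D.kk c i t x p q * D.kk c i t x p q * M.w i x = (∑ p, D.kk c i t x p q ^ 2) * M.w i x
        rw [Finset.sum_mul]
        simp only [pow_two]
    rw [hdiag, e2, ← Finset.sum_sub_distrib, Finset.sum_mul]
    exact (Finset.abs_sum_le_sum_abs _ _).trans (Finset.sum_le_sum fun q _ => hb q)

end matrix

end Crest.Agent.R249.HK5_905
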