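import Crest.Agent.R249.HKDef_286

/-!
# Row 249, PART C: interface between HK8 (chart version, 908) and HK9 (helper714): DEFINITIONS

Data on an OPEN set `V` of `E4` (everything is only meaningful on `V`).
* `CMet V`      : metric `g`, inverse `h`, density `w = √det g`, smooth on `V`;
* `CCon V κ`    : skew connection matrices `a j`, symmetric potential `P`, smooth on `V` (NO gauge condition);
* `CCon.cov`, `CCon.F`, `CCon.dens` : covariant derivative, curvature, limit density;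
* `TstV V f`    : test vector functions, `BdmV V f` : bounded measurable, zero off a compact subset of `V`;
* `CSys m A K`  : smooth (on `V`) Parseval system with the FIRST ORDER weak eigen-equation;
* `ChartStmt`   : the statement of HK8 as used by HK9.
-/

set_option autoImplicit false
open scoped ContDiff Topology
open MeasureTheory Set Filter
open Crest.Agent.R249.HK286 (E4 pd)

namespace Crest.Agent.R249.HK9_714

/-- a metric on the open set `V` -/
structure CMet (V : Set E4) where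
  g : Fin 4 → Fin 4 → E4 → ℝ
  h : Fin 4 → Fin 4 → E4 → ℝ
  w : E4 → ℝ
  smg : ∀ a b, ContDiffOn ℝ ∞ (g a b) V
  smh : ∀ a b, ContDiffOn ℝ ∞ (h a b) V
  smw : ContDiffOn ℝ ∞ w V
  gsymm : ∀ a b, ∀ x ∈ V, g a b x = g b a x
  hsymm : ∀ a b, ∀ x ∈ V, h a b x = h b a x
  inv : ∀ a b, ∀ x ∈ V, ∑ c, h a c x * g c b x = if a = b then 1 else 0
  pos : ∀ x ∈ V, ∀ v : Fin 4 → ℝ, v ≠ 0 → 0 < ∑ a, ∑ b, g a b x * v a * v b
  wpos : ∀ x ∈ V, 0 < w x
  wdet : ∀ x ∈ V, w x ^ 2 = Matrix.det (Matrix.of fun a b => g a b x)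

/-- a metric connection with potential on the open set `V` -/
structure CCon (V : Set E4) (κ : Type) [Fintype κ] where
  a : Fin 4 → κ → κ → E4 → ℝ
  P : κ → κ → E4 → ℝ
  sma : ∀ j p q, ContDiffOn ℝ ∞ (a j p q) V
  smP : ∀ p q, ContDiffOn ℝ ∞ (P p q) V
  askew : ∀ j p q, ∀ x ∈ V, a j p q x = - a j q p x
  Psymm : ∀ p q, ∀ x ∈ V, P p q x = P q p x

section
variable {V : Set E4} {κ : Type} [Fintype κ]

/-- `((∂_l + a_l) f)_p` -/
noncomputable def CCon.cov (A : CCon V κ) (l : Fin 4) (f : E4 → κ → ℝ) (x : E4) (p : κ) : ℝ :=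
  pd l (fun y => f y p) x + ∑ q, A.a l p q x * f x q

/-- the curvature `F_jl = ∂_j a_l - ∂_l a_j + [a_j, a_l]` -/
noncomputable def CCon.F (A : CCon V κ) (j l : Fin 4) (p q : κ) (x : E4) : ℝ :=
  pd j (A.a l p q) x - pd l (A.a j p q) x
    + ∑ r, (A.a j p r x * A.a l r q x - A.a l p r x * A.a j r q x)

/-- `(1/32π²) tr P² + (1/192π²) h^{jk} h^{lm} tr (F_jl F_km)` -/
noncomputable def CCon.dens (A : CCon V κ) (h : Fin 4 → Fin 4 → E4 → ℝ) (x : E4) : ℝ :=
  1 / (32 * Real.pi ^ 2) * (∑ p, ∑ q, A.P p q x * A.P q p x)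
  + 1 / (192 * Real.pi ^ 2) * ∑ j, ∑ k, ∑ l, ∑ m, h j k x * h l m x *
      ∑ p, ∑ q, A.F j l p q x * A.F k m q p x

/-- test vector functions supported in a compact subset of `V` -/
def TstV (V : Set E4) (f : E4 → κ → ℝ) : Prop :=
  (∀ p, ContDiff ℝ ∞ fun x => f x p) ∧ ∃ C, IsCompact C ∧ C ⊆ V ∧ ∀ x, x ∉ C → ∀ p, f x p = 0

/-- bounded measurable vector functions supported in a compact subset of `V` -/
def BdmV (V : Set E4) (f : E4 → κ → ℝ) : Prop :=
  (∀ p, Measurable fun x => f x p) ∧ (∃ B : ℝ, ∀ x p, |f x p| ≤ B) ∧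
    ∃ C, IsCompact C ∧ C ⊆ V ∧ ∀ x, x ∉ C → ∀ p, f x p = 0

/-- A Parseval system of eigenfunctions on `V`: first order weak equation
`∫ (h^{jl} ⟨(∂_j + a_j) u_k, (∂_l + a_l) f⟩ + ⟨P u_k, f⟩) w = μ_k ∫ ⟨u_k, f⟩ w`. -/
structure CSys (m : CMet V) (A : CCon V κ) (K : Type) where
  u : K → E4 → κ → ℝ
  mu : K → ℝ
  mu_nonneg : ∀ k, 0 ≤ mu k
  sm : ∀ k p, ContDiffOn ℝ ∞ (fun x => u k x p) V
  eig : ∀ k f, TstV V f →
    ∫ x, (∑ j, ∑ l, m.h j l x * ∑ p, A.cov j (u k) x p * A.cov l f x p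
        + ∑ p, ∑ q, A.P p q x * u k x q * f x p) * m.w x
      = mu k * ∫ x, (∑ p, f x p * u k x p) * m.w x
  pars : ∀ f, BdmV V f →
    HasSum (fun k => (∫ x, (∑ p, f x p * u k x p) * m.w x) ^ 2) (∫ x, (∑ p, f x p * f x p) * m.w x)

/-- diagonal value of the spectral sum at `x`: `∑_k e^{-2 t μ_k} |u_k(x)|²` -/
noncomputable def CSys.diag {m : CMet V} {A : CCon V κ} {K : Type} (S : CSys m A K) (t : ℝ) (x : E4) : ℝ :=
  ∑' k, Real.exp (-(2 * t * S.mu k)) * ∑ p, S.u k x p ^ 2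

end

/-- HK8 (from `HK286.MainStmt`): two systems over the same metric on `V`, same rank, same trace of the
potentials: bounds uniform on compact subsets of `V`, limit at every point of `V`. -/
def ChartStmt : Prop :=
  ∀ (V : Set E4), IsOpen V → ∀ (m : CMet V) (κ κ' : Type) [Fintype κ] [Fintype κ']
    (A : CCon V κ) (A' : CCon V κ') (K K' : Type) [Countable K] [Countable K'],
    Fintype.card κ = Fintype.card κ' → (∀ x ∈ V, ∑ p, A.P p p x = ∑ p, A'.P p p x) →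
    ∀ (S : CSys m A K) (S' : CSys m A' K'),
      (∀ C : Set E4, IsCompact C → C ⊆ V → ∃ B : ℝ, ∀ x ∈ C, ∀ t ∈ Ioc (0 : ℝ) 1,
        Summable (fun k => Real.exp (-(2 * t * S.mu k)) * ∑ p, S.u k x p ^ 2) ∧
        Summable (fun k => Real.exp (-(2 * t * S'.mu k)) * ∑ p, S'.u k x p ^ 2) ∧
        S.diag t x ≤ B / t ^ 2 ∧ S'.diag t x ≤ B / t ^ 2 ∧
        |S.diag t x - S'.diag t x| ≤ B) ∧
      ∀ x ∈ V, Tendsto (fun t => S.diag t x - S'.diag t x) (𝓝[>] 0)
        (𝓝 (A.dens m.h x - A'.dens m.h x))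

end Crest.Agent.R249.HK9_714
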