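import Crest.Agent.R249.HK3A_352
import Crest.Agent.R249.HK9Def_714

/-!
# Row 249, PART C, leaf HK8 (helper286), part A: the cut-off map `Th`, uniformly bounded families over a compact set.
-/

set_option autoImplicit false
set_option linter.unusedSectionVars false
open scoped ContDiff Topology
open MeasureTheory Set Metric Filter

namespace Crest.Agent.R249.HK8_286
open Crest.Agent.R249.HK286 Crest.Agent.R249.HK352

/-- the bump function -/
noncomputable def bmp {R : ℝ} (hR : 0 < R) : ContDiffBump (0 : E4) := ⟨R, 2 * R, hR, by linarith⟩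

/-- `Θ x = b(x) x`: identity on the ball of radius `R`, values in the ball of radius `2R` -/
noncomputable def Th {R : ℝ} (hR : 0 < R) (x : E4) : E4 := (bmp hR x) • x

variable {R : ℝ} (hR : 0 < R)

theorem Th_eq {x : E4} (hx : ‖x‖ ≤ R) : Th hR x = x := by
  have : bmp hR x = 1 := (bmp hR).one_of_mem_closedBall (by rw [mem_closedBall_zero_iff]; exact hx)
  simp [Th, this]

theorem Th_zero : Th hR 0 = 0 := by simp [Th]

theorem norm_Th_le (x : E4) : ‖Th hR x‖ ≤ 2 * R := by
  by_cases h : ‖x‖ < 2 * R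
  · rw [Th, norm_smul, Real.norm_eq_abs, abs_of_nonneg (bmp hR).nonneg]
    calc bmp hR x * ‖x‖ ≤ 1 * ‖x‖ := mul_le_mul_of_nonneg_right (bmp hR).le_one (norm_nonneg x)
      _ ≤ 2 * R := by linarith
  · have : bmp hR x = 0 := by
      apply (bmp hR).zero_of_le_dist
      rw [dist_zero_right]
      exact not_lt.1 h
    simp [Th, this]
    linarith

theorem Th_smooth : ContDiff ℝ ∞ (Th hR) := ((bmp hR).contDiff).smul contDiff_id

theorem Th_cpt : HasCompactSupport (Th hR) := by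
  have : HasCompactSupport (fun x => bmp hR x • x) := ((bmp hR).hasCompactSupport).smul_right
  exact this

theorem Th_bd (n : ℕ) : ∃ D : ℝ, 0 ≤ D ∧ ∀ x, ‖iteratedFDeriv ℝ n (Th hR) x‖ ≤ D := by
  have h1 : Continuous (iteratedFDeriv ℝ n (Th hR)) :=
    (Th_smooth hR).continuous_iteratedFDeriv (by exact_mod_cast le_top)
  have h2 : HasCompactSupport (iteratedFDeriv ℝ n (Th hR)) := (Th_cpt hR).iteratedFDeriv n
  obtain ⟨D, hD⟩ := h2.exists_bound_of_continuous h1
  exact ⟨|D|, abs_nonneg _, fun x => (hD x).trans (le_abs_self D)⟩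

theorem Th_near : ∀ᶠ x in 𝓝 (0 : E4), Th hR x = x := by
  have : ball (0 : E4) R ∈ 𝓝 (0 : E4) := ball_mem_nhds _ hR
  filter_upwards [this] with x hx
  exact Th_eq hR (by rw [mem_ball_zero_iff] at hx; exact hx.le)

/-- data: compact `C` in the open `V`, all closed balls of radius `2R` about `C` in `V` -/
structure Geo (V C : Set E4) (R : ℝ) : Prop where
  opn : IsOpen V
  cpt : IsCompact C
  pos : 0 < R
  sub : ∀ y ∈ C, closedBall y (2 * R) ⊆ V

theorem exists_geo {V C : Set E4} (hV : IsOpen V) (hC : IsCompact C) (hCV : C ⊆ V) :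
    ∃ R, Geo V C R := by
  obtain ⟨d, hd, hsub⟩ := hC.exists_cthickening_subset_open hV hCV
  refine ⟨d / 2, hV, hC, by positivity, fun y hy => ?_⟩
  have : 2 * (d / 2) = d := by ring
  rw [this]
  exact (closedBall_subset_cthickening hy d).trans hsub

section
variable {V C : Set E4} (G : Geo V C R)
include G

theorem Geo.mem (y : C) (z : E4) (hz : ‖z‖ ≤ 2 * R) : y.1 + z ∈ V := by
  apply G.sub y.1 y.2
  rw [mem_closedBall, dist_eq_norm]
  simpa using hz

theorem Geo.memTh (y : C) (x : E4) : y.1 + Th G.pos x ∈ V := G.mem y _ (norm_Th_le G.pos x)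

/-- the compact set of all values `y + Θ x` -/
theorem Geo.cptK : IsCompact ((fun p : E4 × E4 => p.1 + p.2) '' (C ×ˢ closedBall (0 : E4) (2 * R))) :=
  (G.cpt.prod (isCompact_closedBall _ _)).image (by fun_prop)

theorem Geo.subK : ((fun p : E4 × E4 => p.1 + p.2) '' (C ×ˢ closedBall (0 : E4) (2 * R))) ⊆ V := by
  rintro _ ⟨⟨y, z⟩, ⟨hy, hz⟩, rfl⟩
  exact G.mem ⟨y, hy⟩ z (by simpa using hz)

theorem Geo.memK (y : C) (x : E4) :
    y.1 + Th G.pos x ∈ ((fun p : E4 × E4 => p.1 + p.2) '' (C ×ˢ closedBall (0 : E4) (2 * R))) :=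
  ⟨(y.1, Th G.pos x), ⟨y.2, by simpa using norm_Th_le G.pos x⟩, rfl⟩

theorem Geo.sm {f : E4 → ℝ} (hf : ContDiffOn ℝ ∞ f V) (y : C) : ContDiff ℝ ∞ (fun x => f (y.1 + Th G.pos x)) := by
  have h1 : ContDiff ℝ ∞ (fun x => y.1 + Th G.pos x) := contDiff_const.add (Th_smooth G.pos)
  exact hf.comp_contDiff h1 fun x => G.memTh y x

/-- families `x ↦ f (y + Θ x)`, `y ∈ C`, are uniformly bounded -/
theorem Geo.ub {f : E4 → ℝ} (hf : ContDiffOn ℝ ∞ f V) : UB (fun (y : C) x => f (y.1 + Th G.pos x)) := by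
  refine ⟨fun y => G.sm hf y, fun n => ?_⟩
  -- bounds of the derivatives of f on K
  have hb : ∀ i : ℕ, ∃ B : ℝ, 0 ≤ B ∧ ∀ z ∈ ((fun p : E4 × E4 => p.1 + p.2) '' (C ×ˢ closedBall (0 : E4) (2 * R))),
      ‖iteratedFDerivWithin ℝ i f V z‖ ≤ B := by
    intro i
    have h1 : ContinuousOn (iteratedFDerivWithin ℝ i f V) V :=
      hf.continuousOn_iteratedFDerivWithin (by exact_mod_cast le_top) G.opn.uniqueDiffOn
    obtain ⟨B, hB⟩ := G.cptK.exists_bound_of_continuousOn (h1.mono G.subK)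
    exact ⟨|B|, abs_nonneg _, fun z hz => (hB z hz).trans (le_abs_self B)⟩
  choose B hB0 hB using hb
  choose D hD0 hD using fun m => Th_bd G.pos m
  refine ⟨(n.factorial : ℝ) * (∑ i ∈ Finset.range (n + 1), B i) * (1 + ∑ i ∈ Finset.range (n + 1), D i) ^ n,
    fun y x => ?_⟩
  have key := norm_iteratedFDeriv_comp_le' (𝕜 := ℝ) (g := f) (f := fun x => y.1 + Th G.pos x) (n := n) (N := ∞)
    (t := V) (by rintro _ ⟨x, rfl⟩; exact G.memTh y x) G.opn.uniqueDiffOn hf
    (contDiff_const.add (Th_smooth G.pos)) (by exact_mod_cast le_top) x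
    (C := ∑ i ∈ Finset.range (n + 1), B i) (D := 1 + ∑ i ∈ Finset.range (n + 1), D i)
    (fun i hi => (hB i _ (G.memK y x)).trans
      (Finset.single_le_sum (fun j _ => hB0 j) (Finset.mem_range.2 (Nat.lt_succ_of_le hi))))
    (fun i hi1 hi2 => by
      have e1 : iteratedFDeriv ℝ i (fun x => y.1 + Th G.pos x) x = iteratedFDeriv ℝ i (Th G.pos) x := by
        have h2 : iteratedFDeriv ℝ i (fun x => y.1 + Th G.pos x) x
            = iteratedFDeriv ℝ i (fun _ : E4 => y.1) x + iteratedFDeriv ℝ i (Th G.pos) x :=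
          iteratedFDeriv_add_apply contDiff_const.contDiffAt
            ((Th_smooth G.pos).contDiffAt.of_le (by exact_mod_cast le_top))
        rw [h2, iteratedFDeriv_const_of_ne (by omega)]
        simp
      rw [e1]
      have h3 : D i ≤ ∑ j ∈ Finset.range (n + 1), D j :=
        Finset.single_le_sum (fun j _ => hD0 j) (Finset.mem_range.2 (Nat.lt_succ_of_le hi2))
      have h4 : (0:ℝ) ≤ ∑ j ∈ Finset.range (n + 1), D j := Finset.sum_nonneg fun j _ => hD0 j
      calc ‖iteratedFDeriv ℝ i (Th G.pos) x‖ ≤ D i := hD i x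
        _ ≤ 1 + ∑ j ∈ Finset.range (n + 1), D j := by linarith
        _ ≤ (1 + ∑ j ∈ Finset.range (n + 1), D j) ^ i := by
          refine le_self_pow₀ (by linarith) (by omega))
  exact key

/-- constants in `x`, bounded in `y` -/
theorem ub_par {ι : Type*} {f : ι → ℝ} (h : ∃ B, ∀ i, |f i| ≤ B) : UB (fun (i : ι) (_ : E4) => f i) := by
  refine ⟨fun _ => contDiff_const, fun n => ?_⟩
  obtain ⟨B, hB⟩ := h
  refine ⟨|B|, fun i x => ?_⟩
  rcases Nat.eq_zero_or_pos n with h0 | h0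
  · subst h0
    rw [norm_iteratedFDeriv_zero, Real.norm_eq_abs]
    exact (hB i).trans (le_abs_self B)
  · rw [iteratedFDeriv_const_of_ne h0.ne']
    simp

theorem Geo.ub_val {f : E4 → ℝ} (hf : ContDiffOn ℝ ∞ f V) : UB (fun (y : C) (_ : E4) => f y.1) := by
  refine ub_par G ?_
  have hCV : C ⊆ V := fun y hy => by
    have := G.mem ⟨y, hy⟩ 0 (by simp [G.pos.le])
    simpa using this
  obtain ⟨B, hB⟩ := G.cpt.exists_bound_of_continuousOn (hf.continuousOn.mono hCV)
  exact ⟨B, fun y => by simpa using hB y.1 y.2⟩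

theorem Geo.ub_th (j : Fin 4) : UB (fun (_ : C) x => Th G.pos x j) := by
  have h1 : ContDiff ℝ ∞ (fun x : E4 => Th G.pos x j) := by
    have := Th_smooth G.pos
    rw [contDiff_euclidean] at this
    exact this j
  have h2 : HasCompactSupport (fun x : E4 => Th G.pos x j) := by
    refine (Th_cpt G.pos).mono' ?_
    intro x hx
    apply subset_tsupport
    rw [Function.mem_support] at hx ⊢
    intro h
    apply hx
    rw [h]; rfl
  refine ⟨fun _ => h1, fun n => ?_⟩
  obtain ⟨D, hD⟩ := (h2.iteratedFDeriv n).exists_bound_of_continuous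
    (h1.continuous_iteratedFDeriv (by exact_mod_cast le_top))
  exact ⟨D, fun _ x => hD x⟩

end

/-- `1 / f` for `|f| ≥ c` -/
theorem UB_inv {ι : Type*} {f : ι → E4 → ℝ} (hf : UB f) (h : ∃ c > 0, ∀ i x, c ≤ |f i x|) :
    UB (fun i x => (f i x)⁻¹) := by
  obtain ⟨c, hc, hfc⟩ := h
  have hne : ∀ i x, f i x ≠ 0 := fun i x h0 => by
    have := hfc i x; rw [h0, abs_zero] at this; linarith
  obtain ⟨M, hM0, hM⟩ := UB.bdd hf
  refine ⟨fun i => (hf.1 i).inv fun x => hne i x, fun n => ?_⟩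
  set K : Set ℝ := closedBall (0:ℝ) M ∩ {t | c ≤ |t|} with hK
  have hKc : IsCompact K := (isCompact_closedBall _ _).inter_right (isClosed_le continuous_const continuous_abs)
  have hKs : K ⊆ {t : ℝ | t ≠ 0} := fun t ht h0 => by
    have h1 : c ≤ |t| := ht.2
    rw [h0, abs_zero] at h1; linarith
  have hO : IsOpen {t : ℝ | t ≠ 0} := isOpen_ne
  have hinv : ContDiffOn ℝ ∞ (fun t : ℝ => t⁻¹) {t : ℝ | t ≠ 0} := fun t ht =>
    (contDiffAt_inv ℝ ht).contDiffWithinAt
  have hb : ∀ i : ℕ, ∃ B : ℝ, 0 ≤ B ∧ ∀ z ∈ K, ‖iteratedFDerivWithin ℝ i (fun t : ℝ => t⁻¹) {t : ℝ | t ≠ 0} z‖ ≤ B := by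
    intro i
    have h1 : ContinuousOn (iteratedFDerivWithin ℝ i (fun t : ℝ => t⁻¹) {t : ℝ | t ≠ 0}) {t : ℝ | t ≠ 0} :=
      hinv.continuousOn_iteratedFDerivWithin (by exact_mod_cast le_top) hO.uniqueDiffOn
    obtain ⟨B, hB⟩ := hKc.exists_bound_of_continuousOn (h1.mono hKs)
    exact ⟨|B|, abs_nonneg _, fun z hz => (hB z hz).trans (le_abs_self B)⟩
  choose B hB0 hB using hb
  choose D hD0 hD using fun m => UB.bd hf m
  refine ⟨(n.factorial : ℝ) * (∑ i ∈ Finset.range (n + 1), B i) * (1 + ∑ i ∈ Finset.range (n + 1), D i) ^ n,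
    fun i x => ?_⟩
  have hmem : f i x ∈ K := ⟨by rw [mem_closedBall_zero_iff]; exact hM i x, hfc i x⟩
  exact norm_iteratedFDeriv_comp_le' (𝕜 := ℝ) (g := fun t : ℝ => t⁻¹) (f := f i) (n := n) (N := ∞)
    (t := {t : ℝ | t ≠ 0}) (by rintro _ ⟨x, rfl⟩; exact hne i x) hO.uniqueDiffOn hinv
    (hf.1 i) (by exact_mod_cast le_top) x
    (C := ∑ i ∈ Finset.range (n + 1), B i) (D := 1 + ∑ i ∈ Finset.range (n + 1), D i)
    (fun j hj => (hB j _ hmem).trans
      (Finset.single_le_sum (fun j _ => hB0 j) (Finset.mem_range.2 (Nat.lt_succ_of_le hj))))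
    (fun j hj1 hj2 => by
      have h3 : D j ≤ ∑ j ∈ Finset.range (n + 1), D j :=
        Finset.single_le_sum (fun j _ => hD0 j) (Finset.mem_range.2 (Nat.lt_succ_of_le hj2))
      have h4 : (0:ℝ) ≤ ∑ j ∈ Finset.range (n + 1), D j := Finset.sum_nonneg fun j _ => hD0 j
      calc ‖iteratedFDeriv ℝ j (f i) x‖ ≤ D j := hD j i x
        _ ≤ 1 + ∑ j ∈ Finset.range (n + 1), D j := by linarith
        _ ≤ (1 + ∑ j ∈ Finset.range (n + 1), D j) ^ j := by
          refine le_self_pow₀ (by linarith) (by omega))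

theorem UB_prod {ι α : Type*} (s : Finset α) {f : α → ι → E4 → ℝ} (h : ∀ a ∈ s, UB (f a)) :
    UB (fun i x => ∏ a ∈ s, f a i x) := by
  classical
  induction s using Finset.induction_on with
  | empty => simpa using UB.const (ι := ι) 1
  | insert a s ha ih =>
    have h1 := UB.mul (h a (Finset.mem_insert_self a s))
      (ih fun b hb => h b (Finset.mem_insert_of_mem hb))
    simpa [Finset.prod_insert ha] using h1

/-- determinants -/
theorem UB_det {ι κ : Type*} [Fintype κ] [DecidableEq κ] {X : ι → E4 → Matrix κ κ ℝ}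
    (h : ∀ p q, UB (fun i x => X i x p q)) : UB (fun i x => (X i x).det) := by
  simp only [Matrix.det_apply']
  exact UB.sum _ fun σ _ => UB.mul (UB.const _) (UB_prod _ fun p _ => h _ _)

theorem UB_adj {ι κ : Type*} [Fintype κ] [DecidableEq κ] {X : ι → E4 → Matrix κ κ ℝ}
    (h : ∀ p q, UB (fun i x => X i x p q)) (p q : κ) : UB (fun i x => (X i x).adjugate p q) := by
  simp only [Matrix.adjugate_apply]
  refine UB_det fun r s => ?_
  simp only [Matrix.updateRow_apply]
  by_cases hr : r = q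
  · simp only [hr, if_true]
    exact UB.const _
  · simp only [hr, if_false]
    exact h r s

theorem UB_mmul {ι κ : Type*} [Fintype κ] {X Y : ι → E4 → Matrix κ κ ℝ}
    (hX : ∀ p q, UB (fun i x => X i x p q)) (hY : ∀ p q, UB (fun i x => Y i x p q)) (p q : κ) :
    UB (fun i x => (X i x * Y i x) p q) := by
  simp only [Matrix.mul_apply]
  exact UB.sum _ fun r _ => UB.mul (hX p r) (hY r q)

end Crest.Agent.R249.HK8_286
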