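import Crest.Agent.R249.HK8A_286

/-!
# Row 249, PART C, leaf HK8 (helper286), part B: matrix calculus, the Cayley gauge.
-/

set_option autoImplicit false
set_option linter.unusedSectionVars false
open scoped ContDiff Topology Matrix
open MeasureTheory Set Metric Filter

namespace Crest.Agent.R249.HK8_286
open Crest.Agent.R249.HK286 Crest.Agent.R249.HK352 Crest.Agent.R249.HK9_714

section calculus
variable {κ : Type*} [Fintype κ]

/-- entrywise derivative -/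
noncomputable def dM (j : Fin 4) (X : E4 → Matrix κ κ ℝ) (x : E4) : Matrix κ κ ℝ :=
  Matrix.of fun p q => pd j (fun y => X y p q) x

noncomputable def dV (j : Fin 4) (f : E4 → κ → ℝ) (x : E4) : κ → ℝ := fun p => pd j (fun y => f y p) x

def DX (X : E4 → Matrix κ κ ℝ) (x : E4) : Prop := ∀ p q, DifferentiableAt ℝ (fun y => X y p q) x
def DXv (f : E4 → κ → ℝ) (x : E4) : Prop := ∀ p, DifferentiableAt ℝ (fun y => f y p) x

theorem DX.mul {X Y : E4 → Matrix κ κ ℝ} {x : E4} (hX : DX X x) (hY : DX Y x) : DX (fun y => X y * Y y) x := by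
  intro p q
  simp only [Matrix.mul_apply]
  exact DifferentiableAt.fun_sum fun r _ => (hX p r).mul (hY r q)

theorem DX.mulVec {X : E4 → Matrix κ κ ℝ} {f : E4 → κ → ℝ} {x : E4} (hX : DX X x) (hf : DXv f x) :
    DXv (fun y => X y *ᵥ f y) x := by
  intro p
  simp only [Matrix.mulVec, dotProduct]
  exact DifferentiableAt.fun_sum fun r _ => (hX p r).mul (hf r)

theorem dM_mul {X Y : E4 → Matrix κ κ ℝ} {x : E4} (hX : DX X x) (hY : DX Y x) (j : Fin 4) :
    dM j (fun y => X y * Y y) x = dM j X x * Y x + X x * dM j Y x := by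
  ext p q
  simp only [dM, Matrix.of_apply, Matrix.mul_apply, Matrix.add_apply]
  rw [pd_sum (f := fun r y => X y p r * Y y r q) Finset.univ (fun r _ => (hX p r).mul (hY r q)) j,
    ← Finset.sum_add_distrib]
  refine Finset.sum_congr rfl fun r _ => ?_
  exact pd_mul (hX p r) (hY r q) j

theorem dV_mulVec {X : E4 → Matrix κ κ ℝ} {f : E4 → κ → ℝ} {x : E4} (hX : DX X x) (hf : DXv f x) (j : Fin 4) :
    dV j (fun y => X y *ᵥ f y) x = dM j X x *ᵥ f x + X x *ᵥ dV j f x := by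
  ext p
  simp only [dV, dM, Matrix.mulVec, dotProduct, Matrix.of_apply, Pi.add_apply]
  rw [pd_sum (f := fun r y => X y p r * f y r) Finset.univ (fun r _ => (hX p r).mul (hf r)) j,
    ← Finset.sum_add_distrib]
  refine Finset.sum_congr rfl fun r _ => ?_
  exact pd_mul (hX p r) (hf r) j

theorem dM_add {X Y : E4 → Matrix κ κ ℝ} {x : E4} (hX : DX X x) (hY : DX Y x) (j : Fin 4) :
    dM j (fun y => X y + Y y) x = dM j X x + dM j Y x := by
  ext p q
  simp only [dM, Matrix.of_apply, Matrix.add_apply]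
  exact pd_add (hX p q) (hY p q) j

theorem dM_congr {X Y : E4 → Matrix κ κ ℝ} {x : E4} (h : X =ᶠ[𝓝 x] Y) (j : Fin 4) : dM j X x = dM j Y x := by
  ext p q
  simp only [dM, Matrix.of_apply]
  exact pd_congr (h.mono fun y hy => by rw [hy]) j

theorem dM_transpose (X : E4 → Matrix κ κ ℝ) (x : E4) (j : Fin 4) :
    dM j (fun y => (X y)ᵀ) x = (dM j X x)ᵀ := by
  ext p q
  simp only [dM, Matrix.of_apply, Matrix.transpose_apply]

theorem dM_smul {X : E4 → Matrix κ κ ℝ} {x : E4} (hX : DX X x) (c : ℝ) (j : Fin 4) :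
    dM j (fun y => c • X y) x = c • dM j X x := by
  ext p q
  simp only [dM, Matrix.of_apply, Matrix.smul_apply, smul_eq_mul]
  exact pd_const_mul (hX p q) c j

theorem dM_const (X : Matrix κ κ ℝ) (x : E4) (j : Fin 4) : dM j (fun _ => X) x = 0 := by
  ext p q
  simp only [dM, Matrix.of_apply, Matrix.zero_apply]
  exact pd_const _ x j

/-- smooth matrix functions -/
def SM (X : E4 → Matrix κ κ ℝ) : Prop := ∀ p q, ContDiff ℝ ∞ (fun y => X y p q)

theorem SM.dx {X : E4 → Matrix κ κ ℝ} (h : SM X) (x : E4) : DX X x := fun p q =>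
  ((h p q).differentiable (by simp)) x

theorem SM.d {X : E4 → Matrix κ κ ℝ} (h : SM X) (j : Fin 4) : SM (dM j X) := fun p q => contDiff_pd (h p q) j

theorem SM.mul {X Y : E4 → Matrix κ κ ℝ} (hX : SM X) (hY : SM Y) : SM (fun y => X y * Y y) := by
  intro p q
  simp only [Matrix.mul_apply]
  exact ContDiff.sum fun r _ => (hX p r).mul (hY r q)

theorem SM.t {X : E4 → Matrix κ κ ℝ} (hX : SM X) : SM (fun y => (X y)ᵀ) := fun p q => hX q p

theorem SM.add {X Y : E4 → Matrix κ κ ℝ} (hX : SM X) (hY : SM Y) : SM (fun y => X y + Y y) := fun p q =>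
  (hX p q).add (hY p q)

theorem SM.smul {X : E4 → Matrix κ κ ℝ} (hX : SM X) (c : ℝ) : SM (fun y => c • X y) := fun p q =>
  contDiff_const.mul (hX p q)

theorem SM.const (X : Matrix κ κ ℝ) : SM (fun _ : E4 => X) := fun _ _ => contDiff_const

end calculus

section cayley
variable {κ : Type} [Fintype κ] [DecidableEq κ] {V C : Set E4} {R : ℝ} (G : Geo V C R) (A : CCon V κ)

/-- `B̃(y,z) = -(1/2) ∑_j (A_j(y+z) + A_j(y)) z_j` -/
noncomputable def Bt (A : CCon V κ) (y z : E4) : Matrix κ κ ℝ :=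
  Matrix.of fun p q => -(1 / 2) * ∑ j, (A.a j p q (y + z) + A.a j p q y) * z j

noncomputable def Bm (y : C) (x : E4) : Matrix κ κ ℝ := Bt A y.1 (Th G.pos x)

include G in
theorem Bt_skew (y : C) (z : E4) (hz : ‖z‖ ≤ 2 * R) : (Bt A y.1 z)ᵀ = -Bt A y.1 z := by
  ext p q
  simp only [Bt, Matrix.transpose_apply, Matrix.of_apply, Matrix.neg_apply]
  have h0 : y.1 ∈ V := by
    have := G.mem y 0 (by simp [G.pos.le])
    simpa using this
  have : ∀ j, A.a j q p (y.1 + z) + A.a j q p y.1 = -(A.a j p q (y.1 + z) + A.a j p q y.1) := fun j => by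
    rw [A.askew j q p _ (G.mem y z hz), A.askew j q p _ h0]; ring
  simp only [this, neg_mul, Finset.sum_neg_distrib, mul_neg, neg_neg]

theorem skew_det_ne {Z : Matrix κ κ ℝ} (h : Zᵀ = -Z) : (1 - (1 / 2 : ℝ) • Z).det ≠ 0 := by
  intro h0
  obtain ⟨v, hv, hv2⟩ := Matrix.exists_mulVec_eq_zero_iff.2 h0
  have h1 : v = (1 / 2 : ℝ) • (Z *ᵥ v) := by
    have := hv2
    rw [Matrix.sub_mulVec, Matrix.one_mulVec, Matrix.smul_mulVec, sub_eq_zero] at this
    exact this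
  have h2 : v ⬝ᵥ (Z *ᵥ v) = 0 := by
    have e1 : v ⬝ᵥ (Z *ᵥ v) = (Zᵀ *ᵥ v) ⬝ᵥ v := by
      rw [Matrix.mulVec_transpose, ← Matrix.dotProduct_mulVec]
    rw [h, Matrix.neg_mulVec, neg_dotProduct, dotProduct_comm (Z *ᵥ v) v] at e1
    linarith
  have h3 : v ⬝ᵥ v = 0 := by
    conv_lhs => rw [h1]
    rw [smul_dotProduct, dotProduct_comm]
    have : ((1/2 : ℝ) • Z *ᵥ v) = v := h1.symm
    rw [this, h2, smul_zero]
  exact hv (dotProduct_self_eq_zero.1 h3)

theorem Bt_contOn (p q : κ) : ContinuousOn (fun u : E4 × E4 => Bt A u.1 u.2 p q) {u | u.1 ∈ V ∧ u.1 + u.2 ∈ V} := by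
  simp only [Bt, Matrix.of_apply]
  refine ContinuousOn.mul continuousOn_const (continuousOn_finsetSum _ fun j _ => ContinuousOn.mul (ContinuousOn.add ?_ ?_) ?_)
  · exact (A.sma j p q).continuousOn.comp (by fun_prop) fun u hu => hu.2
  · exact (A.sma j p q).continuousOn.comp (by fun_prop) fun u hu => hu.1
  · exact Continuous.continuousOn (by fun_prop)

theorem det_low : ∃ c > 0, ∀ (y : C) x, c ≤ |(1 - (1 / 2 : ℝ) • Bm G A y x).det| := by
  have hcpt : IsCompact (C ×ˢ closedBall (0 : E4) (2 * R)) := G.cpt.prod (isCompact_closedBall _ _)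
  have hsub : (C ×ˢ closedBall (0 : E4) (2 * R)) ⊆ {u : E4 × E4 | u.1 ∈ V ∧ u.1 + u.2 ∈ V} := by
    rintro ⟨y, z⟩ ⟨hy, hz⟩
    refine ⟨?_, G.mem ⟨y, hy⟩ z (by simpa using hz)⟩
    have := G.mem ⟨y, hy⟩ 0 (by simp [G.pos.le])
    simpa using this
  have hcont : ContinuousOn (fun u : E4 × E4 => |(1 - (1 / 2 : ℝ) • Bt A u.1 u.2).det|)
      (C ×ˢ closedBall (0 : E4) (2 * R)) := by
    refine ContinuousOn.abs ?_
    simp only [Matrix.det_apply']
    refine continuousOn_finsetSum _ fun σ _ => ContinuousOn.mul continuousOn_const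
      (continuousOn_finsetProd _ fun p _ => ?_)
    simp only [Matrix.sub_apply, Matrix.smul_apply, smul_eq_mul]
    exact ContinuousOn.sub continuousOn_const (ContinuousOn.mul continuousOn_const ((Bt_contOn A _ _).mono hsub))
  have hpos : ∀ u ∈ (C ×ˢ closedBall (0 : E4) (2 * R)), 0 < |(1 - (1 / 2 : ℝ) • Bt A u.1 u.2).det| := by
    rintro ⟨y, z⟩ ⟨hy, hz⟩
    exact abs_pos.2 (skew_det_ne (Bt_skew G A ⟨y, hy⟩ z (by simpa using hz)))
  obtain ⟨b, hb, hb2⟩ := hcpt.exists_forall_le' hcont hpos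
  exact ⟨b, hb, fun y x => hb2 (y.1, Th G.pos x) ⟨y.2, by simpa using norm_Th_le G.pos x⟩⟩

/-- the Cayley gauge -/
noncomputable def Tm (y : C) (x : E4) : Matrix κ κ ℝ :=
  (1 + (1 / 2 : ℝ) • Bm G A y x) * (1 - (1 / 2 : ℝ) • Bm G A y x)⁻¹

theorem Bm_skew (y : C) (x : E4) : (Bm G A y x)ᵀ = -Bm G A y x := Bt_skew G A y _ (norm_Th_le G.pos x)

theorem det_unit (y : C) (x : E4) : IsUnit (1 - (1 / 2 : ℝ) • Bm G A y x).det :=
  isUnit_iff_ne_zero.2 (skew_det_ne (Bm_skew G A y x))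

theorem Tm_eq (y : C) (x : E4) : Tm G A y x * (1 - (1 / 2 : ℝ) • Bm G A y x) = 1 + (1 / 2 : ℝ) • Bm G A y x := by
  rw [Tm, Matrix.mul_assoc, Matrix.nonsing_inv_mul _ (det_unit G A y x), Matrix.mul_one]

theorem Tm_orth (y : C) (x : E4) : (Tm G A y x)ᵀ * Tm G A y x = 1 := by
  set Z := (1 / 2 : ℝ) • Bm G A y x with hZ
  have hs : Zᵀ = -Z := by rw [hZ, Matrix.transpose_smul, Bm_skew]; simp
  have hu : IsUnit (1 - Z).det := det_unit G A y x
  have hu' : IsUnit (1 + Z).det := by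
    have : (1 + Z) = (1 - Z)ᵀ := by rw [Matrix.transpose_sub, hs, Matrix.transpose_one, sub_neg_eq_add]
    rw [this, Matrix.det_transpose]; exact hu
  have hT : Tm G A y x = (1 + Z) * (1 - Z)⁻¹ := rfl
  rw [hT, Matrix.transpose_mul, Matrix.transpose_nonsing_inv]
  have e1 : (1 - Z)ᵀ = 1 + Z := by rw [Matrix.transpose_sub, hs, Matrix.transpose_one, sub_neg_eq_add]
  have e2 : (1 + Z)ᵀ = 1 - Z := by rw [Matrix.transpose_add, hs, Matrix.transpose_one, ← sub_eq_add_neg]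
  rw [e1, e2]
  have hc : (1 - Z) * (1 + Z) = (1 + Z) * (1 - Z) := by noncomm_ring
  calc (1 + Z)⁻¹ * (1 - Z) * ((1 + Z) * (1 - Z)⁻¹)
      = (1 + Z)⁻¹ * ((1 - Z) * (1 + Z)) * (1 - Z)⁻¹ := by simp only [Matrix.mul_assoc]
    _ = (1 + Z)⁻¹ * ((1 + Z) * (1 - Z)) * (1 - Z)⁻¹ := by rw [hc]
    _ = ((1 + Z)⁻¹ * (1 + Z)) * ((1 - Z) * (1 - Z)⁻¹) := by simp only [Matrix.mul_assoc]
    _ = 1 := by rw [Matrix.nonsing_inv_mul _ hu', Matrix.mul_nonsing_inv _ hu, Matrix.mul_one]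

theorem Tm_orth' (y : C) (x : E4) : Tm G A y x * (Tm G A y x)ᵀ = 1 :=
  mul_eq_one_comm.1 (Tm_orth G A y x)

theorem ub_Bm (p q : κ) : UB (fun (y : C) x => Bm G A y x p q) := by
  simp only [Bm, Bt, Matrix.of_apply]
  exact UB.mul (UB.const _) (UB.sum _ fun j _ => UB.mul (UB.add (G.ub (A.sma j p q)) (G.ub_val (A.sma j p q))) (G.ub_th j))

theorem ub_one (p q : κ) : UB (fun (_ : C) (_ : E4) => (1 : Matrix κ κ ℝ) p q) := UB.const _

theorem ub_Tm (p q : κ) : UB (fun (y : C) x => Tm G A y x p q) := by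
  have h1 : ∀ p q, UB (fun (y : C) x => (1 - (1 / 2 : ℝ) • Bm G A y x) p q) := fun p q =>
    UB.sub (UB.const _) (UB.mul (UB.const _) (ub_Bm G A p q))
  have h2 : ∀ p q, UB (fun (y : C) x => (1 + (1 / 2 : ℝ) • Bm G A y x) p q) := fun p q =>
    UB.add (UB.const _) (UB.mul (UB.const _) (ub_Bm G A p q))
  have h3 : ∀ p q, UB (fun (y : C) x => (1 - (1 / 2 : ℝ) • Bm G A y x)⁻¹ p q) := by
    intro p q
    have e : ∀ (y : C) x, (1 - (1 / 2 : ℝ) • Bm G A y x)⁻¹ p q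
        = ((1 - (1 / 2 : ℝ) • Bm G A y x).det)⁻¹ * (1 - (1 / 2 : ℝ) • Bm G A y x).adjugate p q := by
      intro y x
      rw [Matrix.inv_def, Matrix.smul_apply, Ring.inverse_eq_inv', smul_eq_mul]
    simp only [e]
    exact UB.mul (UB_inv (UB_det h1) (det_low G A)) (UB_adj h1 p q)
  exact UB_mmul h2 h3 p q

theorem sm_Tm (y : C) : SM (Tm G A y) := fun p q => (ub_Tm G A p q).1 y
theorem sm_Bm (y : C) : SM (Bm G A y) := fun p q => (ub_Bm G A p q).1 y

theorem Bm_zero (y : C) : Bm G A y 0 = 0 := by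
  ext p q
  simp [Bm, Bt, Th_zero]

theorem Tm_zero (y : C) : Tm G A y 0 = 1 := by
  have := Tm_eq G A y 0
  rw [Bm_zero, smul_zero, sub_zero, add_zero, Matrix.mul_one] at this
  exact this

/-- derivative of the Cayley relation -/
theorem dTm (y : C) (l : Fin 4) (x : E4) :
    dM l (Tm G A y) x * (1 - (1 / 2 : ℝ) • Bm G A y x) - (1 / 2 : ℝ) • (Tm G A y x * dM l (Bm G A y) x)
      = (1 / 2 : ℝ) • dM l (Bm G A y) x := by
  have hT := sm_Tm G A y
  have hB := sm_Bm G A y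
  have h1 : dM l (fun x => Tm G A y x * (1 + (-(1 / 2) : ℝ) • Bm G A y x)) x
      = dM l (fun x => 1 + (1 / 2 : ℝ) • Bm G A y x) x := by
    congr 1
    funext z
    have := Tm_eq G A y z
    rw [sub_eq_add_neg, ← neg_smul] at this
    exact this
  rw [dM_mul (hT.dx x) (((SM.const 1).add (hB.smul _)).dx x), dM_add ((SM.const 1).dx x) ((hB.smul _).dx x),
    dM_add ((SM.const 1).dx x) ((hB.smul _).dx x), dM_smul (hB.dx x), dM_smul (hB.dx x), dM_const, zero_add,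
    zero_add] at h1
  rw [← h1]
  rw [sub_eq_add_neg 1, neg_smul, Matrix.mul_smul, neg_smul]
  abel

theorem dTm_zero (y : C) (l : Fin 4) : dM l (Tm G A y) 0 = dM l (Bm G A y) 0 := by
  have h := dTm G A y l 0
  rw [Bm_zero, smul_zero, sub_zero, Matrix.mul_one, Tm_zero, Matrix.one_mul] at h
  have h2 : dM l (Tm G A y) 0 = (1 / 2 : ℝ) • dM l (Bm G A y) 0 + (1 / 2 : ℝ) • dM l (Bm G A y) 0 :=
    sub_eq_iff_eq_add.1 h
  rw [h2, ← add_smul]
  norm_num

theorem ddTm_zero (y : C) (m l : Fin 4) : dM m (dM l (Tm G A y)) 0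
    = dM m (dM l (Bm G A y)) 0 + (1 / 2 : ℝ) • (dM l (Bm G A y) 0 * dM m (Bm G A y) 0
      + dM m (Bm G A y) 0 * dM l (Bm G A y) 0) := by
  have hT := sm_Tm G A y
  have hB := sm_Bm G A y
  have h0 : (fun x => dM l (Tm G A y) x * (1 + (-(1 / 2) : ℝ) • Bm G A y x)
      + (-(1 / 2) : ℝ) • (Tm G A y x * dM l (Bm G A y) x)) = fun x => (1 / 2 : ℝ) • dM l (Bm G A y) x := by
    funext x
    have := dTm G A y l x
    rw [sub_eq_add_neg 1, ← neg_smul, sub_eq_add_neg, ← neg_smul] at this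
    exact this
  have h1 : dM m (fun x => dM l (Tm G A y) x * (1 + (-(1 / 2) : ℝ) • Bm G A y x)
      + (-(1 / 2) : ℝ) • (Tm G A y x * dM l (Bm G A y) x)) 0 = dM m (fun x => (1 / 2 : ℝ) • dM l (Bm G A y) x) 0 :=
    congrArg (fun X : E4 → Matrix κ κ ℝ => dM m X 0) h0
  rw [dM_add (((hT.d l).mul ((SM.const 1).add (hB.smul _))).dx 0) (((hT.mul (hB.d l)).smul _).dx 0),
    dM_mul ((hT.d l).dx 0) (((SM.const 1).add (hB.smul _)).dx 0), dM_add ((SM.const 1).dx 0) ((hB.smul _).dx 0),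
    dM_smul (hB.dx 0), dM_smul ((hT.mul (hB.d l)).dx 0), dM_mul (hT.dx 0) ((hB.d l).dx 0),
    dM_smul ((hB.d l).dx 0), dM_const, zero_add, Bm_zero, smul_zero, add_zero, Matrix.mul_one, Tm_zero,
    Matrix.one_mul, dTm_zero, dTm_zero] at h1
  have h2 : dM m (dM l (Tm G A y)) 0 = (1 / 2 : ℝ) • dM m (dM l (Bm G A y)) 0
      - (dM l (Bm G A y) 0 * (-(1 / 2) : ℝ) • dM m (Bm G A y) 0)
      - (-(1 / 2) : ℝ) • (dM m (Bm G A y) 0 * dM l (Bm G A y) 0 + dM m (dM l (Bm G A y)) 0) := by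
    rw [← h1]; abel
  rw [h2, Matrix.mul_smul]
  ext p q
  simp only [Matrix.sub_apply, Matrix.add_apply, Matrix.smul_apply, smul_eq_mul]
  ring

end cayley

end Crest.Agent.R249.HK8_286
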