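import Crest.Agent.R249.HK8C_286

/-!
# Row 249, PART C, leaf HK8 (helper286), part D: the Parseval system in the adapted gauge.
-/

set_option autoImplicit false
set_option linter.unusedSectionVars false
open scoped ContDiff Topology Matrix
open MeasureTheory Set Metric Filter

namespace Crest.Agent.R249.HK8_286
open Crest.Agent.R249.HK286 Crest.Agent.R249.HK352 Crest.Agent.R249.HK9_714

theorem int_pd_zero {φ : E4 → ℝ} (h : ContDiff ℝ ∞ φ) (hc : HasCompactSupport φ) (j : Fin 4) :
    ∫ x, pd j φ x = 0 := by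
  have h1 : Continuous (pd j φ) := (contDiff_pd h j).continuous
  have h2 : HasCompactSupport (pd j φ) := (hc.fderiv ℝ).comp_left (g := fun L : E4 →L[ℝ] ℝ => L (EuclideanSpace.single j 1)) (by simp)
  have h3 : Integrable (pd j φ) := h1.integrable_of_hasCompactSupport h2
  have h4 : Integrable φ := h.continuous.integrable_of_hasCompactSupport hc
  have h5 : Integrable (fun x => (fderiv ℝ φ x) (EuclideanSpace.single j 1) * (1:ℝ)) := by
    simp only [mul_one]; exact h3
  have h6 : Integrable (fun x => φ x * (1:ℝ)) := by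
    simp only [mul_one]; exact h4
  have h7 : Integrable (fun x : E4 => φ x * (fderiv ℝ (fun _ : E4 => (1:ℝ)) x) (EuclideanSpace.single j 1)) := by
    simp
  have key := integral_mul_fderiv_eq_neg_fderiv_mul_of_integrable (μ := (volume : Measure E4)) (f := φ)
    (g := fun _ => (1:ℝ)) (v := EuclideanSpace.single j 1) h5 h7 h6 (fun x _ => (h.differentiable (by simp)) x)
    (fun x _ => differentiableAt_const _)
  simp only [fderiv_fun_const, mul_one, Pi.zero_apply, zero_apply, mul_zero, integral_zero] at key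
  have : -∫ x, pd j φ x = 0 := key.symm
  linarith

theorem glue {u X : E4 → ℝ} {r R : ℝ} (hr : r < R) (hu : ContDiffOn ℝ ∞ u (ball 0 R)) (hX : ContDiff ℝ ∞ X)
    (h0 : ∀ x, r < ‖x‖ → X x = 0) :
    ContDiff ℝ ∞ (fun x => u x * X x) ∧ HasCompactSupport (fun x => u x * X x) := by
  constructor
  · rw [contDiff_iff_contDiffAt]
    intro x
    by_cases hx : ‖x‖ < R
    · exact (hu.contDiffAt (isOpen_ball.mem_nhds (by rwa [mem_ball_zero_iff]))).mul hX.contDiffAt
    · have hx2 : r < ‖x‖ := lt_of_lt_of_le hr (not_lt.1 hx)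
      have he : (fun x => u x * X x) =ᶠ[𝓝 x] fun _ => 0 := by
        have : ∀ᶠ z in 𝓝 x, r < ‖z‖ := (continuous_norm.tendsto x).eventually (lt_mem_nhds hx2)
        filter_upwards [this] with z hz
        rw [h0 z hz, mul_zero]
      exact contDiffAt_const.congr_of_eventuallyEq he
  · refine HasCompactSupport.intro (isCompact_closedBall (0:E4) r) fun x hx => ?_
    rw [mem_closedBall_zero_iff, not_le] at hx
    rw [h0 x hx, mul_zero]

section sys
variable {κ : Type} [Fintype κ] [DecidableEq κ] {V C : Set E4} {R : ℝ} (G : Geo V C R) (m : CMet V) (A : CCon V κ)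

/-- pull back of a vector function to the adapted gauge at `y` -/
noncomputable def pb (y : C) (u : E4 → κ → ℝ) (x : E4) : κ → ℝ := (Tm G A y x)ᵀ *ᵥ u (y.1 + x)

/-- push forward -/
noncomputable def pf (y : C) (f : E4 → κ → ℝ) (z : E4) : κ → ℝ := Tm G A y (z - y.1) *ᵥ f (z - y.1)

theorem pf_pb (y : C) (u : E4 → κ → ℝ) : pf G A y (pb G A y u) = u := by
  funext z
  rw [pf, pb, Matrix.mulVec_mulVec, Tm_orth', Matrix.one_mulVec, add_sub_cancel]

theorem pb_pf (y : C) (f : E4 → κ → ℝ) : pb G A y (pf G A y f) = f := by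
  funext x
  rw [pb, pf, add_sub_cancel_left, Matrix.mulVec_mulVec, Tm_orth, Matrix.one_mulVec]

theorem pf_add (y : C) (f : E4 → κ → ℝ) (x : E4) : pf G A y f (y.1 + x) = Tm G A y x *ᵥ f x := by
  rw [pf, add_sub_cancel_left]

theorem dot_T (y : C) (x : E4) (v w : κ → ℝ) :
    (Tm G A y x *ᵥ v) ⬝ᵥ (Tm G A y x *ᵥ w) = v ⬝ᵥ w := by
  rw [Matrix.dotProduct_mulVec, ← Matrix.mulVec_transpose, Matrix.mulVec_mulVec, Tm_orth, Matrix.one_mulVec]

theorem dot_pf (y : C) (f u : E4 → κ → ℝ) (x : E4) :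
    ∑ p, pf G A y f (y.1 + x) p * u (y.1 + x) p = ∑ p, f x p * pb G A y u x p := by
  have h1 : ∑ p, pf G A y f (y.1 + x) p * u (y.1 + x) p = pf G A y f (y.1 + x) ⬝ᵥ u (y.1 + x) := rfl
  have h2 : ∑ p, f x p * pb G A y u x p = f x ⬝ᵥ pb G A y u x := rfl
  rw [h1, h2]
  conv_lhs => rw [← pf_pb G A y u]
  rw [pf_add, pf_add, dot_T]

theorem cCov_eq (l : Fin 4) (f : E4 → κ → ℝ) (z : E4) : A.cov l f z = dV l f z + Am A l z *ᵥ f z := rfl

theorem cov_eq (y : C) (l : Fin 4) (f : E4 → κ → ℝ) (x : E4) :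
    (mkC G A m).cov y l f x = dV l f x + ac G A y l x *ᵥ f x := rfl

theorem cov_pf (y : C) (l : Fin 4) (f : E4 → κ → ℝ) {x : E4} (hx : ‖x‖ < R) (hf : DXv f x) :
    A.cov l (pf G A y f) (y.1 + x) = Tm G A y x *ᵥ (mkC G A m).cov y l f x := by
  have hT := sm_Tm G A y
  have h1 : dV l (pf G A y f) (y.1 + x) = dV l (fun z => Tm G A y z *ᵥ f z) x := by
    ext p
    rw [dV, dV, ← pd_shift]
    refine pd_congr (Eventually.of_forall fun z => ?_) l
    show pf G A y f (y.1 + z) p = _
    rw [pf_add]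
  rw [cCov_eq, cov_eq, h1, dV_mulVec (hT.dx x) hf, pf_add, ac, Th_eq G.pos hx.le, Matrix.mulVec_add,
    Matrix.mulVec_mulVec, Matrix.mulVec_mulVec, Matrix.mul_add, ← Matrix.mul_assoc, ← Matrix.mul_assoc (Tm G A y x),
    Tm_orth', Matrix.one_mul, Matrix.one_mul, Matrix.add_mulVec]
  abel

/-- inner products against pushed forward functions -/
theorem ip_push (y : C) (f u : E4 → κ → ℝ) (h0 : ∀ x p, R ≤ ‖x‖ → f x p = 0) :
    ∫ z, (∑ p, pf G A y f z p * u z p) * m.w z = (mkM G m).ip y f (pb G A y u) := by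
  rw [← integral_add_left_eq_self (μ := volume) (fun z => (∑ p, pf G A y f z p * u z p) * m.w z) y.1]
  rw [Met.ip]
  refine integral_congr_ae (Eventually.of_forall fun x => ?_)
  show (∑ p, pf G A y f (y.1 + x) p * u (y.1 + x) p) * m.w (y.1 + x) = _ * m.w (y.1 + Th G.pos x)
  rw [dot_pf]
  by_cases hx : ‖x‖ < R
  · rw [Th_eq G.pos hx.le]
  · have : ∑ p, f x p * pb G A y u x p = 0 := Finset.sum_eq_zero fun p _ => by rw [h0 x p (not_lt.1 hx), zero_mul]
    rw [this, zero_mul, zero_mul]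

theorem sm_pb (y : C) {u : E4 → κ → ℝ} (hu : ∀ p, ContDiffOn ℝ ∞ (fun x => u x p) V) (p : κ) :
    ContDiffOn ℝ ∞ (fun x => pb G A y u x p) (ball 0 R) := by
  have h1 : (fun x => pb G A y u x p) = fun x => ∑ r, Tm G A y x r p * u (y.1 + x) r := by
    funext x; rfl
  rw [h1]
  refine ContDiffOn.sum fun r _ => ContDiffOn.mul (sm_Tm G A y r p).contDiffOn ?_
  refine (hu r).comp (contDiff_const.add contDiff_id).contDiffOn fun x hx => ?_
  rw [mem_ball_zero_iff] at hx
  have hx' : ‖x‖ < R := hx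
  exact G.mem y x (by linarith [G.pos])

/-- zero derivatives -/
theorem pd_zero_of {f : E4 → ℝ} {x : E4} (h : ∀ᶠ z in 𝓝 x, f z = 0) (j : Fin 4) : pd j f x = 0 := by
  have : pd j f x = pd j (fun _ => (0:ℝ)) x := pd_congr h j
  rw [this, pd_const]

theorem ev_gt {r : ℝ} {x : E4} (hx : r < ‖x‖) : ∀ᶠ z in 𝓝 x, r < ‖z‖ :=
  (continuous_norm.tendsto x).eventually (lt_mem_nhds hx)

theorem cov_zero_of (y : C) (l : Fin 4) {f : E4 → κ → ℝ} {x : E4} (h : ∀ᶠ z in 𝓝 x, ∀ p, f z p = 0) (p : κ) :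
    (mkC G A m).cov y l f x p = 0 := by
  have h0 := h.self_of_nhds
  rw [Con.cov, pd_zero_of (h.mono fun z hz => hz p)]
  simp [h0]

theorem cCov_zero_of (l : Fin 4) {f : E4 → κ → ℝ} {x : E4} (h : ∀ᶠ z in 𝓝 x, ∀ p, f z p = 0) (p : κ) :
    A.cov l f x p = 0 := by
  have h0 := h.self_of_nhds
  rw [CCon.cov, pd_zero_of (h.mono fun z hz => hz p)]
  simp [h0]

/-- the bilinear form of the operator in the adapted gauge -/
noncomputable def bf (y : C) (u f : E4 → κ → ℝ) (x : E4) : ℝ :=
  (∑ j, ∑ l, (mkM G m).h y j l x * ∑ p, (mkC G A m).cov y j u x p * (mkC G A m).cov y l f x p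
    + ∑ p, ∑ q, (mkC G A m).P y p q x * u x q * f x p) * (mkM G m).w y x

theorem bf_push (y : C) {f u : E4 → κ → ℝ} {r : ℝ} (hr : r < R) (hf : ∀ p, ContDiff ℝ ∞ fun x => f x p)
    (h0 : ∀ x p, r ≤ ‖x‖ → f x p = 0) (hu : ∀ p, ContDiffOn ℝ ∞ (fun x => u x p) V) :
    ∫ z, (∑ j, ∑ l, m.h j l z * ∑ p, A.cov j u z p * A.cov l (pf G A y f) z p
        + ∑ p, ∑ q, A.P p q z * u z q * pf G A y f z p) * m.w z = ∫ x, bf G m A y (pb G A y u) f x := by
  rw [← integral_add_left_eq_self (μ := volume) (fun z => (∑ j, ∑ l, m.h j l z * ∑ p, A.cov j u z p * A.cov l (pf G A y f) z p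
        + ∑ p, ∑ q, A.P p q z * u z q * pf G A y f z p) * m.w z) y.1]
  refine integral_congr_ae (Eventually.of_forall fun x => ?_)
  show (∑ j, ∑ l, m.h j l (y.1 + x) * ∑ p, A.cov j u (y.1 + x) p * A.cov l (pf G A y f) (y.1 + x) p
        + ∑ p, ∑ q, A.P p q (y.1 + x) * u (y.1 + x) q * pf G A y f (y.1 + x) p) * m.w (y.1 + x) = _
  by_cases hx : ‖x‖ < R
  · have hfd : DXv f x := fun p => ((hf p).differentiable (by simp)) x
    have hud : DXv (pb G A y u) x := fun p =>
      ((sm_pb G A y hu p).contDiffAt (isOpen_ball.mem_nhds (by rwa [mem_ball_zero_iff]))).differentiableAt (by simp)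
    have e1 : ∀ j, A.cov j u (y.1 + x) = Tm G A y x *ᵥ (mkC G A m).cov y j (pb G A y u) x := fun j => by
      conv_lhs => rw [← pf_pb G A y u]
      exact cov_pf G m A y j _ hx hud
    have e2 : ∀ l, A.cov l (pf G A y f) (y.1 + x) = Tm G A y x *ᵥ (mkC G A m).cov y l f x := fun l =>
      cov_pf G m A y l f hx hfd
    have e3 : ∀ j l, ∑ p, A.cov j u (y.1 + x) p * A.cov l (pf G A y f) (y.1 + x) p
        = ∑ p, (mkC G A m).cov y j (pb G A y u) x p * (mkC G A m).cov y l f x p := fun j l => by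
      rw [e1, e2]
      exact dot_T G A y x _ _
    have e4 : ∑ p, ∑ q, A.P p q (y.1 + x) * u (y.1 + x) q * pf G A y f (y.1 + x) p
        = ∑ p, ∑ q, (mkC G A m).P y p q x * pb G A y u x q * f x p := by
      have h1 : ∑ p, ∑ q, A.P p q (y.1 + x) * u (y.1 + x) q * pf G A y f (y.1 + x) p
          = (Pm A (y.1 + x) *ᵥ u (y.1 + x)) ⬝ᵥ pf G A y f (y.1 + x) := by
        simp only [Matrix.mulVec, dotProduct, Finset.sum_mul, Pm, Matrix.of_apply]
      have h2 : ∑ p, ∑ q, (mkC G A m).P y p q x * pb G A y u x q * f x p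
          = (Pc G A y x *ᵥ pb G A y u x) ⬝ᵥ f x := by
        simp only [Matrix.mulVec, dotProduct, Finset.sum_mul]
        rfl
      rw [h1, h2, pf_add]
      have h3 : u (y.1 + x) = Tm G A y x *ᵥ pb G A y u x := by
        rw [← pf_add, pf_pb]
      rw [h3, Pc, Th_eq G.pos hx.le, ← Matrix.mulVec_mulVec, ← Matrix.mulVec_mulVec]
      set w1 : κ → ℝ := Pm A (y.1 + x) *ᵥ Tm G A y x *ᵥ pb G A y u x
      rw [dotProduct_comm, dotProduct_comm ((Tm G A y x)ᵀ *ᵥ w1), Matrix.mulVec_transpose,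
        dotProduct_comm (f x), ← Matrix.dotProduct_mulVec, dotProduct_comm]
    simp only [e3, e4]
    show _ = bf G m A y (pb G A y u) f x
    rw [bf]
    have hh : ∀ j l, (mkM G m).h y j l x = m.h j l (y.1 + x) := fun j l => by
      show m.h j l (y.1 + Th G.pos x) = _
      rw [Th_eq G.pos hx.le]
    have hw : (mkM G m).w y x = m.w (y.1 + x) := by
      show m.w (y.1 + Th G.pos x) = _
      rw [Th_eq G.pos hx.le]
    simp only [hh, hw]
  · have hx2 : r < ‖x‖ := lt_of_lt_of_le hr (not_lt.1 hx)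
    have hf0 : ∀ᶠ z in 𝓝 x, ∀ p, f z p = 0 := (ev_gt hx2).mono fun z hz p => h0 z p hz.le
    have hpf0 : ∀ᶠ z in 𝓝 (y.1 + x), ∀ p, pf G A y f z p = 0 := by
      have h1 : Tendsto (fun z : E4 => z - y.1) (𝓝 (y.1 + x)) (𝓝 x) := by
        have : Continuous (fun z : E4 => z - y.1) := by fun_prop
        have h2 := this.tendsto (y.1 + x)
        rwa [add_sub_cancel_left] at h2
      filter_upwards [h1.eventually hf0] with z hz p
      have : f (z - y.1) = 0 := funext hz
      rw [pf, this, Matrix.mulVec_zero]; rfl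
    show _ = bf G m A y (pb G A y u) f x
    rw [bf]
    have a1 : ∀ l p, A.cov l (pf G A y f) (y.1 + x) p = 0 := fun l p => cCov_zero_of A l hpf0 p
    have a2 : ∀ p, pf G A y f (y.1 + x) p = 0 := hpf0.self_of_nhds
    have a3 : ∀ l p, (mkC G A m).cov y l f x p = 0 := fun l p => cov_zero_of G m A y l hf0 p
    have a4 : ∀ p, f x p = 0 := hf0.self_of_nhds
    simp only [a1, a2, a3, a4, mul_zero, Finset.sum_const_zero, add_zero, zero_mul]

/-- `X_{jl,p} = w h^{jl} (cov_l f)_p` -/
noncomputable def XX (y : C) (f : E4 → κ → ℝ) (j l : Fin 4) (p : κ) (x : E4) : ℝ :=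
  (mkM G m).w y x * (mkM G m).h y j l x * (mkC G A m).cov y l f x p

theorem sm_cov (y : C) {f : E4 → κ → ℝ} (hf : ∀ p, ContDiff ℝ ∞ fun x => f x p) (l : Fin 4) (p : κ) :
    ContDiff ℝ ∞ fun x => (mkC G A m).cov y l f x p := by
  show ContDiff ℝ ∞ fun x => pd l (fun y => f y p) x + ∑ q, (mkC G A m).a y l p q x * f x q
  exact (contDiff_pd (hf p) l).add (ContDiff.sum fun q _ => (((mkC G A m).uba l p q).1 y).mul (hf q))

theorem sm_XX (y : C) {f : E4 → κ → ℝ} (hf : ∀ p, ContDiff ℝ ∞ fun x => f x p) (j l : Fin 4) (p : κ) :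
    ContDiff ℝ ∞ (XX G m A y f j l p) :=
  ((((mkM G m).ubw).1 y).mul (((mkM G m).ubh j l).1 y)).mul (sm_cov G m A y hf l p)

theorem XX_zero (y : C) {f : E4 → κ → ℝ} {r : ℝ} (h0 : ∀ x p, r ≤ ‖x‖ → f x p = 0) (j l : Fin 4) (p : κ)
    (x : E4) (hx : r < ‖x‖) : XX G m A y f j l p x = 0 := by
  have hf0 : ∀ᶠ z in 𝓝 x, ∀ p, f z p = 0 := (ev_gt hx).mono fun z hz p => h0 z p hz.le
  rw [XX, cov_zero_of G m A y l hf0 p, mul_zero]

/-- `w (L f)_p` -/
noncomputable def YY (y : C) (f : E4 → κ → ℝ) (p : κ) (x : E4) : ℝ :=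
  -(∑ j, ∑ l, (pd j (XX G m A y f j l p) x + ∑ q, (mkC G A m).a y j p q x * XX G m A y f j l q x))
    + (mkM G m).w y x * ∑ q, (mkC G A m).P y p q x * f x q

theorem w_pos (y : C) (x : E4) : 0 < (mkM G m).w y x := by
  obtain ⟨c, hc, h⟩ := (mkM G m).wpos
  exact lt_of_lt_of_le hc (h y x)

theorem YY_eq (y : C) (f : E4 → κ → ℝ) (p : κ) (x : E4) :
    (mkC G A m).LL y f x p * (mkM G m).w y x = YY G m A y f p x := by
  have hw := (w_pos G m y x).ne'
  rw [Con.LL, YY, add_mul, neg_mul]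
  congr 1
  · rw [mul_assoc, mul_comm _ ((mkM G m).w y x), ← mul_assoc, inv_mul_cancel₀ hw, one_mul]
    rfl
  · ring

theorem sm_YY (y : C) {f : E4 → κ → ℝ} (hf : ∀ p, ContDiff ℝ ∞ fun x => f x p) (p : κ) :
    ContDiff ℝ ∞ (YY G m A y f p) := by
  refine ContDiff.add (ContDiff.neg (ContDiff.sum fun j _ => ContDiff.sum fun l _ => ContDiff.add ?_ ?_))
    ((((mkM G m).ubw).1 y).mul (ContDiff.sum fun q _ => (((mkC G A m).ubP p q).1 y).mul (hf q)))
  · exact contDiff_pd (sm_XX G m A y hf j l p) j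
  · exact ContDiff.sum fun q _ => (((mkC G A m).uba j p q).1 y).mul (sm_XX G m A y hf j l q)

theorem YY_zero (y : C) {f : E4 → κ → ℝ} {r : ℝ} (h0 : ∀ x p, r ≤ ‖x‖ → f x p = 0) (p : κ)
    (x : E4) (hx : r < ‖x‖) : YY G m A y f p x = 0 := by
  have h1 : ∀ j l q, XX G m A y f j l q x = 0 := fun j l q => XX_zero G m A y h0 j l q x hx
  have h2 : ∀ j l, pd j (XX G m A y f j l p) x = 0 := fun j l =>
    pd_zero_of ((ev_gt hx).mono fun z hz => XX_zero G m A y h0 j l p z hz) j
  have h3 : ∀ q, f x q = 0 := fun q => h0 x q hx.le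
  simp [YY, h1, h2, h3]

/-- the pointwise integration by parts identity -/
theorem bf_eq (y : C) {f u : E4 → κ → ℝ} {r : ℝ} (hr : r < R) (hf : ∀ p, ContDiff ℝ ∞ fun x => f x p)
    (h0 : ∀ x p, r ≤ ‖x‖ → f x p = 0) (hu : ∀ p, ContDiffOn ℝ ∞ (fun x => u x p) (ball 0 R)) (x : E4) :
    bf G m A y u f x = (∑ p, u x p * YY G m A y f p x)
      + ∑ j, ∑ l, ∑ p, pd j (fun z => u z p * XX G m A y f j l p z) x := by
  by_cases hx : ‖x‖ < R
  · have hud : ∀ p, DifferentiableAt ℝ (fun x => u x p) x := fun p =>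
      ((hu p).contDiffAt (isOpen_ball.mem_nhds (by rwa [mem_ball_zero_iff]))).differentiableAt (by simp)
    have hXd : ∀ j l p, DifferentiableAt ℝ (XX G m A y f j l p) x := fun j l p =>
      ((sm_XX G m A y hf j l p).differentiable (by simp)) x
    have e1 : ∀ j l p, pd j (fun z => u z p * XX G m A y f j l p z) x
        = pd j (fun z => u z p) x * XX G m A y f j l p x + u x p * pd j (XX G m A y f j l p) x := fun j l p =>
      pd_mul (hud p) (hXd j l p) j
    have e2 : ∀ j l, ∑ p, u x p * ∑ q, (mkC G A m).a y j p q x * XX G m A y f j l q x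
        = -∑ p, (∑ q, (mkC G A m).a y j p q x * u x q) * XX G m A y f j l p x := by
      intro j l
      simp only [Finset.mul_sum, Finset.sum_mul]
      rw [Finset.sum_comm, ← Finset.sum_neg_distrib]
      refine Finset.sum_congr rfl fun p _ => ?_
      rw [← Finset.sum_neg_distrib]
      refine Finset.sum_congr rfl fun q _ => ?_
      rw [(mkC G A m).askew y j q p x]; ring
    have e3 : bf G m A y u f x = ∑ j, ∑ l, (∑ p, pd j (fun z => u z p) x * XX G m A y f j l p x
        + ∑ p, (∑ q, (mkC G A m).a y j p q x * u x q) * XX G m A y f j l p x)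
        + (mkM G m).w y x * ∑ p, ∑ q, (mkC G A m).P y p q x * u x q * f x p := by
      rw [bf, add_mul, Finset.sum_mul]
      congr 1
      · refine Finset.sum_congr rfl fun j _ => ?_
        rw [Finset.sum_mul]
        refine Finset.sum_congr rfl fun l _ => ?_
        rw [← Finset.sum_add_distrib, Finset.mul_sum, Finset.sum_mul]
        refine Finset.sum_congr rfl fun p _ => ?_
        rw [← add_mul]
        show _ * ((pd j (fun z => u z p) x + ∑ q, (mkC G A m).a y j p q x * u x q) * _) * _ = _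
        rw [XX]; ring
      · ring
    have e4 : ∑ p, u x p * YY G m A y f p x = -(∑ j, ∑ l, (∑ p, u x p * pd j (XX G m A y f j l p) x
        + ∑ p, u x p * ∑ q, (mkC G A m).a y j p q x * XX G m A y f j l q x))
        + (mkM G m).w y x * ∑ p, ∑ q, (mkC G A m).P y p q x * u x q * f x p := by
      have h1 : ∀ p, u x p * YY G m A y f p x = -(∑ j, ∑ l, (u x p * pd j (XX G m A y f j l p) x
          + u x p * ∑ q, (mkC G A m).a y j p q x * XX G m A y f j l q x))
          + (mkM G m).w y x * ∑ q, (mkC G A m).P y p q x * u x p * f x q := by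
        intro p
        rw [YY, mul_add, mul_neg]
        congr 1
        · congr 1
          rw [Finset.mul_sum]
          refine Finset.sum_congr rfl fun j _ => ?_
          rw [Finset.mul_sum]
          refine Finset.sum_congr rfl fun l _ => ?_
          ring
        · rw [mul_left_comm, Finset.mul_sum]
          congr 1
          refine Finset.sum_congr rfl fun q _ => ?_
          ring
      simp only [h1]
      rw [Finset.sum_add_distrib, Finset.sum_neg_distrib, ← Finset.mul_sum]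
      congr 1
      · congr 1
        rw [Finset.sum_comm]
        refine Finset.sum_congr rfl fun j _ => ?_
        rw [Finset.sum_comm]
        refine Finset.sum_congr rfl fun l _ => ?_
        rw [Finset.sum_add_distrib]
      · congr 1
        rw [Finset.sum_comm]
        refine Finset.sum_congr rfl fun p _ => Finset.sum_congr rfl fun q _ => ?_
        rw [(mkC G A m).Psymm y q p x]
    rw [e3, e4]
    simp only [e1, e2, Finset.sum_add_distrib, Finset.sum_neg_distrib]
    ring
  · have hx2 : r < ‖x‖ := lt_of_lt_of_le hr (not_lt.1 hx)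
    have hf0 : ∀ᶠ z in 𝓝 x, ∀ p, f z p = 0 := (ev_gt hx2).mono fun z hz p => h0 z p hz.le
    have a1 : ∀ p, YY G m A y f p x = 0 := fun p => YY_zero G m A y h0 p x hx2
    have a2 : ∀ j l p, pd j (fun z => u z p * XX G m A y f j l p z) x = 0 := fun j l p =>
      pd_zero_of ((ev_gt hx2).mono fun z hz => by
        show u z p * XX G m A y f j l p z = 0
        rw [XX_zero G m A y h0 j l p z hz, mul_zero]) j
    have a3 : ∀ l p, (mkC G A m).cov y l f x p = 0 := fun l p => cov_zero_of G m A y l hf0 p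
    have a4 : ∀ p, f x p = 0 := hf0.self_of_nhds
    simp only [bf, a1, a2, a3, a4, mul_zero, Finset.sum_const_zero, add_zero, zero_mul]

theorem bf_int (y : C) {f u : E4 → κ → ℝ} {r : ℝ} (hr : r < R) (hf : ∀ p, ContDiff ℝ ∞ fun x => f x p)
    (h0 : ∀ x p, r ≤ ‖x‖ → f x p = 0) (hu : ∀ p, ContDiffOn ℝ ∞ (fun x => u x p) (ball 0 R)) :
    ∫ x, bf G m A y u f x = (mkM G m).ip y ((mkC G A m).LL y f) u := by
  have h1 : ∀ p, Integrable (fun x => u x p * YY G m A y f p x) := fun p => by
    obtain ⟨g1, g2⟩ := glue hr (hu p) (sm_YY G m A y hf p) (YY_zero G m A y h0 p)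
    exact g1.continuous.integrable_of_hasCompactSupport g2
  have h2 : ∀ j l p, Integrable (fun x => pd j (fun z => u z p * XX G m A y f j l p z) x) := fun j l p => by
    obtain ⟨g1, g2⟩ := glue hr (hu p) (sm_XX G m A y hf j l p) (XX_zero G m A y h0 j l p)
    refine (contDiff_pd g1 j).continuous.integrable_of_hasCompactSupport ?_
    exact (g2.fderiv ℝ).comp_left (g := fun L : E4 →L[ℝ] ℝ => L (EuclideanSpace.single j 1)) (by simp)
  have h3 : ∀ j l p, ∫ x, pd j (fun z => u z p * XX G m A y f j l p z) x = 0 := fun j l p => by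
    obtain ⟨g1, g2⟩ := glue hr (hu p) (sm_XX G m A y hf j l p) (XX_zero G m A y h0 j l p)
    exact int_pd_zero g1 g2 j
  have e : (fun x => bf G m A y u f x) = fun x => (∑ p, u x p * YY G m A y f p x)
      + ∑ j, ∑ l, ∑ p, pd j (fun z => u z p * XX G m A y f j l p z) x :=
    funext fun x => bf_eq G m A y hr hf h0 hu x
  rw [e, integral_add (integrable_finsetSum _ fun p _ => h1 p)
    (integrable_finsetSum _ fun j _ => integrable_finsetSum _ fun l _ => integrable_finsetSum _ fun p _ => h2 j l p),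
    integral_finsetSum _ (fun j _ => integrable_finsetSum _ fun l _ => integrable_finsetSum _ fun p _ => h2 j l p)]
  have h4 : ∀ j, ∫ x, ∑ l, ∑ p, pd j (fun z => u z p * XX G m A y f j l p z) x = 0 := fun j => by
    rw [integral_finsetSum _ (fun l _ => integrable_finsetSum _ fun p _ => h2 j l p)]
    refine Finset.sum_eq_zero fun l _ => ?_
    rw [integral_finsetSum _ (fun p _ => h2 j l p)]
    exact Finset.sum_eq_zero fun p _ => h3 j l p
  simp only [h4, Finset.sum_const_zero, add_zero]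
  rw [Met.ip]
  refine integral_congr_ae (Eventually.of_forall fun x => ?_)
  show _ = (∑ p, (mkC G A m).LL y f x p * u x p) * (mkM G m).w y x
  rw [Finset.sum_mul]
  refine Finset.sum_congr rfl fun p _ => ?_
  rw [← YY_eq]; ring

/-- the system in the adapted gauge -/
noncomputable def mkS {K : Type} (S : CSys m A K) : Sys (mkC G A m) R K where
  u y k := pb G A y (S.u k)
  mu _ k := S.mu k
  mu_nonneg _ k := S.mu_nonneg k
  cont y k p := (sm_pb G A y (S.sm k) p).continuousOn
  eig y k f hf := by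
    obtain ⟨hfs, r, hr, h0⟩ := hf
    have hT : TstV V (pf G A y f) := by
      constructor
      · intro p
        have h1 : (fun x => pf G A y f x p) = fun x => ∑ q, Tm G A y (x - y.1) p q * f (x - y.1) q := rfl
        rw [h1]
        refine ContDiff.sum fun q _ => ContDiff.mul ?_ ?_
        · exact (sm_Tm G A y p q).comp (contDiff_id.sub contDiff_const)
        · exact (hfs q).comp (contDiff_id.sub contDiff_const)
      · refine ⟨closedBall y.1 r, isCompact_closedBall _ _, ?_, fun x hx p => ?_⟩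
        · refine (closedBall_subset_closedBall ?_).trans (G.sub y.1 y.2)
          linarith [G.pos]
        · rw [mem_closedBall, dist_eq_norm, not_le] at hx
          have : f (x - y.1) = 0 := funext fun q => h0 _ q hx.le
          rw [pf, this, Matrix.mulVec_zero]; rfl
    have h1 := S.eig k _ hT
    rw [bf_push G m A y hr hfs h0 (S.sm k), ip_push G m A y f (S.u k) (fun x p hx => h0 x p (hr.le.trans hx)),
      bf_int G m A y hr hfs h0 (sm_pb G A y (S.sm k))] at h1
    exact h1
  pars y f hf := by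
    obtain ⟨hfm, ⟨B, hB⟩, r, hr, h0⟩ := hf
    have hbd : BdmV V (pf G A y f) := by
      refine ⟨fun p => ?_, ?_, ?_⟩
      · have h1 : (fun x => pf G A y f x p) = fun x => ∑ q, Tm G A y (x - y.1) p q * f (x - y.1) q := rfl
        rw [h1]
        refine Finset.measurable_sum _ fun q _ => Measurable.mul ?_ ?_
        · exact ((sm_Tm G A y p q).continuous.measurable).comp (measurable_id.sub_const _)
        · exact (hfm q).comp (measurable_id.sub_const _)
      · choose D hD0 hD using fun pq : κ × κ => UB.bdd (ub_Tm G A pq.1 pq.2)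
        refine ⟨∑ p, ∑ q, D (p, q) * |B|, fun x p => ?_⟩
        have h1 : |pf G A y f x p| ≤ ∑ q, D (p, q) * |B| := by
          show |∑ q, Tm G A y (x - y.1) p q * f (x - y.1) q| ≤ _
          refine (Finset.abs_sum_le_sum_abs _ _).trans (Finset.sum_le_sum fun q _ => ?_)
          rw [abs_mul]
          exact mul_le_mul (hD (p, q) y _) ((hB _ q).trans (le_abs_self B)) (abs_nonneg _) (hD0 _)
        refine h1.trans (Finset.single_le_sum (f := fun p => ∑ q, D (p, q) * |B|) (fun p _ =>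
          Finset.sum_nonneg fun q _ => mul_nonneg (hD0 _) (abs_nonneg _)) (Finset.mem_univ p))
      · refine ⟨closedBall y.1 r, isCompact_closedBall _ _, ?_, fun x hx p => ?_⟩
        · refine (closedBall_subset_closedBall ?_).trans (G.sub y.1 y.2)
          linarith [G.pos]
        · rw [mem_closedBall, dist_eq_norm, not_le] at hx
          have : f (x - y.1) = 0 := funext fun q => h0 _ q hx.le
          rw [pf, this, Matrix.mulVec_zero]; rfl
    have h1 := S.pars _ hbd
    have hz : ∀ x p, R ≤ ‖x‖ → f x p = 0 := fun x p hx => h0 x p (hr.le.trans hx)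
    rw [ip_push G m A y f (pf G A y f) hz, pb_pf] at h1
    have h2 : ∀ k, (∫ x, (∑ p, pf G A y f x p * S.u k x p) * m.w x) = (mkM G m).ip y f (pb G A y (S.u k)) :=
      fun k => ip_push G m A y f (S.u k) hz
    simp only [h2] at h1
    exact h1

theorem mkS_zero {K : Type} (S : CSys m A K) (y : C) (k : K) (p : κ) : (mkS G m A S).u y k 0 p = S.u k y.1 p := by
  show pb G A y (S.u k) 0 p = _
  rw [pb, Tm_zero, Matrix.transpose_one, Matrix.one_mulVec, add_zero]

theorem mkS_diag {K : Type} (S : CSys m A K) (y : C) (t : ℝ) : (mkS G m A S).diag y t = S.diag t y.1 := by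
  rw [Sys.diag, CSys.diag]
  simp only [mkS_zero]
  rfl

theorem mkC_tr (y : C) (x : E4) : ∑ p, (mkC G A m).P y p p x = ∑ p, A.P p p (y.1 + Th G.pos x) :=
  Pc_trace G A y x

end sys

/-- **HK8** -/
theorem chartStmt (hM : MainStmt) : ChartStmt := by
  intro V hV m κ κ' _ _ A A' K K' _ _ hcard htr S S'
  classical
  have key : ∀ C : Set E4, IsCompact C → C ⊆ V →
      (∃ B : ℝ, ∀ x ∈ C, ∀ t ∈ Ioc (0 : ℝ) 1,
        Summable (fun k => Real.exp (-(2 * t * S.mu k)) * ∑ p, S.u k x p ^ 2) ∧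
        Summable (fun k => Real.exp (-(2 * t * S'.mu k)) * ∑ p, S'.u k x p ^ 2) ∧
        S.diag t x ≤ B / t ^ 2 ∧ S'.diag t x ≤ B / t ^ 2 ∧
        |S.diag t x - S'.diag t x| ≤ B) ∧
      ∀ x ∈ C, Tendsto (fun t => S.diag t x - S'.diag t x) (𝓝[>] 0)
        (𝓝 (A.dens m.h x - A'.dens m.h x)) := by
    intro C hC hCV
    obtain ⟨R, G⟩ := exists_geo hV hC hCV
    obtain ⟨⟨B, hB⟩, hlim⟩ := hM C (mkM G m) κ κ' (mkC G A m) (mkC G A' m) R K K' G.pos hcard
      (fun y x => by rw [mkC_tr, mkC_tr]; exact htr _ (G.memTh y x)) (mkS G m A S) (mkS G m A' S')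
    refine ⟨⟨B, fun x hx t ht => ?_⟩, fun x hx => ?_⟩
    · have h := hB ⟨x, hx⟩ t ht
      rw [mkS_diag, mkS_diag] at h
      simp only [mkS_zero] at h
      exact h
    · have h := hlim ⟨x, hx⟩
      simp only [mkS_diag] at h
      rw [mkC_dens, mkC_dens] at h
      exact h
  refine ⟨fun C hC hCV => (key C hC hCV).1, fun x hx => ?_⟩
  exact (key {x} isCompact_singleton (singleton_subset_iff.2 hx)).2 x rfl

end Crest.Agent.R249.HK8_286
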