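import Mathlib

/-!
# Row 249, PART C, leaf HK9, layer 1 (helper714)

Abstract passage from pointwise (diagonal) statements to traces.

`Fam μ K` : a countable family of densities `v k ≥ 0`, `∫ v k = 1` (think `|φ_k|²`) with exponents `m k ≥ 0`.
`Fam.diag F t x = ∑' k, exp (-(2 t m_k)) v_k x`.
`Bnd F G`  : uniform bounds of `MainStmt` (HKDef_286): `diag ≤ C/t²`, `|diag F - diag G| ≤ C` for `0 < t ≤ 1`.
* `Fam.summable` : `Summable (exp (-(t m_k)))` for every `t > 0`;
* `Fam.tsum_eq`  : `∑' k, exp (-(2 t m_k)) = ∫ diag t`;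
* `tendsto_trace`: the difference of the traces tends to `∫ d`, `d` = the pointwise limit of `diag F - diag G`;
* `bnd_of_local` : compactness: local bounds give `Bnd`.
-/

set_option autoImplicit false
open MeasureTheory Set Filter Topology

namespace Crest.Agent.R249.HK9_714

variable {X : Type*} [MeasurableSpace X]

/-- densities `v k ≥ 0` of mass one and exponents `m k ≥ 0` -/
structure Fam (μ : Measure X) (K : Type*) where
  v : K → X → ℝ
  m : K → ℝ
  v_nonneg : ∀ k x, 0 ≤ v k x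
  v_meas : ∀ k, Measurable (v k)
  v_int : ∀ k, ∫ x, v k x ∂μ = 1
  m_nonneg : ∀ k, 0 ≤ m k

variable {μ : Measure X} {K K' : Type*}

/-- the diagonal of the heat kernel at time `2 t` -/
noncomputable def Fam.diag (F : Fam μ K) (t : ℝ) (x : X) : ℝ :=
  ∑' k, Real.exp (-(2 * t * F.m k)) * F.v k x

/-- `diag ≤ C / t²` for `0 < t ≤ 1` on a set -/
def Fam.BOn (F : Fam μ K) (S : Set X) (C : ℝ) : Prop :=
  ∀ x ∈ S, ∀ t ∈ Ioc (0 : ℝ) 1,
    Summable (fun k => Real.exp (-(2 * t * F.m k)) * F.v k x) ∧ F.diag t x ≤ C / t ^ 2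

/-- the difference of two diagonals is bounded on a set -/
def DOn (F : Fam μ K) (G : Fam μ K') (S : Set X) (C : ℝ) : Prop :=
  ∀ x ∈ S, ∀ t ∈ Ioc (0 : ℝ) 1, |F.diag t x - G.diag t x| ≤ C

theorem Fam.integrable (F : Fam μ K) (k : K) : Integrable (F.v k) μ :=
  integrable_of_integral_eq_one (F.v_int k)

theorem Fam.term_nonneg (F : Fam μ K) (t : ℝ) (k : K) (x : X) :
    0 ≤ Real.exp (-(2 * t * F.m k)) * F.v k x :=
  mul_nonneg (Real.exp_pos _).le (F.v_nonneg k x)

theorem Fam.diag_eq (F : Fam μ K) (t : ℝ) (x : X) :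
    F.diag t x = (∑' k, ENNReal.ofReal (Real.exp (-(2 * t * F.m k)) * F.v k x)).toReal := by
  rw [ENNReal.tsum_toReal_eq (fun k => ENNReal.ofReal_ne_top)]
  unfold Fam.diag
  congr 1
  funext k
  rw [ENNReal.toReal_ofReal (F.term_nonneg t k x)]

theorem Fam.measurable_term (F : Fam μ K) (t : ℝ) (k : K) :
    Measurable fun x => ENNReal.ofReal (Real.exp (-(2 * t * F.m k)) * F.v k x) :=
  ENNReal.measurable_ofReal.comp ((F.v_meas k).const_mul _)

theorem Fam.measurable_diag [Countable K] (F : Fam μ K) (t : ℝ) : Measurable (F.diag t) := by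
  have : F.diag t = fun x =>
      (∑' k, ENNReal.ofReal (Real.exp (-(2 * t * F.m k)) * F.v k x)).toReal :=
    funext (F.diag_eq t)
  rw [this]
  exact (Measurable.tsum fun k => (F.measurable_term t k)).ennreal_toReal

theorem Fam.diag_nonneg (F : Fam μ K) (t : ℝ) (x : X) : 0 ≤ F.diag t x :=
  tsum_nonneg fun k => F.term_nonneg t k x

theorem Fam.lintegral_term (F : Fam μ K) (t : ℝ) (k : K) :
    ∫⁻ x, ENNReal.ofReal (Real.exp (-(2 * t * F.m k)) * F.v k x) ∂μ
      = ENNReal.ofReal (Real.exp (-(2 * t * F.m k))) := by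
  rw [← ofReal_integral_eq_lintegral_ofReal ((F.integrable k).const_mul _)
    (Eventually.of_forall fun x => F.term_nonneg t k x)]
  rw [integral_const_mul, F.v_int k, mul_one]

/-- summability of `exp (-(2 t m_k))` for `0 < t ≤ 1` -/
theorem Fam.summable_of_le_one [Countable K] [IsFiniteMeasure μ] (F : Fam μ K) {C : ℝ}
    (h : F.BOn univ C) {t : ℝ} (ht : t ∈ Ioc (0 : ℝ) 1) :
    Summable fun k => Real.exp (-(2 * t * F.m k)) := by
  have h1 : ∑' k, ENNReal.ofReal (Real.exp (-(2 * t * F.m k))) ≠ ⊤ := by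
    have h2 : ∑' k, ENNReal.ofReal (Real.exp (-(2 * t * F.m k)))
        = ∫⁻ x, ∑' k, ENNReal.ofReal (Real.exp (-(2 * t * F.m k)) * F.v k x) ∂μ := by
      rw [lintegral_tsum fun k => (F.measurable_term t k).aemeasurable]
      exact tsum_congr fun k => (F.lintegral_term t k).symm
    rw [h2]
    have h3 : ∫⁻ x, ∑' k, ENNReal.ofReal (Real.exp (-(2 * t * F.m k)) * F.v k x) ∂μ
        ≤ ∫⁻ _, ENNReal.ofReal (C / t ^ 2) ∂μ := by
      refine lintegral_mono fun x => ?_
      obtain ⟨hs, hb⟩ := h x (mem_univ x) t ht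
      rw [← ENNReal.ofReal_tsum_of_nonneg (fun k => F.term_nonneg t k x) hs]
      exact ENNReal.ofReal_le_ofReal hb
    refine (h3.trans_lt ?_).ne
    rw [lintegral_const]
    exact ENNReal.mul_lt_top ENNReal.ofReal_lt_top (measure_lt_top μ univ)
  have h4 := ENNReal.summable_toReal h1
  refine h4.congr fun k => ?_
  rw [ENNReal.toReal_ofReal (Real.exp_pos _).le]

/-- `Summable (exp (-(t m_k)))` for every `t > 0` -/
theorem Fam.summable [Countable K] [IsFiniteMeasure μ] (F : Fam μ K) {C : ℝ}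
    (h : F.BOn univ C) {t : ℝ} (ht : 0 < t) :
    Summable fun k => Real.exp (-(t * F.m k)) := by
  have h1 := F.summable_of_le_one h (t := min (t / 2) 1)
    ⟨lt_min (half_pos ht) one_pos, min_le_right _ _⟩
  refine Summable.of_nonneg_of_le (fun k => (Real.exp_pos _).le) (fun k => ?_) h1
  refine Real.exp_le_exp.2 (neg_le_neg ?_)
  have h2 := min_le_left (t / 2) 1
  have h3 := F.m_nonneg k
  nlinarith

theorem Fam.tsum_eq [Countable K] [IsFiniteMeasure μ] (F : Fam μ K) {C : ℝ}
    (h : F.BOn univ C) {t : ℝ} (ht : t ∈ Ioc (0 : ℝ) 1) :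
    ∑' k, Real.exp (-(2 * t * F.m k)) = ∫ x, F.diag t x ∂μ := by
  have h1 := hasSum_integral_of_summable_integral_norm
    (F := fun k x => Real.exp (-(2 * t * F.m k)) * F.v k x) (μ := μ)
    (fun k => (F.integrable k).const_mul _) (by
      refine (F.summable_of_le_one h ht).congr fun k => ?_
      have : ∀ x, ‖Real.exp (-(2 * t * F.m k)) * F.v k x‖
          = Real.exp (-(2 * t * F.m k)) * F.v k x := fun x => by
        rw [Real.norm_of_nonneg (F.term_nonneg t k x)]
      simp only [this]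
      rw [integral_const_mul, F.v_int k, mul_one])
  unfold Fam.diag
  rw [← h1.tsum_eq]
  refine tsum_congr fun k => ?_
  rw [integral_const_mul, F.v_int k, mul_one]

theorem Fam.integrable_diag [Countable K] [IsFiniteMeasure μ] (F : Fam μ K) {C : ℝ}
    (h : F.BOn univ C) {t : ℝ} (ht : t ∈ Ioc (0 : ℝ) 1) : Integrable (F.diag t) μ := by
  refine Integrable.of_bound (F.measurable_diag t).aestronglyMeasurable (C / t ^ 2)
    (Eventually.of_forall fun x => ?_)
  rw [Real.norm_of_nonneg (F.diag_nonneg t x)]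
  exact (h x (mem_univ x) t ht).2

/-- the difference of the traces converges to the integral of the limit of the difference of the diagonals -/
theorem tendsto_trace [Countable K] [Countable K'] [IsFiniteMeasure μ] (F : Fam μ K) (G : Fam μ K')
    {C : ℝ} (hF : F.BOn univ C) (hG : G.BOn univ C) (hD : DOn F G univ C) {d : X → ℝ}
    (hd : ∀ x, Tendsto (fun t => F.diag t x - G.diag t x) (𝓝[>] 0) (𝓝 (d x))) :
    Integrable d μ ∧
    Tendsto (fun t => ∑' k, Real.exp (-(2 * t * F.m k)) - ∑' k, Real.exp (-(2 * t * G.m k)))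
      (𝓝[>] 0) (𝓝 (∫ x, d x ∂μ)) := by
  have hmem : ∀ᶠ t : ℝ in 𝓝[>] 0, t ∈ Ioc (0 : ℝ) 1 := by
    filter_upwards [self_mem_nhdsWithin,
      mem_nhdsWithin_of_mem_nhds (Iic_mem_nhds (zero_lt_one' ℝ))] with t h1 h2
    exact ⟨h1, h2⟩
  have hmeas : ∀ t, Measurable fun x => F.diag t x - G.diag t x := fun t =>
    (F.measurable_diag t).sub (G.measurable_diag t)
  have hdm : Measurable d := by
    refine measurable_of_tendsto_metrizable' (𝓝[>] (0 : ℝ)) hmeas ?_
    rw [tendsto_pi_nhds]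
    exact hd
  have hdb : ∀ x, |d x| ≤ C := fun x => by
    refine le_of_tendsto (hd x).abs ?_
    filter_upwards [hmem] with t ht
    exact hD x (mem_univ x) t ht
  refine ⟨Integrable.of_bound hdm.aestronglyMeasurable C (Eventually.of_forall fun x => hdb x), ?_⟩
  have h1 : Tendsto (fun t => ∫ x, (F.diag t x - G.diag t x) ∂μ) (𝓝[>] 0) (𝓝 (∫ x, d x ∂μ)) := by
    refine tendsto_integral_filter_of_dominated_convergence (fun _ => C)
      (Eventually.of_forall fun t => (hmeas t).aestronglyMeasurable) ?_ (integrable_const C)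
      (Eventually.of_forall fun x => hd x)
    filter_upwards [hmem] with t ht
    exact Eventually.of_forall fun x => hD x (mem_univ x) t ht
  refine h1.congr' ?_
  filter_upwards [hmem] with t ht
  rw [F.tsum_eq hF ht, G.tsum_eq hG ht,
    integral_sub (F.integrable_diag hF ht) (G.integrable_diag hG ht)]

theorem Fam.BOn.mono {F : Fam μ K} {S S' : Set X} {C C' : ℝ} (h : F.BOn S C) (hS : S' ⊆ S)
    (hC : C ≤ C') : F.BOn S' C' := fun x hx t ht =>
  ⟨(h x (hS hx) t ht).1, (h x (hS hx) t ht).2.trans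
    (div_le_div_of_nonneg_right hC (by positivity))⟩

theorem DOn.mono {F : Fam μ K} {G : Fam μ K'} {S S' : Set X} {C C' : ℝ} (h : DOn F G S C)
    (hS : S' ⊆ S) (hC : C ≤ C') : DOn F G S' C' := fun x hx t ht => (h x (hS hx) t ht).trans hC

/-- compactness -/
theorem bnd_of_local [TopologicalSpace X] [CompactSpace X] (F : Fam μ K) (G : Fam μ K')
    (h : ∀ x : X, ∃ U ∈ 𝓝 x, ∃ C, F.BOn U C ∧ G.BOn U C ∧ DOn F G U C) :
    ∃ C, F.BOn univ C ∧ G.BOn univ C ∧ DOn F G univ C := by
  have key : ∃ C, F.BOn univ C ∧ G.BOn univ C ∧ DOn F G univ C := by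
    refine isCompact_univ.induction_on (p := fun S => ∃ C, F.BOn S C ∧ G.BOn S C ∧ DOn F G S C)
      ⟨0, fun x hx => absurd hx (by simp), fun x hx => absurd hx (by simp),
        fun x hx => absurd hx (by simp)⟩ ?_ ?_ ?_
    · rintro S T hST ⟨C, h1, h2, h3⟩
      exact ⟨C, h1.mono hST le_rfl, h2.mono hST le_rfl, h3.mono hST le_rfl⟩
    · rintro S T ⟨C, h1, h2, h3⟩ ⟨C', h1', h2', h3'⟩
      refine ⟨max C C', ?_, ?_, ?_⟩
      · rintro x (hx | hx)
        · exact h1.mono subset_rfl (le_max_left C C') x hx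
        · exact h1'.mono subset_rfl (le_max_right C C') x hx
      · rintro x (hx | hx)
        · exact h2.mono subset_rfl (le_max_left C C') x hx
        · exact h2'.mono subset_rfl (le_max_right C C') x hx
      · rintro x (hx | hx)
        · exact h3.mono subset_rfl (le_max_left C C') x hx
        · exact h3'.mono subset_rfl (le_max_right C C') x hx
    · intro x _
      obtain ⟨U, hU, C, hC⟩ := h x
      exact ⟨U, mem_nhdsWithin_of_mem_nhds hU, C, hC⟩
  exact key

/-- everything together -/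
theorem trace_limit [TopologicalSpace X] [CompactSpace X] [Countable K] [Countable K']
    [IsFiniteMeasure μ] (F : Fam μ K) (G : Fam μ K') {d : X → ℝ}
    (h : ∀ x : X, ∃ U ∈ 𝓝 x, ∃ C, F.BOn U C ∧ G.BOn U C ∧ DOn F G U C)
    (hd : ∀ x, Tendsto (fun t => F.diag t x - G.diag t x) (𝓝[>] 0) (𝓝 (d x))) :
    (∀ t : ℝ, 0 < t → Summable fun k => Real.exp (-(t * F.m k))) ∧
    (∀ t : ℝ, 0 < t → Summable fun k => Real.exp (-(t * G.m k))) ∧
    Integrable d μ ∧
    Tendsto (fun t => ∑' k, Real.exp (-(t * F.m k)) - ∑' k, Real.exp (-(t * G.m k)))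
      (𝓝[>] 0) (𝓝 (∫ x, d x ∂μ)) := by
  obtain ⟨C, h1, h2, h3⟩ := bnd_of_local F G h
  obtain ⟨h4, h5⟩ := tendsto_trace F G h1 h2 h3 hd
  refine ⟨fun t ht => F.summable h1 ht, fun t ht => G.summable h2 ht, h4, ?_⟩
  have h6 : Tendsto (fun t : ℝ => t / 2) (𝓝[>] 0) (𝓝[>] 0) := by
    refine tendsto_nhdsWithin_iff.2 ⟨?_, ?_⟩
    · have : Tendsto (fun t : ℝ => t / 2) (𝓝 0) (𝓝 (0 / 2)) :=
        (continuous_id.div_const 2).tendsto 0
      rw [zero_div] at this
      exact this.mono_left nhdsWithin_le_nhds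
    · filter_upwards [self_mem_nhdsWithin] with t ht
      exact half_pos (mem_Ioi.1 ht)
  refine (h5.comp h6).congr fun t => ?_
  simp only [Function.comp]
  have h7 : ∀ a : ℝ, 2 * (t / 2) * a = t * a := fun a => by ring
  simp only [h7]

end Crest.Agent.R249.HK9_714
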