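import Mathlib

/-!
# Row 249, PART C, leaf HK9 (helper714): local orthonormal frames of a smooth projection

`frame_local` : `p` a smooth symmetric idempotent matrix on an open set `W` of a normed space, `y₀ ∈ W`.  Then near
`y₀` there are smooth `j a q` (`q : Fin r`) with `jᵀ j = 1`, `j jᵀ = p`.
-/

set_option autoImplicit false
open scoped ContDiff Topology
open Set Filter

namespace Crest.Agent.R249.HK9_714

section matrix
variable {κ : Type*} [Fintype κ]

theorem diag_eq_sum_sq {p : κ → κ → ℝ} (hs : ∀ a b, p a b = p b a)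
    (hi : ∀ a b, ∑ c, p a c * p c b = p a b) (a : κ) : p a a = ∑ c, p a c ^ 2 := by
  rw [← hi a a]
  refine Finset.sum_congr rfl fun c _ => ?_
  rw [hs c a, sq]

theorem diag_nonneg {p : κ → κ → ℝ} (hs : ∀ a b, p a b = p b a)
    (hi : ∀ a b, ∑ c, p a c * p c b = p a b) (a : κ) : 0 ≤ p a a := by
  rw [diag_eq_sum_sq hs hi a]
  exact Finset.sum_nonneg fun c _ => sq_nonneg _

theorem sub_idem {p : κ → κ → ℝ} {s : κ → ℝ} (hs : ∀ a b, p a b = p b a)
    (hi : ∀ a b, ∑ c, p a c * p c b = p a b) (h1 : ∀ a, ∑ b, p a b * s b = s a)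
    (h2 : ∑ a, s a * s a = 1) (a b : κ) :
    ∑ c, (p a c - s a * s c) * (p c b - s c * s b) = p a b - s a * s b := by
  have e1 : ∀ c, (p a c - s a * s c) * (p c b - s c * s b)
      = p a c * p c b - (p a c * s c) * s b - s a * (p b c * s c) + s a * s b * (s c * s c) := by
    intro c
    rw [hs c b]
    ring
  simp only [e1]
  rw [Finset.sum_add_distrib, Finset.sum_sub_distrib, Finset.sum_sub_distrib, hi, ← Finset.sum_mul,
    ← Finset.mul_sum, ← Finset.mul_sum, h1, h1, h2]
  ring

theorem one_le_trace {p : κ → κ → ℝ} (hs : ∀ a b, p a b = p b a)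
    (hi : ∀ a b, ∑ c, p a c * p c b = p a b) {c : κ} (hc : 0 < p c c) : 1 ≤ ∑ a, p a a := by
  set s : κ → ℝ := fun a => p a c / Real.sqrt (p c c) with hsd
  have hq : Real.sqrt (p c c) ≠ 0 := (Real.sqrt_pos.2 hc).ne'
  have h1 : ∀ a, ∑ b, p a b * s b = s a := fun a => by
    simp only [hsd, ← mul_div_assoc]
    rw [← Finset.sum_div, hi]
  have h2 : ∑ a, s a * s a = 1 := by
    have : ∀ a, s a * s a = p c a ^ 2 / p c c := fun a => by
      simp only [hsd]
      rw [div_mul_div_comm, Real.mul_self_sqrt hc.le, hs a c, sq]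
    simp only [this]
    rw [← Finset.sum_div, ← diag_eq_sum_sq hs hi c, div_self hc.ne']
  have h3 := fun a b => sub_idem hs hi h1 h2 a b
  have h4 : ∀ a, 0 ≤ p a a - s a * s a := fun a =>
    diag_nonneg (p := fun a b => p a b - s a * s b) (fun a b => by rw [hs a b]; ring) h3 a
  have h5 : 0 ≤ ∑ a, (p a a - s a * s a) := Finset.sum_nonneg fun a _ => h4 a
  rw [Finset.sum_sub_distrib, h2] at h5
  linarith

theorem eq_zero_of_trace_lt {p : κ → κ → ℝ} (hs : ∀ a b, p a b = p b a)
    (hi : ∀ a b, ∑ c, p a c * p c b = p a b) (h : ∑ a, p a a < 1) (a b : κ) : p a b = 0 := by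
  have h1 : p a a = 0 := by
    by_contra h2
    have h3 : 0 < p a a := lt_of_le_of_ne (diag_nonneg hs hi a) (Ne.symm h2)
    exact absurd (one_le_trace hs hi h3) (not_le.2 h)
  rw [diag_eq_sum_sq hs hi a] at h1
  have h4 := (Finset.sum_eq_zero_iff_of_nonneg (fun c _ => sq_nonneg (p a c))).1 h1 b
    (Finset.mem_univ b)
  exact pow_eq_zero_iff (two_ne_zero) |>.1 h4

end matrix

variable {E : Type*} [NormedAddCommGroup E] [NormedSpace ℝ E] {κ : Type*} [Fintype κ]

theorem frame_aux (y₀ : E) (n : ℕ) : ∀ (W : Set E) (_ : IsOpen W) (_ : y₀ ∈ W) (p : κ → κ → E → ℝ)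
    (_ : ∀ a b, ContDiffOn ℝ ∞ (p a b) W) (_ : ∀ x ∈ W, ∀ a b, p a b x = p b a x)
    (_ : ∀ x ∈ W, ∀ a b, ∑ c, p a c x * p c b x = p a b x), ∑ a, p a a y₀ < n →
    ∃ (V : Set E) (r : ℕ) (j : κ → Fin r → E → ℝ), IsOpen V ∧ y₀ ∈ V ∧ V ⊆ W ∧
      (∀ a q, ContDiffOn ℝ ∞ (j a q) V) ∧
      (∀ x ∈ V, ∀ q q', ∑ a, j a q x * j a q' x = if q = q' then 1 else 0) ∧
      (∀ x ∈ V, ∀ a b, ∑ q, j a q x * j b q x = p a b x) := by
  induction n with
  | zero =>
    intro W _ hy p _ hs hi h
    exfalso
    have : 0 ≤ ∑ a, p a a y₀ := Finset.sum_nonneg fun a _ =>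
      diag_nonneg (p := fun a b => p a b y₀) (hs y₀ hy) (hi y₀ hy) a
    simp only [Nat.cast_zero] at h
    linarith
  | succ n ih =>
    intro W hW hy p hp hs hi h
    by_cases hc : ∃ c, 0 < p c c y₀
    · obtain ⟨c, hc⟩ := hc
      set W1 : Set E := W ∩ p c c ⁻¹' Ioi 0 with hW1
      have hoW1 : IsOpen W1 := (hp c c).continuousOn.isOpen_inter_preimage hW isOpen_Ioi
      have hyW1 : y₀ ∈ W1 := ⟨hy, hc⟩
      have hsub : W1 ⊆ W := inter_subset_left
      set s : κ → E → ℝ := fun a x => p a c x / Real.sqrt (p c c x) with hsd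
      have hsm : ∀ a, ContDiffOn ℝ ∞ (s a) W1 := fun a => by
        refine ((hp a c).mono hsub).div (((hp c c).mono hsub).sqrt fun x hx => (ne_of_gt hx.2)) ?_
        intro x hx
        exact (Real.sqrt_pos.2 hx.2).ne'
      have h1 : ∀ x ∈ W1, ∀ a, ∑ b, p a b x * s b x = s a x := fun x hx a => by
        simp only [hsd, ← mul_div_assoc]
        rw [← Finset.sum_div, hi x hx.1]
      have h2 : ∀ x ∈ W1, ∑ a, s a x * s a x = 1 := fun x hx => by
        have : ∀ a, s a x * s a x = p c a x ^ 2 / p c c x := fun a => by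
          simp only [hsd]
          rw [div_mul_div_comm, Real.mul_self_sqrt (le_of_lt hx.2), hs x hx.1 a c, sq]
        simp only [this]
        rw [← Finset.sum_div,
          ← diag_eq_sum_sq (p := fun a b => p a b x) (hs x hx.1) (hi x hx.1) c,
          div_self (ne_of_gt hx.2)]
      set p' : κ → κ → E → ℝ := fun a b x => p a b x - s a x * s b x with hp'
      have h3 : ∀ x ∈ W1, ∀ a b, ∑ c, p' a c x * p' c b x = p' a b x := fun x hx a b =>
        sub_idem (p := fun a b => p a b x) (s := fun a => s a x) (hs x hx.1) (hi x hx.1)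
          (h1 x hx) (h2 x hx) a b
      have hs' : ∀ x ∈ W1, ∀ a b, p' a b x = p' b a x := fun x hx a b => by
        simp only [hp']
        rw [hs x hx.1 a b]; ring
      have htr : ∑ a, p' a a y₀ < n := by
        simp only [hp']
        rw [Finset.sum_sub_distrib, h2 y₀ hyW1]
        push_cast at h
        linarith
      obtain ⟨V, r, j, hV, hyV, hVW, hj, hjj, hjp⟩ := ih W1 hoW1 hyW1 p'
        (fun a b => ((hp a b).mono hsub).sub ((hsm a).mul (hsm b))) hs' h3 htr
      -- `s` is orthogonal to `j`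
      have hp's : ∀ x ∈ W1, ∀ a, ∑ b, p' a b x * s b x = 0 := fun x hx a => by
        have : ∀ b, p' a b x * s b x = p a b x * s b x - s a x * (s b x * s b x) := fun b => by
          simp only [hp']; ring
        simp only [this]
        rw [Finset.sum_sub_distrib, h1 x hx, ← Finset.mul_sum, h2 x hx]
        ring
      have hsj : ∀ x ∈ V, ∀ q, ∑ a, s a x * j a q x = 0 := fun x hx q => by
        have e1 : ∀ a, j a q x = ∑ b, p' a b x * j b q x := fun a => by
          have : ∀ b, p' a b x * j b q x = ∑ q', j a q' x * (j b q' x * j b q x) := fun b => by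
            rw [← hjp x hx a b, Finset.sum_mul]
            exact Finset.sum_congr rfl fun q' _ => by ring
          simp only [this]
          rw [Finset.sum_comm]
          simp only [← Finset.mul_sum, hjj x hx]
          simp
        calc ∑ a, s a x * j a q x = ∑ a, s a x * ∑ b, p' a b x * j b q x :=
              Finset.sum_congr rfl fun a _ => by rw [← e1 a]
          _ = ∑ b, j b q x * ∑ a, p' b a x * s a x := by
              simp only [Finset.mul_sum]
              rw [Finset.sum_comm]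
              refine Finset.sum_congr rfl fun b _ => Finset.sum_congr rfl fun a _ => ?_
              rw [hs' x (hVW hx) b a]; ring
          _ = 0 := by simp [hp's x (hVW hx)]
      refine ⟨V, r + 1, fun a => Fin.cons (s a) (j a), hV, hyV, hVW.trans hsub, ?_, ?_, ?_⟩
      · intro a q
        refine Fin.cases ?_ (fun q => ?_) q
        · simpa using (hsm a).mono hVW
        · simpa using hj a q
      · intro x hx q q'
        refine Fin.cases ?_ (fun q => ?_) q
        · refine Fin.cases ?_ (fun q' => ?_) q'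
          · simpa using h2 x (hVW hx)
          · simp only [Fin.cons_zero, Fin.cons_succ]
            rw [hsj x hx q', if_neg (Fin.succ_ne_zero q').symm]
        · refine Fin.cases ?_ (fun q' => ?_) q'
          · simp only [Fin.cons_zero, Fin.cons_succ]
            rw [if_neg (Fin.succ_ne_zero q), ← hsj x hx q]
            exact Finset.sum_congr rfl fun a _ => mul_comm _ _
          · simp only [Fin.cons_succ, Fin.succ_inj]
            exact hjj x hx q q'
      · intro x hx a b
        rw [Fin.sum_univ_succ]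
        simp only [Fin.cons_zero, Fin.cons_succ]
        rw [hjp x hx a b]
        simp only [hp']; ring
    · push Not at hc
      have hz : ∀ a, p a a y₀ = 0 := fun a =>
        le_antisymm (hc a) (diag_nonneg (p := fun a b => p a b y₀) (hs y₀ hy) (hi y₀ hy) a)
      have hct : ContinuousOn (fun x => ∑ a, p a a x) W :=
        continuousOn_finsetSum _ fun a _ => (hp a a).continuousOn
      refine ⟨W ∩ (fun x => ∑ a, p a a x) ⁻¹' Iio 1, 0, fun _ q => q.elim0,
        hct.isOpen_inter_preimage hW isOpen_Iio, ⟨hy, ?_⟩, inter_subset_left, fun a q => q.elim0,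
        fun x hx q => q.elim0, fun x hx a b => ?_⟩
      · simp [hz]
      · simp only [Finset.univ_eq_empty, Finset.sum_empty]
        exact (eq_zero_of_trace_lt (p := fun a b => p a b x) (hs x hx.1) (hi x hx.1) hx.2 a b).symm

/-- local orthonormal frames of a smooth projection -/
theorem frame_local {W : Set E} (hW : IsOpen W) {y₀ : E} (hy : y₀ ∈ W) {p : κ → κ → E → ℝ}
    (hp : ∀ a b, ContDiffOn ℝ ∞ (p a b) W) (hs : ∀ x ∈ W, ∀ a b, p a b x = p b a x)
    (hi : ∀ x ∈ W, ∀ a b, ∑ c, p a c x * p c b x = p a b x) :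
    ∃ (V : Set E) (r : ℕ) (j : κ → Fin r → E → ℝ), IsOpen V ∧ y₀ ∈ V ∧ V ⊆ W ∧
      (∀ a q, ContDiffOn ℝ ∞ (j a q) V) ∧
      (∀ x ∈ V, ∀ q q', ∑ a, j a q x * j a q' x = if q = q' then 1 else 0) ∧
      (∀ x ∈ V, ∀ a b, ∑ q, j a q x * j b q x = p a b x) := by
  obtain ⟨n, hn⟩ := exists_nat_gt (∑ a, p a a y₀)
  exact frame_aux y₀ n W hW hy p hp hs hi hn

end Crest.Agent.R249.HK9_714
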