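import Crest.Agent.R249.HK9Def_714
import Crest.Agent.R249.HK9b_714
import Crest.Agent.R202.Ell1

/-!
# Row 249, PART C, leaf HK9 (helper714): from the embedded bundle to a local orthonormal frame

`LF V κ ρ` : on the open set `V` of `E4` a connection form `om` on `ℝ^κ`, a potential `Q`, a parallel projection `p` and
an orthonormal frame `j` of the range of `p`.
* `LF.a`, `LF.con c` : connection `a = jᵀ (d + om) j` and potential `P = jᵀ Q j + c` in the frame (a `CCon V ρ`);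
* `LF.cov_j`  : `(d + om)(j f) = j (d + a) f`;
* `LF.j_F`    : `j F^a = F^om j`;
* `LF.dens_eq`: the density of `con c` in terms of `p, Q, om`.
-/

set_option autoImplicit false
set_option linter.unusedSectionVars false
open scoped ContDiff Topology
open MeasureTheory Set Filter Matrix
open Crest.Agent.R249.HK286 (E4 pd)
open Crest.GeometryTopology.CoordMetric (pderiv)

namespace Crest.Agent.R249.HK9_714

/-! ### calculus of `pd` -/

theorem pd_eq (l : Fin 4) (f : E4 → ℝ) (x : E4) : pd l f x = pderiv l f x := rfl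

theorem pd_congr {l : Fin 4} {f g : E4 → ℝ} {x : E4} (h : f =ᶠ[𝓝 x] g) : pd l f x = pd l g x := by
  unfold Crest.Agent.R249.HK286.pd
  rw [h.fderiv_eq]

theorem pd_add {l : Fin 4} {f g : E4 → ℝ} {x : E4} (hf : DifferentiableAt ℝ f x)
    (hg : DifferentiableAt ℝ g x) : pd l (fun y => f y + g y) x = pd l f x + pd l g x :=
  Crest.Agent.R202.Ell.pderiv_add l x hf hg

theorem pd_sub {l : Fin 4} {f g : E4 → ℝ} {x : E4} (hf : DifferentiableAt ℝ f x)
    (hg : DifferentiableAt ℝ g x) : pd l (fun y => f y - g y) x = pd l f x - pd l g x := by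
  unfold Crest.Agent.R249.HK286.pd
  rw [fderiv_fun_sub hf hg]; rfl

theorem pd_mul {l : Fin 4} {f g : E4 → ℝ} {x : E4} (hf : DifferentiableAt ℝ f x)
    (hg : DifferentiableAt ℝ g x) :
    pd l (fun y => f y * g y) x = pd l f x * g x + f x * pd l g x :=
  Crest.Agent.R202.Ell.pderiv_mul l x hf hg

theorem pd_sum {ι : Type*} [Fintype ι] {l : Fin 4} {f : ι → E4 → ℝ} {x : E4}
    (hf : ∀ j, DifferentiableAt ℝ (f j) x) :
    pd l (fun y => ∑ j, f j y) x = ∑ j, pd l (f j) x :=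
  Crest.Agent.R202.Ell.pderiv_sum Finset.univ l x fun j _ => hf j

theorem pd_sum_mul {ι : Type*} [Fintype ι] {l : Fin 4} {f g : ι → E4 → ℝ} {x : E4}
    (hf : ∀ j, DifferentiableAt ℝ (f j) x) (hg : ∀ j, DifferentiableAt ℝ (g j) x) :
    pd l (fun y => ∑ j, f j y * g j y) x = ∑ j, (pd l (f j) x * g j x + f j x * pd l (g j) x) := by
  rw [pd_sum (f := fun j y => f j y * g j y) fun j => (hf j).mul (hg j)]
  exact Finset.sum_congr rfl fun j _ => pd_mul (hf j) (hg j)

theorem pd_const {l : Fin 4} {c : ℝ} {x : E4} : pd l (fun _ => c) x = 0 := by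
  unfold Crest.Agent.R249.HK286.pd
  simp

theorem two_le_inf : (2 : WithTop ℕ∞) ≤ ∞ := WithTop.coe_le_coe.2 le_top

theorem pd_comm {f : E4 → ℝ} {x : E4} (i l : Fin 4) (hf : ContDiffAt ℝ ∞ f x) :
    pd i (pd l f) x = pd l (pd i f) x :=
  Crest.Agent.R202.Ell.pderiv_comm i l x (hf.of_le two_le_inf)

theorem contDiffOn_pd {V : Set E4} (hV : IsOpen V) {f : E4 → ℝ} (hf : ContDiffOn ℝ ∞ f V)
    (l : Fin 4) : ContDiffOn ℝ ∞ (pd l f) V := by
  intro x hx
  have h1 : ContDiffAt ℝ ∞ f x := hf.contDiffAt (hV.mem_nhds hx)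
  exact ((h1.fderiv_right (m := ∞) (by simp)).clm_apply contDiffAt_const).contDiffWithinAt

/-! ### matrix algebra -/

section alg
variable {κ ρ : Type} [Fintype κ] [Fintype ρ] [DecidableEq ρ]
  {J dJ : Matrix κ ρ ℝ} {om p dp : Matrix κ κ ℝ}

theorem alg_rel (hJ : Jᵀ * J = 1) (hp : J * Jᵀ = p) (hdp : dp = dJ * Jᵀ + J * dJᵀ)
    (hd : dJᵀ * J + Jᵀ * dJ = 0) (hpar : dp + (om * p - p * om) = 0) :
    J * (Jᵀ * (dJ + om * J)) = dJ + om * J := by
  have h1 : (dp + (om * p - p * om)) * J = 0 := by rw [hpar, Matrix.zero_mul]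
  rw [hdp, ← hp] at h1
  have h2 : (dJ * Jᵀ + J * dJᵀ + (om * (J * Jᵀ) - J * Jᵀ * om)) * J
      = dJ * (Jᵀ * J) + J * (dJᵀ * J) + (om * J * (Jᵀ * J) - J * (Jᵀ * (om * J))) := by
    simp only [Matrix.add_mul, Matrix.sub_mul, Matrix.mul_assoc]
  have h3 : dJᵀ * J = - (Jᵀ * dJ) := eq_neg_of_add_eq_zero_left hd
  rw [h2, hJ, h3, Matrix.mul_one, Matrix.mul_one, Matrix.mul_neg] at h1
  rw [Matrix.mul_add, Matrix.mul_add]
  have h4 : dJ + -(J * (Jᵀ * dJ)) + (om * J - J * (Jᵀ * (om * J)))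
      = (dJ + om * J) - (J * (Jᵀ * dJ) + J * (Jᵀ * (om * J))) := by abel
  rw [h4, sub_eq_zero] at h1
  exact h1.symm

theorem alg_skew (hd : dJᵀ * J + Jᵀ * dJ = 0) (hom : omᵀ = -om) :
    (Jᵀ * (dJ + om * J))ᵀ = -(Jᵀ * (dJ + om * J)) := by
  have h3 : dJᵀ * J = - (Jᵀ * dJ) := eq_neg_of_add_eq_zero_left hd
  rw [Matrix.transpose_mul, Matrix.transpose_transpose, Matrix.transpose_add, Matrix.transpose_mul,
    hom, Matrix.add_mul, h3, Matrix.mul_add]
  simp only [Matrix.mul_neg, Matrix.neg_mul, Matrix.mul_assoc, neg_add]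

end alg

/-! ### the local frame -/

/-- data on `V`: bundle `p` in `ℝ^κ`, connection `om`, potential `Q`, orthonormal frame `j` -/
structure LF (V : Set E4) (κ ρ : Type) [Fintype κ] [Fintype ρ] [DecidableEq ρ] where
  om : Fin 4 → κ → κ → E4 → ℝ
  Q : κ → κ → E4 → ℝ
  p : κ → κ → E4 → ℝ
  j : κ → ρ → E4 → ℝ
  smom : ∀ l a b, ContDiffOn ℝ ∞ (om l a b) V
  smQ : ∀ a b, ContDiffOn ℝ ∞ (Q a b) V
  smj : ∀ a q, ContDiffOn ℝ ∞ (j a q) V
  skew : ∀ l a b, ∀ x ∈ V, om l a b x = - om l b a x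
  symmQ : ∀ a b, ∀ x ∈ V, Q a b x = Q b a x
  jj : ∀ x ∈ V, ∀ q q', ∑ a, j a q x * j a q' x = if q = q' then 1 else 0
  jp : ∀ x ∈ V, ∀ a b, ∑ q, j a q x * j b q x = p a b x
  par : ∀ x ∈ V, ∀ l a b, pd l (p a b) x + ∑ c, (om l a c x * p c b x - p a c x * om l c b x) = 0

namespace LF

variable {V : Set E4} {κ ρ : Type} [Fintype κ] [Fintype ρ] [DecidableEq ρ] (L : LF V κ ρ)

/-- connection matrix in the frame: `a_l = jᵀ (∂_l j + om_l j)` -/
noncomputable def a (l : Fin 4) (q q' : ρ) (x : E4) : ℝ :=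
  ∑ a, L.j a q x * (pd l (L.j a q') x + ∑ b, L.om l a b x * L.j b q' x)

/-- curvature of `om` -/
noncomputable def FO (i l : Fin 4) (a b : κ) (x : E4) : ℝ :=
  pd i (L.om l a b) x - pd l (L.om i a b) x
    + ∑ c, (L.om i a c x * L.om l c b x - L.om l a c x * L.om i c b x)

theorem difj (hV : IsOpen V) {x : E4} (hx : x ∈ V) (a : κ) (q : ρ) :
    DifferentiableAt ℝ (L.j a q) x :=
  ((L.smj a q).contDiffAt (hV.mem_nhds hx)).differentiableAt (by simp)

theorem difom (hV : IsOpen V) {x : E4} (hx : x ∈ V) (l : Fin 4) (a b : κ) :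
    DifferentiableAt ℝ (L.om l a b) x :=
  ((L.smom l a b).contDiffAt (hV.mem_nhds hx)).differentiableAt (by simp)

/-- matrices at a point -/
noncomputable def J (x : E4) : Matrix κ ρ ℝ := Matrix.of fun a q => L.j a q x
noncomputable def dJ (l : Fin 4) (x : E4) : Matrix κ ρ ℝ := Matrix.of fun a q => pd l (L.j a q) x
noncomputable def O (l : Fin 4) (x : E4) : Matrix κ κ ℝ := Matrix.of fun a b => L.om l a b x
noncomputable def Pm (x : E4) : Matrix κ κ ℝ := Matrix.of fun a b => L.p a b x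
noncomputable def dP (l : Fin 4) (x : E4) : Matrix κ κ ℝ := Matrix.of fun a b => pd l (L.p a b) x
noncomputable def Am (l : Fin 4) (x : E4) : Matrix ρ ρ ℝ := Matrix.of fun q q' => L.a l q q' x

theorem J_apply (x : E4) (a : κ) (q : ρ) : L.J x a q = L.j a q x := rfl
theorem dJ_apply (l : Fin 4) (x : E4) (a : κ) (q : ρ) : L.dJ l x a q = pd l (L.j a q) x := rfl
theorem O_apply (l : Fin 4) (x : E4) (a b : κ) : L.O l x a b = L.om l a b x := rfl
theorem Am_apply (l : Fin 4) (x : E4) (q q' : ρ) : L.Am l x q q' = L.a l q q' x := rfl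

theorem JJ {x : E4} (hx : x ∈ V) : (L.J x)ᵀ * L.J x = 1 := by
  ext q q'
  rw [Matrix.mul_apply]
  simp only [Matrix.transpose_apply, J_apply]
  rw [L.jj x hx, Matrix.one_apply]

theorem JP {x : E4} (hx : x ∈ V) : L.J x * (L.J x)ᵀ = L.Pm x := by
  ext a b
  rw [Matrix.mul_apply]
  simp only [Matrix.transpose_apply, J_apply]
  rw [L.jp x hx]; rfl

theorem dP_eq (hV : IsOpen V) {x : E4} (hx : x ∈ V) (l : Fin 4) :
    L.dP l x = L.dJ l x * (L.J x)ᵀ + L.J x * (L.dJ l x)ᵀ := by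
  ext a b
  rw [Matrix.add_apply, Matrix.mul_apply, Matrix.mul_apply]
  simp only [Matrix.transpose_apply, J_apply, dJ_apply]
  have h1 : pd l (L.p a b) x = pd l (fun y => ∑ q, L.j a q y * L.j b q y) x := by
    refine pd_congr ?_
    filter_upwards [hV.mem_nhds hx] with y hy
    rw [L.jp y hy]
  rw [← Finset.sum_add_distrib]
  show pd l (L.p a b) x = _
  rw [h1, pd_sum_mul (fun q => L.difj hV hx a q) (fun q => L.difj hV hx b q)]

theorem dJJ (hV : IsOpen V) {x : E4} (hx : x ∈ V) (l : Fin 4) :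
    (L.dJ l x)ᵀ * L.J x + (L.J x)ᵀ * L.dJ l x = 0 := by
  ext q q'
  rw [Matrix.add_apply, Matrix.mul_apply, Matrix.mul_apply]
  simp only [Matrix.transpose_apply, J_apply, dJ_apply]
  have h1 : pd l (fun y => ∑ a, L.j a q y * L.j a q' y) x = 0 := by
    have : (fun y => ∑ a, L.j a q y * L.j a q' y) =ᶠ[𝓝 x] fun _ => if q = q' then 1 else 0 := by
      filter_upwards [hV.mem_nhds hx] with y hy
      rw [L.jj y hy]
    rw [pd_congr this, pd_const]
  rw [pd_sum_mul (fun a => L.difj hV hx a q) (fun a => L.difj hV hx a q')] at h1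
  rw [← Finset.sum_add_distrib, h1]
  rfl

theorem par_m {x : E4} (hx : x ∈ V) (l : Fin 4) :
    L.dP l x + (L.O l x * L.Pm x - L.Pm x * L.O l x) = 0 := by
  ext a b
  rw [Matrix.add_apply, Matrix.sub_apply, Matrix.mul_apply, Matrix.mul_apply, ← Finset.sum_sub_distrib]
  exact L.par x hx l a b

theorem Am_eq (l : Fin 4) (x : E4) : L.Am l x = (L.J x)ᵀ * (L.dJ l x + L.O l x * L.J x) := by
  ext q q'
  rw [Matrix.mul_apply]
  simp only [Matrix.add_apply, Matrix.mul_apply, Matrix.transpose_apply]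
  rfl

/-- `j a_l = ∂_l j + om_l j` -/
theorem J_Am (hV : IsOpen V) {x : E4} (hx : x ∈ V) (l : Fin 4) :
    L.J x * L.Am l x = L.dJ l x + L.O l x * L.J x := by
  rw [Am_eq]
  exact alg_rel (L.JJ hx) (L.JP hx) (L.dP_eq hV hx l) (L.dJJ hV hx l) (L.par_m hx l)

theorem rel (hV : IsOpen V) {x : E4} (hx : x ∈ V) (l : Fin 4) (a : κ) (q : ρ) :
    ∑ q', L.j a q' x * L.a l q' q x = pd l (L.j a q) x + ∑ b, L.om l a b x * L.j b q x := by
  have h := congrFun (congrFun (L.J_Am hV hx l) a) q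
  rw [Matrix.mul_apply, Matrix.add_apply, Matrix.mul_apply] at h
  exact h

theorem a_skew (hV : IsOpen V) {x : E4} (hx : x ∈ V) (l : Fin 4) (q q' : ρ) :
    L.a l q q' x = - L.a l q' q x := by
  have hO : (L.O l x)ᵀ = - L.O l x := by
    ext a b
    rw [Matrix.transpose_apply, Matrix.neg_apply]
    exact L.skew l b a x hx
  have h := alg_skew (L.dJJ hV hx l) hO
  rw [← Am_eq] at h
  have h' := congrFun (congrFun h q') q
  rw [Matrix.transpose_apply, Matrix.neg_apply] at h'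
  exact h'

theorem sma (hV : IsOpen V) (l : Fin 4) (q q' : ρ) : ContDiffOn ℝ ∞ (L.a l q q') V := by
  unfold a
  refine ContDiffOn.sum fun a _ => (L.smj a q).mul ?_
  refine (contDiffOn_pd hV (L.smj a q') l).add (ContDiffOn.sum fun b _ => ?_)
  exact (L.smom l a b).mul (L.smj b q')

/-- `(∂_l + om_l)(j f) = j (∂_l + a_l) f` -/
theorem cov_j (hV : IsOpen V) {x : E4} (hx : x ∈ V) (l : Fin 4) (f : E4 → ρ → ℝ)
    (hf : ∀ q, DifferentiableAt ℝ (fun y => f y q) x) (a : κ) :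
    pd l (fun y => ∑ q, L.j a q y * f y q) x + ∑ b, L.om l a b x * ∑ q, L.j b q x * f x q
      = ∑ q, L.j a q x * (pd l (fun y => f y q) x + ∑ q', L.a l q q' x * f x q') := by
  rw [pd_sum_mul (f := fun q => L.j a q) (g := fun q y => f y q) (fun q => L.difj hV hx a q) hf]
  have h1 : ∑ q, L.j a q x * (pd l (fun y => f y q) x + ∑ q', L.a l q q' x * f x q')
      = ∑ q, L.j a q x * pd l (fun y => f y q) x
        + ∑ q', (∑ q, L.j a q x * L.a l q q' x) * f x q' := by
    simp only [mul_add, Finset.sum_add_distrib, Finset.mul_sum, Finset.sum_mul]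
    congr 1
    rw [Finset.sum_comm]
    refine Finset.sum_congr rfl fun q' _ => Finset.sum_congr rfl fun q _ => by ring
  rw [h1]
  have h2 : ∀ q', (∑ q, L.j a q x * L.a l q q' x) * f x q'
      = pd l (L.j a q') x * f x q' + ∑ b, L.om l a b x * (L.j b q' x * f x q') := fun q' => by
    rw [L.rel hV hx l a q', add_mul, Finset.sum_mul]
    congr 1
    exact Finset.sum_congr rfl fun b _ => by ring
  simp only [h2, Finset.sum_add_distrib, Finset.mul_sum]
  rw [Finset.sum_comm (f := fun q' b => L.om l a b x * (L.j b q' x * f x q'))]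
  ring

/-- sections: `φ = p φ` is `j u`, `u = jᵀ φ` -/
theorem j_u {x : E4} (hx : x ∈ V) (φ : κ → ℝ) (hφ : ∀ a, ∑ b, L.p a b x * φ b = φ a) (a : κ) :
    ∑ q, L.j a q x * ∑ b, L.j b q x * φ b = φ a := by
  rw [← hφ a]
  simp only [Finset.mul_sum]
  rw [Finset.sum_comm]
  refine Finset.sum_congr rfl fun b _ => ?_
  rw [← L.jp x hx a b, Finset.sum_mul]
  exact Finset.sum_congr rfl fun q _ => by ring

theorem sum_j_j {x : E4} (hx : x ∈ V) (f g : ρ → ℝ) :
    ∑ a, (∑ q, L.j a q x * f q) * (∑ q, L.j a q x * g q) = ∑ q, f q * g q := by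
  have h1 : ∀ a, (∑ q, L.j a q x * f q) * (∑ q, L.j a q x * g q)
      = ∑ q, ∑ q', (L.j a q x * L.j a q' x) * (f q * g q') := fun a => by
    rw [Finset.sum_mul_sum]
    exact Finset.sum_congr rfl fun q _ => Finset.sum_congr rfl fun q' _ => by ring
  simp only [h1]
  rw [Finset.sum_comm]
  refine Finset.sum_congr rfl fun q _ => ?_
  rw [Finset.sum_comm]
  simp only [← Finset.sum_mul, L.jj x hx]
  simp

/-- matrices of second derivatives -/
noncomputable def dA (i l : Fin 4) (x : E4) : Matrix ρ ρ ℝ := Matrix.of fun q q' => pd i (L.a l q q') x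
noncomputable def dO (i l : Fin 4) (x : E4) : Matrix κ κ ℝ := Matrix.of fun a b => pd i (L.om l a b) x
noncomputable def ddJ (i l : Fin 4) (x : E4) : Matrix κ ρ ℝ :=
  Matrix.of fun a q => pd i (pd l (L.j a q)) x
noncomputable def FOm (i l : Fin 4) (x : E4) : Matrix κ κ ℝ := Matrix.of fun a b => L.FO i l a b x

theorem ddJ_comm (hV : IsOpen V) {x : E4} (hx : x ∈ V) (i l : Fin 4) : L.ddJ i l x = L.ddJ l i x := by
  ext a q
  exact pd_comm i l ((L.smj a q).contDiffAt (hV.mem_nhds hx))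

theorem drel (hV : IsOpen V) {x : E4} (hx : x ∈ V) (i l : Fin 4) :
    L.dJ i x * L.Am l x + L.J x * L.dA i l x
      = L.ddJ i l x + (L.dO i l x * L.J x + L.O l x * L.dJ i x) := by
  ext a q
  simp only [Matrix.add_apply, Matrix.mul_apply]
  have h1 : (fun y => ∑ q', L.j a q' y * L.a l q' q y)
      =ᶠ[𝓝 x] fun y => pd l (L.j a q) y + ∑ b, L.om l a b y * L.j b q y := by
    filter_upwards [hV.mem_nhds hx] with y hy
    exact L.rel hV hy l a q
  have h2 := pd_congr (l := i) h1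
  have hda : ∀ q', DifferentiableAt ℝ (L.a l q' q) x := fun q' =>
    ((L.sma hV l q' q).contDiffAt (hV.mem_nhds hx)).differentiableAt (by simp)
  have hds : DifferentiableAt ℝ (fun y => ∑ b, L.om l a b y * L.j b q y) x := by
    refine DifferentiableAt.fun_sum fun b _ => ?_
    exact (L.difom hV hx l a b).mul (L.difj hV hx b q)
  rw [pd_sum_mul (fun q' => L.difj hV hx a q') hda, pd_add
    (((contDiffOn_pd hV (L.smj a q) l).contDiffAt (hV.mem_nhds hx)).differentiableAt (by simp)) hds,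
    pd_sum_mul (fun b => L.difom hV hx l a b) (fun b => L.difj hV hx b q),
    Finset.sum_add_distrib, Finset.sum_add_distrib] at h2
  exact h2

theorem J_F_m (hV : IsOpen V) {x : E4} (hx : x ∈ V) (i l : Fin 4) :
    L.J x * (L.dA i l x - L.dA l i x + (L.Am i x * L.Am l x - L.Am l x * L.Am i x))
      = (L.dO i l x - L.dO l i x + (L.O i x * L.O l x - L.O l x * L.O i x)) * L.J x := by
  have e1 := L.drel hV hx i l
  have e2 := L.drel hV hx l i
  have ri : L.dJ i x = L.J x * L.Am i x - L.O i x * L.J x := by rw [L.J_Am hV hx i]; abel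
  have rl : L.dJ l x = L.J x * L.Am l x - L.O l x * L.J x := by rw [L.J_Am hV hx l]; abel
  rw [L.ddJ_comm hV hx l i] at e2
  rw [ri] at e1
  rw [rl] at e2
  simp only [Matrix.sub_mul, Matrix.mul_sub, Matrix.mul_assoc, Matrix.mul_add, Matrix.add_mul] at e1 e2 ⊢
  have h1 := sub_eq_zero.2 e1
  have h2 := sub_eq_zero.2 e2
  rw [← sub_eq_zero]
  have h3 := congrArg₂ (fun X Y => X - Y) h1 h2
  simp only [sub_zero] at h3
  rw [← h3]
  abel

/-- the curvature in the frame -/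
noncomputable def FA (i l : Fin 4) (q q' : ρ) (x : E4) : ℝ :=
  pd i (L.a l q q') x - pd l (L.a i q q') x
    + ∑ r, (L.a i q r x * L.a l r q' x - L.a l q r x * L.a i r q' x)

theorem FAm_eq (i l : Fin 4) (x : E4) :
    (Matrix.of fun q q' => L.FA i l q q' x)
      = L.dA i l x - L.dA l i x + (L.Am i x * L.Am l x - L.Am l x * L.Am i x) := by
  ext q q'
  simp only [Matrix.add_apply, Matrix.sub_apply, Matrix.mul_apply, ← Finset.sum_sub_distrib]
  rfl

theorem FOm_eq (i l : Fin 4) (x : E4) :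
    L.FOm i l x = L.dO i l x - L.dO l i x + (L.O i x * L.O l x - L.O l x * L.O i x) := by
  ext q q'
  simp only [Matrix.add_apply, Matrix.sub_apply, Matrix.mul_apply, ← Finset.sum_sub_distrib]
  rfl

theorem FA_eq (hV : IsOpen V) {x : E4} (hx : x ∈ V) (i l : Fin 4) :
    (Matrix.of fun q q' => L.FA i l q q' x) = (L.J x)ᵀ * L.FOm i l x * L.J x := by
  rw [FAm_eq, Matrix.mul_assoc, FOm_eq, ← L.J_F_m hV hx i l, ← Matrix.mul_assoc, L.JJ hx,
    Matrix.one_mul]

theorem tr_conj {x : E4} (hx : x ∈ V) (X Y : Matrix κ κ ℝ) :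
    Matrix.trace (((L.J x)ᵀ * X * L.J x) * ((L.J x)ᵀ * Y * L.J x))
      = Matrix.trace (X * L.Pm x * Y * L.Pm x) := by
  rw [← L.JP hx]
  have h1 : ((L.J x)ᵀ * X * L.J x) * ((L.J x)ᵀ * Y * L.J x)
      = (L.J x)ᵀ * (X * (L.J x * (L.J x)ᵀ) * Y * L.J x) := by
    simp only [Matrix.mul_assoc]
  rw [h1, Matrix.trace_mul_comm]
  simp only [Matrix.mul_assoc]

theorem tr_conj1 {x : E4} (hx : x ∈ V) (X : Matrix κ κ ℝ) :
    Matrix.trace ((L.J x)ᵀ * X * L.J x) = Matrix.trace (X * L.Pm x) := by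
  rw [← L.JP hx, Matrix.mul_assoc, Matrix.trace_mul_comm, Matrix.mul_assoc]

theorem sum_tr {ρ : Type} [Fintype ρ] (X Y : ρ → ρ → ℝ) :
    ∑ q, ∑ q', X q q' * Y q' q = Matrix.trace (Matrix.of X * Matrix.of Y) := by
  unfold Matrix.trace
  refine Finset.sum_congr rfl fun q _ => ?_
  rw [Matrix.diag_apply, Matrix.mul_apply]
  rfl

theorem sum_FA (hV : IsOpen V) {x : E4} (hx : x ∈ V) (i l k m : Fin 4) :
    ∑ q, ∑ q', L.FA i l q q' x * L.FA k m q' q x
      = Matrix.trace (L.FOm i l x * L.Pm x * L.FOm k m x * L.Pm x) := by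
  rw [sum_tr (fun q q' => L.FA i l q q' x) (fun q q' => L.FA k m q q' x), L.FA_eq hV hx, L.FA_eq hV hx,
    L.tr_conj hx]

/-! ### the potential -/

noncomputable def Qm (x : E4) : Matrix κ κ ℝ := Matrix.of fun a b => L.Q a b x

/-- potential in the frame, shifted by `c` -/
noncomputable def P (c : ℝ) (q q' : ρ) (x : E4) : ℝ :=
  (∑ a, ∑ b, L.j a q x * L.Q a b x * L.j b q' x) + if q = q' then c else 0

theorem P_m (c : ℝ) (x : E4) :
    (Matrix.of fun q q' => L.P c q q' x) = (L.J x)ᵀ * L.Qm x * L.J x + c • (1 : Matrix ρ ρ ℝ) := by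
  ext q q'
  rw [Matrix.add_apply, Matrix.mul_assoc, Matrix.mul_apply, Matrix.smul_apply, Matrix.one_apply]
  simp only [Matrix.mul_apply, Matrix.transpose_apply, Finset.mul_sum, smul_eq_mul, mul_ite, mul_one,
    mul_zero]
  show (∑ a, ∑ b, L.j a q x * L.Q a b x * L.j b q' x) + (if q = q' then c else 0) = _
  congr 1
  exact Finset.sum_congr rfl fun a _ => Finset.sum_congr rfl fun b _ => mul_assoc _ _ _

theorem sum_PP {x : E4} (hx : x ∈ V) (c : ℝ) :
    ∑ q, ∑ q', L.P c q q' x * L.P c q' q x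
      = Matrix.trace (L.Qm x * L.Pm x * L.Qm x * L.Pm x) + 2 * c * Matrix.trace (L.Qm x * L.Pm x)
        + c ^ 2 * Fintype.card ρ := by
  rw [sum_tr (fun q q' => L.P c q q' x) (fun q q' => L.P c q q' x), P_m]
  have h1 : ∀ X : Matrix ρ ρ ℝ, (X + c • (1 : Matrix ρ ρ ℝ)) * (X + c • (1 : Matrix ρ ρ ℝ))
      = X * X + (2 * c) • X + (c ^ 2) • (1 : Matrix ρ ρ ℝ) := fun X => by
    rw [Matrix.add_mul, Matrix.mul_add, Matrix.mul_add, Matrix.smul_mul, Matrix.smul_mul,
      Matrix.mul_smul, Matrix.one_mul, Matrix.one_mul, Matrix.mul_one]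
    module
  rw [h1, Matrix.trace_add, Matrix.trace_add, Matrix.trace_smul, Matrix.trace_smul, L.tr_conj hx,
    L.tr_conj1 hx, Matrix.trace_one]
  simp only [smul_eq_mul]

theorem sum_P {x : E4} (hx : x ∈ V) (c : ℝ) :
    ∑ q, L.P c q q x = Matrix.trace (L.Qm x * L.Pm x) + c * Fintype.card ρ := by
  have h1 : ∑ q, L.P c q q x = Matrix.trace (Matrix.of fun q q' => L.P c q q' x) := rfl
  rw [h1, P_m, Matrix.trace_add, Matrix.trace_smul, L.tr_conj1 hx, Matrix.trace_one]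
  simp only [smul_eq_mul]

theorem smP (c : ℝ) (q q' : ρ) : ContDiffOn ℝ ∞ (L.P c q q') V := by
  unfold P
  refine (ContDiffOn.sum fun a _ => ContDiffOn.sum fun b _ => ?_).add contDiffOn_const
  exact ((L.smj a q).mul (L.smQ a b)).mul (L.smj b q')

theorem P_symm {x : E4} (hx : x ∈ V) (c : ℝ) (q q' : ρ) : L.P c q q' x = L.P c q' q x := by
  unfold P
  congr 1
  · rw [Finset.sum_comm]
    refine Finset.sum_congr rfl fun a _ => Finset.sum_congr rfl fun b _ => ?_
    rw [L.symmQ b a x hx]; ring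
  · simp only [eq_comm]

/-- the connection and the potential in the frame -/
noncomputable def con (hV : IsOpen V) (c : ℝ) : CCon V ρ where
  a := L.a
  P := L.P c
  sma := L.sma hV
  smP := L.smP c
  askew := fun l q q' _ hx => L.a_skew hV hx l q q'
  Psymm := fun q q' _ hx => L.P_symm hx c q q'

/-- the density in terms of the bundle data -/
noncomputable def den (h : Fin 4 → Fin 4 → E4 → ℝ) (x : E4) : ℝ :=
  1 / (32 * Real.pi ^ 2) * Matrix.trace (L.Qm x * L.Pm x * L.Qm x * L.Pm x)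
  + 1 / (192 * Real.pi ^ 2) * ∑ j, ∑ k, ∑ l, ∑ m, h j k x * h l m x *
      Matrix.trace (L.FOm j l x * L.Pm x * L.FOm k m x * L.Pm x)

theorem dens_con (hV : IsOpen V) {x : E4} (hx : x ∈ V) (c : ℝ) (h : Fin 4 → Fin 4 → E4 → ℝ) :
    (L.con hV c).dens h x = L.den h x
      + 1 / (32 * Real.pi ^ 2) * (2 * c * Matrix.trace (L.Qm x * L.Pm x) + c ^ 2 * Fintype.card ρ) := by
  unfold CCon.dens den
  have h1 : (∑ p, ∑ q, (L.con hV c).P p q x * (L.con hV c).P q p x)
      = Matrix.trace (L.Qm x * L.Pm x * L.Qm x * L.Pm x) + 2 * c * Matrix.trace (L.Qm x * L.Pm x)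
        + c ^ 2 * Fintype.card ρ := L.sum_PP hx c
  have h2 : ∀ j k l m : Fin 4, ∑ p, ∑ q, (L.con hV c).F j l p q x * (L.con hV c).F k m q p x
      = Matrix.trace (L.FOm j l x * L.Pm x * L.FOm k m x * L.Pm x) := fun j k l m =>
    L.sum_FA hV hx j l k m
  rw [h1]
  simp only [h2]
  ring

end LF

end Crest.Agent.R249.HK9_714
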