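import Crest.Agent.R249.HK9c_714
import Crest.Agent.R249.Tv0_57

/-!
# Row 249, PART C, leaf HK9 (helper714): the bundle `Dat 4 M κ` in a chart

* `cmet x₀ V`          : the metric of the chart at `x₀` on `V ⊆ target` (a `CMet V`);
* `lfr D x₀ V j`       : the local frame `j` of `D.p` on `V` (an `LF V κ (Fin r)`);
* `exists_frame`       : frames exist near every point;
* `sys`                : a `Spec D` gives a `CSys` (first order weak equation, Parseval).
-/

set_option autoImplicit false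
set_option maxSynthPendingDepth 3
set_option linter.unusedSectionVars false
open scoped ContDiff ENNReal NNReal Topology Manifold Bundle
open MeasureTheory Set Filter Metric Bundle
open Crest.GeometryTopology.CoordMetric Crest.GeometryTopology.ChartCurvature
open Crest.Agent.R202.Ell Crest.Agent.R247.Ms322 Crest.Agent.R226.ChartMet842
open Crest.Agent.R247.Dir593 Crest.Agent.R247.Frd657
open Crest.Agent.R249.HK286 (E4 pd)
open Crest.Agent.R249.Tv57

namespace Crest.Agent.R249.HK9_714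

noncomputable section

theorem integrable_of_cpt {V C : Set E4} (hC : IsCompact C) (hCV : C ⊆ V) {G : E4 → ℝ}
    (hG : ContinuousOn G V) (h0 : ∀ x, x ∉ C → G x = 0) : Integrable G := by
  have h1 : IntegrableOn G C := (hG.mono hCV).integrableOn_compact hC
  refine (integrableOn_iff_integrable_of_support_subset ?_).1 h1
  intro x hx
  by_contra h
  exact hx (h0 x h)

variable {M : Type*} [MetricSpace M] [ChartedSpace (EuclideanSpace ℝ (Fin 4)) M]
  [IsManifold (𝓡 4) ∞ M]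
  [RiemannianBundle (fun p : M => TangentSpace (𝓡 4) p)]
  [IsContMDiffRiemannianBundle (𝓡 4) ∞ (EuclideanSpace ℝ (Fin 4)) (fun p : M => TangentSpace (𝓡 4) p)]

/-- a function on `M` read in the chart at `x₀` -/
def rd (x₀ : M) (f : M → ℝ) (b : E4) : ℝ := f ((chartAt E4 x₀).symm b)

theorem rd_smooth (x₀ : M) {f : M → ℝ} (hf : ContMDiff (𝓡 4) 𝓘(ℝ, ℝ) ∞ f) :
    ContDiffOn ℝ ∞ (rd x₀ f) (chartAt E4 x₀).target := by
  intro b hb
  have h1 : ContMDiffAt (𝓡 4) (𝓡 4) ∞ (chartAt E4 x₀).symm b :=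
    (contMDiffOn_chart_symm (I := 𝓡 4) (n := ∞) (x := x₀)).contMDiffAt
      ((chartAt E4 x₀).open_target.mem_nhds hb)
  exact ((hf.contMDiffAt.comp _ h1).contDiffAt).contDiffWithinAt

theorem sum_inv_mul (x₀ : M) {x : E4} (hx : x ∈ (chartAt E4 x₀).target) (a b : Fin 4) :
    ∑ c, inverseField (chartMetric 4 M x₀) x a c * chartMetric 4 M x₀ x c b
      = if a = b then 1 else 0 := by
  have h1 : (chartMetric 4 M x₀ x)⁻¹ * chartMetric 4 M x₀ x = 1 :=
    Matrix.nonsing_inv_mul _ (isUnit_iff_ne_zero.2 (det_pos x₀ hx).ne')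
  have h2 := congrFun (congrFun h1 a) b
  rw [Matrix.mul_apply, Matrix.one_apply] at h2
  exact h2

/-- the metric of the chart -/
def cmet (x₀ : M) {V : Set E4} (hV : V ⊆ (chartAt E4 x₀).target) : CMet V where
  g a b x := chartMetric 4 M x₀ x a b
  h a b x := inverseField (chartMetric 4 M x₀) x a b
  w := dens x₀
  smg a b := ((isRiemannianOn_chartMetric (n := 4) x₀).contDiffOn a b).mono hV
  smh a b := (Crest.Agent.R202.Tens.contDiffOn_inv_entry
    (isRiemannianOn_chartMetric (n := 4) x₀) a b).mono hV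
  smw := (contDiffOn_dens x₀).mono hV
  gsymm a b x hx := Crest.Agent.R202.Tens.metric_symm (isRiemannianOn_chartMetric (n := 4) x₀) (hV hx) a b
  hsymm a b x hx := inv_symm x₀ (hV hx) a b
  inv a b x hx := sum_inv_mul x₀ (hV hx) a b
  pos x hx v hv := by
    have h3 := (Matrix.posDef_iff_dotProduct_mulVec.1
      ((isRiemannianOn_chartMetric (n := 4) x₀).posDef x (hV hx))).2 hv
    simp only [star_trivial, dotProduct, Matrix.mulVec] at h3
    refine lt_of_lt_of_eq h3 ?_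
    refine Finset.sum_congr rfl fun i _ => ?_
    rw [Finset.mul_sum]
    refine Finset.sum_congr rfl fun j _ => ?_
    ring
  wpos x hx := dens_pos x₀ (hV hx)
  wdet x hx := by
    rw [dens, Real.sq_sqrt (det_pos x₀ (hV hx)).le]
    rfl

variable [IsRiemannianManifold (𝓡 4) M] [MeasurableSpace M] [BorelSpace M]
  [SecondCountableTopology M] [Nonempty M]

variable {κ : Type} [Fintype κ] (D : Dat 4 M κ)

/-- `dp + [ω, p] = 0` in the chart -/
theorem par_chart (x₀ : M) {b : E4} (hb : b ∈ (chartAt E4 x₀).target) (l : Fin 4) (a a' : κ) :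
    pd l (rd x₀ (D.p a a')) b + ∑ c, (cf x₀ l (D.X a c) b * rd x₀ (D.p c a') b
      - rd x₀ (D.p a c) b * cf x₀ l (D.X c a') b) = 0 := by
  have h := D.par a a' ((chartAt E4 x₀).symm b)
  have h2 := congrArg (fun v => inner ℝ (Crest.Agent.R247.Frd657.Ef x₀ l ((chartAt E4 x₀).symm b)) v) h
  simp only [inner_add_right, inner_sum, inner_sub_right, real_inner_smul_right,
    inner_zero_right] at h2
  have h3 := cf_Gr x₀ l (D.p a a') hb
  unfold cf at h3 ⊢
  rw [h3] at h2
  rw [← h2]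
  congr 1
  exact Finset.sum_congr rfl fun c _ => by unfold rd; ring

/-- the covariant derivative in the chart -/
theorem cf_cv (x₀ : M) {b : E4} (hb : b ∈ (chartAt E4 x₀).target) (l : Fin 4) (u : κ → M → ℝ)
    (a : κ) : cf x₀ l (D.cv u a) b
      = pd l (rd x₀ (u a)) b + ∑ c, cf x₀ l (D.X a c) b * rd x₀ (u c) b := by
  have h3 := cf_Gr x₀ l (u a) hb
  unfold cf Dat.cv at *
  simp only [inner_add_right, inner_sum, real_inner_smul_right]
  rw [h3]
  congr 1
  exact Finset.sum_congr rfl fun c _ => by unfold rd; ring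

/-- the frame `j` on `V` -/
def lfr (x₀ : M) {V : Set E4} (hV : V ⊆ (chartAt E4 x₀).target) {r : ℕ} (j : κ → Fin r → E4 → ℝ)
    (smj : ∀ a q, ContDiffOn ℝ ∞ (j a q) V)
    (jj : ∀ x ∈ V, ∀ q q', ∑ a, j a q x * j a q' x = if q = q' then 1 else 0)
    (jp : ∀ x ∈ V, ∀ a b, ∑ q, j a q x * j b q x = rd x₀ (D.p a b) x) : LF V κ (Fin r) where
  om l a b := cf x₀ l (D.X a b)
  Q a b := rd x₀ (D.Q a b)
  p a b := rd x₀ (D.p a b)
  j := j
  smom l a b := (D.smX a b x₀ l).mono hV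
  smQ a b := (rd_smooth x₀ (D.smQ a b)).mono hV
  smj := smj
  skew l a b x _ := by
    unfold cf
    rw [D.skew a b, inner_neg_right]
  symmQ a b x _ := D.symmQ a b _
  jj := jj
  jp := jp
  par x hx l a b := par_chart D x₀ (hV hx) l a b

/-- frames exist -/
theorem exists_frame (x₀ : M) {y₀ : E4} (hy : y₀ ∈ (chartAt E4 x₀).target) :
    ∃ (V : Set E4) (r : ℕ) (j : κ → Fin r → E4 → ℝ), IsOpen V ∧ y₀ ∈ V ∧
      V ⊆ (chartAt E4 x₀).target ∧ (∀ a q, ContDiffOn ℝ ∞ (j a q) V) ∧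
      (∀ x ∈ V, ∀ q q', ∑ a, j a q x * j a q' x = if q = q' then 1 else 0) ∧
      (∀ x ∈ V, ∀ a b, ∑ q, j a q x * j b q x = rd x₀ (D.p a b) x) :=
  frame_local (chartAt E4 x₀).open_target hy (fun a b => rd_smooth x₀ (D.smp a b))
    (fun _ _ a b => D.symmp a b _) (fun _ _ a b => D.idem a b _)

section sysdef

variable (x₀ : M) {V : Set E4} (hV : V ⊆ (chartAt E4 x₀).target) {r : ℕ} (j : κ → Fin r → E4 → ℝ)
    (smj : ∀ a q, ContDiffOn ℝ ∞ (j a q) V)
    (jj : ∀ x ∈ V, ∀ q q', ∑ a, j a q x * j a q' x = if q = q' then 1 else 0)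
    (jp : ∀ x ∈ V, ∀ a b, ∑ q, j a q x * j b q x = rd x₀ (D.p a b) x)

/-- `u = jᵀ φ` in the chart -/
def uu (φ : κ → M → ℝ) (x : E4) (q : Fin r) : ℝ := ∑ a, j a q x * rd x₀ (φ a) x

include smj in
theorem uu_smooth (hV : V ⊆ (chartAt E4 x₀).target) {φ : κ → M → ℝ}
    (hφ : ∀ a, ContMDiff (𝓡 4) 𝓘(ℝ, ℝ) ∞ (φ a)) (q : Fin r) :
    ContDiffOn ℝ ∞ (fun x => uu x₀ j φ x q) V := by
  unfold uu
  exact ContDiffOn.sum fun a _ => (smj a q).mul ((rd_smooth x₀ (hφ a)).mono hV)

include jp in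
/-- `φ = j u` -/
theorem j_uu {φ : κ → M → ℝ} (hφ : D.Sec φ) {x : E4} (hx : x ∈ V) (a : κ) :
    ∑ q, j a q x * uu x₀ j φ x q = rd x₀ (φ a) x := by
  have h1 : rd x₀ (φ a) x = ∑ b, rd x₀ (D.p a b) x * rd x₀ (φ b) x := (hφ a _).symm
  rw [h1]
  simp only [uu, Finset.mul_sum]
  rw [Finset.sum_comm]
  refine Finset.sum_congr rfl fun b _ => ?_
  rw [← jp x hx a b, Finset.sum_mul]
  exact Finset.sum_congr rfl fun q _ => by ring

include jj in
/-- `⟨j f, j g⟩ = ⟨f, g⟩` -/
theorem sum_jj {x : E4} (hx : x ∈ V) (f g : Fin r → ℝ) :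
    ∑ a, (∑ q, j a q x * f q) * (∑ q, j a q x * g q) = ∑ q, f q * g q := by
  have h1 : ∀ a, (∑ q, j a q x * f q) * (∑ q, j a q x * g q)
      = ∑ q, ∑ q', (j a q x * j a q' x) * (f q * g q') := fun a => by
    rw [Finset.sum_mul_sum]
    exact Finset.sum_congr rfl fun q _ => Finset.sum_congr rfl fun q' _ => by ring
  simp only [h1]
  rw [Finset.sum_comm]
  refine Finset.sum_congr rfl fun q _ => ?_
  rw [Finset.sum_comm]
  simp only [← Finset.sum_mul, jj x hx]
  simp

/-- the test section `j f` -/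
def jf (f : E4 → Fin r → ℝ) (a : κ) (x : E4) : ℝ := ∑ q, j a q x * f x q

include smj in
theorem jf_test (hVo : IsOpen V) {f : E4 → Fin r → ℝ} {C : Set E4} (hC : IsCompact C) (hCV : C ⊆ V)
    (hf : ∀ q, ContDiff ℝ ∞ fun x => f x q) (h0 : ∀ x, x ∉ C → ∀ q, f x q = 0) (a : κ) :
    IsTest (jf j f a) ∧ tsupport (jf j f a) ⊆ C := by
  have hz : ∀ x, x ∉ C → jf j f a x = 0 := fun x hx => by
    unfold jf
    exact Finset.sum_eq_zero fun q _ => by rw [h0 x hx q, mul_zero]
  have hs : tsupport (jf j f a) ⊆ C := by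
    refine closure_minimal (fun x hx => ?_) hC.isClosed
    by_contra h
    exact hx (hz x h)
  refine ⟨⟨contDiff_iff_contDiffAt.2 fun x => ?_, hC.of_isClosed_subset (isClosed_tsupport _) hs⟩, hs⟩
  by_cases hx : x ∈ V
  · unfold jf
    exact ContDiffAt.sum fun q _ => ((smj a q).contDiffAt (hVo.mem_nhds hx)).mul (hf q).contDiffAt
  · have h1 : ContDiffAt ℝ ∞ (fun _ : E4 => (0 : ℝ)) x := contDiffAt_const
    refine h1.congr_of_eventuallyEq ?_
    filter_upwards [hC.isClosed.isOpen_compl.mem_nhds fun h => hx (hCV h)] with y hy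
    exact hz y hy

theorem pd_off {C : Set E4} (hC : IsCompact C) {g : E4 → ℝ} (h0 : ∀ x, x ∉ C → g x = 0) (l : Fin 4)
    {x : E4} (hx : x ∉ C) : pd l g x = 0 := by
  have h : g =ᶠ[𝓝 x] fun _ => 0 := by
    filter_upwards [hC.isClosed.isOpen_compl.mem_nhds hx] with y hy
    exact h0 y hy
  rw [pd_congr h, pd_const]

theorem cov_off {V : Set E4} {ρ : Type} [Fintype ρ] (A : CCon V ρ) {C : Set E4} (hC : IsCompact C)
    {f : E4 → ρ → ℝ} (h0 : ∀ x, x ∉ C → ∀ q, f x q = 0) (l : Fin 4) {x : E4} (hx : x ∉ C) (p : ρ) :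
    A.cov l f x p = 0 := by
  unfold CCon.cov
  rw [pd_off hC (fun y hy => h0 y hy p) l hx, zero_add]
  exact Finset.sum_eq_zero fun q _ => by rw [h0 x hx q, mul_zero]

/-- the energy density in the frame (potential `P 0`) -/
def E1 (hVo : IsOpen V) (u f : E4 → Fin r → ℝ) (x : E4) : ℝ :=
  (∑ i, ∑ l, inverseField (chartMetric 4 M x₀) x i l *
      ∑ p, ((lfr D x₀ hV j smj jj jp).con hVo 0).cov i u x p
        * ((lfr D x₀ hV j smj jj jp).con hVo 0).cov l f x p
    + ∑ p, ∑ q, (lfr D x₀ hV j smj jj jp).P 0 p q x * u x q * f x p) * dens x₀ x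

/-- **energy density of the chart** -/
theorem ed_chart (hVo : IsOpen V) {φ : κ → M → ℝ} (hφs : ∀ a, ContMDiff (𝓡 4) 𝓘(ℝ, ℝ) ∞ (φ a))
    (hφ : D.Sec φ) {f : E4 → Fin r → ℝ} (hf : ∀ q, ContDiff ℝ ∞ fun x => f x q) {x : E4}
    (hx : x ∈ V) :
    dens x₀ x * D.ed φ (fun a => pb x₀ (jf j f a)) ((chartAt E4 x₀).symm x)
      = E1 D x₀ hV j smj jj jp hVo (uu x₀ j φ) f x := by
  set L := lfr D x₀ hV j smj jj jp with hL
  have hxt := hV hx
  -- covariant derivatives
  have c1 : ∀ l a, cf x₀ l (D.cv φ a) x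
      = ∑ q, j a q x * (L.con hVo 0).cov l (uu x₀ j φ) x q := fun l a => by
    rw [cf_cv D x₀ hxt]
    have h1 := L.cov_j hVo hx l (uu x₀ j φ) (fun q =>
      ((uu_smooth x₀ j smj hV hφs q).contDiffAt (hVo.mem_nhds hx)).differentiableAt (by simp)) a
    have h2 : pd l (rd x₀ (φ a)) x = pd l (fun y => ∑ q, L.j a q y * uu x₀ j φ y q) x := by
      refine pd_congr ?_
      filter_upwards [hVo.mem_nhds hx] with y hy
      exact (j_uu D x₀ j jp hφ hy a).symm
    have h3 : ∀ c, rd x₀ (φ c) x = ∑ q, L.j c q x * uu x₀ j φ x q := fun c =>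
      (j_uu D x₀ j jp hφ hx c).symm
    rw [h2]
    simp only [h3]
    exact h1
  have c2 : ∀ l a, cf x₀ l (D.cv (fun a => pb x₀ (jf j f a)) a) x
      = ∑ q, j a q x * (L.con hVo 0).cov l f x q := fun l a => by
    rw [cf_cv D x₀ hxt]
    have h1 := L.cov_j hVo hx l f (fun q => (hf q).contDiffAt.differentiableAt (by simp)) a
    have h2 : pd l (rd x₀ (pb x₀ (jf j f a))) x = pd l (fun y => ∑ q, L.j a q y * f y q) x := by
      refine pd_congr ?_
      filter_upwards [hVo.mem_nhds hx] with y hy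
      exact pb_symm x₀ _ (hV hy)
    have h3 : ∀ c, rd x₀ (pb x₀ (jf j f c)) x = ∑ q, L.j c q x * f x q := fun c =>
      pb_symm x₀ _ hxt
    rw [h2]
    simp only [h3]
    exact h1
  unfold Dat.ed E1
  have e1 : ∑ a, inner ℝ (D.cv φ a ((chartAt E4 x₀).symm x))
      (D.cv (fun a => pb x₀ (jf j f a)) a ((chartAt E4 x₀).symm x))
      = ∑ i, ∑ l, inverseField (chartMetric 4 M x₀) x i l *
      ∑ p, (L.con hVo 0).cov i (uu x₀ j φ) x p * (L.con hVo 0).cov l f x p := by
    have : ∀ a, inner ℝ (D.cv φ a ((chartAt E4 x₀).symm x))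
        (D.cv (fun a => pb x₀ (jf j f a)) a ((chartAt E4 x₀).symm x))
        = ∑ i, ∑ l, inverseField (chartMetric 4 M x₀) x i l *
          ((∑ q, j a q x * (L.con hVo 0).cov i (uu x₀ j φ) x q)
            * (∑ q, j a q x * (L.con hVo 0).cov l f x q)) := fun a => by
      rw [inner_cf x₀ (D.cv φ a) (D.cv (fun a => pb x₀ (jf j f a)) a) hxt, Finset.sum_comm]
      refine Finset.sum_congr rfl fun i _ => Finset.sum_congr rfl fun l _ => ?_
      rw [c1, c2, inv_symm x₀ hxt l i]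
      ring
    simp only [this]
    rw [Finset.sum_comm]
    refine Finset.sum_congr rfl fun i _ => ?_
    rw [Finset.sum_comm]
    refine Finset.sum_congr rfl fun l _ => ?_
    rw [← Finset.mul_sum, sum_jj j jj hx]
  have e2 : ∑ a, ∑ b, D.Q a b ((chartAt E4 x₀).symm x) * φ b ((chartAt E4 x₀).symm x)
        * pb x₀ (jf j f a) ((chartAt E4 x₀).symm x)
      = ∑ p, ∑ q, L.P 0 p q x * uu x₀ j φ x q * f x p := by
    have h3 : ∀ c, φ c ((chartAt E4 x₀).symm x) = ∑ q, j c q x * uu x₀ j φ x q := fun c =>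
      (j_uu D x₀ j jp hφ hx c).symm
    have h4 : ∀ c, pb x₀ (jf j f c) ((chartAt E4 x₀).symm x) = ∑ q, j c q x * f x q := fun c =>
      pb_symm x₀ _ hxt
    simp only [h3, h4]
    have h5 : ∀ p q, L.P 0 p q x * uu x₀ j φ x q * f x p
        = ∑ a, ∑ b, D.Q a b ((chartAt E4 x₀).symm x) * (j b q x * uu x₀ j φ x q) * (j a p x * f x p) := by
      intro p q
      unfold LF.P
      simp only [ite_self, add_zero, Finset.sum_mul]
      refine Finset.sum_congr rfl fun a _ => Finset.sum_congr rfl fun b _ => ?_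
      show j a p x * D.Q a b ((chartAt E4 x₀).symm x) * j b q x * _ * _ = _
      ring
    simp only [h5]
    have h6 : ∀ a b, D.Q a b ((chartAt E4 x₀).symm x) * (∑ q, j b q x * uu x₀ j φ x q)
        * (∑ q, j a q x * f x q)
        = ∑ p, ∑ q, D.Q a b ((chartAt E4 x₀).symm x) * (j b q x * uu x₀ j φ x q) * (j a p x * f x p) := by
      intro a b
      rw [Finset.mul_sum]
      refine Finset.sum_congr rfl fun p _ => ?_
      rw [Finset.mul_sum, Finset.sum_mul]
    simp only [h6]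
    calc _ = ∑ a, ∑ p, ∑ b, ∑ q, D.Q a b ((chartAt E4 x₀).symm x) * (j b q x * uu x₀ j φ x q)
          * (j a p x * f x p) := Finset.sum_congr rfl fun a _ => Finset.sum_comm
      _ = ∑ p, ∑ a, ∑ b, ∑ q, D.Q a b ((chartAt E4 x₀).symm x) * (j b q x * uu x₀ j φ x q)
          * (j a p x * f x p) := Finset.sum_comm
      _ = ∑ p, ∑ a, ∑ q, ∑ b, D.Q a b ((chartAt E4 x₀).symm x) * (j b q x * uu x₀ j φ x q)
          * (j a p x * f x p) := Finset.sum_congr rfl fun p _ => Finset.sum_congr rfl fun a _ =>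
            Finset.sum_comm
      _ = _ := Finset.sum_congr rfl fun p _ => Finset.sum_comm
  rw [e1, e2, mul_comm]

end sysdef

end

end Crest.Agent.R249.HK9_714
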