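import Crest.Agent.R249.HKCmp_286

/-!
# Row 249, PART C, leaf HK6 (helper286), second part: integrals, `CmpStmt`.
-/

set_option autoImplicit false
set_option linter.unusedSectionVars false
open scoped ContDiff
open MeasureTheory Set Metric

namespace Crest.Agent.R249.HK286

section
variable {ι : Type*} {M : Met ι} {κ : Type} [Fintype κ] [DecidableEq κ] {R : ℝ}

/-- `∫ f g w` -/
noncomputable def IT (M : Met ι) (f g : ι → ℝ → E4 → ℝ) (i : ι) (t : ℝ) : ℝ :=
  ∫ x, f i t x * g i t x * M.w i x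

noncomputable def k1 (M : Met ι) (c : Cut R) (i : ι) (t : ℝ) (x : E4) : ℝ :=
  -M.star0 (M.HH c 2) (E1 M c) i t x + M.star0 (M.HH c 3) (M.star0 (M.e0 c 2) (E1 M c)) i t x

noncomputable def Con.ss (D : Con M κ) (c : Cut R) (p q : κ) : ι → ℝ → E4 → ℝ :=
  M.star0 (M.HH c 2) (D.ph c p q)

noncomputable def Con.rr (D : Con M κ) (c : Cut R) (p q : κ) (i : ι) (t : ℝ) (x : E4) : ℝ :=
  -M.star0 (M.HH c 2) (D.re c p q) i t x
    + M.star0 (M.HH c 3) (fun i t x => D.Ac c p q i t x + D.Bc c p q i t x + D.Cc c p q i t x) i t x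

noncomputable def Con.X1 (D : Con M κ) (c : Cut R) : ι → ℝ → E4 → ℝ :=
  M.star0 (M.HH c 2) (fun i t x => D.ta i x * h1 M c i t x)
noncomputable def Con.X2 (D : Con M κ) (c : Cut R) : ι → ℝ → E4 → ℝ :=
  M.star0 (M.HH c 3) (D.Q1 c)

omit [Fintype κ] [DecidableEq κ] in
theorem int10 {N : ℝ} {F1 F2 F3 F4 F5 G1 G2 G3 G4 : E4 → ℝ} (h1 : Integrable F1) (h2 : Integrable F2)
    (h3 : Integrable F3) (h4 : Integrable F4) (h5 : Integrable F5) (g1 : Integrable G1) (g2 : Integrable G2)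
    (g3 : Integrable G3) (g4 : Integrable G4) :
    ∫ x, (N * F1 x + 2 * F2 x + 2 * F3 x + 2 * F4 x + F5 x + (2 * G1 x + 2 * G2 x + 2 * G3 x + G4 x))
      = N * (∫ x, F1 x) + 2 * (∫ x, F2 x) + 2 * (∫ x, F3 x) + 2 * (∫ x, F4 x) + (∫ x, F5 x)
        + (2 * (∫ x, G1 x) + 2 * (∫ x, G2 x) + 2 * (∫ x, G3 x) + (∫ x, G4 x)) := by
  have a1 : Integrable (fun x => N * F1 x) := h1.const_mul N
  have a2 : Integrable (fun x => 2 * F2 x) := h2.const_mul 2
  have a3 : Integrable (fun x => 2 * F3 x) := h3.const_mul 2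
  have a4 : Integrable (fun x => 2 * F4 x) := h4.const_mul 2
  have b1 : Integrable (fun x => 2 * G1 x) := g1.const_mul 2
  have b2 : Integrable (fun x => 2 * G2 x) := g2.const_mul 2
  have b3 : Integrable (fun x => 2 * G3 x) := g3.const_mul 2
  have c2 : Integrable (fun x => N * F1 x + 2 * F2 x) := a1.add a2
  have c3 : Integrable (fun x => N * F1 x + 2 * F2 x + 2 * F3 x) := c2.add a3
  have c4 : Integrable (fun x => N * F1 x + 2 * F2 x + 2 * F3 x + 2 * F4 x) := c3.add a4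
  have c5 : Integrable (fun x => N * F1 x + 2 * F2 x + 2 * F3 x + 2 * F4 x + F5 x) := c4.add h5
  have d2 : Integrable (fun x => 2 * G1 x + 2 * G2 x) := b1.add b2
  have d3 : Integrable (fun x => 2 * G1 x + 2 * G2 x + 2 * G3 x) := d2.add b3
  have d4 : Integrable (fun x => 2 * G1 x + 2 * G2 x + 2 * G3 x + G4 x) := d3.add g4
  rw [integral_add c5 d4, integral_add c4 h5, integral_add c3 a4, integral_add c2 a3, integral_add a1 a2,
    integral_add d3 g4, integral_add d2 b3, integral_add b1 b2]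
  simp only [integral_const_mul]

variable {c : Cut R} {D : Con M κ} (hC : Cal M) (hM : InpM M c) (hD : InpD c D)
include hC hM hD

theorem vb_k1 : VB 1 (k1 M c) := by
  refine hC.vb_add 1 _ _ (hC.vb_neg (vb_H2E hC hM hD)) ?_
  have h := hC.star0_vb 1 _ _ (by norm_num) (kw_HH hC hM 3) (vb_eE hC hM hD)
  exact hC.vb_mono _ _ _ (by norm_num) h

theorem k0_eq (i : ι) (t : ℝ) (x : E4) : k0 M c i t x = h1 M c i t x + k1 M c i t x := by
  simp only [k0, k1]; ring

theorem vb_k0 : VB 0 (k0 M c) := by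
  have h := hC.vb_add 0 _ _ (vb_h1 hC hM) (vb10 hC hM hD (vb_k1 hC hM hD))
  have h2 : k0 M c = fun i t x => h1 M c i t x + k1 M c i t x := by
    funext i t x; exact k0_eq hC hM hD i t x
  rw [h2]; exact h

theorem vb_ss (p q : κ) : VB 1 (D.ss c p q) := by
  simpa [Con.ss] using hC.star0_vb 0 _ _ le_rfl (kw_HH hC hM 2) (vb_ph hC hM hD p q)

theorem vb_rr (p q : κ) : VB (3 / 2) (D.rr c p q) := by
  have h1' := hC.star0_vb (1/2) _ _ (by norm_num) (kw_HH hC hM 2) (vb_re hC hM hD p q)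
  have h2' := hC.star0_vb 1 _ _ (by norm_num) (kw_HH hC hM 3)
    (hC.vb_add 1 _ _ (hC.vb_add 1 _ _ (vb_A hC hM hD p q) (vb_B hC hM hD p q)) (vb_C hC hM hD p q))
  exact hC.vb_add _ _ _ (hC.vb_neg (hC.vb_mono _ _ _ (by norm_num) h1')) (hC.vb_mono _ _ _ (by norm_num) h2')

theorem dd_eq {i : ι} {t : ℝ} (ht : t ∈ Ioc (0 : ℝ) 1) (x : E4) (p q : κ) :
    D.dd c p q i t x = D.rr c p q i t x - D.ss c p q i t x := by
  have s1 : M.star0 (M.HH c 2) (D.ep1 c p q) i t x
      = M.star0 (M.HH c 2) (fun i t x => D.ph c p q i t x + D.re c p q i t x) i t x := by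
    refine star0_congr (fun s _ z => rfl) fun s _ z => ?_
    exact ep1_eq hC hM hD p q i s z
  rw [Con.dd, s1, hC.star0_add_right _ _ _ (kw_HH hC hM 2) (vb_ph hC hM hD p q)
      (vb_re0 hC hM hD p q) i t ht x]
  simp only [Con.rr, Con.ss]; ring

theorem vb_Q1 : VB 1 (D.Q1 c) := by
  refine hC.vb_sum _ fun p _ => hC.vb_sum _ fun r _ => ?_
  obtain ⟨C1, h1'⟩ := hD.Pb p r
  have := hC.vb_mul 1 0 (fun i x => D.P i p r x) _ (fun i => hD.Pm p r i) ⟨C1, by simpa using h1'⟩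
    (vb_ss hC hM hD r p)
  simpa [Con.ss] using this

theorem vb_Q2 : VB (3 / 2) (D.Q2 c) := by
  refine hC.vb_sub (hC.vb_sum _ fun p _ => hC.vb_sum _ fun r _ => ?_)
    (hC.vb_sum _ fun p _ => hC.vb_sum _ fun r _ => ?_)
  · have := hC.star0_vb (1/2) _ _ (by norm_num) (kw_ep hC hM hD 2 p r) (vb_re hC hM hD r p)
    exact hC.vb_mono _ _ _ (by norm_num) this
  · obtain ⟨C1, h1'⟩ := hD.aa2 p r
    have := hC.vb_mul 1 2 (fun i x => D.aa i x p r) _ (fun i => hD.aam p r i) ⟨C1, h1'⟩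
      (vb_ss hC hM hD r p)
    exact hC.vb_mono _ _ _ (by norm_num) this

theorem vb_X1 : VB 2 (D.X1 c) := by
  have := hC.star0_vb 1 _ _ (by norm_num) (kw_HH hC hM 2) (vb_ta hC hM hD)
  exact hC.vb_mono _ _ _ (by norm_num) this
theorem vb_X2 : VB 2 (D.X2 c) := by
  have := hC.star0_vb 1 _ _ (by norm_num) (kw_HH hC hM 3) (vb_Q1 hC hM hD)
  exact hC.vb_mono _ _ _ (by norm_num) this

theorem vb_rem : VB (5 / 2) (D.rem c) := by
  have h1' := hC.star0_vb 1 _ _ (by norm_num) (hM.e0 2) (vb_ta hC hM hD)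
  have h2' := hC.star0_vb _ _ _ (by norm_num) (kw_HH hC hM 3) h1'
  have h3' := hC.vb_mul 1 2 D.ta _ (ta_meas hC hM hD) (ta_two hC hM hD) (vb_H2E hC hM hD)
  have h4' := hC.star0_vb _ _ _ (by norm_num) (kw_HH hC hM 3) h3'
  have h5' := hC.star0_vb _ _ _ (by norm_num) (kw_HH hC hM 3) (vb_Q2 hC hM hD)
  refine hC.vb_add _ _ _ (hC.vb_sub (hC.vb_neg ?_) ?_) ?_
  · exact hC.vb_mono _ _ _ (by norm_num) h2'
  · exact hC.vb_mono _ _ _ (by norm_num) h4'
  · exact hC.vb_mono _ _ _ (by norm_num) h5'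

theorem vb_UU : VB 0 (UU M c D.tp) := by
  have h1' := hC.star0_vb 0 _ _ le_rfl (kw_HH hC hM 2) (vb_tp hC hM hD)
  have h2' := hC.star0_vb 0 _ _ le_rfl (hM.e0 2) (vb_tp hC hM hD)
  have h3' : VB 1 (fun i t x => D.tp i x * M.star0 (M.HH c 2) (E1 M c) i t x) := by
    obtain ⟨C1, h1'⟩ := tp_bdd hC hM hD
    have := hC.vb_mul 1 0 D.tp _ (tp_meas hC hM hD) ⟨C1, by simpa using h1'⟩ (vb_H2E hC hM hD)
    simpa using this
  have h4' := hC.star0_vb 0 _ _ le_rfl (kw_HH hC hM 3)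
    (vb10 hC hM hD (hC.vb_add 1 _ _ (by simpa using h2') h3'))
  exact hC.vb_add 0 _ _ (hC.vb_neg (vb10 hC hM hD (by simpa using h1')))
    (vb10 hC hM hD (by simpa using h4'))

/-- `O(√t)` bound of `∫ f g w` -/
theorem IT_bd {a b : ℝ} {f g : ι → ℝ → E4 → ℝ} (ha : 0 ≤ a) (hb : 0 ≤ b) (hab : 5 / 2 ≤ a + b)
    (hf : VB a f) (hg : VB b g) : ∃ C : ℝ, ∀ i, ∀ t ∈ Ioc (0 : ℝ) 1, |IT M f g i t| ≤ C * Real.sqrt t := by
  obtain ⟨C, hCb⟩ := (hC.int_mul a b f g ha hb hf hg).2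
  refine ⟨|C|, fun i t ht => (hCb i t ht).trans ?_⟩
  rw [Real.sqrt_eq_rpow]
  refine mul_le_mul (le_abs_self C) ?_ (Real.rpow_nonneg ht.1.le _) (abs_nonneg C)
  exact Real.rpow_le_rpow_of_exponent_ge ht.1 ht.2 (by linarith)

theorem IT_int {a b : ℝ} {f g : ι → ℝ → E4 → ℝ} (ha : 0 ≤ a) (hb : 0 ≤ b)
    (hf : VB a f) (hg : VB b g) (i : ι) {t : ℝ} (ht : t ∈ Ioc (0 : ℝ) 1) :
    Integrable fun x => f i t x * g i t x * M.w i x :=
  (hC.int_mul a b f g ha hb hf hg).1 i t ht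

/-- the exact expansion of `∫ |k|² w` -/
theorem kk_int {i : ι} {t : ℝ} (ht : t ∈ Ioc (0 : ℝ) 1) :
    ∫ x, (∑ p, ∑ q, D.kk c i t x p q ^ 2) * M.w i x
      = (Fintype.card κ : ℝ) * IT M (k0 M c) (k0 M c) i t + 2 * IT M (k0 M c) (UU M c D.tp) i t
        + 2 * IT M (h1 M c) (D.X1 c) i t + 2 * IT M (h1 M c) (D.X2 c) i t
        + (∑ p, ∑ q, IT M (D.ss c p q) (D.ss c p q) i t)
        + (2 * IT M (k1 M c) (D.X1 c) i t + 2 * IT M (k1 M c) (D.X2 c) i t + 2 * IT M (k0 M c) (D.rem c) i t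
          + (∑ p, ∑ q, (IT M (D.rr c p q) (D.rr c p q) i t - 2 * IT M (D.rr c p q) (D.ss c p q) i t))) := by
  have i1 := IT_int hC hM hD le_rfl le_rfl (vb_k0 hC hM hD) (vb_k0 hC hM hD) i ht
  have i2 := IT_int hC hM hD le_rfl le_rfl (vb_k0 hC hM hD) (vb_UU hC hM hD) i ht
  have i3 := IT_int hC hM hD (b := 2) le_rfl (by norm_num) (vb_h1 hC hM) (vb_X1 hC hM hD) i ht
  have i4 := IT_int hC hM hD (b := 2) le_rfl (by norm_num) (vb_h1 hC hM) (vb_X2 hC hM hD) i ht
  have i5 := fun p q => IT_int hC hM hD (a := 1) (b := 1) (by norm_num) (by norm_num) (vb_ss hC hM hD p q) (vb_ss hC hM hD p q) i ht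
  have i6 := IT_int hC hM hD (a := 1) (b := 2) (by norm_num) (by norm_num) (vb_k1 hC hM hD) (vb_X1 hC hM hD) i ht
  have i7 := IT_int hC hM hD (a := 1) (b := 2) (by norm_num) (by norm_num) (vb_k1 hC hM hD) (vb_X2 hC hM hD) i ht
  have i8 := IT_int hC hM hD (b := 5/2) le_rfl (by norm_num) (vb_k0 hC hM hD) (vb_rem hC hM hD) i ht
  have i9 := fun p q => IT_int hC hM hD (a := 3/2) (b := 3/2) (by norm_num) (by norm_num) (vb_rr hC hM hD p q) (vb_rr hC hM hD p q) i ht
  have i10 := fun p q => IT_int hC hM hD (a := 3/2) (b := 1) (by norm_num) (by norm_num) (vb_rr hC hM hD p q) (vb_ss hC hM hD p q) i ht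
  have key : ∀ x, (∑ p, ∑ q, D.kk c i t x p q ^ 2) * M.w i x
      = (Fintype.card κ : ℝ) * (k0 M c i t x * k0 M c i t x * M.w i x)
        + 2 * (k0 M c i t x * UU M c D.tp i t x * M.w i x)
        + 2 * (h1 M c i t x * D.X1 c i t x * M.w i x) + 2 * (h1 M c i t x * D.X2 c i t x * M.w i x)
        + (∑ p, ∑ q, (D.ss c p q i t x * D.ss c p q i t x * M.w i x))
        + (2 * (k1 M c i t x * D.X1 c i t x * M.w i x) + 2 * (k1 M c i t x * D.X2 c i t x * M.w i x)
          + 2 * (k0 M c i t x * D.rem c i t x * M.w i x)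
          + (∑ p, ∑ q, (D.rr c p q i t x * D.rr c p q i t x * M.w i x
              - 2 * (D.rr c p q i t x * D.ss c p q i t x * M.w i x)))) := by
    intro x
    have e1 : ∑ p, ∑ q, D.kk c i t x p q ^ 2
        = (Fintype.card κ : ℝ) * (k0 M c i t x) ^ 2 + 2 * k0 M c i t x * ∑ p, D.dd c p p i t x
          + ∑ p, ∑ q, D.dd c p q i t x ^ 2 := by
      have : ∀ p q, D.kk c i t x p q ^ 2 = (if p = q then (k0 M c i t x) ^ 2 else 0)
          + (if p = q then 2 * k0 M c i t x * D.dd c p q i t x else 0) + D.dd c p q i t x ^ 2 := by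
        intro p q
        rw [kk_eq hC hM hD ht x p q]
        split_ifs <;> ring
      simp only [this, Finset.sum_add_distrib, Finset.sum_ite_eq, Finset.mem_univ, if_true,
        Finset.sum_const, Finset.card_univ, nsmul_eq_mul, Finset.mul_sum]
    rw [e1, dd_tr hC hM hD ht x]
    have e2 : ∑ p, ∑ q, D.dd c p q i t x ^ 2 = (∑ p, ∑ q, D.ss c p q i t x * D.ss c p q i t x)
        + ∑ p, ∑ q, (D.rr c p q i t x * D.rr c p q i t x - 2 * (D.rr c p q i t x * D.ss c p q i t x)) := by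
      rw [← Finset.sum_add_distrib]
      refine Finset.sum_congr rfl fun p _ => ?_
      rw [← Finset.sum_add_distrib]
      refine Finset.sum_congr rfl fun q _ => ?_
      rw [dd_eq hC hM hD ht x p q]; ring
    rw [e2]
    have e3 : ∑ p, ∑ q, (D.ss c p q i t x * D.ss c p q i t x * M.w i x)
        = (∑ p, ∑ q, D.ss c p q i t x * D.ss c p q i t x) * M.w i x := by
      simp only [Finset.sum_mul]
    have e4 : ∑ p, ∑ q, (D.rr c p q i t x * D.rr c p q i t x * M.w i x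
              - 2 * (D.rr c p q i t x * D.ss c p q i t x * M.w i x))
        = (∑ p, ∑ q, (D.rr c p q i t x * D.rr c p q i t x - 2 * (D.rr c p q i t x * D.ss c p q i t x))) * M.w i x := by
      simp only [Finset.sum_mul]
      refine Finset.sum_congr rfl fun p _ => Finset.sum_congr rfl fun q _ => ?_
      ring
    rw [e3, e4, k0_eq hC hM hD i t x]
    simp only [Con.X1, Con.X2]
    ring
  simp only [key, IT]
  have j5 : Integrable fun x => ∑ p, ∑ q, (D.ss c p q i t x * D.ss c p q i t x * M.w i x) :=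
    integrable_finsetSum _ fun p _ => integrable_finsetSum _ fun q _ => i5 p q
  have j9 : ∀ p q, Integrable fun x => (D.rr c p q i t x * D.rr c p q i t x * M.w i x
      - 2 * (D.rr c p q i t x * D.ss c p q i t x * M.w i x)) := fun p q =>
    (i9 p q).sub ((i10 p q).const_mul 2)
  have j10 : Integrable fun x => ∑ p, ∑ q, (D.rr c p q i t x * D.rr c p q i t x * M.w i x
      - 2 * (D.rr c p q i t x * D.ss c p q i t x * M.w i x)) :=
    integrable_finsetSum _ fun p _ => integrable_finsetSum _ fun q _ => j9 p q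
  rw [int10 i1 i2 i3 i4 j5 i6 i7 i8 j10]
  rw [integral_finsetSum _ fun p _ => integrable_finsetSum _ fun q _ => i5 p q,
    integral_finsetSum _ fun p _ => integrable_finsetSum _ fun q _ => j9 p q]
  congr 1
  · congr 1
    refine Finset.sum_congr rfl fun p _ => ?_
    rw [integral_finsetSum _ fun q _ => i5 p q]
  · congr 1
    refine Finset.sum_congr rfl fun p _ => ?_
    rw [integral_finsetSum _ fun q _ => j9 p q]
    refine Finset.sum_congr rfl fun q _ => ?_
    rw [integral_sub (i9 p q) ((i10 p q).const_mul 2), integral_const_mul]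

theorem m1_eq (i : ι) (t : ℝ) : D.m1 c i t = IT M (h1 M c) (D.X1 c) i t := by
  unfold Con.m1 IT
  refine integral_congr_ae (Filter.Eventually.of_forall fun x => ?_)
  simp only [Con.X1, h1]
  congr 2
  refine star0_congr (fun s _ z => rfl) fun s _ z => ?_
  simp only [Con.ta]; ring

theorem m2_eq {i : ι} {t : ℝ} (ht : t ∈ Ioc (0 : ℝ) 1) : D.m2 c i t = IT M (h1 M c) (D.X2 c) i t := by
  unfold Con.m2 IT
  refine integral_congr_ae (Filter.Eventually.of_forall fun x => ?_)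
  simp only [Con.X2, h1]
  congr 2
  have hK : ∀ p r : κ, KW (fun i t x z => M.HH c 2 i t x z * D.P i p r x) := by
    intro p r
    obtain ⟨C1, h1'⟩ := hD.Pb p r
    have := hC.kw_mul (M.HH c 2) (fun i x => D.P i p r x) (fun i => hD.Pm p r i) ⟨C1, h1'⟩ (kw_HH hC hM 2)
    simpa [mul_comm] using this
  have hf : ∀ r q : κ, VB 0 (fun i t z => M.HH c 1 i t z 0 * D.P i r q z) := by
    intro r q
    have := vb_ph hC hM hD r q
    have h2 : (fun i t z => M.HH c 1 i t z 0 * D.P i r q z) = D.ph c r q := by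
      funext i t z; simp only [Con.ph, h1]; ring
    rw [h2]; exact this
  have hst : ∀ p q, VB 1 (fun i t x => M.star (fun i t x z p q => M.HH c 2 i t x z * D.P i p q x)
      (fun i t z p q => M.HH c 1 i t z 0 * D.P i p q z) i t x p q) := by
    intro p q
    have := hC.star_vb 0 (fun i t x z p q => M.HH c 2 i t x z * D.P i p q x)
      (fun i t z p q => M.HH c 1 i t z 0 * D.P i p q z) le_rfl hK hf p q
    simpa using this
  have e1 : ∀ p, M.star (sc (M.HH c 3)) (M.star (fun i t x z p q => M.HH c 2 i t x z * D.P i p q x)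
      (fun i t z p q => M.HH c 1 i t z 0 * D.P i p q z)) i t x p p
      = M.star0 (M.HH c 3) (fun i t x => M.star (fun i t x z p q => M.HH c 2 i t x z * D.P i p q x)
        (fun i t z p q => M.HH c 1 i t z 0 * D.P i p q z) i t x p p) i t x := fun p =>
    star_sc hC hM hD (i := i) (kw_HH hC hM 3) (fun r q => vb10 hC hM hD (hst r q)) ht x p p
  simp only [e1]
  rw [← hC.star0_sum_right Finset.univ
    (f := fun p i t x => M.star (fun i t x z p q => M.HH c 2 i t x z * D.P i p q x)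
        (fun i t z p q => M.HH c 1 i t z 0 * D.P i p q z) i t x p p) (kw_HH hC hM 3)
    (fun p _ => vb10 hC hM hD (hst p p)) ht x]
  refine star0_congr (fun s _ z => rfl) fun s hs z => ?_
  have hs' : s ∈ Ioc (0:ℝ) 1 := ⟨hs.1, hs.2.le.trans ht.2⟩
  simp only [Con.Q1]
  refine Finset.sum_congr rfl fun p _ => ?_
  rw [hC.star_eq _ _ hK hf i s hs' z p p]
  refine Finset.sum_congr rfl fun r _ => ?_
  rw [← star0_mul_left (fun i x => D.P i p r x)]
  refine star0_congr (fun s _ z => ?_) fun s _ z => ?_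
  · ring
  · simp only [Con.ph, h1]; ring

theorem m3_eq {i : ι} {t : ℝ} (ht : t ∈ Ioc (0 : ℝ) 1) :
    D.m3 c i t = ∑ p, ∑ q, IT M (D.ss c p q) (D.ss c p q) i t := by
  have i5 := fun p q => IT_int hC hM hD (a := 1) (b := 1) (by norm_num) (by norm_num)
    (vb_ss hC hM hD p q) (vb_ss hC hM hD p q) i ht
  have hf : ∀ r q : κ, VB 0 (fun i t z => M.HH c 1 i t z 0 * D.P i r q z) := by
    intro r q
    have := vb_ph hC hM hD r q
    have h2 : (fun i t z => M.HH c 1 i t z 0 * D.P i r q z) = D.ph c r q := by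
      funext i t z; simp only [Con.ph, h1]; ring
    rw [h2]; exact this
  unfold Con.m3 IT
  have e1 : ∀ x, (∑ p, ∑ q, M.star (sc (M.HH c 2)) (fun i t z p q => M.HH c 1 i t z 0 * D.P i p q z) i t x p q ^ 2)
      * M.w i x = ∑ p, ∑ q, D.ss c p q i t x * D.ss c p q i t x * M.w i x := by
    intro x
    simp only [Finset.sum_mul]
    refine Finset.sum_congr rfl fun p _ => Finset.sum_congr rfl fun q _ => ?_
    have e2 : M.star (sc (M.HH c 2)) (fun i t z p q => M.HH c 1 i t z 0 * D.P i p q z) i t x p q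
        = D.ss c p q i t x := by
      rw [star_sc hC hM hD (i := i) (kw_HH hC hM 2) hf ht x p q]
      refine star0_congr (fun s _ z => rfl) fun s _ z => ?_
      simp only [Con.ph, h1]; ring
    rw [e2]; ring
  simp only [e1]
  rw [integral_finsetSum _ fun p _ => integrable_finsetSum _ fun q _ => i5 p q]
  refine Finset.sum_congr rfl fun p _ => ?_
  rw [integral_finsetSum _ fun q _ => i5 p q]

theorem expand : ∃ C : ℝ, ∀ i, ∀ t ∈ Ioc (0 : ℝ) 1,
    |(∫ x, (∑ p, ∑ q, D.kk c i t x p q ^ 2) * M.w i x)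
      - ((Fintype.card κ : ℝ) * IT M (k0 M c) (k0 M c) i t + 2 * IT M (k0 M c) (UU M c D.tp) i t
        + (2 * D.m1 c i t + 2 * D.m2 c i t + D.m3 c i t))| ≤ C * Real.sqrt t := by
  obtain ⟨C1, h1'⟩ := IT_bd hC hM hD (a := 1) (b := 2) (by norm_num) (by norm_num) (by norm_num)
    (vb_k1 hC hM hD) (vb_X1 hC hM hD)
  obtain ⟨C2, h2'⟩ := IT_bd hC hM hD (a := 1) (b := 2) (by norm_num) (by norm_num) (by norm_num)
    (vb_k1 hC hM hD) (vb_X2 hC hM hD)
  obtain ⟨C3, h3'⟩ := IT_bd hC hM hD (a := 0) (b := 5/2) (by norm_num) (by norm_num) (by norm_num)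
    (vb_k0 hC hM hD) (vb_rem hC hM hD)
  choose C4 h4' using fun p q => IT_bd hC hM hD (a := 3/2) (b := 3/2) (by norm_num) (by norm_num) (by norm_num)
    (vb_rr hC hM hD p q) (vb_rr hC hM hD p q)
  choose C5 h5' using fun p q => IT_bd hC hM hD (a := 3/2) (b := 1) (by norm_num) (by norm_num) (by norm_num)
    (vb_rr hC hM hD p q) (vb_ss hC hM hD p q)
  refine ⟨2 * C1 + 2 * C2 + 2 * C3 + ∑ p, ∑ q, (C4 p q + 2 * C5 p q), fun i t ht => ?_⟩
  rw [kk_int hC hM hD ht, m1_eq hC hM hD, m2_eq hC hM hD ht, m3_eq hC hM hD ht]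
  have e : ∀ a b c' d e f : ℝ, a + b + c' + d + e + f - (a + b + (c' + d + e)) = f := by intros; ring
  rw [e]
  have f1 := h1' i t ht
  have f2 := h2' i t ht
  have f3 := h3' i t ht
  have f4 : |∑ p, ∑ q, (IT M (D.rr c p q) (D.rr c p q) i t - 2 * IT M (D.rr c p q) (D.ss c p q) i t)|
      ≤ (∑ p, ∑ q, (C4 p q + 2 * C5 p q)) * Real.sqrt t := by
    refine (Finset.abs_sum_le_sum_abs _ _).trans ?_
    rw [Finset.sum_mul]
    refine Finset.sum_le_sum fun p _ => (Finset.abs_sum_le_sum_abs _ _).trans ?_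
    rw [Finset.sum_mul]
    refine Finset.sum_le_sum fun q _ => (abs_sub _ _).trans ?_
    rw [abs_mul, abs_two]
    have := h4' p q i t ht
    have := h5' p q i t ht
    nlinarith
  have f5 := abs_add_le (2 * IT M (k1 M c) (D.X1 c) i t + 2 * IT M (k1 M c) (D.X2 c) i t + 2 * IT M (k0 M c) (D.rem c) i t)
    (∑ p, ∑ q, (IT M (D.rr c p q) (D.rr c p q) i t - 2 * IT M (D.rr c p q) (D.ss c p q) i t))
  have f6 := abs_add_le (2 * IT M (k1 M c) (D.X1 c) i t + 2 * IT M (k1 M c) (D.X2 c) i t) (2 * IT M (k0 M c) (D.rem c) i t)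
  have f7 := abs_add_le (2 * IT M (k1 M c) (D.X1 c) i t) (2 * IT M (k1 M c) (D.X2 c) i t)
  rw [abs_mul, abs_mul, abs_two] at f7
  rw [abs_mul 2 (IT M (k0 M c) (D.rem c) i t), abs_two] at f6
  nlinarith

end

/-- HK6 -/
theorem cmp {ι : Type*} {M : Met ι} {κ κ' : Type} [Fintype κ] [DecidableEq κ] [Fintype κ'] [DecidableEq κ']
    {R : ℝ} {c : Cut R} {D : Con M κ} {D' : Con M κ'} (hC : Cal M) (hM : InpM M c) (hD : InpD c D)
    (hD' : InpD c D') : CmpStmt c D D' := by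
  intro hcard htr
  obtain ⟨C1, h1'⟩ := expand hC hM hD
  obtain ⟨C2, h2'⟩ := expand hC hM hD'
  refine ⟨C1 + C2, fun i t ht => ?_⟩
  have hU : D.tp = D'.tp := by
    funext i x; exact htr i x
  have f1 := h1' i t ht
  have f2 := h2' i t ht
  rw [hU, hcard] at f1
  have f3 := abs_sub
    ((∫ x, (∑ p, ∑ q, D.kk c i t x p q ^ 2) * M.w i x)
      - ((Fintype.card κ' : ℝ) * IT M (k0 M c) (k0 M c) i t + 2 * IT M (k0 M c) (UU M c D'.tp) i t
        + (2 * D.m1 c i t + 2 * D.m2 c i t + D.m3 c i t)))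
    ((∫ x, (∑ p, ∑ q, D'.kk c i t x p q ^ 2) * M.w i x)
      - ((Fintype.card κ' : ℝ) * IT M (k0 M c) (k0 M c) i t + 2 * IT M (k0 M c) (UU M c D'.tp) i t
        + (2 * D'.m1 c i t + 2 * D'.m2 c i t + D'.m3 c i t)))
  refine le_trans (le_of_eq ?_) (f3.trans (by linarith [f1, f2]))
  congr 1
  ring

end Crest.Agent.R249.HK286
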