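import Crest.Agent.R249.HKFin_286
import Crest.Agent.R249.HK4_654
import Crest.Agent.R249.HK5d_905
import Crest.Agent.R249.HK9f_714

/-!
# Row 249, PART C (helper286): heat trace comparison, unconditional.
Assembly of the leaves HK1, HK4 (helper654), HK2, HK3 (helper352), HK5 (helper905), HK6, HK8 (helper286),
HK7 (helper274), HK9 (helper714).
-/

set_option autoImplicit false
open scoped ContDiff Topology
open MeasureTheory Set Metric Filter

namespace Crest.Agent.R249.HK286
open Crest.Agent.R249.HK9_714 (ChartStmt)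

theorem mainStmt : MainStmt :=
  mainStmt_of2 (fun _ _ _ c _ => HK352.inpM c)
    (fun _ M _ _ _ _ _ _ hR hC hM hD => HK5_905.core hC hM hD hR
      (fun i z _ hf hB hc => HK4_654.hk4 M i z hf hB hc))

theorem chartStmt : ChartStmt := HK8_286.chartStmt mainStmt

end Crest.Agent.R249.HK286

namespace Crest.Agent.R249.HK286
open scoped Manifold Bundle
open Bundle
open Crest.Agent.R249.HK9_714 Crest.Agent.R249.Tv57

/-- **heat trace comparison** on a closed 4-manifold, no hypothesis left -/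
theorem heat_trace {M : Type*} [MetricSpace M] [ChartedSpace (EuclideanSpace ℝ (Fin 4)) M]
    [IsManifold (𝓡 4) ∞ M]
    [RiemannianBundle (fun p : M => TangentSpace (𝓡 4) p)]
    [IsContMDiffRiemannianBundle (𝓡 4) ∞ (EuclideanSpace ℝ (Fin 4)) (fun p : M => TangentSpace (𝓡 4) p)]
    [IsRiemannianManifold (𝓡 4) M] [MeasurableSpace M] [BorelSpace M]
    [SecondCountableTopology M] [Nonempty M] [CompactSpace M]
    {κ κ' : Type} [Fintype κ] [Fintype κ']
    (D : Dat 4 M κ) (D' : Dat 4 M κ') (S : Spec D) (S' : Spec D')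
    (hr : ∀ z, ∑ a, D.p a a z = ∑ a, D'.p a a z)
    (hq : ∀ z, ∑ a, ∑ b, D.Q a b z * D.p a b z = ∑ a, ∑ b, D'.Q a b z * D'.p a b z) :
    (∀ t : ℝ, 0 < t → Summable fun k => Real.exp (-(t * S.μ k))) ∧
    (∀ t : ℝ, 0 < t → Summable fun k => Real.exp (-(t * S'.μ k))) ∧
    Integrable (fun z => dn D z - dn D' z) (μHE[4] : Measure M) ∧
    Tendsto (fun t => ∑' k, Real.exp (-(t * S.μ k)) - ∑' k, Real.exp (-(t * S'.μ k)))
      (𝓝[>] 0) (𝓝 (∫ z, (dn D z - dn D' z) ∂(μHE[4] : Measure M))) :=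
  heat_trace_of chartStmt D D' S S' hr hq

end Crest.Agent.R249.HK286
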