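import Crest.Agent.R249.HKLim5_274

/-!
# R249, PART C, leaf HK7 (helper274), part 6: `LimStmt`
-/

set_option autoImplicit false
open scoped ContDiff
open MeasureTheory Set Metric Filter Topology
open Crest.Agent.R249.HK286

noncomputable section

namespace Crest.Agent.R249.HKLim_274

variable {ι : Type*} {M : Met ι} {κ : Type*} [Fintype κ] [DecidableEq κ] {R : ℝ}

/-! ### the function `tr aa` -/

/-- coefficients of the leading part of `tr aa` -/
def qc (D : Con M κ) (i : ι) (l m : Fin 4) : ℝ :=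
  ∑ j, ∑ k, M.h i j k 0 * ∑ p, ∑ q, pd l (D.a i j p q) 0 * pd m (D.a i k q p) 0

theorem QF_aa (D : Con M κ) :
    QF (fun i z => ∑ p, D.aa i z p p) (fun i z => Qf (qc D i) z) := by
  have h1 : QF (fun i z => ∑ p, D.aa i z p p) (fun i x => ∑ p, ∑ j, ∑ k, M.h i j k 0 *
      ∑ r, (∑ l, pd l (D.a i j p r) 0 * x l) * ∑ m, pd m (D.a i k r p) 0 * x m) := by
    unfold Con.aa
    refine QF.sum _ fun p _ => QF.sum _ fun j _ => QF.sum _ fun k _ => ?_
    refine QF.ub_mul ?_ (M.ubh j k)
    refine QF.sum _ fun r _ => ?_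
    exact QF.of_lin (D.uba j p r) (fun i => D.azero i j p r) (D.uba k r p)
      (fun i => D.azero i k r p)
  have h2 : (fun i x => ∑ p, ∑ j, ∑ k, M.h i j k 0 *
      ∑ r, (∑ l, pd l (D.a i j p r) 0 * x l) * ∑ m, pd m (D.a i k r p) 0 * x m) =
      (fun (i : ι) (z : E4) => Qf (qc D i) z) := by
    funext i x
    unfold Qf qc
    simp only [Finset.mul_sum, Finset.sum_mul]
    -- left: p j k r m l ; right: l m j k p q
    calc ∑ p, ∑ j, ∑ k, ∑ r, ∑ m, ∑ l,
          M.h i j k 0 * (pd l (D.a i j p r) 0 * x l * (pd m (D.a i k r p) 0 * x m))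
        = ∑ p, ∑ j, ∑ k, ∑ r, ∑ l, ∑ m,
          M.h i j k 0 * (pd l (D.a i j p r) 0 * pd m (D.a i k r p) 0) * (x l * x m) := by
          refine Finset.sum_congr rfl fun p _ => Finset.sum_congr rfl fun j _ =>
            Finset.sum_congr rfl fun k _ => Finset.sum_congr rfl fun r _ => ?_
          rw [Finset.sum_comm]
          refine Finset.sum_congr rfl fun l _ => Finset.sum_congr rfl fun m _ => ?_
          ring
      _ = ∑ l, ∑ m, ∑ p, ∑ j, ∑ k, ∑ r,
          M.h i j k 0 * (pd l (D.a i j p r) 0 * pd m (D.a i k r p) 0) * (x l * x m) := by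
          have e1 : ∀ p j k, (∑ r, ∑ l, ∑ m,
              M.h i j k 0 * (pd l (D.a i j p r) 0 * pd m (D.a i k r p) 0) * (x l * x m)) =
              ∑ l, ∑ m, ∑ r,
              M.h i j k 0 * (pd l (D.a i j p r) 0 * pd m (D.a i k r p) 0) * (x l * x m) := by
            intro p j k
            rw [Finset.sum_comm]
            exact Finset.sum_congr rfl fun l _ => Finset.sum_comm
          have e2 : ∀ p j, (∑ k, ∑ r, ∑ l, ∑ m,
              M.h i j k 0 * (pd l (D.a i j p r) 0 * pd m (D.a i k r p) 0) * (x l * x m)) =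
              ∑ l, ∑ m, ∑ k, ∑ r,
              M.h i j k 0 * (pd l (D.a i j p r) 0 * pd m (D.a i k r p) 0) * (x l * x m) := by
            intro p j
            simp only [e1]
            rw [Finset.sum_comm]
            exact Finset.sum_congr rfl fun l _ => Finset.sum_comm
          have e3 : ∀ p, (∑ j, ∑ k, ∑ r, ∑ l, ∑ m,
              M.h i j k 0 * (pd l (D.a i j p r) 0 * pd m (D.a i k r p) 0) * (x l * x m)) =
              ∑ l, ∑ m, ∑ j, ∑ k, ∑ r,
              M.h i j k 0 * (pd l (D.a i j p r) 0 * pd m (D.a i k r p) 0) * (x l * x m) := by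
            intro p
            simp only [e2]
            rw [Finset.sum_comm]
            exact Finset.sum_congr rfl fun l _ => Finset.sum_comm
          simp only [e3]
          rw [Finset.sum_comm]
          exact Finset.sum_congr rfl fun l _ => Finset.sum_comm
      _ = ∑ l, ∑ m, ∑ j, ∑ k, ∑ p, ∑ r,
          M.h i j k 0 * (pd l (D.a i j p r) 0 * pd m (D.a i k r p) 0) * (x l * x m) := by
          refine Finset.sum_congr rfl fun l _ => Finset.sum_congr rfl fun m _ => ?_
          rw [Finset.sum_comm]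
          exact Finset.sum_congr rfl fun j _ => Finset.sum_comm
  rw [h2] at h1
  exact h1

/-! ### `m1` -/

theorem SI_m1 (c : Cut R) (D : Con M κ) :
    SI (fun i t x => M.HH c 1 i t x 0 *
      M.star0 (M.HH c 2) (fun i t z => M.HH c 1 i t z 0 * ∑ p, D.aa i z p p) i t x)
      (fun i x => gam M i 1 x * ∫ s in Ioo 0 1, ∫ z, gam M i (1 - s) (x - z) *
        (gam M i s z * Qf (qc D i) z) * M.w i 0) := by
  have h1 : SF (0 + 1) (fun i t z => M.HH c 1 i t z 0 * ∑ p, D.aa i z p p)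
      (fun i σ ξ => gam M i σ ξ * Qf (qc D i) ξ) := by
    have hq := QF_aa D
    obtain ⟨B, hB, hb⟩ := hq.bd
    exact (SF_HH c 1).mul_quad (fun i => (hq.cont i).measurable) hB hb hq.lim
  have h2 := SF.star0 (M := M) (SK_HH (M := M) c 2) h1
  exact (SF_HH c 1).mul h2 rfl

/-! ### `m3` -/

theorem SF_m3 (c : Cut R) (m m' : ℕ) (D : Con M κ) (p q : κ) :
    SF (0 + 1) (M.star (sc (M.HH c m)) (fun i t z p q => M.HH c m' i t z 0 * D.P i p q z) · · · p q)
      (fun i σ ξ => σ * (gam M i σ ξ * D.P i p q 0)) := by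
  have h1 : SF 0 (fun i t z => M.HH c m' i t z 0 * D.P i p q z)
      (fun i σ ξ => gam M i σ ξ * D.P i p q 0) := (SF_HH c m').mul_ub (D.ubP p q)
  have h2 := SF.star0 (M := M) (SK_HH (M := M) c m) h1
  have h3 : (fun i t x => M.star (sc (M.HH c m))
      (fun i t z p q => M.HH c m' i t z 0 * D.P i p q z) i t x p q) =
      M.star0 (M.HH c m) (fun i t z => M.HH c m' i t z 0 * D.P i p q z) := by
    funext i t x
    exact star_sc _ _ i t x p q
  show SF (0 + 1) (fun i t x => M.star (sc (M.HH c m))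
      (fun i t z p q => M.HH c m' i t z 0 * D.P i p q z) i t x p q) _
  rw [h3]
  refine ⟨h2.meas, h2.bd, fun i σ hσ ξ => ?_⟩
  rw [← star_gam i hσ.1 ξ (D.P i p q 0)]
  exact h2.lim i σ hσ ξ

theorem SI_m3 (c : Cut R) (D : Con M κ) :
    SI (fun i t x => ∑ p, ∑ q, M.star (sc (M.HH c 2))
      (fun i t z p q => M.HH c 1 i t z 0 * D.P i p q z) i t x p q ^ 2)
      (fun i x => ∑ p, ∑ q, (1 * (gam M i 1 x * D.P i p q 0)) * (1 * (gam M i 1 x * D.P i p q 0))) := by
  refine SI.sum _ fun p _ => SI.sum _ fun q _ => ?_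
  have h := SF_m3 c 2 1 D p q
  have h1 := h.mul h rfl
  simp only [← sq] at h1 ⊢
  exact h1

/-! ### `m2` -/

theorem DK_HHP (c : Cut R) (m : ℕ) (D : Con M κ) (p q : κ) :
    DK fun i t x z => M.HH c m i t x z * D.P i p q x := by
  obtain ⟨c', hc', hb⟩ := HH_bd (M := M) c
  obtain ⟨B, hB, hb'⟩ := ub_bdd (D.ubP p q)
  refine ⟨fun i => (HH_meas c m i).mul ((ub_cont (D.ubP p q) i).measurable.comp
    (measurable_fst.comp measurable_snd)), B, c', hB, hc', fun i t ht x z => ?_⟩
  rw [abs_mul, mul_comm]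
  exact mul_le_mul (hb' i x) (hb m i t ht x z) (abs_nonneg _) hB

theorem DF_HHP (c : Cut R) (m : ℕ) (D : Con M κ) (p q : κ) :
    DF fun i t z => M.HH c m i t z 0 * D.P i p q z := by
  obtain ⟨c', hc', hb⟩ := HH_bd (M := M) c
  obtain ⟨B, hB, hb'⟩ := ub_bdd (D.ubP p q)
  refine ⟨fun i => ?_, B, c', hB, hc', fun i t ht x => ?_⟩
  · have h1 : Measurable fun z : ℝ × E4 => M.HH c m i z.1 z.2 0 :=
      (HH_meas c m i).comp (g := fun z : ℝ × E4 × E4 => M.HH c m i z.1 z.2.1 z.2.2)
        (f := fun z : ℝ × E4 => (z.1, z.2, (0 : E4))) (by fun_prop)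
    exact h1.mul ((ub_cont (D.ubP p q) i).measurable.comp measurable_snd)
  · rw [abs_mul, mul_comm]
    have := hb m i t ht x 0
    rw [sub_zero] at this
    exact mul_le_mul (hb' i x) this (abs_nonneg _) hB

/-- the inner convolution of `m2` -/
theorem SF_in (c : Cut R) (D : Con M κ) (p q : κ) :
    SF (0 + 1) (M.star (fun i t x z p q => M.HH c 2 i t x z * D.P i p q x)
      (fun i t z p q => M.HH c 1 i t z 0 * D.P i p q z) · · · p q)
      (fun i σ ξ => σ * (gam M i σ ξ * ∑ r, D.P i p r 0 * D.P i r q 0)) := by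
  have h0 : (fun i t x => M.star (fun i t x z p q => M.HH c 2 i t x z * D.P i p q x)
      (fun i t z p q => M.HH c 1 i t z 0 * D.P i p q z) i t x p q) =
      fun i t x => ∑ r, M.star0 (fun i t x z => M.HH c 2 i t x z * D.P i p r x)
        (fun i t z => M.HH c 1 i t z 0 * D.P i r q z) i t x := by
    funext i t x
    exact star_eq_sum (DK_HHP c 2 D) (DF_HHP c 1 D) i t x p q
  show SF (0 + 1) (fun i t x => M.star (fun i t x z p q => M.HH c 2 i t x z * D.P i p q x)
      (fun i t z p q => M.HH c 1 i t z 0 * D.P i p q z) i t x p q) _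
  rw [h0]
  have h1 : ∀ r, SF (0 + 1) (M.star0 (fun i t x z => M.HH c 2 i t x z * D.P i p r x)
        (fun i t z => M.HH c 1 i t z 0 * D.P i r q z))
      (fun i σ ξ => ∫ s in Ioo 0 σ, ∫ z, (gam M i (σ - s) (ξ - z) * D.P i p r 0) *
        (gam M i s z * D.P i r q 0) * M.w i 0) := fun r =>
    SF.star0 (M := M) ((SK_HH (M := M) c 2).mul_ub (D.ubP p r)) ((SF_HH c 1).mul_ub (D.ubP r q))
  have h2 := SF.sum Finset.univ fun r _ => h1 r
  refine ⟨h2.meas, h2.bd, fun i σ hσ ξ => ?_⟩
  have h3 := h2.lim i σ hσ ξ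
  have h4 : (∑ r, ∫ s in Ioo 0 σ, ∫ z, (gam M i (σ - s) (ξ - z) * D.P i p r 0) *
        (gam M i s z * D.P i r q 0) * M.w i 0) =
      σ * (gam M i σ ξ * ∑ r, D.P i p r 0 * D.P i r q 0) := by
    rw [Finset.mul_sum, Finset.mul_sum]
    refine Finset.sum_congr rfl fun r _ => ?_
    rw [← star_gam i hσ.1 ξ (D.P i p r 0 * D.P i r q 0)]
    refine integral_congr_ae (Eventually.of_forall fun s => ?_)
    refine integral_congr_ae (Eventually.of_forall fun z => ?_)
    ring
  rw [h4] at h3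
  exact h3

theorem SI_m2 (c : Cut R) (D : Con M κ) :
    SI (fun i t x => M.HH c 1 i t x 0 *
      (∑ p, M.star (sc (M.HH c 3)) (M.star (fun i t x z p q => M.HH c 2 i t x z * D.P i p q x)
        (fun i t z p q => M.HH c 1 i t z 0 * D.P i p q z)) i t x p p))
      (fun i x => gam M i 1 x * ∑ p, (1 ^ 2 / 2 * (gam M i 1 x *
        ∑ r, D.P i p r 0 * D.P i r p 0))) := by
  have h1 : ∀ p, SF (0 + 1 + 1) (fun i t x => M.star (sc (M.HH c 3))
      (M.star (fun i t x z p q => M.HH c 2 i t x z * D.P i p q x)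
        (fun i t z p q => M.HH c 1 i t z 0 * D.P i p q z)) i t x p p)
      (fun i σ ξ => σ ^ 2 / 2 * (gam M i σ ξ * ∑ r, D.P i p r 0 * D.P i r p 0)) := by
    intro p
    have h2 := SF.star0 (M := M) (SK_HH (M := M) c 3) (SF_in c D p p)
    have h3 : (fun i t x => M.star (sc (M.HH c 3))
      (M.star (fun i t x z p q => M.HH c 2 i t x z * D.P i p q x)
        (fun i t z p q => M.HH c 1 i t z 0 * D.P i p q z)) i t x p p) =
        M.star0 (M.HH c 3) (fun i t x =>
          M.star (fun i t x z p q => M.HH c 2 i t x z * D.P i p q x)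
            (fun i t z p q => M.HH c 1 i t z 0 * D.P i p q z) i t x p p) := by
      funext i t x
      exact star_sc _ _ i t x p p
    rw [h3]
    refine ⟨h2.meas, h2.bd, fun i σ hσ ξ => ?_⟩
    rw [← star_gam' i hσ.1 ξ (∑ r, D.P i p r 0 * D.P i r p 0)]
    exact h2.lim i σ hσ ξ
  exact (SF_HH c 1).mul (SF.sum Finset.univ fun p _ => h1 p) rfl

/-! ### the theorem -/

/-- **HK7.** -/
theorem limStmt (c : Cut R) (D : Con M κ) : LimStmt c D := by
  obtain ⟨⟨C₁, b1⟩, l1⟩ := (SI_m1 c D).integral M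
  obtain ⟨⟨C₂, b2⟩, l2⟩ := (SI_m2 c D).integral M
  obtain ⟨⟨C₃, b3⟩, l3⟩ := (SI_m3 c D).integral M
  refine ⟨⟨max C₁ (max C₂ C₃), fun i t ht => ⟨?_, ?_, ?_⟩⟩, fun i => ?_, fun i => ?_, fun i => ?_⟩
  · exact (b1 i t ht).trans (le_max_left _ _)
  · exact (b2 i t ht).trans ((le_max_left _ _).trans (le_max_right _ _))
  · exact (b3 i t ht).trans ((le_max_right _ _).trans (le_max_right _ _))
  · have h := l1 i
    rw [m1_value] at h
    have h2 : (∑ l, ∑ m, qc D i l m * M.h i l m 0) =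
        ∑ j, ∑ k, ∑ l, ∑ m, M.h i j k 0 * M.h i l m 0 *
          ∑ p, ∑ q, pd l (D.a i j p q) 0 * pd m (D.a i k q p) 0 := by
      unfold qc
      simp only [Finset.sum_mul]
      calc ∑ l, ∑ m, ∑ j, ∑ k, (M.h i j k 0 *
            ∑ p, ∑ q, pd l (D.a i j p q) 0 * pd m (D.a i k q p) 0) * M.h i l m 0
          = ∑ l, ∑ j, ∑ m, ∑ k, (M.h i j k 0 *
            ∑ p, ∑ q, pd l (D.a i j p q) 0 * pd m (D.a i k q p) 0) * M.h i l m 0 :=
            Finset.sum_congr rfl fun l _ => Finset.sum_comm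
        _ = ∑ j, ∑ l, ∑ m, ∑ k, (M.h i j k 0 *
            ∑ p, ∑ q, pd l (D.a i j p q) 0 * pd m (D.a i k q p) 0) * M.h i l m 0 :=
            Finset.sum_comm
        _ = ∑ j, ∑ k, ∑ l, ∑ m, M.h i j k 0 * M.h i l m 0 *
            ∑ p, ∑ q, pd l (D.a i j p q) 0 * pd m (D.a i k q p) 0 := by
            refine Finset.sum_congr rfl fun j _ => ?_
            calc ∑ l, ∑ m, ∑ k, (M.h i j k 0 *
                  ∑ p, ∑ q, pd l (D.a i j p q) 0 * pd m (D.a i k q p) 0) * M.h i l m 0
                = ∑ l, ∑ k, ∑ m, (M.h i j k 0 *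
                  ∑ p, ∑ q, pd l (D.a i j p q) 0 * pd m (D.a i k q p) 0) * M.h i l m 0 :=
                  Finset.sum_congr rfl fun l _ => Finset.sum_comm
              _ = ∑ k, ∑ l, ∑ m, (M.h i j k 0 *
                  ∑ p, ∑ q, pd l (D.a i j p q) 0 * pd m (D.a i k q p) 0) * M.h i l m 0 :=
                  Finset.sum_comm
              _ = _ := by
                  refine Finset.sum_congr rfl fun k _ => Finset.sum_congr rfl fun l _ =>
                    Finset.sum_congr rfl fun m _ => ?_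
                  ring
    rw [← h2]
    exact h
  · have h := l2 i
    have h3 : (∫ x, (gam M i 1 x * ∑ p, (1 ^ 2 / 2 * (gam M i 1 x *
        ∑ r, D.P i p r 0 * D.P i r p 0))) * M.w i 0) =
        1 / (128 * Real.pi ^ 2) * ∑ p, ∑ q, D.P i p q 0 * D.P i q p 0 := by
      have h4 : ∀ x, (gam M i 1 x * ∑ p, (1 ^ 2 / 2 * (gam M i 1 x *
          ∑ r, D.P i p r 0 * D.P i r p 0))) * M.w i 0 =
          gam M i 1 x * (gam M i 1 x * (1 / 2 * ∑ p, ∑ r, D.P i p r 0 * D.P i r p 0)) *
            M.w i 0 := by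
        intro x
        congr 1
        rw [Finset.mul_sum (Finset.univ) _ (1 / 2 : ℝ), Finset.mul_sum, Finset.mul_sum,
          Finset.mul_sum]
        refine Finset.sum_congr rfl fun p _ => ?_
        ring
      simp only [h4]
      rw [sq_value]
      ring
    rw [h3] at h
    exact h
  · have h := l3 i
    have h3 : (∫ x, (∑ p, ∑ q, (1 * (gam M i 1 x * D.P i p q 0)) *
        (1 * (gam M i 1 x * D.P i p q 0))) * M.w i 0) =
        1 / (64 * Real.pi ^ 2) * ∑ p, ∑ q, D.P i p q 0 * D.P i q p 0 := by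
      have h4 : ∀ x, (∑ p, ∑ q, (1 * (gam M i 1 x * D.P i p q 0)) *
          (1 * (gam M i 1 x * D.P i p q 0))) * M.w i 0 =
          gam M i 1 x * (gam M i 1 x * ∑ p, ∑ q, D.P i p q 0 * D.P i q p 0) * M.w i 0 := by
        intro x
        congr 1
        simp only [Finset.mul_sum]
        refine Finset.sum_congr rfl fun p _ => Finset.sum_congr rfl fun q _ => ?_
        rw [D.Psymm i q p 0]
        ring
      simp only [h4]
      rw [sq_value]
    rw [h3] at h
    exact h

end Crest.Agent.R249.HKLim_274
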