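import Crest.Agent.R249.HKMain_286
import Crest.Agent.R249.HK8D_286
import Crest.Agent.R249.HK1_654
import Crest.Agent.R249.HK3D_352
import Crest.Agent.R249.HK2C_352
import Crest.Agent.R249.HKLim6_274

/-!
# Row 249, PART C (helper286): `MainStmt` and `ChartStmt` from HK2 (`InpM`) and HK5 (`CoreStmt`).
-/

set_option autoImplicit false
open scoped ContDiff Topology
open MeasureTheory Set Metric Filter

namespace Crest.Agent.R249.HK286
open Crest.Agent.R249.HK9_714 (ChartStmt)

theorem mainStmt_of2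
    (hInpM : ∀ (ι : Type) (M : Met ι) (R : ℝ) (c : Cut R), 0 < R → InpM M c)
    (hCore : ∀ (ι : Type) (M : Met ι) (R : ℝ) (c : Cut R) (κ : Type) [Fintype κ] [DecidableEq κ]
      (D : Con M κ), 0 < R → Cal M → InpM M c → InpD c D → CoreStmt c D) : MainStmt :=
  mainStmt_of (fun _ M => HK1_654.cal M) hInpM
    (fun ι M R c κ _ _ D hR => HK352.inpD c D (hInpM ι M R c hR))
    (fun ι M R c κ _ _ D hR => hCore ι M R c κ D hR (HK1_654.cal M) (hInpM ι M R c hR)
      (HK352.inpD c D (hInpM ι M R c hR)))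
    (fun _ _ _ c _ _ _ D _ => HKLim_274.limStmt c D)

theorem chartStmt_of2
    (hInpM : ∀ (ι : Type) (M : Met ι) (R : ℝ) (c : Cut R), 0 < R → InpM M c)
    (hCore : ∀ (ι : Type) (M : Met ι) (R : ℝ) (c : Cut R) (κ : Type) [Fintype κ] [DecidableEq κ]
      (D : Con M κ), 0 < R → Cal M → InpM M c → InpD c D → CoreStmt c D) : ChartStmt :=
  HK8_286.chartStmt (mainStmt_of2 hInpM hCore)

/-- everything except HK5 -/
theorem chartStmt_of_core
    (hCore : ∀ (ι : Type) (M : Met ι) (R : ℝ) (c : Cut R) (κ : Type) [Fintype κ] [DecidableEq κ]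
      (D : Con M κ), 0 < R → Cal M → InpM M c → InpD c D → CoreStmt c D) : ChartStmt :=
  chartStmt_of2 (fun _ _ _ c _ => HK352.inpM c) hCore

end Crest.Agent.R249.HK286
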