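import Crest.Agent.R249.HKDef_286

/-!
# R249, PART C, leaf HK7 (helper274), part 1: Gaussians on `E4`
-/

set_option autoImplicit false
open scoped ContDiff
open MeasureTheory Set Metric Filter Topology
open Crest.Agent.R249.HK286

noncomputable section

namespace Crest.Agent.R249.HKLim_274

/-! ### the Gaussian integral -/

theorem gauss_integral {b : ℝ} (hb : 0 < b) (x : E4) :
    ∫ z : E4, Real.exp (-(b * ‖z - x‖ ^ 2)) = (Real.pi / b) ^ 2 := by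
  have h1 : ∫ z : E4, Real.exp (-(b * ‖z - x‖ ^ 2)) = ∫ z : E4, Real.exp (-(b * ‖z‖ ^ 2)) :=
    integral_sub_right_eq_self (fun z : E4 => Real.exp (-(b * ‖z‖ ^ 2))) x
  rw [h1]
  have h2 := GaussianFourier.integral_rexp_neg_mul_sq_norm (V := E4) hb
  simp only [neg_mul] at h2
  rw [h2, finrank_euclideanSpace_fin]
  have : ((4 : ℕ) : ℝ) / 2 = ((2 : ℕ) : ℝ) := by norm_num
  rw [this, Real.rpow_natCast]

theorem gauss_integrable {b : ℝ} (hb : 0 < b) (x : E4) :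
    Integrable fun z : E4 => Real.exp (-(b * ‖z - x‖ ^ 2)) := by
  by_contra h
  have h1 := gauss_integral hb x
  rw [integral_undef h] at h1
  have h2 : 0 < (Real.pi / b) ^ 2 := by positivity
  linarith

/-! ### `Gam` -/

theorem Gam_nonneg (c t : ℝ) (x : E4) : 0 ≤ Gam c t x := by
  unfold Gam; positivity

theorem Gam_anti {c c' t : ℝ} (hc : c' ≤ c) (ht : 0 < t) (x : E4) : Gam c t x ≤ Gam c' t x := by
  unfold Gam
  refine mul_le_mul_of_nonneg_left (Real.exp_le_exp.2 ?_) (by positivity)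
  rw [neg_le_neg_iff]
  gcongr

theorem Gam_le {c t : ℝ} (hc : 0 ≤ c) (ht : 0 < t) (x : E4) : Gam c t x ≤ (t ^ 2)⁻¹ := by
  unfold Gam
  have h : Real.exp (-(c * ‖x‖ ^ 2 / t)) ≤ 1 := Real.exp_le_one_iff.2 (by
    rw [neg_nonpos]; positivity)
  calc (t ^ 2)⁻¹ * Real.exp (-(c * ‖x‖ ^ 2 / t)) ≤ (t ^ 2)⁻¹ * 1 := by gcongr
    _ = _ := mul_one _

theorem Gam_neg (c t : ℝ) (x : E4) : Gam c t (-x) = Gam c t x := by
  unfold Gam; rw [norm_neg]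

theorem Gam_sub_comm (c t : ℝ) (x z : E4) : Gam c t (x - z) = Gam c t (z - x) := by
  unfold Gam; rw [norm_sub_rev]

theorem Gam_eq {c t : ℝ} (x : E4) :
    Gam c t x = (t ^ 2)⁻¹ * Real.exp (-(c / t * ‖x‖ ^ 2)) := by
  unfold Gam
  congr 2
  ring

theorem Gam_cont (c t : ℝ) : Continuous fun x : E4 => Gam c t x := by
  unfold Gam; fun_prop

theorem Gam_meas (c : ℝ) : Measurable fun z : ℝ × E4 => Gam c z.1 z.2 := by
  unfold Gam; fun_prop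

theorem Gam_integrable {c t : ℝ} (hc : 0 < c) (ht : 0 < t) (x : E4) :
    Integrable fun z : E4 => Gam c t (z - x) := by
  simp only [Gam_eq]
  exact (gauss_integrable (by positivity) x).const_mul _

theorem Gam_integral {c t : ℝ} (hc : 0 < c) (ht : 0 < t) (x : E4) :
    ∫ z : E4, Gam c t (z - x) = (Real.pi / c) ^ 2 := by
  simp only [Gam_eq]
  rw [integral_const_mul, gauss_integral (by positivity)]
  field_simp

/-- scaling -/
theorem Gam_scale {c t σ : ℝ} (ht : 0 < t) (x : E4) :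
    t ^ 2 * Gam c (t * σ) (Real.sqrt t • x) = Gam c σ x := by
  have h0 : ‖Real.sqrt t • x‖ ^ 2 = t * ‖x‖ ^ 2 := by
    rw [norm_smul, Real.norm_eq_abs, abs_of_nonneg (Real.sqrt_nonneg t), mul_pow,
      Real.sq_sqrt ht.le]
  unfold Gam
  rw [h0, ← mul_assoc]
  have h1 : t ^ 2 * ((t * σ) ^ 2)⁻¹ = (σ ^ 2)⁻¹ := by
    rw [mul_pow, mul_inv, ← mul_assoc, mul_inv_cancel₀ (by positivity), one_mul]
  have h2 : c * (t * ‖x‖ ^ 2) / (t * σ) = c * ‖x‖ ^ 2 / σ := by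
    rw [show c * (t * ‖x‖ ^ 2) = t * (c * ‖x‖ ^ 2) by ring, mul_div_mul_left _ _ ht.ne']
  rw [h1, h2]

/-- absorbing `‖x‖²` -/
theorem sq_mul_Gam_le {c t : ℝ} (hc : 0 < c) (ht : 0 < t) (x : E4) :
    ‖x‖ ^ 2 * Gam c t x ≤ 2 / c * t * Gam (c / 2) t x := by
  unfold Gam
  have h1 : c / 2 * ‖x‖ ^ 2 / t ≤ Real.exp (c / 2 * ‖x‖ ^ 2 / t) := by
    have := Real.add_one_le_exp (c / 2 * ‖x‖ ^ 2 / t)
    linarith
  have h2 : Real.exp (-(c * ‖x‖ ^ 2 / t)) =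
      Real.exp (-(c / 2 * ‖x‖ ^ 2 / t)) * Real.exp (-(c / 2 * ‖x‖ ^ 2 / t)) := by
    rw [← Real.exp_add]; congr 1; ring
  have h3 : c / 2 * ‖x‖ ^ 2 / t * Real.exp (-(c / 2 * ‖x‖ ^ 2 / t)) ≤ 1 := by
    rw [Real.exp_neg, ← div_eq_mul_inv, div_le_one (Real.exp_pos _)]
    exact h1
  have h4 : ‖x‖ ^ 2 * Real.exp (-(c / 2 * ‖x‖ ^ 2 / t)) ≤ 2 / c * t := by
    calc ‖x‖ ^ 2 * Real.exp (-(c / 2 * ‖x‖ ^ 2 / t))
        = 2 / c * t * (c / 2 * ‖x‖ ^ 2 / t * Real.exp (-(c / 2 * ‖x‖ ^ 2 / t))) := by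
          field_simp
      _ ≤ 2 / c * t * 1 := by gcongr
      _ = _ := mul_one _
  rw [h2]
  calc ‖x‖ ^ 2 * ((t ^ 2)⁻¹ * (Real.exp (-(c / 2 * ‖x‖ ^ 2 / t)) *
        Real.exp (-(c / 2 * ‖x‖ ^ 2 / t))))
      = (‖x‖ ^ 2 * Real.exp (-(c / 2 * ‖x‖ ^ 2 / t))) *
        ((t ^ 2)⁻¹ * Real.exp (-(c / 2 * ‖x‖ ^ 2 / t))) := by ring
    _ ≤ 2 / c * t * ((t ^ 2)⁻¹ * Real.exp (-(c / 2 * ‖x‖ ^ 2 / t))) := by gcongr

/-- completing the square -/
theorem sq_split {s t : ℝ} (hs : 0 < s) (hst : s < t) (x z : E4) :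
    ‖x - z‖ ^ 2 / (t - s) + ‖z‖ ^ 2 / s =
      ‖x‖ ^ 2 / t + t / (s * (t - s)) * ‖z - (s / t) • x‖ ^ 2 := by
  have h1 : ‖x - z‖ ^ 2 = ‖x‖ ^ 2 - 2 * inner ℝ x z + ‖z‖ ^ 2 := norm_sub_sq_real x z
  have h2 : ‖z - (s / t) • x‖ ^ 2 =
      ‖z‖ ^ 2 - 2 * (s / t * inner ℝ x z) + (s / t) ^ 2 * ‖x‖ ^ 2 := by
    rw [norm_sub_sq_real, inner_smul_right, norm_smul, mul_pow, Real.norm_eq_abs, sq_abs,
      real_inner_comm]
  have ht : 0 < t := hs.trans hst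
  have hts : t - s ≠ 0 := by linarith [sub_pos.2 hst] |> ne_of_gt
  rw [h1, h2]
  field_simp
  ring

theorem Gam_mul {c s t : ℝ} (hs : 0 < s) (hst : s < t) (x z : E4) :
    Gam c (t - s) (x - z) * Gam c s z =
      Gam c t x * (((s * (t - s)) / t) ^ 2)⁻¹ *
        Real.exp (-(c * (t / (s * (t - s))) * ‖z - (s / t) • x‖ ^ 2)) := by
  have ht : 0 < t := hs.trans hst
  have hts : 0 < t - s := sub_pos.2 hst
  unfold Gam
  have h1 : Real.exp (-(c * ‖x - z‖ ^ 2 / (t - s))) * Real.exp (-(c * ‖z‖ ^ 2 / s)) =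
      Real.exp (-(c * ‖x‖ ^ 2 / t)) *
        Real.exp (-(c * (t / (s * (t - s))) * ‖z - (s / t) • x‖ ^ 2)) := by
    rw [← Real.exp_add, ← Real.exp_add]
    congr 1
    have h := sq_split hs hst x z
    have h' : c * (‖x - z‖ ^ 2 / (t - s) + ‖z‖ ^ 2 / s) =
      c * (‖x‖ ^ 2 / t + t / (s * (t - s)) * ‖z - (s / t) • x‖ ^ 2) := by rw [h]
    linear_combination -h'
  calc ((t - s) ^ 2)⁻¹ * Real.exp (-(c * ‖x - z‖ ^ 2 / (t - s))) *
        ((s ^ 2)⁻¹ * Real.exp (-(c * ‖z‖ ^ 2 / s)))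
      = ((t - s) ^ 2)⁻¹ * (s ^ 2)⁻¹ *
        (Real.exp (-(c * ‖x - z‖ ^ 2 / (t - s))) * Real.exp (-(c * ‖z‖ ^ 2 / s))) := by ring
    _ = ((t - s) ^ 2)⁻¹ * (s ^ 2)⁻¹ * (Real.exp (-(c * ‖x‖ ^ 2 / t)) *
        Real.exp (-(c * (t / (s * (t - s))) * ‖z - (s / t) • x‖ ^ 2))) := by rw [h1]
    _ = _ := by
      field_simp

theorem Gam_conv_integrable {c s t : ℝ} (hc : 0 < c) (hs : 0 < s) (hst : s < t) (x : E4) :
    Integrable fun z : E4 => Gam c (t - s) (x - z) * Gam c s z := by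
  have ht : 0 < t := hs.trans hst
  have hts : 0 < t - s := sub_pos.2 hst
  simp only [Gam_mul hs hst]
  exact (gauss_integrable (by positivity) _).const_mul _

theorem Gam_conv {c s t : ℝ} (hc : 0 < c) (hs : 0 < s) (hst : s < t) (x : E4) :
    ∫ z : E4, Gam c (t - s) (x - z) * Gam c s z = (Real.pi / c) ^ 2 * Gam c t x := by
  have ht : 0 < t := hs.trans hst
  have hts : 0 < t - s := sub_pos.2 hst
  simp only [Gam_mul hs hst]
  rw [integral_const_mul, gauss_integral (by positivity)]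
  field_simp

theorem Gam_mul_self {c t : ℝ} (x : E4) :
    Gam c t x * Gam c t x = (t ^ 2)⁻¹ * Gam (2 * c) t x := by
  unfold Gam
  have : Real.exp (-(2 * c * ‖x‖ ^ 2 / t)) =
      Real.exp (-(c * ‖x‖ ^ 2 / t)) * Real.exp (-(c * ‖x‖ ^ 2 / t)) := by
    rw [← Real.exp_add]; congr 1; ring
  rw [this]; ring

end Crest.Agent.R249.HKLim_274
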