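import Crest.Agent.R249.HKLim1_274

/-!
# R249, PART C, leaf HK7 (helper274), part 2: scaled limits of convolutions and pairings

`SF a f f0` : `|f i t x| ≤ C t^a Gam c t x` on `(0,1]` and `t^{2-a} f i (tσ) (√t ξ) → f0 i σ ξ`.
`SK K K0`   : `|K i t x z| ≤ C Gam c t (x-z)` and `t² K i (tσ) (√t ξ) (√t ζ) → K0 i σ ξ ζ`.
`SF.star0`  : `SK K K0 → SF a f f0 → SF (a+1) (M.star0 K f) _`.
`pairing`   : `SF a f f0 → SF b g g0 → a + b = 2 → ∫ f g w` is bounded and converges.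
-/

set_option autoImplicit false
open scoped ContDiff
open MeasureTheory Set Metric Filter Topology
open Crest.Agent.R249.HK286

noncomputable section

namespace Crest.Agent.R249.HKLim_274

variable {ι : Type*}

theorem ub_bdd {f : ι → E4 → ℝ} (h : UB f) : ∃ C, 0 ≤ C ∧ ∀ i x, |f i x| ≤ C := by
  obtain ⟨C, hC⟩ := h.2 0
  refine ⟨|C|, abs_nonneg _, fun i x => ?_⟩
  have := hC i x
  rw [norm_iteratedFDeriv_zero, Real.norm_eq_abs] at this
  exact this.trans (le_abs_self _)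

theorem ub_cont {f : ι → E4 → ℝ} (h : UB f) (i : ι) : Continuous (f i) := (h.1 i).continuous

/-- scaled convergence of functions -/
structure SF (a : ℕ) (f f0 : ι → ℝ → E4 → ℝ) : Prop where
  meas : ∀ i, Measurable fun z : ℝ × E4 => f i z.1 z.2
  bd : ∃ C c : ℝ, 0 ≤ C ∧ 0 < c ∧ ∀ i, ∀ t ∈ Ioc (0 : ℝ) 1, ∀ x, |f i t x| ≤ C * t ^ a * Gam c t x
  lim : ∀ i, ∀ σ ∈ Ioc (0 : ℝ) 1, ∀ ξ,
    Tendsto (fun t : ℝ => t ^ 2 * (t ^ a)⁻¹ * f i (t * σ) (Real.sqrt t • ξ)) (𝓝[>] 0)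
      (𝓝 (f0 i σ ξ))

/-- scaled convergence of kernels -/
structure SK (K K0 : ι → ℝ → E4 → E4 → ℝ) : Prop where
  meas : ∀ i, Measurable fun z : ℝ × E4 × E4 => K i z.1 z.2.1 z.2.2
  bd : ∃ C c : ℝ, 0 ≤ C ∧ 0 < c ∧ ∀ i, ∀ t ∈ Ioc (0 : ℝ) 1, ∀ x z,
    |K i t x z| ≤ C * Gam c t (x - z)
  lim : ∀ i, ∀ σ ∈ Ioc (0 : ℝ) 1, ∀ ξ ζ,
    Tendsto (fun t : ℝ => t ^ 2 * K i (t * σ) (Real.sqrt t • ξ) (Real.sqrt t • ζ)) (𝓝[>] 0)
      (𝓝 (K0 i σ ξ ζ))

theorem ev_Ioc : ∀ᶠ t : ℝ in 𝓝[>] 0, t ∈ Ioc (0 : ℝ) 1 :=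
  Ioc_mem_nhdsGT one_pos

theorem mul_mem {t σ : ℝ} (ht : t ∈ Ioc (0 : ℝ) 1) (hσ : σ ∈ Ioc (0 : ℝ) 1) :
    t * σ ∈ Ioc (0 : ℝ) 1 :=
  ⟨mul_pos ht.1 hσ.1, mul_le_one₀ ht.2 hσ.1.le hσ.2⟩

theorem scaled_bd {a : ℕ} {f : ℝ → E4 → ℝ} {C c : ℝ}
    (h : ∀ t ∈ Ioc (0 : ℝ) 1, ∀ x, |f t x| ≤ C * t ^ a * Gam c t x) {t σ : ℝ}
    (ht : t ∈ Ioc (0 : ℝ) 1) (hσ : σ ∈ Ioc (0 : ℝ) 1) (ξ : E4) :
    |t ^ 2 * (t ^ a)⁻¹ * f (t * σ) (Real.sqrt t • ξ)| ≤ C * σ ^ a * Gam c σ ξ := by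
  have ht0 := ht.1
  have h1 := h (t * σ) (mul_mem ht hσ) (Real.sqrt t • ξ)
  rw [abs_mul, abs_of_pos (by positivity : 0 < t ^ 2 * (t ^ a)⁻¹)]
  calc t ^ 2 * (t ^ a)⁻¹ * |f (t * σ) (Real.sqrt t • ξ)|
      ≤ t ^ 2 * (t ^ a)⁻¹ * (C * (t * σ) ^ a * Gam c (t * σ) (Real.sqrt t • ξ)) := by gcongr
    _ = C * σ ^ a * (t ^ 2 * Gam c (t * σ) (Real.sqrt t • ξ)) := by
        rw [mul_pow]; field_simp
    _ = _ := by rw [Gam_scale ht0]

theorem scaled_bdK {K : ℝ → E4 → E4 → ℝ} {C c : ℝ}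
    (h : ∀ t ∈ Ioc (0 : ℝ) 1, ∀ x z, |K t x z| ≤ C * Gam c t (x - z)) {t σ : ℝ}
    (ht : t ∈ Ioc (0 : ℝ) 1) (hσ : σ ∈ Ioc (0 : ℝ) 1) (ξ ζ : E4) :
    |t ^ 2 * K (t * σ) (Real.sqrt t • ξ) (Real.sqrt t • ζ)| ≤ C * Gam c σ (ξ - ζ) := by
  have ht0 := ht.1
  have h1 := h (t * σ) (mul_mem ht hσ) (Real.sqrt t • ξ) (Real.sqrt t • ζ)
  rw [abs_mul, abs_of_pos (by positivity : 0 < t ^ 2)]
  calc t ^ 2 * |K (t * σ) (Real.sqrt t • ξ) (Real.sqrt t • ζ)|
      ≤ t ^ 2 * (C * Gam c (t * σ) (Real.sqrt t • ξ - Real.sqrt t • ζ)) := by gcongr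
    _ = C * (t ^ 2 * Gam c (t * σ) (Real.sqrt t • (ξ - ζ))) := by rw [smul_sub]; ring
    _ = _ := by rw [Gam_scale ht0]

theorem int_scale {t : ℝ} (ht : 0 < t) (g : E4 → ℝ) :
    ∫ z, g z = t ^ 2 * ∫ z, g (Real.sqrt t • z) := by
  rw [Measure.integral_comp_smul, finrank_euclideanSpace_fin, smul_eq_mul, ← mul_assoc]
  have h1 : Real.sqrt t ^ 4 = t ^ 2 := by
    calc Real.sqrt t ^ 4 = (Real.sqrt t ^ 2) ^ 2 := by ring
      _ = t ^ 2 := by rw [Real.sq_sqrt ht.le]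
  rw [h1, abs_of_pos (by positivity), mul_inv_cancel₀ (by positivity), one_mul]

theorem setint_scale {t σ : ℝ} (ht : 0 < t) (hσ : 0 ≤ σ) (F : ℝ → ℝ) :
    ∫ s in Ioo 0 (t * σ), F s = t * ∫ s in Ioo 0 σ, F (t * s) := by
  have h := intervalIntegral.smul_integral_comp_mul_left (a := 0) (b := σ) F t
  rw [mul_zero, intervalIntegral.integral_of_le hσ,
    intervalIntegral.integral_of_le (by positivity : 0 ≤ t * σ), integral_Ioc_eq_integral_Ioo,
    integral_Ioc_eq_integral_Ioo, smul_eq_mul] at h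
  exact h.symm

theorem w_tendsto {w : E4 → ℝ} (hw : Continuous w) (ζ : E4) :
    Tendsto (fun t : ℝ => w (Real.sqrt t • ζ)) (𝓝[>] 0) (𝓝 (w 0)) := by
  have h : Continuous fun t : ℝ => w (Real.sqrt t • ζ) :=
    hw.comp (Real.continuous_sqrt.smul continuous_const)
  have h1 := h.tendsto 0
  rw [Real.sqrt_zero, zero_smul] at h1
  exact h1.mono_left nhdsWithin_le_nhds

section conv

variable {M : Met ι} {K K0 : ι → ℝ → E4 → E4 → ℝ} {a : ℕ} {f f0 : ι → ℝ → E4 → ℝ}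

/-- common constants -/
theorem common (hK : SK K K0) (hf : SF a f f0) : ∃ C₁ C₂ c : ℝ, 0 ≤ C₁ ∧ 0 ≤ C₂ ∧ 0 < c ∧
    (∀ i, ∀ t ∈ Ioc (0 : ℝ) 1, ∀ x z, |K i t x z| ≤ C₁ * Gam c t (x - z)) ∧
    (∀ i, ∀ t ∈ Ioc (0 : ℝ) 1, ∀ x, |f i t x| ≤ C₂ * t ^ a * Gam c t x) := by
  obtain ⟨C₁, c₁, h1, h1', h1''⟩ := hK.bd
  obtain ⟨C₂, c₂, h2, h2', h2''⟩ := hf.bd
  refine ⟨C₁, C₂, min c₁ c₂, h1, h2, lt_min h1' h2', fun i t ht x z => ?_, fun i t ht x => ?_⟩
  · refine (h1'' i t ht x z).trans ?_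
    gcongr
    exact Gam_anti (min_le_left _ _) ht.1 _
  · refine (h2'' i t ht x).trans ?_
    have := ht.1
    gcongr
    exact Gam_anti (min_le_right _ _) ht.1 _

theorem inner_meas (hK : ∀ i, Measurable fun z : ℝ × E4 × E4 => K i z.1 z.2.1 z.2.2)
    (hf : ∀ i, Measurable fun z : ℝ × E4 => f i z.1 z.2) (i : ι) :
    StronglyMeasurable fun p : (ℝ × E4) × ℝ =>
      ∫ z, K i (p.1.1 - p.2) p.1.2 z * f i p.2 z * M.w i z := by
  have hw : Continuous (M.w i) := ub_cont M.ubw i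
  have : Measurable (fun q : ((ℝ × E4) × ℝ) × E4 =>
      K i (q.1.1.1 - q.1.2) q.1.1.2 q.2 * f i q.1.2 q.2 * M.w i q.2) := by
    have h1 : Measurable (fun q : ((ℝ × E4) × ℝ) × E4 => K i (q.1.1.1 - q.1.2) q.1.1.2 q.2) :=
      (hK i).comp (g := fun z : ℝ × E4 × E4 => K i z.1 z.2.1 z.2.2)
        (f := fun q : ((ℝ × E4) × ℝ) × E4 => (q.1.1.1 - q.1.2, q.1.1.2, q.2)) (by fun_prop)
    have h2 : Measurable (fun q : ((ℝ × E4) × ℝ) × E4 => f i q.1.2 q.2) :=
      (hf i).comp (g := fun z : ℝ × E4 => f i z.1 z.2)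
        (f := fun q : ((ℝ × E4) × ℝ) × E4 => (q.1.2, q.2)) (by fun_prop)
    have h3 : Measurable (fun q : ((ℝ × E4) × ℝ) × E4 => M.w i q.2) :=
      hw.measurable.comp measurable_snd
    exact (h1.mul h2).mul h3
  exact this.stronglyMeasurable.integral_prod_right'

theorem star0_meas (hK : ∀ i, Measurable fun z : ℝ × E4 × E4 => K i z.1 z.2.1 z.2.2)
    (hf : ∀ i, Measurable fun z : ℝ × E4 => f i z.1 z.2) (i : ι) :
    Measurable fun z : ℝ × E4 => M.star0 K f i z.1 z.2 := by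
  have h1 := inner_meas (M := M) hK hf i
  have h2 : ∀ z : ℝ × E4, M.star0 K f i z.1 z.2 = ∫ s, ({p : (ℝ × E4) × ℝ | 0 < p.2 ∧ p.2 < p.1.1}.indicator
      (fun p : (ℝ × E4) × ℝ => ∫ z, K i (p.1.1 - p.2) p.1.2 z * f i p.2 z * M.w i z)) (z, s) := by
    intro z
    unfold Met.star0
    rw [← integral_indicator measurableSet_Ioo]
    rfl
  simp only [h2]
  have h3 : MeasurableSet {p : (ℝ × E4) × ℝ | 0 < p.2 ∧ p.2 < p.1.1} :=
    (measurableSet_lt measurable_const measurable_snd).inter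
      (measurableSet_lt measurable_snd (measurable_fst.comp measurable_fst))
  exact (h1.indicator h3).integral_prod_right'.measurable

/-- pointwise bound of the inner integral -/
theorem inner_bd {k g : E4 → ℝ} {w : E4 → ℝ} {C₁ C₂ W c s t : ℝ} (hc : 0 < c) (hs : 0 < s)
    (hst : s < t) (x : E4)
    (hk : ∀ z, |k z| ≤ C₁ * Gam c (t - s) (x - z)) (hg : ∀ z, |g z| ≤ C₂ * Gam c s z)
    (hw : ∀ z, |w z| ≤ W) :
    |∫ z, k z * g z * w z| ≤ C₁ * C₂ * W * ((Real.pi / c) ^ 2 * Gam c t x) := by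
  have h1 : ∀ z, ‖k z * g z * w z‖ ≤ C₁ * C₂ * W * (Gam c (t - s) (x - z) * Gam c s z) := by
    intro z
    rw [Real.norm_eq_abs, abs_mul, abs_mul]
    have e1 := Gam_nonneg c (t - s) (x - z)
    have e2 := Gam_nonneg c s z
    calc |k z| * |g z| * |w z| ≤ (C₁ * Gam c (t - s) (x - z)) * (C₂ * Gam c s z) * W := by
          have e3 := (abs_nonneg (g z)).trans (hg z)
          have e4 := (abs_nonneg (k z)).trans (hk z)
          exact mul_le_mul (mul_le_mul (hk z) (hg z) (abs_nonneg _) e4) (hw z) (abs_nonneg _)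
            (mul_nonneg e4 e3)
      _ = _ := by ring
  have h2 := norm_integral_le_of_norm_le ((Gam_conv_integrable hc hs hst x).const_mul _)
    (Eventually.of_forall h1)
  rwa [integral_const_mul, Gam_conv hc hs hst, Real.norm_eq_abs] at h2

theorem SF.star0 (hK : SK K K0) (hf : SF a f f0) :
    SF (a + 1) (M.star0 K f)
      (fun i σ ξ => ∫ s in Ioo 0 σ, ∫ z, K0 i (σ - s) ξ z * f0 i s z * M.w i 0) := by
  obtain ⟨C₁, C₂, c, hC₁, hC₂, hc, hb1, hb2⟩ := common hK hf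
  obtain ⟨W, hW, hw⟩ := ub_bdd M.ubw
  refine ⟨star0_meas hK.meas hf.meas, ?_, ?_⟩
  · refine ⟨C₁ * C₂ * W * (Real.pi / c) ^ 2, c, by positivity, hc, fun i t ht x => ?_⟩
    have ht0 := ht.1
    have h1 : ∀ s ∈ Ioo (0 : ℝ) t, ‖∫ z, K i (t - s) x z * f i s z * M.w i z‖ ≤
        C₁ * (C₂ * t ^ a) * W * ((Real.pi / c) ^ 2 * Gam c t x) := by
      intro s hs
      have hs0 := hs.1
      rw [Real.norm_eq_abs]
      refine inner_bd hc hs.1 hs.2 x (fun z => hb1 i (t - s) ?_ x z) (fun z => ?_) (hw i)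
      · exact ⟨sub_pos.2 hs.2, by linarith [hs.1, ht.2]⟩
      · refine (hb2 i s ⟨hs.1, hs.2.le.trans ht.2⟩ z).trans ?_
        have := Gam_nonneg c s z
        have h3 : s ^ a ≤ t ^ a := pow_le_pow_left₀ hs.1.le hs.2.le a
        gcongr
    have h2 := norm_setIntegral_le_of_norm_le_const (μ := volume) (s := Ioo (0 : ℝ) t)
      measure_Ioo_lt_top h1
    rw [Real.norm_eq_abs] at h2
    unfold Met.star0
    refine h2.trans (le_of_eq ?_)
    rw [Measure.real, Real.volume_Ioo, sub_zero, ENNReal.toReal_ofReal ht0.le, pow_succ]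
    ring
  · intro i σ hσ ξ
    have hσ0 := hσ.1
    set Φ : ℝ → ℝ → ℝ := fun t s => ∫ ζ, (t ^ 2 * K i (t * (σ - s)) (Real.sqrt t • ξ)
        (Real.sqrt t • ζ)) * (t ^ 2 * (t ^ a)⁻¹ * f i (t * s) (Real.sqrt t • ζ)) *
        M.w i (Real.sqrt t • ζ) with hΦ
    have hEq : ∀ᶠ t : ℝ in 𝓝[>] 0, ∫ s in Ioo 0 σ, Φ t s =
        t ^ 2 * (t ^ (a + 1))⁻¹ * M.star0 K f i (t * σ) (Real.sqrt t • ξ) := by
      filter_upwards [self_mem_nhdsWithin] with t ht
      have ht0 : 0 < t := ht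
      unfold Met.star0
      rw [setint_scale ht0 hσ0.le, ← integral_const_mul, ← integral_const_mul]
      refine setIntegral_congr_fun measurableSet_Ioo fun s _ => ?_
      have hin := int_scale ht0 (fun z => K i (t * σ - t * s) (Real.sqrt t • ξ) z *
        f i (t * s) z * M.w i z)
      simp only [hΦ]
      rw [hin, ← integral_const_mul, ← integral_const_mul, ← integral_const_mul]
      refine integral_congr_ae (Eventually.of_forall fun ζ => ?_)
      rw [← mul_sub, pow_succ]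
      field_simp
      ring
    refine Tendsto.congr' hEq ?_
    -- outer dominated convergence
    have hsmem : ∀ s ∈ Ioo (0 : ℝ) σ, s ∈ Ioc (0 : ℝ) 1 ∧ σ - s ∈ Ioc (0 : ℝ) 1 := by
      intro s hs
      have h1 := hs.1
      have h2 := hs.2
      have h3 := hσ.2
      exact ⟨⟨h1, by linarith⟩, ⟨by linarith, by linarith⟩⟩
    refine tendsto_integral_filter_of_dominated_convergence
      (fun _ => C₁ * C₂ * W * ((Real.pi / c) ^ 2 * Gam c σ ξ)) ?_ ?_ ?_ ?_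
    · refine Eventually.of_forall fun t => ?_
      have hmm : Measurable fun q : ℝ × E4 => (t ^ 2 * K i (t * (σ - q.1)) (Real.sqrt t • ξ)
          (Real.sqrt t • q.2)) * (t ^ 2 * (t ^ a)⁻¹ * f i (t * q.1) (Real.sqrt t • q.2)) *
          M.w i (Real.sqrt t • q.2) := by
        have h1 : Measurable (fun q : ℝ × E4 => K i (t * (σ - q.1)) (Real.sqrt t • ξ)
            (Real.sqrt t • q.2)) :=
          (hK.meas i).comp (g := fun z : ℝ × E4 × E4 => K i z.1 z.2.1 z.2.2)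
            (f := fun q : ℝ × E4 => (t * (σ - q.1), Real.sqrt t • ξ, Real.sqrt t • q.2))
            (by fun_prop)
        have h2 : Measurable (fun q : ℝ × E4 => f i (t * q.1) (Real.sqrt t • q.2)) :=
          (hf.meas i).comp (g := fun z : ℝ × E4 => f i z.1 z.2)
            (f := fun q : ℝ × E4 => (t * q.1, Real.sqrt t • q.2)) (by fun_prop)
        have h3 : Measurable (fun q : ℝ × E4 => M.w i (Real.sqrt t • q.2)) :=
          (ub_cont M.ubw i).measurable.comp (by fun_prop)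
        exact ((h1.const_mul _).mul (h2.const_mul _)).mul h3
      exact hmm.stronglyMeasurable.integral_prod_right'.aestronglyMeasurable
    · filter_upwards [ev_Ioc] with t ht
      refine (ae_restrict_iff' measurableSet_Ioo).2 (Eventually.of_forall fun s hs => ?_)
      have h1 := hsmem s hs
      rw [Real.norm_eq_abs]
      refine inner_bd hc hs.1 hs.2 ξ (fun z => scaled_bdK (hb1 i) ht h1.2 ξ z) (fun z => ?_)
        (fun z => hw i _)
      refine (scaled_bd (hb2 i) ht h1.1 z).trans ?_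
      have h3 : s ^ a ≤ 1 := pow_le_one₀ hs.1.le h1.1.2
      have h4 := Gam_nonneg c s z
      calc C₂ * s ^ a * Gam c s z ≤ C₂ * 1 * Gam c s z := by gcongr
        _ = _ := by ring
    · exact integrableOn_const (by rw [Real.volume_Ioo]; exact ENNReal.ofReal_ne_top)
    · refine (ae_restrict_iff' measurableSet_Ioo).2 (Eventually.of_forall fun s hs => ?_)
      have h1 := hsmem s hs
      -- inner dominated convergence
      refine tendsto_integral_filter_of_dominated_convergence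
        (fun z => C₁ * (C₂ * s ^ a) * W * (Gam c (σ - s) (ξ - z) * Gam c s z)) ?_ ?_ ?_ ?_
      · refine Eventually.of_forall fun t => ?_
        have h1 : Measurable (fun z : E4 => K i (t * (σ - s)) (Real.sqrt t • ξ)
            (Real.sqrt t • z)) :=
          (hK.meas i).comp (g := fun z : ℝ × E4 × E4 => K i z.1 z.2.1 z.2.2)
            (f := fun z : E4 => (t * (σ - s), Real.sqrt t • ξ, Real.sqrt t • z))
            (by fun_prop)
        have h2 : Measurable (fun z : E4 => f i (t * s) (Real.sqrt t • z)) :=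
          (hf.meas i).comp (g := fun z : ℝ × E4 => f i z.1 z.2)
            (f := fun z : E4 => (t * s, Real.sqrt t • z)) (by fun_prop)
        have h3 : Measurable (fun z : E4 => M.w i (Real.sqrt t • z)) :=
          (ub_cont M.ubw i).measurable.comp (by fun_prop)
        exact (((h1.const_mul _).mul (h2.const_mul _)).mul h3).aestronglyMeasurable
      · filter_upwards [ev_Ioc] with t ht
        refine Eventually.of_forall fun z => ?_
        rw [Real.norm_eq_abs, abs_mul, abs_mul]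
        have e1 := scaled_bdK (hb1 i) ht h1.2 ξ z
        have e2 := scaled_bd (hb2 i) ht h1.1 z
        have e3 := (abs_nonneg _).trans e1
        have e4 := (abs_nonneg _).trans e2
        refine (mul_le_mul (mul_le_mul e1 e2 (abs_nonneg _) e3) (hw i _) (abs_nonneg _)
          (mul_nonneg e3 e4)).trans (le_of_eq ?_)
        ring
      · exact (Gam_conv_integrable hc hs.1 hs.2 ξ).const_mul _
      · refine Eventually.of_forall fun z => ?_
        exact ((hK.lim i (σ - s) h1.2 ξ z).mul (hf.lim i s h1.1 z)).mul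
          (w_tendsto (ub_cont M.ubw i) z)

end conv

/-- pairings of total order `2` -/
theorem pairing (M : Met ι) {a b : ℕ} {f f0 g g0 : ι → ℝ → E4 → ℝ} (hf : SF a f f0)
    (hg : SF b g g0) (hab : a + b = 2) :
    (∃ C : ℝ, ∀ i, ∀ t ∈ Ioc (0 : ℝ) 1, |∫ x, f i t x * g i t x * M.w i x| ≤ C) ∧
    ∀ i, Tendsto (fun t => ∫ x, f i t x * g i t x * M.w i x) (𝓝[>] 0)
      (𝓝 (∫ x, f0 i 1 x * g0 i 1 x * M.w i 0)) := by
  obtain ⟨C₁, c₁, hC₁, hc₁, hb1⟩ := hf.bd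
  obtain ⟨C₂, c₂, hC₂, hc₂, hb2⟩ := hg.bd
  obtain ⟨W, hW, hw⟩ := ub_bdd M.ubw
  have h1m : (1 : ℝ) ∈ Ioc (0 : ℝ) 1 := ⟨one_pos, le_rfl⟩
  set Φ : ι → ℝ → E4 → ℝ := fun i t x => (t ^ 2 * (t ^ a)⁻¹ * f i (t * 1) (Real.sqrt t • x)) *
    (t ^ 2 * (t ^ b)⁻¹ * g i (t * 1) (Real.sqrt t • x)) * M.w i (Real.sqrt t • x) with hΦ
  have hEq : ∀ i t, 0 < t → ∫ x, f i t x * g i t x * M.w i x = ∫ x, Φ i t x := by
    intro i t ht
    rw [int_scale ht, ← integral_const_mul]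
    refine integral_congr_ae (Eventually.of_forall fun x => ?_)
    simp only [hΦ, mul_one]
    have h1 : t ^ a * t ^ b = t ^ 2 := by rw [← pow_add, hab]
    have h2 : (t ^ a)⁻¹ * (t ^ b)⁻¹ = (t ^ 2)⁻¹ := by rw [← mul_inv, h1]
    calc t ^ 2 * (f i t (Real.sqrt t • x) * g i t (Real.sqrt t • x) * M.w i (Real.sqrt t • x))
        = (t ^ 2 * t ^ 2 * (t ^ 2)⁻¹) * (f i t (Real.sqrt t • x) * g i t (Real.sqrt t • x) *
          M.w i (Real.sqrt t • x)) := by
          rw [mul_assoc (t ^ 2), mul_inv_cancel₀ (by positivity), mul_one]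
      _ = _ := by rw [← h2]; ring
  set B : E4 → ℝ := fun x => C₁ * C₂ * W * Gam c₁ 1 x with hB
  have hBd : ∀ i, ∀ t ∈ Ioc (0 : ℝ) 1, ∀ x, ‖Φ i t x‖ ≤ B x := by
    intro i t ht x
    rw [Real.norm_eq_abs, abs_mul, abs_mul]
    have e1 := scaled_bd (hb1 i) ht h1m x
    have e2 := scaled_bd (hb2 i) ht h1m x
    rw [one_pow, show C₁ * (1 : ℝ) = C₁ from mul_one _] at e1
    rw [one_pow, show C₂ * (1 : ℝ) = C₂ from mul_one _] at e2
    have e5 : C₂ * Gam c₂ 1 x ≤ C₂ := by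
      have := Gam_le hc₂.le one_pos x
      rw [one_pow, inv_one] at this
      calc C₂ * Gam c₂ 1 x ≤ C₂ * 1 := by gcongr
        _ = C₂ := mul_one _
    have e3 := (abs_nonneg _).trans e1
    refine (mul_le_mul (mul_le_mul e1 (e2.trans e5) (abs_nonneg _) e3) (hw i _) (abs_nonneg _)
      (mul_nonneg e3 hC₂)).trans (le_of_eq ?_)
    simp only [hB]
    ring
  have hBi : Integrable B := by
    have h := Gam_integrable hc₁ one_pos (0 : E4)
    simp only [sub_zero] at h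
    exact h.const_mul _
  refine ⟨⟨∫ x, B x, fun i t ht => ?_⟩, fun i => ?_⟩
  · rw [hEq i t ht.1, ← Real.norm_eq_abs]
    exact norm_integral_le_of_norm_le hBi (Eventually.of_forall (hBd i t ht))
  · have h1 : ∀ᶠ t : ℝ in 𝓝[>] 0, ∫ x, Φ i t x = ∫ x, f i t x * g i t x * M.w i x := by
      filter_upwards [self_mem_nhdsWithin] with t ht
      exact (hEq i t ht).symm
    refine Tendsto.congr' h1 ?_
    refine tendsto_integral_filter_of_dominated_convergence B ?_ ?_ hBi ?_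
    · refine Eventually.of_forall fun t => ?_
      have h1 : Measurable (fun z : E4 => f i (t * 1) (Real.sqrt t • z)) :=
        (hf.meas i).comp (g := fun z : ℝ × E4 => f i z.1 z.2)
          (f := fun z : E4 => (t * 1, Real.sqrt t • z)) (by fun_prop)
      have h2 : Measurable (fun z : E4 => g i (t * 1) (Real.sqrt t • z)) :=
        (hg.meas i).comp (g := fun z : ℝ × E4 => g i z.1 z.2)
          (f := fun z : E4 => (t * 1, Real.sqrt t • z)) (by fun_prop)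
      have h3 : Measurable (fun z : E4 => M.w i (Real.sqrt t • z)) :=
        (ub_cont M.ubw i).measurable.comp (by fun_prop)
      exact (((h1.const_mul _).mul (h2.const_mul _)).mul h3).aestronglyMeasurable
    · filter_upwards [ev_Ioc] with t ht
      exact Eventually.of_forall (hBd i t ht)
    · refine Eventually.of_forall fun x => ?_
      exact ((hf.lim i 1 h1m x).mul (hg.lim i 1 h1m x)).mul (w_tendsto (ub_cont M.ubw i) x)

end Crest.Agent.R249.HKLim_274
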