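import Crest.Agent.R249.HKLim2_274

/-!
# R249, PART C, leaf HK7 (helper274), part 3: closure properties, the scalar parametrix, `tr aa`
-/

set_option autoImplicit false
open scoped ContDiff
open MeasureTheory Set Metric Filter Topology
open Crest.Agent.R249.HK286

noncomputable section

namespace Crest.Agent.R249.HKLim_274

variable {ι : Type*}

section closure

variable {a : ℕ} {f f0 g g0 : ι → ℝ → E4 → ℝ}

theorem SF.add (hf : SF a f f0) (hg : SF a g g0) :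
    SF a (fun i t x => f i t x + g i t x) (fun i t x => f0 i t x + g0 i t x) := by
  obtain ⟨C₁, c₁, h1, h1', h1''⟩ := hf.bd
  obtain ⟨C₂, c₂, h2, h2', h2''⟩ := hg.bd
  refine ⟨fun i => (hf.meas i).add (hg.meas i), ⟨C₁ + C₂, min c₁ c₂, by positivity,
    lt_min h1' h2', fun i t ht x => ?_⟩, fun i σ hσ ξ => ?_⟩
  · have e1 := h1'' i t ht x
    have e2 := h2'' i t ht x
    have e3 := Gam_anti (min_le_left c₁ c₂) ht.1 x
    have e4 := Gam_anti (min_le_right c₁ c₂) ht.1 x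
    have ht0 := ht.1
    calc |f i t x + g i t x| ≤ |f i t x| + |g i t x| := abs_add_le _ _
      _ ≤ C₁ * t ^ a * Gam c₁ t x + C₂ * t ^ a * Gam c₂ t x := add_le_add e1 e2
      _ ≤ C₁ * t ^ a * Gam (min c₁ c₂) t x + C₂ * t ^ a * Gam (min c₁ c₂) t x := by gcongr
      _ = _ := by ring
  · refine ((hf.lim i σ hσ ξ).add (hg.lim i σ hσ ξ)).congr fun t => ?_
    ring

theorem SF.zero : SF a (fun (_ : ι) _ _ => (0 : ℝ)) (fun _ _ _ => 0) := by
  refine ⟨fun i => measurable_const, ⟨0, 1, le_rfl, one_pos, fun i t ht x => ?_⟩,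
    fun i σ hσ ξ => ?_⟩
  · simp
  · simp

theorem SF.sum {κ : Type*} (s : Finset κ) {F F0 : κ → ι → ℝ → E4 → ℝ}
    (h : ∀ k ∈ s, SF a (F k) (F0 k)) :
    SF a (fun i t x => ∑ k ∈ s, F k i t x) (fun i t x => ∑ k ∈ s, F0 k i t x) := by
  classical
  induction s using Finset.induction_on with
  | empty => simpa using (SF.zero : SF a (fun (_ : ι) _ _ => (0 : ℝ)) _)
  | insert k s hk ih =>
    simp only [Finset.sum_insert hk]
    exact (h k (Finset.mem_insert_self _ _)).add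
      (ih fun j hj => h j (Finset.mem_insert_of_mem hj))

/-- multiplication by a bounded function of `x` -/
theorem SF.mul_ub (hf : SF a f f0) {φ : ι → E4 → ℝ} (hφ : UB φ) :
    SF a (fun i t x => f i t x * φ i x) (fun i t x => f0 i t x * φ i 0) := by
  obtain ⟨C₁, c₁, h1, h1', h1''⟩ := hf.bd
  obtain ⟨B, hB, hb⟩ := ub_bdd hφ
  refine ⟨fun i => (hf.meas i).mul ((ub_cont hφ i).measurable.comp measurable_snd),
    ⟨C₁ * B, c₁, by positivity, h1', fun i t ht x => ?_⟩, fun i σ hσ ξ => ?_⟩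
  · rw [abs_mul]
    have e1 := h1'' i t ht x
    calc |f i t x| * |φ i x| ≤ (C₁ * t ^ a * Gam c₁ t x) * B :=
          mul_le_mul e1 (hb i x) (abs_nonneg _) ((abs_nonneg _).trans e1)
      _ = _ := by ring
  · refine ((hf.lim i σ hσ ξ).mul (w_tendsto (ub_cont hφ i) ξ)).congr fun t => ?_
    ring

/-- multiplication by a function vanishing to second order -/
theorem SF.mul_quad (hf : SF a f f0) {φ φ0 : ι → E4 → ℝ} (hm : ∀ i, Measurable (φ i)) {B : ℝ}
    (hB : 0 ≤ B) (hb : ∀ i x, |φ i x| ≤ B * ‖x‖ ^ 2)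
    (hl : ∀ i ξ, Tendsto (fun t : ℝ => t⁻¹ * φ i (Real.sqrt t • ξ)) (𝓝[>] 0) (𝓝 (φ0 i ξ))) :
    SF (a + 1) (fun i t x => f i t x * φ i x) (fun i t x => f0 i t x * φ0 i x) := by
  obtain ⟨C₁, c₁, h1, h1', h1''⟩ := hf.bd
  refine ⟨fun i => (hf.meas i).mul ((hm i).comp measurable_snd),
    ⟨C₁ * B * (2 / c₁), c₁ / 2, by positivity, by positivity, fun i t ht x => ?_⟩,
    fun i σ hσ ξ => ?_⟩
  · rw [abs_mul]
    have e1 := h1'' i t ht x
    have ht0 := ht.1
    have e2 := sq_mul_Gam_le h1' ht0 x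
    calc |f i t x| * |φ i x| ≤ (C₁ * t ^ a * Gam c₁ t x) * (B * ‖x‖ ^ 2) :=
          mul_le_mul e1 (hb i x) (abs_nonneg _) ((abs_nonneg _).trans e1)
      _ = C₁ * B * t ^ a * (‖x‖ ^ 2 * Gam c₁ t x) := by ring
      _ ≤ C₁ * B * t ^ a * (2 / c₁ * t * Gam (c₁ / 2) t x) := by gcongr
      _ = _ := by rw [pow_succ t a]; ring
  · refine ((hf.lim i σ hσ ξ).mul (hl i ξ)).congr fun t => ?_
    rw [pow_succ t a, mul_inv]
    ring

theorem SF.congr (hf : SF a f f0) (hm : ∀ i, Measurable fun z : ℝ × E4 => g i z.1 z.2)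
    (h : ∀ i, ∀ t ∈ Ioc (0 : ℝ) 1, ∀ x, g i t x = f i t x) : SF a g f0 := by
  obtain ⟨C₁, c₁, h1, h1', h1''⟩ := hf.bd
  refine ⟨hm, ⟨C₁, c₁, h1, h1', fun i t ht x => by rw [h i t ht x]; exact h1'' i t ht x⟩,
    fun i σ hσ ξ => ?_⟩
  refine (hf.lim i σ hσ ξ).congr' ?_
  filter_upwards [ev_Ioc] with t ht
  rw [h i _ (mul_mem ht hσ)]

theorem SK.mul_ub {K K0 : ι → ℝ → E4 → E4 → ℝ} (hK : SK K K0) {φ : ι → E4 → ℝ} (hφ : UB φ) :
    SK (fun i t x z => K i t x z * φ i x) (fun i t x z => K0 i t x z * φ i 0) := by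
  obtain ⟨C₁, c₁, h1, h1', h1''⟩ := hK.bd
  obtain ⟨B, hB, hb⟩ := ub_bdd hφ
  refine ⟨fun i => (hK.meas i).mul ((ub_cont hφ i).measurable.comp
    (measurable_fst.comp measurable_snd)),
    ⟨C₁ * B, c₁, by positivity, h1', fun i t ht x z => ?_⟩, fun i σ hσ ξ ζ => ?_⟩
  · rw [abs_mul]
    have e1 := h1'' i t ht x z
    calc |K i t x z| * |φ i x| ≤ (C₁ * Gam c₁ t (x - z)) * B :=
          mul_le_mul e1 (hb i x) (abs_nonneg _) ((abs_nonneg _).trans e1)
      _ = _ := by ring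
  · refine ((hK.lim i σ hσ ξ ζ).mul (w_tendsto (ub_cont hφ i) ξ)).congr fun t => ?_
    ring

end closure

/-! ### the scalar parametrix -/

section HH

variable {M : Met ι} {R : ℝ}

theorem Cut.R_pos (c : Cut R) : 0 < R := by
  by_contra h
  push Not at h
  have h1 := c.one 0 0 (by simp)
  have h2 := c.zero 0 0 (by simp; linarith)
  rw [h1] at h2
  exact one_ne_zero h2

theorem Cut.at_zero (c : Cut R) (m : ℕ) : c.ps m 0 = 1 := by
  have := Cut.R_pos c
  exact c.one m 0 (by rw [norm_zero]; positivity)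

variable (M) in
/-- the frozen quadratic form -/
def q0 (i : ι) (v : E4) : ℝ := ∑ a, ∑ b, M.g i a b 0 * v a * v b

variable (M) in
/-- the frozen Gaussian -/
def gam (i : ι) (σ : ℝ) (v : E4) : ℝ := ((4 * Real.pi * σ) ^ 2)⁻¹ * Real.exp (-(q0 M i v / (4 * σ)))

theorem rho_ge : ∃ c : ℝ, 0 < c ∧ ∀ i x z, c * ‖x - z‖ ^ 2 ≤ M.rho i x z := by
  obtain ⟨c, hc, h⟩ := M.ell
  refine ⟨c, hc, fun i x z => ?_⟩
  have h1 := h i x fun a => x a - z a
  have h2 := h i z fun a => x a - z a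
  have h3 : ‖x - z‖ ^ 2 = ∑ a, (x a - z a) ^ 2 := by
    rw [EuclideanSpace.real_norm_sq_eq]
    rfl
  unfold Met.rho
  have h4 : ∑ a, ∑ b, (M.g i a b x + M.g i a b z) * (x a - z a) * (x b - z b) =
      ∑ a, ∑ b, M.g i a b x * (x a - z a) * (x b - z b) +
      ∑ a, ∑ b, M.g i a b z * (x a - z a) * (x b - z b) := by
    rw [← Finset.sum_add_distrib]
    refine Finset.sum_congr rfl fun a _ => ?_
    rw [← Finset.sum_add_distrib]
    refine Finset.sum_congr rfl fun b _ => ?_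
    ring
  rw [h4, h3]
  linarith

theorem GG_nonneg (i : ι) (t : ℝ) (x z : E4) : 0 ≤ M.GG i t x z := by
  unfold Met.GG; positivity

theorem GG_bd : ∃ c : ℝ, 0 < c ∧ ∀ i, ∀ t : ℝ, 0 < t → ∀ x z, M.GG i t x z ≤ Gam c t (x - z) := by
  obtain ⟨c, hc, h⟩ := rho_ge (M := M)
  refine ⟨c / 4, by positivity, fun i t ht x z => ?_⟩
  unfold Met.GG Gam
  have h1 : ((4 * Real.pi * t) ^ 2)⁻¹ ≤ (t ^ 2)⁻¹ := by
    have h2 : 1 ≤ 4 * Real.pi := by linarith [Real.pi_gt_three]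
    have h3 : t ^ 2 ≤ (4 * Real.pi * t) ^ 2 := by
      have : t ≤ 4 * Real.pi * t := by nlinarith
      gcongr
    exact inv_anti₀ (by positivity) h3
  have h4 : Real.exp (-(M.rho i x z / (4 * t))) ≤ Real.exp (-(c / 4 * ‖x - z‖ ^ 2 / t)) := by
    refine Real.exp_le_exp.2 (neg_le_neg ?_)
    rw [div_le_div_iff₀ ht (by positivity)]
    have := h i x z
    nlinarith
  gcongr

theorem rho_cont (i : ι) : Continuous fun z : E4 × E4 => M.rho i z.1 z.2 := by
  have hg : ∀ a b, Continuous (M.g i a b) := fun a b => ub_cont (M.ubg a b) i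
  unfold Met.rho
  refine continuous_const.mul (continuous_finsetSum _ fun a _ => continuous_finsetSum _ fun b _ => ?_)
  have h1 : Continuous fun z : E4 × E4 => M.g i a b z.1 := (hg a b).comp continuous_fst
  have h2 : Continuous fun z : E4 × E4 => M.g i a b z.2 := (hg a b).comp continuous_snd
  fun_prop

theorem GG_meas (i : ι) : Measurable fun z : ℝ × E4 × E4 => M.GG i z.1 z.2.1 z.2.2 := by
  have h1 : Measurable fun z : ℝ × E4 × E4 => M.rho i z.2.1 z.2.2 :=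
    (rho_cont i).measurable.comp measurable_snd
  unfold Met.GG
  fun_prop

theorem HH_meas (c : Cut R) (m : ℕ) (i : ι) :
    Measurable fun z : ℝ × E4 × E4 => M.HH c m i z.1 z.2.1 z.2.2 := by
  have h1 := GG_meas (M := M) i
  have h2 : Measurable fun z : ℝ × E4 × E4 => c.ps m z.2.1 :=
    (c.smooth m).continuous.measurable.comp (measurable_fst.comp measurable_snd)
  unfold Met.HH
  exact h2.mul h1

theorem HH_bd (c : Cut R) : ∃ c' : ℝ, 0 < c' ∧ ∀ m i, ∀ t : ℝ, 0 < t → ∀ x z,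
    |M.HH c m i t x z| ≤ Gam c' t (x - z) := by
  obtain ⟨c', hc', h⟩ := GG_bd (M := M)
  refine ⟨c', hc', fun m i t ht x z => ?_⟩
  unfold Met.HH
  rw [abs_mul, abs_of_nonneg (c.mem m x).1, abs_of_nonneg (GG_nonneg i t x z)]
  calc c.ps m x * M.GG i t x z ≤ 1 * M.GG i t x z :=
        mul_le_mul_of_nonneg_right (c.mem m x).2 (GG_nonneg i t x z)
    _ ≤ _ := by rw [one_mul]; exact h i t ht x z

theorem rho_scale {t : ℝ} (ht : 0 ≤ t) (i : ι) (ξ ζ : E4) :
    M.rho i (Real.sqrt t • ξ) (Real.sqrt t • ζ) = t * (1 / 2 * ∑ a, ∑ b,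
      (M.g i a b (Real.sqrt t • ξ) + M.g i a b (Real.sqrt t • ζ)) * (ξ a - ζ a) * (ξ b - ζ b)) := by
  unfold Met.rho
  rw [mul_left_comm t, Finset.mul_sum (Finset.univ) _ t]
  congr 1
  refine Finset.sum_congr rfl fun a _ => ?_
  rw [Finset.mul_sum]
  refine Finset.sum_congr rfl fun b _ => ?_
  have h : Real.sqrt t * Real.sqrt t = t := Real.mul_self_sqrt ht
  simp only [PiLp.smul_apply, smul_eq_mul]
  calc _ = (Real.sqrt t * Real.sqrt t) * ((M.g i a b (Real.sqrt t • ξ) +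
        M.g i a b (Real.sqrt t • ζ)) * (ξ a - ζ a) * (ξ b - ζ b)) := by ring
    _ = _ := by rw [h]

theorem SK_HH (c : Cut R) (m : ℕ) :
    SK (M.HH c m) (fun i σ ξ ζ => gam M i σ (ξ - ζ)) := by
  obtain ⟨c', hc', h⟩ := HH_bd (M := M) c
  refine ⟨fun i => HH_meas c m i, ⟨1, c', zero_le_one, hc', fun i t ht x z => ?_⟩,
    fun i σ hσ ξ ζ => ?_⟩
  · rw [one_mul]
    exact h m i t ht.1 x z
  · have hσ0 := hσ.1
    have h1 : Tendsto (fun t : ℝ => c.ps m (Real.sqrt t • ξ) * (((4 * Real.pi * σ) ^ 2)⁻¹ *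
        Real.exp (-((1 / 2 * ∑ a, ∑ b, (M.g i a b (Real.sqrt t • ξ) +
          M.g i a b (Real.sqrt t • ζ)) * (ξ a - ζ a) * (ξ b - ζ b)) / (4 * σ))))) (𝓝[>] 0)
        (𝓝 (1 * (((4 * Real.pi * σ) ^ 2)⁻¹ *
        Real.exp (-((1 / 2 * ∑ a, ∑ b, (M.g i a b 0 +
          M.g i a b 0) * (ξ a - ζ a) * (ξ b - ζ b)) / (4 * σ)))))) := by
      have e1 := w_tendsto (c.smooth m).continuous ξ
      rw [Cut.at_zero c m] at e1
      refine e1.mul (tendsto_const_nhds.mul ?_)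
      refine (Real.continuous_exp.tendsto _).comp ?_
      refine Tendsto.neg (Tendsto.div_const (tendsto_const_nhds.mul ?_) _)
      refine tendsto_finsetSum _ fun a _ => tendsto_finsetSum _ fun b _ => ?_
      refine Tendsto.mul_const _ (Tendsto.mul_const _ ?_)
      exact (w_tendsto (ub_cont (M.ubg a b) i) ξ).add (w_tendsto (ub_cont (M.ubg a b) i) ζ)
    have h2 : 1 * (((4 * Real.pi * σ) ^ 2)⁻¹ *
        Real.exp (-((1 / 2 * ∑ a, ∑ b, (M.g i a b 0 +
          M.g i a b 0) * (ξ a - ζ a) * (ξ b - ζ b)) / (4 * σ)))) = gam M i σ (ξ - ζ) := by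
      unfold gam q0
      rw [one_mul]
      congr 3
      rw [Finset.mul_sum]
      congr 1
      refine Finset.sum_congr rfl fun a _ => ?_
      rw [Finset.mul_sum]
      refine Finset.sum_congr rfl fun b _ => ?_
      simp only [PiLp.sub_apply]
      ring
    rw [h2] at h1
    refine h1.congr' ?_
    filter_upwards [self_mem_nhdsWithin] with t ht
    have ht0 : 0 < t := ht
    unfold Met.HH Met.GG
    rw [rho_scale ht0.le]
    set r : ℝ := 1 / 2 * ∑ a, ∑ b, (M.g i a b (Real.sqrt t • ξ) + M.g i a b (Real.sqrt t • ζ)) *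
      (ξ a - ζ a) * (ξ b - ζ b)
    have e1 : t * r / (4 * (t * σ)) = r / (4 * σ) := by
      rw [show 4 * (t * σ) = t * (4 * σ) by ring, mul_div_mul_left _ _ ht0.ne']
    have e2 : ((4 * Real.pi * (t * σ)) ^ 2)⁻¹ = (t ^ 2)⁻¹ * ((4 * Real.pi * σ) ^ 2)⁻¹ := by
      rw [← mul_inv]; congr 1; ring
    rw [e1, e2]
    have e3 : t ^ 2 * (t ^ 2)⁻¹ = 1 := mul_inv_cancel₀ (by positivity)
    calc _ = (t ^ 2 * (t ^ 2)⁻¹) * (c.ps m (Real.sqrt t • ξ) * (((4 * Real.pi * σ) ^ 2)⁻¹ *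
        Real.exp (-(r / (4 * σ))))) := by rw [e3, one_mul]
      _ = _ := by ring

theorem SF_HH (c : Cut R) (m : ℕ) :
    SF 0 (fun i t x => M.HH c m i t x 0) (fun i σ ξ => gam M i σ ξ) := by
  have h := SK_HH (M := M) c m
  obtain ⟨C, c', hC, hc', hb⟩ := h.bd
  refine ⟨fun i => ?_, ⟨C, c', hC, hc', fun i t ht x => ?_⟩, fun i σ hσ ξ => ?_⟩
  · exact (HH_meas c m i).comp (g := fun z : ℝ × E4 × E4 => M.HH c m i z.1 z.2.1 z.2.2)
      (f := fun z : ℝ × E4 => (z.1, z.2, (0 : E4))) (by fun_prop)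
  · have := hb i t ht x 0
    rwa [sub_zero, ← mul_one C, ← pow_zero t] at this
  · have := h.lim i σ hσ ξ 0
    simp only [smul_zero, sub_zero] at this
    simpa using this

end HH

end Crest.Agent.R249.HKLim_274
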