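import Crest.Agent.R249.HKLim3_274

/-!
# R249, PART C, leaf HK7 (helper274), part 4: Gaussian integrals of the frozen metric
-/

set_option autoImplicit false
open scoped ContDiff
open MeasureTheory Set Metric Filter Topology
open Crest.Agent.R249.HK286

noncomputable section

namespace Crest.Agent.R249.HKLim_274

open scoped MatrixOrder in
theorem exists_factor {A : Matrix (Fin 4) (Fin 4) ℝ} (hA : A.PosSemidef) :
    ∃ B : Matrix (Fin 4) (Fin 4) ℝ, A = B.transpose * B := by
  obtain ⟨B, hB⟩ := CStarAlgebra.nonneg_iff_eq_star_mul_self.mp hA.nonneg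
  refine ⟨B, ?_⟩
  rw [hB]
  congr 1

variable {ι : Type*} (M : Met ι)

/-- the frozen bilinear form -/
def b0 (i : ι) (v w : E4) : ℝ := ∑ a, ∑ b, M.g i a b 0 * v a * w b

theorem q0_eq (i : ι) (v : E4) : q0 M i v = b0 M i v v := rfl

theorem w_pos (i : ι) (x : E4) : 0 < M.w i x := by
  obtain ⟨c, hc, h⟩ := M.wpos
  exact hc.trans_le (h i x)

/-- a square root of the frozen metric -/
theorem exists_L (i : ι) : ∃ L : E4 →ₗ[ℝ] E4,
    (∀ v w, inner ℝ (L v) (L w) = b0 M i v w) ∧ |LinearMap.det L| = M.w i 0 := by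
  set A : Matrix (Fin 4) (Fin 4) ℝ := Matrix.of fun a b => M.g i a b 0 with hA
  obtain ⟨c, hc, hell⟩ := M.ell
  have hpos : A.PosSemidef := by
    refine Matrix.PosSemidef.of_dotProduct_mulVec_nonneg ?_ fun x => ?_
    · ext a b
      simp only [Matrix.conjTranspose_apply, hA, Matrix.of_apply, star_trivial]
      exact M.gsymm i b a 0
    · have h1 := hell i 0 x
      have h2 : (0 : ℝ) ≤ c * ∑ a, x a ^ 2 := by positivity
      refine (h2.trans h1).trans (le_of_eq ?_)
      simp only [dotProduct, Matrix.mulVec, star_trivial, Finset.mul_sum, hA, Matrix.of_apply,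
        Pi.star_apply]
      refine Finset.sum_congr rfl fun a _ => Finset.sum_congr rfl fun b _ => ?_
      ring
  obtain ⟨B, hB⟩ := exists_factor hpos
  refine ⟨Matrix.toEuclideanLin B, fun v w => ?_, ?_⟩
  · have h1 : ∀ v : E4, ∀ a, (Matrix.toEuclideanLin B v) a = ∑ b, B a b * v b := fun v a => rfl
    have h2 : ∀ a b, M.g i a b 0 = ∑ c, B c a * B c b := by
      intro a b
      have : A a b = (B.transpose * B) a b := by rw [← hB]
      rw [Matrix.mul_apply] at this
      exact this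
    rw [PiLp.inner_apply]
    unfold b0
    simp only [h1, h2, RCLike.inner_apply, conj_trivial, Finset.sum_mul, Finset.mul_sum]
    calc ∑ c, ∑ a, ∑ b, B c b * w b * (B c a * v a)
        = ∑ c, ∑ a, ∑ b, B c a * B c b * v a * w b := by
          refine Finset.sum_congr rfl fun c _ => ?_
          refine Finset.sum_congr rfl fun a _ => Finset.sum_congr rfl fun b _ => ?_
          ring
      _ = ∑ a, ∑ c, ∑ b, B c a * B c b * v a * w b := Finset.sum_comm
      _ = ∑ a, ∑ b, ∑ c, B c a * B c b * v a * w b :=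
          Finset.sum_congr rfl fun a _ => Finset.sum_comm
  · have h1 : LinearMap.det (Matrix.toEuclideanLin B : E4 →ₗ[ℝ] E4) = B.det := by
      rw [Matrix.toEuclideanLin_eq_toLin_orthonormal, LinearMap.det_toLin]
    have h2 : M.w i 0 ^ 2 = B.det ^ 2 := by
      rw [M.wdet i 0, ← hA, hB, Matrix.det_mul, Matrix.det_transpose, sq]
    rw [h1]
    have h3 := (sq_eq_sq_iff_abs_eq_abs _ _).1 h2
    rw [← h3, abs_of_pos (w_pos M i 0)]

/-- linear change of variables -/
theorem chg {L : E4 →ₗ[ℝ] E4} (hL : LinearMap.det L ≠ 0) (F : E4 → ℝ) :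
    (∫ v, F (L v)) * |LinearMap.det L| = ∫ v, F v := by
  set e : E4 ≃ₗ[ℝ] E4 := LinearEquiv.ofIsUnitDet (f := L) (v := (EuclideanSpace.basisFun (Fin 4) ℝ).toBasis)
    (v' := (EuclideanSpace.basisFun (Fin 4) ℝ).toBasis) (by
      rw [LinearMap.det_toMatrix]
      exact isUnit_iff_ne_zero.2 hL) with he
  have h1 : ∀ v, e v = L v := fun v => rfl
  have h2 : Measure.map L (volume : Measure E4) =
      ENNReal.ofReal |(LinearMap.det L)⁻¹| • (volume : Measure E4) :=
    Measure.map_linearMap_addHaar_eq_smul_addHaar _ hL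
  have h3 : ∫ v, F (L v) = ∫ y, F y ∂(Measure.map L (volume : Measure E4)) := by
    have hme : MeasurableEmbedding (L : E4 → E4) :=
      e.toContinuousLinearEquiv.toHomeomorph.measurableEmbedding
    exact (hme.integral_map F).symm
  rw [h3, h2, integral_smul_measure, ENNReal.toReal_ofReal (abs_nonneg _), smul_eq_mul,
    abs_inv]
  have h4 : |LinearMap.det L| ≠ 0 := abs_ne_zero.2 hL
  field_simp

variable {M}

section withL

variable {i : ι} {L : E4 →ₗ[ℝ] E4} (hL : ∀ v w, inner ℝ (L v) (L w) = b0 M i v w)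
  (hdet : |LinearMap.det L| = M.w i 0)

include hL in
theorem q0_L (v : E4) : q0 M i v = ‖L v‖ ^ 2 := by
  rw [q0_eq, ← hL, real_inner_self_eq_norm_sq]

include hL in
theorem gam_L (σ : ℝ) (v : E4) : gam M i σ v = ((4 * Real.pi) ^ 2)⁻¹ * Gam (1 / 4) σ (L v) := by
  unfold gam Gam
  rw [q0_L hL]
  have e1 : -(1 / 4 * ‖L v‖ ^ 2 / σ) = -(‖L v‖ ^ 2 / (4 * σ)) := by
    rw [neg_inj]
    by_cases h : σ = 0
    · subst h; simp
    · field_simp
  rw [e1, mul_pow (4 * Real.pi) σ, mul_inv]
  ring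

include hdet in
theorem det_ne : LinearMap.det L ≠ 0 := by
  intro h
  rw [h, abs_zero] at hdet
  exact (w_pos M i 0).ne hdet

end withL

theorem gam_nonneg (i : ι) (σ : ℝ) (v : E4) : 0 ≤ gam M i σ v := by
  unfold gam; positivity

theorem gam_cont (i : ι) (σ : ℝ) : Continuous (gam M i σ) := by
  unfold gam q0; fun_prop

/-- total mass -/
theorem gam_integral (i : ι) {σ : ℝ} (hσ : 0 < σ) : (∫ v, gam M i σ v) * M.w i 0 = 1 := by
  obtain ⟨L, hL, hdet⟩ := exists_L M i
  simp only [gam_L hL]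
  rw [← hdet, chg (det_ne hdet) (fun v => ((4 * Real.pi) ^ 2)⁻¹ * Gam (1 / 4) σ v),
    integral_const_mul]
  have h := Gam_integral (c := 1 / 4) (by norm_num) hσ (0 : E4)
  simp only [sub_zero] at h
  rw [h]
  have : Real.pi / (1 / 4) = 4 * Real.pi := by ring
  rw [this, inv_mul_cancel₀]
  have := Real.pi_pos
  positivity

/-- domination -/
theorem gam_le (i : ι) : ∃ c : ℝ, 0 < c ∧ ∀ σ : ℝ, 0 < σ → ∀ v, gam M i σ v ≤ Gam c σ v := by
  obtain ⟨c, hc, hell⟩ := M.ell
  refine ⟨c / 4, by positivity, fun σ hσ v => ?_⟩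
  unfold gam Gam
  have h1 : ((4 * Real.pi * σ) ^ 2)⁻¹ ≤ (σ ^ 2)⁻¹ := by
    have h2 : 1 ≤ 4 * Real.pi := by linarith [Real.pi_gt_three]
    have h3 : σ ^ 2 ≤ (4 * Real.pi * σ) ^ 2 := by
      have : σ ≤ 4 * Real.pi * σ := by nlinarith
      gcongr
    exact inv_anti₀ (by positivity) h3
  have h5 : c * ‖v‖ ^ 2 ≤ q0 M i v := by
    have := hell i 0 fun a => v a
    rw [EuclideanSpace.real_norm_sq_eq]
    exact this
  have h4 : Real.exp (-(q0 M i v / (4 * σ))) ≤ Real.exp (-(c / 4 * ‖v‖ ^ 2 / σ)) := by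
    refine Real.exp_le_exp.2 (neg_le_neg ?_)
    rw [div_le_div_iff₀ hσ (by positivity)]
    nlinarith
  gcongr

theorem gam_integrable (i : ι) {σ : ℝ} (hσ : 0 < σ) : Integrable (gam M i σ) := by
  obtain ⟨c, hc, h⟩ := gam_le (M := M) i
  have h1 := Gam_integrable hc hσ (0 : E4)
  simp only [sub_zero] at h1
  refine h1.mono' (gam_cont i σ).aestronglyMeasurable (Eventually.of_forall fun v => ?_)
  rw [Real.norm_eq_abs, abs_of_nonneg (gam_nonneg i σ v)]
  exact h σ hσ v

/-- functions of quadratic growth are integrable against `gam` -/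
theorem quad_integrable (i : ι) {σ : ℝ} (hσ : 0 < σ) {F : E4 → ℝ} (hF : Continuous F) {A B : ℝ}
    (hA : 0 ≤ A) (hB : 0 ≤ B) (hb : ∀ v, |F v| ≤ A + B * ‖v‖ ^ 2) :
    Integrable fun v => F v * gam M i σ v := by
  obtain ⟨c, hc, h⟩ := gam_le (M := M) i
  have h1 := Gam_integrable hc hσ (0 : E4)
  have h2 := Gam_integrable (c := c / 2) (by positivity) hσ (0 : E4)
  simp only [sub_zero] at h1 h2
  refine ((h1.const_mul A).add (h2.const_mul (B * (2 / c * σ)))).mono'
    (hF.mul (gam_cont i σ)).aestronglyMeasurable (Eventually.of_forall fun v => ?_)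
  rw [Real.norm_eq_abs, abs_mul, abs_of_nonneg (gam_nonneg i σ v)]
  have e1 := sq_mul_Gam_le hc hσ v
  have e2 := h σ hσ v
  have e3 := gam_nonneg (M := M) i σ v
  simp only [Pi.add_apply]
  calc |F v| * gam M i σ v ≤ (A + B * ‖v‖ ^ 2) * Gam c σ v := by
        exact mul_le_mul (hb v) e2 e3 (by positivity)
    _ = A * Gam c σ v + B * (‖v‖ ^ 2 * Gam c σ v) := by ring
    _ ≤ A * Gam c σ v + B * (2 / c * σ * Gam (c / 2) σ v) := by gcongr
    _ = _ := by ring

theorem coord_le (v : E4) (a : Fin 4) : |v a| ≤ ‖v‖ := by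
  have := PiLp.norm_apply_le v a
  rwa [Real.norm_eq_abs] at this

theorem coord2_integrable (i : ι) {σ : ℝ} (hσ : 0 < σ) (a b : Fin 4) :
    Integrable fun v : E4 => v a * v b * gam M i σ v := by
  refine quad_integrable i hσ (by fun_prop) (A := 0) (B := 1) le_rfl zero_le_one fun v => ?_
  rw [abs_mul, zero_add, one_mul, sq]
  exact mul_le_mul (coord_le v a) (coord_le v b) (abs_nonneg _) (norm_nonneg _)

theorem coord_integrable (i : ι) {σ : ℝ} (hσ : 0 < σ) (a : Fin 4) :
    Integrable fun v : E4 => v a * gam M i σ v := by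
  refine quad_integrable i hσ (by fun_prop) (A := 1) (B := 1) zero_le_one zero_le_one fun v => ?_
  have h1 := coord_le v a
  have h2 := sq_nonneg (‖v‖ - 1)
  have h3 := norm_nonneg v
  nlinarith

theorem gam_neg (i : ι) (σ : ℝ) (v : E4) : gam M i σ (-v) = gam M i σ v := by
  unfold gam q0
  congr 4
  refine Finset.sum_congr rfl fun a _ => Finset.sum_congr rfl fun b _ => ?_
  simp only [PiLp.neg_apply]
  ring

/-- odd moments -/
theorem gam_odd (i : ι) (σ : ℝ) (a : Fin 4) : ∫ v : E4, v a * gam M i σ v = 0 := by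
  have h1 := integral_neg_eq_self (fun v : E4 => v a * gam M i σ v) (volume : Measure E4)
  have h2 : ∀ v : E4, (-v) a * gam M i σ (-v) = -(v a * gam M i σ v) := by
    intro v
    rw [gam_neg, PiLp.neg_apply]
    ring
  simp only [h2] at h1
  rw [integral_neg] at h1
  linarith

/-- derivative of the Gaussian -/
theorem gam_fderiv (i : ι) (σ : ℝ) (v : E4) (l : Fin 4) :
    DifferentiableAt ℝ (gam M i σ) v ∧
    fderiv ℝ (gam M i σ) v (EuclideanSpace.single l 1) =
      -((2 * σ)⁻¹ * ∑ b, M.g i l b 0 * v b) * gam M i σ v := by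
  obtain ⟨L, hL, hdet⟩ := exists_L M i
  have h1 : HasFDerivAt (fun v : E4 => q0 M i v)
      (2 • (innerSL ℝ (L v)).comp (LinearMap.toContinuousLinearMap L)) v := by
    have h0 : HasFDerivAt (fun v : E4 => L v) (LinearMap.toContinuousLinearMap L) v :=
      (LinearMap.toContinuousLinearMap L).hasFDerivAt
    have := h0.norm_sq
    refine this.congr_of_eventuallyEq (Eventually.of_forall fun w => ?_)
    exact q0_L hL w
  have h3 := ((h1.const_mul ((4 * σ)⁻¹)).neg.exp).const_mul (((4 * Real.pi * σ) ^ 2)⁻¹)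
  have h4 : gam M i σ = fun v => ((4 * Real.pi * σ) ^ 2)⁻¹ *
      Real.exp (-((4 * σ)⁻¹ * q0 M i v)) := by
    funext w
    unfold gam
    rw [div_eq_inv_mul]
  rw [h4]
  refine ⟨h3.differentiableAt, ?_⟩
  have h6 : fderiv ℝ (fun v => ((4 * Real.pi * σ) ^ 2)⁻¹ *
      Real.exp (-((4 * σ)⁻¹ * q0 M i v))) v = _ := h3.fderiv
  rw [h6]
  have h5 : inner ℝ (L v) (L (EuclideanSpace.single l 1)) = ∑ b, M.g i l b 0 * v b := by
    rw [hL]
    unfold b0
    refine Finset.sum_congr rfl fun a _ => ?_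
    rw [Finset.sum_eq_single l]
    · rw [PiLp.single_apply, if_pos rfl, mul_one, M.gsymm]
    · intro b _ hb
      rw [PiLp.single_apply, if_neg hb, mul_zero]
    · intro h; exact absurd (Finset.mem_univ _) h
  simp only [ContinuousLinearMap.smul_apply, ContinuousLinearMap.neg_apply, smul_eq_mul,
    ContinuousLinearMap.comp_apply, innerSL_apply_apply, LinearMap.coe_toContinuousLinearMap', h5,
    nsmul_eq_mul, Nat.cast_ofNat, Pi.neg_apply]
  by_cases h : σ = 0
  · subst h; simp
  · field_simp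
    ring

/-- second moments -/
theorem gam_moment (i : ι) {σ : ℝ} (hσ : 0 < σ) (k m : Fin 4) :
    (∫ v : E4, v k * v m * gam M i σ v) * M.w i 0 = 2 * σ * M.h i k m 0 := by
  have hI := gam_integral (M := M) i hσ
  -- integration by parts
  have key : ∀ l, ∑ b, M.g i l b 0 * ∫ v : E4, v m * v b * gam M i σ v =
      if l = m then 2 * σ * ∫ v, gam M i σ v else 0 := by
    intro l
    have hd : ∀ v : E4, fderiv ℝ (fun v : E4 => v m) v (EuclideanSpace.single l 1) =
        if l = m then 1 else 0 := by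
      intro v
      have h1 : HasFDerivAt (fun v : E4 => v m) (EuclideanSpace.proj (𝕜 := ℝ) m) v :=
        (EuclideanSpace.proj (𝕜 := ℝ) m : E4 →L[ℝ] ℝ).hasFDerivAt
      rw [h1.fderiv]
      show (EuclideanSpace.single l (1:ℝ)) m = _
      rw [PiLp.single_apply]
      by_cases h : l = m
      · rw [if_pos h, if_pos h.symm]
      · rw [if_neg h, if_neg (Ne.symm h)]
    have hsum : ∀ v : E4, v m * (-((2 * σ)⁻¹ * ∑ b, M.g i l b 0 * v b) * gam M i σ v) =
        -(2 * σ)⁻¹ * ∑ b, M.g i l b 0 * (v m * v b * gam M i σ v) := by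
      intro v
      rw [Finset.mul_sum, Finset.mul_sum, ← Finset.sum_neg_distrib, Finset.sum_mul,
        Finset.mul_sum]
      refine Finset.sum_congr rfl fun b _ => ?_
      ring
    have hint : Integrable fun v : E4 => -(2 * σ)⁻¹ * ∑ b, M.g i l b 0 * (v m * v b * gam M i σ v) :=
      (integrable_finsetSum _ fun b _ => (coord2_integrable i hσ m b).const_mul _).const_mul _
    have h := integral_mul_fderiv_eq_neg_fderiv_mul_of_integrable (μ := (volume : Measure E4))
      (f := fun v : E4 => v m) (g := gam M i σ) (v := EuclideanSpace.single l 1)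
      (by simp only [hd]; exact (gam_integrable i hσ).const_mul _)
      (by simp only [(gam_fderiv i σ _ l).2, hsum]; exact hint)
      (coord_integrable i hσ m)
      (fun x _ => (EuclideanSpace.proj (𝕜 := ℝ) m : E4 →L[ℝ] ℝ).differentiableAt)
      (fun x _ => (gam_fderiv i σ x l).1)
    simp only [hd, (gam_fderiv i σ _ l).2, hsum] at h
    rw [integral_const_mul, integral_const_mul, integral_finsetSum _
      (fun b _ => (coord2_integrable i hσ m b).const_mul _)] at h
    simp only [integral_const_mul] at h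
    have h2 : (2 * σ) * (2 * σ)⁻¹ = 1 := mul_inv_cancel₀ (by positivity)
    calc ∑ b, M.g i l b 0 * ∫ v : E4, v m * v b * gam M i σ v
        = -(2 * σ) * (-(2 * σ)⁻¹ * ∑ b, M.g i l b 0 * ∫ v : E4, v m * v b * gam M i σ v) := by
          rw [← mul_assoc, neg_mul_neg, h2, one_mul]
      _ = (2 * σ) * ((if l = m then 1 else 0) * ∫ v, gam M i σ v) := by rw [h]; ring
      _ = _ := by split_ifs <;> ring
  -- invert the metric
  have h3 : ∫ v : E4, v k * v m * gam M i σ v =
      ∑ l, M.h i k l 0 * ∑ b, M.g i l b 0 * ∫ v : E4, v m * v b * gam M i σ v := by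
    have h4 : ∀ b, ∑ l, M.h i k l 0 * M.g i l b 0 = if k = b then 1 else 0 := fun b =>
      M.inv i k b 0
    calc ∫ v : E4, v k * v m * gam M i σ v
        = ∑ b, (if k = b then 1 else 0) * ∫ v : E4, v m * v b * gam M i σ v := by
          rw [Finset.sum_eq_single k]
          · rw [if_pos rfl, one_mul]
            simp only [mul_comm]
          · intro b _ hb
            rw [if_neg (Ne.symm hb), zero_mul]
          · intro h; exact absurd (Finset.mem_univ _) h
      _ = ∑ b, ∑ l, M.h i k l 0 * (M.g i l b 0 * ∫ v : E4, v m * v b * gam M i σ v) := by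
          refine Finset.sum_congr rfl fun b _ => ?_
          rw [← h4 b, Finset.sum_mul]
          refine Finset.sum_congr rfl fun l _ => ?_
          ring
      _ = _ := by
          rw [Finset.sum_comm]
          refine Finset.sum_congr rfl fun l _ => ?_
          rw [Finset.mul_sum]
  rw [h3]
  simp only [key]
  rw [Finset.sum_eq_single m]
  · rw [if_pos rfl]
    calc M.h i k m 0 * (2 * σ * ∫ v, gam M i σ v) * M.w i 0
        = 2 * σ * M.h i k m 0 * ((∫ v, gam M i σ v) * M.w i 0) := by ring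
      _ = _ := by rw [hI, mul_one]
  · intro b _ hb
    rw [if_neg hb, mul_zero]
  · intro h; exact absurd (Finset.mem_univ _) h

/-- product identity -/
theorem gam_mul (i : ι) {s τ : ℝ} (hs : 0 < s) (hst : s < τ) (ξ ζ : E4) :
    gam M i (τ - s) (ξ - ζ) * gam M i s ζ =
      gam M i τ ξ * gam M i (s * (τ - s) / τ) (ζ - (s / τ) • ξ) := by
  obtain ⟨L, hL, hdet⟩ := exists_L M i
  simp only [gam_L hL, map_sub, map_smul]
  have hτ : 0 < τ := hs.trans hst
  have hts : 0 < τ - s := sub_pos.2 hst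
  have h1 := Gam_mul (c := 1 / 4) hs hst (L ξ) (L ζ)
  have h2 : Gam (1 / 4) (s * (τ - s) / τ) (L ζ - (s / τ) • L ξ) =
      (((s * (τ - s)) / τ) ^ 2)⁻¹ *
        Real.exp (-(1 / 4 * (τ / (s * (τ - s))) * ‖L ζ - (s / τ) • L ξ‖ ^ 2)) := by
    rw [Gam_eq]
    congr 3
    field_simp
  rw [h2]
  calc _ = ((4 * Real.pi) ^ 2)⁻¹ * ((4 * Real.pi) ^ 2)⁻¹ *
        (Gam (1 / 4) (τ - s) (L ξ - L ζ) * Gam (1 / 4) s (L ζ)) := by ring
    _ = _ := by rw [h1]; ring

theorem gam_sq (i : ι) (ξ : E4) :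
    gam M i 1 ξ * gam M i 1 ξ = (64 * Real.pi ^ 2)⁻¹ * gam M i (1 / 2) ξ := by
  unfold gam
  have h1 : Real.exp (-(q0 M i ξ / (4 * (1 / 2)))) =
      Real.exp (-(q0 M i ξ / (4 * 1))) * Real.exp (-(q0 M i ξ / (4 * 1))) := by
    rw [← Real.exp_add]; congr 1; ring
  rw [h1]
  have := Real.pi_pos
  field_simp
  ring

end Crest.Agent.R249.HKLim_274
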