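import Crest.Agent.R249.HKLim4_274

/-!
# R249, PART C, leaf HK7 (helper274), part 5: second order functions, pairings, matrix `star`,
explicit limits
-/

set_option autoImplicit false
open scoped ContDiff
open MeasureTheory Set Metric Filter Topology
open Crest.Agent.R249.HK286

noncomputable section

namespace Crest.Agent.R249.HKLim_274

variable {ι : Type*}

/-! ### functions vanishing to first / second order -/

theorem lin_bd {f : ι → E4 → ℝ} (h : UB f) (h0 : ∀ i, f i 0 = 0) :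
    ∃ C, 0 ≤ C ∧ ∀ i x, |f i x| ≤ C * ‖x‖ := by
  obtain ⟨C, hC⟩ := h.2 1
  refine ⟨|C|, abs_nonneg _, fun i x => ?_⟩
  have h1 := (convex_univ (𝕜 := ℝ) (E := E4)).norm_image_sub_le_of_norm_fderiv_le (𝕜 := ℝ) (f := f i)
    (C := |C|) (x := 0) (y := x)
    (fun y _ => ((h.1 i).differentiable (by simp)).differentiableAt)
    (fun y _ => by
      have := hC i y
      rw [norm_iteratedFDeriv_one] at this
      exact this.trans (le_abs_self _)) (mem_univ _) (mem_univ _)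
  rwa [h0, sub_zero, sub_zero, Real.norm_eq_abs] at h1

theorem sqrt_tendsto : Tendsto Real.sqrt (𝓝[>] 0) (𝓝[>] 0) := by
  refine tendsto_nhdsWithin_iff.2 ⟨?_, ?_⟩
  · have := Real.continuous_sqrt.tendsto 0
    rw [Real.sqrt_zero] at this
    exact this.mono_left nhdsWithin_le_nhds
  · filter_upwards [self_mem_nhdsWithin] with t ht
    exact Real.sqrt_pos.2 ht

theorem lin_lim {f : E4 → ℝ} (h : ContDiff ℝ ∞ f) (h0 : f 0 = 0) (ξ : E4) :
    Tendsto (fun t : ℝ => (Real.sqrt t)⁻¹ * f (Real.sqrt t • ξ)) (𝓝[>] 0)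
      (𝓝 (fderiv ℝ f 0 ξ)) := by
  have h1 : HasDerivAt (fun s : ℝ => f (s • ξ)) (fderiv ℝ f 0 ξ) 0 := by
    have h2 : HasFDerivAt f (fderiv ℝ f 0) ((0 : ℝ) • ξ) := by
      rw [zero_smul]
      exact ((h.differentiable (by simp)).differentiableAt).hasFDerivAt
    have h3 : HasDerivAt (fun s : ℝ => s • ξ) ξ 0 := by
      simpa using (hasDerivAt_id (0 : ℝ)).smul_const ξ
    exact h2.comp_hasDerivAt 0 h3
  have h4 := h1.tendsto_slope_zero_right
  simp only [zero_add, zero_smul, h0, sub_zero, smul_eq_mul] at h4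
  exact h4.comp sqrt_tendsto

theorem fderiv_eq_sum (f : E4 → ℝ) (ξ : E4) :
    fderiv ℝ f 0 ξ = ∑ m, pd m f 0 * ξ m := by
  have h : ξ = ∑ m, ξ m • EuclideanSpace.single m (1 : ℝ) := by
    ext a
    rw [WithLp.ofLp_sum, Finset.sum_apply, Finset.sum_eq_single a]
    · simp
    · intro b _ hb
      simp [hb.symm]
    · intro h; exact absurd (Finset.mem_univ _) h
  conv_lhs => rw [h, map_sum]
  refine Finset.sum_congr rfl fun m _ => ?_
  rw [map_smul, smul_eq_mul, mul_comm]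
  rfl

/-- functions vanishing to second order, with their leading part -/
structure QF (φ φ0 : ι → E4 → ℝ) : Prop where
  cont : ∀ i, Continuous (φ i)
  bd : ∃ B, 0 ≤ B ∧ ∀ i x, |φ i x| ≤ B * ‖x‖ ^ 2
  lim : ∀ i ξ, Tendsto (fun t : ℝ => t⁻¹ * φ i (Real.sqrt t • ξ)) (𝓝[>] 0) (𝓝 (φ0 i ξ))

theorem QF.add {φ φ0 ψ ψ0 : ι → E4 → ℝ} (h1 : QF φ φ0) (h2 : QF ψ ψ0) :
    QF (fun i x => φ i x + ψ i x) (fun i x => φ0 i x + ψ0 i x) := by
  obtain ⟨B₁, e1, e1'⟩ := h1.bd
  obtain ⟨B₂, e2, e2'⟩ := h2.bd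
  refine ⟨fun i => (h1.cont i).add (h2.cont i), ⟨B₁ + B₂, by positivity, fun i x => ?_⟩,
    fun i ξ => ?_⟩
  · have := abs_add_le (φ i x) (ψ i x)
    have := e1' i x
    have := e2' i x
    linarith
  · refine ((h1.lim i ξ).add (h2.lim i ξ)).congr fun t => ?_
    ring

theorem QF.zero : QF (fun (_ : ι) _ => (0 : ℝ)) (fun _ _ => 0) :=
  ⟨fun i => continuous_const, ⟨0, le_rfl, fun i x => by simp⟩, fun i ξ => by simp⟩

theorem QF.sum {κ : Type*} (s : Finset κ) {F F0 : κ → ι → E4 → ℝ}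
    (h : ∀ k ∈ s, QF (F k) (F0 k)) :
    QF (fun i x => ∑ k ∈ s, F k i x) (fun i x => ∑ k ∈ s, F0 k i x) := by
  classical
  induction s using Finset.induction_on with
  | empty => simpa using (QF.zero : QF (fun (_ : ι) _ => (0 : ℝ)) _)
  | insert k s hk ih =>
    simp only [Finset.sum_insert hk]
    exact (h k (Finset.mem_insert_self _ _)).add
      (ih fun j hj => h j (Finset.mem_insert_of_mem hj))

theorem QF.ub_mul {φ φ0 : ι → E4 → ℝ} (h : QF φ φ0) {u : ι → E4 → ℝ} (hu : UB u) :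
    QF (fun i x => u i x * φ i x) (fun i x => u i 0 * φ0 i x) := by
  obtain ⟨B₁, e1, e1'⟩ := h.bd
  obtain ⟨B₂, e2, e2'⟩ := ub_bdd hu
  refine ⟨fun i => (ub_cont hu i).mul (h.cont i), ⟨B₂ * B₁, by positivity, fun i x => ?_⟩,
    fun i ξ => ?_⟩
  · rw [abs_mul, mul_assoc]
    exact mul_le_mul (e2' i x) (e1' i x) (abs_nonneg _) e2
  · refine ((w_tendsto (ub_cont hu i) ξ).mul (h.lim i ξ)).congr fun t => ?_
    ring

theorem QF.of_lin {f g : ι → E4 → ℝ} (hf : UB f) (hf0 : ∀ i, f i 0 = 0) (hg : UB g)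
    (hg0 : ∀ i, g i 0 = 0) :
    QF (fun i x => f i x * g i x)
      (fun i x => (∑ m, pd m (f i) 0 * x m) * ∑ m, pd m (g i) 0 * x m) := by
  obtain ⟨B₁, e1, e1'⟩ := lin_bd hf hf0
  obtain ⟨B₂, e2, e2'⟩ := lin_bd hg hg0
  refine ⟨fun i => (ub_cont hf i).mul (ub_cont hg i), ⟨B₁ * B₂, by positivity, fun i x => ?_⟩,
    fun i ξ => ?_⟩
  · rw [abs_mul]
    calc |f i x| * |g i x| ≤ (B₁ * ‖x‖) * (B₂ * ‖x‖) :=
          mul_le_mul (e1' i x) (e2' i x) (abs_nonneg _) (by positivity)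
      _ = _ := by ring
  · have h1 := (lin_lim (hf.1 i) (hf0 i) ξ).mul (lin_lim (hg.1 i) (hg0 i) ξ)
    rw [fderiv_eq_sum, fderiv_eq_sum] at h1
    refine h1.congr' ?_
    filter_upwards [self_mem_nhdsWithin] with t ht
    have ht0 : 0 < t := ht
    have h2 : (Real.sqrt t)⁻¹ * (Real.sqrt t)⁻¹ = t⁻¹ := by
      rw [← mul_inv, Real.mul_self_sqrt ht0.le]
    rw [← h2]
    ring

/-! ### products of scaled functions, integrated against `w` -/

/-- scaled limits of integrands -/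
structure SI (F : ι → ℝ → E4 → ℝ) (F0 : ι → E4 → ℝ) : Prop where
  meas : ∀ i t, Measurable (F i t)
  bd : ∃ C c : ℝ, 0 ≤ C ∧ 0 < c ∧ ∀ i, ∀ t ∈ Ioc (0 : ℝ) 1, ∀ x,
    |t ^ 2 * F i t (Real.sqrt t • x)| ≤ C * Gam c 1 x
  lim : ∀ i x, Tendsto (fun t : ℝ => t ^ 2 * F i t (Real.sqrt t • x)) (𝓝[>] 0) (𝓝 (F0 i x))

theorem SF.mul {a b : ℕ} {f f0 g g0 : ι → ℝ → E4 → ℝ} (hf : SF a f f0) (hg : SF b g g0)
    (hab : a + b = 2) : SI (fun i t x => f i t x * g i t x) (fun i x => f0 i 1 x * g0 i 1 x) := by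
  obtain ⟨C₁, c₁, hC₁, hc₁, hb1⟩ := hf.bd
  obtain ⟨C₂, c₂, hC₂, hc₂, hb2⟩ := hg.bd
  have h1m : (1 : ℝ) ∈ Ioc (0 : ℝ) 1 := ⟨one_pos, le_rfl⟩
  have hEq : ∀ i, ∀ t : ℝ, 0 < t → ∀ x : E4,
      t ^ 2 * (f i t (Real.sqrt t • x) * g i t (Real.sqrt t • x)) =
      (t ^ 2 * (t ^ a)⁻¹ * f i (t * 1) (Real.sqrt t • x)) *
        (t ^ 2 * (t ^ b)⁻¹ * g i (t * 1) (Real.sqrt t • x)) := by
    intro i t ht x
    have h1 : t ^ a * t ^ b = t ^ 2 := by rw [← pow_add, hab]
    have h2 : (t ^ a)⁻¹ * (t ^ b)⁻¹ = (t ^ 2)⁻¹ := by rw [← mul_inv, h1]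
    rw [mul_one]
    calc t ^ 2 * (f i t (Real.sqrt t • x) * g i t (Real.sqrt t • x))
        = (t ^ 2 * t ^ 2 * (t ^ 2)⁻¹) * (f i t (Real.sqrt t • x) * g i t (Real.sqrt t • x)) := by
          rw [mul_assoc (t ^ 2), mul_inv_cancel₀ (by positivity), mul_one]
      _ = _ := by rw [← h2]; ring
  refine ⟨fun i t => ?_, ⟨C₁ * C₂, c₁, by positivity, hc₁, fun i t ht x => ?_⟩, fun i x => ?_⟩
  · have h1 : Measurable (fun z : E4 => f i t z) :=
      (hf.meas i).comp (g := fun z : ℝ × E4 => f i z.1 z.2) (f := fun z : E4 => (t, z))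
        (by fun_prop)
    have h2 : Measurable (fun z : E4 => g i t z) :=
      (hg.meas i).comp (g := fun z : ℝ × E4 => g i z.1 z.2) (f := fun z : E4 => (t, z))
        (by fun_prop)
    exact h1.mul h2
  · rw [hEq i t ht.1 x, abs_mul]
    have e1 := scaled_bd (hb1 i) ht h1m x
    have e2 := scaled_bd (hb2 i) ht h1m x
    rw [one_pow, show C₁ * (1 : ℝ) = C₁ from mul_one _] at e1
    rw [one_pow, show C₂ * (1 : ℝ) = C₂ from mul_one _] at e2
    have e5 : C₂ * Gam c₂ 1 x ≤ C₂ := by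
      have := Gam_le hc₂.le one_pos x
      rw [one_pow, inv_one] at this
      calc C₂ * Gam c₂ 1 x ≤ C₂ * 1 := by gcongr
        _ = C₂ := mul_one _
    have e3 := (abs_nonneg _).trans e1
    refine (mul_le_mul e1 (e2.trans e5) (abs_nonneg _) e3).trans (le_of_eq ?_)
    ring
  · refine ((hf.lim i 1 h1m x).mul (hg.lim i 1 h1m x)).congr' ?_
    filter_upwards [self_mem_nhdsWithin] with t ht
    exact (hEq i t ht x).symm

theorem SI.add {F F0' G G0' : _} (h1 : SI (ι := ι) F F0') (h2 : SI (ι := ι) G G0') :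
    SI (fun i t x => F i t x + G i t x) (fun i x => F0' i x + G0' i x) := by
  obtain ⟨C₁, c₁, hC₁, hc₁, hb1⟩ := h1.bd
  obtain ⟨C₂, c₂, hC₂, hc₂, hb2⟩ := h2.bd
  refine ⟨fun i t => (h1.meas i t).add (h2.meas i t), ⟨C₁ + C₂, min c₁ c₂, by positivity,
    lt_min hc₁ hc₂, fun i t ht x => ?_⟩, fun i x => ?_⟩
  · have e1 := hb1 i t ht x
    have e2 := hb2 i t ht x
    have e3 := Gam_anti (min_le_left c₁ c₂) one_pos x
    have e4 := Gam_anti (min_le_right c₁ c₂) one_pos x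
    rw [mul_add]
    calc _ ≤ |t ^ 2 * F i t (Real.sqrt t • x)| + |t ^ 2 * G i t (Real.sqrt t • x)| :=
          abs_add_le _ _
      _ ≤ C₁ * Gam c₁ 1 x + C₂ * Gam c₂ 1 x := add_le_add e1 e2
      _ ≤ C₁ * Gam (min c₁ c₂) 1 x + C₂ * Gam (min c₁ c₂) 1 x := by gcongr
      _ = _ := by ring
  · refine ((h1.lim i x).add (h2.lim i x)).congr fun t => ?_
    ring

theorem SI.zero : SI (fun (_ : ι) _ _ => (0 : ℝ)) (fun _ _ => 0) :=
  ⟨fun i t => measurable_const, ⟨0, 1, le_rfl, one_pos, fun i t ht x => by simp⟩,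
    fun i x => by simp⟩

theorem SI.sum {κ : Type*} (s : Finset κ) {F : κ → ι → ℝ → E4 → ℝ} {F0 : κ → ι → E4 → ℝ}
    (h : ∀ k ∈ s, SI (F k) (F0 k)) :
    SI (fun i t x => ∑ k ∈ s, F k i t x) (fun i x => ∑ k ∈ s, F0 k i x) := by
  classical
  induction s using Finset.induction_on with
  | empty => simpa using (SI.zero : SI (fun (_ : ι) _ _ => (0 : ℝ)) _)
  | insert k s hk ih =>
    simp only [Finset.sum_insert hk]
    exact (h k (Finset.mem_insert_self _ _)).add
      (ih fun j hj => h j (Finset.mem_insert_of_mem hj))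

theorem SI.integral (M : Met ι) {F : ι → ℝ → E4 → ℝ} {F0 : ι → E4 → ℝ} (h : SI F F0) :
    (∃ C : ℝ, ∀ i, ∀ t ∈ Ioc (0 : ℝ) 1, |∫ x, F i t x * M.w i x| ≤ C) ∧
    ∀ i, Tendsto (fun t => ∫ x, F i t x * M.w i x) (𝓝[>] 0) (𝓝 (∫ x, F0 i x * M.w i 0)) := by
  obtain ⟨C, c, hC, hc, hb⟩ := h.bd
  obtain ⟨W, hW, hw⟩ := ub_bdd M.ubw
  have hEq : ∀ i t, 0 < t → ∫ x, F i t x * M.w i x =
      ∫ x, (t ^ 2 * F i t (Real.sqrt t • x)) * M.w i (Real.sqrt t • x) := by
    intro i t ht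
    rw [int_scale ht, ← integral_const_mul]
    refine integral_congr_ae (Eventually.of_forall fun x => ?_)
    ring
  have hBd : ∀ i, ∀ t ∈ Ioc (0 : ℝ) 1, ∀ x,
      ‖(t ^ 2 * F i t (Real.sqrt t • x)) * M.w i (Real.sqrt t • x)‖ ≤ C * W * Gam c 1 x := by
    intro i t ht x
    rw [Real.norm_eq_abs, abs_mul]
    have e1 := hb i t ht x
    refine (mul_le_mul e1 (hw i _) (abs_nonneg _) ((abs_nonneg _).trans e1)).trans (le_of_eq ?_)
    ring
  have hBi : Integrable fun x : E4 => C * W * Gam c 1 x := by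
    have h := Gam_integrable hc one_pos (0 : E4)
    simp only [sub_zero] at h
    exact h.const_mul _
  refine ⟨⟨∫ x : E4, C * W * Gam c 1 x, fun i t ht => ?_⟩, fun i => ?_⟩
  · rw [hEq i t ht.1, ← Real.norm_eq_abs]
    exact norm_integral_le_of_norm_le hBi (Eventually.of_forall (hBd i t ht))
  · have h1 : ∀ᶠ t : ℝ in 𝓝[>] 0, ∫ x, (t ^ 2 * F i t (Real.sqrt t • x)) *
        M.w i (Real.sqrt t • x) = ∫ x, F i t x * M.w i x := by
      filter_upwards [self_mem_nhdsWithin] with t ht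
      exact (hEq i t ht).symm
    refine Tendsto.congr' h1 ?_
    refine tendsto_integral_filter_of_dominated_convergence _ ?_ ?_ hBi ?_
    · refine Eventually.of_forall fun t => ?_
      have h2 : Measurable (fun z : E4 => F i t (Real.sqrt t • z)) :=
        (h.meas i t).comp (by fun_prop)
      have h3 : Measurable (fun z : E4 => M.w i (Real.sqrt t • z)) :=
        (ub_cont M.ubw i).measurable.comp (by fun_prop)
      exact ((h2.const_mul _).mul h3).aestronglyMeasurable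
    · filter_upwards [ev_Ioc] with t ht
      exact Eventually.of_forall (hBd i t ht)
    · refine Eventually.of_forall fun x => ?_
      exact (h.lim i x).mul (w_tendsto (ub_cont M.ubw i) x)

/-! ### matrix `star` -/

section star

variable {M : Met ι} {κ : Type*} [Fintype κ] [DecidableEq κ]

theorem star_sc (K : ι → ℝ → E4 → E4 → ℝ) (f : ι → ℝ → E4 → κ → κ → ℝ) (i : ι) (t : ℝ) (x : E4)
    (p q : κ) : M.star (sc K) f i t x p q = M.star0 K (fun i s z => f i s z p q) i t x := by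
  unfold Met.star Met.star0 sc
  simp only [ite_mul, zero_mul, Finset.sum_ite_eq, Finset.mem_univ, if_true]

/-- dominated for all positive times -/
def DK (K : ι → ℝ → E4 → E4 → ℝ) : Prop :=
  (∀ i, Measurable fun z : ℝ × E4 × E4 => K i z.1 z.2.1 z.2.2) ∧
  ∃ C c : ℝ, 0 ≤ C ∧ 0 < c ∧ ∀ i, ∀ t : ℝ, 0 < t → ∀ x z, |K i t x z| ≤ C * Gam c t (x - z)

def DF (f : ι → ℝ → E4 → ℝ) : Prop :=
  (∀ i, Measurable fun z : ℝ × E4 => f i z.1 z.2) ∧
  ∃ C c : ℝ, 0 ≤ C ∧ 0 < c ∧ ∀ i, ∀ t : ℝ, 0 < t → ∀ x, |f i t x| ≤ C * Gam c t x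

theorem star_eq_sum {K : ι → ℝ → E4 → E4 → κ → κ → ℝ} {f : ι → ℝ → E4 → κ → κ → ℝ}
    (hK : ∀ p q, DK fun i t x z => K i t x z p q) (hf : ∀ p q, DF fun i t x => f i t x p q)
    (i : ι) (t : ℝ) (x : E4) (p q : κ) :
    M.star K f i t x p q = ∑ r, M.star0 (fun i t x z => K i t x z p r)
      (fun i t z => f i t z r q) i t x := by
  unfold Met.star Met.star0
  obtain ⟨W, hW, hw⟩ := ub_bdd M.ubw
  -- common constants
  have hc : ∀ r, ∃ C₁ C₂ c : ℝ, 0 ≤ C₁ ∧ 0 ≤ C₂ ∧ 0 < c ∧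
      (∀ t : ℝ, 0 < t → ∀ x z, |K i t x z p r| ≤ C₁ * Gam c t (x - z)) ∧
      (∀ t : ℝ, 0 < t → ∀ x, |f i t x r q| ≤ C₂ * Gam c t x) := by
    intro r
    obtain ⟨-, C₁, c₁, h1, h1', h1''⟩ := hK p r
    obtain ⟨-, C₂, c₂, h2, h2', h2''⟩ := hf r q
    refine ⟨C₁, C₂, min c₁ c₂, h1, h2, lt_min h1' h2', fun t ht x z => ?_, fun t ht x => ?_⟩
    · refine (h1'' i t ht x z).trans ?_
      gcongr
      exact Gam_anti (min_le_left _ _) ht _
    · refine (h2'' i t ht x).trans ?_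
      gcongr
      exact Gam_anti (min_le_right _ _) ht _
  have hmeas : ∀ r s, Measurable fun z : E4 => K i (t - s) x z p r * f i s z r q * M.w i z := by
    intro r s
    have h1 : Measurable (fun z : E4 => K i (t - s) x z p r) :=
      ((hK p r).1 i).comp (g := fun z : ℝ × E4 × E4 => K i z.1 z.2.1 z.2.2 p r)
        (f := fun z : E4 => (t - s, x, z)) (by fun_prop)
    have h2 : Measurable (fun z : E4 => f i s z r q) :=
      ((hf r q).1 i).comp (g := fun z : ℝ × E4 => f i z.1 z.2 r q)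
        (f := fun z : E4 => (s, z)) (by fun_prop)
    exact (h1.mul h2).mul (ub_cont M.ubw i).measurable
  have hint : ∀ r, ∀ s ∈ Ioo (0 : ℝ) t,
      Integrable fun z : E4 => K i (t - s) x z p r * f i s z r q * M.w i z := by
    intro r s hs
    obtain ⟨C₁, C₂, c, hC₁, hC₂, hc, h1, h2⟩ := hc r
    refine ((Gam_conv_integrable hc hs.1 hs.2 x).const_mul (C₁ * C₂ * W)).mono'
      (hmeas r s).aestronglyMeasurable (Eventually.of_forall fun z => ?_)
    rw [Real.norm_eq_abs, abs_mul, abs_mul]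
    have e1 := h1 (t - s) (sub_pos.2 hs.2) x z
    have e2 := h2 s hs.1 z
    have e3 := (abs_nonneg _).trans e1
    have e4 := (abs_nonneg _).trans e2
    refine (mul_le_mul (mul_le_mul e1 e2 (abs_nonneg _) e3) (hw i _) (abs_nonneg _)
      (mul_nonneg e3 e4)).trans (le_of_eq ?_)
    ring
  have h1 : ∫ s in Ioo 0 t, ∫ z, (∑ r, K i (t - s) x z p r * f i s z r q) * M.w i z =
      ∫ s in Ioo 0 t, ∑ r, ∫ z, K i (t - s) x z p r * f i s z r q * M.w i z := by
    refine setIntegral_congr_fun measurableSet_Ioo fun s hs => ?_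
    simp only [Finset.sum_mul]
    exact integral_finsetSum _ fun r _ => hint r s hs
  rw [h1]
  refine integral_finsetSum _ fun r _ => ?_
  obtain ⟨C₁, C₂, c, hC₁, hC₂, hc, h1, h2⟩ := hc r
  refine Measure.integrableOn_of_bounded (M := C₁ * C₂ * W * ((Real.pi / c) ^ 2 * Gam c t x))
    (by rw [Real.volume_Ioo]; exact ENNReal.ofReal_ne_top) ?_ ?_
  · have h3 := inner_meas (M := M) (K := fun i t x z => K i t x z p r)
      (f := fun i t x => f i t x r q) (hK p r).1 (hf r q).1 i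
    have h4 : Measurable fun s : ℝ => (((t, x), s) : (ℝ × E4) × ℝ) := by fun_prop
    exact (h3.comp_measurable h4).aestronglyMeasurable
  · refine (ae_restrict_iff' measurableSet_Ioo).2 (Eventually.of_forall fun s hs => ?_)
    rw [Real.norm_eq_abs]
    exact inner_bd hc hs.1 hs.2 x (fun z => h1 _ (sub_pos.2 hs.2) x z) (fun z => h2 s hs.1 z)
      (hw i)

end star

/-! ### explicit limits -/

section lims

variable {M : Met ι}

theorem conv0 (i : ι) {s σ : ℝ} (hs : 0 < s) (hst : s < σ) (ξ : E4) (A : ℝ) :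
    ∫ z, gam M i (σ - s) (ξ - z) * (gam M i s z * A) * M.w i 0 = gam M i σ ξ * A := by
  have hσ : 0 < σ := hs.trans hst
  have hτ : 0 < s * (σ - s) / σ := div_pos (mul_pos hs (sub_pos.2 hst)) hσ
  have h1 : ∀ z, gam M i (σ - s) (ξ - z) * (gam M i s z * A) * M.w i 0 =
      (gam M i σ ξ * A * M.w i 0) * gam M i (s * (σ - s) / σ) (z - (s / σ) • ξ) := by
    intro z
    have := gam_mul (M := M) i hs hst ξ z
    calc _ = (gam M i (σ - s) (ξ - z) * gam M i s z) * (A * M.w i 0) := by ring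
      _ = _ := by rw [this]; ring
  simp only [h1]
  rw [integral_const_mul, integral_sub_right_eq_self (fun z => gam M i (s * (σ - s) / σ) z)]
  have h2 := gam_integral (M := M) i hτ
  calc _ = gam M i σ ξ * A * ((∫ v, gam M i (s * (σ - s) / σ) v) * M.w i 0) := by ring
    _ = _ := by rw [h2, mul_one]

/-- time-space convolution of frozen Gaussians -/
theorem star_gam (i : ι) {σ : ℝ} (hσ : 0 < σ) (ξ : E4) (A : ℝ) :
    ∫ s in Ioo 0 σ, ∫ z, gam M i (σ - s) (ξ - z) * (gam M i s z * A) * M.w i 0 =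
      σ * (gam M i σ ξ * A) := by
  rw [setIntegral_congr_fun measurableSet_Ioo
    (g := fun _ => gam M i σ ξ * A) (fun s hs => conv0 i hs.1 hs.2 ξ A)]
  rw [setIntegral_const, Measure.real, Real.volume_Ioo, sub_zero, ENNReal.toReal_ofReal hσ.le,
    smul_eq_mul]

theorem star_gam' (i : ι) {σ : ℝ} (hσ : 0 < σ) (ξ : E4) (A : ℝ) :
    ∫ s in Ioo 0 σ, ∫ z, gam M i (σ - s) (ξ - z) * (s * (gam M i s z * A)) * M.w i 0 =
      σ ^ 2 / 2 * (gam M i σ ξ * A) := by
  rw [setIntegral_congr_fun measurableSet_Ioo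
    (g := fun s => s * (gam M i σ ξ * A)) (fun s hs => ?_)]
  · rw [integral_mul_const, ← integral_Ioc_eq_integral_Ioo,
      ← intervalIntegral.integral_of_le hσ.le, integral_id]
    ring
  · have h := conv0 (M := M) i hs.1 hs.2 ξ (s * A)
    simp only
    calc _ = ∫ z, gam M i (σ - s) (ξ - z) * (gam M i s z * (s * A)) * M.w i 0 := by
          refine integral_congr_ae (Eventually.of_forall fun z => ?_)
          ring
      _ = _ := by rw [h]; ring

/-- shifted second moments -/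
theorem moment_shift (i : ι) {τ : ℝ} (hτ : 0 < τ) (u : E4) (k m : Fin 4) :
    Integrable (fun v : E4 => (v k + u k) * (v m + u m) * gam M i τ v) ∧
    (∫ v : E4, (v k + u k) * (v m + u m) * gam M i τ v) * M.w i 0 =
      2 * τ * M.h i k m 0 + u k * u m := by
  have i1 := coord2_integrable (M := M) i hτ k m
  have i2 := coord_integrable (M := M) i hτ k
  have i3 := coord_integrable (M := M) i hτ m
  have i4 := gam_integrable (M := M) i hτ
  have h1 : ∀ v : E4, (v k + u k) * (v m + u m) * gam M i τ v =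
      v k * v m * gam M i τ v + (u m * (v k * gam M i τ v) + (u k * (v m * gam M i τ v) +
        u k * u m * gam M i τ v)) := fun v => by ring
  have j4 := i4.const_mul (u k * u m)
  have j3 := (i3.const_mul (u k)).add j4
  have j2 := (i2.const_mul (u m)).add j3
  simp only [h1]
  refine ⟨i1.add j2, ?_⟩
  have e3 := integral_add (i3.const_mul (u k)) j4
  have e2 := integral_add (i2.const_mul (u m)) j3
  have e1 := integral_add i1 j2
  simp only [Pi.add_apply] at e1 e2 e3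
  rw [e1, e2, e3, integral_const_mul, integral_const_mul, integral_const_mul, gam_odd, gam_odd,
    mul_zero, mul_zero, zero_add, zero_add, add_mul, gam_moment i hτ]
  have h2 := gam_integral (M := M) i hτ
  calc _ = 2 * τ * M.h i k m 0 + u k * u m * ((∫ v, gam M i τ v) * M.w i 0) := by ring
    _ = _ := by rw [h2, mul_one]

variable (q : Fin 4 → Fin 4 → ℝ)

/-- quadratic form with coefficients `q` -/
def Qf (v : E4) : ℝ := ∑ l, ∑ m, q l m * (v l * v m)

theorem Qf_cont : Continuous (Qf q) := by unfold Qf; fun_prop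

theorem Qf_shift (i : ι) {τ : ℝ} (hτ : 0 < τ) (u : E4) :
    Integrable (fun v : E4 => Qf q (v + u) * gam M i τ v) ∧
    (∫ v : E4, Qf q (v + u) * gam M i τ v) * M.w i 0 =
      2 * τ * (∑ l, ∑ m, q l m * M.h i l m 0) + Qf q u := by
  have h1 : ∀ v : E4, Qf q (v + u) * gam M i τ v =
      ∑ l, ∑ m, q l m * ((v l + u l) * (v m + u m) * gam M i τ v) := by
    intro v
    unfold Qf
    simp only [Finset.sum_mul, PiLp.add_apply]
    refine Finset.sum_congr rfl fun l _ => Finset.sum_congr rfl fun m _ => ?_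
    ring
  have hi : ∀ l m, Integrable fun v : E4 => q l m * ((v l + u l) * (v m + u m) * gam M i τ v) :=
    fun l m => ((moment_shift i hτ u l m).1).const_mul _
  simp only [h1]
  refine ⟨integrable_finsetSum _ fun l _ => integrable_finsetSum _ fun m _ => hi l m, ?_⟩
  rw [integral_finsetSum _ fun l _ => integrable_finsetSum _ fun m _ => hi l m, Finset.sum_mul]
  unfold Qf
  rw [Finset.mul_sum, ← Finset.sum_add_distrib]
  refine Finset.sum_congr rfl fun l _ => ?_
  rw [integral_finsetSum _ fun m _ => hi l m, Finset.sum_mul, Finset.mul_sum,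
    ← Finset.sum_add_distrib]
  refine Finset.sum_congr rfl fun m _ => ?_
  rw [integral_const_mul, mul_assoc, (moment_shift i hτ u l m).2]
  ring

theorem Qf_smul (c : ℝ) (v : E4) : Qf q (c • v) = c ^ 2 * Qf q v := by
  unfold Qf
  rw [Finset.mul_sum]
  refine Finset.sum_congr rfl fun l _ => ?_
  rw [Finset.mul_sum]
  refine Finset.sum_congr rfl fun m _ => ?_
  simp only [PiLp.smul_apply, smul_eq_mul]
  ring

theorem convQ (i : ι) {s : ℝ} (hs : 0 < s) (hst : s < 1) (ξ : E4) :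
    ∫ z, gam M i (1 - s) (ξ - z) * (gam M i s z * Qf q z) * M.w i 0 =
      gam M i 1 ξ * (s ^ 2 * Qf q ξ + 2 * (s * (1 - s)) * ∑ l, ∑ m, q l m * M.h i l m 0) := by
  have hτ : 0 < s * (1 - s) / 1 := div_pos (mul_pos hs (sub_pos.2 hst)) one_pos
  have h1 : ∀ z, gam M i (1 - s) (ξ - z) * (gam M i s z * Qf q z) * M.w i 0 =
      (gam M i 1 ξ * M.w i 0) * (Qf q ((z - (s / 1) • ξ) + (s / 1) • ξ) *
        gam M i (s * (1 - s) / 1) (z - (s / 1) • ξ)) := by
    intro z
    have := gam_mul (M := M) i hs hst ξ z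
    rw [sub_add_cancel]
    calc _ = (gam M i (1 - s) (ξ - z) * gam M i s z) * (Qf q z * M.w i 0) := by ring
      _ = _ := by rw [this]; ring
  simp only [h1]
  rw [integral_const_mul, integral_sub_right_eq_self (fun z => Qf q (z + (s / 1) • ξ) *
    gam M i (s * (1 - s) / 1) z)]
  have h2 := (Qf_shift (M := M) q i hτ ((s / 1) • ξ)).2
  rw [Qf_smul] at h2
  calc _ = gam M i 1 ξ * ((∫ v, Qf q (v + (s / 1) • ξ) * gam M i (s * (1 - s) / 1) v) *
        M.w i 0) := by ring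
    _ = _ := by rw [h2, div_one, div_one]; ring

theorem star_Q (i : ι) (ξ : E4) :
    ∫ s in Ioo 0 1, ∫ z, gam M i (1 - s) (ξ - z) * (gam M i s z * Qf q z) * M.w i 0 =
      gam M i 1 ξ * ((1 / 3) * (Qf q ξ + ∑ l, ∑ m, q l m * M.h i l m 0)) := by
  rw [setIntegral_congr_fun measurableSet_Ioo
    (g := fun s => gam M i 1 ξ * (s ^ 2 * Qf q ξ + 2 * (s * (1 - s)) *
      ∑ l, ∑ m, q l m * M.h i l m 0)) (fun s hs => convQ q i hs.1 hs.2 ξ)]
  set T : ℝ := ∑ l, ∑ m, q l m * M.h i l m 0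
  rw [integral_const_mul, ← integral_Ioc_eq_integral_Ioo,
    ← intervalIntegral.integral_of_le zero_le_one]
  congr 1
  have h1 : ∀ s : ℝ, s ^ 2 * Qf q ξ + 2 * (s * (1 - s)) * T = s ^ 2 * (Qf q ξ - 2 * T) + s * (2 * T) :=
    fun s => by ring
  simp only [h1]
  rw [intervalIntegral.integral_add (by apply Continuous.intervalIntegrable; fun_prop)
    (by apply Continuous.intervalIntegrable; fun_prop), intervalIntegral.integral_mul_const,
    intervalIntegral.integral_mul_const, integral_pow, integral_id]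
  norm_num
  ring

/-- value of the limit of `m1` -/
theorem m1_value (i : ι) :
    ∫ x, gam M i 1 x * (∫ s in Ioo 0 1, ∫ z, gam M i (1 - s) (x - z) *
      (gam M i s z * Qf q z) * M.w i 0) * M.w i 0 =
      1 / (96 * Real.pi ^ 2) * ∑ l, ∑ m, q l m * M.h i l m 0 := by
  have hh : (0 : ℝ) < 1 / 2 := by norm_num
  set T : ℝ := ∑ l, ∑ m, q l m * M.h i l m 0 with hT
  have h1 : ∀ x, gam M i 1 x * (∫ s in Ioo 0 1, ∫ z, gam M i (1 - s) (x - z) *
      (gam M i s z * Qf q z) * M.w i 0) * M.w i 0 =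
      (64 * Real.pi ^ 2)⁻¹ * (1 / 3) * M.w i 0 * (Qf q (x + 0) * gam M i (1 / 2) x +
        T * gam M i (1 / 2) x) := by
    intro x
    rw [star_Q, add_zero]
    have h2 := gam_sq (M := M) i x
    calc _ = (gam M i 1 x * gam M i 1 x) * ((1 / 3) * (Qf q x + T) * M.w i 0) := by
          rw [← hT]; ring
      _ = _ := by rw [h2]; ring
  simp only [h1]
  have h3 := Qf_shift (M := M) q i hh 0
  have h4 : Qf q 0 = 0 := by unfold Qf; simp
  rw [integral_const_mul, integral_add h3.1 ((gam_integrable i hh).const_mul T),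
    integral_const_mul]
  have h5 := gam_integral (M := M) i hh
  have h6 := h3.2
  rw [h4, add_zero, ← hT] at h6
  calc _ = (64 * Real.pi ^ 2)⁻¹ * (1 / 3) * ((∫ v, Qf q (v + 0) * gam M i (1 / 2) v) * M.w i 0 +
        T * ((∫ v, gam M i (1 / 2) v) * M.w i 0)) := by ring
    _ = _ := by
      rw [h5, h6]
      have := Real.pi_pos
      field_simp
      ring

theorem sq_value (i : ι) (A : ℝ) :
    ∫ x, gam M i 1 x * (gam M i 1 x * A) * M.w i 0 = 1 / (64 * Real.pi ^ 2) * A := by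
  have hh : (0 : ℝ) < 1 / 2 := by norm_num
  have h1 : ∀ x, gam M i 1 x * (gam M i 1 x * A) * M.w i 0 =
      (64 * Real.pi ^ 2)⁻¹ * A * M.w i 0 * gam M i (1 / 2) x := by
    intro x
    have h2 := gam_sq (M := M) i x
    calc _ = (gam M i 1 x * gam M i 1 x) * (A * M.w i 0) := by ring
      _ = _ := by rw [h2]; ring
  simp only [h1]
  rw [integral_const_mul]
  have h5 := gam_integral (M := M) i hh
  calc _ = (64 * Real.pi ^ 2)⁻¹ * A * ((∫ v, gam M i (1 / 2) v) * M.w i 0) := by ring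
    _ = _ := by rw [h5]; ring

end lims

end Crest.Agent.R249.HKLim_274
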