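import Crest.Agent.R249.HKCmp2_286

/-!
# Row 249, PART C, block HK (helper286): assembly of `MainStmt` from the leaves.
-/

set_option autoImplicit false
set_option linter.unusedSectionVars false
open scoped ContDiff Topology
open MeasureTheory Set Metric Filter

namespace Crest.Agent.R249.HK286

/-- existence of the cut-offs -/
theorem exists_cut {R : ℝ} (hR : 0 < R) : Nonempty (Cut R) := by
  have h : ∀ m : ℕ, ∃ f : E4 → ℝ, ContDiff ℝ ∞ f ∧ (∀ x, 0 ≤ f x ∧ f x ≤ 1) ∧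
      (∀ x, ‖x‖ ≤ 2 * m * R / 8 → f x = 1) ∧ (∀ x, (2 * m + 1) * R / 8 ≤ ‖x‖ → f x = 0) := by
    intro m
    have hm : (0:ℝ) ≤ m := Nat.cast_nonneg m
    let b : ContDiffBump (0 : E4) :=
      ⟨(2 * m + 1 / 2) * R / 8, (2 * m + 1) * R / 8, by positivity, by nlinarith⟩
    refine ⟨b, b.contDiff, fun x => ⟨b.nonneg, b.le_one⟩, fun x hx => ?_, fun x hx => ?_⟩
    · apply b.one_of_mem_closedBall
      rw [mem_closedBall_zero_iff]
      refine hx.trans ?_
      show 2 * (m:ℝ) * R / 8 ≤ (2 * m + 1 / 2) * R / 8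
      nlinarith
    · apply b.zero_of_le_dist
      rw [dist_zero_right]
      exact hx
  choose f hf using h
  exact ⟨⟨f, fun m => (hf m).1, fun m => (hf m).2.1, fun m => (hf m).2.2.1, fun m => (hf m).2.2.2⟩⟩

section
variable {ι : Type*} {M : Met ι} {κ : Type} [Fintype κ] [DecidableEq κ] {R : ℝ}
  {c : Cut R} {D : Con M κ} (hC : Cal M) (hM : InpM M c) (hD : InpD c D)
include hC hM hD

theorem vb_kk (p q : κ) : VB 0 (fun i t x => D.kk c i t x p q) := by
  have a1 := hC.star_vb 0 (sc (M.HH c 2)) (D.f1 c) le_rfl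
    (fun p r => by
      by_cases h : p = r
      · simpa [sc, h] using kw_HH hC hM 2
      · simpa [sc, h] using (kw_zero : KW (fun (_ : ι) (_ : ℝ) (_ _ : E4) => (0 : ℝ))))
    (vb_f1 hC hM hD) p q
  have a2 := hC.star_vb 0 (sc (M.HH c 3)) (D.f2 c) le_rfl
    (fun p r => by
      by_cases h : p = r
      · simpa [sc, h] using kw_HH hC hM 3
      · simpa [sc, h] using (kw_zero : KW (fun (_ : ι) (_ : ℝ) (_ _ : E4) => (0 : ℝ))))
    (fun r q => vb10 hC hM hD (vb_f2 hC hM hD r q)) p q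
  have a3 := hC.vb_smul 0 (if p = q then 1 else 0) _ (vb_h1 hC hM)
  have b1 := hC.vb_mono (0 + 1) 0 _ (by norm_num) a1
  have b2 := hC.vb_mono (0 + 1) 0 _ (by norm_num) a2
  have := hC.vb_add 0 _ _ (hC.vb_sub a3 b1) b2
  have h2 : (fun i t x => D.kk c i t x p q) = fun i t x => (if p = q then 1 else 0) * h1 M c i t x
      - M.star (sc (M.HH c 2)) (D.f1 c) i t x p q + M.star (sc (M.HH c 3)) (D.f2 c) i t x p q := by
    funext i t x
    simp only [Con.kk, h1]
    split_ifs <;> ring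
  rw [h2]; exact this

theorem kk_bd : ∃ C : ℝ, ∀ i, ∀ t ∈ Ioc (0 : ℝ) 1,
    ∫ x, (∑ p, ∑ q, D.kk c i t x p q ^ 2) * M.w i x ≤ C / t ^ 2 := by
  choose C hCb using fun p q => (hC.int_mul 0 0 _ _ le_rfl le_rfl (vb_kk hC hM hD p q) (vb_kk hC hM hD p q)).2
  refine ⟨∑ p, ∑ q, C p q, fun i t ht => ?_⟩
  have i5 := fun p q => (hC.int_mul 0 0 _ _ le_rfl le_rfl (vb_kk hC hM hD p q) (vb_kk hC hM hD p q)).1 i t ht
  have e1 : ∀ x, (∑ p, ∑ q, D.kk c i t x p q ^ 2) * M.w i x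
      = ∑ p, ∑ q, D.kk c i t x p q * D.kk c i t x p q * M.w i x := by
    intro x
    simp only [Finset.sum_mul]
    refine Finset.sum_congr rfl fun p _ => Finset.sum_congr rfl fun q _ => ?_
    ring
  simp only [e1]
  rw [integral_finsetSum _ fun p _ => integrable_finsetSum _ fun q _ => i5 p q, Finset.sum_div]
  refine Finset.sum_le_sum fun p _ => ?_
  rw [integral_finsetSum _ fun q _ => i5 p q, Finset.sum_div]
  refine Finset.sum_le_sum fun q _ => ?_
  refine (le_abs_self _).trans ((hCb p q i t ht).trans (le_of_eq ?_))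
  rw [show (0:ℝ) + 0 - 2 = -2 by norm_num, Real.rpow_neg ht.1.le, div_eq_mul_inv]
  norm_num

end

/-- the assembly -/
theorem mainStmt_of
    (hCal : ∀ (ι : Type) (M : Met ι), Cal M)
    (hInpM : ∀ (ι : Type) (M : Met ι) (R : ℝ) (c : Cut R), 0 < R → InpM M c)
    (hInpD : ∀ (ι : Type) (M : Met ι) (R : ℝ) (c : Cut R) (κ : Type) [Fintype κ] [DecidableEq κ]
      (D : Con M κ), 0 < R → InpD c D)
    (hCore : ∀ (ι : Type) (M : Met ι) (R : ℝ) (c : Cut R) (κ : Type) [Fintype κ] [DecidableEq κ]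
      (D : Con M κ), 0 < R → CoreStmt c D)
    (hLim : ∀ (ι : Type) (M : Met ι) (R : ℝ) (c : Cut R) (κ : Type) [Fintype κ] [DecidableEq κ]
      (D : Con M κ), 0 < R → LimStmt c D) : MainStmt := by
  intro ι M κ κ' _ _ _ _ D D' R K K' _ _ hR hcard htr S S'
  obtain ⟨c⟩ := exists_cut hR
  have hC := hCal ι M
  have hM := hInpM ι M R c hR
  have hD := hInpD ι M R c κ D hR
  have hD' := hInpD ι M R c κ' D' hR
  obtain ⟨C1, h1'⟩ := hCore ι M R c κ D hR K S
  obtain ⟨C2, h2'⟩ := hCore ι M R c κ' D' hR K' S'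
  obtain ⟨C3, h3'⟩ := kk_bd hC hM hD
  obtain ⟨C4, h4'⟩ := kk_bd hC hM hD'
  obtain ⟨C5, h5'⟩ := cmp hC hM hD hD' hcard htr
  obtain ⟨⟨C6, h6'⟩, l1, l2, l3⟩ := hLim ι M R c κ D hR
  obtain ⟨⟨C7, h7'⟩, l1', l2', l3'⟩ := hLim ι M R c κ' D' hR
  -- the main difference
  have key : ∀ i, ∀ t ∈ Ioc (0 : ℝ) 1,
      |(S.diag i t - S'.diag i t) - ((2 * D.m1 c i t + 2 * D.m2 c i t + D.m3 c i t)
        - (2 * D'.m1 c i t + 2 * D'.m2 c i t + D'.m3 c i t))| ≤ (|C1| + |C2| + |C5|) * Real.sqrt t := by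
    intro i t ht
    have e1 := (h1' i t ht).2
    have e2 := (h2' i t ht).2
    have e3 := h5' i t ht
    have hs : t ≤ Real.sqrt t := by
      have h0 := Real.sq_sqrt ht.1.le
      have h1'' : Real.sqrt t ≤ 1 := Real.sqrt_le_one.2 ht.2
      nlinarith [Real.sqrt_nonneg t]
    have hsn := Real.sqrt_nonneg t
    have f1 : |S.diag i t - ∫ x, (∑ p, ∑ q, D.kk c i t x p q ^ 2) * M.w i x| ≤ |C1| * Real.sqrt t :=
      e1.trans ((mul_le_mul_of_nonneg_right (le_abs_self C1) ht.1.le).trans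
        (mul_le_mul_of_nonneg_left hs (abs_nonneg _)))
    have f2 : |S'.diag i t - ∫ x, (∑ p, ∑ q, D'.kk c i t x p q ^ 2) * M.w i x| ≤ |C2| * Real.sqrt t :=
      e2.trans ((mul_le_mul_of_nonneg_right (le_abs_self C2) ht.1.le).trans
        (mul_le_mul_of_nonneg_left hs (abs_nonneg _)))
    have f3 := e3.trans (mul_le_mul_of_nonneg_right (le_abs_self C5) hsn)
    rw [abs_le] at f1 f2 f3 ⊢
    constructor <;> nlinarith [f1.1, f1.2, f2.1, f2.2, f3.1, f3.2]
  refine ⟨⟨|C1| + |C2| + |C5| + |C3| + |C4| + 5 * |C6| + 5 * |C7|, fun i t ht => ?_⟩, fun i => ?_⟩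
  · have ht2 : (0:ℝ) < t ^ 2 := by have := ht.1; positivity
    have hs1 : Real.sqrt t ≤ 1 := Real.sqrt_le_one.2 ht.2
    have ht1 : t ≤ 1 / t ^ 2 := by
      rw [le_div_iff₀ ht2]
      have := ht.1; have := ht.2
      calc t * t ^ 2 = t ^ 3 := by ring
        _ ≤ 1 := pow_le_one₀ ht.1.le ht.2
    have n1 := abs_nonneg C1; have n2 := abs_nonneg C2; have n3 := abs_nonneg C3
    have n4 := abs_nonneg C4; have n5 := abs_nonneg C5; have n6 := abs_nonneg C6
    have n7 := abs_nonneg C7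
    have hinv : (0:ℝ) ≤ 1 / t ^ 2 := by positivity
    refine ⟨(h1' i t ht).1, (h2' i t ht).1, ?_, ?_, ?_⟩
    · have e1 := (abs_le.1 (h1' i t ht).2).2
      have e3 := h3' i t ht
      have a1 : C1 * t ≤ |C1| * (1 / t ^ 2) :=
        (mul_le_mul_of_nonneg_right (le_abs_self C1) ht.1.le).trans (mul_le_mul_of_nonneg_left ht1 n1)
      have a3 : C3 / t ^ 2 ≤ |C3| * (1 / t ^ 2) := by
        rw [mul_one_div]; exact div_le_div_of_nonneg_right (le_abs_self C3) ht2.le
      calc S.diag i t ≤ C1 * t + C3 / t ^ 2 := by linarith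
        _ ≤ (|C1| + |C3|) * (1 / t ^ 2) := by linarith
        _ ≤ (|C1| + |C2| + |C5| + |C3| + |C4| + 5 * |C6| + 5 * |C7|) * (1 / t ^ 2) :=
          mul_le_mul_of_nonneg_right (by linarith) hinv
        _ = _ := by rw [mul_one_div]
    · have e1 := (abs_le.1 (h2' i t ht).2).2
      have e3 := h4' i t ht
      have a1 : C2 * t ≤ |C2| * (1 / t ^ 2) :=
        (mul_le_mul_of_nonneg_right (le_abs_self C2) ht.1.le).trans (mul_le_mul_of_nonneg_left ht1 n2)
      have a3 : C4 / t ^ 2 ≤ |C4| * (1 / t ^ 2) := by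
        rw [mul_one_div]; exact div_le_div_of_nonneg_right (le_abs_self C4) ht2.le
      calc S'.diag i t ≤ C2 * t + C4 / t ^ 2 := by linarith
        _ ≤ (|C2| + |C4|) * (1 / t ^ 2) := by linarith
        _ ≤ (|C1| + |C2| + |C5| + |C3| + |C4| + 5 * |C6| + 5 * |C7|) * (1 / t ^ 2) :=
          mul_le_mul_of_nonneg_right (by linarith) hinv
        _ = _ := by rw [mul_one_div]
    · have k := key i t ht
      have k' : (|C1| + |C2| + |C5|) * Real.sqrt t ≤ |C1| + |C2| + |C5| := by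
        have : 0 ≤ |C1| + |C2| + |C5| := by positivity
        nlinarith
      obtain ⟨u1, u2, u3⟩ := h6' i t ht
      obtain ⟨v1, v2, v3⟩ := h7' i t ht
      have c6 := le_abs_self C6
      have c7 := le_abs_self C7
      rw [abs_le] at k u1 u2 u3 v1 v2 v3 ⊢
      constructor <;> linarith [k.1, k.2, u1.1, u1.2, u2.1, u2.2, u3.1, u3.2, v1.1, v1.2, v2.1, v2.2, v3.1, v3.2]
  · have g1 : Tendsto (fun t => (2 * D.m1 c i t + 2 * D.m2 c i t + D.m3 c i t)
        - (2 * D'.m1 c i t + 2 * D'.m2 c i t + D'.m3 c i t)) (𝓝[>] 0) (𝓝 (D.dens i - D'.dens i)) := by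
      have := ((((l1 i).const_mul 2).add ((l2 i).const_mul 2)).add (l3 i)).sub
        ((((l1' i).const_mul 2).add ((l2' i).const_mul 2)).add (l3' i))
      refine this.congr' ?_ |>.trans (le_of_eq ?_)
      · exact Eventually.of_forall fun t => rfl
      · congr 1
        simp only [Con.dens]
        ring
    have g2 : Tendsto (fun t => (S.diag i t - S'.diag i t) - ((2 * D.m1 c i t + 2 * D.m2 c i t + D.m3 c i t)
        - (2 * D'.m1 c i t + 2 * D'.m2 c i t + D'.m3 c i t))) (𝓝[>] 0) (𝓝 0) := by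
      have hz : Tendsto (fun t : ℝ => (|C1| + |C2| + |C5|) * Real.sqrt t) (𝓝[>] 0) (𝓝 0) := by
        have : Tendsto (fun t : ℝ => (|C1| + |C2| + |C5|) * Real.sqrt t) (𝓝 0)
            (𝓝 ((|C1| + |C2| + |C5|) * Real.sqrt 0)) :=
          (Real.continuous_sqrt.tendsto 0).const_mul _
        rw [Real.sqrt_zero, mul_zero] at this
        exact this.mono_left nhdsWithin_le_nhds
      refine squeeze_zero_norm' ?_ hz
      have hmem : Ioc (0:ℝ) 1 ∈ 𝓝[>] (0:ℝ) := Ioc_mem_nhdsGT (by norm_num)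
      filter_upwards [hmem] with t ht
      rw [Real.norm_eq_abs]
      exact key i t ht
    have := g2.add g1
    simp only [zero_add, sub_add_cancel] at this
    exact this

end Crest.Agent.R249.HK286
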