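import Crest.Agent.R247.Prt8_657
import Crest.Agent.R202.EllFinal

/-!
R249, D3-DECAY (helper308), harmonic replacement, part 1: Weyl's lemma on a Riemannian manifold.
A function `u ∈ L²` with `Δ u = g` in the sense of distributions on the open set `O`, `g` smooth on
`O`, is a.e. equal on `O` to a smooth function `U` with `Δ U = g` on `O`.
-/

set_option autoImplicit false
set_option maxSynthPendingDepth 3
set_option linter.unusedSectionVars false
open scoped ContDiff ENNReal NNReal Topology Manifold Bundle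
open MeasureTheory Set Filter Metric Bundle
open Crest.GeometryTopology.CoordMetric Crest.GeometryTopology.ChartCurvature
open Crest.Agent.R202.Ell Crest.Agent.R247.Ms322 Crest.Agent.R226.ChartMet842
open Crest.Agent.R247.Dir593 Crest.Agent.R247.Frd657
open Crest.Agent.R247
open Crest.Agent.R247.Bo84 (inCh mLap mLap_chart mLap_chart' lap_congr mLap_congr mLap_const)

namespace Crest.Agent.R249.HRep308

noncomputable section

variable {n : ℕ} {M : Type*} [MetricSpace M] [ChartedSpace (EuclideanSpace ℝ (Fin n)) M]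
  [IsManifold (𝓡 n) ∞ M]
  [RiemannianBundle (fun p : M => TangentSpace (𝓡 n) p)]
  [IsContMDiffRiemannianBundle (𝓡 n) ∞ (EuclideanSpace ℝ (Fin n)) (fun p : M => TangentSpace (𝓡 n) p)]

local notation "𝔼" => EuclideanSpace ℝ (Fin n)

/-- the coefficient matrix of the Laplacian in divergence form -/
def Am (x₀ : M) (b : EuclideanSpace ℝ (Fin n)) : Matrix (Fin n) (Fin n) ℝ :=
  Matrix.of fun i j => Ac x₀ i j b

theorem Am_apply (x₀ : M) (b : 𝔼) (i j : Fin n) : Am x₀ b i j = Ac x₀ i j b := rfl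

theorem divA_Am (x₀ : M) (P : 𝔼 → ℝ) {b : 𝔼} (hb : b ∈ (chartAt 𝔼 x₀).target) :
    divA (Am x₀) P b = dens x₀ b * laplaceBeltrami (chartMetric n M x₀) P b := by
  rw [← lapW_eq, lapW, divA]
  have h : dens (n := n) x₀ b ≠ 0 := (dens_pos x₀ hb).ne'
  rw [← mul_assoc, mul_inv_cancel₀ h, one_mul]
  rfl

theorem contDiffOn_Am (x₀ : M) (i j : Fin n) :
    ContDiffOn ℝ ∞ (fun b => Am x₀ b i j) (chartAt 𝔼 x₀).target :=
  (coefOn_Ac (n := n) x₀).smooth i j

theorem posDef_Am (x₀ : M) {b : 𝔼} (hb : b ∈ (chartAt 𝔼 x₀).target) : (Am x₀ b).PosDef := by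
  have hg := isRiemannianOn_chartMetric (n := n) x₀
  have h2 := (hg.posDef b hb).inv
  have h3 := h2.smul (dens_pos (n := n) x₀ hb)
  exact h3

theorem mLap_pb (x₀ : M) {P : 𝔼 → ℝ} (hP : IsTest P) (hs : tsupport P ⊆ (chartAt 𝔼 x₀).target)
    {b : 𝔼} (hb : b ∈ (chartAt 𝔼 x₀).target) :
    mLap n (pb x₀ P) ((chartAt 𝔼 x₀).symm b) = laplaceBeltrami (chartMetric n M x₀) P b := by
  rw [mLap_chart hb (((pb_smooth x₀ hP hs).of_le Bo84.two_le_infty).contMDiffAt)]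
  refine lap_congr ?_
  filter_upwards [(chartAt 𝔼 x₀).open_target.mem_nhds hb] with y hy
  exact pb_symm x₀ P hy

variable [IsRiemannianManifold (𝓡 n) M] [MeasurableSpace M] [BorelSpace M]
  [SecondCountableTopology M] [Nonempty M]

/-- distributional equation `Δ u = g` on the open set `O` -/
def DistLap (O : Set M) (u g : M → ℝ) : Prop :=
  ∀ φ : M → ℝ, ContMDiff (𝓡 n) 𝓘(ℝ, ℝ) ∞ φ → HasCompactSupport φ → tsupport φ ⊆ O →
    ∫ z, u z * mLap n φ z ∂(μHE[n] : Measure M) = ∫ z, g z * φ z ∂(μHE[n] : Measure M)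

/-- the part of the chart target lying over `O` -/
def cO (x₀ : M) (O : Set M) : Set (EuclideanSpace ℝ (Fin n)) :=
  (chartAt (EuclideanSpace ℝ (Fin n)) x₀).target ∩
    (chartAt (EuclideanSpace ℝ (Fin n)) x₀).symm ⁻¹' O

theorem isOpen_cO (x₀ : M) {O : Set M} (hO : IsOpen O) : IsOpen (cO (n := n) x₀ O) :=
  (chartAt 𝔼 x₀).isOpen_inter_preimage_symm hO

theorem distLap_chart {O : Set M} {u g : M → ℝ} (h : DistLap (n := n) O u g) (x₀ : M)
    {P : 𝔼 → ℝ} (hP : IsTest P) (hs : tsupport P ⊆ cO x₀ O) :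
    ∫ b, u ((chartAt 𝔼 x₀).symm b) * divA (Am x₀) P b =
      ∫ b, (dens (n := n) x₀ b * g ((chartAt 𝔼 x₀).symm b)) * P b := by
  have hst : tsupport P ⊆ (chartAt 𝔼 x₀).target := hs.trans inter_subset_left
  have hsup : tsupport (pb x₀ P) ⊆ (chartAt 𝔼 x₀).symm '' tsupport P :=
    tsupport_pb x₀ hP.cpt.isCompact hst le_rfl
  have hO : tsupport (pb x₀ P) ⊆ O := by
    intro z hz
    obtain ⟨b, hb, rfl⟩ := hsup hz
    exact (hs hb).2
  have hoff : ∀ z, z ∉ (chartAt 𝔼 x₀).source → z ∉ tsupport (pb x₀ P) := fun z hz h =>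
    hz (symm_image_subset x₀ hst (hsup h))
  have h0 := h _ (pb_smooth x₀ hP hst) (pb_cpt x₀ hP hst) hO
  have hlap0 : ∀ z, z ∉ tsupport (pb x₀ P) → mLap n (pb x₀ P) z = 0 := by
    intro z hz
    have hev : pb x₀ P =ᶠ[𝓝 z] fun _ => 0 := by
      filter_upwards [(isClosed_tsupport (pb x₀ P)).isOpen_compl.mem_nhds hz] with y hy
      exact image_eq_zero_of_notMem_tsupport hy
    rw [mLap_congr hev, mLap_const]
  rw [integral_eq_of_support x₀ _ (fun z hz => by rw [hlap0 z (hoff z hz), mul_zero]),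
    integral_eq_of_support x₀ _ (fun z hz => by
      rw [image_eq_zero_of_notMem_tsupport (hoff z hz), mul_zero])] at h0
  have hzero : ∀ b, b ∉ (chartAt 𝔼 x₀).target → divA (Am x₀) P b = 0 := by
    intro b hb
    have hb' : b ∉ tsupport P := fun h => hb (hst h)
    rw [divA]
    refine Finset.sum_eq_zero fun i _ => ?_
    have hev : (fun y => ∑ j, Am x₀ y i j * pderiv j P y) =ᶠ[𝓝 b] fun _ => (0:ℝ) := by
      filter_upwards [(isClosed_tsupport P).isOpen_compl.mem_nhds hb'] with y hy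
      exact Finset.sum_eq_zero fun j _ => by rw [pderiv_zero_off hy, mul_zero]
    change fderiv ℝ (fun y => ∑ j, Am x₀ y i j * pderiv j P y) b (EuclideanSpace.single i 1) = 0
    rw [hev.fderiv_eq]
    simp
  have e1 : ∫ b, u ((chartAt 𝔼 x₀).symm b) * divA (Am x₀) P b =
      ∫ b in (chartAt 𝔼 x₀).target, dens (n := n) x₀ b •
        (u ((chartAt 𝔼 x₀).symm b) * mLap n (pb x₀ P) ((chartAt 𝔼 x₀).symm b)) := by
    rw [← setIntegral_eq_integral_of_forall_compl_eq_zero (s := (chartAt 𝔼 x₀).target)]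
    · refine setIntegral_congr_fun (measurableSet_target x₀) fun b hb => ?_
      simp only [smul_eq_mul]
      rw [divA_Am x₀ P hb, mLap_pb x₀ hP hst hb]
      ring
    · intro b hb
      rw [hzero b hb, mul_zero]
  have e2 : ∫ b, (dens (n := n) x₀ b * g ((chartAt 𝔼 x₀).symm b)) * P b =
      ∫ b in (chartAt 𝔼 x₀).target, dens (n := n) x₀ b •
        (g ((chartAt 𝔼 x₀).symm b) * pb x₀ P ((chartAt 𝔼 x₀).symm b)) := by
    rw [← setIntegral_eq_integral_of_forall_compl_eq_zero (s := (chartAt 𝔼 x₀).target)]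
    · refine setIntegral_congr_fun (measurableSet_target x₀) fun b hb => ?_
      simp only [smul_eq_mul]
      rw [pb_symm x₀ P hb]
      ring
    · intro b hb
      rw [image_eq_zero_of_notMem_tsupport (fun h => hb (hst h)), mul_zero]
  rw [e1, e2, h0]

/-- `L²` functions are locally integrable in charts. -/
theorem locInt_chart {u : M → ℝ} (hu : MemLp u 2 (μHE[n] : Measure M)) (x₀ : M) :
    LocallyIntegrableOn (fun b => u ((chartAt 𝔼 x₀).symm b)) (chartAt 𝔼 x₀).target := by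
  have hL : L2On (chartAt 𝔼 x₀).target (fun b => u ((chartAt 𝔼 x₀).symm b)) := by
    intro K hKt hK
    obtain ⟨C, -, hC⟩ := eLpNorm_chart_le (n := n) x₀ hK hKt
    refine ⟨(aesm_chart x₀ hu.1).mono_measure (Measure.restrict_mono hKt le_rfl), ?_⟩
    refine (hC u).trans_lt (ENNReal.mul_lt_top ENNReal.ofReal_lt_top ?_)
    exact (hu.restrict _).2
  intro b hb
  obtain ⟨r, hr0, hr⟩ := nhds_basis_closedBall.mem_iff.1 ((chartAt 𝔼 x₀).open_target.mem_nhds hb)
  refine ⟨closedBall b r, mem_nhdsWithin_of_mem_nhds (closedBall_mem_nhds b hr0), ?_⟩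
  have h1 := hL _ hr (isCompact_closedBall b r)
  have : IsFiniteMeasure (volume.restrict (closedBall b r)) :=
    ⟨by rw [Measure.restrict_apply_univ]; exact (isCompact_closedBall b r).measure_lt_top⟩
  exact h1.integrable (by norm_num)

/-- **Weyl's lemma in a chart.** -/
theorem weyl_chart {O : Set M} (hO : IsOpen O) {u g : M → ℝ}
    (hu : MemLp u 2 (μHE[n] : Measure M)) (hg : ContMDiffOn (𝓡 n) 𝓘(ℝ, ℝ) ∞ g O)
    (h : DistLap (n := n) O u g) (x₀ : M) :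
    ∃ v : 𝔼 → ℝ, ContDiffOn ℝ ∞ v (cO x₀ O) ∧
      (∀ᵐ b, b ∈ cO x₀ O → v b = u ((chartAt 𝔼 x₀).symm b)) ∧
      ∀ b ∈ cO x₀ O, laplaceBeltrami (chartMetric n M x₀) v b = g ((chartAt 𝔼 x₀).symm b) := by
  have hop := isOpen_cO (n := n) x₀ hO
  have hgc : ContDiffOn ℝ ∞ (fun b => g ((chartAt 𝔼 x₀).symm b)) (cO x₀ O) := by
    rw [← contMDiffOn_iff_contDiffOn]
    exact hg.comp ((contMDiffOn_chart_symm (I := 𝓡 n) (n := ∞) (x := x₀)).mono inter_subset_left)
      fun b hb => hb.2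
  have hf : ContDiffOn ℝ ∞ (fun b => dens (n := n) x₀ b * g ((chartAt 𝔼 x₀).symm b)) (cO x₀ O) :=
    ((contDiffOn_dens x₀).mono inter_subset_left).mul hgc
  obtain ⟨v, hv1, hv2, hv3⟩ := ell_regularity n (cO x₀ O) hop (Am x₀)
    (fun i j => (contDiffOn_Am x₀ i j).mono inter_subset_left)
    (fun b hb => posDef_Am x₀ hb.1) _ hf (fun b => u ((chartAt 𝔼 x₀).symm b))
    ((locInt_chart hu x₀).mono_set inter_subset_left)
    (fun φ h1 h2 h3 => distLap_chart h x₀ ⟨h1, h2⟩ h3)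
  refine ⟨v, hv1, hv2, fun b hb => ?_⟩
  have h4 := hv3 b hb
  rw [divA_Am x₀ v hb.1] at h4
  exact mul_left_cancel₀ (dens_pos (n := n) x₀ hb.1).ne' h4

/-- **Weyl's lemma on the manifold.** -/
theorem weyl {O : Set M} (hO : IsOpen O) {u g : M → ℝ}
    (hu : MemLp u 2 (μHE[n] : Measure M)) (hg : ContMDiffOn (𝓡 n) 𝓘(ℝ, ℝ) ∞ g O)
    (h : DistLap (n := n) O u g) :
    ∃ U : M → ℝ, ContMDiffOn (𝓡 n) 𝓘(ℝ, ℝ) ∞ U O ∧
      (∀ᵐ z ∂(μHE[n] : Measure M), z ∈ O → U z = u z) ∧ ∀ z ∈ O, mLap n U z = g z := by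
  choose v hv1 hv2 hv3 using fun x₀ : M => weyl_chart (n := n) hO hu hg h x₀
  -- the functions read in the charts agree on overlaps
  have hcont : ∀ x₀ : M, ContinuousOn (fun z => v x₀ (chartAt 𝔼 x₀ z))
      ((chartAt 𝔼 x₀).source ∩ O) := by
    intro x₀
    refine (hv1 x₀).continuousOn.comp ((chartAt 𝔼 x₀).continuousOn.mono inter_subset_left) ?_
    intro z hz
    refine ⟨(chartAt 𝔼 x₀).map_source hz.1, ?_⟩
    rw [mem_preimage, (chartAt 𝔼 x₀).left_inv hz.1]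
    exact hz.2
  have hae : ∀ x₀ : M, ∀ᵐ z ∂(μHE[n] : Measure M), z ∈ (chartAt 𝔼 x₀).source ∩ O →
      v x₀ (chartAt 𝔼 x₀ z) = u z := by
    intro x₀
    have h1 := ae_manifold (n := n) x₀ (p := fun b => b ∈ cO x₀ O → v x₀ b = u ((chartAt 𝔼 x₀).symm b))
      (by filter_upwards [hv2 x₀] with b hb _ using hb)
    filter_upwards [h1] with z hz hzs
    have h2 := hz hzs.1 ⟨(chartAt 𝔼 x₀).map_source hzs.1, by
      rw [mem_preimage, (chartAt 𝔼 x₀).left_inv hzs.1]; exact hzs.2⟩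
    rw [(chartAt 𝔼 x₀).left_inv hzs.1] at h2
    exact h2
  have := isOpenPosMeasure n M
  have hcons : ∀ x₀ x₁ : M, EqOn (fun z => v x₀ (chartAt 𝔼 x₀ z)) (fun z => v x₁ (chartAt 𝔼 x₁ z))
      (((chartAt 𝔼 x₀).source ∩ O) ∩ ((chartAt 𝔼 x₁).source ∩ O)) := by
    intro x₀ x₁
    have hopn : IsOpen (((chartAt 𝔼 x₀).source ∩ O) ∩ ((chartAt 𝔼 x₁).source ∩ O)) :=
      ((chartAt 𝔼 x₀).open_source.inter hO).inter ((chartAt 𝔼 x₁).open_source.inter hO)
    refine Measure.eqOn_open_of_ae_eq (μ := (μHE[n] : Measure M)) ?_ hopn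
      ((hcont x₀).mono inter_subset_left) ((hcont x₁).mono inter_subset_right)
    rw [EventuallyEq, ae_restrict_iff' hopn.measurableSet]
    filter_upwards [hae x₀, hae x₁] with z h1 h2 hz
    rw [h1 hz.1, h2 hz.2]
  set U : M → ℝ := fun z => v z (chartAt 𝔼 z z) with hU
  have hUeq : ∀ x₀ : M, ∀ z ∈ (chartAt 𝔼 x₀).source ∩ O, U z = v x₀ (chartAt 𝔼 x₀ z) := by
    intro x₀ z hz
    exact hcons z x₀ ⟨⟨mem_chart_source 𝔼 z, hz.2⟩, hz⟩
  have hUsm : ∀ z ∈ O, ContMDiffAt (𝓡 n) 𝓘(ℝ, ℝ) ∞ U z := by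
    intro z hz
    have hzs := mem_chart_source 𝔼 z
    have hzc : chartAt 𝔼 z z ∈ cO (n := n) z O := ⟨(chartAt 𝔼 z).map_source hzs, by
      rw [mem_preimage, (chartAt 𝔼 z).left_inv hzs]; exact hz⟩
    have h1 : ContDiffAt ℝ ∞ (v z) (chartAt 𝔼 z z) :=
      (hv1 z).contDiffAt ((isOpen_cO z hO).mem_nhds hzc)
    have h2 : ContMDiffAt (𝓡 n) 𝓘(ℝ, ℝ) ∞ (fun y => v z (chartAt 𝔼 z y)) z :=
      h1.contMDiffAt.comp z ((contMDiffOn_chart (I := 𝓡 n) (n := ∞) (x := z)).contMDiffAt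
          ((chartAt 𝔼 z).open_source.mem_nhds hzs))
    refine h2.congr_of_eventuallyEq ?_
    filter_upwards [((chartAt 𝔼 z).open_source.inter hO).mem_nhds ⟨hzs, hz⟩] with y hy
    exact hUeq z y hy
  refine ⟨U, fun z hz => (hUsm z hz).contMDiffWithinAt, ?_, ?_⟩
  · -- a.e. equality
    obtain ⟨s, hs, hsu⟩ := TopologicalSpace.countable_cover_nhds
      (f := fun x : M => (chartAt 𝔼 x).source) (fun x => chart_source_mem_nhds 𝔼 x)
    have h1 : ∀ᵐ z ∂(μHE[n] : Measure M), ∀ x₀ ∈ s, z ∈ (chartAt 𝔼 x₀).source ∩ O →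
        v x₀ (chartAt 𝔼 x₀ z) = u z := (ae_ball_iff hs).2 fun x₀ _ => hae x₀
    filter_upwards [h1] with z hz hzO
    have h2 : z ∈ ⋃ x ∈ s, (chartAt 𝔼 x).source := by rw [hsu]; trivial
    rw [mem_iUnion₂] at h2
    obtain ⟨x₀, hx₀, hzx⟩ := h2
    rw [hUeq x₀ z ⟨hzx, hzO⟩]
    exact hz x₀ hx₀ ⟨hzx, hzO⟩
  · intro z hz
    have hzs := mem_chart_source 𝔼 z
    have hzc : chartAt 𝔼 z z ∈ cO (n := n) z O := ⟨(chartAt 𝔼 z).map_source hzs, by
      rw [mem_preimage, (chartAt 𝔼 z).left_inv hzs]; exact hz⟩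
    rw [mLap_chart' hzs ((hUsm z hz).of_le Bo84.two_le_infty)]
    have h1 := hv3 z _ hzc
    rw [(chartAt 𝔼 z).left_inv hzs] at h1
    rw [← h1]
    refine lap_congr ?_
    filter_upwards [(isOpen_cO z hO).mem_nhds hzc] with y hy
    have h2 : (chartAt 𝔼 z).symm y ∈ (chartAt 𝔼 z).source ∩ O :=
      ⟨(chartAt 𝔼 z).map_target hy.1, hy.2⟩
    rw [inCh, hUeq z _ h2, (chartAt 𝔼 z).right_inv hy.1]

end

end Crest.Agent.R249.HRep308
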