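import Crest.Agent.R249.Top5_330
import Crest.Agent.R226.CutAsm_823

/-!
# R249 (S0386), leaf D4-HINGE: hinge inequality, four point inequality, angle lemma

`M` closed with nonnegative sectional curvature, `G : GeoData n M`.
* `hinge`: `d(exp_x u, exp_x v)² ≤ |u|² + |v|² - 2⟨u,v⟩` for `u` minimising.
* `four_point` : the closed 4-point condition `Alex0`, which passes to Gromov-Hausdorff limits.
* `angle_upper`, `angle_lower`: Gram matrix of the directions of minimisers.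
-/

set_option autoImplicit false
set_option maxSynthPendingDepth 3
set_option linter.unusedSectionVars false

open Bundle Set Filter Topology Metric
open scoped Manifold ContDiff NNReal
open Crest.GeometryTopology.CoordMetric Crest.GeometryTopology.ChartCurvature
open Crest.GeometryTopology.MTW
open Crest.Agent.R247.Sm879 Crest.Agent.R247.Ray97

noncomputable section

namespace Crest.Agent.R249.Hin4_615

/-! ### pure metric part -/

section metric

variable {X : Type*} [MetricSpace X]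

/-- the 'variance' of `m` with respect to `(x, z)` with weights `(1-t, t)` -/
def Q4 (x z m : X) (t : ℝ) : ℝ :=
  (1 - t) * dist m x ^ 2 + t * dist m z ^ 2 - t * (1 - t) * dist x z ^ 2

/-- **The closed four point condition** of spaces with curvature `≥ 0`. -/
def Alex0 (X : Type*) [MetricSpace X] : Prop :=
  ∀ p x z m : X, ∀ t ∈ Icc (0 : ℝ) 1, 0 ≤ Q4 x z m t ∧
    (1 - t) * dist p x ^ 2 + t * dist p z ^ 2 - t * (1 - t) * dist x z ^ 2 ≤
      (dist p m + √(Q4 x z m t)) ^ 2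

/-- point on side inequality -/
theorem Alex0.pos (h : Alex0 X) {p x z m : X} {t : ℝ} (ht : t ∈ Icc (0 : ℝ) 1)
    (h1 : dist x m = t * dist x z) (h2 : dist m z = (1 - t) * dist x z) :
    (1 - t) * dist p x ^ 2 + t * dist p z ^ 2 - t * (1 - t) * dist x z ^ 2 ≤ dist p m ^ 2 := by
  have h3 := (h p x z m t ht).2
  have hQ : Q4 x z m t = 0 := by
    unfold Q4
    rw [dist_comm m x, h1, h2]; ring
  rw [hQ, Real.sqrt_zero, add_zero] at h3
  exact h3

/-- midpoint inequality -/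
theorem Alex0.mid (h : Alex0 X) {p x z m : X} (h1 : dist x m = dist x z / 2)
    (h2 : dist m z = dist x z / 2) :
    (dist p x ^ 2 + dist p z ^ 2) / 2 - dist x z ^ 2 / 4 ≤ dist p m ^ 2 := by
  have := h.pos (p := p) (x := x) (z := z) (m := m) (t := 1 / 2) ⟨by norm_num, by norm_num⟩
    (by rw [h1]; ring) (by rw [h2]; ring)
  linarith

/-- stability: a space all of whose quadruples are limits of quadruples in `Alex0` spaces. -/
theorem Alex0.of_tendsto {ι : Type*} {l : Filter ι} [NeBot l]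
    (h : ∀ p x z m : X, ∃ (Y : ι → Type*) (_ : ∀ i, MetricSpace (Y i)) (p' x' z' m' : ∀ i, Y i),
      (∀ᶠ i in l, Alex0 (Y i)) ∧
      Tendsto (fun i => dist (p' i) (x' i)) l (𝓝 (dist p x)) ∧
      Tendsto (fun i => dist (p' i) (z' i)) l (𝓝 (dist p z)) ∧
      Tendsto (fun i => dist (p' i) (m' i)) l (𝓝 (dist p m)) ∧
      Tendsto (fun i => dist (x' i) (z' i)) l (𝓝 (dist x z)) ∧
      Tendsto (fun i => dist (m' i) (x' i)) l (𝓝 (dist m x)) ∧
      Tendsto (fun i => dist (m' i) (z' i)) l (𝓝 (dist m z))) : Alex0 X := by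
  intro p x z m t ht
  obtain ⟨Y, _, p', x', z', m', hA, h1, h2, h3, h4, h5, h6⟩ := h p x z m
  have hQ : Tendsto (fun i => Q4 (x' i) (z' i) (m' i) t) l (𝓝 (Q4 x z m t)) := by
    unfold Q4
    exact (((h5.pow 2).const_mul _).add ((h6.pow 2).const_mul _)).sub ((h4.pow 2).const_mul _)
  constructor
  · refine ge_of_tendsto hQ ?_
    filter_upwards [hA] with i hi using (hi (p' i) (x' i) (z' i) (m' i) t ht).1
  · refine le_of_tendsto_of_tendsto ?_ ?_ (hA.mono fun i hi => (hi (p' i) (x' i) (z' i) (m' i) t ht).2)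
    · exact (((h1.pow 2).const_mul _).add ((h2.pow 2).const_mul _)).sub ((h4.pow 2).const_mul _)
    · exact (h3.add (hQ.sqrt)).pow 2

end metric

/-! ### hinges on a closed manifold with `K ≥ 0` -/

section geo
variable {n : ℕ} {M : Type*} [MetricSpace M] [ChartedSpace (EuclideanSpace ℝ (Fin n)) M]
  [IsManifold (𝓡 n) ∞ M]
  [RiemannianBundle (fun p : M => TangentSpace (𝓡 n) p)]
  [IsContMDiffRiemannianBundle (𝓡 n) ∞ (EuclideanSpace ℝ (Fin n)) (fun p : M => TangentSpace (𝓡 n) p)]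
  [IsRiemannianManifold (𝓡 n) M] [CompactSpace M]

/-- **hinge inequality** -/
theorem hinge (G : Crest.Agent.R226.GeoData n M) (hK : HasNonnegSectionalCurvature n M) {x : M}
    {u : TangentSpace (𝓡 n) x} (hu : u ∈ G.K x) (v : TangentSpace (𝓡 n) x) :
    dist (G.ex x u) (G.ex x v) ^ 2 ≤ ‖u‖ ^ 2 + ‖v‖ ^ 2 - 2 * inner ℝ u v := by
  obtain ⟨C, hC0, hC⟩ := (Crest.Agent.R226.CutAsm823.cutFacts G).semiconcave
  have hm : ExM M := Crest.Agent.R247.Sm879.ExM.of_exactMid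
    (Crest.Agent.R247.HR216.approxMid_of_riemannian n M).exactMid
  have hconc := Crest.Agent.R249.Top330.toponogov_ex G hm hK (G.ex x u) x v
  set f : ℝ → ℝ := fun t => dist (G.ex x u) (G.ex x (t • v)) ^ 2 - ‖v‖ ^ 2 * t ^ 2 with hf
  have hux : dist x (G.ex x u) = ‖u‖ := hu
  have hf0 : f 0 = ‖u‖ ^ 2 := by
    simp only [hf, zero_smul, G.ex_zero, dist_comm (G.ex x u) x, hux]; ring
  have hup : ∀ t : ℝ, f t ≤ ‖u‖ ^ 2 - 2 * t * inner ℝ u v + (2 * C) * ‖v‖ ^ 2 * t ^ 2 := by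
    intro t
    have h1 := hC x u hu (t • v)
    unfold halfDistSq at h1
    rw [hux, inner_smul_right, norm_smul, dist_comm] at h1
    simp only [hf]
    have h2 : ‖t‖ ^ 2 = t ^ 2 := by rw [Real.norm_eq_abs, sq_abs]
    have h3 : (‖t‖ * ‖v‖) ^ 2 = t ^ 2 * ‖v‖ ^ 2 := by rw [mul_pow, h2]
    rw [h3] at h1
    nlinarith [sq_nonneg t, sq_nonneg ‖v‖, mul_nonneg (sq_nonneg t) (sq_nonneg ‖v‖)]
  -- concavity
  have hslope : ∀ t : ℝ, 0 < t → t ≤ 1 → f 1 ≤ ‖u‖ ^ 2 - 2 * inner ℝ u v + 2 * C * ‖v‖ ^ 2 * t := by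
    intro t ht ht1
    have h1 := hconc.2 (mem_univ (0 : ℝ)) (mem_univ (1 : ℝ)) (show 0 ≤ 1 - t by linarith) ht.le
      (by ring)
    simp only [smul_eq_mul, mul_zero, mul_one, zero_add] at h1
    have h2 := hup t
    have h3 : (1 - t) * f 0 + t * f 1 ≤ f t := h1
    rw [hf0] at h3
    have h4 : t * f 1 ≤ t * (‖u‖ ^ 2 - 2 * inner ℝ u v + 2 * C * ‖v‖ ^ 2 * t) := by nlinarith
    exact le_of_mul_le_mul_left h4 ht
  have hlim : f 1 ≤ ‖u‖ ^ 2 - 2 * inner ℝ u v := by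
    have hc : Tendsto (fun t : ℝ => ‖u‖ ^ 2 - 2 * inner ℝ u v + 2 * C * ‖v‖ ^ 2 * t) (𝓝[>] 0)
        (𝓝 (‖u‖ ^ 2 - 2 * inner ℝ u v + 2 * C * ‖v‖ ^ 2 * 0)) := by
      have : Continuous (fun t : ℝ => ‖u‖ ^ 2 - 2 * inner ℝ u v + 2 * C * ‖v‖ ^ 2 * t) := by
        fun_prop
      exact (this.tendsto 0).mono_left nhdsWithin_le_nhds
    rw [mul_zero, add_zero] at hc
    refine ge_of_tendsto hc ?_
    filter_upwards [Ioc_mem_nhdsGT (show (0 : ℝ) < 1 by norm_num)] with t ht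
    exact hslope t ht.1 ht.2
  simp only [hf, one_smul] at hlim
  linarith

/-- **four point condition** -/
theorem alex0 (hK : HasNonnegSectionalCurvature n M) : Alex0 M := by
  obtain ⟨G⟩ := Crest.Agent.R226.CutAsm823.nonempty_geoData n M
  intro p x z m t ht
  obtain ⟨up, hp, hp'⟩ := G.surj m p
  obtain ⟨ux, hx, hx'⟩ := G.surj m x
  obtain ⟨uz, hz, hz'⟩ := G.surj m z
  have kp : up ∈ G.K m := by show dist m (G.ex m up) = ‖up‖; rw [hp, hp']
  have kx : ux ∈ G.K m := by show dist m (G.ex m ux) = ‖ux‖; rw [hx, hx']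
  have h1 := hinge G hK kp ux
  have h2 := hinge G hK kp uz
  have h3 := hinge G hK kx uz
  rw [hp, hx] at h1
  rw [hp, hz] at h2
  rw [hx, hz] at h3
  obtain ⟨ht0, ht1⟩ := ht
  set w := (1 - t) • ux + t • uz with hw
  have hw2 : ‖w‖ ^ 2 = (1 - t) * ‖ux‖ ^ 2 + t * ‖uz‖ ^ 2 -
      t * (1 - t) * (‖ux‖ ^ 2 + ‖uz‖ ^ 2 - 2 * inner ℝ ux uz) := by
    rw [hw, norm_add_sq_real, norm_smul, norm_smul, inner_smul_left, inner_smul_right, mul_pow,
      mul_pow, Real.norm_eq_abs, Real.norm_eq_abs, sq_abs, sq_abs]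
    simp only [conj_trivial]
    ring
  have hQ : ‖w‖ ^ 2 ≤ Q4 x z m t := by
    unfold Q4
    rw [hw2, ← hx', ← hz']
    have : 0 ≤ t * (1 - t) := mul_nonneg ht0 (by linarith)
    nlinarith
  have hQ0 : 0 ≤ Q4 x z m t := (sq_nonneg _).trans hQ
  refine ⟨hQ0, ?_⟩
  have hws : ‖w‖ ≤ √(Q4 x z m t) := Real.le_sqrt_of_sq_le hQ
  have hin : (1 - t) * inner ℝ up ux + t * inner ℝ up uz = inner ℝ up w := by
    rw [hw, inner_add_right, inner_smul_right, inner_smul_right]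
  have hcs : -(‖up‖ * ‖w‖) ≤ inner ℝ up w := by
    have := abs_real_inner_le_norm up w
    exact (abs_le.1 this).1
  have hup : ‖up‖ = dist p m := by rw [hp', dist_comm]
  have hcs2 : ‖up‖ * ‖w‖ ≤ dist p m * √(Q4 x z m t) := by
    rw [hup]
    exact mul_le_mul_of_nonneg_left hws dist_nonneg
  have hsq : √(Q4 x z m t) ^ 2 = Q4 x z m t := Real.sq_sqrt hQ0
  have hQdef : Q4 x z m t = (1 - t) * ‖ux‖ ^ 2 + t * ‖uz‖ ^ 2 - t * (1 - t) * dist x z ^ 2 := by
    unfold Q4; rw [hx', hz']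
  have e1 : (1 - t) * dist p x ^ 2 ≤ (1 - t) * (‖up‖ ^ 2 + ‖ux‖ ^ 2 - 2 * inner ℝ up ux) :=
    mul_le_mul_of_nonneg_left h1 (by linarith)
  have e2 : t * dist p z ^ 2 ≤ t * (‖up‖ ^ 2 + ‖uz‖ ^ 2 - 2 * inner ℝ up uz) :=
    mul_le_mul_of_nonneg_left h2 ht0
  rw [← hup] at hcs2 ⊢
  rw [add_sq, hsq]
  linarith

/-! ### the angle lemma -/

/-- cosine of the comparison angle at `x` for distances `a = |xp|`, `b = |xq|`, `c = |pq|`. -/
def cosC (a b c : ℝ) : ℝ := (a ^ 2 + b ^ 2 - c ^ 2) / (2 * a * b)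

/-- angles are at least comparison angles -/
theorem inner_le (G : Crest.Agent.R226.GeoData n M) (hK : HasNonnegSectionalCurvature n M) {x : M}
    {u v : TangentSpace (𝓡 n) x} (hu : u ∈ G.K x) :
    inner ℝ u v ≤ (‖u‖ ^ 2 + ‖v‖ ^ 2 - dist (G.ex x u) (G.ex x v) ^ 2) / 2 := by
  have := hinge G hK hu v
  linarith

/-- **angle lemma**: if `u, u'` are minimising vectors of equal norm `s` with
`d(exp u, exp u')² ≥ 4 s² - δ²`, then for every `v` and minimising `u'`: two sided bound for `⟨u,v⟩`. -/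
theorem angle_lower (G : Crest.Agent.R226.GeoData n M) (hK : HasNonnegSectionalCurvature n M) {x : M}
    {u u' v : TangentSpace (𝓡 n) x} (hu : u ∈ G.K x) (hu' : u' ∈ G.K x) {s δ : ℝ}
    (hs : ‖u‖ = s) (hs' : ‖u'‖ = s) (hδ : 0 ≤ δ)
    (hopp : 4 * s ^ 2 - δ ^ 2 ≤ dist (G.ex x u) (G.ex x u') ^ 2) :
    -((s ^ 2 + ‖v‖ ^ 2 - dist (G.ex x u') (G.ex x v) ^ 2) / 2) - δ * ‖v‖ ≤ inner ℝ u v := by
  have h1 := hinge G hK hu u'
  have h2 := inner_le G hK (v := v) hu'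
  have h3 : ‖u + u'‖ ^ 2 ≤ δ ^ 2 := by
    rw [norm_add_sq_real]
    rw [hs, hs'] at h1 ⊢
    linarith
  have h4 : ‖u + u'‖ ≤ δ := by
    exact le_of_sq_le_sq (by simpa using h3) hδ
  have h5 : -(‖u + u'‖ * ‖v‖) ≤ inner ℝ (u + u') v := (abs_le.1 (abs_real_inner_le_norm _ _)).1
  rw [inner_add_left] at h5
  have h6 : ‖u + u'‖ * ‖v‖ ≤ δ * ‖v‖ := mul_le_mul_of_nonneg_right h4 (norm_nonneg _)
  rw [hs'] at h2
  linarith

end geo

end Crest.Agent.R249.Hin4_615
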