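import Crest.Agent.R249.Tv0_57
import Crest.Agent.R247.Bs2_84
import Crest.Agent.R275.ZC1_352
import Mathlib.MeasureTheory.Integral.CurveIntegral.Poincare

/-!
# R249, IDX-SC (helper789), part 1: closed frame fields on a simply connected manifold are gradients

* `Clo Y`     : the frame field `Y` is closed (read in every preferred chart);
* `exists_prim` : `M` simply connected, `SmF Y`, `Clo Y` => `Y = Gr f`, `f` smooth.
-/

set_option autoImplicit false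
set_option maxSynthPendingDepth 3
set_option linter.unusedSectionVars false
open scoped ContDiff ENNReal NNReal Topology Manifold Bundle RealInnerProductSpace
open MeasureTheory Set Filter Metric Bundle
open Crest.GeometryTopology.CoordMetric Crest.GeometryTopology.ChartCurvature
open Crest.Agent.R247.Ms322 Crest.Agent.R247.Dir593 Crest.Agent.R247.Frd657
open Crest.Agent.R275.ZC352 Crest.Agent.R249.Tv57 Crest.Agent.R247

namespace Crest.Agent.R249.Idx789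

noncomputable section

variable {n : ℕ} {M : Type} [MetricSpace M] [ChartedSpace (EuclideanSpace ℝ (Fin n)) M]
  [IsManifold (𝓡 n) ∞ M]
  [RiemannianBundle (fun p : M => TangentSpace (𝓡 n) p)]
  [IsContMDiffRiemannianBundle (𝓡 n) ∞ (EuclideanSpace ℝ (Fin n)) (fun p : M => TangentSpace (𝓡 n) p)]
  [IsRiemannianManifold (𝓡 n) M] [MeasurableSpace M] [BorelSpace M]
  [SecondCountableTopology M] [Nonempty M]

local notation "𝔼" => EuclideanSpace ℝ (Fin n)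

/-- closed frame field -/
def Clo (Y : M → EuclideanSpace ℝ (Fin n)) : Prop :=
  ∀ (x₀ : M) (i j : Fin n), ∀ b ∈ (chartAt (EuclideanSpace ℝ (Fin n)) x₀).target,
    pderiv i (cf x₀ j Y) b = pderiv j (cf x₀ i Y) b

/-- the one-form `∑ cf_i db^i` -/
def om (x₀ : M) (Y : M → EuclideanSpace ℝ (Fin n)) (b : EuclideanSpace ℝ (Fin n)) :
    EuclideanSpace ℝ (Fin n) →L[ℝ] ℝ :=
  ∑ i, cf x₀ i Y b • (EuclideanSpace.proj i : EuclideanSpace ℝ (Fin n) →L[ℝ] ℝ)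

theorem om_apply (x₀ : M) (Y : M → 𝔼) (b v : 𝔼) : om x₀ Y b v = ∑ i, cf x₀ i Y b * v i := by
  simp [om]

theorem contDiffOn_om (x₀ : M) {Y : M → 𝔼} (hY : SmF Y) :
    ContDiffOn ℝ ∞ (om x₀ Y) (chartAt 𝔼 x₀).target := by
  unfold om
  exact ContDiffOn.sum fun i _ => (hY x₀ i).smul contDiffOn_const

theorem fderiv_om (x₀ : M) {Y : M → 𝔼} (hY : SmF Y) {b : 𝔼} (hb : b ∈ (chartAt 𝔼 x₀).target)
    (v w : 𝔼) : fderiv ℝ (om x₀ Y) b v w = ∑ i, ∑ j, v i * w j * pderiv i (cf x₀ j Y) b := by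
  have hn : (chartAt 𝔼 x₀).target ∈ 𝓝 b := (chartAt 𝔼 x₀).open_target.mem_nhds hb
  have hd : ∀ j, DifferentiableAt ℝ (cf x₀ j Y) b := fun j =>
    ((hY x₀ j).contDiffAt hn).differentiableAt (by simp)
  have h1 : HasFDerivAt (om x₀ Y) (∑ j, (fderiv ℝ (cf x₀ j Y) b).smulRight
      (EuclideanSpace.proj j : 𝔼 →L[ℝ] ℝ)) b := by
    unfold om
    refine HasFDerivAt.fun_sum fun j _ => ?_
    exact (hd j).hasFDerivAt.smul_const _
  rw [h1.fderiv]
  simp only [sum_apply, ContinuousLinearMap.smulRight_apply, smul_apply, smul_eq_mul]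
  rw [Finset.sum_comm]
  refine Finset.sum_congr rfl fun j _ => ?_
  rw [fderiv_eq_sum, Finset.sum_mul]
  refine Finset.sum_congr rfl fun i _ => ?_
  have h2 : (EuclideanSpace.proj j : 𝔼 →L[ℝ] ℝ) w = w j := rfl
  rw [h2]
  ring

theorem om_symm (x₀ : M) {Y : M → 𝔼} (hY : SmF Y) (hc : Clo Y) {b : 𝔼}
    (hb : b ∈ (chartAt 𝔼 x₀).target) (v w : 𝔼) :
    fderiv ℝ (om x₀ Y) b v w = fderiv ℝ (om x₀ Y) b w v := by
  rw [fderiv_om x₀ hY hb, fderiv_om x₀ hY hb, Finset.sum_comm]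
  refine Finset.sum_congr rfl fun i _ => Finset.sum_congr rfl fun j _ => ?_
  rw [hc x₀ j i b hb]
  ring

/-- local primitive -/
theorem exists_loc (x₀ : M) {Y : M → 𝔼} (hY : SmF Y) (hc : Clo Y) :
    ∃ (r : ℝ) (F : 𝔼 → ℝ), 0 < r ∧ ball (chartAt 𝔼 x₀ x₀) r ⊆ (chartAt 𝔼 x₀).target ∧
      ∀ b ∈ ball (chartAt 𝔼 x₀ x₀) r, HasFDerivAt F (om x₀ Y b) b := by
  obtain ⟨r, hr, hsub⟩ := Metric.isOpen_iff.1 (chartAt 𝔼 x₀).open_target _
    ((chartAt 𝔼 x₀).map_source (mem_chart_source 𝔼 x₀))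
  have hd : DifferentiableOn ℝ (om x₀ Y) (ball (chartAt 𝔼 x₀ x₀) r) := fun z hz =>
    (((contDiffOn_om x₀ hY).contDiffAt
      ((chartAt 𝔼 x₀).open_target.mem_nhds (hsub hz))).differentiableAt
        (by simp)).differentiableWithinAt
  obtain ⟨F, hF⟩ := (convex_ball (chartAt 𝔼 x₀ x₀) r).exists_forall_hasFDerivAt_of_fderiv_symmetric
    (𝕜 := ℝ) isOpen_ball hd (fun z hz v w => om_symm x₀ hY hc (hsub hz) v w)
  exact ⟨r, F, hr, hsub, hF⟩

theorem smooth_of_hasFDerivAt (x₀ : M) {Y : M → 𝔼} (hY : SmF Y) {F : 𝔼 → ℝ} {U : Set 𝔼}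
    (hU : IsOpen U) (hUt : U ⊆ (chartAt 𝔼 x₀).target)
    (hF : ∀ b ∈ U, HasFDerivAt F (om x₀ Y b) b) : ContDiffOn ℝ ∞ F U := by
  rw [contDiffOn_infty_iff_fderiv_of_isOpen hU]
  refine ⟨fun b hb => (hF b hb).differentiableAt.differentiableWithinAt, ?_⟩
  exact ((contDiffOn_om x₀ hY).mono hUt).congr fun b hb => (hF b hb).fderiv

/-- the coordinates of the primitive -/
theorem pderiv_prim (x₀ : M) {Y : M → 𝔼} {F : 𝔼 → ℝ} {b : 𝔼}
    (hF : HasFDerivAt F (om x₀ Y b) b) (i : Fin n) : pderiv i F b = cf x₀ i Y b := by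
  unfold Crest.GeometryTopology.CoordMetric.pderiv
  rw [hF.fderiv, om_apply]
  simp

theorem Gr_prim (x₀ : M) {Y : M → 𝔼} {F : 𝔼 → ℝ} {z : M} (hz : z ∈ (chartAt 𝔼 x₀).source)
    (hF : HasFDerivAt F (om x₀ Y (chartAt 𝔼 x₀ z)) (chartAt 𝔼 x₀ z)) :
    Gr (n := n) (fun y => F (chartAt 𝔼 x₀ y)) z = Y z := by
  rw [Gr_eq_sum x₀ hz, expand_dxf x₀ hz (Y z)]
  refine Finset.sum_congr rfl fun i _ => ?_
  congr 1
  have h1 : (fun b => F (chartAt 𝔼 x₀ ((chartAt 𝔼 x₀).symm b))) =ᶠ[𝓝 (chartAt 𝔼 x₀ z)] F := by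
    filter_upwards [(chartAt 𝔼 x₀).open_target.mem_nhds ((chartAt 𝔼 x₀).map_source hz)] with b hb
    rw [(chartAt 𝔼 x₀).right_inv hb]
  have h2 : pderiv i (fun b => F (chartAt 𝔼 x₀ ((chartAt 𝔼 x₀).symm b))) (chartAt 𝔼 x₀ z) =
      pderiv i F (chartAt 𝔼 x₀ z) := by
    unfold Crest.GeometryTopology.CoordMetric.pderiv
    rw [h1.fderiv_eq]
  rw [h2, pderiv_prim x₀ hF, cf, (chartAt 𝔼 x₀).left_inv hz]

/-- a function with vanishing gradient near `z` is constant near `z` -/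
theorem const_of_Gr {f : M → ℝ} {z : M}
    (hf : ∀ᶠ y in 𝓝 z, MDifferentiableAt (𝓡 n) 𝓘(ℝ, ℝ) f y ∧ Gr (n := n) f y = 0) :
    ∀ᶠ y in 𝓝 z, f y = f z := by
  have hz := mem_chart_source 𝔼 z
  have hat := (chartAt 𝔼 z).map_source hz
  have h1 : ∀ᶠ b in 𝓝 (chartAt 𝔼 z z), b ∈ (chartAt 𝔼 z).target ∧
      MDifferentiableAt (𝓡 n) 𝓘(ℝ, ℝ) f ((chartAt 𝔼 z).symm b) ∧
      Gr (n := n) f ((chartAt 𝔼 z).symm b) = 0 := by
    have hc : ContinuousAt (chartAt 𝔼 z).symm (chartAt 𝔼 z z) :=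
      (chartAt 𝔼 z).continuousAt_symm hat
    have h2 := hc.eventually (p := fun y => MDifferentiableAt (𝓡 n) 𝓘(ℝ, ℝ) f y ∧
      Gr (n := n) f y = 0) (by rw [(chartAt 𝔼 z).left_inv hz]; exact hf)
    filter_upwards [h2, (chartAt 𝔼 z).open_target.mem_nhds hat] with b hb hb'
    exact ⟨hb', hb⟩
  obtain ⟨r, hr, hball⟩ := Metric.eventually_nhds_iff_ball.1 h1
  have hd : ∀ b ∈ ball (chartAt 𝔼 z z) r,
      DifferentiableAt ℝ (fun b => f ((chartAt 𝔼 z).symm b)) b := by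
    intro b hb
    obtain ⟨hbt, hm, -⟩ := hball b hb
    have h3 : MDifferentiableAt (𝓡 n) (𝓡 n) (chartAt 𝔼 z).symm b :=
      ((contMDiffOn_chart_symm (I := 𝓡 n) (n := ∞) (x := z)).contMDiffAt
        ((chartAt 𝔼 z).open_target.mem_nhds hbt)).mdifferentiableAt (by simp)
    exact (hm.comp b h3).differentiableAt
  have h0 : ∀ b ∈ ball (chartAt 𝔼 z z) r, fderiv ℝ (fun b => f ((chartAt 𝔼 z).symm b)) b = 0 := by
    intro b hb
    obtain ⟨hbt, -, hG⟩ := hball b hb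
    ext v
    rw [fderiv_eq_sum]
    simp only [zero_apply]
    refine Finset.sum_eq_zero fun i _ => ?_
    have h4 := inner_Ef_Gr z ((chartAt 𝔼 z).map_target hbt) i f
    rw [hG, inner_zero_right, (chartAt 𝔼 z).right_inv hbt] at h4
    rw [← h4, mul_zero]
  have hcst : ∀ b ∈ ball (chartAt 𝔼 z z) r,
      f ((chartAt 𝔼 z).symm b) = f ((chartAt 𝔼 z).symm (chartAt 𝔼 z z)) := by
    intro b hb
    refine (convex_ball (chartAt 𝔼 z z) r).is_const_of_fderivWithin_eq_zero (𝕜 := ℝ)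
      (f := fun b => f ((chartAt 𝔼 z).symm b))
      (fun w hw => (hd w hw).differentiableWithinAt) ?_ hb (mem_ball_self hr)
    intro w hw
    rw [fderivWithin_of_isOpen isOpen_ball hw]
    exact h0 w hw
  have h5 : ∀ᶠ y in 𝓝 z, chartAt 𝔼 z y ∈ ball (chartAt 𝔼 z z) r :=
    ((chartAt 𝔼 z).continuousAt hz).eventually (ball_mem_nhds _ hr)
  filter_upwards [h5, (chartAt 𝔼 z).open_source.mem_nhds hz] with y hy hy'
  have h6 := hcst _ hy
  rwa [(chartAt 𝔼 z).left_inv hy', (chartAt 𝔼 z).left_inv hz] at h6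

/-- **closed fields on a simply connected manifold are gradients.** -/
theorem exists_prim [SimplyConnectedSpace M] {Y : M → 𝔼} (hY : SmF Y) (hc : Clo Y) :
    ∃ f : M → ℝ, ContMDiff (𝓡 n) 𝓘(ℝ, ℝ) ∞ f ∧ ∀ z, Gr (n := n) f z = Y z := by
  choose r F hr hsub hF using fun x₀ : M => exists_loc x₀ hY hc
  let U : M → Set M := fun i => (chartAt 𝔼 i).source ∩ chartAt 𝔼 i ⁻¹' ball (chartAt 𝔼 i i) (r i)
  have hU : ∀ i, IsOpen (U i) := fun i =>
    (chartAt 𝔼 i).isOpen_inter_preimage isOpen_ball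
  have hUi : ∀ i, i ∈ U i := fun i => ⟨mem_chart_source 𝔼 i, mem_ball_self (hr i)⟩
  have hsm : ∀ i, ∀ z ∈ U i, ContMDiffAt (𝓡 n) 𝓘(ℝ, ℝ) ∞ (fun y => F i (chartAt 𝔼 i y)) z := by
    intro i z hz
    have h1 : ContDiffAt ℝ ∞ (F i) (chartAt 𝔼 i z) :=
      (smooth_of_hasFDerivAt i hY isOpen_ball (hsub i) (hF i)).contDiffAt
        (isOpen_ball.mem_nhds hz.2)
    have h2 : ContMDiffAt (𝓡 n) (𝓡 n) ∞ (chartAt 𝔼 i) z :=
      (contMDiffOn_chart (I := 𝓡 n) (x := i)).contMDiffAt ((chartAt 𝔼 i).open_source.mem_nhds hz.1)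
    exact h1.contMDiffAt.comp z h2
  have hGr : ∀ i, ∀ z ∈ U i, Gr (n := n) (fun y => F i (chartAt 𝔼 i y)) z = Y z := fun i z hz =>
    Gr_prim i hz.1 (hF i _ hz.2)
  have hloc : ∀ i j, ∀ z ∈ U i, z ∈ U j → ∀ᶠ w in 𝓝 z,
      F i (chartAt 𝔼 i w) - F j (chartAt 𝔼 j w) = F i (chartAt 𝔼 i z) - F j (chartAt 𝔼 j z) := by
    intro i j z hi hj
    refine const_of_Gr (n := n) (f := fun w => F i (chartAt 𝔼 i w) - F j (chartAt 𝔼 j w)) ?_
    filter_upwards [(hU i).mem_nhds hi, (hU j).mem_nhds hj] with y hy hy'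
    have h1 := (hsm i y hy).mdifferentiableAt (by simp)
    have h2 := (hsm j y hy').mdifferentiableAt (by simp)
    refine ⟨h1.sub h2, ?_⟩
    have h3 : (fun w => F i (chartAt 𝔼 i w) - F j (chartAt 𝔼 j w)) =
        fun w => F i (chartAt 𝔼 i w) + (-1) * F j (chartAt 𝔼 j w) := by
      funext w; ring
    have h4 : MDifferentiableAt (𝓡 n) 𝓘(ℝ, ℝ) (fun w => (-1) * F j (chartAt 𝔼 j w)) y := by
      have h5 : ContMDiffAt (𝓡 n) 𝓘(ℝ, ℝ) ∞ (fun w => (-1) * F j (chartAt 𝔼 j w)) y :=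
        contMDiffAt_const.mul (hsm j y hy')
      exact h5.mdifferentiableAt (by simp)
    rw [h3, Gr_add (n := n) h1 h4, Gr_const_mul (n := n) (-1) h2, hGr i y hy, hGr j y hy']
    simp
  have : LocallyPathConnectedSpace M := ChartedSpace.locallyPathConnectedSpace 𝔼 M
  let P : LPS M ℝ :=
    { ι := M
      U := U
      isOpen := hU
      cover := fun y => ⟨y, hUi y⟩
      h := fun i x => F i (chartAt 𝔼 i x)
      loc := hloc }
  obtain ⟨f, -, hf⟩ := P.exists_isPrim (Classical.arbitrary M) (0 : ℝ)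
  have hfe : ∀ z, ∀ᶠ w in 𝓝 z, f w = f z - F z (chartAt 𝔼 z z) + F z (chartAt 𝔼 z w) := by
    intro z
    filter_upwards [hf z z (hUi z)] with w hw
    have hw' : f w - f z = F z (chartAt 𝔼 z w) - F z (chartAt 𝔼 z z) := hw
    linarith
  refine ⟨f, fun z => ?_, fun z => ?_⟩
  · exact (contMDiffAt_const.add (hsm z z (hUi z))).congr_of_eventuallyEq (hfe z)
  · have h1 : f =ᶠ[𝓝 z] fun w => f z - F z (chartAt 𝔼 z z) + F z (chartAt 𝔼 z w) := hfe z
    rw [Gr_congr h1, Gr_add mdifferentiableAt_const ((hsm z z (hUi z)).mdifferentiableAt (by simp)),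
      Gr_const, zero_add, hGr z z (hUi z)]

/-- **`b₁ = 0`**: a closed and weakly coclosed smooth field on a closed simply connected manifold
vanishes. -/
theorem eq_zero_of_coclosed [CompactSpace M] [SimplyConnectedSpace M] {Y : M → 𝔼} (hY : SmF Y)
    (hc : Clo Y) (hd : ∀ v : M → ℝ, ContMDiff (𝓡 n) 𝓘(ℝ, ℝ) ∞ v →
      ∫ z, ⟪Y z, Gr (n := n) v z⟫ ∂(μHE[n] : Measure M) = 0) (z : M) : Y z = 0 := by
  obtain ⟨f, hf, hfY⟩ := exists_prim hY hc
  have h1 := hd f hf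
  have hcont : Continuous (Bo84.mGam n f f) := (Bs84.contMDiff_mGam hf hf).continuous
  have h2 : ∀ z, ⟪Y z, Gr (n := n) f z⟫ = Bo84.mGam n f f z := fun z => by
    rw [← hfY z]; exact inner_Gr_eq_mGam f f z
  simp only [h2] at h1
  have hpos : ∀ z, 0 ≤ Bo84.mGam n f f z := fun z => by
    rw [← norm_Gr_sq_eq_mGam]; positivity
  have : IsLocallyFiniteMeasure (μHE[n] : Measure M) := isLocallyFiniteMeasure n M
  have : (μHE[n] : Measure M).IsOpenPosMeasure := isOpenPosMeasure n M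
  have hint : Integrable (Bo84.mGam n f f) (μHE[n] : Measure M) :=
    hcont.integrable_of_hasCompactSupport (HasCompactSupport.of_compactSpace _)
  have h3 := (integral_eq_zero_iff_of_nonneg hpos hint).1 h1
  have h4 : Bo84.mGam n f f = fun _ => 0 :=
    (hcont.ae_eq_iff_eq _ continuous_const).1 h3
  have h5 : ‖Gr (n := n) f z‖ ^ 2 = 0 := by
    rw [norm_Gr_sq_eq_mGam, h4]
  rw [← hfY z]
  exact norm_eq_zero.1 (by simpa using h5)

end

end Crest.Agent.R249.Idx789
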