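import Crest.Agent.R249.SgE_129
import Crest.Agent.R249.C2j_198
import Crest.Agent.R249.Alg1_104

/-!
# R249, IDX (helper789), part 3: the index density of the untwisted complex is bounded by `|Rm|²`

For a `Frame 4 S`, `ε : S →ₐ[ℝ] ℝ` and `|ε (Rm i j k l)| ≤ b`:
`|ε tr Q₀²|, |ε tr Q₁²| ≤ 1024 b²`, `|ε tO e0|, |ε tO tan| ≤ 1024 b²`.
-/

set_option autoImplicit false
set_option linter.unusedSectionVars false

open Finset Matrix
open Crest.Agent.R249.Fr129 Crest.Agent.R249.C2_198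

noncomputable section

namespace Crest.Agent.R249.Idx789

theorem abs_sum_le_card {ι : Type*} [Fintype ι] {f : ι → ℝ} {c : ℝ} (h : ∀ i, |f i| ≤ c) :
    |∑ i, f i| ≤ Fintype.card ι * c := by
  refine (Finset.abs_sum_le_sum_abs _ _).trans ?_
  refine (Finset.sum_le_card_nsmul _ _ c fun i _ => h i).trans ?_
  simp

section bounds

variable {S : Type*} [CommRing S] [Algebra ℝ S] (F : Frame 4 S) (ε : S →ₐ[ℝ] ℝ) {b : ℝ}

theorem abs_trace_mul_le {κ : Type*} [Fintype κ] (A B : Matrix κ κ S) {c d : ℝ}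
    (hc : 0 ≤ c) (hA : ∀ i j, |ε (A i j)| ≤ c) (hB : ∀ i j, |ε (B i j)| ≤ d) :
    |ε (A * B).trace| ≤ Fintype.card κ * (Fintype.card κ * (c * d)) := by
  rw [Matrix.trace, map_sum]
  refine abs_sum_le_card fun i => ?_
  rw [Matrix.diag_apply, Matrix.mul_apply, map_sum]
  refine abs_sum_le_card fun j => ?_
  rw [map_mul, abs_mul]
  exact mul_le_mul (hA i j) (hB j i) (abs_nonneg _) hc

theorem map_half : ε (Frame.half : S) = 1 / 2 := by
  have h : ε (2 * (Frame.half : S)) = 1 := by rw [Frame.two_half, map_one]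
  rw [map_mul, map_ofNat] at h
  linarith

variable (hb : ∀ i j k l, |ε (F.Rm i j k l)| ≤ b)
include hb

theorem b_nonneg : 0 ≤ b := (abs_nonneg _).trans (hb 0 0 0 0)

theorem EE_le (k l : Fin 4) (c : Fin 3) : |ε (EE F k l c)| ≤ 2 * b := by
  fin_cases c <;> simp only [EE, Fin.zero_eta, Fin.mk_one, Fin.reduceFinMk, Matrix.cons_val_zero,
    Matrix.cons_val_one, Matrix.cons_val, map_add, map_sub, map_neg]
  · have h1 := abs_le.1 (hb k l 0 1)
    have h2 := abs_le.1 (hb k l 2 3)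
    exact abs_le.2 ⟨by linarith, by linarith⟩
  · have h1 := abs_le.1 (hb k l 0 2)
    have h2 := abs_le.1 (hb k l 1 3)
    exact abs_le.2 ⟨by linarith, by linarith⟩
  · have h1 := abs_le.1 (hb k l 0 3)
    have h2 := abs_le.1 (hb k l 1 2)
    exact abs_le.2 ⟨by linarith, by linarith⟩

theorem CC_le (c d : Fin 3) : |ε (CC F c d)| ≤ 2 * b := by
  rw [CC, map_mul, map_half, abs_mul]
  have key : |ε (![EE F 0 1 c - EE F 2 3 c, EE F 0 2 c + EE F 1 3 c,
      EE F 0 3 c - EE F 1 2 c] d)| ≤ 4 * b := by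
    have h := fun k l => abs_le.1 (EE_le F ε hb k l c)
    fin_cases d <;> simp only [Fin.zero_eta, Fin.mk_one, Fin.reduceFinMk, Matrix.cons_val_zero,
      Matrix.cons_val_one, Matrix.cons_val, map_add, map_sub]
    · have h1 := h 0 1
      have h2 := h 2 3
      exact abs_le.2 ⟨by linarith, by linarith⟩
    · have h1 := h 0 2
      have h2 := h 1 3
      exact abs_le.2 ⟨by linarith, by linarith⟩
    · have h1 := h 0 3
      have h2 := h 1 2
      exact abs_le.2 ⟨by linarith, by linarith⟩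
  rw [abs_of_nonneg (by norm_num : (0:ℝ) ≤ 1 / 2)]
  linarith

theorem Q0_le (i j : Fin 4) : |ε (Q F (e0 F) (cK S) i j)| ≤ 8 * b := by
  have h0 := b_nonneg F ε hb
  have h1 : ∀ c d, 2 * |ε (CC F c d)| ≤ 8 * b := fun c d => by
    have := CC_le F ε hb c d
    linarith
  have h2 : ∀ c d c' d', 2 * |ε (CC F c d) + ε (CC F c' d')| ≤ 8 * b := fun c d c' d' => by
    have h3 := CC_le F ε hb c d
    have h4 := CC_le F ε hb c' d'
    have h5 := abs_add_le (ε (CC F c d)) (ε (CC F c' d'))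
    linarith
  rw [Q0_val]
  fin_cases i <;> fin_cases j <;>
    simp [map_add, map_mul, map_neg, map_ofNat, -neg_mul] <;>
    first
      | exact h0
      | exact h1 _ _
      | exact h2 _ _ _ _

theorem Q1_le (i j : Fin 4) : |ε (Q F F.tan (fun i => (cK S i)ᵀ) i j)| ≤ 4 * b := by
  rw [Q1_val]
  change |ε (∑ m, F.Rm m i j m)| ≤ 4 * b
  rw [map_sum]
  have h1 := abs_sum_le_card (f := fun m => ε (F.Rm m i j m)) (fun m => hb m i j m)
  simpa using h1

theorem curvE_le (k l i j : Fin 4) : |ε (F.curv (e0 F) k l i j)| ≤ 2 * b := by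
  have h0 := b_nonneg F ε hb
  rw [curv_e0]
  have h := fun c => EE_le F ε hb k l c
  fin_cases i <;> fin_cases j <;>
    simp [cr4, map_neg] <;>
    first
      | exact h0
      | exact h _

theorem curvT_le (k l i j : Fin 4) : |ε (F.curv F.tan k l i j)| ≤ 2 * b := by
  have h0 := b_nonneg F ε hb
  rw [F.curv_tan k l j i]
  exact (hb k l j i).trans (by linarith)

theorem tO_le {a : Fin 4 → Matrix (Fin 4) (Fin 4) S}
    (ha : ∀ k l i j, |ε (F.curv a k l i j)| ≤ 2 * b) : |ε (tO F a)| ≤ 1024 * b ^ 2 := by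
  have h0 := b_nonneg F ε hb
  rw [tO, map_sum]
  have h1 : |∑ i, ε (∑ j, (F.curv a i j * F.curv a i j).trace)| ≤
      Fintype.card (Fin 4) * (Fintype.card (Fin 4) * (Fintype.card (Fin 4) *
        (Fintype.card (Fin 4) * ((2 * b) * (2 * b))))) := by
    refine abs_sum_le_card fun i => ?_
    rw [map_sum]
    refine abs_sum_le_card fun j => ?_
    exact abs_trace_mul_le ε _ _ (by linarith) (ha i j) (ha i j)
  refine h1.trans (le_of_eq ?_)
  simp only [Fintype.card_fin]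
  push_cast
  ring

/-- **the density of the untwisted complex is `O(|Rm|²)`** -/
theorem dens_le :
    |1 / (32 * Real.pi ^ 2) * ε (Q F (e0 F) (cK S) * Q F (e0 F) (cK S)).trace
        + 1 / (192 * Real.pi ^ 2) * ε (tO F (e0 F))
      - (1 / (32 * Real.pi ^ 2) *
          ε (Q F F.tan (fun i => (cK S i)ᵀ) * Q F F.tan (fun i => (cK S i)ᵀ)).trace
        + 1 / (192 * Real.pi ^ 2) * ε (tO F F.tan))| ≤ 6 * b ^ 2 := by
  have h0 := b_nonneg F ε hb
  have e1 := abs_trace_mul_le ε _ _ (by linarith) (Q0_le F ε hb) (Q0_le F ε hb)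
  have e2 := abs_trace_mul_le ε _ _ (by linarith) (Q1_le F ε hb) (Q1_le F ε hb)
  have e3 := tO_le F ε hb (curvE_le F ε hb)
  have e4 := tO_le F ε hb (curvT_le F ε hb)
  simp only [Fintype.card_fin] at e1 e2
  push_cast at e1 e2
  set x1 := ε (Q F (e0 F) (cK S) * Q F (e0 F) (cK S)).trace
  set x2 := ε (Q F F.tan (fun i => (cK S i)ᵀ) * Q F F.tan (fun i => (cK S i)ᵀ)).trace
  set x3 := ε (tO F (e0 F))
  set x4 := ε (tO F F.tan)
  have hpi : (9:ℝ) ≤ Real.pi ^ 2 := by nlinarith [Real.pi_gt_three]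
  have k1 : 1 / (32 * Real.pi ^ 2) ≤ 1 / 288 := by
    apply one_div_le_one_div_of_le <;> linarith
  have k2 : 1 / (192 * Real.pi ^ 2) ≤ 1 / 1728 := by
    apply one_div_le_one_div_of_le <;> linarith
  have k1' : 0 ≤ 1 / (32 * Real.pi ^ 2) := by positivity
  have k2' : 0 ≤ 1 / (192 * Real.pi ^ 2) := by positivity
  have m1 : |x1 - x2| ≤ 1280 * b ^ 2 := by
    refine (abs_sub _ _).trans ?_
    nlinarith
  have m2 : |x3 - x4| ≤ 2048 * b ^ 2 := by
    refine (abs_sub _ _).trans ?_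
    linarith
  have e : 1 / (32 * Real.pi ^ 2) * x1 + 1 / (192 * Real.pi ^ 2) * x3
      - (1 / (32 * Real.pi ^ 2) * x2 + 1 / (192 * Real.pi ^ 2) * x4)
      = 1 / (32 * Real.pi ^ 2) * (x1 - x2) + 1 / (192 * Real.pi ^ 2) * (x3 - x4) := by ring
  rw [e]
  refine (abs_add_le _ _).trans ?_
  rw [abs_mul, abs_mul, abs_of_nonneg k1', abs_of_nonneg k2']
  have n1 : 1 / (32 * Real.pi ^ 2) * |x1 - x2| ≤ 1 / 288 * (1280 * b ^ 2) :=
    mul_le_mul k1 m1 (abs_nonneg _) (by norm_num)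
  have n2 : 1 / (192 * Real.pi ^ 2) * |x3 - x4| ≤ 1 / 1728 * (2048 * b ^ 2) :=
    mul_le_mul k2 m2 (abs_nonneg _) (by norm_num)
  nlinarith [sq_nonneg b]

end bounds

open Crest.GeometryTopology.CoordMetric Crest.Agent.R202.Tens Crest.Agent.R249.Sg129 in
/-- the curvature components in an orthonormal frame, from the bound of the curvature form -/
theorem ONF_Rm_le {n : ℕ} {g : MetricField n} {U : Set (EuclideanSpace ℝ (Fin n))}
    {x : EuclideanSpace ℝ (Fin n)} {e : Fin n → EuclideanSpace ℝ (Fin n) → EuclideanSpace ℝ (Fin n)}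
    (h : ONF g U x e) {B : ℝ}
    (hB : ∀ u v w z : EuclideanSpace ℝ (Fin n), |Alg1_104.Rm g x u v w z| ≤
      B * Real.sqrt (bil (g x) u u) * Real.sqrt (bil (g x) v v) *
        Real.sqrt (bil (g x) w w) * Real.sqrt (bil (g x) z z)) (i j k l : Fin n) :
    |ev (h.frameOf.Rm i j k l)| ≤ B := by
  have h1 := h.orth.self_of_nhds
  have h2 := hB (e i x) (e j x) (e k x) (e l x)
  rw [h1 i i, h1 j j, h1 k k, h1 l l] at h2
  simp only [if_true, Real.sqrt_one, mul_one] at h2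
  rw [h.ev_Rf]
  exact h2

end Crest.Agent.R249.Idx789
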