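import Crest.Agent.R249.Vf2_281
import Crest.Agent.R249.Grn5_324
import Crest.Agent.R275.ZC1_352
import Mathlib.MeasureTheory.Integral.CurveIntegral.Poincare

/-!
# R249, IDX (helper789), part 4: `b₁ = 0` for tangent vector fields

* `exists_prim_field` : a smooth vector field with symmetric `∇Y` on a simply connected manifold is a
  gradient;
* `field_eq_zero` : if moreover `M` is closed and `div Y = 0`, then `Y = 0`.
-/

set_option autoImplicit false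
set_option maxSynthPendingDepth 3
set_option linter.unusedSectionVars false

open Bundle Set MeasureTheory Manifold Filter Metric
open scoped ContDiff Topology
open Crest.GeometryTopology.CoordMetric Crest.GeometryTopology.ChartCurvature
  Crest.GeometryTopology.PointedLimit
open Crest.Agent.R202.Tens Crest.Agent.R247.Bo84 Crest.Agent.R249.Vf281
open Crest.Agent.R275.ZC352

noncomputable section

namespace Crest.Agent.R249.Idx789

section prim

variable {n : ℕ} {M : Type} [TopologicalSpace M] [ChartedSpace (EuclideanSpace ℝ (Fin n)) M]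
  [IsManifold 𝓘(ℝ, EuclideanSpace ℝ (Fin n)) ∞ M]
  [RiemannianBundle (fun x : M => TangentSpace 𝓘(ℝ, EuclideanSpace ℝ (Fin n)) x)]
  [IsContMDiffRiemannianBundle 𝓘(ℝ, EuclideanSpace ℝ (Fin n)) ∞ (EuclideanSpace ℝ (Fin n))
      (fun x : M => TangentSpace 𝓘(ℝ, EuclideanSpace ℝ (Fin n)) x)]

local notation "𝔼" => EuclideanSpace ℝ (Fin n)
local notation "𝓘E" => 𝓘(ℝ, EuclideanSpace ℝ (Fin n))

/-- the one-form of a vector field in the chart at `x₀` -/
def omf (x₀ : M) (Y : (p : M) → TangentSpace 𝓘(ℝ, EuclideanSpace ℝ (Fin n)) p)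
    (b : EuclideanSpace ℝ (Fin n)) : EuclideanSpace ℝ (Fin n) →L[ℝ] ℝ :=
  bil (chartMetric n M x₀ b) (vCh n x₀ Y b)

variable {Y : (p : M) → TangentSpace 𝓘(ℝ, EuclideanSpace ℝ (Fin n)) p}

theorem contDiffAt_Gf' {g : MetricField n} {U : Set 𝔼} (hg : IsRiemannianOn g U) {x : 𝔼}
    (hx : x ∈ U) : ContDiffAt ℝ ∞ (fun y => bil (g y)) x := by
  have h : ContDiffOn ℝ ∞ (fun y => bil (g y)) U := by
    have : ContDiffOn ℝ ∞ (fun y => ∑ i, ∑ j, g y i j • eij i j) U :=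
      ContDiffOn.sum fun i _ => ContDiffOn.sum fun j _ =>
        (hg.contDiffOn i j).smul contDiffOn_const
    exact this
  exact h.contDiffAt (hg.isOpen.mem_nhds hx)

theorem contDiffOn_omf (x₀ : M) (hY : ∀ z, VSm n ∞ Y z) :
    ContDiffOn ℝ ∞ (omf x₀ Y) (chartAt 𝔼 x₀).target := by
  intro b hb
  have hg := isRiemannianOn_chartMetric (n := n) x₀
  have h1 : ContDiffAt ℝ ∞ (vCh n x₀ Y) b := VSm.chart le_rfl hb (hY _)
  have h2 : ContDiffAt ℝ ∞ (fun b => bil (chartMetric n M x₀ b)) b := contDiffAt_Gf' hg hb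
  exact (h2.clm_apply h1).contDiffWithinAt

theorem fderiv_omf (x₀ : M) (hY : ∀ z, VSm n ∞ Y z) {b : 𝔼} (hb : b ∈ (chartAt 𝔼 x₀).target)
    (v w : 𝔼) : fderiv ℝ (omf x₀ Y) b v w =
      bil (chartMetric n M x₀ b) (cov (chartMetric n M x₀) (vCh n x₀ Y) b v) w
        + bil (chartMetric n M x₀ b) (vCh n x₀ Y b) (Gam (chartMetric n M x₀) b v w) := by
  have hg := isRiemannianOn_chartMetric (n := n) x₀
  have h1 : DifferentiableAt ℝ (vCh n x₀ Y) b :=
    (VSm.chart le_rfl hb (hY _)).differentiableAt (by simp)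
  have h3 : DifferentiableAt ℝ (omf x₀ Y) b :=
    ((contDiffOn_omf x₀ hY).contDiffAt ((chartAt 𝔼 x₀).open_target.mem_nhds hb)).differentiableAt
      (by simp)
  have h2 := fderiv_bil hg hb h1 (differentiableAt_const w) v
  have h4 : fderiv ℝ (fun y => (omf x₀ Y y) w) b v = fderiv ℝ (omf x₀ Y) b v w := by
    rw [fderiv_clm_apply h3 (differentiableAt_const w)]
    simp
  have h5 : cov (chartMetric n M x₀) (fun _ => w) b v = Gam (chartMetric n M x₀) b v w := by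
    rw [cov_apply, fderiv_fun_const]
    simp
  rw [h5] at h2
  rw [← h4]
  exact h2

theorem omf_symm (x₀ : M) (hY : ∀ z, VSm n ∞ Y z)
    (hc : ∀ (z : M) (v w : TangentSpace 𝓘E z),
      (inner ℝ (mCov n Y z v) w : ℝ) = inner ℝ (mCov n Y z w) v)
    {b : 𝔼} (hb : b ∈ (chartAt 𝔼 x₀).target) (v w : 𝔼) :
    fderiv ℝ (omf x₀ Y) b v w = fderiv ℝ (omf x₀ Y) b w v := by
  have hg := isRiemannianOn_chartMetric (n := n) x₀
  rw [fderiv_omf x₀ hY hb, fderiv_omf x₀ hY hb, Gam_symm hg hb w v]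
  congr 1
  have h1 := hc ((chartAt 𝔼 x₀).symm b) (dSy x₀ b v) (dSy x₀ b w)
  have hY1 : VSm n 1 Y ((chartAt 𝔼 x₀).symm b) := (hY _).of_le (by simp)
  rw [mCov_chart hb hY1, mCov_chart hb hY1, ← bil_chartMetric, ← bil_chartMetric] at h1
  exact h1

/-- local primitive -/
theorem exists_locf (x₀ : M) (hY : ∀ z, VSm n ∞ Y z)
    (hc : ∀ (z : M) (v w : TangentSpace 𝓘E z),
      (inner ℝ (mCov n Y z v) w : ℝ) = inner ℝ (mCov n Y z w) v) :
    ∃ (r : ℝ) (F : 𝔼 → ℝ), 0 < r ∧ ball (chartAt 𝔼 x₀ x₀) r ⊆ (chartAt 𝔼 x₀).target ∧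
      ∀ b ∈ ball (chartAt 𝔼 x₀ x₀) r, HasFDerivAt F (omf x₀ Y b) b := by
  obtain ⟨r, hr, hsub⟩ := Metric.isOpen_iff.1 (chartAt 𝔼 x₀).open_target _
    ((chartAt 𝔼 x₀).map_source (mem_chart_source 𝔼 x₀))
  have hd : DifferentiableOn ℝ (omf x₀ Y) (ball (chartAt 𝔼 x₀ x₀) r) := fun z hz =>
    (((contDiffOn_omf x₀ hY).contDiffAt
      ((chartAt 𝔼 x₀).open_target.mem_nhds (hsub hz))).differentiableAt
        (by simp)).differentiableWithinAt
  obtain ⟨F, hF⟩ := (convex_ball (chartAt 𝔼 x₀ x₀) r).exists_forall_hasFDerivAt_of_fderiv_symmetric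
    (𝕜 := ℝ) isOpen_ball hd (fun z hz v w => omf_symm x₀ hY hc (hsub hz) v w)
  exact ⟨r, F, hr, hsub, hF⟩

theorem smooth_of_hasFDerivAt_omf (x₀ : M) (hY : ∀ z, VSm n ∞ Y z) {F : 𝔼 → ℝ} {U : Set 𝔼}
    (hU : IsOpen U) (hUt : U ⊆ (chartAt 𝔼 x₀).target)
    (hF : ∀ b ∈ U, HasFDerivAt F (omf x₀ Y b) b) : ContDiffOn ℝ ∞ F U := by
  rw [contDiffOn_infty_iff_fderiv_of_isOpen hU]
  refine ⟨fun b hb => (hF b hb).differentiableAt.differentiableWithinAt, ?_⟩
  exact ((contDiffOn_omf x₀ hY).mono hUt).congr fun b hb => (hF b hb).fderiv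

theorem mgrad_prim (x₀ : M) {F : 𝔼 → ℝ} {z : M} (hz : z ∈ (chartAt 𝔼 x₀).source)
    (hF : HasFDerivAt F (omf x₀ Y (chartAt 𝔼 x₀ z)) (chartAt 𝔼 x₀ z)) :
    mgrad n (fun y => F (chartAt 𝔼 x₀ y)) z = Y z := by
  have hb := (chartAt 𝔼 x₀).map_source hz
  have hg := isRiemannianOn_chartMetric (n := n) x₀
  have h1 : inCh n x₀ (fun y => F (chartAt 𝔼 x₀ y)) =ᶠ[𝓝 (chartAt 𝔼 x₀ z)] F := by
    filter_upwards [(chartAt 𝔼 x₀).open_target.mem_nhds hb] with b hb'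
    rw [inCh, (chartAt 𝔼 x₀).right_inv hb']
  have h2 : grad (chartMetric n M x₀) (inCh n x₀ (fun y => F (chartAt 𝔼 x₀ y)))
      (chartAt 𝔼 x₀ z) = vCh n x₀ Y (chartAt 𝔼 x₀ z) := by
    have key : ∀ w, bil (chartMetric n M x₀ (chartAt 𝔼 x₀ z))
        (grad (chartMetric n M x₀) (inCh n x₀ (fun y => F (chartAt 𝔼 x₀ y))) (chartAt 𝔼 x₀ z)
          - vCh n x₀ Y (chartAt 𝔼 x₀ z)) w = 0 := by
      intro w
      rw [map_sub, sub_apply, bil_grad hg hb, h1.fderiv_eq, hF.fderiv]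
      exact sub_self _
    by_contra hne
    exact (bil_pos hg hb (sub_ne_zero.2 hne)).ne' (key _)
  have h3 := mgrad_chart (n := n) (f := fun y => F (chartAt 𝔼 x₀ y)) hb
  rw [(chartAt 𝔼 x₀).left_inv hz] at h3
  rw [h3, h2, dSy_vCh hb, (chartAt 𝔼 x₀).left_inv hz]

theorem mfderiv_zero_of_mgrad {f : M → ℝ} {p : M} (h : mgrad n f p = 0)
    (v : TangentSpace 𝓘E p) : (mfderiv 𝓘E 𝓘(ℝ, ℝ) f p v : ℝ) = (0:ℝ) := by
  rw [← inner_mgrad, h, inner_zero_left]

/-- a function with vanishing gradient near `z` is constant near `z` -/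
theorem const_of_mgrad {f : M → ℝ} {z : M}
    (hf : ∀ᶠ y in 𝓝 z, MDifferentiableAt 𝓘E 𝓘(ℝ, ℝ) f y ∧ mgrad n f y = 0) :
    ∀ᶠ y in 𝓝 z, f y = f z := by
  have hz := mem_chart_source 𝔼 z
  have hat := (chartAt 𝔼 z).map_source hz
  have h1 : ∀ᶠ b in 𝓝 (chartAt 𝔼 z z), b ∈ (chartAt 𝔼 z).target ∧
      MDifferentiableAt 𝓘E 𝓘(ℝ, ℝ) f ((chartAt 𝔼 z).symm b) ∧
      mgrad n f ((chartAt 𝔼 z).symm b) = 0 := by
    have hc : ContinuousAt (chartAt 𝔼 z).symm (chartAt 𝔼 z z) :=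
      (chartAt 𝔼 z).continuousAt_symm hat
    have h2 := hc.eventually (p := fun y => MDifferentiableAt 𝓘E 𝓘(ℝ, ℝ) f y ∧
      mgrad n f y = 0) (by rw [(chartAt 𝔼 z).left_inv hz]; exact hf)
    filter_upwards [h2, (chartAt 𝔼 z).open_target.mem_nhds hat] with b hb hb'
    exact ⟨hb', hb⟩
  obtain ⟨r, hr, hball⟩ := Metric.eventually_nhds_iff_ball.1 h1
  have hd : ∀ b ∈ ball (chartAt 𝔼 z z) r, DifferentiableAt ℝ (inCh n z f) b := by
    intro b hb
    obtain ⟨hbt, hm, -⟩ := hball b hb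
    have h3 : MDifferentiableAt 𝓘E 𝓘E (chartAt 𝔼 z).symm b :=
      (mdifferentiable_chart (I := 𝓘E) z).mdifferentiableAt_symm hbt
    exact (hm.comp b h3).differentiableAt
  have h0 : ∀ b ∈ ball (chartAt 𝔼 z z) r, fderiv ℝ (inCh n z f) b = 0 := by
    intro b hb
    obtain ⟨hbt, -, hG⟩ := hball b hb
    ext v
    exact (fderiv_inCh hbt v).trans (mfderiv_zero_of_mgrad hG _)
  have hcst : ∀ b ∈ ball (chartAt 𝔼 z z) r, inCh n z f b = inCh n z f (chartAt 𝔼 z z) := by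
    intro b hb
    refine (convex_ball (chartAt 𝔼 z z) r).is_const_of_fderivWithin_eq_zero (𝕜 := ℝ)
      (fun w hw => (hd w hw).differentiableWithinAt) ?_ hb (mem_ball_self hr)
    intro w hw
    rw [fderivWithin_of_isOpen isOpen_ball hw]
    exact h0 w hw
  have h5 : ∀ᶠ y in 𝓝 z, chartAt 𝔼 z y ∈ ball (chartAt 𝔼 z z) r :=
    ((chartAt 𝔼 z).continuousAt hz).eventually (ball_mem_nhds _ hr)
  filter_upwards [h5, (chartAt 𝔼 z).open_source.mem_nhds hz] with y hy hy'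
  have h6 := hcst _ hy
  rwa [inCh, inCh, (chartAt 𝔼 z).left_inv hy', (chartAt 𝔼 z).left_inv hz] at h6

/-- **fields with symmetric covariant derivative on a simply connected manifold are gradients.** -/
theorem exists_prim_field [SimplyConnectedSpace M] (hY : ∀ z, VSm n ∞ Y z)
    (hc : ∀ (z : M) (v w : TangentSpace 𝓘E z),
      (inner ℝ (mCov n Y z v) w : ℝ) = inner ℝ (mCov n Y z w) v) :
    ∃ f : M → ℝ, ContMDiff 𝓘E 𝓘(ℝ, ℝ) ∞ f ∧ ∀ z, mgrad n f z = Y z := by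
  choose r F hr hsub hF using fun x₀ : M => exists_locf (n := n) x₀ hY hc
  let U : M → Set M := fun i => (chartAt 𝔼 i).source ∩ chartAt 𝔼 i ⁻¹' ball (chartAt 𝔼 i i) (r i)
  have hU : ∀ i, IsOpen (U i) := fun i =>
    (chartAt 𝔼 i).isOpen_inter_preimage isOpen_ball
  have hUi : ∀ i, i ∈ U i := fun i => ⟨mem_chart_source 𝔼 i, mem_ball_self (hr i)⟩
  have hsm : ∀ i, ∀ z ∈ U i, ContMDiffAt 𝓘E 𝓘(ℝ, ℝ) ∞ (fun y => F i (chartAt 𝔼 i y)) z := by
    intro i z hz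
    have h1 : ContDiffAt ℝ ∞ (F i) (chartAt 𝔼 i z) :=
      (smooth_of_hasFDerivAt_omf i hY isOpen_ball (hsub i) (hF i)).contDiffAt
        (isOpen_ball.mem_nhds hz.2)
    have h2 : ContMDiffAt 𝓘E 𝓘E ∞ (chartAt 𝔼 i) z :=
      (contMDiffOn_chart (I := 𝓘E) (x := i)).contMDiffAt ((chartAt 𝔼 i).open_source.mem_nhds hz.1)
    exact h1.contMDiffAt.comp z h2
  have hGr : ∀ i, ∀ z ∈ U i, mgrad n (fun y => F i (chartAt 𝔼 i y)) z = Y z := fun i z hz =>
    mgrad_prim i hz.1 (hF i _ hz.2)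
  have hloc : ∀ i j, ∀ z ∈ U i, z ∈ U j → ∀ᶠ w in 𝓝 z,
      F i (chartAt 𝔼 i w) - F j (chartAt 𝔼 j w) = F i (chartAt 𝔼 i z) - F j (chartAt 𝔼 j z) := by
    intro i j z hi hj
    refine const_of_mgrad (n := n) (f := fun w => F i (chartAt 𝔼 i w) - F j (chartAt 𝔼 j w)) ?_
    filter_upwards [(hU i).mem_nhds hi, (hU j).mem_nhds hj] with y hy hy'
    have h1 := (hsm i y hy).mdifferentiableAt (by simp)
    have h2 := (hsm j y hy').mdifferentiableAt (by simp)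
    refine ⟨h1.sub h2, ?_⟩
    symm
    refine mgrad_unique fun v => ?_
    have h3 := mfderiv_sub (I := 𝓘E) h1 h2
    have h4 := congrArg (fun L => L v) h3
    refine Eq.trans ?_ h4.symm
    have h5 := inner_mgrad (n := n) (fun y => F i (chartAt 𝔼 i y)) y v
    have h6 := inner_mgrad (n := n) (fun y => F j (chartAt 𝔼 j y)) y v
    rw [hGr i y hy] at h5
    rw [hGr j y hy'] at h6
    rw [inner_zero_left]
    have h7 : (mfderiv 𝓘E 𝓘(ℝ, ℝ) (fun y => F i (chartAt 𝔼 i y)) y v : ℝ) =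
      (mfderiv 𝓘E 𝓘(ℝ, ℝ) (fun y => F j (chartAt 𝔼 j y)) y v : ℝ) := h5.symm.trans h6
    exact (sub_eq_zero.2 h7).symm
  have : LocallyPathConnectedSpace M := ChartedSpace.locallyPathConnectedSpace 𝔼 M
  let P : LPS M ℝ :=
    { ι := M
      U := U
      isOpen := hU
      cover := fun y => ⟨y, hUi y⟩
      h := fun i x => F i (chartAt 𝔼 i x)
      loc := hloc }
  obtain ⟨p0⟩ : Nonempty M := inferInstance
  obtain ⟨f, -, hf⟩ := P.exists_isPrim p0 (0 : ℝ)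
  have hfe : ∀ z, ∀ᶠ w in 𝓝 z, f w = f z - F z (chartAt 𝔼 z z) + F z (chartAt 𝔼 z w) := by
    intro z
    filter_upwards [hf z z (hUi z)] with w hw
    have hw' : f w - f z = F z (chartAt 𝔼 z w) - F z (chartAt 𝔼 z z) := hw
    linarith
  refine ⟨f, fun z => ?_, fun z => ?_⟩
  · exact (contMDiffAt_const.add (hsm z z (hUi z))).congr_of_eventuallyEq (hfe z)
  · symm
    refine mgrad_unique fun v => ?_
    have h1 : f =ᶠ[𝓝 z] fun w => f z - F z (chartAt 𝔼 z z) + F z (chartAt 𝔼 z w) := hfe z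
    rw [h1.mfderiv_eq]
    have h2 := mfderiv_add (I := 𝓘E)
      (mdifferentiableAt_const (I := 𝓘E) (I' := 𝓘(ℝ, ℝ)) (c := f z - F z (chartAt 𝔼 z z)) (x := z))
      ((hsm z z (hUi z)).mdifferentiableAt (by simp))
    have h4 := congrArg (fun L => L v) h2
    refine Eq.trans ?_ h4.symm
    have h5 := inner_mgrad (n := n) (fun y => F z (chartAt 𝔼 z y)) z v
    rw [hGr z z (hUi z)] at h5
    have h7 : (mfderiv 𝓘E 𝓘(ℝ, ℝ) (fun _ : M => f z - F z (chartAt 𝔼 z z)) z v : ℝ) = (0:ℝ) := by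
      rw [mfderiv_const]; rfl
    have key : ∀ a b c : ℝ, a = 0 → b = c → c = a + b := by
      intro a b c h1 h2
      rw [h1, h2, zero_add]
    exact key _ _ _ h7 h5.symm

end prim

section closed

variable {n : ℕ} {M : Type} [MetricSpace M] [ChartedSpace (EuclideanSpace ℝ (Fin n)) M]
  [IsManifold (𝓡 n) ∞ M]
  [RiemannianBundle (fun p : M => TangentSpace (𝓡 n) p)]
  [IsContMDiffRiemannianBundle (𝓡 n) ∞ (EuclideanSpace ℝ (Fin n)) (fun p : M => TangentSpace (𝓡 n) p)]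
  [IsRiemannianManifold (𝓡 n) M]

/-- **`b₁ = 0`**: a closed and coclosed field on a closed simply connected manifold vanishes -/
theorem field_eq_zero [CompactSpace M] [SimplyConnectedSpace M]
    {Y : (p : M) → TangentSpace (𝓡 n) p} (hY : ∀ z, VSm n ∞ Y z)
    (hc : ∀ (z : M) (v w : TangentSpace (𝓡 n) z),
      (inner ℝ (mCov n Y z v) w : ℝ) = inner ℝ (mCov n Y z w) v)
    (hd : ∀ z, mDiv n Y z = 0) (z : M) : Y z = 0 := by
  obtain ⟨f, hf, hfY⟩ := exists_prim_field hY hc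
  borelize M
  have h1 : ∀ p, mLap n f p = 0 := by
    intro p
    rw [← mDiv_mgrad, ← hd p]
    exact mDiv_congr (Eventually.of_forall hfY)
  have h2 := Grn324.const_of_mLap_zero (n := n) hf h1
  have h3 : f = fun _ => f z := funext fun p => h2 p z
  rw [← hfY z]
  symm
  refine mgrad_unique fun v => ?_
  rw [h3, mfderiv_const, inner_zero_left]
  rfl

end closed

end Crest.Agent.R249.Idx789
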