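import Crest.Agent.R249.Vf2_281
import Crest.Agent.R249.Vf3_281

/-!
Row 249 (helper281), T3b part 2: chain rules for `φ ∘ u`, `u : M → ℝ^m`, and Green's formulas.
* `dM_compV`, `mgrad_compV`, `mGam_compV`, `mLap_compV`;
* `green`: `∫ φ ⟨df, dh⟩ = - ∫ f (⟨dφ, dh⟩ + φ Δh)` for `f, h` of class `C¹`, `C²` near the support
  of the Lipschitz function `φ`.
-/

set_option autoImplicit false
set_option maxSynthPendingDepth 3
set_option linter.unusedSectionVars false

open scoped ContDiff Topology Manifold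
open Filter Set Bundle MeasureTheory
open Crest.GeometryTopology.CoordMetric Crest.GeometryTopology.ChartCurvature
  Crest.GeometryTopology.PointedLimit
open Crest.Agent.R202.Tens
open Crest.Agent.R247.Bo84
open Crest.Agent.R247

noncomputable section

namespace Crest.Agent.R249.Vf281

section Calc

variable {n : ℕ} {M : Type*} [TopologicalSpace M] [ChartedSpace (EuclideanSpace ℝ (Fin n)) M]
  [IsManifold 𝓘(ℝ, EuclideanSpace ℝ (Fin n)) ∞ M]
  [RiemannianBundle (fun x : M => TangentSpace 𝓘(ℝ, EuclideanSpace ℝ (Fin n)) x)]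
  [IsContMDiffRiemannianBundle 𝓘(ℝ, EuclideanSpace ℝ (Fin n)) ∞ (EuclideanSpace ℝ (Fin n))
      (fun x : M => TangentSpace 𝓘(ℝ, EuclideanSpace ℝ (Fin n)) x)]

local notation "𝔼" => EuclideanSpace ℝ (Fin n)
local notation "𝓘E" => 𝓘(ℝ, EuclideanSpace ℝ (Fin n))

variable {p z : M} {X Y : (p : M) → TangentSpace 𝓘(ℝ, EuclideanSpace ℝ (Fin n)) p} {f h k : M → ℝ}
variable {m : ℕ} {φ : EuclideanSpace ℝ (Fin m) → ℝ} {u : M → EuclideanSpace ℝ (Fin m)}

/-! ### finite sums -/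

lemma vCh_zero (x₀ : M) (y : 𝔼) :
    vCh n x₀ (fun q : M => (0 : TangentSpace 𝓘E q)) y = 0 := map_zero _

lemma VSm.zero {k : WithTop ℕ∞} (p : M) : VSm n k (fun q : M => (0 : TangentSpace 𝓘E q)) p := by
  have e : vCh n p (fun q : M => (0 : TangentSpace 𝓘E q)) = fun _ => (0:𝔼) :=
    funext fun y => vCh_zero p y
  rw [VSm, e]
  exact contDiffAt_const

lemma mDiv_zero (p : M) : mDiv n (fun q : M => (0 : TangentSpace 𝓘E q)) p = 0 := by
  have h1 := mDiv_smul (n := n) (f := fun _ : M => (0:ℝ)) (p := p)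
    (X := fun q : M => (0 : TangentSpace 𝓘E q)) mdifferentiableAt_const (VSm.zero p)
  simp only [zero_mul, zero_smul, zero_add] at h1
  rw [h1]
  exact map_zero (mfderiv 𝓘E 𝓘(ℝ, ℝ) (fun _ : M => (0:ℝ)) p)

lemma VSm.sum {ι : Type*} {k : WithTop ℕ∞} (s : Finset ι)
    {X : ι → (p : M) → TangentSpace 𝓘(ℝ, EuclideanSpace ℝ (Fin n)) p}
    (hX : ∀ i ∈ s, VSm n k (X i) p) : VSm n k (fun q => ∑ i ∈ s, X i q) p := by
  classical
  induction s using Finset.induction_on with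
  | empty => simpa using VSm.zero (n := n) p
  | insert a s ha ih =>
    have e : (fun q => ∑ i ∈ insert a s, X i q) = fun q => X a q + ∑ i ∈ s, X i q := by
      funext q; rw [Finset.sum_insert ha]
    rw [e]
    exact (hX a (Finset.mem_insert_self a s)).add
      (ih fun i hi => hX i (Finset.mem_insert_of_mem hi))

lemma mDiv_sum {ι : Type*} (s : Finset ι)
    {X : ι → (p : M) → TangentSpace 𝓘(ℝ, EuclideanSpace ℝ (Fin n)) p}
    (hX : ∀ i ∈ s, VSm n 1 (X i) p) :
    mDiv n (fun q => ∑ i ∈ s, X i q) p = ∑ i ∈ s, mDiv n (X i) p := by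
  classical
  induction s using Finset.induction_on with
  | empty => simpa using mDiv_zero (n := n) p
  | insert a s ha ih =>
    have e : (fun q => ∑ i ∈ insert a s, X i q) = fun q => X a q + ∑ i ∈ s, X i q := by
      funext q; rw [Finset.sum_insert ha]
    rw [e, mDiv_add (hX a (Finset.mem_insert_self a s))
      (VSm.sum s fun i hi => hX i (Finset.mem_insert_of_mem hi)),
      ih fun i hi => hX i (Finset.mem_insert_of_mem hi), Finset.sum_insert ha]

/-- `div (f ∇h) = f Δh + ⟨df, dh⟩`. -/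
theorem mDiv_smul_mgrad (hf : MDifferentiableAt 𝓘E 𝓘(ℝ, ℝ) f p)
    (hh : ContMDiffAt 𝓘E 𝓘(ℝ, ℝ) 2 h p) :
    mDiv n (fun q => f q • mgrad n h q) p = f p * mLap n h p + mGam n f h p := by
  have hX : VSm n 1 (mgrad n h) p := VSm_mgrad hh (by norm_num) two_le_infty
  rw [mDiv_smul hf hX, mDiv_mgrad, mGam_eq_mfderiv]
  rfl

/-! ### the chain rule -/

lemma mdifferentiableAt_compV (hφ : DifferentiableAt ℝ φ (u p))
    (hu : ∀ c, MDifferentiableAt 𝓘E 𝓘(ℝ, ℝ) (fun q => u q c) p) :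
    MDifferentiableAt 𝓘E 𝓘(ℝ, ℝ) (fun q => φ (u q)) p := by
  refine mdifferentiableAt_of_inCh (x₀ := p) (mem_chart_source 𝔼 p) ?_
  have h1 : DifferentiableAt ℝ (fun y => u ((chartAt 𝔼 p).symm y)) (chartCentre n M p) := by
    rw [differentiableAt_piLp]
    exact fun c => differentiableAt_centre (hu c)
  have h2 : (chartAt 𝔼 p).symm (chartCentre n M p) = p :=
    (chartAt 𝔼 p).left_inv (mem_chart_source 𝔼 p)
  have h3 : DifferentiableAt ℝ φ (u ((chartAt 𝔼 p).symm (chartCentre n M p))) := by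
    rw [h2]; exact hφ
  exact DifferentiableAt.comp (chartCentre n M p) h3 h1

/-- the chain rule. -/
theorem dM_compV (hφ : DifferentiableAt ℝ φ (u p))
    (hu : ∀ c, MDifferentiableAt 𝓘E 𝓘(ℝ, ℝ) (fun q => u q c) p) (v : TangentSpace 𝓘E p) :
    dM n (fun q => φ (u q)) p v = ∑ c, pderiv c φ (u p) * dM n (fun q => u q c) p v := by
  have h1 : ∀ c, DifferentiableAt ℝ (inCh n p (fun q => u q c)) (chartCentre n M p) :=
    fun c => differentiableAt_centre (hu c)
  have h1' : DifferentiableAt ℝ (fun y => u ((chartAt 𝔼 p).symm y)) (chartCentre n M p) := by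
    rw [differentiableAt_piLp]
    exact h1
  have h2 : (chartAt 𝔼 p).symm (chartCentre n M p) = p :=
    (chartAt 𝔼 p).left_inv (mem_chart_source 𝔼 p)
  have h3 : DifferentiableAt ℝ φ (u ((chartAt 𝔼 p).symm (chartCentre n M p))) := by
    rw [h2]; exact hφ
  have h4 := fderiv_comp (chartCentre n M p) h3 h1'
  have e1 : dM n (fun q => φ (u q)) p v =
      fderiv ℝ (inCh n p (fun q => φ (u q))) (chartCentre n M p) (dCh p p v) := by
    rw [dM_eq, mfderiv_centre]
  have e2 : ∀ c, dM n (fun q => u q c) p v =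
      fderiv ℝ (inCh n p (fun q => u q c)) (chartCentre n M p) (dCh p p v) := by
    intro c
    rw [dM_eq, mfderiv_centre]
  have e3 : fderiv ℝ (inCh n p (fun q => φ (u q))) (chartCentre n M p) =
      (fderiv ℝ φ (u ((chartAt 𝔼 p).symm (chartCentre n M p)))).comp
        (fderiv ℝ (fun y => u ((chartAt 𝔼 p).symm y)) (chartCentre n M p)) := h4
  have e4 : ∀ c w, fderiv ℝ (fun y => u ((chartAt 𝔼 p).symm y)) (chartCentre n M p) w c =
      fderiv ℝ (inCh n p (fun q => u q c)) (chartCentre n M p) w := by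
    intro c w
    have h5 := ((EuclideanSpace.proj c : EuclideanSpace ℝ (Fin m) →L[ℝ] ℝ).hasFDerivAt.comp
      (chartCentre n M p) h1'.hasFDerivAt).fderiv
    have h6 := congrArg (fun L : 𝔼 →L[ℝ] ℝ => L w) h5
    exact h6.symm
  rw [e1, e3, ContinuousLinearMap.comp_apply, h2, Ms322.fderiv_eq_sum]
  refine Finset.sum_congr rfl fun c _ => ?_
  rw [e2, e4]
  ring

theorem mgrad_compV (hφ : DifferentiableAt ℝ φ (u p))
    (hu : ∀ c, MDifferentiableAt 𝓘E 𝓘(ℝ, ℝ) (fun q => u q c) p) :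
    mgrad n (fun q => φ (u q)) p = ∑ c, pderiv c φ (u p) • mgrad n (fun q => u q c) p := by
  symm
  refine mgrad_unique fun v => ?_
  rw [sum_inner, ← dM_eq, dM_compV hφ hu]
  refine Finset.sum_congr rfl fun c _ => ?_
  rw [real_inner_smul_left, inner_mgrad']

theorem mGam_compV (hφ : DifferentiableAt ℝ φ (u p))
    (hu : ∀ c, MDifferentiableAt 𝓘E 𝓘(ℝ, ℝ) (fun q => u q c) p) (k : M → ℝ) :
    mGam n (fun q => φ (u q)) k p = ∑ c, pderiv c φ (u p) * mGam n (fun q => u q c) k p := by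
  rw [mGam_eq_mfderiv, ← dM_eq, dM_compV hφ hu]
  refine Finset.sum_congr rfl fun c _ => ?_
  rw [mGam_eq_mfderiv]
  rfl

lemma contMDiffAt_compV {a : WithTop ℕ∞} (ha : a ≤ ∞) (hφ : ContDiffAt ℝ a φ (u p))
    (hu : ∀ c, ContMDiffAt 𝓘E 𝓘(ℝ, ℝ) a (fun q => u q c) p) :
    ContMDiffAt 𝓘E 𝓘(ℝ, ℝ) a (fun q => φ (u q)) p := by
  refine contMDiffAt_of_inCh (x₀ := p) ha (mem_chart_source 𝔼 p) ?_
  have h1 : ContDiffAt ℝ a (fun y => u ((chartAt 𝔼 p).symm y)) (chartCentre n M p) := by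
    rw [contDiffAt_piLp]
    exact fun c => contDiffAt_centre ha (hu c)
  have h2 : (chartAt 𝔼 p).symm (chartCentre n M p) = p :=
    (chartAt 𝔼 p).left_inv (mem_chart_source 𝔼 p)
  have h3 : ContDiffAt ℝ a φ (u ((chartAt 𝔼 p).symm (chartCentre n M p))) := by
    rw [h2]; exact hφ
  exact ContDiffAt.comp (chartCentre n M p) h3 h1

/-- the Laplacian of `φ ∘ u`. -/
theorem mLap_compV (hφ : ContDiffAt ℝ 2 φ (u p))
    (hu : ∀ c, ContMDiffAt 𝓘E 𝓘(ℝ, ℝ) 2 (fun q => u q c) p) :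
    mLap n (fun q => φ (u q)) p = ∑ c, pderiv c φ (u p) * mLap n (fun q => u q c) p +
      ∑ c, ∑ d, pderiv d (pderiv c φ) (u p) * mGam n (fun q => u q c) (fun q => u q d) p := by
  have hcont : ContinuousAt u p := by
    have h1 : ∀ c, ContinuousAt (fun q => u q c) p := fun c => (hu c).continuousAt
    have h2 : ContinuousAt (fun q => (WithLp.ofLp (u q) : Fin m → ℝ)) p :=
      continuousAt_pi.2 h1
    exact (PiLp.continuous_toLp 2 _).continuousAt.comp h2
  have ev1 : ∀ᶠ q in 𝓝 p, DifferentiableAt ℝ φ (u q) := by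
    have h1 : ∀ᶠ w in 𝓝 (u p), ContDiffAt ℝ 2 φ w := hφ.eventually (by simp)
    filter_upwards [hcont.eventually h1] with q hq
    exact hq.differentiableAt (by norm_num)
  have ev2 : ∀ᶠ q in 𝓝 p, ∀ c, MDifferentiableAt 𝓘E 𝓘(ℝ, ℝ) (fun q => u q c) q := by
    refine eventually_all.2 fun c => ?_
    filter_upwards [(contMDiffAt_iff_contMDiffAt_nhds (by norm_num)).1 (hu c)] with q hq
    exact hq.mdifferentiableAt (by norm_num)
  have e1 : ∀ᶠ q in 𝓝 p, mgrad n (fun q => φ (u q)) q =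
      ∑ c, pderiv c φ (u q) • mgrad n (fun q => u q c) q := by
    filter_upwards [ev1, ev2] with q h1 h2 using mgrad_compV h1 h2
  have hpd : ∀ c, ContDiffAt ℝ 1 (pderiv c φ) (u p) := fun c =>
    contDiffAt_pderiv hφ (by norm_num) c
  have hpc : ∀ c, ContMDiffAt 𝓘E 𝓘(ℝ, ℝ) 1 (fun q => pderiv c φ (u q)) p := fun c =>
    contMDiffAt_compV one_le_infty (hpd c) fun d => (hu d).of_le (by norm_num)
  rw [← mDiv_mgrad, mDiv_congr e1, mDiv_sum (n := n) Finset.univ
    (X := fun c q => pderiv c φ (u q) • mgrad n (fun q => u q c) q)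
    (fun c _ => VSm.smul one_le_infty (hpc c) (VSm_mgrad (hu c) (by norm_num) two_le_infty)),
    ← Finset.sum_add_distrib]
  refine Finset.sum_congr rfl fun c _ => ?_
  rw [mDiv_smul_mgrad ((hpc c).mdifferentiableAt (by norm_num)) (hu c),
    mGam_compV ((hpd c).differentiableAt (by norm_num))
      (fun d => (hu d).mdifferentiableAt (by norm_num))]
  congr 1
  exact Finset.sum_congr rfl fun d _ => by rw [mGam_comm]

end Calc

section Int

variable {n : ℕ} {M : Type*} [MetricSpace M] [ChartedSpace (EuclideanSpace ℝ (Fin n)) M]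
  [IsManifold (𝓡 n) ∞ M]
  [RiemannianBundle (fun p : M => TangentSpace (𝓡 n) p)]
  [IsContMDiffRiemannianBundle (𝓡 n) ∞ (EuclideanSpace ℝ (Fin n)) (fun p : M => TangentSpace (𝓡 n) p)]
  [SecondCountableTopology M] [Nonempty M] [IsRiemannianManifold (𝓡 n) M]
  [MeasurableSpace M] [BorelSpace M]

local notation "𝔼" => EuclideanSpace ℝ (Fin n)

/-- `∫ f ⟨dφ, dh⟩ = - ∫ φ (f Δh + ⟨df, dh⟩)` -/
theorem green {U : Set M} (hU : IsOpen U) {f h φ : M → ℝ}
    (hf : ∀ z ∈ U, ContMDiffAt (𝓡 n) 𝓘(ℝ, ℝ) 1 f z)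
    (hh : ∀ z ∈ U, ContMDiffAt (𝓡 n) 𝓘(ℝ, ℝ) 2 h z)
    (hφ : LocallyLipschitz φ) (hc : HasCompactSupport φ) (hs : tsupport φ ⊆ U) :
    Integrable (fun z => f z * mGam n φ h z) (μHE[n] : Measure M) ∧
    Integrable (fun z => φ z * (f z * mLap n h z + mGam n f h z)) (μHE[n] : Measure M) ∧
    ∫ z, f z * mGam n φ h z ∂(μHE[n] : Measure M) =
      - ∫ z, φ z * (f z * mLap n h z + mGam n f h z) ∂(μHE[n] : Measure M) := by
  set X : (p : M) → TangentSpace (𝓡 n) p := fun q => f q • mgrad n h q with hXdef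
  have hX : ∀ z ∈ U, VSm n 1 X z := fun z hz => VSm.smul one_le_infty (hf z hz)
    (VSm_mgrad (hh z hz) (by norm_num) two_le_infty)
  have e1 : (fun z => dM n φ z (X z)) = fun z => f z * mGam n φ h z := by
    funext z
    rw [hXdef, mGam_eq_mfderiv]
    exact map_smul (mfderiv (𝓡 n) 𝓘(ℝ, ℝ) φ z) (f z) (mgrad n h z)
  have e2 : (fun z => φ z * mDiv n X z) =
      fun z => φ z * (f z * mLap n h z + mGam n f h z) := by
    funext z
    by_cases hz : z ∈ tsupport φ
    · rw [hXdef, mDiv_smul_mgrad ((hf z (hs hz)).mdifferentiableAt (by norm_num)) (hh z (hs hz))]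
    · rw [image_eq_zero_of_notMem_tsupport hz, zero_mul, zero_mul]
  have i1 := integrable_dM hU hX hφ hc hs
  have i2 := integrable_mul_mDiv hX hφ.continuous hc hs
  have i3 := ibp_mDiv hU hX hφ hc hs
  rw [e1] at i1
  rw [e2] at i2
  refine ⟨i1, i2, ?_⟩
  have e3 : ∫ z, dM n φ z (X z) ∂(μHE[n] : Measure M) =
      ∫ z, f z * mGam n φ h z ∂(μHE[n] : Measure M) := by rw [e1]
  have e4 : ∫ z, φ z * mDiv n X z ∂(μHE[n] : Measure M) =
      ∫ z, φ z * (f z * mLap n h z + mGam n f h z) ∂(μHE[n] : Measure M) := by rw [e2]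
  rw [← e3, i3, e4]

end Int

end Crest.Agent.R249.Vf281
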