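import Crest.Agent.R249.Idx4_789
import Crest.Agent.R249.DicB_129
import Crest.Agent.R249.Vf4_281
import Crest.Agent.R249.TzM_805

/-!
# R249, IDX (helper789), part 5: sections of the tangent bundle as vector fields

For a Parseval frame `s` and a section `w` (`w_A = ∑_B ⟨s_A, s_B⟩ w_B`), the field `Y = ∑_B w_B s_B`
satisfies `⟨Y, s_A⟩ = w_A`, `⟨(∇ w)_A, v⟩ = ⟨∇_v Y, s_A⟩` (connection form `tanW s`).
-/

set_option autoImplicit false
set_option maxSynthPendingDepth 3
set_option linter.unusedSectionVars false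

open Bundle Set MeasureTheory Manifold Filter Metric
open scoped ContDiff Topology
open Crest.GeometryTopology.CoordMetric Crest.GeometryTopology.ChartCurvature
  Crest.GeometryTopology.PointedLimit
open Crest.Agent.R202.Tens Crest.Agent.R247.Bo84 Crest.Agent.R249.Vf281
open Crest.Agent.R249.Tz2_805 Crest.Agent.R249.Tz805

noncomputable section

namespace Crest.Agent.R249.Idx789

section field

variable {n : ℕ} {M : Type*} [TopologicalSpace M] [ChartedSpace (EuclideanSpace ℝ (Fin n)) M]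
  [IsManifold 𝓘(ℝ, EuclideanSpace ℝ (Fin n)) ∞ M]
  [RiemannianBundle (fun x : M => TangentSpace 𝓘(ℝ, EuclideanSpace ℝ (Fin n)) x)]
  [IsContMDiffRiemannianBundle 𝓘(ℝ, EuclideanSpace ℝ (Fin n)) ∞ (EuclideanSpace ℝ (Fin n))
      (fun x : M => TangentSpace 𝓘(ℝ, EuclideanSpace ℝ (Fin n)) x)]

local notation "𝔼" => EuclideanSpace ℝ (Fin n)
local notation "𝓘E" => 𝓘(ℝ, EuclideanSpace ℝ (Fin n))

/-- `v ↦ ∇_v X` is linear -/
def mCovL (X : (p : M) → TangentSpace 𝓘(ℝ, EuclideanSpace ℝ (Fin n)) p) (p : M) :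
    TangentSpace 𝓘(ℝ, EuclideanSpace ℝ (Fin n)) p →ₗ[ℝ]
      TangentSpace 𝓘(ℝ, EuclideanSpace ℝ (Fin n)) p :=
  (((dSy p (chartCentre n M p) : EuclideanSpace ℝ (Fin n) →L[ℝ] EuclideanSpace ℝ (Fin n)).comp
    ((cov (chartMetric n M p) (vCh n p X) (chartCentre n M p)).comp
      (dCh p p : EuclideanSpace ℝ (Fin n) →L[ℝ] EuclideanSpace ℝ (Fin n)))) :
    EuclideanSpace ℝ (Fin n) →ₗ[ℝ] EuclideanSpace ℝ (Fin n))

lemma mCovL_apply (X : (p : M) → TangentSpace 𝓘E p) (p : M) (v : TangentSpace 𝓘E p) :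
    mCovL X p v = mCov n X p v := rfl

variable {κ : Type} [Fintype κ] (s : PF n M κ)

lemma pars_inner (z : M) (v w : TangentSpace 𝓘E z) :
    ∑ A, (inner ℝ (s.s A z) v : ℝ) * inner ℝ (s.s A z) w = inner ℝ v w := by
  conv_rhs => rw [← s.pars z v, sum_inner]
  exact Finset.sum_congr rfl fun A _ => (real_inner_smul_left _ _ _).symm

/-- the trace of a linear map in a Parseval frame -/
theorem sum_pars (z : M) {e : Fin n → TangentSpace 𝓘E z}
    (he : ∀ a b, inner ℝ (e a) (e b) = if a = b then (1:ℝ) else 0)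
    (L : TangentSpace 𝓘E z →ₗ[ℝ] TangentSpace 𝓘E z) :
    ∑ A, (inner ℝ (L (s.s A z)) (s.s A z) : ℝ) = ∑ k, inner ℝ (L (e k)) (e k) := by
  have h1 : ∀ A, (inner ℝ (L (s.s A z)) (s.s A z) : ℝ) =
      ∑ k, (inner ℝ (s.s A z) (e k) : ℝ) * inner ℝ (s.s A z) (L (e k)) := by
    intro A
    have h2 : L (s.s A z) = ∑ k, (inner ℝ (s.s A z) (e k) : ℝ) • L (e k) := by
      conv_lhs => rw [mgrad_frame he (s.s A z)]
      rw [map_sum]
      exact Finset.sum_congr rfl fun k _ => map_smul _ _ _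
    rw [h2, sum_inner]
    refine Finset.sum_congr rfl fun k _ => ?_
    rw [real_inner_smul_left, real_inner_comm (L (e k))]
  simp only [h1]
  rw [Finset.sum_comm]
  refine Finset.sum_congr rfl fun k _ => ?_
  rw [pars_inner s z (e k) (L (e k)), real_inner_comm]

/-- the field of a section -/
def fieldOf (w : κ → M → ℝ) (z : M) : TangentSpace 𝓘(ℝ, EuclideanSpace ℝ (Fin n)) z :=
  ∑ B, w B z • s.s B z

variable {w : κ → M → ℝ}

lemma VSm_fieldOf (hw : SmU (n := n) w) (z : M) : VSm n ∞ (fieldOf s w) z :=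
  VSm.sum Finset.univ fun B _ => VSm.smul le_rfl (hw B z) (s.sm B z)

lemma inner_fieldOf (hs : ∀ a z, ∑ b, tanP s a b z * w b z = w a z) (A : κ) (z : M) :
    inner ℝ (s.s A z) (fieldOf s w z) = w A z := by
  rw [fieldOf, inner_sum, ← hs A z]
  refine Finset.sum_congr rfl fun B _ => ?_
  rw [real_inner_smul_right, tanP]; ring

/-! ### derivatives of functions -/

lemma dM_mul' {f g : M → ℝ} {p : M} (hf : MDifferentiableAt 𝓘E 𝓘(ℝ, ℝ) f p)
    (hg : MDifferentiableAt 𝓘E 𝓘(ℝ, ℝ) g p) (v : TangentSpace 𝓘E p) :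
    dM n (fun q => f q * g q) p v = f p * dM n g p v + g p * dM n f p v := by
  rw [← inner_mgrad', mgrad_mul hf hg, inner_add_left, real_inner_smul_left, real_inner_smul_left,
    inner_mgrad', inner_mgrad']

lemma mdiff_sum {ι : Type*} (t : Finset ι) {f : ι → M → ℝ} {p : M}
    (hf : ∀ i, MDifferentiableAt 𝓘E 𝓘(ℝ, ℝ) (f i) p) :
    MDifferentiableAt 𝓘E 𝓘(ℝ, ℝ) (fun q => ∑ i ∈ t, f i q) p := by
  classical
  induction t using Finset.induction_on with
  | empty => simpa using mdifferentiableAt_const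
  | insert a t ha ih =>
    simp only [Finset.sum_insert ha]
    exact (hf a).add ih

lemma dM_sum' {ι : Type*} (t : Finset ι) {f : ι → M → ℝ} {p : M}
    (hf : ∀ i, MDifferentiableAt 𝓘E 𝓘(ℝ, ℝ) (f i) p) (v : TangentSpace 𝓘E p) :
    dM n (fun q => ∑ i ∈ t, f i q) p v = ∑ i ∈ t, dM n (f i) p v := by
  classical
  induction t using Finset.induction_on with
  | empty =>
    simp only [Finset.sum_empty]
    rw [← inner_mgrad', mgrad_const, inner_zero_left]
  | insert a t ha ih =>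
    simp only [Finset.sum_insert ha]
    rw [← inner_mgrad', mgrad_add (hf a) (mdiff_sum t hf), inner_add_left, inner_mgrad',
      inner_mgrad', ih]

lemma mdiff_inner {X Z : (p : M) → TangentSpace 𝓘E p} (hX : ∀ z, VSm n ∞ X z)
    (hZ : ∀ z, VSm n ∞ Z z) (p : M) :
    MDifferentiableAt 𝓘E 𝓘(ℝ, ℝ) (fun q => (inner ℝ (X q) (Z q) : ℝ)) p :=
  (Crest.Agent.R249.Sg129.contMDiff_inner hX hZ p).mdifferentiableAt (by simp)

/-- derivative of the Parseval identity -/
theorem pars_deriv {X Z : (p : M) → TangentSpace 𝓘E p} (hX : ∀ z, VSm n ∞ X z)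
    (hZ : ∀ z, VSm n ∞ Z z) (z : M) (v : TangentSpace 𝓘E z) :
    ∑ B, ((inner ℝ (X z) (mCov n (s.s B) z v) : ℝ) * inner ℝ (s.s B z) (Z z)
      + (inner ℝ (X z) (s.s B z) : ℝ) * inner ℝ (mCov n (s.s B) z v) (Z z)) = 0 := by
  have h1 : ∀ Y : (p : M) → TangentSpace 𝓘E p, (∀ z, VSm n ∞ Y z) → VSm n 1 Y z :=
    fun Y hY => (hY z).of_le (by simp)
  have e : (fun q => (inner ℝ (X q) (Z q) : ℝ)) =
      fun q => ∑ B, (inner ℝ (X q) (s.s B q) : ℝ) * inner ℝ (s.s B q) (Z q) := by
    funext q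
    rw [← pars_inner s q]
    exact Finset.sum_congr rfl fun B _ => by rw [real_inner_comm (X q)]
  have e1 := mfderiv_inner (h1 X hX) (h1 Z hZ) v
  have hm : ∀ B, MDifferentiableAt 𝓘E 𝓘(ℝ, ℝ)
      (fun q => (inner ℝ (X q) (s.s B q) : ℝ) * inner ℝ (s.s B q) (Z q)) z := fun B =>
    (mdiff_inner hX (s.sm B) z).mul (mdiff_inner (s.sm B) hZ z)
  rw [e, dM_sum' _ hm] at e1
  have e2 : ∀ B, dM n (fun q => (inner ℝ (X q) (s.s B q) : ℝ) * inner ℝ (s.s B q) (Z q)) z v =
      ((inner ℝ (X z) (mCov n (s.s B) z v) : ℝ) * inner ℝ (s.s B z) (Z z)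
        + (inner ℝ (X z) (s.s B z) : ℝ) * inner ℝ (mCov n (s.s B) z v) (Z z))
      + ((inner ℝ (mCov n X z v) (s.s B z) : ℝ) * inner ℝ (s.s B z) (Z z)
        + (inner ℝ (X z) (s.s B z) : ℝ) * inner ℝ (s.s B z) (mCov n Z z v)) := by
    intro B
    rw [dM_mul' (mdiff_inner hX (s.sm B) z) (mdiff_inner (s.sm B) hZ z),
      mfderiv_inner (h1 _ hX) (h1 _ (s.sm B)), mfderiv_inner (h1 _ (s.sm B)) (h1 _ hZ)]
    ring
  simp only [e2, Finset.sum_add_distrib] at e1
  have e3 : ∑ B, (inner ℝ (mCov n X z v) (s.s B z) : ℝ) * inner ℝ (s.s B z) (Z z) =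
      inner ℝ (mCov n X z v) (Z z) := by
    rw [← pars_inner s z]
    exact Finset.sum_congr rfl fun B _ => by rw [real_inner_comm (mCov n X z v)]
  have e4 : ∑ B, (inner ℝ (X z) (s.s B z) : ℝ) * inner ℝ (s.s B z) (mCov n Z z v) =
      inner ℝ (X z) (mCov n Z z v) := by
    rw [← pars_inner s z]
    exact Finset.sum_congr rfl fun B _ => by rw [real_inner_comm (X z)]
  rw [e3, e4] at e1
  rw [Finset.sum_add_distrib]
  linarith

/-- **the connection of the tangent bundle is the Levi-Civita connection** -/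
theorem inner_cv {D : Bun n M κ} (hD : ∀ a b z, D.W a b z = tanW s a b z)
    (hw : SmU (n := n) w) (hs : ∀ a z, ∑ b, tanP s a b z * w b z = w a z) (A : κ) (z : M)
    (v : TangentSpace 𝓘E z) :
    (inner ℝ (D.cv w A z) v : ℝ) = inner ℝ (mCov n (fieldOf s w) z v) (s.s A z) := by
  classical
  have hY := VSm_fieldOf s hw
  have h1 : ∀ Y : (p : M) → TangentSpace 𝓘E p, (∀ z, VSm n ∞ Y z) → VSm n 1 Y z :=
    fun Y hY => (hY z).of_le (by simp)
  -- the derivative of `w_A`
  have e0 : dM n (w A) z v = inner ℝ (mCov n (fieldOf s w) z v) (s.s A z)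
      + inner ℝ (fieldOf s w z) (mCov n (s.s A) z v) := by
    have e : w A = fun q => (inner ℝ (fieldOf s w q) (s.s A q) : ℝ) := by
      funext q
      rw [real_inner_comm, inner_fieldOf s hs]
    conv_lhs => rw [e]
    exact mfderiv_inner (h1 _ hY) (h1 _ (s.sm A)) v
  -- the connection form
  have e1 : ∀ B, (inner ℝ (D.W A B z) v : ℝ) = inner ℝ (mCov n (s.s B) z v) (s.s A z)
      - ∑ C, ((if A = C then 1 else 0) - tanP s A C z) *
        (inner ℝ (mCov n (s.s C) z v) (s.s B z) + inner ℝ (s.s C z) (mCov n (s.s B) z v)) := by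
    intro B
    rw [hD, tanW, inner_sub_left, sum_inner, sum_inner]
    congr 1
    · have h2 : mCov n (s.s B) z v = ∑ C, (inner ℝ (s.s C z) v : ℝ) • mCov n (s.s B) z (s.s C z) := by
        conv_lhs => rw [← mCovL_apply, ← s.pars z v, map_sum]
        exact Finset.sum_congr rfl fun C _ => by rw [map_smul, mCovL_apply]
      rw [h2, sum_inner]
      refine Finset.sum_congr rfl fun C _ => ?_
      rw [real_inner_smul_left, real_inner_smul_left]; ring
    · refine Finset.sum_congr rfl fun C _ => ?_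
      rw [real_inner_smul_left, inner_mgrad']
      congr 1
      exact mfderiv_inner (h1 _ (s.sm C)) (h1 _ (s.sm B)) v
  have e2 : (inner ℝ (D.cv w A z) v : ℝ) = dM n (w A) z v + ∑ B, w B z * inner ℝ (D.W A B z) v := by
    rw [Bun.cv, inner_add_left, inner_mgrad', sum_inner]
    congr 1
    exact Finset.sum_congr rfl fun B _ => real_inner_smul_left _ _ _
  -- sums
  have hYe : ∀ x : TangentSpace 𝓘E z, ∑ B, w B z * inner ℝ x (s.s B z) =
      (inner ℝ x (fieldOf s w z) : ℝ) := by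
    intro x
    rw [fieldOf, inner_sum]
    exact Finset.sum_congr rfl fun B _ => (real_inner_smul_right _ _ _).symm
  set G : TangentSpace 𝓘E z := ∑ B, w B z • mCov n (s.s B) z v with hG
  have hGe : ∀ x : TangentSpace 𝓘E z, ∑ B, w B z * inner ℝ x (mCov n (s.s B) z v) =
      (inner ℝ x G : ℝ) := by
    intro x
    rw [hG, inner_sum]
    exact Finset.sum_congr rfl fun B _ => (real_inner_smul_right _ _ _).symm
  have e3 : ∑ B, w B z * inner ℝ (D.W A B z) v = (inner ℝ (s.s A z) G : ℝ)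
      - ∑ C, ((if A = C then 1 else 0) - tanP s A C z) *
        (inner ℝ (mCov n (s.s C) z v) (fieldOf s w z) + inner ℝ (s.s C z) G) := by
    simp only [e1, mul_sub, Finset.sum_sub_distrib, Finset.mul_sum]
    congr 1
    · rw [← hGe]
      exact Finset.sum_congr rfl fun B _ => by rw [real_inner_comm]
    · rw [Finset.sum_comm]
      refine Finset.sum_congr rfl fun C _ => ?_
      rw [← hYe, ← hGe, ← Finset.sum_add_distrib, Finset.mul_sum]
      exact Finset.sum_congr rfl fun B _ => by ring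
  have e4 : ∑ C, ((if A = C then 1 else 0) - tanP s A C z) *
        (inner ℝ (mCov n (s.s C) z v) (fieldOf s w z) + inner ℝ (s.s C z) G)
      = (inner ℝ (mCov n (s.s A) z v) (fieldOf s w z) + inner ℝ (s.s A z) G) := by
    simp only [sub_mul, Finset.sum_sub_distrib, ite_mul, one_mul, zero_mul, Finset.sum_ite_eq,
      Finset.mem_univ, if_true]
    have e5 := pars_deriv s (s.sm A) hY z v
    have e6 : ∑ B, tanP s A B z * (inner ℝ (mCov n (s.s B) z v) (fieldOf s w z)
        + inner ℝ (s.s B z) G) = 0 := by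
      rw [← e5]
      have e7 : ∑ B, tanP s A B z * inner ℝ (s.s B z) G =
          ∑ B, (inner ℝ (s.s A z) (mCov n (s.s B) z v) : ℝ) * inner ℝ (s.s B z) (fieldOf s w z) := by
        have e8 : ∑ B, tanP s A B z * inner ℝ (s.s B z) G = (inner ℝ (s.s A z) G : ℝ) := by
          rw [← pars_inner s z]
          exact Finset.sum_congr rfl fun B _ => by rw [tanP, real_inner_comm (s.s A z)]
        rw [e8, ← hGe]
        refine Finset.sum_congr rfl fun B _ => ?_
        rw [inner_fieldOf s hs]; ring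
      simp only [mul_add, Finset.sum_add_distrib]
      rw [e7, add_comm]
      rfl
    rw [e6, sub_zero]
  rw [e2, e0, e3, e4, real_inner_comm (mCov n (s.s A) z v)]
  ring

end field

end Crest.Agent.R249.Idx789
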