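import Crest.Agent.R249.Idx5_789

/-!
# R249, IDX (helper789), part 6: the operator `B : T → ℝ ⊕ Λ⁻` on vector fields

`B w = (- div Y, - (dY)^-)`; if `B w = 0` for both orientations then `Y` is closed and coclosed; on a
closed simply connected manifold `w = 0`.
-/

set_option autoImplicit false
set_option maxSynthPendingDepth 3
set_option linter.unusedSectionVars false

open Bundle Set MeasureTheory Manifold Filter Metric
open scoped ContDiff Topology
open Crest.GeometryTopology.CoordMetric Crest.GeometryTopology.ChartCurvature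
  Crest.GeometryTopology.PointedLimit
open Crest.Agent.R202.Tens Crest.Agent.R247.Bo84 Crest.Agent.R249.Vf281
open Crest.Agent.R249.Tz2_805 Crest.Agent.R249.Tz805

noncomputable section

namespace Crest.Agent.R249.Idx789

section four

variable {M : Type*} [TopologicalSpace M] [ChartedSpace (EuclideanSpace ℝ (Fin 4)) M]
  [IsManifold 𝓘(ℝ, EuclideanSpace ℝ (Fin 4)) ∞ M]
  [RiemannianBundle (fun x : M => TangentSpace 𝓘(ℝ, EuclideanSpace ℝ (Fin 4)) x)]
  [IsContMDiffRiemannianBundle 𝓘(ℝ, EuclideanSpace ℝ (Fin 4)) ∞ (EuclideanSpace ℝ (Fin 4))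
      (fun x : M => TangentSpace 𝓘(ℝ, EuclideanSpace ℝ (Fin 4)) x)]

local notation "𝔼" => EuclideanSpace ℝ (Fin 4)
local notation "𝓘E" => 𝓘(ℝ, EuclideanSpace ℝ (Fin 4))

variable {κ : Type} [Fintype κ] (s : PF 4 M κ) {w : κ → M → ℝ}
  (vol : (z : M) → (Fin 4 → TangentSpace 𝓘(ℝ, EuclideanSpace ℝ (Fin 4)) z) → ℝ)

/-- an orthonormal basis at every point -/
theorem exists_onb (z : M) : ∃ e : Fin 4 → TangentSpace 𝓘E z,
    ∀ a b, inner ℝ (e a) (e b) = if a = b then (1:ℝ) else 0 := by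
  have : FiniteDimensional ℝ (TangentSpace 𝓘E z) := inferInstanceAs (FiniteDimensional ℝ 𝔼)
  have hfr : Module.finrank ℝ (TangentSpace 𝓘E z) = 4 := finrank_euclideanSpace_fin
  let b := (stdOrthonormalBasis ℝ (TangentSpace 𝓘E z)).reindex (finCongr hfr)
  exact ⟨b, fun a c => by
    have := orthonormal_iff_ite.1 b.orthonormal a c
    exact this⟩

theorem opB_none {D : Bun 4 M κ} (hD : ∀ a b z, D.W a b z = tanW s a b z)
    (hw : SmU (n := 4) w) (hs : ∀ a z, ∑ b, tanP s a b z * w b z = w a z) (z : M) :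
    opB D (ccR s vol) w none z = - mDiv 4 (fieldOf s w) z := by
  obtain ⟨e, he⟩ := exists_onb (M := M) z
  have hY := VSm_fieldOf s hw
  rw [mDiv_frame ((hY z).of_le (by simp)) he, opB]
  congr 1
  have h1 := sum_pars s z he (mCovL (fieldOf s w) z)
  simp only [mCovL_apply] at h1
  rw [← h1]
  exact Finset.sum_congr rfl fun A _ => inner_cv s hD hw hs A z _

theorem opB_some {D : Bun 4 M κ} (hD : ∀ a b z, D.W a b z = tanW s a b z)
    (hw : SmU (n := 4) w) (hs : ∀ a z, ∑ b, tanP s a b z * w b z = w a z) (y : κ × κ) (z : M) :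
    opB D (ccR s vol) w (some y) z =
      - (2 * ∑ A, ∑ B, lamP s vol (A, B) y z *
        inner ℝ (mCov 4 (fieldOf s w) z (s.s B z)) (s.s A z)) := by
  rw [opB]
  congr 1
  rw [Finset.mul_sum]
  refine Finset.sum_congr rfl fun A _ => ?_
  change (inner ℝ (D.cv w A z) ((2:ℕ) • ∑ B, lamP s vol (A, B) y z • s.s B z) : ℝ) = _
  rw [inner_cv s hD hw hs, ← mCovL_apply, map_nsmul, map_sum, ← Nat.cast_smul_eq_nsmul ℝ,
    real_inner_smul_left, sum_inner]
  push_cast
  congr 1
  refine Finset.sum_congr rfl fun B _ => ?_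
  rw [map_smul, real_inner_smul_left, mCovL_apply]

theorem sum_tan2 (Y : (p : M) → TangentSpace 𝓘E p) (C D : κ) (z : M) :
    ∑ A, ∑ B, tanP s A C z * tanP s B D z * (inner ℝ (mCov 4 Y z (s.s B z)) (s.s A z) : ℝ) =
      inner ℝ (mCov 4 Y z (s.s D z)) (s.s C z) := by
  have h1 : (mCov 4 Y z (s.s D z)) = ∑ B, tanP s B D z • mCov 4 Y z (s.s B z) := by
    conv_lhs => rw [← mCovL_apply, ← s.pars z (s.s D z), map_sum]
    exact Finset.sum_congr rfl fun B _ => by rw [map_smul, mCovL_apply]; rfl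
  have h2 : (inner ℝ (mCov 4 Y z (s.s D z)) (s.s C z) : ℝ) =
      ∑ A, tanP s A C z * inner ℝ (mCov 4 Y z (s.s D z)) (s.s A z) := by
    rw [← pars_inner s z]
    exact Finset.sum_congr rfl fun A _ => by
      rw [real_inner_comm (s.s A z), mul_comm]; rfl
  rw [h2]
  refine Finset.sum_congr rfl fun A _ => ?_
  rw [h1, sum_inner, Finset.mul_sum]
  refine Finset.sum_congr rfl fun B _ => ?_
  rw [real_inner_smul_left]; ring

/-- `B w = 0` for both orientations: the field is closed. -/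
theorem symm_of_opB {D D' : Bun 4 M κ} (hD : ∀ a b z, D.W a b z = tanW s a b z)
    (hD' : ∀ a b z, D'.W a b z = tanW s a b z)
    {vol' : (z : M) → (Fin 4 → TangentSpace 𝓘(ℝ, EuclideanSpace ℝ (Fin 4)) z) → ℝ}
    (hv : ∀ z X, vol' z X = - vol z X)
    (hw : SmU (n := 4) w) (hs : ∀ a z, ∑ b, tanP s a b z * w b z = w a z) {z : M}
    (h1 : ∀ y, opB D (ccR s vol) w (some y) z = 0)
    (h2 : ∀ y, opB D' (ccR s vol') w (some y) z = 0) (u v : TangentSpace 𝓘E z) :
    (inner ℝ (mCov 4 (fieldOf s w) z u) v : ℝ) = inner ℝ (mCov 4 (fieldOf s w) z v) u := by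
  have key : ∀ C D : κ, (inner ℝ (mCov 4 (fieldOf s w) z (s.s D z)) (s.s C z) : ℝ) =
      inner ℝ (mCov 4 (fieldOf s w) z (s.s C z)) (s.s D z) := by
    intro C D0
    have a1 := h1 (C, D0)
    have a2 := h2 (C, D0)
    rw [opB_some s vol hD hw hs] at a1
    rw [opB_some s vol' hD' hw hs] at a2
    have a3 : ∀ A B, lamP s vol (A, B) (C, D0) z + lamP s vol' (A, B) (C, D0) z =
        (1 / 2) * (tanP s A C z * tanP s B D0 z - tanP s A D0 z * tanP s B C z) := by
      intro A B
      simp only [lamP, hv]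
      ring
    have a4 : ∑ A, ∑ B, (1 / 2 : ℝ) * (tanP s A C z * tanP s B D0 z - tanP s A D0 z * tanP s B C z) *
        inner ℝ (mCov 4 (fieldOf s w) z (s.s B z)) (s.s A z) = 0 := by
      simp only [← a3, add_mul, Finset.sum_add_distrib]
      linarith
    have a5 : ∑ A, ∑ B, (1 / 2 : ℝ) * (tanP s A C z * tanP s B D0 z - tanP s A D0 z * tanP s B C z) *
        inner ℝ (mCov 4 (fieldOf s w) z (s.s B z)) (s.s A z) = (1 / 2) *
        ((inner ℝ (mCov 4 (fieldOf s w) z (s.s D0 z)) (s.s C z) : ℝ) -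
          inner ℝ (mCov 4 (fieldOf s w) z (s.s C z)) (s.s D0 z)) := by
      rw [← sum_tan2 s _ C D0, ← sum_tan2 s _ D0 C, ← Finset.sum_sub_distrib, Finset.mul_sum]
      refine Finset.sum_congr rfl fun A _ => ?_
      rw [← Finset.sum_sub_distrib, Finset.mul_sum]
      exact Finset.sum_congr rfl fun B _ => by ring
    rw [a5] at a4
    linarith
  have e : ∀ u v : TangentSpace 𝓘E z, (inner ℝ (mCov 4 (fieldOf s w) z u) v : ℝ) =
      ∑ A, ∑ B, (inner ℝ (s.s A z) u : ℝ) * inner ℝ (s.s B z) v *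
        inner ℝ (mCov 4 (fieldOf s w) z (s.s A z)) (s.s B z) := by
    intro u v
    have e1 : mCov 4 (fieldOf s w) z u =
        ∑ A, (inner ℝ (s.s A z) u : ℝ) • mCov 4 (fieldOf s w) z (s.s A z) := by
      conv_lhs => rw [← mCovL_apply, ← s.pars z u, map_sum]
      exact Finset.sum_congr rfl fun A _ => by rw [map_smul, mCovL_apply]
    rw [e1, sum_inner]
    refine Finset.sum_congr rfl fun A _ => ?_
    rw [real_inner_smul_left, ← pars_inner s z _ v, Finset.mul_sum]
    refine Finset.sum_congr rfl fun B _ => ?_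
    rw [real_inner_comm (mCov 4 (fieldOf s w) z (s.s A z)) (s.s B z)]; ring
  rw [e u v, e v u, Finset.sum_comm]
  refine Finset.sum_congr rfl fun A _ => Finset.sum_congr rfl fun B _ => ?_
  rw [key A B]; ring

end four

section closed

variable {M : Type} [MetricSpace M] [ChartedSpace (EuclideanSpace ℝ (Fin 4)) M]
  [IsManifold (𝓡 4) ∞ M]
  [RiemannianBundle (fun p : M => TangentSpace (𝓡 4) p)]
  [IsContMDiffRiemannianBundle (𝓡 4) ∞ (EuclideanSpace ℝ (Fin 4)) (fun p : M => TangentSpace (𝓡 4) p)]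
  [IsRiemannianManifold (𝓡 4) M]

/-- **`ker B = 0`**, if `B w = 0` for both orientations -/
theorem eq_zero_of_opB [CompactSpace M] [SimplyConnectedSpace M] {κ : Type} [Fintype κ]
    (s : PF 4 M κ) {w : κ → M → ℝ}
    {vol vol' : (z : M) → (Fin 4 → TangentSpace 𝓘(ℝ, EuclideanSpace ℝ (Fin 4)) z) → ℝ}
    (hv : ∀ z X, vol' z X = - vol z X)
    {D D' : Bun 4 M κ} (hD : ∀ a b z, D.W a b z = tanW s a b z)
    (hD' : ∀ a b z, D'.W a b z = tanW s a b z)
    (hw : SmU (n := 4) w) (hs : ∀ a z, ∑ b, tanP s a b z * w b z = w a z)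
    (h1 : ∀ y z, opB D (ccR s vol) w y z = 0)
    (h2 : ∀ y z, opB D' (ccR s vol') w y z = 0) (A : κ) (z : M) : w A z = 0 := by
  have hY := VSm_fieldOf s hw
  have h3 : fieldOf s w z = 0 := by
    refine field_eq_zero hY (fun z u v => ?_) (fun z => ?_) z
    · exact symm_of_opB s vol hD hD' hv hw hs (fun y => h1 (some y) z) (fun y => h2 (some y) z) u v
    · have := h1 none z
      rw [opB_none s vol hD hw hs] at this
      linarith
  rw [← inner_fieldOf s hs A z, h3, inner_zero_right]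

end closed

end Crest.Agent.R249.Idx789
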