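import Crest.Agent.R249.Tv11_57
import Crest.Agent.R249.TzM_805
import Crest.Agent.R249.Grn6_324

/-!
# R249 (C-TV), part 12: McKean–Singer and the index formula for 805's `DPair`. (helper57)

* `ofD` : `DPair D0 D1 → OpPair D0 D1`;
* `index_D` : for every `DPair` on a closed connected `M⁴` (no hypothesis on the curvature): spectra exist
  and `dim ker A - dim ker B = ∫ (dn D0 - dn D1)`, with the two kernels described by orthonormal bases.
-/

set_option autoImplicit false
set_option linter.unusedSectionVars false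
set_option maxSynthPendingDepth 3
open scoped ContDiff ENNReal NNReal Topology Manifold Bundle RealInnerProductSpace
open MeasureTheory Set Filter Metric Bundle

noncomputable section
namespace Crest.Agent.R249.Tv57

open Crest.Agent.R247.Dir593 Crest.Agent.R247.Ms322 Crest.Agent.R247.Frd657
open Crest.Agent.R249.Tz805

section gen
variable {n : ℕ} {M : Type*} [MetricSpace M] [ChartedSpace (EuclideanSpace ℝ (Fin n)) M]
  [IsManifold (𝓡 n) ∞ M]
  [RiemannianBundle (fun p : M => TangentSpace (𝓡 n) p)]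
  [IsContMDiffRiemannianBundle (𝓡 n) ∞ (EuclideanSpace ℝ (Fin n)) (fun p : M => TangentSpace (𝓡 n) p)]
  [IsRiemannianManifold (𝓡 n) M] [MeasurableSpace M] [BorelSpace M]
  [SecondCountableTopology M] [Nonempty M]
variable {κ κ' : Type} [Fintype κ] [Fintype κ'] {D0 : Dat n M κ} {D1 : Dat n M κ'}

/-- 805's pairs are pairs -/
def ofD (R : DPair D0 D1) : OpPair D0 D1 where
  A := R.A
  B := R.B
  smA := fun u hu _ => R.smA u hu
  smB := fun w hw _ => R.smB w hw
  secA := R.secA
  secB := R.secB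
  adj := fun u w hu hsu hw hsw => R.adj u w hu hw hsu hsw
  enA := fun u v hu hsu hv hsv => (R.w0 u v hu hv hsu hsv).symm
  enB := fun u v hu hsu hv hsv => (R.w1 u v hu hv hsu hsv).symm

/-- the kernel of an operator on smooth sections has dimension `N`, with an orthonormal basis -/
structure KerD (D : Dat n M κ) (A : (κ → M → ℝ) → κ' → M → ℝ) (N : ℕ) where
  u : Fin N → κ → M → ℝ
  smooth : ∀ i, SmV (n := n) (u i)
  sec : ∀ i, D.Sec (u i)
  ker : ∀ i b z, A (u i) b z = 0
  li : LinearIndependent ℝ u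
  ortho : ∀ i j, ip n (u i) (u j) = if i = j then 1 else 0
  span : ∀ v, SmV (n := n) v → D.Sec v → (∀ b z, A v b z = 0) →
    ∀ a z, v a z = ∑ i, ip n v (u i) * u i a z

theorem exists_kerD [CompactSpace M] [IsFiniteMeasureOnCompacts (μHE[n] : Measure M)]
    (P : OpPair D0 D1) (S0 : Spec D0) : Nonempty (KerD D0 P.A S0.ker.card) := by
  classical
  set e := S0.ker.orderIsoOfFin rfl with he
  have horth : ∀ i j : Fin S0.ker.card, ip n (S0.φ (e i)) (S0.φ (e j)) = if i = j then 1 else 0 := by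
    intro i j
    have h1 : ip n (S0.φ (e i)) (S0.φ (e j)) = if (e i : ℕ) = e j then 1 else 0 := S0.ortho _ _
    rw [h1]
    by_cases h : i = j
    · rw [if_pos h, h, if_pos rfl]
    · rw [if_neg h, if_neg fun h' => h (e.injective (Subtype.ext h'))]
  refine ⟨⟨fun i => S0.φ (e i), fun i => S0.smV _, fun i => S0.sec _,
    fun i b z => P.A_eq_zero S0 (S0.mem_ker.1 (e i).2) b z, ?_, horth, ?_⟩⟩
  · rw [Fintype.linearIndependent_iff]
    intro g hg i
    have h1 : ip n (fun a z => ∑ j, g j * S0.φ (e j) a z) (S0.φ (e i)) =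
        ∑ j, g j * ip n (S0.φ (e j)) (S0.φ (e i)) := by
      unfold ip
      simp only [← integral_const_mul]
      rw [← integral_finsetSum]
      · refine integral_congr_ae (Eventually.of_forall fun z => ?_)
        simp only [Finset.sum_mul, Finset.mul_sum]
        rw [Finset.sum_comm]
        exact Finset.sum_congr rfl fun k _ => Finset.sum_congr rfl fun a _ => by ring
      · intro k _
        exact (integrable_ip (S0.smV _) (S0.smV _)).const_mul _
    have h2 : (fun a z => ∑ j, g j * S0.φ (e j) a z) = 0 := by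
      rw [← hg]
      funext a z
      simp only [Finset.sum_apply, Pi.smul_apply, smul_eq_mul]
    rw [h2] at h1
    simp only [horth, mul_ite, mul_one, mul_zero, Finset.sum_ite_eq', Finset.mem_univ, if_true] at h1
    rw [← h1]
    unfold ip
    simp
  · intro v hv hs hA a z
    rw [P.eq_sum_ker S0 hv hs hA a z]
    have := Finset.sum_coe_sort S0.ker (fun k => ip n v (S0.φ k) * S0.φ k a z)
    rw [← this]
    exact (Equiv.sum_comp e.toEquiv
      (fun k : S0.ker => ip n v (S0.φ (k : ℕ)) * S0.φ (k : ℕ) a z)).symm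

end gen

section four
universe v
variable {N : Type v} [MetricSpace N] [CompactSpace N] [ConnectedSpace N]
  [ChartedSpace (EuclideanSpace ℝ (Fin 4)) N]
  [IsManifold (𝓡 4) ∞ N]
  [RiemannianBundle (fun p : N => TangentSpace (𝓡 4) p)]
  [IsContMDiffRiemannianBundle (𝓡 4) ∞ (EuclideanSpace ℝ (Fin 4)) (fun p : N => TangentSpace (𝓡 4) p)]
  [IsRiemannianManifold (𝓡 4) N] [MeasurableSpace N] [BorelSpace N]
  [SecondCountableTopology N] [Nonempty N]
variable {κ κ' : Type} [Fintype κ] [Fintype κ'] {D0 : Dat 4 N κ} {D1 : Dat 4 N κ'}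

open Crest.Agent.R249.HK9_714

/-- **the index formula**, final form -/
theorem index_D (HK8 : ChartStmt) (R : DPair D0 D1)
    (h0 : ∃ z a, D0.p a a z ≠ 0) (h1 : ∃ z a, D1.p a a z ≠ 0)
    (hr : ∀ z, ∑ a, D0.p a a z = ∑ a, D1.p a a z)
    (hq : ∀ z, ∑ a, ∑ b, D0.Q a b z * D0.p a b z = ∑ a, ∑ b, D1.Q a b z * D1.p a b z) :
    ∃ (d0 d1 : ℕ) (_ : KerD D0 R.A d0) (_ : KerD D1 R.B d1),
      Integrable (fun z => dn D0 z - dn D1 z) (μHE[4] : Measure N) ∧
      (d0 : ℝ) - d1 = ∫ z, (dn D0 z - dn D1 z) ∂(μHE[4] : Measure N) := by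
  have := isLocallyFiniteMeasure 4 N
  obtain ⟨k, hk, hRic⟩ := Crest.Agent.R249.Grn324.exists_ricciLowerBound 4 N
  obtain ⟨z0, a0, hz0⟩ := h0
  obtain ⟨z1, a1, hz1⟩ := h1
  obtain ⟨S0⟩ := exists_spec (by norm_num) hk hRic D0 hz0
  obtain ⟨S1⟩ := exists_spec (by norm_num) hk hRic D1 hz1
  obtain ⟨K0⟩ := exists_kerD (ofD R) S0
  obtain ⟨K1⟩ := exists_kerD (ofD R).swap S1
  obtain ⟨e1, e2⟩ := index_formula HK8 (ofD R) S0 S1 hr hq
  exact ⟨S0.ker.card, S1.ker.card, K0, K1, e1, e2⟩

end four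

end Crest.Agent.R249.Tv57
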