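import Crest.Agent.R249.Idx6_789
import Crest.Agent.R249.Tv12_57

/-!
# R249, IDX/COUNT (helper789), part 7: abstract pieces of the index argument

* `opB_other`  : two pairs with the same `D1` have the same `∫ |B w|²`;
* `ker_pos`    : positive potential: `ker B = 0`;
* `KerD.eq_zero`, `KerD.one_le` : `ker = 0 → N = 0`; a nonzero element gives `1 ≤ N`;
* `count`      : the arithmetic (I1)-(I3) ⇒ `7 ≤ dim ker D`.
-/

set_option autoImplicit false
set_option maxSynthPendingDepth 3
set_option linter.unusedSectionVars false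

open scoped ContDiff ENNReal NNReal Topology Manifold Bundle RealInnerProductSpace
open MeasureTheory Set Filter Metric Bundle
open Crest.Agent.R247.Dir593 Crest.Agent.R247.Ms322 Crest.Agent.R247.Frd657
open Crest.Agent.R249.Tz805 Crest.Agent.R249.Tv57

noncomputable section

namespace Crest.Agent.R249.Idx789

section gen

variable {n : ℕ} {M : Type*} [MetricSpace M] [ChartedSpace (EuclideanSpace ℝ (Fin n)) M]
  [IsManifold (𝓡 n) ∞ M]
  [RiemannianBundle (fun p : M => TangentSpace (𝓡 n) p)]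
  [IsContMDiffRiemannianBundle (𝓡 n) ∞ (EuclideanSpace ℝ (Fin n)) (fun p : M => TangentSpace (𝓡 n) p)]
  [IsRiemannianManifold (𝓡 n) M] [MeasurableSpace M] [BorelSpace M]
  [SecondCountableTopology M] [Nonempty M]
variable {κ κ' κ'' : Type} [Fintype κ] [Fintype κ'] [Fintype κ'']
  {D0 : Dat n M κ} {D1 : Dat n M κ'} {D0' : Dat n M κ''} {D1' : Dat n M κ'}

/-- the energy only depends on the connection and the potential -/
theorem ed_congr (hX : ∀ a b z, D1.X a b z = D1'.X a b z) (hQ : ∀ a b z, D1.Q a b z = D1'.Q a b z)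
    (u v : κ' → M → ℝ) (z : M) : D1.ed u v z = D1'.ed u v z := by
  have h1 : D1.X = D1'.X := funext fun a => funext fun b => funext fun z => hX a b z
  have h2 : D1.Q = D1'.Q := funext fun a => funext fun b => funext fun z => hQ a b z
  unfold Dat.ed Dat.cv
  rw [h1, h2]

/-- two pairs with the same `D1` -/
theorem opB_other [CompactSpace M] (R : DPair D0 D1) (R' : DPair D0' D1')
    (hX : ∀ a b z, D1.X a b z = D1'.X a b z) (hQ : ∀ a b z, D1.Q a b z = D1'.Q a b z)
    {w : κ' → M → ℝ} (hw : SmV (n := n) w) (hs : D1.Sec w) (hs' : D1'.Sec w)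
    (h0 : ∀ y z, R.B w y z = 0) (y : κ'') (z : M) : R'.B w y z = 0 := by
  have := isLocallyFiniteMeasure n M
  have h1 := R.w1 w w hw hw hs hs
  have h2 := R'.w1 w w hw hw hs' hs'
  simp only [ed_congr hX hQ] at h1
  rw [← h1] at h2
  simp only [h0, mul_zero, Finset.sum_const_zero, integral_zero] at h2
  exact eq_zero_of_ip (R'.smB w hw) h2 y z

/-- positive potential -/
theorem ker_pos [CompactSpace M] (R : DPair D0 D1) {k : ℝ} (hk : 0 < k)
    (hQ : ∀ a b z, D1.Q a b z = k * D1.p a b z) {w : κ' → M → ℝ} (hw : SmV (n := n) w)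
    (hs : D1.Sec w) (h0 : ∀ y z, R.B w y z = 0) (a : κ') (z : M) : w a z = 0 := by
  have := isLocallyFiniteMeasure n M
  have h1 := R.w1 w w hw hw hs hs
  simp only [h0, mul_zero, Finset.sum_const_zero, integral_zero] at h1
  have h2 : ∀ z, k * ∑ a, w a z * w a z ≤ D1.ed w w z := by
    intro z
    have e1 : ∑ a, ∑ b, D1.Q a b z * w b z * w a z = k * ∑ a, w a z * w a z := by
      rw [Finset.mul_sum]
      refine Finset.sum_congr rfl fun a _ => ?_
      have e2 := hs a z
      calc ∑ b, D1.Q a b z * w b z * w a z = k * ((∑ b, D1.p a b z * w b z) * w a z) := by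
            rw [Finset.sum_mul, Finset.mul_sum]
            refine Finset.sum_congr rfl fun b _ => ?_
            rw [hQ]; ring
        _ = k * (w a z * w a z) := by rw [e2]
    rw [Dat.ed, e1]
    have e3 : 0 ≤ ∑ a, ⟪D1.cv w a z, D1.cv w a z⟫ :=
      Finset.sum_nonneg fun a _ => real_inner_self_nonneg
    linarith
  have hi : Integrable (fun z => ∑ a, w a z * w a z) (μHE[n] : Measure M) := integrable_ip hw hw
  have hie : Integrable (fun z => D1.ed w w z) (μHE[n] : Measure M) :=
    (smooth_ed D1 hw hw).continuous.integrable_of_hasCompactSupport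
      (HasCompactSupport.of_compactSpace _)
  have h3 : k * ip n w w ≤ 0 := by
    rw [h1]
    unfold ip
    rw [← integral_const_mul]
    exact integral_mono (hi.const_mul k) hie h2
  have h4 : 0 ≤ ip n w w := integral_nonneg fun z => Finset.sum_nonneg fun a _ => mul_self_nonneg _
  have h5 : ip n w w = 0 := by nlinarith
  exact eq_zero_of_ip hw h5 a z

/-- trivial kernel -/
theorem kerD_zero {A : (κ → M → ℝ) → κ' → M → ℝ} {N : ℕ} (K : KerD D0 A N)
    (h : ∀ w, SmV (n := n) w → D0.Sec w → (∀ y z, A w y z = 0) → ∀ a z, w a z = 0) : N = 0 := by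
  rcases Nat.eq_zero_or_pos N with h0 | h0
  · exact h0
  · exfalso
    have h1 : K.u ⟨0, h0⟩ = 0 := by
      funext a z
      exact h _ (K.smooth _) (K.sec _) (K.ker _) a z
    exact K.li.ne_zero ⟨0, h0⟩ h1

/-- a nonzero element of the kernel -/
theorem kerD_pos {A : (κ → M → ℝ) → κ' → M → ℝ} {N : ℕ} (K : KerD D0 A N)
    {u : κ → M → ℝ} (hu : SmV (n := n) u) (hs : D0.Sec u) (hA : ∀ y z, A u y z = 0)
    {a : κ} {z : M} (hne : u a z ≠ 0) : 1 ≤ N := by
  rcases Nat.eq_zero_or_pos N with h0 | h0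
  · exfalso
    subst h0
    apply hne
    rw [K.span u hu hs hA a z]
    simp
  · exact h0

/-- **(I1)-(I3)** -/
theorem count [CompactSpace M] {fR fL : M → ℝ} (hfR : Integrable fR (μHE[n] : Measure M))
    {v : ℝ} (h1 : ∀ z, fL z = 3 * fR z + 48 * v)
    (h2 : ∀ z, fR z ≤ 14 * v) {d0 e0 e1 : ℕ} (hd : 1 ≤ d0)
    (hR : (d0 : ℝ) = ∫ z, fR z ∂(μHE[n] : Measure M))
    (hL : (e0 : ℝ) - e1 = ∫ z, fL z ∂(μHE[n] : Measure M)) : 7 ≤ e0 := by
  have := isLocallyFiniteMeasure n M
  set V : ℝ := (μHE[n] : Measure M).real univ with hV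
  have c1 : ∀ r : ℝ, ∫ _ : M, r ∂(μHE[n] : Measure M) = V * r := by
    intro r
    rw [integral_const, smul_eq_mul]
  have e1' : ∫ z, fL z ∂(μHE[n] : Measure M) = 3 * (∫ z, fR z ∂(μHE[n] : Measure M)) + V * (48 * v) := by
    simp only [h1]
    rw [integral_add (hfR.const_mul 3) (integrable_const _), integral_const_mul, c1]
  have e2 : ∫ z, fR z ∂(μHE[n] : Measure M) ≤ V * (14 * v) := by
    rw [← c1]
    exact integral_mono hfR (integrable_const _) h2
  have hd' : (1:ℝ) ≤ d0 := by exact_mod_cast hd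
  rw [e1', ← hR] at hL
  rw [← hR] at e2
  have h6 : (6:ℝ) < e0 := by
    have : (0:ℝ) ≤ e1 := Nat.cast_nonneg _
    nlinarith
  have : 6 < e0 := by exact_mod_cast h6
  omega

end gen

end Crest.Agent.R249.Idx789
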