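import Crest.Agent.R249.Dic_805
import Crest.Agent.R249.Vf4_281

/-!
Row 249, leaf T0 (helper805), part 3: the tangent bundle as a `Bun`, and its local frames.
-/

set_option autoImplicit false
set_option maxSynthPendingDepth 3
set_option linter.unusedSectionVars false

open Filter Topology Set Bundle Manifold Matrix
open scoped ContDiff
open Crest.GeometryTopology.CoordMetric Crest.GeometryTopology.ChartCurvature
  Crest.GeometryTopology.PointedLimit
open Crest.Agent.R202.Tens Crest.Agent.R247.Bo84 Crest.Agent.R249.FrmB_285 Crest.Agent.R249.Vf281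
  Crest.Agent.R249.Tz1_805 Crest.Agent.R249.Tz2_805
open Crest.Agent.R249.Fr129 Crest.Agent.R249.C2_198
open Crest.Agent.R249.Sg129 hiding fg fg_add fg_sub fg_mul fg_const fg_sum ev_fg contMDiff_inner VSm_mCov
open Crest.Agent.R249.Dic805

noncomputable section

namespace Crest.Agent.R249.Tz805

section mat

variable {R : Type*} [CommRing R] {κ : Type*} [Fintype κ] [DecidableEq κ]

/-- `P P' P = 0` for an idempotent with derivative `P'` -/
lemma PdPP {P P' : Matrix κ κ R} (hP : P * P = P) (h : P' * P + P * P' = P') :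
    P * P' * P = 0 := by
  have h1 : P * P' * P + P * P' = P * P' := by
    have := congrArg (fun X => P * X) h
    simp only [Matrix.mul_add, ← Matrix.mul_assoc, hP] at this
    exact this
  simpa using h1

/-- the connection `ω = G - (1-P)P'` is skew -/
lemma tan_skew_mat {P P' G : Matrix κ κ R} (hPt : Pᵀ = P) (hP't : P'ᵀ = P')
    (h : P' * P + P * P' = P') (hG : G + Gᵀ = P') :
    (G - (1 - P) * P') + (G - (1 - P) * P')ᵀ = 0 := by
  rw [Matrix.transpose_sub, Matrix.transpose_mul, Matrix.transpose_sub, Matrix.transpose_one,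
    hPt, hP't]
  have e : G - (1 - P) * P' + (Gᵀ - P' * (1 - P))
      = (G + Gᵀ) - P' - P' + (P' * P + P * P') := by noncomm_ring
  rw [e, hG, h]; abel

/-- `P` is parallel for `ω` -/
lemma tan_par_mat {P P' G : Matrix κ κ R} (hPt : Pᵀ = P) (hP : P * P = P)
    (h : P' * P + P * P' = P') (hG : G + Gᵀ = P') (hPG : P * G = G) :
    P' + (G - (1 - P) * P') * P - P * (G - (1 - P) * P') = 0 := by
  have h0 := PdPP hP h
  have h1 : Gᵀ * P = Gᵀ := by
    have := congrArg Matrix.transpose hPG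
    rwa [Matrix.transpose_mul, hPt] at this
  have e : P' + (G - (1 - P) * P') * P - P * (G - (1 - P) * P')
      = P' + G * P - P' * P + P * P' * P - P * G + (P * P' - P * P * P') := by noncomm_ring
  rw [e, h0, hPG, hP, sub_self, add_zero, add_zero]
  rw [← hG, Matrix.add_mul, h1]; abel

end mat

variable {n : ℕ} {M : Type*} [TopologicalSpace M] [ChartedSpace (EuclideanSpace ℝ (Fin n)) M]
  [IsManifold 𝓘(ℝ, EuclideanSpace ℝ (Fin n)) ∞ M]
  [RiemannianBundle (fun x : M => TangentSpace 𝓘(ℝ, EuclideanSpace ℝ (Fin n)) x)]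
  [IsContMDiffRiemannianBundle 𝓘(ℝ, EuclideanSpace ℝ (Fin n)) ∞ (EuclideanSpace ℝ (Fin n))
      (fun x : M => TangentSpace 𝓘(ℝ, EuclideanSpace ℝ (Fin n)) x)]

local notation "𝔼" => EuclideanSpace ℝ (Fin n)
local notation "𝓘E" => 𝓘(ℝ, EuclideanSpace ℝ (Fin n))

variable {κ : Type} [Fintype κ] (s : PF n M κ)

lemma smP (A B : κ) : ContMDiff 𝓘E 𝓘(ℝ, ℝ) ∞ (tanP s A B) :=
  contMDiff_inner (s.sm A) (s.sm B)

lemma tanP_symm (A B : κ) (z : M) : tanP s A B z = tanP s B A z := real_inner_comm _ _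

lemma sum_tanP_smul (A : κ) (z : M) : ∑ C, tanP s A C z • s.s C z = s.s A z := by
  have h := s.pars z (s.s A z)
  rw [← h]
  refine Finset.sum_congr rfl fun C _ => ?_
  rw [tanP_symm, tanP]

lemma tanP_idem (A B : κ) (z : M) : ∑ C, tanP s A C z * tanP s C B z = tanP s A B z := by
  have h := congrArg (fun v => (inner ℝ v (s.s B z) : ℝ)) (sum_tanP_smul s A z)
  simp only [sum_inner, inner_smul_left] at h
  exact h

/-- matrix of `⟨∇_X s_B, s_A⟩` -/
def Gm (z : M) (X : TangentSpace 𝓘(ℝ, EuclideanSpace ℝ (Fin n)) z) : Matrix κ κ ℝ :=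
  Matrix.of fun A B => inner ℝ (mCov n (s.s B) z X) (s.s A z)

/-- matrix of `X p_AB` -/
def Pd (z : M) (X : TangentSpace 𝓘(ℝ, EuclideanSpace ℝ (Fin n)) z) : Matrix κ κ ℝ :=
  Matrix.of fun A B => inner ℝ (mgrad n (tanP s A B) z) X

/-- matrix of `p` -/
def Pm (z : M) : Matrix κ κ ℝ := Matrix.of fun A B => tanP s A B z

lemma Pm_t (z : M) : (Pm s z)ᵀ = Pm s z := by
  ext A B; exact tanP_symm s B A z

lemma Pm_idem (z : M) : Pm s z * Pm s z = Pm s z := by
  ext A B; exact tanP_idem s A B z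

lemma Pd_t (z : M) (X : TangentSpace 𝓘E z) : (Pd s z X)ᵀ = Pd s z X := by
  ext A B
  change inner ℝ (mgrad n (tanP s B A) z) X = inner ℝ (mgrad n (tanP s A B) z) X
  have : tanP s B A = tanP s A B := funext fun w => tanP_symm s B A w
  rw [this]

lemma Gm_add (z : M) (X : TangentSpace 𝓘E z) : Gm s z X + (Gm s z X)ᵀ = Pd s z X := by
  ext A B
  change inner ℝ (mCov n (s.s B) z X) (s.s A z) + inner ℝ (mCov n (s.s A) z X) (s.s B z)
    = inner ℝ (mgrad n (tanP s A B) z) X
  rw [inner_mgrad']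
  have h := mfderiv_inner ((s.sm A z).of_le (by exact_mod_cast le_top))
    ((s.sm B z).of_le (by exact_mod_cast le_top)) X
  have e : (tanP s A B) = fun q => (inner ℝ (s.s A q) (s.s B q) : ℝ) := rfl
  rw [e, h, real_inner_comm (mCov n (s.s B) z X)]
  rw [add_comm]

lemma PG (z : M) (X : TangentSpace 𝓘E z) : Pm s z * Gm s z X = Gm s z X := by
  ext A B
  rw [Matrix.mul_apply]
  change ∑ C, tanP s A C z * inner ℝ (mCov n (s.s B) z X) (s.s C z)
    = inner ℝ (mCov n (s.s B) z X) (s.s A z)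
  conv_rhs => rw [← sum_tanP_smul s A z]
  rw [inner_sum]
  exact Finset.sum_congr rfl fun C _ => by rw [inner_smul_right]

lemma mdiffAt_tanP (A B : κ) (z : M) : MDifferentiableAt 𝓘E 𝓘(ℝ, ℝ) (tanP s A B) z :=
  (smP s A B).mdifferentiable (by simp) z

lemma mgrad_sum {ι : Type*} (t : Finset ι) {f : ι → M → ℝ} {z : M}
    (hf : ∀ i, MDifferentiableAt 𝓘E 𝓘(ℝ, ℝ) (f i) z) :
    mgrad n (fun q => ∑ i ∈ t, f i q) z = ∑ i ∈ t, mgrad n (f i) z := by
  classical
  have key : MDifferentiableAt 𝓘E 𝓘(ℝ, ℝ) (fun q => ∑ i ∈ t, f i q) z ∧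
      mgrad n (fun q => ∑ i ∈ t, f i q) z = ∑ i ∈ t, mgrad n (f i) z := by
    induction t using Finset.induction_on with
    | empty =>
      simp only [Finset.sum_empty]
      exact ⟨mdifferentiableAt_const, mgrad_const 0⟩
    | insert a t ha ih =>
      simp only [Finset.sum_insert ha]
      exact ⟨(hf a).add ih.1, by rw [mgrad_add (hf a) ih.1, ih.2]⟩
  exact key.2

lemma mgrad_tanP_idem (A B : κ) (z : M) :
    ∑ C, (tanP s A C z • mgrad n (tanP s C B) z + tanP s C B z • mgrad n (tanP s A C) z)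
      = mgrad n (tanP s A B) z := by
  have e : (fun q => ∑ C, tanP s A C q * tanP s C B q) = tanP s A B :=
    funext fun q => tanP_idem s A B q
  rw [← e, mgrad_sum]
  · exact Finset.sum_congr rfl fun C _ =>
      (mgrad_mul (mdiffAt_tanP s A C z) (mdiffAt_tanP s C B z)).symm
  · exact fun C => (mdiffAt_tanP s A C z).mul (mdiffAt_tanP s C B z)

lemma Pd_idem (z : M) (X : TangentSpace 𝓘E z) :
    Pd s z X * Pm s z + Pm s z * Pd s z X = Pd s z X := by
  ext A B
  rw [Matrix.add_apply, Matrix.mul_apply, Matrix.mul_apply, ← Finset.sum_add_distrib]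
  have h := congrArg (fun v => (inner ℝ v X : ℝ)) (mgrad_tanP_idem s A B z)
  simp only [sum_inner, inner_add_left, inner_smul_left, RCLike.conj_to_real] at h
  change _ = inner ℝ (mgrad n (tanP s A B) z) X
  rw [← h]
  refine Finset.sum_congr rfl fun C _ => ?_
  change inner ℝ (mgrad n (tanP s A C) z) X * tanP s C B z
    + tanP s A C z * inner ℝ (mgrad n (tanP s C B) z) X = _
  ring

/-- `mCov` as a linear map -/
def mCovL (X : (p : M) → TangentSpace 𝓘(ℝ, EuclideanSpace ℝ (Fin n)) p) (z : M) :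
    EuclideanSpace ℝ (Fin n) →L[ℝ] EuclideanSpace ℝ (Fin n) :=
  ContinuousLinearMap.comp (dSy z (chartCentre n M z))
    (ContinuousLinearMap.comp (cov (chartMetric n M z) (vCh n z X) (chartCentre n M z)) (dCh z z))

lemma mCov_lin (X : (p : M) → TangentSpace 𝓘(ℝ, EuclideanSpace ℝ (Fin n)) p) (z : M)
    {ι : Type*} (t : Finset ι) (c : ι → ℝ) (v : ι → TangentSpace 𝓘(ℝ, EuclideanSpace ℝ (Fin n)) z) :
    mCov n X z (∑ i ∈ t, c i • v i) = ∑ i ∈ t, c i • mCov n X z (v i) := by
  have h1 := map_sum (mCovL X z) (fun i => c i • (v i : EuclideanSpace ℝ (Fin n))) t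
  exact h1.trans (Finset.sum_congr rfl fun i _ =>
    map_smul (mCovL X z) (c i) (v i : EuclideanSpace ℝ (Fin n)))

/-- the matrix of the connection -/
lemma inner_tanW [DecidableEq κ] (A B : κ) (z : M) (X : TangentSpace 𝓘E z) :
    inner ℝ (tanW s A B z) X = (Gm s z X - (1 - Pm s z) * Pd s z X) A B := by
  have h1 : inner ℝ (∑ C, inner ℝ (mCov n (s.s B) z (s.s C z)) (s.s A z) • s.s C z) X
      = Gm s z X A B := by
    rw [sum_inner]
    have hX := s.pars z X
    change _ = inner ℝ (mCov n (s.s B) z X) (s.s A z)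
    conv_rhs => rw [← hX]
    have e : mCov n (s.s B) z (∑ C, (inner ℝ (s.s C z) X : ℝ) • s.s C z)
        = ∑ C, (inner ℝ (s.s C z) X : ℝ) • mCov n (s.s B) z (s.s C z) := by
      exact mCov_lin _ _ _ _ _
    rw [e, sum_inner]
    refine Finset.sum_congr rfl fun C _ => ?_
    rw [inner_smul_left, inner_smul_left]
    simp only [RCLike.conj_to_real]
    ring
  rw [tanW, inner_sub_left, h1, Matrix.sub_apply, sum_inner, Matrix.mul_apply]
  congr 1
  refine Finset.sum_congr rfl fun C _ => ?_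
  rw [inner_smul_left]
  simp only [RCLike.conj_to_real]
  rw [Matrix.sub_apply, Matrix.one_apply]
  change _ = ((if A = C then 1 else 0) - tanP s A C z) * inner ℝ (mgrad n (tanP s C B) z) X
  congr 2
  congr 1

/-- **the tangent bundle** -/
def tanB : Bun n M κ where
  W := tanW s
  p := tanP s
  smW A B z := by
    classical
    have h1 : VSm n ∞ (fun q => ∑ C, inner ℝ (mCov n (s.s B) q (s.s C q)) (s.s A q) • s.s C q) z :=
      VSm.sum _ fun C _ => VSm.smul le_rfl
        ((contMDiff_inner (VSm_mCov (s.sm B) (s.sm C)) (s.sm A)).contMDiffAt) (s.sm C z)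
    have h2 : VSm n ∞ (fun q => ∑ C, ((if A = C then 1 else 0) - tanP s A C q) •
        mgrad n (tanP s C B) q) z :=
      VSm.sum _ fun C _ => VSm.smul le_rfl
        ((contMDiff_const.sub (smP s A C)).contMDiffAt) (VSm_mgrad (smP s C B z) (by simp) le_rfl)
    have h3 := h1.add h2.neg
    have e : (fun q => ∑ C, inner ℝ (mCov n (s.s B) q (s.s C q)) (s.s A q) • s.s C q
        + -(∑ C, ((if A = C then 1 else 0) - tanP s A C q) • mgrad n (tanP s C B) q))
        = tanW s A B := by
      funext q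
      rw [tanW, sub_eq_add_neg]
    rw [e] at h3
    exact h3
  skew A B z := by
    classical
    refine ext_inner_right ℝ fun X => ?_
    rw [inner_neg_left, inner_tanW, inner_tanW]
    have h := tan_skew_mat (Pm_t s z) (Pd_t s z X) (Pd_idem s z X) (Gm_add s z X)
    have := congrFun (congrFun h A) B
    rw [Matrix.add_apply, Matrix.transpose_apply, Matrix.zero_apply] at this
    exact eq_neg_of_add_eq_zero_left this
  smp := smP s
  symmp := tanP_symm s
  idem := tanP_idem s
  par A B z := by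
    classical
    refine ext_inner_right ℝ fun X => ?_
    rw [inner_add_left, sum_inner, inner_zero_left]
    have h := tan_par_mat (Pm_t s z) (Pm_idem s z) (Pd_idem s z X) (Gm_add s z X) (PG s z X)
    have h2 := congrFun (congrFun h A) B
    rw [Matrix.sub_apply, Matrix.add_apply, Matrix.mul_apply, Matrix.mul_apply,
      Matrix.zero_apply, add_sub_assoc, ← Finset.sum_sub_distrib] at h2
    rw [← h2]
    congr 1
    refine Finset.sum_congr rfl fun C _ => ?_
    rw [inner_sub_left, inner_smul_left, inner_smul_left, inner_tanW, inner_tanW]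
    simp only [RCLike.conj_to_real]
    change _ = _ * tanP s C B z - tanP s A C z * _
    ring

/-! ### the local frame of the tangent bundle -/

section frame

variable {z : M} {e : Fin n → EuclideanSpace ℝ (Fin n) → EuclideanSpace ℝ (Fin n)}
  (h : ONF (chartMetric n M z) (chartAt (EuclideanSpace ℝ (Fin n)) z).target
      (chartCentre n M z) e)

/-- the local frame `J_Ai = ⟨s_A, e_i⟩` -/
def tanJ (z : M) (e : Fin n → EuclideanSpace ℝ (Fin n) → EuclideanSpace ℝ (Fin n)) :
    Matrix κ (Fin n) (SG (chartCentre n M z)) := Matrix.of fun A i => vg z e (s.s A) i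

include h in
lemma tanJ_jtj : (tanJ s z e)ᵀ * tanJ s z e = 1 := by
  ext i j
  rw [Matrix.mul_apply, Matrix.one_apply]
  exact vg_pars h s i j

include h in
lemma tanJ_jjt : tanJ s z e * (tanJ s z e)ᵀ = Matrix.of fun A B => fg z (tanP s A B) := by
  ext A B
  rw [Matrix.mul_apply]
  exact (fg_inner h (s.sm A) (s.sm B)).symm

/-- `∇_k J` -/
def nJ (k : Fin n) : Matrix κ (Fin n) (SG (chartCentre n M z)) :=
  dM (h.frameOf.D k) (tanJ s z e) - tanJ s z e * h.frameOf.tan k

lemma cov_tanJ (k : Fin n) (A : κ) (i : Fin n) :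
    h.frameOf.cov h.frameOf.tan k (vg z e (s.s A)) i = nJ s h k A i := by
  rw [nJ, Matrix.sub_apply, Matrix.mul_apply, Frame.cov, sub_eq_add_neg, ← Finset.sum_neg_distrib]
  congr 1
  refine Finset.sum_congr rfl fun l _ => ?_
  have := h.frameOf.anti k l i
  change h.frameOf.w k l i * _ = -(_ * h.frameOf.w k i l)
  rw [this]
  change -h.frameOf.w k i l * vg z e (s.s A) l = -(vg z e (s.s A) l * _)
  ring

lemma vg_tanW [DecidableEq κ] (k : Fin n) :
    (Matrix.of fun A B => vg z e (tanW s A B) k)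
      = tanJ s z e * (nJ s h k)ᵀ
        - (1 - tanJ s z e * (tanJ s z e)ᵀ) * dM (h.frameOf.D k) (tanJ s z e * (tanJ s z e)ᵀ) := by
  rw [tanJ_jjt s h]
  ext A B
  have sW1 : ∀ C, ContMDiff 𝓘E 𝓘(ℝ, ℝ) ∞
      (fun q => (inner ℝ (mCov n (s.s B) q (s.s C q)) (s.s A q) : ℝ)) := fun C =>
    contMDiff_inner (VSm_mCov (s.sm B) (s.sm C)) (s.sm A)
  have sW2 : ∀ C, ContMDiff 𝓘E 𝓘(ℝ, ℝ) ∞
      (fun q => (if A = C then (1:ℝ) else 0) - tanP s A C q) := fun C =>
    contMDiff_const.sub (smP s A C)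
  have sW3 : ∀ C z, VSm n ∞ (fun q => mgrad n (tanP s C B) q) z := fun C z =>
    VSm_mgrad (smP s C B z) (by simp) le_rfl
  have e0 : tanW s A B = fun q =>
      (∑ C, inner ℝ (mCov n (s.s B) q (s.s C q)) (s.s A q) • s.s C q)
      - ∑ C, ((if A = C then (1:ℝ) else 0) - tanP s A C q) • mgrad n (tanP s C B) q := by
    funext q
    rw [tanW]
    congr!
  rw [Matrix.of_apply, e0, vg_sub h (fun z => VSm.sum _ fun C _ =>
      VSm.smul le_rfl (sW1 C).contMDiffAt (s.sm C z))
    (fun z => VSm.sum _ fun C _ => VSm.smul le_rfl (sW2 C).contMDiffAt (sW3 C z)),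
    vg_sum h _ (fun C z => VSm.smul le_rfl (sW1 C).contMDiffAt (s.sm C z)),
    vg_sum h _ (fun C z => VSm.smul le_rfl (sW2 C).contMDiffAt (sW3 C z)), Matrix.sub_apply]
  congr 1
  · -- the connection term
    rw [Matrix.mul_apply]
    have e1 : ∀ C, vg z e (fun q => (inner ℝ (mCov n (s.s B) q (s.s C q)) (s.s A q) : ℝ) • s.s C q) k
        = ∑ i, ∑ l, (vg z e (s.s C) l * vg z e (s.s C) k) * (nJ s h l B i * tanJ s z e A i) := by
      intro C
      rw [vg_smul h (sW1 C) (s.sm C), fg_inner h (VSm_mCov (s.sm B) (s.sm C)) (s.sm A),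
        Finset.sum_mul]
      refine Finset.sum_congr rfl fun i _ => ?_
      rw [vg_mCov h (s.sm B) (s.sm C), Finset.sum_mul, Finset.sum_mul]
      refine Finset.sum_congr rfl fun l _ => ?_
      rw [cov_tanJ]
      change vg z e (s.s C) l * nJ s h l B i * vg z e (s.s A) i * vg z e (s.s C) k = 
        (vg z e (s.s C) l * vg z e (s.s C) k) * (nJ s h l B i * vg z e (s.s A) i)
      ring
    rw [Finset.sum_congr rfl fun C _ => e1 C, Finset.sum_comm]
    refine Finset.sum_congr rfl fun i _ => ?_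
    rw [Finset.sum_comm]
    have e2 : ∀ l, ∑ C, (vg z e (s.s C) l * vg z e (s.s C) k) * (nJ s h l B i * tanJ s z e A i)
        = (if l = k then 1 else 0) * (nJ s h l B i * tanJ s z e A i) := by
      intro l
      rw [← Finset.sum_mul, vg_pars h s l k]
    rw [Finset.sum_congr rfl fun l _ => e2 l]
    simp only [ite_mul, one_mul, zero_mul, Finset.sum_ite_eq', Finset.mem_univ, if_true]
    rw [Matrix.transpose_apply, mul_comm]
  · rw [Matrix.mul_apply]
    refine Finset.sum_congr rfl fun C _ => ?_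
    rw [vg_smul h (sW2 C) (sW3 C), ← D_fg h (smP s C B),
      fg_sub contMDiff_const (smP s A C), fg_const]
    rw [Matrix.sub_apply, Matrix.one_apply]
    congr 2
    split_ifs <;> simp

theorem lf_tanB : LF (tanB s) h h.frameOf.tan (tanJ s z e) where
  jtj := tanJ_jtj s h
  jjt := tanJ_jjt s h
  dj k := by
    classical
    change dM (h.frameOf.D k) (tanJ s z e) + (Matrix.of fun A B => vg z e (tanW s A B) k)
      * tanJ s z e = _
    rw [vg_tanW s h]
    set J := tanJ s z e
    have h1 : Jᵀ * J = 1 := tanJ_jtj s h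
    have h2 : dM (h.frameOf.D k) Jᵀ * J + Jᵀ * dM (h.frameOf.D k) J = 0 := by
      rw [← dM_mul, h1, dM_one]
    have h3 : (h.frameOf.tan k)ᵀ = - h.frameOf.tan k := by
      ext i l
      exact h.frameOf.anti k i l
    have h4 : (nJ s h k)ᵀ = dM (h.frameOf.D k) Jᵀ + h.frameOf.tan k * Jᵀ := by
      rw [nJ, Matrix.transpose_sub, Matrix.transpose_mul, h3, ← dM_transpose]
      simp only [Matrix.neg_mul, sub_neg_eq_add]
      rfl
    rw [h4, dM_mul]
    have e1 : dM (h.frameOf.D k) J + (J * (dM (h.frameOf.D k) Jᵀ + h.frameOf.tan k * Jᵀ)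
        - (1 - J * Jᵀ) * (dM (h.frameOf.D k) J * Jᵀ + J * dM (h.frameOf.D k) Jᵀ)) * J
        = dM (h.frameOf.D k) J + J * (dM (h.frameOf.D k) Jᵀ * J) + J * h.frameOf.tan k * (Jᵀ * J)
          - dM (h.frameOf.D k) J * (Jᵀ * J) - J * (dM (h.frameOf.D k) Jᵀ * J)
          + J * (Jᵀ * dM (h.frameOf.D k) J) * (Jᵀ * J)
          + J * (Jᵀ * J) * (dM (h.frameOf.D k) Jᵀ * J) := by
      simp only [Matrix.mul_add, Matrix.add_mul, Matrix.sub_mul, Matrix.mul_assoc,
        Matrix.one_mul]
      abel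
    rw [e1, h1]
    simp only [Matrix.mul_one]
    have e2 : J * (Jᵀ * dM (h.frameOf.D k) J) + J * (dM (h.frameOf.D k) Jᵀ * J) = 0 := by
      rw [← Matrix.mul_add, add_comm (Jᵀ * _), h2, Matrix.mul_zero]
    rw [add_assoc (_ - _ - _), e2]
    abel

end frame

end Crest.Agent.R249.Tz805
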