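import Crest.Agent.R249.Idx7_789
import Crest.Agent.R249.Tz3_805
import Crest.Agent.R249.DicC_129

/-!
# R249, IDX (helper789), part 8: the potential of the tangent bundle is the Ricci tensor
-/

set_option autoImplicit false
set_option maxSynthPendingDepth 3
set_option linter.unusedSectionVars false

open Filter Topology Set Bundle Manifold Matrix
open scoped ContDiff
open Crest.GeometryTopology.CoordMetric Crest.GeometryTopology.ChartCurvature
  Crest.GeometryTopology.PointedLimit
open Crest.Agent.R202.Tens Crest.Agent.R247.Bo84 Crest.Agent.R249.FrmB_285 Crest.Agent.R249.Vf281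
  Crest.Agent.R249.Tz1_805 Crest.Agent.R249.Tz2_805 Crest.Agent.R249.Tz805
open Crest.Agent.R249.Fr129 Crest.Agent.R249.C2_198
open Crest.Agent.R249.Sg129 (ONF SG ev ev_germ)

noncomputable section

namespace Crest.Agent.R249.Idx789

theorem sum4 {n : ℕ} (r E : Fin n → Fin n → ℝ) (x y : Fin n → ℝ) :
    ∑ j, ∑ k, x j * (∑ b, ∑ c, r c b * E j b * E k c) * y k =
      ∑ c, ∑ b, r c b * (∑ k, y k * E k c) * (∑ j, x j * E j b) := by
  calc ∑ j, ∑ k, x j * (∑ b, ∑ c, r c b * E j b * E k c) * y k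
      = ∑ j, ∑ k, ∑ c, ∑ b, r c b * (y k * E k c) * (x j * E j b) := by
        refine Finset.sum_congr rfl fun j _ => Finset.sum_congr rfl fun k _ => ?_
        rw [Finset.sum_comm (s := Finset.univ) (t := Finset.univ)
          (f := fun c b => r c b * (y k * E k c) * (x j * E j b)),
          Finset.mul_sum, Finset.sum_mul]
        refine Finset.sum_congr rfl fun b _ => ?_
        rw [Finset.mul_sum, Finset.sum_mul]
        exact Finset.sum_congr rfl fun c _ => by ring
    _ = ∑ c, ∑ b, ∑ j, ∑ k, r c b * (y k * E k c) * (x j * E j b) := by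
        have e1 : ∀ j, ∑ k, ∑ c, ∑ b, r c b * (y k * E k c) * (x j * E j b) =
            ∑ c, ∑ b, ∑ k, r c b * (y k * E k c) * (x j * E j b) := by
          intro j
          rw [Finset.sum_comm]
          exact Finset.sum_congr rfl fun c _ => Finset.sum_comm
        rw [Finset.sum_congr rfl fun j _ => e1 j, Finset.sum_comm]
        exact Finset.sum_congr rfl fun c _ => Finset.sum_comm
    _ = _ := by
        refine Finset.sum_congr rfl fun c _ => Finset.sum_congr rfl fun b _ => ?_
        rw [Finset.mul_sum]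
        refine Finset.sum_congr rfl fun j _ => ?_
        rw [Finset.mul_sum, Finset.sum_mul]

/-- the two potentials have the same trace, for every metric -/
theorem trQ {S : Type*} [CommRing S] [Algebra ℝ S] (F : Frame 4 S) :
    (Q F (e0 F) (cK S)).trace = (Q F F.tan (fun i => (cK S i)ᵀ)).trace := by
  have h := CC_trace4 F
  rw [Q0_val, Q1_val]
  have h2 : (RicM F).trace = ∑ i, F.Ric i i := rfl
  rw [h2, ← h, Matrix.trace]
  simp only [Fin.sum_univ_four, Matrix.diag_apply]
  simp
  ring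

section ric

variable {n : ℕ} {M : Type*} [TopologicalSpace M] [ChartedSpace (EuclideanSpace ℝ (Fin n)) M]
  [IsManifold 𝓘(ℝ, EuclideanSpace ℝ (Fin n)) ∞ M]
  [RiemannianBundle (fun x : M => TangentSpace 𝓘(ℝ, EuclideanSpace ℝ (Fin n)) x)]
  [IsContMDiffRiemannianBundle 𝓘(ℝ, EuclideanSpace ℝ (Fin n)) ∞ (EuclideanSpace ℝ (Fin n))
      (fun x : M => TangentSpace 𝓘(ℝ, EuclideanSpace ℝ (Fin n)) x)]

local notation "𝔼" => EuclideanSpace ℝ (Fin n)
local notation "𝓘E" => 𝓘(ℝ, EuclideanSpace ℝ (Fin n))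

variable {z : M} {e : Fin n → EuclideanSpace ℝ (Fin n) → EuclideanSpace ℝ (Fin n)}
  (h : ONF (chartMetric n M z) (chartAt (EuclideanSpace ℝ (Fin n)) z).target
      (chartCentre n M z) e)
  {X Y : (p : M) → TangentSpace 𝓘(ℝ, EuclideanSpace ℝ (Fin n)) p}

include h in
theorem dCh_eq (hX : ∀ q, VSm n ∞ X q) (b : Fin n) :
    dCh z z (X z) b = ∑ k, ev (vg z e X k) * e k (chartCentre n M z) b := by
  have h1 := eq_sum_ev_vg h hX
  have h2 : dCh z z (X z) = ∑ k, ev (vg z e X k) • e k (chartCentre n M z) := by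
    have h3 := congrArg (dCh z z) h1
    rw [h3]
    have h4 := map_sum (dCh z z) (fun k => (ev (vg z e X k) • h.bv k : 𝔼)) Finset.univ
    refine h4.trans (Finset.sum_congr rfl fun k _ => ?_)
    exact (map_smul (dCh z z) (ev (vg z e X k)) (h.bv k : 𝔼)).trans
      (congrArg (fun v : 𝔼 => ev (vg z e X k) • v) (h.dCh_bv k))
  rw [h2, WithLp.ofLp_sum, Finset.sum_apply]
  rfl

/-- the Ricci form in a frame -/
theorem ric_fields (hX : ∀ q, VSm n ∞ X q) (hY : ∀ q, VSm n ∞ Y q) :
    ∑ j, ∑ k, ev (vg z e X j) * ev (h.frameOf.Ric j k) * ev (vg z e Y k) =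
      mRic n z (Y z) (X z) := by
  rw [mRic]
  simp only [dCh_eq h hX, dCh_eq h hY, h.Ric_germ, ev_germ]
  exact sum4 (fun c b => ricci (chartMetric n M z) (chartCentre n M z) c b)
    (fun j b => e j (chartCentre n M z) b) _ _

variable {κ : Type} [Fintype κ] (s : PF n M κ)

/-- a potential with germ `J Ric Jᵀ` is the Ricci form -/
theorem pot_ric {q : κ → κ → M → ℝ} (hsm : ∀ x y, ContMDiff 𝓘E 𝓘(ℝ, ℝ) ∞ (q x y))
    {R : Matrix (Fin n) (Fin n) (SG (chartCentre n M z))} (hR : ∀ j k, R j k = h.frameOf.Ric j k)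
    (hg : (Matrix.of fun x y => fg z (q x y)) = tanJ s z e * R * (tanJ s z e)ᵀ) (x y : κ) :
    q x y z = mRic n z (s.s y z) (s.s x z) := by
  have h1 := congrFun (congrFun hg x) y
  have h2 := congrArg ev h1
  rw [Matrix.of_apply, ev_fg (hsm x y)] at h2
  rw [h2, ← ric_fields h (s.sm x) (s.sm y), Matrix.mul_apply, map_sum, Finset.sum_comm]
  refine Finset.sum_congr rfl fun k _ => ?_
  rw [map_mul, Matrix.mul_apply, map_sum, Finset.sum_mul]
  refine Finset.sum_congr rfl fun j _ => ?_
  rw [map_mul, hR]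
  rfl

end ric

end Crest.Agent.R249.Idx789
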