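import Crest.Agent.R249.Calc2_806

/-!
Row 249, part A2, section 5 (helper780), file 1: integral bounds in the abstract calculus:
`∫ |du|⁴ ≤ 16 S² ∫ |Hess u|²` and the truncated energy bounds
`∫_{v ≤ b} |dv|² ≤ 3 (a+b) ∫ |Lv|`, `∫_{v ≤ b} |dv|⁴ ≤ 6 (a+b) (∫ |dv|⁴ + ∫ |Hess v|²)` for
`v ≥ - a`.
-/

set_option autoImplicit false
set_option linter.unusedVariables false
set_option linter.unusedSectionVars false

open MeasureTheory Set Filter Topology Matrix
open scoped ContDiff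

noncomputable section

namespace Crest.Agent.R249.IntA_780

open Crest.Agent.R249.Calc_806 Crest.Agent.R249.Calc_806.Calc

variable {X : Type*} [TopologicalSpace X] [CompactSpace X] [MeasurableSpace X]
  [OpensMeasurableSpace X] {μ : Measure X} [IsFiniteMeasure μ] {C : Calc X μ} {f g h u v W : X → ℝ}

/-! ### pointwise bounds by the Hessian -/

lemma L_sq_le (u : X → ℝ) (x : X) : C.L u x ^ 2 ≤ 4 * C.Q u x := by
  rw [Calc0.L, Calc0.Q, Matrix.trace]
  have h1 : (∑ i, (C.Hs u x).diag i) ^ 2 ≤ 4 * ∑ i, (C.Hs u x i i) ^ 2 := by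
    have := Finset.sum_mul_sq_le_sq_mul_sq Finset.univ (fun _ : Fin 4 => (1:ℝ))
      (fun i => C.Hs u x i i)
    simp only [one_mul, one_pow, Finset.sum_const, Finset.card_univ, Fintype.card_fin,
      nsmul_eq_mul, mul_one] at this
    simpa using this
  refine h1.trans ?_
  refine mul_le_mul_of_nonneg_left ?_ (by norm_num)
  refine Finset.sum_le_sum fun i _ => ?_
  exact Finset.single_le_sum (f := fun j => C.Hs u x i j ^ 2) (fun j _ => sq_nonneg _)
    (Finset.mem_univ i)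

/-- `⟨d|du|², du⟩² ≤ 4 |Hess u|² |du|⁴`. -/
lemma G_G_sq_le (hu : C.Sm u) (x : X) :
    C.G (C.G u u) u x ^ 2 ≤ 4 * C.Q u x * C.G u u x ^ 2 := by
  have h1 : C.G (C.G u u) u x = 2 * ∑ i, C.D u x i * (∑ j, C.Hs u x i j * C.D u x j) := by
    have hD := C.D_G hu hu x
    have : C.toCalc0.G (C.toCalc0.G u u) u x = C.D (C.toCalc0.G u u) x ⬝ᵥ C.D u x := rfl
    rw [this, hD]
    simp only [dotProduct, Pi.add_apply, mulVec, Fin.sum_univ_four]
    ring
  have hG : C.G u u x = ∑ i, C.D u x i ^ 2 := by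
    have : C.toCalc0.G u u x = C.D u x ⬝ᵥ C.D u x := rfl
    rw [this, dotProduct]
    exact Finset.sum_congr rfl fun i _ => by ring
  have h2 := Finset.sum_mul_sq_le_sq_mul_sq Finset.univ (C.D u x)
    (fun i => ∑ j, C.Hs u x i j * C.D u x j)
  have h3 : ∑ i, (∑ j, C.Hs u x i j * C.D u x j) ^ 2 ≤ C.Q u x * C.G u u x := by
    rw [Calc0.Q, Finset.sum_mul]
    refine Finset.sum_le_sum fun i _ => ?_
    rw [hG]
    exact Finset.sum_mul_sq_le_sq_mul_sq Finset.univ (fun j => C.Hs u x i j) (C.D u x)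
  have hG0 := G_self_nonneg (C := C) u x
  rw [h1, mul_pow]
  have h4 : (∑ i, C.D u x i * ∑ j, C.Hs u x i j * C.D u x j) ^ 2 ≤
      C.G u u x * (C.Q u x * C.G u u x) := by
    refine h2.trans ?_
    rw [← hG]
    exact mul_le_mul_of_nonneg_left h3 hG0
  nlinarith

/-- `|u (|du|² Lu + ⟨d|du|², du⟩)| ≤ 4 |u| √Q |du|²` in the form without roots. -/
lemma div_bound (hu : C.Sm u) (x : X) {c : ℝ} (hc : 0 < c) :
    |C.G u u x * C.L u x + C.G (C.G u u) u x| ≤ 2 * c * C.G u u x ^ 2 + 2 * c⁻¹ * C.Rb u x := by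
  have hG0 := G_self_nonneg (C := C) u x
  have hQ0 := Q_nonneg (C := C) u x
  have hQR := Q_le_Rb hu x
  have h1 : |C.G u u x * C.L u x| ≤ c * C.G u u x ^ 2 + c⁻¹ * C.Q u x := by
    have h2 := L_sq_le (C := C) u x
    have h3 : |C.G u u x * C.L u x| = C.G u u x * |C.L u x| := by
      rw [abs_mul, abs_of_nonneg hG0]
    have h4 : |C.L u x| ^ 2 ≤ 4 * C.Q u x := by rw [sq_abs]; exact h2
    rw [h3]
    have h5 : 0 ≤ (c * C.G u u x - |C.L u x| / 2) ^ 2 := sq_nonneg _
    have h6 : c * (C.G u u x * |C.L u x|) ≤ c * (c * C.G u u x ^ 2 + c⁻¹ * C.Q u x) := by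
      have : c * (c * C.G u u x ^ 2 + c⁻¹ * C.Q u x) = c ^ 2 * C.G u u x ^ 2 + C.Q u x := by
        field_simp
      rw [this]
      nlinarith
    exact le_of_mul_le_mul_left h6 hc
  have h2 : |C.G (C.G u u) u x| ≤ c * C.G u u x ^ 2 + c⁻¹ * C.Q u x := by
    have h3 := G_G_sq_le hu x
    have h4 : |C.G (C.G u u) u x| ^ 2 ≤ (c * C.G u u x ^ 2 + c⁻¹ * C.Q u x) ^ 2 := by
      rw [sq_abs]
      refine h3.trans ?_
      have e1 : (c * C.G u u x ^ 2 + c⁻¹ * C.Q u x) ^ 2 =
          4 * C.Q u x * C.G u u x ^ 2 + (c * C.G u u x ^ 2 - c⁻¹ * C.Q u x) ^ 2 := by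
        field_simp
        ring
      rw [e1]
      have := sq_nonneg (c * C.G u u x ^ 2 - c⁻¹ * C.Q u x)
      linarith
    exact (abs_le_of_sq_le_sq' h4 (by positivity)).2
  have h3 : c⁻¹ * C.Q u x ≤ c⁻¹ * C.Rb u x := mul_le_mul_of_nonneg_left hQR (by positivity)
  calc _ ≤ |C.G u u x * C.L u x| + |C.G (C.G u u) u x| := abs_add_le _ _
    _ ≤ _ := by linarith

/-- the basic identity `∫ θ'(v) |dv|⁴ = - ∫ θ(v) (|dv|² Lv + ⟨d|dv|², dv⟩)`. -/
theorem int_four {θ : ℝ → ℝ} (hθ : ContDiff ℝ ∞ θ) (hv : C.Sm v) :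
    ∫ x, deriv θ (v x) * C.G v v x ^ 2 ∂μ =
      - ∫ x, θ (v x) * (C.G v v x * C.L v x + C.G (C.G v v) v x) ∂μ := by
  have hP := C.sm_G hv hv
  have hT := sm_comp' (C := C) hθ hv
  have h1 := C.int_parts (sm_mul hT hP) hv
  have e1 : ∀ x, C.toCalc0.G (fun y => θ (v y) * C.toCalc0.G v v y) v x =
      deriv θ (v x) * C.G v v x ^ 2 + θ (v x) * C.G (C.G v v) v x := by
    intro x
    rw [G_mul_left hT hP, G_comp'_left hθ hv]
    ring
  simp only [e1] at h1
  have hd : ContDiff ℝ ∞ (deriv θ) := (contDiff_infty_iff_deriv.1 hθ).2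
  have i1 : Integrable (fun x => deriv θ (v x) * C.G v v x ^ 2) μ :=
    integrable_sm (sm_mul (sm_comp' hd hv) (sm_pow hP 2))
  have i2 : Integrable (fun x => θ (v x) * C.G (C.G v v) v x) μ :=
    integrable_sm (sm_mul hT (C.sm_G hP hv))
  have i3 : Integrable (fun x => θ (v x) * C.G v v x * C.L v x) μ :=
    integrable_sm (sm_mul (sm_mul hT hP) (C.sm_L hv))
  rw [integral_add i1 i2] at h1
  have e2 : ∀ x, θ (v x) * (C.G v v x * C.L v x + C.G (C.G v v) v x) =
      θ (v x) * C.G v v x * C.L v x + θ (v x) * C.G (C.G v v) v x := by intro x; ring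
  simp only [e2]
  rw [integral_add i3 i2, h1]
  ring

/-- the basic identity `∫ θ'(v) |dv|² = - ∫ θ(v) Lv`. -/
theorem int_two {θ : ℝ → ℝ} (hθ : ContDiff ℝ ∞ θ) (hv : C.Sm v) :
    ∫ x, deriv θ (v x) * C.G v v x ∂μ = - ∫ x, θ (v x) * C.L v x ∂μ := by
  have hT := sm_comp' (C := C) hθ hv
  have h1 := C.int_parts hT hv
  have e1 : ∀ x, C.toCalc0.G (fun y => θ (v y)) v x = deriv θ (v x) * C.G v v x := by
    intro x
    rw [G_comp'_left hθ hv]
  simp only [e1] at h1
  rw [h1]; ring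

/-- (I3): `∫ |dv|⁴ ≤ 16 S² ∫ Rb v`. -/
theorem int_G_sq_le (hv : C.Sm v) {S : ℝ} (hS : 0 < S) (hvS : ∀ x, |v x| ≤ S) :
    ∫ x, C.G v v x ^ 2 ∂μ ≤ 16 * S ^ 2 * ∫ x, C.Rb v x ∂μ := by
  have hP := C.sm_G hv hv
  have h1 := int_four (C := C) (θ := fun s => s) contDiff_id hv
  simp only [deriv_id'', one_mul] at h1
  have i1 : Integrable (fun x => C.G v v x ^ 2) μ := integrable_sm (sm_pow hP 2)
  have i2 : Integrable (C.Rb v) μ := integrable_sm (sm_Rb hv)
  have i3 : Integrable (fun x => v x * (C.G v v x * C.L v x + C.G (C.G v v) v x)) μ :=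
    integrable_sm (sm_mul hv (sm_add (sm_mul hP (C.sm_L hv)) (C.sm_G hP hv)))
  have hc : 0 < (4 * S)⁻¹ := by positivity
  have h2 : - ∫ x, v x * (C.G v v x * C.L v x + C.G (C.G v v) v x) ∂μ ≤
      ∫ x, (1 / 2 * C.G v v x ^ 2 + 8 * S ^ 2 * C.Rb v x) ∂μ := by
    rw [← integral_neg]
    refine integral_mono i3.neg ((i1.const_mul _).add (i2.const_mul _)) fun x => ?_
    have h3 := div_bound hv x hc
    have h4 : -(v x * (C.G v v x * C.L v x + C.G (C.G v v) v x)) ≤
        S * |C.G v v x * C.L v x + C.G (C.G v v) v x| := by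
      refine (neg_le_abs _).trans ?_
      rw [abs_mul]
      exact mul_le_mul_of_nonneg_right (hvS x) (abs_nonneg _)
    have h5 : S * |C.G v v x * C.L v x + C.G (C.G v v) v x| ≤
        S * (2 * (4 * S)⁻¹ * C.G v v x ^ 2 + 2 * ((4 * S)⁻¹)⁻¹ * C.Rb v x) :=
      mul_le_mul_of_nonneg_left h3 hS.le
    have h6 : S * (2 * (4 * S)⁻¹ * C.G v v x ^ 2 + 2 * ((4 * S)⁻¹)⁻¹ * C.Rb v x) =
        1 / 2 * C.G v v x ^ 2 + 8 * S ^ 2 * C.Rb v x := by
      field_simp
      ring
    linarith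
  rw [integral_add (i1.const_mul _) (i2.const_mul _), integral_const_mul, integral_const_mul,
    ← h1] at h2
  linarith

/-! ### truncated bounds -/

/-- the test function `θ(s) = e c (1 - exp(-(s+a)/c))`. -/
def th (a c s : ℝ) : ℝ := Real.exp 1 * c * (1 - Real.exp (-(s + a) / c))

lemma contDiff_th (a c : ℝ) : ContDiff ℝ ∞ (th a c) := by
  unfold th
  exact contDiff_const.mul (contDiff_const.sub
    (Real.contDiff_exp.comp ((contDiff_id.add contDiff_const).neg.div_const _)))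

lemma deriv_th (a : ℝ) {c : ℝ} (hc : 0 < c) (s : ℝ) :
    deriv (th a c) s = Real.exp 1 * Real.exp (-(s + a) / c) := by
  have h1 : HasDerivAt (fun s => Real.exp (-(s + a) / c))
      (Real.exp (-(s + a) / c) * (-1 / c)) s := by
    have : HasDerivAt (fun s : ℝ => -(s + a) / c) (-1 / c) s := by
      have := (((hasDerivAt_id s).add_const a).neg).div_const c
      simpa using this
    exact this.exp
  have h2 : HasDerivAt (th a c)
      (Real.exp 1 * c * (0 - Real.exp (-(s + a) / c) * (-1 / c))) s := by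
    have := ((hasDerivAt_const s (1:ℝ)).sub h1).const_mul (Real.exp 1 * c)
    exact this
  rw [h2.deriv]
  field_simp
  ring

lemma deriv_th_nonneg (a : ℝ) {c : ℝ} (hc : 0 < c) (s : ℝ) : 0 ≤ deriv (th a c) s := by
  rw [deriv_th a hc]; positivity

lemma one_le_deriv_th {a b s : ℝ} (hc : 0 < a + b) (hs : s ≤ b) : 1 ≤ deriv (th a (a + b)) s := by
  rw [deriv_th a hc, ← Real.exp_add]
  refine Real.one_le_exp ?_
  have : (s + a) / (a + b) ≤ 1 := by rw [div_le_one hc]; linarith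
  rw [neg_div]; linarith

lemma th_nonneg {a c s : ℝ} (hc : 0 < c) (hs : -a ≤ s) : 0 ≤ th a c s := by
  unfold th
  have : Real.exp (-(s + a) / c) ≤ 1 := by
    rw [Real.exp_le_one_iff, neg_div]
    have : 0 ≤ (s + a) / c := div_nonneg (by linarith) hc.le
    linarith
  have h2 := Real.exp_pos 1
  have : 0 ≤ 1 - Real.exp (-(s + a) / c) := by linarith
  positivity

lemma th_le {a c s : ℝ} (hc : 0 < c) : th a c s ≤ 3 * c := by
  unfold th
  have h1 := Real.exp_one_lt_d9
  have h2 := Real.exp_pos (-(s + a) / c)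
  have h3 := Real.exp_pos 1
  have h4 : Real.exp 1 * c * (1 - Real.exp (-(s + a) / c)) ≤ Real.exp 1 * c * 1 :=
    mul_le_mul_of_nonneg_left (by linarith) (by positivity)
  nlinarith

/-- **truncated energy bound** (I4). -/
theorem trunc_two (hv : C.Sm v) {a b : ℝ} (hc : 0 < a + b) (hva : ∀ x, -a ≤ v x)
    (s : Set X) (hs : MeasurableSet s) (hsb : ∀ x ∈ s, v x ≤ b) :
    ∫ x in s, C.G v v x ∂μ ≤ 3 * (a + b) * ∫ x, |C.L v x| ∂μ := by
  have hd : ContDiff ℝ ∞ (deriv (th a (a + b))) := (contDiff_infty_iff_deriv.1 (contDiff_th _ _)).2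
  have hP := C.sm_G hv hv
  have i1 : Integrable (fun x => deriv (th a (a + b)) (v x) * C.G v v x) μ :=
    integrable_sm (sm_mul (sm_comp' hd hv) hP)
  have h1 : ∫ x in s, C.G v v x ∂μ ≤ ∫ x in s, deriv (th a (a + b)) (v x) * C.G v v x ∂μ := by
    refine setIntegral_mono_on (integrable_sm hP).integrableOn i1.integrableOn hs fun x hx => ?_
    have := one_le_deriv_th hc (hsb x hx)
    have := G_self_nonneg (C := C) v x
    nlinarith
  have h2 : ∫ x in s, deriv (th a (a + b)) (v x) * C.G v v x ∂μ ≤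
      ∫ x, deriv (th a (a + b)) (v x) * C.G v v x ∂μ :=
    setIntegral_le_integral i1 (Eventually.of_forall fun x =>
      mul_nonneg (deriv_th_nonneg a hc _) (G_self_nonneg v x))
  have h3 := int_two (C := C) (contDiff_th a (a + b)) hv
  have h4 : - ∫ x, th a (a + b) (v x) * C.L v x ∂μ ≤ ∫ x, 3 * (a + b) * |C.L v x| ∂μ := by
    rw [← integral_neg]
    refine integral_mono
      (integrable_sm (sm_mul (sm_comp' (contDiff_th a (a + b)) hv) (C.sm_L hv))).neg
      ((integrable_sm (C.sm_L hv)).abs.const_mul _) fun x => ?_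
    have h5 := th_le (a := a) (s := v x) hc
    have h6 := th_nonneg hc (hva x)
    refine (neg_le_abs _).trans ?_
    rw [abs_mul, abs_of_nonneg h6]
    exact mul_le_mul_of_nonneg_right h5 (abs_nonneg _)
  rw [integral_const_mul] at h4
  linarith

/-- **truncated fourth power bound** (I4'). -/
theorem trunc_four (hv : C.Sm v) {a b : ℝ} (hc : 0 < a + b) (hva : ∀ x, -a ≤ v x)
    (s : Set X) (hs : MeasurableSet s) (hsb : ∀ x ∈ s, v x ≤ b) :
    ∫ x in s, C.G v v x ^ 2 ∂μ ≤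
      6 * (a + b) * (∫ x, C.G v v x ^ 2 ∂μ + ∫ x, C.Rb v x ∂μ) := by
  have hd : ContDiff ℝ ∞ (deriv (th a (a + b))) := (contDiff_infty_iff_deriv.1 (contDiff_th _ _)).2
  have hP := C.sm_G hv hv
  have i1 : Integrable (fun x => deriv (th a (a + b)) (v x) * C.G v v x ^ 2) μ :=
    integrable_sm (sm_mul (sm_comp' hd hv) (sm_pow hP 2))
  have i4 : Integrable (fun x => C.G v v x ^ 2) μ := integrable_sm (sm_pow hP 2)
  have i5 : Integrable (C.Rb v) μ := integrable_sm (sm_Rb hv)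
  have h1 : ∫ x in s, C.G v v x ^ 2 ∂μ ≤
      ∫ x in s, deriv (th a (a + b)) (v x) * C.G v v x ^ 2 ∂μ := by
    refine setIntegral_mono_on i4.integrableOn i1.integrableOn hs fun x hx => ?_
    have := one_le_deriv_th hc (hsb x hx)
    have := sq_nonneg (C.G v v x)
    nlinarith
  have h2 : ∫ x in s, deriv (th a (a + b)) (v x) * C.G v v x ^ 2 ∂μ ≤
      ∫ x, deriv (th a (a + b)) (v x) * C.G v v x ^ 2 ∂μ :=
    setIntegral_le_integral i1 (Eventually.of_forall fun x =>
      mul_nonneg (deriv_th_nonneg a hc _) (sq_nonneg _))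
  have h3 := int_four (C := C) (contDiff_th a (a + b)) hv
  have h4 : - ∫ x, th a (a + b) (v x) * (C.G v v x * C.L v x + C.G (C.G v v) v x) ∂μ ≤
      ∫ x, 3 * (a + b) * (2 * C.G v v x ^ 2 + 2 * C.Rb v x) ∂μ := by
    rw [← integral_neg]
    refine integral_mono
      (integrable_sm (sm_mul (sm_comp' (contDiff_th a (a + b)) hv)
        (sm_add (sm_mul hP (C.sm_L hv)) (C.sm_G hP hv)))).neg
      (((i4.const_mul _).add (i5.const_mul _)).const_mul _) fun x => ?_
    have h5 := th_le (a := a) (s := v x) hc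
    have h6 := th_nonneg hc (hva x)
    have h7 := div_bound hv x one_pos
    simp only [mul_one, inv_one] at h7
    refine (neg_le_abs _).trans ?_
    rw [abs_mul, abs_of_nonneg h6]
    exact mul_le_mul h5 h7 (abs_nonneg _) (by positivity)
  rw [integral_const_mul, integral_add (i4.const_mul _) (i5.const_mul _), integral_const_mul,
    integral_const_mul] at h4
  linarith

end Crest.Agent.R249.IntA_780
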