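import Crest.Agent.R249.SgD_129
import Crest.Agent.R249.Ga_129

/-!
Pointwise curvature components in a frame, change of frame, and `qq` of `frameOf` as germs of
explicit functions. (row 249, helper129)
-/

set_option autoImplicit false
set_option linter.unusedSectionVars false

open scoped ContDiff Topology
open Filter Set Finset Matrix
open Crest.GeometryTopology.CoordMetric Crest.GeometryTopology.ChartCurvature
open Crest.Agent.R202.Tens Crest.Agent.R247.Bo84
open Crest.Agent.R249.Fr129 Crest.Agent.R249.Ga129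

noncomputable section

namespace Crest.Agent.R249.Sg129

variable {n : ℕ}

local notation "𝔼" => EuclideanSpace ℝ (Fin n)

/-- curvature components of the vectors `ξ i` at `y` -/
def Rf (g : MetricField n) (y : EuclideanSpace ℝ (Fin n)) (ξ : Fin n → EuclideanSpace ℝ (Fin n))
    (i j k l : Fin n) : ℝ :=
  bil (g y) (curv (Gam g) y (ξ i) (ξ j) (ξ k)) (ξ l)

variable {g : MetricField n} {U : Set (EuclideanSpace ℝ (Fin n))}
  {x y : EuclideanSpace ℝ (Fin n)}

lemma Rf_anti12 (i j k l : Fin n) (ξ : Fin n → 𝔼) : Rf g y ξ i j k l = - Rf g y ξ j i k l := by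
  have : curv (Gam g) y (ξ i) (ξ j) (ξ k) = - curv (Gam g) y (ξ j) (ξ i) (ξ k) := by
    simp only [curv]; abel
  rw [Rf, Rf, this, map_neg]; rfl

lemma curv_expand4 (ξ : Fin n → 𝔼) (a b c d : Fin n → ℝ) :
    bil (g y) (curv (Gam g) y (∑ i, a i • ξ i) (∑ j, b j • ξ j) (∑ k, c k • ξ k))
      (∑ l, d l • ξ l)
      = ∑ i, ∑ j, ∑ k, ∑ l, Rf g y ξ i j k l * a i * b j * c k * d l := by
  rw [curv_sum]
  simp_rw [curv_sum2, curv_sum3]
  simp only [map_sum, _root_.sum_apply, map_smul, _root_.smul_apply, smul_eq_mul, Rf, Finset.mul_sum]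
  rw [Finset.sum_comm]
  refine Finset.sum_congr rfl fun i _ => ?_
  rw [Finset.sum_comm]
  refine Finset.sum_congr rfl fun j _ => ?_
  rw [Finset.sum_comm]
  exact Finset.sum_congr rfl fun k _ => Finset.sum_congr rfl fun l _ => by ring

/-- change of frame for the curvature components -/
lemma Rf_change {g : MetricField 4} {y : EuclideanSpace ℝ (Fin 4)}
    {ξ η : Fin 4 → EuclideanSpace ℝ (Fin 4)} {O : Matrix (Fin 4) (Fin 4) ℝ}
    (h : ∀ i, η i = ∑ a, O a i • ξ a) : Rf g y η = cj O (Rf g y ξ) := by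
  funext i j k l
  rw [Rf, h i, h j, h k, h l, curv_expand4]
  rfl

/-- the two orthonormal bases differ by an orthogonal matrix -/
lemma exists_rot (hg : IsRiemannianOn g U) (hy : y ∈ U) {ξ η : Fin n → 𝔼}
    (hξ : ∀ a b, bil (g y) (ξ a) (ξ b) = if a = b then 1 else 0)
    (hη : ∀ a b, bil (g y) (η a) (η b) = if a = b then 1 else 0) :
    ∃ O : Matrix (Fin n) (Fin n) ℝ, (∀ i, η i = ∑ a, O a i • ξ a) ∧ Oᵀ * O = 1 ∧
      (Matrix.of fun a i => η i a).det = (Matrix.of fun a i => ξ i a).det * O.det := by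
  have hF := isFrame_of_orth hξ
  refine ⟨Matrix.of fun a i => bil (g y) (η i) (ξ a), fun i => hF.expand hg hy (η i), ?_, ?_⟩
  · ext i j
    rw [Matrix.mul_apply, Matrix.one_apply, ← hη i j, hF.bil_eq hg hy]
    rfl
  · rw [← Matrix.det_mul]
    congr 1
    ext a i
    rw [Matrix.mul_apply, Matrix.of_apply]
    conv_lhs => rw [hF.expand hg hy (η i)]
    rw [WithLp.ofLp_sum, Finset.sum_apply]
    refine Finset.sum_congr rfl fun b _ => ?_
    rw [PiLp.smul_apply, smul_eq_mul, Matrix.of_apply, Matrix.of_apply, mul_comm]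

lemma ONF.ev_Rf {e : Fin n → 𝔼 → 𝔼} (h : ONF g U x e) (i j k l : Fin n) :
    ev (h.frameOf.Rm i j k l) = Rf g x (fun i => e i x) i j k l := h.ev_Rm i j k l

lemma ONF.cd_Rf {e : Fin n → 𝔼 → 𝔼} (h : ONF g U x e) (i j k l : Fin n) :
    ContDiffAt ℝ ∞ (fun y => Rf g y (fun i => e i y) i j k l) x := h.cd_Rm i j k l

lemma ONF.Rf_germ {e : Fin n → 𝔼 → 𝔼} (h : ONF g U x e) (i j k l : Fin n) :
    h.frameOf.Rm i j k l
      = germ (fun y => Rf g y (fun i => e i y) i j k l) (h.cd_Rf i j k l) := h.Rm_germ i j k l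

/-- `Rf` is antisymmetric in the last pair -/
lemma Rf_anti34 {e : Fin n → 𝔼 → 𝔼}
    (h : ONF g U y e) (i j k l : Fin n) :
    Rf g y (fun i => e i y) i j k l = - Rf g y (fun i => e i y) i j l k := by
  have := congrArg ev (h.frameOf.Rm_anti34 i j k l)
  rwa [map_neg, h.ev_Rf, h.ev_Rf] at this

namespace ONF

variable {g : MetricField 4} {U : Set (EuclideanSpace ℝ (Fin 4))} {x : EuclideanSpace ℝ (Fin 4)}
  {e : Fin 4 → EuclideanSpace ℝ (Fin 4) → EuclideanSpace ℝ (Fin 4)}

variable (h : ONF g U x e)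
include h

lemma ev_Rm_fun : (fun i j k l => ev (h.frameOf.Rm i j k l)) = Rf g x (fun i => e i x) := by
  funext i j k l
  exact h.ev_Rf i j k l

lemma anti_Rf : Anti (Rf g x (fun i => e i x)) := by
  rw [← h.ev_Rm_fun]
  exact ⟨fun i j k l => by rw [h.frameOf.Rm_anti12, map_neg],
    fun i j k l => by rw [h.frameOf.Rm_anti34, map_neg]⟩

/-- the germ is an `ONF` at all nearby points -/
lemma ev_qq (lam : ℝ) : ev (h.frameOf.qq (algebraMap ℝ (SG x) lam))
    = qqa lam (Rf g x (fun i => e i x)) := by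
  rw [qq_eq, map_qqa, h.ev_Rm_fun, AlgHom.commutes]
  rfl

lemma ev_flip_qq (lam : ℝ) : ev (h.frameOf.flip.qq (algebraMap ℝ (SG x) lam))
    = qqa lam (flp (Rf g x (fun i => e i x))) := by
  rw [flip_qq, map_qqa, AlgHom.commutes]
  congr 1
  funext i j k l
  simp only [flp, map_mul, map_intCast, h.ev_Rf]

omit h in
lemma half_real : (Fr129.Frame.half : ℝ) = 1 / 2 := rfl

omit h in
lemma third_real : (Fr129.Frame.third : ℝ) = 1 / 3 := rfl

omit h in
lemma cd_qqa (lam : ℝ) {R : EuclideanSpace ℝ (Fin 4) → Fin 4 → Fin 4 → Fin 4 → Fin 4 → ℝ}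
    (hR : ∀ i j k l, ContDiffAt ℝ ∞ (fun y => R y i j k l) x) :
    ContDiffAt ℝ ∞ (fun y => qqa lam (R y)) x := by
  simp only [qqa]
  have h1 : ∀ k l c, ContDiffAt ℝ ∞ (fun y => PPa (R y) k l c) x := by
    intro k l c
    fin_cases c
    · exact (hR k l 0 1).add (hR k l 2 3)
    · exact (hR k l 0 2).sub (hR k l 1 3)
    · exact (hR k l 0 3).add (hR k l 1 2)
  have h2 : ∀ c d, ContDiffAt ℝ ∞ (fun y => AAa (R y) c d) x := by
    intro c d
    unfold AAa
    refine contDiffAt_const.mul ?_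
    fin_cases d
    · exact (h1 0 1 c).add (h1 2 3 c)
    · exact (h1 0 2 c).sub (h1 1 3 c)
    · exact (h1 0 3 c).add (h1 1 2 c)
  have h3 : ∀ c d, ContDiffAt ℝ ∞ (fun y => WWa lam (R y) c d) x := fun c d =>
    (h2 c d).sub contDiffAt_const
  exact ContDiffAt.sum fun c _ => ContDiffAt.sum fun d _ => (h3 c d).mul (h3 c d)

omit h in
/-- evaluation of all functions at once: `qqa` of germs is the germ of `qqa` -/
lemma qqa_germ (lam : ℝ) {R : EuclideanSpace ℝ (Fin 4) → Fin 4 → Fin 4 → Fin 4 → Fin 4 → ℝ}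
    (hR : ∀ i j k l, ContDiffAt ℝ ∞ (fun y => R y i j k l) x) :
    qqa (algebraMap ℝ (SG x) lam) (fun i j k l => germ (fun y => R y i j k l) (hR i j k l))
      = germ (fun y => qqa lam (R y)) (cd_qqa lam hR) := by
  -- the germ map on smooth functions
  have e1 : (fun i j k l => germ (fun y => R y i j k l) (hR i j k l))
      = fun i j k l => gm (⟨fun y => R y i j k l, hR i j k l⟩ : CF x) := rfl
  rw [e1, ← AlgHom.commutes (gm (x := x)) lam, ← map_qqa]
  have e2 : qqa (algebraMap ℝ (CF x) lam)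
      (fun i j k l => (⟨fun y => R y i j k l, hR i j k l⟩ : CF x))
      = ⟨fun y => qqa lam (R y), cd_qqa lam hR⟩ := by
    apply Subtype.ext
    funext y
    have := map_qqa ((Pi.evalAlgHom ℝ (fun _ : EuclideanSpace ℝ (Fin 4) => ℝ) y).comp (CF x).val)
      (algebraMap ℝ (CF x) lam) (fun i j k l => (⟨fun y => R y i j k l, hR i j k l⟩ : CF x))
    exact this
  rw [e2]; rfl

/-- **`|W⁺|²` as a germ** -/
theorem qq_germ (lam : ℝ) : h.frameOf.qq (algebraMap ℝ (SG x) lam)
    = germ (fun y => qqa lam (Rf g y (fun i => e i y))) (cd_qqa lam h.cd_Rf) := by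
  rw [← qqa_germ lam h.cd_Rf, qq_eq]
  congr 1
  funext i j k l
  exact h.Rf_germ i j k l

lemma cd_flp_Rf (i j k l : Fin 4) :
    ContDiffAt ℝ ∞ (fun y => flp (Rf g y (fun i => e i y)) i j k l) x :=
  contDiffAt_const.mul (h.cd_Rf i j k l)

/-- **`|W⁻|²` as a germ** -/
theorem flip_qq_germ (lam : ℝ) : h.frameOf.flip.qq (algebraMap ℝ (SG x) lam)
    = germ (fun y => qqa lam (flp (Rf g y (fun i => e i y)))) (cd_qqa lam h.cd_flp_Rf) := by
  rw [← qqa_germ lam h.cd_flp_Rf, flip_qq]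
  congr 1
  funext i j k l
  rw [flp, h.Rf_germ]
  have : ∀ m : ℤ, ((m : ℤ) : SG x) = germ (fun _ => (m : ℝ)) contDiffAt_const := by
    intro m
    rw [← algebraMap_eq]; simp
  simp only [this, germ_mul]
  exact germ_eq (Eventually.of_forall fun y => rfl)

end ONF

end Crest.Agent.R249.Sg129
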