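import Crest.Agent.R249.End_805
import Crest.Agent.R249.FrG_129
import Crest.Agent.R249.SgE_129

/-!
Row 249, part C3.8 / C3.9 (helper493): if `tr A²` and `tr A³` have zero derivative (as germs) in
an Einstein frame with `lam > 0`, then `∇A = 0` (`NN = 0` as germs).
-/

set_option autoImplicit false
set_option linter.unusedSimpArgs false
set_option linter.unusedSectionVars false

namespace Crest.Agent.R249.Kend_493

open Finset Matrix Crest.Agent.R249.Fr129 Crest.Agent.R249.Fr129.Frame

section ring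

variable {S : Type*} [CommRing S] [Algebra ℝ S] (F : Frame 4 S)

/-- covariant derivative of a section of `Λ⁺ ⊗ Λ⁺` -/
def cm (k : Fin 4) (M : Matrix (Fin 3) (Fin 3) S) : Matrix (Fin 3) (Fin 3) S :=
  M.map (F.D k) + F.sdc k * M - M * F.sdc k

lemma map_mul' (k : Fin 4) (M N : Matrix (Fin 3) (Fin 3) S) :
    (M * N).map (F.D k) = M.map (F.D k) * N + M * N.map (F.D k) := by
  ext i j
  simp only [Matrix.map_apply, Matrix.mul_apply, Matrix.add_apply, map_sum, D_mul, sum_add_distrib]

lemma cm_mul (k : Fin 4) (M N : Matrix (Fin 3) (Fin 3) S) :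
    cm F k (M * N) = cm F k M * N + M * cm F k N := by
  rw [cm, cm, cm, map_mul']
  noncomm_ring

lemma cm_add (k : Fin 4) (M N : Matrix (Fin 3) (Fin 3) S) :
    cm F k (M + N) = cm F k M + cm F k N := by
  have : (M + N).map (F.D k) = M.map (F.D k) + N.map (F.D k) := by
    ext i j; simp
  rw [cm, cm, cm, this]
  noncomm_ring

lemma cm_sub (k : Fin 4) (M N : Matrix (Fin 3) (Fin 3) S) :
    cm F k (M - N) = cm F k M - cm F k N := by
  have : (M - N).map (F.D k) = M.map (F.D k) - N.map (F.D k) := by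
    ext i j; simp
  rw [cm, cm, cm, this]
  noncomm_ring

lemma cm_zero (k : Fin 4) : cm F k 0 = 0 := by
  ext i j; simp [cm]

lemma cm_scalar (k : Fin 4) (r : ℝ) : cm F k (algebraMap ℝ S r • (1 : Matrix (Fin 3) (Fin 3) S)) = 0 := by
  have : (algebraMap ℝ S r • (1 : Matrix (Fin 3) (Fin 3) S)).map (F.D k) = 0 := by
    ext i j
    simp only [Matrix.map_apply, Matrix.smul_apply, Matrix.one_apply, smul_eq_mul, D_mul,
      Derivation.map_algebraMap, zero_mul, zero_add, Matrix.zero_apply]
    split_ifs <;> simp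
  rw [cm, this]
  simp

lemma D_trace (k : Fin 4) (M : Matrix (Fin 3) (Fin 3) S) :
    F.D k M.trace = (cm F k M).trace := by
  rw [cm, Matrix.trace_sub, Matrix.trace_add, Matrix.trace_mul_comm M]
  simp [Matrix.trace, map_sum]

/-- the curvature block as a matrix -/
noncomputable def AM : Matrix (Fin 3) (Fin 3) S := Matrix.of F.AA
/-- its covariant derivative -/
noncomputable def TM (k : Fin 4) : Matrix (Fin 3) (Fin 3) S := Matrix.of (F.NN k)
/-- its Laplacian -/
noncomputable def LM : Matrix (Fin 3) (Fin 3) S := Matrix.of F.LL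

lemma AM_t : (AM F)ᵀ = AM F := by ext i j; exact F.AA_symm j i
lemma TM_t (k : Fin 4) : (TM F k)ᵀ = TM F k := by ext i j; exact F.NN_symm k j i

lemma cm_AM (k : Fin 4) : cm F k (AM F) = TM F k := by
  ext c d
  change F.D k (F.AA c d) + (F.sdc k * AM F) c d - (AM F * F.sdc k) c d = F.NN k c d
  rw [F.NN_eq, Matrix.mul_apply, Matrix.mul_apply]
  have : ∑ j, F.sdc k d j * F.AA c j = - ∑ j, AM F c j * F.sdc k j d := by
    rw [← sum_neg_distrib]
    refine sum_congr rfl fun j _ => ?_
    rw [F.sdc_skew k d j]; change - F.sdc k j d * F.AA c j = -(F.AA c j * F.sdc k j d); ring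
  rw [this]
  change _ + ∑ j, F.sdc k c j * F.AA j d - _ = _
  ring

lemma cm_TM (k i : Fin 4) : cm F k (TM F i) = Matrix.of (F.HH k i) + ∑ m, F.w k i m • TM F m := by
  ext c d
  rw [Matrix.add_apply, Matrix.sum_apply]
  change F.D k (F.NN i c d) + (F.sdc k * TM F i) c d - (TM F i * F.sdc k) c d
    = F.HH k i c d + ∑ m, F.w k i m * F.NN m c d
  rw [F.HH_eq, Matrix.mul_apply, Matrix.mul_apply, Fin.sum_univ_three, Fin.sum_univ_three,
    Fin.sum_univ_four]
  have e := fun j => F.sdc_skew k j d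
  change F.D k (F.NN i c d) + (F.sdc k c 0 * F.NN i 0 d + F.sdc k c 1 * F.NN i 1 d
    + F.sdc k c 2 * F.NN i 2 d) - (F.NN i c 0 * F.sdc k 0 d + F.NN i c 1 * F.sdc k 1 d
    + F.NN i c 2 * F.sdc k 2 d) = _
  rw [e 0, e 1, e 2]
  ring

lemma LM_eq : LM F = ∑ k, (cm F k (TM F k) - ∑ m, F.w k k m • TM F m) := by
  have : ∀ k, cm F k (TM F k) - ∑ m, F.w k k m • TM F m = Matrix.of (F.HH k k) := by
    intro k; rw [cm_TM]; abel
  simp only [this]
  ext c d
  rw [Matrix.sum_apply, Fin.sum_univ_four]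
  exact F.LL_eq c d

variable {F}

lemma AM_trace {lam : S} (hE : F.Einstein lam) : (AM F).trace = lam := by
  rw [Matrix.trace_fin_three]; exact F.AA_trace hE

lemma TM_trace {lam : S} (hE : F.Einstein lam) (k : Fin 4) : (TM F k).trace = 0 := by
  rw [Matrix.trace_fin_three]; exact F.NN_trace0 hE k

/-- the Laplacian formula in matrix form -/
lemma LM_formula {lam : S} (hE : F.Einstein lam) : LM F = (6 * (AM F).trace) • AM F
    - (6 : S) • (AM F * AM F)
      - (2 * ((AM F).trace ^ 2 - (AM F * AM F).trace)) • (1 : Matrix (Fin 3) (Fin 3) S) := by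
  have s10 : F.AA 1 0 = F.AA 0 1 := F.AA_symm 1 0
  have s20 : F.AA 2 0 = F.AA 0 2 := F.AA_symm 2 0
  have s21 : F.AA 2 1 = F.AA 1 2 := F.AA_symm 2 1
  have hp : (AM F * AM F).trace = F.AA 0 0 ^ 2 + F.AA 1 1 ^ 2
        + F.AA 2 2 ^ 2 + 2 * F.AA 0 1 ^ 2 + 2 * F.AA 0 2 ^ 2 + 2 * F.AA 1 2 ^ 2 := by
    rw [Matrix.trace_fin_three]
    simp only [Matrix.mul_apply, Fin.sum_univ_three]
    simp only [AM, Matrix.of_apply, s10, s20, s21]
    ring
  rw [hp, Matrix.trace_fin_three]
  ext c e
  change F.LL c e = _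
  rw [F.LL_formula hE c e]
  simp only [Matrix.sub_apply, Matrix.smul_apply, Matrix.mul_apply, Fin.sum_univ_three,
    Matrix.one_apply, AM, Matrix.of_apply, smul_eq_mul]
  split_ifs <;> ring

/-- derivative of `tr A²` -/
lemma D_p2 (k : Fin 4) : F.D k (AM F * AM F).trace = 2 * (AM F * TM F k).trace := by
  rw [D_trace, cm_mul, cm_AM, Matrix.trace_add, Matrix.trace_mul_comm (TM F k)]; ring

/-- derivative of `tr A³` -/
lemma D_p3 (k : Fin 4) : F.D k (AM F * AM F * AM F).trace = 3 * (AM F * AM F * TM F k).trace := by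
  rw [D_trace, cm_mul, cm_mul, cm_AM, Matrix.trace_add, Matrix.add_mul, Matrix.trace_add]
  have h1 : (TM F k * AM F * AM F).trace = (AM F * AM F * TM F k).trace := by
    rw [Matrix.mul_assoc, Matrix.trace_mul_comm]
  have h2 : (AM F * TM F k * AM F).trace = (AM F * AM F * TM F k).trace := by
    rw [Matrix.trace_mul_comm, ← Matrix.mul_assoc]
  rw [h1, h2]; ring

lemma eq_zero_of_three {y : S} (h : 3 * y = 0) : y = 0 := by
  have h3 := three_third (S := S)
  calc y = (3 * third) * y := by rw [h3, one_mul]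
    _ = third * (3 * y) := by ring
    _ = 0 := by rw [h, mul_zero]

section
variable (h2 : ∀ k, F.D k (AM F * AM F).trace = 0)
include h2

lemma q2 (k : Fin 4) : (AM F * TM F k).trace = 0 :=
  eq_zero_of_two (by rw [← D_p2]; exact h2 k)

/-- `tr(A L) + ∑ tr(T_k T_k) = 0`. -/
lemma e3 : (AM F * LM F).trace + ∑ k, (TM F k * TM F k).trace = 0 := by
  rw [LM_eq, Matrix.mul_sum, Matrix.trace_sum, ← sum_add_distrib]
  refine sum_eq_zero fun k _ => ?_
  have h := congrArg (F.D k) (q2 h2 k)
  rw [D_trace, cm_mul, cm_AM, Matrix.trace_add, map_zero] at h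
  rw [Matrix.mul_sub, Matrix.trace_sub, Matrix.mul_sum, Matrix.trace_sum]
  have : ∑ m, (AM F * F.w k k m • TM F m).trace = 0 := by
    refine sum_eq_zero fun m _ => ?_
    rw [Matrix.mul_smul, Matrix.trace_smul, q2 h2, smul_zero]
  rw [this, sub_zero, add_comm]
  exact h

end

section
variable (h3 : ∀ k, F.D k (AM F * AM F * AM F).trace = 0)
include h3

lemma q3 (k : Fin 4) : (AM F * AM F * TM F k).trace = 0 :=
  eq_zero_of_three (by rw [← D_p3]; exact h3 k)

/-- `tr(A² L) + 2 ∑ tr(A T_k T_k) = 0`. -/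
lemma e4 : (AM F * AM F * LM F).trace + 2 * ∑ k, (AM F * TM F k * TM F k).trace = 0 := by
  rw [LM_eq, Matrix.mul_sum, Matrix.trace_sum, mul_sum, ← sum_add_distrib]
  refine sum_eq_zero fun k _ => ?_
  have h := congrArg (F.D k) (q3 h3 k)
  rw [D_trace, cm_mul, cm_mul, cm_AM, Matrix.add_mul, Matrix.trace_add, Matrix.trace_add,
    map_zero] at h
  rw [Matrix.mul_sub, Matrix.trace_sub, Matrix.mul_sum, Matrix.trace_sum]
  have : ∑ m, (AM F * AM F * F.w k k m • TM F m).trace = 0 := by
    refine sum_eq_zero fun m _ => ?_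
    rw [Matrix.mul_smul, Matrix.trace_smul, q3 h3, smul_zero]
  rw [this, sub_zero]
  have h1 : (TM F k * AM F * TM F k).trace = (AM F * TM F k * TM F k).trace := by
    rw [Matrix.mul_assoc, Matrix.trace_mul_comm]
  rw [h1] at h
  linear_combination h

end

/-- Cayley-Hamilton for `3 × 3` matrices. -/
lemma cayley (A : Matrix (Fin 3) (Fin 3) S) : ∃ e₁ e₂ e₃ : S,
    A * A * A = e₁ • (A * A) + e₂ • A + e₃ • (1 : Matrix (Fin 3) (Fin 3) S) := by
  refine ⟨A.trace, -(A 0 0 * A 1 1 - A 0 1 * A 1 0 + A 0 0 * A 2 2 - A 0 2 * A 2 0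
    + A 1 1 * A 2 2 - A 1 2 * A 2 1), A.det, ?_⟩
  rw [Matrix.trace_fin_three, Matrix.det_fin_three]
  ext i j
  fin_cases i <;> fin_cases j <;>
    simp [Matrix.mul_apply, Fin.sum_univ_three] <;> ring

/-! ### Clifford triple -/

/-- the triple acting on the vector index in the Bianchi identity -/
def J3 : Fin 3 → Matrix (Fin 4) (Fin 4) ℝ :=
  ![!![0, 1, 0, 0; -1, 0, 0, 0; 0, 0, 0, 1; 0, 0, -1, 0],
    !![0, 0, 1, 0; 0, 0, 0, -1; -1, 0, 0, 0; 0, 1, 0, 0],
    !![0, 0, 0, 1; 0, 0, 1, 0; 0, -1, 0, 0; -1, 0, 0, 0]]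

lemma J3_cliff : End_805.Cliff J3 := by
  refine ⟨fun a => ?_, fun a => ?_, fun a b hab => ?_⟩
  · fin_cases a <;> ext i j <;> fin_cases i <;> fin_cases j <;> simp [J3]
  · fin_cases a <;> ext i j <;> fin_cases i <;> fin_cases j <;>
      simp [J3, Matrix.mul_apply, Fin.sum_univ_four]
  · fin_cases a <;> fin_cases b <;> first | exact absurd rfl hab | skip
    all_goals
      ext i j
      fin_cases i <;> fin_cases j <;> simp [J3, Matrix.mul_apply, Fin.sum_univ_four]

variable {lam : S}

lemma bi (hE : F.Einstein lam) (ev : S →ₐ[ℝ] ℝ) (i : Fin 3) :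
    ∑ j, J3 j *ᵥ (fun l => ev.mapMatrix (TM F l) i j) = 0 := by
  have z0 := congrArg ev (F.z0 hE i)
  have z1 := congrArg ev (F.z1 hE i)
  have z2 := congrArg ev (F.z2 hE i)
  have z3 := congrArg ev (F.z3 hE i)
  simp only [map_add, map_sub, map_zero] at z0 z1 z2 z3
  have e : ∀ l j, ev.mapMatrix (TM F l) i j = ev (F.NN l i j) := fun l j => rfl
  simp only [e]
  funext m
  rw [Finset.sum_apply, Fin.sum_univ_three]
  fin_cases m <;>
    simp [J3, Matrix.mulVec, dotProduct, Fin.sum_univ_four]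
  · linear_combination z0
  · linear_combination -z1
  · linear_combination -z2
  · linear_combination -z3

/-- **C3.8 (germ form).** -/
theorem nn_zero (ev : S →ₐ[ℝ] ℝ)
    (hconst : ∀ f : S, (∀ k, F.D k f = 0) → ev f = 0 → f = 0)
    (hsq : ∀ f : Fin 3 × Fin 3 → S, ∑ x, f x * f x = 0 → ∀ x, f x = 0)
    (hsum : ∀ f : Fin 4 → S, (∀ k, ∃ g : Fin 3 × Fin 3 → S, f k = ∑ x, g x * g x) →
      ∑ k, f k = 0 → ∀ k, f k = 0)
    {c : ℝ} (hc : 0 < c) (hE : F.Einstein (algebraMap ℝ S c))
    (h2 : ∀ k, F.D k (AM F * AM F).trace = 0) (h3 : ∀ k, F.D k (AM F * AM F * AM F).trace = 0) :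
    ∀ k c d, F.NN k c d = 0 := by
  have tr_map : ∀ M : Matrix (Fin 3) (Fin 3) S, (ev.mapMatrix M).trace = ev M.trace := by
    intro M; simp [Matrix.trace, map_sum]
  have map_sm : ∀ (s : S) (M : Matrix (Fin 3) (Fin 3) S), ev.mapMatrix (s • M) = ev s • ev.mapMatrix M := by
    intro s M; ext i j; simp
  have alg_sm : ∀ (r : ℝ) , (algebraMap ℝ S r) • (1 : Matrix (Fin 3) (Fin 3) S)
      = r • (1 : Matrix (Fin 3) (Fin 3) S) := by
    intro r; rw [algebraMap_smul]
  -- trace of `N²` and vanishing of `N`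
  have hN : ∀ x y : ℝ, (ev.mapMatrix (AM F) - x • (1 : Matrix (Fin 3) (Fin 3) ℝ))
      * (ev.mapMatrix (AM F) - y • (1 : Matrix (Fin 3) (Fin 3) ℝ)) = 0 →
      ∀ k, TM F k * (AM F - algebraMap ℝ S y • (1 : Matrix (Fin 3) (Fin 3) S))
        + (AM F - algebraMap ℝ S x • (1 : Matrix (Fin 3) (Fin 3) S)) * TM F k = 0 := by
    intro x y hxy
    obtain ⟨X, hX⟩ : ∃ X, X = AM F - algebraMap ℝ S x • (1 : Matrix (Fin 3) (Fin 3) S) := ⟨_, rfl⟩
    obtain ⟨Y, hY⟩ : ∃ Y, Y = AM F - algebraMap ℝ S y • (1 : Matrix (Fin 3) (Fin 3) S) := ⟨_, rfl⟩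
    rw [← hX, ← hY]
    have cX : ∀ k, cm F k X = TM F k := by
      intro k; rw [hX, cm_sub, cm_scalar, cm_AM, sub_zero]
    have cY : ∀ k, cm F k Y = TM F k := by
      intro k; rw [hY, cm_sub, cm_scalar, cm_AM, sub_zero]
    have comm : X * Y = Y * X := by
      rw [hX, hY]
      simp only [Matrix.sub_mul, Matrix.mul_sub, Matrix.smul_mul, Matrix.mul_smul, Matrix.one_mul,
        Matrix.mul_one]
      module
    have hXt : Xᵀ = X := by rw [hX, Matrix.transpose_sub, AM_t, Matrix.transpose_smul, Matrix.transpose_one]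
    have hYt : Yᵀ = Y := by rw [hY, Matrix.transpose_sub, AM_t, Matrix.transpose_smul, Matrix.transpose_one]
    -- traces of `T_k` times polynomials of degree `≤ 3`
    have t0 := TM_trace hE
    have t1 := q2 h2
    have t2 := q3 h3
    have t3 : ∀ k, (AM F * AM F * AM F * TM F k).trace = 0 := by
      intro k
      obtain ⟨e₁, e₂, e₃, he⟩ := cayley (AM F)
      rw [he, Matrix.add_mul, Matrix.add_mul, Matrix.smul_mul, Matrix.smul_mul, Matrix.smul_mul,
        Matrix.trace_add, Matrix.trace_add, Matrix.trace_smul, Matrix.trace_smul,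
        Matrix.trace_smul, t2, t1, Matrix.one_mul, t0]
      simp
    have hD : ∀ k, F.D k ((X * Y) * (X * Y)).trace = 0 := by
      intro k
      have e1 : F.D k ((X * Y) * (X * Y)).trace = 2 * ((X * Y * (X + Y)) * TM F k).trace := by
        rw [D_trace, cm_mul, cm_mul, cX, cY, Matrix.trace_add]
        have a1 : ((TM F k * Y + X * TM F k) * (X * Y)).trace
            = ((X * Y * (X + Y)) * TM F k).trace := by
          rw [Matrix.add_mul, Matrix.trace_add, Matrix.mul_add, Matrix.add_mul, Matrix.trace_add]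
          have b1 : (TM F k * Y * (X * Y)).trace = (X * Y * Y * TM F k).trace := by
            rw [Matrix.mul_assoc, Matrix.trace_mul_comm, ← Matrix.mul_assoc, ← comm]
          have b2 : (X * TM F k * (X * Y)).trace = (X * Y * X * TM F k).trace := by
            rw [Matrix.trace_mul_comm, ← Matrix.mul_assoc]
          rw [b1, b2]; ring
        have a2 : (X * Y * (TM F k * Y + X * TM F k)).trace
            = ((X * Y * (X + Y)) * TM F k).trace := by
          rw [Matrix.trace_mul_comm, a1]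
        rw [a1, a2]; ring
      have e2 : X * Y * (X + Y) * TM F k
          = (2 : S) • (AM F * AM F * AM F * TM F k)
            + (-(3 * (algebraMap ℝ S x + algebraMap ℝ S y))) • (AM F * AM F * TM F k)
            + ((algebraMap ℝ S x + algebraMap ℝ S y) ^ 2
                + 2 * (algebraMap ℝ S x * algebraMap ℝ S y)) • (AM F * TM F k)
            + (-((algebraMap ℝ S x * algebraMap ℝ S y) * (algebraMap ℝ S x + algebraMap ℝ S y)))
              • TM F k := by
        rw [hX, hY]
        generalize algebraMap ℝ S x = u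
        generalize algebraMap ℝ S y = v
        generalize AM F = A
        generalize TM F k = T
        simp only [Matrix.sub_mul, Matrix.mul_sub, Matrix.add_mul, Matrix.mul_add, Matrix.smul_mul,
          Matrix.mul_smul, Matrix.one_mul, Matrix.mul_one, smul_add, smul_sub, smul_smul,
          ← Matrix.mul_assoc]
        module
      rw [e1, e2]
      simp only [Matrix.trace_add, Matrix.trace_smul, t0, t1, t2, t3]
      simp
    have hev : ev ((X * Y) * (X * Y)).trace = 0 := by
      rw [← tr_map, map_mul, map_mul, hX, hY, map_sub, map_sub, map_sm, map_sm, map_one,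
        AlgHom.commutes, AlgHom.commutes]
      change (((ev.mapMatrix (AM F) - x • (1 : Matrix (Fin 3) (Fin 3) ℝ))
        * (ev.mapMatrix (AM F) - y • (1 : Matrix (Fin 3) (Fin 3) ℝ))) * _).trace = 0
      rw [hxy, Matrix.zero_mul, Matrix.trace_zero]
    have h0 := hconst _ hD hev
    have hNt : (X * Y)ᵀ = X * Y := by rw [Matrix.transpose_mul, hXt, hYt, comm]
    have hXY : X * Y = 0 := by
      have : ∑ q : Fin 3 × Fin 3, (X * Y) q.1 q.2 * (X * Y) q.1 q.2 = 0 := by
        rw [← h0, Fintype.sum_prod_type, Matrix.trace]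
        refine sum_congr rfl fun i _ => ?_
        rw [Matrix.diag_apply, Matrix.mul_apply (M := X * Y) (N := X * Y)]
        refine sum_congr rfl fun j _ => ?_
        have := congrFun (congrFun hNt i) j
        rw [Matrix.transpose_apply] at this
        rw [this]
      ext i j
      exact hsq (fun q => (X * Y) q.1 q.2) this (i, j)
    intro k
    have := congrArg (cm F k) hXY
    rwa [cm_mul, cX, cY, cm_zero] at this
  -- the pointwise end game
  have hT0 : ∀ k, ev.mapMatrix (TM F k) = 0 := by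
    refine End_805.endgame J3_cliff (A := ev.mapMatrix (AM F)) (T := fun k => ev.mapMatrix (TM F k))
      (L := ev.mapMatrix (LM F)) ?_ ?_ ?_ ?_ ?_ ?_ ?_ ?_ ?_ ?_ ?_
    · ext i j; exact congrArg ev (F.AA_symm j i)
    · intro k; ext i j; exact congrArg ev (F.NN_symm k j i)
    · rw [tr_map, AM_trace hE, AlgHom.commutes]; exact hc
    · exact bi hE ev
    · intro k; rw [tr_map, TM_trace hE, map_zero]
    · intro k; rw [← map_mul, tr_map, q2 h2, map_zero]
    · intro k; rw [← map_mul, ← map_mul, tr_map, q3 h3, map_zero]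
    · rw [LM_formula hE, map_sub, map_sub, map_sm, map_sm, map_sm, map_mul, map_one, tr_map,
        ← map_mul (ev.mapMatrix), tr_map]
      simp only [map_mul, map_sub, map_pow, map_ofNat]
    · rw [← map_mul, tr_map]
      simp only [← map_mul, tr_map]
      rw [← map_sum, ← map_add, e3 h2, map_zero]
    · simp only [← map_mul, tr_map]
      rw [← map_sum]
      have : (2 : ℝ) = ev 2 := by rw [map_ofNat]
      rw [this, ← map_mul, ← map_add, e4 h3, map_zero]
    · intro x y hxy k
      have := congrArg (ev.mapMatrix) (hN x y hxy k)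
      rw [map_add, map_mul, map_mul, map_sub, map_sub, map_sm, map_sm, map_one, AlgHom.commutes,
        AlgHom.commutes, map_zero] at this
      exact this
  -- `∑ |T_k|²` is constant
  have hQ : ∑ k, (TM F k * TM F k).trace = - (AM F * LM F).trace := by
    have := e3 h2; linear_combination this
  have hQ0 : ∑ k, (TM F k * TM F k).trace = 0 := by
    refine hconst _ ?_ ?_
    · intro j
      rw [hQ, map_neg, LM_formula hE, AM_trace hE]
      simp only [Matrix.mul_sub, Matrix.mul_smul, Matrix.trace_sub, Matrix.trace_smul, smul_eq_mul,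
        Matrix.mul_one, AM_trace hE, ← Matrix.mul_assoc, map_sub, D_mul, pow_two, h2, h3,
        Derivation.map_algebraMap]
      have : ∀ m : ℕ, F.D j (m : S) = 0 := fun m => by
        have : (m : S) = algebraMap ℝ S m := (map_natCast (algebraMap ℝ S) m).symm
        rw [this, Derivation.map_algebraMap]
      have h6 : F.D j (6 : S) = 0 := by exact_mod_cast this 6
      have h2' : F.D j (2 : S) = 0 := by exact_mod_cast this 2
      rw [h6, h2']; ring
    · rw [map_sum]
      refine sum_eq_zero fun k _ => ?_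
      rw [← tr_map, map_mul, hT0]; simp
  have hk := hsum (fun k => (TM F k * TM F k).trace) (fun k =>
    ⟨fun q => F.NN k q.1 q.2, by
      rw [Fintype.sum_prod_type, Matrix.trace]
      refine sum_congr rfl fun i _ => ?_
      rw [Matrix.diag_apply, Matrix.mul_apply]
      refine sum_congr rfl fun j _ => ?_
      change F.NN k i j * F.NN k j i = F.NN k i j * F.NN k i j
      rw [F.NN_symm k j i]⟩) hQ0
  intro k c d
  refine hsq (fun q => F.NN k q.1 q.2) ?_ (c, d)
  rw [← hk k, Fintype.sum_prod_type, Matrix.trace]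
  refine sum_congr rfl fun i _ => ?_
  rw [Matrix.diag_apply, Matrix.mul_apply]
  refine sum_congr rfl fun j _ => ?_
  change F.NN k i j * F.NN k i j = F.NN k i j * F.NN k j i
  rw [F.NN_symm k j i]

end ring

section germs

open scoped ContDiff Topology
open Filter Set
open Crest.GeometryTopology.CoordMetric Crest.GeometryTopology.ChartCurvature
open Crest.Agent.R202.Tens Crest.Agent.R247.Bo84 Crest.Agent.R249.Sg129

local notation "E4" => EuclideanSpace ℝ (Fin 4)

variable {x : EuclideanSpace ℝ (Fin 4)}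

/-- a sum of squares of germs vanishes only if every germ vanishes -/
lemma sg_sq {ι : Type*} [Fintype ι] (f : ι → SG x) (h : ∑ i, f i * f i = 0) (i : ι) : f i = 0 := by
  choose φ hφ e using fun i => exists_germ (f i)
  have h1 : germ (fun y => ∑ i, φ i y * φ i y)
      (ContDiffAt.sum fun i _ => (hφ i).mul (hφ i)) = germ (fun _ => 0) contDiffAt_const := by
    rw [← germ_sum Finset.univ (f := fun i y => φ i y * φ i y) (fun i => (hφ i).mul (hφ i)),
      germ_zero, ← h]
    exact Finset.sum_congr rfl fun i _ => by rw [← germ_mul (hφ i) (hφ i), e]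
  rw [← e i, ← germ_zero]
  refine germ_eq ?_
  filter_upwards [germ_eq_iff.1 h1] with y hy
  have := (Finset.sum_eq_zero_iff_of_nonneg (fun i _ => mul_self_nonneg (φ i y))).1 hy i
    (Finset.mem_univ i)
  exact mul_self_eq_zero.1 this

lemma sg_sum (f : Fin 4 → SG x)
    (hf : ∀ k, ∃ g : Fin 3 × Fin 3 → SG x, f k = ∑ q, g q * g q) (h : ∑ k, f k = 0) (k : Fin 4) :
    f k = 0 := by
  choose g hg using hf
  have h1 : ∑ r : Fin 4 × (Fin 3 × Fin 3), g r.1 r.2 * g r.1 r.2 = 0 := by
    rw [Fintype.sum_prod_type, ← h]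
    exact Finset.sum_congr rfl fun k _ => (hg k).symm
  have h2 := sg_sq (fun r : Fin 4 × (Fin 3 × Fin 3) => g r.1 r.2) h1
  rw [hg k]
  exact Finset.sum_eq_zero fun q _ => by rw [h2 (k, q), mul_zero]

variable {g : MetricField 4} {U : Set (EuclideanSpace ℝ (Fin 4))}
  {e : Fin 4 → EuclideanSpace ℝ (Fin 4) → EuclideanSpace ℝ (Fin 4)}

/-- a germ with zero derivatives and zero value is zero -/
lemma sg_const (h : ONF g U x e) (f : SG x) (hf : ∀ k, h.frameOf.D k f = 0) (h0 : ev f = 0) :
    f = 0 := by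
  obtain ⟨φ, hφ, rfl⟩ := exists_germ f
  have h1 : ∀ k, ∀ᶠ y in 𝓝 x, fderiv ℝ φ y (e k y) = 0 := by
    intro k
    have := hf k
    rw [h.D_germ, ← germ_zero] at this
    exact germ_eq_iff.1 this
  have h2 : ∀ᶠ y in 𝓝 x, fderiv ℝ φ y = 0 := by
    filter_upwards [eventually_all.2 h1, h.isFrame, eventually_mem h.riem h.mem] with y hy hF hU
    ext v
    conv_lhs => rw [hF.expand h.riem hU v]
    rw [map_sum]
    refine Finset.sum_eq_zero fun m _ => ?_
    rw [map_smul, hy m, smul_zero]
  obtain ⟨r, hr, hb⟩ := Metric.eventually_nhds_iff_ball.1 (h2.and (ev_diff hφ))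
  rw [← germ_zero]
  refine germ_eq ?_
  filter_upwards [Metric.ball_mem_nhds x hr] with y hy
  have := (convex_ball x r).is_const_of_fderivWithin_eq_zero (𝕜 := ℝ) (f := φ)
    (fun z hz => (hb z hz).2.differentiableWithinAt)
    (fun z hz => by
      rw [fderivWithin_of_isOpen Metric.isOpen_ball hz]; exact (hb z hz).1)
    hy (Metric.mem_ball_self hr)
  rw [this]; exact h0

/-- **C3.8 / C3.9 in an orthonormal frame germ.** -/
theorem nn_zero_onf (h : ONF g U x e) {c : ℝ} (hc : 0 < c)
    (hE : h.frameOf.Einstein (algebraMap ℝ (SG x) c))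
    (h2 : ∀ k, h.frameOf.D k (AM h.frameOf * AM h.frameOf).trace = 0)
    (h3 : ∀ k, h.frameOf.D k (AM h.frameOf * AM h.frameOf * AM h.frameOf).trace = 0) :
    ∀ k c d, h.frameOf.NN k c d = 0 :=
  nn_zero ev (sg_const h) sg_sq sg_sum hc hE h2 h3

end germs

end Crest.Agent.R249.Kend_493
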