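import Crest.Agent.R249.Ker9_254

/-!
# Kernel checker for polynomial inequalities, part 10: soundness of the identity check
-/

set_option autoImplicit false

namespace Crest.Agent.R249.Ker254

open MvPolynomial

/-! ## degrees -/

section deg
variable (v : Fin 3)

theorem deg_h1 {T : MvPolynomial (Fin 3) ℤ} {t : ℕ} (hT : T.degreeOf v ≤ t) :
    ∀ l : List ℤ, (h1 T l).degreeOf v ≤ dl1 t l
  | [] => by simp [h1, dl1]
  | [c] => by
    simp only [h1, mul_zero, add_zero, dl1]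
    exact (degreeOf_C c v).le
  | c :: c' :: l => by
    have ih := deg_h1 hT (c' :: l)
    simp only [dl1, frc_eq] at ih ⊢
    rw [h1]
    refine (degreeOf_add_le _ _ _).trans (max_le ?_ ?_)
    · exact ((degreeOf_C c v).le).trans (Nat.zero_le _)
    · refine (degreeOf_mul_le _ _ _).trans ?_
      exact Nat.add_le_add hT ih

theorem deg_h2 {S T : MvPolynomial (Fin 3) ℤ} {s t : ℕ} (hS : S.degreeOf v ≤ s)
    (hT : T.degreeOf v ≤ t) :
    ∀ l : List (List ℤ), (h2 S T l).degreeOf v ≤ dl2 s t l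
  | [] => by simp [h2, dl2]
  | [c] => by
    simp only [h2, mul_zero, add_zero, dl2]
    exact deg_h1 v hT c
  | c :: c' :: l => by
    have ih := deg_h2 hS hT (c' :: l)
    have e1 := deg_h1 v hT c
    rw [dl2]
    simp only [frc_eq]
    rw [h2]
    refine (degreeOf_add_le _ _ _).trans (max_le ?_ ?_)
    · exact e1.trans (le_max_left _ _)
    · refine (degreeOf_mul_le _ _ _).trans ?_
      exact (Nat.add_le_add hS ih).trans (le_max_right _ _)

theorem deg_h3 {R S T : MvPolynomial (Fin 3) ℤ} {r s t : ℕ} (hR : R.degreeOf v ≤ r)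
    (hS : S.degreeOf v ≤ s) (hT : T.degreeOf v ≤ t) :
    ∀ l : P3, (h3 R S T l).degreeOf v ≤ dl3 r s t l
  | [] => by simp [h3, dl3]
  | [c] => by
    simp only [h3, mul_zero, add_zero, dl3]
    exact deg_h2 v hS hT c
  | c :: c' :: l => by
    have ih := deg_h3 hR hS hT (c' :: l)
    have e1 := deg_h2 v hS hT c
    rw [dl3]
    simp only [frc_eq]
    rw [h3]
    refine (degreeOf_add_le _ _ _).trans (max_le ?_ ?_)
    · exact e1.trans (le_max_left _ _)
    · refine (degreeOf_mul_le _ _ _).trans ?_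
      exact (Nat.add_le_add hR ih).trans (le_max_right _ _)

theorem degreeOf_sub_le' (p q : MvPolynomial (Fin 3) ℤ) :
    (p - q).degreeOf v ≤ max (p.degreeOf v) (q.degreeOf v) := by
  rw [sub_eq_add_neg]
  refine (degreeOf_add_le _ _ _).trans ?_
  rw [degreeOf_neg]

theorem deg_ev {a b c : ℕ} {u w z : MvPolynomial (Fin 3) ℤ} (hu : u.degreeOf v ≤ a)
    (hw : w.degreeOf v ≤ b) (hz : z.degreeOf v ≤ c) (E : Ex) :
    (E.ev u w z).degreeOf v ≤ E.dg a b c := by
  induction E with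
  | cst n => exact (degreeOf_C n v).le
  | vx => exact hu
  | vy => exact hw
  | vz => exact hz
  | add e f ihe ihf =>
    simp only [Ex.ev, Ex.dg, frc_eq]
    exact (degreeOf_add_le _ _ _).trans (max_le_max ihe ihf)
  | sub e f ihe ihf =>
    simp only [Ex.ev, Ex.dg, frc_eq]
    exact (degreeOf_sub_le' _ _ _).trans (max_le_max ihe ihf)
  | mul e f ihe ihf =>
    simp only [Ex.ev, Ex.dg, frc_eq]
    exact (degreeOf_mul_le _ _ _).trans (Nat.add_le_add ihe ihf)
  | pw e n ihe =>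
    simp only [Ex.ev, Ex.dg, frc_eq]
    exact (degreeOf_pow_le _ _ _).trans (Nat.mul_le_mul_left _ ihe)
  | pc p e f g ihe ihf ihg =>
    simp only [Ex.ev, Ex.dg, frc_eq]
    exact deg_h3 v ihe ihf ihg p

end deg

/-! ## majorants -/

/-- `q` is a coefficientwise majorant of `p` -/
def Maj (p q : MvPolynomial (Fin 3) ℤ) : Prop := ∀ m, |coeff m p| ≤ coeff m q

theorem Maj.add {p q p' q' : MvPolynomial (Fin 3) ℤ} (h : Maj p q) (h' : Maj p' q') :
    Maj (p + p') (q + q') := fun m => by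
  rw [coeff_add, coeff_add]
  exact (abs_add_le _ _).trans (add_le_add (h m) (h' m))

theorem Maj.sub {p q p' q' : MvPolynomial (Fin 3) ℤ} (h : Maj p q) (h' : Maj p' q') :
    Maj (p - p') (q + q') := fun m => by
  rw [coeff_sub, coeff_add]
  exact (abs_sub _ _).trans (add_le_add (h m) (h' m))

theorem Maj.mul {p q p' q' : MvPolynomial (Fin 3) ℤ} (h : Maj p q) (h' : Maj p' q') :
    Maj (p * p') (q * q') := fun m => by
  classical
  rw [coeff_mul, coeff_mul]
  refine (Finset.abs_sum_le_sum_abs _ _).trans (Finset.sum_le_sum fun x _ => ?_)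
  rw [abs_mul]
  exact mul_le_mul (h _) (h' _) (abs_nonneg _) ((abs_nonneg _).trans (h _))

theorem Maj.cst (n : ℤ) : Maj (n : MvPolynomial (Fin 3) ℤ) ((n.natAbs : ℕ) : MvPolynomial (Fin 3) ℤ) := by
  classical
  intro m
  have e1 : (n : MvPolynomial (Fin 3) ℤ) = C n := by simp
  have e2 : ((n.natAbs : ℕ) : MvPolynomial (Fin 3) ℤ) = C ((n.natAbs : ℕ) : ℤ) := by simp
  rw [e1, e2, coeff_C, coeff_C]
  split_ifs
  · exact (Int.natCast_natAbs n).ge
  · simp

theorem Maj.X (v : Fin 3) : Maj (X v) (X v) := by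
  classical
  intro m
  rw [coeff_X']
  split_ifs <;> simp

theorem Maj.zero : Maj 0 0 := fun m => by simp

theorem Maj.one : Maj 1 1 := by
  classical
  intro m
  rw [coeff_one]
  split_ifs <;> simp

theorem Maj.pow {p q : MvPolynomial (Fin 3) ℤ} (h : Maj p q) (n : ℕ) : Maj (p ^ n) (q ^ n) := by
  induction n with
  | zero => simpa using Maj.one
  | succ n ih => rw [pow_succ, pow_succ]; exact ih.mul h

theorem maj_h1 {T T' : MvPolynomial (Fin 3) ℤ} (hT : Maj T T') (l : List ℤ) :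
    Maj (h1 T l) (g1 T' l) := by
  induction l with
  | nil => exact Maj.zero
  | cons c l ih => exact (Maj.cst c).add (hT.mul ih)

theorem maj_h2 {S T S' T' : MvPolynomial (Fin 3) ℤ} (hS : Maj S S') (hT : Maj T T')
    (l : List (List ℤ)) : Maj (h2 S T l) (g2 S' T' l) := by
  induction l with
  | nil => exact Maj.zero
  | cons c l ih => exact (maj_h1 hT c).add (hS.mul ih)

theorem maj_h3 {R S T R' S' T' : MvPolynomial (Fin 3) ℤ} (hR : Maj R R') (hS : Maj S S')
    (hT : Maj T T') (l : P3) : Maj (h3 R S T l) (g3 R' S' T' l) := by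
  induction l with
  | nil => exact Maj.zero
  | cons c l ih => exact (maj_h2 hS hT c).add (hR.mul ih)

theorem maj_ev {u w z u' w' z' : MvPolynomial (Fin 3) ℤ} (hu : Maj u u') (hw : Maj w w')
    (hz : Maj z z') (E : Ex) : Maj (E.ev u w z) (E.ma u' w' z') := by
  induction E with
  | cst n => exact Maj.cst n
  | vx => exact hu
  | vy => exact hw
  | vz => exact hz
  | add e f ihe ihf => exact ihe.add ihf
  | sub e f ihe ihf => exact ihe.sub ihf
  | mul e f ihe ihf => exact ihe.mul ihf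
  | pw e n ihe => exact ihe.pow n
  | pc p e f g ihe ihf ihg => exact maj_h3 ihe ihf ihg p

/-- the polynomial of an expression -/
noncomputable def Ex.poly (E : Ex) : MvPolynomial (Fin 3) ℤ :=
  E.ev (MvPolynomial.X 0) (MvPolynomial.X 1) (MvPolynomial.X 2)

theorem Ex.coeff_le (E : Ex) (m : Fin 3 →₀ ℕ) : |coeff m E.poly| ≤ (E.nb : ℤ) := by
  have h := maj_ev (Maj.X 0) (Maj.X 1) (Maj.X 2) E
  set q : MvPolynomial (Fin 3) ℤ :=
    E.ma (MvPolynomial.X 0) (MvPolynomial.X 1) (MvPolynomial.X 2) with hq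
  have hq0 : ∀ m, 0 ≤ coeff m q := fun m => (abs_nonneg _).trans (h m)
  have e1 : eval (fun _ => (1 : ℤ)) q = (E.nb : ℤ) := by
    rw [hq, Ex.map_ma]; simp [Ex.nb_eq]
  have e2 : coeff m q ≤ eval (fun _ => (1 : ℤ)) q := by
    rw [eval_eq]
    simp only [one_pow, Finset.prod_const_one, mul_one]
    by_cases hm : m ∈ q.support
    · exact Finset.single_le_sum (f := fun d => coeff d q) (fun d _ => hq0 d) hm
    · rw [notMem_support_iff.1 hm]
      exact Finset.sum_nonneg fun d _ => hq0 d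
  exact (h m).trans (e2.trans e1.le)

theorem Ex.ev_real (E : Ex) (x y z : ℝ) :
    E.ev x y z = eval₂ (Int.castRingHom ℝ) ![x, y, z] E.poly := by
  have := Ex.map_ev (eval₂Hom (Int.castRingHom ℝ) ![x, y, z]) (MvPolynomial.X 0)
    (MvPolynomial.X 1) (MvPolynomial.X 2) E
  simp only [coe_eval₂Hom, eval₂_X] at this
  exact this.symm

theorem Ex.ev_int (E : Ex) (x y z : ℤ) : E.ev x y z = eval ![x, y, z] E.poly := by
  have := Ex.map_ev (eval ![x, y, z]) (MvPolynomial.X 0)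
    (MvPolynomial.X 1) (MvPolynomial.X 2) E
  simp only [eval_X] at this
  exact this.symm

/-! ## uniqueness of digits -/

theorem dig_zero {B : ℤ} (hB : 0 < B) : ∀ (m : ℕ) (c : ℕ → ℤ), (∀ i, |c i| < B) →
    ∑ i ∈ Finset.range m, c i * B ^ i = 0 → ∀ i < m, c i = 0 := by
  intro m
  induction m with
  | zero => intro c _ _ i hi; omega
  | succ m ih =>
    intro c hc hs
    rw [Finset.sum_range_succ'] at hs
    have e1 : ∑ i ∈ Finset.range m, c (i + 1) * B ^ (i + 1)
        = B * ∑ i ∈ Finset.range m, c (i + 1) * B ^ i := by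
      rw [Finset.mul_sum]
      exact Finset.sum_congr rfl fun i _ => by rw [pow_succ]; ring
    rw [e1] at hs
    simp only [pow_zero, mul_one] at hs
    have h0 : c 0 = 0 := by
      have hd : B ∣ c 0 := ⟨-∑ i ∈ Finset.range m, c (i + 1) * B ^ i, by linarith⟩
      exact Int.eq_zero_of_abs_lt_dvd hd (hc 0)
    rw [h0, add_zero] at hs
    have h1 : ∑ i ∈ Finset.range m, c (i + 1) * B ^ i = 0 := by
      rcases mul_eq_zero.1 hs with h | h
      · omega
      · exact h
    have h2 := ih (fun i => c (i + 1)) (fun i => hc _) h1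
    intro i hi
    rcases i with _ | i
    · exact h0
    · exact h2 i (by omega)

theorem kron_zero {B : ℤ} (hB : 0 < B) {n1 n2 n3 : ℕ} {p : MvPolynomial (Fin 3) ℤ}
    (d1 : p.degreeOf 0 ≤ n1) (d2 : p.degreeOf 1 ≤ n2) (d3 : p.degreeOf 2 ≤ n3)
    (hb : ∀ m, |coeff m p| < B)
    (h0 : eval ![B ^ ((n2 + 1) * (n3 + 1)), B ^ (n3 + 1), B] p = 0) : p = 0 := by
  classical
  set enc : (Fin 3 →₀ ℕ) → ℕ := fun m => (m 0 * (n2 + 1) + m 1) * (n3 + 1) + m 2 with henc
  set dec : ℕ → (Fin 3 →₀ ℕ) := fun P => Finsupp.equivFunOnFinite.symm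
    ![P / ((n3 + 1) * (n2 + 1)), (P / (n3 + 1)) % (n2 + 1), P % (n3 + 1)] with hdec
  set M : ℕ := (n1 + 1) * ((n2 + 1) * (n3 + 1)) with hM
  have hde : ∀ m ∈ p.support, dec (enc m) = m ∧ enc m < M := by
    intro m hm
    have a0 : m 0 ≤ n1 := (degreeOf_le_iff.1 d1) m hm
    have a1 : m 1 ≤ n2 := (degreeOf_le_iff.1 d2) m hm
    have a2 : m 2 ≤ n3 := (degreeOf_le_iff.1 d3) m hm
    have q1 : enc m / (n3 + 1) = m 0 * (n2 + 1) + m 1 := by
      simp only [henc]
      rw [mul_comm, Nat.mul_add_div (Nat.succ_pos _), Nat.div_eq_of_lt (by omega), add_zero]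
    constructor
    · ext i
      fin_cases i
      · show enc m / ((n3 + 1) * (n2 + 1)) = m 0
        rw [← Nat.div_div_eq_div_mul, q1, mul_comm, Nat.mul_add_div (Nat.succ_pos _),
          Nat.div_eq_of_lt (by omega), add_zero]
      · show (enc m / (n3 + 1)) % (n2 + 1) = m 1
        rw [q1, mul_comm, Nat.mul_add_mod, Nat.mod_eq_of_lt (by omega)]
      · show enc m % (n3 + 1) = m 2
        simp only [henc]
        rw [mul_comm, Nat.mul_add_mod, Nat.mod_eq_of_lt (by omega)]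
    · simp only [henc, hM]
      have b1 : m 0 * (n2 + 1) + m 1 + 1 ≤ (n1 + 1) * (n2 + 1) := by nlinarith
      calc (m 0 * (n2 + 1) + m 1) * (n3 + 1) + m 2
          < (m 0 * (n2 + 1) + m 1) * (n3 + 1) + (n3 + 1) := by omega
        _ = (m 0 * (n2 + 1) + m 1 + 1) * (n3 + 1) := by ring
        _ ≤ ((n1 + 1) * (n2 + 1)) * (n3 + 1) := Nat.mul_le_mul_right _ b1
        _ = (n1 + 1) * ((n2 + 1) * (n3 + 1)) := by ring
  have hed : ∀ P, enc (dec P) = P := by
    intro P
    show (P / ((n3 + 1) * (n2 + 1)) * (n2 + 1) + (P / (n3 + 1)) % (n2 + 1)) * (n3 + 1)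
      + P % (n3 + 1) = P
    rw [← Nat.div_div_eq_div_mul]
    have e1 : P / (n3 + 1) / (n2 + 1) * (n2 + 1) + P / (n3 + 1) % (n2 + 1) = P / (n3 + 1) := by
      rw [mul_comm]; exact Nat.div_add_mod _ _
    rw [e1, mul_comm]; exact Nat.div_add_mod _ _
  have hev : eval ![B ^ ((n2 + 1) * (n3 + 1)), B ^ (n3 + 1), B] p
      = ∑ P ∈ Finset.range M, coeff (dec P) p * B ^ P := by
    rw [eval_eq']
    simp only [Fin.prod_univ_three, Matrix.cons_val_zero, Matrix.cons_val_one, Matrix.cons_val]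
    have e1 : ∀ m : Fin 3 →₀ ℕ, (B ^ ((n2 + 1) * (n3 + 1))) ^ m 0 * (B ^ (n3 + 1)) ^ m 1 * B ^ m 2
        = B ^ enc m := by
      intro m
      rw [← pow_mul, ← pow_mul, ← pow_add, ← pow_add]
      congr 1
      simp only [henc]; ring
    simp only [e1]
    have e2 : ∑ m ∈ p.support, coeff m p * B ^ enc m
        = ∑ P ∈ p.support.image enc, coeff (dec P) p * B ^ P := by
      rw [Finset.sum_image]
      · exact Finset.sum_congr rfl fun m hm => by rw [(hde m hm).1]
      · intro m hm m' hm' h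
        have := congrArg dec h
        rwa [(hde m hm).1, (hde m' hm').1] at this
    rw [e2]
    apply Finset.sum_subset
    · intro P hP
      obtain ⟨m, hm, rfl⟩ := Finset.mem_image.1 hP
      exact Finset.mem_range.2 (hde m hm).2
    · intro P _ hP
      have : dec P ∉ p.support := fun h => hP (Finset.mem_image.2 ⟨dec P, h, hed P⟩)
      rw [notMem_support_iff.1 this, zero_mul]
  rw [hev] at h0
  have key := dig_zero hB M (fun P => coeff (dec P) p) (fun P => hb _) h0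
  by_contra hp
  obtain ⟨m, hm⟩ := MvPolynomial.ne_zero_iff.1 hp
  have hm' : m ∈ p.support := mem_support_iff.2 hm
  have := key (enc m) (hde m hm').2
  rw [(hde m hm').1] at this
  exact hm this

/-! ## the check -/

/-- equality of integers -/
def eqI : ℤ → ℤ → Bool
  | Int.ofNat a, Int.ofNat b => Nat.beq a b
  | Int.negSucc a, Int.negSucc b => Nat.beq a b
  | _, _ => false

theorem eqI_eq {a b : ℤ} (h : eqI a b = true) : a = b := by
  cases a <;> cases b <;> simp_all [eqI]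

/-- identity check -/
def idc (w n1 n2 n3 : ℕ) (E F : Ex) : Bool :=
  frc (Nat.pow 2 w) fun W =>
  frc E.nb fun e => frc F.nb fun f =>
  Nat.ble (Nat.succ (Nat.add e f)) W &&
  Nat.ble (E.dg 1 0 0) n1 && Nat.ble (F.dg 1 0 0) n1 &&
  Nat.ble (E.dg 0 1 0) n2 && Nat.ble (F.dg 0 1 0) n2 &&
  Nat.ble (E.dg 0 0 1) n3 && Nat.ble (F.dg 0 0 1) n3 &&
  frc (Nat.pow 2 (Nat.mul w (Nat.mul (Nat.succ n2) (Nat.succ n3)))) fun X =>
  frc (Nat.pow 2 (Nat.mul w (Nat.succ n3))) fun Y =>
  frcI (E.evI (Int.ofNat X) (Int.ofNat Y) (Int.ofNat W)) fun a =>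
  frcI (F.evI (Int.ofNat X) (Int.ofNat Y) (Int.ofNat W)) fun b =>
  eqI a b

theorem idc_sound {w n1 n2 n3 : ℕ} {E F : Ex} (h : idc w n1 n2 n3 E F = true) (x y z : ℝ) :
    E.ev x y z = F.ev x y z := by
  unfold idc at h
  simp only [frc_eq, frcI_eq, Bool.and_eq_true, Nat.ble_eq] at h
  obtain ⟨⟨⟨⟨⟨⟨⟨hn, a1⟩, b1⟩, a2⟩, b2⟩, a3⟩, b3⟩, hv⟩ := h
  have hv' : E.evI (Int.ofNat (2 ^ (w * ((n2 + 1) * (n3 + 1))))) (Int.ofNat (2 ^ (w * (n3 + 1))))
      (Int.ofNat (2 ^ w)) = F.evI (Int.ofNat (2 ^ (w * ((n2 + 1) * (n3 + 1)))))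
      (Int.ofNat (2 ^ (w * (n3 + 1)))) (Int.ofNat (2 ^ w)) := by
    exact eqI_eq hv
  rw [Ex.evI_eq, Ex.evI_eq] at hv'
  have dX : ∀ (i j : Fin 3), (MvPolynomial.X (R := ℤ) i).degreeOf j ≤ if i = j then 1 else 0 := by
    intro i j
    rw [degreeOf_X]
    split_ifs <;> simp_all
  have hp : E.poly - F.poly = 0 := by
    apply kron_zero (B := 2 ^ w) (by positivity) (n1 := n1) (n2 := n2) (n3 := n3)
    · refine (degreeOf_sub_le' _ _ _).trans (max_le ?_ ?_)
      · exact (deg_ev 0 (dX 0 0) (dX 1 0) (dX 2 0) E).trans a1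
      · exact (deg_ev 0 (dX 0 0) (dX 1 0) (dX 2 0) F).trans b1
    · refine (degreeOf_sub_le' _ _ _).trans (max_le ?_ ?_)
      · exact (deg_ev 1 (dX 0 1) (dX 1 1) (dX 2 1) E).trans a2
      · exact (deg_ev 1 (dX 0 1) (dX 1 1) (dX 2 1) F).trans b2
    · refine (degreeOf_sub_le' _ _ _).trans (max_le ?_ ?_)
      · exact (deg_ev 2 (dX 0 2) (dX 1 2) (dX 2 2) E).trans a3
      · exact (deg_ev 2 (dX 0 2) (dX 1 2) (dX 2 2) F).trans b3
    · intro m
      rw [coeff_sub]
      have q1 := E.coeff_le m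
      have q2 := F.coeff_le m
      have q3 : ((E.nb : ℤ) + F.nb) < 2 ^ w := by
        have : E.nb + F.nb + 1 ≤ 2 ^ w := hn
        have h4 : ((E.nb + F.nb + 1 : ℕ) : ℤ) ≤ ((2 ^ w : ℕ) : ℤ) := by exact_mod_cast this
        push_cast at h4
        linarith
      exact (abs_sub _ _).trans_lt (lt_of_le_of_lt (add_le_add q1 q2) q3)
    · rw [map_sub, ← Ex.ev_int, ← Ex.ev_int]
      have c1 : ((2 : ℤ) ^ w) ^ ((n2 + 1) * (n3 + 1)) = Int.ofNat (2 ^ (w * ((n2 + 1) * (n3 + 1)))) := by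
        rw [← pow_mul]; simp
      have c2 : ((2 : ℤ) ^ w) ^ (n3 + 1) = Int.ofNat (2 ^ (w * (n3 + 1))) := by
        rw [← pow_mul]; simp
      have c3 : (2 : ℤ) ^ w = Int.ofNat (2 ^ w) := by simp
      rw [c1, c2, c3, hv', sub_self]
  have hq : E.poly = F.poly := sub_eq_zero.1 hp
  rw [Ex.ev_real, Ex.ev_real, hq]

end Crest.Agent.R249.Ker254
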