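import Crest.Agent.R249.Ker10_254
import Mathlib.Analysis.Calculus.Deriv.Mul
import Mathlib.Analysis.Calculus.Deriv.Add
import Mathlib.Analysis.Calculus.Deriv.Prod
import Mathlib.Analysis.Calculus.Deriv.Comp
import Mathlib.Analysis.Calculus.FDeriv.Prod
import Mathlib.Analysis.Calculus.FDeriv.Mul
import Mathlib.Analysis.Calculus.ContDiff.Operations

/-!
# Kernel checker for polynomial inequalities, part 11: derivatives of coefficient lists
-/

set_option autoImplicit false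

namespace Crest.Agent.R249.Ker254

/-! ## derivative lists -/

/-- `k c0, (k+1) c1, ...` -/
def ix1 : ℤ → List ℤ → List ℤ
  | _, [] => []
  | k, c :: l => Int.mul k c :: ix1 (Int.add k 1) l

/-- derivative in the variable `t` -/
def dt1 : List ℤ → List ℤ
  | [] => []
  | _ :: l => ix1 1 l

def sc1 (k : ℤ) : List ℤ → List ℤ
  | [] => []
  | c :: l => Int.mul k c :: sc1 k l

def sc2 (k : ℤ) : List (List ℤ) → List (List ℤ)
  | [] => []
  | c :: l => sc1 k c :: sc2 k l

def ix2 : ℤ → List (List ℤ) → List (List ℤ)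
  | _, [] => []
  | k, c :: l => sc1 k c :: ix2 (Int.add k 1) l

def ix3 : ℤ → P3 → P3
  | _, [] => []
  | k, c :: l => sc2 k c :: ix3 (Int.add k 1) l

def ds2 : List (List ℤ) → List (List ℤ)
  | [] => []
  | _ :: l => ix2 1 l

def dt2 : List (List ℤ) → List (List ℤ)
  | [] => []
  | c :: l => dt1 c :: dt2 l

/-- derivative in the first variable -/
def dX : P3 → P3
  | [] => []
  | _ :: l => ix3 1 l

/-- derivative in the second variable -/
def dY : P3 → P3
  | [] => []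
  | c :: l => ds2 c :: dY l

/-- derivative in the third variable -/
def dZ : P3 → P3
  | [] => []
  | c :: l => dt2 c :: dZ l

theorem ev1_sc1 (k : ℤ) (t : ℝ) (l : List ℤ) : ev1 t (sc1 k l) = k * ev1 t l := by
  induction l with
  | nil => simp [sc1, ev1]
  | cons c l ih =>
    simp only [sc1, ev1, ih]
    have : ((Int.mul k c : ℤ) : ℝ) = k * c := by exact_mod_cast Int.cast_mul k c
    rw [this]; ring

theorem ev2_sc2 (k : ℤ) (s t : ℝ) (l : List (List ℤ)) : ev2 s t (sc2 k l) = k * ev2 s t l := by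
  induction l with
  | nil => simp [sc2, ev2]
  | cons c l ih => simp only [sc2, ev2, ih, ev1_sc1]; ring

theorem dt1_cons (t : ℝ) (l : List ℤ) :
    (∀ k : ℤ, ev1 t (ix1 k l) = k * ev1 t l + t * ev1 t (dt1 l)) := by
  induction l with
  | nil => intro k; simp [ix1, ev1, dt1]
  | cons c l ih =>
    intro k
    simp only [ix1, ev1, dt1]
    have e1 : ((Int.mul k c : ℤ) : ℝ) = k * c := by exact_mod_cast Int.cast_mul k c
    have e2 : ((Int.add k 1 : ℤ) : ℝ) = k + 1 := by exact_mod_cast Int.cast_add k 1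
    rw [e1, ih, ih 1, e2]
    push_cast
    ring

theorem ds2_cons (s t : ℝ) (l : List (List ℤ)) :
    (∀ k : ℤ, ev2 s t (ix2 k l) = k * ev2 s t l + s * ev2 s t (ds2 l)) := by
  induction l with
  | nil => intro k; simp [ix2, ev2, ds2]
  | cons c l ih =>
    intro k
    simp only [ix2, ev2, ds2]
    have e2 : ((Int.add k 1 : ℤ) : ℝ) = k + 1 := by exact_mod_cast Int.cast_add k 1
    rw [ev1_sc1, ih, ih 1, e2]
    push_cast
    ring

theorem dX_cons (r s t : ℝ) (l : P3) :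
    (∀ k : ℤ, ev3 r s t (ix3 k l) = k * ev3 r s t l + r * ev3 r s t (dX l)) := by
  induction l with
  | nil => intro k; simp [ix3, ev3, dX]
  | cons c l ih =>
    intro k
    simp only [ix3, ev3, dX]
    have e2 : ((Int.add k 1 : ℤ) : ℝ) = k + 1 := by exact_mod_cast Int.cast_add k 1
    rw [ev2_sc2, ih, ih 1, e2]
    push_cast
    ring

/-! ## differentiability -/

theorem ev1_hasDerivAt (l : List ℤ) (t : ℝ) : HasDerivAt (fun t => ev1 t l) (ev1 t (dt1 l)) t := by
  induction l with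
  | nil =>
    show HasDerivAt (fun _ : ℝ => (0 : ℝ)) 0 t
    exact hasDerivAt_const t (0 : ℝ)
  | cons c l ih =>
    show HasDerivAt (fun t : ℝ => (c : ℝ) + t * ev1 t l) (ev1 t (ix1 1 l)) t
    refine HasDerivAt.congr_deriv (HasDerivAt.const_add (c : ℝ) (HasDerivAt.fun_mul (hasDerivAt_id' t) ih)) ?_
    rw [dt1_cons]
    push_cast
    ring

theorem ev2_hasDerivAt_t (l : List (List ℤ)) (s t : ℝ) :
    HasDerivAt (fun t => ev2 s t l) (ev2 s t (dt2 l)) t := by
  induction l with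
  | nil =>
    show HasDerivAt (fun _ : ℝ => (0 : ℝ)) 0 t
    exact hasDerivAt_const t (0 : ℝ)
  | cons c l ih =>
    show HasDerivAt (fun t : ℝ => ev1 t c + s * ev2 s t l) (ev1 t (dt1 c) + s * ev2 s t (dt2 l)) t
    exact HasDerivAt.fun_add (ev1_hasDerivAt c t) (ih.const_mul s)

theorem ev2_hasDerivAt_s (l : List (List ℤ)) (s t : ℝ) :
    HasDerivAt (fun s => ev2 s t l) (ev2 s t (ds2 l)) s := by
  induction l with
  | nil =>
    show HasDerivAt (fun _ : ℝ => (0 : ℝ)) 0 s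
    exact hasDerivAt_const s (0 : ℝ)
  | cons c l ih =>
    show HasDerivAt (fun s : ℝ => ev1 t c + s * ev2 s t l) (ev2 s t (ix2 1 l)) s
    refine HasDerivAt.congr_deriv (HasDerivAt.const_add (ev1 t c) (HasDerivAt.fun_mul (hasDerivAt_id' s) ih)) ?_
    rw [ds2_cons]
    push_cast
    ring

theorem ev3_hasDerivAt_z (l : P3) (r s t : ℝ) :
    HasDerivAt (fun t => ev3 r s t l) (ev3 r s t (dZ l)) t := by
  induction l with
  | nil =>
    show HasDerivAt (fun _ : ℝ => (0 : ℝ)) 0 t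
    exact hasDerivAt_const t (0 : ℝ)
  | cons c l ih =>
    show HasDerivAt (fun t : ℝ => ev2 s t c + r * ev3 r s t l)
      (ev2 s t (dt2 c) + r * ev3 r s t (dZ l)) t
    exact HasDerivAt.fun_add (ev2_hasDerivAt_t c s t) (ih.const_mul r)

theorem ev3_hasDerivAt_y (l : P3) (r s t : ℝ) :
    HasDerivAt (fun s => ev3 r s t l) (ev3 r s t (dY l)) s := by
  induction l with
  | nil =>
    show HasDerivAt (fun _ : ℝ => (0 : ℝ)) 0 s
    exact hasDerivAt_const s (0 : ℝ)
  | cons c l ih =>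
    show HasDerivAt (fun s : ℝ => ev2 s t c + r * ev3 r s t l)
      (ev2 s t (ds2 c) + r * ev3 r s t (dY l)) s
    exact HasDerivAt.fun_add (ev2_hasDerivAt_s c s t) (ih.const_mul r)

theorem ev3_hasDerivAt_x (l : P3) (r s t : ℝ) :
    HasDerivAt (fun r => ev3 r s t l) (ev3 r s t (dX l)) r := by
  induction l with
  | nil =>
    show HasDerivAt (fun _ : ℝ => (0 : ℝ)) 0 r
    exact hasDerivAt_const r (0 : ℝ)
  | cons c l ih =>
    show HasDerivAt (fun r : ℝ => ev2 s t c + r * ev3 r s t l) (ev3 r s t (ix3 1 l)) r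
    refine HasDerivAt.congr_deriv (HasDerivAt.const_add (ev2 s t c) (HasDerivAt.fun_mul (hasDerivAt_id' r) ih)) ?_
    rw [dX_cons]
    push_cast
    ring

/-! ## smoothness and Fréchet derivative on `ℝ × ℝ × ℝ` -/

theorem contDiff_ev1 {n : WithTop ℕ∞} (l : List ℤ) :
    ContDiff ℝ n (fun p : ℝ × ℝ × ℝ => ev1 p.2.2 l) := by
  induction l with
  | nil => exact contDiff_const
  | cons c l ih => exact contDiff_const.add ((contDiff_snd.comp contDiff_snd).mul ih)

theorem contDiff_ev2 {n : WithTop ℕ∞} (l : List (List ℤ)) :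
    ContDiff ℝ n (fun p : ℝ × ℝ × ℝ => ev2 p.2.1 p.2.2 l) := by
  induction l with
  | nil => exact contDiff_const
  | cons c l ih => exact (contDiff_ev1 c).add ((contDiff_fst.comp contDiff_snd).mul ih)

theorem contDiff_ev3 {n : WithTop ℕ∞} (l : P3) :
    ContDiff ℝ n (fun p : ℝ × ℝ × ℝ => ev3 p.1 p.2.1 p.2.2 l) := by
  induction l with
  | nil => exact contDiff_const
  | cons c l ih => exact (contDiff_ev2 c).add (contDiff_fst.mul ih)

/-- partial derivatives of a differentiable function of three variables -/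
theorem fderiv_of_partials {f : ℝ × ℝ × ℝ → ℝ} {p : ℝ × ℝ × ℝ} {a b c : ℝ}
    (hf : DifferentiableAt ℝ f p)
    (ha : HasDerivAt (fun x => f (x, p.2.1, p.2.2)) a p.1)
    (hb : HasDerivAt (fun y => f (p.1, y, p.2.2)) b p.2.1)
    (hc : HasDerivAt (fun z => f (p.1, p.2.1, z)) c p.2.2) (v : ℝ × ℝ × ℝ) :
    fderiv ℝ f p v = a * v.1 + b * v.2.1 + c * v.2.2 := by
  obtain ⟨x, y, z⟩ := p
  have hF := hf.hasFDerivAt
  have g1 : HasDerivAt (fun t : ℝ => ((t, y, z) : ℝ × ℝ × ℝ)) (1, 0, 0) x :=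
    HasDerivAt.prodMk (hasDerivAt_id x) (hasDerivAt_const x _)
  have g2 : HasDerivAt (fun t : ℝ => ((x, t, z) : ℝ × ℝ × ℝ)) (0, 1, 0) y :=
    HasDerivAt.prodMk (hasDerivAt_const y _) (HasDerivAt.prodMk (hasDerivAt_id y) (hasDerivAt_const y _))
  have g3 : HasDerivAt (fun t : ℝ => ((x, y, t) : ℝ × ℝ × ℝ)) (0, 0, 1) z :=
    HasDerivAt.prodMk (hasDerivAt_const z _) (HasDerivAt.prodMk (hasDerivAt_const z _) (hasDerivAt_id z))
  have e1 := (HasFDerivAt.comp_hasDerivAt x (f := fun t : ℝ => ((t, y, z) : ℝ × ℝ × ℝ)) hF g1).unique ha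
  have e2 := (HasFDerivAt.comp_hasDerivAt y (f := fun t : ℝ => ((x, t, z) : ℝ × ℝ × ℝ)) hF g2).unique hb
  have e3 := (HasFDerivAt.comp_hasDerivAt z (f := fun t : ℝ => ((x, y, t) : ℝ × ℝ × ℝ)) hF g3).unique hc
  have hv : v = v.1 • ((1, 0, 0) : ℝ × ℝ × ℝ) + v.2.1 • ((0, 1, 0) : ℝ × ℝ × ℝ)
      + v.2.2 • ((0, 0, 1) : ℝ × ℝ × ℝ) := by
    ext <;> simp
  rw [hv, map_add, map_add, map_smul, map_smul, map_smul, e1, e2, e3]
  simp
  ring

theorem fderiv_ev3 (l : P3) (p v : ℝ × ℝ × ℝ) :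
    fderiv ℝ (fun p : ℝ × ℝ × ℝ => ev3 p.1 p.2.1 p.2.2 l) p v
      = ev3 p.1 p.2.1 p.2.2 (dX l) * v.1 + ev3 p.1 p.2.1 p.2.2 (dY l) * v.2.1
        + ev3 p.1 p.2.1 p.2.2 (dZ l) * v.2.2 :=
  fderiv_of_partials ((contDiff_ev3 (n := 1) l).differentiable one_ne_zero p)
    (ev3_hasDerivAt_x l _ _ _) (ev3_hasDerivAt_y l _ _ _) (ev3_hasDerivAt_z l _ _ _) v

end Crest.Agent.R249.Ker254
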