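import Mathlib.Tactic
import Mathlib.Algebra.BigOperators.Group.Finset.Basic
import Mathlib.Algebra.BigOperators.Ring.Finset

/-!
# Kernel checker for polynomial inequalities, part 1: packed vectors of natural numbers

A vector `D 0, ..., D (m-1)` of natural numbers `< 2 ^ w` is stored in one natural number
`pk w D m = ∑ D p * 2 ^ (w p)`.  All operations of the checker are additions, multiplications by
scalars, shifts and masks of such numbers, which the kernel does fast.
-/

set_option autoImplicit false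

namespace Crest.Agent.R249.Ker254

/-- the packed number of the vector `D 0, ..., D (m-1)`, digits of `w` bits -/
def pk (w : ℕ) (D : ℕ → ℕ) (m : ℕ) : ℕ := ∑ p ∈ Finset.range m, D p * 2 ^ (w * p)

theorem pk_zero (w : ℕ) (D : ℕ → ℕ) : pk w D 0 = 0 := by simp [pk]

theorem pk_succ (w : ℕ) (D : ℕ → ℕ) (m : ℕ) : pk w D (m + 1) = pk w D m + D m * 2 ^ (w * m) := by
  simp [pk, Finset.sum_range_succ]

theorem pk_add (w : ℕ) (D E : ℕ → ℕ) (m : ℕ) :
    pk w D m + pk w E m = pk w (fun p => D p + E p) m := by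
  simp [pk, ← Finset.sum_add_distrib, add_mul]

theorem pk_smul (w c : ℕ) (D : ℕ → ℕ) (m : ℕ) :
    c * pk w D m = pk w (fun p => c * D p) m := by
  simp [pk, Finset.mul_sum, mul_assoc]

theorem pk_congr (w : ℕ) {D E : ℕ → ℕ} {m : ℕ} (h : ∀ p, p < m → D p = E p) :
    pk w D m = pk w E m := by
  unfold pk
  exact Finset.sum_congr rfl fun p hp => by rw [h p (Finset.mem_range.1 hp)]

theorem pk_append (w : ℕ) (D : ℕ → ℕ) (c m : ℕ) :
    pk w D (c + m) = pk w D c + 2 ^ (w * c) * pk w (fun p => D (c + p)) m := by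
  unfold pk
  rw [Finset.sum_range_add, Finset.mul_sum]
  congr 1
  refine Finset.sum_congr rfl fun p _ => ?_
  rw [mul_add, pow_add]; ring

theorem pk_extend (w : ℕ) {D : ℕ → ℕ} {m : ℕ} (k : ℕ) (h : ∀ p, m ≤ p → D p = 0) :
    pk w D (m + k) = pk w D m := by
  rw [pk_append]
  have : pk w (fun p => D (m + p)) k = 0 := by
    unfold pk
    exact Finset.sum_eq_zero fun p _ => by
      show D (m + p) * _ = 0
      rw [h _ (Nat.le_add_right _ _), zero_mul]
  rw [this]; simp

theorem pk_lt (w : ℕ) {D : ℕ → ℕ} (m : ℕ) (h : ∀ p, p < m → D p < 2 ^ w) :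
    pk w D m < 2 ^ (w * m) := by
  induction m with
  | zero => simp [pk_zero]
  | succ m ih =>
    rw [pk_succ]
    have h1 := ih fun p hp => h p (by omega)
    have h2 : D m + 1 ≤ 2 ^ w := h m (by omega)
    calc pk w D m + D m * 2 ^ (w * m) < 2 ^ (w * m) + D m * 2 ^ (w * m) := by omega
      _ = (D m + 1) * 2 ^ (w * m) := by ring
      _ ≤ 2 ^ w * 2 ^ (w * m) := Nat.mul_le_mul_right _ h2
      _ = 2 ^ (w * (m + 1)) := by rw [← pow_add]; congr 1; ring

theorem pk_shr (w : ℕ) {D : ℕ → ℕ} {m : ℕ} (c : ℕ) (h : ∀ p, D p < 2 ^ w)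
    (hs : ∀ p, m ≤ p → D p = 0) :
    pk w D m >>> (w * c) = pk w (fun p => D (c + p)) m := by
  have e1 : pk w D m = pk w D (c + m) := by
    rw [show c + m = m + c by ring, pk_extend w c hs]
  rw [e1, pk_append, Nat.shiftRight_eq_div_pow]
  have h1 : pk w D c < 2 ^ (w * c) := pk_lt w c fun p _ => h p
  rw [Nat.add_mul_div_left _ _ (by positivity), Nat.div_eq_of_lt h1, zero_add]

theorem pk_shl (w : ℕ) {D : ℕ → ℕ} {m : ℕ} (c : ℕ) (hs : ∀ p, m ≤ c + p → D p = 0) :
    pk w D m <<< (w * c) = pk w (fun p => if p < c then 0 else D (p - c)) m := by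
  rw [Nat.shiftLeft_eq]
  set D' : ℕ → ℕ := fun p => if p < c then 0 else D (p - c) with hD'
  have e1 : pk w D' (c + m) = pk w D' m := by
    rw [show c + m = m + c by ring]
    apply pk_extend
    intro p hp
    simp only [hD']
    split_ifs with h
    · rfl
    · exact hs _ (by omega)
  rw [← e1, pk_append]
  have e2 : pk w D' c = 0 := by
    unfold pk
    refine Finset.sum_eq_zero fun p hp => ?_
    simp [hD', Finset.mem_range.1 hp]
  have e3 : pk w (fun p => D' (c + p)) m = pk w D m := by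
    apply pk_congr; intro p _; simp [hD']
  rw [e2, e3]; ring

theorem land_add (k : ℕ) {x x' : ℕ} (y y' : ℕ) (hx : x < 2 ^ k) (hx' : x' < 2 ^ k) :
    (x + 2 ^ k * y) &&& (x' + 2 ^ k * y') = (x &&& x') + 2 ^ k * (y &&& y') := by
  apply Nat.eq_of_testBit_eq
  intro i
  have hxx : x &&& x' < 2 ^ k := lt_of_le_of_lt Nat.and_le_left hx
  rw [Nat.testBit_and, Nat.add_comm x, Nat.add_comm x', Nat.add_comm (x &&& x'),
    Nat.testBit_two_pow_mul_add _ hx, Nat.testBit_two_pow_mul_add _ hx',
    Nat.testBit_two_pow_mul_add _ hxx]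
  split_ifs with h
  · rw [Nat.testBit_and]
  · rw [Nat.testBit_and]

theorem pk_land (w : ℕ) {D E : ℕ → ℕ} (m : ℕ) (h : ∀ p, D p < 2 ^ w) (h' : ∀ p, E p < 2 ^ w) :
    pk w D m &&& pk w E m = pk w (fun p => D p &&& E p) m := by
  induction m with
  | zero => simp [pk_zero]
  | succ m ih =>
    rw [pk_succ, pk_succ, pk_succ, mul_comm (D m), mul_comm (E m), mul_comm (D m &&& E m),
      land_add _ _ _ (pk_lt w m fun p _ => h p) (pk_lt w m fun p _ => h' p), ih]

/-- a mask digit -/
theorem land_full (w x : ℕ) (h : x < 2 ^ w) : x &&& (2 ^ w - 1) = x := by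
  rw [Nat.and_two_pow_sub_one_eq_mod, Nat.mod_eq_of_lt h]

theorem pk_inj (w : ℕ) {D E : ℕ → ℕ} (m : ℕ) (h : ∀ p, D p < 2 ^ w) (h' : ∀ p, E p < 2 ^ w)
    (e : pk w D m = pk w E m) : ∀ p, p < m → D p = E p := by
  induction m with
  | zero => intro p hp; omega
  | succ m ih =>
    rw [pk_succ, pk_succ] at e
    have a1 := pk_lt w m fun p _ => h p
    have a2 := pk_lt w m fun p _ => h' p
    have e1 : pk w D m = pk w E m := by
      have := congrArg (fun z => z % 2 ^ (w * m)) e
      simpa [Nat.add_mul_mod_self_right, Nat.mod_eq_of_lt a1, Nat.mod_eq_of_lt a2] using this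
    have e2 : D m = E m := by
      rw [e1] at e
      have e3 := Nat.add_left_cancel e
      exact Nat.eq_of_mul_eq_mul_right (by positivity) e3
    intro p hp
    rcases Nat.lt_succ_iff_lt_or_eq.1 hp with h1 | h1
    · exact ih e1 p h1
    · rw [h1]; exact e2

/-! ## Representation predicate -/

/-- `N` is the packed number of the digits `D`, which vanish from `m` on and are at most `b`. -/
structure Rep (w m b : ℕ) (D : ℕ → ℕ) (N : ℕ) : Prop where
  eq : N = pk w D m
  supp : ∀ p, m ≤ p → D p = 0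
  bd : ∀ p, D p ≤ b

namespace Rep

variable {w m b b' : ℕ} {D E : ℕ → ℕ} {N N' : ℕ}

theorem mono (h : Rep w m b D N) (hb : b ≤ b') : Rep w m b' D N :=
  ⟨h.eq, h.supp, fun p => (h.bd p).trans hb⟩

theorem add (h : Rep w m b D N) (h' : Rep w m b' E N') :
    Rep w m (b + b') (fun p => D p + E p) (Nat.add N N') := by
  refine ⟨?_, fun p hp => ?_, fun p => ?_⟩
  · show N + N' = _
    rw [h.eq, h'.eq, pk_add]
  · simp [h.supp p hp, h'.supp p hp]
  · exact Nat.add_le_add (h.bd p) (h'.bd p)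

theorem smul (c : ℕ) (h : Rep w m b D N) :
    Rep w m (c * b) (fun p => c * D p) (Nat.mul c N) := by
  refine ⟨?_, fun p hp => ?_, fun p => ?_⟩
  · show c * N = _
    rw [h.eq, pk_smul]
  · simp [h.supp p hp]
  · exact Nat.mul_le_mul_left _ (h.bd p)

theorem shr (c : ℕ) (h : Rep w m b D N) (hb : b < 2 ^ w) :
    Rep w m b (fun p => D (c + p)) (Nat.shiftRight N (w * c)) := by
  refine ⟨?_, fun p hp => h.supp _ (by omega), fun p => h.bd _⟩
  show N >>> (w * c) = _
  rw [h.eq, pk_shr w c (fun p => (h.bd p).trans_lt hb) h.supp]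

theorem shl (c : ℕ) (h : Rep w m b D N) (hs : ∀ p, m ≤ c + p → D p = 0) :
    Rep w m b (fun p => if p < c then 0 else D (p - c)) (Nat.shiftLeft N (w * c)) := by
  refine ⟨?_, fun p hp => ?_, fun p => ?_⟩
  · show N <<< (w * c) = _
    rw [h.eq, pk_shl w c hs]
  · show (if p < c then 0 else D (p - c)) = 0
    split_ifs with h1
    · rfl
    · exact hs _ (by omega)
  · show (if p < c then 0 else D (p - c)) ≤ b
    split_ifs with h1
    · exact Nat.zero_le _
    · exact h.bd _

/-- masking -/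
theorem mask (S : ℕ → Prop) [DecidablePred S] (h : Rep w m b D N) (hb : b < 2 ^ w) {M : ℕ}
    (hM : M = pk w (fun p => if S p then 2 ^ w - 1 else 0) m) :
    Rep w m b (fun p => if S p then D p else 0) (Nat.land N M) := by
  have hpos : 0 < 2 ^ w := by positivity
  refine ⟨?_, fun p hp => ?_, fun p => ?_⟩
  · show N &&& M = _
    rw [h.eq, hM, pk_land w m (fun p => (h.bd p).trans_lt hb)
      (fun p => by show (if S p then 2 ^ w - 1 else 0) < 2 ^ w; split_ifs <;> omega)]
    apply pk_congr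
    intro p _
    by_cases hS : S p
    · simp [hS, Nat.mod_eq_of_lt ((h.bd p).trans_lt hb)]
    · simp [hS]
  · show (if S p then D p else 0) = 0
    split_ifs with h1
    · exact h.supp p hp
    · rfl
  · show (if S p then D p else 0) ≤ b
    split_ifs with h1
    · exact h.bd p
    · exact Nat.zero_le _

theorem congr (h : Rep w m b D N) (e : ∀ p, p < m → D p = E p) (e' : ∀ p, m ≤ p → E p = 0) :
    Rep w m b E N := by
  refine ⟨?_, e', fun p => ?_⟩
  · rw [h.eq]; exact pk_congr w e
  · rcases lt_or_ge p m with h1 | h1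
    · rw [← e p h1]; exact h.bd p
    · rw [e' p h1]; exact Nat.zero_le _

/-- digitwise comparison of two packed vectors by one subtraction and one mask -/
theorem le_of_check (h : Rep (w + 1) m b D N) (h' : Rep (w + 1) m b' E N') (hb : b < 2 ^ w)
    (hb' : b' < 2 ^ w) {H : ℕ} (hH : H = pk (w + 1) (fun _ => 2 ^ w) m)
    (hc : Nat.land (Nat.sub (Nat.add N H) N') H = H) : ∀ p, E p ≤ D p := by
  have hpos : 0 < 2 ^ w := by positivity
  have bD : ∀ p, D p < 2 ^ w := fun p => (h.bd p).trans_lt hb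
  have bE : ∀ p, E p < 2 ^ w := fun p => (h'.bd p).trans_lt hb'
  have e1 : Nat.sub (Nat.add N H) N' = pk (w + 1) (fun p => D p + 2 ^ w - E p) m := by
    show N + H - N' = _
    have : pk (w + 1) (fun p => D p + 2 ^ w - E p) m + N' = N + H := by
      rw [h.eq, h'.eq, hH, pk_add, pk_add]
      apply pk_congr
      intro p _
      have := bE p
      omega
    omega
  have hc' : pk (w + 1) (fun p => D p + 2 ^ w - E p) m &&& pk (w + 1) (fun _ => 2 ^ w) m
      = pk (w + 1) (fun _ => 2 ^ w) m := by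
    rw [← e1, ← hH]; exact hc
  have q1 : ∀ p, D p + 2 ^ w - E p < 2 ^ (w + 1) := fun p => by
    have := bD p; have := bE p; rw [pow_succ]; omega
  have q2 : ∀ _p : ℕ, 2 ^ w < 2 ^ (w + 1) := fun _ => by rw [pow_succ]; omega
  rw [pk_land (w + 1) m q1 q2] at hc'
  intro p
  rcases lt_or_ge p m with hp | hp
  swap
  · rw [h'.supp p hp]; exact Nat.zero_le _
  have q3 := pk_inj (w + 1) m (fun p => lt_of_le_of_lt Nat.and_le_left (q1 p)) q2 hc' p hp
  have q3' : (D p + 2 ^ w - E p) &&& 2 ^ w = 2 ^ w := q3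
  by_contra hlt
  have q4 : D p + 2 ^ w - E p < 2 ^ w := by omega
  have q5 : (D p + 2 ^ w - E p) &&& 2 ^ w = 0 := by
    apply Nat.eq_of_testBit_eq
    intro i
    rw [Nat.testBit_and, Nat.testBit_two_pow, Nat.zero_testBit]
    by_cases hi : w = i
    · rw [← hi, Nat.testBit_lt_two_pow q4]; simp
    · simp [hi]
  omega

end Rep

end Crest.Agent.R249.Ker254
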