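import Crest.Agent.R249.Ker1_254

/-!
# Kernel checker for polynomial inequalities, part 2: substitutions

A vector of digits `D p`, `p < H (n+1) σ`, is read as a family (indexed by `h < H`, `l < σ`) of
homogeneous polynomials `∑_j D ((h (n+1) + j) σ + l) a ^ j b ^ (n - j)`.
`left` substitutes `(a, b) ↦ (α a, β (a + b))`, `right` substitutes `(a, b) ↦ (α (a + b), β b)`.
-/

set_option autoImplicit false

namespace Crest.Agent.R249.Ker254

/-- force the evaluation of a natural number to a literal (kernel evaluation is call by name) -/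
def frc {α : Type} (n : ℕ) (k : ℕ → α) : α := Nat.rec (k 0) (fun m _ => k (Nat.succ m)) n

@[simp] theorem frc_eq {α : Type} (n : ℕ) (k : ℕ → α) : frc n k = k n := by
  cases n <;> rfl

def lop (s α β N M : ℕ) : ℕ → ℕ → ℕ → ℕ → ℕ
  | 0, _, _, acc => acc
  | f + 1, sh, pa, acc =>
    frc (Nat.mul pa α) fun pa' => frc (Nat.add sh s) fun sh' =>
    frc (Nat.add (Nat.mul β (Nat.add acc (Nat.shiftLeft acc s)))
       (Nat.mul pa' (Nat.shiftLeft (Nat.land (Nat.shiftRight N sh') M) sh'))) fun acc' =>
    lop s α β N M f sh' pa' acc'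

def rop (s α β N M : ℕ) : ℕ → ℕ → ℕ → ℕ → ℕ
  | 0, _, _, acc => acc
  | f + 1, sh, qa, acc =>
    frc (Nat.mul qa β) fun qa' => frc (Nat.sub sh s) fun sh' =>
    frc (Nat.add (Nat.mul α (Nat.add acc (Nat.shiftLeft acc s)))
       (Nat.mul qa' (Nat.land (Nat.shiftRight N sh') M))) fun acc' =>
    rop s α β N M f sh' qa' acc'

/-- substitution `(a, b) ↦ (α a, β (a + b))`; `s = w σ` -/
def left (s n α β N M : ℕ) : ℕ := frc (Nat.land N M) fun a0 => lop s α β N M n 0 1 a0

/-- substitution `(a, b) ↦ (α (a + b), β b)`; `s = w σ` -/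
def right (s n α β N M : ℕ) : ℕ :=
  frc (Nat.mul s n) fun sn => frc (Nat.land (Nat.shiftRight N sn) M) fun a0 =>
    rop s α β N M n sn 1 a0

/-- the digit bound after `left` resp. `right` -/
def bndL (α β b : ℕ) : ℕ → ℕ
  | 0 => b
  | k + 1 => Nat.add (Nat.mul β (Nat.add (bndL α β b k) (bndL α β b k)))
      (Nat.mul (Nat.pow α (k + 1)) b)

def J (σ n p : ℕ) : ℕ := (p / σ) % (n + 1)

def col (σ n : ℕ) (D : ℕ → ℕ) (p : ℕ) : ℕ → ℕ := fun x => D (p - J σ n p * σ + x * σ)

theorem J_eq {σ n h j l : ℕ} (hl : l < σ) (hj : j ≤ n) : J σ n ((h * (n + 1) + j) * σ + l) = j := by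
  unfold J
  have hσ : 0 < σ := by omega
  rw [show (h * (n + 1) + j) * σ + l = l + σ * (h * (n + 1) + j) by ring,
    Nat.add_mul_div_left _ _ hσ, Nat.div_eq_of_lt hl, zero_add,
    show h * (n + 1) + j = j + (n + 1) * h by ring, Nat.add_mul_mod_self_left,
    Nat.mod_eq_of_lt (by omega)]

theorem col_eq {σ n h j l : ℕ} (D : ℕ → ℕ) (hl : l < σ) (hj : j ≤ n) (x : ℕ) :
    col σ n D ((h * (n + 1) + j) * σ + l) x = D ((h * (n + 1) + x) * σ + l) := by
  unfold col
  rw [J_eq hl hj]
  congr 1
  have e1 : (h * (n + 1) + j) * σ + l = j * σ + (h * (n + 1) * σ + l) := by ring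
  rw [e1, Nat.add_sub_cancel_left]; ring

theorem decomp {σ n H p : ℕ} (hp : p < H * (n + 1) * σ) :
    ∃ h j l, h < H ∧ j ≤ n ∧ l < σ ∧ p = (h * (n + 1) + j) * σ + l := by
  have hσ : 0 < σ := by
    rcases Nat.eq_zero_or_pos σ with h0 | h0
    · simp [h0] at hp
    · exact h0
  have hn : 0 < n + 1 := Nat.succ_pos n
  refine ⟨p / σ / (n + 1), (p / σ) % (n + 1), p % σ, ?_, ?_, Nat.mod_lt _ hσ, ?_⟩
  · rw [Nat.div_lt_iff_lt_mul hn, Nat.div_lt_iff_lt_mul hσ]; exact hp
  · have := Nat.mod_lt (p / σ) hn; omega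
  · have e1 := Nat.div_add_mod p σ
    have e2 := Nat.div_add_mod (p / σ) (n + 1)
    calc p = σ * (p / σ) + p % σ := e1.symm
      _ = (p / σ) * σ + p % σ := by ring
      _ = ((p / σ / (n + 1)) * (n + 1) + p / σ % (n + 1)) * σ + p % σ := by
          congr 2
          rw [mul_comm (p / σ / (n + 1))]; exact e2.symm

theorem idx_lt {σ n H h j l : ℕ} (hh : h < H) (hj : j ≤ n) (hl : l < σ) :
    (h * (n + 1) + j) * σ + l < H * (n + 1) * σ := by
  have h1 : h * (n + 1) + j + 1 ≤ H * (n + 1) := by
    calc h * (n + 1) + j + 1 ≤ h * (n + 1) + (n + 1) := by omega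
      _ = (h + 1) * (n + 1) := by ring
      _ ≤ H * (n + 1) := Nat.mul_le_mul_right _ hh
  calc (h * (n + 1) + j) * σ + l < (h * (n + 1) + j) * σ + σ := by omega
    _ = (h * (n + 1) + j + 1) * σ := by ring
    _ ≤ _ := Nat.mul_le_mul_right _ h1

/-- digits of the accumulator of `left` -/
def shL (α β : ℕ) (c : ℕ → ℕ) : ℕ → ℕ → ℕ
  | 0, j => if j = 0 then c 0 else 0
  | k + 1, j => β * (shL α β c k j + (if j = 0 then 0 else shL α β c k (j - 1)))
      + α ^ (k + 1) * (if j = k + 1 then c (k + 1) else 0)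

/-- digits of the accumulator of `right` -/
def shR (α β n : ℕ) (c : ℕ → ℕ) : ℕ → ℕ → ℕ
  | 0, j => if j = 0 then c n else 0
  | k + 1, j => α * (shR α β n c k j + (if j = 0 then 0 else shR α β n c k (j - 1)))
      + β ^ (k + 1) * (if j = 0 then c (n - (k + 1)) else 0)

theorem shL_supp (α β : ℕ) (c : ℕ → ℕ) (k j : ℕ) (h : k < j) : shL α β c k j = 0 := by
  induction k generalizing j with
  | zero => simp [shL]; omega
  | succ k ih =>
    simp only [shL]
    rw [ih j (by omega), if_neg (show ¬ j = 0 by omega), ih (j - 1) (by omega),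
      if_neg (show ¬ j = k + 1 by omega)]
    simp

theorem shR_supp (α β n : ℕ) (c : ℕ → ℕ) (k j : ℕ) (h : k < j) : shR α β n c k j = 0 := by
  induction k generalizing j with
  | zero => simp [shR]; omega
  | succ k ih =>
    simp only [shR]
    rw [ih j (by omega), if_neg (show ¬ j = 0 by omega), ih (j - 1) (by omega),
      if_neg (show ¬ j = 0 by omega)]
    simp

/-- the mask of the variable with stride `σ` and degree `n` -/
def maskD (w σ n : ℕ) : ℕ → ℕ := fun p => if J σ n p = 0 then 2 ^ w - 1 else 0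

section
variable {w σ n H b α β : ℕ} {D : ℕ → ℕ} {N M : ℕ}

/-- digit vector of the accumulator after `k` steps of `left` -/
def accL (σ n H α β : ℕ) (D : ℕ → ℕ) (k : ℕ) : ℕ → ℕ :=
  fun p => if p < H * (n + 1) * σ then shL α β (col σ n D p) k (J σ n p) else 0

def accR (σ n H α β : ℕ) (D : ℕ → ℕ) (k : ℕ) : ℕ → ℕ :=
  fun p => if p < H * (n + 1) * σ then shR α β n (col σ n D p) k (J σ n p) else 0

/-- extraction of the `c`-th coefficients -/
theorem ext_rep (hD : Rep w (H * (n + 1) * σ) b D N) (hb : b < 2 ^ w)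
    (hM : M = pk w (maskD w σ n) (H * (n + 1) * σ)) {c : ℕ} :
    Rep w (H * (n + 1) * σ) b (fun p => if J σ n p = 0 then D (σ * c + p) else 0)
      (Nat.land (Nat.shiftRight N (w * (σ * c))) M) := by
  have h1 := hD.shr (σ * c) hb
  exact h1.mask (fun p => J σ n p = 0) hb hM

theorem shift_rep {A : ℕ → ℕ → ℕ → ℕ} {k bA acc : ℕ} (hk : k < n)
    (hA : Rep w (H * (n + 1) * σ) bA
      (fun p => if p < H * (n + 1) * σ then A p k (J σ n p) else 0) acc)
    (hcol : ∀ h j l x, l < σ → j ≤ n → x ≤ n →
      A ((h * (n + 1) + j) * σ + l) k = A ((h * (n + 1) + x) * σ + l) k)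
    (hsupp : ∀ p j, k < j → A p k j = 0) :
    Rep w (H * (n + 1) * σ) bA
      (fun p => if p < H * (n + 1) * σ then
        (if J σ n p = 0 then 0 else A p k (J σ n p - 1)) else 0)
      (Nat.shiftLeft acc (w * σ)) := by
  have h1 := hA.shl σ (fun p hp => by
    show (if p < H * (n + 1) * σ then A p k (J σ n p) else 0) = 0
    split_ifs with hlt
    · obtain ⟨h, j, l, hh, hj, hl, rfl⟩ := decomp hlt
      rw [J_eq hl hj]
      apply hsupp
      by_contra hcon
      have hj' : j + 1 ≤ n := by omega
      have := idx_lt (σ := σ) hh hj' hl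
      have e : (h * (n + 1) + (j + 1)) * σ + l = σ + ((h * (n + 1) + j) * σ + l) := by ring
      omega
    · rfl)
  refine h1.congr (fun p hp => ?_) (fun p hp => by
    show (if p < H * (n + 1) * σ then _ else 0) = 0
    rw [if_neg (by omega)])
  obtain ⟨h, j, l, hh, hj, hl, rfl⟩ := decomp hp
  show (if (h * (n + 1) + j) * σ + l < σ then 0 else _) = (if _ then _ else _)
  rw [if_pos hp, J_eq hl hj]
  rcases Nat.eq_zero_or_pos j with h0 | h0
  · subst h0
    rw [if_pos rfl]
    split_ifs with c1 c2
    · rfl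
    · -- previous block
      have hpos : 0 < h := by
        rcases Nat.eq_zero_or_pos h with z | z
        · subst z; simp at c1; omega
        · exact z
      obtain ⟨h', rfl⟩ : ∃ h', h = h' + 1 := ⟨h - 1, by omega⟩
      have e : ((h' + 1) * (n + 1) + 0) * σ + l - σ = (h' * (n + 1) + n) * σ + l := by
        have : ((h' + 1) * (n + 1) + 0) * σ + l = σ + ((h' * (n + 1) + n) * σ + l) := by ring
        rw [this, Nat.add_sub_cancel_left]
      rw [e, J_eq hl le_rfl]
      exact hsupp _ _ hk
    · rfl
  · rw [if_neg (show ¬ j = 0 by omega)]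
    obtain ⟨j', rfl⟩ : ∃ j', j = j' + 1 := ⟨j - 1, by omega⟩
    have e0 : (h * (n + 1) + (j' + 1)) * σ + l = σ + ((h * (n + 1) + j') * σ + l) := by ring
    rw [if_neg (show ¬ (h * (n + 1) + (j' + 1)) * σ + l < σ by rw [e0]; omega)]
    have e : (h * (n + 1) + (j' + 1)) * σ + l - σ = (h * (n + 1) + j') * σ + l := by
      rw [e0, Nat.add_sub_cancel_left]
    have hlt' := idx_lt (σ := σ) hh (show j' ≤ n by omega) hl
    rw [e, if_pos hlt', J_eq hl (by omega)]
    rw [hcol h j' l (j' + 1) hl (by omega) hj, Nat.add_sub_cancel]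

theorem lop_rep (hD : Rep w (H * (n + 1) * σ) b D N) (hb : b < 2 ^ w)
    (hM : M = pk w (maskD w σ n) (H * (n + 1) * σ)) :
    ∀ (f k : ℕ) (acc : ℕ), k + f = n →
      Rep w (H * (n + 1) * σ) (bndL α β b k) (accL σ n H α β D k) acc →
      Rep w (H * (n + 1) * σ) (bndL α β b n) (accL σ n H α β D n)
        (lop (w * σ) α β N M f (w * (σ * k)) (α ^ k) acc) := by
  intro f
  induction f with
  | zero =>
    intro k acc hk hacc
    have : k = n := by omega
    subst this
    exact hacc
  | succ f ih =>
    intro k acc hk hacc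
    have hkn : k < n := by omega
    have e1 : w * (σ * k) + w * σ = w * (σ * (k + 1)) := by ring
    have e2 : α ^ k * α = α ^ (k + 1) := (pow_succ α k).symm
    simp only [lop, frc_eq]
    show Rep w (H * (n + 1) * σ) (bndL α β b n) (accL σ n H α β D n)
      (lop (w * σ) α β N M f (w * (σ * k) + w * σ) (α ^ k * α)
        (Nat.add (Nat.mul β (Nat.add acc (Nat.shiftLeft acc (w * σ))))
          (Nat.mul (α ^ k * α) (Nat.shiftLeft (Nat.land (Nat.shiftRight N (w * (σ * k) + w * σ)) M)
            (w * (σ * k) + w * σ)))))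
    rw [e1, e2]
    apply ih (k + 1) _ (by omega)
    have hs := shift_rep (w := w) (σ := σ) (n := n) (H := H)
      (A := fun p k' j => shL α β (col σ n D p) k' j) (k := k) hkn hacc
      (fun h j l x hl hj hx => by
        have : col σ n D ((h * (n + 1) + j) * σ + l) = col σ n D ((h * (n + 1) + x) * σ + l) := by
          funext y; rw [col_eq D hl hj, col_eq D hl hx]
        funext y
        show shL α β (col σ n D ((h * (n + 1) + j) * σ + l)) k y
          = shL α β (col σ n D ((h * (n + 1) + x) * σ + l)) k y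
        rw [this])
      (fun p j hj => shL_supp α β _ k j hj)
    have hx := (ext_rep hD hb hM (c := k + 1)).shl (σ * (k + 1)) (fun p hp => by
      show (if J σ n p = 0 then D (σ * (k + 1) + p) else 0) = 0
      rw [hD.supp _ hp]; simp)
    have hsum := ((hacc.add hs).smul β).add (hx.smul (α ^ (k + 1)))
    refine hsum.congr (fun p hp => ?_) (fun p hp => by
      unfold accL; rw [if_neg (by omega)])
    obtain ⟨h, j, l, hh, hj, hl, rfl⟩ := decomp hp
    unfold accL
    simp only [if_pos hp, J_eq hl hj, shL]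
    congr 1
    congr 1
    -- the extracted digit
    rcases lt_or_ge j (k + 1) with c1 | c1
    · rw [if_neg (show ¬ j = k + 1 by omega)]
      split_ifs with c2 c3
      · rfl
      · exfalso
        -- p ≥ σ (k+1), p - σ (k+1) has index n + 1 + j - (k+1) ≠ 0
        have hpos : 0 < h := by
          rcases Nat.eq_zero_or_pos h with z | z
          · exfalso
            subst z
            apply c2
            have : (0 * (n + 1) + j) * σ + l < (j + 1) * σ := by
              have : (0 * (n + 1) + j) * σ + l = j * σ + l := by ring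
              rw [this]; have : (j + 1) * σ = j * σ + σ := by ring
              omega
            calc _ < (j + 1) * σ := this
              _ ≤ (k + 1) * σ := Nat.mul_le_mul_right _ (by omega)
              _ = σ * (k + 1) := by ring
          · exact z
        obtain ⟨h', rfl⟩ : ∃ h', h = h' + 1 := ⟨h - 1, by omega⟩
        obtain ⟨d, hd⟩ : ∃ d, d + (k + 1) = n + 1 + j := ⟨n + 1 + j - (k + 1), by omega⟩
        have e : ((h' + 1) * (n + 1) + j) * σ + l - σ * (k + 1) = (h' * (n + 1) + d) * σ + l := by
          have : ((h' + 1) * (n + 1) + j) * σ + l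
              = σ * (k + 1) + ((h' * (n + 1) + d) * σ + l) := by
            have : (h' + 1) * (n + 1) + j = h' * (n + 1) + d + (k + 1) := by
              have : (h' + 1) * (n + 1) + j = h' * (n + 1) + (n + 1 + j) := by ring
              omega
            rw [this]; ring
          rw [this, Nat.add_sub_cancel_left]
        rw [e, J_eq hl (by omega)] at c3
        omega
      · rfl
    · obtain ⟨d, rfl⟩ : ∃ d, j = d + (k + 1) := ⟨j - (k + 1), by omega⟩
      have e0 : (h * (n + 1) + (d + (k + 1))) * σ + l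
          = σ * (k + 1) + ((h * (n + 1) + d) * σ + l) := by ring
      rw [if_neg (by rw [e0]; omega)]
      have e : (h * (n + 1) + (d + (k + 1))) * σ + l - σ * (k + 1) = (h * (n + 1) + d) * σ + l := by
        rw [e0, Nat.add_sub_cancel_left]
      rw [e, J_eq hl (by omega)]
      rcases Nat.eq_zero_or_pos d with z | z
      · subst z
        rw [if_pos rfl, if_pos (by omega), col_eq D hl hj]
        congr 1; ring
      · rw [if_neg (by omega), if_neg (by omega)]

theorem left_rep (hD : Rep w (H * (n + 1) * σ) b D N) (hb : b < 2 ^ w)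
    (hM : M = pk w (maskD w σ n) (H * (n + 1) * σ)) :
    Rep w (H * (n + 1) * σ) (bndL α β b n) (accL σ n H α β D n)
      (left (w * σ) n α β N M) := by
  simp only [left, frc_eq]
  have h0 := lop_rep (α := α) (β := β) hD hb hM n 0 (Nat.land N M) (by omega) (by
    have h1 := ext_rep hD hb hM (c := 0)
    have h2 : Nat.land (Nat.shiftRight N (w * (σ * 0))) M = Nat.land N M := by
      simp
    rw [h2] at h1
    refine h1.congr (fun p hp => ?_) (fun p hp => by unfold accL; rw [if_neg (by omega)])
    obtain ⟨h, j, l, hh, hj, hl, rfl⟩ := decomp hp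
    unfold accL
    rw [if_pos hp, J_eq hl hj]
    simp only [shL]
    split_ifs with c
    · subst c
      rw [col_eq D hl hj]; simp
    · rfl)
  have e : (w * (σ * 0)) = 0 := by simp
  rw [e, pow_zero] at h0
  exact h0

theorem rop_rep (hD : Rep w (H * (n + 1) * σ) b D N) (hb : b < 2 ^ w)
    (hM : M = pk w (maskD w σ n) (H * (n + 1) * σ)) :
    ∀ (f k : ℕ) (acc : ℕ), k + f = n →
      Rep w (H * (n + 1) * σ) (bndL β α b k) (accR σ n H α β D k) acc →
      Rep w (H * (n + 1) * σ) (bndL β α b n) (accR σ n H α β D n)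
        (rop (w * σ) α β N M f (w * (σ * f)) (β ^ k) acc) := by
  intro f
  induction f with
  | zero =>
    intro k acc hk hacc
    have : k = n := by omega
    subst this
    exact hacc
  | succ f ih =>
    intro k acc hk hacc
    have hkn : k < n := by omega
    have e1 : w * (σ * (f + 1)) - w * σ = w * (σ * f) := by
      have : w * (σ * (f + 1)) = w * (σ * f) + w * σ := by ring
      omega
    have e2 : β ^ k * β = β ^ (k + 1) := (pow_succ β k).symm
    simp only [rop, frc_eq]
    show Rep w (H * (n + 1) * σ) (bndL β α b n) (accR σ n H α β D n)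
      (rop (w * σ) α β N M f (w * (σ * (f + 1)) - w * σ) (β ^ k * β)
        (Nat.add (Nat.mul α (Nat.add acc (Nat.shiftLeft acc (w * σ))))
          (Nat.mul (β ^ k * β) (Nat.land (Nat.shiftRight N (w * (σ * (f + 1)) - w * σ)) M))))
    rw [e1, e2]
    apply ih (k + 1) _ (by omega)
    have hs := shift_rep (w := w) (σ := σ) (n := n) (H := H)
      (A := fun p k' j => shR α β n (col σ n D p) k' j) (k := k) hkn hacc
      (fun h j l x hl hj hx => by
        have : col σ n D ((h * (n + 1) + j) * σ + l) = col σ n D ((h * (n + 1) + x) * σ + l) := by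
          funext y; rw [col_eq D hl hj, col_eq D hl hx]
        funext y
        show shR α β n (col σ n D ((h * (n + 1) + j) * σ + l)) k y
          = shR α β n (col σ n D ((h * (n + 1) + x) * σ + l)) k y
        rw [this])
      (fun p j hj => shR_supp α β n _ k j hj)
    have hx := ext_rep hD hb hM (c := f)
    have hsum := ((hacc.add hs).smul α).add (hx.smul (β ^ (k + 1)))
    refine hsum.congr (fun p hp => ?_) (fun p hp => by
      unfold accR; rw [if_neg (by omega)])
    obtain ⟨h, j, l, hh, hj, hl, rfl⟩ := decomp hp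
    unfold accR
    simp only [if_pos hp, J_eq hl hj, shR]
    congr 1
    congr 1
    split_ifs with c
    · subst c
      rw [col_eq D hl hj]
      congr 1
      have : n - (k + 1) = f := by omega
      rw [this]; ring
    · rfl

theorem right_rep (hD : Rep w (H * (n + 1) * σ) b D N) (hb : b < 2 ^ w)
    (hM : M = pk w (maskD w σ n) (H * (n + 1) * σ)) :
    Rep w (H * (n + 1) * σ) (bndL β α b n) (accR σ n H α β D n)
      (right (w * σ) n α β N M) := by
  simp only [right, frc_eq]
  show Rep w (H * (n + 1) * σ) (bndL β α b n) (accR σ n H α β D n)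
    (rop (w * σ) α β N M n (w * σ * n) 1 (Nat.land (Nat.shiftRight N (w * σ * n)) M))
  have e : w * σ * n = w * (σ * n) := by ring
  rw [e]
  have h0 := rop_rep (α := α) (β := β) hD hb hM n 0 (Nat.land (Nat.shiftRight N (w * (σ * n))) M)
    (by omega) (by
    have h1 := ext_rep hD hb hM (c := n)
    refine h1.congr (fun p hp => ?_) (fun p hp => by unfold accR; rw [if_neg (by omega)])
    obtain ⟨h, j, l, hh, hj, hl, rfl⟩ := decomp hp
    unfold accR
    rw [if_pos hp, J_eq hl hj]
    simp only [shR]
    split_ifs with c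
    · subst c
      rw [col_eq D hl hj]
      congr 1; ring
    · rfl)
  rw [pow_zero] at h0
  exact h0

end

end Crest.Agent.R249.Ker254
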