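import Crest.Agent.R249.Ker2_254
import Mathlib.Data.Real.Basic

/-!
# Kernel checker for polynomial inequalities, part 3: masks, evaluation
-/

set_option autoImplicit false

namespace Crest.Agent.R249.Ker254

/-! ## masks -/

/-- the mask of a variable, `s = w σ` -/
def mkMask (s n : ℕ) : ℕ → ℕ
  | 0 => 0
  | H + 1 => Nat.add (Nat.shiftLeft (mkMask s n H) (Nat.mul s (Nat.succ n)))
      (Nat.sub (Nat.pow 2 s) 1)

theorem pk_full (w σ : ℕ) : pk w (fun _ => 2 ^ w - 1) σ = 2 ^ (w * σ) - 1 := by
  induction σ with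
  | zero => simp [pk_zero]
  | succ σ ih =>
    rw [pk_succ, ih]
    have h1 : 0 < 2 ^ w := by positivity
    have h2 : 0 < 2 ^ (w * σ) := by positivity
    have h3 : 2 ^ (w * (σ + 1)) = 2 ^ w * 2 ^ (w * σ) := by rw [← pow_add]; congr 1; ring
    rw [h3, Nat.sub_mul, one_mul]
    have h4 : 2 ^ (w * σ) ≤ 2 ^ w * 2 ^ (w * σ) := Nat.le_mul_of_pos_left _ h1
    omega

theorem J_period {σ n : ℕ} (hσ : 0 < σ) (p : ℕ) : J σ n ((n + 1) * σ + p) = J σ n p := by
  unfold J
  rw [show (n + 1) * σ + p = p + σ * (n + 1) by ring, Nat.add_mul_div_left _ _ hσ,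
    Nat.add_mod_right]

theorem mkMask_eq {w σ n : ℕ} (hσ : 0 < σ) (H : ℕ) :
    mkMask (w * σ) n H = pk w (maskD w σ n) (H * (n + 1) * σ) := by
  induction H with
  | zero => simp [mkMask, pk_zero]
  | succ H ih =>
    have e1 : (H + 1) * (n + 1) * σ = (n + 1) * σ + H * (n + 1) * σ := by ring
    rw [e1, pk_append]
    have e2 : pk w (fun p => maskD w σ n ((n + 1) * σ + p)) (H * (n + 1) * σ)
        = pk w (maskD w σ n) (H * (n + 1) * σ) := by
      apply pk_congr
      intro p _
      unfold maskD
      rw [J_period hσ]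
    have e3 : pk w (maskD w σ n) ((n + 1) * σ) = 2 ^ (w * σ) - 1 := by
      rw [show (n + 1) * σ = σ + n * σ by ring, pk_append]
      have e4 : pk w (maskD w σ n) σ = pk w (fun _ => 2 ^ w - 1) σ := by
        apply pk_congr
        intro p hp
        unfold maskD J
        rw [Nat.div_eq_of_lt hp, Nat.zero_mod, if_pos rfl]
      have e5 : pk w (fun p => maskD w σ n (σ + p)) (n * σ) = 0 := by
        unfold pk
        refine Finset.sum_eq_zero fun p hp => ?_
        have hp' : p / σ < n := by
          rw [Nat.div_lt_iff_lt_mul hσ]; exact Finset.mem_range.1 hp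
        have : J σ n (σ + p) = p / σ + 1 := by
          unfold J
          rw [show σ + p = p + σ * 1 by ring, Nat.add_mul_div_left _ _ hσ,
            Nat.mod_eq_of_lt (by omega)]
        show maskD w σ n (σ + p) * _ = 0
        unfold maskD
        rw [this, if_neg (Nat.succ_ne_zero _), zero_mul]
      rw [e4, e5, pk_full]; simp
    rw [e2, e3, ← ih]
    show (mkMask (w * σ) n H) <<< (w * σ * (n + 1)) + (2 ^ (w * σ) - 1) = _
    rw [Nat.shiftLeft_eq]
    have e6 : w * σ * (n + 1) = w * ((n + 1) * σ) := by ring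
    rw [e6]; ring

/-! ## sums over digits -/

theorem sum_range_mul (F : ℕ → ℝ) (A B : ℕ) :
    ∑ p ∈ Finset.range (A * B), F p
      = ∑ x ∈ Finset.range A, ∑ y ∈ Finset.range B, F (x * B + y) := by
  induction A with
  | zero => simp
  | succ A ih =>
    rw [Finset.sum_range_succ, ← ih, Nat.succ_mul, Finset.sum_range_add]

theorem sum_decomp (F : ℕ → ℝ) (H n σ : ℕ) :
    ∑ p ∈ Finset.range (H * (n + 1) * σ), F p
      = ∑ h ∈ Finset.range H, ∑ l ∈ Finset.range σ, ∑ j ∈ Finset.range (n + 1),
          F ((h * (n + 1) + j) * σ + l) := by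
  rw [sum_range_mul, sum_range_mul]
  refine Finset.sum_congr rfl fun h _ => ?_
  rw [Finset.sum_comm]

/-! ## one dimensional evaluation -/

theorem shL_eval (α β : ℕ) (c : ℕ → ℕ) (a b : ℝ) (k : ℕ) :
    ∑ j ∈ Finset.range (k + 1), (shL α β c k j : ℝ) * (a ^ j * b ^ (k - j))
      = ∑ j ∈ Finset.range (k + 1), (c j : ℝ) * ((α * a) ^ j * (β * (a + b)) ^ (k - j)) := by
  induction k with
  | zero => simp [shL]
  | succ k ih =>
    have L : ∑ j ∈ Finset.range (k + 1 + 1), (shL α β c (k + 1) j : ℝ) * (a ^ j * b ^ (k + 1 - j))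
        = β * (a + b) * (∑ j ∈ Finset.range (k + 1), (shL α β c k j : ℝ) * (a ^ j * b ^ (k - j)))
          + (α * a) ^ (k + 1) * c (k + 1) := by
      have s1 : ∑ j ∈ Finset.range (k + 1 + 1), (shL α β c k j : ℝ) * (a ^ j * b ^ (k + 1 - j))
          = b * ∑ j ∈ Finset.range (k + 1), (shL α β c k j : ℝ) * (a ^ j * b ^ (k - j)) := by
        rw [Finset.sum_range_succ, shL_supp α β c k (k + 1) (Nat.lt_succ_self k)]
        rw [Finset.mul_sum]
        simp only [Nat.cast_zero, zero_mul, add_zero]
        refine Finset.sum_congr rfl fun j hj => ?_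
        have : k + 1 - j = (k - j) + 1 := by have := Finset.mem_range.1 hj; omega
        rw [this, pow_succ]; ring
      have s2 : ∑ j ∈ Finset.range (k + 1 + 1),
            ((if j = 0 then 0 else shL α β c k (j - 1) : ℕ) : ℝ) * (a ^ j * b ^ (k + 1 - j))
          = a * ∑ j ∈ Finset.range (k + 1), (shL α β c k j : ℝ) * (a ^ j * b ^ (k - j)) := by
        rw [Finset.sum_range_succ', Finset.mul_sum]
        simp only [if_true, Nat.cast_zero, zero_mul, add_zero]
        refine Finset.sum_congr rfl fun j hj => ?_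
        rw [if_neg (Nat.succ_ne_zero j), Nat.add_sub_cancel, Nat.add_sub_add_right, pow_succ]
        ring
      have s3 : ∑ j ∈ Finset.range (k + 1 + 1),
            ((if j = k + 1 then c (k + 1) else 0 : ℕ) : ℝ) * (a ^ j * b ^ (k + 1 - j))
          = a ^ (k + 1) * c (k + 1) := by
        rw [Finset.sum_eq_single (k + 1)]
        · simp; ring
        · intro j _ hj; simp [hj]
        · intro hj; simp at hj
      calc ∑ j ∈ Finset.range (k + 1 + 1), (shL α β c (k + 1) j : ℝ) * (a ^ j * b ^ (k + 1 - j))
          = ∑ j ∈ Finset.range (k + 1 + 1),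
              (β * ((shL α β c k j : ℝ) * (a ^ j * b ^ (k + 1 - j)))
              + β * (((if j = 0 then 0 else shL α β c k (j - 1) : ℕ) : ℝ)
                  * (a ^ j * b ^ (k + 1 - j)))
              + (α : ℝ) ^ (k + 1) * (((if j = k + 1 then c (k + 1) else 0 : ℕ) : ℝ)
                  * (a ^ j * b ^ (k + 1 - j)))) := by
            refine Finset.sum_congr rfl fun j _ => ?_
            simp only [shL]
            push_cast
            ring
        _ = _ := by
            rw [Finset.sum_add_distrib, Finset.sum_add_distrib, ← Finset.mul_sum,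
              ← Finset.mul_sum, ← Finset.mul_sum, s1, s2, s3]
            ring
    rw [L, ih, Finset.sum_range_succ _ (k + 1), Finset.mul_sum]
    congr 1
    · refine Finset.sum_congr rfl fun j hj => ?_
      have : k + 1 - j = (k - j) + 1 := by have := Finset.mem_range.1 hj; omega
      rw [this, pow_succ]; ring
    · simp; ring

theorem shR_eval (α β n : ℕ) (c : ℕ → ℕ) (a b : ℝ) (k : ℕ) :
    ∑ j ∈ Finset.range (k + 1), (shR α β n c k j : ℝ) * (a ^ j * b ^ (k - j))
      = ∑ i ∈ Finset.range (k + 1), (c (n - i) : ℝ) * ((β * b) ^ i * (α * (a + b)) ^ (k - i)) := by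
  induction k with
  | zero => simp [shR]
  | succ k ih =>
    have L : ∑ j ∈ Finset.range (k + 1 + 1),
          (shR α β n c (k + 1) j : ℝ) * (a ^ j * b ^ (k + 1 - j))
        = α * (a + b) * (∑ j ∈ Finset.range (k + 1), (shR α β n c k j : ℝ) * (a ^ j * b ^ (k - j)))
          + (β * b) ^ (k + 1) * c (n - (k + 1)) := by
      have s1 : ∑ j ∈ Finset.range (k + 1 + 1), (shR α β n c k j : ℝ) * (a ^ j * b ^ (k + 1 - j))
          = b * ∑ j ∈ Finset.range (k + 1), (shR α β n c k j : ℝ) * (a ^ j * b ^ (k - j)) := by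
        rw [Finset.sum_range_succ, shR_supp α β n c k (k + 1) (Nat.lt_succ_self k)]
        rw [Finset.mul_sum]
        simp only [Nat.cast_zero, zero_mul, add_zero]
        refine Finset.sum_congr rfl fun j hj => ?_
        have : k + 1 - j = (k - j) + 1 := by have := Finset.mem_range.1 hj; omega
        rw [this, pow_succ]; ring
      have s2 : ∑ j ∈ Finset.range (k + 1 + 1),
            ((if j = 0 then 0 else shR α β n c k (j - 1) : ℕ) : ℝ) * (a ^ j * b ^ (k + 1 - j))
          = a * ∑ j ∈ Finset.range (k + 1), (shR α β n c k j : ℝ) * (a ^ j * b ^ (k - j)) := by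
        rw [Finset.sum_range_succ', Finset.mul_sum]
        simp only [if_true, Nat.cast_zero, zero_mul, add_zero]
        refine Finset.sum_congr rfl fun j hj => ?_
        rw [if_neg (Nat.succ_ne_zero j), Nat.add_sub_cancel, Nat.add_sub_add_right, pow_succ]
        ring
      have s3 : ∑ j ∈ Finset.range (k + 1 + 1),
            ((if j = 0 then c (n - (k + 1)) else 0 : ℕ) : ℝ) * (a ^ j * b ^ (k + 1 - j))
          = b ^ (k + 1) * c (n - (k + 1)) := by
        rw [Finset.sum_eq_single 0]
        · simp; ring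
        · intro j _ hj; simp [hj]
        · intro hj; simp at hj
      calc ∑ j ∈ Finset.range (k + 1 + 1),
            (shR α β n c (k + 1) j : ℝ) * (a ^ j * b ^ (k + 1 - j))
          = ∑ j ∈ Finset.range (k + 1 + 1),
              (α * ((shR α β n c k j : ℝ) * (a ^ j * b ^ (k + 1 - j)))
              + α * (((if j = 0 then 0 else shR α β n c k (j - 1) : ℕ) : ℝ)
                  * (a ^ j * b ^ (k + 1 - j)))
              + (β : ℝ) ^ (k + 1) * (((if j = 0 then c (n - (k + 1)) else 0 : ℕ) : ℝ)
                  * (a ^ j * b ^ (k + 1 - j)))) := by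
            refine Finset.sum_congr rfl fun j _ => ?_
            simp only [shR]
            push_cast
            ring
        _ = _ := by
            rw [Finset.sum_add_distrib, Finset.sum_add_distrib, ← Finset.mul_sum,
              ← Finset.mul_sum, ← Finset.mul_sum, s1, s2, s3]
            ring
    rw [L, ih, Finset.sum_range_succ _ (k + 1), Finset.mul_sum]
    congr 1
    · refine Finset.sum_congr rfl fun j hj => ?_
      have : k + 1 - j = (k - j) + 1 := by have := Finset.mem_range.1 hj; omega
      rw [this, pow_succ]; ring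
    · simp; ring

theorem shR_eval' (α β n : ℕ) (c : ℕ → ℕ) (a b : ℝ) :
    ∑ j ∈ Finset.range (n + 1), (shR α β n c n j : ℝ) * (a ^ j * b ^ (n - j))
      = ∑ j ∈ Finset.range (n + 1), (c j : ℝ) * ((α * (a + b)) ^ j * (β * b) ^ (n - j)) := by
  rw [shR_eval, ← Finset.sum_range_reflect]
  refine Finset.sum_congr rfl fun j hj => ?_
  have hj' := Finset.mem_range.1 hj
  have e1 : n - (n + 1 - 1 - j) = j := by omega
  have e2 : n + 1 - 1 - j = n - j := by omega
  rw [e1, e2]; ring

/-- evaluation of the result of `left` -/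
theorem accL_eval {σ n H α β : ℕ} (D : ℕ → ℕ) (a b : ℝ) (X X' : ℕ → ℝ) (y : ℕ → ℕ → ℝ)
    (hX : ∀ h j l, h < H → j ≤ n → l < σ →
      X ((h * (n + 1) + j) * σ + l) = y h l * (a ^ j * b ^ (n - j)))
    (hX' : ∀ h j l, h < H → j ≤ n → l < σ →
      X' ((h * (n + 1) + j) * σ + l) = y h l * ((α * a) ^ j * (β * (a + b)) ^ (n - j))) :
    ∑ p ∈ Finset.range (H * (n + 1) * σ), (accL σ n H α β D n p : ℝ) * X p
      = ∑ p ∈ Finset.range (H * (n + 1) * σ), (D p : ℝ) * X' p := by
  rw [sum_decomp, sum_decomp]
  refine Finset.sum_congr rfl fun h hh => Finset.sum_congr rfl fun l hl => ?_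
  have hh' := Finset.mem_range.1 hh
  have hl' := Finset.mem_range.1 hl
  have key := shL_eval α β (fun x => D ((h * (n + 1) + x) * σ + l)) a b n
  calc ∑ j ∈ Finset.range (n + 1), (accL σ n H α β D n ((h * (n + 1) + j) * σ + l) : ℝ)
          * X ((h * (n + 1) + j) * σ + l)
      = y h l * ∑ j ∈ Finset.range (n + 1),
          (shL α β (fun x => D ((h * (n + 1) + x) * σ + l)) n j : ℝ) * (a ^ j * b ^ (n - j)) := by
        rw [Finset.mul_sum]
        refine Finset.sum_congr rfl fun j hj => ?_
        have hj' : j ≤ n := by have := Finset.mem_range.1 hj; omega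
        rw [hX h j l hh' hj' hl']
        unfold accL
        rw [if_pos (idx_lt hh' hj' hl'), J_eq hl' hj']
        have : col σ n D ((h * (n + 1) + j) * σ + l)
            = fun x => D ((h * (n + 1) + x) * σ + l) := by
          funext x; exact col_eq D hl' hj' x
        rw [this]; ring
    _ = y h l * ∑ j ∈ Finset.range (n + 1),
          (D ((h * (n + 1) + j) * σ + l) : ℝ) * ((α * a) ^ j * (β * (a + b)) ^ (n - j)) := by
        rw [key]
    _ = _ := by
        rw [Finset.mul_sum]
        refine Finset.sum_congr rfl fun j hj => ?_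
        have hj' : j ≤ n := by have := Finset.mem_range.1 hj; omega
        rw [hX' h j l hh' hj' hl']; ring

/-- evaluation of the result of `right` -/
theorem accR_eval {σ n H α β : ℕ} (D : ℕ → ℕ) (a b : ℝ) (X X' : ℕ → ℝ) (y : ℕ → ℕ → ℝ)
    (hX : ∀ h j l, h < H → j ≤ n → l < σ →
      X ((h * (n + 1) + j) * σ + l) = y h l * (a ^ j * b ^ (n - j)))
    (hX' : ∀ h j l, h < H → j ≤ n → l < σ →
      X' ((h * (n + 1) + j) * σ + l) = y h l * ((α * (a + b)) ^ j * (β * b) ^ (n - j))) :
    ∑ p ∈ Finset.range (H * (n + 1) * σ), (accR σ n H α β D n p : ℝ) * X p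
      = ∑ p ∈ Finset.range (H * (n + 1) * σ), (D p : ℝ) * X' p := by
  rw [sum_decomp, sum_decomp]
  refine Finset.sum_congr rfl fun h hh => Finset.sum_congr rfl fun l hl => ?_
  have hh' := Finset.mem_range.1 hh
  have hl' := Finset.mem_range.1 hl
  have key := shR_eval' α β n (fun x => D ((h * (n + 1) + x) * σ + l)) a b
  calc ∑ j ∈ Finset.range (n + 1), (accR σ n H α β D n ((h * (n + 1) + j) * σ + l) : ℝ)
          * X ((h * (n + 1) + j) * σ + l)
      = y h l * ∑ j ∈ Finset.range (n + 1),
          (shR α β n (fun x => D ((h * (n + 1) + x) * σ + l)) n j : ℝ)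
            * (a ^ j * b ^ (n - j)) := by
        rw [Finset.mul_sum]
        refine Finset.sum_congr rfl fun j hj => ?_
        have hj' : j ≤ n := by have := Finset.mem_range.1 hj; omega
        rw [hX h j l hh' hj' hl']
        unfold accR
        rw [if_pos (idx_lt hh' hj' hl'), J_eq hl' hj']
        have : col σ n D ((h * (n + 1) + j) * σ + l)
            = fun x => D ((h * (n + 1) + x) * σ + l) := by
          funext x; exact col_eq D hl' hj' x
        rw [this]; ring
    _ = y h l * ∑ j ∈ Finset.range (n + 1),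
          (D ((h * (n + 1) + j) * σ + l) : ℝ) * ((α * (a + b)) ^ j * (β * b) ^ (n - j)) := by
        rw [key]
    _ = _ := by
        rw [Finset.mul_sum]
        refine Finset.sum_congr rfl fun j hj => ?_
        have hj' : j ≤ n := by have := Finset.mem_range.1 hj; omega
        rw [hX' h j l hh' hj' hl']; ring

end Crest.Agent.R249.Ker254
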