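import Crest.Agent.R249.Ker3_254
import Mathlib.Analysis.SpecialFunctions.Pow.NNReal

/-!
# Kernel checker for polynomial inequalities, part 4: three variables

Digit `P = ((t (n1+1) + i) (n2+1) + j) (n3+1) + k` is the coefficient of
`a1^i b1^(n1-i) a2^j b2^(n2-j) a3^k b3^(n3-k)` in block `t`.
-/

set_option autoImplicit false

namespace Crest.Agent.R249.Ker254

/-- six numbers: a point in homogeneous coordinates -/
structure Pt where
  a1 : ℝ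
  b1 : ℝ
  a2 : ℝ
  b2 : ℝ
  a3 : ℝ
  b3 : ℝ

structure Pt.Nonneg (x : Pt) : Prop where
  a1 : 0 ≤ x.a1
  b1 : 0 ≤ x.b1
  a2 : 0 ≤ x.a2
  b2 : 0 ≤ x.b2
  a3 : 0 ≤ x.a3
  b3 : 0 ≤ x.b3

/-- the monomial of digit `P` -/
noncomputable def mon (n1 n2 n3 : ℕ) (x : Pt) (P : ℕ) : ℝ :=
  (x.a1 ^ J ((n2 + 1) * (n3 + 1)) n1 P * x.b1 ^ (n1 - J ((n2 + 1) * (n3 + 1)) n1 P)) *
  ((x.a2 ^ J (n3 + 1) n2 P * x.b2 ^ (n2 - J (n3 + 1) n2 P)) *
  (x.a3 ^ J 1 n3 P * x.b3 ^ (n3 - J 1 n3 P)))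

/-- weight of digit `P`: block weight times monomial -/
noncomputable def wt (n1 n2 n3 : ℕ) (lam : ℕ → ℝ) (x : Pt) (P : ℕ) : ℝ :=
  lam (P / ((n1 + 1) * ((n2 + 1) * (n3 + 1)))) * mon n1 n2 n3 x P

theorem mon_nonneg {n1 n2 n3 : ℕ} {x : Pt} (hx : x.Nonneg) (P : ℕ) : 0 ≤ mon n1 n2 n3 x P := by
  have := hx.a1; have := hx.b1; have := hx.a2; have := hx.b2; have := hx.a3; have := hx.b3
  unfold mon; positivity

/-! ### index arithmetic -/

theorem mid_div {A B h j l : ℕ} (hl : l < B) (hj : j < A) : ((h * A + j) * B + l) / (A * B) = h := by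
  have hB : 0 < B := by omega
  have hA : 0 < A := by omega
  rw [mul_comm A B, ← Nat.div_div_eq_div_mul]
  have e1 : ((h * A + j) * B + l) / B = h * A + j := by
    rw [show (h * A + j) * B + l = l + B * (h * A + j) by ring, Nat.add_mul_div_left _ _ hB,
      Nat.div_eq_of_lt hl, zero_add]
  rw [e1, show h * A + j = j + A * h by ring, Nat.add_mul_div_left _ _ hA, Nat.div_eq_of_lt hj,
    zero_add]

theorem inner_J {σ n C l : ℕ} (hσ : 0 < σ) (c : ℕ) (hC : C = (n + 1) * σ) :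
    J σ n (c * C + l) = J σ n l := by
  unfold J
  subst hC
  rw [show c * ((n + 1) * σ) + l = l + σ * ((n + 1) * c) by ring, Nat.add_mul_div_left _ _ hσ,
    Nat.add_mul_mod_self_left]

theorem outer_div {A B h j l C : ℕ} (hl : l < B) (hj : j < A) :
    ((h * A + j) * B + l) / (C * (A * B)) = h / C := by
  rw [mul_comm C, ← Nat.div_div_eq_div_mul, mid_div hl hj]

section
variable (n1 n2 n3 : ℕ) (lam : ℕ → ℝ)

theorem wt_var1 (x : Pt) (a b : ℝ) {h j l : ℕ} (hj : j ≤ n1) (hl : l < (n2 + 1) * (n3 + 1)) :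
    wt n1 n2 n3 lam {x with a1 := a, b1 := b} ((h * (n1 + 1) + j) * ((n2 + 1) * (n3 + 1)) + l)
      = (lam h * ((x.a2 ^ J (n3 + 1) n2 l * x.b2 ^ (n2 - J (n3 + 1) n2 l)) *
          (x.a3 ^ J 1 n3 l * x.b3 ^ (n3 - J 1 n3 l)))) * (a ^ j * b ^ (n1 - j)) := by
  unfold wt mon
  rw [J_eq hl hj, mid_div hl (Nat.lt_succ_of_le hj),
    inner_J (σ := n3 + 1) (n := n2) (Nat.succ_pos _) _ rfl]
  have : J 1 n3 ((h * (n1 + 1) + j) * ((n2 + 1) * (n3 + 1)) + l) = J 1 n3 l := by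
    rw [show (h * (n1 + 1) + j) * ((n2 + 1) * (n3 + 1)) = ((h * (n1 + 1) + j) * (n2 + 1)) * (n3 + 1)
      by ring]
    exact inner_J (σ := 1) (n := n3) one_pos _ (by ring)
  rw [this]
  ring

theorem wt_var2 (x : Pt) (a b : ℝ) {h j l : ℕ} (hj : j ≤ n2) (hl : l < n3 + 1) :
    wt n1 n2 n3 lam {x with a2 := a, b2 := b} ((h * (n2 + 1) + j) * (n3 + 1) + l)
      = (lam (h / (n1 + 1)) * ((x.a1 ^ (h % (n1 + 1)) * x.b1 ^ (n1 - h % (n1 + 1))) *
          (x.a3 ^ J 1 n3 l * x.b3 ^ (n3 - J 1 n3 l)))) * (a ^ j * b ^ (n2 - j)) := by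
  unfold wt mon
  have e1 : J ((n2 + 1) * (n3 + 1)) n1 ((h * (n2 + 1) + j) * (n3 + 1) + l) = h % (n1 + 1) := by
    unfold J; rw [mid_div hl (Nat.lt_succ_of_le hj)]
  have e3 : J 1 n3 ((h * (n2 + 1) + j) * (n3 + 1) + l) = J 1 n3 l :=
    inner_J (σ := 1) (n := n3) one_pos _ (by ring)
  rw [e1, e3, J_eq hl hj, outer_div hl (Nat.lt_succ_of_le hj)]
  ring

theorem wt_var3 (x : Pt) (a b : ℝ) {h j l : ℕ} (hj : j ≤ n3) (hl : l < 1) :
    wt n1 n2 n3 lam {x with a3 := a, b3 := b} ((h * (n3 + 1) + j) * 1 + l)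
      = (lam (h / ((n1 + 1) * (n2 + 1))) *
        ((x.a1 ^ ((h / (n2 + 1)) % (n1 + 1)) * x.b1 ^ (n1 - (h / (n2 + 1)) % (n1 + 1))) *
          (x.a2 ^ (h % (n2 + 1)) * x.b2 ^ (n2 - h % (n2 + 1))))) * (a ^ j * b ^ (n3 - j)) := by
  have hl0 : l = 0 := by omega
  subst hl0
  unfold wt mon
  have e1 : J ((n2 + 1) * (n3 + 1)) n1 ((h * (n3 + 1) + j) * 1 + 0) = (h / (n2 + 1)) % (n1 + 1) := by
    unfold J
    have := outer_div (A := n3 + 1) (B := 1) (C := n2 + 1) (h := h) (j := j) (l := 0) one_pos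
      (Nat.lt_succ_of_le hj)
    rw [mul_one] at this ⊢
    rw [show (n2 + 1) * (n3 + 1) = (n2 + 1) * ((n3 + 1) * 1) by ring]
    rw [← this]
  have e2 : J (n3 + 1) n2 ((h * (n3 + 1) + j) * 1 + 0) = h % (n2 + 1) := by
    unfold J
    have := mid_div (A := n3 + 1) (B := 1) (h := h) (j := j) (l := 0) one_pos
      (Nat.lt_succ_of_le hj)
    rw [mul_one, mul_one] at this
    rw [mul_one, this]
  have e0 : ((h * (n3 + 1) + j) * 1 + 0) / ((n1 + 1) * ((n2 + 1) * (n3 + 1)))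
      = h / ((n1 + 1) * (n2 + 1)) := by
    have := outer_div (A := n3 + 1) (B := 1) (C := (n1 + 1) * (n2 + 1)) (h := h) (j := j)
      (l := 0) one_pos (Nat.lt_succ_of_le hj)
    rw [← this]
    congr 1; ring
  rw [e0, e1, e2, J_eq one_pos hj]
  ring

end

end Crest.Agent.R249.Ker254
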