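import Crest.Agent.R249.Tv12_57

/-!
# R249 part C, [KER] 1 (helper57): kernels when the potential is parallel with spectrum `{0, 4c, -2c, 6c}`.

`PolyPot D c`: `Q p = Q`, `Q` parallel, `Q (Q - 4c) (Q + 2c) (Q - 6c) = 0`.
`ker_split`: if `A u = 0` for an operator with `∫ ed = ⟨A u, A v⟩` then `Q (Q + 2c) u = 0` and
`(Q + 2c) u` is parallel.
-/

set_option autoImplicit false
set_option linter.unusedSectionVars false
set_option maxSynthPendingDepth 3
open scoped ContDiff ENNReal NNReal Topology Manifold Bundle RealInnerProductSpace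
open MeasureTheory Set Filter Metric Bundle

noncomputable section
namespace Crest.Agent.R249.Ker57

open Crest.Agent.R247.Dir593 Crest.Agent.R247.Ms322 Crest.Agent.R247.Frd657
open Crest.Agent.R249.Tv57 Crest.Agent.R249.Tz805

/-! ### linear algebra -/

section la
variable {κ : Type} [Fintype κ] {H : Type*} [NormedAddCommGroup H] [InnerProductSpace ℝ H]

/-- a matrix acting on vectors with values in `H` -/
def tm (T : κ → κ → ℝ) (w : κ → H) (a : κ) : H := ∑ b, T a b • w b

/-- inner product -/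
def sip (w w' : κ → H) : ℝ := ∑ a, ⟪w a, w' a⟫

variable {T : κ → κ → ℝ}

lemma tm_add (w w' : κ → H) : tm T (w + w') = tm T w + tm T w' := by
  funext a
  simp only [tm, Pi.add_apply, smul_add, Finset.sum_add_distrib]

lemma tm_smul (c : ℝ) (w : κ → H) : tm T (c • w) = c • tm T w := by
  funext a
  simp only [tm, Pi.smul_apply, Finset.smul_sum, smul_smul]
  exact Finset.sum_congr rfl fun b _ => by rw [mul_comm]

lemma tm_sub (w w' : κ → H) : tm T (w - w') = tm T w - tm T w' := by
  funext a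
  simp only [tm, Pi.sub_apply, smul_sub, Finset.sum_sub_distrib]

lemma tm_zero : tm T (0 : κ → H) = 0 := by
  funext a
  simp [tm]

lemma sip_add_left (w w' v : κ → H) : sip (w + w') v = sip w v + sip w' v := by
  simp only [sip, Pi.add_apply, inner_add_left, Finset.sum_add_distrib]

lemma sip_add_right (w w' v : κ → H) : sip v (w + w') = sip v w + sip v w' := by
  simp only [sip, Pi.add_apply, inner_add_right, Finset.sum_add_distrib]

lemma sip_sub_left (w w' v : κ → H) : sip (w - w') v = sip w v - sip w' v := by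
  simp only [sip, Pi.sub_apply, inner_sub_left, Finset.sum_sub_distrib]

lemma sip_sub_right (w w' v : κ → H) : sip v (w - w') = sip v w - sip v w' := by
  simp only [sip, Pi.sub_apply, inner_sub_right, Finset.sum_sub_distrib]

lemma sip_smul_left (c : ℝ) (w v : κ → H) : sip (c • w) v = c * sip w v := by
  simp only [sip, Pi.smul_apply, real_inner_smul_left, Finset.mul_sum]

lemma sip_smul_right (c : ℝ) (w v : κ → H) : sip v (c • w) = c * sip v w := by
  simp only [sip, Pi.smul_apply, real_inner_smul_right, Finset.mul_sum]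

lemma sip_comm (w v : κ → H) : sip w v = sip v w := by
  simp only [sip, real_inner_comm]

lemma sip_nonneg (w : κ → H) : 0 ≤ sip w w :=
  Finset.sum_nonneg fun _ _ => real_inner_self_nonneg

lemma eq_zero_of_sip {w : κ → H} (h : sip w w = 0) : w = 0 := by
  funext a
  have := (Finset.sum_eq_zero_iff_of_nonneg fun _ _ => real_inner_self_nonneg).1 h a
    (Finset.mem_univ a)
  exact inner_self_eq_zero.1 this

lemma sip_zero_left (w : κ → H) : sip 0 w = 0 := by simp [sip]

lemma sip_tm (hT : ∀ a b, T a b = T b a) (w v : κ → H) : sip (tm T w) v = sip w (tm T v) := by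
  simp only [sip, tm, sum_inner, inner_sum, real_inner_smul_left, real_inner_smul_right]
  rw [Finset.sum_comm]
  refine Finset.sum_congr rfl fun a _ => Finset.sum_congr rfl fun b _ => ?_
  rw [hT a b]

/-- `R = T² + 2 c T` -/
def Rm (T : κ → κ → ℝ) (c : ℝ) (w : κ → H) : κ → H := tm T (tm T w) + (2 * c) • tm T w

lemma sip_Rm (hT : ∀ a b, T a b = T b a) (c : ℝ) (w v : κ → H) : sip (Rm T c w) v = sip w (Rm T c v) := by
  rw [Rm, Rm, sip_add_left, sip_add_right, sip_smul_left, sip_smul_right, sip_tm hT, sip_tm hT,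
    sip_tm hT]

/-- the polynomial relation -/
def PolyAt (T : κ → κ → ℝ) (c : ℝ) : Prop := ∀ a b,
  ∑ x, ∑ y, ∑ s, T a x * T x y * T y s * T s b = 8 * c * (∑ x, ∑ y, T a x * T x y * T y b)
    - 4 * c ^ 2 * (∑ x, T a x * T x b) - 48 * c ^ 3 * T a b

lemma tm4 {c : ℝ} (h : PolyAt T c) (w : κ → H) :
    tm T (tm T (tm T (tm T w))) = (8 * c) • tm T (tm T (tm T w)) - (4 * c ^ 2) • tm T (tm T w)
      - (48 * c ^ 3) • tm T w := by
  funext a
  have e2 : ∀ w : κ → H, ∀ a, tm T (tm T w) a = ∑ b, (∑ x, T a x * T x b) • w b := by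
    intro w a
    simp only [tm, Finset.smul_sum, smul_smul, Finset.sum_smul]
    rw [Finset.sum_comm]
  have e3 : ∀ w : κ → H, ∀ a, tm T (tm T (tm T w)) a =
      ∑ b, (∑ x, ∑ y, T a x * T x y * T y b) • w b := by
    intro w a
    rw [tm]
    simp only [e2, Finset.smul_sum, smul_smul, Finset.sum_smul]
    rw [Finset.sum_comm]
    refine Finset.sum_congr rfl fun b _ => Finset.sum_congr rfl fun x _ =>
      Finset.sum_congr rfl fun y _ => ?_
    rw [mul_assoc]
  have e4 : tm T (tm T (tm T (tm T w))) a =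
      ∑ b, (∑ x, ∑ y, ∑ s, T a x * T x y * T y s * T s b) • w b := by
    rw [tm]
    simp only [e3, Finset.smul_sum, smul_smul, Finset.sum_smul]
    rw [Finset.sum_comm]
    refine Finset.sum_congr rfl fun b _ => Finset.sum_congr rfl fun x _ =>
      Finset.sum_congr rfl fun y _ => Finset.sum_congr rfl fun s _ => ?_
    congr 1
    ring
  have r1 : ((8 * c) • tm T (tm T (tm T w)) - (4 * c ^ 2) • tm T (tm T w)
      - (48 * c ^ 3) • tm T w) a = ∑ b, (8 * c * (∑ x, ∑ y, T a x * T x y * T y b)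
        - 4 * c ^ 2 * (∑ x, T a x * T x b) - 48 * c ^ 3 * T a b) • w b := by
    rw [Pi.sub_apply, Pi.sub_apply, Pi.smul_apply, Pi.smul_apply, Pi.smul_apply, e3, e2, tm,
      Finset.smul_sum, Finset.smul_sum, Finset.smul_sum, ← Finset.sum_sub_distrib,
      ← Finset.sum_sub_distrib]
    refine Finset.sum_congr rfl fun b _ => ?_
    simp only [smul_smul, ← sub_smul]
  rw [r1, e4]
  exact Finset.sum_congr rfl fun b _ => by rw [h a b]

/-- `T ≥ 4c` on the image of `R` -/
theorem la_ge {c : ℝ} (hc : 0 < c) (hT : ∀ a b, T a b = T b a) (h : PolyAt T c) (w : κ → H) :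
    4 * c * sip (Rm T c w) (Rm T c w) ≤ sip (tm T (Rm T c w)) (Rm T c w) := by
  set r := Rm T c w with hr
  set t := tm T r with ht
  have h1 : tm T t = (10 * c) • t - (24 * c ^ 2) • r := by
    have e1 : r = tm T (tm T w) + (2 * c) • tm T w := rfl
    have e2 : t = tm T (tm T (tm T w)) + (2 * c) • tm T (tm T w) := by
      rw [ht, e1, tm_add, tm_smul]
    rw [e2, tm_add, tm_smul, tm4 h w, e1]
    module
  have h2 : sip t t = 10 * c * sip t r - 24 * c ^ 2 * sip r r := by
    have : sip t t = sip r (tm T t) := by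
      conv_lhs => rw [ht]
      rw [sip_tm hT]
    rw [this, h1, sip_sub_right, sip_smul_right, sip_smul_right, sip_comm r t]
  have h3 : 0 ≤ sip (t - (4 * c) • r) (t - (4 * c) • r) := sip_nonneg _
  rw [sip_sub_left, sip_sub_right, sip_sub_right, sip_smul_left, sip_smul_left, sip_smul_right,
    sip_smul_right, sip_comm r t] at h3
  have h4 : 0 ≤ 2 * c * (sip t r - 4 * c * sip r r) := by nlinarith
  have h5 : 0 ≤ sip t r - 4 * c * sip r r := nonneg_of_mul_nonneg_right h4 (by positivity)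
  linarith

/-- on the kernel of `R` -/
theorem la_two {c : ℝ} (hT : ∀ a b, T a b = T b a) {w : κ → H} (h : Rm T c w = 0) :
    sip (tm T w + (2 * c) • w) (tm T w + (2 * c) • w) = 2 * c * sip w (tm T w + (2 * c) • w) := by
  have h1 : tm T (tm T w + (2 * c) • w) = 0 := by
    rw [tm_add, tm_smul]
    exact h
  rw [sip_add_left, sip_tm hT, h1, sip_smul_left]
  simp [sip]

end la

variable {n : ℕ} {M : Type*} [MetricSpace M] [ChartedSpace (EuclideanSpace ℝ (Fin n)) M]
  [IsManifold (𝓡 n) ∞ M]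
  [RiemannianBundle (fun p : M => TangentSpace (𝓡 n) p)]
  [IsContMDiffRiemannianBundle (𝓡 n) ∞ (EuclideanSpace ℝ (Fin n)) (fun p : M => TangentSpace (𝓡 n) p)]
  [IsRiemannianManifold (𝓡 n) M] [MeasurableSpace M] [BorelSpace M]
  [SecondCountableTopology M] [Nonempty M]

local notation "𝔼" => EuclideanSpace ℝ (Fin n)

/-- the potential is parallel, lives on the bundle, and has spectrum in `{0, 4c, -2c, 6c}` -/
structure PolyPot {κ : Type} [Fintype κ] (D : Dat n M κ) (c : ℝ) : Prop where
  qp : ∀ a b z, ∑ x, D.Q a x z * D.p x b z = D.Q a b z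
  par : ∀ a b z, Gr (n := n) (D.Q a b) z +
    ∑ x, (D.Q x b z • D.X a x z - D.Q a x z • D.X x b z) = 0
  poly : ∀ z, PolyAt (fun a b => D.Q a b z) c

section
variable {κ : Type} [Fintype κ] (D : Dat n M κ)

/-- multiplication by the potential -/
def tq (u : κ → M → ℝ) (a : κ) (z : M) : ℝ := ∑ b, D.Q a b z * u b z

lemma tq_eq (u : κ → M → ℝ) (z : M) :
    (fun a => tq D u a z) = tm (fun a b => D.Q a b z) (fun a => u a z) := by
  funext a
  simp [tq, tm]

lemma smV_tq {u : κ → M → ℝ} (hu : SmV (n := n) u) : SmV (n := n) (tq D u) := fun a =>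
  contMDiff_finsetSum fun b _ => (D.smQ a b).mul (hu b)

lemma smV_add {u v : κ → M → ℝ} (hu : SmV (n := n) u) (hv : SmV (n := n) v) (α β : ℝ) :
    SmV (n := n) (fun a z => α * u a z + β * v a z) := fun a =>
  (contMDiff_const.mul (hu a)).add (contMDiff_const.mul (hv a))

lemma sec_add {u v : κ → M → ℝ} (hu : D.Sec u) (hv : D.Sec v) (α β : ℝ) :
    D.Sec (fun a z => α * u a z + β * v a z) := by
  intro a z
  simp only [mul_add, Finset.sum_add_distrib]
  rw [← hu a z, ← hv a z, Finset.mul_sum, Finset.mul_sum]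
  congr 1 <;> exact Finset.sum_congr rfl fun b _ => by ring

lemma md {f : M → ℝ} (hf : ContMDiff (𝓡 n) 𝓘(ℝ, ℝ) ∞ f) (z : M) :
    MDifferentiableAt (𝓡 n) 𝓘(ℝ) f z := (hf z).mdifferentiableAt (by simp)

lemma Gr_sum' {ι : Type*} (s : Finset ι) {f : ι → M → ℝ}
    (hf : ∀ i ∈ s, ContMDiff (𝓡 n) 𝓘(ℝ, ℝ) ∞ (f i)) (z : M) :
    Gr (n := n) (fun y => ∑ i ∈ s, f i y) z = ∑ i ∈ s, Gr (n := n) (f i) z := by
  classical
  induction s using Finset.induction_on with
  | empty => simpa using Gr_const (n := n) 0 z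
  | insert a s ha ih =>
    have h1 := hf a (Finset.mem_insert_self a s)
    have h2 : ∀ i ∈ s, ContMDiff (𝓡 n) 𝓘(ℝ, ℝ) ∞ (f i) := fun i hi =>
      hf i (Finset.mem_insert_of_mem hi)
    have h3 : ContMDiff (𝓡 n) 𝓘(ℝ, ℝ) ∞ fun y => ∑ i ∈ s, f i y := contMDiff_finsetSum h2
    simp only [Finset.sum_insert ha]
    rw [Gr_add (md h1 z) (md h3 z), ih h2]

/-- linearity of the covariant derivative -/
lemma cv_lin {u v : κ → M → ℝ} (hu : SmV (n := n) u) (hv : SmV (n := n) v) (α β : ℝ) (a : κ) (z : M) :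
    D.cv (fun a z => α * u a z + β * v a z) a z = α • D.cv u a z + β • D.cv v a z := by
  have g1 : ContMDiff (𝓡 n) 𝓘(ℝ, ℝ) ∞ fun z => α * u a z := contMDiff_const.mul (hu a)
  have g2 : ContMDiff (𝓡 n) 𝓘(ℝ, ℝ) ∞ fun z => β * v a z := contMDiff_const.mul (hv a)
  rw [Dat.cv, Dat.cv, Dat.cv, Gr_add (md g1 z) (md g2 z),
    Gr_const_mul _ (md (hu a) z), Gr_const_mul _ (md (hv a) z)]
  simp only [add_smul, Finset.sum_add_distrib, smul_add, Finset.smul_sum, mul_smul]
  abel

variable {D} {c : ℝ} (h : PolyPot D c)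
include h

lemma sec_tq {u : κ → M → ℝ} : D.Sec (tq D u) := by
  have h1 : ∀ a b z, ∑ x, D.p a x z * D.Q x b z = D.Q a b z := by
    intro a b z
    rw [← D.comm a b z, h.qp]
  intro a z
  simp only [tq, Finset.mul_sum]
  rw [Finset.sum_comm]
  refine Finset.sum_congr rfl fun b _ => ?_
  rw [← h1 a b z, Finset.sum_mul]
  exact Finset.sum_congr rfl fun x _ => by ring

/-- the potential commutes with the covariant derivative -/
lemma cv_tq {u : κ → M → ℝ} (hu : SmV (n := n) u) (z : M) :
    (fun a => D.cv (tq D u) a z) = tm (fun a b => D.Q a b z) (fun a => D.cv u a z) := by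
  funext a
  have e1 : Gr (n := n) (tq D u a) z = ∑ b, (D.Q a b z • Gr (n := n) (u b) z +
      u b z • Gr (n := n) (D.Q a b) z) := by
    rw [show tq D u a = fun y => ∑ b, D.Q a b y * u b y from rfl,
      Gr_sum' (f := fun b y => D.Q a b y * u b y) Finset.univ
        (fun b _ => (D.smQ a b).mul (hu b)) z]
    exact Finset.sum_congr rfl fun b _ => Gr_mul (md (D.smQ a b) z) (md (hu b) z)
  have e2 : ∀ b, Gr (n := n) (D.Q a b) z =
      ∑ x, (D.Q a x z • D.X x b z - D.Q x b z • D.X a x z) := by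
    intro b
    have := h.par a b z
    rw [add_eq_zero_iff_eq_neg] at this
    rw [this, ← Finset.sum_neg_distrib]
    exact Finset.sum_congr rfl fun x _ => by rw [neg_sub]
  rw [Dat.cv, e1]
  simp only [e2, tm, Dat.cv, tq]
  simp only [smul_add, Finset.smul_sum, Finset.sum_add_distrib, smul_sub, Finset.sum_sub_distrib,
    Finset.sum_smul, smul_smul]
  rw [add_assoc]
  congr 1
  have e5 : ∑ b, ∑ x, (D.Q b x z * u x z) • D.X a b z = ∑ b, ∑ x, (u b z * D.Q x b z) • D.X a x z := by
    rw [Finset.sum_comm]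
    exact Finset.sum_congr rfl fun b _ => Finset.sum_congr rfl fun x _ => by rw [mul_comm]
  rw [e5, sub_add_cancel, Finset.sum_comm]
  exact Finset.sum_congr rfl fun b _ => Finset.sum_congr rfl fun x _ => by rw [mul_comm]

end

section
variable [CompactSpace M] [IsFiniteMeasureOnCompacts (μHE[n] : Measure M)]
variable {κ κ' : Type} [Fintype κ] [Fintype κ'] {D : Dat n M κ} {c : ℝ}

/-- `R u` as a section -/
def rs (D : Dat n M κ) (c : ℝ) (u : κ → M → ℝ) (a : κ) (z : M) : ℝ :=
  1 * tq D (tq D u) a z + 2 * c * tq D u a z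

/-- `(Q + 2c) u` as a section -/
def u0s (D : Dat n M κ) (c : ℝ) (u : κ → M → ℝ) (a : κ) (z : M) : ℝ :=
  1 * tq D u a z + 2 * c * u a z

omit [CompactSpace M] [IsFiniteMeasureOnCompacts (μHE[n] : Measure M)] in
lemma rs_eq (u : κ → M → ℝ) (z : M) :
    (fun a => rs D c u a z) = Rm (fun a b => D.Q a b z) c (fun a => u a z) := by
  funext a
  have e1 : tq D (tq D u) a z = tm (fun a b => D.Q a b z) (fun a => tq D u a z) a :=
    congrFun (tq_eq D (tq D u) z) a
  have e2 := tq_eq D u z
  rw [e2] at e1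
  have e3 : tq D u a z = tm (fun a b => D.Q a b z) (fun a => u a z) a := congrFun e2 a
  rw [rs, e1, e3, Rm, Pi.add_apply, Pi.smul_apply, smul_eq_mul, one_mul]

omit [CompactSpace M] [IsFiniteMeasureOnCompacts (μHE[n] : Measure M)] in
lemma u0s_eq (u : κ → M → ℝ) (z : M) :
    (fun a => u0s D c u a z) = tm (fun a b => D.Q a b z) (fun a => u a z) +
      (2 * c) • (fun a => u a z) := by
  funext a
  have e3 : tq D u a z = tm (fun a b => D.Q a b z) (fun a => u a z) a :=
    congrFun (tq_eq D u z) a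
  rw [u0s, e3, Pi.add_apply, Pi.smul_apply, smul_eq_mul, one_mul]

omit [CompactSpace M] [IsFiniteMeasureOnCompacts (μHE[n] : Measure M)] in
lemma cv_rs (h : PolyPot D c) {u : κ → M → ℝ} (hu : SmV (n := n) u) (z : M) :
    (fun a => D.cv (rs D c u) a z) = Rm (fun a b => D.Q a b z) c (fun a => D.cv u a z) := by
  have e1 := cv_tq h (smV_tq D hu) z
  rw [cv_tq h hu z] at e1
  have e2 := cv_tq h hu z
  funext a
  have := cv_lin D (smV_tq D (smV_tq D hu)) (smV_tq D hu) 1 (2 * c) a z
  rw [show D.cv (rs D c u) a z = _ from this, Rm, Pi.add_apply, Pi.smul_apply, ← congrFun e1 a,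
    ← congrFun e2 a, one_smul]

omit [CompactSpace M] [IsFiniteMeasureOnCompacts (μHE[n] : Measure M)] in
lemma cv_u0s (h : PolyPot D c) {u : κ → M → ℝ} (hu : SmV (n := n) u) (z : M) :
    (fun a => D.cv (u0s D c u) a z) = tm (fun a b => D.Q a b z) (fun a => D.cv u a z) +
      (2 * c) • (fun a => D.cv u a z) := by
  have e2 := cv_tq h hu z
  funext a
  have := cv_lin D (smV_tq D hu) hu 1 (2 * c) a z
  rw [show D.cv (u0s D c u) a z = _ from this, Pi.add_apply, Pi.smul_apply, ← congrFun e2 a, one_smul]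

omit [CompactSpace M] [IsFiniteMeasureOnCompacts (μHE[n] : Measure M)] in
lemma ed_eq (u v : κ → M → ℝ) (z : M) : D.ed u v z = sip (fun a => D.cv u a z) (fun a => D.cv v a z) +
    sip (tm (fun a b => D.Q a b z) (fun a => u a z)) (fun a => v a z) := by
  rw [Dat.ed]
  congr 1
  simp only [sip, tm, smul_eq_mul]
  refine Finset.sum_congr rfl fun a _ => ?_
  rw [rin, Finset.sum_mul]

/-- **the kernel splits** -/
theorem ker_split (h : PolyPot D c) (hc : 0 < c) {u : κ → M → ℝ} (hu : SmV (n := n) u) (hs : D.Sec u)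
    (h0 : ∀ v, SmV (n := n) v → D.Sec v → ∫ z, D.ed u v z ∂(μHE[n] : Measure M) = 0) :
    (∀ a z, rs D c u a z = 0) ∧ ∀ a z, D.cv (u0s D c u) a z = 0 := by
  have := isOpenPosMeasure n M
  have hTs : ∀ z a b, D.Q a b z = D.Q b a z := fun z a b => D.symmQ a b z
  have hr1 : SmV (n := n) (rs D c u) := smV_add (smV_tq D (smV_tq D hu)) (smV_tq D hu) _ _
  have hr2 : D.Sec (rs D c u) := sec_add D (sec_tq h) (sec_tq h) _ _
  have hrr1 : SmV (n := n) (rs D c (rs D c u)) := smV_add (smV_tq D (smV_tq D hr1)) (smV_tq D hr1) _ _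
  have hrr2 : D.Sec (rs D c (rs D c u)) := sec_add D (sec_tq h) (sec_tq h) _ _
  -- a nonnegative smooth function with integral zero vanishes
  have hzero : ∀ f : M → ℝ, ContMDiff (𝓡 n) 𝓘(ℝ, ℝ) ∞ f → (∀ z, 0 ≤ f z) →
      ∫ z, f z ∂(μHE[n] : Measure M) = 0 → ∀ z, f z = 0 := by
    intro f hf hf0 hi z
    have : IsFiniteMeasure (μHE[n] : Measure M) := ⟨isCompact_univ.measure_lt_top⟩
    have hint : Integrable f (μHE[n] : Measure M) :=
      (memLp_smooth hf).integrable (by norm_num)
    have h1 := (integral_eq_zero_iff_of_nonneg hf0 hint).1 hi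
    have h2 : f = fun _ => (0:ℝ) :=
      (hf.continuous.ae_eq_iff_eq (μHE[n] : Measure M) continuous_const).1 h1
    rw [h2]
  have step1 : ∀ z, sip (fun a => rs D c u a z) (fun a => rs D c u a z) = 0 := by
    have e1 : ∀ z, 4 * c * sip (fun a => rs D c u a z) (fun a => rs D c u a z) ≤
        D.ed u (rs D c (rs D c u)) z := by
      intro z
      rw [ed_eq, cv_rs h hr1, cv_rs h hu, rs_eq, rs_eq, rs_eq]
      have a1 := sip_Rm (hTs z) c (fun a => D.cv u a z)
        (Rm (fun a b => D.Q a b z) c (fun a => D.cv u a z))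
      rw [← a1]
      have a2 : sip (tm (fun a b => D.Q a b z) (fun a => u a z)) (Rm (fun a b => D.Q a b z) c
          (Rm (fun a b => D.Q a b z) c (fun a => u a z))) =
          sip (tm (fun a b => D.Q a b z) (Rm (fun a b => D.Q a b z) c (fun a => u a z)))
            (Rm (fun a b => D.Q a b z) c (fun a => u a z)) := by
        have b1 := sip_Rm (hTs z) c (tm (fun a b => D.Q a b z) (fun a => u a z))
          (Rm (fun a b => D.Q a b z) c (fun a => u a z))
        have b2 : Rm (fun a b => D.Q a b z) c (tm (fun a b => D.Q a b z) (fun a => u a z)) =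
            tm (fun a b => D.Q a b z) (Rm (fun a b => D.Q a b z) c (fun a => u a z)) := by
          simp only [Rm, tm_add, tm_smul]
        rw [b2] at b1
        exact b1.symm
      rw [a2]
      have a3 := la_ge hc (hTs z) (h.poly z) (fun a => u a z)
      have a4 := sip_nonneg (Rm (fun a b => D.Q a b z) c (fun a => D.cv u a z))
      linarith
    have e2 := h0 _ hrr1 hrr2
    have e3 : ContMDiff (𝓡 n) 𝓘(ℝ, ℝ) ∞ (D.ed u (rs D c (rs D c u))) := smooth_ed D hu hrr1
    have e4 : ∀ z, 0 ≤ D.ed u (rs D c (rs D c u)) z := fun z =>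
      (mul_nonneg (by positivity) (sip_nonneg _)).trans (e1 z)
    have e5 := hzero _ e3 e4 e2
    intro z
    have e6 := e1 z
    rw [e5 z] at e6
    have e7 := sip_nonneg (fun a => rs D c u a z)
    have e8 : 0 < 4 * c := by positivity
    nlinarith
  have hrz : ∀ a z, rs D c u a z = 0 := fun a z => congrFun (eq_zero_of_sip (step1 z)) a
  refine ⟨hrz, ?_⟩
  have hrf : rs D c u = 0 := by
    funext a z
    exact hrz a z
  -- second step
  have hcv : ∀ z, Rm (fun a b => D.Q a b z) c (fun a => D.cv u a z) = 0 := by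
    intro z
    rw [← cv_rs h hu z, hrf]
    funext a
    have e : (0 : κ → M → ℝ) a = fun _ => (0:ℝ) := rfl
    rw [Dat.cv, e, Gr_const]
    simp
  have hv1 : SmV (n := n) (u0s D c u) := smV_add (smV_tq D hu) hu _ _
  have hv2 : D.Sec (u0s D c u) := sec_add D (sec_tq h) hs _ _
  have e1 : ∀ z, 2 * c * D.ed u (u0s D c u) z =
      sip (fun a => D.cv (u0s D c u) a z) (fun a => D.cv (u0s D c u) a z) := by
    intro z
    rw [ed_eq, cv_u0s h hu, u0s_eq]
    have a1 := la_two (hTs z) (hcv z)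
    have a2 : Rm (fun a b => D.Q a b z) c (fun a => u a z) = 0 := by
      rw [← rs_eq]
      funext a
      exact hrz a z
    have a3 : sip (tm (fun a b => D.Q a b z) (fun a => u a z))
        (tm (fun a b => D.Q a b z) (fun a => u a z) + (2 * c) • fun a => u a z) = 0 := by
      rw [sip_tm (hTs z), tm_add, tm_smul]
      have : tm (fun a b => D.Q a b z) (tm (fun a b => D.Q a b z) fun a => u a z) +
        (2 * c) • tm (fun a b => D.Q a b z) (fun a => u a z) = 0 := a2
      rw [this]
      simp [sip]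
    rw [a3, add_zero, a1]
  have e2 := h0 _ hv1 hv2
  have e3 : ContMDiff (𝓡 n) 𝓘(ℝ, ℝ) ∞ (D.ed u (u0s D c u)) := smooth_ed D hu hv1
  have e4 : ∀ z, 0 ≤ D.ed u (u0s D c u) z := by
    intro z
    have a1 := e1 z
    have a2 := sip_nonneg (fun a => D.cv (u0s D c u) a z)
    rw [← a1] at a2
    exact nonneg_of_mul_nonneg_right a2 (by positivity)
  have e5 := hzero _ e3 e4 e2
  intro a z
  have e6 := e1 z
  rw [e5 z, mul_zero] at e6
  exact congrFun (eq_zero_of_sip e6.symm) a

end

end Crest.Agent.R249.Ker57
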