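import Crest.Agent.R249.Ker57a_57

/-!
# R249 part C, [KER] 2 (helper57): counting.

`kerSub R` = smooth sections killed by `R.A`; `kerSub2 R c` = those with `Q u = -2c u`;
`ker_count : N ≤ finrank (kerSub2 R c) + 1`.
-/

set_option autoImplicit false
set_option linter.unusedSectionVars false
set_option maxSynthPendingDepth 3
open scoped ContDiff ENNReal NNReal Topology Manifold Bundle RealInnerProductSpace
open MeasureTheory Set Filter Metric Bundle

noncomputable section
namespace Crest.Agent.R249.Ker57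

open Crest.Agent.R247.Dir593 Crest.Agent.R247.Ms322 Crest.Agent.R247.Frd657
open Crest.Agent.R249.Tv57 Crest.Agent.R249.Tz805

variable {n : ℕ} {M : Type*} [MetricSpace M] [ChartedSpace (EuclideanSpace ℝ (Fin n)) M]
  [IsManifold (𝓡 n) ∞ M]
  [RiemannianBundle (fun p : M => TangentSpace (𝓡 n) p)]
  [IsContMDiffRiemannianBundle (𝓡 n) ∞ (EuclideanSpace ℝ (Fin n)) (fun p : M => TangentSpace (𝓡 n) p)]
  [IsRiemannianManifold (𝓡 n) M] [MeasurableSpace M] [BorelSpace M]
  [SecondCountableTopology M] [Nonempty M]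

local notation "𝔼" => EuclideanSpace ℝ (Fin n)

section parallel
variable {κ : Type} [Fintype κ]

/-- the norm of a section is constant along parallel sections -/
theorem parallel_zero [PreconnectedSpace M] (D : Dat n M κ) {v : κ → M → ℝ} (hv : SmV (n := n) v)
    (h : ∀ a z, D.cv v a z = 0) {z0 : M} (h0 : ∀ a, v a z0 = 0) (a : κ) (z : M) : v a z = 0 := by
  set f : M → ℝ := fun z => ∑ a, v a z * v a z with hf
  have hfs : ContMDiff (𝓡 n) 𝓘(ℝ, ℝ) ∞ f := contMDiff_finsetSum fun a _ => (hv a).mul (hv a)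
  have hG : ∀ z, Gr (n := n) f z = 0 := by
    intro z
    rw [hf, Gr_sum' (f := fun a y => v a y * v a y) Finset.univ (fun a _ => (hv a).mul (hv a)) z]
    have e1 : ∀ a, Gr (n := n) (v a) z = - ∑ b, v b z • D.X a b z := by
      intro a
      exact eq_neg_of_add_eq_zero_left (h a z)
    have e2 : ∀ a, Gr (n := n) (fun y => v a y * v a y) z =
        -(2:ℝ) • ∑ b, (v a z * v b z) • D.X a b z := by
      intro a
      rw [Gr_mul (md (hv a) z) (md (hv a) z), e1]
      simp only [smul_neg, Finset.smul_sum, smul_smul]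
      rw [← neg_add, ← Finset.sum_add_distrib, ← Finset.sum_neg_distrib]
      refine Finset.sum_congr rfl fun b _ => ?_
      module
    simp only [e2, ← Finset.smul_sum]
    have e3 : ∑ a, ∑ b, (v a z * v b z) • D.X a b z = 0 := by
      set x := ∑ a, ∑ b, (v a z * v b z) • D.X a b z with hx
      have e4 : x = - x := by
        rw [hx]
        conv_lhs => rw [Finset.sum_comm]
        rw [← Finset.sum_neg_distrib]
        refine Finset.sum_congr rfl fun b _ => ?_
        rw [← Finset.sum_neg_distrib]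
        refine Finset.sum_congr rfl fun a _ => ?_
        rw [D.skew a b z, smul_neg, mul_comm]
      have h2 : x + x = 0 := by
        nth_rewrite 1 [e4]
        exact neg_add_cancel _
      have h3 : (2:ℝ) • x = 0 := by rw [two_smul]; exact h2
      exact (smul_eq_zero.1 h3).resolve_left two_ne_zero
    rw [e3, smul_zero]
  have hc := Crest.Agent.R249.Grn324.const_of_mGam_zero (n := n) (hfs.of_le (by simp)) (fun p => by
    rw [← inner_Gr_eq_mGam, hG p, inner_zero_left]) z z0
  have h1 : f z0 = 0 := by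
    simp only [hf, h0, mul_zero, Finset.sum_const_zero]
  rw [h1] at hc
  have h4 := (Finset.sum_eq_zero_iff_of_nonneg fun a _ => mul_self_nonneg _).1 hc a
    (Finset.mem_univ a)
  exact mul_self_eq_zero.1 h4

end parallel

variable {κ κ' : Type} [Fintype κ] [Fintype κ'] {D0 : Dat n M κ} {D1 : Dat n M κ'}

/-- smooth sections killed by `A` -/
def kerSub (R : DPair D0 D1) : Submodule ℝ (κ → M → ℝ) where
  carrier := {u | SmV (n := n) u ∧ D0.Sec u ∧ ∀ b z, R.A u b z = 0}
  zero_mem' := by
    have h0 : SmV (n := n) (0 : κ → M → ℝ) := fun a => contMDiff_const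
    refine ⟨h0, fun a z => by simp, fun b z => ?_⟩
    have := R.linA 0 0 0 0 h0 h0
    have e : (fun x z => (0:ℝ) * (0 : κ → M → ℝ) x z + 0 * (0 : κ → M → ℝ) x z) = 0 := by
      funext x z; simp
    rw [e] at this
    rw [this]
    simp
  add_mem' := by
    rintro u v ⟨hu, hus, hA⟩ ⟨hv, hvs, hB⟩
    refine ⟨fun a => (hu a).add (hv a), fun a z => ?_, fun b z => ?_⟩
    · simp only [Pi.add_apply, mul_add, Finset.sum_add_distrib, hus a z, hvs a z]
    · have := R.linA 1 1 u v hu hv
      have e : (fun x z => (1:ℝ) * u x z + 1 * v x z) = u + v := by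
        funext x z; simp
      rw [e] at this
      rw [this]
      simp [hA, hB]
  smul_mem' := by
    rintro c u ⟨hu, hus, hA⟩
    refine ⟨fun a => contMDiff_const.mul (hu a), fun a z => ?_, fun b z => ?_⟩
    · simp only [Pi.smul_apply, smul_eq_mul]
      rw [← hus a z, Finset.mul_sum]
      exact Finset.sum_congr rfl fun b _ => by ring
    · have := R.linA c 0 u u hu hu
      have e : (fun x z => c * u x z + 0 * u x z) = c • u := by
        funext x z; simp
      rw [e] at this
      rw [this]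
      simp [hA]

lemma mem_kerSub {R : DPair D0 D1} {u : κ → M → ℝ} : u ∈ kerSub R ↔
    SmV (n := n) u ∧ D0.Sec u ∧ ∀ b z, R.A u b z = 0 := Iff.rfl

/-- the twistor part of the kernel -/
def kerSub2 (R : DPair D0 D1) (c : ℝ) : Submodule ℝ (κ → M → ℝ) where
  carrier := {u | u ∈ kerSub R ∧ ∀ a z, tq D0 u a z = -(2 * c) * u a z}
  zero_mem' := ⟨(kerSub R).zero_mem, fun a z => by simp [tq]⟩
  add_mem' := by
    rintro u v ⟨hu, hu'⟩ ⟨hv, hv'⟩
    refine ⟨(kerSub R).add_mem hu hv, fun a z => ?_⟩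
    have e : tq D0 (u + v) a z = tq D0 u a z + tq D0 v a z := by
      simp only [tq, Pi.add_apply, mul_add, Finset.sum_add_distrib]
    rw [e, hu', hv', Pi.add_apply, Pi.add_apply]
    ring
  smul_mem' := by
    rintro t u ⟨hu, hu'⟩
    refine ⟨(kerSub R).smul_mem t hu, fun a z => ?_⟩
    have e : tq D0 (t • u) a z = t * tq D0 u a z := by
      simp only [tq, Pi.smul_apply, smul_eq_mul, Finset.mul_sum]
      exact Finset.sum_congr rfl fun b _ => by ring
    rw [e, hu', Pi.smul_apply, Pi.smul_apply, smul_eq_mul]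
    ring

lemma mem_kerSub2 {R : DPair D0 D1} {c : ℝ} {u : κ → M → ℝ} : u ∈ kerSub2 R c ↔
    (SmV (n := n) u ∧ D0.Sec u ∧ ∀ b z, R.A u b z = 0) ∧
      ∀ a z, tq D0 u a z = -(2 * c) * u a z := Iff.rfl

lemma kerSub2_le (R : DPair D0 D1) (c : ℝ) : kerSub2 R c ≤ kerSub R := fun _ h => h.1

/-- the basis of the kernel -/
def kerBasis {R : DPair D0 D1} {N : ℕ} (K : KerD D0 R.A N) : Module.Basis (Fin N) ℝ (kerSub R) := by
  have hmem : ∀ i, K.u i ∈ kerSub R := fun i => ⟨K.smooth i, K.sec i, K.ker i⟩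
  refine Module.Basis.mk (v := fun i => (⟨K.u i, hmem i⟩ : kerSub R)) ?_ ?_
  · exact LinearIndependent.of_comp (kerSub R).subtype K.li
  · rintro ⟨v, hv⟩ -
    have e : (⟨v, hv⟩ : kerSub R) = ∑ i, ip n v (K.u i) • (⟨K.u i, hmem i⟩ : kerSub R) := by
      apply Subtype.ext
      funext a z
      simp only [Submodule.coe_sum, Submodule.coe_smul, Finset.sum_apply, Pi.smul_apply, smul_eq_mul]
      exact K.span v hv.1 hv.2.1 hv.2.2 a z
    rw [e]
    exact Submodule.sum_mem _ fun i _ => Submodule.smul_mem _ _ (Submodule.subset_span ⟨i, rfl⟩)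

lemma finite_kerSub {R : DPair D0 D1} {N : ℕ} (K : KerD D0 R.A N) : Module.Finite ℝ (kerSub R) :=
  Module.Finite.of_basis (kerBasis K)

lemma finrank_kerSub {R : DPair D0 D1} {N : ℕ} (K : KerD D0 R.A N) :
    Module.finrank ℝ (kerSub R) = N := by
  rw [Module.finrank_eq_card_basis (kerBasis K), Fintype.card_fin]

/-- the space of possible values of `(Q + 2c) u` at `z` -/
def W0 (D : Dat n M κ) (z : M) : Submodule ℝ (κ → ℝ) where
  carrier := {y | (∀ a, ∑ b, D.Q a b z * y b = 0) ∧ ∀ a, ∑ b, D.p a b z * y b = y a}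
  zero_mem' := ⟨fun a => by simp, fun a => by simp⟩
  add_mem' := by
    rintro u v ⟨h1, h2⟩ ⟨h3, h4⟩
    refine ⟨fun a => ?_, fun a => ?_⟩
    · simp only [Pi.add_apply, mul_add, Finset.sum_add_distrib, h1 a, h3 a, add_zero]
    · simp only [Pi.add_apply, mul_add, Finset.sum_add_distrib, h2 a, h4 a]
  smul_mem' := by
    rintro c u ⟨h1, h2⟩
    refine ⟨fun a => ?_, fun a => ?_⟩
    · simp only [Pi.smul_apply, smul_eq_mul]
      have : ∑ b, D.Q a b z * (c * u b) = c * ∑ b, D.Q a b z * u b := by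
        rw [Finset.mul_sum]
        exact Finset.sum_congr rfl fun b _ => by ring
      rw [this, h1, mul_zero]
    · simp only [Pi.smul_apply, smul_eq_mul]
      have : ∑ b, D.p a b z * (c * u b) = c * ∑ b, D.p a b z * u b := by
        rw [Finset.mul_sum]
        exact Finset.sum_congr rfl fun b _ => by ring
      rw [this, h2]

/-- value of `(Q + 2c) u` at `z0` -/
def evL (R : DPair D0 D1) (c : ℝ) (z0 : M) : kerSub R →ₗ[ℝ] (κ → ℝ) where
  toFun u a := u0s D0 c (u : κ → M → ℝ) a z0
  map_add' u v := by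
    funext a
    simp only [u0s, tq, Submodule.coe_add, Pi.add_apply, mul_add, Finset.sum_add_distrib]
    ring
  map_smul' t u := by
    funext a
    simp only [u0s, tq, Submodule.coe_smul, Pi.smul_apply, smul_eq_mul, RingHom.id_apply]
    have : ∑ b, D0.Q a b z0 * (t * (u : κ → M → ℝ) b z0) =
        t * ∑ b, D0.Q a b z0 * (u : κ → M → ℝ) b z0 := by
      rw [Finset.mul_sum]
      exact Finset.sum_congr rfl fun b _ => by ring
    rw [this]
    ring

variable [CompactSpace M] [PreconnectedSpace M] [IsFiniteMeasureOnCompacts (μHE[n] : Measure M)]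

lemma ker_split' {R : DPair D0 D1} {c : ℝ} (hP : PolyPot D0 c) (hc : 0 < c) {u : κ → M → ℝ}
    (hu : u ∈ kerSub R) : (∀ a z, rs D0 c u a z = 0) ∧ ∀ a z, D0.cv (u0s D0 c u) a z = 0 := by
  refine ker_split hP hc hu.1 hu.2.1 fun v hv hs => ?_
  rw [← R.w0 u v hu.1 hv hu.2.1 hs]
  simp only [hu.2.2, zero_mul, Finset.sum_const_zero, integral_zero]

/-- **counting** -/
theorem ker_count {R : DPair D0 D1} {c : ℝ} (hP : PolyPot D0 c) (hc : 0 < c) {N : ℕ}
    (K : KerD D0 R.A N) (z0 : M) (hdim : Module.finrank ℝ (W0 D0 z0) ≤ 1) :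
    N ≤ Module.finrank ℝ (kerSub2 R c) + 1 := by
  have hfin := finite_kerSub K
  have hfin2 : Module.Finite ℝ (kerSub2 R c) := Submodule.finiteDimensional_of_le (kerSub2_le R c)
  have h1 := (evL R c z0).finrank_range_add_finrank_ker
  rw [finrank_kerSub K] at h1
  have h2 : LinearMap.range (evL R c z0) ≤ W0 D0 z0 := by
    rintro _ ⟨⟨u, hu⟩, rfl⟩
    have hs := (ker_split' hP hc hu).1
    refine ⟨fun a => ?_, fun a => ?_⟩
    · have h3 := hs a z0
      rw [rs] at h3
      have e : ∑ b, D0.Q a b z0 * (evL R c z0 ⟨u, hu⟩) b =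
          1 * tq D0 (tq D0 u) a z0 + 2 * c * tq D0 u a z0 := by
        simp only [evL, LinearMap.coe_mk, AddHom.coe_mk, u0s, tq, mul_add, Finset.sum_add_distrib,
          one_mul]
        congr 1
        rw [Finset.mul_sum]
        exact Finset.sum_congr rfl fun b _ => by ring
      rw [e, h3]
    · exact (sec_add D0 (sec_tq hP) hu.2.1 1 (2 * c)) a z0
  have h3 : Module.finrank ℝ (LinearMap.range (evL R c z0)) ≤ 1 :=
    (Submodule.finrank_mono h2).trans hdim
  have h4 : (LinearMap.ker (evL R c z0)).map (kerSub R).subtype ≤ kerSub2 R c := by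
    rintro _ ⟨⟨u, hu⟩, hk, rfl⟩
    refine ⟨hu, ?_⟩
    have hcv := (ker_split' hP hc hu).2
    have hsm : SmV (n := n) (u0s D0 c u) := smV_add (smV_tq D0 hu.1) hu.1 _ _
    have hz := parallel_zero D0 hsm hcv (z0 := z0) (fun a => congrFun (LinearMap.mem_ker.1 hk) a)
    intro a z
    have h5 := hz a z
    rw [u0s] at h5
    simp only [Submodule.subtype_apply]
    linarith
  have h5 : Module.finrank ℝ (LinearMap.ker (evL R c z0)) ≤ Module.finrank ℝ (kerSub2 R c) := by
    rw [← Submodule.finrank_map_subtype_eq]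
    exact Submodule.finrank_mono h4
  omega

end Crest.Agent.R249.Ker57
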