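import Crest.Agent.R249.Kil4_805
import Crest.Agent.R249.C2j_198

/-!
# R249 part C, [KER] 3 (helper57): the Killing field of a twistor section of `Λ⁻` (mirror image of
`Kil4_805`), over a frame ring.
-/

set_option autoImplicit false
set_option linter.unusedSimpArgs false
set_option linter.unusedSectionVars false

namespace Crest.Agent.R249.Ker57

open Finset Matrix Crest.Agent.R249.Fr129 Crest.Agent.R249.Fr129.Frame Crest.Agent.R249.Kil1_805
  Crest.Agent.R249.C2_198

/-- `kV V a = K_a V`, the three anti-self-dual complex structures applied to a vector. -/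
def kV {S : Type*} [CommRing S] (V : Fin 4 → S) (a : Fin 3) (l : Fin 4) : S :=
  (![![V 1, -V 0, -V 3, V 2], ![V 2, V 3, -V 0, -V 1], ![V 3, -V 2, V 1, -V 0]] : Fin 3 → Fin 4 → S) a l

variable {S : Type*} [CommRing S] [Algebra ℝ S] (F : Frame 4 S)

lemma kV_eq (V : Fin 4 → S) (a : Fin 3) (k : Fin 4) : kV V a k = ∑ l, K S a k l * V l := by
  fin_cases a <;> fin_cases k <;> simp [kV, K, Fin.sum_univ_four]

/-- The complex structures are parallel. -/
lemma kV_par (V : Fin 4 → S) (k l : Fin 4) (b : Fin 3) :
    F.cov (asc F) k (fun b => kV V b l) b - ∑ m, F.w k l m * kV V b m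
      = kV (BV F V k) b l := by
  fin_cases b <;> fin_cases l <;>
    simp [cov, kV, BV_eq, asc, cr, eta, Fin.sum_univ_four, Fin.sum_univ_three, w_self, w10, w20, w30,
      w21, w31, w32] <;> ring

/-- The twistor equation for a section `σ` of `Λ⁻`: `∇_k σ_b = -(K_b V)_k`. -/
def TwistM (σ : Fin 3 → S) (V : Fin 4 → S) : Prop := ∀ k b, F.cov (asc F) k σ b = - kV V b k

lemma hess_twist {σ : Fin 3 → S} {V : Fin 4 → S} (h : TwistM F σ V) (k l : Fin 4) (b : Fin 3) :
    F.hess (asc F) k l σ b = - kV (BV F V k) b l := by
  have h0 : F.cov (asc F) l σ = - (fun b => kV V b l) := by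
    funext b; rw [h l b]; rfl
  rw [hess, h0, F.cov_neg, ← kV_par]
  simp only [h _ _, Pi.neg_apply, mul_neg, sum_neg_distrib]
  ring

lemma twist_eq {σ : Fin 3 → S} {V : Fin 4 → S} (h : TwistM F σ V) (k l : Fin 4) (b : Fin 3) :
    - kV (BV F V k) b l + kV (BV F V l) b k = (cr (EE F k l) *ᵥ σ) b := by
  have := congrFun (F.hess_comm (asc F) k l σ) b
  rw [Pi.add_apply, hess_twist F h, hess_twist F h, curv_asc] at this
  linear_combination this

/-- if `C = κ I` then the vector field of a twistor section is Killing, and `κ σ` is determined by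
its first derivatives. -/
theorem twist_killing {lam : S} (hE : F.Einstein lam) {κ : S}
    (hC : ∀ c d, CC F c d = if c = d then κ else 0) {σ : Fin 3 → S} {V : Fin 4 → S}
    (h : TwistM F σ V) : Kill F V ∧ ((∀ k j, BV F V k j = 0) → ∀ c, κ * σ c = 0) := by
  have e := twist_eq F h
  have E01 := e 0 1
  have E02 := e 0 2
  have E03 := e 0 3
  have E12 := e 1 2
  have E13 := e 1 3
  have E23 := e 2 3
  have E010 := E01 0
  have E011 := E01 1
  have E012 := E01 2
  have E020 := E02 0
  have E021 := E02 1
  have E022 := E02 2
  have E030 := E03 0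
  have E031 := E03 1
  have E032 := E03 2
  have E120 := E12 0
  have E121 := E12 1
  have E122 := E12 2
  have E130 := E13 0
  have E131 := E13 1
  have E132 := E13 2
  have E230 := E23 0
  have E231 := E23 1
  have E232 := E23 2
  obtain ⟨a1, a2, a3, a4, a5, a6⟩ := EE_eq F hE 0
  obtain ⟨b1, b2, b3, b4, b5, b6⟩ := EE_eq F hE 1
  obtain ⟨c1, c2, c3, c4, c5, c6⟩ := EE_eq F hE 2
  simp [kV, Matrix.mulVec, dotProduct, Fin.sum_univ_three, cr, a1, a2, a3, a4, a5, a6, b1, b2, b3,
    b4, b5, b6, c1, c2, c3, c4, c5, c6, hC] at E010 E011 E012 E020 E021 E022 E030 E031 E032 E120 E121 E122 E130 E131 E132 E230 E231 E232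
  constructor
  · intro k j
    fin_cases k <;> fin_cases j <;> simp only [Fin.zero_eta, Fin.mk_one, Fin.reduceFinMk]
    · linear_combination E010 + E021 + E122
    · linear_combination E031 + E132
    · linear_combination E012 - E120
    · linear_combination -E130 - E011
    · linear_combination E031 + E132
    · linear_combination E010 - E122 - E021
    · linear_combination E020 + E011
    · linear_combination E030 + E012
    · linear_combination E012 - E120
    · linear_combination E020 + E011
    · linear_combination E021 - E122 - E010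
    · linear_combination E031 + E022
    · linear_combination -E130 - E011
    · linear_combination E030 + E012
    · linear_combination E031 + E022
    · linear_combination 2 * E032 - E010 - E021 - E122
  · intro hB c
    simp only [hB] at E011 E012 E022
    fin_cases c <;> simp only [Fin.zero_eta, Fin.mk_one, Fin.reduceFinMk]
    · linear_combination E022
    · linear_combination -E012
    · linear_combination E011

/-- from 198's twistor equation -/
theorem twistM_of {σ : Fin 3 → S}
    (h : dir F (Frame.tens (e0 F) (asc F)) (tw (cK S)) (emb σ) = 0) :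
    TwistM F σ (fun j => Frame.third * V3 F σ j) := by
  intro k b
  have h1 := twistor h k b
  have h3 : (3 : S) * Frame.third = 1 := Frame.three_third
  rw [kV_eq]
  have e : ∑ l, K S b k l * (Frame.third * V3 F σ l) = Frame.third * ∑ l, K S b k l * V3 F σ l := by
    rw [mul_sum]; exact sum_congr rfl fun l _ => by ring
  rw [e]
  linear_combination Frame.third * h1 - F.cov (asc F) k σ b * h3

end Crest.Agent.R249.Ker57
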