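import Crest.Agent.R249.Wk1_198
import Crest.Agent.R249.Dic_805
import Crest.Agent.R249.Vf4_281

/-!
Row 249, leaf WEAK (helper198), germ level: sections, covariant derivatives and the operators
`opA`, `opB` of `Tz0_805` in local frames.
-/

set_option autoImplicit false
set_option maxSynthPendingDepth 3
set_option linter.unusedSectionVars false

open Filter Topology Set Bundle Manifold Matrix
open scoped ContDiff
open Crest.GeometryTopology.CoordMetric Crest.GeometryTopology.ChartCurvature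
  Crest.GeometryTopology.PointedLimit
open Crest.Agent.R202.Tens Crest.Agent.R247.Bo84 Crest.Agent.R249.FrmB_285 Crest.Agent.R249.Vf281
  Crest.Agent.R249.Tz1_805 Crest.Agent.R249.Tz2_805
open Crest.Agent.R249.Fr129 Crest.Agent.R249.C2_198
open Crest.Agent.R249.Sg129 hiding fg fg_add fg_sub fg_mul fg_const fg_sum ev_fg contMDiff_inner VSm_mCov
open Crest.Agent.R249.Tz805 Crest.Agent.R249.Dic805

noncomputable section

namespace Crest.Agent.R249.Wk198

variable {n : ℕ} {M : Type*} [TopologicalSpace M] [ChartedSpace (EuclideanSpace ℝ (Fin n)) M]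
  [IsManifold 𝓘(ℝ, EuclideanSpace ℝ (Fin n)) ∞ M]
  [RiemannianBundle (fun x : M => TangentSpace 𝓘(ℝ, EuclideanSpace ℝ (Fin n)) x)]
  [IsContMDiffRiemannianBundle 𝓘(ℝ, EuclideanSpace ℝ (Fin n)) ∞ (EuclideanSpace ℝ (Fin n))
      (fun x : M => TangentSpace 𝓘(ℝ, EuclideanSpace ℝ (Fin n)) x)]

local notation "𝔼" => EuclideanSpace ℝ (Fin n)
local notation "𝓘E" => 𝓘(ℝ, EuclideanSpace ℝ (Fin n))

/-- vector of germs of a vector valued function -/
def fv {κ : Type} (z : M) (u : κ → M → ℝ) : κ → SG (chartCentre n M z) := fun x => fg (n := n) z (u x)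

section smooth

variable {κ κ0 κ1 : Type} [Fintype κ] [Fintype κ0] [Fintype κ1]

lemma VSm_cv (D : Bun n M κ) {u : κ → M → ℝ} (hu : SmU (n := n) u) (a : κ) (z : M) :
    VSm n ∞ (D.cv u a) z :=
  (VSm_mgrad (hu a z) (by simp) le_rfl).add
    (VSm.sum _ fun b _ => VSm.smul le_rfl (hu b).contMDiffAt (D.smW a b z))

lemma sm_opA (D0 : Bun n M κ0) {cc : κ1 → κ0 → (p : M) → TangentSpace 𝓘E p}
    (hc : ∀ x y z, VSm n ∞ (cc x y) z) {u : κ0 → M → ℝ} (hu : SmU (n := n) u) :
    SmU (n := n) (opA D0 cc u) := fun x =>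
  ContMDiff.sum fun y _ => contMDiff_inner (VSm_cv D0 hu y) (hc x y)

lemma opB_eq (D1 : Bun n M κ1) (cc : κ1 → κ0 → (p : M) → TangentSpace 𝓘E p)
    (w : κ1 → M → ℝ) (y : κ0) (z : M) :
    opB D1 cc w y z = - opA D1 (fun y x => cc x y) w y z := rfl

lemma sm_opB (D1 : Bun n M κ1) {cc : κ1 → κ0 → (p : M) → TangentSpace 𝓘E p}
    (hc : ∀ x y z, VSm n ∞ (cc x y) z) {w : κ1 → M → ℝ} (hw : SmU (n := n) w) :
    SmU (n := n) (opB D1 cc w) := fun y =>
  (sm_opA D1 (cc := fun y x => cc x y) (fun y x z => hc x y z) hw y).neg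

end smooth

section loc

variable {z : M} {e : Fin n → EuclideanSpace ℝ (Fin n) → EuclideanSpace ℝ (Fin n)}
variable {h : ONF (chartMetric n M z) (chartAt (EuclideanSpace ℝ (Fin n)) z).target
      (chartCentre n M z) e}

section lf

variable {κ ι : Type} [Fintype κ] [Fintype ι] [DecidableEq ι] {D : Bun n M κ}
  {a : Fin n → Matrix ι ι (SG (chartCentre n M z))} {j : Matrix κ ι (SG (chartCentre n M z))}

/-- the connection matrices of a local frame are skew -/
theorem lf_skew (L : LF D h a j) : Frame.Skew a := by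
  intro k
  set om : Matrix κ κ (SG (chartCentre n M z)) := Matrix.of fun x y => vg z e (D.W x y) k with hom
  have hsk : omᵀ = - om := by
    ext x y
    have e1 : D.W y x = fun q => - D.W x y q := funext fun q => D.skew y x q
    have h1 : vg z e (D.W y x) k = - vg z e (D.W x y) k := by
      rw [e1]; exact h.vg_neg (D.smW x y) k
    simpa [hom] using h1
  have h1 : a k = jᵀ * (dM (h.frameOf.D k) j + om * j) := by
    rw [L.dj k, ← Matrix.mul_assoc, L.jtj, Matrix.one_mul]
  have h2 : dM (h.frameOf.D k) jᵀ * j + jᵀ * dM (h.frameOf.D k) j = 0 := by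
    rw [← dM_mul, L.jtj, dM_one]
  have h3 : a k + (a k)ᵀ = 0 := by
    rw [h1, Matrix.transpose_mul, Matrix.transpose_add, Matrix.transpose_mul, hsk,
      Matrix.transpose_transpose, ← dM_transpose, Matrix.mul_add, Matrix.add_mul, ← h2]
    have : jᵀ * -om * j = - (jᵀ * (om * j)) := by
      rw [Matrix.mul_neg, Matrix.neg_mul, Matrix.mul_assoc]
    rw [this]; abel
  intro x y
  have := congrFun (congrFun h3 x) y
  rw [Matrix.add_apply, Matrix.transpose_apply, Matrix.zero_apply] at this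
  exact eq_neg_of_add_eq_zero_left this

/-- sections -/
theorem lf_sec (L : LF D h a j) {u : κ → M → ℝ} (hu : SmU (n := n) u) (hs : D.Sec u) :
    j *ᵥ (jᵀ *ᵥ fv z u) = fv z u := by
  rw [Matrix.mulVec_mulVec, L.jjt]
  funext x
  have e1 : u x = fun q => ∑ y, D.p x y q * u y q := funext fun q => (hs x q).symm
  simp only [Matrix.mulVec, dotProduct, Matrix.of_apply, fv]
  conv_rhs => rw [e1]
  rw [fg_sum (n := n) (z := z) Finset.univ (f := fun y q => D.p x y q * u y q)
    (fun y => (D.smp x y).mul (hu y))]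
  exact Finset.sum_congr rfl fun y _ => (fg_mul (D.smp x y) (hu y)).symm

/-- covariant derivative of a vector valued function, in germs -/
lemma vg_cv (D : Bun n M κ) {u : κ → M → ℝ} (hu : SmU (n := n) u) (k : Fin n) (x : κ) :
    vg z e (D.cv u x) k = h.frameOf.D k (fg (n := n) z (u x))
      + ∑ b, vg z e (D.W x b) k * fg (n := n) z (u b) := by
  have e1 : D.cv u x = fun q => mgrad n (u x) q + ∑ b, u b q • D.W x b q := rfl
  rw [e1, vg_add h (fun q => VSm_mgrad (hu x q) (by simp) le_rfl)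
    (fun q => VSm.sum _ fun b _ => VSm.smul le_rfl (hu b).contMDiffAt (D.smW x b q)),
    vg_sum h _ (fun b q => VSm.smul le_rfl (hu b).contMDiffAt (D.smW x b q)), D_fg h (hu x)]
  congr 1
  refine Finset.sum_congr rfl fun b _ => ?_
  rw [vg_smul h (hu b) (D.smW x b), mul_comm]

/-- covariant derivative of a section in the local frame -/
theorem lf_cv (L : LF D h a j) {u : κ → M → ℝ} (hu : SmU (n := n) u) (hs : D.Sec u) (k : Fin n)
    (x : κ) : vg z e (D.cv u x) k = (j *ᵥ h.frameOf.cov a k (jᵀ *ᵥ fv z u)) x := by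
  have hU := lf_sec L hu hs
  set f := jᵀ *ᵥ fv z u with hf
  rw [vg_cv (h := h) D hu k x]
  have e0 : ∀ y, fg (n := n) z (u y) = ∑ i, j y i * f i := fun y => (congrFun hU y).symm
  simp only [e0, Frame.D_sum, Frame.D_mul]
  have h1 := congrArg (fun A => (A *ᵥ f) x) (L.dj k)
  simp only [Matrix.add_mulVec, Pi.add_apply, ← Matrix.mulVec_mulVec] at h1
  have e2 : h.frameOf.cov a k f = (fun i => h.frameOf.D k (f i)) + a k *ᵥ f := by
    funext i; simp only [Frame.cov, Pi.add_apply, Matrix.mulVec, dotProduct]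
  rw [e2, Matrix.mulVec_add, Pi.add_apply, ← h1]
  simp only [Matrix.mulVec, dotProduct, Matrix.of_apply, Sg129.dM, Finset.sum_add_distrib]
  ring

end lf

section cl

variable {κ0 κ1 : Type} [Fintype κ0] [Fintype κ1] {D0 : Bun n M κ0} {D1 : Bun n M κ1}
  {cc : κ1 → κ0 → (p : M) → TangentSpace 𝓘(ℝ, EuclideanSpace ℝ (Fin n)) p}
  {ι0 ι1 : Type} [Fintype ι0] [DecidableEq ι0] [Fintype ι1] [DecidableEq ι1]
  {a0 : Fin n → Matrix ι0 ι0 (SG (chartCentre n M z))}
  {a1 : Fin n → Matrix ι1 ι1 (SG (chartCentre n M z))}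
  {c : Fin n → Matrix ι1 ι0 (SG (chartCentre n M z))}
  {j0 : Matrix κ0 ι0 (SG (chartCentre n M z))}
  {j1 : Matrix κ1 ι1 (SG (chartCentre n M z))}

/-- the transposed symbol -/
theorem cl_swap (C : CLoc D0 D1 cc h a0 a1 c j0 j1) :
    CLoc D1 D0 (fun y x => cc x y) h a1 a0 (fun i => (c i)ᵀ) j1 j0 where
  l0 := C.l1
  l1 := C.l0
  par := C.par.transpose (lf_skew C.l0) (lf_skew C.l1)
  cl0 i k := by simpa only [Matrix.transpose_transpose] using C.cl1 i k
  cl1 i k := by simpa only [Matrix.transpose_transpose] using C.cl0 i k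
  sym y x k := by
    rw [C.sym x y k]
    have : j0 * (c k)ᵀ * j1ᵀ = (j1 * c k * j0ᵀ)ᵀ := by
      rw [Matrix.transpose_mul, Matrix.transpose_mul, Matrix.transpose_transpose,
        Matrix.mul_assoc]
    rw [this, Matrix.transpose_apply]

/-- the operator `A` in local frames -/
theorem cl_opA (C : CLoc D0 D1 cc h a0 a1 c j0 j1) (hc : ∀ x y z, VSm n ∞ (cc x y) z)
    {u : κ0 → M → ℝ} (hu : SmU (n := n) u) (hs : D0.Sec u) :
    fv z (opA D0 cc u) = j1 *ᵥ dir h.frameOf a0 c (j0ᵀ *ᵥ fv z u) := by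
  funext x
  set f := j0ᵀ *ᵥ fv z u with hf
  have e0 : fv z (opA D0 cc u) x
      = ∑ y, ∑ k, vg z e (D0.cv u y) k * vg z e (cc x y) k := by
    have e1 : opA D0 cc u x = fun q => ∑ y, (inner ℝ (D0.cv u y q) (cc x y q) : ℝ) := rfl
    rw [fv, e1, fg_sum (n := n) (z := z) Finset.univ
      (f := fun y q => (inner ℝ (D0.cv u y q) (cc x y q) : ℝ))
      (fun y => contMDiff_inner (VSm_cv D0 hu y) (hc x y))]
    exact Finset.sum_congr rfl fun y _ => fg_inner h (VSm_cv D0 hu y) (hc x y)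
  rw [e0, Finset.sum_comm, dir, Matrix.mulVec_sum, Finset.sum_apply]
  refine Finset.sum_congr rfl fun k _ => ?_
  have e2 : j1 *ᵥ (c k *ᵥ h.frameOf.cov a0 k f)
      = (j1 * c k * j0ᵀ) *ᵥ (j0 *ᵥ h.frameOf.cov a0 k f) := by
    rw [Matrix.mulVec_mulVec, Matrix.mulVec_mulVec, Matrix.mul_assoc (j1 * c k), C.l0.jtj,
      Matrix.mul_one]
  rw [e2, Matrix.mulVec, dotProduct]
  refine Finset.sum_congr rfl fun y _ => ?_
  rw [lf_cv C.l0 hu hs, C.sym, mul_comm]

/-- the operator `B` in local frames -/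
theorem cl_opB (C : CLoc D0 D1 cc h a0 a1 c j0 j1) (hc : ∀ x y z, VSm n ∞ (cc x y) z)
    {w : κ1 → M → ℝ} (hw : SmU (n := n) w) (hs : D1.Sec w) :
    fv z (opB D1 cc w) = j0 *ᵥ dirs h.frameOf a1 c (j1ᵀ *ᵥ fv z w) := by
  have h1 := cl_opA (cl_swap C) (fun y x z => hc x y z) hw hs
  rw [dirs_eq, Matrix.mulVec_neg, ← h1]
  funext y
  exact Sg129.fg_neg (centre_mem z)
    (sm_opA D1 (cc := fun y x => cc x y) (fun y x z => hc x y z) hw y)

end cl

end loc

end Crest.Agent.R249.Wk198
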