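import Crest.Agent.R249.Ker57b_57
import Crest.Agent.R249.Ker57c_57
import Crest.Agent.R249.DenP_714
import Crest.Agent.R249.Wk2_198
import Crest.Agent.R249.DicC_129

/-!
# R249 part C, [KER] 4 (helper57): from germs to `PolyPot`.
-/

set_option autoImplicit false
set_option linter.unusedSectionVars false
set_option linter.unusedSimpArgs false
set_option maxSynthPendingDepth 3

open Filter Topology Set Bundle Manifold Matrix MeasureTheory
open scoped ContDiff ENNReal NNReal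
open Crest.GeometryTopology.CoordMetric Crest.GeometryTopology.ChartCurvature
  Crest.GeometryTopology.PointedLimit
open Crest.Agent.R202.Tens Crest.Agent.R247.Bo84 Crest.Agent.R249.Vf281
  Crest.Agent.R249.Tz1_805 Crest.Agent.R249.Tz2_805
open Crest.Agent.R249.Fr129 Crest.Agent.R249.C2_198
open Crest.Agent.R247.Ms322 Crest.Agent.R247.Dir593 Crest.Agent.R247.Frd657
open Crest.Agent.R249.Tv57
open Crest.Agent.R249.Sg129 hiding fg fg_add fg_sub fg_mul fg_const fg_sum ev_fg contMDiff_inner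
  VSm_mCov
open Crest.Agent.R249.Tz805 Crest.Agent.R249.Wk198

noncomputable section

namespace Crest.Agent.R249.Ker57

/-! ### algebra of `J (c N) Jᵀ` -/

section alg

abbrev I12 := Fin 4 × Fin 3

lemma NN_pow4 (S : Type*) [CommRing S] : NN S * NN S * NN S * NN S =
    (8:S) • (NN S * NN S * NN S) - (4:S) • (NN S * NN S) - (48:S) • NN S := by
  have h := NN_poly S
  have e : NN S * (NN S - 4) * ((NN S + 2) * (NN S - 6)) =
      NN S * NN S * NN S * NN S - 8 * (NN S * NN S * NN S) + 4 * (NN S * NN S) + 48 * NN S := by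
    noncomm_ring
  rw [e] at h
  have e1 : ∀ (k : ℕ) [k.AtLeastTwo] (X : Matrix I12 I12 S),
      (OfNat.ofNat k : Matrix I12 I12 S) * X = (OfNat.ofNat k : S) • X := by
    intro k _ X
    have : (OfNat.ofNat k : Matrix I12 I12 S) = (OfNat.ofNat k : S) • (1 : Matrix I12 I12 S) := by
      ext x y
      by_cases hxy : x = y
      · subst hxy
        simp only [Matrix.ofNat_apply, Matrix.smul_apply, Matrix.one_apply_eq, smul_eq_mul, mul_one,
          if_true]
        rfl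
      · simp [Matrix.one_apply, hxy, Matrix.ofNat_apply]
    rw [this, Matrix.smul_mul, Matrix.one_mul]
  rw [e1 8, e1 4, e1 48] at h
  have h2 := eq_neg_of_add_eq_zero_left h
  rw [eq_sub_iff_add_eq, eq_sub_iff_add_eq, ← sub_eq_zero, ← h]
  abel

variable {κ : Type} [Fintype κ] {J : Matrix κ I12 ℝ} (hJ : Jᵀ * J = 1)
include hJ

lemma JJ_mul (A B : Matrix I12 I12 ℝ) : (J * A * Jᵀ) * (J * B * Jᵀ) = J * (A * B) * Jᵀ := by
  have : (J * A * Jᵀ) * (J * B * Jᵀ) = J * A * (Jᵀ * J) * B * Jᵀ := by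
    simp only [Matrix.mul_assoc]
  rw [this, hJ, Matrix.mul_one, Matrix.mul_assoc J A B]

theorem polyAt_of {c : ℝ} {Q : κ → κ → ℝ} (hQ : Matrix.of Q = J * (c • NN ℝ) * Jᵀ) :
    PolyAt Q c := by
  set T : Matrix κ κ ℝ := Matrix.of Q with hT
  have h2 : T * T = (c ^ 2) • (J * (NN ℝ * NN ℝ) * Jᵀ) := by
    rw [hQ, JJ_mul hJ, Matrix.smul_mul, Matrix.mul_smul, Matrix.mul_smul, Matrix.mul_smul,
      Matrix.smul_mul, Matrix.smul_mul, smul_smul, sq]
  have h3 : T * T * T = (c ^ 3) • (J * (NN ℝ * NN ℝ * NN ℝ) * Jᵀ) := by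
    rw [h2, hQ, Matrix.smul_mul, JJ_mul hJ, Matrix.mul_smul, Matrix.mul_smul, Matrix.smul_mul,
      smul_smul]
    rfl
  have h4 : T * T * T * T = (c ^ 4) • (J * (NN ℝ * NN ℝ * NN ℝ * NN ℝ) * Jᵀ) := by
    rw [h3, hQ, Matrix.smul_mul, JJ_mul hJ, Matrix.mul_smul, Matrix.mul_smul, Matrix.smul_mul,
      smul_smul]
    rfl
  have h1 : T = c • (J * NN ℝ * Jᵀ) := by
    rw [hQ, Matrix.mul_smul, Matrix.smul_mul]
  have key : T * T * T * T = (8 * c) • (T * T * T) - (4 * c ^ 2) • (T * T) - (48 * c ^ 3) • T := by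
    rw [h4, h3, h2, h1, NN_pow4, Matrix.mul_sub, Matrix.mul_sub, Matrix.sub_mul, Matrix.sub_mul]
    simp only [Matrix.mul_smul, Matrix.smul_mul, smul_sub, smul_smul]
    congr 1
    · congr 1
      · congr 1; ring
      · congr 1; ring
    · congr 1; ring
  intro a b
  have k := congrFun (congrFun key a) b
  rw [Matrix.sub_apply, Matrix.sub_apply, Matrix.smul_apply, Matrix.smul_apply, Matrix.smul_apply,
    smul_eq_mul, smul_eq_mul, smul_eq_mul] at k
  have a2 : ∀ a b, (T * T) a b = ∑ x, Q a x * Q x b := fun a b => rfl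
  have a3 : ∀ a b, (T * T * T) a b = ∑ x, ∑ y, Q a x * Q x y * Q y b := by
    intro a b
    rw [Matrix.mul_assoc, Matrix.mul_apply]
    refine Finset.sum_congr rfl fun x _ => ?_
    rw [a2, Finset.mul_sum]
    exact Finset.sum_congr rfl fun y _ => by rw [mul_assoc]; rfl
  have a4 : (T * T * T * T) a b = ∑ x, ∑ y, ∑ s, Q a x * Q x y * Q y s * Q s b := by
    rw [Matrix.mul_assoc, Matrix.mul_assoc, ← Matrix.mul_assoc T T T, Matrix.mul_apply]
    refine Finset.sum_congr rfl fun x _ => ?_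
    rw [a3, Finset.mul_sum]
    refine Finset.sum_congr rfl fun y _ => ?_
    rw [Finset.mul_sum]
    exact Finset.sum_congr rfl fun s _ => by
      change Q a x * _ = _
      ring
  rw [a4, a3, a2] at k
  exact k

/-- on the kernel of `Q` -/
theorem ker_pt {c : ℝ} (hc : c ≠ 0) {Q p : κ → κ → ℝ} (hQ : Matrix.of Q = J * (c • NN ℝ) * Jᵀ)
    (hp : Matrix.of p = J * Jᵀ) {y : κ → ℝ} (h1 : ∀ a, ∑ b, Q a b * y b = 0)
    (h2 : ∀ a, ∑ b, p a b * y b = y a) : y = (1 / 3 * embdT (Jᵀ *ᵥ y)) • (J *ᵥ embd (1:ℝ)) := by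
  set v := Jᵀ *ᵥ y with hv
  have e1 : J *ᵥ v = y := by
    rw [hv, Matrix.mulVec_mulVec, ← hp]
    funext a
    exact h2 a
  have e2 : NN ℝ *ᵥ v = 0 := by
    have h3 : (Matrix.of Q) *ᵥ y = 0 := funext h1
    rw [hQ, ← Matrix.mulVec_mulVec, ← hv, ← Matrix.mulVec_mulVec] at h3
    have h4 : Jᵀ *ᵥ (J *ᵥ ((c • NN ℝ) *ᵥ v)) = 0 := by rw [h3, Matrix.mulVec_zero]
    rw [Matrix.mulVec_mulVec, hJ, Matrix.one_mulVec, Matrix.smul_mulVec] at h4
    exact (smul_eq_zero.1 h4).resolve_left hc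
  have e3 : (3:ℝ) • v = embd (embdT v) := eig_0 e2
  have e4 : embd (embdT v) = embdT v • embd (1:ℝ) := by
    rw [← dZ_vec, ← dZ_vec]
    funext x
    rw [Pi.smul_apply, smul_eq_mul]
    ring
  have e5 : v = (1 / 3 * embdT v) • embd (1:ℝ) := by
    rw [e4] at e3
    rw [mul_smul, ← e3, smul_smul]
    norm_num
  conv_lhs => rw [← e1, e5]
  rw [Matrix.mulVec_smul]

end alg

/-! ### the germ of the potential is parallel -/

section germ

variable {n : ℕ} {M : Type*} [TopologicalSpace M] [ChartedSpace (EuclideanSpace ℝ (Fin n)) M]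
  [IsManifold 𝓘(ℝ, EuclideanSpace ℝ (Fin n)) ∞ M]
  [RiemannianBundle (fun x : M => TangentSpace 𝓘(ℝ, EuclideanSpace ℝ (Fin n)) x)]
  [IsContMDiffRiemannianBundle 𝓘(ℝ, EuclideanSpace ℝ (Fin n)) ∞ (EuclideanSpace ℝ (Fin n))
      (fun x : M => TangentSpace 𝓘(ℝ, EuclideanSpace ℝ (Fin n)) x)]

local notation "𝓘E" => 𝓘(ℝ, EuclideanSpace ℝ (Fin n))

variable {κ : Type} [Fintype κ] {ι : Type} [Fintype ι] [DecidableEq ι] {D : Bun n M κ} {z : M}
  {e : Fin n → EuclideanSpace ℝ (Fin n) → EuclideanSpace ℝ (Fin n)}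
  {h : ONF (chartMetric n M z) (chartAt (EuclideanSpace ℝ (Fin n)) z).target (chartCentre n M z) e}
  {a : Fin n → Matrix ι ι (SG (chartCentre n M z))} {j : Matrix κ ι (SG (chartCentre n M z))}

lemma om_t (D : Bun n M κ) (h : ONF (chartMetric n M z) (chartAt (EuclideanSpace ℝ (Fin n)) z).target
    (chartCentre n M z) e) (k : Fin n) :
    (Matrix.of fun x y => vg z e (D.W x y) k)ᵀ = - (Matrix.of fun x y => vg z e (D.W x y) k) := by
  ext x y
  have e1 : D.W y x = fun q => - D.W x y q := funext fun q => D.skew y x q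
  have h1 : vg z e (D.W y x) k = - vg z e (D.W x y) k := by
    rw [e1]; exact h.vg_neg (D.smW x y) k
  simpa using h1

/-- `j N jᵀ` is parallel -/
lemma par_germ (L : LF D h a j) {N : Matrix ι ι (SG (chartCentre n M z))}
    (hN : ∀ k x y, h.frameOf.D k (N x y) = 0) (hc : ∀ k, a k * N = N * a k) (k : Fin n) :
    dM (h.frameOf.D k) (j * N * jᵀ) + (Matrix.of fun x y => vg z e (D.W x y) k) * (j * N * jᵀ)
      - (j * N * jᵀ) * (Matrix.of fun x y => vg z e (D.W x y) k) = 0 := by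
  have hsk := om_t D h k
  have hj : dM (h.frameOf.D k) j = j * a k - (Matrix.of fun x y => vg z e (D.W x y) k) * j :=
    eq_sub_of_add_eq (L.dj k)
  set om : Matrix κ κ (SG (chartCentre n M z)) := Matrix.of fun x y => vg z e (D.W x y) k with hom
  have hdN : dM (h.frameOf.D k) N = 0 := by ext x y; exact hN k x y
  have hat : (a k)ᵀ = - a k := by ext x y; exact lf_skew L k y x
  have hjt : dM (h.frameOf.D k) jᵀ = jᵀ * om - a k * jᵀ := by
    rw [dM_transpose, hj, Matrix.transpose_sub, Matrix.transpose_mul, Matrix.transpose_mul, hat, hsk,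
      Matrix.mul_neg, Matrix.neg_mul]
    abel
  rw [dM_mul, dM_mul, hdN, hj, hjt]
  have e1 : j * a k * N * jᵀ = j * N * a k * jᵀ := by
    rw [Matrix.mul_assoc j (a k) N, hc k, ← Matrix.mul_assoc j N (a k)]
  simp only [Matrix.sub_mul, Matrix.mul_sub, Matrix.mul_zero, add_zero]
  have e2 : j * N * (a k * jᵀ) = j * N * a k * jᵀ := (Matrix.mul_assoc _ _ _).symm
  have e3 : om * (j * N * jᵀ) = om * j * N * jᵀ := by simp only [Matrix.mul_assoc]
  have e4 : j * N * (jᵀ * om) = j * N * jᵀ * om := (Matrix.mul_assoc _ _ _).symm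
  rw [e1, e2, e3, e4]
  abel

/-- the potential is parallel at `z` -/
lemma par_pt (L : LF D h a j) {N : Matrix ι ι (SG (chartCentre n M z))}
    (hN : ∀ k x y, h.frameOf.D k (N x y) = 0) (hc : ∀ k, a k * N = N * a k)
    {Q : κ → κ → M → ℝ} (hQ : ∀ x y, ContMDiff 𝓘E 𝓘(ℝ, ℝ) ∞ (Q x y))
    (hg : (Matrix.of fun y y' => fg (n := n) z (Q y y')) = j * N * jᵀ) (x y : κ) :
    mgrad n (Q x y) z + ∑ w, (Q w y z • D.W x w z - Q x w z • D.W w y z) = 0 := by
  have s1 : ∀ q, VSm n ∞ (mgrad n (Q x y)) q := fun q => VSm_mgrad (hQ x y q) (by simp) le_rfl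
  have s2 : ∀ w q, VSm n ∞ (fun q => Q w y q • D.W x w q) q := fun w q =>
    VSm.smul le_rfl (hQ w y).contMDiffAt (D.smW x w q)
  have s3 : ∀ w q, VSm n ∞ (fun q => Q x w q • D.W w y q) q := fun w q =>
    VSm.smul le_rfl (hQ x w).contMDiffAt (D.smW w y q)
  have s4 : ∀ w q, VSm n ∞ (fun q => Q w y q • D.W x w q - Q x w q • D.W w y q) q := fun w q => by
    have := (s2 w q).add (s3 w q).neg
    simpa only [sub_eq_add_neg] using this
  have s5 : ∀ q, VSm n ∞ (fun q => ∑ w, (Q w y q • D.W x w q - Q x w q • D.W w y q)) q := fun q =>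
    VSm.sum _ fun w _ => s4 w q
  have s6 : ∀ q, VSm n ∞ (fun q => mgrad n (Q x y) q +
      ∑ w, (Q w y q • D.W x w q - Q x w q • D.W w y q)) q := fun q => (s1 q).add (s5 q)
  have e1 := eq_sum_ev_vg h s6
  have e2 : ∀ k, vg z e (fun q => mgrad n (Q x y) q +
      ∑ w, (Q w y q • D.W x w q - Q x w q • D.W w y q)) k = 0 := by
    intro k
    rw [vg_add h s1 s5, vg_mgrad h (hQ x y), vg_sum h _ s4]
    have e3 : ∀ w, vg z e (fun q => Q w y q • D.W x w q - Q x w q • D.W w y q) k =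
        vg z e (D.W x w) k * fg z (Q w y) - fg z (Q x w) * vg z e (D.W w y) k := by
      intro w
      rw [vg_sub h (s2 w) (s3 w), vg_smul h (hQ w y) (D.smW x w), vg_smul h (hQ x w) (D.smW w y),
        mul_comm (fg z (Q w y))]
    simp only [e3, Finset.sum_sub_distrib]
    have e4 := congrFun (congrFun (par_germ L hN hc k) x) y
    rw [← hg] at e4
    rw [Matrix.sub_apply, Matrix.add_apply, Matrix.mul_apply, Matrix.mul_apply] at e4
    rw [← add_sub_assoc]
    exact e4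
  simp only [e2, map_zero, zero_smul, Finset.sum_const_zero] at e1
  exact e1

end germ

end Crest.Agent.R249.Ker57
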