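import Crest.Agent.R249.Ker4_254

/-!
# Kernel checker for polynomial inequalities, part 5: the checker

Blocks `0..5` of the packed number hold the entries `a b c d e f` of a symmetric matrix
`[[a, b, c], [b, d, e], [c, e, f]]`, block `6` holds the common offset.
-/

set_option autoImplicit false

namespace Crest.Agent.R249.Ker254

/-- signed packed vector `P - Q`, all digits at most `b` -/
structure SV where
  P : ℕ
  Q : ℕ
  b : ℕ

namespace SV

def add (x y : SV) : SV := ⟨Nat.add x.P y.P, Nat.add x.Q y.Q, Nat.add x.b y.b⟩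
def sub (x y : SV) : SV := ⟨Nat.add x.P y.Q, Nat.add x.Q y.P, Nat.add x.b y.b⟩
def smul (g : ℤ) (x : SV) : SV :=
  match g with
  | Int.ofNat k => ⟨Nat.mul k x.P, Nat.mul k x.Q, Nat.mul k x.b⟩
  | Int.negSucc k =>
    frc (Nat.succ k) fun k' => ⟨Nat.mul k' x.Q, Nat.mul k' x.P, Nat.mul k' x.b⟩

/-- force the evaluation -/
def force {α : Type} (x : SV) (k : SV → α) : α :=
  frc x.P fun P => frc x.Q fun Q => frc x.b fun b => k ⟨P, Q, b⟩

@[simp] theorem force_eq {α : Type} (x : SV) (k : SV → α) : force x k = k x := by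
  simp [force]

/-- coefficientwise nonnegativity; `W = 2 ^ w`, `H` = digits `2 ^ w` -/
def nn (W H : ℕ) (x : SV) : Bool :=
  (Nat.ble (Nat.succ x.b) W) && Nat.beq (Nat.land (Nat.sub (Nat.add x.P H) x.Q) H) H

/-- semantics -/
structure Is (w m : ℕ) (x : SV) (r : ℕ → ℤ) : Prop where
  ex : ∃ F G : ℕ → ℕ, Rep (w + 1) m x.b F x.P ∧ Rep (w + 1) m x.b G x.Q ∧
    ∀ p, r p = (F p : ℤ) - G p

variable {w m : ℕ} {x y : SV} {r s : ℕ → ℤ}

theorem Is.add (hx : Is w m x r) (hy : Is w m y s) : Is w m (x.add y) (fun p => r p + s p) := by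
  obtain ⟨F, G, hF, hG, h⟩ := hx.ex
  obtain ⟨F', G', hF', hG', h'⟩ := hy.ex
  exact ⟨_, _, hF.add hF', hG.add hG', fun p => by simp only [h, h']; push_cast; ring⟩

theorem Is.sub (hx : Is w m x r) (hy : Is w m y s) : Is w m (x.sub y) (fun p => r p - s p) := by
  obtain ⟨F, G, hF, hG, h⟩ := hx.ex
  obtain ⟨F', G', hF', hG', h'⟩ := hy.ex
  exact ⟨_, _, hF.add hG', hG.add hF', fun p => by simp only [h, h']; push_cast; ring⟩

theorem Is.smul (g : ℤ) (hx : Is w m x r) : Is w m (x.smul g) (fun p => g * r p) := by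
  obtain ⟨F, G, hF, hG, h⟩ := hx.ex
  cases g with
  | ofNat k =>
    exact ⟨_, _, hF.smul k, hG.smul k, fun p => by
      simp only [h, Int.ofNat_eq_natCast]; push_cast; ring⟩
  | negSucc k =>
    simp only [SV.smul, frc_eq]
    exact ⟨_, _, hG.smul (Nat.succ k), hF.smul (Nat.succ k), fun p => by
      simp only [h]; rw [Int.negSucc_eq]; push_cast; ring⟩

theorem Is.nonneg (hx : Is w m x r) {W H : ℕ} (hW : W = 2 ^ w)
    (hH : H = pk (w + 1) (fun _ => 2 ^ w) m) (h : nn W H x = true) : ∀ p, 0 ≤ r p := by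
  obtain ⟨F, G, hF, hG, hr⟩ := hx.ex
  unfold nn at h
  rw [Bool.and_eq_true] at h
  obtain ⟨h1, h2⟩ := h
  have h1' : x.b < 2 ^ w := by
    have : Nat.succ x.b ≤ W := Nat.le_of_ble_eq_true h1
    rw [hW] at this; exact this
  have h2' : Nat.land (Nat.sub (Nat.add x.P H) x.Q) H = H := Nat.eq_of_beq_eq_true h2
  intro p
  have := Rep.le_of_check hF hG h1' h1' hH h2' p
  rw [hr]; omega

end SV

/-- environment: all derived numbers -/
structure Env where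
  w : ℕ
  n1 : ℕ
  n2 : ℕ
  n3 : ℕ
  s1 : ℕ
  s2 : ℕ
  s3 : ℕ
  M1 : ℕ
  M2 : ℕ
  M3 : ℕ
  Sb : ℕ
  Mb : ℕ
  W : ℕ
  H : ℕ
  W1 : ℕ

/-- number of digits of one block -/
abbrev Env.m0 (E : Env) : ℕ := (E.n1 + 1) * ((E.n2 + 1) * (E.n3 + 1))

structure Env.Ok (E : Env) : Prop where
  s1 : E.s1 = (E.w + 1) * ((E.n2 + 1) * (E.n3 + 1))
  s2 : E.s2 = (E.w + 1) * (E.n3 + 1)
  s3 : E.s3 = (E.w + 1) * 1
  M1 : E.M1 = mkMask ((E.w + 1) * ((E.n2 + 1) * (E.n3 + 1))) E.n1 7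
  M2 : E.M2 = mkMask ((E.w + 1) * (E.n3 + 1)) E.n2 (7 * (E.n1 + 1))
  M3 : E.M3 = mkMask ((E.w + 1) * 1) E.n3 (7 * ((E.n1 + 1) * (E.n2 + 1)))
  Sb : E.Sb = (E.w + 1) * E.m0
  Mb : E.Mb = 2 ^ ((E.w + 1) * E.m0) - 1
  W : E.W = 2 ^ E.w
  H : E.H = pk (E.w + 1) (fun _ => 2 ^ E.w) E.m0
  W1 : E.W1 = 2 ^ (E.w + 1)

/-- subdivision trees -/
inductive Tree
  | lf (g11 g12 g22 g13 g23 g33 : ℤ)
  | nd (v α β : ℕ) (l r : Tree)

/-- the leaf check: `G^T M G` is coefficientwise diagonally dominant, `G` upper triangular -/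
def lfOk (W H : ℕ) (g11 g12 g22 g13 g23 g33 : ℤ) (a b c d e f : SV) : Bool :=
  (SV.smul g11 a).force fun ga =>
  ((SV.smul g12 a).add (SV.smul g22 b)).force fun k12 =>
  (((SV.smul g13 a).add (SV.smul g23 b)).add (SV.smul g33 c)).force fun k13 =>
  ((SV.smul g12 b).add (SV.smul g22 d)).force fun k22 =>
  (((SV.smul g13 b).add (SV.smul g23 d)).add (SV.smul g33 e)).force fun k23 =>
  (((SV.smul g13 c).add (SV.smul g23 e)).add (SV.smul g33 f)).force fun k33 =>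
  (SV.smul g11 ga).force fun m11 =>
  (SV.smul g11 k12).force fun m12 =>
  (SV.smul g11 k13).force fun m13 =>
  ((SV.smul g12 k12).add (SV.smul g22 k22)).force fun m22 =>
  ((SV.smul g12 k13).add (SV.smul g22 k23)).force fun m23 =>
  (((SV.smul g13 k13).add (SV.smul g23 k23)).add (SV.smul g33 k33)).force fun m33 =>
  (m12.add m13).force fun q1 =>
  (m12.sub m13).force fun q2 =>
  (m12.add m23).force fun q3 =>
  (m12.sub m23).force fun q4 =>
  (m13.add m23).force fun q5 =>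
  (m13.sub m23).force fun q6 =>
  (m11.add q1).nn W H && (m11.sub q1).nn W H && (m11.add q2).nn W H && (m11.sub q2).nn W H &&
  (m22.add q3).nn W H && (m22.sub q3).nn W H && (m22.add q4).nn W H && (m22.sub q4).nn W H &&
  (m33.add q5).nn W H && (m33.sub q5).nn W H && (m33.add q6).nn W H && (m33.sub q6).nn W H

def posI : ℤ → Bool
  | Int.ofNat (Nat.succ _) => true
  | _ => false

theorem posI_iff {g : ℤ} (h : posI g = true) : 0 < g := by
  match g, h with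
  | Int.ofNat (Nat.succ k), _ => exact Int.natCast_pos.2 (Nat.succ_pos k)

/-- blocks of `N` -/
def blk (Sb Mb N t : ℕ) : ℕ := Nat.land (Nat.shiftRight N (Nat.mul Sb t)) Mb

def chkLeaf (E : Env) (g11 g12 g22 g13 g23 g33 : ℤ) (b N : ℕ) : Bool :=
  posI g11 && posI g22 && posI g33 && Nat.ble (Nat.succ b) E.W1 &&
  (frc (blk E.Sb E.Mb N 6) fun o =>
   frc (blk E.Sb E.Mb N 0) fun x0 => frc (blk E.Sb E.Mb N 1) fun x1 =>
   frc (blk E.Sb E.Mb N 2) fun x2 => frc (blk E.Sb E.Mb N 3) fun x3 =>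
   frc (blk E.Sb E.Mb N 4) fun x4 => frc (blk E.Sb E.Mb N 5) fun x5 =>
   lfOk E.W E.H g11 g12 g22 g13 g23 g33 ⟨x0, o, b⟩ ⟨x1, o, b⟩ ⟨x2, o, b⟩ ⟨x3, o, b⟩ ⟨x4, o, b⟩
     ⟨x5, o, b⟩)

/-- `left`/`right` in variable `v` (0, 1, 2) -/
def stL (E : Env) (v α β N : ℕ) : ℕ :=
  match v with
  | 0 => left E.s1 E.n1 α β N E.M1
  | 1 => left E.s2 E.n2 α β N E.M2
  | _ => left E.s3 E.n3 α β N E.M3

def stR (E : Env) (v α β N : ℕ) : ℕ :=
  match v with
  | 0 => right E.s1 E.n1 α β N E.M1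
  | 1 => right E.s2 E.n2 α β N E.M2
  | _ => right E.s3 E.n3 α β N E.M3

def bdL (E : Env) (v α β b : ℕ) : ℕ :=
  match v with
  | 0 => bndL α β b E.n1
  | 1 => bndL α β b E.n2
  | _ => bndL α β b E.n3

def chk (E : Env) : Tree → ℕ → ℕ → Bool
  | .lf g11 g12 g22 g13 g23 g33, b, N => chkLeaf E g11 g12 g22 g13 g23 g33 b N
  | .nd v α β l r, b, N =>
    Nat.ble 1 α && Nat.ble 1 β && Nat.ble (Nat.succ b) E.W1 &&
    (frc (bdL E v α β b) fun bL => frc (stL E v α β N) fun NL => chk E l bL NL) &&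
    (frc (bdL E v β α b) fun bR => frc (stR E v α β N) fun NR => chk E r bR NR)

/-! ### quadratic forms -/

theorem abs_cross (x u v : ℝ) : -(|x| * (u ^ 2 + v ^ 2)) ≤ 2 * x * u * v := by
  have h : |x * (2 * u * v)| ≤ |x| * (u ^ 2 + v ^ 2) := by
    rw [abs_mul]
    refine mul_le_mul_of_nonneg_left ?_ (abs_nonneg x)
    exact abs_le.2 ⟨by nlinarith [sq_nonneg (u + v)], by nlinarith [sq_nonneg (u - v)]⟩
  have h2 := neg_abs_le (x * (2 * u * v))
  have h3 : x * (2 * u * v) = 2 * x * u * v := by ring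
  rw [h3] at h h2
  linarith

/-- diagonally dominant symmetric matrices are positive semidefinite -/
theorem dd_psd {p q r x y z : ℝ} (h1 : |x| + |y| ≤ p) (h2 : |x| + |z| ≤ q) (h3 : |y| + |z| ≤ r)
    (u v s : ℝ) :
    0 ≤ p * u ^ 2 + 2 * x * u * v + 2 * y * u * s + q * v ^ 2 + 2 * z * v * s + r * s ^ 2 := by
  have a1 := abs_cross x u v
  have a2 := abs_cross y u s
  have a3 := abs_cross z v s
  nlinarith [mul_nonneg (sub_nonneg.2 h1) (sq_nonneg u), mul_nonneg (sub_nonneg.2 h2) (sq_nonneg v),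
    mul_nonneg (sub_nonneg.2 h3) (sq_nonneg s)]

/-- the form `a u² + 2 b u v + 2 c u s + d v² + 2 e v s + f s²` -/
def qf (a b c d e f u v s : ℝ) : ℝ :=
  a * u ^ 2 + 2 * b * u * v + 2 * c * u * s + d * v ^ 2 + 2 * e * v * s + f * s ^ 2

/-- the leaf criterion on integers -/
theorem psd_of_dd {g11 g12 g22 g13 g23 g33 a b c d e f : ℤ} (h11 : 0 < g11) (h22 : 0 < g22)
    (h33 : 0 < g33) {m11 m12 m13 m22 m23 m33 : ℤ}
    (e11 : m11 = g11 * (g11 * a)) (e12 : m12 = g11 * (g12 * a + g22 * b))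
    (e13 : m13 = g11 * (g13 * a + g23 * b + g33 * c))
    (e22 : m22 = g12 * (g12 * a + g22 * b) + g22 * (g12 * b + g22 * d))
    (e23 : m23 = g12 * (g13 * a + g23 * b + g33 * c) + g22 * (g13 * b + g23 * d + g33 * e))
    (e33 : m33 = g13 * (g13 * a + g23 * b + g33 * c) + g23 * (g13 * b + g23 * d + g33 * e)
      + g33 * (g13 * c + g23 * e + g33 * f))
    (h1 : |m12| + |m13| ≤ m11) (h2 : |m12| + |m23| ≤ m22) (h3 : |m13| + |m23| ≤ m33)
    (u v s : ℝ) : 0 ≤ qf a b c d e f u v s := by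
  have k11 : (0 : ℝ) < g11 := by exact_mod_cast h11
  have k22 : (0 : ℝ) < g22 := by exact_mod_cast h22
  have k33 : (0 : ℝ) < g33 := by exact_mod_cast h33
  have H1 : |(m12 : ℝ)| + |(m13 : ℝ)| ≤ m11 := by exact_mod_cast h1
  have H2 : |(m12 : ℝ)| + |(m23 : ℝ)| ≤ m22 := by exact_mod_cast h2
  have H3 : |(m13 : ℝ)| + |(m23 : ℝ)| ≤ m33 := by exact_mod_cast h3
  obtain ⟨s', hs'⟩ : ∃ s' : ℝ, s = g33 * s' := ⟨s / g33, by field_simp⟩
  obtain ⟨v', hv'⟩ : ∃ v' : ℝ, v = g22 * v' + g23 * s' := ⟨(v - g23 * s') / g22, by field_simp; ring⟩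
  obtain ⟨u', hu'⟩ : ∃ u' : ℝ, u = g11 * u' + g12 * v' + g13 * s' :=
    ⟨(u - g12 * v' - g13 * s') / g11, by field_simp; ring⟩
  have := dd_psd H1 H2 H3 u' v' s'
  have key : qf a b c d e f u v s
      = m11 * u' ^ 2 + 2 * m12 * u' * v' + 2 * m13 * u' * s' + m22 * v' ^ 2
        + 2 * m23 * v' * s' + m33 * s' ^ 2 := by
    unfold qf
    rw [hu', hv', hs', e11, e12, e13, e22, e23, e33]
    push_cast
    ring
  rw [key]; exact this

theorem abs_add_le_of_four {p x y : ℤ} (h1 : 0 ≤ p + (x + y)) (h2 : 0 ≤ p - (x + y))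
    (h3 : 0 ≤ p + (x - y)) (h4 : 0 ≤ p - (x - y)) : |x| + |y| ≤ p := by
  rcases abs_cases x with ⟨hx, _⟩ | ⟨hx, _⟩ <;> rcases abs_cases y with ⟨hy, _⟩ | ⟨hy, _⟩ <;>
    rw [hx, hy] <;> omega

/-- soundness of the leaf check -/
theorem lfOk_sound {w m W H : ℕ} (hW : W = 2 ^ w) (hH : H = pk (w + 1) (fun _ => 2 ^ w) m)
    {g11 g12 g22 g13 g23 g33 : ℤ} {a b c d e f : SV} {ra rb rc rd re rf : ℕ → ℤ}
    (h11 : 0 < g11) (h22 : 0 < g22) (h33 : 0 < g33)
    (ha : a.Is w m ra) (hb : b.Is w m rb) (hc : c.Is w m rc) (hd : d.Is w m rd)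
    (he : e.Is w m re) (hf : f.Is w m rf)
    (h : lfOk W H g11 g12 g22 g13 g23 g33 a b c d e f = true) (p : ℕ) (u v s : ℝ) :
    0 ≤ qf (ra p) (rb p) (rc p) (rd p) (re p) (rf p) u v s := by
  unfold lfOk at h
  simp only [SV.force_eq, Bool.and_eq_true] at h
  have i12 := (ha.smul g12).add (hb.smul g22)
  have i13 := ((ha.smul g13).add (hb.smul g23)).add (hc.smul g33)
  have i22 := (hb.smul g12).add (hd.smul g22)
  have i23 := ((hb.smul g13).add (hd.smul g23)).add (he.smul g33)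
  have i33 := ((hc.smul g13).add (he.smul g23)).add (hf.smul g33)
  have m11 := (ha.smul g11).smul g11
  have m12 := i12.smul g11
  have m13 := i13.smul g11
  have m22 := (i12.smul g12).add (i22.smul g22)
  have m23 := (i13.smul g12).add (i23.smul g22)
  have m33 := ((i13.smul g13).add (i23.smul g23)).add (i33.smul g33)
  obtain ⟨⟨⟨⟨⟨⟨⟨⟨⟨⟨⟨c1, c2⟩, c3⟩, c4⟩, c5⟩, c6⟩, c7⟩, c8⟩, c9⟩, c10⟩, c11⟩, c12⟩ := h
  have d1 := (m11.add (m12.add m13)).nonneg hW hH c1 p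
  have d2 := (m11.sub (m12.add m13)).nonneg hW hH c2 p
  have d3 := (m11.add (m12.sub m13)).nonneg hW hH c3 p
  have d4 := (m11.sub (m12.sub m13)).nonneg hW hH c4 p
  have d5 := (m22.add (m12.add m23)).nonneg hW hH c5 p
  have d6 := (m22.sub (m12.add m23)).nonneg hW hH c6 p
  have d7 := (m22.add (m12.sub m23)).nonneg hW hH c7 p
  have d8 := (m22.sub (m12.sub m23)).nonneg hW hH c8 p
  have d9 := (m33.add (m13.add m23)).nonneg hW hH c9 p
  have d10 := (m33.sub (m13.add m23)).nonneg hW hH c10 p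
  have d11 := (m33.add (m13.sub m23)).nonneg hW hH c11 p
  have d12 := (m33.sub (m13.sub m23)).nonneg hW hH c12 p
  exact psd_of_dd h11 h22 h33 rfl rfl rfl rfl rfl rfl (abs_add_le_of_four d1 d2 d3 d4)
    (abs_add_le_of_four d5 d6 d7 d8) (abs_add_le_of_four d9 d10 d11 d12) u v s

end Crest.Agent.R249.Ker254
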