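import Crest.Agent.R249.Ker5_254

/-!
# Kernel checker for polynomial inequalities, part 6: soundness of the tree check
-/

set_option autoImplicit false

namespace Crest.Agent.R249.Ker254

/-- value of the digit vector `D` with block weights `lam` at the point `x` -/
noncomputable def val (E : Env) (D : ℕ → ℕ) (lam : ℕ → ℝ) (x : Pt) : ℝ :=
  ∑ P ∈ Finset.range (7 * E.m0), (D P : ℝ) * wt E.n1 E.n2 E.n3 lam x P

/-- replace the coordinates of variable `v` -/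
def Pt.set (x : Pt) (v : ℕ) (a b : ℝ) : Pt :=
  match v with
  | 0 => { x with a1 := a, b1 := b }
  | 1 => { x with a2 := a, b2 := b }
  | _ => { x with a3 := a, b3 := b }

def Pt.ga (x : Pt) (v : ℕ) : ℝ :=
  match v with
  | 0 => x.a1
  | 1 => x.a2
  | _ => x.a3

def Pt.gb (x : Pt) (v : ℕ) : ℝ :=
  match v with
  | 0 => x.b1
  | 1 => x.b2
  | _ => x.b3

theorem Pt.set_self (x : Pt) (v : ℕ) : x.set v (x.ga v) (x.gb v) = x := by
  match v with
  | 0 => rfl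
  | 1 => rfl
  | (_ + 2) => rfl

theorem Pt.set_set (x : Pt) (v : ℕ) (a b a' b' : ℝ) : (x.set v a b).set v a' b' = x.set v a' b' := by
  match v with
  | 0 => rfl
  | 1 => rfl
  | (_ + 2) => rfl

theorem Pt.Nonneg.set {x : Pt} (hx : x.Nonneg) (v : ℕ) {a b : ℝ} (ha : 0 ≤ a) (hb : 0 ≤ b) :
    (x.set v a b).Nonneg := by
  match v with
  | 0 => exact ⟨ha, hb, hx.a2, hx.b2, hx.a3, hx.b3⟩
  | 1 => exact ⟨hx.a1, hx.b1, ha, hb, hx.a3, hx.b3⟩
  | (_ + 2) => exact ⟨hx.a1, hx.b1, hx.a2, hx.b2, ha, hb⟩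

theorem Pt.Nonneg.ga {x : Pt} (hx : x.Nonneg) (v : ℕ) : 0 ≤ x.ga v := by
  match v with
  | 0 => exact hx.a1
  | 1 => exact hx.a2
  | (_ + 2) => exact hx.a3

theorem Pt.Nonneg.gb {x : Pt} (hx : x.Nonneg) (v : ℕ) : 0 ≤ x.gb v := by
  match v with
  | 0 => exact hx.b1
  | 1 => exact hx.b2
  | (_ + 2) => exact hx.b3

theorem Env.eq1 (E : Env) : 7 * (E.n1 + 1) * ((E.n2 + 1) * (E.n3 + 1)) = 7 * E.m0 := by
  unfold Env.m0; ring
theorem Env.eq2 (E : Env) : 7 * (E.n1 + 1) * (E.n2 + 1) * (E.n3 + 1) = 7 * E.m0 := by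
  unfold Env.m0; ring
theorem Env.eq3 (E : Env) : 7 * ((E.n1 + 1) * (E.n2 + 1)) * (E.n3 + 1) * 1 = 7 * E.m0 := by
  unfold Env.m0; ring

theorem stL_sound {E : Env} (hE : E.Ok) (v α β : ℕ) {b : ℕ} {D : ℕ → ℕ} {N : ℕ}
    (hD : Rep (E.w + 1) (7 * E.m0) b D N) (hb : b < 2 ^ (E.w + 1)) :
    ∃ D', Rep (E.w + 1) (7 * E.m0) (bdL E v α β b) D' (stL E v α β N) ∧
      ∀ (lam : ℕ → ℝ) (x : Pt) (a b : ℝ),
        val E D' lam (x.set v a b) = val E D lam (x.set v (α * a) (β * (a + b))) := by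
  match v with
  | 0 =>
    have hM := hE.M1.trans (mkMask_eq (w := E.w + 1) (n := E.n1) (σ := (E.n2 + 1) * (E.n3 + 1))
      (Nat.mul_pos (Nat.succ_pos _) (Nat.succ_pos _)) 7)
    rw [← E.eq1] at hD
    refine ⟨accL ((E.n2 + 1) * (E.n3 + 1)) E.n1 7 α β D E.n1, ?_, fun lam x a b => ?_⟩
    · have h := left_rep (α := α) (β := β) hD hb hM
      rw [← hE.s1, E.eq1] at h
      exact h
    · unfold val
      rw [← E.eq1]
      exact accL_eval (H := 7) (n := E.n1) D a b _ _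
        (fun h l => (lam h * ((x.a2 ^ J (E.n3 + 1) E.n2 l * x.b2 ^ (E.n2 - J (E.n3 + 1) E.n2 l)) *
          (x.a3 ^ J 1 E.n3 l * x.b3 ^ (E.n3 - J 1 E.n3 l)))))
        (fun h j l _ hj hl => wt_var1 _ _ _ lam x a b hj hl)
        (fun h j l _ hj hl => wt_var1 _ _ _ lam x (α * a) (β * (a + b)) hj hl)
  | 1 =>
    have hM := hE.M2.trans (mkMask_eq (w := E.w + 1) (n := E.n2) (Nat.succ_pos _) (7 * (E.n1 + 1)))
    rw [← E.eq2] at hD
    refine ⟨accL (E.n3 + 1) E.n2 (7 * (E.n1 + 1)) α β D E.n2, ?_, fun lam x a b => ?_⟩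
    · have h := left_rep (α := α) (β := β) hD hb hM
      rw [← hE.s2, E.eq2] at h
      exact h
    · unfold val
      rw [← E.eq2]
      exact accL_eval (H := 7 * (E.n1 + 1)) (n := E.n2) D a b _ _
        (fun h l => (lam (h / (E.n1 + 1)) *
          ((x.a1 ^ (h % (E.n1 + 1)) * x.b1 ^ (E.n1 - h % (E.n1 + 1))) *
          (x.a3 ^ J 1 E.n3 l * x.b3 ^ (E.n3 - J 1 E.n3 l)))))
        (fun h j l _ hj hl => wt_var2 _ _ _ lam x a b hj hl)
        (fun h j l _ hj hl => wt_var2 _ _ _ lam x (α * a) (β * (a + b)) hj hl)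
  | (_ + 2) =>
    have hM := hE.M3.trans (mkMask_eq (w := E.w + 1) (n := E.n3) one_pos
      (7 * ((E.n1 + 1) * (E.n2 + 1))))
    rw [← E.eq3] at hD
    refine ⟨accL 1 E.n3 (7 * ((E.n1 + 1) * (E.n2 + 1))) α β D E.n3, ?_, fun lam x a b => ?_⟩
    · have h := left_rep (α := α) (β := β) hD hb hM
      rw [← hE.s3, E.eq3] at h
      exact h
    · unfold val
      rw [← E.eq3]
      exact accL_eval (H := 7 * ((E.n1 + 1) * (E.n2 + 1))) (n := E.n3) D a b _ _
        (fun h _ => (lam (h / ((E.n1 + 1) * (E.n2 + 1))) *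
          ((x.a1 ^ ((h / (E.n2 + 1)) % (E.n1 + 1)) *
            x.b1 ^ (E.n1 - (h / (E.n2 + 1)) % (E.n1 + 1))) *
          (x.a2 ^ (h % (E.n2 + 1)) * x.b2 ^ (E.n2 - h % (E.n2 + 1))))))
        (fun h j l _ hj hl => wt_var3 _ _ _ lam x a b hj hl)
        (fun h j l _ hj hl => wt_var3 _ _ _ lam x (α * a) (β * (a + b)) hj hl)

theorem stR_sound {E : Env} (hE : E.Ok) (v α β : ℕ) {b : ℕ} {D : ℕ → ℕ} {N : ℕ}
    (hD : Rep (E.w + 1) (7 * E.m0) b D N) (hb : b < 2 ^ (E.w + 1)) :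
    ∃ D', Rep (E.w + 1) (7 * E.m0) (bdL E v β α b) D' (stR E v α β N) ∧
      ∀ (lam : ℕ → ℝ) (x : Pt) (a b : ℝ),
        val E D' lam (x.set v a b) = val E D lam (x.set v (α * (a + b)) (β * b)) := by
  match v with
  | 0 =>
    have hM := hE.M1.trans (mkMask_eq (w := E.w + 1) (n := E.n1) (σ := (E.n2 + 1) * (E.n3 + 1))
      (Nat.mul_pos (Nat.succ_pos _) (Nat.succ_pos _)) 7)
    rw [← E.eq1] at hD
    refine ⟨accR ((E.n2 + 1) * (E.n3 + 1)) E.n1 7 α β D E.n1, ?_, fun lam x a b => ?_⟩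
    · have h := right_rep (α := α) (β := β) hD hb hM
      rw [← hE.s1, E.eq1] at h
      exact h
    · unfold val
      rw [← E.eq1]
      exact accR_eval (H := 7) (n := E.n1) D a b _ _
        (fun h l => (lam h * ((x.a2 ^ J (E.n3 + 1) E.n2 l * x.b2 ^ (E.n2 - J (E.n3 + 1) E.n2 l)) *
          (x.a3 ^ J 1 E.n3 l * x.b3 ^ (E.n3 - J 1 E.n3 l)))))
        (fun h j l _ hj hl => wt_var1 _ _ _ lam x a b hj hl)
        (fun h j l _ hj hl => wt_var1 _ _ _ lam x (α * (a + b)) (β * b) hj hl)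
  | 1 =>
    have hM := hE.M2.trans (mkMask_eq (w := E.w + 1) (n := E.n2) (Nat.succ_pos _) (7 * (E.n1 + 1)))
    rw [← E.eq2] at hD
    refine ⟨accR (E.n3 + 1) E.n2 (7 * (E.n1 + 1)) α β D E.n2, ?_, fun lam x a b => ?_⟩
    · have h := right_rep (α := α) (β := β) hD hb hM
      rw [← hE.s2, E.eq2] at h
      exact h
    · unfold val
      rw [← E.eq2]
      exact accR_eval (H := 7 * (E.n1 + 1)) (n := E.n2) D a b _ _
        (fun h l => (lam (h / (E.n1 + 1)) *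
          ((x.a1 ^ (h % (E.n1 + 1)) * x.b1 ^ (E.n1 - h % (E.n1 + 1))) *
          (x.a3 ^ J 1 E.n3 l * x.b3 ^ (E.n3 - J 1 E.n3 l)))))
        (fun h j l _ hj hl => wt_var2 _ _ _ lam x a b hj hl)
        (fun h j l _ hj hl => wt_var2 _ _ _ lam x (α * (a + b)) (β * b) hj hl)
  | (_ + 2) =>
    have hM := hE.M3.trans (mkMask_eq (w := E.w + 1) (n := E.n3) one_pos
      (7 * ((E.n1 + 1) * (E.n2 + 1))))
    rw [← E.eq3] at hD
    refine ⟨accR 1 E.n3 (7 * ((E.n1 + 1) * (E.n2 + 1))) α β D E.n3, ?_, fun lam x a b => ?_⟩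
    · have h := right_rep (α := α) (β := β) hD hb hM
      rw [← hE.s3, E.eq3] at h
      exact h
    · unfold val
      rw [← E.eq3]
      exact accR_eval (H := 7 * ((E.n1 + 1) * (E.n2 + 1))) (n := E.n3) D a b _ _
        (fun h _ => (lam (h / ((E.n1 + 1) * (E.n2 + 1))) *
          ((x.a1 ^ ((h / (E.n2 + 1)) % (E.n1 + 1)) *
            x.b1 ^ (E.n1 - (h / (E.n2 + 1)) % (E.n1 + 1))) *
          (x.a2 ^ (h % (E.n2 + 1)) * x.b2 ^ (E.n2 - h % (E.n2 + 1))))))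
        (fun h j l _ hj hl => wt_var3 _ _ _ lam x a b hj hl)
        (fun h j l _ hj hl => wt_var3 _ _ _ lam x (α * (a + b)) (β * b) hj hl)

/-! ### leaves -/

theorem blk_rep {E : Env} (hE : E.Ok) {b : ℕ} {D : ℕ → ℕ} {N : ℕ}
    (hD : Rep (E.w + 1) (7 * E.m0) b D N) (hb : b < 2 ^ (E.w + 1)) {t : ℕ} :
    Rep (E.w + 1) E.m0 b (fun p => if p < E.m0 then D (t * E.m0 + p) else 0)
      (blk E.Sb E.Mb N t) := by
  have h1 := hD.shr (t * E.m0) hb
  refine ⟨?_, fun p hp => by show (if p < E.m0 then _ else 0) = 0; rw [if_neg (by omega)],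
    fun p => ?_⟩
  · show N >>> (E.Sb * t) &&& E.Mb = _
    have e1 : E.Sb * t = (E.w + 1) * (t * E.m0) := by rw [hE.Sb]; ring
    have e2 : N >>> ((E.w + 1) * (t * E.m0)) = pk (E.w + 1) (fun p => D (t * E.m0 + p)) (7 * E.m0) :=
      h1.eq
    rw [e1, e2, hE.Mb, Nat.and_two_pow_sub_one_eq_mod]
    rw [show 7 * E.m0 = E.m0 + 6 * E.m0 by ring, pk_append, Nat.add_mul_mod_self_left,
      Nat.mod_eq_of_lt (pk_lt _ _ fun p _ => (hD.bd _).trans_lt hb)]
    apply pk_congr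
    intro p hp
    rw [if_pos hp]
  · show (if p < E.m0 then D (t * E.m0 + p) else 0) ≤ b
    split_ifs
    · exact hD.bd _
    · exact Nat.zero_le _

/-- block weights: entry `t` minus the offset block -/
noncomputable def lamt (t : ℕ) : ℕ → ℝ := fun h => if h = t then 1 else if h = 6 then -1 else 0

theorem mon_period {n1 n2 n3 : ℕ} (x : Pt) (h p : ℕ) :
    mon n1 n2 n3 x (h * ((n1 + 1) * ((n2 + 1) * (n3 + 1))) + p) = mon n1 n2 n3 x p := by
  unfold mon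
  have e1 : J ((n2 + 1) * (n3 + 1)) n1 (h * ((n1 + 1) * ((n2 + 1) * (n3 + 1))) + p)
      = J ((n2 + 1) * (n3 + 1)) n1 p :=
    inner_J (Nat.mul_pos (Nat.succ_pos _) (Nat.succ_pos _)) h rfl
  have e2 : J (n3 + 1) n2 (h * ((n1 + 1) * ((n2 + 1) * (n3 + 1))) + p) = J (n3 + 1) n2 p := by
    rw [show h * ((n1 + 1) * ((n2 + 1) * (n3 + 1))) = (h * (n1 + 1)) * ((n2 + 1) * (n3 + 1)) by ring]
    exact inner_J (Nat.succ_pos _) _ rfl
  have e3 : J 1 n3 (h * ((n1 + 1) * ((n2 + 1) * (n3 + 1))) + p) = J 1 n3 p := by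
    rw [show h * ((n1 + 1) * ((n2 + 1) * (n3 + 1))) = (h * (n1 + 1) * (n2 + 1)) * (n3 + 1) by ring]
    exact inner_J one_pos _ (by ring)
  rw [e1, e2, e3]

theorem val_lamt (E : Env) (D : ℕ → ℕ) (x : Pt) {t : ℕ} (ht : t < 6) :
    val E D (lamt t) x = ∑ p ∈ Finset.range E.m0,
      ((((if p < E.m0 then D (t * E.m0 + p) else 0 : ℕ) : ℤ)
        - ((if p < E.m0 then D (6 * E.m0 + p) else 0 : ℕ) : ℤ) : ℤ) : ℝ)
        * mon E.n1 E.n2 E.n3 x p := by
  have hm0 : 0 < E.m0 := by unfold Env.m0; positivity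
  unfold val
  rw [sum_range_mul, Finset.sum_comm]
  refine Finset.sum_congr rfl fun p hp => ?_
  have hp' := Finset.mem_range.1 hp
  have key : ∀ h, (D (h * E.m0 + p) : ℝ) * wt E.n1 E.n2 E.n3 (lamt t) x (h * E.m0 + p)
      = lamt t h * ((D (h * E.m0 + p) : ℝ) * mon E.n1 E.n2 E.n3 x p) := by
    intro h
    unfold wt
    rw [mon_period x h p]
    have : (h * E.m0 + p) / ((E.n1 + 1) * ((E.n2 + 1) * (E.n3 + 1))) = h := by
      rw [show h * E.m0 + p = p + E.m0 * h by ring, Nat.add_mul_div_left _ _ hm0,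
        Nat.div_eq_of_lt hp', zero_add]
    rw [this]; ring
  simp only [key, if_pos hp']
  have : t = 0 ∨ t = 1 ∨ t = 2 ∨ t = 3 ∨ t = 4 ∨ t = 5 := by omega
  rcases this with rfl | rfl | rfl | rfl | rfl | rfl <;>
    simp [Finset.sum_range_succ, lamt] <;> ring

theorem chkLeaf_sound {E : Env} (hE : E.Ok) {g11 g12 g22 g13 g23 g33 : ℤ} {b N : ℕ} {D : ℕ → ℕ}
    (hD : Rep (E.w + 1) (7 * E.m0) b D N)
    (h : chkLeaf E g11 g12 g22 g13 g23 g33 b N = true) (x : Pt) (hx : x.Nonneg) (u v s : ℝ) :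
    0 ≤ qf (val E D (lamt 0) x) (val E D (lamt 1) x) (val E D (lamt 2) x) (val E D (lamt 3) x)
      (val E D (lamt 4) x) (val E D (lamt 5) x) u v s := by
  unfold chkLeaf at h
  simp only [frc_eq, Bool.and_eq_true] at h
  obtain ⟨⟨⟨⟨h11, h22⟩, h33⟩, hb⟩, h⟩ := h
  have hb' : b < 2 ^ (E.w + 1) := by
    have := Nat.le_of_ble_eq_true hb
    rw [hE.W1] at this; exact this
  have o := blk_rep hE hD hb' (t := 6)
  have is : ∀ t, SV.Is E.w E.m0 ⟨blk E.Sb E.Mb N t, blk E.Sb E.Mb N 6, b⟩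
      (fun p => ((if p < E.m0 then D (t * E.m0 + p) else 0 : ℕ) : ℤ)
        - ((if p < E.m0 then D (6 * E.m0 + p) else 0 : ℕ) : ℤ)) := fun t =>
    ⟨_, _, blk_rep hE hD hb' (t := t), o, fun p => rfl⟩
  have key := lfOk_sound hE.W hE.H (posI_iff h11) (posI_iff h22) (posI_iff h33)
    (is 0) (is 1) (is 2) (is 3) (is 4) (is 5) h
  rw [val_lamt E D x (show 0 < 6 by norm_num), val_lamt E D x (show 1 < 6 by norm_num),
    val_lamt E D x (show 2 < 6 by norm_num), val_lamt E D x (show 3 < 6 by norm_num),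
    val_lamt E D x (show 4 < 6 by norm_num), val_lamt E D x (show 5 < 6 by norm_num)]
  unfold qf
  simp only [Finset.sum_mul, Finset.mul_sum, ← Finset.sum_add_distrib]
  refine Finset.sum_nonneg fun p _ => ?_
  have h1 := mul_nonneg (mon_nonneg (n1 := E.n1) (n2 := E.n2) (n3 := E.n3) hx p) (key p u v s)
  unfold qf at h1
  refine le_of_le_of_eq h1 ?_
  ring

theorem chk_sound {E : Env} (hE : E.Ok) : ∀ (T : Tree) (b N : ℕ) (D : ℕ → ℕ),
    Rep (E.w + 1) (7 * E.m0) b D N → chk E T b N = true → ∀ x : Pt, x.Nonneg → ∀ u v s : ℝ,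
    0 ≤ qf (val E D (lamt 0) x) (val E D (lamt 1) x) (val E D (lamt 2) x) (val E D (lamt 3) x)
      (val E D (lamt 4) x) (val E D (lamt 5) x) u v s := by
  intro T
  induction T with
  | lf g11 g12 g22 g13 g23 g33 =>
    intro b N D hD h x hx u v s
    exact chkLeaf_sound hE hD h x hx u v s
  | nd vv α β l r ihl ihr =>
    intro b N D hD h x hx u v s
    simp only [chk, frc_eq, Bool.and_eq_true] at h
    obtain ⟨⟨⟨⟨hα, hβ⟩, hb⟩, hl⟩, hr⟩ := h
    have hb' : b < 2 ^ (E.w + 1) := by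
      have := Nat.le_of_ble_eq_true hb
      rw [hE.W1] at this; exact this
    have hα' : (0 : ℝ) < α := by exact_mod_cast Nat.le_of_ble_eq_true hα
    have hβ' : (0 : ℝ) < β := by exact_mod_cast Nat.le_of_ble_eq_true hβ
    obtain ⟨DL, hDL, eL⟩ := stL_sound hE vv α β hD hb'
    obtain ⟨DR, hDR, eR⟩ := stR_sound hE vv α β hD hb'
    have ha := hx.ga vv
    have hb := hx.gb vv
    rcases le_total (x.ga vv / α) (x.gb vv / β) with hc | hc
    · have y := ihl _ _ DL hDL hl (x.set vv (x.ga vv / α) (x.gb vv / β - x.ga vv / α))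
        (hx.set vv (by positivity) (by linarith)) u v s
      simp only [eL] at y
      have e1 : (α : ℝ) * (x.ga vv / α) = x.ga vv := by field_simp
      have e2 : (β : ℝ) * (x.ga vv / α + (x.gb vv / β - x.ga vv / α)) = x.gb vv := by
        rw [add_sub_cancel]; field_simp
      rw [e1, e2, Pt.set_self] at y
      exact y
    · have y := ihr _ _ DR hDR hr (x.set vv (x.ga vv / α - x.gb vv / β) (x.gb vv / β))
        (hx.set vv (by linarith) (by positivity)) u v s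
      simp only [eR] at y
      have e1 : (α : ℝ) * (x.ga vv / α - x.gb vv / β + x.gb vv / β) = x.ga vv := by
        rw [sub_add_cancel]; field_simp
      have e2 : (β : ℝ) * (x.gb vv / β) = x.gb vv := by field_simp
      rw [e1, e2, Pt.set_self] at y
      exact y

end Crest.Agent.R249.Ker254
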