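import Crest.Agent.R249.Ker6_254

/-!
# Kernel checker for polynomial inequalities, part 7: lists of coefficients, main theorem
-/

set_option autoImplicit false

namespace Crest.Agent.R249.Ker254

/-- polynomials in 3 variables: coefficient of `x^i y^j z^k` at `[i][j][k]` -/
abbrev P3 := List (List (List ℤ))

noncomputable def ev1 (z : ℝ) : List ℤ → ℝ
  | [] => 0
  | c :: cs => c + z * ev1 z cs

noncomputable def ev2 (y z : ℝ) : List (List ℤ) → ℝ
  | [] => 0
  | p :: ps => ev1 z p + y * ev2 y z ps

noncomputable def ev3 (x y z : ℝ) : P3 → ℝ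
  | [] => 0
  | p :: ps => ev2 y z p + x * ev3 x y z ps

/-! ## packing lists -/

/-- `n` digits of `s` bits, from a list, padded by `e` -/
def packG {α : Type} (s : ℕ) (f : α → ℕ) (e : α) : ℕ → List α → ℕ
  | 0, _ => 0
  | n + 1, [] => Nat.add (f e) (Nat.shiftLeft (packG s f e n []) s)
  | n + 1, a :: as => Nat.add (f a) (Nat.shiftLeft (packG s f e n as) s)

theorem packG_eq {α : Type} (w m : ℕ) (f : α → ℕ) (e : α) (g : α → ℕ → ℕ)
    (hf : ∀ a, f a = pk w (g a) m) (n : ℕ) (l : List α) :
    packG (w * m) f e n l = pk w (fun P => g (l.getD (P / m) e) (P % m)) (n * m) := by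
  rcases Nat.eq_zero_or_pos m with hm | hm
  · subst hm
    have : ∀ a, f a = 0 := fun a => by rw [hf]; simp [pk]
    have h2 : ∀ n (l : List α), packG (w * 0) f e n l = 0 := by
      intro n
      induction n with
      | zero => intro l; rfl
      | succ n ih =>
        intro l
        cases l with
        | nil =>
          show f e + (packG (w * 0) f e n []) <<< (w * 0) = 0
          rw [this, ih]; simp
        | cons a as =>
          show f a + (packG (w * 0) f e n as) <<< (w * 0) = 0
          rw [this, ih]; simp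
    rw [h2]; simp [pk]
  induction n generalizing l with
  | zero => simp [packG, pk_zero]
  | succ n ih =>
    have e1 : (n + 1) * m = m + n * m := by ring
    cases l with
    | nil =>
      show f e + (packG (w * m) f e n []) <<< (w * m) = _
      rw [ih, hf, e1, pk_append, Nat.shiftLeft_eq, mul_comm _ (2 ^ (w * m))]
      congr 1
      · apply pk_congr; intro p hp
        rw [Nat.div_eq_of_lt hp, Nat.mod_eq_of_lt hp]; rfl
      · congr 1
        apply pk_congr; intro p _
        rw [Nat.add_mod_left]
        simp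
    | cons a as =>
      show f a + (packG (w * m) f e n as) <<< (w * m) = _
      rw [ih, hf, e1, pk_append, Nat.shiftLeft_eq, mul_comm _ (2 ^ (w * m))]
      congr 1
      · apply pk_congr; intro p hp
        rw [Nat.div_eq_of_lt hp, Nat.mod_eq_of_lt hp]; rfl
      · congr 1
        apply pk_congr; intro p _
        rw [Nat.add_mod_left, show m + p = p + m * 1 by ring, Nat.add_mul_div_left _ _ hm]
        rfl

/-- digit of an integer coefficient -/
def toD (off : ℕ) : ℤ → ℕ
  | Int.ofNat k => Nat.add off k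
  | Int.negSucc k => Nat.sub off (Nat.succ k)

theorem toD_eq {off : ℕ} {c : ℤ} (h : c.natAbs ≤ off) : (toD off c : ℤ) = c + off := by
  cases c with
  | ofNat k => show ((off + k : ℕ) : ℤ) = _; push_cast; rw [Int.ofNat_eq_natCast]; ring
  | negSucc k =>
    show ((off - (k + 1) : ℕ) : ℤ) = _
    have : k + 1 ≤ off := h
    rw [Int.negSucc_eq]; push_cast [this]; ring

theorem toD_le {off : ℕ} {c : ℤ} (h : c.natAbs ≤ off) : toD off c ≤ 2 * off := by
  cases c with
  | ofNat k => show off + k ≤ _; have : k ≤ off := h; omega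
  | negSucc k => show off - (k + 1) ≤ _; omega

/-- the packed number of seven blocks (blocks beyond the list are zero, i.e. `off`) -/
def build (w1 n1 n2 n3 off : ℕ) (bl : List P3) : ℕ :=
  packG (w1 * ((n1 + 1) * ((n2 + 1) * (n3 + 1))))
    (packG (w1 * ((n2 + 1) * (n3 + 1)))
      (packG (w1 * (n3 + 1))
        (packG (w1 * 1) (toD off) 0 (n3 + 1)) [] (n2 + 1)) [] (n1 + 1)) [] 7 bl

/-- coefficient of a block list -/
def cf (bl : List P3) (t i j k : ℕ) : ℤ :=
  (((bl.getD t []).getD i []).getD j []).getD k 0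

def digD (n1 n2 n3 off : ℕ) (bl : List P3) (P : ℕ) : ℕ :=
  toD off (cf bl (P / ((n1 + 1) * ((n2 + 1) * (n3 + 1))))
    (P % ((n1 + 1) * ((n2 + 1) * (n3 + 1))) / ((n2 + 1) * (n3 + 1)))
    (P % ((n1 + 1) * ((n2 + 1) * (n3 + 1))) % ((n2 + 1) * (n3 + 1)) / (n3 + 1))
    (P % ((n1 + 1) * ((n2 + 1) * (n3 + 1))) % ((n2 + 1) * (n3 + 1)) % (n3 + 1)))

theorem build_eq (w1 n1 n2 n3 off : ℕ) (bl : List P3) :
    build w1 n1 n2 n3 off bl
      = pk w1 (digD n1 n2 n3 off bl) (7 * ((n1 + 1) * ((n2 + 1) * (n3 + 1)))) := by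
  unfold build
  have h0 : ∀ c : ℤ, toD off c = pk w1 (fun _ => toD off c) 1 := by
    intro c; simp [pk]
  have h1 : ∀ l : List ℤ, packG (w1 * 1) (toD off) 0 (n3 + 1) l
      = pk w1 (fun P => toD off (l.getD P 0)) (n3 + 1) := by
    intro l
    rw [packG_eq w1 1 (toD off) 0 _ h0, mul_one]
    apply pk_congr; intro p _
    simp
  have h2 : ∀ l : List (List ℤ), packG (w1 * (n3 + 1))
        (packG (w1 * 1) (toD off) 0 (n3 + 1)) [] (n2 + 1) l
      = pk w1 (fun P => toD off ((l.getD (P / (n3 + 1)) []).getD (P % (n3 + 1)) 0))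
        ((n2 + 1) * (n3 + 1)) := by
    intro l
    rw [packG_eq w1 (n3 + 1) _ [] _ h1]
  have h3 : ∀ l : P3, packG (w1 * ((n2 + 1) * (n3 + 1)))
      (packG (w1 * (n3 + 1))
        (packG (w1 * 1) (toD off) 0 (n3 + 1)) [] (n2 + 1)) [] (n1 + 1) l
      = pk w1 (fun P => toD off (((l.getD (P / ((n2 + 1) * (n3 + 1))) []).getD
          (P % ((n2 + 1) * (n3 + 1)) / (n3 + 1)) []).getD
          (P % ((n2 + 1) * (n3 + 1)) % (n3 + 1)) 0))
        ((n1 + 1) * ((n2 + 1) * (n3 + 1))) := by
    intro l
    rw [packG_eq w1 ((n2 + 1) * (n3 + 1)) _ [] _ h2]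
  rw [packG_eq w1 ((n1 + 1) * ((n2 + 1) * (n3 + 1))) _ [] _ h3]
  rfl

/-! ## shape check -/

def fits1 (n3 off : ℕ) : ℕ → List ℤ → Bool
  | _, [] => true
  | 0, _ :: _ => false
  | n + 1, c :: cs => Nat.ble (Int.natAbs c) off && fits1 n3 off n cs

def fits2 (n3 off : ℕ) : ℕ → List (List ℤ) → Bool
  | _, [] => true
  | 0, _ :: _ => false
  | n + 1, p :: ps => fits1 n3 off (n3 + 1) p && fits2 n3 off n ps

def fits3 (n2 n3 off : ℕ) : ℕ → P3 → Bool
  | _, [] => true
  | 0, _ :: _ => false
  | n + 1, p :: ps => fits2 n3 off (n2 + 1) p && fits3 n2 n3 off n ps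

def fits4 (n1 n2 n3 off : ℕ) : ℕ → List P3 → Bool
  | _, [] => true
  | 0, _ :: _ => false
  | n + 1, p :: ps => fits3 n2 n3 off (n1 + 1) p && fits4 n1 n2 n3 off n ps

theorem fits1_sound {n3 off : ℕ} : ∀ {n : ℕ} {l : List ℤ}, fits1 n3 off n l = true →
    (∀ k, (l.getD k 0).natAbs ≤ off) ∧
    ∀ z : ℝ, ev1 z l = ∑ k ∈ Finset.range n, (l.getD k 0 : ℝ) * z ^ k := by
  intro n
  induction n with
  | zero =>
    intro l h
    cases l with
    | nil => exact ⟨fun k => by simp, fun z => by simp [ev1]⟩
    | cons c cs => simp [fits1] at h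
  | succ n ih =>
    intro l h
    cases l with
    | nil => exact ⟨fun k => by simp, fun z => by simp [ev1]⟩
    | cons c cs =>
      simp only [fits1, Bool.and_eq_true] at h
      obtain ⟨h1, h2⟩ := h
      obtain ⟨i1, i2⟩ := ih h2
      refine ⟨fun k => ?_, fun z => ?_⟩
      · cases k with
        | zero => simpa using Nat.le_of_ble_eq_true h1
        | succ k => simpa using i1 k
      · rw [ev1, i2, Finset.sum_range_succ']
        simp only [List.getD_cons_succ, List.getD_cons_zero, pow_zero, mul_one]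
        rw [Finset.mul_sum, add_comm]
        congr 1
        refine Finset.sum_congr rfl fun k _ => ?_
        rw [pow_succ]; ring

theorem fits2_sound {n3 off : ℕ} : ∀ {n : ℕ} {l : List (List ℤ)}, fits2 n3 off n l = true →
    (∀ j k, ((l.getD j []).getD k 0).natAbs ≤ off) ∧
    ∀ y z : ℝ, ev2 y z l = ∑ j ∈ Finset.range n, ∑ k ∈ Finset.range (n3 + 1),
      ((l.getD j []).getD k 0 : ℝ) * (y ^ j * z ^ k) := by
  intro n
  induction n with
  | zero =>
    intro l h
    cases l with
    | nil => exact ⟨fun j k => by simp, fun y z => by simp [ev2]⟩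
    | cons c cs => simp [fits2] at h
  | succ n ih =>
    intro l h
    cases l with
    | nil => exact ⟨fun j k => by simp, fun y z => by simp [ev2]⟩
    | cons c cs =>
      simp only [fits2, Bool.and_eq_true] at h
      obtain ⟨h1, h2⟩ := h
      obtain ⟨i1, i2⟩ := ih h2
      obtain ⟨j1, j2⟩ := fits1_sound h1
      refine ⟨fun j k => ?_, fun y z => ?_⟩
      · cases j with
        | zero => simpa using j1 k
        | succ j => simpa using i1 j k
      · rw [ev2, i2, j2, Finset.sum_range_succ' _ n]
        simp only [List.getD_cons_succ, List.getD_cons_zero, pow_zero, one_mul]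
        rw [Finset.mul_sum, add_comm]
        congr 1
        refine Finset.sum_congr rfl fun j _ => ?_
        rw [Finset.mul_sum]
        refine Finset.sum_congr rfl fun k _ => ?_
        rw [pow_succ]; ring

theorem fits3_sound {n2 n3 off : ℕ} : ∀ {n : ℕ} {l : P3}, fits3 n2 n3 off n l = true →
    (∀ i j k, (((l.getD i []).getD j []).getD k 0).natAbs ≤ off) ∧
    ∀ x y z : ℝ, ev3 x y z l = ∑ i ∈ Finset.range n, ∑ j ∈ Finset.range (n2 + 1),
      ∑ k ∈ Finset.range (n3 + 1),
      (((l.getD i []).getD j []).getD k 0 : ℝ) * (x ^ i * (y ^ j * z ^ k)) := by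
  intro n
  induction n with
  | zero =>
    intro l h
    cases l with
    | nil => exact ⟨fun i j k => by simp, fun x y z => by simp [ev3]⟩
    | cons c cs => simp [fits3] at h
  | succ n ih =>
    intro l h
    cases l with
    | nil => exact ⟨fun i j k => by simp, fun x y z => by simp [ev3]⟩
    | cons c cs =>
      simp only [fits3, Bool.and_eq_true] at h
      obtain ⟨h1, h2⟩ := h
      obtain ⟨i1, i2⟩ := ih h2
      obtain ⟨j1, j2⟩ := fits2_sound h1
      refine ⟨fun i j k => ?_, fun x y z => ?_⟩
      · cases i with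
        | zero => simpa using j1 j k
        | succ i => simpa using i1 i j k
      · rw [ev3, i2, j2, Finset.sum_range_succ' _ n]
        simp only [List.getD_cons_succ, List.getD_cons_zero, pow_zero, one_mul]
        rw [Finset.mul_sum, add_comm]
        congr 1
        refine Finset.sum_congr rfl fun i _ => ?_
        rw [Finset.mul_sum]
        refine Finset.sum_congr rfl fun j _ => ?_
        rw [Finset.mul_sum]
        refine Finset.sum_congr rfl fun k _ => ?_
        rw [pow_succ]; ring

theorem fits4_sound {n1 n2 n3 off : ℕ} : ∀ {n : ℕ} {l : List P3}, fits4 n1 n2 n3 off n l = true →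
    (∀ t, fits3 n2 n3 off (n1 + 1) (l.getD t []) = true) := by
  intro n
  induction n with
  | zero =>
    intro l h t
    cases l with
    | nil => simp [fits3]
    | cons c cs => simp [fits4] at h
  | succ n ih =>
    intro l h t
    cases l with
    | nil => simp [fits3]
    | cons c cs =>
      simp only [fits4, Bool.and_eq_true] at h
      cases t with
      | zero => simpa using h.1
      | succ t => simpa using ih h.2 t

end Crest.Agent.R249.Ker254
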