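import Crest.Agent.R249.Ker7_254

/-!
# Kernel checker for polynomial inequalities, part 8: main theorem
-/

set_option autoImplicit false

namespace Crest.Agent.R249.Ker254

/-- the digit `2 ^ w` repeated -/
def mkH (w1 W : ℕ) : ℕ → ℕ
  | 0 => 0
  | n + 1 => Nat.add (Nat.shiftLeft (mkH w1 W n) w1) W

theorem mkH_eq (w1 W n : ℕ) : mkH w1 W n = pk w1 (fun _ => W) n := by
  induction n with
  | zero => simp [mkH, pk_zero]
  | succ n ih =>
    show (mkH w1 W n) <<< w1 + W = _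
    rw [ih, show n + 1 = 1 + n by ring, pk_append, Nat.shiftLeft_eq, mul_one]
    have : pk w1 (fun _ => W) 1 = W := by simp [pk]
    rw [this]; ring

/-- run `k` with a fully evaluated environment -/
def withEnv (w n1 n2 n3 : ℕ) (k : Env → Bool) : Bool :=
  frc (Nat.succ w) fun w1 =>
  frc (Nat.succ n3) fun d3 =>
  frc (Nat.mul (Nat.succ n2) d3) fun d2 =>
  frc (Nat.mul (Nat.succ n1) d2) fun m0 =>
  frc (Nat.mul w1 d2) fun s1 =>
  frc (Nat.mul w1 d3) fun s2 =>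
  frc (Nat.mul w1 1) fun s3 =>
  frc (mkMask s1 n1 7) fun M1 =>
  frc (mkMask s2 n2 (Nat.mul 7 (Nat.succ n1))) fun M2 =>
  frc (mkMask s3 n3 (Nat.mul 7 (Nat.mul (Nat.succ n1) (Nat.succ n2)))) fun M3 =>
  frc (Nat.mul w1 m0) fun Sb =>
  frc (Nat.sub (Nat.pow 2 Sb) 1) fun Mb =>
  frc (Nat.pow 2 w) fun W =>
  frc (mkH w1 W m0) fun H =>
  frc (Nat.pow 2 w1) fun W1 =>
  k ⟨w, n1, n2, n3, s1, s2, s3, M1, M2, M3, Sb, Mb, W, H, W1⟩

theorem withEnv_eq (w n1 n2 n3 : ℕ) (k : Env → Bool) :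
    ∃ E : Env, E.Ok ∧ E.w = w ∧ E.n1 = n1 ∧ E.n2 = n2 ∧ E.n3 = n3 ∧ withEnv w n1 n2 n3 k = k E := by
  unfold withEnv
  simp only [frc_eq]
  refine ⟨_, ?_, rfl, rfl, rfl, rfl, rfl⟩
  refine ⟨rfl, rfl, rfl, rfl, rfl, rfl, rfl, rfl, rfl, ?_, rfl⟩
  exact mkH_eq _ _ _

/-- restrict variable `v` to `[0, 1]` if the flag is set -/
def cut (E : Env) (v : ℕ) (fl : Bool) (b N : ℕ) (k : ℕ → ℕ → Bool) : Bool :=
  match fl with
  | false => k b N
  | true => Nat.ble (Nat.succ b) E.W1 &&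
      frc (bdL E v 1 1 b) fun b' => frc (stL E v 1 1 N) fun N' => k b' N'

/-- the whole check -/
def run (w n1 n2 n3 off : ℕ) (f1 f2 f3 : Bool) (T : Tree) (bl : List P3) : Bool :=
  fits4 n1 n2 n3 off 6 bl &&
  withEnv w n1 n2 n3 fun E =>
    frc (build (Nat.succ w) n1 n2 n3 off bl) fun N0 =>
    frc (Nat.mul 2 off) fun b0 =>
    cut E 0 f1 b0 N0 fun b1 N1 => cut E 1 f2 b1 N1 fun b2 N2 => cut E 2 f3 b2 N2 fun b3 N3 =>
    chk E T b3 N3

theorem val_build {E : Env} {off : ℕ} {a b c d e f : P3}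
    (hf : fits4 E.n1 E.n2 E.n3 off 6 [a, b, c, d, e, f] = true) (x y z : ℝ) {t : ℕ} (ht : t < 6)
    {D : ℕ → ℕ} (hD : ∀ P, P < 7 * E.m0 → D P = digD E.n1 E.n2 E.n3 off [a, b, c, d, e, f] P) :
    val E D (lamt t) ⟨x, 1, y, 1, z, 1⟩ = ev3 x y z ([a, b, c, d, e, f].getD t []) := by
  rw [val_lamt E D _ ht]
  obtain ⟨q1, q2⟩ := fits3_sound (fits4_sound hf t)
  rw [q2, show E.m0 = (E.n1 + 1) * ((E.n2 + 1) * (E.n3 + 1)) from rfl, sum_range_mul]
  refine Finset.sum_congr rfl fun i hi => ?_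
  rw [sum_range_mul]
  refine Finset.sum_congr rfl fun j hj => Finset.sum_congr rfl fun k hk => ?_
  have hi' : i < E.n1 + 1 := Finset.mem_range.1 hi
  have hj' : j < E.n2 + 1 := Finset.mem_range.1 hj
  have hk' : k < E.n3 + 1 := Finset.mem_range.1 hk
  have hl : j * (E.n3 + 1) + k < (E.n2 + 1) * (E.n3 + 1) := by
    have := idx_lt (σ := 1) (n := E.n3) (H := E.n2 + 1) (l := 0) hj' (Nat.le_of_lt_succ hk') one_pos
    simpa using this
  have hp : i * ((E.n2 + 1) * (E.n3 + 1)) + (j * (E.n3 + 1) + k)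
      < (E.n1 + 1) * ((E.n2 + 1) * (E.n3 + 1)) := by
    have := idx_lt (σ := (E.n2 + 1) * (E.n3 + 1)) (n := E.n1) (H := 1) (h := 0) one_pos
      (Nat.le_of_lt_succ hi') hl
    simpa using this
  have hm0 : 0 < (E.n1 + 1) * ((E.n2 + 1) * (E.n3 + 1)) := by positivity
  have hs1 : 0 < (E.n2 + 1) * (E.n3 + 1) := by positivity
  have hdig : ∀ t', t' < 7 → D (t' * ((E.n1 + 1) * ((E.n2 + 1) * (E.n3 + 1)))
        + (i * ((E.n2 + 1) * (E.n3 + 1)) + (j * (E.n3 + 1) + k)))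
      = toD off (cf [a, b, c, d, e, f] t' i j k) := by
    intro t' ht'
    rw [hD]
    · unfold digD
      have e1 : (t' * ((E.n1 + 1) * ((E.n2 + 1) * (E.n3 + 1)))
          + (i * ((E.n2 + 1) * (E.n3 + 1)) + (j * (E.n3 + 1) + k)))
          / ((E.n1 + 1) * ((E.n2 + 1) * (E.n3 + 1))) = t' := by
        rw [mul_comm t', add_comm, Nat.add_mul_div_left _ _ hm0, Nat.div_eq_of_lt hp, zero_add]
      have e2 : (t' * ((E.n1 + 1) * ((E.n2 + 1) * (E.n3 + 1)))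
          + (i * ((E.n2 + 1) * (E.n3 + 1)) + (j * (E.n3 + 1) + k)))
          % ((E.n1 + 1) * ((E.n2 + 1) * (E.n3 + 1)))
          = i * ((E.n2 + 1) * (E.n3 + 1)) + (j * (E.n3 + 1) + k) := by
        rw [mul_comm t', add_comm, Nat.add_mul_mod_self_left, Nat.mod_eq_of_lt hp]
      rw [e1, e2]
      have e3 : (i * ((E.n2 + 1) * (E.n3 + 1)) + (j * (E.n3 + 1) + k))
          / ((E.n2 + 1) * (E.n3 + 1)) = i := by
        rw [mul_comm i, add_comm, Nat.add_mul_div_left _ _ hs1, Nat.div_eq_of_lt hl, zero_add]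
      have e4 : (i * ((E.n2 + 1) * (E.n3 + 1)) + (j * (E.n3 + 1) + k))
          % ((E.n2 + 1) * (E.n3 + 1)) = j * (E.n3 + 1) + k := by
        rw [mul_comm i, add_comm, Nat.add_mul_mod_self_left, Nat.mod_eq_of_lt hl]
      rw [e3, e4]
      have e5 : (j * (E.n3 + 1) + k) / (E.n3 + 1) = j := by
        rw [mul_comm j, add_comm, Nat.add_mul_div_left _ _ (Nat.succ_pos _),
          Nat.div_eq_of_lt hk', zero_add]
      have e6 : (j * (E.n3 + 1) + k) % (E.n3 + 1) = k := by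
        rw [mul_comm j, add_comm, Nat.add_mul_mod_self_left, Nat.mod_eq_of_lt hk']
      rw [e5, e6]
    · have := idx_lt (σ := (E.n1 + 1) * ((E.n2 + 1) * (E.n3 + 1))) (n := 6) (H := 1) (h := 0)
        (j := t') one_pos (by omega) hp
      have h7 : 7 * E.m0 = 1 * (6 + 1) * ((E.n1 + 1) * ((E.n2 + 1) * (E.n3 + 1))) := by
        unfold Env.m0; ring
      rw [h7]
      simpa using this
  rw [if_pos hp, if_pos hp, hdig t (by omega), hdig 6 (by omega)]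
  have hc6 : cf [a, b, c, d, e, f] 6 i j k = 0 := by simp [cf]
  have hct : (cf [a, b, c, d, e, f] t i j k).natAbs ≤ off := q1 i j k
  rw [toD_eq hct, hc6, toD_eq (off := off) (c := 0) (by simp)]
  have hmon : mon E.n1 E.n2 E.n3 ⟨x, 1, y, 1, z, 1⟩
      (i * ((E.n2 + 1) * (E.n3 + 1)) + (j * (E.n3 + 1) + k)) = x ^ i * (y ^ j * z ^ k) := by
    unfold mon
    have j1 : J ((E.n2 + 1) * (E.n3 + 1)) E.n1
        (i * ((E.n2 + 1) * (E.n3 + 1)) + (j * (E.n3 + 1) + k)) = i := by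
      have := J_eq (σ := (E.n2 + 1) * (E.n3 + 1)) (n := E.n1) (h := 0) hl (Nat.le_of_lt_succ hi')
      simpa using this
    have j2 : J (E.n3 + 1) E.n2
        (i * ((E.n2 + 1) * (E.n3 + 1)) + (j * (E.n3 + 1) + k)) = j := by
      rw [inner_J (Nat.succ_pos _) i rfl]
      have := J_eq (σ := E.n3 + 1) (n := E.n2) (h := 0) hk' (Nat.le_of_lt_succ hj')
      simpa using this
    have j3 : J 1 E.n3 (i * ((E.n2 + 1) * (E.n3 + 1)) + (j * (E.n3 + 1) + k)) = k := by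
      have := J_eq (σ := 1) (n := E.n3) (h := i * (E.n2 + 1) + j) (l := 0) one_pos
        (Nat.le_of_lt_succ hk')
      rw [show i * ((E.n2 + 1) * (E.n3 + 1)) + (j * (E.n3 + 1) + k)
        = ((i * (E.n2 + 1) + j) * (E.n3 + 1) + k) * 1 + 0 by ring]
      exact this
    rw [j1, j2, j3]; simp
  rw [hmon]
  unfold cf
  push_cast
  ring

theorem cut_sound {E : Env} (hE : E.Ok) {v : ℕ} {fl : Bool} {b N : ℕ} {k : ℕ → ℕ → Bool}
    {D : ℕ → ℕ} (hD : Rep (E.w + 1) (7 * E.m0) b D N) (h : cut E v fl b N k = true) :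
    ∃ D' b' N', Rep (E.w + 1) (7 * E.m0) b' D' N' ∧ k b' N' = true ∧
      ∀ x : Pt, 0 ≤ x.ga v → x.gb v = 1 → (fl = true → x.ga v ≤ 1) →
        ∃ a' b'', 0 ≤ a' ∧ 0 ≤ b'' ∧
          ∀ lam, val E D' lam (x.set v a' b'') = val E D lam x := by
  cases fl with
  | false =>
    refine ⟨D, b, N, hD, h, fun x hx hb _ => ⟨x.ga v, x.gb v, hx, by rw [hb]; norm_num,
      fun lam => by rw [Pt.set_self]⟩⟩
  | true =>
    simp only [cut, frc_eq, Bool.and_eq_true] at h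
    obtain ⟨h1, h2⟩ := h
    have hb' : b < 2 ^ (E.w + 1) := by
      have := Nat.le_of_ble_eq_true h1
      rw [hE.W1] at this; exact this
    obtain ⟨DL, hDL, eL⟩ := stL_sound hE v 1 1 hD hb'
    refine ⟨DL, _, _, hDL, h2, fun x hx hb hle => ⟨x.ga v, 1 - x.ga v, hx, by
      have := hle rfl; linarith, fun lam => ?_⟩⟩
    rw [eL]
    have e1 : ((1 : ℕ) : ℝ) * x.ga v = x.ga v := by simp
    have e2 : ((1 : ℕ) : ℝ) * (x.ga v + (1 - x.ga v)) = x.gb v := by rw [hb]; simp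
    rw [e1, e2, Pt.set_self]

/-- MAIN THEOREM: if the check succeeds then the polynomial matrix is positive semidefinite on the
product of the intervals (`[0, 1]` if the flag is set, otherwise `[0, ∞)`). -/
theorem run_sound {w n1 n2 n3 off : ℕ} {f1 f2 f3 : Bool} {T : Tree} {a b c d e f : P3}
    (h : run w n1 n2 n3 off f1 f2 f3 T [a, b, c, d, e, f] = true) {x y z : ℝ}
    (hx : 0 ≤ x) (hy : 0 ≤ y) (hz : 0 ≤ z) (hx1 : f1 = true → x ≤ 1) (hy1 : f2 = true → y ≤ 1)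
    (hz1 : f3 = true → z ≤ 1) (u v s : ℝ) :
    0 ≤ qf (ev3 x y z a) (ev3 x y z b) (ev3 x y z c) (ev3 x y z d) (ev3 x y z e) (ev3 x y z f)
      u v s := by
  unfold run at h
  rw [Bool.and_eq_true] at h
  obtain ⟨hf, h⟩ := h
  obtain ⟨E, hE, rfl, rfl, rfl, rfl, he⟩ := withEnv_eq w n1 n2 n3 (fun E =>
    frc (build (Nat.succ w) n1 n2 n3 off [a, b, c, d, e, f]) fun N0 =>
    frc (Nat.mul 2 off) fun b0 =>
    cut E 0 f1 b0 N0 fun b1 N1 => cut E 1 f2 b1 N1 fun b2 N2 => cut E 2 f3 b2 N2 fun b3 N3 =>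
    chk E T b3 N3)
  rw [he] at h
  simp only [frc_eq] at h
  set D : ℕ → ℕ := fun P => if P < 7 * E.m0 then
    digD E.n1 E.n2 E.n3 off [a, b, c, d, e, f] P else 0 with hDdef
  have hDe : ∀ P, P < 7 * E.m0 → D P = digD E.n1 E.n2 E.n3 off [a, b, c, d, e, f] P := by
    intro P hP; simp only [hDdef]; rw [if_pos hP]
  have hq : ∀ t i j k, (cf [a, b, c, d, e, f] t i j k).natAbs ≤ off := fun t i j k =>
    (fits3_sound (fits4_sound hf t)).1 i j k
  have hD : Rep (E.w + 1) (7 * E.m0) (2 * off) D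
      (build (Nat.succ E.w) E.n1 E.n2 E.n3 off [a, b, c, d, e, f]) := by
    refine ⟨?_, fun p hp => by simp only [hDdef]; rw [if_neg (by omega)], fun p => ?_⟩
    · rw [build_eq]
      exact pk_congr _ fun p hp => (hDe p hp).symm
    · simp only [hDdef]
      split_ifs
      · exact toD_le (hq _ _ _ _)
      · exact Nat.zero_le _
  obtain ⟨D1, b1, N1, r1, k1, v1⟩ := cut_sound hE hD h
  obtain ⟨D2, b2, N2, r2, k2, v2⟩ := cut_sound hE r1 k1
  obtain ⟨D3, b3, N3, r3, k3, v3⟩ := cut_sound hE r2 k2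
  obtain ⟨a1, b1', ha1, hb1, E1⟩ := v1 ⟨x, 1, y, 1, z, 1⟩ hx rfl hx1
  obtain ⟨a2, b2', ha2, hb2, E2⟩ := v2 (Pt.set ⟨x, 1, y, 1, z, 1⟩ 0 a1 b1') hy rfl hy1
  obtain ⟨a3, b3', ha3, hb3, E3⟩ := v3 (Pt.set (Pt.set ⟨x, 1, y, 1, z, 1⟩ 0 a1 b1') 1 a2 b2')
    hz rfl hz1
  have hN : (Pt.set (Pt.set (Pt.set ⟨x, 1, y, 1, z, 1⟩ 0 a1 b1') 1 a2 b2') 2 a3 b3').Nonneg :=
    ⟨ha1, hb1, ha2, hb2, ha3, hb3⟩
  have key := chk_sound hE T b3 N3 D3 r3 k3 _ hN u v s
  simp only [E3, E2, E1] at key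
  rw [val_build hf x y z (show 0 < 6 by norm_num) hDe,
    val_build hf x y z (show 1 < 6 by norm_num) hDe,
    val_build hf x y z (show 2 < 6 by norm_num) hDe,
    val_build hf x y z (show 3 < 6 by norm_num) hDe,
    val_build hf x y z (show 4 < 6 by norm_num) hDe,
    val_build hf x y z (show 5 < 6 by norm_num) hDe] at key
  exact key

end Crest.Agent.R249.Ker254
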