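import Crest.Agent.R249.Ker8_254
import Mathlib.Algebra.MvPolynomial.Degrees
import Mathlib.Algebra.MvPolynomial.CommRing

/-!
# Kernel checker for polynomial inequalities, part 9: polynomial identities

`Ex` = expressions in three variables, including the composition `pc p a b c = p(a, b, c)` of a
coefficient list `p` with three expressions.  `Ex.ev` evaluates in any commutative ring.
`idc w n1 n2 n3 E F = true` (by `decide +kernel`, one Kronecker substitution with big integers)
proves `E.ev x y z = F.ev x y z` for all real `x y z`.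
-/

set_option autoImplicit false

namespace Crest.Agent.R249.Ker254

/-- expressions in three variables -/
inductive Ex : Type
  | cst (n : ℤ) : Ex
  | vx : Ex
  | vy : Ex
  | vz : Ex
  | add (a b : Ex) : Ex
  | sub (a b : Ex) : Ex
  | mul (a b : Ex) : Ex
  | pw (a : Ex) (n : ℕ) : Ex
  | pc (p : P3) (a b c : Ex) : Ex

/-! ## evaluation in commutative rings -/

section ring
variable {R S : Type*} [CommRing R] [CommRing S]

def h1 (t : R) : List ℤ → R
  | [] => 0
  | c :: l => c + t * h1 t l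

def h2 (s t : R) : List (List ℤ) → R
  | [] => 0
  | l :: ls => h1 t l + s * h2 s t ls

def h3 (r s t : R) : P3 → R
  | [] => 0
  | l :: ls => h2 s t l + r * h3 r s t ls

def Ex.ev (u v w : R) : Ex → R
  | .cst n => n
  | .vx => u
  | .vy => v
  | .vz => w
  | .add a b => a.ev u v w + b.ev u v w
  | .sub a b => a.ev u v w - b.ev u v w
  | .mul a b => a.ev u v w * b.ev u v w
  | .pw a n => a.ev u v w ^ n
  | .pc p a b c => h3 (a.ev u v w) (b.ev u v w) (c.ev u v w) p

theorem map_h1 (φ : R →+* S) (t : R) (l : List ℤ) : φ (h1 t l) = h1 (φ t) l := by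
  induction l with
  | nil => simp [h1]
  | cons c l ih => simp [h1, ih]

theorem map_h2 (φ : R →+* S) (s t : R) (l : List (List ℤ)) :
    φ (h2 s t l) = h2 (φ s) (φ t) l := by
  induction l with
  | nil => simp [h2]
  | cons c l ih => simp [h2, ih, map_h1]

theorem map_h3 (φ : R →+* S) (r s t : R) (l : P3) :
    φ (h3 r s t l) = h3 (φ r) (φ s) (φ t) l := by
  induction l with
  | nil => simp [h3]
  | cons c l ih => simp [h3, ih, map_h2]

theorem Ex.map_ev (φ : R →+* S) (u v w : R) (E : Ex) :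
    φ (E.ev u v w) = E.ev (φ u) (φ v) (φ w) := by
  induction E with
  | cst n => simp [Ex.ev]
  | vx => rfl
  | vy => rfl
  | vz => rfl
  | add a b iha ihb => simp [Ex.ev, iha, ihb]
  | sub a b iha ihb => simp [Ex.ev, iha, ihb]
  | mul a b iha ihb => simp [Ex.ev, iha, ihb]
  | pw a n iha => simp [Ex.ev, iha]
  | pc p a b c iha ihb ihc => simp [Ex.ev, map_h3, iha, ihb, ihc]

/-- majorants -/
def g1 (t : R) : List ℤ → R
  | [] => 0
  | c :: l => (c.natAbs : R) + t * g1 t l

def g2 (s t : R) : List (List ℤ) → R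
  | [] => 0
  | l :: ls => g1 t l + s * g2 s t ls

def g3 (r s t : R) : P3 → R
  | [] => 0
  | l :: ls => g2 s t l + r * g3 r s t ls

def Ex.ma (u v w : R) : Ex → R
  | .cst n => (n.natAbs : R)
  | .vx => u
  | .vy => v
  | .vz => w
  | .add a b => a.ma u v w + b.ma u v w
  | .sub a b => a.ma u v w + b.ma u v w
  | .mul a b => a.ma u v w * b.ma u v w
  | .pw a n => a.ma u v w ^ n
  | .pc p a b c => g3 (a.ma u v w) (b.ma u v w) (c.ma u v w) p

theorem map_g1 (φ : R →+* S) (t : R) (l : List ℤ) : φ (g1 t l) = g1 (φ t) l := by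
  induction l with
  | nil => simp [g1]
  | cons c l ih => simp only [g1, map_add, map_mul, ih, map_natCast]

theorem map_g2 (φ : R →+* S) (s t : R) (l : List (List ℤ)) :
    φ (g2 s t l) = g2 (φ s) (φ t) l := by
  induction l with
  | nil => simp [g2]
  | cons c l ih => simp [g2, ih, map_g1]

theorem map_g3 (φ : R →+* S) (r s t : R) (l : P3) :
    φ (g3 r s t l) = g3 (φ r) (φ s) (φ t) l := by
  induction l with
  | nil => simp [g3]
  | cons c l ih => simp [g3, ih, map_g2]

theorem Ex.map_ma (φ : R →+* S) (u v w : R) (E : Ex) :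
    φ (E.ma u v w) = E.ma (φ u) (φ v) (φ w) := by
  induction E with
  | cst n => simp only [Ex.ma, map_natCast]
  | vx => rfl
  | vy => rfl
  | vz => rfl
  | add a b iha ihb => simp [Ex.ma, iha, ihb]
  | sub a b iha ihb => simp [Ex.ma, iha, ihb]
  | mul a b iha ihb => simp [Ex.ma, iha, ihb]
  | pw a n iha => simp [Ex.ma, iha]
  | pc p a b c iha ihb ihc => simp [Ex.ma, map_g3, iha, ihb, ihc]

end ring

theorem h1_eq (t : ℝ) (l : List ℤ) : h1 t l = ev1 t l := by
  induction l with
  | nil => rfl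
  | cons c l ih => simp [h1, ev1, ih]

theorem h2_eq (s t : ℝ) (l : List (List ℤ)) : h2 s t l = ev2 s t l := by
  induction l with
  | nil => rfl
  | cons c l ih => simp [h2, ev2, ih, h1_eq]

theorem h3_eq (r s t : ℝ) (l : P3) : h3 r s t l = ev3 r s t l := by
  induction l with
  | nil => rfl
  | cons c l ih => simp [h3, ev3, ih, h2_eq]

/-! ## kernel evaluation -/

def frcI {α : Type} (n : ℤ) (k : ℤ → α) : α :=
  match n with
  | Int.ofNat n => frc n fun m => k (Int.ofNat m)
  | Int.negSucc n => frc n fun m => k (Int.negSucc m)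

@[simp] theorem frcI_eq {α : Type} (n : ℤ) (k : ℤ → α) : frcI n k = k n := by
  cases n <;> simp [frcI]

def k1 (t : ℤ) : List ℤ → ℤ
  | [] => 0
  | c :: l => frcI (k1 t l) fun u => frcI (Int.mul t u) fun v => Int.add c v

def k2 (s t : ℤ) : List (List ℤ) → ℤ
  | [] => 0
  | l :: ls => frcI (k2 s t ls) fun u => frcI (k1 t l) fun v => frcI (Int.mul s u) fun m =>
      Int.add v m

def k3 (r s t : ℤ) : P3 → ℤ
  | [] => 0
  | l :: ls => frcI (k3 r s t ls) fun u => frcI (k2 s t l) fun v => frcI (Int.mul r u) fun m =>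
      Int.add v m

theorem k1_eq (t : ℤ) (l : List ℤ) : k1 t l = h1 t l := by
  induction l with
  | nil => rfl
  | cons c l ih =>
    simp only [k1, frcI_eq, h1, ← ih]
    rfl

theorem k2_eq (s t : ℤ) (l : List (List ℤ)) : k2 s t l = h2 s t l := by
  induction l with
  | nil => rfl
  | cons c l ih =>
    simp only [k2, frcI_eq, h2, ← ih, ← k1_eq]
    rfl

theorem k3_eq (r s t : ℤ) (l : P3) : k3 r s t l = h3 r s t l := by
  induction l with
  | nil => rfl
  | cons c l ih =>
    simp only [k3, frcI_eq, h3, ← ih, ← k2_eq]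
    rfl

def powI (u : ℤ) : ℕ → ℤ
  | 0 => 1
  | n + 1 => frcI (powI u n) fun v => Int.mul v u

theorem powI_eq (u : ℤ) (n : ℕ) : powI u n = u ^ n := by
  induction n with
  | zero => exact (pow_zero u).symm
  | succ n ih =>
    simp only [powI, frcI_eq, ih]
    exact (pow_succ u n).symm

def Ex.evI (X Y Z : ℤ) : Ex → ℤ
  | .cst n => n
  | .vx => X
  | .vy => Y
  | .vz => Z
  | .add a b => frcI (a.evI X Y Z) fun u => frcI (b.evI X Y Z) fun v => Int.add u v
  | .sub a b => frcI (a.evI X Y Z) fun u => frcI (b.evI X Y Z) fun v => Int.sub u v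
  | .mul a b => frcI (a.evI X Y Z) fun u => frcI (b.evI X Y Z) fun v => Int.mul u v
  | .pw a n => frcI (a.evI X Y Z) fun u => powI u n
  | .pc p a b c => frcI (a.evI X Y Z) fun r => frcI (b.evI X Y Z) fun s =>
      frcI (c.evI X Y Z) fun t => k3 r s t p

theorem Ex.evI_eq (X Y Z : ℤ) (E : Ex) : E.evI X Y Z = E.ev X Y Z := by
  induction E with
  | cst n => simp [Ex.evI, Ex.ev]
  | vx => rfl
  | vy => rfl
  | vz => rfl
  | add a b iha ihb => simp only [Ex.evI, Ex.ev, frcI_eq, ← iha, ← ihb]; rfl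
  | sub a b iha ihb => simp only [Ex.evI, Ex.ev, frcI_eq, ← iha, ← ihb]; rfl
  | mul a b iha ihb => simp only [Ex.evI, Ex.ev, frcI_eq, ← iha, ← ihb]; rfl
  | pw a n iha => simp only [Ex.evI, Ex.ev, frcI_eq, ← iha, powI_eq]
  | pc p a b c iha ihb ihc => simp only [Ex.evI, Ex.ev, frcI_eq, ← iha, ← ihb, ← ihc, k3_eq]

/-! norms -/

def m1 (t : ℕ) : List ℤ → ℕ
  | [] => 0
  | c :: l => frc (m1 t l) fun u => Nat.add (Int.natAbs c) (Nat.mul t u)

def m2 (s t : ℕ) : List (List ℤ) → ℕ
  | [] => 0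
  | l :: ls => frc (m2 s t ls) fun u => frc (m1 t l) fun v => Nat.add v (Nat.mul s u)

def m3 (r s t : ℕ) : P3 → ℕ
  | [] => 0
  | l :: ls => frc (m3 r s t ls) fun u => frc (m2 s t l) fun v => Nat.add v (Nat.mul r u)

def Ex.nb : Ex → ℕ
  | .cst n => Int.natAbs n
  | .vx => 1
  | .vy => 1
  | .vz => 1
  | .add a b => frc a.nb fun u => frc b.nb fun v => Nat.add u v
  | .sub a b => frc a.nb fun u => frc b.nb fun v => Nat.add u v
  | .mul a b => frc a.nb fun u => frc b.nb fun v => Nat.mul u v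
  | .pw a n => frc a.nb fun u => Nat.pow u n
  | .pc p a b c => frc a.nb fun r => frc b.nb fun s => frc c.nb fun t => m3 r s t p

theorem m1_eq (t : ℕ) (l : List ℤ) : ((m1 t l : ℕ) : ℤ) = g1 (t : ℤ) l := by
  induction l with
  | nil => rfl
  | cons c l ih =>
    simp only [m1, frc_eq, g1, ← ih]
    show ((c.natAbs + t * m1 t l : ℕ) : ℤ) = _
    push_cast; rfl

theorem m2_eq (s t : ℕ) (l : List (List ℤ)) : ((m2 s t l : ℕ) : ℤ) = g2 (s : ℤ) (t : ℤ) l := by
  induction l with
  | nil => rfl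
  | cons c l ih =>
    simp only [m2, frc_eq, g2, ← ih, ← m1_eq]
    show ((m1 t c + s * m2 s t l : ℕ) : ℤ) = _
    push_cast; rfl

theorem m3_eq (r s t : ℕ) (l : P3) : ((m3 r s t l : ℕ) : ℤ) = g3 (r : ℤ) (s : ℤ) (t : ℤ) l := by
  induction l with
  | nil => rfl
  | cons c l ih =>
    simp only [m3, frc_eq, g3, ← ih, ← m2_eq]
    show ((m2 s t c + r * m3 r s t l : ℕ) : ℤ) = _
    push_cast; rfl

theorem Ex.nb_eq (E : Ex) : ((E.nb : ℕ) : ℤ) = E.ma 1 1 1 := by
  induction E with
  | cst n => simp [Ex.nb, Ex.ma]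
  | vx => rfl
  | vy => rfl
  | vz => rfl
  | add a b iha ihb =>
    simp only [Ex.nb, Ex.ma, frc_eq, ← iha, ← ihb]
    exact Nat.cast_add _ _
  | sub a b iha ihb =>
    simp only [Ex.nb, Ex.ma, frc_eq, ← iha, ← ihb]
    exact Nat.cast_add _ _
  | mul a b iha ihb =>
    simp only [Ex.nb, Ex.ma, frc_eq, ← iha, ← ihb]
    exact Nat.cast_mul _ _
  | pw a n iha =>
    simp only [Ex.nb, Ex.ma, frc_eq, ← iha]
    exact Nat.cast_pow _ _
  | pc p a b c iha ihb ihc => simp only [Ex.nb, Ex.ma, frc_eq, ← iha, ← ihb, ← ihc, m3_eq]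

/-! degrees -/

def dl1 (t : ℕ) : List ℤ → ℕ
  | [] => 0
  | _ :: l => match l with
    | [] => 0
    | _ :: _ => frc (dl1 t l) fun u => Nat.add t u

def dl2 (s t : ℕ) : List (List ℤ) → ℕ
  | [] => 0
  | p :: l => match l with
    | [] => dl1 t p
    | _ :: _ => frc (dl2 s t l) fun u => frc (dl1 t p) fun v => Nat.max v (Nat.add s u)

def dl3 (r s t : ℕ) : P3 → ℕ
  | [] => 0
  | p :: l => match l with
    | [] => dl2 s t p
    | _ :: _ => frc (dl3 r s t l) fun u => frc (dl2 s t p) fun v => Nat.max v (Nat.add r u)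

def Ex.dg (a b c : ℕ) : Ex → ℕ
  | .cst _ => 0
  | .vx => a
  | .vy => b
  | .vz => c
  | .add e f => frc (e.dg a b c) fun u => frc (f.dg a b c) fun v => Nat.max u v
  | .sub e f => frc (e.dg a b c) fun u => frc (f.dg a b c) fun v => Nat.max u v
  | .mul e f => frc (e.dg a b c) fun u => frc (f.dg a b c) fun v => Nat.add u v
  | .pw e n => frc (e.dg a b c) fun u => Nat.mul n u
  | .pc p e f g => frc (e.dg a b c) fun r => frc (f.dg a b c) fun s =>
      frc (g.dg a b c) fun t => dl3 r s t p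

end Crest.Agent.R249.Ker254
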