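import Crest.Agent.R249.KerT1_368
import Mathlib.Data.Nat.Choose.Sum

/-!
# Kernel checker in the Bernstein basis, part 1: de Casteljau subdivision

Digits are Bernstein coefficients: the digit `j` of a column belongs to `choose n j * a^j * b^(n-j)`.
`lB` substitutes `(a, b) ↦ (a, a + 2 b)`, `rB` substitutes `(a, b) ↦ (2 a + b, b)`.
-/

set_option autoImplicit false

namespace Crest.Agent.R249.KerB368

open Crest.Agent.R249.Ker254 Crest.Agent.R249.KerT368

/-- binomial sums along a column -/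
def xs {R : Type} [Add R] (c : ℕ → R) : ℕ → ℕ → R
  | 0, i => c i
  | k + 1, i => xs c k i + xs c k (i + 1)

theorem xs_shift {R : Type} [Add R] (c : ℕ → R) (k i : ℕ) :
    xs (fun i => c (i + 1)) k i = xs c k (i + 1) := by
  induction k generalizing i with
  | zero => rfl
  | succ k ih => simp only [xs, ih]

theorem xs_add (c d : ℕ → ℝ) (k i : ℕ) :
    xs (fun i => c i + d i) k i = xs c k i + xs d k i := by
  induction k generalizing i with
  | zero => rfl
  | succ k ih => simp only [xs, ih]; ring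

theorem xs_succ' (c : ℕ → ℝ) (k i : ℕ) :
    xs c (k + 1) i = xs (fun i => c i + c (i + 1)) k i := by
  rw [xs_add, xs_shift]; rfl

theorem xs_cast (c : ℕ → ℕ) (k i : ℕ) : ((xs c k i : ℕ) : ℝ) = xs (fun i => (c i : ℝ)) k i := by
  induction k generalizing i with
  | zero => rfl
  | succ k ih => simp only [xs, Nat.cast_add, ih]

theorem pascal (n : ℕ) (F : ℕ → ℝ) :
    ∑ j ∈ Finset.range (n + 1 + 1), ((n + 1).choose j : ℝ) * F j
      = ∑ j ∈ Finset.range (n + 1), (n.choose j : ℝ) * F j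
        + ∑ j ∈ Finset.range (n + 1), (n.choose j : ℝ) * F (j + 1) := by
  rw [Finset.sum_range_succ']
  have h1 : ∑ j ∈ Finset.range (n + 1), ((n + 1).choose (j + 1) : ℝ) * F (j + 1)
      = ∑ j ∈ Finset.range (n + 1), (n.choose j : ℝ) * F (j + 1)
        + ∑ j ∈ Finset.range (n + 1), (n.choose (j + 1) : ℝ) * F (j + 1) := by
    rw [← Finset.sum_add_distrib]
    refine Finset.sum_congr rfl fun j _ => ?_
    rw [Nat.choose_succ_succ]; push_cast; ring
  have h2 : ∑ j ∈ Finset.range (n + 1), (n.choose j : ℝ) * F j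
      = ∑ j ∈ Finset.range (n + 1), (n.choose (j + 1) : ℝ) * F (j + 1) + (n.choose 0 : ℝ) * F 0 := by
    rw [← Finset.sum_range_succ' (fun j => (n.choose j : ℝ) * F j), Finset.sum_range_succ _ (n + 1)]
    simp
  rw [h1, h2]
  simp
  ring

theorem left_eval (n : ℕ) (c : ℕ → ℝ) (a b : ℝ) :
    ∑ j ∈ Finset.range (n + 1), (n.choose j : ℝ) * (2 ^ (n - j) * xs c j 0 * (a ^ j * b ^ (n - j)))
      = ∑ j ∈ Finset.range (n + 1), (n.choose j : ℝ) * (c j * (a ^ j * (a + 2 * b) ^ (n - j))) := by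
  induction n generalizing c with
  | zero => simp [xs]
  | succ n ih =>
    rw [pascal n (fun j => 2 ^ (n + 1 - j) * xs c j 0 * (a ^ j * b ^ (n + 1 - j))),
      pascal n (fun j => c j * (a ^ j * (a + 2 * b) ^ (n + 1 - j)))]
    have e1 : ∑ j ∈ Finset.range (n + 1), (n.choose j : ℝ)
          * (2 ^ (n + 1 - j) * xs c j 0 * (a ^ j * b ^ (n + 1 - j)))
        = 2 * b * ∑ j ∈ Finset.range (n + 1), (n.choose j : ℝ)
          * (2 ^ (n - j) * xs c j 0 * (a ^ j * b ^ (n - j))) := by
      rw [Finset.mul_sum]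
      refine Finset.sum_congr rfl fun j hj => ?_
      have : n + 1 - j = (n - j) + 1 := by have := Finset.mem_range.1 hj; omega
      rw [this, pow_succ, pow_succ]; ring
    have e2 : ∑ j ∈ Finset.range (n + 1), (n.choose j : ℝ)
          * (2 ^ (n + 1 - (j + 1)) * xs c (j + 1) 0 * (a ^ (j + 1) * b ^ (n + 1 - (j + 1))))
        = a * ∑ j ∈ Finset.range (n + 1), (n.choose j : ℝ)
          * (2 ^ (n - j) * xs (fun i => c i + c (i + 1)) j 0 * (a ^ j * b ^ (n - j))) := by
      rw [Finset.mul_sum]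
      refine Finset.sum_congr rfl fun j hj => ?_
      rw [Nat.add_sub_add_right, xs_succ', pow_succ]; ring
    have e3 : ∑ j ∈ Finset.range (n + 1), (n.choose j : ℝ)
          * (c j * (a ^ j * (a + 2 * b) ^ (n + 1 - j)))
        = (a + 2 * b) * ∑ j ∈ Finset.range (n + 1), (n.choose j : ℝ)
          * (c j * (a ^ j * (a + 2 * b) ^ (n - j))) := by
      rw [Finset.mul_sum]
      refine Finset.sum_congr rfl fun j hj => ?_
      have : n + 1 - j = (n - j) + 1 := by have := Finset.mem_range.1 hj; omega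
      rw [this, pow_succ]; ring
    have e4 : ∑ j ∈ Finset.range (n + 1), (n.choose j : ℝ)
          * (c (j + 1) * (a ^ (j + 1) * (a + 2 * b) ^ (n + 1 - (j + 1))))
        = a * ∑ j ∈ Finset.range (n + 1), (n.choose j : ℝ)
          * (c (j + 1) * (a ^ j * (a + 2 * b) ^ (n - j))) := by
      rw [Finset.mul_sum]
      refine Finset.sum_congr rfl fun j hj => ?_
      rw [Nat.add_sub_add_right, pow_succ]; ring
    have e5 : ∑ j ∈ Finset.range (n + 1), (n.choose j : ℝ)
          * ((c j + c (j + 1)) * (a ^ j * (a + 2 * b) ^ (n - j)))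
        = ∑ j ∈ Finset.range (n + 1), (n.choose j : ℝ) * (c j * (a ^ j * (a + 2 * b) ^ (n - j)))
        + ∑ j ∈ Finset.range (n + 1), (n.choose j : ℝ)
          * (c (j + 1) * (a ^ j * (a + 2 * b) ^ (n - j))) := by
      rw [← Finset.sum_add_distrib]
      refine Finset.sum_congr rfl fun j _ => ?_
      ring
    rw [e1, e2, e3, e4, ih c, ih (fun i => c i + c (i + 1)), e5]
    ring

theorem right_eval (n : ℕ) (c : ℕ → ℝ) (a b : ℝ) :
    ∑ j ∈ Finset.range (n + 1), (n.choose j : ℝ) * (2 ^ j * xs c (n - j) j * (a ^ j * b ^ (n - j)))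
      = ∑ j ∈ Finset.range (n + 1), (n.choose j : ℝ) * (c j * ((2 * a + b) ^ j * b ^ (n - j))) := by
  induction n generalizing c with
  | zero => simp [xs]
  | succ n ih =>
    rw [pascal n (fun j => 2 ^ j * xs c (n + 1 - j) j * (a ^ j * b ^ (n + 1 - j))),
      pascal n (fun j => c j * ((2 * a + b) ^ j * b ^ (n + 1 - j)))]
    have e1 : ∑ j ∈ Finset.range (n + 1), (n.choose j : ℝ)
          * (2 ^ j * xs c (n + 1 - j) j * (a ^ j * b ^ (n + 1 - j)))
        = b * (∑ j ∈ Finset.range (n + 1), (n.choose j : ℝ)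
            * (2 ^ j * xs c (n - j) j * (a ^ j * b ^ (n - j)))
          + ∑ j ∈ Finset.range (n + 1), (n.choose j : ℝ)
            * (2 ^ j * xs (fun i => c (i + 1)) (n - j) j * (a ^ j * b ^ (n - j)))) := by
      rw [← Finset.sum_add_distrib, Finset.mul_sum]
      refine Finset.sum_congr rfl fun j hj => ?_
      have : n + 1 - j = (n - j) + 1 := by have := Finset.mem_range.1 hj; omega
      rw [this, xs_shift, pow_succ]
      simp only [xs]
      ring
    have e2 : ∑ j ∈ Finset.range (n + 1), (n.choose j : ℝ)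
          * (2 ^ (j + 1) * xs c (n + 1 - (j + 1)) (j + 1)
            * (a ^ (j + 1) * b ^ (n + 1 - (j + 1))))
        = 2 * a * ∑ j ∈ Finset.range (n + 1), (n.choose j : ℝ)
          * (2 ^ j * xs (fun i => c (i + 1)) (n - j) j * (a ^ j * b ^ (n - j))) := by
      rw [Finset.mul_sum]
      refine Finset.sum_congr rfl fun j hj => ?_
      rw [Nat.add_sub_add_right, xs_shift, pow_succ, pow_succ]; ring
    have e3 : ∑ j ∈ Finset.range (n + 1), (n.choose j : ℝ)
          * (c j * ((2 * a + b) ^ j * b ^ (n + 1 - j)))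
        = b * ∑ j ∈ Finset.range (n + 1), (n.choose j : ℝ)
          * (c j * ((2 * a + b) ^ j * b ^ (n - j))) := by
      rw [Finset.mul_sum]
      refine Finset.sum_congr rfl fun j hj => ?_
      have : n + 1 - j = (n - j) + 1 := by have := Finset.mem_range.1 hj; omega
      rw [this, pow_succ]; ring
    have e4 : ∑ j ∈ Finset.range (n + 1), (n.choose j : ℝ)
          * (c (j + 1) * ((2 * a + b) ^ (j + 1) * b ^ (n + 1 - (j + 1))))
        = (2 * a + b) * ∑ j ∈ Finset.range (n + 1), (n.choose j : ℝ)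
          * (c (j + 1) * ((2 * a + b) ^ j * b ^ (n - j))) := by
      rw [Finset.mul_sum]
      refine Finset.sum_congr rfl fun j hj => ?_
      rw [Nat.add_sub_add_right, pow_succ]; ring
    rw [e1, e2, e3, e4, ih c, ih (fun i => c (i + 1))]
    ring

/-! ## digit vectors -/

/-- the vector after `k` steps -/
def xD (σ : ℕ) (D : ℕ → ℕ) : ℕ → ℕ → ℕ
  | 0, p => D p
  | k + 1, p => xD σ D k p + xD σ D k (σ + p)

theorem xD_col (σ n h l : ℕ) (D : ℕ → ℕ) (k j : ℕ) :
    xD σ D k ((h * (n + 1) + j) * σ + l) = xs (fun x => D ((h * (n + 1) + x) * σ + l)) k j := by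
  induction k generalizing j with
  | zero => rfl
  | succ k ih =>
    simp only [xD, xs]
    rw [← ih, ← ih, show σ + ((h * (n + 1) + j) * σ + l) = (h * (n + 1) + (j + 1)) * σ + l by ring]

theorem xD_le {σ : ℕ} {D : ℕ → ℕ} {b : ℕ} (h : ∀ p, D p ≤ b) (k p : ℕ) : xD σ D k p ≤ 2 ^ k * b := by
  induction k generalizing p with
  | zero => simpa [xD] using h p
  | succ k ih =>
    have := ih p; have := ih (σ + p)
    simp only [xD, pow_succ]
    calc _ ≤ 2 ^ k * b + 2 ^ k * b := by omega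
      _ = _ := by ring

/-- left half: `(a, b) ↦ (a, a + 2 b)` -/
def lB (σ n m : ℕ) (D : ℕ → ℕ) (p : ℕ) : ℕ :=
  if p < m then 2 ^ (n - J σ n p) * xD σ D (J σ n p) (p - J σ n p * σ) else 0

/-- right half: `(a, b) ↦ (2 a + b, b)` -/
def rB (σ n m : ℕ) (D : ℕ → ℕ) (p : ℕ) : ℕ :=
  if p < m then 2 ^ J σ n p * xD σ D (n - J σ n p) p else 0

theorem J_le (σ n p : ℕ) : J σ n p ≤ n := Nat.le_of_lt_succ (Nat.mod_lt _ (Nat.succ_pos n))

theorem lB_le {σ n m : ℕ} {D : ℕ → ℕ} {b : ℕ} (h : ∀ p, D p ≤ b) (p : ℕ) :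
    lB σ n m D p ≤ 2 ^ n * b := by
  unfold lB
  split_ifs
  · have h1 := xD_le (σ := σ) h (J σ n p) (p - J σ n p * σ)
    calc _ ≤ 2 ^ (n - J σ n p) * (2 ^ J σ n p * b) := Nat.mul_le_mul_left _ h1
      _ = 2 ^ n * b := by rw [← mul_assoc, ← pow_add, Nat.sub_add_cancel (J_le σ n p)]
  · exact Nat.zero_le _

theorem rB_le {σ n m : ℕ} {D : ℕ → ℕ} {b : ℕ} (h : ∀ p, D p ≤ b) (p : ℕ) :
    rB σ n m D p ≤ 2 ^ n * b := by
  unfold rB
  split_ifs
  · have h1 := xD_le (σ := σ) h (n - J σ n p) p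
    calc _ ≤ 2 ^ J σ n p * (2 ^ (n - J σ n p) * b) := Nat.mul_le_mul_left _ h1
      _ = 2 ^ n * b := by rw [← mul_assoc, ← pow_add, Nat.add_sub_cancel' (J_le σ n p)]
  · exact Nat.zero_le _

theorem lB_eval {σ n H : ℕ} (D : ℕ → ℕ) (a b : ℝ) (X X' : ℕ → ℝ) (y : ℕ → ℕ → ℝ)
    (hX : ∀ h j l, h < H → j ≤ n → l < σ →
      X ((h * (n + 1) + j) * σ + l) = y h l * (n.choose j * (a ^ j * b ^ (n - j))))
    (hX' : ∀ h j l, h < H → j ≤ n → l < σ →
      X' ((h * (n + 1) + j) * σ + l) = y h l * (n.choose j * (a ^ j * (a + 2 * b) ^ (n - j)))) :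
    ∑ p ∈ Finset.range (H * (n + 1) * σ), (lB σ n (H * (n + 1) * σ) D p : ℝ) * X p
      = ∑ p ∈ Finset.range (H * (n + 1) * σ), (D p : ℝ) * X' p := by
  rw [sum_decomp, sum_decomp]
  refine Finset.sum_congr rfl fun h hh => Finset.sum_congr rfl fun l hl => ?_
  have hh' := Finset.mem_range.1 hh
  have hl' := Finset.mem_range.1 hl
  have key := left_eval n (fun x => (D ((h * (n + 1) + x) * σ + l) : ℝ)) a b
  calc ∑ j ∈ Finset.range (n + 1),
        (lB σ n (H * (n + 1) * σ) D ((h * (n + 1) + j) * σ + l) : ℝ)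
          * X ((h * (n + 1) + j) * σ + l)
      = y h l * ∑ j ∈ Finset.range (n + 1), (n.choose j : ℝ)
          * (2 ^ (n - j) * xs (fun x => (D ((h * (n + 1) + x) * σ + l) : ℝ)) j 0
            * (a ^ j * b ^ (n - j))) := by
        rw [Finset.mul_sum]
        refine Finset.sum_congr rfl fun j hj => ?_
        have hj' : j ≤ n := by have := Finset.mem_range.1 hj; omega
        rw [hX h j l hh' hj' hl']
        unfold lB
        rw [if_pos (idx_lt hh' hj' hl'), J_eq hl' hj']
        have e : (h * (n + 1) + j) * σ + l - j * σ = (h * (n + 1) + 0) * σ + l := by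
          have : (h * (n + 1) + j) * σ + l = j * σ + ((h * (n + 1) + 0) * σ + l) := by ring
          rw [this, Nat.add_sub_cancel_left]
        rw [e, xD_col, Nat.cast_mul, xs_cast]
        push_cast
        ring
    _ = y h l * ∑ j ∈ Finset.range (n + 1), (n.choose j : ℝ)
          * ((D ((h * (n + 1) + j) * σ + l) : ℝ) * (a ^ j * (a + 2 * b) ^ (n - j))) := by
        rw [key]
    _ = _ := by
        rw [Finset.mul_sum]
        refine Finset.sum_congr rfl fun j hj => ?_
        have hj' : j ≤ n := by have := Finset.mem_range.1 hj; omega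
        rw [hX' h j l hh' hj' hl']; ring

theorem rB_eval {σ n H : ℕ} (D : ℕ → ℕ) (a b : ℝ) (X X' : ℕ → ℝ) (y : ℕ → ℕ → ℝ)
    (hX : ∀ h j l, h < H → j ≤ n → l < σ →
      X ((h * (n + 1) + j) * σ + l) = y h l * (n.choose j * (a ^ j * b ^ (n - j))))
    (hX' : ∀ h j l, h < H → j ≤ n → l < σ →
      X' ((h * (n + 1) + j) * σ + l) = y h l * (n.choose j * ((2 * a + b) ^ j * b ^ (n - j)))) :
    ∑ p ∈ Finset.range (H * (n + 1) * σ), (rB σ n (H * (n + 1) * σ) D p : ℝ) * X p
      = ∑ p ∈ Finset.range (H * (n + 1) * σ), (D p : ℝ) * X' p := by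
  rw [sum_decomp, sum_decomp]
  refine Finset.sum_congr rfl fun h hh => Finset.sum_congr rfl fun l hl => ?_
  have hh' := Finset.mem_range.1 hh
  have hl' := Finset.mem_range.1 hl
  have key := right_eval n (fun x => (D ((h * (n + 1) + x) * σ + l) : ℝ)) a b
  calc ∑ j ∈ Finset.range (n + 1),
        (rB σ n (H * (n + 1) * σ) D ((h * (n + 1) + j) * σ + l) : ℝ)
          * X ((h * (n + 1) + j) * σ + l)
      = y h l * ∑ j ∈ Finset.range (n + 1), (n.choose j : ℝ)
          * (2 ^ j * xs (fun x => (D ((h * (n + 1) + x) * σ + l) : ℝ)) (n - j) j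
            * (a ^ j * b ^ (n - j))) := by
        rw [Finset.mul_sum]
        refine Finset.sum_congr rfl fun j hj => ?_
        have hj' : j ≤ n := by have := Finset.mem_range.1 hj; omega
        rw [hX h j l hh' hj' hl']
        unfold rB
        rw [if_pos (idx_lt hh' hj' hl'), J_eq hl' hj', xD_col, Nat.cast_mul, xs_cast]
        push_cast
        ring
    _ = y h l * ∑ j ∈ Finset.range (n + 1), (n.choose j : ℝ)
          * ((D ((h * (n + 1) + j) * σ + l) : ℝ) * ((2 * a + b) ^ j * b ^ (n - j))) := by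
        rw [key]
    _ = _ := by
        rw [Finset.mul_sum]
        refine Finset.sum_congr rfl fun j hj => ?_
        have hj' : j ≤ n := by have := Finset.mem_range.1 hj; omega
        rw [hX' h j l hh' hj' hl']; ring

end Crest.Agent.R249.KerB368
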