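import Crest.Agent.R249.KerB1_368

/-!
# Kernel checker in the Bernstein basis, part 2: subdivision of packed vectors
-/

set_option autoImplicit false

namespace Crest.Agent.R249.KerB368

open Crest.Agent.R249.Ker254 Crest.Agent.R249.KerT368

/-- the loop: `k`-th sums `X`, accumulators `L`, `R` -/
def dcB {α : Type} (s n M0 : ℕ) (kont : ℕ → ℕ → α) : List ℕ → ℕ → ℕ → ℕ → ℕ → α
  | [], _, _, L, R => kont L R
  | m :: ms, k, X, L, R =>
    dcB s n M0 kont ms (Nat.succ k) (Nat.add X (Nat.shiftRight X s))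
      (Nat.add L (Nat.shiftLeft (Nat.land X M0) (Nat.add (Nat.mul k s) (Nat.sub n k))))
      (Nat.add R (Nat.shiftLeft (Nat.land X m) (Nat.sub n k)))

/-- both halves -/
def splitB {α : Type} (s n M0 Mn : ℕ) (dn : List ℕ) (N : ℕ) (kont : ℕ → ℕ → α) : α :=
  dcB s n M0 kont dn 1 (Nat.add N (Nat.shiftRight N s)) (Nat.shiftLeft (Nat.land N M0) n)
    (Nat.shiftLeft (Nat.land N Mn) n)

/-- masks of the indices `j - 1, ..., 0` -/
def dnM (M0 s : ℕ) : ℕ → List ℕ
  | 0 => []
  | j + 1 => Nat.shiftLeft M0 (Nat.mul s j) :: dnM M0 s j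

def mkDn {α : Type} (M0 s : ℕ) : ℕ → (List ℕ → α) → α
  | 0, k => k []
  | j + 1, k => frc (Nat.shiftLeft M0 (Nat.mul s j)) fun m => mkDn M0 s j fun l => k (m :: l)

theorem mkDn_eq {α : Type} (M0 s j : ℕ) (k : List ℕ → α) : mkDn M0 s j k = k (dnM M0 s j) := by
  induction j generalizing k with
  | zero => rfl
  | succ j ih => simp only [mkDn, frc_eq, ih]; rfl

/-- mask of the index `j` -/
def maskJ (w σ n j : ℕ) : ℕ → ℕ := fun p => if J σ n p = j then 2 ^ w - 1 else 0

theorem J_shift {σ n H p k : ℕ} (hp : p < H * (n + 1) * σ) (hk : k ≤ n) :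
    (¬ p < σ * k ∧ J σ n (p - σ * k) = 0) ↔ J σ n p = k := by
  obtain ⟨h, j, l, hh, hj, hl, rfl⟩ := decomp hp
  rw [J_eq hl hj]
  constructor
  · rintro ⟨h1, h2⟩
    rcases lt_or_ge j k with hc | hc
    · exfalso
      have hpos : 0 < h := by
        rcases Nat.eq_zero_or_pos h with z | z
        · exfalso
          subst z
          apply h1
          calc (0 * (n + 1) + j) * σ + l = j * σ + l := by ring
            _ < j * σ + σ := by omega
            _ = (j + 1) * σ := by ring
            _ ≤ k * σ := Nat.mul_le_mul_right _ hc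
            _ = σ * k := by ring
        · exact z
      obtain ⟨h', rfl⟩ : ∃ h', h = h' + 1 := ⟨h - 1, by omega⟩
      obtain ⟨d, hd⟩ : ∃ d, d + k = n + 1 + j := ⟨n + 1 + j - k, by omega⟩
      have e : ((h' + 1) * (n + 1) + j) * σ + l - σ * k = (h' * (n + 1) + d) * σ + l := by
        have e1 : (h' + 1) * (n + 1) + j = h' * (n + 1) + d + k := by
          have : (h' + 1) * (n + 1) + j = h' * (n + 1) + (n + 1 + j) := by ring
          omega
        have e2 : ((h' + 1) * (n + 1) + j) * σ + l = σ * k + ((h' * (n + 1) + d) * σ + l) := by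
          rw [e1]; ring
        rw [e2, Nat.add_sub_cancel_left]
      rw [e, J_eq hl (by omega)] at h2
      omega
    · obtain ⟨d, rfl⟩ : ∃ d, j = d + k := ⟨j - k, by omega⟩
      have e : (h * (n + 1) + (d + k)) * σ + l - σ * k = (h * (n + 1) + d) * σ + l := by
        have : (h * (n + 1) + (d + k)) * σ + l = σ * k + ((h * (n + 1) + d) * σ + l) := by ring
        rw [this, Nat.add_sub_cancel_left]
      rw [e, J_eq hl (by omega)] at h2
      omega
  · rintro rfl
    have e0 : (h * (n + 1) + j) * σ + l = σ * j + ((h * (n + 1) + 0) * σ + l) := by ring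
    refine ⟨by omega, ?_⟩
    rw [e0, Nat.add_sub_cancel_left, J_eq hl (Nat.zero_le _)]

section
variable {w σ n H b : ℕ} {D : ℕ → ℕ} {N M0 : ℕ}

theorem mask_shift (hM : M0 = pk w (maskJ w σ n 0) (H * (n + 1) * σ)) {j : ℕ} (hj : j ≤ n) :
    Nat.shiftLeft M0 (Nat.mul (w * σ) j) = pk w (maskJ w σ n j) (H * (n + 1) * σ) := by
  have e0 : M0 = pk w (fun p => if p < H * (n + 1) * σ then maskJ w σ n 0 p else 0)
      (H * (n + 1) * σ) := by
    rw [hM]; exact pk_congr _ fun p hp => by rw [if_pos hp]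
  show M0 <<< (w * σ * j) = _
  rw [show w * σ * j = w * (σ * j) by ring, e0, pk_shl w (σ * j)]
  · apply pk_congr
    intro p hp
    have key := J_shift hp hj
    unfold maskJ
    by_cases h1 : p < σ * j
    · have : ¬ J σ n p = j := fun h => (key.2 h).1 h1
      rw [if_pos h1, if_neg this]
    · rw [if_neg h1, if_pos (by omega)]
      by_cases h2 : J σ n (p - σ * j) = 0
      · rw [if_pos h2, if_pos (key.1 ⟨h1, h2⟩)]
      · have : ¬ J σ n p = j := fun h => h2 (key.2 h).2
        rw [if_neg h2, if_neg this]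
  · intro p hp
    by_cases h1 : p < H * (n + 1) * σ
    · rw [if_pos h1]
      unfold maskJ
      rw [if_neg]
      intro h2
      obtain ⟨h, j', l, hh, hj', hl, rfl⟩ := decomp h1
      rw [J_eq hl hj'] at h2
      subst h2
      have := idx_lt (σ := σ) hh hj hl
      have e : (h * (n + 1) + j) * σ + l = σ * j + ((h * (n + 1) + 0) * σ + l) := by ring
      omega
    · rw [if_neg h1]

theorem xD_supp {m : ℕ} (h : ∀ p, m ≤ p → D p = 0) (k p : ℕ) (hp : m ≤ p) : xD σ D k p = 0 := by
  induction k generalizing p with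
  | zero => exact h p hp
  | succ k ih => simp only [xD]; rw [ih p hp, ih (σ + p) (by omega)]

theorem xD_rep (hD : Rep w (H * (n + 1) * σ) b D N) {k : ℕ} :
    Rep w (H * (n + 1) * σ) (2 ^ k * b) (xD σ D k) (pk w (xD σ D k) (H * (n + 1) * σ)) :=
  ⟨rfl, fun p hp => xD_supp hD.supp k p hp, fun p => xD_le hD.bd k p⟩

theorem pow_bd (hb : 2 ^ n * b < 2 ^ w) {k : ℕ} (hk : k ≤ n) : 2 ^ k * b < 2 ^ w :=
  lt_of_le_of_lt (Nat.mul_le_mul_right _ (Nat.pow_le_pow_right (by norm_num) hk)) hb

theorem xD_step (hD : Rep w (H * (n + 1) * σ) b D N) (hb : 2 ^ n * b < 2 ^ w) {k : ℕ} (hk : k ≤ n) :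
    Nat.add (pk w (xD σ D k) (H * (n + 1) * σ))
      (Nat.shiftRight (pk w (xD σ D k) (H * (n + 1) * σ)) (w * σ))
      = pk w (xD σ D (k + 1)) (H * (n + 1) * σ) := by
  have h1 := xD_rep (σ := σ) (n := n) (H := H) hD (k := k)
  have h2 := h1.add (h1.shr σ (pow_bd hb hk))
  rw [h2.eq]
  rfl

theorem lB_step (hD : Rep w (H * (n + 1) * σ) b D N) (hb : 2 ^ n * b < 2 ^ w)
    (hM : M0 = pk w (maskJ w σ n 0) (H * (n + 1) * σ)) {k : ℕ} (hk : k ≤ n) :
    Nat.shiftLeft (Nat.land (pk w (xD σ D k) (H * (n + 1) * σ)) M0)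
        (Nat.add (Nat.mul k (w * σ)) (Nat.sub n k))
      = pk w (fun p => if J σ n p = k then lB σ n (H * (n + 1) * σ) D p else 0)
          (H * (n + 1) * σ) := by
  have h1 := xD_rep (σ := σ) (n := n) (H := H) hD (k := k)
  have h2 := h1.mask (fun p => J σ n p = 0) (pow_bd hb hk) hM
  have h3 := h2.shl (σ * k) (fun p hp => by
    by_cases h5 : p < H * (n + 1) * σ
    · rw [if_neg]
      intro h6
      obtain ⟨h, j', l, hh, hj', hl, rfl⟩ := decomp h5
      rw [J_eq hl hj'] at h6
      subst h6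
      have := idx_lt (σ := σ) hh hk hl
      have e : (h * (n + 1) + k) * σ + l = σ * k + ((h * (n + 1) + 0) * σ + l) := by ring
      omega
    · rw [xD_supp hD.supp k p (by omega)]; simp)
  have e1 : Nat.shiftLeft (Nat.land (pk w (xD σ D k) (H * (n + 1) * σ)) M0)
        (Nat.add (Nat.mul k (w * σ)) (Nat.sub n k))
      = 2 ^ (n - k) * Nat.shiftLeft (Nat.land (pk w (xD σ D k) (H * (n + 1) * σ)) M0)
          (w * (σ * k)) := by
    show (Nat.land (pk w (xD σ D k) (H * (n + 1) * σ)) M0) <<< (k * (w * σ) + (n - k))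
      = 2 ^ (n - k) * (Nat.land (pk w (xD σ D k) (H * (n + 1) * σ)) M0) <<< (w * (σ * k))
    rw [Nat.shiftLeft_add, Nat.shiftLeft_eq _ (n - k), show k * (w * σ) = w * (σ * k) by ring,
      mul_comm]
  rw [e1, h3.eq, pk_smul]
  apply pk_congr
  intro p hp
  have key := J_shift hp hk
  by_cases h4 : p < σ * k
  · have : ¬ J σ n p = k := fun h => (key.2 h).1 h4
    rw [if_pos h4, if_neg this, mul_zero]
  · rw [if_neg h4]
    by_cases h5 : J σ n (p - σ * k) = 0
    · have h6 := key.1 ⟨h4, h5⟩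
      rw [if_pos h5, if_pos h6]
      unfold lB
      rw [if_pos hp, h6, mul_comm k σ]
    · have : ¬ J σ n p = k := fun h => h5 (key.2 h).2
      rw [if_neg h5, if_neg this, mul_zero]

theorem rB_step (hD : Rep w (H * (n + 1) * σ) b D N) (hb : 2 ^ n * b < 2 ^ w)
    (hM : M0 = pk w (maskJ w σ n 0) (H * (n + 1) * σ)) {k j : ℕ} (hk : k ≤ n) (hj : j = n - k) :
    Nat.shiftLeft (Nat.land (pk w (xD σ D k) (H * (n + 1) * σ))
        (Nat.shiftLeft M0 (Nat.mul (w * σ) j))) (Nat.sub n k)
      = pk w (fun p => if J σ n p = j then rB σ n (H * (n + 1) * σ) D p else 0)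
          (H * (n + 1) * σ) := by
  have hj' : j ≤ n := by omega
  have h1 := xD_rep (σ := σ) (n := n) (H := H) hD (k := k)
  have h2 := h1.mask (fun p => J σ n p = j) (pow_bd hb hk) (mask_shift hM hj')
  show (Nat.land (pk w (xD σ D k) (H * (n + 1) * σ))
        (Nat.shiftLeft M0 (Nat.mul (w * σ) j))) <<< (n - k) = _
  rw [h2.eq, Nat.shiftLeft_eq, mul_comm, pk_smul]
  apply pk_congr
  intro p hp
  by_cases h5 : J σ n p = j
  · rw [if_pos h5, if_pos h5]
    unfold rB
    rw [if_pos hp, h5, hj, Nat.sub_sub_self hk]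
  · rw [if_neg h5, if_neg h5, mul_zero]

theorem dcB_eq {α : Type} (kont : ℕ → ℕ → α) (hD : Rep w (H * (n + 1) * σ) b D N)
    (hb : 2 ^ n * b < 2 ^ w) (hM : M0 = pk w (maskJ w σ n 0) (H * (n + 1) * σ)) :
    ∀ (f k X L R : ℕ), k + f = n + 1 → X = pk w (xD σ D k) (H * (n + 1) * σ) →
      L = pk w (fun p => if J σ n p < k then lB σ n (H * (n + 1) * σ) D p else 0)
        (H * (n + 1) * σ) →
      R = pk w (fun p => if n < J σ n p + k then rB σ n (H * (n + 1) * σ) D p else 0)
        (H * (n + 1) * σ) →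
      dcB (w * σ) n M0 kont (dnM M0 (w * σ) f) k X L R
        = kont (pk w (lB σ n (H * (n + 1) * σ) D) (H * (n + 1) * σ))
            (pk w (rB σ n (H * (n + 1) * σ) D) (H * (n + 1) * σ)) := by
  intro f
  induction f with
  | zero =>
    intro k X L R hk hX hL hR
    show kont L R = _
    rw [hL, hR]
    congr 1
    · exact pk_congr _ fun p _ => by rw [if_pos]; have := J_le σ n p; omega
    · exact pk_congr _ fun p _ => by rw [if_pos]; omega
  | succ f ih =>
    intro k X L R hk hX hL hR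
    have hk' : k ≤ n := by omega
    subst hX hL hR
    simp only [dnM, dcB]
    apply ih (k + 1) _ _ _ (by omega)
    · exact xD_step hD hb hk'
    · rw [lB_step hD hb hM hk']
      rw [Nat.add_eq, pk_add]
      apply pk_congr
      intro p _
      by_cases h1 : J σ n p < k
      · rw [if_pos h1, if_neg (by omega), if_pos (by omega), add_zero]
      · rw [if_neg h1]
        by_cases h2 : J σ n p = k
        · rw [if_pos h2, if_pos (by omega), zero_add]
        · rw [if_neg h2, if_neg (by omega)]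
    · rw [rB_step hD hb hM hk' (show f = n - k by omega)]
      rw [Nat.add_eq, pk_add]
      apply pk_congr
      intro p _
      by_cases h1 : n < J σ n p + k
      · rw [if_pos h1, if_neg (by omega), if_pos (by omega), add_zero]
      · rw [if_neg h1]
        by_cases h2 : J σ n p = f
        · rw [if_pos h2, if_pos (by omega), zero_add]
        · rw [if_neg h2, if_neg (by omega)]

theorem splitB_eq {α : Type} (kont : ℕ → ℕ → α) (hD : Rep w (H * (n + 1) * σ) b D N)
    (hb : 2 ^ n * b < 2 ^ w) (hM : M0 = pk w (maskJ w σ n 0) (H * (n + 1) * σ)) :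
    splitB (w * σ) n M0 (Nat.shiftLeft M0 (Nat.mul (w * σ) n)) (dnM M0 (w * σ) n) N kont
      = kont (pk w (lB σ n (H * (n + 1) * σ) D) (H * (n + 1) * σ))
          (pk w (rB σ n (H * (n + 1) * σ) D) (H * (n + 1) * σ)) := by
  unfold splitB
  have e0 : N = pk w (xD σ D 0) (H * (n + 1) * σ) := hD.eq
  apply dcB_eq kont hD hb hM n 1
  · omega
  · rw [e0]; exact xD_step hD hb (Nat.zero_le _)
  · have := lB_step hD hb hM (Nat.zero_le n)
    rw [← e0] at this
    have e1 : Nat.add (Nat.mul 0 (w * σ)) (Nat.sub n 0) = n := by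
      show 0 * (w * σ) + (n - 0) = n
      simp
    rw [e1] at this
    rw [this]
    apply pk_congr
    intro p _
    by_cases h : J σ n p = 0
    · rw [if_pos h, if_pos (by omega)]
    · rw [if_neg h, if_neg (by omega)]
  · have := rB_step hD hb hM (Nat.zero_le n) (show n = n - 0 by omega)
    rw [← e0] at this
    have e1 : Nat.sub n 0 = n := rfl
    rw [e1] at this
    rw [this]
    apply pk_congr
    intro p _
    have := J_le σ n p
    by_cases h : J σ n p = n
    · rw [if_pos h, if_pos (by omega)]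
    · rw [if_neg h, if_neg (by omega)]

end

/-! ## truncation -/

theorem trB_rep {w m b s : ℕ} {D : ℕ → ℕ} (hD : ∀ p, D p ≤ b) (hs : ∀ p, m ≤ p → D p = 0)
    (hb : b < 2 ^ w) (hsw : s < w) {Mt : ℕ} (hMt : Mt = pk w (fun _ => 2 ^ (w - s) - 1) m) :
    Rep w m (b / 2 ^ s) (fun p => D p / 2 ^ s) (Nat.land (Nat.shiftRight (pk w D m) s) Mt) := by
  refine ⟨?_, fun p hp => by rw [hs p hp]; simp, fun p => Nat.div_le_div_right (hD p)⟩
  show (pk w D m) >>> s &&& Mt = _
  rw [hMt, pk_trunc (fun p => (hD p).trans_lt hb) m hsw]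

/-- the mask check -/
theorem top_rep {w m b kb N : ℕ} {D : ℕ → ℕ} (h : Rep w m b D N) (hb : b < 2 ^ w) (hk : kb ≤ w)
    {Top : ℕ} (hT : Top = pk w (fun _ => 2 ^ w - 2 ^ kb) m) (hz : Nat.land N Top = 0) :
    Rep w m (2 ^ kb - 1) D N := by
  refine ⟨h.eq, h.supp, fun p => ?_⟩
  have hz' : pk w D m &&& pk w (fun _ => 2 ^ w - 2 ^ kb) m = 0 := by
    rw [← h.eq, ← hT]; exact hz
  rcases lt_or_ge p m with hp | hp
  · exact Nat.le_sub_one_of_lt (pk_top (fun p => (h.bd p).trans_lt hb) m hk hz' p hp)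
  · rw [h.supp p hp]; exact Nat.zero_le _

end Crest.Agent.R249.KerB368
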