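import Crest.Agent.R249.KerB2_368

/-!
# Kernel checker in the Bernstein basis, part 3: weights, values, cones
-/

set_option autoImplicit false

namespace Crest.Agent.R249.KerB368

open Crest.Agent.R249.Ker254 Crest.Agent.R249.KerT368

/-- product of the binomial coefficients of digit `P` -/
noncomputable def bin3 (n1 n2 n3 : ℕ) (P : ℕ) : ℝ :=
  (n1.choose (J ((n2 + 1) * (n3 + 1)) n1 P) : ℝ) *
    ((n2.choose (J (n3 + 1) n2 P) : ℝ) * (n3.choose (J 1 n3 P) : ℝ))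

theorem bin3_pos (n1 n2 n3 P : ℕ) : 0 < bin3 n1 n2 n3 P := by
  unfold bin3
  have h1 := Nat.choose_pos (J_le ((n2 + 1) * (n3 + 1)) n1 P)
  have h2 := Nat.choose_pos (J_le (n3 + 1) n2 P)
  have h3 := Nat.choose_pos (J_le 1 n3 P)
  positivity

/-- weight of digit `P` -/
noncomputable def wtB (n1 n2 n3 : ℕ) (lam : ℕ → ℝ) (x : Pt) (P : ℕ) : ℝ :=
  bin3 n1 n2 n3 P * wt n1 n2 n3 lam x P

section
variable (n1 n2 n3 : ℕ) (lam : ℕ → ℝ)

theorem wtB_var1 (x : Pt) (a b : ℝ) {h j l : ℕ} (hj : j ≤ n1) (hl : l < (n2 + 1) * (n3 + 1)) :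
    wtB n1 n2 n3 lam {x with a1 := a, b1 := b} ((h * (n1 + 1) + j) * ((n2 + 1) * (n3 + 1)) + l)
      = (((n2.choose (J (n3 + 1) n2 l) : ℝ) * (n3.choose (J 1 n3 l) : ℝ)) *
          (lam h * ((x.a2 ^ J (n3 + 1) n2 l * x.b2 ^ (n2 - J (n3 + 1) n2 l)) *
          (x.a3 ^ J 1 n3 l * x.b3 ^ (n3 - J 1 n3 l))))) *
        ((n1.choose j : ℝ) * (a ^ j * b ^ (n1 - j))) := by
  unfold wtB bin3
  rw [wt_var1 n1 n2 n3 lam x a b hj hl, J_eq hl hj,
    inner_J (σ := n3 + 1) (n := n2) (Nat.succ_pos _) _ rfl]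
  have : J 1 n3 ((h * (n1 + 1) + j) * ((n2 + 1) * (n3 + 1)) + l) = J 1 n3 l := by
    rw [show (h * (n1 + 1) + j) * ((n2 + 1) * (n3 + 1)) = ((h * (n1 + 1) + j) * (n2 + 1)) * (n3 + 1)
      by ring]
    exact inner_J (σ := 1) (n := n3) one_pos _ (by ring)
  rw [this]
  ring

theorem wtB_var2 (x : Pt) (a b : ℝ) {h j l : ℕ} (hj : j ≤ n2) (hl : l < n3 + 1) :
    wtB n1 n2 n3 lam {x with a2 := a, b2 := b} ((h * (n2 + 1) + j) * (n3 + 1) + l)
      = (((n1.choose (h % (n1 + 1)) : ℝ) * (n3.choose (J 1 n3 l) : ℝ)) *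
          (lam (h / (n1 + 1)) * ((x.a1 ^ (h % (n1 + 1)) * x.b1 ^ (n1 - h % (n1 + 1))) *
          (x.a3 ^ J 1 n3 l * x.b3 ^ (n3 - J 1 n3 l))))) *
        ((n2.choose j : ℝ) * (a ^ j * b ^ (n2 - j))) := by
  unfold wtB bin3
  have e1 : J ((n2 + 1) * (n3 + 1)) n1 ((h * (n2 + 1) + j) * (n3 + 1) + l) = h % (n1 + 1) := by
    unfold J; rw [mid_div hl (Nat.lt_succ_of_le hj)]
  have e3 : J 1 n3 ((h * (n2 + 1) + j) * (n3 + 1) + l) = J 1 n3 l :=
    inner_J (σ := 1) (n := n3) one_pos _ (by ring)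
  rw [wt_var2 n1 n2 n3 lam x a b hj hl, e1, e3, J_eq hl hj]
  ring

theorem wtB_var3 (x : Pt) (a b : ℝ) {h j l : ℕ} (hj : j ≤ n3) (hl : l < 1) :
    wtB n1 n2 n3 lam {x with a3 := a, b3 := b} ((h * (n3 + 1) + j) * 1 + l)
      = (((n1.choose ((h / (n2 + 1)) % (n1 + 1)) : ℝ) * (n2.choose (h % (n2 + 1)) : ℝ)) *
        (lam (h / ((n1 + 1) * (n2 + 1))) *
        ((x.a1 ^ ((h / (n2 + 1)) % (n1 + 1)) * x.b1 ^ (n1 - (h / (n2 + 1)) % (n1 + 1))) *
          (x.a2 ^ (h % (n2 + 1)) * x.b2 ^ (n2 - h % (n2 + 1)))))) *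
        ((n3.choose j : ℝ) * (a ^ j * b ^ (n3 - j))) := by
  have hl0 : l = 0 := by omega
  subst hl0
  unfold wtB bin3
  have e1 : J ((n2 + 1) * (n3 + 1)) n1 ((h * (n3 + 1) + j) * 1 + 0) = (h / (n2 + 1)) % (n1 + 1) := by
    unfold J
    have := outer_div (A := n3 + 1) (B := 1) (C := n2 + 1) (h := h) (j := j) (l := 0) one_pos
      (Nat.lt_succ_of_le hj)
    rw [mul_one] at this ⊢
    rw [show (n2 + 1) * (n3 + 1) = (n2 + 1) * ((n3 + 1) * 1) by ring]
    rw [← this]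
  have e2 : J (n3 + 1) n2 ((h * (n3 + 1) + j) * 1 + 0) = h % (n2 + 1) := by
    unfold J
    have := mid_div (A := n3 + 1) (B := 1) (h := h) (j := j) (l := 0) one_pos
      (Nat.lt_succ_of_le hj)
    rw [mul_one, mul_one] at this
    rw [mul_one, this]
  rw [wt_var3 n1 n2 n3 lam x a b hj one_pos, e1, e2, J_eq one_pos hj]
  ring

end

/-! ## values -/

/-- number of digits of one block -/
abbrev dm (n1 n2 n3 : ℕ) : ℕ := (n1 + 1) * ((n2 + 1) * (n3 + 1))

/-- weight of a digit in its block -/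
noncomputable def bm (n1 n2 n3 : ℕ) (x : Pt) (p : ℕ) : ℝ := bin3 n1 n2 n3 p * mon n1 n2 n3 x p

theorem bm_nonneg {n1 n2 n3 : ℕ} {x : Pt} (hx : x.Nonneg) (p : ℕ) : 0 ≤ bm n1 n2 n3 x p :=
  mul_nonneg (bin3_pos _ _ _ _).le (mon_nonneg hx p)

/-- block `t` of the digit vector evaluated at `x` -/
noncomputable def bv (n1 n2 n3 : ℕ) (D : ℕ → ℕ) (t : ℕ) (x : Pt) : ℝ :=
  ∑ p ∈ Finset.range (dm n1 n2 n3), (D (t * dm n1 n2 n3 + p) : ℝ) * bm n1 n2 n3 x p

/-- sum of the weights -/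
noncomputable def sw (n1 n2 n3 : ℕ) (x : Pt) : ℝ :=
  ∑ p ∈ Finset.range (dm n1 n2 n3), bm n1 n2 n3 x p

theorem bin3_period {n1 n2 n3 : ℕ} (h p : ℕ) :
    bin3 n1 n2 n3 (h * dm n1 n2 n3 + p) = bin3 n1 n2 n3 p := by
  unfold bin3 dm
  have e1 : J ((n2 + 1) * (n3 + 1)) n1 (h * ((n1 + 1) * ((n2 + 1) * (n3 + 1))) + p)
      = J ((n2 + 1) * (n3 + 1)) n1 p :=
    inner_J (Nat.mul_pos (Nat.succ_pos _) (Nat.succ_pos _)) h rfl
  have e2 : J (n3 + 1) n2 (h * ((n1 + 1) * ((n2 + 1) * (n3 + 1))) + p) = J (n3 + 1) n2 p := by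
    rw [show h * ((n1 + 1) * ((n2 + 1) * (n3 + 1))) = (h * (n1 + 1)) * ((n2 + 1) * (n3 + 1)) by ring]
    exact inner_J (Nat.succ_pos _) _ rfl
  have e3 : J 1 n3 (h * ((n1 + 1) * ((n2 + 1) * (n3 + 1))) + p) = J 1 n3 p := by
    rw [show h * ((n1 + 1) * ((n2 + 1) * (n3 + 1))) = (h * (n1 + 1) * (n2 + 1)) * (n3 + 1) by ring]
    exact inner_J one_pos _ (by ring)
  rw [e1, e2, e3]

/-- a block as a weighted sum over all digits -/
theorem sum_block {n1 n2 n3 nb : ℕ} (D : ℕ → ℕ) {t : ℕ} (ht : t < nb) (x : Pt) :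
    ∑ P ∈ Finset.range (nb * dm n1 n2 n3),
        (D P : ℝ) * wtB n1 n2 n3 (fun h => if h = t then 1 else 0) x P
      = bv n1 n2 n3 D t x := by
  have hm0 : 0 < dm n1 n2 n3 := by unfold dm; positivity
  rw [sum_range_mul, Finset.sum_eq_single t]
  · unfold bv
    refine Finset.sum_congr rfl fun p hp => ?_
    have hp' := Finset.mem_range.1 hp
    unfold wtB wt bm
    have e1 : (t * dm n1 n2 n3 + p) / ((n1 + 1) * ((n2 + 1) * (n3 + 1))) = t := by
      rw [show t * dm n1 n2 n3 + p = p + ((n1 + 1) * ((n2 + 1) * (n3 + 1))) * t by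
        unfold dm; ring, Nat.add_mul_div_left _ _ hm0, Nat.div_eq_of_lt hp', zero_add]
    rw [e1, bin3_period, mon_period x t p]
    simp
  · intro h _ hne
    refine Finset.sum_eq_zero fun p hp => ?_
    have hp' := Finset.mem_range.1 hp
    have e1 : (h * dm n1 n2 n3 + p) / ((n1 + 1) * ((n2 + 1) * (n3 + 1))) = h := by
      rw [show h * dm n1 n2 n3 + p = p + ((n1 + 1) * ((n2 + 1) * (n3 + 1))) * h by
        unfold dm; ring, Nat.add_mul_div_left _ _ hm0, Nat.div_eq_of_lt hp', zero_add]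
    unfold wtB wt
    rw [e1]
    simp [hne]
  · intro h
    exact absurd (Finset.mem_range.2 ht) h

theorem sw_eq_bv {n1 n2 n3 : ℕ} (x : Pt) : sw n1 n2 n3 x = bv n1 n2 n3 (fun _ => 1) 0 x := by
  unfold sw bv
  exact Finset.sum_congr rfl fun p _ => by simp

/-- stride, degree and number of groups of variable `v` -/
def strd (n2 n3 : ℕ) : ℕ → ℕ
  | 0 => (n2 + 1) * (n3 + 1)
  | 1 => n3 + 1
  | _ => 1

def degv (n1 n2 n3 : ℕ) : ℕ → ℕ
  | 0 => n1
  | 1 => n2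
  | _ => n3

def grp (nb n1 n2 : ℕ) : ℕ → ℕ
  | 0 => nb
  | 1 => nb * (n1 + 1)
  | _ => nb * ((n1 + 1) * (n2 + 1))

theorem grp_eq (nb n1 n2 n3 v : ℕ) :
    grp nb n1 n2 v * (degv n1 n2 n3 v + 1) * strd n2 n3 v = nb * dm n1 n2 n3 := by
  match v with
  | 0 => simp only [grp, degv, strd, dm]; ring
  | 1 => simp only [grp, degv, strd, dm]; ring
  | (_ + 2) => simp only [grp, degv, strd, dm]; ring

theorem strd_pos (n2 n3 v : ℕ) : 0 < strd n2 n3 v := by
  match v with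
  | 0 => simp only [strd]; positivity
  | 1 => simp only [strd]; positivity
  | (_ + 2) => simp only [strd]; positivity

theorem sum_left {n1 n2 n3 nb : ℕ} (v : ℕ) (D : ℕ → ℕ) (lam : ℕ → ℝ) (x : Pt) (a b : ℝ) :
    ∑ P ∈ Finset.range (nb * dm n1 n2 n3),
        (lB (strd n2 n3 v) (degv n1 n2 n3 v) (nb * dm n1 n2 n3) D P : ℝ)
          * wtB n1 n2 n3 lam (x.set v a b) P
      = ∑ P ∈ Finset.range (nb * dm n1 n2 n3),
        (D P : ℝ) * wtB n1 n2 n3 lam (x.set v a (a + 2 * b)) P := by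
  rw [← grp_eq nb n1 n2 n3 v]
  match v with
  | 0 =>
    exact lB_eval (H := nb) (n := n1) D a b _ _ _
      (fun h j l _ hj hl => wtB_var1 _ _ _ lam x a b hj hl)
      (fun h j l _ hj hl => wtB_var1 _ _ _ lam x a (a + 2 * b) hj hl)
  | 1 =>
    exact lB_eval (H := nb * (n1 + 1)) (n := n2) D a b _ _
      (fun h l => (((n1.choose (h % (n1 + 1)) : ℝ) * (n3.choose (J 1 n3 l) : ℝ)) *
          (lam (h / (n1 + 1)) * ((x.a1 ^ (h % (n1 + 1)) * x.b1 ^ (n1 - h % (n1 + 1))) *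
          (x.a3 ^ J 1 n3 l * x.b3 ^ (n3 - J 1 n3 l))))))
      (fun h j l _ hj hl => wtB_var2 _ _ _ lam x a b hj hl)
      (fun h j l _ hj hl => wtB_var2 _ _ _ lam x a (a + 2 * b) hj hl)
  | (_ + 2) =>
    exact lB_eval (H := nb * ((n1 + 1) * (n2 + 1))) (n := n3) D a b _ _
      (fun h _ => (((n1.choose ((h / (n2 + 1)) % (n1 + 1)) : ℝ) * (n2.choose (h % (n2 + 1)) : ℝ)) *
        (lam (h / ((n1 + 1) * (n2 + 1))) *
        ((x.a1 ^ ((h / (n2 + 1)) % (n1 + 1)) * x.b1 ^ (n1 - (h / (n2 + 1)) % (n1 + 1))) *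
          (x.a2 ^ (h % (n2 + 1)) * x.b2 ^ (n2 - h % (n2 + 1)))))))
      (fun h j l _ hj hl => wtB_var3 _ _ _ lam x a b hj hl)
      (fun h j l _ hj hl => wtB_var3 _ _ _ lam x a (a + 2 * b) hj hl)

theorem sum_right {n1 n2 n3 nb : ℕ} (v : ℕ) (D : ℕ → ℕ) (lam : ℕ → ℝ) (x : Pt) (a b : ℝ) :
    ∑ P ∈ Finset.range (nb * dm n1 n2 n3),
        (rB (strd n2 n3 v) (degv n1 n2 n3 v) (nb * dm n1 n2 n3) D P : ℝ)
          * wtB n1 n2 n3 lam (x.set v a b) P
      = ∑ P ∈ Finset.range (nb * dm n1 n2 n3),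
        (D P : ℝ) * wtB n1 n2 n3 lam (x.set v (2 * a + b) b) P := by
  rw [← grp_eq nb n1 n2 n3 v]
  match v with
  | 0 =>
    exact rB_eval (H := nb) (n := n1) D a b _ _ _
      (fun h j l _ hj hl => wtB_var1 _ _ _ lam x a b hj hl)
      (fun h j l _ hj hl => wtB_var1 _ _ _ lam x (2 * a + b) b hj hl)
  | 1 =>
    exact rB_eval (H := nb * (n1 + 1)) (n := n2) D a b _ _
      (fun h l => (((n1.choose (h % (n1 + 1)) : ℝ) * (n3.choose (J 1 n3 l) : ℝ)) *
          (lam (h / (n1 + 1)) * ((x.a1 ^ (h % (n1 + 1)) * x.b1 ^ (n1 - h % (n1 + 1))) *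
          (x.a3 ^ J 1 n3 l * x.b3 ^ (n3 - J 1 n3 l))))))
      (fun h j l _ hj hl => wtB_var2 _ _ _ lam x a b hj hl)
      (fun h j l _ hj hl => wtB_var2 _ _ _ lam x (2 * a + b) b hj hl)
  | (_ + 2) =>
    exact rB_eval (H := nb * ((n1 + 1) * (n2 + 1))) (n := n3) D a b _ _
      (fun h _ => (((n1.choose ((h / (n2 + 1)) % (n1 + 1)) : ℝ) * (n2.choose (h % (n2 + 1)) : ℝ)) *
        (lam (h / ((n1 + 1) * (n2 + 1))) *
        ((x.a1 ^ ((h / (n2 + 1)) % (n1 + 1)) * x.b1 ^ (n1 - (h / (n2 + 1)) % (n1 + 1))) *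
          (x.a2 ^ (h % (n2 + 1)) * x.b2 ^ (n2 - h % (n2 + 1)))))))
      (fun h j l _ hj hl => wtB_var3 _ _ _ lam x a b hj hl)
      (fun h j l _ hj hl => wtB_var3 _ _ _ lam x (2 * a + b) b hj hl)

theorem bv_left {n1 n2 n3 nb : ℕ} (v : ℕ) (D : ℕ → ℕ) {t : ℕ} (ht : t < nb) (x : Pt) (a b : ℝ) :
    bv n1 n2 n3 (lB (strd n2 n3 v) (degv n1 n2 n3 v) (nb * dm n1 n2 n3) D) t (x.set v a b)
      = bv n1 n2 n3 D t (x.set v a (a + 2 * b)) := by
  rw [← sum_block _ ht, ← sum_block _ ht]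
  exact sum_left v D _ x a b

theorem bv_right {n1 n2 n3 nb : ℕ} (v : ℕ) (D : ℕ → ℕ) {t : ℕ} (ht : t < nb) (x : Pt) (a b : ℝ) :
    bv n1 n2 n3 (rB (strd n2 n3 v) (degv n1 n2 n3 v) (nb * dm n1 n2 n3) D) t (x.set v a b)
      = bv n1 n2 n3 D t (x.set v (2 * a + b) b) := by
  rw [← sum_block _ ht, ← sum_block _ ht]
  exact sum_right v D _ x a b

theorem xD_one (σ k p : ℕ) : xD σ (fun _ => 1) k p = 2 ^ k := by
  induction k generalizing p with
  | zero => rfl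
  | succ k ih => simp only [xD, ih]; ring

theorem bv_congr {n1 n2 n3 nb : ℕ} {D D' : ℕ → ℕ} (h : ∀ p, p < nb * dm n1 n2 n3 → D p = D' p)
    {t : ℕ} (ht : t < nb) (x : Pt) : bv n1 n2 n3 D t x = bv n1 n2 n3 D' t x := by
  unfold bv
  refine Finset.sum_congr rfl fun p hp => ?_
  have hp' := Finset.mem_range.1 hp
  rw [h]
  calc t * dm n1 n2 n3 + p < t * dm n1 n2 n3 + dm n1 n2 n3 := by omega
    _ = (t + 1) * dm n1 n2 n3 := by ring
    _ ≤ nb * dm n1 n2 n3 := Nat.mul_le_mul_right _ ht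

theorem bv_const {n1 n2 n3 : ℕ} (c t : ℕ) (x : Pt) :
    bv n1 n2 n3 (fun _ => c) t x = c * sw n1 n2 n3 x := by
  unfold bv sw; rw [Finset.mul_sum]

theorem sw_left {n1 n2 n3 : ℕ} (v : ℕ) (x : Pt) (a b : ℝ) :
    2 ^ degv n1 n2 n3 v * sw n1 n2 n3 (x.set v a b) = sw n1 n2 n3 (x.set v a (a + 2 * b)) := by
  have h := bv_left (n1 := n1) (n2 := n2) (n3 := n3) (nb := 1) v (fun _ => 1) one_pos x a b
  rw [bv_congr (nb := 1) (D' := fun _ => 2 ^ degv n1 n2 n3 v) _ one_pos, bv_const, bv_const] at h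
  · push_cast at h; rw [h]; ring
  · intro p hp
    unfold lB
    rw [if_pos hp, xD_one, ← pow_add, Nat.sub_add_cancel (J_le _ _ _)]

theorem sw_right {n1 n2 n3 : ℕ} (v : ℕ) (x : Pt) (a b : ℝ) :
    2 ^ degv n1 n2 n3 v * sw n1 n2 n3 (x.set v a b) = sw n1 n2 n3 (x.set v (2 * a + b) b) := by
  have h := bv_right (n1 := n1) (n2 := n2) (n3 := n3) (nb := 1) v (fun _ => 1) one_pos x a b
  rw [bv_congr (nb := 1) (D' := fun _ => 2 ^ degv n1 n2 n3 v) _ one_pos, bv_const, bv_const] at h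
  · push_cast at h; rw [h]; ring
  · intro p hp
    unfold rB
    rw [if_pos hp, xD_one, ← pow_add, Nat.add_sub_cancel' (J_le _ _ _)]

/-! ## cones -/

/-- number of blocks: kind `0` = symmetric `3 × 3` (`a b c d e f`), `1` = symmetric `2 × 2`
(`a b d`), else scalar -/
def nbK : ℕ → ℕ
  | 0 => 6
  | 1 => 3
  | _ => 1

/-- diagonal blocks -/
def dgK : ℕ → ℕ → Bool
  | 0, t => Nat.beq t 0 || Nat.beq t 3 || Nat.beq t 5
  | 1, t => Nat.beq t 0 || Nat.beq t 2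
  | _, _ => true

/-- the cone of positive forms -/
def KK : ℕ → (ℕ → ℝ) → Prop
  | 0, e => ∀ u v s : ℝ, 0 ≤ qf (e 0) (e 1) (e 2) (e 3) (e 4) (e 5) u v s
  | 1, e => ∀ u v : ℝ, 0 ≤ e 0 * u ^ 2 + 2 * e 1 * u * v + e 2 * v ^ 2
  | _, e => 0 ≤ e 0

theorem KK_add {kd : ℕ} {e f : ℕ → ℝ} (he : KK kd e) (hf : KK kd f) :
    KK kd (fun t => e t + f t) := by
  match kd with
  | 0 =>
    intro u v s
    have h1 := he u v s; have h2 := hf u v s
    unfold qf at *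
    linarith
  | 1 =>
    intro u v
    have h1 := he u v; have h2 := hf u v
    linarith
  | (_ + 2) => exact add_nonneg he hf

theorem KK_smul {kd : ℕ} {c : ℝ} (hc : 0 ≤ c) {e : ℕ → ℝ} (he : KK kd e) :
    KK kd (fun t => c * e t) := by
  match kd with
  | 0 =>
    intro u v s
    have h1 := mul_nonneg hc (he u v s)
    unfold qf at *
    refine le_of_le_of_eq h1 (by ring)
  | 1 =>
    intro u v
    have h1 := mul_nonneg hc (he u v)
    refine le_of_le_of_eq h1 (by ring)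
  | (_ + 2) => exact mul_nonneg hc he

theorem KK_zero (kd : ℕ) : KK kd (fun _ => 0) := by
  match kd with
  | 0 => intro u v s; unfold qf; simp
  | 1 => intro u v; simp
  | (_ + 2) => exact le_refl (0 : ℝ)

theorem KK_congr {kd : ℕ} {e f : ℕ → ℝ} (h : ∀ t, t < nbK kd → e t = f t) (he : KK kd e) :
    KK kd f := by
  match kd with
  | 0 =>
    intro u v s
    rw [← h 0 (by decide), ← h 1 (by decide), ← h 2 (by decide), ← h 3 (by decide),
      ← h 4 (by decide), ← h 5 (by decide)]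
    exact he u v s
  | 1 =>
    intro u v
    rw [← h 0 (by decide), ← h 1 (by decide), ← h 2 (by decide)]
    exact he u v
  | (_ + 2) =>
    show 0 ≤ f 0
    rw [← h 0 (by show 0 < 1; norm_num)]
    exact he

theorem KK_sum {kd : ℕ} (m : ℕ) (w : ℕ → ℝ) (hw : ∀ p, p < m → 0 ≤ w p) (e : ℕ → ℕ → ℝ)
    (he : ∀ p, p < m → KK kd (fun t => e t p)) :
    KK kd (fun t => ∑ p ∈ Finset.range m, e t p * w p) := by
  induction m with
  | zero => simpa using KK_zero kd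
  | succ m ih =>
    have h1 := ih (fun p hp => hw p (by omega)) (fun p hp => he p (by omega))
    have h2 := KK_smul (hw m (by omega)) (he m (by omega))
    have h3 := KK_add h1 h2
    refine KK_congr (fun t _ => ?_) h3
    rw [Finset.sum_range_succ]; ring

/-- remainders of the truncation are in the cone -/
theorem KK_rem {kd : ℕ} {q : ℝ} {e : ℕ → ℝ}
    (h : ∀ t, t < nbK kd → (dgK kd t = true → 2 * q ≤ e t) ∧ (dgK kd t = false → |e t| ≤ q))
    (hq : 0 ≤ q) : KK kd e := by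
  match kd with
  | 0 =>
    intro u v s
    have h0 := (h 0 (by decide)).1 (by decide)
    have h1 := (h 1 (by decide)).2 (by decide)
    have h2 := (h 2 (by decide)).2 (by decide)
    have h3 := (h 3 (by decide)).1 (by decide)
    have h4 := (h 4 (by decide)).2 (by decide)
    have h5 := (h 5 (by decide)).1 (by decide)
    have := dd_psd (p := e 0) (q := e 3) (r := e 5) (x := e 1) (y := e 2) (z := e 4)
      (by linarith) (by linarith) (by linarith) u v s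
    refine this.trans_eq (by unfold qf; ring)
  | 1 =>
    intro u v
    have h0 := (h 0 (by decide)).1 (by decide)
    have h1 := (h 1 (by decide)).2 (by decide)
    have h2 := (h 2 (by decide)).1 (by decide)
    have := dd_psd (p := e 0) (q := e 2) (r := 0) (x := e 1) (y := 0) (z := 0)
      (by rw [abs_zero]; linarith) (by rw [abs_zero]; linarith) (by rw [abs_zero]; norm_num) u v 0
    refine this.trans_eq (by ring)
  | (k + 2) =>
    have h0 := (h 0 (by show 0 < 1; norm_num)).1 rfl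
    show 0 ≤ e 0
    linarith

/-! ## remainders with exact rows -/

/-- an exact diagonal block forces exact off-diagonal blocks in its row -/
def RC : ℕ → (ℕ → Bool) → Prop
  | 0, F => (F 0 = true → F 1 = true ∧ F 2 = true) ∧ (F 3 = true → F 1 = true ∧ F 4 = true) ∧
      (F 5 = true → F 2 = true ∧ F 4 = true)
  | 1, F => (F 0 = true → F 1 = true) ∧ (F 2 = true → F 1 = true)
  | _, _ => True

theorem row_dd {fa fb fc : Bool} {a b c q : ℝ} (_hq : 0 ≤ q)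
    (ha : (fa = false → 2 * q ≤ a) ∧ (fa = true → 0 ≤ a))
    (hb : |b| ≤ q ∧ (fb = true → b = 0)) (hc : |c| ≤ q ∧ (fc = true → c = 0))
    (h : fa = true → fb = true ∧ fc = true) : |b| + |c| ≤ a := by
  cases hfa : fa with
  | true =>
    obtain ⟨h1, h2⟩ := h hfa
    rw [hb.2 h1, hc.2 h2, abs_zero, add_zero]
    exact ha.2 hfa
  | false =>
    have := ha.1 hfa
    linarith [hb.1, hc.1]

theorem KK_remF {kd : ℕ} {q : ℝ} {e : ℕ → ℝ} {F : ℕ → Bool} (hR : RC kd F)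
    (h : ∀ t, t < nbK kd →
      (dgK kd t = true → (F t = false → 2 * q ≤ e t) ∧ (F t = true → 0 ≤ e t)) ∧
      (dgK kd t = false → |e t| ≤ q ∧ (F t = true → e t = 0)))
    (hq : 0 ≤ q) : KK kd e := by
  match kd with
  | 0 =>
    intro u v s
    obtain ⟨r0, r3, r5⟩ := hR
    have h0 := (h 0 (by decide)).1 (by decide)
    have h1 := (h 1 (by decide)).2 (by decide)
    have h2 := (h 2 (by decide)).2 (by decide)
    have h3 := (h 3 (by decide)).1 (by decide)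
    have h4 := (h 4 (by decide)).2 (by decide)
    have h5 := (h 5 (by decide)).1 (by decide)
    have := dd_psd (p := e 0) (q := e 3) (r := e 5) (x := e 1) (y := e 2) (z := e 4)
      (row_dd hq h0 h1 h2 r0) (row_dd hq h3 h1 h4 r3) (row_dd hq h5 h2 h4 r5) u v s
    refine this.trans_eq (by unfold qf; ring)
  | 1 =>
    intro u v
    obtain ⟨r0, r2⟩ := hR
    have h0 := (h 0 (by decide)).1 (by decide)
    have h1 := (h 1 (by decide)).2 (by decide)
    have h2 := (h 2 (by decide)).1 (by decide)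
    have z : |(0 : ℝ)| ≤ q ∧ (true = true → (0 : ℝ) = 0) := ⟨by rw [abs_zero]; exact hq, fun _ => rfl⟩
    have c0 := row_dd hq h0 h1 z (fun hh => ⟨r0 hh, rfl⟩)
    have c2 := row_dd hq h2 h1 z (fun hh => ⟨r2 hh, rfl⟩)
    have := dd_psd (p := e 0) (q := e 2) (r := 0) (x := e 1) (y := 0) (z := 0)
      c0 c2 (by rw [abs_zero]; norm_num) u v 0
    refine this.trans_eq (by ring)
  | (k + 2) =>
    have h0 := (h 0 (by show 0 < 1; norm_num)).1 rfl
    show 0 ≤ e 0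
    cases hF : F 0 with
    | true => exact h0.2 hF
    | false => linarith [h0.1 hF]

end Crest.Agent.R249.KerB368
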