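import Crest.Agent.R249.KerB3_368

/-!
# Kernel checker in the Bernstein basis, part 4: trees, masks of vanishing faces
-/

set_option autoImplicit false

namespace Crest.Agent.R249.KerB368

open Crest.Agent.R249.Ker254 Crest.Agent.R249.KerT368

/-- subdivision trees: leaves `lf` (checked after the congruence `G`), excluded leaves `out i`,
midpoint splits `nd v zl zr l r` (`zl`, `zr` : numbers of the face lists of the children), stubs
`st k` (parts of the tree checked in separate theorems), zoom nodes `zm δ e` (offset lowered by `δ`,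
everything multiplied by `2 ^ e`) -/
inductive TreeB
  | lf (g11 g12 g22 g13 g23 g33 : ℤ)
  | out (i : ℕ)
  | nd (v zl zr : ℕ) (l r : TreeB)
  | st (k : ℕ) (t : TreeB)
  | zm (δ e : ℕ) (t : TreeB)

/-- all kinds of leaves are `≤ n`, all stubs `< K` -/
def okB (n K : ℕ) : TreeB → Bool
  | .lf _ _ _ _ _ _ => Nat.ble 1 K
  | .out i => Nat.ble (Nat.succ i) n && Nat.ble 1 K
  | .nd _ _ _ l r => okB n K l && okB n K r
  | .st k t => Nat.ble (Nat.succ k) K && okB n K t
  | .zm _ _ t => okB n K t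

/-- the subtree has a leaf of kind `c` in a stub with `S k = true` -/
def hasB (c : ℕ) : TreeB → (ℕ → Bool) → Bool
  | .lf _ _ _ _ _ _, S => Nat.beq c 0 && S 0
  | .out i, S => Nat.beq c (Nat.succ i) && S 0
  | .nd _ _ _ l r, S => hasB c l S || hasB c r S
  | .st k t, S => S k && hasB c t (fun _ => true)
  | .zm _ _ t, S => hasB c t S

/-- the point `x` reaches a leaf of kind `c` in stub `k` (`0` outside of all stubs) -/
def ReachB : TreeB → ℕ → ℕ → Pt → Prop
  | .lf _ _ _ _ _ _, c, k, _ => c = 0 ∧ k = 0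
  | .out i, c, k, _ => c = i + 1 ∧ k = 0
  | .nd v _ _ l r, c, k, x => ∃ a b : ℝ, 0 ≤ a ∧ 0 ≤ b ∧
      ((x.ga v = a ∧ x.gb v = a + 2 * b ∧ ReachB l c k (x.set v a b)) ∨
       (x.ga v = 2 * a + b ∧ x.gb v = b ∧ ReachB r c k (x.set v a b)))
  | .st j t, c, k, x => k = j ∧ ∃ k', ReachB t c k' x
  | .zm _ _ t, c, k, x => ReachB t c k x

theorem reachB_total {n K : ℕ} : ∀ (T : TreeB), okB n K T = true → ∀ x : Pt, x.Nonneg →
    ∃ c k, c ≤ n ∧ k < K ∧ ReachB T c k x := by
  intro T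
  induction T with
  | lf g11 g12 g22 g13 g23 g33 =>
    intro h x _
    exact ⟨0, 0, Nat.zero_le _, Nat.le_of_ble_eq_true h, rfl, rfl⟩
  | out i =>
    intro h x _
    simp only [okB, Bool.and_eq_true] at h
    exact ⟨i + 1, 0, Nat.le_of_ble_eq_true h.1, Nat.le_of_ble_eq_true h.2, rfl, rfl⟩
  | nd vv zl zr l r ihl ihr =>
    intro h x hx
    simp only [okB, Bool.and_eq_true] at h
    have ha := hx.ga vv
    have hb := hx.gb vv
    rcases le_total (x.ga vv) (x.gb vv) with hc | hc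
    · obtain ⟨c, k, c1, c2, c3⟩ := ihl h.1 (x.set vv (x.ga vv) ((x.gb vv - x.ga vv) / 2))
        (hx.set vv ha (by linarith))
      exact ⟨c, k, c1, c2, x.ga vv, (x.gb vv - x.ga vv) / 2, ha, by linarith,
        Or.inl ⟨rfl, by ring, c3⟩⟩
    · obtain ⟨c, k, c1, c2, c3⟩ := ihr h.2 (x.set vv ((x.ga vv - x.gb vv) / 2) (x.gb vv))
        (hx.set vv (by linarith) hb)
      exact ⟨c, k, c1, c2, (x.ga vv - x.gb vv) / 2, x.gb vv, by linarith, hb,
        Or.inr ⟨by ring, rfl, c3⟩⟩
  | st j t ih =>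
    intro h x hx
    simp only [okB, Bool.and_eq_true] at h
    obtain ⟨c, k, c1, c2, c3⟩ := ih h.2 x hx
    exact ⟨c, j, c1, Nat.le_of_ble_eq_true h.1, rfl, k, c3⟩
  | zm δ e t ih => intro h x hx; exact ih h x hx

theorem reachB_hasB {c : ℕ} : ∀ (T : TreeB) (S : ℕ → Bool) (k : ℕ) (x : Pt), ReachB T c k x →
    S k = true → hasB c T S = true := by
  intro T
  induction T with
  | lf g11 g12 g22 g13 g23 g33 =>
    intro S k x h hS
    obtain ⟨rfl, rfl⟩ := h
    simp [hasB, hS]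
  | out i =>
    intro S k x h hS
    obtain ⟨rfl, rfl⟩ := h
    simp [hasB, hS]
  | nd vv zl zr l r ihl ihr =>
    intro S k x h hS
    obtain ⟨a, b, _, _, h | h⟩ := h
    · simp [hasB, ihl S k _ h.2.2 hS]
    · simp [hasB, ihr S k _ h.2.2 hS]
  | st j t ih =>
    intro S k x h hS
    obtain ⟨rfl, k', h⟩ := h
    simp [hasB, hS, ih (fun _ => true) k' x h rfl]
  | zm δ e t ih => intro S k x h hS; exact ih S k x h hS

/-! ## masks -/

/-- the mask of a set of digits -/
def pkS (w : ℕ) (S : ℕ → Bool) (m : ℕ) : ℕ := pk w (fun P => if S P = true then 2 ^ w - 1 else 0) m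

theorem pkS_lt (w : ℕ) (S : ℕ → Bool) (P : ℕ) : (if S P = true then 2 ^ w - 1 else 0) < 2 ^ w := by
  have : 0 < 2 ^ w := by positivity
  split_ifs <;> omega

theorem pkS_land (w m : ℕ) (S T : ℕ → Bool) :
    pkS w S m &&& pkS w T m = pkS w (fun P => S P && T P) m := by
  unfold pkS
  rw [pk_land w m (pkS_lt w S) (pkS_lt w T)]
  apply pk_congr
  intro p _
  have h0 : 2 ^ w - 1 < 2 ^ w := Nat.sub_lt (by positivity) one_pos
  cases hS : S p <;> cases hT : T p <;> simp [hS, hT, land_full _ _ h0]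

theorem pkS_compl (w m : ℕ) (S : ℕ → Bool) :
    pk w (fun _ => 2 ^ w - 1) m - pkS w S m = pkS w (fun P => !S P) m := by
  have : pkS w S m + pkS w (fun P => !S P) m = pk w (fun _ => 2 ^ w - 1) m := by
    unfold pkS
    rw [pk_add]
    apply pk_congr
    intro p _
    cases hS : S p <;> simp [hS]
  omega

/-- the blocks of row `r` hold `c` -/
def rowD : ℕ → ℕ → ℕ → List ℕ
  | 0, 0, c => [c, c, c, 0, 0, 0]
  | 0, 1, c => [0, c, 0, c, c, 0]
  | 0, _, c => [0, 0, c, 0, c, c]
  | 1, 0, c => [c, c, 0]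
  | 1, _, c => [0, c, c]
  | _, _, c => [c]

/-- block `t` belongs to row `r` -/
def rowK : ℕ → ℕ → ℕ → Bool
  | 0, 0, t => Nat.ble t 2
  | 0, 1, t => Nat.beq t 1 || Nat.beq t 3 || Nat.beq t 4
  | 0, _, t => Nat.beq t 2 || Nat.beq t 4 || Nat.beq t 5
  | 1, 0, t => Nat.ble t 1
  | 1, _, t => Nat.beq t 1 || Nat.beq t 2
  | _, _, _ => true

/-- the diagonal blocks hold `3` -/
def dgD : ℕ → List ℕ
  | 0 => [3, 0, 0, 3, 0, 3]
  | 1 => [3, 0, 3]
  | _ => [3]

theorem rowD_len (kd r c : ℕ) : (rowD kd r c).length = nbK kd := by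
  match kd, r with
  | 0, 0 => rfl
  | 0, 1 => rfl
  | 0, (_ + 2) => rfl
  | 1, 0 => rfl
  | 1, (_ + 1) => rfl
  | (_ + 2), _ => rfl

theorem dgD_len (kd : ℕ) : (dgD kd).length = nbK kd := by
  match kd with
  | 0 => rfl
  | 1 => rfl
  | (_ + 2) => rfl

theorem rowD_getD (kd r c t : ℕ) (ht : t < nbK kd) :
    (rowD kd r c).getD t 0 = if rowK kd r t = true then c else 0 := by
  match kd, r, ht with
  | 0, 0, ht =>
    have ht' : t < 6 := ht
    interval_cases t <;> rfl
  | 0, 1, ht =>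
    have ht' : t < 6 := ht
    interval_cases t <;> rfl
  | 0, (_ + 2), ht =>
    have ht' : t < 6 := ht
    interval_cases t <;> rfl
  | 1, 0, ht =>
    have ht' : t < 3 := ht
    interval_cases t <;> rfl
  | 1, (_ + 1), ht =>
    have ht' : t < 3 := ht
    interval_cases t <;> rfl
  | (_ + 2), _, ht =>
    have ht' : t < 1 := ht
    interval_cases t
    rfl

theorem dgD_getD (kd t : ℕ) (ht : t < nbK kd) :
    (dgD kd).getD t 0 = if dgK kd t = true then 3 else 0 := by
  match kd, ht with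
  | 0, ht =>
    have ht' : t < 6 := ht
    interval_cases t <;> rfl
  | 1, ht =>
    have ht' : t < 3 := ht
    interval_cases t <;> rfl
  | (_ + 2), ht =>
    have ht' : t < 1 := ht
    interval_cases t
    rfl

theorem RC_or {kd : ℕ} {F G : ℕ → Bool} (hF : RC kd F) (hG : RC kd G) :
    RC kd (fun t => F t || G t) := by
  match kd with
  | 0 =>
    obtain ⟨a, b, c⟩ := hF
    obtain ⟨a', b', c'⟩ := hG
    refine ⟨fun h => ?_, fun h => ?_, fun h => ?_⟩
    · rcases Bool.or_eq_true_iff.1 h with h | h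
      · simp [a h]
      · simp [a' h]
    · rcases Bool.or_eq_true_iff.1 h with h | h
      · simp [b h]
      · simp [b' h]
    · rcases Bool.or_eq_true_iff.1 h with h | h
      · simp [c h]
      · simp [c' h]
  | 1 =>
    obtain ⟨a, b⟩ := hF
    obtain ⟨a', b'⟩ := hG
    refine ⟨fun h => ?_, fun h => ?_⟩
    · rcases Bool.or_eq_true_iff.1 h with h | h
      · simp [a h]
      · simp [a' h]
    · rcases Bool.or_eq_true_iff.1 h with h | h
      · simp [b h]
      · simp [b' h]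
  | (_ + 2) => trivial

theorem RC_row (kd r : ℕ) : RC kd (rowK kd r) := by
  match kd, r with
  | 0, 0 => refine ⟨?_, ?_, ?_⟩ <;> decide
  | 0, 1 => refine ⟨?_, ?_, ?_⟩ <;> decide
  | 0, (_ + 2) => refine ⟨?_, ?_, ?_⟩ <;> simp [rowK]
  | 1, 0 => refine ⟨?_, ?_⟩ <;> decide
  | 1, (_ + 1) => refine ⟨?_, ?_⟩ <;> simp [rowK]
  | (_ + 2), _ => trivial

theorem RC_false (kd : ℕ) : RC kd (fun _ => false) := by
  match kd with
  | 0 => refine ⟨?_, ?_, ?_⟩ <;> decide
  | 1 => refine ⟨?_, ?_⟩ <;> decide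
  | (_ + 2) => trivial

theorem RC_and {kd : ℕ} {F : ℕ → Bool} (hF : RC kd F) (b : Bool) : RC kd (fun t => F t && b) := by
  cases b with
  | true => simpa using hF
  | false => simpa using RC_false kd

end Crest.Agent.R249.KerB368
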