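import Crest.Agent.R249.KerB4_368

/-!
# Kernel checker in the Bernstein basis, part 4b: environment, the check, semantics
-/

set_option autoImplicit false

namespace Crest.Agent.R249.KerB368

open Crest.Agent.R249.Ker254 Crest.Agent.R249.KerT368

/-! ## environment -/

/-- data of one variable: stride in bits, degree, masks, truncation mask, mask of the low bits -/
structure VB where
  s : ℕ
  n : ℕ
  M0 : ℕ
  Mn : ℕ
  dn : List ℕ
  Mt : ℕ
  Lb : ℕ

structure VB.Ok (w σ d m : ℕ) (V : VB) : Prop where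
  es : V.s = w * σ
  en : V.n = d
  eM0 : V.M0 = pk w (maskJ w σ d 0) m
  eMn : V.Mn = Nat.shiftLeft V.M0 (Nat.mul (w * σ) d)
  edn : V.dn = dnM V.M0 (w * σ) d
  eMt : V.Mt = pk w (fun _ => 2 ^ (w - d) - 1) m
  eLb : V.Lb = pk w (fun _ => 2 ^ d - 1) m

/-- a face: row, variable, upper end? -/
abbrev Face := ℕ × ℕ × Bool

/-- the digits on the faces of a list -/
def faceS (kd n1 n2 n3 : ℕ) : List Face → ℕ → Bool
  | [], _ => false
  | (r, v, h) :: z, P => (rowK kd r (P / dm n1 n2 n3) &&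
      Nat.beq (J (strd n2 n3 v) (degv n1 n2 n3 v) P)
        (match h with | true => degv n1 n2 n3 v | false => 0)) || faceS kd n1 n2 n3 z P

theorem J_period (n1 n2 n3 v h p : ℕ) :
    J (strd n2 n3 v) (degv n1 n2 n3 v) (h * dm n1 n2 n3 + p)
      = J (strd n2 n3 v) (degv n1 n2 n3 v) p := by
  unfold dm
  match v with
  | 0 =>
    exact inner_J (σ := (n2 + 1) * (n3 + 1)) (n := n1)
      (Nat.mul_pos (Nat.succ_pos _) (Nat.succ_pos _)) h rfl
  | 1 =>
    show J (n3 + 1) n2 _ = J (n3 + 1) n2 _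
    rw [show h * ((n1 + 1) * ((n2 + 1) * (n3 + 1))) = (h * (n1 + 1)) * ((n2 + 1) * (n3 + 1)) by ring]
    exact inner_J (Nat.succ_pos _) _ rfl
  | (_ + 2) =>
    show J 1 n3 _ = J 1 n3 _
    rw [show h * ((n1 + 1) * ((n2 + 1) * (n3 + 1))) = (h * (n1 + 1) * (n2 + 1)) * (n3 + 1) by ring]
    exact inner_J one_pos _ (by ring)

theorem dm_pos (n1 n2 n3 : ℕ) : 0 < dm n1 n2 n3 := by unfold dm; positivity

theorem div_dm {n1 n2 n3 p : ℕ} (t : ℕ) (hp : p < dm n1 n2 n3) :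
    (t * dm n1 n2 n3 + p) / dm n1 n2 n3 = t := by
  rw [mul_comm, add_comm, Nat.add_mul_div_left _ _ (dm_pos n1 n2 n3), Nat.div_eq_of_lt hp, zero_add]

theorem faceS_RC {kd n1 n2 n3 : ℕ} (z : List Face) {p : ℕ} (hp : p < dm n1 n2 n3) :
    RC kd (fun t => faceS kd n1 n2 n3 z (t * dm n1 n2 n3 + p)) := by
  induction z with
  | nil => exact RC_false kd
  | cons f z ih =>
    obtain ⟨r, v, h⟩ := f
    have e : (fun t => faceS kd n1 n2 n3 ((r, v, h) :: z) (t * dm n1 n2 n3 + p))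
        = fun t => (rowK kd r t && Nat.beq (J (strd n2 n3 v) (degv n1 n2 n3 v) p)
          (match h with | true => degv n1 n2 n3 v | false => 0)) ||
            faceS kd n1 n2 n3 z (t * dm n1 n2 n3 + p) := by
      funext t
      simp only [faceS]
      rw [div_dm t hp, J_period]
    rw [e]
    exact RC_or (RC_and (RC_row kd r) _) ih

/-- complement of the mask of a face list -/
def cF (kd Sb U Full fu : ℕ) (V : ℕ → VB) : List Face → ℕ
  | [] => Full
  | (r, v, h) :: z => Nat.land (cF kd Sb U Full fu V z) (Nat.sub Full (Nat.land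
      (match h with | true => (V v).Mn | false => (V v).M0) (blocksN Sb U (rowD kd r fu))))

theorem maskJ_pkS (w σ n j m : ℕ) :
    pk w (maskJ w σ n j) m = pkS w (fun P => Nat.beq (J σ n P) j) m := by
  unfold pkS
  apply pk_congr
  intro p _
  unfold maskJ
  by_cases h : J σ n p = j
  · have : Nat.beq (J σ n p) j = true := by rw [h]; exact Nat.beq_refl j
    rw [if_pos h, if_pos this]
  · have : ¬ Nat.beq (J σ n p) j = true := fun hh => h (Nat.eq_of_beq_eq_true hh)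
    rw [if_neg h, if_neg this]

theorem cF_eq {kd w n1 n2 n3 Sb U Full fu : ℕ} {V : ℕ → VB}
    (hV : ∀ v, VB.Ok w (strd n2 n3 v) (degv n1 n2 n3 v) (nbK kd * dm n1 n2 n3) (V v))
    (hS : Sb = w * dm n1 n2 n3) (hU : U = pk w (fun _ => 1) (dm n1 n2 n3)) (hfu : fu = 2 ^ w - 1)
    (hFull : Full = pk w (fun _ => 2 ^ w - 1) (nbK kd * dm n1 n2 n3)) (z : List Face) :
    cF kd Sb U Full fu V z = pkS w (fun P => !faceS kd n1 n2 n3 z P) (nbK kd * dm n1 n2 n3) := by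
  induction z with
  | nil =>
    show Full = _
    rw [hFull]
    unfold pkS
    exact pk_congr _ fun p _ => by simp [faceS]
  | cons f z ih =>
    obtain ⟨r, v, h⟩ := f
    show (cF kd Sb U Full fu V z) &&& (Full - ((match h with | true => (V v).Mn | false => (V v).M0)
      &&& (blocksN Sb U (rowD kd r fu)))) = _
    have e1 : blocksN Sb U (rowD kd r fu)
        = pkS w (fun P => rowK kd r (P / dm n1 n2 n3)) (nbK kd * dm n1 n2 n3) := by
      rw [hS, hU, blocksN_eq (dm_pos n1 n2 n3), rowD_len]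
      unfold pkS
      apply pk_congr
      intro p hp
      rw [rowD_getD kd r fu _ (Nat.div_lt_of_lt_mul (by rw [mul_comm]; exact hp)), hfu]
    have e2 : (match h with | true => (V v).Mn | false => (V v).M0)
        = pkS w (fun P => Nat.beq (J (strd n2 n3 v) (degv n1 n2 n3 v) P)
          (match h with | true => degv n1 n2 n3 v | false => 0)) (nbK kd * dm n1 n2 n3) := by
      have hM0 := (hV v).eM0
      cases h with
      | false =>
        show (V v).M0 = _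
        rw [hM0]; exact maskJ_pkS _ _ _ _ _
      | true =>
        show (V v).Mn = _
        rw [← grp_eq (nbK kd) n1 n2 n3 v] at hM0
        rw [(hV v).eMn, mask_shift hM0 (le_refl _), grp_eq]
        exact maskJ_pkS _ _ _ _ _
    rw [e1, e2, pkS_land, ih, hFull, pkS_compl, pkS_land]
    unfold pkS
    apply pk_congr
    intro p _
    congr 1
    simp only [faceS, Bool.not_or, eq_iff_iff]
    cases faceS kd n1 n2 n3 z p <;> simp [Bool.and_comm]

/-- margin of a digit -/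
def drF (kd n1 n2 n3 : ℕ) (F : ℕ → Bool) (P : ℕ) : ℕ :=
  if F P = true then 0 else if dgK kd (P / dm n1 n2 n3) = true then 3 else 0

/-- mask of the exact digits, margins -/
def FlOk (kd w n1 n2 n3 : ℕ) (x : ℕ × ℕ) : Prop :=
  ∃ F : ℕ → Bool, (∀ p, p < dm n1 n2 n3 → RC kd (fun t => F (t * dm n1 n2 n3 + p))) ∧
    x.1 = pkS w F (nbK kd * dm n1 n2 n3) ∧
    x.2 = pk w (drF kd n1 n2 n3 F) (nbK kd * dm n1 n2 n3)

def mkFl {α : Type} (kd Sb U Full fu D3 : ℕ) (V : ℕ → VB) (z : List Face) (k : ℕ × ℕ → α) : α :=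
  frc (cF kd Sb U Full fu V z) fun C => frc (Nat.sub Full C) fun A => frc (Nat.land D3 C) fun B =>
    k (A, B)

theorem mkFl_eq {α : Type} {kd w n1 n2 n3 Sb U Full fu D3 : ℕ} {V : ℕ → VB} (hw : 2 ≤ w)
    (hV : ∀ v, VB.Ok w (strd n2 n3 v) (degv n1 n2 n3 v) (nbK kd * dm n1 n2 n3) (V v))
    (hS : Sb = w * dm n1 n2 n3) (hU : U = pk w (fun _ => 1) (dm n1 n2 n3)) (hfu : fu = 2 ^ w - 1)
    (hFull : Full = pk w (fun _ => 2 ^ w - 1) (nbK kd * dm n1 n2 n3))
    (hD3 : D3 = blocksN Sb U (dgD kd)) (z : List Face) :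
    ∃ x, FlOk kd w n1 n2 n3 x ∧ ∀ k : ℕ × ℕ → α, mkFl kd Sb U Full fu D3 V z k = k x := by
  have hC := cF_eq hV hS hU hfu hFull z
  refine ⟨(Nat.sub Full (cF kd Sb U Full fu V z), Nat.land D3 (cF kd Sb U Full fu V z)),
    ⟨faceS kd n1 n2 n3 z, fun p hp => faceS_RC z hp, ?_, ?_⟩, fun k => by
      unfold mkFl; simp only [frc_eq]⟩
  · show Full - cF kd Sb U Full fu V z = _
    rw [hC, hFull, pkS_compl]
    simp
  · show D3 &&& cF kd Sb U Full fu V z = _
    have e1 : D3 = pk w (fun P => if dgK kd (P / dm n1 n2 n3) = true then 3 else 0)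
        (nbK kd * dm n1 n2 n3) := by
      rw [hD3, hS, hU, blocksN_eq (dm_pos n1 n2 n3), dgD_len]
      apply pk_congr
      intro p hp
      rw [dgD_getD kd _ (Nat.div_lt_of_lt_mul (by rw [mul_comm]; exact hp))]
    have h4 : 2 ^ 2 ≤ 2 ^ w := Nat.pow_le_pow_right (by norm_num) hw
    have h3 : ∀ P, (if dgK kd (P / dm n1 n2 n3) = true then 3 else 0) < 2 ^ w := by
      intro P; split_ifs <;> omega
    rw [hC, e1]
    unfold pkS
    rw [pk_land w _ h3 (pkS_lt w _)]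
    apply pk_congr
    intro p _
    unfold drF
    cases hF : faceS kd n1 n2 n3 z p with
    | true => simp
    | false => simp [land_full _ _ (h3 p)]

def mkFls {α : Type} (kd Sb U Full fu D3 : ℕ) (V : ℕ → VB) :
    List (List Face) → (List (ℕ × ℕ) → α) → α
  | [], k => k []
  | z :: zs, k => mkFl kd Sb U Full fu D3 V z fun x => mkFls kd Sb U Full fu D3 V zs fun l =>
      k (x :: l)

/-- look up -/
def flz : List (ℕ × ℕ) → ℕ × ℕ → ℕ → ℕ × ℕ
  | [], d, _ => d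
  | x :: _, _, 0 => x
  | _ :: xs, d, k + 1 => flz xs d k

theorem mkFls_eq {α : Type} {kd w n1 n2 n3 Sb U Full fu D3 : ℕ} {V : ℕ → VB} (hw : 2 ≤ w)
    (hV : ∀ v, VB.Ok w (strd n2 n3 v) (degv n1 n2 n3 v) (nbK kd * dm n1 n2 n3) (V v))
    (hS : Sb = w * dm n1 n2 n3) (hU : U = pk w (fun _ => 1) (dm n1 n2 n3)) (hfu : fu = 2 ^ w - 1)
    (hFull : Full = pk w (fun _ => 2 ^ w - 1) (nbK kd * dm n1 n2 n3))
    (hD3 : D3 = blocksN Sb U (dgD kd)) (zs : List (List Face)) :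
    ∃ l, (∀ d, FlOk kd w n1 n2 n3 d → ∀ i, FlOk kd w n1 n2 n3 (flz l d i)) ∧
      ∀ k : List (ℕ × ℕ) → α, mkFls kd Sb U Full fu D3 V zs k = k l := by
  induction zs with
  | nil => exact ⟨[], fun d hd i => hd, fun k => rfl⟩
  | cons z zs ih =>
    obtain ⟨l, h1, h2⟩ := ih
    obtain ⟨x, hx, hk⟩ := mkFl_eq (α := α) hw hV hS hU hfu hFull hD3 z
    refine ⟨x :: l, fun d hd i => ?_, fun k => ?_⟩
    · cases i with
      | zero => exact hx
      | succ i => exact h1 d hd i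
    · simp only [mkFls]
      rw [hk, h2]

structure EnvB where
  kd : ℕ
  w : ℕ
  kb : ℕ
  v0 : VB
  v1 : VB
  v2 : VB
  Top : ℕ
  Sb : ℕ
  Mb : ℕ
  U : ℕ
  U6 : ℕ
  W : ℕ
  H : ℕ
  H6 : ℕ
  W1 : ℕ
  bd : ℕ
  fl : List (ℕ × ℕ)
  fd : ℕ × ℕ

def EnvB.var (E : EnvB) : ℕ → VB
  | 0 => E.v0
  | 1 => E.v1
  | _ => E.v2

structure EnvB.Ok (E : EnvB) (n1 n2 n3 : ℕ) : Prop where
  var : ∀ v, VB.Ok (E.w + 1) (strd n2 n3 v) (degv n1 n2 n3 v) (nbK E.kd * dm n1 n2 n3) (E.var v)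
  Top : E.Top = pk (E.w + 1) (fun _ => 2 ^ (E.w + 1) - 2 ^ E.kb) (nbK E.kd * dm n1 n2 n3)
  Sb : E.Sb = (E.w + 1) * dm n1 n2 n3
  Mb : E.Mb = 2 ^ ((E.w + 1) * dm n1 n2 n3) - 1
  U : E.U = pk (E.w + 1) (fun _ => 1) (dm n1 n2 n3)
  U6 : E.U6 = pk (E.w + 1) (fun _ => 1) (nbK E.kd * dm n1 n2 n3)
  W : E.W = 2 ^ E.w
  H : E.H = pk (E.w + 1) (fun _ => 2 ^ E.w) (dm n1 n2 n3)
  H6 : E.H6 = pk (E.w + 1) (fun _ => 2 ^ E.w) (nbK E.kd * dm n1 n2 n3)
  W1 : E.W1 = 2 ^ (E.w + 1)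
  bd : E.bd = 2 ^ E.kb - 1
  kb : ∀ v, degv n1 n2 n3 v + E.kb ≤ E.w + 1
  kw : E.kb ≤ E.w
  nw : ∀ v, degv n1 n2 n3 v < E.w + 1
  w2 : 2 ≤ E.w
  fl : ∀ z, FlOk E.kd (E.w + 1) n1 n2 n3 (flz E.fl E.fd z)

/-! ## the check -/

/-- signed block: diagonal blocks hold `o - entry`, the others `entry + o` -/
def bD (E : EnvB) (b o N t : ℕ) : SV := ⟨Nat.mul o E.U, blk E.Sb E.Mb N t, b⟩
def bO (E : EnvB) (b o N t : ℕ) : SV := ⟨blk E.Sb E.Mb N t, Nat.mul o E.U, b⟩

/-- leaf check for `2 × 2` matrices -/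
def lf2Ok (W H : ℕ) (g11 g12 g22 : ℤ) (a b d : SV) : Bool :=
  (SV.smul g11 a).force fun ga =>
  ((SV.smul g12 a).add (SV.smul g22 b)).force fun k12 =>
  ((SV.smul g12 b).add (SV.smul g22 d)).force fun k22 =>
  (SV.smul g11 ga).force fun m11 =>
  (SV.smul g11 k12).force fun m12 =>
  ((SV.smul g12 k12).add (SV.smul g22 k22)).force fun m22 =>
  (m11.add m12).nn W H && (m11.sub m12).nn W H &&
  (m22.add m12).nn W H && (m22.sub m12).nn W H

def leafB (E : EnvB) (g11 g12 g22 g13 g23 g33 : ℤ) (b o N : ℕ) : Bool :=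
  Nat.ble (Nat.succ b) E.W1 && Nat.ble o b &&
  (match E.kd with
  | 0 => posI g11 && posI g22 && posI g33 &&
    lfOk E.W E.H g11 g12 g22 g13 g23 g33 (bD E b o N 0) (bO E b o N 1) (bO E b o N 2)
      (bD E b o N 3) (bO E b o N 4) (bD E b o N 5)
  | 1 => posI g11 && posI g22 &&
    lf2Ok E.W E.H g11 g12 g22 (bD E b o N 0) (bO E b o N 1) (bD E b o N 2)
  | _ => (bD E b o N 0).nn E.W E.H)

/-- one child: the truncated bits vanish at the exact digits, margins at the others -/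
def childB (E : EnvB) (V : VB) (x : ℕ × ℕ) (X : ℕ) (k : ℕ → Bool) : Bool :=
  Nat.beq (Nat.land (Nat.land X V.Lb) x.1) 0 &&
  (fun N' => Nat.beq (Nat.land N' E.Top) 0 && k N')
    (Nat.add (Nat.land (Nat.shiftRight X V.n) V.Mt) x.2)

def chkB (E : EnvB) (c : ℕ) : TreeB → (ℕ → Bool) → ℕ → ℕ → ℕ → Bool
  | .lf g11 g12 g22 g13 g23 g33, S, b, o, N =>
    match c with
    | 0 => (match S 0 with
      | true => leafB E g11 g12 g22 g13 g23 g33 b o N
      | false => true)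
    | _ + 1 => true
  | .out i, S, b, o, N =>
    match Nat.beq c (Nat.succ i) && S 0 with
    | true => leafB E 1 0 1 0 0 1 b o N
    | false => true
  | .nd v zl zr l r, S, b, o, N =>
    Nat.ble b E.bd &&
    (fun V : VB => splitB V.s V.n V.M0 V.Mn V.dn N fun L R =>
      (match hasB c l S with
        | true => childB E V (flz E.fl E.fd zl) L fun N' => chkB E c l S E.bd o N'
        | false => true) &&
      (match hasB c r S with
        | true => childB E V (flz E.fl E.fd zr) R fun N' => chkB E c r S E.bd o N'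
        | false => true)) (E.var v)
  | .st k t, S, b, o, N =>
    match S k with
    | true => chkB E c t (fun _ => true) b o N
    | false => true
  | .zm δ e t, S, b, o, N =>
    match c with
    | 0 => Nat.ble b E.bd && Nat.ble δ E.bd && Nat.ble δ o && Nat.ble e E.kb &&
      (fun δU => Nat.beq (Nat.land (Nat.sub (Nat.add N E.H6) δU) E.H6) E.H6 &&
        (fun N1 => Nat.beq (Nat.land N1
            (Nat.mul E.U6 (Nat.sub E.W1 (Nat.pow 2 (Nat.sub E.kb e))))) 0 &&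
          chkB E 0 t S E.bd (Nat.shiftLeft (Nat.sub o δ) e)
            (Nat.shiftLeft N1 e)) (Nat.sub N δU)) (Nat.mul δ E.U6)
    | c' + 1 => chkB E (c' + 1) t S b o N

/-! ## semantics -/

/-- digit of entry `t` -/
noncomputable def dg (kd n1 n2 n3 : ℕ) (D : ℕ → ℕ) (o : ℕ) (t p : ℕ) : ℝ :=
  match dgK kd t with
  | true => (o : ℝ) - D (t * dm n1 n2 n3 + p)
  | false => (D (t * dm n1 n2 n3 + p) : ℝ) - o

/-- value of entry `t` -/
noncomputable def ent (kd n1 n2 n3 : ℕ) (D : ℕ → ℕ) (o : ℕ) (x : Pt) (t : ℕ) : ℝ :=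
  ∑ p ∈ Finset.range (dm n1 n2 n3), dg kd n1 n2 n3 D o t p * bm n1 n2 n3 x p

theorem ent_eq (kd n1 n2 n3 : ℕ) (D : ℕ → ℕ) (o : ℕ) (x : Pt) (t : ℕ) :
    ent kd n1 n2 n3 D o x t = match dgK kd t with
      | true => (o : ℝ) * sw n1 n2 n3 x - bv n1 n2 n3 D t x
      | false => bv n1 n2 n3 D t x - o * sw n1 n2 n3 x := by
  unfold ent dg
  cases dgK kd t with
  | true =>
    simp only [sub_mul, Finset.sum_sub_distrib]
    unfold sw bv
    rw [Finset.mul_sum]
  | false =>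
    simp only [sub_mul, Finset.sum_sub_distrib]
    unfold sw bv
    rw [Finset.mul_sum]

theorem ent_left {kd n1 n2 n3 : ℕ} (v : ℕ) (D : ℕ → ℕ) (o : ℕ) {t : ℕ} (ht : t < nbK kd)
    (x : Pt) (a b : ℝ) :
    ent kd n1 n2 n3 (lB (strd n2 n3 v) (degv n1 n2 n3 v) (nbK kd * dm n1 n2 n3) D)
        (2 ^ degv n1 n2 n3 v * o) (x.set v a b) t
      = ent kd n1 n2 n3 D o (x.set v a (a + 2 * b)) t := by
  rw [ent_eq, ent_eq, bv_left v D ht]
  cases dgK kd t with
  | true =>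
    show _ * sw _ _ _ _ - _ = _ * sw _ _ _ _ - _
    rw [← sw_left]; push_cast; ring
  | false =>
    show _ - _ * sw _ _ _ _ = _ - _ * sw _ _ _ _
    rw [← sw_left]; push_cast; ring

theorem ent_right {kd n1 n2 n3 : ℕ} (v : ℕ) (D : ℕ → ℕ) (o : ℕ) {t : ℕ} (ht : t < nbK kd)
    (x : Pt) (a b : ℝ) :
    ent kd n1 n2 n3 (rB (strd n2 n3 v) (degv n1 n2 n3 v) (nbK kd * dm n1 n2 n3) D)
        (2 ^ degv n1 n2 n3 v * o) (x.set v a b) t
      = ent kd n1 n2 n3 D o (x.set v (2 * a + b) b) t := by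
  rw [ent_eq, ent_eq, bv_right v D ht]
  cases dgK kd t with
  | true =>
    show _ * sw _ _ _ _ - _ = _ * sw _ _ _ _ - _
    rw [← sw_right]; push_cast; ring
  | false =>
    show _ - _ * sw _ _ _ _ = _ - _ * sw _ _ _ _
    rw [← sw_right]; push_cast; ring

/-- truncation by `s` bits -/
theorem ent_trunc {kd n1 n2 n3 : ℕ} (s : ℕ) (D : ℕ → ℕ) (o : ℕ) {F : ℕ → Bool}
    (hR : ∀ p, p < dm n1 n2 n3 → RC kd (fun t => F (t * dm n1 n2 n3 + p)))
    (h0 : ∀ t p, t < nbK kd → p < dm n1 n2 n3 → F (t * dm n1 n2 n3 + p) = true →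
      D (t * dm n1 n2 n3 + p) % 2 ^ s = 0) {x : Pt} (hx : x.Nonneg)
    (h : KK kd (ent kd n1 n2 n3 (fun P => D P / 2 ^ s + drF kd n1 n2 n3 F P) o x)) :
    KK kd (ent kd n1 n2 n3 D (2 ^ s * o) x) := by
  have hq : (0 : ℝ) < 2 ^ s := by positivity
  have h1 := KK_smul hq.le h
  have h2 : KK kd (fun t => ∑ p ∈ Finset.range (dm n1 n2 n3),
      (dg kd n1 n2 n3 D (2 ^ s * o) t p
        - 2 ^ s * dg kd n1 n2 n3 (fun P => D P / 2 ^ s + drF kd n1 n2 n3 F P) o t p)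
        * bm n1 n2 n3 x p) := by
    refine KK_sum (dm n1 n2 n3) (bm n1 n2 n3 x) (fun p _ => bm_nonneg hx p)
      (fun t p => dg kd n1 n2 n3 D (2 ^ s * o) t p
        - 2 ^ s * dg kd n1 n2 n3 (fun P => D P / 2 ^ s + drF kd n1 n2 n3 F P) o t p)
      (fun p hp => ?_)
    have dec : ∀ k : ℕ, (k : ℝ) = 2 ^ s * ((k / 2 ^ s : ℕ) : ℝ) + ((k % 2 ^ s : ℕ) : ℝ) := by
      intro k; exact_mod_cast (Nat.div_add_mod _ _).symm
    have lt : ∀ k : ℕ, ((k % 2 ^ s : ℕ) : ℝ) ≤ 2 ^ s := by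
      intro k
      have : k % 2 ^ s ≤ 2 ^ s := (Nat.mod_lt _ (by positivity)).le
      exact_mod_cast this
    have ge : ∀ k : ℕ, (0 : ℝ) ≤ ((k % 2 ^ s : ℕ) : ℝ) := fun k => Nat.cast_nonneg _
    refine KK_remF (q := 2 ^ s) (hR p hp) (fun t ht => ⟨fun hd => ⟨fun hF => ?_, fun hF => ?_⟩,
      fun hd => ?_⟩) hq.le
    · unfold dg drF
      rw [hd]
      have e2 := dec (D (t * dm n1 n2 n3 + p))
      have e3 := lt (D (t * dm n1 n2 n3 + p))
      simp only [hF, div_dm t hp, hd, if_true, Bool.false_eq_true, if_false]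
      push_cast
      nlinarith
    · unfold dg drF
      rw [hd]
      have e2 := dec (D (t * dm n1 n2 n3 + p))
      rw [h0 t p ht hp hF] at e2
      simp only [hF, if_true]
      push_cast at e2 ⊢
      nlinarith
    · unfold dg drF
      rw [hd]
      have e2 := dec (D (t * dm n1 n2 n3 + p))
      have e3 := lt (D (t * dm n1 n2 n3 + p))
      have e4 := ge (D (t * dm n1 n2 n3 + p))
      have ez : (if F (t * dm n1 n2 n3 + p) = true then 0 else
          if dgK kd ((t * dm n1 n2 n3 + p) / dm n1 n2 n3) = true then 3 else 0) = 0 := by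
        rw [div_dm t hp, hd]; simp
      simp only [ez]
      refine ⟨?_, fun hF => ?_⟩
      · push_cast
        rw [abs_le]
        constructor <;> nlinarith
      · rw [h0 t p ht hp hF] at e2
        push_cast at e2 ⊢
        nlinarith
  have h4 := KK_add h2 h1
  refine KK_congr (fun t _ => ?_) h4
  unfold ent
  rw [Finset.mul_sum, ← Finset.sum_add_distrib]
  refine Finset.sum_congr rfl fun p _ => ?_
  ring

/-- zoom -/
theorem ent_zoom {kd n1 n2 n3 : ℕ} (δ e : ℕ) (D : ℕ → ℕ) (o : ℕ) (ho : δ ≤ o)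
    (hD : ∀ p, p < nbK kd * dm n1 n2 n3 → δ ≤ D p) {x : Pt}
    (h : KK kd (ent kd n1 n2 n3 (fun p => 2 ^ e * (D p - δ)) (2 ^ e * (o - δ)) x)) :
    KK kd (ent kd n1 n2 n3 D o x) := by
  have hq : (0 : ℝ) < 2 ^ e := by positivity
  have h1 := KK_smul (c := 1 / 2 ^ e) (by positivity) h
  refine KK_congr (fun t ht => ?_) h1
  unfold ent
  rw [Finset.mul_sum]
  refine Finset.sum_congr rfl fun p hp => ?_
  have hp' := Finset.mem_range.1 hp
  have hlt : t * dm n1 n2 n3 + p < nbK kd * dm n1 n2 n3 := by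
    calc t * dm n1 n2 n3 + p < t * dm n1 n2 n3 + dm n1 n2 n3 := by omega
      _ = (t + 1) * dm n1 n2 n3 := by ring
      _ ≤ nbK kd * dm n1 n2 n3 := Nat.mul_le_mul_right _ ht
  have e1 : ((D (t * dm n1 n2 n3 + p) - δ : ℕ) : ℝ) = (D (t * dm n1 n2 n3 + p) : ℝ) - δ := by
    rw [Nat.cast_sub (hD _ hlt)]
  unfold dg
  cases dgK kd t with
  | true =>
    show 1 / 2 ^ e * ((((2 ^ e * (o - δ) : ℕ) : ℝ)
      - ((2 ^ e * (D (t * dm n1 n2 n3 + p) - δ) : ℕ) : ℝ)) * _) = ((o : ℝ) - _) * _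
    rw [Nat.cast_mul, Nat.cast_mul, e1, Nat.cast_sub ho]
    push_cast
    field_simp
    ring
  | false =>
    show 1 / 2 ^ e * ((((2 ^ e * (D (t * dm n1 n2 n3 + p) - δ) : ℕ) : ℝ)
      - ((2 ^ e * (o - δ) : ℕ) : ℝ)) * _) = (_ - (o : ℝ)) * _
    rw [Nat.cast_mul, Nat.cast_mul, e1, Nat.cast_sub ho]
    push_cast
    field_simp
    ring

end Crest.Agent.R249.KerB368
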