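import Crest.Agent.R249.KerB4b_368

/-!
# Kernel checker in the Bernstein basis, part 5: soundness of the tree check, environment
-/

set_option autoImplicit false

namespace Crest.Agent.R249.KerB368

open Crest.Agent.R249.Ker254 Crest.Agent.R249.KerT368

/-! ## leaves -/

theorem blkB_rep {w n1 n2 n3 nb b N : ℕ} {D : ℕ → ℕ}
    (hD : Rep w (nb * dm n1 n2 n3) b D N) (hb : b < 2 ^ w) {t : ℕ} (ht : t < nb) {Sb Mb : ℕ}
    (hS : Sb = w * dm n1 n2 n3) (hM : Mb = 2 ^ (w * dm n1 n2 n3) - 1) :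
    Rep w (dm n1 n2 n3) b (fun p => if p < dm n1 n2 n3 then D (t * dm n1 n2 n3 + p) else 0)
      (blk Sb Mb N t) := by
  have h1 := hD.shr (t * dm n1 n2 n3) hb
  refine ⟨?_, fun p hp => by
    show (if p < dm n1 n2 n3 then _ else 0) = 0; rw [if_neg (by omega)], fun p => ?_⟩
  · show N >>> (Sb * t) &&& Mb = _
    have e1 : Sb * t = w * (t * dm n1 n2 n3) := by rw [hS]; ring
    have e2 : N >>> (w * (t * dm n1 n2 n3))
        = pk w (fun p => D (t * dm n1 n2 n3 + p)) (nb * dm n1 n2 n3) := h1.eq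
    rw [e1, e2, hM, Nat.and_two_pow_sub_one_eq_mod]
    obtain ⟨nb', rfl⟩ : ∃ nb', nb = nb' + 1 := ⟨nb - 1, by omega⟩
    rw [show (nb' + 1) * dm n1 n2 n3 = dm n1 n2 n3 + nb' * dm n1 n2 n3 by ring, pk_append,
      Nat.add_mul_mod_self_left, Nat.mod_eq_of_lt (pk_lt _ _ fun p _ => (hD.bd _).trans_lt hb)]
    apply pk_congr
    intro p hp
    rw [if_pos hp]
  · show (if p < dm n1 n2 n3 then D (t * dm n1 n2 n3 + p) else 0) ≤ b
    split_ifs
    · exact hD.bd _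
    · exact Nat.zero_le _

theorem const_rep {w m b c : ℕ} (hc : c ≤ b) :
    Rep w m b (fun p => if p < m then c else 0) (Nat.mul c (pk w (fun _ => 1) m)) := by
  refine ⟨?_, fun p hp => by rw [if_neg (by omega)], fun p => ?_⟩
  · rw [Nat.mul_eq, smul_ones]
    exact pk_congr _ fun p hp => by rw [if_pos hp]
  · show (if p < m then c else 0) ≤ b
    split_ifs
    · exact hc
    · exact Nat.zero_le _

theorem lf2Ok_sound {w m W H : ℕ} (hW : W = 2 ^ w) (hH : H = pk (w + 1) (fun _ => 2 ^ w) m)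
    {g11 g12 g22 : ℤ} {a b d : SV} {ra rb rd : ℕ → ℤ} (h11 : 0 < g11) (h22 : 0 < g22)
    (ha : a.Is w m ra) (hb : b.Is w m rb) (hd : d.Is w m rd)
    (h : lf2Ok W H g11 g12 g22 a b d = true) (p : ℕ) (u v : ℝ) :
    0 ≤ (ra p : ℝ) * u ^ 2 + 2 * rb p * u * v + rd p * v ^ 2 := by
  unfold lf2Ok at h
  simp only [SV.force_eq, Bool.and_eq_true] at h
  have i12 := (ha.smul g12).add (hb.smul g22)
  have i22 := (hb.smul g12).add (hd.smul g22)
  have m11 := (ha.smul g11).smul g11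
  have m12 := i12.smul g11
  have m22 := (i12.smul g12).add (i22.smul g22)
  obtain ⟨⟨⟨c1, c2⟩, c3⟩, c4⟩ := h
  have d1 := (m11.add m12).nonneg hW hH c1 p
  have d2 := (m11.sub m12).nonneg hW hH c2 p
  have d3 := (m22.add m12).nonneg hW hH c3 p
  have d4 := (m22.sub m12).nonneg hW hH c4 p
  have k := psd_of_dd (g11 := g11) (g12 := g12) (g22 := g22) (g13 := 0) (g23 := 0) (g33 := 1)
    (a := ra p) (b := rb p) (c := 0) (d := rd p) (e := 0) (f := 0) h11 h22 one_pos rfl rfl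
    (m13 := 0) (by ring) rfl (m23 := 0) (by ring) (m33 := 0) (by ring)
    (by rw [abs_zero, add_zero, abs_le]; constructor <;> linarith)
    (by rw [abs_zero, add_zero, abs_le]; constructor <;> linarith)
    (by simp) u v 0
  unfold qf at k
  refine k.trans_eq ?_
  push_cast
  ring

theorem leafB_sound {E : EnvB} {n1 n2 n3 : ℕ} (hE : E.Ok n1 n2 n3)
    {g11 g12 g22 g13 g23 g33 : ℤ} {b o N : ℕ} {D : ℕ → ℕ}
    (hD : Rep (E.w + 1) (nbK E.kd * dm n1 n2 n3) b D N)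
    (h : leafB E g11 g12 g22 g13 g23 g33 b o N = true) {x : Pt} (hx : x.Nonneg) :
    KK E.kd (ent E.kd n1 n2 n3 D o x) := by
  unfold leafB at h
  simp only [Bool.and_eq_true] at h
  obtain ⟨⟨hb, ho⟩, h⟩ := h
  have hb' : b < 2 ^ (E.w + 1) := by
    have := Nat.le_of_ble_eq_true hb
    rw [hE.W1] at this; exact this
  have ho' : o ≤ b := Nat.le_of_ble_eq_true ho
  have isD : ∀ t, t < nbK E.kd → SV.Is E.w (dm n1 n2 n3) (bD E b o N t)
      (fun p => ((if p < dm n1 n2 n3 then o else 0 : ℕ) : ℤ)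
        - ((if p < dm n1 n2 n3 then D (t * dm n1 n2 n3 + p) else 0 : ℕ) : ℤ)) := fun t ht => by
    refine ⟨_, _, ?_, blkB_rep hD hb' ht hE.Sb hE.Mb, fun p => rfl⟩
    show Rep _ _ b _ (Nat.mul o E.U)
    rw [hE.U]; exact const_rep ho'
  have isO : ∀ t, t < nbK E.kd → SV.Is E.w (dm n1 n2 n3) (bO E b o N t)
      (fun p => ((if p < dm n1 n2 n3 then D (t * dm n1 n2 n3 + p) else 0 : ℕ) : ℤ)
        - ((if p < dm n1 n2 n3 then o else 0 : ℕ) : ℤ)) := fun t ht => by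
    refine ⟨_, _, blkB_rep hD hb' ht hE.Sb hE.Mb, ?_, fun p => rfl⟩
    show Rep _ _ b _ (Nat.mul o E.U)
    rw [hE.U]; exact const_rep ho'
  -- pointwise
  have key : ∀ p, p < dm n1 n2 n3 → KK E.kd (fun t => dg E.kd n1 n2 n3 D o t p) := by
    intro p hp
    generalize hk : E.kd = kd at *
    match kd with
    | 0 =>
      simp only [Bool.and_eq_true] at h
      obtain ⟨⟨⟨h11, h22⟩, h33⟩, h⟩ := h
      intro u v s
      have := lfOk_sound hE.W hE.H (posI_iff h11) (posI_iff h22) (posI_iff h33)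
        (isD 0 (by decide)) (isO 1 (by decide)) (isO 2 (by decide)) (isD 3 (by decide))
        (isO 4 (by decide)) (isD 5 (by decide)) h p u v s
      simp only [if_pos hp] at this
      push_cast at this
      exact this
    | 1 =>
      simp only [Bool.and_eq_true] at h
      obtain ⟨⟨h11, h22⟩, h⟩ := h
      intro u v
      have := lf2Ok_sound hE.W hE.H (posI_iff h11) (posI_iff h22)
        (isD 0 (by decide)) (isO 1 (by decide)) (isD 2 (by decide)) h p u v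
      simp only [if_pos hp] at this
      push_cast at this
      exact this
    | (k + 2) =>
      have := (isD 0 (by show 0 < 1; norm_num)).nonneg hE.W hE.H h p
      simp only [if_pos hp] at this
      show (0 : ℝ) ≤ (o : ℝ) - D (0 * dm n1 n2 n3 + p)
      exact_mod_cast this
  exact KK_sum (dm n1 n2 n3) (bm n1 n2 n3 x) (fun p _ => bm_nonneg hx p)
    (fun t p => dg E.kd n1 n2 n3 D o t p) key

/-- one child -/
theorem childB_sound {E : EnvB} {n1 n2 n3 : ℕ} (hE : E.Ok n1 n2 n3) {v z : ℕ} {b : ℕ} {X : ℕ → ℕ}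
    {k : ℕ → Bool}
    (hX : ∀ p, X p ≤ 2 ^ degv n1 n2 n3 v * b) (hs : ∀ p, nbK E.kd * dm n1 n2 n3 ≤ p → X p = 0)
    (hb : b ≤ E.bd)
    (h : childB E (E.var v) (flz E.fl E.fd z) (pk (E.w + 1) X (nbK E.kd * dm n1 n2 n3)) k = true) :
    ∃ (F : ℕ → Bool) (N' : ℕ),
      (∀ p, p < dm n1 n2 n3 → RC E.kd (fun t => F (t * dm n1 n2 n3 + p))) ∧
      (∀ t p, t < nbK E.kd → p < dm n1 n2 n3 → F (t * dm n1 n2 n3 + p) = true →
        X (t * dm n1 n2 n3 + p) % 2 ^ degv n1 n2 n3 v = 0) ∧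
      Rep (E.w + 1) (nbK E.kd * dm n1 n2 n3) E.bd
        (fun P => if P < nbK E.kd * dm n1 n2 n3 then
          X P / 2 ^ degv n1 n2 n3 v + drF E.kd n1 n2 n3 F P else 0) N' ∧ k N' = true := by
  obtain ⟨F, hR, hF1, hF2⟩ := hE.fl z
  simp only [childB, Bool.and_eq_true] at h
  obtain ⟨hz, hT, hk⟩ := h
  have hkb := hE.kb v
  have hw2 := hE.w2
  have hkw := hE.kw
  have h0 : 0 < 2 ^ E.kb := by positivity
  have hb2 : 2 ^ degv n1 n2 n3 v * b < 2 ^ (E.w + 1) := by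
    calc 2 ^ degv n1 n2 n3 v * b ≤ 2 ^ degv n1 n2 n3 v * (2 ^ E.kb - 1) :=
          Nat.mul_le_mul_left _ (hb.trans_eq hE.bd)
      _ < 2 ^ degv n1 n2 n3 v * 2 ^ E.kb := Nat.mul_lt_mul_of_pos_left (by omega) (by positivity)
      _ = 2 ^ (degv n1 n2 n3 v + E.kb) := by rw [pow_add]
      _ ≤ _ := Nat.pow_le_pow_right (by norm_num) hkb
  have h1 := trB_rep (w := E.w + 1) hX hs hb2 (hE.nw v) (hE.var v).eMt
  rw [Nat.mul_div_cancel_left _ (by positivity)] at h1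
  have hVn := (hE.var v).en
  refine ⟨F, _, hR, fun t p ht hp hFt => ?_, ?_, hk⟩
  · -- low bits
    have e1 : pk (E.w + 1) X (nbK E.kd * dm n1 n2 n3) &&& (E.var v).Lb
        = pk (E.w + 1) (fun P => X P % 2 ^ degv n1 n2 n3 v) (nbK E.kd * dm n1 n2 n3) := by
      have hnw := hE.nw v
      have hp2 : ∀ _P : ℕ, 2 ^ degv n1 n2 n3 v - 1 < 2 ^ (E.w + 1) := fun _ => by
        have : 2 ^ degv n1 n2 n3 v ≤ 2 ^ (E.w + 1) := Nat.pow_le_pow_right (by norm_num) hnw.le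
        have : 0 < 2 ^ degv n1 n2 n3 v := by positivity
        omega
      rw [(hE.var v).eLb, pk_land (E.w + 1) _ (fun P => (hX P).trans_lt hb2) hp2]
      exact pk_congr _ fun P _ => Nat.and_two_pow_sub_one_eq_mod _ _
    have hlt : t * dm n1 n2 n3 + p < nbK E.kd * dm n1 n2 n3 := by
      calc t * dm n1 n2 n3 + p < t * dm n1 n2 n3 + dm n1 n2 n3 := by omega
        _ = (t + 1) * dm n1 n2 n3 := by ring
        _ ≤ nbK E.kd * dm n1 n2 n3 := Nat.mul_le_mul_right _ ht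
    have hm : ∀ P, X P % 2 ^ degv n1 n2 n3 v < 2 ^ (E.w + 1) := fun P =>
      (Nat.mod_le _ _).trans_lt ((hX P).trans_lt hb2)
    have hz' : pk (E.w + 1) (fun P => X P % 2 ^ degv n1 n2 n3 v) (nbK E.kd * dm n1 n2 n3)
        &&& pkS (E.w + 1) F (nbK E.kd * dm n1 n2 n3) = 0 := by
      rw [← e1, ← hF1]; exact Nat.eq_of_beq_eq_true hz
    unfold pkS at hz'
    rw [pk_land (E.w + 1) _ hm (pkS_lt (E.w + 1) F)] at hz'
    have hz2 : pk (E.w + 1) (fun P => (X P % 2 ^ degv n1 n2 n3 v) &&&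
        (if F P = true then 2 ^ (E.w + 1) - 1 else 0)) (nbK E.kd * dm n1 n2 n3)
        = pk (E.w + 1) (fun _ => 0) (nbK E.kd * dm n1 n2 n3) := by
      rw [hz']; simp [pk]
    have e := pk_inj (E.w + 1) _ (fun P => lt_of_le_of_lt Nat.and_le_left (hm P))
      (fun _ => by positivity) hz2 _ hlt
    simp only [hFt, if_true] at e
    rw [land_full _ _ (hm _)] at e
    exact e
  · -- the new number
    have r2 : Rep (E.w + 1) (nbK E.kd * dm n1 n2 n3) 3
        (fun P => if P < nbK E.kd * dm n1 n2 n3 then drF E.kd n1 n2 n3 F P else 0)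
        (flz E.fl E.fd z).2 := by
      refine ⟨?_, fun P hP => by rw [if_neg (by omega)], fun P => ?_⟩
      · rw [hF2]
        exact pk_congr _ fun P hP => by rw [if_pos hP]
      · show (if P < nbK E.kd * dm n1 n2 n3 then drF E.kd n1 n2 n3 F P else 0) ≤ 3
        unfold drF
        split_ifs <;> omega
    have r3 := h1.add r2
    have hbb : b + 3 < 2 ^ (E.w + 1) := by
      have h4 : 2 ^ 2 ≤ 2 ^ E.w := Nat.pow_le_pow_right (by norm_num) hw2
      have h5 : 2 ^ E.kb ≤ 2 ^ E.w := Nat.pow_le_pow_right (by norm_num) hkw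
      have h6 := hE.bd
      rw [pow_succ]
      omega
    have r4 := top_rep r3 hbb (by omega) hE.Top (by
      have := Nat.eq_of_beq_eq_true hT
      rw [hVn] at this
      exact this)
    rw [hVn, hE.bd]
    refine r4.congr (fun P hP => ?_) (fun P hP => by rw [if_neg (by omega)])
    rw [if_pos hP, if_pos hP]

theorem ent_congr {kd n1 n2 n3 : ℕ} {D D' : ℕ → ℕ} (h : ∀ P, P < nbK kd * dm n1 n2 n3 → D P = D' P)
    {o : ℕ} {x : Pt} (hK : KK kd (ent kd n1 n2 n3 D o x)) : KK kd (ent kd n1 n2 n3 D' o x) := by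
  refine KK_congr (fun t ht => ?_) hK
  unfold ent dg
  refine Finset.sum_congr rfl fun p hp => ?_
  have hp' := Finset.mem_range.1 hp
  have hlt : t * dm n1 n2 n3 + p < nbK kd * dm n1 n2 n3 := by
    calc t * dm n1 n2 n3 + p < t * dm n1 n2 n3 + dm n1 n2 n3 := by omega
      _ = (t + 1) * dm n1 n2 n3 := by ring
      _ ≤ nbK kd * dm n1 n2 n3 := Nat.mul_le_mul_right _ ht
  rw [h _ hlt]

theorem chkB_sound {E : EnvB} {n1 n2 n3 : ℕ} (hE : E.Ok n1 n2 n3) {c : ℕ} :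
    ∀ (T : TreeB) (S : ℕ → Bool) (b o N : ℕ) (D : ℕ → ℕ),
    Rep (E.w + 1) (nbK E.kd * dm n1 n2 n3) b D N → chkB E c T S b o N = true →
    ∀ x : Pt, x.Nonneg → ∀ k, ReachB T c k x → S k = true →
    KK E.kd (ent E.kd n1 n2 n3 D o x) := by
  intro T
  induction T with
  | lf g11 g12 g22 g13 g23 g33 =>
    intro S b o N D hD h x hx k hr hS
    obtain ⟨rfl, rfl⟩ := hr
    simp only [chkB, hS] at h
    exact leafB_sound hE hD h hx
  | out i =>
    intro S b o N D hD h x hx k hr hS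
    obtain ⟨rfl, rfl⟩ := hr
    have e1 : (Nat.beq (i + 1) (Nat.succ i) && S 0) = true := by simp [hS]
    simp only [chkB, e1] at h
    exact leafB_sound hE hD h hx
  | nd vv zl zr l r ihl ihr =>
    intro S b o N D hD h x hx k hr hS
    simp only [chkB, Bool.and_eq_true] at h
    obtain ⟨hb, h⟩ := h
    have hb' : b ≤ E.bd := Nat.le_of_ble_eq_true hb
    have hV := hE.var vv
    have hkb := hE.kb vv
    have hb2 : 2 ^ degv n1 n2 n3 vv * b < 2 ^ (E.w + 1) := by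
      have h0 : 0 < 2 ^ E.kb := by positivity
      calc 2 ^ degv n1 n2 n3 vv * b ≤ 2 ^ degv n1 n2 n3 vv * (2 ^ E.kb - 1) :=
            Nat.mul_le_mul_left _ (hb'.trans_eq hE.bd)
        _ < 2 ^ degv n1 n2 n3 vv * 2 ^ E.kb := Nat.mul_lt_mul_of_pos_left (by omega) (by positivity)
        _ = 2 ^ (degv n1 n2 n3 vv + E.kb) := by rw [pow_add]
        _ ≤ _ := Nat.pow_le_pow_right (by norm_num) hkb
    have hD' := hD
    have hM0 := hV.eM0
    rw [← grp_eq (nbK E.kd) n1 n2 n3 vv] at hD' hM0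
    rw [hV.eMn, hV.edn, hV.es, hV.en, splitB_eq _ hD' hb2 hM0] at h
    rw [grp_eq (nbK E.kd) n1 n2 n3 vv, Bool.and_eq_true] at h
    obtain ⟨hl, hr'⟩ := h
    obtain ⟨a', b', ha', hb'', ⟨e1, e2, hR⟩ | ⟨e1, e2, hR⟩⟩ := hr
    · rw [reachB_hasB _ _ _ _ hR hS] at hl
      simp only at hl
      obtain ⟨F, N', hF, hF0, hrep, hk⟩ := childB_sound (v := vv) (b := b) hE (lB_le hD.bd)
        (fun p hp => by unfold lB; rw [if_neg (by omega)]) hb' hl
      have y := ent_congr (D' := fun P =>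
        lB (strd n2 n3 vv) (degv n1 n2 n3 vv) (nbK E.kd * dm n1 n2 n3) D P / 2 ^ degv n1 n2 n3 vv
          + drF E.kd n1 n2 n3 F P) (fun P hP => if_pos hP)
        (ihl _ _ _ _ _ hrep hk (x.set vv a' b') (hx.set vv ha' hb'') k hR hS)
      have z := ent_trunc (degv n1 n2 n3 vv)
        (lB (strd n2 n3 vv) (degv n1 n2 n3 vv) (nbK E.kd * dm n1 n2 n3) D)
        o hF hF0 (hx.set vv ha' hb'') y
      refine KK_congr (fun t ht => ?_) z
      rw [ent_left vv D o ht, ← e1]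
      congr 1
      rw [e1, ← e2, ← e1, Pt.set_self]
    · rw [reachB_hasB _ _ _ _ hR hS] at hr'
      simp only at hr'
      obtain ⟨F, N', hF, hF0, hrep, hk⟩ := childB_sound (v := vv) (b := b) hE (rB_le hD.bd)
        (fun p hp => by unfold rB; rw [if_neg (by omega)]) hb' hr'
      have y := ent_congr (D' := fun P =>
        rB (strd n2 n3 vv) (degv n1 n2 n3 vv) (nbK E.kd * dm n1 n2 n3) D P / 2 ^ degv n1 n2 n3 vv
          + drF E.kd n1 n2 n3 F P) (fun P hP => if_pos hP)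
        (ihr _ _ _ _ _ hrep hk (x.set vv a' b') (hx.set vv ha' hb'') k hR hS)
      have z := ent_trunc (degv n1 n2 n3 vv)
        (rB (strd n2 n3 vv) (degv n1 n2 n3 vv) (nbK E.kd * dm n1 n2 n3) D)
        o hF hF0 (hx.set vv ha' hb'') y
      refine KK_congr (fun t ht => ?_) z
      rw [ent_right vv D o ht, ← e2]
      congr 1
      rw [e2, ← e1, ← e2, Pt.set_self]
  | st j t ih =>
    intro S b o N D hD h x hx k hr hS
    obtain ⟨rfl, k', hr⟩ := hr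
    simp only [chkB, hS] at h
    exact ih _ _ _ _ _ hD h x hx k' hr rfl
  | zm δ e t ih =>
    intro S b o N D hD h x hx k hr hS
    cases c with
    | zero =>
      simp only [chkB, Bool.and_eq_true] at h
      obtain ⟨⟨⟨⟨hb, hδ⟩, hδo⟩, he⟩, hge, htop, h⟩ := h
      have hb' : b ≤ E.bd := Nat.le_of_ble_eq_true hb
      have hδ' : δ ≤ E.bd := Nat.le_of_ble_eq_true hδ
      have hδo' : δ ≤ o := Nat.le_of_ble_eq_true hδo
      have he' : e ≤ E.kb := Nat.le_of_ble_eq_true he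
      have hbd : E.bd < 2 ^ E.w := by
        rw [hE.bd]
        have h0 : 0 < 2 ^ E.kb := by positivity
        have h1 : 2 ^ E.kb ≤ 2 ^ E.w := Nat.pow_le_pow_right (by norm_num) hE.kw
        omega
      have hc := const_rep (w := E.w + 1) (m := nbK E.kd * dm n1 n2 n3) (le_refl δ)
      rw [← hE.U6] at hc
      have hge' := Rep.le_of_check hD hc (by omega) (by omega) hE.H6 (Nat.eq_of_beq_eq_true hge)
      have hDδ : ∀ p, p < nbK E.kd * dm n1 n2 n3 → δ ≤ D p := fun p hp => by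
        have := hge' p
        rwa [if_pos hp] at this
      have hN1 : Nat.sub N (Nat.mul δ E.U6)
          = pk (E.w + 1) (fun p => D p - δ) (nbK E.kd * dm n1 n2 n3) := by
        show N - δ * E.U6 = _
        rw [hE.U6, smul_ones, hD.eq]
        have : pk (E.w + 1) (fun p => D p - δ) (nbK E.kd * dm n1 n2 n3)
            + pk (E.w + 1) (fun _ => δ) (nbK E.kd * dm n1 n2 n3)
            = pk (E.w + 1) D (nbK E.kd * dm n1 n2 n3) := by
          rw [pk_add]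
          exact pk_congr _ fun p hp => Nat.sub_add_cancel (hDδ p hp)
        omega
      have r1 : Rep (E.w + 1) (nbK E.kd * dm n1 n2 n3) E.bd (fun p => D p - δ)
          (Nat.sub N (Nat.mul δ E.U6)) :=
        ⟨hN1, fun p hp => by show D p - δ = 0; rw [hD.supp p hp]; simp,
          fun p => (Nat.sub_le _ _).trans ((hD.bd p).trans hb')⟩
      have r2 := top_rep (kb := E.kb - e) r1 (by rw [pow_succ]; omega)
        (by have := hE.kw; omega) (Top := Nat.mul E.U6 (Nat.sub E.W1 (Nat.pow 2 (Nat.sub E.kb e))))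
        (by
          show E.U6 * (E.W1 - 2 ^ (E.kb - e)) = _
          rw [hE.U6, hE.W1, mul_comm, smul_ones]) (Nat.eq_of_beq_eq_true htop)
      have r3 := (r2.smul (2 ^ e)).mono (b' := E.bd) (by
        rw [hE.bd, Nat.mul_sub, ← pow_add, Nat.add_sub_cancel' he']
        have : 0 < 2 ^ e := by positivity
        omega)
      have e3 : Nat.shiftLeft (Nat.sub N (Nat.mul δ E.U6)) e
          = Nat.mul (2 ^ e) (Nat.sub N (Nat.mul δ E.U6)) := by
        show (Nat.sub N (Nat.mul δ E.U6)) <<< e = 2 ^ e * (Nat.sub N (Nat.mul δ E.U6))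
        rw [Nat.shiftLeft_eq, mul_comm]
      rw [← e3] at r3
      have y := ih _ _ _ _ _ r3 h x hx k hr hS
      have e4 : Nat.shiftLeft (Nat.sub o δ) e = 2 ^ e * (o - δ) := by
        show (o - δ) <<< e = _
        rw [Nat.shiftLeft_eq, mul_comm]
      rw [e4] at y
      exact ent_zoom δ e D o hδo' hDδ y
    | succ c' =>
      simp only [chkB] at h
      exact ih _ _ _ _ D hD h x hx k hr hS

/-! ## environment -/

theorem mkMask_mul (s n H : ℕ) :
    mkMask s n H * (2 ^ (s * (n + 1)) - 1) = (2 ^ s - 1) * (2 ^ (s * (n + 1) * H) - 1) := by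
  induction H with
  | zero => simp [mkMask]
  | succ H ih =>
    show ((mkMask s n H) <<< (s * (n + 1)) + (2 ^ s - 1)) * (2 ^ (s * (n + 1)) - 1) = _
    rw [Nat.shiftLeft_eq]
    obtain ⟨A, hA⟩ : ∃ A, A = 2 ^ s - 1 := ⟨_, rfl⟩
    obtain ⟨Q, hQ⟩ : ∃ Q, 2 ^ (s * (n + 1)) = Q + 1 := ⟨2 ^ (s * (n + 1)) - 1, by
      have : 0 < 2 ^ (s * (n + 1)) := by positivity
      omega⟩
    obtain ⟨R, hR⟩ : ∃ R, 2 ^ (s * (n + 1) * H) = R + 1 := ⟨2 ^ (s * (n + 1) * H) - 1, by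
      have : 0 < 2 ^ (s * (n + 1) * H) := by positivity
      omega⟩
    have e1 : s * (n + 1) * (H + 1) = s * (n + 1) * H + s * (n + 1) := by ring
    rw [e1, pow_add, hR, hQ, ← hA, Nat.add_sub_cancel]
    rw [hR, hQ, ← hA, Nat.add_sub_cancel, Nat.add_sub_cancel] at ih
    have e2 : (R + 1) * (Q + 1) - 1 = R * (Q + 1) + Q := by
      have : (R + 1) * (Q + 1) = R * (Q + 1) + Q + 1 := by ring
      omega
    rw [e2]
    calc (mkMask s n H * (Q + 1) + A) * Q = mkMask s n H * Q * (Q + 1) + A * Q := by ring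
      _ = A * R * (Q + 1) + A * Q := by rw [ih]
      _ = _ := by ring

/-- the mask by one division -/
def mkM (s n H : ℕ) : ℕ :=
  Nat.div (Nat.mul (Nat.sub (Nat.pow 2 s) 1) (Nat.sub (Nat.pow 2 (Nat.mul (Nat.mul s (Nat.succ n)) H)) 1))
    (Nat.sub (Nat.pow 2 (Nat.mul s (Nat.succ n))) 1)

theorem mkM_eq {w σ n : ℕ} (hw : 0 < w) (hσ : 0 < σ) (H : ℕ) :
    mkM (w * σ) n H = pk w (maskJ w σ n 0) (H * (n + 1) * σ) := by
  have h1 : pk w (maskJ w σ n 0) (H * (n + 1) * σ) = mkMask (w * σ) n H := (mkMask_eq hσ H).symm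
  rw [h1]
  show ((2 ^ (w * σ) - 1) * (2 ^ (w * σ * (n + 1) * H) - 1)) / (2 ^ (w * σ * (n + 1)) - 1) = _
  rw [← mkMask_mul]
  apply Nat.mul_div_cancel
  have h2 : 0 < w * σ * (n + 1) := by positivity
  have : 2 ^ 1 ≤ 2 ^ (w * σ * (n + 1)) := Nat.pow_le_pow_right (by norm_num) h2
  omega

/-- all digits one, `m` digits of `w` bits -/
def onesN (w m : ℕ) : ℕ :=
  Nat.div (Nat.sub (Nat.pow 2 (Nat.mul w m)) 1) (Nat.sub (Nat.pow 2 w) 1)

theorem onesN_eq {w : ℕ} (hw : 0 < w) (m : ℕ) : onesN w m = pk w (fun _ => 1) m := ones_eq hw m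

def withVB {α : Type} (w1 sg n H U6 : ℕ) (k : VB → α) : α :=
  frc (Nat.mul w1 sg) fun s =>
  frc (mkM s n H) fun M0 =>
  frc (Nat.shiftLeft M0 (Nat.mul s n)) fun Mn =>
  frc (Nat.mul (Nat.sub (Nat.pow 2 (Nat.sub w1 n)) 1) U6) fun Mt =>
  frc (Nat.mul (Nat.sub (Nat.pow 2 n) 1) U6) fun Lb =>
  mkDn M0 s n fun dn => k ⟨s, n, M0, Mn, dn, Mt, Lb⟩

/-- the data of variable `v` -/
def vsel (v0 v1 v2 : VB) : ℕ → VB
  | 0 => v0
  | 1 => v1
  | _ => v2

def withEnvB {α : Type} (kd w kb n1 n2 n3 : ℕ) (zs : List (List Face)) (k : EnvB → α) : α :=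
  frc (Nat.succ w) fun w1 =>
  frc (Nat.succ n3) fun d3 =>
  frc (Nat.mul (Nat.succ n2) d3) fun d2 =>
  frc (Nat.mul (Nat.succ n1) d2) fun m0 =>
  frc (nbK kd) fun nb =>
  frc (onesN w1 m0) fun U =>
  frc (onesN w1 (Nat.mul nb m0)) fun U6 =>
  frc (Nat.pow 2 w) fun W =>
  frc (Nat.pow 2 w1) fun W1 =>
  frc (Nat.mul (Nat.sub W1 (Nat.pow 2 kb)) U6) fun Top =>
  frc (Nat.mul w1 m0) fun Sb =>
  frc (Nat.sub (Nat.pow 2 Sb) 1) fun Mb =>
  frc (Nat.mul W U) fun H =>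
  frc (Nat.mul W U6) fun H6 =>
  frc (Nat.sub (Nat.pow 2 kb) 1) fun bd =>
  withVB w1 d2 n1 nb U6 fun v0 =>
  withVB w1 d3 n2 (Nat.mul nb (Nat.succ n1)) U6 fun v1 =>
  withVB w1 1 n3 (Nat.mul nb (Nat.mul (Nat.succ n1) (Nat.succ n2))) U6 fun v2 =>
  frc (Nat.sub W1 1) fun fu =>
  frc (Nat.mul fu U6) fun Full =>
  frc (blocksN Sb U (dgD kd)) fun D3 =>
  mkFl kd Sb U Full fu D3 (vsel v0 v1 v2) [] fun fd =>
  mkFls kd Sb U Full fu D3 (vsel v0 v1 v2) zs fun fl =>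
  k ⟨kd, w, kb, v0, v1, v2, Top, Sb, Mb, U, U6, W, H, H6, W1, bd, fl, fd⟩

/-- side conditions -/
def sideB (w kb n1 n2 n3 : ℕ) : Bool :=
  Nat.ble (Nat.add n1 kb) (Nat.succ w) && Nat.ble (Nat.add n2 kb) (Nat.succ w) &&
  Nat.ble (Nat.add n3 kb) (Nat.succ w) && Nat.ble kb w &&
  Nat.ble n1 w && Nat.ble n2 w && Nat.ble n3 w && Nat.ble 2 w

theorem withVB_eq {α : Type} {w1 σ n H m U6 : ℕ} (hw : 0 < w1) (hσ : 0 < σ)
    (hm : H * (n + 1) * σ = m) (hU : U6 = pk w1 (fun _ => 1) m) :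
    ∃ V : VB, VB.Ok w1 σ n m V ∧ ∀ k : VB → α, withVB w1 σ n H U6 k = k V := by
  refine ⟨⟨w1 * σ, n, mkM (w1 * σ) n H, Nat.shiftLeft (mkM (w1 * σ) n H) (Nat.mul (w1 * σ) n),
    dnM (mkM (w1 * σ) n H) (w1 * σ) n, Nat.mul (Nat.sub (Nat.pow 2 (Nat.sub w1 n)) 1) U6,
    Nat.mul (Nat.sub (Nat.pow 2 n) 1) U6⟩,
    ⟨rfl, rfl, ?_, rfl, rfl, ?_, ?_⟩, fun k => ?_⟩
  · show mkM (w1 * σ) n H = _
    rw [mkM_eq hw hσ, hm]
  · show (2 ^ (w1 - n) - 1) * U6 = _
    rw [hU, smul_ones]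
  · show (2 ^ n - 1) * U6 = _
    rw [hU, smul_ones]
  · unfold withVB
    simp only [frc_eq, mkDn_eq]
    rfl

theorem withEnvB_eq {α : Type} (kd w kb n1 n2 n3 : ℕ) (zs : List (List Face))
    (hs : sideB w kb n1 n2 n3 = true) :
    ∃ E : EnvB, E.Ok n1 n2 n3 ∧ E.kd = kd ∧ E.w = w ∧ E.kb = kb ∧ E.bd = 2 ^ kb - 1 ∧
      ∀ k : EnvB → α, withEnvB kd w kb n1 n2 n3 zs k = k E := by
  simp only [sideB, Bool.and_eq_true] at hs
  obtain ⟨⟨⟨⟨⟨⟨⟨s1, s2⟩, s3⟩, s4⟩, s5⟩, s6⟩, s7⟩, s8⟩ := hs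
  have s8' : 2 ≤ w := Nat.le_of_ble_eq_true s8
  have s1' : n1 + kb ≤ w + 1 := Nat.le_of_ble_eq_true s1
  have s2' : n2 + kb ≤ w + 1 := Nat.le_of_ble_eq_true s2
  have s3' : n3 + kb ≤ w + 1 := Nat.le_of_ble_eq_true s3
  have s4' : kb ≤ w := Nat.le_of_ble_eq_true s4
  have s5' : n1 ≤ w := Nat.le_of_ble_eq_true s5
  have s6' : n2 ≤ w := Nat.le_of_ble_eq_true s6
  have s7' : n3 ≤ w := Nat.le_of_ble_eq_true s7
  have hU := onesN_eq (w := w + 1) (Nat.succ_pos _) (dm n1 n2 n3)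
  have hU6 := onesN_eq (w := w + 1) (Nat.succ_pos _) (nbK kd * dm n1 n2 n3)
  obtain ⟨v0, o0, k0⟩ := withVB_eq (α := α) (w1 := w + 1) (σ := (n2 + 1) * (n3 + 1)) (n := n1)
    (H := nbK kd) (m := nbK kd * dm n1 n2 n3) (Nat.succ_pos _) (by positivity)
    (by unfold dm; ring) hU6
  obtain ⟨v1, o1, k1⟩ := withVB_eq (α := α) (w1 := w + 1) (σ := n3 + 1) (n := n2)
    (H := nbK kd * (n1 + 1)) (m := nbK kd * dm n1 n2 n3) (Nat.succ_pos _) (by positivity)
    (by unfold dm; ring) hU6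
  obtain ⟨v2, o2, k2⟩ := withVB_eq (α := α) (w1 := w + 1) (σ := 1) (n := n3)
    (H := nbK kd * ((n1 + 1) * (n2 + 1))) (m := nbK kd * dm n1 n2 n3) (Nat.succ_pos _)
    (by positivity) (by unfold dm; ring) hU6
  have hV : ∀ v, VB.Ok (w + 1) (strd n2 n3 v) (degv n1 n2 n3 v) (nbK kd * dm n1 n2 n3)
      (vsel v0 v1 v2 v) := by
    intro v
    match v with
    | 0 => exact o0
    | 1 => exact o1
    | (_ + 2) => exact o2
  have hfull : (2 ^ (w + 1) - 1) * onesN (w + 1) (nbK kd * dm n1 n2 n3)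
      = pk (w + 1) (fun _ => 2 ^ (w + 1) - 1) (nbK kd * dm n1 n2 n3) := by
    rw [hU6, smul_ones]
  obtain ⟨fd, hfd, kfd⟩ := mkFl_eq (α := α) (kd := kd) (n1 := n1) (n2 := n2) (n3 := n3)
    (w := w + 1) (Sb := (w + 1) * dm n1 n2 n3) (by omega) hV rfl hU rfl hfull rfl []
  obtain ⟨fl, hfl, kfl⟩ := mkFls_eq (α := α) (kd := kd) (n1 := n1) (n2 := n2) (n3 := n3)
    (w := w + 1) (Sb := (w + 1) * dm n1 n2 n3) (by omega) hV rfl hU rfl hfull rfl zs
  refine ⟨⟨kd, w, kb, v0, v1, v2, (2 ^ (w + 1) - 2 ^ kb) * onesN (w + 1) (nbK kd * dm n1 n2 n3),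
    (w + 1) * dm n1 n2 n3, 2 ^ ((w + 1) * dm n1 n2 n3) - 1, onesN (w + 1) (dm n1 n2 n3),
    onesN (w + 1) (nbK kd * dm n1 n2 n3), 2 ^ w, 2 ^ w * onesN (w + 1) (dm n1 n2 n3),
    2 ^ w * onesN (w + 1) (nbK kd * dm n1 n2 n3), 2 ^ (w + 1), 2 ^ kb - 1, fl, fd⟩,
    ⟨?_, ?_, rfl, rfl, hU, hU6, rfl, ?_, ?_, rfl, rfl, ?_, s4', ?_, s8', fun z => hfl fd hfd z⟩,
    rfl, rfl, rfl, rfl, fun k => ?_⟩
  · intro v
    match v with
    | 0 => exact o0
    | 1 => exact o1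
    | (_ + 2) => exact o2
  · show (2 ^ (w + 1) - 2 ^ kb) * onesN (w + 1) (nbK kd * dm n1 n2 n3) = _
    rw [hU6, smul_ones]
  · show 2 ^ w * onesN (w + 1) (dm n1 n2 n3) = _
    rw [hU, smul_ones]
  · show 2 ^ w * onesN (w + 1) (nbK kd * dm n1 n2 n3) = _
    rw [hU6, smul_ones]
  · intro v
    match v with
    | 0 => exact s1'
    | 1 => exact s2'
    | (_ + 2) => exact s3'
  · intro v
    match v with
    | 0 => exact Nat.lt_succ_of_le s5'
    | 1 => exact Nat.lt_succ_of_le s6'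
    | (_ + 2) => exact Nat.lt_succ_of_le s7'
  · unfold withEnvB
    simp only [frc_eq]
    show withVB (w + 1) ((n2 + 1) * (n3 + 1)) n1 (nbK kd)
      (onesN (w + 1) (nbK kd * dm n1 n2 n3)) _ = _
    rw [k0]
    show withVB (w + 1) (n3 + 1) n2 (nbK kd * (n1 + 1))
      (onesN (w + 1) (nbK kd * dm n1 n2 n3)) _ = _
    rw [k1]
    show withVB (w + 1) 1 n3 (nbK kd * ((n1 + 1) * (n2 + 1)))
      (onesN (w + 1) (nbK kd * dm n1 n2 n3)) _ = _
    rw [k2]
    show mkFl kd ((w + 1) * dm n1 n2 n3) (onesN (w + 1) (dm n1 n2 n3))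
      ((2 ^ (w + 1) - 1) * onesN (w + 1) (nbK kd * dm n1 n2 n3)) (2 ^ (w + 1) - 1)
      (blocksN ((w + 1) * dm n1 n2 n3) (onesN (w + 1) (dm n1 n2 n3)) (dgD kd)) (vsel v0 v1 v2) [] _
      = _
    rw [kfd]
    show mkFls kd ((w + 1) * dm n1 n2 n3) (onesN (w + 1) (dm n1 n2 n3))
      ((2 ^ (w + 1) - 1) * onesN (w + 1) (nbK kd * dm n1 n2 n3)) (2 ^ (w + 1) - 1)
      (blocksN ((w + 1) * dm n1 n2 n3) (onesN (w + 1) (dm n1 n2 n3)) (dgD kd)) (vsel v0 v1 v2) zs _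
      = _
    rw [kfl]
    rfl

/-- the check of the part of the tree selected by `c` and `S`, starting from the number `N0`;
`zs` : the face lists -/
def runB (kd w kb n1 n2 n3 : ℕ) (zs : List (List Face)) (c : ℕ) (S : ℕ → Bool) (T : TreeB)
    (o N0 : ℕ) : Bool :=
  sideB w kb n1 n2 n3 && Nat.ble o (Nat.sub (Nat.pow 2 kb) 1) &&
  withEnvB kd w kb n1 n2 n3 zs fun E => chkB E c T S E.bd o N0

theorem runB_sound {kd w kb n1 n2 n3 : ℕ} {zs : List (List Face)} {c : ℕ} {S : ℕ → Bool}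
    {T : TreeB} {o N0 : ℕ} {D : ℕ → ℕ}
    (hD : Rep (w + 1) (nbK kd * dm n1 n2 n3) (2 ^ kb - 1) D N0)
    (h : runB kd w kb n1 n2 n3 zs c S T o N0 = true) {x : Pt} (hx : x.Nonneg) {k : ℕ}
    (hr : ReachB T c k x) (hS : S k = true) : KK kd (ent kd n1 n2 n3 D o x) := by
  unfold runB at h
  rw [Bool.and_eq_true, Bool.and_eq_true] at h
  obtain ⟨⟨hs, ho⟩, h⟩ := h
  obtain ⟨E, hE, rfl, rfl, rfl, e4, he⟩ := withEnvB_eq (α := Bool) kd w kb n1 n2 n3 zs hs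
  rw [he] at h
  rw [← e4] at hD
  exact chkB_sound hE T S _ _ _ D hD h x hx k hr hS

end Crest.Agent.R249.KerB368
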