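import Crest.Agent.R249.KerB5_368

/-!
# Kernel checker in the Bernstein basis, part 6: the root number

`rootB` compares a given number `N0` (Bernstein digits, `kb` bits) with the exact coefficients
obtained from coefficient lists and the limits of the variables.
-/

set_option autoImplicit false

namespace Crest.Agent.R249.KerB368

open Crest.Agent.R249.Ker254 Crest.Agent.R249.KerT368

/-! ## digits of a number -/

/-- digit `p` -/
def dN (w N p : ℕ) : ℕ := N / 2 ^ (w * p) % 2 ^ w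

theorem pk_dN (w N m : ℕ) : pk w (dN w N) m = N % 2 ^ (w * m) := by
  induction m with
  | zero => simp [pk_zero, Nat.mod_one]
  | succ m ih =>
    rw [pk_succ, ih]
    have e : 2 ^ (w * (m + 1)) = 2 ^ (w * m) * 2 ^ w := by rw [← pow_add]; congr 1
    rw [e, Nat.mod_mul]
    unfold dN
    ring

theorem dN_rep {w m N : ℕ} (hN : N < 2 ^ (w * m)) :
    Rep w m (2 ^ w - 1) (fun p => if p < m then dN w N p else 0) N := by
  refine ⟨?_, fun p hp => by rw [if_neg (by omega)], fun p => ?_⟩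
  · have h1 := pk_dN w N m
    rw [Nat.mod_eq_of_lt hN] at h1
    rw [← h1]
    refine pk_congr w fun p hp => ?_
    rw [h1, if_pos hp]
  · show (if p < m then dN w N p else 0) ≤ _
    split_ifs
    · have : dN w N p < 2 ^ w := Nat.mod_lt _ (by positivity)
      omega
    · exact Nat.zero_le _

/-! ## rows of Pascal's triangle -/

def padd : ℕ → List ℕ → List ℕ
  | a, [] => [a]
  | a, b :: bs => Nat.add a b :: padd b bs

def prow : ℕ → List ℕ
  | 0 => [1]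
  | n + 1 => padd 0 (prow n)

def nth : List ℕ → ℕ → ℕ
  | [], _ => 0
  | a :: _, 0 => a
  | _ :: as, i + 1 => nth as i

theorem nth_padd_zero (a : ℕ) (l : List ℕ) : nth (padd a l) 0 = a + nth l 0 := by
  cases l <;> rfl

theorem nth_padd_succ (a : ℕ) (l : List ℕ) (i : ℕ) :
    nth (padd a l) (i + 1) = nth l i + nth l (i + 1) := by
  induction l generalizing a i with
  | nil => cases i <;> rfl
  | cons b bs ih =>
    cases i with
    | zero => exact nth_padd_zero b bs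
    | succ i => exact ih b i

theorem nth_prow (n i : ℕ) : nth (prow n) i = n.choose i := by
  induction n generalizing i with
  | zero =>
    cases i with
    | zero => rfl
    | succ i => show nth [] i = _; simp [nth]
  | succ n ih =>
    cases i with
    | zero => rw [prow, nth_padd_zero, ih]; simp
    | succ i => rw [prow, nth_padd_succ, ih, ih, Nat.choose_succ_succ]

/-- `c` times the binomial weight of digit `p` -/
def qOf (r1 r2 r3 : List ℕ) (c s1 s2 d1 d2 d3 p : ℕ) : ℕ :=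
  Nat.mul c (Nat.mul (nth r1 (Nat.mod (Nat.div p s1) d1))
    (Nat.mul (nth r2 (Nat.mod (Nat.div p s2) d2)) (nth r3 (Nat.mod p d3))))

theorem qOf_eq (n1 n2 n3 c p : ℕ) :
    ((qOf (prow n1) (prow n2) (prow n3) c ((n2 + 1) * (n3 + 1)) (n3 + 1) (n1 + 1) (n2 + 1) (n3 + 1) p
      : ℕ) : ℝ) = c * bin3 n1 n2 n3 p := by
  have e : qOf (prow n1) (prow n2) (prow n3) c ((n2 + 1) * (n3 + 1)) (n3 + 1) (n1 + 1) (n2 + 1)
      (n3 + 1) p = c * (n1.choose (J ((n2 + 1) * (n3 + 1)) n1 p) *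
        (n2.choose (J (n3 + 1) n2 p) * n3.choose (J 1 n3 p))) := by
    show c * (nth (prow n1) (J ((n2 + 1) * (n3 + 1)) n1 p) *
        (nth (prow n2) (J (n3 + 1) n2 p) * nth (prow n3) (p % (n3 + 1)))) = _
    rw [nth_prow, nth_prow, nth_prow]
    have : p % (n3 + 1) = J 1 n3 p := by unfold J; rw [Nat.div_one]
    rw [this]
  rw [e]
  unfold bin3
  push_cast
  ring

/-! ## comparison of one block -/

def relB (dg fl : Bool) (o q dT d6 d : ℕ) : Bool :=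
  match fl with
  | true => (match dg with
    | true => Nat.beq (Nat.add dT (Nat.mul q d)) (Nat.add d6 (Nat.mul q o))
    | false => Nat.beq (Nat.add dT (Nat.mul q o)) (Nat.add d6 (Nat.mul q d)))
  | false => (match dg with
    | true => Nat.ble (Nat.add d6 (Nat.mul q (Nat.add o 2))) (Nat.add dT (Nat.mul q d))
    | false => Nat.ble (Nat.add dT (Nat.mul q o)) (Nat.add d6 (Nat.mul q (Nat.succ d))) &&
      Nat.ble (Nat.add d6 (Nat.mul q d)) (Nat.add dT (Nat.mul q (Nat.succ o))))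

def rootBlk (wd w1 Md M1 : ℕ) (qf : ℕ → ℕ) (dg : Bool) (o : ℕ) :
    ℕ → ℕ → ℕ → ℕ → ℕ → ℕ → Bool
  | 0, _, _, _, _, _ => true
  | f + 1, p, XT, X6, Y, G =>
    frc (qf p) fun q => frc (Nat.land XT Md) fun dT => frc (Nat.land X6 Md) fun d6 =>
    frc (Nat.land Y M1) fun d =>
    relB dg (Nat.ble 1 (Nat.land G M1)) o q dT d6 d &&
    (frc (Nat.shiftRight XT wd) fun XT' => frc (Nat.shiftRight X6 wd) fun X6' =>
     frc (Nat.shiftRight Y w1) fun Y' => frc (Nat.shiftRight G w1) fun G' =>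
     frc (Nat.succ p) fun p' => rootBlk wd w1 Md M1 qf dg o f p' XT' X6' Y' G')

theorem pk_head {w : ℕ} {D : ℕ → ℕ} (h : ∀ p, D p < 2 ^ w) (f : ℕ) :
    Nat.land (pk w D (f + 1)) (2 ^ w - 1) = D 0 ∧
      Nat.shiftRight (pk w D (f + 1)) w = pk w (fun p => D (1 + p)) f := by
  have e : pk w D (f + 1) = D 0 + 2 ^ w * pk w (fun p => D (1 + p)) f := by
    rw [show f + 1 = 1 + f by ring, pk_append, mul_one]
    congr 1
    simp [pk]
  constructor
  · show pk w D (f + 1) &&& (2 ^ w - 1) = _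
    rw [e, Nat.and_two_pow_sub_one_eq_mod, Nat.add_mul_mod_self_left, Nat.mod_eq_of_lt (h 0)]
  · show pk w D (f + 1) >>> w = _
    rw [e, Nat.shiftRight_eq_div_pow, Nat.add_mul_div_left _ _ (by positivity),
      Nat.div_eq_of_lt (h 0), zero_add]

theorem rootBlk_sound {wd w1 : ℕ} {qf : ℕ → ℕ} {dg : Bool} {o : ℕ} :
    ∀ (f p : ℕ) (DT D6 Y G : ℕ → ℕ), (∀ p, DT p < 2 ^ wd) → (∀ p, D6 p < 2 ^ wd) →
    (∀ p, Y p < 2 ^ w1) → (∀ p, G p < 2 ^ w1) →
    rootBlk wd w1 (2 ^ wd - 1) (2 ^ w1 - 1) qf dg o f p (pk wd DT f) (pk wd D6 f) (pk w1 Y f)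
      (pk w1 G f) = true →
    ∀ i, i < f → relB dg (Nat.ble 1 (G i)) o (qf (p + i)) (DT i) (D6 i) (Y i) = true := by
  intro f
  induction f with
  | zero => intro p DT D6 Y G _ _ _ _ _ i hi; omega
  | succ f ih =>
    intro p DT D6 Y G h1 h2 h3 h4 h i hi
    simp only [rootBlk, frc_eq] at h
    rw [(pk_head h1 f).1, (pk_head h1 f).2, (pk_head h2 f).1, (pk_head h2 f).2,
      (pk_head h3 f).1, (pk_head h3 f).2, (pk_head h4 f).1, (pk_head h4 f).2,
      Bool.and_eq_true] at h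
    obtain ⟨ha, hb⟩ := h
    cases i with
    | zero => exact ha
    | succ i =>
      have := ih (p + 1) _ _ _ _ (fun p => h1 (1 + p)) (fun p => h2 (1 + p)) (fun p => h3 (1 + p))
        (fun p => h4 (1 + p)) hb i (by omega)
      rw [show p + (i + 1) = p + 1 + i by ring, show i + 1 = 1 + i by ring]
      exact this

/-- source block of block `t` -/
def srcK : ℕ → ℕ → ℕ
  | 1, 2 => 3
  | _, t => t

/-- blocks `t, t+1, ..., t+f-1` -/
def rootAll (kd wd w1 m0 Sb Mb Sb1 Mb1 Md M1 : ℕ) (qf : ℕ → ℕ) (o NA X6 N0 G : ℕ) : ℕ → Bool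
  | 0 => true
  | t + 1 =>
    (frc (blk Sb Mb NA (srcK kd t)) fun XT => frc (blk Sb1 Mb1 N0 t) fun Y =>
      frc (blk Sb1 Mb1 G t) fun Gt => rootBlk wd w1 Md M1 qf (dgK kd t) o m0 0 XT X6 Y Gt) &&
    rootAll kd wd w1 m0 Sb Mb Sb1 Mb1 Md M1 qf o NA X6 N0 G t

theorem rootAll_all {kd wd w1 m0 Sb Mb Sb1 Mb1 Md M1 : ℕ} {qf : ℕ → ℕ} {o NA X6 N0 G n : ℕ}
    (h : rootAll kd wd w1 m0 Sb Mb Sb1 Mb1 Md M1 qf o NA X6 N0 G n = true) {t : ℕ} (ht : t < n) :
    rootBlk wd w1 Md M1 qf (dgK kd t) o m0 0 (blk Sb Mb NA (srcK kd t)) X6 (blk Sb1 Mb1 N0 t)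
      (blk Sb1 Mb1 G t) = true := by
  induction n with
  | zero => omega
  | succ n ih =>
    simp only [rootAll, frc_eq, Bool.and_eq_true] at h
    rcases Nat.lt_succ_iff_lt_or_eq.1 ht with h1 | h1
    · exact ih h.2 h1
    · rw [h1]; exact h.1

/-- the root check; `z0` : faces with exact digits -/
def rootB (wr n1 n2 n3 off : ℕ) (L1 L2 L3 : Lim) (A c kd w kb o N0 : ℕ) (z0 : List Face)
    (bl : List P3) : Bool :=
  fits4 n1 n2 n3 off 6 bl && Nat.ble 1 A && Nat.ble kb w && sideB w kb n1 n2 n3 &&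
  withEnvB kd w kb n1 n2 n3 [z0] fun F =>
  (frc (Nat.succ w) fun w1 =>
   frc (Nat.mul (Nat.succ n1) (Nat.mul (Nat.succ n2) (Nat.succ n3))) fun m0 =>
   frc (Nat.mul (nbK kd) m0) fun m =>
   frc (Nat.mul w1 m0) fun Sb1 =>
   frc (Nat.sub (Nat.pow 2 Sb1) 1) fun Mb1 =>
   frc (Nat.sub (Nat.pow 2 w1) 1) fun M1 =>
   Nat.ble (Nat.succ N0) (Nat.pow 2 (Nat.mul w1 m)) &&
   Nat.beq (Nat.land N0 (Nat.mul (Nat.sub (Nat.pow 2 w1) (Nat.pow 2 kb)) (onesN w1 m))) 0 &&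
   withEnv wr n1 n2 n3 fun E =>
    frc (build (Nat.succ wr) n1 n2 n3 off bl) fun N00 =>
    frc (Nat.mul 2 off) fun b0 =>
    cutLo E 0 L1.lo b0 N00 fun b1 N1 => cutHi E 0 L1.hi b1 N1 fun b2 N2 =>
    cutLo E 1 L2.lo b2 N2 fun b3 N3 => cutHi E 1 L2.hi b3 N3 fun b4 N4 =>
    cutLo E 2 L3.lo b4 N4 fun b5 N5 => cutHi E 2 L3.hi b5 N5 fun b6 N6 =>
    Nat.ble (Nat.succ b6) E.W1 && Nat.ble (Nat.succ (Nat.mul A b6)) E.W1 &&
    (frc (Nat.mul A N6) fun NA =>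
     frc (blk E.Sb E.Mb NA 6) fun X6 =>
     frc (Nat.sub E.W1 1) fun Md =>
     frc (Nat.mul (Nat.succ n2) (Nat.succ n3)) fun s1 =>
     rootAll kd (Nat.succ wr) w1 m0 E.Sb E.Mb Sb1 Mb1 Md M1
      (qOf (prow n1) (prow n2) (prow n3) c s1 (Nat.succ n3) (Nat.succ n1) (Nat.succ n2)
        (Nat.succ n3)) o NA X6 N0 (flz F.fl F.fd 0).1 (nbK kd)))

theorem relB_true {o q dT d6 d : ℕ} (h : relB true false o q dT d6 d = true) :
    (2 : ℝ) * q ≤ (dT : ℝ) - d6 - q * ((o : ℝ) - d) := by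
  have h1 : d6 + q * (o + 2) ≤ dT + q * d := Nat.le_of_ble_eq_true h
  have h2 : ((d6 + q * (o + 2) : ℕ) : ℝ) ≤ ((dT + q * d : ℕ) : ℝ) := by exact_mod_cast h1
  push_cast at h2
  nlinarith

theorem relB_true' {o q dT d6 d : ℕ} (h : relB true true o q dT d6 d = true) :
    (dT : ℝ) - d6 - q * ((o : ℝ) - d) = 0 := by
  have h1 : dT + q * d = d6 + q * o := Nat.eq_of_beq_eq_true h
  have h2 : ((dT + q * d : ℕ) : ℝ) = ((d6 + q * o : ℕ) : ℝ) := by exact_mod_cast h1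
  push_cast at h2
  linarith

theorem relB_false' {o q dT d6 d : ℕ} (h : relB false true o q dT d6 d = true) :
    (dT : ℝ) - d6 - q * ((d : ℝ) - o) = 0 := by
  have h1 : dT + q * o = d6 + q * d := Nat.eq_of_beq_eq_true h
  have h2 : ((dT + q * o : ℕ) : ℝ) = ((d6 + q * d : ℕ) : ℝ) := by exact_mod_cast h1
  push_cast at h2
  linarith

theorem relB_false {o q dT d6 d : ℕ} (h : relB false false o q dT d6 d = true) :
    |(dT : ℝ) - d6 - q * ((d : ℝ) - o)| ≤ q := by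
  simp only [relB, Bool.and_eq_true] at h
  have h1 : dT + q * o ≤ d6 + q * (d + 1) := Nat.le_of_ble_eq_true h.1
  have h2 : d6 + q * d ≤ dT + q * (o + 1) := Nat.le_of_ble_eq_true h.2
  have h3 : ((dT + q * o : ℕ) : ℝ) ≤ ((d6 + q * (d + 1) : ℕ) : ℝ) := by exact_mod_cast h1
  have h4 : ((d6 + q * d : ℕ) : ℝ) ≤ ((dT + q * (o + 1) : ℕ) : ℝ) := by exact_mod_cast h2
  push_cast at h3 h4
  rw [abs_le]
  constructor <;> nlinarith

/-- the matrix entry of block `t` -/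
noncomputable def ee (kd : ℕ) (bl : List P3) (x y z : ℝ) (t : ℕ) : ℝ :=
  ev3 x y z (bl.getD (srcK kd t) [])

theorem srcK_lt {kd t : ℕ} (h : t < nbK kd) : srcK kd t < 6 := by
  match kd, h with
  | 0, h => exact h
  | 1, h =>
    have h' : t < 3 := h
    interval_cases t <;> decide
  | (k + 2), h =>
    have h' : t < 1 := h
    have : t = 0 := by omega
    subst this
    show 0 < 6
    norm_num

theorem rootB_sound {wr n1 n2 n3 off : ℕ} {L1 L2 L3 : Lim} {A c0 kd w kb o N0 : ℕ}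
    {z0 : List Face} {a b c d e f : P3}
    (h : rootB wr n1 n2 n3 off L1 L2 L3 A c0 kd w kb o N0 z0 [a, b, c, d, e, f] = true) :
    ∃ D : ℕ → ℕ, Rep (w + 1) (nbK kd * dm n1 n2 n3) (2 ^ kb - 1) D N0 ∧
      ∀ x y z : ℝ, L1.In x → L2.In y → L3.In z →
        KK kd (ent kd n1 n2 n3 D o (pt0 L1 L2 L3 x y z)) →
        KK kd (ee kd [a, b, c, d, e, f] x y z) := by
  unfold rootB at h
  rw [Bool.and_eq_true, Bool.and_eq_true] at h
  obtain ⟨⟨h00, hside⟩, h⟩ := h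
  obtain ⟨E', hE', ekd, ew, _, _, he'⟩ := withEnvB_eq (α := Bool) kd w kb n1 n2 n3 [z0] hside
  rw [he'] at h
  obtain ⟨F, hFR, hFm, _⟩ := hE'.fl 0
  rw [ekd, ew] at hFm
  rw [ekd] at hFR
  simp only [frc_eq, Bool.and_eq_true] at h h00
  obtain ⟨⟨hf, hA⟩, hkb⟩ := h00
  obtain ⟨⟨hlt, htop⟩, h⟩ := h
  have hA' : 1 ≤ A := Nat.le_of_ble_eq_true hA
  have hkb' : kb ≤ w := Nat.le_of_ble_eq_true hkb
  have hlt' : N0 < 2 ^ ((w + 1) * (nbK kd * dm n1 n2 n3)) := Nat.le_of_ble_eq_true hlt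
  have hR0 := dN_rep hlt'
  have hR := top_rep (kb := kb) hR0 (by
      have : 0 < 2 ^ (w + 1) := by positivity
      omega) (by omega) (Top := (2 ^ (w + 1) - 2 ^ kb) * onesN (w + 1) (nbK kd * dm n1 n2 n3)) (by
      rw [onesN_eq (Nat.succ_pos _), smul_ones]) (Nat.eq_of_beq_eq_true htop)
  set D : ℕ → ℕ := fun p => if p < nbK kd * dm n1 n2 n3 then dN (w + 1) N0 p else 0 with hDdef
  refine ⟨D, hR, fun x y z hx hy hz hK => ?_⟩
  obtain ⟨E, hE, e1, e2, e3, e4, he⟩ := withEnv_eq wr n1 n2 n3 (fun E =>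
    cutLo E 0 L1.lo (Nat.mul 2 off) (build (Nat.succ wr) n1 n2 n3 off [a, b, c, d, e, f])
      fun b1 N1 => cutHi E 0 L1.hi b1 N1 fun b2 N2 =>
    cutLo E 1 L2.lo b2 N2 fun b3 N3 => cutHi E 1 L2.hi b3 N3 fun b4 N4 =>
    cutLo E 2 L3.lo b4 N4 fun b5 N5 => cutHi E 2 L3.hi b5 N5 fun b6 N6 =>
    Nat.ble (Nat.succ b6) E.W1 && Nat.ble (Nat.succ (Nat.mul A b6)) E.W1 &&
    (rootAll kd (Nat.succ wr) (Nat.succ w)
      (Nat.mul (Nat.succ n1) (Nat.mul (Nat.succ n2) (Nat.succ n3))) E.Sb E.Mb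
      (Nat.mul (Nat.succ w) (Nat.mul (Nat.succ n1) (Nat.mul (Nat.succ n2) (Nat.succ n3))))
      (Nat.sub (Nat.pow 2 (Nat.mul (Nat.succ w)
        (Nat.mul (Nat.succ n1) (Nat.mul (Nat.succ n2) (Nat.succ n3))))) 1)
      (Nat.sub E.W1 1) (Nat.sub (Nat.pow 2 (Nat.succ w)) 1)
      (qOf (prow n1) (prow n2) (prow n3) c0 (Nat.mul (Nat.succ n2) (Nat.succ n3)) (Nat.succ n3)
        (Nat.succ n1) (Nat.succ n2) (Nat.succ n3)) o (Nat.mul A N6)
      (blk E.Sb E.Mb (Nat.mul A N6) 6) N0 (flz E'.fl E'.fd 0).1 (nbK kd)))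
  rw [he] at h
  subst e1 e2 e3 e4
  set Dw : ℕ → ℕ := fun P => if P < 7 * E.m0 then
    digD E.n1 E.n2 E.n3 off [a, b, c, d, e, f] P else 0 with hDwdef
  have hDe : ∀ P, P < 7 * E.m0 → Dw P = digD E.n1 E.n2 E.n3 off [a, b, c, d, e, f] P := by
    intro P hP; simp only [hDwdef]; rw [if_pos hP]
  have hq : ∀ t i j k, (cf [a, b, c, d, e, f] t i j k).natAbs ≤ off := fun t i j k =>
    (fits3_sound (fits4_sound hf t)).1 i j k
  have hDw : Rep (E.w + 1) (7 * E.m0) (2 * off) Dw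
      (build (Nat.succ E.w) E.n1 E.n2 E.n3 off [a, b, c, d, e, f]) := by
    refine ⟨?_, fun p hp => by simp only [hDwdef]; rw [if_neg (by omega)], fun p => ?_⟩
    · rw [build_eq]
      exact pk_congr _ fun p hp => (hDe p hp).symm
    · simp only [hDwdef]
      split_ifs
      · exact toD_le (hq _ _ _ _)
      · exact Nat.zero_le _
  obtain ⟨D1, b1, N1, r1, k1, v1⟩ := cutLo_sound hE hDw h
  obtain ⟨D2, b2, N2, r2, k2, v2⟩ := cutHi_sound hE r1 k1
  obtain ⟨D3, b3, N3, r3, k3, v3⟩ := cutLo_sound hE r2 k2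
  obtain ⟨D4, b4, N4, r4, k4, v4⟩ := cutHi_sound hE r3 k3
  obtain ⟨D5, b5, N5, r5, k5, v5⟩ := cutLo_sound hE r4 k4
  obtain ⟨D6, b6, N6, r6, k6, v6⟩ := cutHi_sound hE r5 k5
  have hN : (pt0 L1 L2 L3 x y z).Nonneg := ⟨hx.1, hx.2, hy.1, hy.2, hz.1, hz.2⟩
  have ev : ∀ lam, val E D6 lam (pt0 L1 L2 L3 x y z) = val E Dw lam ⟨x, 1, y, 1, z, 1⟩ := by
    intro lam
    have a6 := v6 ⟨(L1.co x).1, (L1.co x).2, (L2.co y).1, (L2.co y).2, z, 1⟩
      (cLo L3.lo (z, 1)).1 (cLo L3.lo (z, 1)).2 lam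
    have a5 := v5 ⟨(L1.co x).1, (L1.co x).2, (L2.co y).1, (L2.co y).2, z, 1⟩ z 1 lam
    have a4 := v4 ⟨(L1.co x).1, (L1.co x).2, y, 1, z, 1⟩
      (cLo L2.lo (y, 1)).1 (cLo L2.lo (y, 1)).2 lam
    have a3 := v3 ⟨(L1.co x).1, (L1.co x).2, y, 1, z, 1⟩ y 1 lam
    have a2 := v2 ⟨x, 1, y, 1, z, 1⟩ (cLo L1.lo (x, 1)).1 (cLo L1.lo (x, 1)).2 lam
    have a1 := v1 ⟨x, 1, y, 1, z, 1⟩ x 1 lam
    exact a6.trans (a5.trans (a4.trans (a3.trans (a2.trans a1))))
  simp only [Bool.and_eq_true] at k6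
  obtain ⟨⟨hb6, hAb6⟩, hall⟩ := k6
  have hAb6' : A * b6 < 2 ^ (E.w + 1) := by
    have : Nat.succ (A * b6) ≤ E.W1 := Nat.le_of_ble_eq_true hAb6
    rw [hE.W1] at this; exact this
  have rA := r6.smul A
  -- digitwise relation
  have hrel : ∀ t, t < nbK kd → ∀ p, p < dm E.n1 E.n2 E.n3 →
      relB (dgK kd t) (F (t * dm E.n1 E.n2 E.n3 + p)) o (qOf (prow E.n1) (prow E.n2) (prow E.n3) c0 ((E.n2 + 1) * (E.n3 + 1))
        (E.n3 + 1) (E.n1 + 1) (E.n2 + 1) (E.n3 + 1) p) (A * D6 (srcK kd t * E.m0 + p))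
        (A * D6 (6 * E.m0 + p)) (D (t * dm E.n1 E.n2 E.n3 + p)) = true := by
    intro t ht p hp
    have h1 := rootAll_all hall ht
    have hT := blk_rep hE rA hAb6' (t := srcK kd t)
    have h6 := blk_rep hE rA hAb6' (t := 6)
    have hb2 : 2 ^ kb - 1 < 2 ^ (w + 1) := by
      have h0 : 0 < 2 ^ kb := by positivity
      have : 2 ^ kb ≤ 2 ^ (w + 1) := Nat.pow_le_pow_right (by norm_num) (by omega)
      omega
    have hY := blkB_rep hR hb2 ht (Sb := (w + 1) * dm E.n1 E.n2 E.n3)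
      (Mb := 2 ^ ((w + 1) * dm E.n1 E.n2 E.n3) - 1) rfl rfl
    have hw1 : 2 ^ (w + 1) - 1 < 2 ^ (w + 1) := Nat.sub_lt (by positivity) one_pos
    have hG0 : Rep (w + 1) (nbK kd * dm E.n1 E.n2 E.n3) (2 ^ (w + 1) - 1)
        (fun P => if P < nbK kd * dm E.n1 E.n2 E.n3 then (if F P = true then 2 ^ (w + 1) - 1 else 0)
          else 0) (flz E'.fl E'.fd 0).1 := by
      refine ⟨?_, fun P hP => by rw [if_neg (by omega)], fun P => ?_⟩
      · rw [hFm]
        unfold pkS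
        exact pk_congr _ fun P hP => by rw [if_pos hP]
      · show (if P < nbK kd * dm E.n1 E.n2 E.n3 then (if F P = true then 2 ^ (w + 1) - 1 else 0)
          else 0) ≤ _
        split_ifs <;> omega
    have hG := blkB_rep hG0 hw1 ht (Sb := (w + 1) * dm E.n1 E.n2 E.n3)
      (Mb := 2 ^ ((w + 1) * dm E.n1 E.n2 E.n3) - 1) rfl rfl
    have h1' : rootBlk (E.w + 1) (w + 1) (2 ^ (E.w + 1) - 1) (2 ^ (w + 1) - 1)
        (qOf (prow E.n1) (prow E.n2) (prow E.n3) c0 ((E.n2 + 1) * (E.n3 + 1))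
        (E.n3 + 1) (E.n1 + 1) (E.n2 + 1) (E.n3 + 1)) (dgK kd t) o (dm E.n1 E.n2 E.n3) 0
        (blk E.Sb E.Mb (Nat.mul A N6) (srcK kd t)) (blk E.Sb E.Mb (Nat.mul A N6) 6)
        (blk ((w + 1) * dm E.n1 E.n2 E.n3) (2 ^ ((w + 1) * dm E.n1 E.n2 E.n3) - 1) N0 t)
        (blk ((w + 1) * dm E.n1 E.n2 E.n3) (2 ^ ((w + 1) * dm E.n1 E.n2 E.n3) - 1)
          (flz E'.fl E'.fd 0).1 t) = true := by
      rw [← hE.W1]; exact h1
    rw [hT.eq, h6.eq, hY.eq, hG.eq] at h1'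
    have h2 := rootBlk_sound _ _ _ _ _ _ (fun p => (hT.bd p).trans_lt hAb6')
      (fun p => (h6.bd p).trans_lt hAb6') (fun p => (hY.bd p).trans_lt hb2)
      (fun p => (hG.bd p).trans_lt hw1) h1' p hp
    have hp' : p < E.m0 := hp
    have hlt : t * dm E.n1 E.n2 E.n3 + p < nbK kd * dm E.n1 E.n2 E.n3 := by
      calc t * dm E.n1 E.n2 E.n3 + p < t * dm E.n1 E.n2 E.n3 + dm E.n1 E.n2 E.n3 := by omega
        _ = (t + 1) * dm E.n1 E.n2 E.n3 := by ring
        _ ≤ nbK kd * dm E.n1 E.n2 E.n3 := Nat.mul_le_mul_right _ ht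
    have hbl : Nat.ble 1 (if F (t * dm E.n1 E.n2 E.n3 + p) = true then 2 ^ (w + 1) - 1 else 0)
        = F (t * dm E.n1 E.n2 E.n3 + p) := by
      cases F (t * dm E.n1 E.n2 E.n3 + p) with
      | true =>
        simp only [if_true]
        apply Nat.ble_eq_true_of_le
        have : 2 ^ 1 ≤ 2 ^ (w + 1) := Nat.pow_le_pow_right (by norm_num) (by omega)
        omega
      | false => simp; rfl
    simp only [zero_add, if_pos hp, if_pos hlt, hbl] at h2
    exact h2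
  -- assemble
  have hAr : (0 : ℝ) < A := by exact_mod_cast hA'
  have g1 := KK_smul (c := (c0 : ℝ)) (Nat.cast_nonneg _) hK
  have g2 : KK kd (fun t => ∑ p ∈ Finset.range (dm E.n1 E.n2 E.n3),
      (((A * D6 (srcK kd t * E.m0 + p) : ℕ) : ℝ) - ((A * D6 (6 * E.m0 + p) : ℕ) : ℝ)
        - c0 * bin3 E.n1 E.n2 E.n3 p * dg kd E.n1 E.n2 E.n3 D o t p)
        * mon E.n1 E.n2 E.n3 (pt0 L1 L2 L3 x y z) p) := by
    refine KK_sum (dm E.n1 E.n2 E.n3) _ (fun p _ => mon_nonneg hN p)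
      (fun t p => ((A * D6 (srcK kd t * E.m0 + p) : ℕ) : ℝ) - ((A * D6 (6 * E.m0 + p) : ℕ) : ℝ)
        - c0 * bin3 E.n1 E.n2 E.n3 p * dg kd E.n1 E.n2 E.n3 D o t p) (fun p hp => ?_)
    have hqe := qOf_eq E.n1 E.n2 E.n3 c0 p
    refine KK_remF (q := c0 * bin3 E.n1 E.n2 E.n3 p) (hFR p hp)
      (fun t ht => ⟨fun hd => ⟨fun hF => ?_, fun hF => ?_⟩, fun hd => ?_⟩)
      (by have := bin3_pos E.n1 E.n2 E.n3 p; positivity)
    · have h0 := hrel t ht p hp
      rw [hd, hF] at h0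
      have h1 := relB_true h0
      unfold dg
      rw [hd, ← hqe]
      exact h1
    · have h0 := hrel t ht p hp
      rw [hd, hF] at h0
      have h1 := relB_true' h0
      unfold dg
      rw [hd, ← hqe]
      exact h1.ge
    · have h0 := hrel t ht p hp
      rw [hd] at h0
      unfold dg
      rw [hd, ← hqe]
      cases hF : F (t * dm E.n1 E.n2 E.n3 + p) with
      | false =>
        rw [hF] at h0
        exact ⟨relB_false h0, fun hh => absurd hh (by simp)⟩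
      | true =>
        rw [hF] at h0
        have h1 := relB_false' h0
        refine ⟨?_, fun _ => h1⟩
        have h2 : |(((A * D6 (srcK kd t * E.m0 + p) : ℕ) : ℝ)
            - ((A * D6 (6 * E.m0 + p) : ℕ) : ℝ)
            - (qOf (prow E.n1) (prow E.n2) (prow E.n3) c0 ((E.n2 + 1) * (E.n3 + 1))
              (E.n3 + 1) (E.n1 + 1) (E.n2 + 1) (E.n3 + 1) p : ℕ)
              * ((D (t * dm E.n1 E.n2 E.n3 + p) : ℝ) - o))| = 0 := by
          rw [abs_eq_zero]; exact h1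
        exact (le_of_eq h2).trans (Nat.cast_nonneg _)
  have g3 := KK_smul (c := 1 / (A : ℝ)) (by positivity) (KK_add g2 g1)
  refine KK_congr (fun t ht => ?_) g3
  have ht6 := srcK_lt ht
  have w1 := ev (lamt (srcK kd t))
  rw [val_build hf x y z ht6 hDe, val_lamt E D6 _ ht6] at w1
  unfold ee
  rw [← w1]
  have e5 : c0 * ent kd E.n1 E.n2 E.n3 D o (pt0 L1 L2 L3 x y z) t
      = ∑ p ∈ Finset.range (dm E.n1 E.n2 E.n3),
        c0 * bin3 E.n1 E.n2 E.n3 p * dg kd E.n1 E.n2 E.n3 D o t p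
          * mon E.n1 E.n2 E.n3 (pt0 L1 L2 L3 x y z) p := by
    unfold ent bm
    rw [Finset.mul_sum]
    refine Finset.sum_congr rfl fun p _ => ?_
    ring
  rw [e5, ← Finset.sum_add_distrib, Finset.mul_sum]
  refine Finset.sum_congr rfl fun p hp => ?_
  have hp' : p < E.m0 := Finset.mem_range.1 hp
  rw [if_pos hp', if_pos hp']
  push_cast
  field_simp
  ring

end Crest.Agent.R249.KerB368
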