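import Crest.Agent.R249.KerB6_368

/-!
# Kernel checker in the Bernstein basis, part 7: main theorems
-/

set_option autoImplicit false

namespace Crest.Agent.R249.KerB368

open Crest.Agent.R249.Ker254 Crest.Agent.R249.KerT368

/-- General statement: `hroot` compares the root number with the coefficient lists, `hrun k` checks
the leaves in stub `k`, `hout` says that the point is in no excluded leaf. -/
theorem psdB {wr n1 n2 n3 off : ℕ} {L1 L2 L3 : Lim} {A c0 kd w kb o N0 K n : ℕ} {z0 : List Face}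
    {zs : List (List Face)} {T : TreeB} {a b c d e f : P3}
    (hT : okB n K T = true)
    (hroot : rootB wr n1 n2 n3 off L1 L2 L3 A c0 kd w kb o N0 z0 [a, b, c, d, e, f] = true)
    (hrun : ∀ k, k < K → runB kd w kb n1 n2 n3 zs 0 (Nat.beq k) T o N0 = true)
    {x y z : ℝ} (hx : L1.In x) (hy : L2.In y) (hz : L3.In z)
    (hout : ∀ i, i < n → ∀ k, ¬ ReachB T (i + 1) k (pt0 L1 L2 L3 x y z)) :
    KK kd (ee kd [a, b, c, d, e, f] x y z) := by
  obtain ⟨D, hD, h⟩ := rootB_sound hroot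
  have hN : (pt0 L1 L2 L3 x y z).Nonneg := ⟨hx.1, hx.2, hy.1, hy.2, hz.1, hz.2⟩
  obtain ⟨c1, k, hc, hk, hr⟩ := reachB_total T hT _ hN
  cases c1 with
  | succ i => exact absurd hr (hout i (by omega) k)
  | zero =>
    exact h x y z hx hy hz (runB_sound hD (hrun k hk) hN hr (by simp))

/-- on the excluded leaves of kind `i` the polynomial `g` is nonnegative -/
theorem outB {wr n1 n2 n3 off : ℕ} {L1 L2 L3 : Lim} {A c0 w kb o N0 i : ℕ} {T : TreeB} {g : P3}
    (hroot : rootB wr n1 n2 n3 off L1 L2 L3 A c0 2 w kb o N0 [] [g, [], [], [], [], []] = true)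
    (hrun : runB 2 w kb n1 n2 n3 [] (i + 1) (fun _ => true) T o N0 = true)
    {x y z : ℝ} (hx : L1.In x) (hy : L2.In y) (hz : L3.In z) {k : ℕ}
    (hr : ReachB T (i + 1) k (pt0 L1 L2 L3 x y z)) : 0 ≤ ev3 x y z g := by
  obtain ⟨D, hD, h⟩ := rootB_sound hroot
  have hN : (pt0 L1 L2 L3 x y z).Nonneg := ⟨hx.1, hx.2, hy.1, hy.2, hz.1, hz.2⟩
  exact h x y z hx hy hz (runB_sound hD hrun hN hr rfl)

/-- the statement for `3 × 3` matrices -/
theorem KK_zero_iff {a b c d e f : P3} {x y z : ℝ} (h : KK 0 (ee 0 [a, b, c, d, e, f] x y z))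
    (u v s : ℝ) :
    0 ≤ qf (ev3 x y z a) (ev3 x y z b) (ev3 x y z c) (ev3 x y z d) (ev3 x y z e) (ev3 x y z f)
      u v s := h u v s

/-- the statement for `2 × 2` matrices -/
theorem KK_one_iff {a b d : P3} {x y z : ℝ} (h : KK 1 (ee 1 [a, b, [], d, [], []] x y z))
    (u v : ℝ) :
    0 ≤ ev3 x y z a * u ^ 2 + 2 * ev3 x y z b * u * v + ev3 x y z d * v ^ 2 := h u v

/-- the statement for scalars -/
theorem KK_two_iff {a : P3} {x y z : ℝ} (h : KK 2 (ee 2 [a, [], [], [], [], []] x y z)) :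
    0 ≤ ev3 x y z a := h

/-- exchange of the last two rows -/
theorem qf_swap (a b c d e f u v s : ℝ) : qf a b c d e f u v s = qf a c b f e d u s v := by
  unfold qf; ring

/-- `3 × 3` matrices, no excluded leaves -/
theorem psd3 {wr n1 n2 n3 off : ℕ} {L1 L2 L3 : Lim} {A c0 w kb o N0 K : ℕ} {z0 : List Face}
    {zs : List (List Face)} {T : TreeB} {a b c d e f : P3}
    (hT : okB 0 K T = true)
    (hroot : rootB wr n1 n2 n3 off L1 L2 L3 A c0 0 w kb o N0 z0 [a, b, c, d, e, f] = true)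
    (hrun : ∀ k, k < K → runB 0 w kb n1 n2 n3 zs 0 (Nat.beq k) T o N0 = true)
    {x y z : ℝ} (hx : L1.In x) (hy : L2.In y) (hz : L3.In z) (u v s : ℝ) :
    0 ≤ qf (ev3 x y z a) (ev3 x y z b) (ev3 x y z c) (ev3 x y z d) (ev3 x y z e) (ev3 x y z f)
      u v s :=
  KK_zero_iff (psdB hT hroot hrun hx hy hz fun _ hi => absurd hi (Nat.not_lt_zero _)) u v s

/-- `3 × 3` matrices, one kind of excluded leaves: there `0 ≤ g` -/
theorem psd3o {wr n1 n2 n3 off : ℕ} {L1 L2 L3 : Lim} {A c0 w kb o N0 K : ℕ} {z0 : List Face}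
    {zs : List (List Face)} {T : TreeB} {a b c d e f : P3}
    (hT : okB 1 K T = true)
    (hroot : rootB wr n1 n2 n3 off L1 L2 L3 A c0 0 w kb o N0 z0 [a, b, c, d, e, f] = true)
    (hrun : ∀ k, k < K → runB 0 w kb n1 n2 n3 zs 0 (Nat.beq k) T o N0 = true)
    {wr' n1' n2' n3' off' A' c0' w' kb' o' N0' : ℕ} {g : P3}
    (hroot1 : rootB wr' n1' n2' n3' off' L1 L2 L3 A' c0' 2 w' kb' o' N0' [] [g, [], [], [], [], []]
      = true)
    (hrun1 : runB 2 w' kb' n1' n2' n3' [] 1 (fun _ => true) T o' N0' = true)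
    {x y z : ℝ} (hx : L1.In x) (hy : L2.In y) (hz : L3.In z) (hg : ev3 x y z g < 0) (u v s : ℝ) :
    0 ≤ qf (ev3 x y z a) (ev3 x y z b) (ev3 x y z c) (ev3 x y z d) (ev3 x y z e) (ev3 x y z f)
      u v s :=
  KK_zero_iff (psdB hT hroot hrun hx hy hz fun i hi k hr => by
    obtain rfl : i = 0 := by omega
    exact absurd (outB hroot1 hrun1 hx hy hz hr) (not_le.2 hg)) u v s

/-! ## negative of a list polynomial -/

/-- negative coefficients -/
def negI : ℤ → ℤ
  | Int.ofNat 0 => 0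
  | Int.ofNat (Nat.succ k) => Int.negSucc k
  | Int.negSucc k => Int.ofNat (Nat.succ k)

theorem negI_eq (c : ℤ) : negI c = -c := by
  match c with
  | Int.ofNat 0 => rfl
  | Int.ofNat (Nat.succ k) => rfl
  | Int.negSucc k => rfl

def neg1 : List ℤ → List ℤ
  | [] => []
  | c :: cs => negI c :: neg1 cs

def neg2 : List (List ℤ) → List (List ℤ)
  | [] => []
  | p :: ps => neg1 p :: neg2 ps

def neg3 : P3 → P3
  | [] => []
  | p :: ps => neg2 p :: neg3 ps

theorem ev1_neg (z : ℝ) (l : List ℤ) : ev1 z (neg1 l) = -ev1 z l := by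
  induction l with
  | nil => simp [neg1, ev1]
  | cons c cs ih => simp only [neg1, ev1, ih, negI_eq]; push_cast; ring

theorem ev2_neg (y z : ℝ) (l : List (List ℤ)) : ev2 y z (neg2 l) = -ev2 y z l := by
  induction l with
  | nil => simp [neg2, ev2]
  | cons c cs ih => simp only [neg2, ev2, ih, ev1_neg]; ring

theorem ev3_neg (x y z : ℝ) (l : P3) : ev3 x y z (neg3 l) = -ev3 x y z l := by
  induction l with
  | nil => simp [neg3, ev3]
  | cons c cs ih => simp only [neg3, ev3, ih, ev2_neg]; ring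

end Crest.Agent.R249.KerB368
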