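import Crest.Agent.R249.KerT2_368

/-!
# Kernel checker for polynomial inequalities: leaves with several congruences

`lfMask W H g.. a b c d e f` : packed mask, the top bit of digit `p` is set only if `Gᵀ M_p G` is
diagonally dominant (`M_p` the `p`-th coefficient matrix).  `orG` : the union over a list of
congruences `G`.  A leaf is accepted if every digit is covered by at least one `G` of the list.
-/

set_option autoImplicit false

namespace Crest.Agent.R249.KerM638

open Crest.Agent.R249.Ker254 Crest.Agent.R249.KerT368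

/-- list of upper triangular integer matrices -/
inductive Cgs
  | nil
  | cons (g11 g12 g22 g13 g23 g33 : ℤ) (t : Cgs)

/-- the raw sign mask of a signed vector, `0` if the bound is too large -/
def nnm (W H : ℕ) (x : SV) : ℕ :=
  match Nat.ble (Nat.succ x.b) W with
  | true => Nat.sub (Nat.add x.P H) x.Q
  | false => 0

/-- the mask of the digits accepted by `G` -/
def lfMask (W H : ℕ) (g11 g12 g22 g13 g23 g33 : ℤ) (a b c d e f : SV) : ℕ :=
  match posI g11 && posI g22 && posI g33 with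
  | false => 0
  | true =>
  (SV.smul g11 a).force fun ga =>
  ((SV.smul g12 a).add (SV.smul g22 b)).force fun k12 =>
  (((SV.smul g13 a).add (SV.smul g23 b)).add (SV.smul g33 c)).force fun k13 =>
  ((SV.smul g12 b).add (SV.smul g22 d)).force fun k22 =>
  (((SV.smul g13 b).add (SV.smul g23 d)).add (SV.smul g33 e)).force fun k23 =>
  (((SV.smul g13 c).add (SV.smul g23 e)).add (SV.smul g33 f)).force fun k33 =>
  (SV.smul g11 ga).force fun m11 =>
  (SV.smul g11 k12).force fun m12 =>
  (SV.smul g11 k13).force fun m13 =>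
  ((SV.smul g12 k12).add (SV.smul g22 k22)).force fun m22 =>
  ((SV.smul g12 k13).add (SV.smul g22 k23)).force fun m23 =>
  (((SV.smul g13 k13).add (SV.smul g23 k23)).add (SV.smul g33 k33)).force fun m33 =>
  (m12.add m13).force fun q1 =>
  (m12.sub m13).force fun q2 =>
  (m12.add m23).force fun q3 =>
  (m12.sub m23).force fun q4 =>
  (m13.add m23).force fun q5 =>
  (m13.sub m23).force fun q6 =>
  frc (nnm W H (m11.add q1)) fun r =>
  frc (Nat.land r (nnm W H (m11.sub q1))) fun r =>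
  frc (Nat.land r (nnm W H (m11.add q2))) fun r =>
  frc (Nat.land r (nnm W H (m11.sub q2))) fun r =>
  frc (Nat.land r (nnm W H (m22.add q3))) fun r =>
  frc (Nat.land r (nnm W H (m22.sub q3))) fun r =>
  frc (Nat.land r (nnm W H (m22.add q4))) fun r =>
  frc (Nat.land r (nnm W H (m22.sub q4))) fun r =>
  frc (Nat.land r (nnm W H (m33.add q5))) fun r =>
  frc (Nat.land r (nnm W H (m33.sub q5))) fun r =>
  frc (Nat.land r (nnm W H (m33.add q6))) fun r =>
  Nat.land r (nnm W H (m33.sub q6))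

/-- union of the masks over the list -/
def orG (W H : ℕ) (a b c d e f : SV) : Cgs → ℕ → ℕ
  | .nil, acc => acc
  | .cons g11 g12 g22 g13 g23 g33 t, acc =>
    frc (Nat.lor acc (lfMask W H g11 g12 g22 g13 g23 g33 a b c d e f)) fun acc' =>
    orG W H a b c d e f t acc'

/-- the leaf check with several congruences -/
def lfOkM (W H : ℕ) (gs : Cgs) (a b c d e f : SV) : Bool :=
  Nat.beq (Nat.land (orG W H a b c d e f gs 0) H) H

/-! ### soundness -/

variable {w m W H : ℕ}

theorem nnm_sound {x : SV} {r : ℕ → ℤ} (hx : x.Is w m r) (hW : W = 2 ^ w)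
    (hH : H = pk (w + 1) (fun _ => 2 ^ w) m) {p : ℕ} (hp : p < m)
    (h : (nnm W H x).testBit ((w + 1) * p + w) = true) : 0 ≤ r p := by
  obtain ⟨F, G, hF, hG, hr⟩ := hx.ex
  unfold nnm at h
  split at h
  · rename_i hb
    have hpos : 0 < 2 ^ w := by positivity
    have hb' : x.b < 2 ^ w := by
      have : Nat.succ x.b ≤ W := Nat.le_of_ble_eq_true hb
      rw [hW] at this; exact this
    have bF : ∀ p, F p < 2 ^ w := fun p => (hF.bd p).trans_lt hb'
    have bG : ∀ p, G p < 2 ^ w := fun p => (hG.bd p).trans_lt hb'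
    have e1 : Nat.sub (Nat.add x.P H) x.Q = pk (w + 1) (fun p => F p + 2 ^ w - G p) m := by
      show x.P + H - x.Q = _
      have : pk (w + 1) (fun p => F p + 2 ^ w - G p) m + x.Q = x.P + H := by
        rw [hF.eq, hG.eq, hH, pk_add, pk_add]
        apply pk_congr
        intro p _
        have := bG p
        omega
      omega
    have hlt : ∀ p, F p + 2 ^ w - G p < 2 ^ (w + 1) := by
      intro p
      have := bF p
      rw [pow_succ]
      omega
    rw [e1, testBit_pk (Nat.succ_pos w) hlt] at h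
    have d1 : ((w + 1) * p + w) / (w + 1) = p := by
      rw [Nat.mul_add_div (Nat.succ_pos w), Nat.div_eq_of_lt (Nat.lt_succ_self w), add_zero]
    have d2 : ((w + 1) * p + w) % (w + 1) = w := by
      rw [Nat.mul_add_mod, Nat.mod_eq_of_lt (Nat.lt_succ_self w)]
    rw [Nat.succ_eq_add_one, d1, d2] at h
    simp only [hp, decide_true, Bool.true_and] at h
    have h3 : 2 ^ w ≤ F p + 2 ^ w - G p := Nat.ge_two_pow_of_testBit h
    have := bG p
    rw [hr]
    omega
  · simp at h

theorem lfMask_sound (hW : W = 2 ^ w) (hH : H = pk (w + 1) (fun _ => 2 ^ w) m)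
    {g11 g12 g22 g13 g23 g33 : ℤ} {a b c d e f : SV} {ra rb rc rd re rf : ℕ → ℤ}
    (ha : a.Is w m ra) (hb : b.Is w m rb) (hc : c.Is w m rc) (hd : d.Is w m rd)
    (he : e.Is w m re) (hf : f.Is w m rf) {p : ℕ} (hp : p < m)
    (h : (lfMask W H g11 g12 g22 g13 g23 g33 a b c d e f).testBit ((w + 1) * p + w) = true)
    (u v s : ℝ) :
    0 ≤ qf (ra p) (rb p) (rc p) (rd p) (re p) (rf p) u v s := by
  unfold lfMask at h
  split at h
  · simp at h
  rename_i hg
  simp only [Bool.and_eq_true] at hg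
  obtain ⟨⟨h11, h22⟩, h33⟩ := hg
  simp only [SV.force_eq, frc_eq] at h
  simp only [show ∀ x y : ℕ, Nat.land x y = x &&& y from fun _ _ => rfl, Nat.testBit_and,
    Bool.and_eq_true] at h
  have i12 := (ha.smul g12).add (hb.smul g22)
  have i13 := ((ha.smul g13).add (hb.smul g23)).add (hc.smul g33)
  have i22 := (hb.smul g12).add (hd.smul g22)
  have i23 := ((hb.smul g13).add (hd.smul g23)).add (he.smul g33)
  have i33 := ((hc.smul g13).add (he.smul g23)).add (hf.smul g33)
  have m11 := (ha.smul g11).smul g11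
  have m12 := i12.smul g11
  have m13 := i13.smul g11
  have m22 := (i12.smul g12).add (i22.smul g22)
  have m23 := (i13.smul g12).add (i23.smul g22)
  have m33 := ((i13.smul g13).add (i23.smul g23)).add (i33.smul g33)
  obtain ⟨⟨⟨⟨⟨⟨⟨⟨⟨⟨⟨c1, c2⟩, c3⟩, c4⟩, c5⟩, c6⟩, c7⟩, c8⟩, c9⟩, c10⟩, c11⟩, c12⟩ := h
  have d1 := nnm_sound (m11.add (m12.add m13)) hW hH hp c1
  have d2 := nnm_sound (m11.sub (m12.add m13)) hW hH hp c2
  have d3 := nnm_sound (m11.add (m12.sub m13)) hW hH hp c3
  have d4 := nnm_sound (m11.sub (m12.sub m13)) hW hH hp c4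
  have d5 := nnm_sound (m22.add (m12.add m23)) hW hH hp c5
  have d6 := nnm_sound (m22.sub (m12.add m23)) hW hH hp c6
  have d7 := nnm_sound (m22.add (m12.sub m23)) hW hH hp c7
  have d8 := nnm_sound (m22.sub (m12.sub m23)) hW hH hp c8
  have d9 := nnm_sound (m33.add (m13.add m23)) hW hH hp c9
  have d10 := nnm_sound (m33.sub (m13.add m23)) hW hH hp c10
  have d11 := nnm_sound (m33.add (m13.sub m23)) hW hH hp c11
  have d12 := nnm_sound (m33.sub (m13.sub m23)) hW hH hp c12
  exact psd_of_dd (posI_iff h11) (posI_iff h22) (posI_iff h33) rfl rfl rfl rfl rfl rfl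
    (abs_add_le_of_four d1 d2 d3 d4)
    (abs_add_le_of_four d5 d6 d7 d8) (abs_add_le_of_four d9 d10 d11 d12) u v s

theorem orG_sound (hW : W = 2 ^ w) (hH : H = pk (w + 1) (fun _ => 2 ^ w) m)
    {a b c d e f : SV} {ra rb rc rd re rf : ℕ → ℤ}
    (ha : a.Is w m ra) (hb : b.Is w m rb) (hc : c.Is w m rc) (hd : d.Is w m rd)
    (he : e.Is w m re) (hf : f.Is w m rf) {p : ℕ} (hp : p < m) (u v s : ℝ) :
    ∀ (gs : Cgs) (acc : ℕ), (orG W H a b c d e f gs acc).testBit ((w + 1) * p + w) = true →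
      acc.testBit ((w + 1) * p + w) = true ∨
        0 ≤ qf (ra p) (rb p) (rc p) (rd p) (re p) (rf p) u v s := by
  intro gs
  induction gs with
  | nil => intro acc h; exact Or.inl h
  | cons g11 g12 g22 g13 g23 g33 t ih =>
    intro acc h
    simp only [orG, frc_eq] at h
    rcases ih _ h with h1 | h1
    · rw [show ∀ x y : ℕ, Nat.lor x y = x ||| y from fun _ _ => rfl, Nat.testBit_or,
        Bool.or_eq_true] at h1
      rcases h1 with h2 | h2
      · exact Or.inl h2
      · exact Or.inr (lfMask_sound hW hH ha hb hc hd he hf hp h2 u v s)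
    · exact Or.inr h1

/-- soundness of the leaf check with several congruences -/
theorem lfOkM_sound (hW : W = 2 ^ w) (hH : H = pk (w + 1) (fun _ => 2 ^ w) m)
    {gs : Cgs} {a b c d e f : SV} {ra rb rc rd re rf : ℕ → ℤ}
    (ha : a.Is w m ra) (hb : b.Is w m rb) (hc : c.Is w m rc) (hd : d.Is w m rd)
    (he : e.Is w m re) (hf : f.Is w m rf)
    (h : lfOkM W H gs a b c d e f = true) {p : ℕ} (hp : p < m) (u v s : ℝ) :
    0 ≤ qf (ra p) (rb p) (rc p) (rd p) (re p) (rf p) u v s := by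
  unfold lfOkM at h
  have h1 : (orG W H a b c d e f gs 0) &&& H = H := Nat.eq_of_beq_eq_true h
  have d1 : ((w + 1) * p + w) / (w + 1) = p := by
    rw [Nat.mul_add_div (Nat.succ_pos w), Nat.div_eq_of_lt (Nat.lt_succ_self w), add_zero]
  have d2 : ((w + 1) * p + w) % (w + 1) = w := by
    rw [Nat.mul_add_mod, Nat.mod_eq_of_lt (Nat.lt_succ_self w)]
  have hb1 : H.testBit ((w + 1) * p + w) = true := by
    rw [hH, testBit_pk (Nat.succ_pos w) (fun _ => Nat.pow_lt_pow_right (by norm_num)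
      (Nat.lt_succ_self w)), Nat.succ_eq_add_one, d1, d2]
    simp [hp]
  have h2 : ((orG W H a b c d e f gs 0) &&& H).testBit ((w + 1) * p + w) = true := by
    rw [h1]; exact hb1
  rw [Nat.testBit_and, Bool.and_eq_true] at h2
  rcases orG_sound hW hH ha hb hc hd he hf hp u v s gs 0 h2.1 with h3 | h3
  · simp at h3
  · exact h3

/-- the leaf check on the packed number -/
def chkLeafM (E : Env) (gs : Cgs) (b N : ℕ) : Bool :=
  Nat.ble (Nat.succ b) E.W1 &&
  (frc (blk E.Sb E.Mb N 6) fun o =>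
   frc (blk E.Sb E.Mb N 0) fun x0 => frc (blk E.Sb E.Mb N 1) fun x1 =>
   frc (blk E.Sb E.Mb N 2) fun x2 => frc (blk E.Sb E.Mb N 3) fun x3 =>
   frc (blk E.Sb E.Mb N 4) fun x4 => frc (blk E.Sb E.Mb N 5) fun x5 =>
   lfOkM E.W E.H gs ⟨x0, o, b⟩ ⟨x1, o, b⟩ ⟨x2, o, b⟩ ⟨x3, o, b⟩ ⟨x4, o, b⟩ ⟨x5, o, b⟩)

theorem chkLeafM_sound {E : Env} (hE : E.Ok) {gs : Cgs} {b N : ℕ} {D : ℕ → ℕ}
    (hD : Rep (E.w + 1) (7 * E.m0) b D N)
    (h : chkLeafM E gs b N = true) (x : Pt) (hx : x.Nonneg) (u v s : ℝ) :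
    0 ≤ qf (val E D (lamt 0) x) (val E D (lamt 1) x) (val E D (lamt 2) x) (val E D (lamt 3) x)
      (val E D (lamt 4) x) (val E D (lamt 5) x) u v s := by
  unfold chkLeafM at h
  simp only [frc_eq, Bool.and_eq_true] at h
  obtain ⟨hb, h⟩ := h
  have hb' : b < 2 ^ (E.w + 1) := by
    have := Nat.le_of_ble_eq_true hb
    rw [hE.W1] at this; exact this
  have o := blk_rep hE hD hb' (t := 6)
  have is : ∀ t, SV.Is E.w E.m0 ⟨blk E.Sb E.Mb N t, blk E.Sb E.Mb N 6, b⟩
      (fun p => ((if p < E.m0 then D (t * E.m0 + p) else 0 : ℕ) : ℤ)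
        - ((if p < E.m0 then D (6 * E.m0 + p) else 0 : ℕ) : ℤ)) := fun t =>
    ⟨_, _, blk_rep hE hD hb' (t := t), o, fun p => rfl⟩
  have key : ∀ p, p < E.m0 → ∀ u v s : ℝ, _ := fun p hp u v s =>
    lfOkM_sound hE.W hE.H (is 0) (is 1) (is 2) (is 3) (is 4) (is 5) h hp u v s
  rw [val_lamt E D x (show 0 < 6 by norm_num), val_lamt E D x (show 1 < 6 by norm_num),
    val_lamt E D x (show 2 < 6 by norm_num), val_lamt E D x (show 3 < 6 by norm_num),
    val_lamt E D x (show 4 < 6 by norm_num), val_lamt E D x (show 5 < 6 by norm_num)]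
  unfold qf
  simp only [Finset.sum_mul, Finset.mul_sum, ← Finset.sum_add_distrib]
  refine Finset.sum_nonneg fun p hp => ?_
  have h1 := mul_nonneg (mon_nonneg (n1 := E.n1) (n2 := E.n2) (n3 := E.n3) hx p)
    (key p (Finset.mem_range.1 hp) u v s)
  unfold qf at h1
  refine le_of_le_of_eq h1 ?_
  ring

end Crest.Agent.R249.KerM638
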