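import Crest.Agent.R249.KerM1_638

/-!
# Kernel checker for polynomial inequalities: `psdM`

The check `psdT` (helper368, helper254) with leaves carrying a list of congruences (`KerM1_638`).
-/

set_option autoImplicit false

namespace Crest.Agent.R249.KerM638

open Crest.Agent.R249.Ker254 Crest.Agent.R249.KerT368

inductive TreeM
  | lf (gs : Cgs)
  | out (i : ℕ)
  | nd (v α β : ℕ) (l r : TreeM)
  | tr (s kb : ℕ) (t : TreeM)
  | rb (kb : ℕ) (t : TreeM)

def okTM (n : ℕ) : TreeM → Bool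
  | .lf _ => true
  | .out i => Nat.ble (Nat.succ i) n
  | .nd _ α β l r => Nat.ble 1 α && Nat.ble 1 β && okTM n l && okTM n r
  | .tr _ _ t => okTM n t
  | .rb _ t => okTM n t

/-- the subtree has a leaf of kind `c` -/
def hasTM (c : ℕ) : TreeM → Bool
  | .lf _ => Nat.beq c 0
  | .out i => Nat.beq c (Nat.succ i)
  | .nd _ _ _ l r => hasTM c l || hasTM c r
  | .tr _ _ t => hasTM c t
  | .rb _ t => hasTM c t

def chkM (E : Env) (U7 A3 : ℕ) (c : ℕ) : TreeM → ℕ → ℕ → Bool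
  | .lf gs, b, N =>
    match c with
    | 0 => chkLeafM E gs b N
    | _ + 1 => true
  | .out i, b, N =>
    match Nat.beq c (Nat.succ i) with
    | true => chkLeaf E 1 0 1 0 0 1 b N
    | false => true
  | .nd v α β l r, b, N =>
    Nat.ble 1 α && Nat.ble 1 β && Nat.ble (Nat.succ b) E.W1 &&
    (match hasTM c l with
      | true => (frc (bdL E v α β b) fun bL => frc (stL E v α β N) fun NL => chkM E U7 A3 c l bL NL)
      | false => true) &&
    (match hasTM c r with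
      | true => (frc (bdL E v β α b) fun bR => frc (stR E v α β N) fun NR => chkM E U7 A3 c r bR NR)
      | false => true)
  | .tr s kb t, b, N =>
    match c with
    | 0 => Nat.ble (Nat.succ b) E.W1 && Nat.ble s E.w && Nat.ble kb (Nat.succ E.w) &&
        Nat.ble (Nat.succ (Nat.add (Nat.shiftRight b s) 3)) E.W1 &&
        (frc (trN (Nat.succ E.w) U7 A3 s N) fun N' =>
          Nat.beq (Nat.land N' (Nat.mul U7 (Nat.sub E.W1 (Nat.pow 2 kb)))) 0 &&
          (frc (Nat.sub (Nat.pow 2 kb) 1) fun b' => chkM E U7 A3 0 t b' N'))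
    | c' + 1 => chkM E U7 A3 (c' + 1) t b N
  | .rb kb t, b, N =>
    match c with
    | 0 => Nat.ble (Nat.succ b) E.W1 && Nat.ble kb (Nat.succ E.w) &&
        Nat.beq (Nat.land N (Nat.mul U7 (Nat.sub E.W1 (Nat.pow 2 kb)))) 0 &&
          (frc (Nat.sub (Nat.pow 2 kb) 1) fun b' => chkM E U7 A3 0 t b' N)
    | c' + 1 => chkM E U7 A3 (c' + 1) t b N

/-- the point `x` reaches a leaf of kind `c` -/
def ReachM : TreeM → ℕ → Pt → Prop
  | .lf _, c, _ => c = 0
  | .out i, c, _ => c = i + 1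
  | .nd v α β l r, c, x => ∃ a b : ℝ, 0 ≤ a ∧ 0 ≤ b ∧
      ((x.ga v = α * a ∧ x.gb v = β * (a + b) ∧ ReachM l c (x.set v a b)) ∨
       (x.ga v = α * (a + b) ∧ x.gb v = β * b ∧ ReachM r c (x.set v a b)))
  | .tr _ _ t, c, x => ReachM t c x
  | .rb _ t, c, x => ReachM t c x

theorem reachM_total {n : ℕ} : ∀ (T : TreeM), okTM n T = true → ∀ x : Pt, x.Nonneg →
    ∃ c, c ≤ n ∧ ReachM T c x := by
  intro T
  induction T with
  | lf gs => intro _ x _; exact ⟨0, Nat.zero_le _, rfl⟩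
  | out i =>
    intro h x _
    exact ⟨i + 1, Nat.le_of_ble_eq_true h, rfl⟩
  | nd vv α β l r ihl ihr =>
    intro h x hx
    simp only [okTM, Bool.and_eq_true] at h
    obtain ⟨⟨⟨hα, hβ⟩, hl⟩, hr⟩ := h
    have hα' : (0 : ℝ) < α := by exact_mod_cast Nat.le_of_ble_eq_true hα
    have hβ' : (0 : ℝ) < β := by exact_mod_cast Nat.le_of_ble_eq_true hβ
    have ha := hx.ga vv
    have hb := hx.gb vv
    rcases le_total (x.ga vv / α) (x.gb vv / β) with hc | hc
    · obtain ⟨c, c1, c2⟩ := ihl hl (x.set vv (x.ga vv / α) (x.gb vv / β - x.ga vv / α))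
        (hx.set vv (by positivity) (by linarith))
      refine ⟨c, c1, x.ga vv / α, x.gb vv / β - x.ga vv / α, by positivity, by linarith,
        Or.inl ⟨?_, ?_, c2⟩⟩
      · field_simp
      · rw [add_sub_cancel]; field_simp
    · obtain ⟨c, c1, c2⟩ := ihr hr (x.set vv (x.ga vv / α - x.gb vv / β) (x.gb vv / β))
        (hx.set vv (by linarith) (by positivity))
      refine ⟨c, c1, x.ga vv / α - x.gb vv / β, x.gb vv / β, by linarith, by positivity,
        Or.inr ⟨?_, ?_, c2⟩⟩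
      · rw [sub_add_cancel]; field_simp
      · field_simp
  | tr s kb t ih => intro h x hx; exact ih h x hx
  | rb kb t ih => intro h x hx; exact ih h x hx

theorem reachM_hasM {c : ℕ} : ∀ (T : TreeM) (x : Pt), ReachM T c x → hasTM c T = true := by
  intro T
  induction T with
  | lf gs => intro x h; simp only [ReachM] at h; subst h; rfl
  | out i => intro x h; simp only [ReachM] at h; subst h; simp [hasTM]
  | nd vv α β l r ihl ihr =>
    intro x h
    obtain ⟨a, b, _, _, h | h⟩ := h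
    · simp [hasTM, ihl _ h.2.2]
    · simp [hasTM, ihr _ h.2.2]
  | tr s kb t ih => intro x h; exact ih x h
  | rb kb t ih => intro x h; exact ih x h

theorem chkM_sound {E : Env} (hE : E.Ok) {U7 A3 : ℕ}
    (hU : U7 = pk (E.w + 1) (fun _ => 1) (7 * E.m0))
    (hA : A3 = pk (E.w + 1) (fun P => sl.getD (P / E.m0) 0) (7 * E.m0)) {c : ℕ} :
    ∀ (T : TreeM) (b N : ℕ) (D : ℕ → ℕ),
    Rep (E.w + 1) (7 * E.m0) b D N → chkM E U7 A3 c T b N = true → ∀ x : Pt, x.Nonneg →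
    ReachM T c x → ∀ u v s : ℝ,
    0 ≤ qf (val E D (lamt 0) x) (val E D (lamt 1) x) (val E D (lamt 2) x) (val E D (lamt 3) x)
      (val E D (lamt 4) x) (val E D (lamt 5) x) u v s := by
  intro T
  induction T with
  | lf gs =>
    intro b N D hD h x hx hr u v s
    simp only [ReachM] at hr
    subst hr
    exact chkLeafM_sound hE hD h x hx u v s
  | out i =>
    intro b N D hD h x hx hr u v s
    simp only [ReachM] at hr
    subst hr
    have e1 : Nat.beq (i + 1) (Nat.succ i) = true := by simp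
    simp only [chkM, e1] at h
    exact chkLeaf_sound hE hD h x hx u v s
  | nd vv α β l r ihl ihr =>
    intro b N D hD h x hx hr' u v s
    simp only [chkM, frc_eq, Bool.and_eq_true] at h
    obtain ⟨⟨⟨⟨hα, hβ⟩, hb⟩, hl⟩, hr⟩ := h
    have hb' : b < 2 ^ (E.w + 1) := by
      have := Nat.le_of_ble_eq_true hb
      rw [hE.W1] at this; exact this
    obtain ⟨DL, hDL, eL⟩ := stL_sound hE vv α β hD hb'
    obtain ⟨DR, hDR, eR⟩ := stR_sound hE vv α β hD hb'
    obtain ⟨a', b', ha', hb'', ⟨e1, e2, hR⟩ | ⟨e1, e2, hR⟩⟩ := hr'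
    · rw [reachM_hasM _ _ hR] at hl
      have y := ihl _ _ DL hDL hl (x.set vv a' b') (hx.set vv ha' hb'') hR u v s
      simp only [eL] at y
      rw [← e1, ← e2, Pt.set_self] at y
      exact y
    · rw [reachM_hasM _ _ hR] at hr
      have y := ihr _ _ DR hDR hr (x.set vv a' b') (hx.set vv ha' hb'') hR u v s
      simp only [eR] at y
      rw [← e1, ← e2, Pt.set_self] at y
      exact y
  | tr s' kb t ih =>
    intro b N D hD h x hx hr u v s
    have hm0 : 0 < E.m0 := by unfold Env.m0; positivity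
    cases c with
    | zero =>
      simp only [chkM, frc_eq, Bool.and_eq_true] at h
      obtain ⟨⟨⟨⟨hb, hs⟩, hk⟩, hb3⟩, hz, h⟩ := h
      have hb' : b < 2 ^ (E.w + 1) := by
        have := Nat.le_of_ble_eq_true hb
        rw [hE.W1] at this; exact this
      have hs' : s' ≤ E.w := Nat.le_of_ble_eq_true hs
      have hk' : kb ≤ E.w + 1 := Nat.le_of_ble_eq_true hk
      have hb3' : b >>> s' + 3 < 2 ^ (E.w + 1) := by
        have := Nat.le_of_ble_eq_true hb3
        rw [hE.W1] at this; exact this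
      have hrep := trN_rep hm0 hD hb' hs' hU hA
      have hlt := pk_top (fun p => (hrep.bd p).trans_lt hb3') (7 * E.m0) hk' (by
        have hz' : (trN (Nat.succ E.w) U7 A3 s' N) &&& (U7 * (E.W1 - 2 ^ kb)) = 0 :=
          Nat.eq_of_beq_eq_true hz
        rw [hrep.eq, hE.W1, hU, mul_comm (pk _ _ _), smul_ones] at hz'
        exact hz')
      have hrep' := hrep
      refine tr_val hx u v s (ih _ _ _ ⟨hrep.eq, hrep.supp, fun p => ?_⟩ h x hx hr u v s)
      rcases lt_or_ge p (7 * E.m0) with hp | hp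
      · exact Nat.le_sub_one_of_lt (hlt p hp)
      · rw [hrep.supp p hp]; exact Nat.zero_le _
    | succ c' =>
      simp only [chkM] at h
      exact ih _ _ D hD h x hx hr u v s

  | rb kb t ih =>
    intro b N D hD h x hx hr u v s
    cases c with
    | zero =>
      simp only [chkM, frc_eq, Bool.and_eq_true] at h
      obtain ⟨⟨⟨hb, hk⟩, hz⟩, h⟩ := h
      have hb' : b < 2 ^ (E.w + 1) := by
        have := Nat.le_of_ble_eq_true hb
        rw [hE.W1] at this; exact this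
      have hk' : kb ≤ E.w + 1 := Nat.le_of_ble_eq_true hk
      have hlt := pk_top (fun p => (hD.bd p).trans_lt hb') (7 * E.m0) hk' (by
        have hz' : N &&& (U7 * (E.W1 - 2 ^ kb)) = 0 := Nat.eq_of_beq_eq_true hz
        rw [hD.eq, hE.W1, hU, mul_comm (pk _ _ _), smul_ones] at hz'
        exact hz')
      refine ih _ _ D ⟨hD.eq, hD.supp, fun p => ?_⟩ h x hx hr u v s
      rcases lt_or_ge p (7 * E.m0) with hp | hp
      · exact Nat.le_sub_one_of_lt (hlt p hp)
      · rw [hD.supp p hp]; exact Nat.zero_le _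
    | succ c' =>
      simp only [chkM] at h
      exact ih _ _ D hD h x hx hr u v s

/-- the whole check -/
def runM (w n1 n2 n3 off : ℕ) (L1 L2 L3 : Lim) (c : ℕ) (T : TreeM) (bl : List P3) : Bool :=
  fits4 n1 n2 n3 off 6 bl &&
  withEnv w n1 n2 n3 fun E =>
    frc (Nat.mul (Nat.succ n1) (Nat.mul (Nat.succ n2) (Nat.succ n3))) fun m0 =>
    frc (Nat.div (Nat.sub (Nat.pow 2 (Nat.mul (Nat.succ w) m0)) 1)
      (Nat.sub (Nat.pow 2 (Nat.succ w)) 1)) fun U0 =>
    frc (Nat.div (Nat.sub (Nat.pow 2 (Nat.mul (Nat.succ w) (Nat.mul 7 m0))) 1)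
      (Nat.sub (Nat.pow 2 (Nat.succ w)) 1)) fun U7 =>
    frc (blocksN (Nat.mul (Nat.succ w) m0) U0 sl) fun A3 =>
    frc (build (Nat.succ w) n1 n2 n3 off bl) fun N0 =>
    frc (Nat.mul 2 off) fun b0 =>
    cutLo E 0 L1.lo b0 N0 fun b1 N1 => cutHi E 0 L1.hi b1 N1 fun b2 N2 =>
    cutLo E 1 L2.lo b2 N2 fun b3 N3 => cutHi E 1 L2.hi b3 N3 fun b4 N4 =>
    cutLo E 2 L3.lo b4 N4 fun b5 N5 => cutHi E 2 L3.hi b5 N5 fun b6 N6 =>
    chkM E U7 A3 c T b6 N6

theorem runM_sound {w n1 n2 n3 off : ℕ} {L1 L2 L3 : Lim} {c : ℕ} {T : TreeM}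
    {a b c' d e f : P3}
    (h : runM w n1 n2 n3 off L1 L2 L3 c T [a, b, c', d, e, f] = true) {x y z : ℝ}
    (hx : L1.In x) (hy : L2.In y) (hz : L3.In z) (hr : ReachM T c (pt0 L1 L2 L3 x y z))
    (u v s : ℝ) :
    0 ≤ qf (ev3 x y z a) (ev3 x y z b) (ev3 x y z c') (ev3 x y z d) (ev3 x y z e) (ev3 x y z f)
      u v s := by
  unfold runM at h
  rw [Bool.and_eq_true] at h
  obtain ⟨hf, h⟩ := h
  simp only [frc_eq] at h
  set U0 : ℕ := Nat.div (Nat.sub (Nat.pow 2 (Nat.mul (Nat.succ w)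
    (Nat.mul (Nat.succ n1) (Nat.mul (Nat.succ n2) (Nat.succ n3))))) 1)
      (Nat.sub (Nat.pow 2 (Nat.succ w)) 1) with hU0
  set U7 : ℕ := Nat.div (Nat.sub (Nat.pow 2 (Nat.mul (Nat.succ w)
    (Nat.mul 7 (Nat.mul (Nat.succ n1) (Nat.mul (Nat.succ n2) (Nat.succ n3)))))) 1)
      (Nat.sub (Nat.pow 2 (Nat.succ w)) 1) with hU7
  set A3 : ℕ := blocksN (Nat.mul (Nat.succ w)
    (Nat.mul (Nat.succ n1) (Nat.mul (Nat.succ n2) (Nat.succ n3)))) U0 sl with hA3
  obtain ⟨E, hE, e1, e2, e3, e4, he⟩ := withEnv_eq w n1 n2 n3 (fun E =>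
    cutLo E 0 L1.lo (Nat.mul 2 off) (build (Nat.succ w) n1 n2 n3 off [a, b, c', d, e, f])
      fun b1 N1 => cutHi E 0 L1.hi b1 N1 fun b2 N2 =>
    cutLo E 1 L2.lo b2 N2 fun b3 N3 => cutHi E 1 L2.hi b3 N3 fun b4 N4 =>
    cutLo E 2 L3.lo b4 N4 fun b5 N5 => cutHi E 2 L3.hi b5 N5 fun b6 N6 =>
    chkM E U7 A3 c T b6 N6)
  rw [he] at h
  subst e1 e2 e3 e4
  have hm0 : 0 < E.m0 := by unfold Env.m0; positivity
  have u0 : U0 = pk (E.w + 1) (fun _ => 1) E.m0 := by
    rw [hU0]; exact ones_eq (Nat.succ_pos _) _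
  have u7 : U7 = pk (E.w + 1) (fun _ => 1) (7 * E.m0) := by
    rw [hU7]; exact ones_eq (Nat.succ_pos _) _
  have a3 : A3 = pk (E.w + 1) (fun P => sl.getD (P / E.m0) 0) (7 * E.m0) := by
    rw [hA3, u0]; exact blocksN_eq hm0 sl
  set D : ℕ → ℕ := fun P => if P < 7 * E.m0 then
    digD E.n1 E.n2 E.n3 off [a, b, c', d, e, f] P else 0 with hDdef
  have hDe : ∀ P, P < 7 * E.m0 → D P = digD E.n1 E.n2 E.n3 off [a, b, c', d, e, f] P := by
    intro P hP; simp only [hDdef]; rw [if_pos hP]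
  have hq : ∀ t i j k, (cf [a, b, c', d, e, f] t i j k).natAbs ≤ off := fun t i j k =>
    (fits3_sound (fits4_sound hf t)).1 i j k
  have hD : Rep (E.w + 1) (7 * E.m0) (2 * off) D
      (build (Nat.succ E.w) E.n1 E.n2 E.n3 off [a, b, c', d, e, f]) := by
    refine ⟨?_, fun p hp => by simp only [hDdef]; rw [if_neg (by omega)], fun p => ?_⟩
    · rw [build_eq]
      exact pk_congr _ fun p hp => (hDe p hp).symm
    · simp only [hDdef]
      split_ifs
      · exact toD_le (hq _ _ _ _)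
      · exact Nat.zero_le _
  obtain ⟨D1, b1, N1, r1, k1, v1⟩ := cutLo_sound hE hD h
  obtain ⟨D2, b2, N2, r2, k2, v2⟩ := cutHi_sound hE r1 k1
  obtain ⟨D3, b3, N3, r3, k3, v3⟩ := cutLo_sound hE r2 k2
  obtain ⟨D4, b4, N4, r4, k4, v4⟩ := cutHi_sound hE r3 k3
  obtain ⟨D5, b5, N5, r5, k5, v5⟩ := cutLo_sound hE r4 k4
  obtain ⟨D6, b6, N6, r6, k6, v6⟩ := cutHi_sound hE r5 k5
  have hN : (pt0 L1 L2 L3 x y z).Nonneg := ⟨hx.1, hx.2, hy.1, hy.2, hz.1, hz.2⟩
  have key := chkM_sound hE u7 a3 T b6 N6 D6 r6 k6 _ hN hr u v s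
  have ev : ∀ lam, val E D6 lam (pt0 L1 L2 L3 x y z) = val E D lam ⟨x, 1, y, 1, z, 1⟩ := by
    intro lam
    have a6 := v6 ⟨(L1.co x).1, (L1.co x).2, (L2.co y).1, (L2.co y).2, z, 1⟩
      (cLo L3.lo (z, 1)).1 (cLo L3.lo (z, 1)).2 lam
    have a5 := v5 ⟨(L1.co x).1, (L1.co x).2, (L2.co y).1, (L2.co y).2, z, 1⟩ z 1 lam
    have a4 := v4 ⟨(L1.co x).1, (L1.co x).2, y, 1, z, 1⟩
      (cLo L2.lo (y, 1)).1 (cLo L2.lo (y, 1)).2 lam
    have a3 := v3 ⟨(L1.co x).1, (L1.co x).2, y, 1, z, 1⟩ y 1 lam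
    have a2 := v2 ⟨x, 1, y, 1, z, 1⟩ (cLo L1.lo (x, 1)).1 (cLo L1.lo (x, 1)).2 lam
    have a1 := v1 ⟨x, 1, y, 1, z, 1⟩ x 1 lam
    exact a6.trans (a5.trans (a4.trans (a3.trans (a2.trans a1))))
  simp only [ev] at key
  rw [val_build hf x y z (show 0 < 6 by norm_num) hDe,
    val_build hf x y z (show 1 < 6 by norm_num) hDe,
    val_build hf x y z (show 2 < 6 by norm_num) hDe,
    val_build hf x y z (show 3 < 6 by norm_num) hDe,
    val_build hf x y z (show 4 < 6 by norm_num) hDe,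
    val_build hf x y z (show 5 < 6 by norm_num) hDe] at key
  exact key

/-- main theorem with two kinds of excluded leaves: on a leaf `.out 0` the polynomial `g1` is
nonnegative, on a leaf `.out 1` the polynomial `g2`. -/
theorem psdM {w n1 n2 n3 off w' n1' n2' n3' off' w'' n1'' n2'' n3'' off'' : ℕ} {L1 L2 L3 : Lim}
    {T : TreeM} {a b c d e f g1 g2 : P3}
    (hT : okTM 2 T = true)
    (h : runM w n1 n2 n3 off L1 L2 L3 0 T [a, b, c, d, e, f] = true)
    (h1 : runM w' n1' n2' n3' off' L1 L2 L3 1 T [g1, [], [], [], [], []] = true)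
    (h2 : runM w'' n1'' n2'' n3'' off'' L1 L2 L3 2 T [g2, [], [], [], [], []] = true)
    {x y z : ℝ} (hx : L1.In x) (hy : L2.In y) (hz : L3.In z)
    (hg1 : ev3 x y z g1 < 0) (hg2 : ev3 x y z g2 < 0) (u v s : ℝ) :
    0 ≤ qf (ev3 x y z a) (ev3 x y z b) (ev3 x y z c) (ev3 x y z d) (ev3 x y z e) (ev3 x y z f)
      u v s := by
  have hN : (pt0 L1 L2 L3 x y z).Nonneg := ⟨hx.1, hx.2, hy.1, hy.2, hz.1, hz.2⟩
  obtain ⟨k, hk, hr⟩ := reachM_total T hT _ hN
  have : k = 0 ∨ k = 1 ∨ k = 2 := by omega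
  rcases this with rfl | rfl | rfl
  · exact runM_sound h hx hy hz hr u v s
  · have := runM_sound h1 hx hy hz hr 1 0 0
    simp [qf, ev3] at this
    linarith
  · have := runM_sound h2 hx hy hz hr 1 0 0
    simp [qf, ev3] at this
    linarith

/-- main theorem with one kind of excluded leaves. -/
theorem psdM1 {w n1 n2 n3 off w' n1' n2' n3' off' : ℕ} {L1 L2 L3 : Lim}
    {T : TreeM} {a b c d e f g1 : P3}
    (hT : okTM 1 T = true)
    (h : runM w n1 n2 n3 off L1 L2 L3 0 T [a, b, c, d, e, f] = true)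
    (h1 : runM w' n1' n2' n3' off' L1 L2 L3 1 T [g1, [], [], [], [], []] = true)
    {x y z : ℝ} (hx : L1.In x) (hy : L2.In y) (hz : L3.In z)
    (hg1 : ev3 x y z g1 < 0) (u v s : ℝ) :
    0 ≤ qf (ev3 x y z a) (ev3 x y z b) (ev3 x y z c) (ev3 x y z d) (ev3 x y z e) (ev3 x y z f)
      u v s := by
  have hN : (pt0 L1 L2 L3 x y z).Nonneg := ⟨hx.1, hx.2, hy.1, hy.2, hz.1, hz.2⟩
  obtain ⟨k, hk, hr⟩ := reachM_total T hT _ hN
  have : k = 0 ∨ k = 1 := by omega
  rcases this with rfl | rfl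
  · exact runM_sound h hx hy hz hr u v s
  · have := runM_sound h1 hx hy hz hr 1 0 0
    simp [qf, ev3] at this
    linarith

end Crest.Agent.R249.KerM638
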