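import Crest.Agent.R249.Ker12_254

/-!
# Kernel checker for polynomial inequalities: coefficientwise PSD leaves

`chkPsd E L b N`: every coefficient matrix of the packed number `N` (entries minus the offset
block) is positive semidefinite (all principal minors are nonnegative).  The packed blocks are
unpacked by bisection (`go`), `L` = list of `(h, w1 h, 2 ^ (w1 h) - 1)` for `h = 2^(k-1), .., 1`.
-/

set_option autoImplicit false

namespace Crest.Agent.R249.KerP627

open Crest.Agent.R249.Ker254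

/-- `|x - o|` -/
def dst (x o : ℕ) : ℕ := Nat.add (Nat.sub x o) (Nat.sub o x)

theorem dst_eq (x o : ℕ) : ((dst x o : ℕ) : ℤ) = |(x : ℤ) - o| := by
  show (((x - o) + (o - x) : ℕ) : ℤ) = _
  rcases le_total o x with h | h
  · rw [abs_of_nonneg (by omega)]; omega
  · rw [abs_of_nonpos (by omega)]; omega

/-- one matrix `[[a, b, c], [b, d, e], [c, e, f]] - o` is positive semidefinite -/
def psd1 (o a b c d e f : ℕ) : Bool :=
  Nat.ble o a && Nat.ble o d && Nat.ble o f &&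
  frc (Nat.sub a o) fun A => frc (Nat.sub d o) fun D => frc (Nat.sub f o) fun F =>
  frc (dst b o) fun B => frc (dst c o) fun C => frc (dst e o) fun E =>
  frc (Nat.mul B B) fun BB => frc (Nat.mul C C) fun CC => frc (Nat.mul E E) fun EE =>
  frc (Nat.mul A D) fun AD =>
  Nat.ble BB AD && Nat.ble CC (Nat.mul A F) && Nat.ble EE (Nat.mul D F) &&
  (frc (Nat.add (Nat.mul A EE) (Nat.add (Nat.mul D CC) (Nat.mul F BB))) fun S =>
   frc (Nat.mul (Nat.mul 2 B) (Nat.mul C E)) fun T =>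
   match xor (Nat.ble o b) (xor (Nat.ble o c) (Nat.ble o e)) with
   | true => Nat.ble S (Nat.add (Nat.mul AD F) T)
   | false => Nat.ble (Nat.add S T) (Nat.mul AD F))

/-! ### real lemmas -/

theorem q2_nonneg {P Q R : ℝ} (hP : 0 ≤ P) (hQ : 0 ≤ Q) (h : R ^ 2 ≤ P * Q) (v s : ℝ) :
    0 ≤ P * v ^ 2 + 2 * R * v * s + Q * s ^ 2 := by
  rcases hP.eq_or_lt with h0 | h0
  · rw [← h0] at h ⊢
    have : R = 0 := by nlinarith [sq_nonneg R]
    rw [this]; nlinarith [mul_nonneg hQ (sq_nonneg s)]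
  · have h1 : 0 ≤ P * (P * v ^ 2 + 2 * R * v * s + Q * s ^ 2) := by
      have : P * (P * v ^ 2 + 2 * R * v * s + Q * s ^ 2)
          = (P * v + R * s) ^ 2 + (P * Q - R ^ 2) * s ^ 2 := by ring
      rw [this]
      have := mul_nonneg (sub_nonneg.2 h) (sq_nonneg s)
      nlinarith [sq_nonneg (P * v + R * s)]
    exact nonneg_of_mul_nonneg_right h1 h0

theorem qf_nonneg {a b c d e f : ℝ} (ha : 0 ≤ a) (hd : 0 ≤ d) (hf : 0 ≤ f)
    (h1 : b ^ 2 ≤ a * d) (h2 : c ^ 2 ≤ a * f) (h3 : e ^ 2 ≤ d * f)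
    (h4 : a * e ^ 2 + d * c ^ 2 + f * b ^ 2 ≤ a * d * f + 2 * b * c * e) (u v s : ℝ) :
    0 ≤ qf a b c d e f u v s := by
  unfold qf
  rcases ha.eq_or_lt with h0 | h0
  · rw [← h0] at h1 h2 ⊢
    have hb : b = 0 := by nlinarith [sq_nonneg b]
    have hc : c = 0 := by nlinarith [sq_nonneg c]
    rw [hb, hc]
    have := q2_nonneg hd hf h3 v s
    nlinarith
  · have k := q2_nonneg (P := a * d - b ^ 2) (Q := a * f - c ^ 2) (R := a * e - b * c)
      (sub_nonneg.2 h1) (sub_nonneg.2 h2) (by nlinarith) v s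
    have h5 : 0 ≤ a * (a * u ^ 2 + 2 * b * u * v + 2 * c * u * s + d * v ^ 2 + 2 * e * v * s
        + f * s ^ 2) := by
      have : a * (a * u ^ 2 + 2 * b * u * v + 2 * c * u * s + d * v ^ 2 + 2 * e * v * s
          + f * s ^ 2) = (a * u + b * v + c * s) ^ 2 + ((a * d - b ^ 2) * v ^ 2
          + 2 * (a * e - b * c) * v * s + (a * f - c ^ 2) * s ^ 2) := by ring
      rw [this]
      nlinarith [sq_nonneg (a * u + b * v + c * s)]
    exact nonneg_of_mul_nonneg_right h5 h0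

theorem psd1_sound {o a b c d e f : ℕ} (h : psd1 o a b c d e f = true) (u v s : ℝ) :
    0 ≤ qf (((a : ℤ) - o : ℤ) : ℝ) (((b : ℤ) - o : ℤ) : ℝ) (((c : ℤ) - o : ℤ) : ℝ)
      (((d : ℤ) - o : ℤ) : ℝ) (((e : ℤ) - o : ℤ) : ℝ) (((f : ℤ) - o : ℤ) : ℝ) u v s := by
  unfold psd1 at h
  simp only [frc_eq, Bool.and_eq_true] at h
  obtain ⟨⟨⟨ha, hd⟩, hf⟩, ⟨⟨h1, h2⟩, h3⟩, h4⟩ := h
  have ha := Nat.le_of_ble_eq_true ha
  have hd := Nat.le_of_ble_eq_true hd
  have hf := Nat.le_of_ble_eq_true hf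
  have h1 := Nat.le_of_ble_eq_true h1
  have h2 := Nat.le_of_ble_eq_true h2
  have h3 := Nat.le_of_ble_eq_true h3
  -- integers
  have eA : ((Nat.sub a o : ℕ) : ℤ) = (a : ℤ) - o := by show ((a - o : ℕ) : ℤ) = _; omega
  have eD : ((Nat.sub d o : ℕ) : ℤ) = (d : ℤ) - o := by show ((d - o : ℕ) : ℤ) = _; omega
  have eF : ((Nat.sub f o : ℕ) : ℤ) = (f : ℤ) - o := by show ((f - o : ℕ) : ℤ) = _; omega
  have eB := dst_eq b o
  have eC := dst_eq c o
  have eE := dst_eq e o
  generalize Nat.sub a o = A at *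
  generalize Nat.sub d o = D at *
  generalize Nat.sub f o = F at *
  have k1 : ((b : ℤ) - o) ^ 2 ≤ ((a : ℤ) - o) * ((d : ℤ) - o) := by
    rw [← eA, ← eD, ← sq_abs, ← eB, sq]; exact_mod_cast h1
  have k2 : ((c : ℤ) - o) ^ 2 ≤ ((a : ℤ) - o) * ((f : ℤ) - o) := by
    rw [← eA, ← eF, ← sq_abs, ← eC, sq]; exact_mod_cast h2
  have k3 : ((e : ℤ) - o) ^ 2 ≤ ((d : ℤ) - o) * ((f : ℤ) - o) := by
    rw [← eD, ← eF, ← sq_abs, ← eE, sq]; exact_mod_cast h3
  have k4 : ((a : ℤ) - o) * ((e : ℤ) - o) ^ 2 + ((d : ℤ) - o) * ((c : ℤ) - o) ^ 2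
      + ((f : ℤ) - o) * ((b : ℤ) - o) ^ 2 ≤ ((a : ℤ) - o) * ((d : ℤ) - o) * ((f : ℤ) - o)
      + 2 * ((b : ℤ) - o) * ((c : ℤ) - o) * ((e : ℤ) - o) := by
    have hS : ((a : ℤ) - o) * ((e : ℤ) - o) ^ 2 + ((d : ℤ) - o) * ((c : ℤ) - o) ^ 2
      + ((f : ℤ) - o) * ((b : ℤ) - o) ^ 2 = ((Nat.add (Nat.mul A (Nat.mul (dst e o) (dst e o)))
        (Nat.add (Nat.mul D (Nat.mul (dst c o) (dst c o)))
          (Nat.mul F (Nat.mul (dst b o) (dst b o)))) : ℕ) : ℤ) := by
      show _ = ((A * (dst e o * dst e o) + (D * (dst c o * dst c o) + F * (dst b o * dst b o)) : ℕ) : ℤ)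
      push_cast
      rw [eA, eD, eF, eB, eC, eE, abs_mul_abs_self, abs_mul_abs_self, abs_mul_abs_self]
      ring
    have hT : ((Nat.mul (Nat.mul 2 (dst b o)) (Nat.mul (dst c o) (dst e o)) : ℕ) : ℤ)
        = |2 * ((b : ℤ) - o) * ((c : ℤ) - o) * ((e : ℤ) - o)| := by
      show ((2 * dst b o * (dst c o * dst e o) : ℕ) : ℤ) = _
      push_cast
      rw [eB, eC, eE, abs_mul, abs_mul, abs_mul, abs_two]
      ring
    have hADF : ((Nat.mul (Nat.mul A D) F : ℕ) : ℤ)
        = ((a : ℤ) - o) * ((d : ℤ) - o) * ((f : ℤ) - o) := by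
      show ((A * D * F : ℕ) : ℤ) = _
      push_cast
      rw [eA, eD, eF]
    rw [hS, ← hADF]
    cases hx : xor (Nat.ble o b) (xor (Nat.ble o c) (Nat.ble o e)) with
    | true =>
      rw [hx] at h4
      have h5 := Nat.le_of_ble_eq_true h4
      have h6 : 0 ≤ 2 * ((b : ℤ) - o) * ((c : ℤ) - o) * ((e : ℤ) - o) := by
        cases hb : Nat.ble o b <;> cases hc : Nat.ble o c <;> cases he : Nat.ble o e <;>
          rw [hb, hc, he] at hx <;> simp at hx
        · have e1 : ¬ o ≤ b := fun h => by rw [Nat.ble_eq_true_of_le h] at hb; simp at hb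
          have e2 : ¬ o ≤ c := fun h => by rw [Nat.ble_eq_true_of_le h] at hc; simp at hc
          have e3 := Nat.le_of_ble_eq_true he
          have : 0 ≤ ((o : ℤ) - b) * ((o : ℤ) - c) * ((e : ℤ) - o) :=
            mul_nonneg (mul_nonneg (by omega) (by omega)) (by omega)
          nlinarith
        · have e1 : ¬ o ≤ b := fun h => by rw [Nat.ble_eq_true_of_le h] at hb; simp at hb
          have e2 := Nat.le_of_ble_eq_true hc
          have e3 : ¬ o ≤ e := fun h => by rw [Nat.ble_eq_true_of_le h] at he; simp at he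
          have : 0 ≤ ((o : ℤ) - b) * ((c : ℤ) - o) * ((o : ℤ) - e) :=
            mul_nonneg (mul_nonneg (by omega) (by omega)) (by omega)
          nlinarith
        · have e1 := Nat.le_of_ble_eq_true hb
          have e2 : ¬ o ≤ c := fun h => by rw [Nat.ble_eq_true_of_le h] at hc; simp at hc
          have e3 : ¬ o ≤ e := fun h => by rw [Nat.ble_eq_true_of_le h] at he; simp at he
          have : 0 ≤ ((b : ℤ) - o) * ((o : ℤ) - c) * ((o : ℤ) - e) :=
            mul_nonneg (mul_nonneg (by omega) (by omega)) (by omega)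
          nlinarith
        · have e1 := Nat.le_of_ble_eq_true hb
          have e2 := Nat.le_of_ble_eq_true hc
          have e3 := Nat.le_of_ble_eq_true he
          have : 0 ≤ ((b : ℤ) - o) * ((c : ℤ) - o) * ((e : ℤ) - o) :=
            mul_nonneg (mul_nonneg (by omega) (by omega)) (by omega)
          nlinarith
      rw [abs_of_nonneg h6] at hT
      rw [← hT]
      exact_mod_cast h5
    | false =>
      rw [hx] at h4
      have h5 := Nat.le_of_ble_eq_true h4
      have h7 : ((Nat.add (Nat.mul A (Nat.mul (dst e o) (dst e o)))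
        (Nat.add (Nat.mul D (Nat.mul (dst c o) (dst c o)))
          (Nat.mul F (Nat.mul (dst b o) (dst b o)))) : ℕ) : ℤ)
          + ((Nat.mul (Nat.mul 2 (dst b o)) (Nat.mul (dst c o) (dst e o)) : ℕ) : ℤ)
          ≤ ((Nat.mul (Nat.mul A D) F : ℕ) : ℤ) := by exact_mod_cast h5
      rw [hT] at h7
      have h8 := neg_abs_le (2 * ((b : ℤ) - o) * ((c : ℤ) - o) * ((e : ℤ) - o))
      linarith
  have q0 : (0 : ℤ) ≤ (a : ℤ) - o := by omega
  have q1 : (0 : ℤ) ≤ (d : ℤ) - o := by omega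
  have q2 : (0 : ℤ) ≤ (f : ℤ) - o := by omega
  exact qf_nonneg (by exact_mod_cast q0) (by exact_mod_cast q1) (by exact_mod_cast q2)
    (by exact_mod_cast k1) (by exact_mod_cast k2) (by exact_mod_cast k3) (by exact_mod_cast k4) u v s

/-! ### unpacking by bisection -/

/-- the list of shifts and masks -/
def withSh {α : Type} (w1 : ℕ) : ℕ → (List (ℕ × ℕ × ℕ) → α) → α
  | 0, k => k []
  | d + 1, k => withSh w1 d fun l => frc (Nat.pow 2 d) fun h => frc (Nat.mul w1 h) fun sh =>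
      frc (Nat.sub (Nat.pow 2 sh) 1) fun M => k ((h, sh, M) :: l)

/-- the same list, for proofs -/
def shl (w1 : ℕ) : ℕ → List (ℕ × ℕ × ℕ)
  | 0 => []
  | d + 1 => (2 ^ d, w1 * 2 ^ d, 2 ^ (w1 * 2 ^ d) - 1) :: shl w1 d

theorem withSh_eq {α : Type} (w1 : ℕ) : ∀ (d : ℕ) (k : List (ℕ × ℕ × ℕ) → α),
    withSh w1 d k = k (shl w1 d) := by
  intro d
  induction d with
  | zero => intro k; rfl
  | succ d ih =>
    intro k
    simp only [withSh, frc_eq, ih, shl]
    rfl

def go : List (ℕ × ℕ × ℕ) → ℕ → ℕ → ℕ → ℕ → ℕ → ℕ → ℕ → ℕ → Bool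
  | [], n, o, a, b, c, d, e, f =>
    match n with
    | 0 => true
    | _ + 1 => psd1 o a b c d e f
  | (h, sh, M) :: L, n, o, a, b, c, d, e, f =>
    match Nat.ble n h with
    | true => go L n o a b c d e f
    | false =>
      (frc (Nat.land o M) fun o' => frc (Nat.land a M) fun a' => frc (Nat.land b M) fun b' =>
       frc (Nat.land c M) fun c' => frc (Nat.land d M) fun d' => frc (Nat.land e M) fun e' =>
       frc (Nat.land f M) fun f' => go L h o' a' b' c' d' e' f') &&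
      (frc (Nat.shiftRight o sh) fun o' => frc (Nat.shiftRight a sh) fun a' =>
       frc (Nat.shiftRight b sh) fun b' => frc (Nat.shiftRight c sh) fun c' =>
       frc (Nat.shiftRight d sh) fun d' => frc (Nat.shiftRight e sh) fun e' =>
       frc (Nat.shiftRight f sh) fun f' => frc (Nat.sub n h) fun n' =>
       go L n' o' a' b' c' d' e' f')

theorem pk_low {w : ℕ} {D : ℕ → ℕ} (hD : ∀ p, D p < 2 ^ w) {n h : ℕ} (hn : h ≤ n) :
    Nat.land (pk w D n) (2 ^ (w * h) - 1) = pk w D h := by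
  show pk w D n &&& (2 ^ (w * h) - 1) = _
  obtain ⟨m, rfl⟩ := Nat.exists_eq_add_of_le hn
  rw [Nat.and_two_pow_sub_one_eq_mod, pk_append, Nat.add_mul_mod_self_left,
    Nat.mod_eq_of_lt (pk_lt _ _ fun p _ => hD p)]

theorem pk_high {w : ℕ} {D : ℕ → ℕ} (hD : ∀ p, D p < 2 ^ w) {n h : ℕ} (hn : h ≤ n) :
    Nat.shiftRight (pk w D n) (w * h) = pk w (fun p => D (h + p)) (n - h) := by
  show pk w D n >>> (w * h) = _
  obtain ⟨m, rfl⟩ := Nat.exists_eq_add_of_le hn
  rw [Nat.shiftRight_eq_div_pow, pk_append, Nat.add_mul_div_left _ _ (by positivity),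
    Nat.div_eq_of_lt (pk_lt _ _ fun p _ => hD p), zero_add, Nat.add_sub_cancel_left]

theorem go_sound {w : ℕ} : ∀ (k n : ℕ) (O A B C D E F : ℕ → ℕ), n ≤ 2 ^ k →
    (∀ p, O p < 2 ^ w) → (∀ p, A p < 2 ^ w) → (∀ p, B p < 2 ^ w) → (∀ p, C p < 2 ^ w) →
    (∀ p, D p < 2 ^ w) → (∀ p, E p < 2 ^ w) → (∀ p, F p < 2 ^ w) →
    go (shl w k) n (pk w O n) (pk w A n) (pk w B n) (pk w C n) (pk w D n) (pk w E n) (pk w F n)
      = true → ∀ p, p < n → psd1 (O p) (A p) (B p) (C p) (D p) (E p) (F p) = true := by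
  intro k
  induction k with
  | zero =>
    intro n O A B C D E F hn hO hA hB hC hD hE hF h p hp
    have : n = 1 := by simp at hn; omega
    subst this
    have : p = 0 := by omega
    subst this
    simpa [shl, go, pk] using h
  | succ k ih =>
    intro n O A B C D E F hn hO hA hB hC hD hE hF h p hp
    simp only [shl, go] at h
    cases hc : Nat.ble n (2 ^ k) with
    | true =>
      rw [hc] at h
      exact ih n O A B C D E F (Nat.le_of_ble_eq_true hc) hO hA hB hC hD hE hF h p hp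
    | false =>
      rw [hc] at h
      have hlt : 2 ^ k ≤ n := by
        by_contra hcon
        rw [Nat.ble_eq_true_of_le (by omega)] at hc
        simp at hc
      simp only [frc_eq, Bool.and_eq_true] at h
      rw [pk_low hO hlt, pk_low hA hlt, pk_low hB hlt, pk_low hC hlt, pk_low hD hlt, pk_low hE hlt,
        pk_low hF hlt, pk_high hO hlt, pk_high hA hlt, pk_high hB hlt, pk_high hC hlt,
        pk_high hD hlt, pk_high hE hlt, pk_high hF hlt] at h
      obtain ⟨hl, hr⟩ := h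
      rcases lt_or_ge p (2 ^ k) with hp' | hp'
      · exact ih _ O A B C D E F le_rfl hO hA hB hC hD hE hF hl p hp'
      · have e2 : Nat.sub n (2 ^ k) = n - 2 ^ k := rfl
        rw [e2] at hr
        have := ih (n - 2 ^ k) (fun p => O (2 ^ k + p)) (fun p => A (2 ^ k + p))
          (fun p => B (2 ^ k + p)) (fun p => C (2 ^ k + p)) (fun p => D (2 ^ k + p))
          (fun p => E (2 ^ k + p)) (fun p => F (2 ^ k + p)) (by rw [pow_succ] at hn; omega)
          (fun p => hO _) (fun p => hA _) (fun p => hB _) (fun p => hC _) (fun p => hD _)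
          (fun p => hE _) (fun p => hF _) hr (p - 2 ^ k) (by omega)
        simpa [Nat.add_sub_cancel' hp'] using this

/-! ### the leaf check -/

/-- all coefficient matrices are positive semidefinite; `L = shl (w + 1) k`, `m0 ≤ 2 ^ k` -/
def chkPsd (E : Env) (L : List (ℕ × ℕ × ℕ)) (b N : ℕ) : Bool :=
  Nat.ble (Nat.succ b) E.W1 &&
  (frc (Nat.mul (Nat.succ E.n1) (Nat.mul (Nat.succ E.n2) (Nat.succ E.n3))) fun m0 =>
   frc (blk E.Sb E.Mb N 6) fun o =>
   frc (blk E.Sb E.Mb N 0) fun x0 => frc (blk E.Sb E.Mb N 1) fun x1 =>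
   frc (blk E.Sb E.Mb N 2) fun x2 => frc (blk E.Sb E.Mb N 3) fun x3 =>
   frc (blk E.Sb E.Mb N 4) fun x4 => frc (blk E.Sb E.Mb N 5) fun x5 =>
   go L m0 o x0 x1 x2 x3 x4 x5)

theorem chkPsd_sound {E : Env} (hE : E.Ok) {k b N : ℕ} {D : ℕ → ℕ} (hk : E.m0 ≤ 2 ^ k)
    (hD : Rep (E.w + 1) (7 * E.m0) b D N)
    (h : chkPsd E (shl (E.w + 1) k) b N = true) (x : Pt) (hx : x.Nonneg) (u v s : ℝ) :
    0 ≤ qf (val E D (lamt 0) x) (val E D (lamt 1) x) (val E D (lamt 2) x) (val E D (lamt 3) x)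
      (val E D (lamt 4) x) (val E D (lamt 5) x) u v s := by
  unfold chkPsd at h
  simp only [frc_eq, Bool.and_eq_true] at h
  obtain ⟨hb, h⟩ := h
  have hb' : b < 2 ^ (E.w + 1) := by
    have := Nat.le_of_ble_eq_true hb
    rw [hE.W1] at this; exact this
  have r : ∀ t, Rep (E.w + 1) E.m0 b (fun p => if p < E.m0 then D (t * E.m0 + p) else 0)
      (blk E.Sb E.Mb N t) := fun t => blk_rep hE hD hb'
  have lt : ∀ t p, (if p < E.m0 then D (t * E.m0 + p) else 0) < 2 ^ (E.w + 1) := fun t p =>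
    ((r t).bd p).trans_lt hb'
  have e0 : Nat.mul (Nat.succ E.n1) (Nat.mul (Nat.succ E.n2) (Nat.succ E.n3)) = E.m0 := rfl
  rw [e0, (r 0).eq, (r 1).eq, (r 2).eq, (r 3).eq, (r 4).eq, (r 5).eq, (r 6).eq] at h
  have key := go_sound k E.m0 _ _ _ _ _ _ _ hk (lt 6) (lt 0) (lt 1) (lt 2) (lt 3) (lt 4) (lt 5) h
  rw [val_lamt E D x (show 0 < 6 by norm_num), val_lamt E D x (show 1 < 6 by norm_num),
    val_lamt E D x (show 2 < 6 by norm_num), val_lamt E D x (show 3 < 6 by norm_num),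
    val_lamt E D x (show 4 < 6 by norm_num), val_lamt E D x (show 5 < 6 by norm_num)]
  unfold qf
  simp only [Finset.sum_mul, Finset.mul_sum, ← Finset.sum_add_distrib]
  refine Finset.sum_nonneg fun p hp => ?_
  have h0 := psd1_sound (key p (Finset.mem_range.1 hp)) u v s
  have h1 := mul_nonneg (mon_nonneg (n1 := E.n1) (n2 := E.n2) (n3 := E.n3) hx p) h0
  unfold qf at h1
  refine le_of_le_of_eq h1 ?_
  ring

end Crest.Agent.R249.KerP627
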