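import Crest.Agent.R249.Ker12_254

/-!
# Kernel checker for polynomial inequalities: truncation of the digits

Bits of packed numbers; dropping the low `s` bits of every digit.
-/

set_option autoImplicit false

namespace Crest.Agent.R249.KerT368

open Crest.Agent.R249.Ker254

theorem testBit_pk {w : ℕ} (hw : 0 < w) {D : ℕ → ℕ} (h : ∀ p, D p < 2 ^ w) (m i : ℕ) :
    (pk w D m).testBit i = (decide (i / w < m) && (D (i / w)).testBit (i % w)) := by
  induction m with
  | zero => simp [pk_zero]
  | succ m ih =>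
    have hlt := pk_lt w m fun p _ => h p
    rw [pk_succ, add_comm, mul_comm, Nat.testBit_two_pow_mul_add _ hlt]
    split_ifs with hc
    · rw [ih]
      have h1 : i / w < m := by rw [Nat.div_lt_iff_lt_mul hw, mul_comm]; exact hc
      simp [h1, Nat.lt_succ_of_lt h1]
    · have h1 : m ≤ i / w := by
        rw [Nat.le_div_iff_mul_le hw, mul_comm]; omega
      rcases Nat.lt_or_ge m (i / w) with h2 | h2
      · have h3 : ¬ i / w < m + 1 := by omega
        have h4 : w ≤ i - w * m := by
          have h5 : (m + 1) * w ≤ i := (Nat.le_div_iff_mul_le hw).1 h2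
          have h6 : (m + 1) * w = w * m + w := by ring
          omega
        have h7 : D m < 2 ^ (i - w * m) := lt_of_lt_of_le (h m) (Nat.pow_le_pow_right (by norm_num) h4)
        rw [Nat.testBit_lt_two_pow h7]
        simp [h3]
      · have h3 : i / w = m := le_antisymm h2 h1
        have h4 : i - w * m = i % w := by
          rw [← h3]
          have := Nat.div_add_mod i w
          omega
        rw [h3, h4]; simp

/-- digitwise truncation -/
theorem pk_trunc {w : ℕ} {D : ℕ → ℕ} (h : ∀ p, D p < 2 ^ w) (m : ℕ) {s : ℕ} (hs : s < w) :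
    (pk w D m) >>> s &&& pk w (fun _ => 2 ^ (w - s) - 1) m = pk w (fun p => D p / 2 ^ s) m := by
  have hw : 0 < w := by omega
  have p1 : 2 ^ (w - s) ≤ 2 ^ w := Nat.pow_le_pow_right (by norm_num) (by omega)
  have p2 : 0 < 2 ^ (w - s) := by positivity
  apply Nat.eq_of_testBit_eq
  intro i
  rw [Nat.testBit_and, Nat.testBit_shiftRight, testBit_pk hw h, testBit_pk hw (fun _ => by omega),
    testBit_pk hw (fun p => (Nat.div_le_self _ _).trans_lt (h p)), Nat.testBit_two_pow_sub_one]
  have hr : i % w < w := Nat.mod_lt _ hw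
  by_cases hc : i % w < w - s
  · have e : s + i = w * (i / w) + (s + i % w) := by
      have := Nat.div_add_mod i w
      omega
    have hlt : s + i % w < w := by omega
    have e1 : (s + i) / w = i / w := by
      rw [e, Nat.mul_add_div hw, Nat.div_eq_of_lt hlt, add_zero]
    have e2 : (s + i) % w = s + i % w := by
      rw [e, Nat.mul_add_mod, Nat.mod_eq_of_lt hlt]
    rw [e1, e2, Nat.testBit_div_two_pow]
    by_cases hq : i / w < m <;> simp [hq, hc, add_comm]
  · have h2 : D (i / w) / 2 ^ s < 2 ^ (i % w) := by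
      have h3 : D (i / w) / 2 ^ s < 2 ^ (w - s) := by
        rw [Nat.div_lt_iff_lt_mul (by positivity), ← pow_add, Nat.sub_add_cancel hs.le]
        exact h _
      exact lt_of_lt_of_le h3 (Nat.pow_le_pow_right (by norm_num) (by omega))
    rw [Nat.testBit_lt_two_pow h2]
    simp [hc]

/-- all digits equal to one -/
theorem ones_eq {w : ℕ} (hw : 0 < w) (m : ℕ) :
    (2 ^ (w * m) - 1) / (2 ^ w - 1) = pk w (fun _ => 1) m := by
  have h1 : (2 ^ w - 1) * pk w (fun _ => 1) m = 2 ^ (w * m) - 1 := by
    rw [pk_smul, ← pk_full]; simp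
  have h2 : 0 < 2 ^ w - 1 := by
    have : 2 ^ 1 ≤ 2 ^ w := Nat.pow_le_pow_right (by norm_num) hw
    omega
  rw [← h1, Nat.mul_div_cancel_left _ h2]

/-- one digit value per block -/
def blocksN (Sb U : ℕ) : List ℕ → ℕ
  | [] => 0
  | c :: cs => Nat.add (Nat.mul c U) (Nat.shiftLeft (blocksN Sb U cs) Sb)

theorem blocksN_eq {w m : ℕ} (hm : 0 < m) (l : List ℕ) :
    blocksN (w * m) (pk w (fun _ => 1) m) l = pk w (fun P => l.getD (P / m) 0) (l.length * m) := by
  induction l with
  | nil => simp [blocksN, pk_zero]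
  | cons c cs ih =>
    have e1 : (c :: cs).length * m = m + cs.length * m := by
      rw [List.length_cons]; ring
    rw [e1, pk_append]
    show c * pk w (fun _ => 1) m + (blocksN (w * m) (pk w (fun _ => 1) m) cs) <<< (w * m) = _
    rw [ih, pk_smul, Nat.shiftLeft_eq, mul_comm _ (2 ^ (w * m))]
    congr 1
    · apply pk_congr
      intro p hp
      rw [Nat.div_eq_of_lt hp]; simp
    · congr 1
      apply pk_congr
      intro p _
      rw [show m + p = p + m * 1 by ring, Nat.add_mul_div_left _ _ hm]
      rfl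

/-- the common packed number `c` in every digit -/
theorem smul_ones (w c m : ℕ) : c * pk w (fun _ => 1) m = pk w (fun _ => c) m := by
  rw [pk_smul]; simp

/-- bound of the digits by one mask -/
theorem pk_top {w : ℕ} {D : ℕ → ℕ} (h : ∀ p, D p < 2 ^ w) (m : ℕ) {kb : ℕ} (hk : kb ≤ w)
    (hz : pk w D m &&& pk w (fun _ => 2 ^ w - 2 ^ kb) m = 0) : ∀ p, p < m → D p < 2 ^ kb := by
  have h0 : 0 < 2 ^ kb := by positivity
  rw [pk_land w m h (fun _ => Nat.sub_lt (by positivity) h0)] at hz
  have hz' : pk w (fun p => D p &&& (2 ^ w - 2 ^ kb)) m = pk w (fun _ => 0) m := by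
    rw [hz]; simp [pk]
  intro p hp
  have e := pk_inj w m (fun p => lt_of_le_of_lt Nat.and_le_left (h p)) (fun _ => by positivity) hz' p hp
  by_contra hcon
  have hcon' : 2 ^ kb ≤ D p := by omega
  obtain ⟨i, hi1, hi2⟩ := Nat.exists_ge_and_testBit_of_ge_two_pow hcon'
  have hi3 : i < w := by
    by_contra hc
    have := Nat.testBit_lt_two_pow ((h p).trans_le (Nat.pow_le_pow_right (n := 2) (by norm_num)
      (show w ≤ i by omega)))
    rw [this] at hi2
    exact absurd hi2 (by simp)
  have e2 : 2 ^ w - 2 ^ kb = 2 ^ kb * (2 ^ (w - kb) - 1) := by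
    rw [Nat.mul_sub, ← pow_add, mul_one, Nat.add_sub_cancel' hk]
  have e3 : (D p &&& (2 ^ w - 2 ^ kb)).testBit i = true := by
    rw [Nat.testBit_and, hi2, e2, Nat.testBit_two_pow_mul, Nat.testBit_two_pow_sub_one]
    simp; omega
  rw [e] at e3
  simp at e3

end Crest.Agent.R249.KerT368
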