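import Crest.Agent.R249.KerT1_368

/-!
# Kernel checker for polynomial inequalities: `psdT` = `psdX` with truncation nodes

`tr s kb T`: the low `s` bits of every digit are dropped (after adding a safety term to the common
offset and to the off-diagonal blocks, so that the truncated form is smaller), and all the new
digits are checked to be `< 2 ^ kb` (by one mask).  In the modes `c ≥ 1`
(scalar checks) these nodes are ignored.
-/

set_option autoImplicit false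

namespace Crest.Agent.R249.KerT368

open Crest.Agent.R249.Ker254

inductive TreeT
  | lf (g11 g12 g22 g13 g23 g33 : ℤ)
  | out (i : ℕ)
  | nd (v α β : ℕ) (l r : TreeT)
  | tr (s kb : ℕ) (t : TreeT)

def okTT (n : ℕ) : TreeT → Bool
  | .lf _ _ _ _ _ _ => true
  | .out i => Nat.ble (Nat.succ i) n
  | .nd _ α β l r => Nat.ble 1 α && Nat.ble 1 β && okTT n l && okTT n r
  | .tr _ _ t => okTT n t

/-- the subtree has a leaf of kind `c` -/
def hasTT (c : ℕ) : TreeT → Bool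
  | .lf _ _ _ _ _ _ => Nat.beq c 0
  | .out i => Nat.beq c (Nat.succ i)
  | .nd _ _ _ l r => hasTT c l || hasTT c r
  | .tr _ _ t => hasTT c t

/-- the truncated number; `U7` = all digits one, `A3` = the safety term -/
def trN (w1 U7 A3 s N : ℕ) : ℕ :=
  Nat.add (Nat.land (Nat.shiftRight N s) (Nat.mul U7 (Nat.sub (Nat.pow 2 (Nat.sub w1 s)) 1))) A3

def chkT (E : Env) (U7 A3 : ℕ) (c : ℕ) : TreeT → ℕ → ℕ → Bool
  | .lf g11 g12 g22 g13 g23 g33, b, N =>
    match c with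
    | 0 => chkLeaf E g11 g12 g22 g13 g23 g33 b N
    | _ + 1 => true
  | .out i, b, N =>
    match Nat.beq c (Nat.succ i) with
    | true => chkLeaf E 1 0 1 0 0 1 b N
    | false => true
  | .nd v α β l r, b, N =>
    Nat.ble 1 α && Nat.ble 1 β && Nat.ble (Nat.succ b) E.W1 &&
    (match hasTT c l with
      | true => (frc (bdL E v α β b) fun bL => frc (stL E v α β N) fun NL => chkT E U7 A3 c l bL NL)
      | false => true) &&
    (match hasTT c r with
      | true => (frc (bdL E v β α b) fun bR => frc (stR E v α β N) fun NR => chkT E U7 A3 c r bR NR)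
      | false => true)
  | .tr s kb t, b, N =>
    match c with
    | 0 => Nat.ble (Nat.succ b) E.W1 && Nat.ble s E.w && Nat.ble kb (Nat.succ E.w) &&
        Nat.ble (Nat.succ (Nat.add (Nat.shiftRight b s) 3)) E.W1 &&
        (frc (trN (Nat.succ E.w) U7 A3 s N) fun N' =>
          Nat.beq (Nat.land N' (Nat.mul U7 (Nat.sub E.W1 (Nat.pow 2 kb)))) 0 &&
          (frc (Nat.sub (Nat.pow 2 kb) 1) fun b' => chkT E U7 A3 0 t b' N'))
    | c' + 1 => chkT E U7 A3 (c' + 1) t b N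

/-- the point `x` reaches a leaf of kind `c` -/
def ReachT : TreeT → ℕ → Pt → Prop
  | .lf _ _ _ _ _ _, c, _ => c = 0
  | .out i, c, _ => c = i + 1
  | .nd v α β l r, c, x => ∃ a b : ℝ, 0 ≤ a ∧ 0 ≤ b ∧
      ((x.ga v = α * a ∧ x.gb v = β * (a + b) ∧ ReachT l c (x.set v a b)) ∨
       (x.ga v = α * (a + b) ∧ x.gb v = β * b ∧ ReachT r c (x.set v a b)))
  | .tr _ _ t, c, x => ReachT t c x

theorem reachT_total {n : ℕ} : ∀ (T : TreeT), okTT n T = true → ∀ x : Pt, x.Nonneg →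
    ∃ c, c ≤ n ∧ ReachT T c x := by
  intro T
  induction T with
  | lf g11 g12 g22 g13 g23 g33 => intro _ x _; exact ⟨0, Nat.zero_le _, rfl⟩
  | out i =>
    intro h x _
    exact ⟨i + 1, Nat.le_of_ble_eq_true h, rfl⟩
  | nd vv α β l r ihl ihr =>
    intro h x hx
    simp only [okTT, Bool.and_eq_true] at h
    obtain ⟨⟨⟨hα, hβ⟩, hl⟩, hr⟩ := h
    have hα' : (0 : ℝ) < α := by exact_mod_cast Nat.le_of_ble_eq_true hα
    have hβ' : (0 : ℝ) < β := by exact_mod_cast Nat.le_of_ble_eq_true hβ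
    have ha := hx.ga vv
    have hb := hx.gb vv
    rcases le_total (x.ga vv / α) (x.gb vv / β) with hc | hc
    · obtain ⟨c, c1, c2⟩ := ihl hl (x.set vv (x.ga vv / α) (x.gb vv / β - x.ga vv / α))
        (hx.set vv (by positivity) (by linarith))
      refine ⟨c, c1, x.ga vv / α, x.gb vv / β - x.ga vv / α, by positivity, by linarith,
        Or.inl ⟨?_, ?_, c2⟩⟩
      · field_simp
      · rw [add_sub_cancel]; field_simp
    · obtain ⟨c, c1, c2⟩ := ihr hr (x.set vv (x.ga vv / α - x.gb vv / β) (x.gb vv / β))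
        (hx.set vv (by linarith) (by positivity))
      refine ⟨c, c1, x.ga vv / α - x.gb vv / β, x.gb vv / β, by linarith, by positivity,
        Or.inr ⟨?_, ?_, c2⟩⟩
      · rw [sub_add_cancel]; field_simp
      · field_simp
  | tr s kb t ih => intro h x hx; exact ih h x hx

theorem reachT_hasT {c : ℕ} : ∀ (T : TreeT) (x : Pt), ReachT T c x → hasTT c T = true := by
  intro T
  induction T with
  | lf g11 g12 g22 g13 g23 g33 => intro x h; simp only [ReachT] at h; subst h; rfl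
  | out i => intro x h; simp only [ReachT] at h; subst h; simp [hasTT]
  | nd vv α β l r ihl ihr =>
    intro x h
    obtain ⟨a, b, _, _, h | h⟩ := h
    · simp [hasTT, ihl _ h.2.2]
    · simp [hasTT, ihr _ h.2.2]
  | tr s kb t ih => intro x h; exact ih x h

/-! ## truncation -/

/-- the safety list: offset block and off-diagonal blocks -/
def sl : List ℕ := [0, 3, 3, 0, 3, 0, 3]

theorem trN_rep {w m0 b s U7 A3 N : ℕ} {D : ℕ → ℕ} (hm : 0 < m0)
    (hD : Rep (w + 1) (7 * m0) b D N) (hb : b < 2 ^ (w + 1)) (hs : s ≤ w)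
    (hU : U7 = pk (w + 1) (fun _ => 1) (7 * m0))
    (hA : A3 = pk (w + 1) (fun P => sl.getD (P / m0) 0) (7 * m0)) :
    Rep (w + 1) (7 * m0) (b >>> s + 3)
      (fun P => if P < 7 * m0 then D P / 2 ^ s + sl.getD (P / m0) 0 else 0)
      (trN (Nat.succ w) U7 A3 s N) := by
  refine ⟨?_, fun p hp => by rw [if_neg (by omega)], fun p => ?_⟩
  · unfold trN
    show ((N >>> s) &&& (U7 * (2 ^ (w + 1 - s) - 1))) + A3 = _
    rw [hU, mul_comm, smul_ones, hD.eq, pk_trunc (fun p => (hD.bd p).trans_lt hb) _ (by omega), hA,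
      pk_add]
    apply pk_congr
    intro p hp
    rw [if_pos hp]
  · show (if p < 7 * m0 then D p / 2 ^ s + sl.getD (p / m0) 0 else 0) ≤ _
    split_ifs with h1
    · have h2 : D p / 2 ^ s ≤ b >>> s := by
        rw [Nat.shiftRight_eq_div_pow]; exact Nat.div_le_div_right (hD.bd p)
      have h3 : p / m0 < 7 := by
        rw [Nat.div_lt_iff_lt_mul hm]; exact h1
      have h4 : sl.getD (p / m0) 0 ≤ 3 := by
        generalize p / m0 = q at h3
        interval_cases q <;> decide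
      exact Nat.add_le_add h2 h4
    · exact Nat.zero_le _

theorem tr_val {E : Env} {s : ℕ} {D : ℕ → ℕ} {x : Pt} (hx : x.Nonneg) (u v r : ℝ)
    (h : 0 ≤ qf
      (val E (fun P => if P < 7 * E.m0 then D P / 2 ^ s + sl.getD (P / E.m0) 0 else 0) (lamt 0) x)
      (val E (fun P => if P < 7 * E.m0 then D P / 2 ^ s + sl.getD (P / E.m0) 0 else 0) (lamt 1) x)
      (val E (fun P => if P < 7 * E.m0 then D P / 2 ^ s + sl.getD (P / E.m0) 0 else 0) (lamt 2) x)
      (val E (fun P => if P < 7 * E.m0 then D P / 2 ^ s + sl.getD (P / E.m0) 0 else 0) (lamt 3) x)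
      (val E (fun P => if P < 7 * E.m0 then D P / 2 ^ s + sl.getD (P / E.m0) 0 else 0) (lamt 4) x)
      (val E (fun P => if P < 7 * E.m0 then D P / 2 ^ s + sl.getD (P / E.m0) 0 else 0) (lamt 5) x)
      u v r) :
    0 ≤ qf (val E D (lamt 0) x) (val E D (lamt 1) x) (val E D (lamt 2) x) (val E D (lamt 3) x)
      (val E D (lamt 4) x) (val E D (lamt 5) x) u v r := by
  have hm0 : 0 < E.m0 := by unfold Env.m0; positivity
  -- differences
  set D' : ℕ → ℕ := fun P => if P < 7 * E.m0 then D P / 2 ^ s + sl.getD (P / E.m0) 0 else 0 with hD'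
  have hd : ∀ t p, t < 7 → p < E.m0 → D' (t * E.m0 + p) = D (t * E.m0 + p) / 2 ^ s + sl.getD t 0 := by
    intro t p ht hp
    have h1 : t * E.m0 + p < 7 * E.m0 := by
      calc t * E.m0 + p < t * E.m0 + E.m0 := by omega
        _ = (t + 1) * E.m0 := by ring
        _ ≤ 7 * E.m0 := Nat.mul_le_mul_right _ ht
    have h2 : (t * E.m0 + p) / E.m0 = t := by
      rw [show t * E.m0 + p = p + E.m0 * t by ring, Nat.add_mul_div_left _ _ hm0,
        Nat.div_eq_of_lt hp, zero_add]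
    simp only [hD']
    rw [if_pos h1, h2]
  have key : ∀ t, t < 6 → val E D (lamt t) x - 2 ^ s * val E D' (lamt t) x
      = ∑ p ∈ Finset.range E.m0, (((D (t * E.m0 + p) % 2 ^ s : ℕ) : ℝ)
          - ((D (6 * E.m0 + p) % 2 ^ s : ℕ) : ℝ) + 2 ^ s * (3 - (sl.getD t 0 : ℝ)))
          * mon E.n1 E.n2 E.n3 x p := by
    intro t ht
    rw [val_lamt E D x ht, val_lamt E D' x ht, Finset.mul_sum, ← Finset.sum_sub_distrib]
    refine Finset.sum_congr rfl fun p hp => ?_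
    have hp' := Finset.mem_range.1 hp
    rw [if_pos hp', if_pos hp', if_pos hp', if_pos hp', hd t p (by omega) hp', hd 6 p (by omega) hp']
    have e6 : sl.getD 6 0 = 3 := rfl
    rw [e6]
    have q1 : (D (t * E.m0 + p) : ℝ)
        = 2 ^ s * ((D (t * E.m0 + p) / 2 ^ s : ℕ) : ℝ) + ((D (t * E.m0 + p) % 2 ^ s : ℕ) : ℝ) := by
      exact_mod_cast (Nat.div_add_mod _ _).symm
    have q2 : (D (6 * E.m0 + p) : ℝ)
        = 2 ^ s * ((D (6 * E.m0 + p) / 2 ^ s : ℕ) : ℝ) + ((D (6 * E.m0 + p) % 2 ^ s : ℕ) : ℝ) := by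
      exact_mod_cast (Nat.div_add_mod _ _).symm
    rw [Int.cast_sub, Int.cast_sub, Int.cast_natCast, Int.cast_natCast, Int.cast_natCast,
      Int.cast_natCast, q1, q2, Nat.cast_add, Nat.cast_add]
    push_cast
    ring
  have k0 := key 0 (by norm_num)
  have k1 := key 1 (by norm_num)
  have k2 := key 2 (by norm_num)
  have k3 := key 3 (by norm_num)
  have k4 := key 4 (by norm_num)
  have k5 := key 5 (by norm_num)
  have s0 : ((sl.getD 0 0 : ℕ) : ℝ) = 0 := by simp [sl]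
  have s1 : ((sl.getD 1 0 : ℕ) : ℝ) = 3 := by simp [sl]
  have s2 : ((sl.getD 2 0 : ℕ) : ℝ) = 3 := by simp [sl]
  have s3 : ((sl.getD 3 0 : ℕ) : ℝ) = 0 := by simp [sl]
  have s4 : ((sl.getD 4 0 : ℕ) : ℝ) = 3 := by simp [sl]
  have s5 : ((sl.getD 5 0 : ℕ) : ℝ) = 0 := by simp [sl]
  rw [s0] at k0
  rw [s1] at k1
  rw [s2] at k2
  rw [s3] at k3
  rw [s4] at k4
  rw [s5] at k5
  have hpow : (0 : ℝ) < 2 ^ s := by positivity
  have diff : 0 ≤ qf (val E D (lamt 0) x - 2 ^ s * val E D' (lamt 0) x)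
      (val E D (lamt 1) x - 2 ^ s * val E D' (lamt 1) x)
      (val E D (lamt 2) x - 2 ^ s * val E D' (lamt 2) x)
      (val E D (lamt 3) x - 2 ^ s * val E D' (lamt 3) x)
      (val E D (lamt 4) x - 2 ^ s * val E D' (lamt 4) x)
      (val E D (lamt 5) x - 2 ^ s * val E D' (lamt 5) x) u v r := by
    rw [k0, k1, k2, k3, k4, k5]
    unfold qf
    simp only [Finset.sum_mul, Finset.mul_sum, ← Finset.sum_add_distrib]
    refine Finset.sum_nonneg fun p _ => ?_
    have bd : ∀ t, (0 : ℝ) ≤ ((D (t * E.m0 + p) % 2 ^ s : ℕ) : ℝ)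
        ∧ ((D (t * E.m0 + p) % 2 ^ s : ℕ) : ℝ) ≤ 2 ^ s := by
      intro t
      refine ⟨Nat.cast_nonneg _, ?_⟩
      have : D (t * E.m0 + p) % 2 ^ s ≤ 2 ^ s := (Nat.mod_lt _ (by positivity)).le
      exact_mod_cast this
    obtain ⟨a0, b0⟩ := bd 0
    obtain ⟨a1, b1⟩ := bd 1
    obtain ⟨a2, b2⟩ := bd 2
    obtain ⟨a3, b3⟩ := bd 3
    obtain ⟨a4, b4⟩ := bd 4
    obtain ⟨a5, b5⟩ := bd 5
    obtain ⟨a6, b6⟩ := bd 6
    generalize ((D (0 * E.m0 + p) % 2 ^ s : ℕ) : ℝ) = r0 at *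
    generalize ((D (1 * E.m0 + p) % 2 ^ s : ℕ) : ℝ) = r1 at *
    generalize ((D (2 * E.m0 + p) % 2 ^ s : ℕ) : ℝ) = r2 at *
    generalize ((D (3 * E.m0 + p) % 2 ^ s : ℕ) : ℝ) = r3 at *
    generalize ((D (4 * E.m0 + p) % 2 ^ s : ℕ) : ℝ) = r4 at *
    generalize ((D (5 * E.m0 + p) % 2 ^ s : ℕ) : ℝ) = r5 at *
    generalize ((D (6 * E.m0 + p) % 2 ^ s : ℕ) : ℝ) = r6 at *
    have c1 : |r1 - r6| ≤ 2 ^ s := abs_le.2 ⟨by linarith, by linarith⟩
    have c2 : |r2 - r6| ≤ 2 ^ s := abs_le.2 ⟨by linarith, by linarith⟩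
    have c4 : |r4 - r6| ≤ 2 ^ s := abs_le.2 ⟨by linarith, by linarith⟩
    have dd := dd_psd (p := r0 - r6 + 2 ^ s * (3 - 0)) (q := r3 - r6 + 2 ^ s * (3 - 0))
      (r := r5 - r6 + 2 ^ s * (3 - 0)) (x := r1 - r6) (y := r2 - r6) (z := r4 - r6)
      (by linarith) (by linarith) (by linarith) u v r
    have h1 := mul_nonneg (mon_nonneg (n1 := E.n1) (n2 := E.n2) (n3 := E.n3) hx p) dd
    refine le_of_le_of_eq h1 ?_
    ring
  have h2 := mul_nonneg hpow.le h
  unfold qf at *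
  nlinarith [h2, diff]

theorem chkT_sound {E : Env} (hE : E.Ok) {U7 A3 : ℕ}
    (hU : U7 = pk (E.w + 1) (fun _ => 1) (7 * E.m0))
    (hA : A3 = pk (E.w + 1) (fun P => sl.getD (P / E.m0) 0) (7 * E.m0)) {c : ℕ} :
    ∀ (T : TreeT) (b N : ℕ) (D : ℕ → ℕ),
    Rep (E.w + 1) (7 * E.m0) b D N → chkT E U7 A3 c T b N = true → ∀ x : Pt, x.Nonneg →
    ReachT T c x → ∀ u v s : ℝ,
    0 ≤ qf (val E D (lamt 0) x) (val E D (lamt 1) x) (val E D (lamt 2) x) (val E D (lamt 3) x)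
      (val E D (lamt 4) x) (val E D (lamt 5) x) u v s := by
  intro T
  induction T with
  | lf g11 g12 g22 g13 g23 g33 =>
    intro b N D hD h x hx hr u v s
    simp only [ReachT] at hr
    subst hr
    exact chkLeaf_sound hE hD h x hx u v s
  | out i =>
    intro b N D hD h x hx hr u v s
    simp only [ReachT] at hr
    subst hr
    have e1 : Nat.beq (i + 1) (Nat.succ i) = true := by simp
    simp only [chkT, e1] at h
    exact chkLeaf_sound hE hD h x hx u v s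
  | nd vv α β l r ihl ihr =>
    intro b N D hD h x hx hr' u v s
    simp only [chkT, frc_eq, Bool.and_eq_true] at h
    obtain ⟨⟨⟨⟨hα, hβ⟩, hb⟩, hl⟩, hr⟩ := h
    have hb' : b < 2 ^ (E.w + 1) := by
      have := Nat.le_of_ble_eq_true hb
      rw [hE.W1] at this; exact this
    obtain ⟨DL, hDL, eL⟩ := stL_sound hE vv α β hD hb'
    obtain ⟨DR, hDR, eR⟩ := stR_sound hE vv α β hD hb'
    obtain ⟨a', b', ha', hb'', ⟨e1, e2, hR⟩ | ⟨e1, e2, hR⟩⟩ := hr'
    · rw [reachT_hasT _ _ hR] at hl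
      have y := ihl _ _ DL hDL hl (x.set vv a' b') (hx.set vv ha' hb'') hR u v s
      simp only [eL] at y
      rw [← e1, ← e2, Pt.set_self] at y
      exact y
    · rw [reachT_hasT _ _ hR] at hr
      have y := ihr _ _ DR hDR hr (x.set vv a' b') (hx.set vv ha' hb'') hR u v s
      simp only [eR] at y
      rw [← e1, ← e2, Pt.set_self] at y
      exact y
  | tr s' kb t ih =>
    intro b N D hD h x hx hr u v s
    have hm0 : 0 < E.m0 := by unfold Env.m0; positivity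
    cases c with
    | zero =>
      simp only [chkT, frc_eq, Bool.and_eq_true] at h
      obtain ⟨⟨⟨⟨hb, hs⟩, hk⟩, hb3⟩, hz, h⟩ := h
      have hb' : b < 2 ^ (E.w + 1) := by
        have := Nat.le_of_ble_eq_true hb
        rw [hE.W1] at this; exact this
      have hs' : s' ≤ E.w := Nat.le_of_ble_eq_true hs
      have hk' : kb ≤ E.w + 1 := Nat.le_of_ble_eq_true hk
      have hb3' : b >>> s' + 3 < 2 ^ (E.w + 1) := by
        have := Nat.le_of_ble_eq_true hb3
        rw [hE.W1] at this; exact this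
      have hrep := trN_rep hm0 hD hb' hs' hU hA
      have hlt := pk_top (fun p => (hrep.bd p).trans_lt hb3') (7 * E.m0) hk' (by
        have hz' : (trN (Nat.succ E.w) U7 A3 s' N) &&& (U7 * (E.W1 - 2 ^ kb)) = 0 :=
          Nat.eq_of_beq_eq_true hz
        rw [hrep.eq, hE.W1, hU, mul_comm (pk _ _ _), smul_ones] at hz'
        exact hz')
      have hrep' := hrep
      refine tr_val hx u v s (ih _ _ _ ⟨hrep.eq, hrep.supp, fun p => ?_⟩ h x hx hr u v s)
      rcases lt_or_ge p (7 * E.m0) with hp | hp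
      · exact Nat.le_sub_one_of_lt (hlt p hp)
      · rw [hrep.supp p hp]; exact Nat.zero_le _
    | succ c' =>
      simp only [chkT] at h
      exact ih _ _ D hD h x hx hr u v s

/-- the whole check -/
def runT (w n1 n2 n3 off : ℕ) (L1 L2 L3 : Lim) (c : ℕ) (T : TreeT) (bl : List P3) : Bool :=
  fits4 n1 n2 n3 off 6 bl &&
  withEnv w n1 n2 n3 fun E =>
    frc (Nat.mul (Nat.succ n1) (Nat.mul (Nat.succ n2) (Nat.succ n3))) fun m0 =>
    frc (Nat.div (Nat.sub (Nat.pow 2 (Nat.mul (Nat.succ w) m0)) 1)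
      (Nat.sub (Nat.pow 2 (Nat.succ w)) 1)) fun U0 =>
    frc (Nat.div (Nat.sub (Nat.pow 2 (Nat.mul (Nat.succ w) (Nat.mul 7 m0))) 1)
      (Nat.sub (Nat.pow 2 (Nat.succ w)) 1)) fun U7 =>
    frc (blocksN (Nat.mul (Nat.succ w) m0) U0 sl) fun A3 =>
    frc (build (Nat.succ w) n1 n2 n3 off bl) fun N0 =>
    frc (Nat.mul 2 off) fun b0 =>
    cutLo E 0 L1.lo b0 N0 fun b1 N1 => cutHi E 0 L1.hi b1 N1 fun b2 N2 =>
    cutLo E 1 L2.lo b2 N2 fun b3 N3 => cutHi E 1 L2.hi b3 N3 fun b4 N4 =>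
    cutLo E 2 L3.lo b4 N4 fun b5 N5 => cutHi E 2 L3.hi b5 N5 fun b6 N6 =>
    chkT E U7 A3 c T b6 N6

theorem runT_sound {w n1 n2 n3 off : ℕ} {L1 L2 L3 : Lim} {c : ℕ} {T : TreeT}
    {a b c' d e f : P3}
    (h : runT w n1 n2 n3 off L1 L2 L3 c T [a, b, c', d, e, f] = true) {x y z : ℝ}
    (hx : L1.In x) (hy : L2.In y) (hz : L3.In z) (hr : ReachT T c (pt0 L1 L2 L3 x y z))
    (u v s : ℝ) :
    0 ≤ qf (ev3 x y z a) (ev3 x y z b) (ev3 x y z c') (ev3 x y z d) (ev3 x y z e) (ev3 x y z f)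
      u v s := by
  unfold runT at h
  rw [Bool.and_eq_true] at h
  obtain ⟨hf, h⟩ := h
  simp only [frc_eq] at h
  set U0 : ℕ := Nat.div (Nat.sub (Nat.pow 2 (Nat.mul (Nat.succ w)
    (Nat.mul (Nat.succ n1) (Nat.mul (Nat.succ n2) (Nat.succ n3))))) 1)
      (Nat.sub (Nat.pow 2 (Nat.succ w)) 1) with hU0
  set U7 : ℕ := Nat.div (Nat.sub (Nat.pow 2 (Nat.mul (Nat.succ w)
    (Nat.mul 7 (Nat.mul (Nat.succ n1) (Nat.mul (Nat.succ n2) (Nat.succ n3)))))) 1)
      (Nat.sub (Nat.pow 2 (Nat.succ w)) 1) with hU7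
  set A3 : ℕ := blocksN (Nat.mul (Nat.succ w)
    (Nat.mul (Nat.succ n1) (Nat.mul (Nat.succ n2) (Nat.succ n3)))) U0 sl with hA3
  obtain ⟨E, hE, e1, e2, e3, e4, he⟩ := withEnv_eq w n1 n2 n3 (fun E =>
    cutLo E 0 L1.lo (Nat.mul 2 off) (build (Nat.succ w) n1 n2 n3 off [a, b, c', d, e, f])
      fun b1 N1 => cutHi E 0 L1.hi b1 N1 fun b2 N2 =>
    cutLo E 1 L2.lo b2 N2 fun b3 N3 => cutHi E 1 L2.hi b3 N3 fun b4 N4 =>
    cutLo E 2 L3.lo b4 N4 fun b5 N5 => cutHi E 2 L3.hi b5 N5 fun b6 N6 =>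
    chkT E U7 A3 c T b6 N6)
  rw [he] at h
  subst e1 e2 e3 e4
  have hm0 : 0 < E.m0 := by unfold Env.m0; positivity
  have u0 : U0 = pk (E.w + 1) (fun _ => 1) E.m0 := by
    rw [hU0]; exact ones_eq (Nat.succ_pos _) _
  have u7 : U7 = pk (E.w + 1) (fun _ => 1) (7 * E.m0) := by
    rw [hU7]; exact ones_eq (Nat.succ_pos _) _
  have a3 : A3 = pk (E.w + 1) (fun P => sl.getD (P / E.m0) 0) (7 * E.m0) := by
    rw [hA3, u0]; exact blocksN_eq hm0 sl
  set D : ℕ → ℕ := fun P => if P < 7 * E.m0 then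
    digD E.n1 E.n2 E.n3 off [a, b, c', d, e, f] P else 0 with hDdef
  have hDe : ∀ P, P < 7 * E.m0 → D P = digD E.n1 E.n2 E.n3 off [a, b, c', d, e, f] P := by
    intro P hP; simp only [hDdef]; rw [if_pos hP]
  have hq : ∀ t i j k, (cf [a, b, c', d, e, f] t i j k).natAbs ≤ off := fun t i j k =>
    (fits3_sound (fits4_sound hf t)).1 i j k
  have hD : Rep (E.w + 1) (7 * E.m0) (2 * off) D
      (build (Nat.succ E.w) E.n1 E.n2 E.n3 off [a, b, c', d, e, f]) := by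
    refine ⟨?_, fun p hp => by simp only [hDdef]; rw [if_neg (by omega)], fun p => ?_⟩
    · rw [build_eq]
      exact pk_congr _ fun p hp => (hDe p hp).symm
    · simp only [hDdef]
      split_ifs
      · exact toD_le (hq _ _ _ _)
      · exact Nat.zero_le _
  obtain ⟨D1, b1, N1, r1, k1, v1⟩ := cutLo_sound hE hD h
  obtain ⟨D2, b2, N2, r2, k2, v2⟩ := cutHi_sound hE r1 k1
  obtain ⟨D3, b3, N3, r3, k3, v3⟩ := cutLo_sound hE r2 k2
  obtain ⟨D4, b4, N4, r4, k4, v4⟩ := cutHi_sound hE r3 k3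
  obtain ⟨D5, b5, N5, r5, k5, v5⟩ := cutLo_sound hE r4 k4
  obtain ⟨D6, b6, N6, r6, k6, v6⟩ := cutHi_sound hE r5 k5
  have hN : (pt0 L1 L2 L3 x y z).Nonneg := ⟨hx.1, hx.2, hy.1, hy.2, hz.1, hz.2⟩
  have key := chkT_sound hE u7 a3 T b6 N6 D6 r6 k6 _ hN hr u v s
  have ev : ∀ lam, val E D6 lam (pt0 L1 L2 L3 x y z) = val E D lam ⟨x, 1, y, 1, z, 1⟩ := by
    intro lam
    have a6 := v6 ⟨(L1.co x).1, (L1.co x).2, (L2.co y).1, (L2.co y).2, z, 1⟩
      (cLo L3.lo (z, 1)).1 (cLo L3.lo (z, 1)).2 lam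
    have a5 := v5 ⟨(L1.co x).1, (L1.co x).2, (L2.co y).1, (L2.co y).2, z, 1⟩ z 1 lam
    have a4 := v4 ⟨(L1.co x).1, (L1.co x).2, y, 1, z, 1⟩
      (cLo L2.lo (y, 1)).1 (cLo L2.lo (y, 1)).2 lam
    have a3 := v3 ⟨(L1.co x).1, (L1.co x).2, y, 1, z, 1⟩ y 1 lam
    have a2 := v2 ⟨x, 1, y, 1, z, 1⟩ (cLo L1.lo (x, 1)).1 (cLo L1.lo (x, 1)).2 lam
    have a1 := v1 ⟨x, 1, y, 1, z, 1⟩ x 1 lam
    exact a6.trans (a5.trans (a4.trans (a3.trans (a2.trans a1))))
  simp only [ev] at key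
  rw [val_build hf x y z (show 0 < 6 by norm_num) hDe,
    val_build hf x y z (show 1 < 6 by norm_num) hDe,
    val_build hf x y z (show 2 < 6 by norm_num) hDe,
    val_build hf x y z (show 3 < 6 by norm_num) hDe,
    val_build hf x y z (show 4 < 6 by norm_num) hDe,
    val_build hf x y z (show 5 < 6 by norm_num) hDe] at key
  exact key

/-- main theorem with two kinds of excluded leaves: on a leaf `.out 0` the polynomial `g1` is
nonnegative, on a leaf `.out 1` the polynomial `g2`. -/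
theorem psdT {w n1 n2 n3 off w' n1' n2' n3' off' w'' n1'' n2'' n3'' off'' : ℕ} {L1 L2 L3 : Lim}
    {T : TreeT} {a b c d e f g1 g2 : P3}
    (hT : okTT 2 T = true)
    (h : runT w n1 n2 n3 off L1 L2 L3 0 T [a, b, c, d, e, f] = true)
    (h1 : runT w' n1' n2' n3' off' L1 L2 L3 1 T [g1, [], [], [], [], []] = true)
    (h2 : runT w'' n1'' n2'' n3'' off'' L1 L2 L3 2 T [g2, [], [], [], [], []] = true)
    {x y z : ℝ} (hx : L1.In x) (hy : L2.In y) (hz : L3.In z)
    (hg1 : ev3 x y z g1 < 0) (hg2 : ev3 x y z g2 < 0) (u v s : ℝ) :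
    0 ≤ qf (ev3 x y z a) (ev3 x y z b) (ev3 x y z c) (ev3 x y z d) (ev3 x y z e) (ev3 x y z f)
      u v s := by
  have hN : (pt0 L1 L2 L3 x y z).Nonneg := ⟨hx.1, hx.2, hy.1, hy.2, hz.1, hz.2⟩
  obtain ⟨k, hk, hr⟩ := reachT_total T hT _ hN
  have : k = 0 ∨ k = 1 ∨ k = 2 := by omega
  rcases this with rfl | rfl | rfl
  · exact runT_sound h hx hy hz hr u v s
  · have := runT_sound h1 hx hy hz hr 1 0 0
    simp [qf, ev3] at this
    linarith
  · have := runT_sound h2 hx hy hz hr 1 0 0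
    simp [qf, ev3] at this
    linarith

end Crest.Agent.R249.KerT368
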