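import Mathlib

/-!
Row 249, part C3 (helper805): linear algebra for case (I).
`dim_le_four`: C3.6 of BP-C3.
-/

set_option autoImplicit false

namespace Crest.Agent.R249.Kil2_805

open Matrix

/-- `hat b x = x × b`. -/
def hat (b : Fin 3 → ℝ) : Matrix (Fin 3) (Fin 3) ℝ :=
  !![0, b 2, -b 1; -b 2, 0, b 0; b 1, -b 0, 0]

lemma hat_add (b c : Fin 3 → ℝ) : hat (b + c) = hat b + hat c := by
  ext i j; fin_cases i <;> fin_cases j <;> simp [hat] <;> ring

lemma hat_smul (r : ℝ) (b : Fin 3 → ℝ) : hat (r • b) = r • hat b := by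
  ext i j; fin_cases i <;> fin_cases j <;> simp [hat]

lemma hat_mulVec (b x : Fin 3 → ℝ) :
    hat b *ᵥ x = ![x 1 * b 2 - x 2 * b 1, x 2 * b 0 - x 0 * b 2, x 0 * b 1 - x 1 * b 0] := by
  ext i; fin_cases i <;> simp [hat, Matrix.mulVec, dotProduct, Fin.sum_univ_three] <;> ring

/-- `x × b = 0`, `b ≠ 0` → `x ∈ ℝ b`. -/
lemma exists_smul {b x : Fin 3 → ℝ} (hb : b ≠ 0) (h : hat b *ᵥ x = 0) : ∃ μ : ℝ, x = μ • b := by
  have hpos : 0 < b 0 ^ 2 + b 1 ^ 2 + b 2 ^ 2 := by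
    rcases (by positivity : 0 ≤ b 0 ^ 2 + b 1 ^ 2 + b 2 ^ 2).lt_or_eq with h | h
    · exact h
    · exfalso; apply hb
      ext i; fin_cases i <;> simp <;> nlinarith [sq_nonneg (b 0), sq_nonneg (b 1), sq_nonneg (b 2)]
  rw [hat_mulVec] at h
  have h0 := congrFun h 0
  have h1 := congrFun h 1
  have h2 := congrFun h 2
  simp at h0 h1 h2
  refine ⟨(x 0 * b 0 + x 1 * b 1 + x 2 * b 2) / (b 0 ^ 2 + b 1 ^ 2 + b 2 ^ 2), ?_⟩
  ext i
  simp only [Pi.smul_apply, smul_eq_mul]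
  rw [div_mul_eq_mul_div, eq_div_iff hpos.ne']
  fin_cases i <;> simp
  · linear_combination b 2 * h1 * (-1) + b 1 * h2
  · linear_combination b 2 * h0 - b 0 * h2
  · linear_combination (-b 1) * h0 + b 0 * h1

/-- Two skew matrices commuting with a non scalar matrix are proportional. -/
lemma cross_eq_zero {a : Matrix (Fin 3) (Fin 3) ℝ} (ha : ∀ s : ℝ, a ≠ s • (1 : Matrix (Fin 3) (Fin 3) ℝ))
    {b c : Fin 3 → ℝ} (hb : hat b * a = a * hat b) (hc : hat c * a = a * hat c) :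
    hat b *ᵥ c = 0 := by
  by_contra hne
  have hb0 : b ≠ 0 := by
    rintro rfl; apply hne; rw [hat_mulVec]; ext i; fin_cases i <;> simp
  have hc0 : c ≠ 0 := by
    rintro rfl; apply hne; rw [hat_mulVec]; ext i; fin_cases i <;> simp
  have self0 : ∀ b : Fin 3 → ℝ, hat b *ᵥ b = 0 := by
    intro b; rw [hat_mulVec]; ext i; fin_cases i <;> simp <;> ring
  obtain ⟨μ, hμ⟩ : ∃ μ : ℝ, a *ᵥ b = μ • b := exists_smul hb0 (by
    rw [Matrix.mulVec_mulVec, hb, ← Matrix.mulVec_mulVec, self0, Matrix.mulVec_zero])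
  obtain ⟨ν, hν⟩ : ∃ μ : ℝ, a *ᵥ c = μ • c := exists_smul hc0 (by
    rw [Matrix.mulVec_mulVec, hc, ← Matrix.mulVec_mulVec, self0, Matrix.mulVec_zero])
  set w := hat b *ᵥ c with hw
  have hw' : hat c *ᵥ b = - w := by
    rw [hw, hat_mulVec, hat_mulVec]; ext i; fin_cases i <;> simp <;> ring
  have h1 : a *ᵥ w = ν • w := by
    rw [hw, Matrix.mulVec_mulVec, ← hb, ← Matrix.mulVec_mulVec, hν, Matrix.mulVec_smul]
  have h2 : a *ᵥ w = μ • w := by
    have : a *ᵥ (-w) = μ • (-w) := by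
      rw [← hw', Matrix.mulVec_mulVec, ← hc, ← Matrix.mulVec_mulVec, hμ, Matrix.mulVec_smul]
    rw [Matrix.mulVec_neg, smul_neg] at this
    exact neg_injective this
  have hμν : μ = ν := by
    have : (μ - ν) • w = 0 := by rw [sub_smul, ← h1, ← h2, sub_self]
    rcases smul_eq_zero.mp this with h | h
    · linarith
    · exact absurd h hne
  subst hμν
  -- the matrix with columns b, c, w
  set P : Matrix (Fin 3) (Fin 3) ℝ := (!![b 0, c 0, w 0; b 1, c 1, w 1; b 2, c 2, w 2]) with hP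
  have hcol : ∀ M : Matrix (Fin 3) (Fin 3) ℝ, M *ᵥ b = 0 → M *ᵥ c = 0 → M *ᵥ w = 0 → M * P = 0 := by
    intro M hb hc hw
    ext i j
    have e1 := congrFun hb i
    have e2 := congrFun hc i
    have e3 := congrFun hw i
    simp only [Matrix.mulVec, dotProduct, Fin.sum_univ_three, Pi.zero_apply] at e1 e2 e3
    rw [Matrix.mul_apply, Fin.sum_univ_three]
    fin_cases j <;> simp [hP] <;> assumption
  have hdet : P.det ≠ 0 := by
    have e : P.det = -(w 0 ^ 2 + w 1 ^ 2 + w 2 ^ 2) := by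
      have e0 : w 0 = c 1 * b 2 - c 2 * b 1 := by rw [hw, hat_mulVec]; simp
      have e1 : w 1 = c 2 * b 0 - c 0 * b 2 := by rw [hw, hat_mulVec]; simp
      have e2 : w 2 = c 0 * b 1 - c 1 * b 0 := by rw [hw, hat_mulVec]; simp
      rw [hP, Matrix.det_fin_three]
      simp
      rw [e0, e1, e2]; ring
    rw [e]
    intro h
    apply hne
    ext i; fin_cases i <;> simp <;> nlinarith [sq_nonneg (w 0), sq_nonneg (w 1), sq_nonneg (w 2)]
  have h0 : (a - μ • (1 : Matrix (Fin 3) (Fin 3) ℝ)) * P = 0 := by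
    apply hcol
    · rw [Matrix.sub_mulVec, hμ, Matrix.smul_mulVec, Matrix.one_mulVec, sub_self]
    · rw [Matrix.sub_mulVec, hν, Matrix.smul_mulVec, Matrix.one_mulVec, sub_self]
    · rw [Matrix.sub_mulVec, h2, Matrix.smul_mulVec, Matrix.one_mulVec, sub_self]
  have hinv : P * P⁻¹ = 1 := Matrix.mul_nonsing_inv P (isUnit_iff_ne_zero.mpr hdet)
  have : a - μ • (1 : Matrix (Fin 3) (Fin 3) ℝ) = 0 := by
    calc a - μ • (1 : Matrix (Fin 3) (Fin 3) ℝ)
        = (a - μ • (1 : Matrix (Fin 3) (Fin 3) ℝ)) * P * P⁻¹ := by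
          rw [Matrix.mul_assoc, hinv, Matrix.mul_one]
      _ = 0 := by rw [h0, Matrix.zero_mul]
  exact ha μ (sub_eq_zero.mp this)

/-- C3.6. -/
theorem dim_le_four {K : Type*} [AddCommGroup K] [Module ℝ K]
    (v : K →ₗ[ℝ] (Fin 4 → ℝ)) (β γ : K →ₗ[ℝ] (Fin 3 → ℝ))
    (inj : ∀ k, v k = 0 → β k = 0 → γ k = 0 → k = 0)
    {g : Fin 4 → ℝ} (hg : g ≠ 0) (hv : ∀ k, g ⬝ᵥ v k = 0)
    {a : Matrix (Fin 3) (Fin 3) ℝ} (ha : ∀ s : ℝ, a ≠ s • (1 : Matrix (Fin 3) (Fin 3) ℝ))
    (hβ : ∀ k, v k = 0 → hat (β k) * a = a * hat (β k))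
    (hγ : ∀ k, v k = 0 → β k = 0 → γ k = 0) :
    Module.finrank ℝ K ≤ 4 := by
  classical
  -- finite dimensional
  let Φ : K →ₗ[ℝ] (Fin 4 → ℝ) × (Fin 3 → ℝ) × (Fin 3 → ℝ) := v.prod (β.prod γ)
  have hΦ : Function.Injective Φ := by
    rw [← LinearMap.ker_eq_bot, LinearMap.ker_eq_bot']
    intro k hk
    have h1 : v k = 0 := congrArg Prod.fst hk
    have h2 : (β.prod γ) k = 0 := congrArg Prod.snd hk
    exact inj k h1 (congrArg Prod.fst h2) (congrArg Prod.snd h2)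
  have : FiniteDimensional ℝ K := FiniteDimensional.of_injective Φ hΦ
  -- kernel of v
  have hN : Module.finrank ℝ (LinearMap.ker v) ≤ 1 := by
    by_cases hz : ∀ n : LinearMap.ker v, n = 0
    · have : Subsingleton (LinearMap.ker v) := ⟨fun x y => by rw [hz x, hz y]⟩
      rw [Module.finrank_zero_of_subsingleton]; norm_num
    · push Not at hz
      obtain ⟨n0, hn0⟩ := hz
      have hb0 : β n0 ≠ 0 := by
        intro h
        apply hn0
        exact Subtype.ext (inj n0 n0.2 h (hγ n0 n0.2 h))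
      refine finrank_le_one n0 fun n => ?_
      obtain ⟨c, hc⟩ := exists_smul hb0 (cross_eq_zero ha (hβ n0 n0.2) (hβ n n.2))
      refine ⟨c, Subtype.ext ?_⟩
      have hv0 : v (c • (n0 : K) - n) = 0 := by
        rw [map_sub, map_smul, n0.2, n.2]; simp
      have hβ0 : β (c • (n0 : K) - n) = 0 := by
        rw [map_sub, map_smul, hc]; simp
      exact sub_eq_zero.mp (inj _ hv0 hβ0 (hγ _ hv0 hβ0))
  -- range of v
  have hR : Module.finrank ℝ (LinearMap.range v) ≤ 3 := by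
    have hle : LinearMap.range v ≤ LinearMap.ker (Matrix.mulVecLin (Matrix.of ![g])) := by
      rintro _ ⟨k, rfl⟩
      rw [LinearMap.mem_ker]
      ext i
      fin_cases i
      simpa [Matrix.mulVec] using hv k
    have h1 := Submodule.finrank_mono hle
    have h2 := LinearMap.finrank_range_add_finrank_ker (Matrix.mulVecLin (Matrix.of ![g]))
    have h3 : 0 < Module.finrank ℝ (LinearMap.range (Matrix.mulVecLin (Matrix.of ![g]))) := by
      rw [Module.finrank_pos_iff]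
      obtain ⟨i, hi⟩ := Function.ne_iff.mp hg
      refine ⟨⟨⟨_, LinearMap.mem_range_self _ (Pi.single i 1)⟩, 0, ?_⟩⟩
      intro h
      have := congrFun (congrArg Subtype.val h) 0
      simp [Matrix.mulVec, dotProduct, Pi.single_apply] at this
      exact hi this
    have h4 : Module.finrank ℝ (Fin 4 → ℝ) = 4 := by simp
    omega
  have := LinearMap.finrank_range_add_finrank_ker v
  omega

end Crest.Agent.R249.Kil2_805
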