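import Crest.Agent.R249.Kil1_805
import Crest.Agent.R249.Kil2_805
import Crest.Agent.R249.End_805
import Crest.Agent.R249.FrG_129
import Crest.Agent.R249.Ga_129

/-!
# R249, C3-GLOB (helper285), part 1: algebra over the frame ring

`f2 = tr A²`, `f3 = tr A³`, their derivatives and Laplacians, derivative along Killing fields;
the point end game `ev_NN_zero`; `ev_D_zero` : a five-dimensional space of Killing fields.
-/

set_option autoImplicit false
set_option linter.unusedSectionVars false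

noncomputable section

namespace Crest.Agent.R249.Kg1_285

open Finset Matrix Crest.Agent.R249.Fr129 Crest.Agent.R249.Fr129.Frame Crest.Agent.R249.Kil1_805

variable {S : Type*} [CommRing S] [Algebra ℝ S] (F : Frame 4 S)

/-- entrywise derivative. -/
def dD {n : ℕ} (F : Frame n S) (k : Fin n) {ι κ : Type*} (M : Matrix ι κ S) : Matrix ι κ S :=
  fun i j => F.D k (M i j)

section gen

variable {n : ℕ} (G : Frame n S) {ι : Type*} [Fintype ι] [DecidableEq ι]
  (a : Fin n → Matrix ι ι S)

theorem covE_eq (k : Fin n) (M : Matrix ι ι S) :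
    G.covE a k M = dD G k M + (a k * M - M * a k) := by
  ext i j
  simp only [covE, dD, Matrix.add_apply, Matrix.sub_apply, Matrix.mul_apply, sum_sub_distrib]

theorem dD_mul (k : Fin n) (M N : Matrix ι ι S) :
    dD G k (M * N) = dD G k M * N + M * dD G k N := by
  ext i j
  simp only [dD, Matrix.mul_apply, Matrix.add_apply, map_sum, D_mul]
  rw [← sum_add_distrib]

theorem covE_mul (k : Fin n) (M N : Matrix ι ι S) :
    G.covE a k (M * N) = G.covE a k M * N + M * G.covE a k N := by
  rw [covE_eq, covE_eq, covE_eq, dD_mul, Matrix.add_mul, Matrix.mul_add, Matrix.sub_mul,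
    Matrix.mul_sub]
  simp only [Matrix.mul_assoc]
  abel

theorem covE_add (k : Fin n) (M N : Matrix ι ι S) :
    G.covE a k (M + N) = G.covE a k M + G.covE a k N := by
  ext i j
  simp only [covE, Matrix.add_apply, map_add, mul_add, add_mul, sum_add_distrib, sum_sub_distrib]
  ring

theorem covE_smul (k : Fin n) (x : S) (M : Matrix ι ι S) :
    G.covE a k (x • M) = G.D k x • M + x • G.covE a k M := by
  ext i j
  simp only [covE, Matrix.add_apply, Matrix.smul_apply, smul_eq_mul, D_mul, mul_add, mul_sum]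
  rw [add_assoc]
  congr 2
  exact sum_congr rfl fun p _ => by ring

theorem covE_one (k : Fin n) : G.covE a k (1 : Matrix ι ι S) = 0 := by
  rw [covE_eq, Matrix.mul_one, Matrix.one_mul, sub_self, add_zero]
  ext i j
  simp only [dD, Matrix.one_apply, Matrix.zero_apply]
  split_ifs
  · exact Derivation.map_one_eq_zero _
  · exact map_zero _

theorem D_trace (k : Fin n) (M : Matrix ι ι S) : G.D k M.trace = (G.covE a k M).trace := by
  rw [covE_eq, Matrix.trace_add, Matrix.trace_sub, Matrix.trace_mul_comm (a k) M, sub_self,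
    add_zero]
  simp only [Matrix.trace, Matrix.diag, dD, map_sum]

end gen

/-- the block `A` as a matrix. -/
def Am : Matrix (Fin 3) (Fin 3) S := Matrix.of F.AA

/-- `∇_k A` as a matrix. -/
def Nm (k : Fin 4) : Matrix (Fin 3) (Fin 3) S := Matrix.of (F.NN k)

/-- `∇²_{k,l} A` as a matrix. -/
def Hm (k l : Fin 4) : Matrix (Fin 3) (Fin 3) S := Matrix.of (F.HH k l)

/-- `ΔA` as a matrix. -/
def Lm : Matrix (Fin 3) (Fin 3) S := Matrix.of F.LL

theorem Am_T : (Am F)ᵀ = Am F := by
  ext i j; exact F.AA_symm j i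

theorem Nm_T (k : Fin 4) : (Nm F k)ᵀ = Nm F k := by
  ext i j; exact F.NN_symm k j i

theorem covE_Am (k : Fin 4) : F.covE F.sdc k (Am F) = Nm F k := by
  ext c d
  simp only [covE, Am, Nm, Matrix.of_apply]
  rw [F.NN_eq, sum_sub_distrib]
  have h : ∑ p, F.AA c p * F.sdc k p d = - ∑ j, F.sdc k d j * F.AA c j := by
    rw [← sum_neg_distrib]
    refine sum_congr rfl fun p _ => ?_
    rw [F.sdc_skew k d p]; ring
  rw [h]; ring

theorem covE_Nm (m i : Fin 4) :
    F.covE F.sdc m (Nm F i) = Hm F m i + ∑ j, F.w m i j • Nm F j := by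
  ext c d
  have h := F.HH_eq m i c d
  simp only [covE, Hm, Nm, Matrix.of_apply, Matrix.add_apply, Matrix.sum_apply,
    Matrix.smul_apply, smul_eq_mul, Fin.sum_univ_three, Fin.sum_univ_four]
  rw [h, F.sdc_skew m 0 d, F.sdc_skew m 1 d, F.sdc_skew m 2 d]
  ring

/-- `tr A²`. -/
def f2 : S := (Am F * Am F).trace

/-- `tr A³`. -/
def f3 : S := (Am F * Am F * Am F).trace

theorem tr3 (X Y Z : Matrix (Fin 3) (Fin 3) S) : (X * Y * Z).trace = (Y * Z * X).trace := by
  rw [Matrix.mul_assoc, Matrix.trace_mul_comm]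

theorem D_f2 (k : Fin 4) : F.D k (f2 F) = 2 * (Am F * Nm F k).trace := by
  rw [f2, D_trace F F.sdc, covE_mul, covE_Am, Matrix.trace_add,
    Matrix.trace_mul_comm (Nm F k) (Am F)]
  ring

theorem D_f3 (k : Fin 4) : F.D k (f3 F) = 3 * (Am F * Am F * Nm F k).trace := by
  rw [f3, D_trace F F.sdc, covE_mul, covE_mul, covE_Am, Matrix.add_mul, Matrix.trace_add,
    Matrix.trace_add]
  have h1 : (Nm F k * Am F * Am F).trace = (Am F * Am F * Nm F k).trace := tr3 _ _ _
  have h2 : (Am F * Nm F k * Am F).trace = (Am F * Am F * Nm F k).trace := (tr3 _ _ _).symm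
  rw [h1, h2]; ring

theorem trace_sum_smul {n : ℕ} (w : Fin n → S) (X : Matrix (Fin 3) (Fin 3) S)
    (N : Fin n → Matrix (Fin 3) (Fin 3) S) :
    (X * ∑ j, w j • N j).trace = ∑ j, w j * (X * N j).trace := by
  rw [Matrix.mul_sum, Matrix.trace_sum]
  refine sum_congr rfl fun j _ => ?_
  rw [Matrix.mul_smul, Matrix.trace_smul, smul_eq_mul]

theorem Lm_eq : Lm F = ∑ k, Hm F k k := by
  ext c d
  rw [Matrix.sum_apply, Fin.sum_univ_four]
  exact F.LL_eq c d

theorem lap_f2 : F.lap0 (f2 F) =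
    2 * (Am F * Lm F).trace + 2 * ∑ k, (Nm F k * Nm F k).trace := by
  have h : ∀ k, F.hess0 k k (f2 F) =
      2 * (Am F * Hm F k k).trace + 2 * (Nm F k * Nm F k).trace := by
    intro k
    have e2 : F.D k (2 : S) = 0 := by
      have h2 : (2 : S) = algebraMap ℝ S 2 := (map_ofNat (algebraMap ℝ S) 2).symm
      rw [h2, Derivation.map_algebraMap]
    rw [hess0, D_f2, D_mul, e2, zero_mul, zero_add, D_trace F F.sdc, covE_mul, covE_Am, covE_Nm,
      Matrix.trace_add, Matrix.mul_add, Matrix.trace_add, trace_sum_smul]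
    simp only [D_f2]
    have e3 : ∑ m, F.w k k m * (2 * (Am F * Nm F m).trace) =
        2 * ∑ m, F.w k k m * (Am F * Nm F m).trace := by
      rw [mul_sum]; exact sum_congr rfl fun m _ => by ring
    rw [e3]; ring
  rw [lap0]
  simp only [h]
  rw [sum_add_distrib, ← mul_sum, ← mul_sum, Lm_eq, Matrix.mul_sum, Matrix.trace_sum]

theorem lap_f3 : F.lap0 (f3 F) =
    3 * (Am F * Am F * Lm F).trace + 6 * ∑ k, (Am F * Nm F k * Nm F k).trace := by
  have h : ∀ k, F.hess0 k k (f3 F) =
      3 * (Am F * Am F * Hm F k k).trace + 6 * (Am F * Nm F k * Nm F k).trace := by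
    intro k
    have e2 : F.D k (3 : S) = 0 := by
      have h2 : (3 : S) = algebraMap ℝ S 3 := (map_ofNat (algebraMap ℝ S) 3).symm
      rw [h2, Derivation.map_algebraMap]
    rw [hess0, D_f3, D_mul, e2, zero_mul, zero_add, D_trace F F.sdc, covE_mul, covE_mul, covE_Am,
      covE_Nm, Matrix.add_mul, Matrix.trace_add, Matrix.trace_add, Matrix.mul_add,
      Matrix.trace_add, trace_sum_smul]
    simp only [D_f3]
    have e3 : ∑ m, F.w k k m * (3 * (Am F * Am F * Nm F m).trace) =
        3 * ∑ m, F.w k k m * (Am F * Am F * Nm F m).trace := by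
      rw [mul_sum]; exact sum_congr rfl fun m _ => by ring
    have e4 : (Nm F k * Am F * Nm F k).trace = (Am F * Nm F k * Nm F k).trace := tr3 _ _ _
    rw [e3, e4]; ring
  rw [lap0]
  simp only [h]
  rw [sum_add_distrib, ← mul_sum, ← mul_sum, Lm_eq, Matrix.mul_sum, Matrix.trace_sum]

theorem Am_trace {lam : S} (hE : F.Einstein lam) : (Am F).trace = lam := by
  rw [Matrix.trace_fin_three]; exact F.AA_trace hE

theorem Nm_trace {lam : S} (hE : F.Einstein lam) (k : Fin 4) : (Nm F k).trace = 0 := by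
  rw [Matrix.trace_fin_three]; exact F.NN_trace0 hE k

theorem Lm_formula {lam : S} (hE : F.Einstein lam) :
    Lm F = (6 * (Am F).trace) • Am F - (6 : S) • (Am F * Am F)
      - (2 * ((Am F).trace ^ 2 - (Am F * Am F).trace)) • (1 : Matrix (Fin 3) (Fin 3) S) := by
  ext c e
  have h := F.LL_formula hE c e
  have s10 : F.AA 1 0 = F.AA 0 1 := F.AA_symm 1 0
  have s20 : F.AA 2 0 = F.AA 0 2 := F.AA_symm 2 0
  have s21 : F.AA 2 1 = F.AA 1 2 := F.AA_symm 2 1
  have t2 : (Am F * Am F).trace = F.AA 0 0 ^ 2 + F.AA 1 1 ^ 2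
        + F.AA 2 2 ^ 2 + 2 * F.AA 0 1 ^ 2 + 2 * F.AA 0 2 ^ 2 + 2 * F.AA 1 2 ^ 2 := by
    rw [Matrix.trace_fin_three]
    simp only [Matrix.mul_apply, Fin.sum_univ_three, Am, Matrix.of_apply, s10, s20, s21]
    ring
  rw [t2, Matrix.trace_fin_three]
  simp only [Matrix.sub_apply, Matrix.smul_apply, smul_eq_mul, Matrix.one_apply, Matrix.mul_apply,
    Fin.sum_univ_three, Lm, Am, Matrix.of_apply]
  rw [h]
  split_ifs <;> ring

/-! ### derivative along Killing fields -/

theorem V_Nm {lam : S} (hE : F.Einstein lam) {V : Fin 4 → S} (hV : Kill F V) :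
    ∑ i, V i • Nm F i = cr (pV F V) * Am F - Am F * cr (pV F V) := by
  ext c d
  have h := V_NN F hE hV c d
  simp only [Matrix.sum_apply, Matrix.smul_apply, smul_eq_mul, Nm, Am, Matrix.of_apply,
    Matrix.sub_apply, Matrix.mul_apply]
  rw [h, sub_eq_add_neg, ← sum_neg_distrib]
  congr 1
  refine sum_congr rfl fun a _ => ?_
  rw [cr_skew _ d a]; ring

theorem V_f2 {lam : S} (hE : F.Einstein lam) {V : Fin 4 → S} (hV : Kill F V) :
    ∑ i, V i * F.D i (f2 F) = 0 := by
  have h : ∑ i, V i * F.D i (f2 F) = 2 * (Am F * ∑ i, V i • Nm F i).trace := by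
    rw [trace_sum_smul, mul_sum]
    exact sum_congr rfl fun i _ => by rw [D_f2]; ring
  rw [h, V_Nm F hE hV, Matrix.mul_sub, Matrix.trace_sub, ← Matrix.mul_assoc, ← Matrix.mul_assoc,
    tr3 (Am F) (Am F) (cr (pV F V)), sub_self, mul_zero]

theorem V_f3 {lam : S} (hE : F.Einstein lam) {V : Fin 4 → S} (hV : Kill F V) :
    ∑ i, V i * F.D i (f3 F) = 0 := by
  have h : ∑ i, V i * F.D i (f3 F) = 3 * (Am F * Am F * ∑ i, V i • Nm F i).trace := by
    rw [trace_sum_smul, mul_sum]
    exact sum_congr rfl fun i _ => by rw [D_f3]; ring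
  have h2 : (Am F * Am F * (cr (pV F V) * Am F)).trace =
      (Am F * Am F * (Am F * cr (pV F V))).trace := by
    rw [← Matrix.mul_assoc, Matrix.trace_mul_comm]
    simp only [Matrix.mul_assoc]
  rw [h, V_Nm F hE hV, Matrix.mul_sub, Matrix.trace_sub, h2, sub_self, mul_zero]

/-! ### the Clifford triple and the Bianchi constraint -/

theorem cliff : End_805.Cliff (Ga129.II (S := ℝ)) := by
  refine ⟨fun a => ?_, fun a => ?_, fun a b hab => ?_⟩
  · ext i j
    rw [Matrix.transpose_apply, Matrix.neg_apply]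
    exact Ga129.Sk_II a j i
  · ext i j
    fin_cases a <;> fin_cases i <;> fin_cases j <;>
      simp [Ga129.II, Matrix.mul_apply, Fin.sum_univ_four]
  · ext i j
    fin_cases a <;> fin_cases b <;> first | exact absurd rfl hab | skip
    all_goals
      fin_cases i <;> fin_cases j <;>
        simp [Ga129.II, Matrix.mul_apply, Fin.sum_univ_four]

theorem bianchi {lam : S} (hE : F.Einstein lam) (φ : S →ₐ[ℝ] ℝ) (i : Fin 3) :
    ∑ j, Ga129.II (S := ℝ) j *ᵥ (fun l => φ (F.NN l i j)) = 0 := by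
  have z0 := congrArg φ (F.z0 hE i)
  have z1 := congrArg φ (F.z1 hE i)
  have z2 := congrArg φ (F.z2 hE i)
  have z3 := congrArg φ (F.z3 hE i)
  simp only [map_add, map_sub, map_zero] at z0 z1 z2 z3
  funext m
  rw [Finset.sum_apply, Fin.sum_univ_three]
  fin_cases m <;>
    simp only [Matrix.mulVec, dotProduct, Fin.sum_univ_four, Ga129.II, Pi.zero_apply] <;> simp
  · linear_combination z0
  · linear_combination -z1
  · linear_combination -z2
  · linear_combination -z3

end Crest.Agent.R249.Kg1_285
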