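import Crest.Agent.R249.Kg1_285

/-!
# R249, C3-GLOB (helper285), part 2: the two pointwise theorems

`ev_D_zero` : a five-dimensional space of Killing fields forces `d tr A² = d tr A³ = 0` at the
point; `ev_NN_zero` : the end game; `six_tr_PP` : traces of `((A-x)(A-y))²`.
-/

set_option autoImplicit false
set_option linter.unusedSectionVars false

noncomputable section

namespace Crest.Agent.R249.Kg2_285

open Finset Matrix Crest.Agent.R249.Fr129 Crest.Agent.R249.Fr129.Frame Crest.Agent.R249.Kil1_805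
  Crest.Agent.R249.Kg1_285

variable {S : Type*} [CommRing S] [Algebra ℝ S] (F : Frame 4 S) (φ : S →ₐ[ℝ] ℝ)

section dim

variable {K : Type*} [AddCommGroup K] [Module ℝ K] (V : K →ₗ[ℝ] (Fin 4 → S))

/-- components of the vector at the point. -/
def vE : K →ₗ[ℝ] (Fin 4 → ℝ) :=
  LinearMap.pi fun i => φ.toLinearMap ∘ₗ LinearMap.proj i ∘ₗ V

theorem vE_apply (k : K) (i : Fin 4) : vE φ V k i = φ (V k i) := rfl

/-- `∇V` as a linear map. -/
def BL (a b : Fin 4) : K →ₗ[ℝ] ℝ where
  toFun k := φ (BV F (V k) a b)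
  map_add' x y := by
    have h : V (x + y) = V x + V y := map_add V x y
    rw [BV, BV, BV, h, cov_add, Pi.add_apply, map_add]
  map_smul' r x := by
    have h : V (r • x) = (algebraMap ℝ S r) • V x := by
      rw [map_smul]
      funext i
      rw [Pi.smul_apply, Pi.smul_apply, Algebra.smul_def, smul_eq_mul]
    rw [BV, BV, h, cov_smul, Derivation.map_algebraMap, zero_smul, zero_add, Pi.smul_apply,
      smul_eq_mul, map_mul, AlgHom.commutes, RingHom.id_apply, smul_eq_mul]
    rfl

theorem BL_apply (a b : Fin 4) (k : K) : BL F φ V a b k = φ (BV F (V k) a b) := rfl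

/-- self-dual part. -/
def betaL : K →ₗ[ℝ] (Fin 3 → ℝ) :=
  LinearMap.pi ![BL F φ V 0 1 + BL F φ V 2 3, BL F φ V 0 2 - BL F φ V 1 3,
    BL F φ V 0 3 + BL F φ V 1 2]

/-- anti-self-dual part. -/
def gammaL : K →ₗ[ℝ] (Fin 3 → ℝ) :=
  LinearMap.pi ![BL F φ V 0 1 - BL F φ V 2 3, BL F φ V 0 2 + BL F φ V 1 3,
    BL F φ V 0 3 - BL F φ V 1 2]

theorem betaL_apply (k : K) (c : Fin 3) : betaL F φ V k c = φ (pV F (V k) c) := by
  fin_cases c <;> simp [betaL, pV, BL_apply]

theorem hat_eq (b : Fin 3 → ℝ) : Kil2_805.hat b = - cr b := by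
  ext i j
  fin_cases i <;> fin_cases j <;> simp [Kil2_805.hat, cr]

theorem map_cr (p : Fin 3 → S) : (cr p).map φ = cr (fun c => φ (p c)) := by
  ext i j
  fin_cases i <;> fin_cases j <;> simp [cr]

theorem ev_trace (X : Matrix (Fin 3) (Fin 3) S) : φ X.trace = (X.map φ).trace := by
  simp [Matrix.trace, map_sum]

theorem map_mul3 (X Y : Matrix (Fin 3) (Fin 3) S) : (X * Y).map φ = X.map φ * Y.map φ :=
  Matrix.map_mul

/-- **C3.6/C3.7**: five independent Killing fields. -/
theorem g_zero {lam : S} (hE : F.Einstein lam) (hK : ∀ k, Kill F (V k))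
    (inj : ∀ k, (∀ i, φ (V k i) = 0) → (∀ i j, φ (BV F (V k) i j) = 0) → k = 0)
    (h5 : 5 ≤ Module.finrank ℝ K) {f : S} (hf : ∀ k, ∑ i, V k i * F.D i f = 0)
    (hs : ∀ s : ℝ, (Am F).map φ = s • (1 : Matrix (Fin 3) (Fin 3) ℝ) → ∀ i, φ (F.D i f) = 0) :
    ∀ i, φ (F.D i f) = 0 := by
  by_contra hne
  have hg : (fun i => φ (F.D i f)) ≠ 0 := fun h => hne fun i => congrFun h i
  have ha : ∀ s : ℝ, (Am F).map φ ≠ s • (1 : Matrix (Fin 3) (Fin 3) ℝ) :=
    fun s h => hne (hs s h)
  have sk : ∀ k a b, φ (BV F (V k) a b) = - φ (BV F (V k) b a) := by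
    intro k a b
    rw [hK k a b, map_neg]
  have dg : ∀ k a, φ (BV F (V k) a a) = 0 := by
    intro k a
    have := sk k a a
    linarith
  have b0 : ∀ k, betaL F φ V k 0 = φ (BV F (V k) 0 1) + φ (BV F (V k) 2 3) := fun k => rfl
  have b1 : ∀ k, betaL F φ V k 1 = φ (BV F (V k) 0 2) - φ (BV F (V k) 1 3) := fun k => rfl
  have b2 : ∀ k, betaL F φ V k 2 = φ (BV F (V k) 0 3) + φ (BV F (V k) 1 2) := fun k => rfl
  have c0 : ∀ k, gammaL F φ V k 0 = φ (BV F (V k) 0 1) - φ (BV F (V k) 2 3) := fun k => rfl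
  have c1 : ∀ k, gammaL F φ V k 1 = φ (BV F (V k) 0 2) + φ (BV F (V k) 1 3) := fun k => rfl
  have c2 : ∀ k, gammaL F φ V k 2 = φ (BV F (V k) 0 3) - φ (BV F (V k) 1 2) := fun k => rfl
  have hle := Kil2_805.dim_le_four (vE φ V) (betaL F φ V) (gammaL F φ V) (fun k h1 h2 h3 => ?_)
    hg (fun k => ?_) ha (fun k hk => ?_) (fun k hk hb => ?_)
  · omega
  · -- injectivity
    refine inj k (fun i => congrFun h1 i) ?_
    have e0 := congrFun h2 0
    have e1 := congrFun h2 1
    have e2 := congrFun h2 2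
    have e3 := congrFun h3 0
    have e4 := congrFun h3 1
    have e5 := congrFun h3 2
    rw [b0] at e0; rw [b1] at e1; rw [b2] at e2
    rw [c0] at e3; rw [c1] at e4; rw [c2] at e5
    simp only [Pi.zero_apply] at e0 e1 e2 e3 e4 e5
    have f01 : φ (BV F (V k) 0 1) = 0 := by linarith
    have f23 : φ (BV F (V k) 2 3) = 0 := by linarith
    have f02 : φ (BV F (V k) 0 2) = 0 := by linarith
    have f13 : φ (BV F (V k) 1 3) = 0 := by linarith
    have f03 : φ (BV F (V k) 0 3) = 0 := by linarith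
    have f12 : φ (BV F (V k) 1 2) = 0 := by linarith
    intro i j
    fin_cases i <;> fin_cases j
    · exact dg k 0
    · exact f01
    · exact f02
    · exact f03
    · change φ (BV F (V k) 1 0) = 0
      rw [sk, f01, neg_zero]
    · exact dg k 1
    · exact f12
    · exact f13
    · change φ (BV F (V k) 2 0) = 0
      rw [sk, f02, neg_zero]
    · change φ (BV F (V k) 2 1) = 0
      rw [sk, f12, neg_zero]
    · exact dg k 2
    · exact f23
    · change φ (BV F (V k) 3 0) = 0
      rw [sk, f03, neg_zero]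
    · change φ (BV F (V k) 3 1) = 0
      rw [sk, f13, neg_zero]
    · change φ (BV F (V k) 3 2) = 0
      rw [sk, f23, neg_zero]
    · exact dg k 3
  · -- V f = 0
    have h := congrArg φ (hf k)
    rw [map_sum, map_zero] at h
    rw [dotProduct, ← h]
    refine sum_congr rfl fun i _ => ?_
    rw [map_mul, mul_comm]; rfl
  · -- the stabiliser
    have h := V_Nm F hE (hK k)
    have h2 : (∑ i, V k i • Nm F i).map φ =
        (cr (pV F (V k)) * Am F - Am F * cr (pV F (V k))).map φ := by rw [h]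
    have h3 : (∑ i, V k i • Nm F i).map φ = 0 := by
      ext c d
      rw [Matrix.map_apply, Matrix.sum_apply, map_sum, Matrix.zero_apply]
      refine sum_eq_zero fun i _ => ?_
      rw [Matrix.smul_apply, smul_eq_mul, map_mul]
      have : φ (V k i) = 0 := congrFun hk i
      rw [this, zero_mul]
    have h4 : (cr (pV F (V k)) * Am F - Am F * cr (pV F (V k))).map φ =
        (cr (pV F (V k))).map φ * (Am F).map φ - (Am F).map φ * (cr (pV F (V k))).map φ := by
      rw [← map_mul3, ← map_mul3]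
      ext c d
      simp only [Matrix.map_apply, Matrix.sub_apply, map_sub]
    rw [h3, h4, map_cr] at h2
    have h5 : (fun c => φ (pV F (V k) c)) = betaL F φ V k := by
      funext c; rw [betaL_apply]
    rw [h5] at h2
    rw [hat_eq, Matrix.neg_mul, Matrix.mul_neg, neg_inj]
    exact (sub_eq_zero.1 h2.symm)
  · -- the gradient
    have hD : ∀ a, ∑ i, φ (BV F (V k) a i) * φ (F.D i f) = 0 := by
      intro a
      have h := congrArg (F.D a) (hf k)
      rw [map_sum, map_zero] at h
      have h2 := congrArg φ h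
      rw [map_sum, map_zero] at h2
      rw [← h2]
      refine sum_congr rfl fun i _ => ?_
      rw [D_mul, map_add, map_mul, map_mul, BV_eq, map_add, map_sum]
      have hz : ∀ i, φ (V k i) = 0 := fun i => congrFun hk i
      simp only [map_mul, hz, mul_zero, sum_const_zero, add_zero, zero_mul]
    have e0 := congrFun hb 0
    have e1 := congrFun hb 1
    have e2 := congrFun hb 2
    rw [b0] at e0; rw [b1] at e1; rw [b2] at e2
    simp only [Pi.zero_apply] at e0 e1 e2
    have q0 := hD 0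
    have q1 := hD 1
    have q2 := hD 2
    have q3 := hD 3
    simp only [Fin.sum_univ_four, dg, sk k 1 0, sk k 2 0, sk k 3 0, sk k 2 1, sk k 3 1,
      sk k 3 2] at q0 q1 q2 q3
    have f23 : φ (BV F (V k) 2 3) = - φ (BV F (V k) 0 1) := by linarith
    have f13 : φ (BV F (V k) 1 3) = φ (BV F (V k) 0 2) := by linarith
    have f12 : φ (BV F (V k) 1 2) = - φ (BV F (V k) 0 3) := by linarith
    rw [f12, f13] at q1
    rw [f12, f23] at q2
    rw [f13, f23] at q3
    obtain ⟨i, hi⟩ := Function.ne_iff.1 hg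
    have hpos : 0 < φ (F.D 0 f) ^ 2 + φ (F.D 1 f) ^ 2 + φ (F.D 2 f) ^ 2 + φ (F.D 3 f) ^ 2 := by
      have hi' : 0 < φ (F.D i f) ^ 2 := by
        have : φ (F.D i f) ≠ 0 := hi
        positivity
      fin_cases i
      · have : 0 < φ (F.D 0 f) ^ 2 := hi'
        positivity
      · have : 0 < φ (F.D 1 f) ^ 2 := hi'
        positivity
      · have : 0 < φ (F.D 2 f) ^ 2 := hi'
        positivity
      · have : 0 < φ (F.D 3 f) ^ 2 := hi'
        positivity
    generalize hA : φ (BV F (V k) 0 1) = A at *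
    generalize hB : φ (BV F (V k) 0 2) = B at *
    generalize hC : φ (BV F (V k) 0 3) = C at *
    generalize φ (F.D 0 f) = g0 at *
    generalize φ (F.D 1 f) = g1 at *
    generalize φ (F.D 2 f) = g2 at *
    generalize φ (F.D 3 f) = g3 at *
    have key : (A ^ 2 + B ^ 2 + C ^ 2) * (g0 ^ 2 + g1 ^ 2 + g2 ^ 2 + g3 ^ 2) = 0 := by
      linear_combination (A * g1 + B * g2 + C * g3) * q0 + (-A * g0 + B * g3 - C * g2) * q1
        + (-B * g0 + C * g1 - A * g3) * q2 + (-C * g0 - B * g1 + A * g2) * q3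
    have h0 : A ^ 2 + B ^ 2 + C ^ 2 = 0 := by
      rcases mul_eq_zero.1 key with h | h
      · exact h
      · exact absurd h hpos.ne'
    have hA0 : A = 0 := by nlinarith [sq_nonneg A, sq_nonneg B, sq_nonneg C]
    have hB0 : B = 0 := by nlinarith [sq_nonneg A, sq_nonneg B, sq_nonneg C]
    have hC0 : C = 0 := by nlinarith [sq_nonneg A, sq_nonneg B, sq_nonneg C]
    funext c
    fin_cases c
    · change gammaL F φ V k 0 = 0
      rw [c0, hA, f23, hA0]; norm_num
    · change gammaL F φ V k 1 = 0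
      rw [c1, hB, f13, hB0]; norm_num
    · change gammaL F φ V k 2 = 0
      rw [c2, hC, f12, hC0]; norm_num

/-- the derivatives of `tr A²` and `tr A³` vanish at the point. -/
theorem ev_D_zero {lam : S} (hE : F.Einstein lam) (hK : ∀ k, Kill F (V k))
    (inj : ∀ k, (∀ i, φ (V k i) = 0) → (∀ i j, φ (BV F (V k) i j) = 0) → k = 0)
    (h5 : 5 ≤ Module.finrank ℝ K) :
    (∀ i, φ (F.D i (f2 F)) = 0) ∧ ∀ i, φ (F.D i (f3 F)) = 0 := by
  have htr : ∀ i, ((Nm F i).map φ).trace = 0 := by
    intro i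
    rw [← ev_trace, Nm_trace F hE, map_zero]
  refine ⟨g_zero F φ V hE hK inj h5 (fun k => V_f2 F hE (hK k)) ?_,
    g_zero F φ V hE hK inj h5 (fun k => V_f3 F hE (hK k)) ?_⟩
  · intro s hs i
    rw [D_f2, map_mul, ev_trace, map_mul3, hs, Matrix.smul_mul, Matrix.one_mul,
      Matrix.trace_smul, htr, smul_zero, mul_zero]
  · intro s hs i
    rw [D_f3, map_mul, ev_trace, map_mul3, map_mul3, hs, Matrix.smul_mul, Matrix.one_mul,
      Matrix.smul_mul, Matrix.smul_mul, Matrix.one_mul,
      Matrix.trace_smul, Matrix.trace_smul, htr, smul_zero, smul_zero, mul_zero]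

end dim

/-- `(A - x)(A - y)`. -/
def Pm (x y : S) : Matrix (Fin 3) (Fin 3) S :=
  (Am F - x • (1 : Matrix (Fin 3) (Fin 3) S)) * (Am F - y • (1 : Matrix (Fin 3) (Fin 3) S))

/-- Cayley–Hamilton: `6 tr A⁴`. -/
theorem p4 (X : Matrix (Fin 3) (Fin 3) S) : 6 * (X * X * (X * X)).trace =
    6 * X.trace * (X * X * X).trace - 3 * (X.trace ^ 2 - (X * X).trace) * (X * X).trace +
      (X.trace ^ 3 - 3 * X.trace * (X * X).trace + 2 * (X * X * X).trace) * X.trace := by
  simp only [Matrix.trace_fin_three, Matrix.mul_apply, Fin.sum_univ_three]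
  ring

/-- the trace of the square of `(A-x)(A-y)`. -/
theorem six_tr_PP (x y : S) : 6 * (Pm F x y * Pm F x y).trace =
    (6 * (Am F).trace * f3 F - 3 * ((Am F).trace ^ 2 - f2 F) * f2 F +
      ((Am F).trace ^ 3 - 3 * (Am F).trace * f2 F + 2 * f3 F) * (Am F).trace)
      - 12 * (x + y) * f3 F + 6 * ((x + y) ^ 2 + 2 * (x * y)) * f2 F
      - 12 * (x * y) * (x + y) * (Am F).trace + 18 * (x * y) ^ 2 := by
  have h1 : Pm F x y = Am F * Am F - (x + y) • Am F +
      (x * y) • (1 : Matrix (Fin 3) (Fin 3) S) := by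
    rw [Pm, Matrix.sub_mul, Matrix.mul_sub, Matrix.mul_sub, Matrix.smul_mul, Matrix.smul_mul,
      Matrix.one_mul, Matrix.mul_smul, Matrix.mul_one, Matrix.one_mul, smul_smul, add_smul]
    abel
  have h2 : Pm F x y * Pm F x y = Am F * Am F * (Am F * Am F)
      - (2 * (x + y)) • (Am F * Am F * Am F) + ((x + y) ^ 2 + 2 * (x * y)) • (Am F * Am F)
      - (2 * (x * y) * (x + y)) • Am F + ((x * y) ^ 2) • (1 : Matrix (Fin 3) (Fin 3) S) := by
    rw [h1]
    simp only [Matrix.add_mul, Matrix.mul_add, Matrix.sub_mul, Matrix.mul_sub, Matrix.smul_mul,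
      Matrix.mul_smul, Matrix.one_mul, Matrix.mul_one, smul_smul, smul_sub, smul_add,
      Matrix.mul_assoc]
    module
  have h3 : ((1 : Matrix (Fin 3) (Fin 3) S)).trace = 3 := by
    rw [Matrix.trace_one]; simp
  rw [h2, Matrix.trace_add, Matrix.trace_sub, Matrix.trace_add, Matrix.trace_sub,
    Matrix.trace_smul, Matrix.trace_smul, Matrix.trace_smul, Matrix.trace_smul, h3]
  simp only [smul_eq_mul]
  have h4 := p4 (Am F)
  simp only [f2, f3]
  linear_combination h4

theorem PP_trace (x y : S) :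
    (Pm F x y * Pm F x y).trace = ∑ c, ∑ d, Pm F x y c d * Pm F x y c d := by
  have hT : (Pm F x y)ᵀ = Pm F x y := by
    have hA := Am_T F
    have h1 : ∀ z : S, (Am F - z • (1 : Matrix (Fin 3) (Fin 3) S))ᵀ =
        Am F - z • (1 : Matrix (Fin 3) (Fin 3) S) := by
      intro z
      rw [Matrix.transpose_sub, Matrix.transpose_smul, Matrix.transpose_one, hA]
    rw [Pm, Matrix.transpose_mul, h1, h1]
    simp only [Matrix.sub_mul, Matrix.mul_sub, Matrix.smul_mul, Matrix.mul_smul, Matrix.one_mul,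
      Matrix.mul_one]
    module
  rw [Matrix.trace]
  refine sum_congr rfl fun c _ => ?_
  rw [Matrix.diag_apply, Matrix.mul_apply]
  refine sum_congr rfl fun d _ => ?_
  congr 1
  exact (congrFun (congrFun hT d) c).symm

/-- **the end game at a point.** -/
theorem ev_NN_zero {lam : ℝ} (hlam : 0 < lam) (hE : F.Einstein (algebraMap ℝ S lam))
    (h2 : ∀ k, F.D k (f2 F) = 0) (h3 : ∀ k, F.D k (f3 F) = 0)
    (hP : ∀ x y : ℝ, (Pm F (algebraMap ℝ S x) (algebraMap ℝ S y)).map φ = 0 →
      Pm F (algebraMap ℝ S x) (algebraMap ℝ S y) = 0) (k : Fin 4) (c d : Fin 3) :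
    φ (F.NN k c d) = 0 := by
  have l2 : F.lap0 (f2 F) = 0 := by
    simp only [lap0, hess0, h2, map_zero, mul_zero, sum_const_zero, sub_zero]
  have l3 : F.lap0 (f3 F) = 0 := by
    simp only [lap0, hess0, h3, map_zero, mul_zero, sum_const_zero, sub_zero]
  rw [lap_f2] at l2
  rw [lap_f3] at l3
  have e2 : φ (2 : S) = 2 := map_ofNat φ 2
  have e3 : φ (3 : S) = 3 := map_ofNat φ 3
  have e6 : φ (6 : S) = 6 := map_ofNat φ 6
  have hsub : ∀ z : ℝ, (Am F - (algebraMap ℝ S z) • (1 : Matrix (Fin 3) (Fin 3) S)).map φ =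
      (Am F).map φ - z • (1 : Matrix (Fin 3) (Fin 3) ℝ) := by
    intro z
    ext i j
    simp only [Matrix.map_apply, Matrix.sub_apply, Matrix.smul_apply, smul_eq_mul, map_sub,
      map_mul, AlgHom.commutes, Matrix.one_apply]
    split_ifs <;> simp
  have key := End_805.endgame cliff (A := (Am F).map φ) (T := fun k => (Nm F k).map φ) ?_ ?_ ?_ ?_
    ?_ ?_ ?_ (L := (Lm F).map φ) ?_ ?_ ?_ ?_
  · have h := congrFun (congrFun (key k) c) d
    exact h
  · rw [← Matrix.transpose_map, Am_T]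
  · intro k
    rw [← Matrix.transpose_map, Nm_T]
  · rw [← ev_trace, Am_trace F hE, AlgHom.commutes]
    exact hlam
  · intro i
    exact bianchi F hE φ i
  · intro k
    rw [← ev_trace, Nm_trace F hE, map_zero]
  · intro k
    have h := congrArg φ (h2 k)
    rw [D_f2, map_mul, map_zero, e2, ev_trace, map_mul3] at h
    linarith
  · intro k
    have h := congrArg φ (h3 k)
    rw [D_f3, map_mul, map_zero, e3, ev_trace, map_mul3, map_mul3] at h
    linarith
  · rw [Lm_formula F hE]
    ext i j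
    simp only [Matrix.map_apply, Matrix.sub_apply, Matrix.smul_apply, smul_eq_mul, map_sub,
      map_mul, map_pow, ev_trace, map_mul3, e6, e2, Matrix.mul_apply, map_sum, Matrix.one_apply]
    split_ifs <;> simp
  · have h := congrArg φ l2
    rw [map_add, map_mul, map_mul, map_zero, map_sum, e2, ev_trace, map_mul3] at h
    simp only [ev_trace, map_mul3] at h
    linarith
  · have h := congrArg φ l3
    rw [map_add, map_mul, map_mul, map_zero, map_sum, e3, e6, ev_trace, map_mul3, map_mul3] at h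
    simp only [ev_trace, map_mul3] at h
    linarith
  · intro x y hxy k
    have h0 : (Pm F (algebraMap ℝ S x) (algebraMap ℝ S y)).map φ = 0 := by
      rw [Pm, map_mul3, hsub, hsub]
      exact hxy
    have h1 := hP x y h0
    have h2 : F.covE F.sdc k (Pm F (algebraMap ℝ S x) (algebraMap ℝ S y)) =
        Nm F k * (Am F - (algebraMap ℝ S y) • (1 : Matrix (Fin 3) (Fin 3) S)) +
        (Am F - (algebraMap ℝ S x) • (1 : Matrix (Fin 3) (Fin 3) S)) * Nm F k := by
      have hc : ∀ z : ℝ, F.covE F.sdc k (Am F - (algebraMap ℝ S z) •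
          (1 : Matrix (Fin 3) (Fin 3) S)) = Nm F k := by
        intro z
        have e : Am F - (algebraMap ℝ S z) • (1 : Matrix (Fin 3) (Fin 3) S) =
            Am F + (algebraMap ℝ S (-z)) • (1 : Matrix (Fin 3) (Fin 3) S) := by
          rw [map_neg, neg_smul, sub_eq_add_neg]
        rw [e, covE_add, covE_smul, covE_one, Derivation.map_algebraMap, covE_Am, zero_smul,
          smul_zero, add_zero, add_zero]
      rw [Pm, covE_mul, hc, hc]
    have h3 : F.covE F.sdc k (0 : Matrix (Fin 3) (Fin 3) S) = 0 := by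
      ext i j
      simp [covE]
    rw [h1, h3] at h2
    have h4 : (0 : Matrix (Fin 3) (Fin 3) S).map φ =
        (Nm F k * (Am F - (algebraMap ℝ S y) • (1 : Matrix (Fin 3) (Fin 3) S)) +
        (Am F - (algebraMap ℝ S x) • (1 : Matrix (Fin 3) (Fin 3) S)) * Nm F k).map φ := by
      rw [← h2]
    have h5 : ∀ X Y : Matrix (Fin 3) (Fin 3) S, (X + Y).map φ = X.map φ + Y.map φ := by
      intro X Y; ext i j; simp
    rw [h5, map_mul3, map_mul3, hsub, hsub] at h4
    rw [← h4]
    ext i j; simp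

end Crest.Agent.R249.Kg2_285
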