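import Mathlib

/-!
Row 249 (helper49), linear algebra of symmetric 3 × 3 matrices (Blueprint_49, B6, B7, B10, B11).

* `exists_diag` : orthogonal diagonalisation.
* `det_sq_le` : `54 det W² ≤ |W|⁶` for trace-free symmetric `W`; `det_le`.
* `quad_of_det_eq` : equality case, `W² = w W + 2 w²`.
* `sqrt_add_sqrt_le` : the constraint `|A - lam/3| + |C - lam/3| ≤ 2 lam √(2/3)` from `sec ≥ 0`.
* `parallel_alg` : `2 lam W - 6 W² + 2 |W|² = 0`, `tr W = 0` forces `W = 0` or `A² = lam A`.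
-/

set_option autoImplicit false

open Matrix Finset

namespace Crest.Agent.R249.LA49

/-- squared Frobenius norm. -/
def nsq (W : Matrix (Fin 3) (Fin 3) ℝ) : ℝ := ∑ i, ∑ j, W i j ^ 2

lemma nsq_nonneg (W : Matrix (Fin 3) (Fin 3) ℝ) : 0 ≤ nsq W :=
  sum_nonneg fun _ _ => sum_nonneg fun _ _ => sq_nonneg _

lemma nsq_eq_trace (W : Matrix (Fin 3) (Fin 3) ℝ) : nsq W = (W * Wᵀ).trace := by
  simp only [nsq, trace, diag_apply, mul_apply, transpose_apply, sq]

lemma nsq_eq_zero {W : Matrix (Fin 3) (Fin 3) ℝ} (h : nsq W = 0) : W = 0 := by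
  ext i j
  have h1 := (sum_eq_zero_iff_of_nonneg
    (fun _ _ => sum_nonneg fun _ _ => sq_nonneg _)).1 h i (mem_univ _)
  have h2 := (sum_eq_zero_iff_of_nonneg (fun _ _ => sq_nonneg _)).1 h1 j (mem_univ _)
  simpa using h2

/-- orthogonal diagonalisation of a real symmetric matrix. -/
theorem exists_diag {W : Matrix (Fin 3) (Fin 3) ℝ} (hW : Wᵀ = W) :
    ∃ (U : Matrix (Fin 3) (Fin 3) ℝ) (d : Fin 3 → ℝ), Uᵀ * U = 1 ∧ U * Uᵀ = 1 ∧
      W = U * diagonal d * Uᵀ := by
  have hH : W.IsHermitian := by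
    rw [Matrix.IsHermitian, conjTranspose_eq_transpose_of_trivial, hW]
  refine ⟨(hH.eigenvectorUnitary : Matrix (Fin 3) (Fin 3) ℝ), hH.eigenvalues, ?_, ?_, ?_⟩
  · have := Unitary.coe_star_mul_self hH.eigenvectorUnitary
    rwa [star_eq_conjTranspose, conjTranspose_eq_transpose_of_trivial] at this
  · have := Unitary.coe_mul_star_self hH.eigenvectorUnitary
    rwa [Unitary.coe_star, star_eq_conjTranspose, conjTranspose_eq_transpose_of_trivial] at this
  · have := hH.spectral_theorem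
    rw [Unitary.conjStarAlgAut_apply] at this
    rw [← conjTranspose_eq_transpose_of_trivial, ← star_eq_conjTranspose]
    simpa using this

section diag

variable {U : Matrix (Fin 3) (Fin 3) ℝ} {d : Fin 3 → ℝ}

lemma trace_conj (h1 : Uᵀ * U = 1) (D : Matrix (Fin 3) (Fin 3) ℝ) :
    (U * D * Uᵀ).trace = D.trace := by
  rw [mul_assoc, trace_mul_comm, mul_assoc, h1, mul_one]

lemma det_conj (h1 : Uᵀ * U = 1) (D : Matrix (Fin 3) (Fin 3) ℝ) :
    (U * D * Uᵀ).det = D.det := by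
  have h := congrArg det h1
  rw [det_mul, det_one, det_transpose] at h
  rw [det_mul, det_mul, det_transpose]
  linear_combination D.det * h

lemma conj_mul (h1 : Uᵀ * U = 1) (D E : Matrix (Fin 3) (Fin 3) ℝ) :
    (U * D * Uᵀ) * (U * E * Uᵀ) = U * (D * E) * Uᵀ := by
  calc (U * D * Uᵀ) * (U * E * Uᵀ) = U * D * (Uᵀ * U) * E * Uᵀ := by simp only [mul_assoc]
    _ = U * (D * E) * Uᵀ := by rw [h1, mul_one]; simp only [mul_assoc]

lemma trace_diag (d : Fin 3 → ℝ) : (diagonal d).trace = d 0 + d 1 + d 2 := by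
  rw [trace_diagonal, Fin.sum_univ_three]

lemma det_diag (d : Fin 3 → ℝ) : (diagonal d).det = d 0 * d 1 * d 2 := by
  rw [det_diagonal, Fin.prod_univ_three]

lemma nsq_conj (h1 : Uᵀ * U = 1) :
    nsq (U * diagonal d * Uᵀ) = d 0 ^ 2 + d 1 ^ 2 + d 2 ^ 2 := by
  have hT : (U * diagonal d * Uᵀ)ᵀ = U * diagonal d * Uᵀ := by
    simp only [transpose_mul, transpose_transpose, diagonal_transpose, mul_assoc]
  rw [nsq_eq_trace, hT, conj_mul h1, trace_conj h1, diagonal_mul_diagonal, trace_diag]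
  ring

lemma one_conj (h2 : U * Uᵀ = 1) (c : ℝ) :
    c • (1 : Matrix (Fin 3) (Fin 3) ℝ) = U * diagonal (fun _ => c) * Uᵀ := by
  have : diagonal (fun _ : Fin 3 => c) = c • (1 : Matrix (Fin 3) (Fin 3) ℝ) := by
    rw [smul_one_eq_diagonal]
  rw [this, Matrix.mul_smul, mul_one, Matrix.smul_mul, h2]

lemma add_conj (d e : Fin 3 → ℝ) :
    U * diagonal d * Uᵀ + U * diagonal e * Uᵀ = U * diagonal (d + e) * Uᵀ := by
  rw [← add_mul, ← mul_add, diagonal_add]; rfl

lemma smul_conj (c : ℝ) (d : Fin 3 → ℝ) :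
    c • (U * diagonal d * Uᵀ) = U * diagonal (c • d) * Uᵀ := by
  rw [← Matrix.smul_mul, ← Matrix.mul_smul, ← diagonal_smul]

end diag

/-- `54 det W² ≤ |W|⁶` for trace-free symmetric `W`. -/
theorem det_sq_le {W : Matrix (Fin 3) (Fin 3) ℝ} (hW : Wᵀ = W) (h0 : W.trace = 0) :
    54 * W.det ^ 2 ≤ nsq W ^ 3 := by
  obtain ⟨U, d, h1, h2, rfl⟩ := exists_diag hW
  rw [trace_conj h1, trace_diag] at h0
  rw [det_conj h1, det_diag, nsq_conj h1]
  have hc : d 2 = -(d 0 + d 1) := by linarith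
  rw [hc]
  nlinarith [sq_nonneg ((d 0 - d 1) * (d 1 + (d 0 + d 1)) * (-(d 0 + d 1) - d 0))]

/-- `18 det W ≤ √6 |W|³`. -/
theorem det_le {W : Matrix (Fin 3) (Fin 3) ℝ} (hW : Wᵀ = W) (h0 : W.trace = 0) :
    18 * W.det ≤ Real.sqrt 6 * (nsq W * Real.sqrt (nsq W)) := by
  have h := det_sq_le hW h0
  have hn := nsq_nonneg W
  have h3 : (Real.sqrt 6 * (nsq W * Real.sqrt (nsq W))) ^ 2 = 6 * nsq W ^ 3 := by
    rw [mul_pow, mul_pow, Real.sq_sqrt (by norm_num), Real.sq_sqrt hn]; ring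
  refine abs_le_of_sq_le_sq' ?_ (by positivity) |>.2
  rw [h3]
  nlinarith

/-- equality case of `det_le`. -/
theorem quad_of_det_eq {W : Matrix (Fin 3) (Fin 3) ℝ} (hW : Wᵀ = W) (h0 : W.trace = 0)
    {w : ℝ} (hn : nsq W = 6 * w ^ 2) (hd : W.det = 2 * w ^ 3) :
    W * W = w • W + (2 * w ^ 2) • (1 : Matrix (Fin 3) (Fin 3) ℝ) := by
  obtain ⟨U, d, h1, h2, rfl⟩ := exists_diag hW
  rw [trace_conj h1, trace_diag] at h0
  rw [det_conj h1, det_diag] at hd
  rw [nsq_conj h1] at hn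
  rw [conj_mul h1, diagonal_mul_diagonal, one_conj h2, smul_conj, add_conj]
  congr 2
  have key : ∀ a b c : ℝ, a + b + c = 0 → a ^ 2 + b ^ 2 + c ^ 2 = 6 * w ^ 2 → a * b * c = 2 * w ^ 3 →
      a * a = w * a + 2 * w ^ 2 := by
    intro a b c e1 e2 e3
    -- a is a root of x³ - 3w²x - 2w³ = (x + w)²(x - 2w)
    have hc : c = -(a + b) := by linarith
    subst hc
    have e4 : a ^ 2 + a * b + b ^ 2 = 3 * w ^ 2 := by nlinarith
    have e5 : (a + w) ^ 2 * (a - 2 * w) = 0 := by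
      have : a ^ 3 - 3 * w ^ 2 * a - 2 * w ^ 3 = 0 := by
        linear_combination e3 + a * e4
      nlinarith
    rcases mul_eq_zero.1 e5 with h | h
    · have : a = -w := by nlinarith [pow_eq_zero_iff (two_ne_zero) |>.1 h]
      rw [this]; ring
    · have : a = 2 * w := by linarith
      rw [this]; ring
  congr 1
  funext i
  fin_cases i
  · simpa using key (d 0) (d 1) (d 2) h0 hn hd
  · simpa using key (d 1) (d 0) (d 2) (by linarith) (by linarith) (by linarith)
  · simpa using key (d 2) (d 0) (d 1) (by linarith) (by linarith) (by linarith)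

lemma dot_conj {U : Matrix (Fin 3) (Fin 3) ℝ} (h1 : Uᵀ * U = 1) (x y : Fin 3 → ℝ) :
    (U *ᵥ x) ⬝ᵥ (U *ᵥ y) = x ⬝ᵥ y := by
  rw [dotProduct_mulVec, ← mulVec_transpose, mulVec_mulVec, h1, one_mulVec]

/-- a unit vector `v` with `|W| ≤ - √6 ⟨W v, v⟩` (trace-free symmetric `W`). -/
lemma exists_low {W : Matrix (Fin 3) (Fin 3) ℝ} (hW : Wᵀ = W) (h0 : W.trace = 0) :
    ∃ v : Fin 3 → ℝ, v ⬝ᵥ v = 1 ∧ Real.sqrt (nsq W) ≤ - Real.sqrt 6 * (v ⬝ᵥ W *ᵥ v) := by
  obtain ⟨U, d, h1, h2, rfl⟩ := exists_diag hW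
  rw [trace_conj h1, trace_diag] at h0
  obtain ⟨i, -, hi⟩ := exists_min_image univ d ⟨0, mem_univ _⟩
  have hv : (U *ᵥ Pi.single i 1) ⬝ᵥ ((U * diagonal d * Uᵀ) *ᵥ (U *ᵥ Pi.single i 1)) = d i := by
    have : (U * diagonal d * Uᵀ) *ᵥ (U *ᵥ Pi.single i 1) =
        U *ᵥ (diagonal d *ᵥ Pi.single i 1) := by
      rw [mulVec_mulVec, mulVec_mulVec]
      congr 1
      rw [mul_assoc, h1, mul_one]
    rw [this, dot_conj h1]
    simp
  refine ⟨U *ᵥ Pi.single i 1, ?_, ?_⟩
  · rw [dot_conj h1]; simp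
  · rw [hv, nsq_conj h1]
    have hi' : ∀ j, d i ≤ d j := fun j => hi j (mem_univ _)
    have hle : d i ≤ 0 := by
      have := hi' 0; have := hi' 1; have := hi' 2; linarith
    have hsq : d 0 ^ 2 + d 1 ^ 2 + d 2 ^ 2 ≤ 6 * (d i) ^ 2 := by
      have a0 := hi' 0
      have a1 := hi' 1
      have a2 := hi' 2
      have key : ∀ m a b c : ℝ, a + b + c = 0 → m ≤ b → m ≤ c → a = m →
          a ^ 2 + b ^ 2 + c ^ 2 ≤ 6 * m ^ 2 := by
        intro m a b c e1 e2 e3 e4
        subst e4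
        have hc : c = -(a + b) := by linarith
        subst hc
        nlinarith [mul_nonneg (sub_nonneg.2 e2) (sub_nonneg.2 e3)]
      fin_cases i
      · exact key _ _ _ _ h0 a1 a2 rfl
      · have := key _ (d 1) (d 0) (d 2) (by linarith) a0 a2 rfl
        simp only [Fin.mk_one, Fin.isValue] at *
        linarith
      · have := key _ (d 2) (d 0) (d 1) (by linarith) a0 a1 rfl
        simp only [Fin.reduceFinMk, Fin.isValue] at *
        linarith
    calc Real.sqrt (d 0 ^ 2 + d 1 ^ 2 + d 2 ^ 2) ≤ Real.sqrt (6 * (d i) ^ 2) :=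
          Real.sqrt_le_sqrt hsq
      _ = Real.sqrt 6 * |d i| := by rw [Real.sqrt_mul (by norm_num), Real.sqrt_sq_eq_abs]
      _ = - Real.sqrt 6 * d i := by rw [abs_of_nonpos hle]; ring

/-- **the constraint.** If `⟨Aα,α⟩ + ⟨Cβ,β⟩ ≥ 0` for all unit `α, β`, and `tr A = tr C = lam`, then
`|A - lam/3| + |C - lam/3| ≤ 2 lam √(2/3)`. -/
theorem sqrt_add_sqrt_le {A C : Matrix (Fin 3) (Fin 3) ℝ} {lam : ℝ} (hA : Aᵀ = A) (hC : Cᵀ = C)
    (htA : A.trace = lam) (htC : C.trace = lam)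
    (hsec : ∀ α β : Fin 3 → ℝ, α ⬝ᵥ α = 1 → β ⬝ᵥ β = 1 → 0 ≤ α ⬝ᵥ A *ᵥ α + β ⬝ᵥ C *ᵥ β) :
    Real.sqrt (nsq (A - (lam / 3) • (1 : Matrix (Fin 3) (Fin 3) ℝ))) +
      Real.sqrt (nsq (C - (lam / 3) • (1 : Matrix (Fin 3) (Fin 3) ℝ))) ≤
        2 * lam * Real.sqrt (2 / 3) := by
  have tr1 : ((lam / 3) • (1 : Matrix (Fin 3) (Fin 3) ℝ)).trace = lam := by
    rw [trace_smul, trace_one]; simp
  have symm1 : ∀ {B : Matrix (Fin 3) (Fin 3) ℝ}, Bᵀ = B →
      (B - (lam / 3) • (1 : Matrix (Fin 3) (Fin 3) ℝ))ᵀ = B - (lam / 3) • 1 := by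
    intro B hB
    rw [transpose_sub, hB, transpose_smul, transpose_one]
  have quad1 : ∀ (B : Matrix (Fin 3) (Fin 3) ℝ) (v : Fin 3 → ℝ), v ⬝ᵥ v = 1 →
      v ⬝ᵥ (B - (lam / 3) • (1 : Matrix (Fin 3) (Fin 3) ℝ)) *ᵥ v = v ⬝ᵥ B *ᵥ v - lam / 3 := by
    intro B v hv
    rw [sub_mulVec, smul_mulVec, one_mulVec, dotProduct_sub, dotProduct_smul, hv, smul_eq_mul,
      mul_one]
  obtain ⟨α, hα, hα'⟩ := exists_low (symm1 hA) (by rw [trace_sub, htA, tr1, sub_self])
  obtain ⟨β, hβ, hβ'⟩ := exists_low (symm1 hC) (by rw [trace_sub, htC, tr1, sub_self])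
  rw [quad1 A α hα] at hα'
  rw [quad1 C β hβ] at hβ'
  have h := hsec α β hα hβ
  have h6 : Real.sqrt 6 = 3 * Real.sqrt (2 / 3) := by
    rw [show (6 : ℝ) = 3 ^ 2 * (2 / 3) by norm_num, Real.sqrt_mul (by norm_num),
      Real.sqrt_sq (by norm_num)]
  have h23 := Real.sqrt_nonneg (2 / 3)
  rw [h6] at hα' hβ'
  nlinarith [mul_nonneg h23 h]

/-- the algebraic equation of a parallel `W`. -/
theorem parallel_alg {W : Matrix (Fin 3) (Fin 3) ℝ} {lam : ℝ} (hW : Wᵀ = W) (h0 : W.trace = 0)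
    (hE : (2 * lam) • W - (6 : ℝ) • (W * W) + (2 * nsq W) • (1 : Matrix (Fin 3) (Fin 3) ℝ) = 0) :
    W = 0 ∨ (nsq W = 2 / 3 * lam ^ 2 ∧
      W * W = (lam / 3) • W + (2 * (lam / 3) ^ 2) • (1 : Matrix (Fin 3) (Fin 3) ℝ)) := by
  have hsq : W * W = (lam / 3) • W + (nsq W / 3) • (1 : Matrix (Fin 3) (Fin 3) ℝ) := by
    have : (6 : ℝ) • (W * W) = (2 * lam) • W + (2 * nsq W) • (1 : Matrix (Fin 3) (Fin 3) ℝ) := by
      have := sub_eq_zero.1 (show (2 * lam) • W + (2 * nsq W) • (1 : Matrix (Fin 3) (Fin 3) ℝ)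
        - (6 : ℝ) • (W * W) = 0 by rw [← hE]; abel)
      exact this.symm
    calc W * W = (1 / 6 : ℝ) • ((6 : ℝ) • (W * W)) := by rw [smul_smul]; norm_num
      _ = _ := by
        rw [this, smul_add, smul_smul, smul_smul]
        congr 2 <;> ring
  obtain ⟨U, d, h1, h2, rfl⟩ := exists_diag hW
  rw [trace_conj h1, trace_diag] at h0
  rw [conj_mul h1, diagonal_mul_diagonal, one_conj h2, smul_conj, add_conj] at hsq
  have hd : ∀ i, d i * d i = lam / 3 * d i + nsq (U * diagonal d * Uᵀ) / 3 := by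
    have e1 : Uᵀ * (U * diagonal (fun i => d i * d i) * Uᵀ) * U =
        diagonal (fun i => d i * d i) := by
      calc Uᵀ * (U * diagonal (fun i => d i * d i) * Uᵀ) * U
          = (Uᵀ * U) * diagonal (fun i => d i * d i) * (Uᵀ * U) := by simp only [mul_assoc]
        _ = _ := by rw [h1, one_mul, mul_one]
    have e2 : ∀ e : Fin 3 → ℝ, Uᵀ * (U * diagonal e * Uᵀ) * U = diagonal e := by
      intro e
      calc Uᵀ * (U * diagonal e * Uᵀ) * U
          = (Uᵀ * U) * diagonal e * (Uᵀ * U) := by simp only [mul_assoc]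
        _ = _ := by rw [h1, one_mul, mul_one]
    rw [hsq, e2] at e1
    intro i
    have := congrFun (diagonal_injective e1) i
    simp only [Pi.add_apply, Pi.smul_apply, smul_eq_mul] at this
    linarith
  rw [nsq_conj h1] at hd ⊢
  set N := d 0 ^ 2 + d 1 ^ 2 + d 2 ^ 2 with hN
  have e0 := hd 0
  have e1 := hd 1
  have e2 := hd 2
  by_cases hz : N = 0
  · left
    have : d = 0 := by
      funext i
      have h00 : d 0 = 0 := by nlinarith [sq_nonneg (d 0), sq_nonneg (d 1), sq_nonneg (d 2)]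
      have h01 : d 1 = 0 := by nlinarith [sq_nonneg (d 0), sq_nonneg (d 1), sq_nonneg (d 2)]
      have h02 : d 2 = 0 := by nlinarith [sq_nonneg (d 0), sq_nonneg (d 1), sq_nonneg (d 2)]
      fin_cases i <;> assumption
    rw [this]; simp
  · right
    have hNN : N = 2 / 3 * lam ^ 2 := by
      -- two of the three numbers coincide
      have f01 : (d 0 - d 1) * (d 0 + d 1 - lam / 3) = 0 := by linear_combination e0 - e1
      have f02 : (d 0 - d 2) * (d 0 + d 2 - lam / 3) = 0 := by linear_combination e0 - e2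
      have f12 : (d 1 - d 2) * (d 1 + d 2 - lam / 3) = 0 := by linear_combination e1 - e2
      have hc : d 2 = -(d 0 + d 1) := by linarith
      rcases mul_eq_zero.1 f01 with g01 | g01
      · -- d0 = d1 = a, d2 = -2a
        have ha : d 1 = d 0 := by linarith
        have hc' : d 2 = -2 * d 0 := by linarith
        rw [ha, hc'] at hN
        have : d 0 ≠ 0 := by
          intro h; apply hz; rw [hN, h]; ring
        rw [hN] at e0
        have h3 : d 0 = - lam / 3 := by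
          have : d 0 * (d 0 + lam / 3) = 0 := by nlinarith
          rcases mul_eq_zero.1 this with h | h
          · exact absurd h ‹_›
          · linarith
        rw [hN, h3]; ring
      · have hc' : d 2 = - lam / 3 := by linarith
        rcases mul_eq_zero.1 f02 with g02 | g02
        · have : d 0 = - lam / 3 := by linarith
          have h1' : d 1 = 2 * lam / 3 := by linarith
          rw [hN, this, h1', hc']; ring
        · have : d 0 = 2 * lam / 3 := by linarith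
          have h1' : d 1 = - lam / 3 := by linarith
          rw [hN, this, h1', hc']; ring
    refine ⟨hNN, ?_⟩
    rw [conj_mul h1, diagonal_mul_diagonal, one_conj h2, smul_conj, add_conj]
    congr 3
    funext i
    simp only [Pi.add_apply, Pi.smul_apply, smul_eq_mul]
    rw [hd i, hNN]; ring

/-- `A² = lam A` from the quadratic equation of `W = A - lam/3`. -/
theorem sq_eq_of_quad {A : Matrix (Fin 3) (Fin 3) ℝ} {lam : ℝ}
    (h : (A - (lam / 3) • (1 : Matrix (Fin 3) (Fin 3) ℝ)) * (A - (lam / 3) • 1) =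
      (lam / 3) • (A - (lam / 3) • (1 : Matrix (Fin 3) (Fin 3) ℝ)) +
        (2 * (lam / 3) ^ 2) • (1 : Matrix (Fin 3) (Fin 3) ℝ)) :
    A * A = lam • A := by
  have e : (A - (lam / 3) • (1 : Matrix (Fin 3) (Fin 3) ℝ)) * (A - (lam / 3) • 1) =
      A * A - (2 * lam / 3) • A + (lam / 3) ^ 2 • (1 : Matrix (Fin 3) (Fin 3) ℝ) := by
    rw [sub_mul, mul_sub, mul_sub, Matrix.mul_smul, Matrix.smul_mul, Matrix.smul_mul, mul_one,
      one_mul, Matrix.mul_smul, mul_one, smul_smul]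
    rw [show (2 * lam / 3) • A = (lam / 3) • A + (lam / 3) • A by rw [← add_smul]; congr 1; ring,
      show (lam / 3) ^ 2 = lam / 3 * (lam / 3) by ring]
    abel
  rw [e] at h
  have h2 : A * A = (lam / 3) • (A - (lam / 3) • (1 : Matrix (Fin 3) (Fin 3) ℝ)) +
      (2 * (lam / 3) ^ 2) • (1 : Matrix (Fin 3) (Fin 3) ℝ) + (2 * lam / 3) • A -
        (lam / 3) ^ 2 • (1 : Matrix (Fin 3) (Fin 3) ℝ) := by
    rw [← h]; abel
  rw [h2, smul_sub, smul_smul]
  have h3 : (lam : ℝ) • A = (lam / 3) • A + (2 * lam / 3) • A := by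
    rw [← add_smul]; congr 1; ring
  rw [h3]
  have h4 : (2 * (lam / 3) ^ 2) • (1 : Matrix (Fin 3) (Fin 3) ℝ) =
      (lam / 3 * (lam / 3)) • 1 + (lam / 3) ^ 2 • 1 := by
    rw [← add_smul]; congr 1; ring
  rw [h4]
  abel

/-- a symmetric `A` with `A² = lam A`, `tr A = lam ≠ 0` is `lam` times a rank one projection. -/
theorem exists_unit_of_sq {A : Matrix (Fin 3) (Fin 3) ℝ} {lam : ℝ} (hA : Aᵀ = A)
    (hl : lam ≠ 0) (ht : A.trace = lam) (h : A * A = lam • A) :
    ∃ v : Fin 3 → ℝ, v ⬝ᵥ v = 1 ∧ A = lam • vecMulVec v v := by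
  obtain ⟨U, d, h1, h2, rfl⟩ := exists_diag hA
  rw [trace_conj h1, trace_diag] at ht
  rw [conj_mul h1, diagonal_mul_diagonal, smul_conj] at h
  have e2 : ∀ e : Fin 3 → ℝ, Uᵀ * (U * diagonal e * Uᵀ) * U = diagonal e := by
    intro e
    calc Uᵀ * (U * diagonal e * Uᵀ) * U
        = (Uᵀ * U) * diagonal e * (Uᵀ * U) := by simp only [mul_assoc]
      _ = _ := by rw [h1, one_mul, mul_one]
  have h3 := congrArg (fun X => Uᵀ * X * U) h
  simp only [e2] at h3
  have hd : ∀ i, d i = 0 ∨ d i = lam := by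
    intro i
    have := congrFun (diagonal_injective h3) i
    simp only [Pi.smul_apply, smul_eq_mul] at this
    have : d i * (d i - lam) = 0 := by linear_combination this
    rcases mul_eq_zero.1 this with h | h
    · exact Or.inl h
    · exact Or.inr (by linarith)
  have hex : ∃ i, d = fun j => if j = i then lam else 0 := by
    rcases hd 0 with a | a <;> rcases hd 1 with b | b <;> rcases hd 2 with c | c <;>
      rw [a, b, c] at ht
    · exact absurd (by linarith) hl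
    · refine ⟨2, funext fun j => ?_⟩
      fin_cases j <;> simp [a, b, c]
    · refine ⟨1, funext fun j => ?_⟩
      fin_cases j <;> simp [a, b, c]
    · exact absurd (by linarith) hl
    · refine ⟨0, funext fun j => ?_⟩
      fin_cases j <;> simp [a, b, c]
    · exact absurd (by linarith) hl
    · exact absurd (by linarith) hl
    · exact absurd (by linarith) hl
  obtain ⟨i, hi⟩ := hex
  refine ⟨U *ᵥ Pi.single i 1, ?_, ?_⟩
  · rw [dot_conj h1]; simp
  · subst hi
    ext a b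
    have hv : U *ᵥ Pi.single i 1 = fun k => U k i := by
      funext k; rw [mulVec_single_one]; rfl
    rw [hv, Matrix.smul_apply, vecMulVec_apply, smul_eq_mul, mul_apply]
    simp only [mul_apply, diagonal_apply, transpose_apply, mul_ite, mul_zero, sum_ite_eq',
      mem_univ, if_true, ite_mul, zero_mul]
    fin_cases i <;> simp <;> ring

end Crest.Agent.R249.LA49
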