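import Mathlib

/-!
Row 249, leaf D3-LIM/L-PT (helper191), file 1: pointwise linear algebra of a family of vectors
`g : ι → E` which is almost orthonormal, `F a b = ⟪g a, g b⟫`.  Everything is expressed through
`F⁻¹` and the pairings with the `g c`.
-/

set_option autoImplicit false
set_option linter.unusedSectionVars false

open Finset

noncomputable section

namespace Crest.Agent.R249.LPt_191

/-! ### `ℓ¹` norm of matrices and Neumann bounds -/

section Mat

variable {ι : Type*} [Fintype ι] [DecidableEq ι]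

/-- the `ℓ¹` norm of a matrix. -/
def N1 (A : Matrix ι ι ℝ) : ℝ := ∑ a, ∑ b, |A a b|

lemma N1_nonneg (A : Matrix ι ι ℝ) : 0 ≤ N1 A :=
  Finset.sum_nonneg fun _ _ => Finset.sum_nonneg fun _ _ => abs_nonneg _

lemma abs_le_N1 (A : Matrix ι ι ℝ) (a b : ι) : |A a b| ≤ N1 A := by
  have h1 : |A a b| ≤ ∑ b, |A a b| :=
    Finset.single_le_sum (f := fun b => |A a b|) (fun _ _ => abs_nonneg _) (Finset.mem_univ b)
  refine h1.trans ?_
  exact Finset.single_le_sum (f := fun a => ∑ b, |A a b|)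
    (fun _ _ => Finset.sum_nonneg fun _ _ => abs_nonneg _) (Finset.mem_univ a)

lemma N1_add_le (A B : Matrix ι ι ℝ) : N1 (A + B) ≤ N1 A + N1 B := by
  simp only [N1]
  rw [← Finset.sum_add_distrib]
  refine Finset.sum_le_sum fun a _ => ?_
  rw [← Finset.sum_add_distrib]
  exact Finset.sum_le_sum fun b _ => abs_add_le _ _

lemma N1_neg (A : Matrix ι ι ℝ) : N1 (-A) = N1 A := by
  simp only [N1, Matrix.neg_apply, abs_neg]

lemma N1_mul_le (A B : Matrix ι ι ℝ) : N1 (A * B) ≤ N1 A * N1 B := by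
  have h1 : ∀ a b, |(A * B) a b| ≤ ∑ c, |A a c| * |B c b| := by
    intro a b
    rw [Matrix.mul_apply]
    refine (Finset.abs_sum_le_sum_abs _ _).trans (le_of_eq ?_)
    exact Finset.sum_congr rfl fun c _ => abs_mul _ _
  calc N1 (A * B) ≤ ∑ a, ∑ b, ∑ c, |A a c| * |B c b| :=
        Finset.sum_le_sum fun a _ => Finset.sum_le_sum fun b _ => h1 a b
    _ = ∑ a, ∑ c, |A a c| * ∑ b, |B c b| := by
        refine Finset.sum_congr rfl fun a _ => ?_
        rw [Finset.sum_comm]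
        exact Finset.sum_congr rfl fun c _ => (Finset.mul_sum _ _ _).symm
    _ ≤ ∑ a, ∑ c, |A a c| * N1 B := by
        refine Finset.sum_le_sum fun a _ => Finset.sum_le_sum fun c _ => ?_
        refine mul_le_mul_of_nonneg_left ?_ (abs_nonneg _)
        exact Finset.single_le_sum (f := fun c => ∑ b, |B c b|)
          (fun _ _ => Finset.sum_nonneg fun _ _ => abs_nonneg _) (Finset.mem_univ c)
    _ = N1 A * N1 B := by
        simp only [N1]
        rw [Finset.sum_mul]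
        exact Finset.sum_congr rfl fun a _ => (Finset.sum_mul _ _ _).symm

/-- a matrix close to `1` is invertible. -/
theorem det_ne_zero {F : Matrix ι ι ℝ} (h : N1 (F - 1) < 1) : F.det ≠ 0 := by
  intro h0
  obtain ⟨v, hv0, hv⟩ := Matrix.exists_mulVec_eq_zero_iff.2 h0
  have h1 : ∀ a, v a = - ∑ b, (F - 1) a b * v b := by
    intro a
    have h2 := congrFun hv a
    simp only [Matrix.mulVec, dotProduct, Pi.zero_apply] at h2
    have h3 : ∑ b, (F - 1) a b * v b = ∑ b, F a b * v b - v a := by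
      simp only [Matrix.sub_apply, sub_mul, Finset.sum_sub_distrib, Matrix.one_apply, ite_mul,
        one_mul, zero_mul, Finset.sum_ite_eq, Finset.mem_univ, if_true]
    rw [h3, h2]; ring
  have h4 : ∑ a, |v a| ≤ N1 (F - 1) * ∑ a, |v a| := by
    calc ∑ a, |v a| ≤ ∑ a, ∑ b, |(F - 1) a b| * |v b| := by
          refine Finset.sum_le_sum fun a _ => ?_
          rw [h1 a, abs_neg]
          refine (Finset.abs_sum_le_sum_abs _ _).trans (le_of_eq ?_)
          exact Finset.sum_congr rfl fun c _ => abs_mul _ _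
      _ ≤ ∑ a, ∑ b, |(F - 1) a b| * ∑ a, |v a| := by
          refine Finset.sum_le_sum fun a _ => Finset.sum_le_sum fun b _ => ?_
          refine mul_le_mul_of_nonneg_left ?_ (abs_nonneg _)
          exact Finset.single_le_sum (f := fun b => |v b|) (fun _ _ => abs_nonneg _)
            (Finset.mem_univ b)
      _ = N1 (F - 1) * ∑ a, |v a| := by
          simp only [N1]
          rw [Finset.sum_mul]
          exact Finset.sum_congr rfl fun a _ => (Finset.sum_mul _ _ _).symm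
  have h5 : 0 ≤ ∑ a, |v a| := Finset.sum_nonneg fun _ _ => abs_nonneg _
  have h6 : ∑ a, |v a| = 0 := by
    by_contra h7
    have h8 : 0 < ∑ a, |v a| := lt_of_le_of_ne h5 (Ne.symm h7)
    nlinarith
  apply hv0
  funext a
  have h7 := (Finset.sum_eq_zero_iff_of_nonneg (fun _ _ => abs_nonneg _)).1 h6 a (Finset.mem_univ a)
  exact abs_eq_zero.1 h7

/-- the inverse of a matrix close to `1` is close to `1`. -/
theorem N1_inv_sub_one_le {F : Matrix ι ι ℝ} (h : N1 (F - 1) ≤ 1 / 2) :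
    N1 (F⁻¹ - 1) ≤ 2 * N1 (F - 1) := by
  have hd : IsUnit F.det := isUnit_iff_ne_zero.2 (det_ne_zero (lt_of_le_of_lt h (by norm_num)))
  have h1 : F⁻¹ - 1 = -(F - 1) + -((F⁻¹ - 1) * (F - 1)) := by
    have h2 : F⁻¹ * F = 1 := Matrix.nonsing_inv_mul F hd
    have h3 : (F⁻¹ - 1) * (F - 1) = 1 - F⁻¹ - F + 1 := by
      rw [sub_mul, mul_sub, mul_sub, h2]
      simp only [mul_one, one_mul]
      abel
    rw [h3]; abel
  have h2 : N1 (F⁻¹ - 1) ≤ N1 (F - 1) + N1 (F⁻¹ - 1) * N1 (F - 1) := by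
    calc N1 (F⁻¹ - 1) = N1 (-(F - 1) + -((F⁻¹ - 1) * (F - 1))) := by rw [← h1]
      _ ≤ N1 (-(F - 1)) + N1 (-((F⁻¹ - 1) * (F - 1))) := N1_add_le _ _
      _ = N1 (F - 1) + N1 ((F⁻¹ - 1) * (F - 1)) := by rw [N1_neg, N1_neg]
      _ ≤ N1 (F - 1) + N1 (F⁻¹ - 1) * N1 (F - 1) := by
          have := N1_mul_le (F⁻¹ - 1) (F - 1)
          linarith
  have h3 := N1_nonneg (F⁻¹ - 1)
  nlinarith

theorem abs_inv_sub_one_le {F : Matrix ι ι ℝ} (h : N1 (F - 1) ≤ 1 / 2) (a b : ι) :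
    |F⁻¹ a b - (1 : Matrix ι ι ℝ) a b| ≤ 2 * N1 (F - 1) :=
  (abs_le_N1 (F⁻¹ - 1) a b).trans (N1_inv_sub_one_le h)

theorem abs_inv_le_two {F : Matrix ι ι ℝ} (h : N1 (F - 1) ≤ 1 / 2) (a b : ι) :
    |F⁻¹ a b| ≤ 2 := by
  have h1 := abs_inv_sub_one_le h a b
  have h2 : |(1 : Matrix ι ι ℝ) a b| ≤ 1 := by
    rw [Matrix.one_apply]; split_ifs <;> simp
  have h3 : |F⁻¹ a b| ≤ |F⁻¹ a b - (1 : Matrix ι ι ℝ) a b| + |(1 : Matrix ι ι ℝ) a b| := by
    have := abs_add_le (F⁻¹ a b - (1 : Matrix ι ι ℝ) a b) ((1 : Matrix ι ι ℝ) a b)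
    simpa using this
  linarith

/-- `ℓ¹` against `ℓ²` for four index sums. -/
lemma abs_quad_le {F : Matrix ι ι ℝ} {C : ℝ} (hC : 0 ≤ C) (hF : ∀ a b, |F a b| ≤ C)
    (K L : ι → ι → ℝ) :
    |∑ c, ∑ d, ∑ e, ∑ f, F c e * F d f * K c d * L e f| ≤
      C ^ 2 * (∑ c, ∑ d, |K c d|) * ∑ e, ∑ f, |L e f| := by
  have h0 : ∀ c d e f, |F c e * F d f * K c d * L e f| ≤ C ^ 2 * |K c d| * |L e f| := by
    intro c d e f
    rw [abs_mul, abs_mul, abs_mul]
    have h1 : |F c e| * |F d f| ≤ C * C := mul_le_mul (hF _ _) (hF _ _) (abs_nonneg _) hC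
    have h2 : |F c e| * |F d f| * |K c d| ≤ C * C * |K c d| :=
      mul_le_mul_of_nonneg_right h1 (abs_nonneg _)
    have h3 := mul_le_mul_of_nonneg_right h2 (abs_nonneg (L e f))
    calc |F c e| * |F d f| * |K c d| * |L e f| ≤ C * C * |K c d| * |L e f| := h3
      _ = C ^ 2 * |K c d| * |L e f| := by ring
  calc |∑ c, ∑ d, ∑ e, ∑ f, F c e * F d f * K c d * L e f|
      ≤ ∑ c, ∑ d, ∑ e, ∑ f, C ^ 2 * |K c d| * |L e f| := by
        refine (Finset.abs_sum_le_sum_abs _ _).trans (Finset.sum_le_sum fun c _ => ?_)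
        refine (Finset.abs_sum_le_sum_abs _ _).trans (Finset.sum_le_sum fun d _ => ?_)
        refine (Finset.abs_sum_le_sum_abs _ _).trans (Finset.sum_le_sum fun e _ => ?_)
        exact (Finset.abs_sum_le_sum_abs _ _).trans (Finset.sum_le_sum fun f _ => h0 c d e f)
    _ = C ^ 2 * (∑ c, ∑ d, |K c d|) * ∑ e, ∑ f, |L e f| := by
        have h1 : ∀ c d, ∑ e, ∑ f, C ^ 2 * |K c d| * |L e f| =
            C ^ 2 * |K c d| * ∑ e, ∑ f, |L e f| := by
          intro c d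
          rw [Finset.mul_sum]
          exact Finset.sum_congr rfl fun e _ => (Finset.mul_sum _ _ _).symm
        simp only [← Finset.sum_mul, ← Finset.mul_sum]

lemma sum_abs_sq_le (K : ι → ι → ℝ) :
    (∑ c, ∑ d, |K c d|) ^ 2 ≤ (Fintype.card ι : ℝ) ^ 2 * ∑ c, ∑ d, K c d ^ 2 := by
  rw [← Finset.sum_product' (s := Finset.univ) (t := Finset.univ) (f := fun c d => |K c d|),
    ← Finset.sum_product' (s := Finset.univ) (t := Finset.univ) (f := fun c d => K c d ^ 2)]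
  have h1 := sq_sum_le_card_mul_sum_sq (s := (Finset.univ : Finset ι) ×ˢ (Finset.univ : Finset ι))
    (f := fun x : ι × ι => |K x.1 x.2|)
  simp only [Finset.card_product, Finset.card_univ, sq_abs] at h1
  push_cast at h1
  calc _ ≤ _ := h1
    _ = _ := by ring

/-- the Koszul expression. -/
def kos (P : ι → ι → ι → ℝ) (a b c : ι) : ℝ := (P a b c + P a c b - P b c a) / 2

/-- the quadratic expression `F⁻¹ F⁻¹ kos P kos P`. -/
def sS (F : Matrix ι ι ℝ) (P : ι → ι → ι → ℝ) (a b : ι) : ℝ :=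
  ∑ c, ∑ d, ∑ c', ∑ d', F⁻¹ c c' * F⁻¹ d d' * kos P a c d * kos P b c' d'

/-- `sS` with `F⁻¹` replaced by any symmetric matrix: the polynomial form. -/
def sS' (G : Matrix ι ι ℝ) (P : ι → ι → ι → ℝ) (a b : ι) : ℝ :=
  ∑ c, ∑ d, ∑ c', ∑ d', G c c' * G d d' * kos P a c d * kos P b c' d'

lemma sS_eq (F : Matrix ι ι ℝ) (P : ι → ι → ι → ℝ) (a b : ι) : sS F P a b = sS' F⁻¹ P a b := rfl

/-- Koszul inverts `P a b c = K a b c + K b a c` for `K a b c` symmetric in the last two indices. -/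
lemma kos_of_symm {K : ι → ι → ι → ℝ} (hK : ∀ a b c, K a b c = K a c b) (a b c : ι) :
    kos (fun a b c => K a b c + K b a c) a b c = K a b c := by
  simp only [kos]
  rw [hK a c b, hK b c a, hK c a b]
  ring

lemma kos_sq_le (P : ι → ι → ι → ℝ) (a b c : ι) :
    kos P a b c ^ 2 ≤ 3 / 4 * (P a b c ^ 2 + P a c b ^ 2 + P b c a ^ 2) := by
  simp only [kos]
  nlinarith [sq_nonneg (P a b c - P a c b), sq_nonneg (P a b c + P b c a),
    sq_nonneg (P a c b + P b c a)]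

lemma sum_kos_sq_le (P : ι → ι → ι → ℝ) (a : ι) :
    ∑ c, ∑ d, kos P a c d ^ 2 ≤ 9 / 4 * ∑ b, ∑ c, ∑ d, P b c d ^ 2 := by
  have h0 : ∀ b c d, 0 ≤ P b c d ^ 2 := fun b c d => sq_nonneg _
  have hslice : ∑ c, ∑ d, P a c d ^ 2 ≤ ∑ b, ∑ c, ∑ d, P b c d ^ 2 :=
    Finset.single_le_sum (f := fun b => ∑ c, ∑ d, P b c d ^ 2)
      (fun b _ => Finset.sum_nonneg fun c _ => Finset.sum_nonneg fun d _ => h0 b c d)
      (Finset.mem_univ a)
  calc ∑ c, ∑ d, kos P a c d ^ 2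
      ≤ ∑ c, ∑ d, 3 / 4 * (P a c d ^ 2 + P a d c ^ 2 + P c d a ^ 2) :=
        Finset.sum_le_sum fun c _ => Finset.sum_le_sum fun d _ => kos_sq_le P a c d
    _ = 3 / 4 * (∑ c, ∑ d, P a c d ^ 2 + ∑ c, ∑ d, P a d c ^ 2 + ∑ c, ∑ d, P c d a ^ 2) := by
        simp only [← Finset.mul_sum, Finset.sum_add_distrib]
    _ ≤ 3 / 4 * (∑ b, ∑ c, ∑ d, P b c d ^ 2 + ∑ b, ∑ c, ∑ d, P b c d ^ 2 +
          ∑ b, ∑ c, ∑ d, P b c d ^ 2) := by
        have e2 : ∑ c, ∑ d, P a d c ^ 2 = ∑ c, ∑ d, P a c d ^ 2 := Finset.sum_comm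
        have e3 : ∑ c, ∑ d, P c d a ^ 2 ≤ ∑ b, ∑ c, ∑ d, P b c d ^ 2 :=
          Finset.sum_le_sum fun c _ => Finset.sum_le_sum fun d _ =>
            Finset.single_le_sum (f := fun a => P c d a ^ 2) (fun _ _ => h0 _ _ _)
              (Finset.mem_univ a)
        rw [e2]
        linarith
    _ = _ := by ring

/-- bound of `sS`. -/
theorem abs_sS_le {F : Matrix ι ι ℝ} (hF : N1 (F - 1) ≤ 1 / 2) (P : ι → ι → ι → ℝ) (a b : ι) :
    |sS F P a b| ≤ 9 * (Fintype.card ι : ℝ) ^ 2 * ∑ b, ∑ c, ∑ d, P b c d ^ 2 := by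
  have h1 := abs_quad_le (F := F⁻¹) (by norm_num : (0:ℝ) ≤ 2) (abs_inv_le_two hF)
    (kos P a) (kos P b)
  have h2 := sum_abs_sq_le (kos P a)
  have h3 := sum_abs_sq_le (kos P b)
  have h4 := sum_kos_sq_le P a
  have h5 := sum_kos_sq_le P b
  have h6 : (0:ℝ) ≤ (Fintype.card ι : ℝ) ^ 2 := by positivity
  have h7 := mul_le_mul_of_nonneg_left h4 h6
  have h8 := mul_le_mul_of_nonneg_left h5 h6
  refine h1.trans ?_
  nlinarith [sq_nonneg ((∑ c, ∑ d, |kos P a c d|) - ∑ c, ∑ d, |kos P b c d|)]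

/-- difference of `sS'` in the matrix (`|G|, |G'| ≤ C`). -/
theorem abs_sS'_sub_le {G G' : Matrix ι ι ℝ} {C δ : ℝ} (hG : ∀ a b, |G a b| ≤ C)
    (hG' : ∀ a b, |G' a b| ≤ C) (hd : ∀ a b, |G a b - G' a b| ≤ δ) (P : ι → ι → ι → ℝ)
    (a b : ι) :
    |sS' G P a b - sS' G' P a b| ≤
      2 * C * δ * (∑ c, ∑ d, |kos P a c d|) * ∑ c, ∑ d, |kos P b c d| := by
  have h0 : ∀ c d e f, |G c e * G d f * kos P a c d * kos P b e f -
      G' c e * G' d f * kos P a c d * kos P b e f| ≤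
      2 * C * δ * |kos P a c d| * |kos P b e f| := by
    intro c d e f
    have e1 : G c e * G d f * kos P a c d * kos P b e f -
        G' c e * G' d f * kos P a c d * kos P b e f =
        ((G c e - G' c e) * G d f + G' c e * (G d f - G' d f)) * kos P a c d * kos P b e f := by
      ring
    rw [e1, abs_mul, abs_mul]
    refine mul_le_mul_of_nonneg_right (mul_le_mul_of_nonneg_right ?_ (abs_nonneg _)) (abs_nonneg _)
    refine (abs_add_le _ _).trans ?_
    rw [abs_mul, abs_mul]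
    have hC : 0 ≤ C := (abs_nonneg _).trans (hG c e)
    have hδ : 0 ≤ δ := (abs_nonneg _).trans (hd c e)
    have e2 : |G c e - G' c e| * |G d f| ≤ δ * C := mul_le_mul (hd _ _) (hG _ _) (abs_nonneg _) hδ
    have e3 : |G' c e| * |G d f - G' d f| ≤ C * δ :=
      mul_le_mul (hG' _ _) (hd _ _) (abs_nonneg _) hC
    linarith
  simp only [sS', ← Finset.sum_sub_distrib]
  calc _ ≤ ∑ c, ∑ d, ∑ e, ∑ f, 2 * C * δ * |kos P a c d| * |kos P b e f| := by
        refine (Finset.abs_sum_le_sum_abs _ _).trans (Finset.sum_le_sum fun c _ => ?_)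
        refine (Finset.abs_sum_le_sum_abs _ _).trans (Finset.sum_le_sum fun d _ => ?_)
        refine (Finset.abs_sum_le_sum_abs _ _).trans (Finset.sum_le_sum fun e _ => ?_)
        exact (Finset.abs_sum_le_sum_abs _ _).trans (Finset.sum_le_sum fun f _ => h0 c d e f)
    _ = _ := by simp only [← Finset.sum_mul, ← Finset.mul_sum]

end Mat

/-! ### families of vectors with invertible Gram matrix -/

section Vec

variable {ι : Type*} {E : Type*} [NormedAddCommGroup E] [InnerProductSpace ℝ E]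

/-- Gram matrix. -/
def Gm (g : ι → E) : Matrix ι ι ℝ := Matrix.of fun a b => inner ℝ (g a) (g b)

lemma Gm_apply (g : ι → E) (a b : ι) : Gm g a b = inner ℝ (g a) (g b) := rfl

lemma Gm_symm (g : ι → E) : (Gm g).transpose = Gm g := by
  ext a b
  rw [Matrix.transpose_apply, Gm_apply, Gm_apply, real_inner_comm]

variable [Fintype ι] [DecidableEq ι]

lemma Gm_inv_symm (g : ι → E) (a b : ι) : (Gm g)⁻¹ a b = (Gm g)⁻¹ b a := by
  have h1 : (Gm g)⁻¹.transpose = (Gm g)⁻¹ := by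
    rw [Matrix.transpose_nonsing_inv, Gm_symm]
  calc (Gm g)⁻¹ a b = (Gm g)⁻¹.transpose b a := rfl
    _ = _ := by rw [h1]

lemma linearIndependent_of_det {g : ι → E} (hF : (Gm g).det ≠ 0) : LinearIndependent ℝ g := by
  rw [Fintype.linearIndependent_iff]
  intro x hx a
  have h1 : (Gm g).mulVec x = 0 := by
    funext b
    simp only [Matrix.mulVec, dotProduct, Gm_apply, Pi.zero_apply]
    have h2 : inner ℝ (g b) (∑ c, x c • g c) = (0:ℝ) := by rw [hx, inner_zero_right]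
    rw [inner_sum] at h2
    rw [← h2]
    refine Finset.sum_congr rfl fun c _ => ?_
    rw [real_inner_smul_right]; ring
  by_contra h2
  refine hF (Matrix.exists_mulVec_eq_zero_iff.1 ⟨x, fun h3 => h2 ?_, h1⟩)
  rw [h3]; rfl

variable [FiniteDimensional ℝ E]

/-- expansion in the family `g`. -/
theorem expand {g : ι → E} (hF : (Gm g).det ≠ 0) (hn : Fintype.card ι = Module.finrank ℝ E)
    (v : E) : v = ∑ c, (∑ d, (Gm g)⁻¹ c d * inner ℝ v (g d)) • g c := by
  have hli := linearIndependent_of_det hF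
  let B := basisOfLinearIndependentOfCardEqFinrank' g hli hn
  have hB : ∀ a, B a = g a := fun a => by
    simp [B]
  have h1 : v = ∑ a, B.repr v a • g a := by
    conv_lhs => rw [← B.sum_repr v]
    exact Finset.sum_congr rfl fun a _ => by rw [hB]
  have h2 : ∀ d, inner ℝ v (g d) = ((Gm g).mulVec (B.repr v)) d := by
    intro d
    conv_lhs => rw [h1]
    rw [sum_inner]
    simp only [Matrix.mulVec, dotProduct, Gm_apply]
    refine Finset.sum_congr rfl fun c _ => ?_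
    rw [real_inner_smul_left, real_inner_comm]; ring
  have h3 : ∀ c, ∑ d, (Gm g)⁻¹ c d * inner ℝ v (g d) = B.repr v c := by
    intro c
    have h4 : ((Gm g)⁻¹.mulVec ((Gm g).mulVec (B.repr v))) c = B.repr v c := by
      rw [Matrix.mulVec_mulVec, Matrix.nonsing_inv_mul _ (isUnit_iff_ne_zero.2 hF),
        Matrix.one_mulVec]
    rw [← h4]
    simp only [Matrix.mulVec, dotProduct]
    refine Finset.sum_congr rfl fun d _ => ?_
    rw [h2 d]; rfl
  simp only [h3]
  exact h1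

/-- the inner product through the pairings with the `g c`. -/
theorem inner_eq {g : ι → E} (hF : (Gm g).det ≠ 0) (hn : Fintype.card ι = Module.finrank ℝ E)
    (v w : E) : inner ℝ v w = ∑ c, ∑ d, (Gm g)⁻¹ c d * inner ℝ v (g c) * inner ℝ w (g d) := by
  conv_lhs => rw [expand hF hn w, inner_sum]
  refine Finset.sum_congr rfl fun c _ => ?_
  rw [real_inner_smul_right, Finset.sum_mul]
  refine Finset.sum_congr rfl fun d _ => ?_
  ring

/-- products of two linear forms summed over an orthonormal basis. -/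
theorem form_eq {g : ι → E} (hF : (Gm g).det ≠ 0) (hn : Fintype.card ι = Module.finrank ℝ E)
    {κ : Type*} [Fintype κ] {e : κ → E} (he : ∀ v : E, v = ∑ i, (inner ℝ v (e i) : ℝ) • e i)
    (φ ψ : E →ₗ[ℝ] ℝ) :
    ∑ i, φ (e i) * ψ (e i) = ∑ c, ∑ d, (Gm g)⁻¹ c d * φ (g c) * ψ (g d) := by
  have h1 : ∀ i, φ (e i) = ∑ c, (∑ d, (Gm g)⁻¹ c d * inner ℝ (e i) (g d)) * φ (g c) := by
    intro i
    conv_lhs => rw [expand hF hn (e i), map_sum]
    exact Finset.sum_congr rfl fun c _ => by rw [map_smul, smul_eq_mul]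
  have h2 : ∀ d, ψ (g d) = ∑ i, (inner ℝ (g d) (e i) : ℝ) * ψ (e i) := by
    intro d
    conv_lhs => rw [he (g d), map_sum]
    exact Finset.sum_congr rfl fun c _ => by rw [map_smul, smul_eq_mul]
  calc ∑ i, φ (e i) * ψ (e i)
      = ∑ i, ∑ c, ∑ d, (Gm g)⁻¹ c d * φ (g c) * (inner ℝ (g d) (e i) * ψ (e i)) := by
        refine Finset.sum_congr rfl fun i _ => ?_
        rw [h1 i, Finset.sum_mul]
        refine Finset.sum_congr rfl fun c _ => ?_
        rw [Finset.sum_mul, Finset.sum_mul]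
        refine Finset.sum_congr rfl fun d _ => ?_
        rw [real_inner_comm (g d) (e i)]; ring
    _ = ∑ c, ∑ d, (Gm g)⁻¹ c d * φ (g c) * ψ (g d) := by
        rw [Finset.sum_comm]
        refine Finset.sum_congr rfl fun c _ => ?_
        rw [Finset.sum_comm]
        refine Finset.sum_congr rfl fun d _ => ?_
        rw [← Finset.mul_sum, ← h2 d]

/-- Hilbert-Schmidt product of two bilinear forms. -/
theorem hs_eq {g : ι → E} (hF : (Gm g).det ≠ 0) (hn : Fintype.card ι = Module.finrank ℝ E)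
    {κ : Type*} [Fintype κ] {e : κ → E} (he : ∀ v : E, v = ∑ i, (inner ℝ v (e i) : ℝ) • e i)
    (H K : E →ₗ[ℝ] E →ₗ[ℝ] ℝ) :
    ∑ i, ∑ j, H (e i) (e j) * K (e i) (e j) =
      ∑ c, ∑ d, ∑ c', ∑ d', (Gm g)⁻¹ c c' * (Gm g)⁻¹ d d' * H (g c) (g d) * K (g c') (g d') := by
  have h1 : ∀ i, ∑ j, H (e i) (e j) * K (e i) (e j) =
      ∑ d, ∑ d', (Gm g)⁻¹ d d' * H (e i) (g d) * K (e i) (g d') :=
    fun i => form_eq hF hn he (H (e i)) (K (e i))
  have h2 : ∀ d d', ∑ i, H (e i) (g d) * K (e i) (g d') =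
      ∑ c, ∑ c', (Gm g)⁻¹ c c' * H (g c) (g d) * K (g c') (g d') :=
    fun d d' => form_eq hF hn he (H.flip (g d)) (K.flip (g d'))
  calc ∑ i, ∑ j, H (e i) (e j) * K (e i) (e j)
      = ∑ i, ∑ d, ∑ d', (Gm g)⁻¹ d d' * H (e i) (g d) * K (e i) (g d') :=
        Finset.sum_congr rfl fun i _ => h1 i
    _ = ∑ d, ∑ d', (Gm g)⁻¹ d d' * ∑ i, H (e i) (g d) * K (e i) (g d') := by
        rw [Finset.sum_comm]
        refine Finset.sum_congr rfl fun d _ => ?_
        rw [Finset.sum_comm]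
        refine Finset.sum_congr rfl fun d' _ => ?_
        rw [Finset.mul_sum]
        exact Finset.sum_congr rfl fun i _ => by ring
    _ = ∑ d, ∑ d', ∑ c, ∑ c',
          (Gm g)⁻¹ c c' * (Gm g)⁻¹ d d' * H (g c) (g d) * K (g c') (g d') := by
        refine Finset.sum_congr rfl fun d _ => Finset.sum_congr rfl fun d' _ => ?_
        rw [h2 d d', Finset.mul_sum]
        refine Finset.sum_congr rfl fun c _ => ?_
        rw [Finset.mul_sum]
        exact Finset.sum_congr rfl fun c' _ => by ring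
    _ = ∑ c, ∑ d, ∑ c', ∑ d',
          (Gm g)⁻¹ c c' * (Gm g)⁻¹ d d' * H (g c) (g d) * K (g c') (g d') := by
        calc _ = ∑ d, ∑ c, ∑ d', ∑ c',
              (Gm g)⁻¹ c c' * (Gm g)⁻¹ d d' * H (g c) (g d) * K (g c') (g d') :=
              Finset.sum_congr rfl fun d _ => Finset.sum_comm
          _ = ∑ c, ∑ d, ∑ d', ∑ c',
              (Gm g)⁻¹ c c' * (Gm g)⁻¹ d d' * H (g c) (g d) * K (g c') (g d') := Finset.sum_comm
          _ = _ := Finset.sum_congr rfl fun c _ => Finset.sum_congr rfl fun d _ =>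
              Finset.sum_comm

/-- the Hilbert-Schmidt norm is bounded by the pairings. -/
theorem hs_le {g : ι → E} (hF : N1 (Gm g - 1) ≤ 1 / 2) (hn : Fintype.card ι = Module.finrank ℝ E)
    {κ : Type*} [Fintype κ] {e : κ → E} (he : ∀ v : E, v = ∑ i, (inner ℝ v (e i) : ℝ) • e i)
    (H : E →ₗ[ℝ] E →ₗ[ℝ] ℝ) :
    ∑ i, ∑ j, H (e i) (e j) ^ 2 ≤
      4 * (Fintype.card ι : ℝ) ^ 2 * ∑ c, ∑ d, H (g c) (g d) ^ 2 := by
  have hd := det_ne_zero (lt_of_le_of_lt hF (by norm_num))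
  have h1 := hs_eq hd hn he H H
  have h2 := abs_quad_le (F := (Gm g)⁻¹) (by norm_num : (0:ℝ) ≤ 2) (abs_inv_le_two hF)
    (fun c d => H (g c) (g d)) (fun c d => H (g c) (g d))
  have h3 := sum_abs_sq_le (fun c d => H (g c) (g d))
  have h4 : ∑ i, ∑ j, H (e i) (e j) ^ 2 = ∑ i, ∑ j, H (e i) (e j) * H (e i) (e j) :=
    Finset.sum_congr rfl fun i _ => Finset.sum_congr rfl fun j _ => sq _
  rw [h4, h1]
  refine (le_abs_self _).trans (h2.trans ?_)
  calc (2:ℝ) ^ 2 * (∑ c, ∑ d, |H (g c) (g d)|) * ∑ c, ∑ d, |H (g c) (g d)|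
      = 4 * (∑ c, ∑ d, |H (g c) (g d)|) ^ 2 := by ring
    _ ≤ 4 * ((Fintype.card ι : ℝ) ^ 2 * ∑ c, ∑ d, H (g c) (g d) ^ 2) := by linarith
    _ = _ := by ring

end Vec

end Crest.Agent.R249.LPt_191
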