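import Crest.Agent.R247.Bs1_84
import Crest.Agent.R249.LPt1_191

/-!
Row 249, leaf D3-LIM/L-PT (helper191), file 2: the pointwise algebra of `n` functions `u a` with
invertible Gram matrix `Fm u p a b = ⟨du_a, du_b⟩(p)` on a Riemannian manifold.
-/

set_option autoImplicit false
set_option maxSynthPendingDepth 3
set_option linter.unusedSectionVars false

open scoped ContDiff Topology Manifold
open Filter Set Bundle
open Crest.GeometryTopology.CoordMetric Crest.GeometryTopology.ChartCurvature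
  Crest.GeometryTopology.PointedLimit
open Crest.Agent.R202.Tens Crest.Agent.R247.Bo84

noncomputable section

namespace Crest.Agent.R249.LPt_191

section Mfd

variable {n : ℕ} {M : Type*} [TopologicalSpace M] [ChartedSpace (EuclideanSpace ℝ (Fin n)) M]
  [IsManifold 𝓘(ℝ, EuclideanSpace ℝ (Fin n)) ∞ M]
  [RiemannianBundle (fun x : M => TangentSpace 𝓘(ℝ, EuclideanSpace ℝ (Fin n)) x)]
  [IsContMDiffRiemannianBundle 𝓘(ℝ, EuclideanSpace ℝ (Fin n)) ∞ (EuclideanSpace ℝ (Fin n))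
      (fun x : M => TangentSpace 𝓘(ℝ, EuclideanSpace ℝ (Fin n)) x)]

local notation "𝔼" => EuclideanSpace ℝ (Fin n)
local notation "𝓘E" => 𝓘(ℝ, EuclideanSpace ℝ (Fin n))

/-- the Gram matrix `⟨du_a, du_b⟩`. -/
def Fm (u : Fin n → M → ℝ) (p : M) : Matrix (Fin n) (Fin n) ℝ :=
  Matrix.of fun a b => mGam n (u a) (u b) p

/-- `K^{f;cd} = Hess f (grad u_c, grad u_d)`. -/
def Kf (u : Fin n → M → ℝ) (f : M → ℝ) (p : M) (c d : Fin n) : ℝ :=
  mHess n f p (mgrad n (u c) p) (mgrad n (u d) p)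

variable {u : Fin n → M → ℝ} {f h : M → ℝ} {p : M}

lemma Fm_apply (u : Fin n → M → ℝ) (p : M) (a b : Fin n) : Fm u p a b = mGam n (u a) (u b) p := rfl

lemma Kf_apply (u : Fin n → M → ℝ) (f : M → ℝ) (p : M) (c d : Fin n) :
    Kf u f p c d = mHess n f p (mgrad n (u c) p) (mgrad n (u d) p) := rfl

lemma Fm_eq_Gm (u : Fin n → M → ℝ) (p : M) :
    Fm u p = Gm (fun a => (mgrad n (u a) p : TangentSpace 𝓘E p)) := by
  ext a b
  rw [Fm_apply, Gm_apply, mGam_eq_inner]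

lemma Fm_symm (u : Fin n → M → ℝ) (p : M) (a b : Fin n) : Fm u p a b = Fm u p b a :=
  mGam_comm _ _ _

lemma Fm_inv_symm (u : Fin n → M → ℝ) (p : M) (a b : Fin n) : (Fm u p)⁻¹ a b = (Fm u p)⁻¹ b a := by
  rw [Fm_eq_Gm]; exact Gm_inv_symm _ a b

instance instFin (p : M) : FiniteDimensional ℝ (TangentSpace 𝓘E p) :=
  inferInstanceAs (FiniteDimensional ℝ (EuclideanSpace ℝ (Fin n)))

lemma card_eq (p : M) : Fintype.card (Fin n) = Module.finrank ℝ (TangentSpace 𝓘E p) := by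
  have h1 : Module.finrank ℝ (TangentSpace 𝓘E p) = Module.finrank ℝ (EuclideanSpace ℝ (Fin n)) := rfl
  rw [h1, finrank_euclideanSpace_fin, Fintype.card_fin]

lemma det_Fm_ne_zero (hF : N1 (Fm u p - 1) ≤ 1 / 2) : (Fm u p).det ≠ 0 :=
  det_ne_zero (lt_of_le_of_lt hF (by norm_num))

/-- the Hessian as a bilinear map. -/
def HB (f : M → ℝ) (p : M) : TangentSpace 𝓘E p →ₗ[ℝ] TangentSpace 𝓘E p →ₗ[ℝ] ℝ :=
  LinearMap.mk₂ ℝ (fun v w => mHess n f p v w) (mHess_add_left f p) (mHess_smul_left f p)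
    (mHess_add_right f p) (mHess_smul_right f p)

lemma HB_apply (f : M → ℝ) (p : M) (v w : TangentSpace 𝓘E p) : HB f p v w = mHess n f p v w := rfl

/-- orthonormal frames exist. -/
lemma exists_orth (p : M) : ∃ e : Fin n → TangentSpace 𝓘E p,
    ∀ a b, inner ℝ (e a) (e b) = if a = b then (1:ℝ) else 0 := by
  obtain ⟨ξ, hξ⟩ := exists_frame (isRiemannianOn_chartMetric (n := n) p) (centre_mem p)
  refine ⟨fun a => dSy p (chartCentre n M p) (ξ a), fun a b => ?_⟩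
  have h1 : ∀ v : 𝔼, dCh p p (dSy p (chartCentre n M p) v) = v := by
    intro v
    have h2 := dCh_dSy p (centre_mem p) v
    have h3 : (chartAt 𝔼 p).symm (chartCentre n M p) = p :=
      (chartAt 𝔼 p).left_inv (mem_chart_source 𝔼 p)
    rw [h3] at h2
    exact h2
  have h4 := inner_centre p (dSy p (chartCentre n M p) (ξ a) : TangentSpace 𝓘E p)
    (dSy p (chartCentre n M p) (ξ b))
  rw [h4, h1, h1, hξ.orth]

/-- expansion of a tangent vector in the gradients. -/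
theorem expand_mgrad (hF : (Fm u p).det ≠ 0) (v : TangentSpace 𝓘E p) :
    v = ∑ c, (∑ d, (Fm u p)⁻¹ c d * inner ℝ v (mgrad n (u d) p)) • mgrad n (u c) p := by
  rw [Fm_eq_Gm] at hF ⊢
  exact expand hF (card_eq p) v

theorem inner_eq_Fm (hF : (Fm u p).det ≠ 0) (v w : TangentSpace 𝓘E p) :
    inner ℝ v w = ∑ c, ∑ d, (Fm u p)⁻¹ c d * (inner ℝ v (mgrad n (u c) p) : ℝ) *
      inner ℝ w (mgrad n (u d) p) := by
  rw [Fm_eq_Gm] at hF ⊢
  exact inner_eq hF (card_eq p) v w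

/-- `⟨df, dh⟩` through the pairings with `du_c`; no smoothness is needed. -/
theorem mGam_eq_Fm (hF : (Fm u p).det ≠ 0) (f h : M → ℝ) :
    mGam n f h p = ∑ c, ∑ d, (Fm u p)⁻¹ c d * mGam n f (u c) p * mGam n h (u d) p := by
  rw [mGam_eq_inner, inner_eq_Fm hF]
  simp only [← mGam_eq_inner]

/-- Hilbert-Schmidt product of two Hessians, in any orthonormal frame. -/
theorem hs_frame_eq_Fm (hF : (Fm u p).det ≠ 0) {e : Fin n → TangentSpace 𝓘E p}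
    (he : ∀ a b, inner ℝ (e a) (e b) = if a = b then (1:ℝ) else 0) (f h : M → ℝ) :
    ∑ i, ∑ j, mHess n f p (e i) (e j) * mHess n h p (e i) (e j) =
      ∑ c, ∑ d, ∑ c', ∑ d', (Fm u p)⁻¹ c c' * (Fm u p)⁻¹ d d' * Kf u f p c d * Kf u h p c' d' := by
  rw [Fm_eq_Gm] at hF ⊢
  exact hs_eq hF (card_eq p) (fun v => mgrad_frame he v) (HB f p) (HB h p)

/-- the squared norm of the Hessian. -/
theorem mHessSq_eq_Fm (hF : (Fm u p).det ≠ 0) (hf : ContMDiffAt 𝓘E 𝓘(ℝ, ℝ) 2 f p) :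
    mHessSq n f p =
      ∑ c, ∑ d, ∑ c', ∑ d', (Fm u p)⁻¹ c c' * (Fm u p)⁻¹ d d' * Kf u f p c d * Kf u f p c' d' := by
  obtain ⟨e, he⟩ := exists_orth (n := n) p
  rw [mHessSq_frame hf he, ← hs_frame_eq_Fm hF he]
  exact Finset.sum_congr rfl fun i _ => Finset.sum_congr rfl fun j _ => sq _

/-- the Laplacian. -/
theorem mLap_eq_Fm (hF : (Fm u p).det ≠ 0) (hf : ContMDiffAt 𝓘E 𝓘(ℝ, ℝ) 2 f p) :
    mLap n f p = ∑ c, ∑ d, (Fm u p)⁻¹ c d * Kf u f p c d := by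
  obtain ⟨e, he⟩ := exists_orth (n := n) p
  rw [mLap_frame hf he]
  have hex := fun v : TangentSpace 𝓘E p => mgrad_frame he v
  have h1 : ∀ i, mHess n f p (e i) (e i) =
      ∑ c, ∑ d, (Fm u p)⁻¹ c d * (inner ℝ (e i) (mgrad n (u d) p) *
        mHess n f p (mgrad n (u c) p) (e i)) := by
    intro i
    have h2 := congrArg (fun v => HB f p v (e i)) (expand_mgrad hF (e i))
    simp only [map_sum, LinearMap.sum_apply, map_smul, LinearMap.smul_apply, smul_eq_mul,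
      HB_apply] at h2
    rw [h2]
    refine Finset.sum_congr rfl fun c _ => ?_
    rw [Finset.sum_mul]
    exact Finset.sum_congr rfl fun d _ => by ring
  have h3 : ∀ c d, ∑ i, (inner ℝ (e i) (mgrad n (u d) p) : ℝ) *
      mHess n f p (mgrad n (u c) p) (e i) = Kf u f p c d := by
    intro c d
    have h2 := congrArg (fun v => HB f p (mgrad n (u c) p) v) (hex (mgrad n (u d) p))
    simp only [map_sum, map_smul, smul_eq_mul, HB_apply] at h2
    rw [Kf_apply, h2]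
    exact Finset.sum_congr rfl fun i _ => by rw [real_inner_comm]
  calc ∑ i, mHess n f p (e i) (e i)
      = ∑ i, ∑ c, ∑ d, (Fm u p)⁻¹ c d * (inner ℝ (e i) (mgrad n (u d) p) *
        mHess n f p (mgrad n (u c) p) (e i)) := Finset.sum_congr rfl fun i _ => h1 i
    _ = ∑ c, ∑ d, (Fm u p)⁻¹ c d * Kf u f p c d := by
        rw [Finset.sum_comm]
        refine Finset.sum_congr rfl fun c _ => ?_
        rw [Finset.sum_comm]
        refine Finset.sum_congr rfl fun d _ => ?_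
        rw [← Finset.mul_sum, h3]

/-- the squared norm of the Hessian is bounded by the `K^{f;cd}`. -/
theorem mHessSq_le_Kf (hF : N1 (Fm u p - 1) ≤ 1 / 2) (hf : ContMDiffAt 𝓘E 𝓘(ℝ, ℝ) 2 f p) :
    mHessSq n f p ≤ 4 * (n : ℝ) ^ 2 * ∑ c, ∑ d, Kf u f p c d ^ 2 := by
  obtain ⟨e, he⟩ := exists_orth (n := n) p
  rw [mHessSq_frame hf he]
  rw [Fm_eq_Gm] at hF
  have h1 := hs_le hF (card_eq p) (fun v => mgrad_frame he v) (HB f p)
  rw [Fintype.card_fin] at h1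
  exact h1

lemma mGam_diag_le (hF : N1 (Fm u p - 1) ≤ 1 / 2) (a : Fin n) : mGam n (u a) (u a) p ≤ 3 / 2 := by
  have h1 := (abs_le_N1 (Fm u p - 1) a a).trans hF
  rw [Matrix.sub_apply, Matrix.one_apply_eq, Fm_apply] at h1
  linarith [(abs_le.1 h1).2]

lemma mGam_diag_ge (hF : N1 (Fm u p - 1) ≤ 1 / 2) (a : Fin n) : 1 / 2 ≤ mGam n (u a) (u a) p := by
  have h1 := (abs_le_N1 (Fm u p - 1) a a).trans hF
  rw [Matrix.sub_apply, Matrix.one_apply_eq, Fm_apply] at h1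
  linarith [(abs_le.1 h1).1]

/-- the `K^{f;cd}` are bounded by the Hessian. -/
theorem Kf_sq_le (hf : ContMDiffAt 𝓘E 𝓘(ℝ, ℝ) 2 f p) (c d : Fin n) :
    Kf u f p c d ^ 2 ≤ mHessSq n f p * mGam n (u c) (u c) p * mGam n (u d) (u d) p := by
  rw [mGam_self, mGam_self]
  exact mHess_sq_le hf _ _

theorem Kf_sq_le' (hF : N1 (Fm u p - 1) ≤ 1 / 2) (hf : ContMDiffAt 𝓘E 𝓘(ℝ, ℝ) 2 f p)
    (c d : Fin n) : Kf u f p c d ^ 2 ≤ 9 / 4 * mHessSq n f p := by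
  refine (Kf_sq_le hf c d).trans ?_
  have h1 := mGam_diag_le hF c
  have h2 := mGam_diag_le hF d
  have h3 := mHessSq_nonneg hf
  have h4 := mGam_self_nonneg (n := n) (u c) p
  have h5 := mGam_self_nonneg (n := n) (u d) p
  have h6 : mGam n (u c) (u c) p * mGam n (u d) (u d) p ≤ 3 / 2 * (3 / 2) :=
    mul_le_mul h1 h2 h5 (by norm_num)
  calc mHessSq n f p * mGam n (u c) (u c) p * mGam n (u d) (u d) p
      = mHessSq n f p * (mGam n (u c) (u c) p * mGam n (u d) (u d) p) := by ring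
    _ ≤ mHessSq n f p * (3 / 2 * (3 / 2)) := mul_le_mul_of_nonneg_left h6 h3
    _ = _ := by ring

/-! ### the Koszul identity -/

/-- derivative of `⟨df, dh⟩` in the direction of a gradient. -/
theorem mGam_mGam (hf : ContMDiffAt 𝓘E 𝓘(ℝ, ℝ) 2 f p) (hh : ContMDiffAt 𝓘E 𝓘(ℝ, ℝ) 2 h p)
    (k : M → ℝ) :
    mGam n (mGam n f h) k p =
      mHess n f p (mgrad n k p) (mgrad n h p) + mHess n h p (mgrad n k p) (mgrad n f p) := by
  rw [mGam_eq_mfderiv, mfderiv_mGam hf hh]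

/-- `P^{ab;c} = K^{a;bc} + K^{b;ac}`. -/
theorem P_eq_Kf (hu : ∀ a, ContMDiffAt 𝓘E 𝓘(ℝ, ℝ) 2 (u a) p) (a b c : Fin n) :
    mGam n (mGam n (u a) (u b)) (u c) p = Kf u (u a) p b c + Kf u (u b) p a c := by
  rw [mGam_mGam (hu a) (hu b), Kf_apply, Kf_apply, mHess_symm (hu a), mHess_symm (hu b)]

lemma Kf_symm (hf : ContMDiffAt 𝓘E 𝓘(ℝ, ℝ) 2 f p) (c d : Fin n) : Kf u f p c d = Kf u f p d c :=
  mHess_symm hf _ _

/-- Koszul: `K^{a;bc} = (P^{ab;c} + P^{ac;b} - P^{bc;a})/2`. -/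
theorem koszul (hu : ∀ a, ContMDiffAt 𝓘E 𝓘(ℝ, ℝ) 2 (u a) p) (a b c : Fin n) :
    Kf u (u a) p b c = (mGam n (mGam n (u a) (u b)) (u c) p +
      mGam n (mGam n (u a) (u c)) (u b) p - mGam n (mGam n (u b) (u c)) (u a) p) / 2 := by
  rw [P_eq_Kf hu, P_eq_Kf hu, P_eq_Kf hu, Kf_symm (hu a) c b, Kf_symm (hu b) c a,
    Kf_symm (hu c) a b]
  ring

/-- `P^{ab;c} = ⟨d⟨du_a, du_b⟩, du_c⟩`. -/
def Pf (u : Fin n → M → ℝ) (p : M) (a b c : Fin n) : ℝ := mGam n (mGam n (u a) (u b)) (u c) p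

lemma Pf_apply (u : Fin n → M → ℝ) (p : M) (a b c : Fin n) :
    Pf u p a b c = mGam n (mGam n (u a) (u b)) (u c) p := rfl

lemma Pf_symm (u : Fin n → M → ℝ) (p : M) (a b c : Fin n) : Pf u p a b c = Pf u p b a c := by
  have h1 : mGam n (u a) (u b) = mGam n (u b) (u a) := funext fun q => mGam_comm _ _ q
  rw [Pf_apply, Pf_apply, h1]

theorem Kf_eq_kos (hu : ∀ a, ContMDiffAt 𝓘E 𝓘(ℝ, ℝ) 2 (u a) p) (a c d : Fin n) :
    Kf u (u a) p c d = kos (Pf u p) a c d := koszul hu a c d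

/-- `|d⟨du_a, du_b⟩|²` through `F` and `P`; no smoothness is needed. -/
theorem mGam_F_F (hF : (Fm u p).det ≠ 0) (a b a' b' : Fin n) :
    mGam n (mGam n (u a) (u b)) (mGam n (u a') (u b')) p =
      ∑ c, ∑ d, (Fm u p)⁻¹ c d * Pf u p a b c * Pf u p a' b' d :=
  mGam_eq_Fm hF _ _

/-- the Hilbert-Schmidt product of the Hessians of `u_a, u_b` is the algebraic expression `sS`. -/
theorem hs_frame_eq_sS (hF : (Fm u p).det ≠ 0)
    (hu : ∀ a, ContMDiffAt 𝓘E 𝓘(ℝ, ℝ) 2 (u a) p) {e : Fin n → TangentSpace 𝓘E p}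
    (he : ∀ a b, inner ℝ (e a) (e b) = if a = b then (1:ℝ) else 0) (a b : Fin n) :
    ∑ i, ∑ j, mHess n (u a) p (e i) (e j) * mHess n (u b) p (e i) (e j) =
      sS (Fm u p) (Pf u p) a b := by
  rw [hs_frame_eq_Fm hF he]
  simp only [Kf_eq_kos hu]
  rfl

theorem mHessSq_eq_sS (hF : (Fm u p).det ≠ 0) (hu : ∀ a, ContMDiffAt 𝓘E 𝓘(ℝ, ℝ) 2 (u a) p)
    (a : Fin n) : mHessSq n (u a) p = sS (Fm u p) (Pf u p) a a := by
  rw [mHessSq_eq_Fm hF (hu a)]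
  simp only [Kf_eq_kos hu]
  rfl

/-- bound of the Hessian by the derivatives of the Gram matrix. -/
theorem mHessSq_le_P (hF : N1 (Fm u p - 1) ≤ 1 / 2)
    (hu : ∀ a, ContMDiffAt 𝓘E 𝓘(ℝ, ℝ) 2 (u a) p) (a : Fin n) :
    mHessSq n (u a) p ≤ 9 * (n : ℝ) ^ 2 *
      ∑ b, ∑ c, ∑ d, mGam n (mGam n (u b) (u c)) (u d) p ^ 2 := by
  set P : Fin n → Fin n → Fin n → ℝ := fun b c d => mGam n (mGam n (u b) (u c)) (u d) p with hP
  have h0 : ∀ b c d, 0 ≤ P b c d ^ 2 := fun b c d => sq_nonneg _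
  have hslice : ∀ b, ∑ c, ∑ d, P b c d ^ 2 ≤ ∑ b, ∑ c, ∑ d, P b c d ^ 2 := fun b =>
    Finset.single_le_sum (f := fun b => ∑ c, ∑ d, P b c d ^ 2)
      (fun b _ => Finset.sum_nonneg fun c _ => Finset.sum_nonneg fun d _ => h0 b c d)
      (Finset.mem_univ b)
  have h1 := mHessSq_le_Kf hF (hu a)
  have h2 : ∀ c d, Kf u (u a) p c d ^ 2 ≤
      3 / 4 * (P a c d ^ 2 + P a d c ^ 2 + P c d a ^ 2) := by
    intro c d
    rw [koszul hu a c d]
    change ((P a c d + P a d c - P c d a) / 2) ^ 2 ≤ _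
    nlinarith [sq_nonneg (P a c d - P a d c), sq_nonneg (P a c d + P c d a),
      sq_nonneg (P a d c + P c d a)]
  have h3 : ∑ c, ∑ d, Kf u (u a) p c d ^ 2 ≤ 9 / 4 * ∑ b, ∑ c, ∑ d, P b c d ^ 2 := by
    calc ∑ c, ∑ d, Kf u (u a) p c d ^ 2
        ≤ ∑ c, ∑ d, 3 / 4 * (P a c d ^ 2 + P a d c ^ 2 + P c d a ^ 2) :=
          Finset.sum_le_sum fun c _ => Finset.sum_le_sum fun d _ => h2 c d
      _ = 3 / 4 * (∑ c, ∑ d, P a c d ^ 2 + ∑ c, ∑ d, P a d c ^ 2 + ∑ c, ∑ d, P c d a ^ 2) := by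
          simp only [← Finset.mul_sum, Finset.sum_add_distrib]
      _ ≤ 3 / 4 * (∑ b, ∑ c, ∑ d, P b c d ^ 2 + ∑ b, ∑ c, ∑ d, P b c d ^ 2 +
            ∑ b, ∑ c, ∑ d, P b c d ^ 2) := by
          have e1 := hslice a
          have e2 : ∑ c, ∑ d, P a d c ^ 2 = ∑ c, ∑ d, P a c d ^ 2 := Finset.sum_comm
          have e3 : ∑ c, ∑ d, P c d a ^ 2 ≤ ∑ b, ∑ c, ∑ d, P b c d ^ 2 :=
            Finset.sum_le_sum fun c _ => Finset.sum_le_sum fun d _ =>
              Finset.single_le_sum (f := fun a => P c d a ^ 2) (fun _ _ => h0 _ _ _)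
                (Finset.mem_univ a)
          rw [e2]
          linarith
      _ = _ := by ring
  refine h1.trans ?_
  calc 4 * (n : ℝ) ^ 2 * ∑ c, ∑ d, Kf u (u a) p c d ^ 2
      ≤ 4 * (n : ℝ) ^ 2 * (9 / 4 * ∑ b, ∑ c, ∑ d, P b c d ^ 2) :=
        mul_le_mul_of_nonneg_left h3 (by positivity)
    _ = _ := by ring

end Mfd

/-! ### in the measurable frame `fr` -/

section Frame

open Crest.Agent.R247.Ms322 Crest.Agent.R247.Bs84
open scoped RealInnerProductSpace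

variable {n : ℕ} {M : Type*} [MetricSpace M] [ChartedSpace (EuclideanSpace ℝ (Fin n)) M]
  [IsManifold (𝓡 n) ∞ M]
  [RiemannianBundle (fun p : M => TangentSpace (𝓡 n) p)]
  [IsContMDiffRiemannianBundle (𝓡 n) ∞ (EuclideanSpace ℝ (Fin n))
    (fun p : M => TangentSpace (𝓡 n) p)]
  [SecondCountableTopology M] [Nonempty M]

variable {u : Fin n → M → ℝ} {p : M}

/-- the inner product of two frame Hessians. -/
theorem inner_Hf_eq_Fm (hF : (Fm u p).det ≠ 0) (f h : M → ℝ) :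
    inner ℝ (Hf (n := n) f p) (Hf h p) =
      ∑ c, ∑ d, ∑ c', ∑ d', (Fm u p)⁻¹ c c' * (Fm u p)⁻¹ d d' * Kf u f p c d * Kf u h p c' d' := by
  rw [← hs_frame_eq_Fm hF (fr_orth p), PiLp.inner_apply, Fintype.sum_prod_type]
  refine Finset.sum_congr rfl fun i _ => Finset.sum_congr rfl fun j _ => ?_
  rw [Hf_apply, Hf_apply, real_inner_comm]
  rfl

theorem norm_Hf_sq_eq_Fm (hF : (Fm u p).det ≠ 0) (f : M → ℝ) :
    ‖Hf (n := n) f p‖ ^ 2 =
      ∑ c, ∑ d, ∑ c', ∑ d', (Fm u p)⁻¹ c c' * (Fm u p)⁻¹ d d' * Kf u f p c d * Kf u f p c' d' := by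
  rw [← real_inner_self_eq_norm_sq, inner_Hf_eq_Fm hF]

theorem inner_Hf_eq_sS (hF : (Fm u p).det ≠ 0) (hu : ∀ a, ContMDiffAt (𝓡 n) 𝓘(ℝ, ℝ) 2 (u a) p)
    (a b : Fin n) : inner ℝ (Hf (n := n) (u a) p) (Hf (u b) p) = sS (Fm u p) (Pf u p) a b := by
  rw [inner_Hf_eq_Fm hF]
  simp only [Kf_eq_kos hu]
  rfl

/-- the norm of the Hessian through the derivatives of the Gram matrix. -/
theorem norm_Hf_sq_le_P (hF : N1 (Fm u p - 1) ≤ 1 / 2)
    (hu : ∀ a, ContMDiffAt (𝓡 n) 𝓘(ℝ, ℝ) 2 (u a) p) (a : Fin n) :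
    ‖Hf (n := n) (u a) p‖ ^ 2 ≤ 9 * (n : ℝ) ^ 2 *
      ∑ b, ∑ c, ∑ d, mGam n (mGam n (u b) (u c)) (u d) p ^ 2 := by
  rw [norm_Hf_sq (hu a)]
  exact mHessSq_le_P hF hu a

end Frame

end Crest.Agent.R249.LPt_191
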