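import Mathlib
import Crest.Prelude.Def_CoordMetric

/-!
# Row 249, leaf D3-LEN, part 1 (helper47): `riemDist` of a continuous metric

Continuity of the speed, lengths of concatenations, triangle inequality, segments.
-/

set_option autoImplicit false

open Set Filter Topology Metric
open scoped ContDiff
open Crest.GeometryTopology.CoordMetric

noncomputable section

namespace Crest.Agent.R249.Len47

variable {n : ℕ}

local notation "𝔼" => EuclideanSpace ℝ (Fin n)

/-- a continuous positive definite metric field on an open set -/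
structure ContMetric (h : MetricField n) (V : Set (EuclideanSpace ℝ (Fin n))) : Prop where
  isOpen : IsOpen V
  cont : ∀ i j : Fin n, ContinuousOn (fun x => h x i j) V
  posDef : ∀ x ∈ V, (h x).PosDef

theorem ContMetric.of_riem {h : MetricField n} {V : Set 𝔼} (hh : IsRiemannianOn h V) :
    ContMetric h V :=
  ⟨hh.isOpen, fun i j => (hh.contDiffOn i j).continuousOn, hh.posDef⟩

/-- the norm of the metric -/
def nrm (h : MetricField n) (x v : 𝔼) : ℝ := Real.sqrt (quadForm h x v)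

theorem nrm_nonneg (h : MetricField n) (x v : 𝔼) : 0 ≤ nrm h x v := Real.sqrt_nonneg _

theorem quadForm_smul (h : MetricField n) (x v : 𝔼) (c : ℝ) :
    quadForm h x (c • v) = c ^ 2 * quadForm h x v := by
  simp only [quadForm, PiLp.smul_apply, smul_eq_mul, Finset.mul_sum]
  refine Finset.sum_congr rfl fun i _ => Finset.sum_congr rfl fun j _ => by ring

theorem nrm_smul (h : MetricField n) (x v : 𝔼) (c : ℝ) :
    nrm h x (c • v) = |c| * nrm h x v := by
  rw [nrm, quadForm_smul, Real.sqrt_mul (sq_nonneg c), Real.sqrt_sq_eq_abs]; rfl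

theorem nrm_neg (h : MetricField n) (x v : 𝔼) : nrm h x (-v) = nrm h x v := by
  have := nrm_smul h x v (-1)
  rwa [neg_one_smul, abs_neg, abs_one, one_mul] at this

theorem nrm_zero (h : MetricField n) (x : 𝔼) : nrm h x 0 = 0 := by
  have := nrm_smul h x 0 0
  rwa [smul_zero, abs_zero, zero_mul] at this

theorem continuousOn_quadForm {h : MetricField n} {V : Set 𝔼} (hh : ContMetric h V) :
    ContinuousOn (fun p : 𝔼 × 𝔼 => quadForm h p.1 p.2) (V ×ˢ univ) := by
  unfold quadForm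
  refine continuousOn_finsetSum _ fun i _ => continuousOn_finsetSum _ fun j _ => ?_
  have h1 : ContinuousOn (fun p : 𝔼 × 𝔼 => h p.1 i j) (V ×ˢ univ) :=
    (hh.cont i j).comp continuousOn_fst (fun p hp => hp.1)
  have h2 : ∀ k : Fin n, ContinuousOn (fun p : 𝔼 × 𝔼 => p.2 k) (V ×ˢ univ) := fun k =>
    (by fun_prop : Continuous (fun p : 𝔼 × 𝔼 => p.2 k)).continuousOn
  exact (h1.mul (h2 i)).mul (h2 j)

theorem continuousOn_nrm {h : MetricField n} {V : Set 𝔼} (hh : ContMetric h V) :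
    ContinuousOn (fun p : 𝔼 × 𝔼 => nrm h p.1 p.2) (V ×ˢ univ) :=
  (continuousOn_quadForm hh).sqrt

/-- continuity of the speed at all parameters of `[0,1]` -/
theorem continuousAt_speed {h : MetricField n} {V : Set 𝔼} (hh : ContMetric h V) {γ : ℝ → 𝔼}
    (hγ : ContDiff ℝ 1 γ) {t : ℝ} (ht : γ t ∈ V) :
    ContinuousAt (fun t => Real.sqrt (quadForm h (γ t) (deriv γ t))) t := by
  have h1 : ContinuousAt (fun p : 𝔼 × 𝔼 => nrm h p.1 p.2) (γ t, deriv γ t) :=
    (continuousOn_nrm hh).continuousAt ((hh.isOpen.prod isOpen_univ).mem_nhds ⟨ht, mem_univ _⟩)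
  have h2 : ContinuousAt (fun t => (γ t, deriv γ t)) t :=
    (hγ.continuous.prodMk (hγ.continuous_deriv le_rfl)).continuousAt
  exact ContinuousAt.comp (f := fun t => (γ t, deriv γ t)) (x := t) h1 h2

theorem continuousOn_speed {h : MetricField n} {V : Set 𝔼} (hh : ContMetric h V) {γ : ℝ → 𝔼}
    (hγ : ContDiff ℝ 1 γ) {s : Set ℝ} (ht : ∀ t ∈ s, γ t ∈ V) :
    ContinuousOn (fun t => Real.sqrt (quadForm h (γ t) (deriv γ t))) s :=
  fun t hts => (continuousAt_speed hh hγ (ht t hts)).continuousWithinAt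

theorem curveLength_nonneg (h : MetricField n) (γ : ℝ → 𝔼) : 0 ≤ curveLength h γ :=
  intervalIntegral.integral_nonneg zero_le_one fun _ _ => Real.sqrt_nonneg _

theorem bddBelow_len (h : MetricField n) (V : Set 𝔼) (x y : 𝔼) :
    BddBelow (range fun γ : AdmissiblePath V x y => curveLength h γ.1) :=
  ⟨0, by rintro _ ⟨γ, rfl⟩; exact curveLength_nonneg h γ.1⟩

theorem riemDist_le {h : MetricField n} {V : Set 𝔼} {x y : 𝔼} (γ : AdmissiblePath V x y) :
    riemDist h V x y ≤ curveLength h γ.1 :=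
  ciInf_le (bddBelow_len h V x y) γ

theorem riemDist_nonneg (h : MetricField n) (V : Set 𝔼) (x y : 𝔼) : 0 ≤ riemDist h V x y :=
  Real.iInf_nonneg fun γ => curveLength_nonneg h γ.1

/-! ### concatenation -/

/-- the smooth step `t ↦ S(2t)` -/
def stA (t : ℝ) : ℝ := Real.smoothTransition (2 * t)

/-- the smooth step `t ↦ S(2t-1)` -/
def stB (t : ℝ) : ℝ := Real.smoothTransition (2 * t - 1)

theorem stA_contDiff : ContDiff ℝ 1 stA :=
  (Real.smoothTransition.contDiff (n := 1)).comp (contDiff_const.mul contDiff_id)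

theorem stB_contDiff : ContDiff ℝ 1 stB :=
  (Real.smoothTransition.contDiff (n := 1)).comp ((contDiff_const.mul contDiff_id).sub contDiff_const)

theorem stA_mono : Monotone stA := fun a b hab =>
  Real.smoothTransition.monotone (by linarith)

theorem stB_mono : Monotone stB := fun a b hab =>
  Real.smoothTransition.monotone (by linarith)

theorem stA_one {t : ℝ} (ht : 1 / 2 ≤ t) : stA t = 1 :=
  Real.smoothTransition.one_of_one_le (by linarith)

theorem stB_zero {t : ℝ} (ht : t ≤ 1 / 2) : stB t = 0 :=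
  Real.smoothTransition.zero_of_nonpos (by linarith)

theorem stA_zero : stA 0 = 0 := by simp [stA]

theorem stB_one : stB 1 = 1 := by
  rw [stB, show (2 : ℝ) * 1 - 1 = 1 by norm_num]; exact Real.smoothTransition.one

theorem stA_mem (t : ℝ) : stA t ∈ Icc (0 : ℝ) 1 :=
  ⟨Real.smoothTransition.nonneg _, Real.smoothTransition.le_one _⟩

theorem stB_mem (t : ℝ) : stB t ∈ Icc (0 : ℝ) 1 :=
  ⟨Real.smoothTransition.nonneg _, Real.smoothTransition.le_one _⟩

/-- length of a reparametrised curve -/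
theorem integral_reparam {h : MetricField n} {V : Set 𝔼} (hh : ContMetric h V) {γ : ℝ → 𝔼}
    (hγ : ContDiff ℝ 1 γ) (hV : ∀ t ∈ Icc (0 : ℝ) 1, γ t ∈ V) {s : ℝ → ℝ} (hs : ContDiff ℝ 1 s)
    (hmono : Monotone s) (hmem : ∀ t, s t ∈ Icc (0 : ℝ) 1) {a b : ℝ}
    (ha : s a = 0) (hb : s b = 1) :
    ∫ t in a..b, Real.sqrt (quadForm h (γ (s t)) (deriv (γ ∘ s) t)) = curveLength h γ := by
  have hd : ∀ t, HasDerivAt s (deriv s t) t := fun t =>
    (hs.differentiable one_ne_zero t).hasDerivAt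
  have hd0 : ∀ t, 0 ≤ deriv s t := fun t => hmono.deriv_nonneg
  have h1 : ∀ t, Real.sqrt (quadForm h (γ (s t)) (deriv (γ ∘ s) t)) =
      ((fun u => Real.sqrt (quadForm h (γ u) (deriv γ u))) ∘ s) t * deriv s t := by
    intro t
    have h2 : HasDerivAt (γ ∘ s) (deriv s t • deriv γ (s t)) t :=
      ((hγ.differentiable one_ne_zero (s t)).hasDerivAt).scomp t (hd t)
    rw [h2.deriv]
    have := nrm_smul h (γ (s t)) (deriv γ (s t)) (deriv s t)
    rw [abs_of_nonneg (hd0 t)] at this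
    simp only [nrm] at this
    rw [this, mul_comm]
    rfl
  simp only [h1]
  have h3 := intervalIntegral.integral_comp_mul_deriv'' (a := a) (b := b) (f := s)
    (f' := deriv s) (g := fun u => Real.sqrt (quadForm h (γ u) (deriv γ u)))
    hs.continuous.continuousOn (fun t _ => (hd t).hasDerivWithinAt)
    (hs.continuous_deriv le_rfl).continuousOn
    (continuousOn_speed hh hγ (by rintro _ ⟨t, -, rfl⟩; exact hV _ (hmem t)))
  rw [h3, ha, hb]
  rfl

/-- concatenation of two curves -/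
def joinFun (γ₁ γ₂ : ℝ → 𝔼) (b : 𝔼) (t : ℝ) : 𝔼 := γ₁ (stA t) + γ₂ (stB t) - b

theorem joinFun_left {γ₁ γ₂ : ℝ → 𝔼} {b : 𝔼} (h2 : γ₂ 0 = b) {t : ℝ} (ht : t ≤ 1 / 2) :
    joinFun γ₁ γ₂ b t = γ₁ (stA t) := by
  rw [joinFun, stB_zero ht, h2]; abel

theorem joinFun_right {γ₁ γ₂ : ℝ → 𝔼} {b : 𝔼} (h1 : γ₁ 1 = b) {t : ℝ} (ht : 1 / 2 ≤ t) :
    joinFun γ₁ γ₂ b t = γ₂ (stB t) := by
  rw [joinFun, stA_one ht, h1]; abel

theorem joinFun_contDiff {γ₁ γ₂ : ℝ → 𝔼} {b : 𝔼} (h1 : ContDiff ℝ 1 γ₁) (h2 : ContDiff ℝ 1 γ₂) :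
    ContDiff ℝ 1 (joinFun γ₁ γ₂ b) :=
  ((h1.comp stA_contDiff).add (h2.comp stB_contDiff)).sub contDiff_const

/-- concatenation of admissible paths -/
def join {V : Set 𝔼} {a b c : 𝔼} (γ₁ : AdmissiblePath V a b) (γ₂ : AdmissiblePath V b c) :
    AdmissiblePath V a c :=
  ⟨joinFun γ₁.1 γ₂.1 b, joinFun_contDiff γ₁.2.1 γ₂.2.1, by
    rw [joinFun_left γ₂.2.2.1 (by norm_num), stA_zero, γ₁.2.2.1], by
    rw [joinFun_right γ₁.2.2.2.1 (by norm_num), stB_one, γ₂.2.2.2.1], by
    intro t _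
    rcases le_total t (1 / 2) with h | h
    · rw [joinFun_left γ₂.2.2.1 h]; exact γ₁.2.2.2.2 _ (stA_mem t)
    · rw [joinFun_right γ₁.2.2.2.1 h]; exact γ₂.2.2.2.2 _ (stB_mem t)⟩

theorem curveLength_join {h : MetricField n} {V : Set 𝔼} (hh : ContMetric h V) {a b c : 𝔼}
    (γ₁ : AdmissiblePath V a b) (γ₂ : AdmissiblePath V b c) :
    curveLength h (join γ₁ γ₂).1 = curveLength h γ₁.1 + curveLength h γ₂.1 := by
  have hc : ContDiff ℝ 1 (joinFun γ₁.1 γ₂.1 b) := joinFun_contDiff γ₁.2.1 γ₂.2.1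
  have hV : ∀ t, joinFun γ₁.1 γ₂.1 b t ∈ V := by
    intro t
    rcases le_total t (1 / 2) with h | h
    · rw [joinFun_left γ₂.2.2.1 h]; exact γ₁.2.2.2.2 _ (stA_mem t)
    · rw [joinFun_right γ₁.2.2.2.1 h]; exact γ₂.2.2.2.2 _ (stB_mem t)
  have hint : ∀ u v : ℝ, IntervalIntegrable (fun t => Real.sqrt (quadForm h
      (joinFun γ₁.1 γ₂.1 b t) (deriv (joinFun γ₁.1 γ₂.1 b) t))) MeasureTheory.volume u v :=
    fun u v => (continuousOn_speed hh hc (fun t _ => hV t)).intervalIntegrable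
  have h0 : curveLength h (join γ₁ γ₂).1 = ∫ t in (0 : ℝ)..1, Real.sqrt (quadForm h
      (joinFun γ₁.1 γ₂.1 b t) (deriv (joinFun γ₁.1 γ₂.1 b) t)) := rfl
  rw [h0, ← intervalIntegral.integral_add_adjacent_intervals (hint 0 (1 / 2)) (hint (1 / 2) 1)]
  congr 1
  · rw [← integral_reparam hh γ₁.2.1 γ₁.2.2.2.2 stA_contDiff stA_mono stA_mem
      stA_zero (stA_one le_rfl)]
    apply intervalIntegral.integral_congr_ae
    have hne : ∀ᵐ t : ℝ ∂MeasureTheory.volume, t ≠ 1 / 2 := by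
      simp [MeasureTheory.ae_iff, MeasureTheory.measure_singleton]
    filter_upwards [hne] with t ht1 ht
    rw [uIoc_of_le (by norm_num)] at ht
    have hlt : t < 1 / 2 := lt_of_le_of_ne ht.2 ht1
    have he : joinFun γ₁.1 γ₂.1 b =ᶠ[𝓝 t] γ₁.1 ∘ stA := by
      filter_upwards [Iio_mem_nhds hlt] with u hu
      exact joinFun_left γ₂.2.2.1 (le_of_lt hu)
    rw [he.deriv_eq, he.self_of_nhds]
    rfl
  · rw [← integral_reparam hh γ₂.2.1 γ₂.2.2.2.2 stB_contDiff stB_mono stB_mem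
      (stB_zero le_rfl) stB_one]
    apply intervalIntegral.integral_congr_ae
    refine Filter.Eventually.of_forall fun t ht => ?_
    rw [uIoc_of_le (by norm_num)] at ht
    have he : joinFun γ₁.1 γ₂.1 b =ᶠ[𝓝 t] γ₂.1 ∘ stB := by
      filter_upwards [Ioi_mem_nhds ht.1] with u hu
      exact joinFun_right γ₁.2.2.2.1 (le_of_lt hu)
    rw [he.deriv_eq, he.self_of_nhds]
    rfl

theorem riemDist_triangle {h : MetricField n} {V : Set 𝔼} (hh : ContMetric h V) {a b c : 𝔼}
    (h1 : Nonempty (AdmissiblePath V a b)) (h2 : Nonempty (AdmissiblePath V b c)) :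
    riemDist h V a c ≤ riemDist h V a b + riemDist h V b c := by
  refine le_of_forall_pos_le_add fun ε hε => ?_
  obtain ⟨γ₁, hγ₁⟩ := exists_lt_of_ciInf_lt (show riemDist h V a b < riemDist h V a b + ε / 2 by
    linarith)
  obtain ⟨γ₂, hγ₂⟩ := exists_lt_of_ciInf_lt (show riemDist h V b c < riemDist h V b c + ε / 2 by
    linarith)
  have h3 := riemDist_le (h := h) (join γ₁ γ₂)
  rw [curveLength_join hh] at h3
  linarith

theorem riemDist_self {h : MetricField n} {V : Set 𝔼} {a : 𝔼} (ha : a ∈ V) :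
    riemDist h V a a = 0 := by
  refine le_antisymm ?_ (riemDist_nonneg h V a a)
  have h1 := riemDist_le (h := h) (⟨fun _ => a, contDiff_const, rfl, rfl, fun _ _ => ha⟩ :
    AdmissiblePath V a a)
  refine h1.trans (le_of_eq ?_)
  have h2 : ∀ t : ℝ, Real.sqrt (quadForm h a (deriv (fun _ : ℝ => a) t)) = 0 := by
    intro t
    rw [deriv_const]; exact nrm_zero h a
  simp only [curveLength, h2, intervalIntegral.integral_zero]

/-- segments as admissible paths -/
def seg {V : Set 𝔼} {a b : 𝔼} (h : ∀ t ∈ Icc (0 : ℝ) 1, a + t • (b - a) ∈ V) :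
    AdmissiblePath V a b :=
  ⟨fun t => a + t • (b - a), by fun_prop, by simp, by simp, h⟩

theorem curveLength_seg (h : MetricField n) {V : Set 𝔼} {a b : 𝔼}
    (hs : ∀ t ∈ Icc (0 : ℝ) 1, a + t • (b - a) ∈ V) :
    curveLength h (seg hs).1 = ∫ t in (0 : ℝ)..1, nrm h (a + t • (b - a)) (b - a) := by
  have h1 : ∀ t : ℝ, deriv (fun t : ℝ => a + t • (b - a)) t = b - a := by
    intro t
    have : HasDerivAt (fun t : ℝ => a + t • (b - a)) ((1 : ℝ) • (b - a)) t :=
      ((hasDerivAt_id t).smul_const (b - a)).const_add a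
    rw [this.deriv, one_smul]
  have h2 : curveLength h (seg hs).1 = ∫ t in (0 : ℝ)..1, Real.sqrt (quadForm h
      (a + t • (b - a)) (deriv (fun t : ℝ => a + t • (b - a)) t)) := rfl
  rw [h2]
  simp only [h1]
  rfl

/-- a bound for segments in a set where the norms are controlled -/
theorem riemDist_le_seg {h : MetricField n} {V : Set 𝔼} (hh : ContMetric h V) {a b : 𝔼}
    (hs : ∀ t ∈ Icc (0 : ℝ) 1, a + t • (b - a) ∈ V) {C : ℝ}
    (hC : ∀ t ∈ Icc (0 : ℝ) 1, nrm h (a + t • (b - a)) (b - a) ≤ C) :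
    riemDist h V a b ≤ C := by
  refine (riemDist_le (seg hs)).trans ?_
  rw [curveLength_seg]
  have hcont : ContinuousOn (fun t : ℝ => nrm h (a + t • (b - a)) (b - a)) (Icc (0 : ℝ) 1) := by
    have h1 : ContinuousOn (fun t : ℝ => ((a + t • (b - a), b - a) : 𝔼 × 𝔼)) (Icc (0 : ℝ) 1) :=
      (by fun_prop : Continuous (fun t : ℝ => ((a + t • (b - a), b - a) : 𝔼 × 𝔼))).continuousOn
    exact ContinuousOn.comp (g := fun p : 𝔼 × 𝔼 => nrm h p.1 p.2)
      (f := fun t : ℝ => ((a + t • (b - a), b - a) : 𝔼 × 𝔼)) (t := V ×ˢ univ)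
      (continuousOn_nrm hh) h1 (fun t ht => ⟨hs t ht, mem_univ _⟩)
  have h3 : ∫ t in (0 : ℝ)..1, nrm h (a + t • (b - a)) (b - a) ≤ ∫ _ in (0 : ℝ)..1, C := by
    apply intervalIntegral.integral_mono_on zero_le_one
    · exact ContinuousOn.intervalIntegrable (by rwa [uIcc_of_le zero_le_one])
    · exact intervalIntegrable_const
    · exact hC
  refine h3.trans (le_of_eq ?_)
  simp

end Crest.Agent.R249.Len47
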