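import Crest.Agent.R249.Len1_47

/-!
# Row 249, leaf D3-LEN, part 2 (helper47): infinitesimal scaling + length space ⟹ `dist = riemDist`

`InfScale e h` : `e` a chart of the metric space `X`, `h` a continuous metric on `e.target`, and
distances near every point are, to first order, the norms of `h`.
`ChainLen X` : `X` is a length space, in the form of fine chains.
`dist_eq_riemDist` : then locally `dist x y = riemDist h e.target (e x) (e y)`.
-/

set_option autoImplicit false

open Set Filter Topology Metric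
open scoped ContDiff
open Crest.GeometryTopology.CoordMetric

noncomputable section

namespace Crest.Agent.R249.Len47

variable {n : ℕ} {X : Type*} [MetricSpace X]

local notation "𝔼" => EuclideanSpace ℝ (Fin n)

/-- distances near every point of the chart are to first order the norms of `h` -/
def InfScale (e : OpenPartialHomeomorph X (EuclideanSpace ℝ (Fin n))) (h : MetricField n) : Prop :=
  ∀ z ∈ e.source, ∀ ε > 0, ∃ r > 0, ∀ x y, dist x z < r → dist y z < r →
    |dist x y - nrm h (e z) (e x - e y)| ≤ ε * ‖e x - e y‖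

/-- length spaces, by chains -/
def ChainLen (X : Type*) [MetricSpace X] : Prop :=
  ∀ x y : X, ∀ ε > 0, ∃ (N : ℕ) (c : ℕ → X), c 0 = x ∧ c N = y ∧
    (∀ i < N, dist (c i) (c (i + 1)) ≤ ε) ∧
    ∑ i ∈ Finset.range N, dist (c i) (c (i + 1)) ≤ dist x y + ε

/-! ### norms at nearby points -/

theorem nrm_pos {h : MetricField n} {V : Set 𝔼} (hh : ContMetric h V) {x v : 𝔼} (hx : x ∈ V)
    (hv : v ≠ 0) : 0 < nrm h x v := by
  have hv' : (WithLp.ofLp v : Fin n → ℝ) ≠ 0 := by
    intro h0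
    apply hv
    ext i
    exact congrFun h0 i
  have h2 := (hh.posDef x hx).dotProduct_mulVec_pos hv'
  apply Real.sqrt_pos.2
  have : quadForm h x v = star (WithLp.ofLp v) ⬝ᵥ (h x).mulVec (WithLp.ofLp v) := by
    rw [quadForm]
    simp only [dotProduct, Matrix.mulVec, Finset.mul_sum, star_trivial]
    refine Finset.sum_congr rfl fun i _ => Finset.sum_congr rfl fun j _ => by ring
  rw [this]
  exact h2

/-- lower bound of the norm at a point -/
theorem exists_lower {h : MetricField n} {V : Set 𝔼} (hh : ContMetric h V) {x : 𝔼} (hx : x ∈ V) :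
    ∃ c > 0, ∀ v, c * ‖v‖ ≤ nrm h x v := by
  rcases subsingleton_or_nontrivial 𝔼 with hE | hE
  · exact ⟨1, one_pos, fun v => by
      rw [Subsingleton.elim v 0, norm_zero, mul_zero]; exact nrm_nonneg _ _ _⟩
  · have hne : (sphere (0 : 𝔼) 1).Nonempty := NormedSpace.sphere_nonempty.2 zero_le_one
    have hcont : ContinuousOn (fun v : 𝔼 => nrm h x v) (sphere (0 : 𝔼) 1) :=
      ContinuousOn.comp (g := fun p : 𝔼 × 𝔼 => nrm h p.1 p.2) (f := fun v : 𝔼 => (x, v))
        (t := V ×ˢ univ) (continuousOn_nrm hh)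
        (by fun_prop : Continuous (fun v : 𝔼 => (x, v))).continuousOn
        (fun v _ => ⟨hx, mem_univ _⟩)
    obtain ⟨v₀, hv₀, hmin⟩ := (isCompact_sphere (0 : 𝔼) 1).exists_isMinOn hne hcont
    have hv0 : v₀ ≠ 0 := by rintro rfl; simp at hv₀
    refine ⟨nrm h x v₀, nrm_pos hh hx hv0, fun v => ?_⟩
    rcases eq_or_ne v 0 with rfl | hv
    · rw [norm_zero, mul_zero]; exact nrm_nonneg _ _ _
    · have hvn : 0 < ‖v‖ := norm_pos_iff.2 hv
      have h1 : nrm h x v₀ ≤ nrm h x (‖v‖⁻¹ • v) := by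
        apply hmin
        simp [norm_smul, hvn.ne']
      rw [nrm_smul, abs_of_pos (inv_pos.2 hvn)] at h1
      have h2 := mul_le_mul_of_nonneg_right h1 hvn.le
      rw [mul_comm ‖v‖⁻¹, mul_assoc, inv_mul_cancel₀ hvn.ne', mul_one] at h2
      exact h2

/-- the norms at nearby points are close -/
theorem eventually_nrm_close {h : MetricField n} {V : Set 𝔼} (hh : ContMetric h V) {x : 𝔼}
    (hx : x ∈ V) {ε : ℝ} (hε : 0 < ε) :
    ∀ᶠ y in 𝓝 x, ∀ v, |nrm h y v - nrm h x v| ≤ ε * ‖v‖ := by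
  have hK : IsCompact (closedBall (0 : 𝔼) 1) := isCompact_closedBall 0 1
  have hcont : ContinuousOn (fun p : 𝔼 × 𝔼 => nrm h p.1 p.2) (V ×ˢ univ) := continuousOn_nrm hh
  -- uniform closeness on the compact unit ball
  have h1 : ∀ v ∈ closedBall (0 : 𝔼) 1, ∃ U ∈ 𝓝 v, ∀ᶠ y in 𝓝 x, ∀ w ∈ U,
      |nrm h y w - nrm h x w| < ε := by
    intro v _
    have hcv : ContinuousAt (fun p : 𝔼 × 𝔼 => nrm h p.1 p.2) (x, v) :=
      hcont.continuousAt ((hh.isOpen.prod isOpen_univ).mem_nhds ⟨hx, mem_univ _⟩)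
    have h2 : ∀ᶠ p in 𝓝 (x, v), |nrm h p.1 p.2 - nrm h x v| < ε / 2 := by
      have := hcv.tendsto.eventually (Metric.ball_mem_nhds _ (half_pos hε))
      filter_upwards [this] with p hp
      rwa [Real.dist_eq] at hp
    rw [nhds_prod_eq] at h2
    obtain ⟨A, hA, B, hB, hAB⟩ := Filter.mem_prod_iff.1 h2
    refine ⟨B, hB, ?_⟩
    filter_upwards [hA] with y hy w hw
    have e1 : |nrm h y w - nrm h x v| < ε / 2 := hAB (⟨hy, hw⟩ : (y, w) ∈ A ×ˢ B)
    have e2 : |nrm h x w - nrm h x v| < ε / 2 :=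
      hAB (⟨mem_of_mem_nhds hA, hw⟩ : (x, w) ∈ A ×ˢ B)
    rw [abs_lt] at e1 e2 ⊢
    constructor <;> linarith
  choose! U hU hUy using h1
  obtain ⟨t, ht, hcov⟩ := hK.elim_nhds_subcover U hU
  have h3 : ∀ᶠ y in 𝓝 x, ∀ v ∈ t, ∀ w ∈ U v, |nrm h y w - nrm h x w| < ε :=
    (Filter.eventually_all_finset t).2 fun v hv => hUy v (ht v hv)
  filter_upwards [h3] with y hy v
  rcases eq_or_ne v 0 with rfl | hv
  · rw [nrm_zero, nrm_zero, norm_zero]; simp
  · have hvn : 0 < ‖v‖ := norm_pos_iff.2 hv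
    have hmem : ‖v‖⁻¹ • v ∈ closedBall (0 : 𝔼) 1 := by
      simp [norm_smul, hvn.ne']
    obtain ⟨v', hv', hw⟩ := mem_iUnion₂.1 (hcov hmem)
    have h4 := hy v' hv' _ hw
    rw [nrm_smul, nrm_smul, abs_of_pos (inv_pos.2 hvn), ← mul_sub, abs_mul,
      abs_of_pos (inv_pos.2 hvn)] at h4
    have h5 := mul_lt_mul_of_pos_right h4 hvn
    rw [mul_comm ‖v‖⁻¹, mul_assoc, inv_mul_cancel₀ hvn.ne', mul_one] at h5
    exact h5.le

/-! ### upper bound -/

/-- the distance is at most the length of any curve in the chart -/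
theorem dist_le_curveLength {e : OpenPartialHomeomorph X 𝔼} {h : MetricField n}
    (hh : ContMetric h e.target) (hs : InfScale e h) {x y : X} (hx : x ∈ e.source)
    (hy : y ∈ e.source) (γ : AdmissiblePath e.target (e x) (e y)) :
    dist x y ≤ curveLength h γ.1 := by
  obtain ⟨γ, hγ, h0, h1, hV⟩ := γ
  simp only
  set sp : ℝ → ℝ := fun t => Real.sqrt (quadForm h (γ t) (deriv γ t)) with hsp
  set f : ℝ → ℝ := fun t => dist x (e.symm (γ t)) with hf
  set B : ℝ → ℝ := fun t => ∫ s in (0 : ℝ)..t, sp s with hB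
  have hspc : ∀ t ∈ Icc (0 : ℝ) 1, ContinuousAt sp t := fun t ht => continuousAt_speed hh hγ (hV t ht)
  have hspo : ContinuousOn sp (Icc (0 : ℝ) 1) := fun t ht => (hspc t ht).continuousWithinAt
  have hfc : ContinuousOn f (Icc (0 : ℝ) 1) := by
    have h2 : ContinuousOn (fun t => e.symm (γ t)) (Icc (0 : ℝ) 1) :=
      e.continuousOn_symm.comp hγ.continuous.continuousOn hV
    exact (continuous_const.dist continuous_id).comp_continuousOn h2
  have hmeas : ∀ t ∈ Icc (0 : ℝ) 1, StronglyMeasurableAtFilter sp (𝓝 t) := by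
    intro t ht
    have hopen : IsOpen (γ ⁻¹' e.target) := e.open_target.preimage hγ.continuous
    refine ContinuousOn.stronglyMeasurableAtFilter hopen ?_ t (hV t ht)
    intro s hs'
    exact (continuousAt_speed hh hγ hs').continuousWithinAt
  have hBd : ∀ t ∈ Icc (0 : ℝ) 1, HasDerivAt B (sp t) t := by
    intro t ht
    refine intervalIntegral.integral_hasDerivAt_right ?_ (hmeas t ht) (hspc t ht)
    refine ContinuousOn.intervalIntegrable (hspo.mono ?_)
    rw [uIcc_of_le ht.1]
    exact Icc_subset_Icc_right ht.2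
  have key := image_le_of_liminf_slope_right_le_deriv_boundary (f := f) (a := 0) (b := 1) hfc
    (B := B) (B' := sp) (by
      show dist x (e.symm (γ 0)) ≤ B 0
      rw [h0, e.left_inv hx, dist_self]
      simp [hB]) (fun t ht => (hBd t ht).continuousAt.continuousWithinAt)
    (fun t ht => (hBd t (Ico_subset_Icc_self ht)).hasDerivWithinAt) (by
      intro t ht r hr
      apply Filter.Eventually.frequently
      have ht' := Ico_subset_Icc_self ht
      have hz : e.symm (γ t) ∈ e.source := e.map_target (hV t ht')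
      -- choose ε
      have hr' : 0 < r - sp t := by linarith
      set ε : ℝ := (r - sp t) / (2 * (‖deriv γ t‖ + 1)) with hεdef
      have hden : 0 < 2 * (‖deriv γ t‖ + 1) := by positivity
      have hε : 0 < ε := div_pos hr' hden
      obtain ⟨ρ, hρ, hρd⟩ := hs _ hz ε hε
      have hez : e (e.symm (γ t)) = γ t := e.right_inv (hV t ht')
      -- near points
      have hcont : ContinuousAt (fun s => e.symm (γ s)) t :=
        ContinuousAt.comp (g := e.symm) (e.continuousAt_symm (hV t ht')) hγ.continuous.continuousAt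
      have hnear : ∀ᶠ s in 𝓝 t, dist (e.symm (γ s)) (e.symm (γ t)) < ρ :=
        hcont.tendsto.eventually (Metric.ball_mem_nhds _ hρ)
      have htar : ∀ᶠ s in 𝓝 t, γ s ∈ e.target :=
        hγ.continuous.continuousAt.tendsto.eventually (e.open_target.mem_nhds (hV t ht'))
      -- limit of difference quotients
      have hlim : Tendsto (fun s => nrm h (γ t) ((s - t)⁻¹ • (γ s - γ t)) +
          ε * ‖(s - t)⁻¹ • (γ s - γ t)‖) (𝓝[>] t) (𝓝 (sp t + ε * ‖deriv γ t‖)) := by
        have h2 : Tendsto (fun s => (s - t)⁻¹ • (γ s - γ t)) (𝓝[>] t) (𝓝 (deriv γ t)) := by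
          have h3 := (hγ.differentiable one_ne_zero t).hasDerivAt
          rw [hasDerivAt_iff_tendsto_slope] at h3
          have h4 : 𝓝[>] t ≤ 𝓝[≠] t := nhdsWithin_mono _ (fun s hs => ne_of_gt hs)
          exact h3.mono_left h4
        have h5 : ContinuousAt (fun v : 𝔼 => nrm h (γ t) v) (deriv γ t) := by
          have h6 : ContinuousAt (fun p : 𝔼 × 𝔼 => nrm h p.1 p.2) (γ t, deriv γ t) :=
            (continuousOn_nrm hh).continuousAt
              ((hh.isOpen.prod isOpen_univ).mem_nhds ⟨hV t ht', mem_univ _⟩)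
          exact ContinuousAt.comp (g := fun p : 𝔼 × 𝔼 => nrm h p.1 p.2)
            (f := fun v : 𝔼 => (γ t, v)) (x := deriv γ t) h6 (by fun_prop)
        exact (h5.tendsto.comp h2).add ((h2.norm).const_mul ε)
      have hlt : sp t + ε * ‖deriv γ t‖ < r := by
        have h7 : ε * ‖deriv γ t‖ < r - sp t := by
          have h8 : ε * (2 * (‖deriv γ t‖ + 1)) = r - sp t := by
            rw [hεdef]; field_simp
          nlinarith [norm_nonneg (deriv γ t)]
        linarith
      filter_upwards [hlim.eventually (gt_mem_nhds hlt), nhdsWithin_le_nhds hnear,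
        nhdsWithin_le_nhds htar, self_mem_nhdsWithin] with s h9 h10 h11 h12
      have hst : 0 < s - t := sub_pos.2 h12
      have hd := hρd (e.symm (γ s)) (e.symm (γ t)) h10 (by rwa [dist_self])
      rw [hez, e.right_inv h11] at hd
      rw [slope_def_field]
      have h13 : f s - f t ≤ dist (e.symm (γ s)) (e.symm (γ t)) := by
        have := dist_triangle x (e.symm (γ t)) (e.symm (γ s))
        rw [dist_comm (e.symm (γ t))] at this
        simp only [hf]; linarith
      have h14 : dist (e.symm (γ s)) (e.symm (γ t)) ≤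
          nrm h (γ t) (γ s - γ t) + ε * ‖γ s - γ t‖ := by
        have := (abs_le.1 hd).2
        linarith
      have h15 : nrm h (γ t) (γ s - γ t) + ε * ‖γ s - γ t‖ =
          (s - t) * (nrm h (γ t) ((s - t)⁻¹ • (γ s - γ t)) + ε * ‖(s - t)⁻¹ • (γ s - γ t)‖) := by
        rw [nrm_smul, norm_smul, Real.norm_eq_abs, abs_of_pos (inv_pos.2 hst)]
        field_simp
      rw [div_lt_iff₀ hst]
      calc f s - f t ≤ (s - t) * (nrm h (γ t) ((s - t)⁻¹ • (γ s - γ t)) +
            ε * ‖(s - t)⁻¹ • (γ s - γ t)‖) := by rw [← h15]; exact h13.trans h14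
        _ < (s - t) * r := mul_lt_mul_of_pos_left h9 hst
        _ = r * (s - t) := mul_comm _ _)
    (right_mem_Icc.2 zero_le_one)
  have h3 : f 1 = dist x y := by
    show dist x (e.symm (γ 1)) = dist x y
    rw [h1, e.left_inv hy]
  rw [h3] at key
  exact key

/-- the distance is at most `riemDist`, if there is a curve at all -/
theorem dist_le_riemDist {e : OpenPartialHomeomorph X 𝔼} {h : MetricField n}
    (hh : ContMetric h e.target) (hs : InfScale e h) {x y : X} (hx : x ∈ e.source)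
    (hy : y ∈ e.source) (hne : Nonempty (AdmissiblePath e.target (e x) (e y))) :
    dist x y ≤ riemDist h e.target (e x) (e y) :=
  le_ciInf fun γ => dist_le_curveLength hh hs hx hy γ

/-! ### lower bound -/

/-- near every point segments are almost minimal -/
theorem seg_local {e : OpenPartialHomeomorph X 𝔼} {h : MetricField n}
    (hh : ContMetric h e.target) (hs : InfScale e h) {z : X} (hz : z ∈ e.source) {η : ℝ}
    (hη : 0 < η) :
    ∃ r > 0, ∀ x y, dist x z < r → dist y z < r → x ∈ e.source ∧ y ∈ e.source ∧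
      (∀ t ∈ Icc (0 : ℝ) 1, e x + t • (e y - e x) ∈ e.target) ∧
      riemDist h e.target (e x) (e y) ≤ (1 + η) * dist x y := by
  have hzt : e z ∈ e.target := e.map_source hz
  obtain ⟨c, hc, hcl⟩ := exists_lower hh hzt
  -- ε with 2 ε ≤ η (c - ε)
  set ε : ℝ := min (c / 2) (η * c / 4) with hεdef
  have hε : 0 < ε := lt_min (by positivity) (by positivity)
  have hε1 : ε ≤ c / 2 := min_le_left _ _
  have hε2 : ε ≤ η * c / 4 := min_le_right _ _
  obtain ⟨s, hs0, hsb⟩ := Metric.mem_nhds_iff.1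
    (Filter.inter_mem (e.open_target.mem_nhds hzt) (eventually_nrm_close hh hzt hε))
  obtain ⟨r1, hr1, hr1d⟩ := hs z hz ε hε
  obtain ⟨r2, hr2, hr2s⟩ := Metric.mem_nhds_iff.1 (e.open_source.mem_nhds hz)
  obtain ⟨r3, hr3, hr3s⟩ := Metric.mem_nhds_iff.1
    ((e.continuousAt hz).preimage_mem_nhds (Metric.ball_mem_nhds _ hs0))
  refine ⟨min r1 (min r2 r3), lt_min hr1 (lt_min hr2 hr3), fun x y hx hy => ?_⟩
  have hx1 := lt_of_lt_of_le hx (min_le_left _ _)
  have hx2 := lt_of_lt_of_le hx ((min_le_right _ _).trans (min_le_left _ _))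
  have hx3 := lt_of_lt_of_le hx ((min_le_right _ _).trans (min_le_right _ _))
  have hy1 := lt_of_lt_of_le hy (min_le_left _ _)
  have hy2 := lt_of_lt_of_le hy ((min_le_right _ _).trans (min_le_left _ _))
  have hy3 := lt_of_lt_of_le hy ((min_le_right _ _).trans (min_le_right _ _))
  have hex : e x ∈ ball (e z) s := hr3s (mem_ball.2 hx3)
  have hey : e y ∈ ball (e z) s := hr3s (mem_ball.2 hy3)
  have hseg : ∀ t ∈ Icc (0 : ℝ) 1, e x + t • (e y - e x) ∈ ball (e z) s := by
    intro t ht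
    exact (convex_ball (e z) s).add_smul_sub_mem hex hey ht
  have htar : ∀ t ∈ Icc (0 : ℝ) 1, e x + t • (e y - e x) ∈ e.target := fun t ht =>
    (hsb (hseg t ht)).1
  refine ⟨hr2s (mem_ball.2 hx2), hr2s (mem_ball.2 hy2), htar, ?_⟩
  have hd := hr1d x y hx1 hy1
  have hd1 := (abs_le.1 hd).1
  have hlow := hcl (e y - e x)
  have hneg : nrm h (e z) (e x - e y) = nrm h (e z) (e y - e x) := by
    rw [← nrm_neg, neg_sub]
  have hnn : ‖e x - e y‖ = ‖e y - e x‖ := norm_sub_rev _ _
  rw [hneg, hnn] at hd1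
  -- (c - ε) ‖Δ‖ ≤ dist
  have h1 : (c - ε) * ‖e y - e x‖ ≤ dist x y := by linarith
  have h2 : riemDist h e.target (e x) (e y) ≤ nrm h (e z) (e y - e x) + ε * ‖e y - e x‖ := by
    refine riemDist_le_seg hh htar fun t ht => ?_
    have := (hsb (hseg t ht)).2 (e y - e x)
    linarith [(abs_le.1 this).2]
  have h3 : 2 * ε * ‖e y - e x‖ ≤ η * dist x y := by
    have h4 : c / 2 * ‖e y - e x‖ ≤ dist x y := by
      refine le_trans ?_ h1
      exact mul_le_mul_of_nonneg_right (by linarith) (norm_nonneg _)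
    have h5 : 2 * ε * ‖e y - e x‖ ≤ 2 * (η * c / 4) * ‖e y - e x‖ :=
      mul_le_mul_of_nonneg_right (by linarith) (norm_nonneg _)
    have h6 := mul_le_mul_of_nonneg_left h4 hη.le
    nlinarith
  nlinarith

/-- **Infinitesimal scaling + length space ⟹ the distance is locally `riemDist`.** -/
theorem dist_eq_riemDist (hX : ChainLen X) {e : OpenPartialHomeomorph X 𝔼} {h : MetricField n}
    (hh : ContMetric h e.target) (hs : InfScale e h) {z : X} (hz : z ∈ e.source) :
    ∃ ρ > 0, ball z ρ ⊆ e.source ∧ ∀ x ∈ ball z ρ, ∀ y ∈ ball z ρ,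
      dist x y = riemDist h e.target (e x) (e y) := by
  have hzt : e z ∈ e.target := e.map_source hz
  -- a compact neighbourhood of `z` inside the source
  obtain ⟨s, hs0, hsb⟩ := Metric.mem_nhds_iff.1 (e.open_target.mem_nhds hzt)
  set K : Set X := e.symm '' closedBall (e z) (s / 2) with hK
  have hsub : closedBall (e z) (s / 2) ⊆ e.target :=
    (closedBall_subset_ball (by linarith)).trans hsb
  have hKc : IsCompact K :=
    (isCompact_closedBall (e z) (s / 2)).image_of_continuousOn (e.continuousOn_symm.mono hsub)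
  have hKs : K ⊆ e.source := by
    rintro _ ⟨y, hy, rfl⟩
    exact e.map_target (hsub hy)
  have hKn : K ∈ 𝓝 z := by
    have h1 : e.source ∩ e ⁻¹' ball (e z) (s / 2) ∈ 𝓝 z :=
      (e.isOpen_inter_preimage isOpen_ball).mem_nhds ⟨hz, mem_ball_self (by linarith)⟩
    refine Filter.mem_of_superset h1 ?_
    rintro x ⟨hx, hx'⟩
    exact ⟨e x, ball_subset_closedBall hx', e.left_inv hx⟩
  obtain ⟨R, hR, hRK⟩ := Metric.mem_nhds_iff.1 hKn
  refine ⟨R / 4, by linarith, fun x hx => hKs (hRK (ball_subset_ball (by linarith) hx)), ?_⟩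
  -- the chain argument
  have chain : ∀ x ∈ ball z (R / 4), ∀ y ∈ ball z (R / 4), ∀ η > 0, ∀ ε > 0, ε ≤ R / 4 →
      Nonempty (AdmissiblePath e.target (e x) (e y)) ∧
        riemDist h e.target (e x) (e y) ≤ (1 + η) * (dist x y + ε) := by
    intro x hx y hy η hη ε hε hεR
    -- uniform radius
    have hloc : ∀ w : K, ∃ r > 0, ∀ x y : X, dist x w < r → dist y w < r → x ∈ e.source ∧
        y ∈ e.source ∧ (∀ t ∈ Icc (0 : ℝ) 1, e x + t • (e y - e x) ∈ e.target) ∧
        riemDist h e.target (e x) (e y) ≤ (1 + η) * dist x y := fun w =>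
      seg_local hh hs (hKs w.2) hη
    choose r hr hrd using hloc
    obtain ⟨δ, hδ, hδc⟩ := lebesgue_number_lemma_of_metric (s := K) (c := fun w : K => ball (w : X) (r w))
      hKc (fun w => isOpen_ball) (fun w hw => mem_iUnion.2 ⟨⟨w, hw⟩, mem_ball_self (hr _)⟩)
    obtain ⟨N, c, hc0, hcN, hcm, hcs⟩ := hX x y (min (δ / 2) ε) (lt_min (by linarith) hε)
    have hxz : dist x z < R / 4 := hx
    have hyz : dist y z < R / 4 := hy
    have hxy : dist x y < R / 2 := by
      have := dist_triangle x z y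
      rw [dist_comm z y] at this
      linarith
    have hcK : ∀ i ≤ N, c i ∈ K := by
      intro i hi
      apply hRK
      rw [mem_ball]
      have h1 : dist (c 0) (c i) ≤ ∑ j ∈ Finset.range i, dist (c j) (c (j + 1)) :=
        dist_le_range_sum_dist c i
      have h2 : ∑ j ∈ Finset.range i, dist (c j) (c (j + 1)) ≤
          ∑ j ∈ Finset.range N, dist (c j) (c (j + 1)) :=
        Finset.sum_le_sum_of_subset_of_nonneg (Finset.range_mono hi) fun _ _ _ => dist_nonneg
      have h3 := dist_triangle (c i) (c 0) z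
      rw [dist_comm (c i) (c 0)] at h3
      rw [hc0] at h1 h3
      have h4 := min_le_right (δ / 2) ε
      linarith
    have step : ∀ i < N, Nonempty (AdmissiblePath e.target (e (c i)) (e (c (i + 1)))) ∧
        riemDist h e.target (e (c i)) (e (c (i + 1))) ≤ (1 + η) * dist (c i) (c (i + 1)) := by
      intro i hi
      obtain ⟨w, hw⟩ := hδc (c i) (hcK i hi.le)
      have h1 : dist (c i) w < r w := hw (mem_ball_self hδ)
      have h2 : dist (c (i + 1)) w < r w := by
        apply hw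
        rw [mem_ball, dist_comm]
        have := hcm i hi
        have h4 := min_le_left (δ / 2) ε
        linarith
      obtain ⟨_, _, h3, h4⟩ := hrd w _ _ h1 h2
      exact ⟨⟨seg h3⟩, h4⟩
    have hind : ∀ i ≤ N, Nonempty (AdmissiblePath e.target (e (c 0)) (e (c i))) ∧
        riemDist h e.target (e (c 0)) (e (c i)) ≤
          (1 + η) * ∑ j ∈ Finset.range i, dist (c j) (c (j + 1)) := by
      intro i
      induction i with
      | zero =>
        intro _
        have h0 : e (c 0) ∈ e.target := e.map_source (hKs (hcK 0 (Nat.zero_le _)))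
        refine ⟨⟨⟨fun _ => e (c 0), contDiff_const, rfl, rfl, fun _ _ => h0⟩⟩, ?_⟩
        rw [riemDist_self h0]; simp
      | succ i ih =>
        intro hi
        obtain ⟨⟨p1⟩, h1⟩ := ih (Nat.le_of_succ_le hi)
        obtain ⟨⟨p2⟩, h2⟩ := step i hi
        refine ⟨⟨join p1 p2⟩, ?_⟩
        rw [Finset.sum_range_succ, mul_add]
        exact (riemDist_triangle hh ⟨p1⟩ ⟨p2⟩).trans (add_le_add h1 h2)
    obtain ⟨hne, hle⟩ := hind N le_rfl
    rw [hc0, hcN] at hne hle
    refine ⟨hne, hle.trans (mul_le_mul_of_nonneg_left ?_ (by linarith))⟩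
    exact hcs.trans (by linarith [min_le_right (δ / 2) ε])
  intro x hx y hy
  have hxs : x ∈ e.source := hKs (hRK (ball_subset_ball (by linarith) hx))
  have hys : y ∈ e.source := hKs (hRK (ball_subset_ball (by linarith) hy))
  obtain ⟨hne, -⟩ := chain x hx y hy 1 one_pos (R / 4) (by linarith) le_rfl
  refine le_antisymm (dist_le_riemDist hh hs hxs hys hne) ?_
  refine le_of_forall_pos_le_add fun ε hε => ?_
  -- choose η and ε'
  set D : ℝ := dist x y with hD
  have hD0 : 0 ≤ D := dist_nonneg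
  set ε' : ℝ := min (R / 4) (ε / 4) with hε'
  have hε'0 : 0 < ε' := lt_min (by linarith) (by linarith)
  set η : ℝ := min 1 (ε / (2 * (D + 1))) with hηd
  have hη0 : 0 < η := lt_min one_pos (by positivity)
  obtain ⟨-, hle⟩ := chain x hx y hy η hη0 ε' hε'0 (min_le_left _ _)
  refine hle.trans ?_
  have h1 : η * D ≤ ε / 2 := by
    have h2 : η ≤ ε / (2 * (D + 1)) := min_le_right _ _
    have h3 : η * D ≤ ε / (2 * (D + 1)) * D := mul_le_mul_of_nonneg_right h2 hD0
    refine h3.trans ?_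
    rw [div_mul_eq_mul_div, div_le_iff₀ (by positivity)]
    nlinarith
  have h4 : η ≤ 1 := min_le_left _ _
  have h5 : ε' ≤ ε / 4 := min_le_right _ _
  have h6 : η * ε' ≤ ε' := by nlinarith
  nlinarith

/-! ### transitions are isometric -/

/-- a differentiable transition between two charts with infinitesimal scaling is isometric -/
theorem nrm_transition {e₁ e₂ : OpenPartialHomeomorph X 𝔼} {h₁ h₂ : MetricField n}
    (hh₁ : ContMetric h₁ e₁.target) (hh₂ : ContMetric h₂ e₂.target)
    (hs₁ : InfScale e₁ h₁) (hs₂ : InfScale e₂ h₂) {z : X} (hz₁ : z ∈ e₁.source)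
    (hz₂ : z ∈ e₂.source) {T : 𝔼 →L[ℝ] 𝔼} (hT : HasFDerivAt (e₂ ∘ e₁.symm) T (e₁ z)) (v : 𝔼) :
    nrm h₂ (e₂ z) (T v) = nrm h₁ (e₁ z) v := by
  have hz1t : e₁ z ∈ e₁.target := e₁.map_source hz₁
  -- the points `x_t`
  set x : ℝ → X := fun t => e₁.symm (e₁ z + t • v) with hx
  have hline : Tendsto (fun t : ℝ => e₁ z + t • v) (𝓝[>] 0) (𝓝 (e₁ z)) := by
    have : Continuous (fun t : ℝ => e₁ z + t • v) := by fun_prop
    have h1 := this.tendsto 0
    rw [zero_smul, add_zero] at h1
    exact h1.mono_left nhdsWithin_le_nhds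
  have hxz : Tendsto x (𝓝[>] 0) (𝓝 z) := by
    have h1 := (e₁.continuousAt_symm hz1t).tendsto.comp hline
    rwa [e₁.left_inv hz₁] at h1
  have htar : ∀ᶠ t in 𝓝[>] (0 : ℝ), e₁ z + t • v ∈ e₁.target :=
    hline.eventually (e₁.open_target.mem_nhds hz1t)
  -- general: dist (x t) z / t tends to the norm
  have gen : ∀ (e : OpenPartialHomeomorph X 𝔼) (h : MetricField n), ContMetric h e.target →
      InfScale e h → z ∈ e.source → ∀ w : 𝔼,
      Tendsto (fun t : ℝ => t⁻¹ • (e (x t) - e z)) (𝓝[>] 0) (𝓝 w) →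
      Tendsto (fun t : ℝ => t⁻¹ * dist (x t) z) (𝓝[>] 0) (𝓝 (nrm h (e z) w)) := by
    intro e h hh hs hz w hw
    have hcn : ContinuousAt (fun u : 𝔼 => nrm h (e z) u) w := by
      have h6 : ContinuousAt (fun p : 𝔼 × 𝔼 => nrm h p.1 p.2) (e z, w) :=
        (continuousOn_nrm hh).continuousAt
          ((hh.isOpen.prod isOpen_univ).mem_nhds ⟨e.map_source hz, mem_univ _⟩)
      exact ContinuousAt.comp (g := fun p : 𝔼 × 𝔼 => nrm h p.1 p.2)
        (f := fun u : 𝔼 => (e z, u)) (x := w) h6 (by fun_prop)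
    have h1 : Tendsto (fun t : ℝ => nrm h (e z) (t⁻¹ • (e (x t) - e z))) (𝓝[>] 0)
        (𝓝 (nrm h (e z) w)) := hcn.tendsto.comp hw
    -- the difference tends to zero
    have h2 : Tendsto (fun t : ℝ => t⁻¹ * dist (x t) z -
        nrm h (e z) (t⁻¹ • (e (x t) - e z))) (𝓝[>] 0) (𝓝 0) := by
      rw [Metric.tendsto_nhds]
      intro ε hε
      have hb : ∀ᶠ t in 𝓝[>] (0 : ℝ), ‖t⁻¹ • (e (x t) - e z)‖ < ‖w‖ + 1 :=
        hw.norm.eventually (gt_mem_nhds (by linarith))
      obtain ⟨r, hr, hrd⟩ := hs z hz (ε / (2 * (‖w‖ + 1))) (by positivity)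
      filter_upwards [hb, hxz.eventually (Metric.ball_mem_nhds z hr), self_mem_nhdsWithin]
        with t h3 h4 h5
      have ht0 : (0 : ℝ) < t := h5
      have h6 := hrd (x t) z h4 (by rwa [dist_self])
      rw [Real.dist_eq, sub_zero, nrm_smul, abs_of_pos (inv_pos.2 ht0), ← mul_sub, abs_mul,
        abs_of_pos (inv_pos.2 ht0)]
      rw [norm_smul, Real.norm_eq_abs, abs_of_pos (inv_pos.2 ht0)] at h3
      have h7 := mul_le_mul_of_nonneg_left h6 (inv_pos.2 ht0).le
      have h8 : t⁻¹ * (ε / (2 * (‖w‖ + 1)) * ‖e (x t) - e z‖) =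
          ε / (2 * (‖w‖ + 1)) * (t⁻¹ * ‖e (x t) - e z‖) := by ring
      rw [h8] at h7
      have h9 : ε / (2 * (‖w‖ + 1)) * (t⁻¹ * ‖e (x t) - e z‖) <
          ε / (2 * (‖w‖ + 1)) * (‖w‖ + 1) := mul_lt_mul_of_pos_left h3 (by positivity)
      have h10 : ε / (2 * (‖w‖ + 1)) * (‖w‖ + 1) = ε / 2 := by field_simp
      linarith
    have h3 := h2.add h1
    rw [zero_add] at h3
    refine h3.congr fun t => ?_
    ring
  have l1 := gen e₁ h₁ hh₁ hs₁ hz₁ v (by
    refine tendsto_const_nhds.congr' ?_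
    filter_upwards [htar, self_mem_nhdsWithin] with t ht ht0
    have ht0' : (0 : ℝ) < t := ht0
    simp only [hx]
    rw [e₁.right_inv ht, add_sub_cancel_left, smul_smul, inv_mul_cancel₀ ht0'.ne', one_smul])
  have l2 := gen e₂ h₂ hh₂ hs₂ hz₂ (T v) (by
    have h1 : HasDerivAt (fun t : ℝ => e₁ z + t • v) v 0 := by
      have := ((hasDerivAt_id (0 : ℝ)).smul_const v).const_add (e₁ z)
      rwa [one_smul] at this
    have h2 : HasDerivAt (fun t : ℝ => e₂ (x t)) (T v) 0 := by
      have h3 : HasFDerivAt (e₂ ∘ e₁.symm) T (e₁ z + (0 : ℝ) • v) := by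
        rwa [zero_smul, add_zero]
      exact h3.comp_hasDerivAt (0 : ℝ) h1
    have hx0 : x 0 = z := by simp only [hx]; rw [zero_smul, add_zero, e₁.left_inv hz₁]
    rw [hasDerivAt_iff_tendsto_slope] at h2
    have h4 : 𝓝[>] (0 : ℝ) ≤ 𝓝[≠] 0 := nhdsWithin_mono _ (fun s hs => ne_of_gt hs)
    refine (h2.mono_left h4).congr fun t => ?_
    rw [slope_def_module, hx0, sub_zero])
  exact tendsto_nhds_unique l2 l1

end Crest.Agent.R249.Len47
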