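import Mathlib

/-!
# Row 249, part A2 (BP-A2 section 9): the limit passage, finite dimensional part

`Jet E H` : values of `φ, ψ`, their gradients `p, q` and Hessians `P, Q` at a point.
`shift` : a jet in the contact zone `|κ| ≤ ε` is close to a jet with `κ = 0`, `dκ = 0` whose
multipliers lie in the simplex `3φ²m + 3ψ²m' ≤ E⁺ + c₀`.
Formalism independent.
-/

set_option autoImplicit false

namespace Crest.Agent.R249.Lim621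

/-- a two-jet of the pair `(φ, ψ)` -/
structure Jet (E H : Type*) where
  f : ℝ
  g : ℝ
  p : E
  q : E
  P : H
  Q : H

variable {E H : Type*} [NormedAddCommGroup E] [InnerProductSpace ℝ E]
  [NormedAddCommGroup H] [NormedSpace ℝ H]

namespace Jet

/-- `x + y` -/
def s (j : Jet E H) : ℝ := j.f ^ 3 + j.g ^ 3

/-- `κ = 2 - x - y` -/
def kap (j : Jet E H) : ℝ := 2 - (j.f ^ 3 + j.g ^ 3)

/-- `dκ` -/
def L (j : Jet E H) : E := (-3 : ℝ) • (j.f ^ 2 • j.p + j.g ^ 2 • j.q)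

/-- `E = (x-y)² - 6 (φ |dφ|² + ψ |dψ|²)` -/
def Ee (j : Jet E H) : ℝ :=
  (j.f ^ 3 - j.g ^ 3) ^ 2 - 6 * (j.f * ‖j.p‖ ^ 2 + j.g * ‖j.q‖ ^ 2)

/-- the weight (of degree two) -/
def W (j : Jet E H) : ℝ := 1 + ‖j.p‖ ^ 2 + ‖j.q‖ ^ 2 + ‖j.P‖ + ‖j.Q‖

/-- `X = ψ dφ - φ dψ` -/
def Xv (j : Jet E H) : E := j.g • j.p - j.f • j.q

theorem one_le_W (j : Jet E H) : 1 ≤ j.W := by
  unfold W
  have h1 := sq_nonneg ‖j.p‖
  have h2 := sq_nonneg ‖j.q‖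
  have h3 := norm_nonneg j.P
  have h4 := norm_nonneg j.Q
  linarith

theorem W_nonneg (j : Jet E H) : 0 ≤ j.W := le_trans zero_le_one j.one_le_W

end Jet

/-- the jets `j'` obtained from `j` by `(φ, ψ, X) ↦ (λφ, λψ, λX)` and arbitrary changes of `dκ` and
of the Hessians. -/
def Rel (ε : ℝ) (j j' : Jet E H) : Prop :=
  ∃ lam : ℝ, 0 < lam ∧ |lam - 1| ≤ ε ∧ j'.f = lam * j.f ∧ j'.g = lam * j.g ∧
    j'.Xv = lam • j.Xv

/-- the modulus of continuity of weight four -/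
noncomputable def Mod (ε : ℝ) (j j' : Jet E H) : ℝ :=
  ε * (j.W + j'.W) ^ 2
      + (‖j.p - j'.p‖ + ‖j.q - j'.q‖) * ((j.W + j'.W) * Real.sqrt (j.W + j'.W))
      + (‖j.P - j'.P‖ + ‖j.Q - j'.Q‖) * (j.W + j'.W)

/-- weight four Lipschitz condition on the set `φ, ψ ∈ [b, 2]`, for pairs in relation `Rel`. -/
def Lip (b C : ℝ) (I : Jet E H → ℝ) : Prop :=
  ∀ (ε : ℝ) (j j' : Jet E H), 0 ≤ ε → ε ≤ 1 / 2 → b ≤ j.f → j.f ≤ 2 → b ≤ j.g → j.g ≤ 2 →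
    b ≤ j'.f → j'.f ≤ 2 → b ≤ j'.g → j'.g ≤ 2 → Rel ε j j' →
    |I j - I j'| ≤ C * Mod ε j j'

/-- the error function: `θ Z² + θ⁻³ (‖L‖⁴ + e² + r² + r'²)` -/
noncomputable def Er (θ Z l e r r' : ℝ) : ℝ :=
  θ * Z ^ 2 + (θ ^ 3)⁻¹ * (l ^ 4 + e ^ 2 + r ^ 2 + r' ^ 2)

section young

theorem young4 {θ a b : ℝ} (hθ : 0 < θ) (ha : 0 ≤ a) (hb : 0 ≤ b) :
    a * b ^ 3 ≤ θ * b ^ 4 + (θ ^ 3)⁻¹ * a ^ 4 := by
  rcases le_total a (θ * b) with h | h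
  · have h1 : a * b ^ 3 ≤ θ * b * b ^ 3 := mul_le_mul_of_nonneg_right h (by positivity)
    have h2 : 0 ≤ (θ ^ 3)⁻¹ * a ^ 4 := by positivity
    nlinarith
  · have h1 : b ≤ a / θ := by rw [le_div_iff₀ hθ]; linarith
    have h2 : b ^ 3 ≤ (a / θ) ^ 3 := pow_le_pow_left₀ hb h1 3
    have h3 : a * b ^ 3 ≤ a * (a / θ) ^ 3 := mul_le_mul_of_nonneg_left h2 ha
    have h4 : a * (a / θ) ^ 3 = (θ ^ 3)⁻¹ * a ^ 4 := by
      field_simp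
    have h5 : 0 ≤ θ * b ^ 4 := by positivity
    linarith

theorem young2 {θ a b : ℝ} (hθ : 0 < θ) (hθ1 : θ ≤ 1) (ha : 0 ≤ a) (hb : 0 ≤ b) :
    a * b ≤ θ * b ^ 2 + (θ ^ 3)⁻¹ * a ^ 2 := by
  have hinv : θ⁻¹ ≤ (θ ^ 3)⁻¹ := by
    apply inv_anti₀ (by positivity)
    nlinarith [sq_nonneg θ, mul_nonneg (mul_nonneg hθ.le hθ.le) hθ.le, pow_le_one₀ hθ.le hθ1 (n := 2)]
  rcases le_total a (θ * b) with h | h
  · have h1 : a * b ≤ θ * b * b := mul_le_mul_of_nonneg_right h hb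
    have h2 : 0 ≤ (θ ^ 3)⁻¹ * a ^ 2 := by positivity
    nlinarith
  · have h1 : b ≤ θ⁻¹ * a := by
      rw [inv_mul_eq_div, le_div_iff₀ hθ]; linarith
    have h3 : a * b ≤ a * (θ⁻¹ * a) := mul_le_mul_of_nonneg_left h1 ha
    have h4 : a * (θ⁻¹ * a) ≤ (θ ^ 3)⁻¹ * a ^ 2 := by
      have : a * (θ⁻¹ * a) = θ⁻¹ * a ^ 2 := by ring
      rw [this]
      exact mul_le_mul_of_nonneg_right hinv (by positivity)
    have h5 : 0 ≤ θ * b ^ 2 := by positivity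
    linarith

end young

end Crest.Agent.R249.Lim621
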