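import Mathlib
/-!
R249 / D3-LIM (helper41).  Abstract limit lemma, part 1: weak and strong convergence of functions on a
sequence of measure spaces `(X i, m i)` with maps `u i : X i → ℝⁿ`, tested by functions of `u i`.
-/

set_option autoImplicit false

open MeasureTheory Filter Topology Set
open scoped ContDiff

noncomputable section

namespace Crest.Agent.R249.Lim41

/-- the model space -/
abbrev E (n : ℕ) := EuclideanSpace ℝ (Fin n)

/-- continuous, compactly supported in `Ω` -/
structure CC {n : ℕ} (Ω : Set (E n)) (φ : E n → ℝ) : Prop where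
  cont : Continuous φ
  comp : HasCompactSupport φ
  supp : tsupport φ ⊆ Ω

/-- smooth, compactly supported in `Ω` -/
structure CS {n : ℕ} (Ω : Set (E n)) (φ : E n → ℝ) : Prop where
  smooth : ContDiff ℝ ∞ φ
  comp : HasCompactSupport φ
  supp : tsupport φ ⊆ Ω

theorem CS.cc {n : ℕ} {Ω : Set (E n)} {φ : E n → ℝ} (h : CS Ω φ) : CC Ω φ :=
  ⟨h.smooth.continuous, h.comp, h.supp⟩

theorem tendsto_of_approx {ι : Type*} {l : Filter ι} {a : ι → ℝ} {A : ℝ}
    (h : ∀ ε > 0, ∃ b : ι → ℝ, ∃ B, Tendsto b l (𝓝 B) ∧ (∀ᶠ i in l, |a i - b i| ≤ ε) ∧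
      |A - B| ≤ ε) : Tendsto a l (𝓝 A) := by
  rw [Metric.tendsto_nhds]
  intro ε hε
  obtain ⟨b, B, hb, hab, hAB⟩ := h (ε / 4) (by positivity)
  filter_upwards [hab, (Metric.tendsto_nhds.1 hb) (ε / 4) (by positivity)] with i hi hi'
  rw [Real.dist_eq] at hi' ⊢
  have h1 : a i - A = (a i - b i) + (b i - B) - (A - B) := by ring
  rw [h1]
  calc |(a i - b i) + (b i - B) - (A - B)| ≤ |(a i - b i) + (b i - B)| + |A - B| := abs_sub _ _
    _ ≤ |a i - b i| + |b i - B| + |A - B| := by gcongr; exact abs_add_le _ _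
    _ < ε := by linarith

/-- sup of a compactly supported continuous function -/
theorem CC.bdd {n : ℕ} {Ω : Set (E n)} {φ : E n → ℝ} (h : CC Ω φ) :
    ∃ C : ℝ, 0 ≤ C ∧ ∀ x, |φ x| ≤ C := by
  obtain ⟨C, hC⟩ := h.comp.exists_bound_of_continuous h.cont
  exact ⟨max C 0, le_max_right _ _, fun x => le_trans (hC x) (le_max_left _ _)⟩

/-- uniform approximation of a `CC` function by `CS` functions with smaller support -/
theorem CC.approx {n : ℕ} {Ω : Set (E n)} {φ : E n → ℝ} (h : CC Ω φ) {ε : ℝ} (hε : 0 < ε) :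
    ∃ ψ : E n → ℝ, CS Ω ψ ∧ (∀ x, |ψ x - φ x| ≤ ε) ∧ Function.support ψ ⊆ Function.support φ := by
  obtain ⟨g, hg, hd, hs⟩ := h.cont.exists_contDiff_approx ⊤ (ε := fun _ => ε) (by fun_prop)
    (by intro; exact hε)
  refine ⟨g, ⟨hg, h.comp.mono hs, (closure_mono hs).trans h.supp⟩, fun x => ?_, hs⟩
  have := (hd x).le
  rwa [Real.dist_eq] at this

section WC

variable {n : ℕ} {ι : Type*} {l : Filter ι} {X : ι → Type*} [∀ i, MeasurableSpace (X i)]

/-- weak convergence `(u i)_# (g i • m i) ⇀ γ dx` on `Ω` -/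
def WC (l : Filter ι) (Ω : Set (E n)) (m : ∀ i, Measure (X i)) (u : ∀ i, X i → E n)
    (g : ∀ i, X i → ℝ) (γ : E n → ℝ) : Prop :=
  ∀ φ : E n → ℝ, CC Ω φ →
    Tendsto (fun i => ∫ x, φ (u i x) * g i x ∂(m i)) l (𝓝 (∫ y, φ y * γ y))

/-- locally integrable on compact subsets of `Ω` -/
def LI (Ω : Set (E n)) (γ : E n → ℝ) : Prop := ∀ K : Set (E n), IsCompact K → K ⊆ Ω → IntegrableOn γ K

theorem CC.integrable_mul {Ω : Set (E n)} {φ γ : E n → ℝ} (h : CC Ω φ) (hγ : LI Ω γ) :
    Integrable (fun y => φ y * γ y) := by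
  have h1 : IntegrableOn γ (tsupport φ) := hγ _ h.comp h.supp
  obtain ⟨C, -, hC⟩ := h.bdd
  have h2 : IntegrableOn (fun y => φ y * γ y) (tsupport φ) :=
    Integrable.bdd_mul (c := C) h1 h.cont.aestronglyMeasurable
      (Eventually.of_forall fun x => by simpa using hC x)
  rw [← integrableOn_univ]
  refine IntegrableOn.of_forall_sdiff_eq_zero h2 MeasurableSet.univ ?_
  intro x hx
  have : φ x = 0 := image_eq_zero_of_notMem_tsupport hx.2
  simp [this]

theorem wc_of_smooth [l.NeBot] {Ω : Set (E n)} {m : ∀ i, Measure (X i)} {u : ∀ i, X i → E n}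
    {g : ∀ i, X i → ℝ} {γ : E n → ℝ} (hu : ∀ i, Measurable (u i))
    (hg : ∀ i, Integrable (g i) (m i)) {C : ℝ} (hC : ∀ i, ∫ x, |g i x| ∂(m i) ≤ C)
    (hγ : LI Ω γ)
    (h : ∀ φ : E n → ℝ, CS Ω φ →
      Tendsto (fun i => ∫ x, φ (u i x) * g i x ∂(m i)) l (𝓝 (∫ y, φ y * γ y))) :
    WC l Ω m u g γ := by
  intro φ hφ
  apply tendsto_of_approx
  intro ε hε
  obtain ⟨i₀⟩ : Nonempty ι := l.nonempty_of_neBot
  have hC0 : 0 ≤ C := le_trans (integral_nonneg fun x => abs_nonneg _) (hC i₀)
  set K := tsupport φ with hK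
  set I := ∫ y in K, |γ y| with hI
  have hI0 : 0 ≤ I := integral_nonneg fun x => abs_nonneg _
  set δ := ε / (C + I + 1) with hδ
  have hδ0 : 0 < δ := by positivity
  obtain ⟨ψ, hψ, hd, hs⟩ := hφ.approx hδ0
  refine ⟨_, _, h ψ hψ, Eventually.of_forall fun i => ?_, ?_⟩
  · have e1 : Integrable (fun x => φ (u i x) * g i x) (m i) := by
      obtain ⟨C', -, hC'⟩ := hφ.bdd
      exact Integrable.bdd_mul (c := C') (hg i)
        (hφ.cont.measurable.comp (hu i)).aestronglyMeasurable
        (Eventually.of_forall fun x => by simpa using hC' _)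
    have e2 : Integrable (fun x => ψ (u i x) * g i x) (m i) := by
      obtain ⟨C', -, hC'⟩ := hψ.cc.bdd
      exact Integrable.bdd_mul (c := C') (hg i)
        (hψ.cc.cont.measurable.comp (hu i)).aestronglyMeasurable
        (Eventually.of_forall fun x => by simpa using hC' _)
    rw [← integral_sub e1 e2]
    calc |∫ x, (φ (u i x) * g i x - ψ (u i x) * g i x) ∂(m i)|
        ≤ ∫ x, |φ (u i x) * g i x - ψ (u i x) * g i x| ∂(m i) := abs_integral_le_integral_abs
      _ ≤ ∫ x, δ * |g i x| ∂(m i) := by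
          apply integral_mono (e1.sub e2).abs ((hg i).abs.const_mul _)
          intro x
          show |φ (u i x) * g i x - ψ (u i x) * g i x| ≤ δ * |g i x|
          rw [← sub_mul, abs_mul]
          gcongr
          rw [abs_sub_comm]; exact hd _
      _ = δ * ∫ x, |g i x| ∂(m i) := integral_const_mul _ _
      _ ≤ δ * C := by gcongr; exact hC i
      _ ≤ ε := by
          rw [hδ, div_mul_eq_mul_div, div_le_iff₀ (by positivity)]
          nlinarith
  · have e1 := hφ.integrable_mul hγ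
    have e2 := hψ.cc.integrable_mul hγ
    rw [← integral_sub e1 e2]
    have hKi : IntegrableOn γ K := hγ _ hφ.comp hφ.supp
    have hz : ∀ y, y ∉ K → φ y * γ y - ψ y * γ y = 0 := by
      intro y hy
      have h1 : φ y = 0 := image_eq_zero_of_notMem_tsupport hy
      have h2 : ψ y = 0 := by
        by_contra h3
        exact hy (subset_tsupport φ (hs h3))
      simp [h1, h2]
    have hset : ∫ y, (φ y * γ y - ψ y * γ y) = ∫ y in K, (φ y * γ y - ψ y * γ y) := by
      rw [setIntegral_eq_integral_of_forall_compl_eq_zero hz]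
    rw [hset]
    calc |∫ y in K, (φ y * γ y - ψ y * γ y)|
        ≤ ∫ y in K, |φ y * γ y - ψ y * γ y| := abs_integral_le_integral_abs
      _ ≤ ∫ y in K, δ * |γ y| := by
          apply integral_mono (e1.sub e2).integrableOn.abs (hKi.abs.const_mul _)
          intro x
          show |φ x * γ x - ψ x * γ x| ≤ δ * |γ x|
          rw [← sub_mul, abs_mul]
          gcongr
          rw [abs_sub_comm]; exact hd _
      _ = δ * I := integral_const_mul _ _
      _ ≤ ε := by
          rw [hδ, div_mul_eq_mul_div, div_le_iff₀ (by positivity)]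
          nlinarith

end WC

/-- Riesz representation from a bound through a linear map. -/
theorem riesz_of_bound {V H : Type*} [AddCommGroup V] [Module ℝ V] [NormedAddCommGroup H]
    [InnerProductSpace ℝ H] [CompleteSpace H] (T : V →ₗ[ℝ] H) (L : V →ₗ[ℝ] ℝ) (C : ℝ)
    (h : ∀ v, |L v| ≤ C * ‖T v‖) : ∃ k : H, ∀ v, L v = inner ℝ k (T v) := by
  classical
  -- the functional on the range
  have hker : LinearMap.ker T ≤ LinearMap.ker L := by
    intro v hv
    rw [LinearMap.mem_ker] at hv ⊢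
    have := h v
    rw [hv, norm_zero, mul_zero] at this
    exact abs_nonpos_iff.1 this
  -- L' on range T
  obtain ⟨L', hL'⟩ : ∃ L' : (LinearMap.range T) →ₗ[ℝ] ℝ, ∀ v, L' (T.rangeRestrict v) = L v := by
    refine ⟨(LinearMap.ker T).liftQ L hker ∘ₗ T.quotKerEquivRange.symm.toLinearMap, fun v => ?_⟩
    have : T.quotKerEquivRange.symm (T.rangeRestrict v) = (LinearMap.ker T).mkQ v := by
      rw [LinearEquiv.symm_apply_eq]
      apply Subtype.ext
      simp
    simp only [LinearMap.comp_apply, LinearEquiv.coe_coe]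
    rw [this]
    simp
  have hb : ∀ y : LinearMap.range T, ‖L' y‖ ≤ C * ‖y‖ := by
    rintro ⟨y, v, rfl⟩
    have : (⟨T v, v, rfl⟩ : LinearMap.range T) = T.rangeRestrict v := rfl
    rw [this, hL', Real.norm_eq_abs]
    exact h v
  obtain ⟨g, hg, -⟩ := exists_extension_norm_eq (LinearMap.range T) (L'.mkContinuous C hb)
  refine ⟨(InnerProductSpace.toDual ℝ H).symm g, fun v => ?_⟩
  rw [InnerProductSpace.toDual_symm_apply]
  have := hg (T.rangeRestrict v)
  rw [LinearMap.mkContinuous_apply, hL'] at this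
  exact this.symm

end Crest.Agent.R249.Lim41
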