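import Crest.Agent.R249.Lim0_621

/-!
# Row 249, part A2 (BP-A2 section 9): shifting a jet of the contact zone

`zone` : a jet with `|κ| ≤ ε` and multipliers near the simplex is close to an exact contact jet.
-/

set_option autoImplicit false

namespace Crest.Agent.R249.Lim621

variable {E H : Type*} [NormedAddCommGroup E] [InnerProductSpace ℝ E]
  [NormedAddCommGroup H] [NormedSpace ℝ H]

/-! ## real inequalities -/

theorem exists_cuberoot {a : ℝ} (ha : 0 < a) : ∃ l : ℝ, 0 < l ∧ l ^ 3 = a := by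
  refine ⟨a ^ ((1 : ℝ) / 3), Real.rpow_pos_of_pos ha _, ?_⟩
  rw [← Real.rpow_natCast, ← Real.rpow_mul ha.le]
  norm_num

/-- bounds for `l = (2/s)^{1/3}` -/
theorem lam_bounds {s l ε : ℝ} (hε : 0 ≤ ε) (hε1 : ε ≤ 1 / 2) (hs : |2 - s| ≤ ε) (hl : 0 < l)
    (hl3 : l ^ 3 = 2 / s) :
    3 / 2 ≤ s ∧ s ≤ 5 / 2 ∧ 9 / 10 ≤ l ∧ l ≤ 112 / 100 ∧ |l - 1| ≤ 2 / 3 * ε ∧
      |l ^ 3 - 1| ≤ 2 / 3 * ε := by
  have h1 := (abs_le.mp hs).1
  have h2 := (abs_le.mp hs).2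
  have hs1 : 3 / 2 ≤ s := by linarith
  have hs2 : s ≤ 5 / 2 := by linarith
  have hs0 : 0 < s := by linarith
  have h3 : l ^ 3 - 1 = (2 - s) / s := by rw [hl3]; field_simp
  have h4 : |l ^ 3 - 1| ≤ 2 / 3 * ε := by
    rw [h3, abs_div, abs_of_pos hs0, div_le_iff₀ hs0]
    nlinarith
  have h5 : l ^ 3 - 1 = (l - 1) * (l ^ 2 + l + 1) := by ring
  have h6 : |l - 1| ≤ |l ^ 3 - 1| := by
    rw [h5, abs_mul]
    have : 1 ≤ |l ^ 2 + l + 1| := by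
      rw [abs_of_pos (by positivity)]; nlinarith
    nlinarith [abs_nonneg (l - 1)]
  have h7 := abs_le.mp h4
  have h8 : |l - 1| ≤ 2 / 3 * ε := le_trans h6 h4
  refine ⟨hs1, hs2, ?_, ?_, h8, h4⟩
  · have h9 : 4 / 5 ≤ l ^ 3 := by
      rw [hl3, le_div_iff₀ hs0]; linarith
    by_contra hcon
    rw [not_le] at hcon
    have : l ^ 3 < (9 / 10) ^ 3 := by
      apply pow_lt_pow_left₀ hcon hl.le (by norm_num)
    norm_num at this
    linarith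
  · have h9 : l ^ 3 ≤ 4 / 3 := by
      rw [hl3, div_le_iff₀ hs0]; linarith
    by_contra hcon
    rw [not_le] at hcon
    have : (112 / 100 : ℝ) ^ 3 < l ^ 3 := by
      apply pow_lt_pow_left₀ hcon (by norm_num) (by norm_num)
    norm_num at this
    linarith

/-- upper bound for `φ` -/
theorem f_le {f g : ℝ} (hf : 0 < f) (hg : 0 < g) (h : f ^ 3 + g ^ 3 ≤ 5 / 2) : f ≤ 3 / 2 := by
  by_contra hcon
  rw [not_le] at hcon
  have h1 : (3 / 2 : ℝ) ^ 3 < f ^ 3 := pow_lt_pow_left₀ hcon (by norm_num) (by norm_num)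
  have h2 : 0 < g ^ 3 := by positivity
  norm_num at h1
  linarith

/-- the scaled multiplier -/
theorem exists_theta {S T : ℝ} (hS : 0 ≤ S) (hT : 0 ≤ T) :
    ∃ θ : ℝ, 0 ≤ θ ∧ θ ≤ 1 ∧ θ * S ≤ T ∧ (1 - θ) * S ≤ max (S - T) 0 := by
  rcases le_or_gt S T with h | h
  · exact ⟨1, zero_le_one, le_rfl, by linarith, by simp⟩
  · have hS0 : 0 < S := lt_of_le_of_lt hT h
    refine ⟨T / S, div_nonneg hT hS, ?_, ?_, ?_⟩
    · rw [div_le_one hS0]; exact h.le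
    · rw [div_mul_cancel₀ _ hS0.ne']
    · have : (1 - T / S) * S = S - T := by field_simp
      rw [this]; exact le_max_left _ _

/-! ## the shifted jet -/

/-- the shifted jet -/
noncomputable def shift (one : H) (j : Jet E H) (lam α α' : ℝ) : Jet E H where
  f := lam * j.f
  g := lam * j.g
  p := j.p + (j.f / (3 * j.s)) • j.L
  q := j.q + (j.g / (3 * j.s)) • j.L
  P := j.P + α • one
  Q := j.Q + α' • one

theorem shift_contact (one : H) (j : Jet E H) (lam α α' : ℝ) (hs : j.s ≠ 0) :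
    (shift one j lam α α').f ^ 2 • (shift one j lam α α').p +
      (shift one j lam α α').g ^ 2 • (shift one j lam α α').q = 0 := by
  have h3 : (3 : ℝ) * j.s ≠ 0 := by positivity
  have key : ((lam * j.f) ^ 2 * (j.f / (3 * j.s)) + (lam * j.g) ^ 2 * (j.g / (3 * j.s)))
      = lam ^ 2 * (1 / 3) := by
    have : j.f ^ 3 + j.g ^ 3 = j.s := rfl
    field_simp
    rw [← this]
  show (lam * j.f) ^ 2 • (j.p + (j.f / (3 * j.s)) • j.L) +
      (lam * j.g) ^ 2 • (j.q + (j.g / (3 * j.s)) • j.L) = 0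
  have : (lam * j.f) ^ 2 • (j.p + (j.f / (3 * j.s)) • j.L) +
      (lam * j.g) ^ 2 • (j.q + (j.g / (3 * j.s)) • j.L)
      = (lam * j.f) ^ 2 • j.p + (lam * j.g) ^ 2 • j.q +
        ((lam * j.f) ^ 2 * (j.f / (3 * j.s)) + (lam * j.g) ^ 2 * (j.g / (3 * j.s))) • j.L := by
    module
  rw [this, key, Jet.L]
  module

theorem shift_Xv (one : H) (j : Jet E H) (lam α α' : ℝ) :
    (shift one j lam α α').Xv = lam • j.Xv := by
  show (lam * j.g) • (j.p + (j.f / (3 * j.s)) • j.L) -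
      (lam * j.f) • (j.q + (j.g / (3 * j.s)) • j.L) = lam • (j.g • j.p - j.f • j.q)
  module

theorem shift_kap (one : H) (j : Jet E H) (lam α α' : ℝ) (hl : lam ^ 3 = 2 / j.s)
    (hs : j.s ≠ 0) : (shift one j lam α α').kap = 0 := by
  show 2 - ((lam * j.f) ^ 3 + (lam * j.g) ^ 3) = 0
  have : (lam * j.f) ^ 3 + (lam * j.g) ^ 3 = lam ^ 3 * j.s := by
    unfold Jet.s; ring
  rw [this, hl]
  field_simp
  ring

theorem norm_L_le (j : Jet E H) (hf0 : 0 ≤ j.f) (hf : j.f ≤ 3 / 2) (hg0 : 0 ≤ j.g)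
    (hg : j.g ≤ 3 / 2) : ‖j.L‖ ≤ 7 * (‖j.p‖ + ‖j.q‖) := by
  unfold Jet.L
  rw [norm_smul]
  have h1 : ‖j.f ^ 2 • j.p + j.g ^ 2 • j.q‖ ≤ j.f ^ 2 * ‖j.p‖ + j.g ^ 2 * ‖j.q‖ := by
    refine (norm_add_le _ _).trans ?_
    rw [norm_smul, norm_smul, Real.norm_of_nonneg (sq_nonneg _), Real.norm_of_nonneg (sq_nonneg _)]
  have h2 : j.f ^ 2 ≤ 9 / 4 := by nlinarith
  have h3 : j.g ^ 2 ≤ 9 / 4 := by nlinarith
  have h4 := norm_nonneg j.p
  have h5 := norm_nonneg j.q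
  have h6 : ‖(-3 : ℝ)‖ = 3 := by norm_num
  rw [h6]
  nlinarith

theorem norms_le_sqrtW (j : Jet E H) : ‖j.p‖ + ‖j.q‖ ≤ 2 * Real.sqrt j.W := by
  have h0 := j.W_nonneg
  have h1 : ‖j.p‖ ^ 2 + ‖j.q‖ ^ 2 ≤ j.W := by
    unfold Jet.W
    have := norm_nonneg j.P
    have := norm_nonneg j.Q
    linarith
  have h2 : Real.sqrt j.W ^ 2 = j.W := Real.sq_sqrt h0
  have h3 : (‖j.p‖ + ‖j.q‖) ^ 2 ≤ (2 * Real.sqrt j.W) ^ 2 := by
    nlinarith [sq_nonneg (‖j.p‖ - ‖j.q‖)]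
  exact abs_le_of_sq_le_sq' h3 (by positivity) |>.2

theorem part_bound {f lam a a' l w ε : ℝ} (hf0 : 0 ≤ f) (hf : f ≤ 3 / 2) (hε : 0 ≤ ε)
    (hlam : |lam - 1| ≤ 2 / 3 * ε) (ha : 0 ≤ a) (ha' : 0 ≤ a') (hl : 0 ≤ l)
    (haa : |a - a'| ≤ l / 3) (h1 : a ≤ 2 * w) (h2 : a' ≤ 8 * w) :
    |f * a ^ 2 - lam * f * a' ^ 2| ≤ 5 * l * w + 64 * ε * w ^ 2 := by
  have hw : 0 ≤ w := by linarith
  have e1 : f * a ^ 2 - lam * f * a' ^ 2 = f * ((a - a') * (a + a')) - f * ((lam - 1) * a' ^ 2) := by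
    ring
  have e2 : |f * ((a - a') * (a + a'))| ≤ 3 / 2 * (l / 3 * (10 * w)) := by
    rw [abs_mul, abs_mul, abs_of_nonneg hf0, abs_of_nonneg (by linarith : 0 ≤ a + a')]
    apply mul_le_mul hf _ (by positivity) (by norm_num)
    apply mul_le_mul haa (by linarith) (by linarith) (by positivity)
  have e3 : |f * ((lam - 1) * a' ^ 2)| ≤ 3 / 2 * (2 / 3 * ε * (64 * w ^ 2)) := by
    rw [abs_mul, abs_mul, abs_of_nonneg hf0, abs_of_nonneg (sq_nonneg a')]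
    apply mul_le_mul hf _ (by positivity) (by norm_num)
    apply mul_le_mul hlam _ (by positivity) (by positivity)
    nlinarith
  rw [e1]
  refine (abs_sub _ _).trans ?_
  nlinarith

theorem tri_bound (a b c : ℝ) : |a - 6 * b - 6 * c| ≤ |a| + 6 * |b| + 6 * |c| := by
  have h1 := abs_sub (a - 6 * b) (6 * c)
  have h2 := abs_sub a (6 * b)
  rw [abs_mul] at h1 h2
  rw [abs_of_pos (by norm_num : (0 : ℝ) < 6)] at h1 h2
  linarith

theorem Ee_shift (one : H) (j : Jet E H) (lam α α' ε : ℝ) (hf0 : 0 < j.f) (hg0 : 0 < j.g)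
    (hε : 0 ≤ ε) (hε1 : ε ≤ 1 / 2) (hk : |j.kap| ≤ ε) (hl0 : 0 < lam) (hl : lam ^ 3 = 2 / j.s) :
    |j.Ee - (shift one j lam α α').Ee| ≤ 60 * ‖j.L‖ * Real.sqrt j.W + 800 * ε * j.W ∧
    ‖(shift one j lam α α').p‖ ≤ 8 * Real.sqrt j.W ∧
    ‖(shift one j lam α α').q‖ ≤ 8 * Real.sqrt j.W ∧
    ‖j.p - (shift one j lam α α').p‖ ≤ ‖j.L‖ / 3 ∧
    ‖j.q - (shift one j lam α α').q‖ ≤ ‖j.L‖ / 3 ∧
    ‖j.L‖ ≤ 14 * Real.sqrt j.W := by
  obtain ⟨hs1, hs2, hla, hlb, hl1, hl2⟩ := lam_bounds (s := j.s) hε hε1 hk hl0 hl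
  have hf : j.f ≤ 3 / 2 := f_le hf0 hg0 hs2
  have hg : j.g ≤ 3 / 2 := f_le hg0 hf0 (by rw [add_comm]; exact hs2)
  have hL := norm_L_le j hf0.le hf hg0.le hg
  have hw := norms_le_sqrtW j
  have hp0 := norm_nonneg j.p
  have hq0 := norm_nonneg j.q
  have hL0 := norm_nonneg j.L
  have hs0 : 0 < j.s := by linarith
  have hcf : |j.f / (3 * j.s)| ≤ 1 / 3 := by
    rw [abs_of_pos (by positivity), div_le_iff₀ (by positivity)]; linarith
  have hcg : |j.g / (3 * j.s)| ≤ 1 / 3 := by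
    rw [abs_of_pos (by positivity), div_le_iff₀ (by positivity)]; linarith
  have hdp : ‖j.p - (shift one j lam α α').p‖ ≤ ‖j.L‖ / 3 := by
    show ‖j.p - (j.p + (j.f / (3 * j.s)) • j.L)‖ ≤ ‖j.L‖ / 3
    rw [sub_add_cancel_left, norm_neg, norm_smul, Real.norm_eq_abs]
    nlinarith
  have hdq : ‖j.q - (shift one j lam α α').q‖ ≤ ‖j.L‖ / 3 := by
    show ‖j.q - (j.q + (j.g / (3 * j.s)) • j.L)‖ ≤ ‖j.L‖ / 3
    rw [sub_add_cancel_left, norm_neg, norm_smul, Real.norm_eq_abs]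
    nlinarith
  have hdp' : |‖j.p‖ - ‖(shift one j lam α α').p‖| ≤ ‖j.L‖ / 3 :=
    (abs_norm_sub_norm_le _ _).trans hdp
  have hdq' : |‖j.q‖ - ‖(shift one j lam α α').q‖| ≤ ‖j.L‖ / 3 :=
    (abs_norm_sub_norm_le _ _).trans hdq
  have hLw : ‖j.L‖ ≤ 14 * Real.sqrt j.W := by linarith
  have hp1 : ‖j.p‖ ≤ 2 * Real.sqrt j.W := by linarith
  have hq1 : ‖j.q‖ ≤ 2 * Real.sqrt j.W := by linarith
  have hp2 : ‖(shift one j lam α α').p‖ ≤ 8 * Real.sqrt j.W := by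
    have := (abs_le.mp hdp').1
    have := Real.sqrt_nonneg j.W
    linarith
  have hq2 : ‖(shift one j lam α α').q‖ ≤ 8 * Real.sqrt j.W := by
    have := (abs_le.mp hdq').1
    have := Real.sqrt_nonneg j.W
    linarith
  refine ⟨?_, hp2, hq2, hdp, hdq, hLw⟩
  have b1 := part_bound hf0.le hf hε hl1 hp0 (norm_nonneg _) hL0 hdp' hp1 hp2
  have b2 := part_bound hg0.le hg hε hl1 hq0 (norm_nonneg _) hL0 hdq' hq1 hq2
  have hsq : Real.sqrt j.W ^ 2 = j.W := Real.sq_sqrt j.W_nonneg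
  rw [hsq] at b1 b2
  have e1 : (shift one j lam α α').Ee = (lam ^ 3) ^ 2 * (j.f ^ 3 - j.g ^ 3) ^ 2 -
      6 * (lam * j.f * ‖(shift one j lam α α').p‖ ^ 2
        + lam * j.g * ‖(shift one j lam α α').q‖ ^ 2) := by
    show ((lam * j.f) ^ 3 - (lam * j.g) ^ 3) ^ 2 - 6 * (lam * j.f * _ ^ 2 + lam * j.g * _ ^ 2) = _
    ring
  have e2 : j.Ee - (shift one j lam α α').Ee =
      -((lam ^ 3 - 1) * (lam ^ 3 + 1) * (j.f ^ 3 - j.g ^ 3) ^ 2)
      - 6 * (j.f * ‖j.p‖ ^ 2 - lam * j.f * ‖(shift one j lam α α').p‖ ^ 2)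
      - 6 * (j.g * ‖j.q‖ ^ 2 - lam * j.g * ‖(shift one j lam α α').q‖ ^ 2) := by
    rw [e1]; unfold Jet.Ee; ring
  have hx : 0 < j.f ^ 3 := by positivity
  have hy : 0 < j.g ^ 3 := by positivity
  have hxy : j.f ^ 3 + j.g ^ 3 ≤ 5 / 2 := hs2
  have e3 : (j.f ^ 3 - j.g ^ 3) ^ 2 ≤ 25 / 4 := by
    have h1 : j.f ^ 3 - j.g ^ 3 ≤ 5 / 2 := by linarith
    have h2 : -(5 / 2) ≤ j.f ^ 3 - j.g ^ 3 := by linarith
    have h3 := sq_le_sq' h2 h1
    norm_num at h3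
    linarith
  have e4 : |-((lam ^ 3 - 1) * (lam ^ 3 + 1) * (j.f ^ 3 - j.g ^ 3) ^ 2)| ≤
      2 / 3 * ε * (7 / 3) * (25 / 4) := by
    have h43 : lam ^ 3 ≤ 4 / 3 := by
      rw [hl, div_le_iff₀ hs0]; linarith
    have h40 : 0 < lam ^ 3 := by positivity
    rw [abs_neg, abs_mul, abs_mul, abs_of_nonneg (sq_nonneg (j.f ^ 3 - j.g ^ 3)),
      abs_of_pos (by linarith : 0 < lam ^ 3 + 1)]
    apply mul_le_mul _ e3 (sq_nonneg _) (by positivity)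
    apply mul_le_mul hl2 (by linarith) (by linarith) (by positivity)
  have hW1 := j.one_le_W
  have e5 : ε ≤ ε * j.W := le_mul_of_one_le_right hε hW1
  rw [e2]
  refine (tri_bound _ _ _).trans ?_
  linarith

end Crest.Agent.R249.Lim621
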