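import Crest.Agent.R249.Lim1_41
/-!
R249 / D3-LIM (helper41).  Abstract limit lemma, part 2: strong convergence, products, Riesz
representation of weak limits.
-/

set_option autoImplicit false

open MeasureTheory Filter Topology Set
open scoped ContDiff ENNReal

noncomputable section

namespace Crest.Agent.R249.Lim41

theorem CC.smul_cont {n : ℕ} {W : Type*} [NormedAddCommGroup W] [NormedSpace ℝ W]
    {Ω : Set (E n)} (hΩ : IsOpen Ω) {φ : E n → ℝ} {f : E n → W} (h : CC Ω φ)
    (hf : ContinuousOn f Ω) : Continuous (fun x => φ x • f x) := by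
  rw [continuous_iff_continuousAt]
  intro x
  by_cases hx : x ∈ Ω
  · exact h.cont.continuousAt.smul (hf.continuousAt (hΩ.mem_nhds hx))
  · have hx' : x ∉ tsupport φ := fun h' => hx (h.supp h')
    have : (fun y => φ y • f y) =ᶠ[𝓝 x] fun _ => (0 : W) := by
      filter_upwards [(isClosed_tsupport φ).isOpen_compl.mem_nhds hx'] with y hy
      have : φ y = 0 := image_eq_zero_of_notMem_tsupport hy
      simp [this]
    exact continuousAt_const.congr this.symm

theorem CC.mul_cont {n : ℕ} {Ω : Set (E n)} (hΩ : IsOpen Ω) {φ f : E n → ℝ} (h : CC Ω φ)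
    (hf : ContinuousOn f Ω) : CC Ω (fun x => φ x * f x) :=
  ⟨by simpa using h.smul_cont hΩ hf, h.comp.mul_right, (tsupport_mul_subset_left).trans h.supp⟩

theorem CC.abs {n : ℕ} {Ω : Set (E n)} {φ : E n → ℝ} (h : CC Ω φ) : CC Ω (fun x => |φ x|) := by
  have hs : Function.support (fun x => |φ x|) = Function.support φ := by
    ext x; simp
  refine ⟨h.cont.abs, ?_, ?_⟩
  · exact h.comp.mono (by rw [hs])
  · unfold tsupport; rw [hs]; exact h.supp

theorem CC.mul_right' {n : ℕ} {Ω : Set (E n)} {φ f : E n → ℝ} (h : CC Ω φ)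
    (hf : Continuous f) : CC Ω (fun x => φ x * f x) :=
  ⟨h.cont.mul hf, h.comp.mul_right, (tsupport_mul_subset_left).trans h.supp⟩

theorem CC.mul_left' {n : ℕ} {Ω : Set (E n)} {φ f : E n → ℝ} (h : CC Ω φ)
    (hf : Continuous f) : CC Ω (fun x => f x * φ x) := by
  simpa [mul_comm] using h.mul_right' hf

theorem CC.sq {n : ℕ} {Ω : Set (E n)} {φ : E n → ℝ} (h : CC Ω φ) : CC Ω (fun x => φ x ^ 2) := by
  simpa [pow_two] using h.mul_right' h.cont

theorem CC.sub {n : ℕ} {Ω : Set (E n)} {φ ψ : E n → ℝ} (h : CC Ω φ) (h' : CC Ω ψ) :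
    CC Ω (fun x => φ x - ψ x) :=
  ⟨h.cont.sub h'.cont, h.comp.sub h'.comp, (tsupport_sub φ ψ).trans (union_subset h.supp h'.supp)⟩

theorem CC.add {n : ℕ} {Ω : Set (E n)} {φ ψ : E n → ℝ} (h : CC Ω φ) (h' : CC Ω ψ) :
    CC Ω (fun x => φ x + ψ x) :=
  ⟨h.cont.add h'.cont, h.comp.add h'.comp, (tsupport_add φ ψ).trans (union_subset h.supp h'.supp)⟩

theorem CC.const_mul {n : ℕ} {Ω : Set (E n)} {φ : E n → ℝ} (h : CC Ω φ) (c : ℝ) :
    CC Ω (fun x => c * φ x) := h.mul_left' continuous_const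

theorem CC.zero {n : ℕ} {Ω : Set (E n)} : CC Ω (fun _ => 0) :=
  ⟨continuous_const, HasCompactSupport.zero, by
    have : tsupport (fun _ : E n => (0 : ℝ)) = ∅ := by
      rw [tsupport_eq_empty_iff]; rfl
    rw [this]; exact empty_subset _⟩

theorem CC.memLp {n : ℕ} {Ω : Set (E n)} {φ : E n → ℝ} (h : CC Ω φ) (p : ℝ≥0∞) :
    MemLp φ p (volume : Measure (E n)) := h.cont.memLp_of_hasCompactSupport h.comp

theorem CC.mem_of_ne {n : ℕ} {Ω : Set (E n)} {φ : E n → ℝ} (h : CC Ω φ) {y : E n}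
    (hy : φ y ≠ 0) : y ∈ Ω := h.supp (subset_tsupport _ hy)

/-- Cauchy–Schwarz for real functions -/
theorem cs {α : Type*} [MeasurableSpace α] {μ : Measure α} {f g : α → ℝ} (hf : MemLp f 2 μ)
    (hg : MemLp g 2 μ) : |∫ x, f x * g x ∂μ| ≤ √(∫ x, f x ^ 2 ∂μ) * √(∫ x, g x ^ 2 ∂μ) := by
  have nrm : ∀ {f : α → ℝ} (hf : MemLp f 2 μ), ‖hf.toLp f‖ = √(∫ x, f x ^ 2 ∂μ) := by
    intro f hf
    have h1 : ‖hf.toLp f‖ ^ 2 = ∫ x, f x ^ 2 ∂μ := by
      rw [← real_inner_self_eq_norm_sq, L2.inner_def]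
      apply integral_congr_ae
      filter_upwards [hf.coeFn_toLp] with x hx
      rw [hx]; simp [pow_two]
    rw [← h1, Real.sqrt_sq (norm_nonneg _)]
  have h2 : ∫ x, f x * g x ∂μ = inner ℝ (hf.toLp f) (hg.toLp g) := by
    rw [L2.inner_def]
    apply integral_congr_ae
    filter_upwards [hf.coeFn_toLp, hg.coeFn_toLp] with x hx hy
    rw [hx, hy]; simp [mul_comm]
  rw [h2, ← nrm hf, ← nrm hg]
  exact abs_real_inner_le_norm _ _

section SC

variable {n : ℕ} {ι : Type*} {l : Filter ι} {X : ι → Type*} [∀ i, MeasurableSpace (X i)]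
variable {W : Type*} [NormedAddCommGroup W] [NormedSpace ℝ W]
variable {W' : Type*} [NormedAddCommGroup W'] [NormedSpace ℝ W']

/-- strong local `L¹` convergence of `F i` to `f ∘ u i` -/
def SC (l : Filter ι) (Ω : Set (E n)) (m : ∀ i, Measure (X i)) (u : ∀ i, X i → E n)
    (F : ∀ i, X i → W) (f : E n → W) : Prop :=
  ∀ φ : E n → ℝ, CC Ω φ →
    Tendsto (fun i => ∫ x, ‖φ (u i x) • (F i x - f (u i x))‖ ∂(m i)) l (𝓝 0)

variable {Ω : Set (E n)} {m : ∀ i, Measure (X i)} {u : ∀ i, X i → E n}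

theorem CC.aesm {φ : E n → ℝ} (h : CC Ω φ) (hu : ∀ i, Measurable (u i)) (i : ι) :
    AEStronglyMeasurable (fun x => φ (u i x)) (m i) :=
  (h.cont.measurable.comp (hu i)).aestronglyMeasurable

theorem aesm_diff [SecondCountableTopology W] [MeasurableSpace W] [BorelSpace W]
    (hΩ : IsOpen Ω) (hu : ∀ i, Measurable (u i)) {φ : E n → ℝ} (h : CC Ω φ)
    {F : ∀ i, X i → W} {f : E n → W} (hF : ∀ i, AEStronglyMeasurable (F i) (m i))
    (hf : ContinuousOn f Ω) (i : ι) :
    AEStronglyMeasurable (fun x => φ (u i x) • (F i x - f (u i x))) (m i) := by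
  have h1 : (fun x => φ (u i x) • (F i x - f (u i x))) =
      fun x => φ (u i x) • F i x - (fun y => φ y • f y) (u i x) := by
    ext x; simp [smul_sub]
  rw [h1]
  refine ((h.aesm hu i).smul (hF i)).sub ?_
  have h2 : Measurable (fun y => φ y • f y) := (h.smul_cont hΩ hf).measurable
  exact (h2.comp (hu i)).aestronglyMeasurable

theorem integrable_diff [SecondCountableTopology W] [MeasurableSpace W] [BorelSpace W]
    (hΩ : IsOpen Ω) (hu : ∀ i, Measurable (u i)) {φ : E n → ℝ} (h : CC Ω φ)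
    {F : ∀ i, X i → W} {f : E n → W} (hF : ∀ i, Integrable (F i) (m i))
    (hf : ContinuousOn f Ω) (i : ι) [IsFiniteMeasure (m i)] :
    Integrable (fun x => φ (u i x) • (F i x - f (u i x))) (m i) := by
  have h1 : (fun x => φ (u i x) • (F i x - f (u i x))) =
      fun x => φ (u i x) • F i x - (fun y => φ y • f y) (u i x) := by
    ext x; simp [smul_sub]
  rw [h1]
  obtain ⟨C, -, hC⟩ := h.bdd
  refine Integrable.sub ?_ ?_
  · exact (hF i).bdd_smul C (h.aesm hu i) (Eventually.of_forall fun x => by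
      simpa using hC (u i x))
  · have h2 : Continuous (fun y => φ y • f y) := h.smul_cont hΩ hf
    have hcs : HasCompactSupport (fun y => φ y • f y) := h.comp.smul_right
    obtain ⟨C', hC'⟩ := hcs.exists_bound_of_continuous h2
    exact Integrable.of_bound (C := C') (h2.measurable.comp (hu i)).aestronglyMeasurable
      (Eventually.of_forall fun x => hC' _)

/-- composition with a continuous function -/
theorem SC.comp [l.NeBot] [SecondCountableTopology W] [MeasurableSpace W] [BorelSpace W]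
    [ProperSpace W]
    [∀ i, IsFiniteMeasure (m i)] {Mm : ℝ} (hm : ∀ i, (m i).real univ ≤ Mm)
    (hΩ : IsOpen Ω) (hu : ∀ i, Measurable (u i))
    {F : ∀ i, X i → W} {f : E n → W} (hF : ∀ i, AEStronglyMeasurable (F i) (m i)) {C : ℝ}
    (hFC : ∀ i, ∀ᵐ x ∂(m i), ‖F i x‖ ≤ C) (hf : ContinuousOn f Ω) (hfC : ∀ y ∈ Ω, ‖f y‖ ≤ C)
    (hS : SC l Ω m u F f) {Φ : W → W'} (hΦ : Continuous Φ) :
    SC l Ω m u (fun i x => Φ (F i x)) (fun y => Φ (f y)) := by
  intro φ hφ
  obtain ⟨Cφ, hCφ0, hCφ⟩ := hφ.bdd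
  obtain ⟨i₀⟩ : Nonempty ι := l.nonempty_of_neBot
  have hM0 : 0 ≤ Mm := le_trans measureReal_nonneg (hm i₀)
  have hK : IsCompact (Metric.closedBall (0 : W) C) := isCompact_closedBall _ _
  have hUC : UniformContinuousOn Φ (Metric.closedBall (0 : W) C) :=
    hK.uniformContinuousOn_of_continuous hΦ.continuousOn
  obtain ⟨B, hB⟩ := hK.exists_bound_of_continuousOn hΦ.continuousOn
  have hB' : ∀ a ∈ Metric.closedBall (0 : W) C, ‖Φ a‖ ≤ max B 0 := fun a ha =>
    (hB a ha).trans (le_max_left _ _)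
  rw [Metric.tendsto_nhds]
  intro ε hε
  rw [Metric.uniformContinuousOn_iff] at hUC
  set ε' := ε / (2 * (Cφ * Mm + 1)) with hε'
  have hε'0 : 0 < ε' := by positivity
  obtain ⟨δ, hδ, hδ'⟩ := hUC ε' hε'0
  set L := 2 * max B 0 / δ with hL
  have hL0 : 0 ≤ L := by positivity
  have hpt : ∀ a ∈ Metric.closedBall (0 : W) C, ∀ b ∈ Metric.closedBall (0 : W) C,
      ‖Φ a - Φ b‖ ≤ ε' + L * ‖a - b‖ := by
    intro a ha b hb
    by_cases h : dist a b < δ
    · have := hδ' a ha b hb h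
      rw [dist_eq_norm] at this
      have h2 : 0 ≤ L * ‖a - b‖ := by positivity
      linarith
    · push Not at h
      rw [dist_eq_norm] at h
      have h1 : ‖Φ a - Φ b‖ ≤ 2 * max B 0 := by
        calc _ ≤ ‖Φ a‖ + ‖Φ b‖ := norm_sub_le _ _
          _ ≤ _ := by linarith [hB' a ha, hB' b hb]
      have h2 : 2 * max B 0 ≤ L * ‖a - b‖ := by
        rw [hL, div_mul_eq_mul_div, le_div_iff₀ hδ]
        have : 0 ≤ 2 * max B 0 := by positivity
        nlinarith
      linarith
  have h0 := hS φ hφ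
  have h1 : ∀ᶠ i in l, ∫ x, ‖φ (u i x) • (F i x - f (u i x))‖ ∂(m i) < ε / (2 * (L + 1)) := by
    have := (Metric.tendsto_nhds.1 h0) (ε / (2 * (L + 1))) (by positivity)
    filter_upwards [this] with i hi
    rw [Real.dist_eq, sub_zero] at hi
    exact lt_of_abs_lt hi
  filter_upwards [h1] with i hi
  have hFi : Integrable (F i) (m i) := Integrable.of_bound (C := C) (hF i) (hFC i)
  have hint := (integrable_diff (F := F) (f := f) hΩ hu hφ
    (fun i => Integrable.of_bound (C := C) (hF i) (hFC i)) hf i).norm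
  have hnn : 0 ≤ ∫ x, ‖φ (u i x) • (Φ (F i x) - Φ (f (u i x)))‖ ∂(m i) :=
    integral_nonneg fun x => norm_nonneg _
  rw [Real.dist_eq, sub_zero, abs_of_nonneg hnn]
  have hae : ∀ᵐ x ∂(m i), ‖φ (u i x) • (Φ (F i x) - Φ (f (u i x)))‖ ≤
      Cφ * ε' + L * ‖φ (u i x) • (F i x - f (u i x))‖ := by
    filter_upwards [hFC i] with x hx
    by_cases hz : φ (u i x) = 0
    · simp only [hz, zero_smul, norm_zero, mul_zero, add_zero]; positivity
    · have hux : u i x ∈ Ω := hφ.mem_of_ne hz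
      rw [norm_smul, norm_smul]
      have h3 := hpt (F i x) (by simpa using hx) (f (u i x)) (by simpa using hfC _ hux)
      calc ‖φ (u i x)‖ * ‖Φ (F i x) - Φ (f (u i x))‖
          ≤ ‖φ (u i x)‖ * (ε' + L * ‖F i x - f (u i x)‖) := by gcongr
        _ = ‖φ (u i x)‖ * ε' + L * (‖φ (u i x)‖ * ‖F i x - f (u i x)‖) := by ring
        _ ≤ _ := by
            gcongr
            exact hCφ _
  calc ∫ x, ‖φ (u i x) • (Φ (F i x) - Φ (f (u i x)))‖ ∂(m i)
      ≤ ∫ x, (Cφ * ε' + L * ‖φ (u i x) • (F i x - f (u i x))‖) ∂(m i) := by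
        apply integral_mono_of_nonneg (Eventually.of_forall fun x => norm_nonneg _) _ hae
        exact (integrable_const _).add (hint.const_mul _)
    _ = (m i).real univ * (Cφ * ε') + L * ∫ x, ‖φ (u i x) • (F i x - f (u i x))‖ ∂(m i) := by
        rw [integral_add (integrable_const _) (hint.const_mul _), integral_const, smul_eq_mul,
          integral_const_mul]
    _ < ε := by
        have e1 : (m i).real univ * (Cφ * ε') ≤ Mm * (Cφ * ε') := by
          gcongr; exact hm i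
        have e2 : Mm * (Cφ * ε') ≤ ε / 2 := by
          rw [hε']
          rw [← mul_assoc, mul_div_assoc', div_le_div_iff₀ (by positivity) (by norm_num)]
          nlinarith
        have e3 : L * ∫ x, ‖φ (u i x) • (F i x - f (u i x))‖ ∂(m i) ≤
            L * (ε / (2 * (L + 1))) := by gcongr
        have e4 : L * (ε / (2 * (L + 1))) < ε / 2 := by
          rw [mul_div_assoc', div_lt_div_iff₀ (by positivity) (by norm_num)]
          nlinarith
        linarith

end SC

end Crest.Agent.R249.Lim41
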