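import Crest.Agent.R249.Lim1_621

/-!
# Row 249, part A2 (BP-A2 section 9): the contact zone lemma
-/

set_option autoImplicit false

namespace Crest.Agent.R249.Lim621

variable {E H : Type*} [NormedAddCommGroup E] [InnerProductSpace ℝ E]
  [NormedAddCommGroup H] [NormedSpace ℝ H]

/-- one multiplier -/
theorem mult_bound {b f lam m S T ΔE c0 e ε θ : ℝ} (hb : 0 < b) (hbf : b ≤ f)
    (hm : 0 ≤ m) (hmS : 3 * f ^ 2 * m ≤ S) (hε : 0 ≤ ε) (hε1 : ε ≤ 1 / 2)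
    (hla : 9 / 10 ≤ lam) (hlb : lam ≤ 112 / 100) (hl1 : |lam - 1| ≤ 2 / 3 * ε)
    (hθ0 : 0 ≤ θ) (hθ1 : θ ≤ 1) (hθS : (1 - θ) * S ≤ max (S - T) 0)
    (hST : S - T ≤ ΔE + e) (hΔ : 0 ≤ ΔE) (he : 0 ≤ e) (hc0 : 0 ≤ c0) (hS : S ≤ 7 + c0 + e) :
    |m - θ * m / lam ^ 2| ≤ (3 * b ^ 2)⁻¹ * (ΔE + 14 * ε + 2 * c0 * ε + 2 * e) := by
  have hb2 : 0 < 3 * b ^ 2 := by positivity
  have hlam : 0 < lam := by linarith
  have hf2 : b ^ 2 ≤ f ^ 2 := by nlinarith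
  have hmS' : 3 * b ^ 2 * m ≤ S := by nlinarith
  have hS0 : 0 ≤ S := le_trans (by positivity) hmS'
  have hm1 : m ≤ (3 * b ^ 2)⁻¹ * S := by
    rw [inv_mul_eq_div, le_div_iff₀ hb2]; linarith
  have e1 : m - θ * m / lam ^ 2 = m * (1 - θ) + θ * m * ((lam - 1) * ((lam + 1) / lam ^ 2)) := by
    field_simp
    ring
  have e2 : |m * (1 - θ)| ≤ (3 * b ^ 2)⁻¹ * (ΔE + e) := by
    rw [abs_of_nonneg (mul_nonneg hm (by linarith))]
    have h1 : (1 - θ) * S ≤ ΔE + e := hθS.trans (max_le hST (by linarith))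
    calc m * (1 - θ) ≤ ((3 * b ^ 2)⁻¹ * S) * (1 - θ) :=
          mul_le_mul_of_nonneg_right hm1 (by linarith)
      _ = (3 * b ^ 2)⁻¹ * ((1 - θ) * S) := by ring
      _ ≤ (3 * b ^ 2)⁻¹ * (ΔE + e) := mul_le_mul_of_nonneg_left h1 (by positivity)
  have e3 : (lam + 1) / lam ^ 2 ≤ 3 := by
    rw [div_le_iff₀ (by positivity)]; nlinarith
  have e4 : |θ * m * ((lam - 1) * ((lam + 1) / lam ^ 2))| ≤
      (3 * b ^ 2)⁻¹ * (7 + c0 + e) * (2 * ε) := by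
    rw [abs_mul, abs_mul (lam - 1), abs_of_nonneg (mul_nonneg hθ0 hm),
      abs_of_pos (by positivity : 0 < (lam + 1) / lam ^ 2)]
    have h1 : θ * m ≤ (3 * b ^ 2)⁻¹ * (7 + c0 + e) := by
      calc θ * m ≤ 1 * m := mul_le_mul_of_nonneg_right hθ1 hm
        _ = m := one_mul m
        _ ≤ (3 * b ^ 2)⁻¹ * S := hm1
        _ ≤ _ := mul_le_mul_of_nonneg_left hS (by positivity)
    apply mul_le_mul h1 _ (by positivity) (by positivity)
    calc |lam - 1| * ((lam + 1) / lam ^ 2) ≤ (2 / 3 * ε) * 3 :=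
          mul_le_mul hl1 e3 (by positivity) (by positivity)
      _ = 2 * ε := by ring
  rw [e1]
  refine (abs_add_le _ _).trans ?_
  have e5 : e * (2 * ε) ≤ e := by nlinarith
  have e6 : (3 * b ^ 2)⁻¹ * (7 + c0 + e) * (2 * ε) ≤
      (3 * b ^ 2)⁻¹ * (14 * ε + 2 * c0 * ε + e) := by
    rw [mul_assoc]
    apply mul_le_mul_of_nonneg_left _ (by positivity)
    nlinarith
  calc _ ≤ (3 * b ^ 2)⁻¹ * (ΔE + e) + (3 * b ^ 2)⁻¹ * (14 * ε + 2 * c0 * ε + e) :=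
        add_le_add e2 (e4.trans e6)
    _ = _ := by ring

theorem aux1 {a f ε : ℝ} (ha : 0 ≤ a) (h : a ≤ 2 / 3 * ε) (hf0 : 0 ≤ f) (hf : f ≤ 3 / 2)
    (hε : 0 ≤ ε) : a * f ≤ ε := by
  nlinarith

theorem aux2 {b lam f : ℝ} (hb : 0 < b) (hla : 9 / 10 ≤ lam) (hlb : lam ≤ 112 / 100)
    (hbf : b ≤ f) (hf : f ≤ 3 / 2) : b / 2 ≤ lam * f ∧ lam * f ≤ 2 := by
  constructor <;> nlinarith

theorem aux3 {K D r r' a a' : ℝ} (hK : 1 ≤ K) (hr : 0 ≤ r) (hr' : 0 ≤ r')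
    (ha : a ≤ K * D + r) (ha' : a' ≤ K * D + r') : a + a' ≤ 2 * K * (D + r + r') := by
  nlinarith

theorem aux4 {K n : ℝ} (hK : 0 ≤ K) (hn : 0 ≤ n) : 2 * K * n ≤ 131 + 30 * K * (n + 1) := by
  have := mul_nonneg hK hn
  nlinarith

theorem aux5 {ε W l e r r' : ℝ} (hε : ε ≤ 1 / 2) (hW : 0 ≤ W) (hl : l ≤ 14 * W) (he : 0 ≤ e)
    (hr : 0 ≤ r) (hr' : 0 ≤ r') : ε * W + l + e + r + r' ≤ 15 * (W + e + r + r') := by
  have : ε * W ≤ W := by nlinarith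
  linarith

/-- The contact zone lemma. -/
theorem zone (tr : H →L[ℝ] ℝ) (one : H) (h1 : tr one = 1) (F : ℝ → ℝ) (b CF c0 : ℝ)
    (hb : 0 < b) (hCF : 0 ≤ CF) (hc0 : 0 ≤ c0)
    (hF : ∀ u v, b / 2 ≤ u → u ≤ 2 → b / 2 ≤ v → v ≤ 2 → |F u - F v| ≤ CF * |u - v|) :
    ∃ K : ℝ, 0 < K ∧ ∀ (j : Jet E H) (m m' r r' e ε : ℝ), b ≤ j.f → b ≤ j.g → 0 ≤ ε →
      ε ≤ 1 / 2 → |j.kap| ≤ ε → tr j.P = F j.f + m + r → tr j.Q = F j.g + m' + r' →
      0 ≤ m → 0 ≤ m' → 0 ≤ e →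
      3 * j.f ^ 2 * m + 3 * j.g ^ 2 * m' ≤ max j.Ee 0 + c0 + e →
      ∃ (j' : Jet E H) (m1 m1' : ℝ), b / 2 ≤ j'.f ∧ j'.f ≤ 2 ∧ b / 2 ≤ j'.g ∧ j'.g ≤ 2 ∧
        j.f ≤ 2 ∧ j.g ≤ 2 ∧
        j'.kap = 0 ∧ j'.f ^ 2 • j'.p + j'.g ^ 2 • j'.q = 0 ∧
        tr j'.P = F j'.f + m1 ∧ tr j'.Q = F j'.g + m1' ∧ 0 ≤ m1 ∧ 0 ≤ m1' ∧
        3 * j'.f ^ 2 * m1 + 3 * j'.g ^ 2 * m1' ≤ max j'.Ee 0 + c0 ∧
        (∃ α α' : ℝ, j'.P = j.P + α • one ∧ j'.Q = j.Q + α' • one) ∧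
        Rel ε j j' ∧
        ‖j.p - j'.p‖ + ‖j.q - j'.q‖ ≤ ‖j.L‖ ∧
        ‖j.P - j'.P‖ + ‖j.Q - j'.Q‖ ≤
          K * (ε * j.W + ‖j.L‖ * Real.sqrt j.W + e + |r| + |r'|) ∧
        j.W + j'.W ≤ K * (j.W + e + |r| + |r'|) := by
  obtain ⟨K1, hK1⟩ : ∃ K1, K1 = CF + (3 * b ^ 2)⁻¹ * (900 + 2 * c0) + 1 := ⟨_, rfl⟩
  have hib : 0 ≤ (3 * b ^ 2)⁻¹ := by positivity
  have hK1pos : 0 < K1 := by rw [hK1]; positivity
  have hn0 := norm_nonneg one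
  refine ⟨131 + 30 * K1 * (‖one‖ + 1), by positivity, ?_⟩
  intro j m m' r r' e ε hbf hbg hε hε1 hk htP htQ hm hm' he hS
  have hf0 : 0 < j.f := lt_of_lt_of_le hb hbf
  have hg0 : 0 < j.g := lt_of_lt_of_le hb hbg
  have hs0 : 0 < j.s := by unfold Jet.s; positivity
  obtain ⟨lam, hlam, hl3⟩ := exists_cuberoot (a := 2 / j.s) (by positivity)
  obtain ⟨hs1, hs2, hla, hlb, hl1, hl2⟩ := lam_bounds (s := j.s) hε hε1 hk hlam hl3
  have hf : j.f ≤ 3 / 2 := f_le hf0 hg0 hs2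
  have hg : j.g ≤ 3 / 2 := f_le hg0 hf0 (by rw [add_comm]; exact hs2)
  -- the multipliers
  have hΔ := (Ee_shift one j lam 0 0 ε hf0 hg0 hε hε1 hk hlam hl3).1
  obtain ⟨E', hE'⟩ : ∃ E', E' = (shift one j lam 0 0).Ee := ⟨_, rfl⟩
  rw [← hE'] at hΔ
  have hS0 : 0 ≤ 3 * j.f ^ 2 * m + 3 * j.g ^ 2 * m' := by positivity
  have hT0 : 0 ≤ max E' 0 + c0 := by positivity
  obtain ⟨θ, hθ0, hθ1, hθT, hθS⟩ := exists_theta hS0 hT0
  have hST : (3 * j.f ^ 2 * m + 3 * j.g ^ 2 * m') - (max E' 0 + c0) ≤ |j.Ee - E'| + e := by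
    have h2 : max j.Ee 0 ≤ max E' 0 + |j.Ee - E'| := by
      apply max_le
      · have := le_abs_self (j.Ee - E')
        have := le_max_left E' 0
        linarith
      · have := abs_nonneg (j.Ee - E')
        have := le_max_right E' 0
        linarith
    linarith
  have hE7 : max j.Ee 0 ≤ 7 := by
    apply max_le _ (by norm_num)
    have hx : 0 < j.f ^ 3 := by positivity
    have hy : 0 < j.g ^ 3 := by positivity
    have hxy : j.f ^ 3 + j.g ^ 3 ≤ 5 / 2 := hs2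
    have h1 : j.f ^ 3 - j.g ^ 3 ≤ 5 / 2 := by linarith
    have h2 : -(5 / 2) ≤ j.f ^ 3 - j.g ^ 3 := by linarith
    have h3 := sq_le_sq' h2 h1
    have h4 : 0 ≤ j.f * ‖j.p‖ ^ 2 + j.g * ‖j.q‖ ^ 2 := by positivity
    unfold Jet.Ee
    norm_num at h3
    linarith
  have hS7 : 3 * j.f ^ 2 * m + 3 * j.g ^ 2 * m' ≤ 7 + c0 + e := by linarith
  have hΔ0 := abs_nonneg (j.Ee - E')
  have hm1 := mult_bound (T := max E' 0 + c0) hb hbf hm (by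
      have : 0 ≤ 3 * j.g ^ 2 * m' := by positivity
      linarith : 3 * j.f ^ 2 * m ≤ 3 * j.f ^ 2 * m + 3 * j.g ^ 2 * m') hε hε1 hla hlb hl1
      hθ0 hθ1 hθS hST hΔ0 he hc0 hS7
  have hm2 := mult_bound (T := max E' 0 + c0) hb hbg hm' (by
      have : 0 ≤ 3 * j.f ^ 2 * m := by positivity
      linarith : 3 * j.g ^ 2 * m' ≤ 3 * j.f ^ 2 * m + 3 * j.g ^ 2 * m') hε hε1 hla hlb hl1
      hθ0 hθ1 hθS hST hΔ0 he hc0 hS7
  have hW1 := j.one_le_W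
  have hW0 := j.W_nonneg
  have hεW : ε ≤ ε * j.W := le_mul_of_one_le_right hε hW1
  have hLs : 0 ≤ ‖j.L‖ * Real.sqrt j.W := by positivity
  have hεW0 : 0 ≤ ε * j.W := by positivity
  have hc0W : c0 * ε ≤ c0 * (ε * j.W) := mul_le_mul_of_nonneg_left hεW hc0
  -- bound for the multipliers
  have hmm : ∀ t : ℝ, |t| ≤ (3 * b ^ 2)⁻¹ * (|j.Ee - E'| + 14 * ε + 2 * c0 * ε + 2 * e) →
      |t| ≤ (3 * b ^ 2)⁻¹ * (900 + 2 * c0) * (ε * j.W + ‖j.L‖ * Real.sqrt j.W + e) := by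
    intro t ht
    refine ht.trans ?_
    have hrw : (3 * b ^ 2)⁻¹ * (900 + 2 * c0) * (ε * j.W + ‖j.L‖ * Real.sqrt j.W + e) =
      (3 * b ^ 2)⁻¹ * ((900 + 2 * c0) * (ε * j.W + ‖j.L‖ * Real.sqrt j.W + e)) := by ring
    rw [hrw]
    apply mul_le_mul_of_nonneg_left _ hib
    have : (900 + 2 * c0) * (ε * j.W + ‖j.L‖ * Real.sqrt j.W + e) =
      900 * (ε * j.W) + 900 * (‖j.L‖ * Real.sqrt j.W) + 900 * e + 2 * (c0 * (ε * j.W)) +
        2 * (c0 * (‖j.L‖ * Real.sqrt j.W)) + 2 * (c0 * e) := by ring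
    rw [this]
    have h3 : 0 ≤ c0 * (‖j.L‖ * Real.sqrt j.W) := by positivity
    have h4 : 0 ≤ c0 * e := by positivity
    have h5 : |j.Ee - E'| ≤ 60 * (‖j.L‖ * Real.sqrt j.W) + 800 * (ε * j.W) := by
      linarith
    linarith
  have hm1' := hmm _ hm1
  have hm2' := hmm _ hm2
  have hdf : |lam * j.f - j.f| ≤ ε := by
    have : lam * j.f - j.f = (lam - 1) * j.f := by ring
    rw [this, abs_mul, abs_of_pos hf0]
    exact aux1 (abs_nonneg _) hl1 hf0.le hf hε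
  have hdg : |lam * j.g - j.g| ≤ ε := by
    have : lam * j.g - j.g = (lam - 1) * j.g := by ring
    rw [this, abs_mul, abs_of_pos hg0]
    exact aux1 (abs_nonneg _) hl1 hg0.le hg hε
  obtain ⟨hlf2, hlf3⟩ := aux2 hb hla hlb hbf hf
  obtain ⟨hlg2, hlg3⟩ := aux2 hb hla hlb hbg hg
  have hFf : |F (lam * j.f) - F j.f| ≤ CF * ε :=
    (hF _ _ hlf2 hlf3 (by linarith) (by linarith)).trans (mul_le_mul_of_nonneg_left hdf hCF)
  have hFg : |F (lam * j.g) - F j.g| ≤ CF * ε :=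
    (hF _ _ hlg2 hlg3 (by linarith) (by linarith)).trans (mul_le_mul_of_nonneg_left hdg hCF)
  obtain ⟨α, hα⟩ : ∃ α, α = F (lam * j.f) - F j.f - (m - θ * m / lam ^ 2) - r := ⟨_, rfl⟩
  obtain ⟨α', hα'⟩ : ∃ α', α' = F (lam * j.g) - F j.g - (m' - θ * m' / lam ^ 2) - r' := ⟨_, rfl⟩
  have hCε : CF * ε ≤ CF * (ε * j.W + ‖j.L‖ * Real.sqrt j.W + e) :=
    mul_le_mul_of_nonneg_left (by linarith) hCF
  have hαb : |α| ≤ K1 * (ε * j.W + ‖j.L‖ * Real.sqrt j.W + e) + |r| := by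
    have h3 : |α| ≤ |F (lam * j.f) - F j.f| + |m - θ * m / lam ^ 2| + |r| := by
      rw [hα]
      refine (abs_sub _ _).trans (add_le_add_left ((abs_sub _ _)) _)
    have h4 : 0 ≤ ε * j.W + ‖j.L‖ * Real.sqrt j.W + e := by positivity
    rw [hK1]
    linarith
  have hαb' : |α'| ≤ K1 * (ε * j.W + ‖j.L‖ * Real.sqrt j.W + e) + |r'| := by
    have h3 : |α'| ≤ |F (lam * j.g) - F j.g| + |m' - θ * m' / lam ^ 2| + |r'| := by
      rw [hα']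
      refine (abs_sub _ _).trans (add_le_add_left ((abs_sub _ _)) _)
    have h4 : 0 ≤ ε * j.W + ‖j.L‖ * Real.sqrt j.W + e := by positivity
    rw [hK1]
    linarith
  obtain ⟨-, hp8, hq8, hdp, hdq, hL14⟩ := Ee_shift one j lam α α' ε hf0 hg0 hε hε1 hk hlam hl3
  have hK11 : 1 ≤ K1 := by
    rw [hK1]
    have : 0 ≤ (3 * b ^ 2)⁻¹ * (900 + 2 * c0) := by positivity
    linarith
  have hsum : |α| + |α'| ≤ 2 * K1 * (ε * j.W + ‖j.L‖ * Real.sqrt j.W + e + |r| + |r'|) :=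
    aux3 hK11 (abs_nonneg r) (abs_nonneg r') hαb hαb'
  have hD0 : 0 ≤ ε * j.W + ‖j.L‖ * Real.sqrt j.W + e + |r| + |r'| := by positivity
  have hsq : Real.sqrt j.W * Real.sqrt j.W = j.W := Real.mul_self_sqrt hW0
  have hLW : ‖j.L‖ * Real.sqrt j.W ≤ 14 * j.W := by
    calc ‖j.L‖ * Real.sqrt j.W ≤ 14 * Real.sqrt j.W * Real.sqrt j.W :=
          mul_le_mul_of_nonneg_right hL14 (Real.sqrt_nonneg _)
      _ = 14 * j.W := by rw [mul_assoc, hsq]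
  refine ⟨shift one j lam α α', θ * m / lam ^ 2, θ * m' / lam ^ 2, hlf2, hlf3, hlg2, hlg3,
    by linarith, by linarith,
    shift_kap one j lam α α' hl3 hs0.ne', shift_contact one j lam α α' hs0.ne', ?_, ?_,
    by positivity, by positivity, ?_, ⟨α, α', rfl, rfl⟩, ?_, ?_, ?_, ?_⟩
  · show tr (j.P + α • one) = F (lam * j.f) + θ * m / lam ^ 2
    rw [map_add, map_smul, h1, htP, hα, smul_eq_mul]
    ring
  · show tr (j.Q + α' • one) = F (lam * j.g) + θ * m' / lam ^ 2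
    rw [map_add, map_smul, h1, htQ, hα', smul_eq_mul]
    ring
  · have hEe : (shift one j lam α α').Ee = E' := by
      rw [hE']; rfl
    rw [hEe]
    show 3 * (lam * j.f) ^ 2 * (θ * m / lam ^ 2) + 3 * (lam * j.g) ^ 2 * (θ * m' / lam ^ 2) ≤ _
    have : 3 * (lam * j.f) ^ 2 * (θ * m / lam ^ 2) + 3 * (lam * j.g) ^ 2 * (θ * m' / lam ^ 2)
        = θ * (3 * j.f ^ 2 * m + 3 * j.g ^ 2 * m') := by
      field_simp
    rw [this]
    exact hθT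
  · exact ⟨lam, hlam, hl1.trans (by linarith), rfl, rfl, shift_Xv one j lam α α'⟩
  · have := norm_nonneg j.L
    linarith
  · show ‖j.P - (j.P + α • one)‖ + ‖j.Q - (j.Q + α' • one)‖ ≤ _
    rw [sub_add_cancel_left, sub_add_cancel_left, norm_neg, norm_neg, norm_smul, norm_smul,
      Real.norm_eq_abs, Real.norm_eq_abs, ← add_mul]
    calc (|α| + |α'|) * ‖one‖ ≤
        (2 * K1 * (ε * j.W + ‖j.L‖ * Real.sqrt j.W + e + |r| + |r'|)) * ‖one‖ :=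
          mul_le_mul_of_nonneg_right hsum hn0
      _ = (2 * K1 * ‖one‖) * (ε * j.W + ‖j.L‖ * Real.sqrt j.W + e + |r| + |r'|) := by ring
      _ ≤ _ := by
          apply mul_le_mul_of_nonneg_right _ hD0
          exact aux4 hK1pos.le hn0
  · have hP' : ‖j.P + α • one‖ ≤ ‖j.P‖ + |α| * ‖one‖ := by
      refine (norm_add_le _ _).trans ?_
      rw [norm_smul, Real.norm_eq_abs]
    have hQ' : ‖j.Q + α' • one‖ ≤ ‖j.Q‖ + |α'| * ‖one‖ := by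
      refine (norm_add_le _ _).trans ?_
      rw [norm_smul, Real.norm_eq_abs]
    have hp2 : ‖(shift one j lam α α').p‖ ^ 2 ≤ 64 * j.W := by
      calc ‖(shift one j lam α α').p‖ ^ 2 ≤ (8 * Real.sqrt j.W) ^ 2 :=
            pow_le_pow_left₀ (norm_nonneg _) hp8 2
        _ = 64 * (Real.sqrt j.W * Real.sqrt j.W) := by ring
        _ = 64 * j.W := by rw [hsq]
    have hq2 : ‖(shift one j lam α α').q‖ ^ 2 ≤ 64 * j.W := by
      calc ‖(shift one j lam α α').q‖ ^ 2 ≤ (8 * Real.sqrt j.W) ^ 2 :=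
            pow_le_pow_left₀ (norm_nonneg _) hq8 2
        _ = 64 * (Real.sqrt j.W * Real.sqrt j.W) := by ring
        _ = 64 * j.W := by rw [hsq]
    have hPQ : ‖j.P‖ + ‖j.Q‖ ≤ j.W := by
      unfold Jet.W
      have := sq_nonneg ‖j.p‖
      have := sq_nonneg ‖j.q‖
      linarith
    have hW' : (shift one j lam α α').W ≤ 130 * j.W + (|α| + |α'|) * ‖one‖ := by
      show 1 + ‖(shift one j lam α α').p‖ ^ 2 + ‖(shift one j lam α α').q‖ ^ 2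
        + ‖j.P + α • one‖ + ‖j.Q + α' • one‖ ≤ _
      linarith
    have hsum2 : (|α| + |α'|) * ‖one‖ ≤ 30 * K1 * ‖one‖ * (j.W + e + |r| + |r'|) := by
      calc (|α| + |α'|) * ‖one‖ ≤
          (2 * K1 * (ε * j.W + ‖j.L‖ * Real.sqrt j.W + e + |r| + |r'|)) * ‖one‖ :=
            mul_le_mul_of_nonneg_right hsum hn0
        _ ≤ (2 * K1 * (15 * (j.W + e + |r| + |r'|))) * ‖one‖ := by
            apply mul_le_mul_of_nonneg_right _ hn0
            apply mul_le_mul_of_nonneg_left _ (by positivity)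
            exact aux5 hε1 hW0 hLW he (abs_nonneg r) (abs_nonneg r')
        _ = _ := by ring
    have hZ : 0 ≤ e + |r| + |r'| := by positivity
    have : (131 + 30 * K1 * (‖one‖ + 1)) * (j.W + e + |r| + |r'|) =
        131 * j.W + 131 * (e + |r| + |r'|) + 30 * K1 * ‖one‖ * (j.W + e + |r| + |r'|)
          + 30 * K1 * (j.W + e + |r| + |r'|) := by ring
    rw [this]
    have h9 : 0 ≤ 30 * K1 * (j.W + e + |r| + |r'|) := by positivity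
    linarith

end Crest.Agent.R249.Lim621
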