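import Crest.Agent.R249.Lim2_41
/-!
R249 / D3-LIM (helper41).  Abstract limit lemma, part 3: strong times weak convergence, Riesz
representation of weak limits of `L²`-bounded functions.
-/

set_option autoImplicit false

open MeasureTheory Filter Topology Set
open scoped ContDiff ENNReal

noncomputable section

namespace Crest.Agent.R249.Lim41

section SC

variable {n : ℕ} {ι : Type*} {l : Filter ι} {X : ι → Type*} [∀ i, MeasurableSpace (X i)]
variable {Ω : Set (E n)} {m : ∀ i, Measure (X i)} {u : ∀ i, X i → E n}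

/-- the common hypotheses on the spaces and maps -/
structure Base (Ω : Set (E n)) (m : ∀ i, Measure (X i)) (u : ∀ i, X i → E n) (Mm : ℝ) : Prop where
  opn : IsOpen Ω
  meas : ∀ i, Measurable (u i)
  fin : ∀ i, IsFiniteMeasure (m i)
  mass : ∀ i, (m i).real univ ≤ Mm

theorem Base.mm [l.NeBot] {Mm : ℝ} (hB : Base Ω m u Mm) : 0 ≤ Mm := by
  obtain ⟨i₀⟩ : Nonempty ι := l.nonempty_of_neBot
  exact le_trans measureReal_nonneg (hB.mass i₀)

/-- a bounded function is in `L²` -/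
theorem memLp_of_ae_bdd {α : Type*} [MeasurableSpace α] {μ : Measure α} [IsFiniteMeasure μ]
    {f : α → ℝ} {C : ℝ} (hf : AEStronglyMeasurable f μ) (hC : ∀ᵐ x ∂μ, |f x| ≤ C) (p : ℝ≥0∞) :
    MemLp f p μ := MemLp.of_bound hf C (by simpa using hC)

theorem SC.sq {Mm : ℝ} (hB : Base Ω m u Mm) {F : ∀ i, X i → ℝ} {f : E n → ℝ}
    (hF : ∀ i, AEStronglyMeasurable (F i) (m i)) {C : ℝ}
    (hFC : ∀ i, ∀ᵐ x ∂(m i), |F i x| ≤ C) (hf : ContinuousOn f Ω) (hfC : ∀ y ∈ Ω, |f y| ≤ C)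
    (hS : SC l Ω m u F f) {φ : E n → ℝ} (hφ : CC Ω φ) :
    Tendsto (fun i => ∫ x, (φ (u i x) * (F i x - f (u i x))) ^ 2 ∂(m i)) l (𝓝 0) := by
  have hfin := hB.fin
  have h0 := (hS _ hφ.sq).const_mul (2 * C)
  rw [mul_zero] at h0
  refine squeeze_zero (fun i => integral_nonneg fun x => sq_nonneg _) (fun i => ?_) h0
  rw [← integral_const_mul]
  have hFi : ∀ i, Integrable (F i) (m i) := fun i =>
    Integrable.of_bound (C := C) (hF i) (by simpa using hFC i)
  have hint := (integrable_diff (F := F) (f := f) hB.opn hB.meas hφ.sq hFi hf i).norm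
  apply integral_mono_of_nonneg (Eventually.of_forall fun x => sq_nonneg _) (hint.const_mul _)
  filter_upwards [hFC i] with x hx
  show (φ (u i x) * (F i x - f (u i x))) ^ 2 ≤ 2 * C * ‖φ (u i x) ^ 2 • (F i x - f (u i x))‖
  by_cases hz : φ (u i x) = 0
  · simp [hz]
  · have hux : u i x ∈ Ω := hφ.mem_of_ne hz
    rw [norm_smul, Real.norm_eq_abs, Real.norm_eq_abs, mul_pow, abs_of_nonneg (sq_nonneg _)]
    have h1 : (F i x - f (u i x)) ^ 2 ≤ 2 * C * |F i x - f (u i x)| := by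
      rw [← sq_abs, pow_two]
      gcongr
      calc |F i x - f (u i x)| ≤ |F i x| + |f (u i x)| := abs_sub _ _
        _ ≤ 2 * C := by linarith [hfC _ hux]
    calc φ (u i x) ^ 2 * (F i x - f (u i x)) ^ 2
        ≤ φ (u i x) ^ 2 * (2 * C * |F i x - f (u i x)|) := by gcongr
      _ = _ := by ring

/-- strong times weak -/
theorem SC.mul_wc {Mm : ℝ} (hB : Base Ω m u Mm) {F : ∀ i, X i → ℝ} {f : E n → ℝ}
    (hF : ∀ i, AEStronglyMeasurable (F i) (m i)) {C : ℝ}
    (hFC : ∀ i, ∀ᵐ x ∂(m i), |F i x| ≤ C) (hf : ContinuousOn f Ω) (hfC : ∀ y ∈ Ω, |f y| ≤ C)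
    (hS : SC l Ω m u F f) {G : ∀ i, X i → ℝ} {γ : E n → ℝ} (hG : ∀ i, MemLp (G i) 2 (m i))
    {CG : ℝ} (hGC : ∀ i, ∫ x, G i x ^ 2 ∂(m i) ≤ CG) (hW : WC l Ω m u G γ) :
    WC l Ω m u (fun i x => F i x * G i x) (fun y => f y * γ y) := by
  have hfin := hB.fin
  intro φ hφ
  have h1 := hW _ (hφ.mul_cont hB.opn hf)
  have h2 := hS.sq hB hF hFC hf hfC hφ
  have hFi : ∀ i, Integrable (F i) (m i) := fun i =>
    Integrable.of_bound (C := C) (hF i) (by simpa using hFC i)
  have hmd : ∀ i, MemLp (fun x => φ (u i x) * (F i x - f (u i x))) 2 (m i) := by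
    intro i
    obtain ⟨Cφ, -, hCφ⟩ := hφ.bdd
    have hme : AEStronglyMeasurable (fun x => φ (u i x) • (F i x - f (u i x))) (m i) :=
      aesm_diff hB.opn hB.meas hφ hF hf i
    refine MemLp.of_bound (C := Cφ * (2 * C)) hme ?_
    filter_upwards [hFC i] with x hx
    by_cases hz : φ (u i x) = 0
    · simp only [hz, zero_mul, norm_zero]
      have : 0 ≤ C := le_trans (abs_nonneg _) hx
      have : 0 ≤ Cφ := le_trans (abs_nonneg _) (hCφ 0)
      positivity
    · have hux : u i x ∈ Ω := hφ.mem_of_ne hz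
      rw [norm_mul, Real.norm_eq_abs, Real.norm_eq_abs]
      have hC0 : 0 ≤ Cφ := le_trans (abs_nonneg _) (hCφ 0)
      gcongr
      · exact hCφ _
      · calc |F i x - f (u i x)| ≤ |F i x| + |f (u i x)| := abs_sub _ _
          _ ≤ 2 * C := by linarith [hfC _ hux]
  have hkey : Tendsto (fun i => ∫ x, φ (u i x) * (F i x - f (u i x)) * G i x ∂(m i)) l (𝓝 0) := by
    have h3 : Tendsto (fun i => √(∫ x, (φ (u i x) * (F i x - f (u i x))) ^ 2 ∂(m i)) * √CG) l
        (𝓝 0) := by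
      have := ((Real.continuous_sqrt.tendsto 0).comp h2).mul_const √CG
      simpa using this
    refine squeeze_zero_norm (fun i => ?_) h3
    rw [Real.norm_eq_abs]
    refine (cs (hmd i) (hG i)).trans ?_
    gcongr
    exact hGC i
  have h4 := h1.add hkey
  rw [add_zero] at h4
  have e1 : ∀ y, φ y * f y * γ y = φ y * (f y * γ y) := fun y => by ring
  simp_rw [e1] at h4
  refine h4.congr fun i => ?_
  rw [← integral_add]
  · congr 1
    ext x
    ring
  · have hc : CC Ω (fun y => φ y * f y) := hφ.mul_cont hB.opn hf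
    obtain ⟨C', -, hC'⟩ := hc.bdd
    exact Integrable.bdd_mul (c := C') ((hG i).integrable (by norm_num)) (hc.aesm hB.meas i)
      (Eventually.of_forall fun x => by simpa using hC' (u i x))
  · exact (hmd i).integrable_mul (hG i)

theorem WC.add [l.NeBot] {Mm : ℝ} (hB : Base Ω m u Mm) {G G' : ∀ i, X i → ℝ} {γ γ' : E n → ℝ}
    (hG : ∀ i, Integrable (G i) (m i)) (hG' : ∀ i, Integrable (G' i) (m i)) (hγ : LI Ω γ)
    (hγ' : LI Ω γ') (h : WC l Ω m u G γ) (h' : WC l Ω m u G' γ') :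
    WC l Ω m u (fun i x => G i x + G' i x) (fun y => γ y + γ' y) := by
  intro φ hφ
  have h1 := (h φ hφ).add (h' φ hφ)
  rw [← integral_add (hφ.integrable_mul hγ) (hφ.integrable_mul hγ')] at h1
  simp_rw [← mul_add] at h1
  refine h1.congr fun i => ?_
  obtain ⟨C', -, hC'⟩ := hφ.bdd
  have hi : ∀ {g : X i → ℝ}, Integrable g (m i) → Integrable (fun x => φ (u i x) * g x) (m i) :=
    fun hg => Integrable.bdd_mul (c := C') hg (hφ.aesm hB.meas i)
      (Eventually.of_forall fun x => by simpa using hC' (u i x))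
  rw [← integral_add (hi (hG i)) (hi (hG' i))]
  congr 1
  ext x
  ring

theorem WC.const_mul {G : ∀ i, X i → ℝ} {γ : E n → ℝ} (h : WC l Ω m u G γ) (c : ℝ) :
    WC l Ω m u (fun i x => c * G i x) (fun y => c * γ y) := by
  intro φ hφ
  have h1 := (h φ hφ).const_mul c
  simp_rw [← integral_const_mul] at h1
  simp_rw [mul_left_comm (φ _) c _]
  exact h1

theorem WC.congr {G G' : ∀ i, X i → ℝ} {γ γ' : E n → ℝ} (h : WC l Ω m u G γ)
    (hG : ∀ i, G i =ᵐ[m i] G' i) (hγ : ∀ y ∈ Ω, γ y = γ' y) : WC l Ω m u G' γ' := by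
  intro φ hφ
  have h1 := h φ hφ
  have e1 : ∀ i, ∫ x, φ (u i x) * G i x ∂(m i) = ∫ x, φ (u i x) * G' i x ∂(m i) := by
    intro i
    apply integral_congr_ae
    filter_upwards [hG i] with x hx
    rw [hx]
  have e2 : ∫ y, φ y * γ y = ∫ y, φ y * γ' y := by
    congr 1
    ext y
    by_cases hz : φ y = 0
    · simp [hz]
    · rw [hγ y (hφ.mem_of_ne hz)]
  simp_rw [e1, e2] at h1
  exact h1

theorem WC.restrict {Ω' : Set (E n)} (hΩ' : Ω' ⊆ Ω) {G : ∀ i, X i → ℝ} {γ : E n → ℝ}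
    (h : WC l Ω m u G γ) : WC l Ω' m u G γ :=
  fun φ hφ => h φ ⟨hφ.cont, hφ.comp, hφ.supp.trans hΩ'⟩

end SC

/-! ### Riesz representation on an open set -/

theorem CS.add {n : ℕ} {Ω : Set (E n)} {a b : E n → ℝ} (h : CS Ω a) (h' : CS Ω b) :
    CS Ω (fun x => a x + b x) :=
  ⟨h.smooth.add h'.smooth, h.comp.add h'.comp,
    (tsupport_add a b).trans (union_subset h.supp h'.supp)⟩

theorem CS.smooth_mul {n : ℕ} {Ω : Set (E n)} {φ f : E n → ℝ} (h : CS Ω φ)
    (hf : ContDiff ℝ ∞ f) : CS Ω (fun x => f x * φ x) :=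
  ⟨hf.mul h.smooth, h.comp.mul_left, (h.cc.mul_left' hf.continuous).supp⟩

theorem CS.mul_smooth {n : ℕ} {Ω : Set (E n)} {φ f : E n → ℝ} (h : CS Ω φ)
    (hf : ContDiff ℝ ∞ f) : CS Ω (fun x => φ x * f x) :=
  ⟨h.smooth.mul hf, h.comp.mul_right, (h.cc.mul_right' hf.continuous).supp⟩

theorem CS.const_mul {n : ℕ} {Ω : Set (E n)} {φ : E n → ℝ} (h : CS Ω φ) (c : ℝ) :
    CS Ω (fun x => c * φ x) := h.smooth_mul contDiff_const

theorem CS.zero {n : ℕ} {Ω : Set (E n)} : CS Ω (fun _ => 0) :=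
  ⟨contDiff_const, HasCompactSupport.zero, CC.zero.supp⟩

/-- the submodule of smooth functions with compact support in `Ω` -/
def csSub {n : ℕ} (Ω : Set (E n)) : Submodule ℝ (E n → ℝ) where
  carrier := {φ | CS Ω φ}
  add_mem' := fun h h' => CS.add h h'
  zero_mem' := CS.zero
  smul_mem' := fun c _ h => h.const_mul c

theorem exists_repr_on {n : ℕ} {B : Set (E n)} (hB : MeasurableSet B) (L : csSub B →ₗ[ℝ] ℝ) {A : ℝ}
    (hA : 0 ≤ A) (h : ∀ φ : csSub B, |L φ| ≤ A * √(∫ y, (φ : E n → ℝ) y ^ 2)) :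
    ∃ k : E n → ℝ, MemLp k 2 (volume : Measure (E n)) ∧ (∀ y ∉ B, k y = 0) ∧
      (∫ y, k y ^ 2 ≤ A ^ 2) ∧ ∀ φ : csSub B, L φ = ∫ y, (φ : E n → ℝ) y * k y := by
  classical
  have hmem : ∀ φ : csSub B, MemLp (φ : E n → ℝ) 2 (volume.restrict B) := fun φ =>
    (φ.2.cc.memLp 2).restrict B
  let T : csSub B →ₗ[ℝ] Lp ℝ 2 (volume.restrict B) :=
    { toFun := fun φ => (hmem φ).toLp (φ : E n → ℝ)
      map_add' := by
        intro a b
        rw [← MemLp.toLp_add]
        rfl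
      map_smul' := by
        intro c a
        rw [RingHom.id_apply, ← MemLp.toLp_const_smul]
        rfl }
  have nrm : ∀ {μ : Measure (E n)} {f : E n → ℝ} (hf : MemLp f 2 μ),
      ‖hf.toLp f‖ = √(∫ x, f x ^ 2 ∂μ) := by
    intro μ f hf
    have h1 : ‖hf.toLp f‖ ^ 2 = ∫ x, f x ^ 2 ∂μ := by
      rw [← real_inner_self_eq_norm_sq, L2.inner_def]
      apply integral_congr_ae
      filter_upwards [hf.coeFn_toLp] with x hx
      rw [hx]; simp [pow_two]
    rw [← h1, Real.sqrt_sq (norm_nonneg _)]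
  have hTn : ∀ φ : csSub B, ‖T φ‖ = √(∫ y, (φ : E n → ℝ) y ^ 2) := by
    intro φ
    have h1 : ‖T φ‖ = √(∫ y, (φ : E n → ℝ) y ^ 2 ∂(volume.restrict B)) := nrm (hmem φ)
    rw [h1]
    congr 1
    rw [setIntegral_eq_integral_of_forall_compl_eq_zero]
    intro y hy
    have : (φ : E n → ℝ) y = 0 := by
      by_contra h3
      exact hy (φ.2.supp (subset_tsupport _ h3))
    rw [this]; ring
  have hker : LinearMap.ker T ≤ LinearMap.ker L := by
    intro v hv
    rw [LinearMap.mem_ker] at hv ⊢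
    have := h v
    rw [← hTn v, hv, norm_zero, mul_zero] at this
    exact abs_nonpos_iff.1 this
  obtain ⟨L', hL'⟩ : ∃ L' : (LinearMap.range T) →ₗ[ℝ] ℝ, ∀ v, L' (T.rangeRestrict v) = L v := by
    refine ⟨(LinearMap.ker T).liftQ L hker ∘ₗ T.quotKerEquivRange.symm.toLinearMap, fun v => ?_⟩
    have : T.quotKerEquivRange.symm (T.rangeRestrict v) = (LinearMap.ker T).mkQ v := by
      rw [LinearEquiv.symm_apply_eq]
      apply Subtype.ext
      simp
    simp only [LinearMap.comp_apply, LinearEquiv.coe_coe]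
    rw [this]
    simp
  have hb : ∀ y : LinearMap.range T, ‖L' y‖ ≤ A * ‖y‖ := by
    rintro ⟨y, v, rfl⟩
    have e1 : (⟨T v, v, rfl⟩ : LinearMap.range T) = T.rangeRestrict v := rfl
    rw [e1, hL', Real.norm_eq_abs]
    refine (h v).trans (le_of_eq ?_)
    rw [← hTn v]
    rfl
  obtain ⟨g, hg, hgn⟩ := exists_extension_norm_eq (LinearMap.range T) (L'.mkContinuous A hb)
  set k₀ := (InnerProductSpace.toDual ℝ (Lp ℝ 2 (volume.restrict B))).symm g with hk₀
  have hk₀n : ‖k₀‖ ≤ A := by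
    rw [hk₀, LinearIsometryEquiv.norm_map, hgn]
    exact LinearMap.mkContinuous_norm_le _ hA _
  have hk₀L : ∀ v, L v = inner ℝ k₀ (T v) := by
    intro v
    rw [hk₀, InnerProductSpace.toDual_symm_apply]
    have := hg (T.rangeRestrict v)
    rw [LinearMap.mkContinuous_apply, hL'] at this
    exact this.symm
  have hkm : MemLp k₀ 2 (volume.restrict B) := Lp.memLp k₀
  refine ⟨B.indicator k₀, (memLp_indicator_iff_restrict hB).2 hkm, fun y hy => by simp [hy], ?_, ?_⟩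
  · have e1 : ∀ y, (B.indicator (k₀ : E n → ℝ) y) ^ 2 = B.indicator (fun y => k₀ y ^ 2) y := by
      intro y
      by_cases hy : y ∈ B <;> simp [hy]
    simp_rw [e1]
    rw [integral_indicator hB]
    have e2 := nrm hkm
    have e3 : hkm.toLp k₀ = k₀ := Lp.toLp_coeFn k₀ hkm
    rw [e3] at e2
    have e4 : ∫ x in B, k₀ x ^ 2 = ‖k₀‖ ^ 2 := by
      rw [e2, Real.sq_sqrt (integral_nonneg fun x => sq_nonneg _)]
    rw [e4]
    gcongr
  · intro φ
    rw [hk₀L]
    show inner ℝ k₀ ((hmem φ).toLp (φ : E n → ℝ)) = _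
    rw [L2.inner_def]
    have e1 : ∀ y, (φ : E n → ℝ) y * B.indicator k₀ y =
        B.indicator (fun y => (φ : E n → ℝ) y * k₀ y) y := by
      intro y
      by_cases hy : y ∈ B <;> simp [hy]
    simp_rw [e1]
    rw [integral_indicator hB]
    apply integral_congr_ae
    filter_upwards [(hmem φ).coeFn_toLp] with x hx
    rw [hx]
    simp [mul_comm]

end Crest.Agent.R249.Lim41
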