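import Crest.Agent.R249.Lim2_621

/-!
# Row 249, part A2 (BP-A2 section 9): the pointwise inequality for approximate jets
-/

set_option autoImplicit false

namespace Crest.Agent.R249.Lim621

variable {E H : Type*} [NormedAddCommGroup E] [InnerProductSpace ℝ E]
  [NormedAddCommGroup H] [NormedSpace ℝ H]

/-- The robust certificate inequality (C1), (C2), (C3) of BP-A2. -/
def Cert (tr : H →L[ℝ] ℝ) (Sy : Submodule ℝ H) (F : ℝ → ℝ) (c0 : ℝ)
    (I Om R : Jet E H → ℝ) : Prop :=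
  ∀ (j : Jet E H) (m m' : ℝ), 0 < j.f → 0 < j.g → j.P ∈ Sy → j.Q ∈ Sy → 0 ≤ j.kap →
    tr j.P = F j.f + m → tr j.Q = F j.g + m' →
    ((m = 0 ∧ m' = 0) ∨ (j.kap = 0 ∧ j.f ^ 2 • j.p + j.g ^ 2 • j.q = 0 ∧ 0 ≤ m ∧ 0 ≤ m' ∧
      3 * j.f ^ 2 * m + 3 * j.g ^ 2 * m' ≤ max j.Ee 0 + c0)) →
    Om j ≤ I j + R j

theorem young3 {θ l Z : ℝ} (hθ : 0 < θ) (hl : 0 ≤ l) (hZ : 0 ≤ Z) :
    l * (Z * Real.sqrt Z) ≤ θ * Z ^ 2 + (θ ^ 3)⁻¹ * l ^ 4 := by
  have h := young4 hθ hl (Real.sqrt_nonneg Z)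
  have h1 : Real.sqrt Z ^ 3 = Z * Real.sqrt Z := by
    have : Real.sqrt Z ^ 3 = Real.sqrt Z ^ 2 * Real.sqrt Z := by ring
    rw [this, Real.sq_sqrt hZ]
  have h2 : Real.sqrt Z ^ 4 = Z ^ 2 := by
    have : Real.sqrt Z ^ 4 = (Real.sqrt Z ^ 2) ^ 2 := by ring
    rw [this, Real.sq_sqrt hZ]
  rwa [h1, h2] at h

/-- the bound for the three terms of `Lip` -/
theorem three_terms {K Z V l d ε θ e r r' w : ℝ} (hK : 1 ≤ K) (hZ : 0 ≤ Z) (hθ : 0 < θ)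
    (hθ1 : θ ≤ 1) (hε : 0 ≤ ε) (hεθ : ε ≤ θ)
    (hl : 0 ≤ l) (hd0 : 0 ≤ d) (he : 0 ≤ e) (hw : 0 ≤ w) (hwZ : w ≤ Z)
    (hV0 : 0 ≤ V) (hV : V ≤ K * Z)
    (hd : d ≤ K * (ε * w + l * Real.sqrt w + e + |r| + |r'|)) :
    ε * V ^ 2 + l * (V * Real.sqrt V) + d * V ≤ 8 * K ^ 2 * Er θ Z l e r r' := by
  have hK0 : 0 ≤ K := by linarith
  have hKZ : 0 ≤ K * Z := by positivity
  have hEr1 : θ * Z ^ 2 ≤ Er θ Z l e r r' := by
    unfold Er
    have : 0 ≤ (θ ^ 3)⁻¹ * (l ^ 4 + e ^ 2 + r ^ 2 + r' ^ 2) := by positivity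
    linarith
  have hEr0 : 0 ≤ Er θ Z l e r r' := le_trans (by positivity) hEr1
  -- first term
  have t1 : ε * V ^ 2 ≤ 2 * K ^ 2 * Er θ Z l e r r' := by
    calc ε * V ^ 2 ≤ (2 * θ) * (K * Z) ^ 2 := by
          apply mul_le_mul (by linarith) (pow_le_pow_left₀ hV0 hV 2) (by positivity) (by positivity)
      _ = 2 * K ^ 2 * (θ * Z ^ 2) := by ring
      _ ≤ _ := mul_le_mul_of_nonneg_left hEr1 (by positivity)
  -- second term
  have t2 : l * (V * Real.sqrt V) ≤ K ^ 2 * Er θ Z l e r r' := by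
    have s1 : Real.sqrt V ≤ K * Real.sqrt Z := by
      rw [Real.sqrt_le_left (by positivity)]
      rw [mul_pow, Real.sq_sqrt hZ]
      nlinarith
    have s2 : V * Real.sqrt V ≤ (K * Z) * (K * Real.sqrt Z) :=
      mul_le_mul hV s1 (Real.sqrt_nonneg _) hKZ
    calc l * (V * Real.sqrt V) ≤ l * ((K * Z) * (K * Real.sqrt Z)) :=
          mul_le_mul_of_nonneg_left s2 hl
      _ = K ^ 2 * (l * (Z * Real.sqrt Z)) := by ring
      _ ≤ K ^ 2 * (θ * Z ^ 2 + (θ ^ 3)⁻¹ * l ^ 4) :=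
          mul_le_mul_of_nonneg_left (young3 hθ hl hZ) (by positivity)
      _ ≤ _ := by
          apply mul_le_mul_of_nonneg_left _ (by positivity)
          unfold Er
          have : 0 ≤ (θ ^ 3)⁻¹ * (e ^ 2 + r ^ 2 + r' ^ 2) := by positivity
          linarith
  -- third term
  have t3 : d * V ≤ 5 * K ^ 2 * Er θ Z l e r r' := by
    have y1 := young3 hθ hl hZ
    have y2 := young2 hθ hθ1 he hZ
    have y3 := young2 hθ hθ1 (abs_nonneg r) hZ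
    have y4 := young2 hθ hθ1 (abs_nonneg r') hZ
    rw [sq_abs] at y3 y4
    have s1 : Real.sqrt w ≤ Real.sqrt Z := Real.sqrt_le_sqrt hwZ
    have s2 : (ε * w + l * Real.sqrt w + e + |r| + |r'|) * Z ≤
        5 * Er θ Z l e r r' := by
      have z1 : ε * w * Z ≤ θ * Z ^ 2 := by
        calc ε * w * Z ≤ θ * Z * Z := by
              apply mul_le_mul_of_nonneg_right _ hZ
              exact mul_le_mul hεθ hwZ hw hθ.le
          _ = _ := by ring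
      have z2 : l * Real.sqrt w * Z ≤ l * (Z * Real.sqrt Z) := by
        calc l * Real.sqrt w * Z = l * (Z * Real.sqrt w) := by ring
          _ ≤ _ := mul_le_mul_of_nonneg_left (mul_le_mul_of_nonneg_left s1 hZ) hl
      unfold Er
      have q1 : 0 ≤ (θ ^ 3)⁻¹ * l ^ 4 := by positivity
      have q2 : 0 ≤ (θ ^ 3)⁻¹ * e ^ 2 := by positivity
      have q3 : 0 ≤ (θ ^ 3)⁻¹ * r ^ 2 := by positivity
      have q4 : 0 ≤ (θ ^ 3)⁻¹ * r' ^ 2 := by positivity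
      have q5 : 0 ≤ θ * Z ^ 2 := by positivity
      linarith
    calc d * V ≤ (K * (ε * w + l * Real.sqrt w + e + |r| + |r'|)) * (K * Z) :=
          mul_le_mul hd hV hV0 (by positivity)
      _ = K ^ 2 * ((ε * w + l * Real.sqrt w + e + |r| + |r'|) * Z) := by ring
      _ ≤ K ^ 2 * (5 * Er θ Z l e r r') := mul_le_mul_of_nonneg_left s2 (by positivity)
      _ = _ := by ring
  linarith

/-- **The pointwise inequality.** -/
theorem pointwise (tr : H →L[ℝ] ℝ) (Sy : Submodule ℝ H) (one : H) (h1 : tr one = 1)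
    (hone : one ∈ Sy) (F : ℝ → ℝ) (b CF c0 CI CO CR : ℝ)
    (hb : 0 < b) (hCF : 0 ≤ CF) (hc0 : 0 ≤ c0)
    (hF : ∀ u v, b / 2 ≤ u → u ≤ 2 → b / 2 ≤ v → v ≤ 2 → |F u - F v| ≤ CF * |u - v|)
    (I Om R : Jet E H → ℝ) (hI : Lip (b / 2) CI I) (hO : Lip (b / 2) CO Om)
    (hR : Lip (b / 2) CR R) (hCI : 0 ≤ CI) (hCO : 0 ≤ CO) (hCR : 0 ≤ CR)
    (hC : Cert tr Sy F c0 I Om R) :
    ∃ K : ℝ, 0 < K ∧ ∀ (θ : ℝ), 0 < θ → θ ≤ 1 →
      ∀ (j : Jet E H) (m m' r r' e ε l : ℝ), b ≤ j.f → b ≤ j.g → j.P ∈ Sy → j.Q ∈ Sy →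
      0 ≤ ε → ε ≤ 1 / 2 → ε ≤ θ → -ε ≤ j.kap →
      tr j.P = F j.f + m + r → tr j.Q = F j.g + m' + r' →
      0 ≤ m → 0 ≤ m' → 0 ≤ e → 0 ≤ l →
      (ε < j.kap → m = 0 ∧ m' = 0) → (j.kap ≤ ε → ‖j.L‖ ≤ l) →
      (j.kap ≤ ε → 3 * j.f ^ 2 * m + 3 * j.g ^ 2 * m' ≤ max j.Ee 0 + c0 + e) →
      Om j ≤ I j + R j + K * Er θ (j.W + e + |r| + |r'|) l e r r' := by
  obtain ⟨K, hK0, hK⟩ := zone (E := E) tr one h1 F b CF c0 hb hCF hc0 hF
  obtain ⟨K', hK'⟩ : ∃ K', K' = K + 2 + ‖one‖ := ⟨_, rfl⟩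
  have hn0 := norm_nonneg one
  have hK'1 : 1 ≤ K' := by rw [hK']; linarith
  have hKK' : K ≤ K' := by rw [hK']; linarith
  refine ⟨8 * K' ^ 2 * (CI + CO + CR) + 1, by positivity, ?_⟩
  intro θ hθ hθ1 j m m' r r' e ε l hbf hbg hPS hQS hε hε1 hεθ hk htP htQ hm hm' he hl hoff hL hS
  have hW0 := j.W_nonneg
  have hW1 := j.one_le_W
  obtain ⟨Z, hZ⟩ : ∃ Z, Z = j.W + e + |r| + |r'| := ⟨_, rfl⟩
  have har := abs_nonneg r
  have har' := abs_nonneg r'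
  have hZ0 : 0 ≤ Z := by rw [hZ]; positivity
  have hWZ : j.W ≤ Z := by rw [hZ]; linarith
  rw [← hZ]
  have hEr0 : 0 ≤ Er θ Z l e r r' := by unfold Er; positivity
  -- the common conclusion
  have concl : ∀ j' : Jet E H, j.f ≤ 2 → j.g ≤ 2 → b / 2 ≤ j'.f → j'.f ≤ 2 → b / 2 ≤ j'.g →
      j'.g ≤ 2 → Rel ε j j' → ‖j.p - j'.p‖ + ‖j.q - j'.q‖ ≤ l →
      ‖j.P - j'.P‖ + ‖j.Q - j'.Q‖ ≤ K' * (ε * j.W + l * Real.sqrt j.W + e + |r| + |r'|) →
      j.W + j'.W ≤ K' * Z → Om j' ≤ I j' + R j' →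
      Om j ≤ I j + R j + (8 * K' ^ 2 * (CI + CO + CR) + 1) * Er θ Z l e r r' := by
    intro j' hf2 hg2 hf'1 hf'2 hg'1 hg'2 hdf hdp hdP hWW hcert
    have hV0 : 0 ≤ j.W + j'.W := add_nonneg hW0 j'.W_nonneg
    have h3 := three_terms hK'1 hZ0 hθ hθ1 hε hεθ hl (by positivity) he hW0
      hWZ hV0 hWW hdP
    have hp2 : (‖j.p - j'.p‖ + ‖j.q - j'.q‖) * ((j.W + j'.W) * Real.sqrt (j.W + j'.W)) ≤
        l * ((j.W + j'.W) * Real.sqrt (j.W + j'.W)) :=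
      mul_le_mul_of_nonneg_right hdp (by positivity)
    have hX : Mod ε j j' ≤ 8 * K' ^ 2 * Er θ Z l e r r' := by
      unfold Mod
      linarith
    have bf : b / 2 ≤ j.f := by linarith
    have bg : b / 2 ≤ j.g := by linarith
    have eI := (hI ε j j' hε hε1 bf hf2 bg hg2 hf'1 hf'2 hg'1 hg'2 hdf).trans
      (mul_le_mul_of_nonneg_left hX hCI)
    have eO := (hO ε j j' hε hε1 bf hf2 bg hg2 hf'1 hf'2 hg'1 hg'2 hdf).trans
      (mul_le_mul_of_nonneg_left hX hCO)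
    have eR := (hR ε j j' hε hε1 bf hf2 bg hg2 hf'1 hf'2 hg'1 hg'2 hdf).trans
      (mul_le_mul_of_nonneg_left hX hCR)
    have eI' := (abs_le.mp eI).1
    have eO' := (abs_le.mp eO).2
    have eR' := (abs_le.mp eR).1
    linarith
  rcases le_or_gt j.kap ε with hz | hz
  · -- contact zone
    obtain ⟨j', m1, m1', a1, a2, a3, a4, a5, a6, a7, a8, a9, a10, a11, a12, a13, ⟨α, α', a14, a15⟩,
      a16, a17, a18, a19⟩ := hK j m m' r r' e ε hbf hbg hε hε1 (abs_le.mpr ⟨hk, hz⟩) htP htQ hm hm'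
        he (hS hz)
    have hc := hC j' m1 m1' (by linarith) (by linarith)
      (by rw [a14]; exact Sy.add_mem hPS (Sy.smul_mem _ hone))
      (by rw [a15]; exact Sy.add_mem hQS (Sy.smul_mem _ hone)) a7.ge a9 a10
      (Or.inr ⟨a7, a8, a11, a12, a13⟩)
    refine concl j' a5 a6 a1 a2 a3 a4 a16 (a17.trans (hL hz)) ?_ ?_ hc
    · refine a18.trans ?_
      have hLl := hL hz
      have hs0 := Real.sqrt_nonneg j.W
      have h5 : ‖j.L‖ * Real.sqrt j.W ≤ l * Real.sqrt j.W := mul_le_mul_of_nonneg_right hLl hs0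
      apply mul_le_mul hKK' (by linarith) (by positivity) (by linarith)
    · refine a19.trans ?_
      rw [hZ]
      apply mul_le_mul_of_nonneg_right hKK' (by positivity)
  · -- off the contact zone
    obtain ⟨hm0, hm0'⟩ := hoff hz
    have hkap0 : 0 < j.kap := lt_of_le_of_lt hε hz
    have hf0 : 0 < j.f := lt_of_lt_of_le hb hbf
    have hg0 : 0 < j.g := lt_of_lt_of_le hb hbg
    have hs2 : j.f ^ 3 + j.g ^ 3 ≤ 5 / 2 := by
      have : 0 < 2 - (j.f ^ 3 + j.g ^ 3) := hkap0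
      linarith
    have hf : j.f ≤ 3 / 2 := f_le hf0 hg0 hs2
    have hg : j.g ≤ 3 / 2 := f_le hg0 hf0 (by rw [add_comm]; exact hs2)
    have hc := hC ⟨j.f, j.g, j.p, j.q, j.P + (-r) • one, j.Q + (-r') • one⟩ 0 0 hf0 hg0
      (Sy.add_mem hPS (Sy.smul_mem _ hone)) (Sy.add_mem hQS (Sy.smul_mem _ hone)) hkap0.le
      (by simp only [map_add, map_smul, h1, htP, hm0, smul_eq_mul]; ring)
      (by simp only [map_add, map_smul, h1, htQ, hm0', smul_eq_mul]; ring)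
      (Or.inl ⟨rfl, rfl⟩)
    have hPn : ‖j.P - (j.P + (-r) • one)‖ = |r| * ‖one‖ := by
      rw [sub_add_cancel_left, norm_neg, norm_smul, Real.norm_eq_abs, abs_neg]
    have hQn : ‖j.Q - (j.Q + (-r') • one)‖ = |r'| * ‖one‖ := by
      rw [sub_add_cancel_left, norm_neg, norm_smul, Real.norm_eq_abs, abs_neg]
    refine concl _ (by linarith) (by linarith) (by show b / 2 ≤ j.f; linarith)
      (by show j.f ≤ 2; linarith) (by show b / 2 ≤ j.g; linarith) (by show j.g ≤ 2; linarith)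
      ?_ ?_ ?_ ?_ hc
    · refine ⟨1, one_pos, by simpa using hε, (one_mul _).symm, (one_mul _).symm, ?_⟩
      rw [one_smul]
      rfl
    · show ‖j.p - j.p‖ + ‖j.q - j.q‖ ≤ l
      simp only [sub_self, norm_zero, add_zero]
      exact hl
    · show ‖j.P - (j.P + (-r) • one)‖ + ‖j.Q - (j.Q + (-r') • one)‖ ≤ _
      rw [hPn, hQn, ← add_mul]
      have hs0 := Real.sqrt_nonneg j.W
      have hnK : ‖one‖ ≤ K' := by rw [hK']; linarith
      have h5 : 0 ≤ ε * j.W := by positivity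
      have h6 : 0 ≤ l * Real.sqrt j.W := by positivity
      calc (|r| + |r'|) * ‖one‖ ≤ (|r| + |r'|) * K' := mul_le_mul_of_nonneg_left hnK (by positivity)
        _ = K' * (|r| + |r'|) := by ring
        _ ≤ _ := mul_le_mul_of_nonneg_left (by linarith) (by linarith)
    · show j.W + (1 + ‖j.p‖ ^ 2 + ‖j.q‖ ^ 2 + ‖j.P + (-r) • one‖ + ‖j.Q + (-r') • one‖) ≤ K' * Z
      have hP' : ‖j.P + (-r) • one‖ ≤ ‖j.P‖ + |r| * ‖one‖ := by
        refine (norm_add_le _ _).trans ?_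
        rw [norm_smul, Real.norm_eq_abs, abs_neg]
      have hQ' : ‖j.Q + (-r') • one‖ ≤ ‖j.Q‖ + |r'| * ‖one‖ := by
        refine (norm_add_le _ _).trans ?_
        rw [norm_smul, Real.norm_eq_abs, abs_neg]
      have hWd : j.W = 1 + ‖j.p‖ ^ 2 + ‖j.q‖ ^ 2 + ‖j.P‖ + ‖j.Q‖ := rfl
      have h7 : (|r| + |r'|) * ‖one‖ ≤ Z * ‖one‖ := by
        apply mul_le_mul_of_nonneg_right _ hn0
        rw [hZ]; linarith
      have h8 : K' * Z = K * Z + 2 * Z + Z * ‖one‖ := by rw [hK']; ring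
      have h9 : 0 ≤ K * Z := by positivity
      rw [h8]
      linarith

end Crest.Agent.R249.Lim621
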