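import Mathlib

/-! R249 / D3-LIM (helper41): copy of `R202/EllBasic`, `R202/EllDQ` (test functions, weak derivatives,
`L²` pairing, convolution, extension of weak equations to compactly supported `H¹` functions) in a
separate namespace: the original files cannot be imported together with `R202/Ell1`. -/

set_option autoImplicit false
open MeasureTheory Filter Topology Set
open scoped ENNReal NNReal ContDiff RealInnerProductSpace Convolution

namespace Crest.Agent.R249.Lim41

variable {V : Type*} [NormedAddCommGroup V] [InnerProductSpace ℝ V] [FiniteDimensional ℝ V]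
  [MeasurableSpace V] [BorelSpace V]

/-- smooth compactly supported functions -/
def Test (φ : V → ℝ) : Prop := ContDiff ℝ ∞ φ ∧ HasCompactSupport φ

/-- directional derivative -/
noncomputable def dd (e : V) (φ : V → ℝ) (x : V) : ℝ := fderiv ℝ φ x e

/-- `v` is a weak derivative of `u` in direction `e` (on the whole space) -/
def WD (e : V) (u v : V → ℝ) : Prop :=
  ∀ φ : V → ℝ, Test φ → ∫ x, u x * dd e φ x = - ∫ x, v x * φ x

/-- the L² norm -/
noncomputable def nn (f : V → ℝ) : ℝ := Real.sqrt (∫ x, f x ^ 2)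

omit [MeasurableSpace V] [BorelSpace V] in
omit [FiniteDimensional ℝ V] in
theorem Test.dd {φ : V → ℝ} (h : Test φ) (e : V) : Test (_root_.Crest.Agent.R249.Lim41.dd e φ) := by
  refine ⟨?_, ?_⟩
  · have := h.1.fderiv_right (m := ∞) (by simp)
    exact this.clm_apply contDiff_const
  · have h1 := h.2.fderiv (𝕜 := ℝ)
    have : _root_.Crest.Agent.R249.Lim41.dd e φ = (fun L : V →L[ℝ] ℝ => L e) ∘ (fderiv ℝ φ) := rfl
    rw [this]
    exact h1.comp_left (by simp)

omit [MeasurableSpace V] [BorelSpace V] in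
omit [FiniteDimensional ℝ V] in
theorem Test.continuous {φ : V → ℝ} (h : Test φ) : Continuous φ := h.1.continuous

theorem Test.memLp {φ : V → ℝ} (h : Test φ) (p : ℝ≥0∞) : MemLp φ p (volume : Measure V) :=
  h.continuous.memLp_of_hasCompactSupport h.2

theorem Test.integrable {φ : V → ℝ} (h : Test φ) : Integrable φ (volume : Measure V) :=
  h.continuous.integrable_of_hasCompactSupport h.2

omit [MeasurableSpace V] [BorelSpace V] [FiniteDimensional ℝ V] in
theorem Test.add {φ ψ : V → ℝ} (h : Test φ) (h' : Test ψ) : Test (fun x => φ x + ψ x) :=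
  ⟨h.1.add h'.1, h.2.add h'.2⟩

omit [MeasurableSpace V] [BorelSpace V] [FiniteDimensional ℝ V] in
theorem Test.const_mul {φ : V → ℝ} (h : Test φ) (c : ℝ) : Test (fun x => c * φ x) :=
  ⟨contDiff_const.mul h.1, h.2.mul_left⟩

omit [MeasurableSpace V] [BorelSpace V] [FiniteDimensional ℝ V] in
theorem Test.smooth_mul {φ a : V → ℝ} (h : Test φ) (ha : ContDiff ℝ ∞ a) :
    Test (fun x => a x * φ x) :=
  ⟨ha.mul h.1, h.2.mul_left⟩

omit [MeasurableSpace V] [BorelSpace V] [FiniteDimensional ℝ V] in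
theorem Test.comp_add {φ : V → ℝ} (h : Test φ) (a : V) : Test (fun x => φ (x + a)) := by
  refine ⟨h.1.comp (contDiff_id.add contDiff_const), ?_⟩
  exact h.2.comp_homeomorph (Homeomorph.addRight a)

omit [MeasurableSpace V] [BorelSpace V] [FiniteDimensional ℝ V] in
theorem dd_comp_add (e : V) (φ : V → ℝ) (a : V) (x : V) :
    dd e (fun x => φ (x + a)) x = dd e φ (x + a) := by
  unfold dd
  rw [fderiv_comp_add_right]

omit [MeasurableSpace V] [BorelSpace V] [FiniteDimensional ℝ V] in
theorem dd_mul (e : V) {f g : V → ℝ} (hf : Differentiable ℝ f) (hg : Differentiable ℝ g) (x : V) :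
    dd e (fun x => f x * g x) x = dd e f x * g x + f x * dd e g x := by
  unfold dd
  rw [fderiv_fun_mul (hf x) (hg x)]
  simp; ring

/-! ### L² pairing -/

theorem nn_eq_norm {f : V → ℝ} (hf : MemLp f 2 (volume : Measure V)) : nn f = ‖hf.toLp f‖ := by
  have h1 : ‖hf.toLp f‖ ^ 2 = ∫ x, f x ^ 2 := by
    rw [← real_inner_self_eq_norm_sq, L2.inner_def]
    apply integral_congr_ae
    filter_upwards [hf.coeFn_toLp] with x hx
    rw [hx]; simp [pow_two]
  rw [nn, ← h1, Real.sqrt_sq (norm_nonneg _)]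

theorem nn_nonneg (f : V → ℝ) : 0 ≤ nn f := Real.sqrt_nonneg _

theorem nn_sq {f : V → ℝ} : nn f ^ 2 = ∫ x, f x ^ 2 := by
  rw [nn, Real.sq_sqrt (integral_nonneg fun x => sq_nonneg _)]

theorem integral_mul_eq_inner {f g : V → ℝ} (hf : MemLp f 2 (volume : Measure V))
    (hg : MemLp g 2 (volume : Measure V)) :
    ∫ x, f x * g x = ⟪hf.toLp f, hg.toLp g⟫ := by
  rw [L2.inner_def]
  apply integral_congr_ae
  filter_upwards [hf.coeFn_toLp, hg.coeFn_toLp] with x hx hy
  rw [hx, hy]; simp [mul_comm]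

theorem abs_integral_mul_le {f g : V → ℝ} (hf : MemLp f 2 (volume : Measure V))
    (hg : MemLp g 2 (volume : Measure V)) : |∫ x, f x * g x| ≤ nn f * nn g := by
  rw [integral_mul_eq_inner hf hg, nn_eq_norm hf, nn_eq_norm hg]
  exact abs_real_inner_le_norm _ _

theorem nn_add_le {f g : V → ℝ} (hf : MemLp f 2 (volume : Measure V))
    (hg : MemLp g 2 (volume : Measure V)) : nn (fun x => f x + g x) ≤ nn f + nn g := by
  have h := hf.add hg
  have h0 : nn (fun x => f x + g x) = nn (f + g) := rfl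
  rw [h0, nn_eq_norm h, nn_eq_norm hf, nn_eq_norm hg, MemLp.toLp_add]
  exact norm_add_le _ _

theorem nn_const_mul (c : ℝ) (f : V → ℝ) : nn (fun x => c * f x) = |c| * nn f := by
  unfold nn
  simp_rw [mul_pow]
  rw [integral_const_mul, Real.sqrt_mul (sq_nonneg c), Real.sqrt_sq_eq_abs]

theorem nn_comp_add (f : V → ℝ) (a : V) : nn (fun x => f (x + a)) = nn f := by
  unfold nn
  rw [integral_add_right_eq_self (fun x => f x ^ 2) a]

theorem memLp_comp_add {f : V → ℝ} {p : ℝ≥0∞} (hf : MemLp f p (volume : Measure V)) (a : V) :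
    MemLp (fun x => f (x + a)) p (volume : Measure V) :=
  hf.comp_measurePreserving (measurePreserving_add_right volume a)

theorem integrable_mul {f g : V → ℝ} (hf : MemLp f 2 (volume : Measure V))
    (hg : MemLp g 2 (volume : Measure V)) : Integrable (fun x => f x * g x) volume :=
  hf.integrable_mul hg

/-- bounded times L² -/
theorem nn_bdd_mul_le {a f : V → ℝ} {C : ℝ} (hC : 0 ≤ C) (ha : ∀ x, |a x| ≤ C)
    (hf : MemLp f 2 (volume : Measure V)) : nn (fun x => a x * f x) ≤ C * nn f := by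
  unfold nn
  have h0 : C * Real.sqrt (∫ x, f x ^ 2) = Real.sqrt (∫ x, C ^ 2 * f x ^ 2) := by
    rw [integral_const_mul, Real.sqrt_mul (sq_nonneg C), Real.sqrt_sq hC]
  rw [h0]
  apply Real.sqrt_le_sqrt
  apply integral_mono_of_nonneg
  · exact Eventually.of_forall fun x => sq_nonneg _
  · exact (hf.integrable_sq).const_mul _
  · refine Eventually.of_forall fun x => ?_
    simp only [mul_pow]
    apply mul_le_mul_of_nonneg_right _ (sq_nonneg _)
    rw [← sq_abs]
    exact pow_le_pow_left₀ (abs_nonneg _) (ha x) 2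

theorem memLp_bdd_mul {a f : V → ℝ} {C : ℝ} (ha : ∀ x, |a x| ≤ C) (hac : Continuous a)
    (hf : MemLp f 2 (volume : Measure V)) : MemLp (fun x => a x * f x) 2 (volume : Measure V) := by
  refine MemLp.of_le_mul (c := C) hf (hac.aestronglyMeasurable.mul hf.1) ?_
  refine Eventually.of_forall fun x => ?_
  rw [norm_mul, Real.norm_eq_abs]
  exact mul_le_mul_of_nonneg_right (ha x) (norm_nonneg _)

/-! ### duality with test functions -/

theorem nn_le_of_test {g : V → ℝ} (hg : MemLp g 2 (volume : Measure V)) {M : ℝ} (hM : 0 ≤ M)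
    (h : ∀ φ : V → ℝ, Test φ → |∫ x, g x * φ x| ≤ M * nn φ) : nn g ≤ M := by
  -- |<g, f>| ≤ M ‖f‖ for all f in L², by density
  have key : ∀ f : Lp ℝ 2 (volume : Measure V), |⟪hg.toLp g, f⟫| ≤ M * ‖f‖ := by
    intro f
    have hd := Lp.dense_hasCompactSupport_contDiff (F := ℝ) (E := V) (μ := volume) (p := 2)
      (by norm_num)
    have hcl : IsClosed {f : Lp ℝ 2 (volume : Measure V) | |⟪hg.toLp g, f⟫| ≤ M * ‖f‖} :=
      isClosed_le (by fun_prop) (by fun_prop)
    have hsub : {f : Lp ℝ 2 (volume : Measure V) | ∃ (g : V → ℝ), f =ᵐ[volume] g ∧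
        HasCompactSupport g ∧ ContDiff ℝ ∞ g} ⊆
        {f : Lp ℝ 2 (volume : Measure V) | |⟪hg.toLp g, f⟫| ≤ M * ‖f‖} := by
      rintro f ⟨φ, hφ, hφc, hφs⟩
      have hT : Test φ := ⟨hφs, hφc⟩
      have hm := hT.memLp (2 : ℝ≥0∞)
      have : f = hm.toLp φ := by
        apply Lp.ext
        exact hφ.trans hm.coeFn_toLp.symm
      have h1 := h φ hT
      rw [integral_mul_eq_inner hg hm, nn_eq_norm hm, ← this] at h1
      exact h1
    have := closure_minimal hsub hcl (hd f)
    exact this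
  have h2 := key (hg.toLp g)
  rw [real_inner_self_eq_norm_sq, abs_of_nonneg (sq_nonneg _), pow_two] at h2
  rw [nn_eq_norm hg]
  by_contra hlt
  push Not at hlt
  have h3 : 0 < ‖hg.toLp g‖ := lt_of_le_of_lt hM hlt
  exact absurd (le_of_mul_le_mul_right h2 h3) (not_le.mpr hlt)

/-- The submodule of test functions. -/
def testSub (V : Type*) [NormedAddCommGroup V] [InnerProductSpace ℝ V] : Submodule ℝ (V → ℝ) where
  carrier := {φ | Test φ}
  add_mem' := fun ha hb => Test.add ha hb
  zero_mem' := ⟨contDiff_const, HasCompactSupport.zero⟩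
  smul_mem' := fun c _ h => h.const_mul c

/-- Riesz representation for functionals on test functions bounded in L². -/
theorem exists_repr (Λ : testSub V →ₗ[ℝ] ℝ) {C : ℝ} (hC : 0 ≤ C)
    (h : ∀ φ : testSub V, |Λ φ| ≤ C * nn (φ : V → ℝ)) :
    ∃ v : V → ℝ, MemLp v 2 (volume : Measure V) ∧
      ∀ φ : testSub V, Λ φ = ∫ x, v x * (φ : V → ℝ) x := by
  classical
  let ι : testSub V →ₗ[ℝ] Lp ℝ 2 (volume : Measure V) :=
    { toFun := fun φ => (Test.memLp φ.2 (2 : ℝ≥0∞)).toLp (φ : V → ℝ)
      map_add' := by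
        intro a b
        rw [← MemLp.toLp_add]
        rfl
      map_smul' := by
        intro c a
        rw [RingHom.id_apply, ← MemLp.toLp_const_smul]
        rfl }
  have hι : ∀ φ : testSub V, ‖ι φ‖ = nn (φ : V → ℝ) := fun φ =>
    (nn_eq_norm (Test.memLp φ.2 (2 : ℝ≥0∞))).symm
  have hker : LinearMap.ker ι ≤ LinearMap.ker Λ := by
    intro φ hφ
    rw [LinearMap.mem_ker] at hφ ⊢
    have h1 := h φ
    rw [← hι φ, hφ, norm_zero, mul_zero] at h1
    exact abs_eq_zero.mp (le_antisymm h1 (abs_nonneg _))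
  -- factor through the range
  obtain ⟨g, hg⟩ : ∃ g : LinearMap.range ι →ₗ[ℝ] ℝ, ∀ φ, g (ι.rangeRestrict φ) = Λ φ := by
    refine ⟨(LinearMap.ker ι).liftQ Λ hker ∘ₗ (ι.quotKerEquivRange.symm : _ →ₗ[ℝ] _), ?_⟩
    intro φ
    simp only [LinearMap.comp_apply]
    have : (ι.quotKerEquivRange.symm : _ →ₗ[ℝ] _) (ι.rangeRestrict φ) =
        (LinearMap.ker ι).mkQ φ := by
      simp only [LinearEquiv.coe_coe]
      rw [LinearEquiv.symm_apply_eq]
      rfl
    rw [this]
    simp
  have hgb : ∀ y : LinearMap.range ι, ‖g y‖ ≤ C * ‖y‖ := by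
    rintro ⟨y, φ, rfl⟩
    have := hg φ
    have h2 : g ⟨ι φ, ⟨φ, rfl⟩⟩ = Λ φ := this
    rw [h2, Real.norm_eq_abs]
    have h3 : ‖(⟨ι φ, ⟨φ, rfl⟩⟩ : LinearMap.range ι)‖ = nn (φ : V → ℝ) := hι φ
    rw [h3]
    exact h φ
  let G : StrongDual ℝ (LinearMap.range ι) := g.mkContinuous C hgb
  obtain ⟨G', hG', -⟩ := exists_extension_norm_eq (LinearMap.range ι) G
  let v' := (InnerProductSpace.toDual ℝ (Lp ℝ 2 (volume : Measure V))).symm G'
  refine ⟨v', Lp.memLp v', ?_⟩
  intro φ
  have h4 : G' (ι φ) = Λ φ := by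
    have := hG' ⟨ι φ, ⟨φ, rfl⟩⟩
    rw [this]
    exact hg φ
  have h5 : ⟪v', ι φ⟫ = Λ φ := by
    rw [← h4]
    exact InnerProductSpace.toDual_symm_apply
  rw [← h5]
  have hm := Test.memLp φ.2 (2 : ℝ≥0∞)
  have h6 := integral_mul_eq_inner (Lp.memLp v') hm
  rw [h6]
  congr 1
  exact (Lp.toLp_coeFn v' (Lp.memLp v')).symm


/-- convolution of `u` with a test function -/
noncomputable def cv (u ρ : V → ℝ) (y : V) : ℝ := ∫ x, u x * ρ (y - x)

theorem cv_eq (u ρ : V → ℝ) : cv u ρ = (u ⋆[ContinuousLinearMap.mul ℝ ℝ, volume] ρ) := by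
  ext y; rfl

theorem contDiff_cv {u ρ : V → ℝ} (hu : LocallyIntegrable u volume) (hρ : Test ρ) :
    ContDiff ℝ ∞ (cv u ρ) := by
  rw [cv_eq]
  exact hρ.2.contDiff_convolution_right _ hu hρ.1

theorem dd_cv {u ρ : V → ℝ} (hu : LocallyIntegrable u volume) (hρ : Test ρ) (e y : V) :
    dd e (cv u ρ) y = cv u (dd e ρ) y := by
  unfold dd
  rw [cv_eq, (hρ.2.hasFDerivAt_convolution_right _ hu (hρ.1.of_le (by simp)) y).fderiv,
    convolution_precompR_apply _ hu (hρ.2.fderiv (𝕜 := ℝ)) (hρ.1.continuous_fderiv (by simp))]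
  rfl

omit [MeasurableSpace V] [BorelSpace V] [FiniteDimensional ℝ V] in
theorem Test.reflect {φ : V → ℝ} (h : Test φ) (a : V) : Test (fun x => φ (a - x)) := by
  refine ⟨h.1.comp (contDiff_const.sub contDiff_id), ?_⟩
  exact h.2.comp_homeomorph (Homeomorph.subLeft a)

omit [MeasurableSpace V] [BorelSpace V] [FiniteDimensional ℝ V] in
theorem dd_reflect {φ : V → ℝ} (h : Test φ) (e a x : V) :
    dd e (fun x => φ (a - x)) x = - dd e φ (a - x) := by
  unfold dd
  have h1 : HasFDerivAt φ (fderiv ℝ φ (a - x)) (a - x) :=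
    (h.1.differentiable (by simp) (a - x)).hasFDerivAt
  have h2 : HasFDerivAt (fun x : V => a - x) (-(ContinuousLinearMap.id ℝ V)) x := by
    have h0 := (hasFDerivAt_id (𝕜 := ℝ) x).const_sub a
    exact h0
  have h3 := h1.comp x h2
  have h4 : fderiv ℝ (fun x => φ (a - x)) x =
    (fderiv ℝ φ (a - x)).comp (-(ContinuousLinearMap.id ℝ V)) := h3.fderiv
  rw [h4]
  simp

theorem dd_cv_WD {u v ρ : V → ℝ} (hu : LocallyIntegrable u volume) (hρ : Test ρ) {e : V}
    (h : WD e u v) (y : V) : dd e (cv u ρ) y = cv v ρ y := by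
  rw [dd_cv hu hρ]
  have h1 := h _ (hρ.reflect y)
  simp_rw [dd_reflect hρ] at h1
  simp only [mul_neg, integral_neg, neg_inj] at h1
  exact h1

theorem hasCompactSupport_cv {u ρ : V → ℝ} (hu : HasCompactSupport u) (hρ : HasCompactSupport ρ) :
    HasCompactSupport (cv u ρ) := by
  rw [cv_eq]
  exact HasCompactSupport.convolution _ hu hρ

/-- The pairing of `u` with a translated test function is differentiable. -/
theorem hasDerivAt_pair {u φ : V → ℝ} (hu : LocallyIntegrable u volume) (hφ : Test φ) (e : V)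
    (s : ℝ) : HasDerivAt (fun s : ℝ => ∫ x, u x * φ (x + s • e))
      (∫ x, u x * dd e φ (x + s • e)) s := by
  -- F s = cv u φˇ (-(s e))
  set ρ : V → ℝ := fun x => φ (0 - x) with hρdef
  have hρ : Test ρ := hφ.reflect 0
  have hF : (fun s : ℝ => ∫ x, u x * φ (x + s • e)) = fun s : ℝ => cv u ρ (-(s • e)) := by
    ext s
    unfold cv
    congr 1; ext x
    simp only [hρdef]
    congr 2
    abel
  rw [hF]
  have h1 : HasFDerivAt (cv u ρ) (fderiv ℝ (cv u ρ) (-(s • e))) (-(s • e)) :=
    ((contDiff_cv hu hρ).differentiable (by simp) _).hasFDerivAt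
  have h2 : HasDerivAt (fun s : ℝ => -(s • e)) (-e) s := by
    have h0 := ((hasDerivAt_id s).smul_const e).fun_neg
    simpa using h0
  have h3 := h1.comp_hasDerivAt s h2
  have h4 : fderiv ℝ (cv u ρ) (-(s • e)) (-e) = ∫ x, u x * dd e φ (x + s • e) := by
    rw [map_neg]
    have := dd_cv hu hρ e (-(s • e))
    unfold dd at this
    rw [this]
    unfold cv
    rw [← integral_neg]
    congr 1; ext x
    have h5 := dd_reflect hφ e 0 (-(s • e) - x)
    have h6 : (fderiv ℝ ρ (-(s • e) - x)) e = dd e ρ (-(s • e) - x) := rfl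
    show -(u x * (fderiv ℝ ρ (-(s • e) - x)) e) = _
    rw [h6, hρdef, h5]
    have : (0 : V) - (-(s • e) - x) = x + s • e := by abel
    rw [this]
    ring
  rw [← h4]
  exact h3

theorem integral_shift (f g : V → ℝ) (a : V) :
    ∫ x, f (x + a) * g x = ∫ x, f x * g (x - a) := by
  have := integral_sub_right_eq_self (μ := (volume : Measure V)) (fun x => f (x + a) * g x) a
  rw [← this]
  simp

/-- pairing of the difference with a test function -/
theorem pair_diff {ψ φ : V → ℝ} (hψ : MemLp ψ 2 (volume : Measure V)) (hφ : Test φ) (e : V)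
    (h : ℝ) : ∫ x, (ψ (x + h • e) - ψ x) * φ x =
      (∫ x, ψ x * φ (x + (-h) • e)) - ∫ x, ψ x * φ (x + (0 : ℝ) • e) := by
  have h1 : Integrable (fun x => ψ (x + h • e) * φ x) volume :=
    (memLp_comp_add hψ _).integrable_mul (hφ.memLp 2)
  have h2 : Integrable (fun x => ψ x * φ x) volume := hψ.integrable_mul (hφ.memLp 2)
  simp_rw [sub_mul]
  rw [integral_sub h1 h2, integral_shift]
  simp [sub_eq_add_neg]

/-- **Difference quotient bound.** -/
theorem nn_diff_le {ψ v : V → ℝ} (hψ : MemLp ψ 2 (volume : Measure V))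
    (hv : MemLp v 2 (volume : Measure V)) {e : V} (hw : WD e ψ v) (h : ℝ) :
    nn (fun x => ψ (x + h • e) - ψ x) ≤ |h| * nn v := by
  apply nn_le_of_test ((memLp_comp_add hψ _).sub hψ) (by positivity [nn_nonneg v])
  intro φ hφ
  show |∫ x, (ψ (x + h • e) - ψ x) * φ x| ≤ _
  rw [pair_diff hψ hφ]
  have hloc : LocallyIntegrable ψ volume := hψ.locallyIntegrable (by norm_num)
  have hder : ∀ s : ℝ, HasDerivAt (fun s : ℝ => ∫ x, ψ x * φ (x + s • e))
      (- ∫ x, v x * φ (x + s • e)) s := by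
    intro s
    have h1 := hasDerivAt_pair hloc hφ e s
    have h2 := hw _ (hφ.comp_add (s • e))
    simp_rw [dd_comp_add] at h2
    rw [h2] at h1
    exact h1
  have hb : ∀ s : ℝ, ‖- ∫ x, v x * φ (x + s • e)‖ ≤ nn v * nn φ := by
    intro s
    rw [norm_neg, Real.norm_eq_abs]
    have := abs_integral_mul_le hv (memLp_comp_add (hφ.memLp 2) (s • e))
    rwa [nn_comp_add] at this
  have := Convex.norm_image_sub_le_of_norm_hasDerivWithin_le (s := univ) (x := 0) (y := -h)
    (fun s _ => (hder s).hasDerivWithinAt) (fun s _ => hb s) convex_univ (mem_univ _) (mem_univ _)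
  rw [Real.norm_eq_abs] at this
  refine this.trans (le_of_eq ?_)
  simp
  ring

/-- **Existence of the weak derivative from bounded difference quotients.** -/
theorem exists_WD_of_diff {ψ : V → ℝ} (hψ : MemLp ψ 2 (volume : Measure V)) (e : V) {C : ℝ}
    (hC : 0 ≤ C) (hb : ∀ h : ℝ, nn (fun x => ψ (x + h • e) - ψ x) ≤ |h| * C) :
    ∃ v : V → ℝ, MemLp v 2 (volume : Measure V) ∧ WD e ψ v := by
  have hloc : LocallyIntegrable ψ volume := hψ.locallyIntegrable (by norm_num)
  have hmul : ∀ φ : V → ℝ, Test φ → Integrable (fun x => ψ x * dd e φ x) volume := fun φ hφ =>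
    hψ.integrable_mul ((hφ.dd e).memLp 2)
  let Λ : testSub V →ₗ[ℝ] ℝ :=
    { toFun := fun φ => - ∫ x, ψ x * dd e (φ : V → ℝ) x
      map_add' := by
        intro a b
        rw [← neg_add, ← integral_add (hmul _ a.2) (hmul _ b.2)]
        congr 2; ext x
        have : dd e (((a + b : testSub V) : V → ℝ)) x = dd e (a : V → ℝ) x + dd e (b : V → ℝ) x := by
          unfold dd
          have := fderiv_add (𝕜 := ℝ) (a.2.1.differentiable (by simp) x)
            (b.2.1.differentiable (by simp) x)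
          have h2 : ((a + b : testSub V) : V → ℝ) = (a : V → ℝ) + (b : V → ℝ) := rfl
          rw [h2, this]; rfl
        rw [this]; ring
      map_smul' := by
        intro c a
        rw [RingHom.id_apply, smul_eq_mul, mul_neg, ← integral_const_mul]
        congr 2; ext x
        have : dd e (((c • a : testSub V) : V → ℝ)) x = c * dd e (a : V → ℝ) x := by
          unfold dd
          have := fderiv_const_smul (𝕜 := ℝ) (a.2.1.differentiable (by simp) x) c
          have h2 : ((c • a : testSub V) : V → ℝ) = c • (a : V → ℝ) := rfl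
          rw [h2, this]; rfl
        rw [this]; ring }
  obtain ⟨v, hv, hv'⟩ := exists_repr Λ hC (by
    rintro ⟨φ, hφ⟩
    show |-∫ x, ψ x * dd e φ x| ≤ C * nn φ
    rw [abs_neg]
    have h0 := hasDerivAt_pair hloc hφ e 0
    simp only [zero_smul, add_zero] at h0
    have := h0.hasFDerivAt.le_of_lip' (C := C * nn φ) (mul_nonneg hC (nn_nonneg _)) (by
      refine Eventually.of_forall fun s => ?_
      have h1 := pair_diff hψ hφ e (-s)
      simp only [neg_neg] at h1
      rw [← h1, Real.norm_eq_abs]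
      refine (abs_integral_mul_le ((memLp_comp_add hψ _).sub hψ) (hφ.memLp 2)).trans ?_
      have h2 := mul_le_mul_of_nonneg_right (hb (-s)) (nn_nonneg φ)
      refine h2.trans (le_of_eq ?_)
      rw [sub_zero, Real.norm_eq_abs, abs_neg]
      ring)
    simpa using this)
  refine ⟨v, hv, fun φ hφ => ?_⟩
  have := hv' ⟨φ, hφ⟩
  simp only [LinearMap.coe_mk, AddHom.coe_mk, Λ] at this
  rw [← this, neg_neg]

/-! ### extension of weak equations to compactly supported H¹ test functions -/

theorem continuous_pair_shift {G g : V → ℝ} (hG : MemLp G 2 (volume : Measure V))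
    (hg : MemLp g 2 (volume : Measure V)) : Continuous (fun y : V => ∫ x, G x * g (x - y)) := by
  have h1 : ∀ y : V, ∫ x, G x * g (x - y) =
      ⟪hG.toLp G, (DomAddAct.mk (-y)) +ᵥ (hg.toLp g)⟫ := by
    intro y
    rw [DomAddAct.mk_vadd_toLp, ← integral_mul_eq_inner]
    congr 1; ext x
    congr 2
    simp only [vadd_eq_add]
    abel
  simp_rw [h1]
  have : Fact ((2 : ℝ≥0∞) ≠ ⊤) := ⟨by norm_num⟩
  have hc : Continuous fun y : V => (DomAddAct.mk (-y)) +ᵥ (hg.toLp g) := by
    have h2 : Continuous fun y : V => DomAddAct.mk (-y) :=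
      DomAddAct.continuous_mk.comp continuous_neg
    exact h2.vadd continuous_const
  fun_prop

theorem integrable_tri {G g ρ : V → ℝ} (hG : MemLp G 2 (volume : Measure V))
    (hg : MemLp g 2 (volume : Measure V)) (hρ : Test ρ) :
    Integrable (fun p : V × V => G p.1 * (ρ p.2 * g (p.1 - p.2))) (volume.prod volume) := by
  have hm1 : AEStronglyMeasurable (fun p : V × V => ρ p.2 * g (p.1 - p.2))
      ((volume : Measure V).prod volume) := by
    have := AEStronglyMeasurable.convolution_integrand (ContinuousLinearMap.mul ℝ ℝ)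
      (μ := (volume : Measure V)) (ν := volume) hρ.continuous.aestronglyMeasurable hg.1
    exact this
  have hm : AEStronglyMeasurable (fun p : V × V => G p.1 * (ρ p.2 * g (p.1 - p.2)))
      ((volume : Measure V).prod volume) := hG.1.comp_fst.mul hm1
  have hi1 : Integrable (fun p : V × V => (G p.1 ^ 2) * ‖ρ p.2‖)
      ((volume : Measure V).prod volume) := hG.integrable_sq.mul_prod hρ.integrable.norm
  have hi2 : Integrable (fun p : V × V => ‖ρ p.2‖ * (g (p.1 - p.2)) ^ 2)
      ((volume : Measure V).prod volume) := by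
    have := Integrable.convolution_integrand (ContinuousLinearMap.mul ℝ ℝ)
      (μ := (volume : Measure V)) (ν := volume) hρ.integrable.norm hg.integrable_sq
    exact this
  refine (hi1.add hi2).mono' hm (Eventually.of_forall fun p => ?_)
  simp only [Pi.add_apply, norm_mul, Real.norm_eq_abs]
  have h1 : 0 ≤ |ρ p.2| := abs_nonneg _
  have h2 : |G p.1| * |g (p.1 - p.2)| ≤ G p.1 ^ 2 + g (p.1 - p.2) ^ 2 := by
    have e1 := sq_abs (G p.1)
    have e2 := sq_abs (g (p.1 - p.2))
    nlinarith [sq_nonneg (|G p.1| - |g (p.1 - p.2)|), abs_nonneg (G p.1),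
      abs_nonneg (g (p.1 - p.2))]
  nlinarith [mul_le_mul_of_nonneg_left h2 h1]

theorem fubini_cv {G g ρ : V → ℝ} (hG : MemLp G 2 (volume : Measure V))
    (hg : MemLp g 2 (volume : Measure V)) (hρ : Test ρ) :
    ∫ x, G x * cv g ρ x = ∫ y, ρ y * ∫ x, G x * g (x - y) := by
  have h1 : ∀ x, G x * cv g ρ x = ∫ y, G x * (ρ y * g (x - y)) := by
    intro x
    rw [integral_const_mul]
    congr 1
    unfold cv
    rw [← integral_sub_left_eq_self (fun t => g t * ρ (x - t)) volume x]
    congr 1; ext y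
    rw [sub_sub_cancel]; ring
  simp_rw [h1]
  rw [integral_integral_swap (integrable_tri hG hg hρ)]
  congr 1; ext y
  rw [← integral_const_mul]
  congr 1; ext x
  ring

theorem testExt {ι : Type*} [Fintype ι] (e : ι → V) (G : ι → V → ℝ) (f : V → ℝ)
    (hG : ∀ i, MemLp (G i) 2 (volume : Measure V)) (hf : MemLp f 2 (volume : Measure V))
    (h : ∀ φ : V → ℝ, Test φ → ∑ i, ∫ x, G i x * dd (e i) φ x = ∫ x, f x * φ x)
    (ψ : V → ℝ) (ψ' : ι → V → ℝ) (hψ : MemLp ψ 2 (volume : Measure V))
    (hψc : HasCompactSupport ψ) (hψ' : ∀ i, MemLp (ψ' i) 2 (volume : Measure V))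
    (hw : ∀ i, WD (e i) ψ (ψ' i)) : ∑ i, ∫ x, G i x * ψ' i x = ∫ x, f x * ψ x := by
  set c : V → ℝ := fun y => (∑ i, ∫ x, G i x * ψ' i (x - y)) - ∫ x, f x * ψ (x - y) with hc
  have hcont : Continuous c := by
    apply Continuous.sub
    · exact continuous_finsetSum _ fun i _ => continuous_pair_shift (hG i) (hψ' i)
    · exact continuous_pair_shift hf hψ
  have hloc : LocallyIntegrable ψ volume := hψ.locallyIntegrable (by norm_num)
  have h0 : ∀ᵐ y ∂(volume : Measure V), c y = 0 := by
    apply ae_eq_zero_of_integral_contDiff_smul_eq_zero hcont.locallyIntegrable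
    intro ρ hρ hρc
    have hT : Test ρ := ⟨hρ, hρc⟩
    have h1 := h (cv ψ ρ) ⟨contDiff_cv hloc hT, hasCompactSupport_cv hψc hρc⟩
    simp_rw [dd_cv_WD hloc hT (hw _)] at h1
    simp_rw [fun i => fubini_cv (hG i) (hψ' i) hT] at h1
    rw [fubini_cv hf hψ hT] at h1
    simp only [hc, smul_eq_mul, mul_sub, Finset.mul_sum]
    have hint : ∀ {G g : V → ℝ}, MemLp G 2 (volume : Measure V) → MemLp g 2 (volume : Measure V) →
        Integrable (fun y => ρ y * ∫ x, G x * g (x - y)) volume := by
      intro G g hG hg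
      exact (hT.continuous.mul (continuous_pair_shift hG hg)).integrable_of_hasCompactSupport
        hρc.mul_right
    rw [integral_sub (integrable_finsetSum _ fun i _ => hint (hG i) (hψ' i)) (hint hf hψ),
      integral_finsetSum _ fun i _ => hint (hG i) (hψ' i), h1, sub_self]
  have h2 : c = fun _ => 0 := (hcont.ae_eq_iff_eq volume continuous_const).mp h0
  have h3 := congrFun h2 0
  simp only [hc, sub_zero] at h3
  linarith

end Crest.Agent.R249.Lim41
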