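import Crest.Agent.R249.Lim3_41
import Crest.Agent.R249.LimB_41
import Crest.Prelude.Def_CoordMetric
/-!
R249 / D3-LIM (helper41).  Abstract limit lemma, part 4: Euclidean analysis.  A mollifier family; the
commutator argument of Constantin, E and Titi: if `M` is a divergence free Hölder field of exponent
`α > 1/2` with inverse `N` and `∂_d (M^{dc} f) = p^c`, then `∂_e f = N_{ce} p^c`.
-/

set_option autoImplicit false

open MeasureTheory Filter Topology Set
open scoped ContDiff ENNReal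
open Crest.GeometryTopology.CoordMetric

noncomputable section

namespace Crest.Agent.R249.Lim41

/-! ### the mollifier -/

/-- a fixed bump -/
def bump0 (n : ℕ) : ContDiffBump (0 : E n) := ⟨1 / 2, 1, by norm_num, by norm_num⟩

def rho0 (n : ℕ) : E n → ℝ := (bump0 n).normed volume

theorem rho0_test (n : ℕ) : Test (rho0 n) :=
  ⟨ContDiffBump.contDiff_normed _ (n := ⊤), ContDiffBump.hasCompactSupport_normed _⟩

theorem rho0_nonneg (n : ℕ) (x : E n) : 0 ≤ rho0 n x := ContDiffBump.nonneg_normed _ x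

theorem rho0_integral (n : ℕ) : ∫ x, rho0 n x = 1 := ContDiffBump.integral_normed _

theorem rho0_zero {n : ℕ} {x : E n} (hx : 1 ≤ ‖x‖) : rho0 n x = 0 := by
  have h := ContDiffBump.support_normed_eq (bump0 n) (μ := volume)
  by_contra h1
  have h2 : x ∈ Function.support (rho0 n) := h1
  unfold rho0 at h2
  rw [h] at h2
  simp only [Metric.mem_ball, dist_zero_right] at h2
  have : (bump0 n).rOut = 1 := rfl
  rw [this] at h2
  linarith

/-- the mollifier at scale `ε` -/
def mol (n : ℕ) (ε : ℝ) (x : E n) : ℝ := (ε ^ n)⁻¹ * rho0 n (ε⁻¹ • x)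

theorem mol_test (n : ℕ) {ε : ℝ} (hε : 0 < ε) : Test (mol n ε) := by
  refine ⟨?_, ?_⟩
  · exact contDiff_const.mul ((rho0_test n).1.comp (contDiff_const_smul ε⁻¹))
  · have h1 : HasCompactSupport (fun x => rho0 n (ε⁻¹ • x)) :=
      (rho0_test n).2.comp_smul (inv_ne_zero hε.ne')
    exact h1.mul_left

theorem mol_nonneg (n : ℕ) {ε : ℝ} (hε : 0 < ε) (x : E n) : 0 ≤ mol n ε x :=
  mul_nonneg (by positivity) (rho0_nonneg n _)

theorem mol_zero {n : ℕ} {ε : ℝ} (hε : 0 < ε) {x : E n} (hx : ε ≤ ‖x‖) : mol n ε x = 0 := by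
  unfold mol
  rw [rho0_zero, mul_zero]
  rw [norm_smul, Real.norm_eq_abs, abs_of_pos (inv_pos.2 hε)]
  rw [le_inv_mul_iff₀ hε]
  linarith

theorem integral_scale {n : ℕ} {ε : ℝ} (hε : 0 < ε) (f : E n → ℝ) :
    ∫ x, (ε ^ n)⁻¹ * f (ε⁻¹ • x) = ∫ x, f x := by
  rw [integral_const_mul, Measure.integral_comp_inv_smul]
  rw [finrank_euclideanSpace_fin, abs_of_pos (by positivity), smul_eq_mul, ← mul_assoc,
    inv_mul_cancel₀ (by positivity), one_mul]

theorem mol_integral (n : ℕ) {ε : ℝ} (hε : 0 < ε) : ∫ x, mol n ε x = 1 := by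
  unfold mol
  rw [integral_scale hε, rho0_integral]

theorem dd_mol {n : ℕ} {ε : ℝ} (e x : E n) :
    dd e (mol n ε) x = ε⁻¹ * ((ε ^ n)⁻¹ * dd e (rho0 n) (ε⁻¹ • x)) := by
  unfold dd mol
  have h0 : DifferentiableAt ℝ (rho0 n) (ε⁻¹ • x) := (rho0_test n).1.differentiable (by simp) _
  have h1 : HasFDerivAt (fun y : E n => ε⁻¹ • y) (ε⁻¹ • ContinuousLinearMap.id ℝ (E n)) x :=
    (hasFDerivAt_id x).const_smul ε⁻¹
  have h2 := (h0.hasFDerivAt.comp x h1).const_mul ((ε ^ n)⁻¹)
  have h3 : (fun y => (ε ^ n)⁻¹ * rho0 n (ε⁻¹ • y)) =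
      fun y => (ε ^ n)⁻¹ * ((rho0 n) ∘ fun y => ε⁻¹ • y) y := rfl
  rw [h3, h2.fderiv]
  simp
  ring

/-- `L¹` norm of the derivative of the fixed bump -/
def c1 (n : ℕ) (e : E n) : ℝ := ∫ x, |dd e (rho0 n) x|

theorem c1_nonneg (n : ℕ) (e : E n) : 0 ≤ c1 n e := integral_nonneg fun x => abs_nonneg _

theorem integral_abs_dd_mol {n : ℕ} {ε : ℝ} (hε : 0 < ε) (e : E n) :
    ∫ x, |dd e (mol n ε) x| = ε⁻¹ * c1 n e := by
  simp_rw [dd_mol, abs_mul, abs_of_pos (inv_pos.2 hε), abs_of_pos (show 0 < (ε ^ n)⁻¹ by positivity)]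
  rw [integral_const_mul, integral_scale hε (fun x => |dd e (rho0 n) x|)]
  rfl

theorem dd_mol_zero {n : ℕ} {ε : ℝ} (hε : 0 < ε) (e : E n) {x : E n} (hx : ε < ‖x‖) :
    dd e (mol n ε) x = 0 := by
  have : mol n ε =ᶠ[𝓝 x] fun _ => (0 : ℝ) := by
    have : ∀ᶠ y in 𝓝 x, ε < ‖y‖ := continuous_norm.continuousAt.eventually (lt_mem_nhds hx)
    filter_upwards [this] with y hy
    exact mol_zero hε hy.le
  unfold dd
  rw [this.fderiv_eq]
  simp

/-- integral of a derivative of a test function vanishes -/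
theorem integral_dd_zero {n : ℕ} {φ : E n → ℝ} (h : Test φ) (e : E n) : ∫ x, dd e φ x = 0 := by
  have h0 : Integrable (fun x => fderiv ℝ φ x e) (volume : Measure (E n)) := (h.dd e).integrable
  have h1 := integral_mul_fderiv_eq_neg_fderiv_mul_of_integrable (μ := (volume : Measure (E n)))
    (f := fun _ => (1 : ℝ)) (g := φ) (v := e) (by simp) (by
      simpa using h0) (by simpa using h.integrable)
    (fun x _ => differentiableAt_const _) (fun x _ => h.1.differentiable (by simp) x)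
  unfold dd
  simpa using h1

/-- local bound for a convolution with a kernel of small support -/
theorem abs_conv_le {n : ℕ} {g a : E n → ℝ} {ε A : ℝ} {x : E n} (hg : Integrable g)
    (hgs : ∀ z, ε < ‖z‖ → g z = 0) (ha : ∀ y, dist x y ≤ ε → |a y| ≤ A) :
    |∫ y, a y * g (x - y)| ≤ A * ∫ z, |g z| := by
  have h1 : ∀ y, |a y * g (x - y)| ≤ A * |g (x - y)| := by
    intro y
    rw [abs_mul]
    by_cases hy : dist x y ≤ ε
    · exact mul_le_mul_of_nonneg_right (ha y hy) (abs_nonneg _)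
    · rw [hgs (x - y) (by rw [← dist_eq_norm]; linarith)]
      simp
  have hgi : Integrable (fun y => |g (x - y)|) := (hg.comp_sub_left x).abs
  calc |∫ y, a y * g (x - y)| ≤ ∫ y, |a y * g (x - y)| := abs_integral_le_integral_abs
    _ ≤ ∫ y, A * |g (x - y)| :=
        integral_mono_of_nonneg (Eventually.of_forall fun y => abs_nonneg _) (hgi.const_mul _)
          (Eventually.of_forall h1)
    _ = A * ∫ z, |g z| := by
        rw [integral_const_mul, integral_sub_left_eq_self (fun z => |g z|)]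

end Crest.Agent.R249.Lim41
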