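import Crest.Agent.R249.Lim4_41
/-!
R249 / D3-LIM (helper41).  Abstract limit lemma, part 5: the commutator lemma of Constantin, E, Titi.
-/

set_option autoImplicit false

open MeasureTheory Filter Topology Set
open scoped ContDiff ENNReal
open Crest.GeometryTopology.CoordMetric

noncomputable section

namespace Crest.Agent.R249.Lim41

theorem CS.test {n : ℕ} {Ω : Set (E n)} {φ : E n → ℝ} (h : CS Ω φ) : Test φ := ⟨h.smooth, h.comp⟩

theorem CS.pderiv {n : ℕ} {Ω : Set (E n)} {φ : E n → ℝ} (h : CS Ω φ) (d : Fin n) :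
    CS Ω (pderiv d φ) := by
  have h1 : Test (_root_.Crest.GeometryTopology.CoordMetric.pderiv d φ) :=
    h.test.dd (EuclideanSpace.single d 1)
  refine ⟨h1.1, h1.2, ?_⟩
  refine Set.Subset.trans ?_ ((tsupport_fderiv_subset ℝ).trans h.supp)
  apply closure_mono
  intro x hx h2
  apply hx
  show fderiv ℝ φ x _ = 0
  rw [h2]
  rfl

theorem hold_cont {n : ℕ} {Ω : Set (E n)} {f : E n → ℝ} {C α : ℝ} (hα : 0 < α)
    (h : ∀ x ∈ Ω, ∀ y ∈ Ω, |f x - f y| ≤ C * dist x y ^ α) : ContinuousOn f Ω := by
  intro x hx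
  rw [ContinuousWithinAt, tendsto_iff_dist_tendsto_zero]
  have h1 : Tendsto (fun y => C * dist y x ^ α) (𝓝[Ω] x) (𝓝 0) := by
    have h2 : Tendsto (fun y => dist y x) (𝓝[Ω] x) (𝓝 0) := by
      have : Tendsto (fun y => dist y x) (𝓝 x) (𝓝 (dist x x)) :=
        (continuous_id.dist continuous_const).continuousAt
      rw [dist_self] at this
      exact this.mono_left nhdsWithin_le_nhds
    have h3 := (h2.rpow_const (p := α) (Or.inr hα.le)).const_mul C
    simpa [Real.zero_rpow hα.ne'] using h3
  refine squeeze_zero' (Eventually.of_forall fun y => dist_nonneg) ?_ h1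
  filter_upwards [self_mem_nhdsWithin] with y hy
  rw [Real.dist_eq]
  exact h y hy x hx

/-- limit of integrals of test functions depending on a parameter -/
theorem lim_cc {n : ℕ} {Ω : Set (E n)} {γ : E n → ℝ} (hγ : LI Ω γ) {a : ℝ → E n → ℝ}
    {a₀ b : E n → ℝ} {δ : ℝ → ℝ} (ha : ∀ᶠ ε in 𝓝[>] (0 : ℝ), CC Ω (a ε)) (ha₀ : CC Ω a₀)
    (hb : CC Ω b) (hδ : Tendsto δ (𝓝[>] 0) (𝓝 0))
    (h : ∀ᶠ ε in 𝓝[>] (0 : ℝ), ∀ y, |a ε y - a₀ y| ≤ δ ε * |b y|) :
    Tendsto (fun ε => ∫ y, a ε y * γ y) (𝓝[>] 0) (𝓝 (∫ y, a₀ y * γ y)) := by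
  rw [tendsto_iff_dist_tendsto_zero]
  have h1 : Tendsto (fun ε => δ ε * ∫ y, |b y * γ y|) (𝓝[>] 0) (𝓝 0) := by
    simpa using hδ.mul_const (∫ y, |b y * γ y|)
  refine squeeze_zero' (Eventually.of_forall fun y => dist_nonneg) ?_ h1
  filter_upwards [ha, h] with ε hε hh
  have hi := hε.integrable_mul hγ
  have hi₀ := ha₀.integrable_mul hγ
  rw [Real.dist_eq, ← integral_sub hi hi₀]
  calc |∫ y, (a ε y * γ y - a₀ y * γ y)| ≤ ∫ y, |a ε y * γ y - a₀ y * γ y| :=
        abs_integral_le_integral_abs
    _ ≤ ∫ y, δ ε * |b y * γ y| := by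
        apply integral_mono (hi.sub hi₀).abs ((hb.integrable_mul hγ).abs.const_mul _)
        intro y
        show |a ε y * γ y - a₀ y * γ y| ≤ δ ε * |b y * γ y|
        rw [← sub_mul, abs_mul, abs_mul, ← mul_assoc]
        exact mul_le_mul_of_nonneg_right (hh y) (abs_nonneg _)
    _ = _ := integral_const_mul _ _

theorem integral4 {α : Type*} [MeasurableSpace α] {μ : Measure α} {a b c d : α → ℝ}
    (ha : Integrable a μ) (hb : Integrable b μ) (hc : Integrable c μ) (hd : Integrable d μ) :
    ∫ x, (a x - b x + c x - d x) ∂μ =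
      ∫ x, a x ∂μ - ∫ x, b x ∂μ + ∫ x, c x ∂μ - ∫ x, d x ∂μ := by
  rw [integral_sub (f := fun x => a x - b x + c x) ((ha.sub hb).add hc) hd,
    integral_add (f := fun x => a x - b x) (ha.sub hb) hc, integral_sub ha hb]

section CET

variable {n : ℕ} {Ω : Set (E n)} {M N : Fin n → Fin n → E n → ℝ} {C α : ℝ}

/-- the commutator estimate -/
theorem comm_le (hα : 0 < α) (hC : 0 ≤ C)
    (hM : ∀ d c, ∀ x ∈ Ω, ∀ y ∈ Ω, |M d c x - M d c y| ≤ C * dist x y ^ α)
    (hN : ∀ d c, ∀ x ∈ Ω, ∀ y ∈ Ω, |N d c x - N d c y| ≤ C * dist x y ^ α)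
    (hMN : ∀ x ∈ Ω, ∀ d e, ∑ c, M d c x * N c e x = if d = e then 1 else 0)
    (hdiv : ∀ c, ∀ φ, CS Ω φ → ∫ y, ∑ d, pderiv d φ y * M d c y = 0)
    {Kr : Set (E n)} (hKr : IsCompact Kr) (hKrΩ : Kr ⊆ Ω) {x : E n} {ε : ℝ} (hε : 0 < ε)
    (hx : Metric.closedBall x ε ⊆ Kr) (e : Fin n) :
    |∑ d, ∑ c, M d c x * pderiv d (cv (Kr.indicator (N c e)) (mol n ε)) x| ≤
      (C ^ 2 * ε ^ (2 * α - 1)) * ∑ d : Fin n, ∑ _c : Fin n, c1 n (EuclideanSpace.single d 1) := by
  have hxK : x ∈ Kr := hx (Metric.mem_closedBall_self hε.le)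
  set g : Fin n → E n → ℝ := fun d => dd (EuclideanSpace.single d 1) (mol n ε) with hg
  have hgT : ∀ d, Test (g d) := fun d => (mol_test n hε).dd _
  have hmK : MeasurableSet Kr := hKr.isClosed.measurableSet
  have hMi : ∀ d c, Integrable (Kr.indicator (M d c)) := fun d c => by
    rw [integrable_indicator_iff hmK]
    exact ((hold_cont hα (hM d c)).mono hKrΩ).integrableOn_compact hKr
  have hNi : ∀ d c, Integrable (Kr.indicator (N d c)) := fun d c => by
    rw [integrable_indicator_iff hmK]
    exact ((hold_cont hα (hN d c)).mono hKrΩ).integrableOn_compact hKr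
  have hMb : ∀ d c, ∃ B, ∀ y, |Kr.indicator (M d c) y| ≤ B := by
    intro d c
    obtain ⟨B, hB⟩ := hKr.exists_bound_of_continuousOn ((hold_cont hα (hM d c)).mono hKrΩ)
    refine ⟨max B 0, fun y => ?_⟩
    by_cases hy : y ∈ Kr
    · simp only [hy, indicator_of_mem]
      exact (hB y hy).trans (le_max_left _ _)
    · simp [hy]
  have hint : ∀ d (a : E n → ℝ), Integrable a → Integrable (fun y => a y * g d (x - y)) := by
    intro d a ha
    obtain ⟨B, hB⟩ := (hgT d).2.exists_bound_of_continuous (hgT d).continuous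
    have hc : Continuous (fun y => g d (x - y)) :=
      (hgT d).continuous.comp (continuous_const.sub continuous_id)
    exact ha.mul_bdd (c := B) hc.aestronglyMeasurable (Eventually.of_forall fun y => hB _)
  have hgz : ∀ d z, ε < ‖z‖ → g d z = 0 := fun d z hz => dd_mol_zero hε _ hz
  have hg0 : ∀ d, ∫ y, g d (x - y) = 0 := fun d => by
    rw [integral_sub_left_eq_self (g d)]
    exact integral_dd_zero (mol_test n hε) _
  have hgi : ∀ d, Integrable (fun y => g d (x - y)) := fun d => (hgT d).integrable.comp_sub_left x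
  -- the derivative of the mollification
  have hd : ∀ d c, pderiv d (cv (Kr.indicator (N c e)) (mol n ε)) x =
      ∫ y, Kr.indicator (N c e) y * g d (x - y) := by
    intro d c
    exact dd_cv (hNi c e).locallyIntegrable (mol_test n hε)
      (EuclideanSpace.single d 1) x
  -- expansion
  have hexp : ∀ d c, ∫ y, (M d c x - Kr.indicator (M d c) y) *
        (Kr.indicator (N c e) y - N c e x) * g d (x - y) =
      M d c x * (∫ y, Kr.indicator (N c e) y * g d (x - y)) -
      (∫ y, (Kr.indicator (M d c) y * Kr.indicator (N c e) y) * g d (x - y)) +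
      N c e x * (∫ y, Kr.indicator (M d c) y * g d (x - y)) := by
    intro d c
    have i1 := (hint d _ (hNi c e)).const_mul (M d c x)
    have i2 := hint d (fun y => Kr.indicator (M d c) y * Kr.indicator (N c e) y) (by
      obtain ⟨B, hB⟩ := hMb d c
      exact (hNi c e).bdd_mul (c := B) (hMi d c).1 (Eventually.of_forall fun y => hB y))
    have i3 := (hint d _ (hMi d c)).const_mul (N c e x)
    have i4 := (hgi d).const_mul (M d c x * N c e x)
    have e1 : ∀ y, (M d c x - Kr.indicator (M d c) y) *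
        (Kr.indicator (N c e) y - N c e x) * g d (x - y) =
        (M d c x * (Kr.indicator (N c e) y * g d (x - y)) -
        (Kr.indicator (M d c) y * Kr.indicator (N c e) y) * g d (x - y) +
        N c e x * (Kr.indicator (M d c) y * g d (x - y))) -
        M d c x * N c e x * g d (x - y) := fun y => by ring
    simp_rw [e1]
    rw [integral4 i1 i2 i3 i4, integral_const_mul, integral_const_mul, integral_const_mul, hg0]
    ring
  -- the product term
  have hprod : ∑ d, ∑ c, ∫ y, (Kr.indicator (M d c) y * Kr.indicator (N c e) y) * g d (x - y) = 0 := by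
    apply Finset.sum_eq_zero
    intro d _
    rw [← integral_finsetSum]
    · have e1 : ∀ y, ∑ c, Kr.indicator (M d c) y * Kr.indicator (N c e) y * g d (x - y) =
          (if d = e then 1 else 0) * g d (x - y) := by
        intro y
        rw [← Finset.sum_mul]
        by_cases hy : y ∈ Kr
        · simp only [hy, indicator_of_mem]
          rw [hMN y (hKrΩ hy)]
        · have : g d (x - y) = 0 := by
            apply hgz
            by_contra h
            push Not at h
            exact hy (hx (by rw [Metric.mem_closedBall, dist_comm, dist_eq_norm]; exact h))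
          rw [this]; ring
      simp_rw [e1]
      rw [integral_const_mul, hg0, mul_zero]
    · intro c _
      refine hint d _ ?_
      obtain ⟨B, hB⟩ := hMb d c
      exact (hNi c e).bdd_mul (c := B) (hMi d c).1 (Eventually.of_forall fun y => hB y)
  -- the divergence term
  have hdv : ∀ c, ∑ d, ∫ y, Kr.indicator (M d c) y * g d (x - y) = 0 := by
    intro c
    have hφT : Test (fun y => mol n ε (x - y)) := (mol_test n hε).reflect x
    have hφ : CS Ω (fun y => mol n ε (x - y)) := by
      refine ⟨hφT.1, hφT.2, ?_⟩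
      refine Set.Subset.trans ?_ (hx.trans hKrΩ)
      refine closure_minimal ?_ Metric.isClosed_closedBall
      intro y hy
      rw [Metric.mem_closedBall, dist_comm, dist_eq_norm]
      by_contra h
      push Not at h
      exact hy (mol_zero hε h.le)
    have h1 := hdiv c _ hφ
    have h2 : ∀ d y, pderiv d (fun y => mol n ε (x - y)) y = - g d (x - y) := fun d y =>
      dd_reflect (mol_test n hε) (EuclideanSpace.single d 1) x y
    simp_rw [h2] at h1
    rw [← integral_finsetSum _ (fun d _ => hint d _ (hMi d c))]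
    have h3 : ∫ y, ∑ d, Kr.indicator (M d c) y * g d (x - y) = - ∫ y, ∑ d, - g d (x - y) * M d c y := by
      rw [← integral_neg]
      congr 1
      ext y
      rw [← Finset.sum_neg_distrib]
      refine Finset.sum_congr rfl fun d _ => ?_
      by_cases hy : y ∈ Kr
      · simp only [hy, indicator_of_mem]; ring
      · have : g d (x - y) = 0 := by
          apply hgz
          by_contra h
          push Not at h
          exact hy (hx (by rw [Metric.mem_closedBall, dist_comm, dist_eq_norm]; exact h))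
        rw [this]; ring
    rw [h3, h1, neg_zero]
  have hsum : ∑ d, ∑ c, M d c x * pderiv d (cv (Kr.indicator (N c e)) (mol n ε)) x =
      ∑ d, ∑ c, ∫ y, (M d c x - Kr.indicator (M d c) y) *
        (Kr.indicator (N c e) y - N c e x) * g d (x - y) := by
    simp_rw [hexp, hd, Finset.sum_add_distrib, Finset.sum_sub_distrib, hprod]
    have h4 : ∑ d, ∑ c, N c e x * (∫ y, Kr.indicator (M d c) y * g d (x - y)) = 0 := by
      rw [Finset.sum_comm]
      apply Finset.sum_eq_zero
      intro c _
      rw [← Finset.mul_sum, hdv, mul_zero]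
    rw [h4]; ring
  rw [hsum]
  have hbound : ∀ d c, |∫ y, (M d c x - Kr.indicator (M d c) y) *
        (Kr.indicator (N c e) y - N c e x) * g d (x - y)| ≤
        (C ^ 2 * ε ^ (2 * α - 1)) * c1 n (EuclideanSpace.single d 1) := by
    intro d c
    have h1 := abs_conv_le (x := x) (A := C ^ 2 * ε ^ (2 * α)) (hgT d).integrable (hgz d)
      (a := fun y => (M d c x - Kr.indicator (M d c) y) * (Kr.indicator (N c e) y - N c e x)) (by
        intro y hy
        have hyK : y ∈ Kr := hx (by rw [Metric.mem_closedBall, dist_comm]; exact hy)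
        simp only [hyK, indicator_of_mem]
        rw [abs_mul]
        have a1 := hM d c x (hKrΩ hxK) y (hKrΩ hyK)
        have a2 := hN c e y (hKrΩ hyK) x (hKrΩ hxK)
        rw [dist_comm] at a2
        have a3 : dist x y ^ α ≤ ε ^ α := Real.rpow_le_rpow dist_nonneg hy hα.le
        have a4 : ε ^ (2 * α) = ε ^ α * ε ^ α := by
          rw [two_mul, Real.rpow_add hε]
        rw [a4]
        calc |M d c x - M d c y| * |N c e y - N c e x|
            ≤ (C * ε ^ α) * (C * ε ^ α) := by
              gcongr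
              · exact a1.trans (by gcongr)
              · exact a2.trans (by gcongr)
          _ = _ := by ring)
    refine h1.trans (le_of_eq ?_)
    have h2 : ∫ z, |g d z| = ε⁻¹ * c1 n (EuclideanSpace.single d 1) := integral_abs_dd_mol hε _
    rw [h2, Real.rpow_sub hε, Real.rpow_one]
    field_simp
  calc |∑ d, ∑ c, ∫ y, (M d c x - Kr.indicator (M d c) y) *
        (Kr.indicator (N c e) y - N c e x) * g d (x - y)|
      ≤ ∑ d, ∑ c, |∫ y, (M d c x - Kr.indicator (M d c) y) *
        (Kr.indicator (N c e) y - N c e x) * g d (x - y)| :=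
        (Finset.abs_sum_le_sum_abs _ _).trans
          (Finset.sum_le_sum fun d _ => Finset.abs_sum_le_sum_abs _ _)
    _ ≤ ∑ d : Fin n, ∑ _c : Fin n, (C ^ 2 * ε ^ (2 * α - 1)) * c1 n (EuclideanSpace.single d 1) :=
        Finset.sum_le_sum fun d _ => Finset.sum_le_sum fun c _ => hbound d c
    _ = _ := by
        simp_rw [← Finset.mul_sum]

end CET

end Crest.Agent.R249.Lim41
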