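import Crest.Agent.R249.Calc2_806

/-!
R249, part A2 (helper806), file 3: the penalised pair (sections 3, 4 of BP-A2 v2).

* `mono_iter` : finite monotone iteration for `L u = F(x, u)` between a sub- and a supersolution;
* `step` : one penalised problem;
* `Dat`, `PenSol`, `exists_pen` : the penalised pair.
-/

set_option autoImplicit false
set_option linter.unusedVariables false
set_option linter.unusedSectionVars false

open MeasureTheory Set Filter Topology Matrix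
open scoped ContDiff

noncomputable section

namespace Crest.Agent.R249.Pen_806

open Calc_806 Calc_806.Calc

variable {X : Type*} [TopologicalSpace X] [CompactSpace X] [MeasurableSpace X]
  [OpensMeasurableSpace X] {μ : Measure X} [IsFiniteMeasure μ]

/-! ### monotone iteration -/

/-- **finite monotone iteration**. -/
theorem mono_iter (C : Calc X μ) {F : X → ℝ → ℝ} {u₀ u₁ : X → ℝ} (h₀ : C.Sm u₀) (h₁ : C.Sm u₁)
    (h01 : ∀ x, u₀ x ≤ u₁ x)
    (hF : ∀ u : X → ℝ, C.Sm u → (∀ x, u₀ x ≤ u x) → (∀ x, u x ≤ u₁ x) →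
      C.Sm (fun x => F x (u x)))
    {c : ℝ} (hc : 0 < c)
    (hlip : ∀ x, ∀ s t, u₀ x ≤ s → s ≤ t → t ≤ u₁ x → |F x t - F x s| ≤ c * (t - s))
    (hsub : ∀ x, F x (u₀ x) ≤ C.L u₀ x) (hsup : ∀ x, C.L u₁ x ≤ F x (u₁ x))
    {ε : ℝ} (hε : 0 < ε) :
    ∃ u r : X → ℝ, C.Sm u ∧ C.Sm r ∧ (∀ x, u₀ x ≤ u x) ∧ (∀ x, u x ≤ u₁ x) ∧
      (∀ x, C.L u x = F x (u x) + r x) ∧ (∀ x, r x ≤ 0) ∧
      (∀ x, - (2 * c * (u₁ x - u₀ x)) ≤ r x) ∧ ∫ x, r x ^ 4 ∂μ ≤ ε := by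
  classical
  let P : (X → ℝ) → Prop := fun u => C.Sm u ∧ (∀ x, u₀ x ≤ u x) ∧ (∀ x, u x ≤ u₁ x) ∧
    ∀ x, C.L u x ≤ F x (u x)
  -- one step
  have hstep : ∀ u : {u // P u}, ∃ v : {u // P u}, (∀ x, v.1 x ≤ u.1 x) ∧
      ∀ x, C.L v.1 x - c * v.1 x = F x (u.1 x) - c * u.1 x := by
    rintro ⟨u, hu, hu0, hu1, hus⟩
    obtain ⟨v, hv, hvL⟩ := C.resolvent hc (sm_sub (hF u hu hu0 hu1) (sm_smul c hu))
    have a1 : ∀ x, v x ≤ u x := by
      refine max_pr_sub hc hv hu fun x => ?_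
      have e1 := hvL x
      have e2 := hus x
      linarith
    have a2 : ∀ x, u₀ x ≤ v x := by
      refine max_pr_sub hc h₀ hv fun x => ?_
      have e1 := hvL x
      have e2 := hsub x
      have e3 := (abs_le.1 (hlip x (u₀ x) (u x) le_rfl (hu0 x) (hu1 x))).2
      linarith
    refine ⟨⟨v, hv, a2, fun x => (a1 x).trans (hu1 x), fun x => ?_⟩, a1, hvL⟩
    have e1 := hvL x
    have e3 := (abs_le.1 (hlip x (v x) (u x) (a2 x) (a1 x) (hu1 x))).2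
    linarith
  choose nx hnx1 hnx2 using hstep
  let v : ℕ → {u // P u} := fun k => nx^[k] ⟨u₁, h₁, h01, fun _ => le_rfl, hsup⟩
  have hv : ∀ k, v (k + 1) = nx (v k) := fun k => Function.iterate_succ_apply' nx k _
  have hanti : ∀ x, Antitone fun k => (v k).1 x := fun x => by
    refine antitone_nat_of_succ_le fun k => ?_
    change (v (k + 1)).1 x ≤ (v k).1 x
    rw [hv k]
    exact hnx1 (v k) x
  have hconv : ∀ x, Tendsto (fun k => (v k).1 x - (v (k + 1)).1 x) atTop (𝓝 0) := fun x => by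
    have hb : BddBelow (range fun k => (v k).1 x) :=
      ⟨u₀ x, by rintro _ ⟨k, rfl⟩; exact (v k).2.2.1 x⟩
    have h1 := tendsto_atTop_ciInf (hanti x) hb
    have h2 := h1.sub (h1.comp (tendsto_add_atTop_nat 1))
    simpa using h2
  let r : ℕ → X → ℝ := fun k x =>
    (F x ((v k).1 x) - c * (v k).1 x) - (F x ((v (k + 1)).1 x) - c * (v (k + 1)).1 x)
  have hr_sm : ∀ k, C.Sm (r k) := fun k =>
    sm_sub (sm_sub (hF _ (v k).2.1 (v k).2.2.1 (v k).2.2.2.1) (sm_smul c (v k).2.1))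
      (sm_sub (hF _ (v (k+1)).2.1 (v (k+1)).2.2.1 (v (k+1)).2.2.2.1) (sm_smul c (v (k+1)).2.1))
  have hr0 : ∀ k x, r k x ≤ 0 := fun k x => by
    have e3 := (abs_le.1 (hlip x ((v (k+1)).1 x) ((v k).1 x) ((v (k+1)).2.2.1 x)
      (hanti x (Nat.le_succ k)) ((v k).2.2.2.1 x))).2
    simp only [r]
    linarith
  have hr1 : ∀ k x, -(2 * c * ((v k).1 x - (v (k + 1)).1 x)) ≤ r k x := fun k x => by
    have e3 := (abs_le.1 (hlip x ((v (k+1)).1 x) ((v k).1 x) ((v (k+1)).2.2.1 x)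
      (hanti x (Nat.le_succ k)) ((v k).2.2.2.1 x))).1
    simp only [r]
    linarith
  have hr2 : ∀ k x, -(2 * c * (u₁ x - u₀ x)) ≤ r k x := fun k x => by
    refine le_trans ?_ (hr1 k x)
    have e1 := (v k).2.2.2.1 x
    have e2 := (v (k+1)).2.2.1 x
    nlinarith
  obtain ⟨K, hK0, hK⟩ := exists_bound (C := C) (sm_sub h₁ h₀)
  have hlim : Tendsto (fun k => ∫ x, r k x ^ 4 ∂μ) atTop (𝓝 (∫ _, (0:ℝ) ∂μ)) := by
    refine tendsto_integral_of_dominated_convergence (fun _ => (2 * c * K) ^ 4) ?_ ?_ ?_ ?_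
    · exact fun k => (integrable_sm (sm_pow (hr_sm k) 4)).aestronglyMeasurable
    · exact integrable_const _
    · refine fun k => Eventually.of_forall fun x => ?_
      rw [Real.norm_eq_abs, abs_pow]
      refine pow_le_pow_left₀ (abs_nonneg _) ?_ 4
      rw [abs_of_nonpos (hr0 k x)]
      have e1 := hr2 k x
      have e2 : u₁ x - u₀ x ≤ K := (le_abs_self _).trans (hK x)
      nlinarith
    · refine Eventually.of_forall fun x => ?_
      have h1 : Tendsto (fun k => r k x) atTop (𝓝 0) := by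
        have h2 : Tendsto (fun k => -(2 * c * ((v k).1 x - (v (k + 1)).1 x))) atTop (𝓝 0) := by
          have := ((hconv x).const_mul (2 * c)).neg
          simpa using this
        exact tendsto_of_tendsto_of_tendsto_of_le_of_le h2 tendsto_const_nhds
          (fun k => hr1 k x) (fun k => hr0 k x)
      have h3 := h1.pow 4
      simpa using h3
  rw [integral_zero] at hlim
  obtain ⟨k, hk⟩ := ((tendsto_order.1 hlim).2 ε hε).exists
  refine ⟨(v (k + 1)).1, r k, (v (k+1)).2.1, hr_sm k, (v (k+1)).2.2.1, (v (k+1)).2.2.2.1, ?_,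
    hr0 k, hr2 k, hk.le⟩
  intro x
  have e1 := hnx2 (v k) x
  rw [← hv k] at e1
  simp only [r]
  linarith

/-! ### the nonlinearity -/

/-- the nonlinearity with the relative error of the regularisation. -/
def fd (d u : ℝ) : ℝ := u * ((2 / 3) * (1 - u ^ 3) - (6 * d + (2 / 3) * d ^ 2 / u ^ 6))

lemma contDiffOn_fd (d : ℝ) : ContDiffOn ℝ ∞ (fd d) (Ioi 0) := by
  unfold fd
  refine contDiffOn_id.mul (((contDiffOn_const.mul (contDiffOn_const.sub (contDiffOn_id.pow 3)))).sub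
    (contDiffOn_const.add (contDiffOn_const.div (contDiffOn_id.pow 6) ?_)))
  intro x hx
  exact pow_ne_zero 6 (ne_of_gt hx)

lemma fd_eq {d u : ℝ} (hu : 0 < u) :
    fd d u = (2 / 3 - 6 * d) * u - (2 / 3) * u ^ 4 - (2 / 3) * d ^ 2 * (u ^ 5)⁻¹ := by
  unfold fd
  field_simp
  ring

/-- the Lipschitz constant of `fd d` on `[b, 2]` -/
def lipc (d b : ℝ) : ℝ := 23 + 6 * |d| + 54 * d ^ 2 * (b ^ 10)⁻¹

lemma lipc_pos {d b : ℝ} (hb : 0 < b) : 0 < lipc d b := by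
  unfold lipc
  positivity

lemma fd_lip {d b : ℝ} (hb : 0 < b) {s t : ℝ} (hs : b ≤ s) (hst : s ≤ t) (ht : t ≤ 2) :
    |fd d t - fd d s| ≤ lipc d b * (t - s) := by
  have hs0 : 0 < s := hb.trans_le hs
  have ht0 : 0 < t := hs0.trans_le hst
  rw [fd_eq ht0, fd_eq hs0]
  have h4 : |t ^ 4 - s ^ 4| ≤ 32 * (t - s) := by
    have e : t ^ 4 - s ^ 4 = (t - s) * ((t + s) * (t ^ 2 + s ^ 2)) := by ring
    have h1 : (t + s) * (t ^ 2 + s ^ 2) ≤ 32 := by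
      have : t ^ 2 ≤ 4 := by nlinarith
      have : s ^ 2 ≤ 4 := by nlinarith
      nlinarith [mul_nonneg (by linarith : (0:ℝ) ≤ 4 - (t + s))
        (by positivity : (0:ℝ) ≤ t ^ 2 + s ^ 2)]
    have h2 : 0 ≤ (t + s) * (t ^ 2 + s ^ 2) := by positivity
    rw [e, abs_mul, abs_of_nonneg (sub_nonneg.2 hst), abs_of_nonneg h2]
    nlinarith [sub_nonneg.2 hst]
  have h5 : |(t ^ 5)⁻¹ - (s ^ 5)⁻¹| ≤ 80 * (b ^ 10)⁻¹ * (t - s) := by
    have e : (t ^ 5)⁻¹ - (s ^ 5)⁻¹ = - ((t - s) * (t ^ 4 + t ^ 3 * s + t ^ 2 * s ^ 2 + t * s ^ 3 +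
        s ^ 4) * ((t ^ 5)⁻¹ * (s ^ 5)⁻¹)) := by
      field_simp
      ring
    have hs2 : s ≤ 2 := hst.trans ht
    have q1 : t ^ 4 ≤ 16 := by
      calc t ^ 4 ≤ 2 ^ 4 := pow_le_pow_left₀ ht0.le ht 4
        _ = 16 := by norm_num
    have q2 : t ^ 3 * s ≤ 16 := by
      calc t ^ 3 * s ≤ 2 ^ 3 * 2 := mul_le_mul (pow_le_pow_left₀ ht0.le ht 3) hs2 hs0.le (by norm_num)
        _ = 16 := by norm_num
    have q3 : t ^ 2 * s ^ 2 ≤ 16 := by
      calc t ^ 2 * s ^ 2 ≤ 2 ^ 2 * 2 ^ 2 := mul_le_mul (pow_le_pow_left₀ ht0.le ht 2)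
            (pow_le_pow_left₀ hs0.le hs2 2) (by positivity) (by norm_num)
        _ = 16 := by norm_num
    have q4 : t * s ^ 3 ≤ 16 := by
      calc t * s ^ 3 ≤ 2 * 2 ^ 3 := mul_le_mul ht (pow_le_pow_left₀ hs0.le hs2 3)
            (by positivity) (by norm_num)
        _ = 16 := by norm_num
    have q5 : s ^ 4 ≤ 16 := by
      calc s ^ 4 ≤ 2 ^ 4 := pow_le_pow_left₀ hs0.le hs2 4
        _ = 16 := by norm_num
    have h6 : (t ^ 5)⁻¹ * (s ^ 5)⁻¹ ≤ (b ^ 10)⁻¹ := by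
      rw [← mul_inv]
      refine inv_anti₀ (by positivity) ?_
      calc b ^ 10 = b ^ 5 * b ^ 5 := by ring
        _ ≤ t ^ 5 * s ^ 5 := mul_le_mul (pow_le_pow_left₀ hb.le (hs.trans hst) 5)
            (pow_le_pow_left₀ hb.le hs 5) (by positivity) (by positivity)
    have h7 : 0 ≤ (t ^ 5)⁻¹ * (s ^ 5)⁻¹ := by positivity
    have h8 : 0 ≤ t ^ 4 + t ^ 3 * s + t ^ 2 * s ^ 2 + t * s ^ 3 + s ^ 4 := by positivity
    have h9 : t ^ 4 + t ^ 3 * s + t ^ 2 * s ^ 2 + t * s ^ 3 + s ^ 4 ≤ 80 := by linarith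
    rw [e, abs_neg, abs_mul, abs_mul, abs_of_nonneg (sub_nonneg.2 hst), abs_of_nonneg h8,
      abs_of_nonneg h7]
    calc (t - s) * (t ^ 4 + t ^ 3 * s + t ^ 2 * s ^ 2 + t * s ^ 3 + s ^ 4) *
          ((t ^ 5)⁻¹ * (s ^ 5)⁻¹) ≤ (t - s) * 80 * (b ^ 10)⁻¹ := by
          refine mul_le_mul ?_ h6 h7 ?_
          · exact mul_le_mul_of_nonneg_left h9 (sub_nonneg.2 hst)
          · exact mul_nonneg (sub_nonneg.2 hst) (by norm_num)
      _ = 80 * (b ^ 10)⁻¹ * (t - s) := by ring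
  have e : (2 / 3 - 6 * d) * t - (2 / 3) * t ^ 4 - (2 / 3) * d ^ 2 * (t ^ 5)⁻¹ -
      ((2 / 3 - 6 * d) * s - (2 / 3) * s ^ 4 - (2 / 3) * d ^ 2 * (s ^ 5)⁻¹) =
      (2 / 3 - 6 * d) * (t - s) - (2 / 3) * (t ^ 4 - s ^ 4) -
        (2 / 3) * d ^ 2 * ((t ^ 5)⁻¹ - (s ^ 5)⁻¹) := by ring
  rw [e]
  have a1 : |(2 / 3 - 6 * d) * (t - s)| ≤ (2 / 3 + 6 * |d|) * (t - s) := by
    rw [abs_mul, abs_of_nonneg (sub_nonneg.2 hst)]
    refine mul_le_mul_of_nonneg_right ?_ (sub_nonneg.2 hst)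
    have := abs_sub (2 / 3 : ℝ) (6 * d)
    rw [abs_mul] at this
    norm_num at this ⊢
    linarith
  have a2 : |(2 / 3) * (t ^ 4 - s ^ 4)| ≤ (64 / 3) * (t - s) := by
    rw [abs_mul, abs_of_pos (by norm_num : (0:ℝ) < 2 / 3)]
    linarith
  have a3 : |(2 / 3) * d ^ 2 * ((t ^ 5)⁻¹ - (s ^ 5)⁻¹)| ≤ (54 * d ^ 2 * (b ^ 10)⁻¹) * (t - s) := by
    rw [abs_mul, abs_of_nonneg (by positivity : (0:ℝ) ≤ (2 / 3) * d ^ 2)]
    have h10 : 0 ≤ d ^ 2 * (b ^ 10)⁻¹ * (t - s) :=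
      mul_nonneg (by positivity) (sub_nonneg.2 hst)
    calc (2 / 3) * d ^ 2 * |(t ^ 5)⁻¹ - (s ^ 5)⁻¹| ≤ (2 / 3) * d ^ 2 * (80 * (b ^ 10)⁻¹ * (t - s)) :=
          mul_le_mul_of_nonneg_left h5 (by positivity)
      _ = (160 / 3) * (d ^ 2 * (b ^ 10)⁻¹ * (t - s)) := by ring
      _ ≤ 54 * (d ^ 2 * (b ^ 10)⁻¹ * (t - s)) := by nlinarith
      _ = (54 * d ^ 2 * (b ^ 10)⁻¹) * (t - s) := by ring
  have a4 := abs_sub ((2 / 3 - 6 * d) * (t - s) - (2 / 3) * (t ^ 4 - s ^ 4))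
    ((2 / 3) * d ^ 2 * ((t ^ 5)⁻¹ - (s ^ 5)⁻¹))
  have a5 := abs_sub ((2 / 3 - 6 * d) * (t - s)) ((2 / 3) * (t ^ 4 - s ^ 4))
  unfold lipc
  have h11 : 0 ≤ t - s := sub_nonneg.2 hst
  calc _ ≤ (2 / 3 + 6 * |d|) * (t - s) + (64 / 3) * (t - s) +
        (54 * d ^ 2 * (b ^ 10)⁻¹) * (t - s) := by linarith
    _ ≤ (23 + 6 * |d| + 54 * d ^ 2 * (b ^ 10)⁻¹) * (t - s) := by nlinarith

/-! ### cut-offs -/

lemma exists_st_lip : ∃ K : ℝ, 0 < K ∧ ∀ s t : ℝ,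
    |Real.smoothTransition s - Real.smoothTransition t| ≤ K * |s - t| := by
  have hc : ContDiff ℝ 1 Real.smoothTransition := Real.smoothTransition.contDiff
  have hd : Continuous (deriv Real.smoothTransition) := hc.continuous_deriv le_rfl
  have hz : ∀ x ∉ Icc (0:ℝ) 1, deriv Real.smoothTransition x = 0 := by
    intro x hx
    rw [mem_Icc, not_and_or, not_le, not_le] at hx
    rcases hx with hx | hx
    · have : Real.smoothTransition =ᶠ[𝓝 x] fun _ => 0 := by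
        filter_upwards [Iio_mem_nhds hx] with y hy
        exact Real.smoothTransition.zero_of_nonpos (le_of_lt hy)
      rw [this.deriv_eq]; simp
    · have : Real.smoothTransition =ᶠ[𝓝 x] fun _ => 1 := by
        filter_upwards [Ioi_mem_nhds hx] with y hy
        exact Real.smoothTransition.one_of_one_le (le_of_lt hy)
      rw [this.deriv_eq]; simp
  obtain ⟨K, hK⟩ := (isCompact_Icc (a := (0:ℝ)) (b := 1)).exists_bound_of_continuousOn
    hd.continuousOn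
  refine ⟨max K 1, lt_of_lt_of_le one_pos (le_max_right _ _), fun s t => ?_⟩
  have h1 : ∀ x ∈ (univ : Set ℝ), ‖deriv Real.smoothTransition x‖ ≤ max K 1 := by
    intro x _
    by_cases hx : x ∈ Icc (0:ℝ) 1
    · exact (hK x hx).trans (le_max_left _ _)
    · rw [hz x hx, norm_zero]; exact le_trans zero_le_one (le_max_right _ _)
  have h2 := Convex.norm_image_sub_le_of_norm_deriv_le (𝕜 := ℝ) (f := Real.smoothTransition)
    (fun x _ => (hc.differentiable one_ne_zero).differentiableAt) h1 convex_univ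
    (mem_univ t) (mem_univ s)
  simpa [Real.norm_eq_abs] using h2

/-- smoothed positive part -/
def ps (e a : ℝ) : ℝ := (a + Real.sqrt (a ^ 2 + e ^ 2)) / 2

lemma ps_ge (e a : ℝ) : max 0 a ≤ ps e a := by
  have h1 : |a| ≤ Real.sqrt (a ^ 2 + e ^ 2) := Real.abs_le_sqrt (by nlinarith [sq_nonneg e])
  unfold ps
  rcases abs_cases a with h | h
  · refine max_le ?_ ?_ <;> linarith [h.1, h.2]
  · refine max_le ?_ ?_ <;> linarith [h.1, h.2]

lemma ps_nonneg (e a : ℝ) : 0 ≤ ps e a := (le_max_left _ _).trans (ps_ge e a)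

lemma ps_le {e : ℝ} (he : 0 ≤ e) (a : ℝ) : ps e a ≤ max 0 a + e := by
  have h1 : Real.sqrt (a ^ 2 + e ^ 2) ≤ |a| + e := by
    rw [Real.sqrt_le_left (by positivity)]
    nlinarith [abs_nonneg a, sq_abs a, mul_nonneg (abs_nonneg a) he]
  unfold ps
  rcases abs_cases a with h | h
  · have : max 0 a = a := max_eq_right h.2
    rw [this]; linarith [h.1]
  · have : max 0 a = 0 := max_eq_left h.2.le
    rw [this]; linarith [h.1]

lemma sm_ps {C : Calc X μ} {e : ℝ} (he : 0 < e) {a : X → ℝ} (ha : C.Sm a) :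
    C.Sm (fun x => ps e (a x)) := by
  have h1 : C.Sm (fun x => Real.sqrt (a x ^ 2 + e ^ 2)) :=
    sm_sqrt (sm_add (sm_pow ha 2) (sm_const _)) (fun x => by positivity)
  have h2 := sm_smul (C := C) (1 / 2) (sm_add ha h1)
  have h3 : (fun x => ps e (a x)) = fun x => (1 / 2) * (a x + Real.sqrt (a x ^ 2 + e ^ 2)) := by
    funext x; unfold ps; ring
  rw [h3]; exact h2

/-! ### one penalised problem -/

/-- **one penalised problem**: `w₀` a subsolution of `L w = fd d w`, `w₀ + e ≤ h` an obstacle. -/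
theorem step (C : Calc X μ) {d b e : ℝ} (hb : 0 < b) (he : 0 < e) {w₀ h : X → ℝ} (hw₀ : C.Sm w₀)
    (hh : C.Sm h) (hbw : ∀ x, b ≤ w₀ x) (hwh : ∀ x, w₀ x + e ≤ h x) (hh2 : ∀ x, h x + 2 * e ≤ 2)
    (hsub : ∀ x, fd d (w₀ x) ≤ C.L w₀ x) {ε : ℝ} (hε : 0 < ε) :
    ∃ w m g r : X → ℝ, C.Sm w ∧ C.Sm m ∧ C.Sm g ∧ C.Sm r ∧ (∀ x, w₀ x ≤ w x) ∧
      (∀ x, w x ≤ h x + 2 * e) ∧ (∀ x, C.L w x = fd d (w x) + m x + g x) ∧ (∀ x, 0 ≤ m x) ∧
      (∀ x, m x ≤ max 0 (C.L h x - fd d (h x)) + e) ∧ (∀ x, m x ≠ 0 → h x - w x ≤ e) ∧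
      (∀ x, |g x| ≤ 2 * lipc d b * e + |r x|) ∧ ∫ x, r x ^ 4 ∂μ ≤ ε := by
  obtain ⟨Ls, hLs0, hLs⟩ := exists_st_lip
  have hLd := lipc_pos (d := d) hb
  set Ld := lipc d b with hLdd
  have hhpos : ∀ x, 0 < h x := fun x => by linarith [hbw x, hwh x]
  have sfd : ∀ u : X → ℝ, C.Sm u → (∀ x, 0 < u x) → C.Sm (fun x => fd d (u x)) := fun u hu h0 =>
    sm_comp1 isOpen_Ioi (contDiffOn_fd d) hu h0
  -- the coefficient of the penalty
  let G : X → ℝ := fun x => ps e (C.L h x - fd d (h x))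
  have sG : C.Sm G := sm_ps he (sm_sub (C.sm_L hh) (sfd h hh hhpos))
  obtain ⟨KG, hKG0, hKG⟩ := exists_bound (C := C) sG
  have hst : ContDiff ℝ ∞ Real.smoothTransition := Real.smoothTransition.contDiff
  let F : X → ℝ → ℝ := fun x u => fd d u + G x * Real.smoothTransition (1 - (h x - u) / e) +
    2 * Ld * e * Real.smoothTransition ((u - h x) / e)
  have sF1 : ∀ u : X → ℝ, C.Sm u → C.Sm (fun x => G x * Real.smoothTransition (1 - (h x - u x) / e)) :=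
    fun u hu => by
      refine sm_mul sG (sm_comp' hst ?_)
      have := sm_sub (C := C) (sm_const 1) (sm_smul (e⁻¹) (sm_sub hh hu))
      have e1 : (fun x => 1 - (h x - u x) / e) = fun x => 1 - e⁻¹ * (h x - u x) := by
        funext x; rw [div_eq_inv_mul]
      rw [e1]; exact this
  have sF2 : ∀ u : X → ℝ, C.Sm u →
      C.Sm (fun x => 2 * Ld * e * Real.smoothTransition ((u x - h x) / e)) := fun u hu => by
    refine sm_smul _ (sm_comp' hst ?_)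
    have := sm_smul (C := C) (e⁻¹) (sm_sub hu hh)
    have e1 : (fun x => (u x - h x) / e) = fun x => e⁻¹ * (u x - h x) := by
      funext x; rw [div_eq_inv_mul]
    rw [e1]; exact this
  set c : ℝ := Ld + KG * (Ls / e) + 2 * Ld * Ls with hcdef
  have hc : 0 < c := by positivity
  have h1 : C.Sm (fun x => h x + 2 * e) := sm_add hh (sm_const _)
  have hL1 : ∀ x, C.L (fun y => h y + 2 * e) x = C.L h x := fun x => by
    rw [C.L_add hh (sm_const _), C.L_const, add_zero]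
  have hlipF : ∀ x, ∀ s t, w₀ x ≤ s → s ≤ t → t ≤ h x + 2 * e → |F x t - F x s| ≤ c * (t - s) := by
    intro x s t hs hst' ht
    have b1 := fd_lip (d := d) hb ((hbw x).trans hs) hst' (ht.trans (hh2 x))
    have b2 := hLs (1 - (h x - t) / e) (1 - (h x - s) / e)
    have b3 := hLs ((t - h x) / e) ((s - h x) / e)
    have e2 : 1 - (h x - t) / e - (1 - (h x - s) / e) = (t - s) / e := by field_simp; ring
    have e3 : (t - h x) / e - (s - h x) / e = (t - s) / e := by field_simp; ring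
    have hts : 0 ≤ t - s := sub_nonneg.2 hst'
    rw [e2, abs_of_nonneg (div_nonneg hts he.le)] at b2
    rw [e3, abs_of_nonneg (div_nonneg hts he.le)] at b3
    have e4 : F x t - F x s = (fd d t - fd d s) + G x * (Real.smoothTransition (1 - (h x - t) / e) -
        Real.smoothTransition (1 - (h x - s) / e)) + 2 * Ld * e *
        (Real.smoothTransition ((t - h x) / e) - Real.smoothTransition ((s - h x) / e)) := by
      simp only [F]; ring
    rw [e4]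
    have c1 : |G x * (Real.smoothTransition (1 - (h x - t) / e) -
        Real.smoothTransition (1 - (h x - s) / e))| ≤ KG * (Ls * ((t - s) / e)) := by
      rw [abs_mul]
      exact mul_le_mul (hKG x) b2 (abs_nonneg _) hKG0
    have c2 : |2 * Ld * e * (Real.smoothTransition ((t - h x) / e) -
        Real.smoothTransition ((s - h x) / e))| ≤ 2 * Ld * e * (Ls * ((t - s) / e)) := by
      rw [abs_mul, abs_of_pos (by positivity : 0 < 2 * Ld * e)]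
      exact mul_le_mul_of_nonneg_left b3 (by positivity)
    have d1 := abs_add_le ((fd d t - fd d s) + G x * (Real.smoothTransition (1 - (h x - t) / e) -
        Real.smoothTransition (1 - (h x - s) / e))) (2 * Ld * e *
        (Real.smoothTransition ((t - h x) / e) - Real.smoothTransition ((s - h x) / e)))
    have d2 := abs_add_le (fd d t - fd d s) (G x * (Real.smoothTransition (1 - (h x - t) / e) -
        Real.smoothTransition (1 - (h x - s) / e)))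
    have e5 : c * (t - s) = Ld * (t - s) + KG * (Ls * ((t - s) / e)) +
        2 * Ld * e * (Ls * ((t - s) / e)) := by
      rw [hcdef]; field_simp
    rw [e5]
    linarith
  have hsubF : ∀ x, F x (w₀ x) ≤ C.L w₀ x := by
    intro x
    have a1 : 1 - (h x - w₀ x) / e ≤ 0 := by
      rw [sub_nonpos, le_div_iff₀ he]; linarith [hwh x]
    have a2 : (w₀ x - h x) / e ≤ 0 := div_nonpos_of_nonpos_of_nonneg (by linarith [hwh x]) he.le
    simp only [F]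
    rw [Real.smoothTransition.zero_of_nonpos a1, Real.smoothTransition.zero_of_nonpos a2]
    simpa using hsub x
  have hsupF : ∀ x, C.L (fun y => h y + 2 * e) x ≤ F x (h x + 2 * e) := by
    intro x
    rw [hL1 x]
    have a1 : 1 ≤ 1 - (h x - (h x + 2 * e)) / e := by
      have : 1 - (h x - (h x + 2 * e)) / e = 3 := by field_simp; ring
      rw [this]; norm_num
    have a2 : 1 ≤ (h x + 2 * e - h x) / e := by
      have : (h x + 2 * e - h x) / e = 2 := by field_simp; ring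
      rw [this]; norm_num
    simp only [F]
    rw [Real.smoothTransition.one_of_one_le a1, Real.smoothTransition.one_of_one_le a2]
    have b1 := fd_lip (d := d) hb (s := h x) (t := h x + 2 * e)
      (by linarith [hbw x, hwh x]) (by linarith) (hh2 x)
    have b2 := (abs_le.1 b1).1
    have b3 : C.L h x - fd d (h x) ≤ G x := (le_max_right _ _).trans (ps_ge _ _)
    have e5 : h x + 2 * e - h x = 2 * e := by ring
    rw [e5] at b2
    nlinarith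
  obtain ⟨w, r, sw, sr, hw0, hw1, hLw, hr0, hr1, hr4⟩ := mono_iter C (F := F) (u₀ := w₀)
    (u₁ := fun x => h x + 2 * e) hw₀ h1 (fun x => by linarith [hwh x])
    (fun u hu hu0 hu1 => by
      have hpos : ∀ x, 0 < u x := fun x => hb.trans_le ((hbw x).trans (hu0 x))
      exact sm_add (sm_add (sfd u hu hpos) (sF1 u hu)) (sF2 u hu))
    hc hlipF hsubF hsupF hε
  refine ⟨w, fun x => G x * Real.smoothTransition (1 - (h x - w x) / e),
    fun x => 2 * Ld * e * Real.smoothTransition ((w x - h x) / e) + r x, r, sw, sF1 w sw,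
    sm_add (sF2 w sw) sr, sr, hw0, hw1, ?_, ?_, ?_, ?_, ?_, hr4⟩
  · intro x
    rw [hLw x]
    simp only [F]
    ring
  · intro x
    exact mul_nonneg (ps_nonneg _ _) (Real.smoothTransition.nonneg _)
  · intro x
    have a1 := ps_le he.le (C.L h x - fd d (h x))
    have a2 : G x * Real.smoothTransition (1 - (h x - w x) / e) ≤ G x * 1 :=
      mul_le_mul_of_nonneg_left (Real.smoothTransition.le_one _) (ps_nonneg _ _)
    simp only [mul_one] at a2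
    exact a2.trans a1
  · intro x hx
    by_contra hcon
    push Not at hcon
    apply hx
    have : 1 - (h x - w x) / e ≤ 0 := by
      rw [sub_nonpos, le_div_iff₀ he]; linarith
    change G x * Real.smoothTransition (1 - (h x - w x) / e) = 0
    rw [Real.smoothTransition.zero_of_nonpos this, mul_zero]
  · intro x
    refine (abs_add_le _ _).trans ?_
    have a1 : |2 * Ld * e * Real.smoothTransition ((w x - h x) / e)| ≤ 2 * Ld * e := by
      rw [abs_mul, abs_of_nonneg (Real.smoothTransition.nonneg _), abs_of_pos (by positivity)]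
      exact mul_le_of_le_one_right (by positivity) (Real.smoothTransition.le_one _)
    linarith

/-! ### the penalised pair -/

/-- the data: a pair of regularised subsolutions. -/
structure Dat (C : Calc X μ) (d : ℝ) (φ₀ ψ₀ : X → ℝ) : Prop where
  sφ : C.Sm φ₀
  sψ : C.Sm ψ₀
  φpos : ∀ x, 0 < φ₀ x
  ψpos : ∀ x, 0 < ψ₀ x
  φlow : ∀ x, d / 2 ≤ φ₀ x ^ 3
  ψlow : ∀ x, d / 2 ≤ ψ₀ x ^ 3
  sum_le : ∀ x, φ₀ x ^ 3 + ψ₀ x ^ 3 ≤ 2 - 4 * d
  subφ : ∀ x, fd d (φ₀ x) ≤ C.L φ₀ x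
  subψ : ∀ x, fd d (ψ₀ x) ≤ C.L ψ₀ x

/-- the penalised pair. -/
structure PenSol (C : Calc X μ) (φ₀ ψ₀ : X → ℝ) (d K e ε : ℝ) where
  φ : X → ℝ
  ψ : X → ℝ
  h₁ : X → ℝ
  h₂ : X → ℝ
  m₁ : X → ℝ
  m₂ : X → ℝ
  g₁ : X → ℝ
  g₂ : X → ℝ
  r₁ : X → ℝ
  r₂ : X → ℝ
  sφ : C.Sm φ
  sψ : C.Sm ψ
  sh₁ : C.Sm h₁
  sh₂ : C.Sm h₂
  sm₁ : C.Sm m₁
  sm₂ : C.Sm m₂
  sg₁ : C.Sm g₁
  sg₂ : C.Sm g₂
  sr₁ : C.Sm r₁
  sr₂ : C.Sm r₂
  h₁pos : ∀ x, 0 < h₁ x
  h₂pos : ∀ x, 0 < h₂ x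
  h₁cube : ∀ x, h₁ x ^ 3 = 2 - 40 * e - ψ₀ x ^ 3
  h₂cube : ∀ x, h₂ x ^ 3 = 2 - φ x ^ 3
  φge : ∀ x, φ₀ x ≤ φ x
  φle : ∀ x, φ x ≤ h₁ x + 2 * e
  ψge : ∀ x, ψ₀ x ≤ ψ x
  ψle : ∀ x, ψ x ≤ h₂ x + 2 * e
  eqφ : ∀ x, C.L φ x = fd d (φ x) + m₁ x + g₁ x
  eqψ : ∀ x, C.L ψ x = fd d (ψ x) + m₂ x + g₂ x
  m₁nn : ∀ x, 0 ≤ m₁ x
  m₂nn : ∀ x, 0 ≤ m₂ x
  m₁le : ∀ x, m₁ x ≤ max 0 (C.L h₁ x - fd d (h₁ x)) + e
  m₂le : ∀ x, m₂ x ≤ max 0 (C.L h₂ x - fd d (h₂ x)) + e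
  m₁sup : ∀ x, m₁ x ≠ 0 → h₁ x - φ x ≤ e
  m₂sup : ∀ x, m₂ x ≠ 0 → h₂ x - ψ x ≤ e
  g₁le : ∀ x, |g₁ x| ≤ K * e + |r₁ x|
  g₂le : ∀ x, |g₂ x| ≤ K * e + |r₂ x|
  r₁int : ∫ x, r₁ x ^ 4 ∂μ ≤ ε
  r₂int : ∫ x, r₂ x ^ 4 ∂μ ≤ ε

lemma cube_rpow {a : ℝ} (ha : 0 ≤ a) : (a ^ (1 / 3 : ℝ)) ^ 3 = a := by
  rw [← Real.rpow_natCast, ← Real.rpow_mul ha]
  norm_num

lemma le_of_cube_le {a b : ℝ} (hb : 0 ≤ b) (h : a ^ 3 ≤ b ^ 3) : a ≤ b :=
  le_of_pow_le_pow_left₀ (by norm_num) hb h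

/-- **existence of the penalised pair**. -/
theorem exists_pen (C : Calc X μ) {d : ℝ} (hd : 0 < d) (hd8 : d ≤ 1 / 8) {φ₀ ψ₀ : X → ℝ}
    (D : Dat C d φ₀ ψ₀) {e : ℝ} (he : 0 < e) (hed : 40 * e ≤ d) {ε : ℝ} (hε : 0 < ε) :
    Nonempty (PenSol C φ₀ ψ₀ d (2 * lipc d (d / 2)) e ε) := by
  have hb : 0 < d / 2 := by positivity
  have he1 : e ≤ 1 / 320 := by linarith
  have hblow : ∀ u : ℝ, 0 < u → d / 2 ≤ u ^ 3 → d / 2 ≤ u := fun u hu h => by
    refine le_of_cube_le hu.le (le_trans ?_ h)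
    nlinarith [sq_nonneg (d / 2), mul_pos hb hb]
  -- bounds from the cube
  have hle : ∀ u : ℝ, 0 ≤ u → u ^ 3 ≤ 2 → u ≤ 63 / 50 := fun u hu h => by
    refine le_of_cube_le (by norm_num) (h.trans (by norm_num))
  -- step 1
  have p1 : ∀ x, 0 < 2 - 40 * e - ψ₀ x ^ 3 := fun x => by
    have := D.sum_le x; have := D.φlow x; nlinarith
  let h₁ : X → ℝ := fun x => (2 - 40 * e - ψ₀ x ^ 3) ^ (1 / 3 : ℝ)
  have sh₁ : C.Sm h₁ := sm_rpow (sm_sub (sm_const _) (sm_pow D.sψ 3)) p1 _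
  have h₁c : ∀ x, h₁ x ^ 3 = 2 - 40 * e - ψ₀ x ^ 3 := fun x => cube_rpow (p1 x).le
  have h₁p : ∀ x, 0 < h₁ x := fun x => Real.rpow_pos_of_pos (p1 x) _
  have h₁u : ∀ x, h₁ x ≤ 63 / 50 := fun x => hle _ (h₁p x).le (by
    rw [h₁c x]; have := pow_pos (D.ψpos x) 3; linarith)
  have φ₀u : ∀ x, φ₀ x ≤ 63 / 50 := fun x => hle _ (D.φpos x).le (by
    have := D.sum_le x; have := pow_pos (D.ψpos x) 3; linarith)
  have ψ₀u : ∀ x, ψ₀ x ≤ 63 / 50 := fun x => hle _ (D.ψpos x).le (by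
    have := D.sum_le x; have := pow_pos (D.φpos x) 3; linarith)
  have cub : ∀ u : ℝ, 0 < u → u ≤ 63 / 50 → (u + e) ^ 3 ≤ u ^ 3 + 6 * e := fun u hu hu1 => by
    have a1 : u ^ 2 ≤ 1.5876 := by nlinarith
    have a2 : u * e ≤ 0.00394 := by nlinarith
    have a3 : e ^ 2 ≤ 0.00001 := by nlinarith
    nlinarith [mul_le_mul_of_nonneg_left a1 he.le, mul_le_mul_of_nonneg_left a2 he.le,
      mul_le_mul_of_nonneg_left a3 he.le]
  have cub2 : ∀ u : ℝ, 0 < u → u ≤ 63 / 50 → (u + 2 * e) ^ 3 ≤ u ^ 3 + 11 * e := fun u hu hu1 => by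
    have a1 : u ^ 2 ≤ 1.5876 := by nlinarith
    have a2 : u * e ≤ 0.00394 := by nlinarith
    have a3 : e ^ 2 ≤ 0.00001 := by nlinarith
    nlinarith [mul_le_mul_of_nonneg_left a1 he.le, mul_le_mul_of_nonneg_left a2 he.le,
      mul_le_mul_of_nonneg_left a3 he.le]
  have h₁φ : ∀ x, φ₀ x + e ≤ h₁ x := fun x => by
    refine le_of_cube_le (h₁p x).le ((cub _ (D.φpos x) (φ₀u x)).trans ?_)
    rw [h₁c x]
    have := D.sum_le x
    linarith
  obtain ⟨φ, m₁, g₁, r₁, sφ, sm₁, sg₁, sr₁, φge, φle, eqφ, m₁nn, m₁le, m₁sup, g₁le, r₁int⟩ :=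
    step C (d := d) hb he D.sφ sh₁ (fun x => hblow _ (D.φpos x) (D.φlow x)) h₁φ
      (fun x => by have := h₁u x; linarith) D.subφ hε
  -- step 2
  have φpos : ∀ x, 0 < φ x := fun x => (D.φpos x).trans_le (φge x)
  have φcub : ∀ x, φ x ^ 3 ≤ 2 - 40 * e - ψ₀ x ^ 3 + 11 * e := fun x => by
    have a1 : φ x ^ 3 ≤ (h₁ x + 2 * e) ^ 3 := pow_le_pow_left₀ (φpos x).le (φle x) 3
    have a2 := cub2 _ (h₁p x) (h₁u x)
    rw [h₁c x] at a2
    linarith
  have p2 : ∀ x, 0 < 2 - φ x ^ 3 := fun x => by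
    have := φcub x; have := pow_pos (D.ψpos x) 3; linarith
  let h₂ : X → ℝ := fun x => (2 - φ x ^ 3) ^ (1 / 3 : ℝ)
  have sh₂ : C.Sm h₂ := sm_rpow (sm_sub (sm_const _) (sm_pow sφ 3)) p2 _
  have h₂c : ∀ x, h₂ x ^ 3 = 2 - φ x ^ 3 := fun x => cube_rpow (p2 x).le
  have h₂p : ∀ x, 0 < h₂ x := fun x => Real.rpow_pos_of_pos (p2 x) _
  have h₂u : ∀ x, h₂ x ≤ 63 / 50 := fun x => hle _ (h₂p x).le (by
    rw [h₂c x]; have := pow_pos (φpos x) 3; linarith)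
  have h₂ψ : ∀ x, ψ₀ x + e ≤ h₂ x := fun x => by
    refine le_of_cube_le (h₂p x).le ((cub _ (D.ψpos x) (ψ₀u x)).trans ?_)
    rw [h₂c x]
    have := φcub x
    linarith
  obtain ⟨ψ, m₂, g₂, r₂, sψ, sm₂, sg₂, sr₂, ψge, ψle, eqψ, m₂nn, m₂le, m₂sup, g₂le, r₂int⟩ :=
    step C (d := d) hb he D.sψ sh₂ (fun x => hblow _ (D.ψpos x) (D.ψlow x)) h₂ψ
      (fun x => by have := h₂u x; linarith) D.subψ hε
  exact ⟨⟨φ, ψ, h₁, h₂, m₁, m₂, g₁, g₂, r₁, r₂, sφ, sψ, sh₁, sh₂, sm₁, sm₂, sg₁, sg₂, sr₁, sr₂,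
    h₁p, h₂p, h₁c, h₂c, φge, φle, ψge, ψle, eqφ, eqψ, m₁nn, m₂nn, m₁le, m₂le, m₁sup, m₂sup, g₁le,
    g₂le, r₁int, r₂int⟩⟩

end Crest.Agent.R249.Pen_806
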