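import Crest.Agent.R249.PairF_780
import Crest.Agent.R249.Pen_806

/-!
Row 249, part A2, sections 5 and 6 (helper780), file 9: **output of sections 5 and 6** for the
penalised pairs `PenSol` of helper806: the simplex property and all integral bounds, in the form
needed for the limit passage (helper621).
-/

set_option autoImplicit false
set_option linter.unusedVariables false
set_option linter.unusedSectionVars false

open MeasureTheory Set Filter Topology Matrix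
open scoped ContDiff

noncomputable section

namespace Crest.Agent.R249.PairG_780

open Crest.Agent.R249.Calc_806 Crest.Agent.R249.Calc_806.Calc Crest.Agent.R249.SimA_780
  Crest.Agent.R249.IntA_780

variable {X : Type*} [TopologicalSpace X] [CompactSpace X] [MeasurableSpace X]
  [OpensMeasurableSpace X] {μ : Measure X} [IsFiniteMeasure μ]
variable {C : Calc X μ} {d K e ε : ℝ} {φ₀ ψ₀ : X → ℝ}

lemma fd_same (d u : ℝ) : Pen_806.fd d u = PairA_780.fd d u := rfl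

lemma toDat (hd : 0 < d) (hd8 : d ≤ 1 / 8) (D : Pen_806.Dat C d φ₀ ψ₀) :
    PairA_780.Dat C d φ₀ ψ₀ where
  d_pos := hd
  d_le := hd8
  smφ := D.sφ
  smψ := D.sψ
  posφ := D.φpos
  posψ := D.ψpos
  loφ := D.φlow
  loψ := D.ψlow
  sum_le := D.sum_le
  subφ := D.subφ
  subψ := D.subψ

/-- conversion of the structures. -/
def toSol (S : Pen_806.PenSol C φ₀ ψ₀ d K e ε) : PairA_780.Sol C φ₀ ψ₀ d K e ε where
  φ := S.φ
  ψ := S.ψ
  h₁ := S.h₁
  h₂ := S.h₂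
  m₁ := S.m₁
  m₂ := S.m₂
  g₁ := S.g₁
  g₂ := S.g₂
  r₁ := S.r₁
  r₂ := S.r₂
  smφ := S.sφ
  smψ := S.sψ
  smh₁ := S.sh₁
  smh₂ := S.sh₂
  smm₁ := S.sm₁
  smm₂ := S.sm₂
  smg₁ := S.sg₁
  smg₂ := S.sg₂
  contr₁ := C.sm_cont S.sr₁
  contr₂ := C.sm_cont S.sr₂
  pos₁ := S.h₁pos
  pos₂ := S.h₂pos
  cub₁ := S.h₁cube
  cub₂ := S.h₂cube
  loφ := S.φge
  upφ := S.φle
  loψ := S.ψge
  upψ := S.ψle
  eqφ := S.eqφ
  eqψ := S.eqψ
  nn₁ := S.m₁nn
  nn₂ := S.m₂nn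
  le₁ := S.m₁le
  le₂ := S.m₂le
  supp₁ := S.m₁sup
  supp₂ := S.m₂sup
  gle₁ := S.g₁le
  gle₂ := S.g₂le
  int₁ := by
    have : ∀ x, |S.r₁ x| ^ 4 = S.r₁ x ^ 4 := fun x => by
      rw [show |S.r₁ x| ^ 4 = (|S.r₁ x| ^ 2) ^ 2 by ring, sq_abs]; ring
    simp only [this]
    exact S.r₁int
  int₂ := by
    have : ∀ x, |S.r₂ x| ^ 4 = S.r₂ x ^ 4 := fun x => by
      rw [show |S.r₂ x| ^ 4 = (|S.r₂ x| ^ 2) ^ 2 by ring, sq_abs]; ring
    simp only [this]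
    exact S.r₂int

/-- the constraint function. -/
def kap (S : Pen_806.PenSol C φ₀ ψ₀ d K e ε) (x : X) : ℝ := 2 - S.φ x ^ 3 - S.ψ x ^ 3

/-- **output of sections 5 and 6** for one penalised pair. -/
structure Out (S : Pen_806.PenSol C φ₀ ψ₀ d K e ε) (A δ : ℝ) (er : X → ℝ) : Prop where
  er_meas : Measurable er
  er_nn : ∀ x, 0 ≤ er x
  er_int : Integrable (fun x => er x ^ 2) μ
  er_le : ∫ x, er x ^ 2 ∂μ ≤ δ
  simplex : ∀ x, 3 * S.φ x ^ 2 * S.m₁ x + 3 * S.ψ x ^ 2 * S.m₂ x ≤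
    max (EE (S.φ x) (S.ψ x) (C.G S.φ S.φ x) (C.G S.ψ S.ψ x)) 0 + 180 * d + er x
  kap_ge : ∀ x, -(11 * e) ≤ kap S x
  supp₁ : ∀ x, 45 * e < kap S x → S.m₁ x = 0
  supp₂ : ∀ x, 45 * e < kap S x → S.m₂ x = 0
  kap_four : ∫ x in {x | kap S x ≤ 45 * e}, C.G (kap S) (kap S) x ^ 2 ∂μ ≤ δ
  g₁_sq : ∫ x, S.g₁ x ^ 2 ∂μ ≤ δ
  g₂_sq : ∫ x, S.g₂ x ^ 2 ∂μ ≤ δ
  bound : ∫ x, (1 + C.G S.φ S.φ x + C.G S.ψ S.ψ x + |C.L S.φ x| + |C.L S.ψ x|) ^ 2 ∂μ ≤ A
  rbφ : ∫ x, C.Rb S.φ x ∂μ ≤ A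
  rbψ : ∫ x, C.Rb S.ψ x ∂μ ≤ A
  rbκ : ∫ x, C.Rb (kap S) x ∂μ ≤ A

/-- **sections 5 and 6**. -/
theorem exists_out (C : Calc X μ) (hd : 0 < d) (hd8 : d ≤ 1 / 8) (D : Pen_806.Dat C d φ₀ ψ₀) :
    ∃ A : ℝ, 0 ≤ A ∧ ∀ δ > 0, ∃ e₀ > 0, ∀ e > 0, e ≤ e₀ → ∀ ε, ε ≤ e ^ 2 →
      ∀ S : Pen_806.PenSol C φ₀ ψ₀ d K e ε, ∃ er : X → ℝ, Out S A δ er := by
  have hD := toDat hd hd8 D
  obtain ⟨A₁, hA₁, h1⟩ := PairA_780.int_Err (K := K) hD
  obtain ⟨A₂, hA₂, h2⟩ := PairA_780.trunc_κ (K := K) hD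
  have hlb := ((((PairA_780.LB.const (C := C) (φ₀ := φ₀) (ψ₀ := ψ₀) (d := d) (K := K) 1).add
    (PairA_780.lb_G_φ (K := K) hD)).add (PairA_780.lb_G_ψ (K := K) hD)).add
    (PairA_780.lb_L_φ (K := K) hD).abs).add (PairA_780.lb_L_ψ (K := K) hD).abs
  obtain ⟨A₃, hA₃, h3⟩ := hlb.ub
  obtain ⟨A₄, hA₄, h4⟩ := PairA_780.ub_Rb_φ (K := K) hD
  obtain ⟨A₅, hA₅, h5⟩ := PairA_780.ub_Rb_ψ (K := K) hD
  obtain ⟨A₆, hA₆, h6⟩ := PairA_780.ub_Rb_of (K := K) (F := fun _ _ S => S.κ)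
    (fun _ _ S => S.smκ) (PairA_780.lb_L_κ (K := K) hD).ub
  have hKg := PairA_780.Kg_nonneg (K := K) (μ := μ)
  have hb := PairA_780.bb_pos hd
  refine ⟨A₃ + A₄ + A₅ + A₆, by positivity, fun δ hδ => ?_⟩
  -- the smallness
  set B : ℝ := 1 + A₁ + A₂ + PairA_780.Kg K μ with hB
  have hB0 : 0 < B := by rw [hB]; linarith
  refine ⟨min (min (d / 40) (PairA_780.bb d)) (min 1 ((δ / B) ^ 2)), ?_, ?_⟩
  · refine lt_min (lt_min (by positivity) hb) (lt_min one_pos (by positivity))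
  intro e he hee ε hε S
  have l1 : e ≤ d / 40 := hee.trans ((min_le_left _ _).trans (min_le_left _ _))
  have l2 : e ≤ PairA_780.bb d := hee.trans ((min_le_left _ _).trans (min_le_right _ _))
  have l3 : e ≤ 1 := hee.trans ((min_le_right _ _).trans (min_le_left _ _))
  have l4 : e ≤ (δ / B) ^ 2 := hee.trans ((min_le_right _ _).trans (min_le_right _ _))
  have hs : PairA_780.Small d e := ⟨he, by linarith, l2⟩
  have hse : Real.sqrt e ≤ δ / B := by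
    rw [Real.sqrt_le_left (by positivity)]
    exact l4
  have hes : e ≤ Real.sqrt e := by
    have h8 : Real.sqrt e ^ 2 = e := Real.sq_sqrt he.le
    have h9 : Real.sqrt e ≤ 1 := Real.sqrt_le_one.2 l3
    have h10 := Real.sqrt_nonneg e
    nlinarith
  have key : ∀ {a : ℝ}, 0 ≤ a → a ≤ B → a * Real.sqrt e ≤ δ := by
    intro a ha haB
    have : a * Real.sqrt e ≤ B * (δ / B) := mul_le_mul haB hse (Real.sqrt_nonneg _) hB0.le
    rw [mul_div_cancel₀ _ hB0.ne'] at this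
    exact this
  have key' : ∀ {a : ℝ}, 0 ≤ a → a ≤ B → a * e ≤ δ := fun ha haB =>
    (mul_le_mul_of_nonneg_left hes ha).trans (key ha haB)
  set T := toSol S with hT
  obtain ⟨q1, q2, q3⟩ := h1 e ε T hs hε
  have kκ : kap S = T.κ := rfl
  refine ⟨T.Err, ?_⟩
  constructor
  · exact q1
  · exact T.Err_nonneg hD hs
  · exact q2
  · exact q3.trans (key hA₁ (by rw [hB]; linarith))
  · exact T.simplex hD hs
  · exact T.kap_ge hD hs
  · intro x hx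
    by_contra hne
    exact absurd (T.kap_le₁ hD hs x hne) (not_le.2 hx)
  · intro x hx
    by_contra hne
    have h9 := T.kap_le₂ hD hs x hne
    have h10 : kap S x ≤ 5 * e := h9
    linarith
  · have hm : MeasurableSet {x | kap S x ≤ 45 * e} :=
      (isClosed_le (C.sm_cont T.smκ) continuous_const).measurableSet
    exact (h2 e ε T hs hε _ hm fun x hx => hx).1.trans (key' hA₂ (by rw [hB]; linarith))
  · exact (T.int_g₁ hD hs hε).trans (key' hKg (by rw [hB]; linarith))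
  · exact (T.int_g₂ hD hs hε).trans (key' hKg (by rw [hB]; linarith))
  · have := h3 e ε T hs hε
    simp only at this
    refine le_trans this (by linarith)
  · have := h4 e ε T hs hε
    exact le_trans this (by linarith)
  · have := h5 e ε T hs hε
    exact le_trans this (by linarith)
  · have := h6 e ε T hs hε
    exact le_trans this (by linarith)

/-- **sections 3-6**: existence of penalised pairs with all bounds. -/
theorem exists_pair (C : Calc X μ) (hd : 0 < d) (hd8 : d ≤ 1 / 8) (D : Pen_806.Dat C d φ₀ ψ₀) :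
    ∃ A : ℝ, 0 ≤ A ∧ ∀ δ > 0, ∃ e ε : ℝ, 0 < e ∧ e ≤ δ ∧ 40 * e ≤ d ∧ 0 < ε ∧
      ∃ S : Pen_806.PenSol C φ₀ ψ₀ d (2 * Pen_806.lipc d (d / 2)) e ε, ∃ er : X → ℝ,
        Out S A δ er := by
  obtain ⟨A, hA, h⟩ := exists_out (K := 2 * Pen_806.lipc d (d / 2)) C hd hd8 D
  refine ⟨A, hA, fun δ hδ => ?_⟩
  obtain ⟨e₀, he₀, h1⟩ := h δ hδ
  set e := min e₀ (min δ (d / 40)) with he
  have e0 : 0 < e := lt_min he₀ (lt_min hδ (by positivity))
  have e1 : e ≤ e₀ := min_le_left _ _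
  have e2 : e ≤ δ := (min_le_right _ _).trans (min_le_left _ _)
  have e3 : e ≤ d / 40 := (min_le_right _ _).trans (min_le_right _ _)
  have e4 : 40 * e ≤ d := by linarith
  obtain ⟨S⟩ := Pen_806.exists_pen C hd hd8 D e0 e4 (show 0 < e ^ 2 by positivity)
  obtain ⟨er, her⟩ := h1 e e0 e1 (e ^ 2) le_rfl S
  exact ⟨e, e ^ 2, e0, e2, e4, by positivity, S, er, her⟩

end Crest.Agent.R249.PairG_780
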