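import Crest.Agent.R249.Lim4_621
import Crest.Agent.R249.PairG_780

/-!
# Row 249, part A2 (BP-A2 section 9): the limit passage for the penalised pairs of helper806
-/

set_option autoImplicit false
set_option linter.unusedVariables false
set_option linter.unusedSectionVars false

open MeasureTheory Set Filter Topology Matrix
open scoped ContDiff

noncomputable section

namespace Crest.Agent.R249.Lim621

open Calc_806 Calc_806.Calc

attribute [local instance] Matrix.frobeniusNormedAddCommGroup Matrix.frobeniusNormedSpace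

variable {X : Type*} [TopologicalSpace X] [CompactSpace X] [MeasurableSpace X]
  [OpensMeasurableSpace X] {μ : Measure X} [IsFiniteMeasure μ]

theorem fd_lip' {d b : ℝ} (hb : 0 < b) {s t : ℝ} (hs : b ≤ s) (hs2 : s ≤ 2) (ht : b ≤ t)
    (ht2 : t ≤ 2) : |Pen_806.fd d s - Pen_806.fd d t| ≤ Pen_806.lipc d b * |s - t| := by
  rcases le_total s t with h | h
  · rw [abs_sub_comm, abs_sub_comm s t, abs_of_nonneg (sub_nonneg.2 h)]
    exact Pen_806.fd_lip hb hs h ht2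
  · rw [abs_of_nonneg (sub_nonneg.2 h)]
    exact Pen_806.fd_lip hb ht h hs2

/-- from helper780's output to the data of the limit passage -/
theorem toBdData {C : Calc X μ} {d K e ε A δ : ℝ} {φ₀ ψ₀ : X → ℝ} (hd : 0 < d) (hd8 : d ≤ 1 / 8)
    (D : Pen_806.Dat C d φ₀ ψ₀) (he : 0 < e) (he1 : 45 * e ≤ 1 / 2) (heδ : 45 * e ≤ δ)
    (S : Pen_806.PenSol C φ₀ ψ₀ d K e ε) {er : X → ℝ} (O : PairG_780.Out S A δ er) :
    BdData C (d / 2) (180 * d) A δ (Pen_806.fd d) S.φ S.ψ S.m₁ S.m₂ S.g₁ S.g₂ er (45 * e) := by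
  have hkap : PairG_780.kap S = kapf S.φ S.ψ := by
    funext x
    show 2 - S.φ x ^ 3 - S.ψ x ^ 3 = 2 - (S.φ x ^ 3 + S.ψ x ^ 3)
    ring
  have hlow : ∀ u : ℝ, 0 < u → d / 2 ≤ u ^ 3 → d / 2 ≤ u := fun u hu h => by
    refine Pen_806.le_of_cube_le hu.le (le_trans ?_ h)
    have hb : 0 < d / 2 := by positivity
    nlinarith [sq_nonneg (d / 2), mul_pos hb hb]
  have hk := O.kap_ge
  have hs1 := O.supp₁
  have hs2 := O.supp₂
  have hk4 := O.kap_four
  rw [hkap] at hk hs1 hs2 hk4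
  exact
  { sφ := S.sφ
    sψ := S.sψ
    φge := fun x => (hlow _ (D.φpos x) (D.φlow x)).trans (S.φge x)
    ψge := fun x => (hlow _ (D.ψpos x) (D.ψlow x)).trans (S.ψge x)
    ε0 := by positivity
    ε12 := he1
    εδ := heδ
    kap := fun x => by have := hk x; linarith
    eqφ := S.eqφ
    eqψ := S.eqψ
    m0 := S.m₁nn
    m0' := S.m₂nn
    off := fun x hx => ⟨hs1 x hx, hs2 x hx⟩
    er0 := O.er_nn
    simplex := fun x _ => O.simplex x
    mr := (C.sm_cont S.sg₁).aestronglyMeasurable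
    mr' := (C.sm_cont S.sg₂).aestronglyMeasurable
    mer := O.er_meas.aestronglyMeasurable
    ir := integrable_cont ((C.sm_cont S.sg₁).pow 2)
    ir' := integrable_cont ((C.sm_cont S.sg₂).pow 2)
    ier := O.er_int
    br := O.g₁_sq
    br' := O.g₂_sq
    ber := O.er_le
    bκ := hk4
    bA := O.bound }

/-- **BP-A2 sections 3-9.**  `hdiv`: every admissible pair has a smooth field whose divergence
dominates `I`. -/
theorem exists_lim (C : Calc X μ) {d Cθ CI CO CR : ℝ} (hd : 0 < d) (hd8 : d ≤ 1 / 8)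
    {φ₀ ψ₀ : X → ℝ} (D : Pen_806.Dat C d φ₀ ψ₀) {I Om R : Jet E4 H4 → ℝ}
    (hI : Lip (d / 4) CI I) (hO : Lip (d / 4) CO Om) (hR : Lip (d / 4) CR R)
    (hCI : 0 ≤ CI) (hCO : 0 ≤ CO) (hCR : 0 ≤ CR)
    (hC : Cert trH SyH (Pen_806.fd d) (180 * d) I Om R)
    (hdiv : ∀ φ ψ : X → ℝ, C.Sm φ → C.Sm ψ → (∀ x, d / 2 ≤ φ x) → (∀ x, d / 2 ≤ ψ x) →
      (∀ x, φ x ^ 3 + ψ x ^ 3 ≤ 5 / 2) → ∃ θ V : X → ℝ, DivCert C (d / 2) Cθ I φ ψ θ V ∧
        Integrable (fun x => Om (jt C φ ψ θ x)) μ ∧ Integrable (fun x => R (jt C φ ψ θ x)) μ)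
    {δ' : ℝ} (hδ' : 0 < δ') :
    ∃ e ε : ℝ, 0 < e ∧ e ≤ δ' ∧ 40 * e ≤ d ∧ 0 < ε ∧
      ∃ S : Pen_806.PenSol C φ₀ ψ₀ d (2 * Pen_806.lipc d (d / 2)) e ε,
      (∀ x, S.φ x ^ 3 + S.ψ x ^ 3 ≤ 2 + 11 * e) ∧ ∃ θ V : X → ℝ,
        DivCert C (d / 2) Cθ I S.φ S.ψ θ V ∧
        ∫ x, Om (jt C S.φ S.ψ θ x) ∂μ ≤ ∫ x, R (jt C S.φ S.ψ θ x) ∂μ + δ' := by
  obtain ⟨A, hA, h⟩ := PairG_780.exists_pair C hd hd8 D
  have hd4 : d / 2 / 2 = d / 4 := by ring
  have hb : 0 < d / 2 := by positivity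
  obtain ⟨δ, hδ0, hδ⟩ := limit_passage C (A := A) (Cθ := Cθ) (F := Pen_806.fd d) hb
    (Pen_806.lipc_pos (d := d) (b := d / 4) (by positivity)).le (by positivity : 0 ≤ 180 * d)
    (by
      intro u v h1 h2 h3 h4
      rw [hd4] at h1 h3
      exact fd_lip' (by positivity) h1 h2 h3 h4)
    (by rw [hd4]; exact hI) (by rw [hd4]; exact hO) (by rw [hd4]; exact hR) hCI hCO hCR hC hδ'
  obtain ⟨e, ε, he, heδ, hed, hε, S, er, O⟩ := h (min (min δ δ') (1 / 2) / 45) (by positivity)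
  have h1 : 45 * e ≤ min (min δ δ') (1 / 2) := by linarith
  have h2 : 45 * e ≤ δ := h1.trans ((min_le_left _ _).trans (min_le_left _ _))
  have h3 : 45 * e ≤ δ' := h1.trans ((min_le_left _ _).trans (min_le_right _ _))
  have h4 : 45 * e ≤ 1 / 2 := h1.trans (min_le_right _ _)
  have h5 : min (min δ δ') (1 / 2) / 45 ≤ δ := by
    have : min (min δ δ') (1 / 2) ≤ δ := (min_le_left _ _).trans (min_le_left _ _)
    linarith
  have O' : PairG_780.Out S A δ er :=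
    { er_meas := O.er_meas
      er_nn := O.er_nn
      er_int := O.er_int
      er_le := O.er_le.trans h5
      simplex := O.simplex
      kap_ge := O.kap_ge
      supp₁ := O.supp₁
      supp₂ := O.supp₂
      kap_four := O.kap_four.trans h5
      g₁_sq := O.g₁_sq.trans h5
      g₂_sq := O.g₂_sq.trans h5
      bound := O.bound
      rbφ := O.rbφ
      rbψ := O.rbψ
      rbκ := O.rbκ }
  have B := toBdData hd hd8 D he h4 h2 S O'
  have hk : ∀ x, S.φ x ^ 3 + S.ψ x ^ 3 ≤ 2 + 11 * e := fun x => by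
    have h := O.kap_ge x
    have : PairG_780.kap S x = 2 - S.φ x ^ 3 - S.ψ x ^ 3 := rfl
    rw [this] at h
    linarith
  obtain ⟨θ, V, DC, iO, iR⟩ := hdiv S.φ S.ψ S.sφ S.sψ B.φge B.ψge (fun x => by
    have := hk x; linarith)
  exact ⟨e, ε, he, by linarith, hed, hε, S, hk, θ, V, DC,
    hδ S.φ S.ψ S.m₁ S.m₂ S.g₁ S.g₂ er θ V (45 * e) B DC iO iR⟩

end Crest.Agent.R249.Lim621
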