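import Crest.Agent.R249.Lim5_41
/-!
R249 / D3-LIM (helper41).  Abstract limit lemma, part 6: weak derivative of `f` from `div (M f) = p`.
-/

set_option autoImplicit false

open MeasureTheory Filter Topology Set
open scoped ContDiff ENNReal
open Crest.GeometryTopology.CoordMetric

noncomputable section

namespace Crest.Agent.R249.Lim41

theorem CC.sum {n : ℕ} {Ω : Set (E n)} {κ : Type*} (s : Finset κ) {φ : κ → E n → ℝ}
    (h : ∀ j ∈ s, CC Ω (φ j)) : CC Ω (fun x => ∑ j ∈ s, φ j x) := by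
  classical
  induction s using Finset.induction_on with
  | empty => simpa using CC.zero
  | insert j s hj ih =>
      have h1 := (h j (Finset.mem_insert_self _ _)).add
        (ih fun k hk => h k (Finset.mem_insert_of_mem hk))
      have h2 : (fun x => ∑ k ∈ insert j s, φ k x) = fun x => φ j x + ∑ k ∈ s, φ k x := by
        ext x; rw [Finset.sum_insert hj]
      rw [h2]; exact h1

theorem LI.one {n : ℕ} {Ω : Set (E n)} : LI Ω (fun _ : E n => (1 : ℝ)) := fun K hK _ =>
  continuousOn_const.integrableOn_compact hK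

theorem LI.of_cont {n : ℕ} {Ω : Set (E n)} {f : E n → ℝ} (hf : ContinuousOn f Ω) : LI Ω f :=
  fun _ hK h => (hf.mono h).integrableOn_compact hK

theorem LI.of_memLp {n : ℕ} {Ω : Set (E n)} {f : E n → ℝ} (hf : MemLp f 2 (volume : Measure (E n))) :
    LI Ω f := fun _ hK _ => (hf.locallyIntegrable (by norm_num)).integrableOn_isCompact hK

theorem LI.mul_cont {n : ℕ} {Ω : Set (E n)} {f g : E n → ℝ} (hf : ContinuousOn f Ω)
    (hg : LI Ω g) : LI Ω (fun y => f y * g y) := by
  intro K hK h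
  obtain ⟨B, hB⟩ := hK.exists_bound_of_continuousOn (hf.mono h)
  refine (hg K hK h).bdd_mul (c := B) ((hf.mono h).aestronglyMeasurable hK.measurableSet) ?_
  exact (ae_restrict_iff' hK.measurableSet).2 (Eventually.of_forall fun y hy => hB y hy)

theorem LI.add {n : ℕ} {Ω : Set (E n)} {f g : E n → ℝ} (hf : LI Ω f)
    (hg : LI Ω g) : LI Ω (fun y => f y + g y) := fun K hK h => (hf K hK h).add (hg K hK h)

theorem LI.sum {n : ℕ} {Ω : Set (E n)} {κ : Type*} (s : Finset κ) {f : κ → E n → ℝ}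
    (hf : ∀ j ∈ s, LI Ω (f j)) : LI Ω (fun y => ∑ j ∈ s, f j y) := fun K hK h =>
  integrable_finsetSum s fun j hj => hf j hj K hK h

theorem pderiv_mul' {n : ℕ} {f g : E n → ℝ} (d : Fin n) (x : E n) (hf : DifferentiableAt ℝ f x)
    (hg : DifferentiableAt ℝ g x) :
    pderiv d (fun y => f y * g y) x = pderiv d f x * g x + f x * pderiv d g x := by
  unfold pderiv
  rw [fderiv_fun_mul hf hg]
  simp
  ring

/-- mollification converges at the Hölder rate -/
theorem abs_cv_sub_le {n : ℕ} {Ω Kr : Set (E n)} (hKr : IsCompact Kr) (hKrΩ : Kr ⊆ Ω) {f : E n → ℝ}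
    {C α : ℝ} (hα : 0 < α) (hC : 0 ≤ C)
    (hf : ∀ x ∈ Ω, ∀ y ∈ Ω, |f x - f y| ≤ C * dist x y ^ α) {x : E n} {ε : ℝ} (hε : 0 < ε)
    (hx : Metric.closedBall x ε ⊆ Kr) :
    |cv (Kr.indicator f) (mol n ε) x - f x| ≤ C * ε ^ α := by
  have hxK : x ∈ Kr := hx (Metric.mem_closedBall_self hε.le)
  have hfi : Integrable (Kr.indicator f) := by
    rw [integrable_indicator_iff hKr.isClosed.measurableSet]
    exact ((hold_cont hα hf).mono hKrΩ).integrableOn_compact hKr
  have hT := mol_test n hε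
  have hgi : Integrable (fun y => mol n ε (x - y)) := hT.integrable.comp_sub_left x
  have hint : Integrable (fun y => Kr.indicator f y * mol n ε (x - y)) := by
    obtain ⟨B, hB⟩ := hT.2.exists_bound_of_continuous hT.continuous
    have hc : Continuous (fun y => mol n ε (x - y)) :=
      hT.continuous.comp (continuous_const.sub continuous_id)
    exact hfi.mul_bdd (c := B) hc.aestronglyMeasurable (Eventually.of_forall fun y => hB _)
  have e1 : cv (Kr.indicator f) (mol n ε) x - f x =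
      ∫ y, (Kr.indicator f y - f x) * mol n ε (x - y) := by
    have : ∀ y, (Kr.indicator f y - f x) * mol n ε (x - y) =
        Kr.indicator f y * mol n ε (x - y) - f x * mol n ε (x - y) := fun y => by ring
    simp_rw [this]
    rw [integral_sub hint (hgi.const_mul _), integral_const_mul,
      integral_sub_left_eq_self (mol n ε), mol_integral n hε, mul_one]
    rfl
  rw [e1]
  have h1 := abs_conv_le (x := x) (A := C * ε ^ α) hT.integrable
    (fun z hz => mol_zero hε hz.le) (a := fun y => Kr.indicator f y - f x) (by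
      intro y hy
      have hyK : y ∈ Kr := hx (by rw [Metric.mem_closedBall, dist_comm]; exact hy)
      simp only [hyK, indicator_of_mem]
      have a1 := hf y (hKrΩ hyK) x (hKrΩ hxK)
      rw [dist_comm] at a1
      refine a1.trans ?_
      gcongr)
  refine h1.trans (le_of_eq ?_)
  have : ∀ z, |mol n ε z| = mol n ε z := fun z => abs_of_nonneg (mol_nonneg n hε z)
  simp_rw [this]
  rw [mol_integral n hε, mul_one]

section CET

variable {n : ℕ} {Ω : Set (E n)} {M N : Fin n → Fin n → E n → ℝ} {C α : ℝ}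

/-- **weak derivative from a divergence free Hölder coefficient** -/
theorem weak_deriv (hΩ : IsOpen Ω) (hα : 1 / 2 < α) (hC : 0 ≤ C)
    (hM : ∀ d c, ∀ x ∈ Ω, ∀ y ∈ Ω, |M d c x - M d c y| ≤ C * dist x y ^ α)
    (hN : ∀ d c, ∀ x ∈ Ω, ∀ y ∈ Ω, |N d c x - N d c y| ≤ C * dist x y ^ α)
    (hMN : ∀ x ∈ Ω, ∀ d e, ∑ c, M d c x * N c e x = if d = e then 1 else 0)
    (hdiv : ∀ c, ∀ φ, CS Ω φ → ∫ y, ∑ d, pderiv d φ y * M d c y = 0)
    {f : E n → ℝ} (hf : ContinuousOn f Ω) {p : Fin n → E n → ℝ} (hp : ∀ c, LI Ω (p c))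
    (heq : ∀ c, ∀ φ, CS Ω φ → ∫ y, φ y * p c y = - ∫ y, f y * ∑ d, pderiv d φ y * M d c y)
    (e : Fin n) {ζ : E n → ℝ} (hζ : CS Ω ζ) :
    ∫ y, f y * pderiv e ζ y = - ∫ y, ζ y * ∑ c, N c e y * p c y := by
  have hα0 : 0 < α := by linarith
  have hMc : ∀ d c, ContinuousOn (M d c) Ω := fun d c => hold_cont hα0 (hM d c)
  have hNc : ∀ d c, ContinuousOn (N d c) Ω := fun d c => hold_cont hα0 (hN d c)
  have hK : IsCompact (tsupport ζ) := hζ.comp
  obtain ⟨r, hr, hrΩ⟩ := hK.exists_cthickening_subset_open hΩ hζ.supp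
  set Kr := Metric.cthickening r (tsupport ζ) with hKrdef
  have hKr : IsCompact Kr := hK.cthickening
  have hball : ∀ x ∈ tsupport ζ, ∀ ε, ε ≤ r → Metric.closedBall x ε ⊆ Kr := by
    intro x hx ε hε y hy
    exact Metric.mem_cthickening_of_dist_le y x r _ hx ((Metric.mem_closedBall.1 hy).trans hε)
  have hsmall : ∀ᶠ ε in 𝓝[>] (0 : ℝ), 0 < ε ∧ ε ≤ r :=
    Ioc_mem_nhdsGT hr
  set Nm : ℝ → Fin n → E n → ℝ := fun ε c => cv (Kr.indicator (N c e)) (mol n ε) with hNm
  have hNi : ∀ c, Integrable (Kr.indicator (N c e)) := fun c => by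
    rw [integrable_indicator_iff hKr.isClosed.measurableSet]
    exact ((hNc c e).mono hrΩ).integrableOn_compact hKr
  have hNs : ∀ ε, 0 < ε → ∀ c, ContDiff ℝ ∞ (Nm ε c) := fun ε hε c =>
    contDiff_cv (hNi c).locallyIntegrable (mol_test n hε)
  have hNe : ∀ ε, 0 < ε → ε ≤ r → ∀ c, ∀ x ∈ tsupport ζ, |Nm ε c x - N c e x| ≤ C * ε ^ α :=
    fun ε hε hεr c x hx => abs_cv_sub_le hKr hrΩ hα0 hC (hN c e) hε (hball x hx ε hεr)
  have hζz : ∀ x, x ∉ tsupport ζ → ζ x = 0 := fun x hx => image_eq_zero_of_notMem_tsupport hx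
  have hdζz : ∀ d x, x ∉ tsupport ζ → pderiv d ζ x = 0 := by
    intro d x hx
    have h1 : x ∉ tsupport (fderiv ℝ ζ) := fun h => hx (tsupport_fderiv_subset ℝ h)
    have h2 : fderiv ℝ ζ x = 0 := image_eq_zero_of_notMem_tsupport h1
    unfold pderiv
    rw [h2]; rfl
  have hε0 : Tendsto (fun ε : ℝ => ε) (𝓝[>] 0) (𝓝 0) := nhdsWithin_le_nhds
  have hδ1 : Tendsto (fun ε : ℝ => C * ε ^ α) (𝓝[>] 0) (𝓝 0) := by
    have := (hε0.rpow_const (p := α) (Or.inr hα0.le)).const_mul C
    simpa [Real.zero_rpow hα0.ne'] using this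
  set K1 := ∑ d : Fin n, ∑ _c : Fin n, c1 n (EuclideanSpace.single d 1) with hK1
  have hδ2 : Tendsto (fun ε : ℝ => C ^ 2 * ε ^ (2 * α - 1) * K1) (𝓝[>] 0) (𝓝 0) := by
    have h2 : 0 < 2 * α - 1 := by linarith
    have := ((hε0.rpow_const (p := 2 * α - 1) (Or.inr h2.le)).const_mul (C ^ 2)).mul_const K1
    simpa [Real.zero_rpow h2.ne'] using this
  -- left side
  have hL : ∀ c, Tendsto (fun ε => ∫ y, (Nm ε c y * ζ y) * p c y) (𝓝[>] 0)
      (𝓝 (∫ y, (N c e y * ζ y) * p c y)) := by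
    intro c
    refine lim_cc (hp c) (b := ζ) (δ := fun ε => C * ε ^ α) ?_ ?_ hζ.cc hδ1 ?_
    · filter_upwards [hsmall] with ε hε
      exact hζ.cc.mul_left' (hNs ε hε.1 c).continuous
    · simpa [mul_comm] using hζ.cc.mul_cont hΩ (hNc c e)
    · filter_upwards [hsmall] with ε hε y
      rw [← sub_mul, abs_mul]
      by_cases hy : y ∈ tsupport ζ
      · exact mul_le_mul_of_nonneg_right (hNe ε hε.1 hε.2 c y hy) (abs_nonneg _)
      · rw [hζz y hy]; simp
  -- right side, first part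
  set S : ℝ → E n → ℝ := fun ε y => ∑ d, ∑ c, M d c y * pderiv d (Nm ε c) y with hS
  have hSc : ∀ ε, 0 < ε → ContinuousOn (S ε) Ω := by
    intro ε hε
    refine continuousOn_finsetSum _ fun d _ => continuousOn_finsetSum _ fun c _ => ?_
    refine (hMc d c).mul (Continuous.continuousOn ?_)
    exact ((hNs ε hε c).continuous_fderiv (by simp)).clm_apply continuous_const
  have hR1 : Tendsto (fun ε => ∫ y, (ζ y * (f y * S ε y)) * 1) (𝓝[>] 0)
      (𝓝 (∫ y, (fun _ : E n => (0 : ℝ)) y * 1)) := by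
    refine lim_cc (Ω := Ω) LI.one (b := fun y => ζ y * f y)
      (δ := fun ε => C ^ 2 * ε ^ (2 * α - 1) * K1)
      ?_ CC.zero (hζ.cc.mul_cont hΩ hf) hδ2 ?_
    · filter_upwards [hsmall] with ε hε
      exact hζ.cc.mul_cont hΩ (hf.mul (hSc ε hε.1))
    · filter_upwards [hsmall] with ε hε y
      rw [sub_zero]
      by_cases hy : y ∈ tsupport ζ
      · have h1 : |S ε y| ≤ C ^ 2 * ε ^ (2 * α - 1) * K1 :=
          comm_le hα0 hC hM hN hMN hdiv hKr hrΩ hε.1 (hball y hy ε hε.2) e
        rw [← mul_assoc, abs_mul, mul_comm]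
        exact mul_le_mul_of_nonneg_right h1 (abs_nonneg _)
      · rw [hζz y hy]; simp
  -- right side, second part
  have hR2 : Tendsto (fun ε => ∫ y, (∑ c, ∑ d, pderiv d ζ y * (f y * M d c y * Nm ε c y)) * 1)
      (𝓝[>] 0) (𝓝 (∫ y, (∑ c, ∑ d, pderiv d ζ y * (f y * M d c y * N c e y)) * 1)) := by
    refine lim_cc (Ω := Ω) LI.one (b := fun y => ∑ c, ∑ d, |pderiv d ζ y * (f y * M d c y)|)
      (δ := fun ε => C * ε ^ α) ?_ ?_ ?_ hδ1 ?_
    · filter_upwards [hsmall] with ε hε
      exact CC.sum _ fun c _ => CC.sum _ fun d _ => (hζ.pderiv d).cc.mul_cont hΩ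
        ((hf.mul (hMc d c)).mul (hNs ε hε.1 c).continuous.continuousOn)
    · exact CC.sum _ fun c _ => CC.sum _ fun d _ => (hζ.pderiv d).cc.mul_cont hΩ
        ((hf.mul (hMc d c)).mul (hNc c e))
    · exact CC.sum _ fun c _ => CC.sum _ fun d _ => ((hζ.pderiv d).cc.mul_cont hΩ
        (hf.mul (hMc d c))).abs
    · filter_upwards [hsmall] with ε hε y
      rw [abs_of_nonneg (a := ∑ c, ∑ d, |pderiv d ζ y * (f y * M d c y)|)
        (Finset.sum_nonneg fun c _ => Finset.sum_nonneg fun d _ => abs_nonneg _)]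
      rw [← Finset.sum_sub_distrib, Finset.mul_sum]
      refine (Finset.abs_sum_le_sum_abs _ _).trans (Finset.sum_le_sum fun c _ => ?_)
      rw [← Finset.sum_sub_distrib, Finset.mul_sum]
      refine (Finset.abs_sum_le_sum_abs _ _).trans (Finset.sum_le_sum fun d _ => ?_)
      have e1 : pderiv d ζ y * (f y * M d c y * Nm ε c y) - pderiv d ζ y * (f y * M d c y * N c e y) =
          (Nm ε c y - N c e y) * (pderiv d ζ y * (f y * M d c y)) := by ring
      rw [e1, abs_mul]
      by_cases hy : y ∈ tsupport ζ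
      · exact mul_le_mul_of_nonneg_right (hNe ε hε.1 hε.2 c y hy) (abs_nonneg _)
      · rw [hdζz d y hy]; simp
  have hLs : Tendsto (fun ε => ∑ c, ∫ y, (Nm ε c y * ζ y) * p c y) (𝓝[>] 0)
      (𝓝 (∑ c, ∫ y, (N c e y * ζ y) * p c y)) := tendsto_finsetSum _ fun c _ => hL c
  have hRs := (hR1.add hR2).neg
  have hEq : ∀ᶠ ε in 𝓝[>] (0 : ℝ), ∑ c, ∫ y, (Nm ε c y * ζ y) * p c y =
      -((∫ y, (ζ y * (f y * S ε y)) * 1) +
        (∫ y, (∑ c, ∑ d, pderiv d ζ y * (f y * M d c y * Nm ε c y)) * 1)) := by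
    filter_upwards [hsmall] with ε hε
    have hcs : ∀ c, CS Ω (fun y => Nm ε c y * ζ y) := fun c => hζ.smooth_mul (hNs ε hε.1 c)
    have h1 : ∀ c, ∫ y, (Nm ε c y * ζ y) * p c y =
        - ∫ y, f y * ∑ d, pderiv d (fun y => Nm ε c y * ζ y) y * M d c y := fun c =>
      heq c _ (hcs c)
    simp_rw [h1]
    rw [Finset.sum_neg_distrib, ← integral_finsetSum]
    · congr 1
      rw [← integral_add]
      · congr 1
        ext y
        have hp1 : ∀ d c, pderiv d (fun y => Nm ε c y * ζ y) y =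
            pderiv d (Nm ε c) y * ζ y + Nm ε c y * pderiv d ζ y := fun d c =>
          pderiv_mul' d y ((hNs ε hε.1 c).differentiable (by simp) y)
            (hζ.smooth.differentiable (by simp) y)
        simp_rw [hp1]
        simp only [hS, mul_one]
        have e2 : ζ y * (f y * ∑ d, ∑ c, M d c y * pderiv d (Nm ε c) y) =
            ∑ c, ∑ d, f y * (pderiv d (Nm ε c) y * ζ y * M d c y) := by
          rw [Finset.sum_comm, ← mul_assoc, Finset.mul_sum]
          refine Finset.sum_congr rfl fun c _ => ?_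
          rw [Finset.mul_sum]
          refine Finset.sum_congr rfl fun d _ => ?_
          ring
        rw [e2, ← Finset.sum_add_distrib]
        refine Finset.sum_congr rfl fun c _ => ?_
        rw [← Finset.sum_add_distrib, Finset.mul_sum]
        refine Finset.sum_congr rfl fun d _ => ?_
        ring
      · exact (hζ.cc.mul_cont hΩ (hf.mul (hSc ε hε.1))).integrable_mul LI.one
      · refine CC.integrable_mul (Ω := Ω) ?_ LI.one
        exact CC.sum _ fun c _ => CC.sum _ fun d _ => (hζ.pderiv d).cc.mul_cont hΩ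
          ((hf.mul (hMc d c)).mul (hNs ε hε.1 c).continuous.continuousOn)
    · intro c _
      have h2 : CC Ω (fun y => ∑ d, pderiv d (fun y => Nm ε c y * ζ y) y * (f y * M d c y)) :=
        CC.sum _ fun d _ => ((hcs c).pderiv d).cc.mul_cont hΩ (hf.mul (hMc d c))
      have h3 := h2.integrable_mul (γ := fun _ => (1 : ℝ)) LI.one
      refine h3.congr (Eventually.of_forall fun y => ?_)
      simp only [mul_one]
      rw [Finset.mul_sum]
      refine Finset.sum_congr rfl fun d _ => ?_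
      ring
  have hfin := tendsto_nhds_unique (hLs.congr' hEq) hRs
  have e3 : ∀ y, (∑ c, ∑ d, pderiv d ζ y * (f y * M d c y * N c e y)) * 1 = f y * pderiv e ζ y := by
    intro y
    by_cases hy : y ∈ tsupport ζ
    · have hyΩ := hζ.supp hy
      rw [mul_one, Finset.sum_comm]
      have e4 : ∀ d, ∑ c, pderiv d ζ y * (f y * M d c y * N c e y) =
          pderiv d ζ y * f y * (if d = e then 1 else 0) := by
        intro d
        rw [← hMN y hyΩ d e, Finset.mul_sum]
        refine Finset.sum_congr rfl fun c _ => ?_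
        ring
      simp_rw [e4]
      simp [mul_comm]
    · rw [hdζz e y hy]
      simp [hdζz _ y hy]
  simp_rw [e3] at hfin
  simp only [zero_mul, integral_zero, zero_add] at hfin
  have e5 : ∫ y, ζ y * ∑ c, N c e y * p c y = ∑ c, ∫ y, (N c e y * ζ y) * p c y := by
    rw [← integral_finsetSum]
    · congr 1
      ext y
      rw [Finset.mul_sum]
      refine Finset.sum_congr rfl fun c _ => ?_
      ring
    · intro c _
      have h5 : CC Ω (fun y => N c e y * ζ y) := by
        simpa [mul_comm] using hζ.cc.mul_cont hΩ (hNc c e)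
      exact h5.integrable_mul (hp c)
  rw [e5, hfin, neg_neg]

end CET

end Crest.Agent.R249.Lim41
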