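import Crest.Agent.R249.Lim6_41
/-!
R249 / D3-LIM (helper41).  Abstract limit lemma, part 7: testing a weak equation with `φ f`,
`f` continuous with weak derivatives in `L²_loc`.
-/

set_option autoImplicit false

open MeasureTheory Filter Topology Set
open scoped ContDiff ENNReal Manifold
open Crest.GeometryTopology.CoordMetric

noncomputable section

namespace Crest.Agent.R249.Lim41

/-- locally square integrable, tested with continuous compactly supported functions -/
def L2l {n : ℕ} (Ω : Set (E n)) (g : E n → ℝ) : Prop :=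
  ∀ φ : E n → ℝ, CC Ω φ → MemLp (fun y => φ y * g y) 2 (volume : Measure (E n))

theorem L2l.of_memLp {n : ℕ} {Ω : Set (E n)} {g : E n → ℝ}
    (h : MemLp g 2 (volume : Measure (E n))) : L2l Ω g := by
  intro φ hφ
  obtain ⟨C, -, hC⟩ := hφ.bdd
  exact memLp_bdd_mul hC hφ.cont h

theorem L2l.mul_cont {n : ℕ} {Ω : Set (E n)} (hΩ : IsOpen Ω) {f g : E n → ℝ}
    (hf : ContinuousOn f Ω) (h : L2l Ω g) : L2l Ω (fun y => f y * g y) := by
  intro φ hφ
  have := h _ (hφ.mul_cont hΩ hf)
  simpa [mul_assoc] using this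

theorem L2l.add {n : ℕ} {Ω : Set (E n)} {f g : E n → ℝ} (hf : L2l Ω f) (hg : L2l Ω g) :
    L2l Ω (fun y => f y + g y) := by
  intro φ hφ
  have := (hf φ hφ).add (hg φ hφ)
  refine this.ae_eq (Eventually.of_forall fun y => ?_)
  show φ y * f y + φ y * g y = φ y * (f y + g y)
  ring

theorem L2l.sum {n : ℕ} {Ω : Set (E n)} {κ : Type*} (s : Finset κ) {f : κ → E n → ℝ}
    (hf : ∀ j ∈ s, L2l Ω (f j)) : L2l Ω (fun y => ∑ j ∈ s, f j y) := by
  intro φ hφ
  have := memLp_finsetSum s (fun j hj => hf j hj φ hφ)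
  refine this.ae_eq (Eventually.of_forall fun y => ?_)
  simp [Finset.mul_sum]

/-- cut-off -/
theorem exists_cs {n : ℕ} {K Ω : Set (E n)} (hK : IsCompact K) (hΩ : IsOpen Ω) (hKΩ : K ⊆ Ω) :
    ∃ θ : E n → ℝ, CS Ω θ ∧ (∀ᶠ y in 𝓝ˢ K, θ y = 1) ∧ (∀ y ∈ K, θ y = 1) ∧
      ∀ y, θ y ∈ Icc (0 : ℝ) 1 := by
  obtain ⟨V, hVo, hKV, hVΩ, hVc⟩ := exists_open_between_and_isCompact_closure hK hΩ hKΩ
  obtain ⟨f, hf1, hf0, hf⟩ := exists_contMDiffMap_one_nhds_of_subset_interior
    (modelWithCornersSelf ℝ (E n)) (n := (⊤ : ℕ∞)) hK.isClosed (t := V)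
    (hKV.trans (interior_eq_iff_isOpen.mpr hVo).ge)
  have hsm : ContDiff ℝ ∞ (f : E n → ℝ) := f.contMDiff.contDiff
  have hts : tsupport (f : E n → ℝ) ⊆ closure V := by
    apply closure_mono
    intro x hx
    by_contra h
    exact hx (hf0 x h)
  have hcs : HasCompactSupport (f : E n → ℝ) := hVc.of_isClosed_subset isClosed_closure hts
  exact ⟨f, ⟨hsm, hcs, hts.trans hVΩ⟩, hf1, fun y hy => hf1.self_of_nhdsSet y hy, hf⟩

/-- a locally `L²` function is locally integrable -/
theorem L2l.li {n : ℕ} {Ω : Set (E n)} (hΩ : IsOpen Ω) {g : E n → ℝ} (h : L2l Ω g) : LI Ω g := by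
  intro K hK hKΩ
  obtain ⟨θ, hθ, -, hθ1, -⟩ := exists_cs hK hΩ hKΩ
  have h1 : IntegrableOn (fun y => θ y * g y) K :=
    ((h θ hθ.cc).locallyIntegrable (by norm_num)).integrableOn_isCompact hK
  refine h1.congr_fun (fun y hy => ?_) hK.measurableSet
  simp [hθ1 y hy]

/-- the product of a test function and a function with weak derivatives in `Ω` -/
theorem WD.mul_on {n : ℕ} {Ω : Set (E n)} (hΩ : IsOpen Ω) {f H : E n → ℝ}
    (hf : ContinuousOn f Ω) (hH : L2l Ω H) (c : Fin n)
    (hw : ∀ ζ, CS Ω ζ → ∫ y, f y * pderiv c ζ y = - ∫ y, ζ y * H y) {φ : E n → ℝ}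
    (hφ : CS Ω φ) :
    WD (EuclideanSpace.single c (1 : ℝ)) (fun y => φ y * f y)
      (fun y => pderiv c φ y * f y + φ y * H y) := by
  intro Φ hΦ
  have hcs : CS Ω (fun y => Φ y * φ y) := hφ.smooth_mul hΦ.1
  have h1 := hw _ hcs
  have hp : ∀ y, pderiv c (fun y => Φ y * φ y) y = pderiv c Φ y * φ y + Φ y * pderiv c φ y :=
    fun y => pderiv_mul' c y (hΦ.1.differentiable (by simp) y)
      (hφ.smooth.differentiable (by simp) y)
  simp_rw [hp] at h1
  have hΦc : Continuous Φ := hΦ.continuous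
  have hdΦc : Continuous (pderiv c Φ) := (hΦ.dd (EuclideanSpace.single c 1)).continuous
  have i1 : Integrable (fun y => φ y * f y * dd (EuclideanSpace.single c (1 : ℝ)) Φ y) := by
    have := ((hφ.cc.mul_cont hΩ hf).mul_right' hdΦc).integrable_mul
      (Ω := Ω) (γ := fun _ => (1 : ℝ)) LI.one
    simp only [mul_one] at this
    exact this
  have i2 : Integrable (fun y => Φ y * (pderiv c φ y * f y)) := by
    have := (((hφ.pderiv c).cc.mul_cont hΩ hf).mul_left' hΦc).integrable_mul
      (Ω := Ω) (γ := fun _ => (1 : ℝ)) LI.one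
    simpa using this
  have i3 : Integrable (fun y => Φ y * φ y * H y) := hcs.cc.integrable_mul (hH.li hΩ)
  have e1 : ∫ y, f y * (pderiv c Φ y * φ y + Φ y * pderiv c φ y) =
      (∫ y, φ y * f y * dd (EuclideanSpace.single c (1 : ℝ)) Φ y) +
      ∫ y, Φ y * (pderiv c φ y * f y) := by
    rw [← integral_add i1 i2]
    congr 1
    ext y
    show f y * (pderiv c Φ y * φ y + Φ y * pderiv c φ y) =
      φ y * f y * pderiv c Φ y + Φ y * (pderiv c φ y * f y)
    ring
  have e2 : ∫ y, (pderiv c φ y * f y + φ y * H y) * Φ y =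
      (∫ y, Φ y * (pderiv c φ y * f y)) + ∫ y, Φ y * φ y * H y := by
    rw [← integral_add i2 i3]
    congr 1
    ext y
    ring
  rw [e1] at h1
  rw [e2]
  linarith

/-- **energy identity** -/
theorem energy {n : ℕ} {Ω : Set (E n)} (hΩ : IsOpen Ω) {f g : E n → ℝ} (hf : ContinuousOn f Ω)
    {H p : Fin n → E n → ℝ} (hH : ∀ c, L2l Ω (H c)) (hp : ∀ c, L2l Ω (p c)) (hg : L2l Ω g)
    (hw : ∀ c ζ, CS Ω ζ → ∫ y, f y * pderiv c ζ y = - ∫ y, ζ y * H c y)
    (heq : ∀ ζ, CS Ω ζ → ∑ c, ∫ y, pderiv c ζ y * p c y = - ∫ y, ζ y * g y)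
    {φ : E n → ℝ} (hφ : CS Ω φ) :
    ∑ c, ∫ y, (pderiv c φ y * f y + φ y * H c y) * p c y = - ∫ y, φ y * f y * g y := by
  obtain ⟨χ, hχ, hχ1, hχ1', -⟩ := exists_cs hφ.comp hΩ hφ.supp
  have hχd : ∀ c, ∀ y ∈ tsupport φ, pderiv c χ y = 0 := by
    intro c y hy
    have h1 : χ =ᶠ[𝓝 y] fun _ => (1 : ℝ) := by
      have := hχ1.filter_mono (nhds_le_nhdsSet hy)
      exact this
    unfold pderiv
    rw [h1.fderiv_eq]
    simp
  have hφz : ∀ y, y ∉ tsupport φ → φ y = 0 := fun y hy => image_eq_zero_of_notMem_tsupport hy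
  have hdφz : ∀ c y, y ∉ tsupport φ → pderiv c φ y = 0 := by
    intro d x hx
    have h1 : x ∉ tsupport (fderiv ℝ φ) := fun h => hx (tsupport_fderiv_subset ℝ h)
    have h2 : fderiv ℝ φ x = 0 := image_eq_zero_of_notMem_tsupport h1
    unfold pderiv
    rw [h2]; rfl
  have hli : ∀ c, LI Ω (p c) := fun c => (hp c).li hΩ
  have key := testExt (V := E n) (fun c => EuclideanSpace.single c (1 : ℝ))
    (fun c y => χ y * p c y) (fun y => -(χ y * g y) - ∑ c, pderiv c χ y * p c y)
    (fun c => hp c χ hχ.cc) (by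
      have h1 := (hg χ hχ.cc).neg
      have h2 := memLp_finsetSum (μ := (volume : Measure (E n))) (p := 2) Finset.univ
        (f := fun (c : Fin n) (y : E n) => pderiv c χ y * p c y)
        (fun c _ => hp c _ (hχ.pderiv c).cc)
      refine (h1.sub h2).ae_eq (Eventually.of_forall fun y => ?_)
      simp) (by
      intro Φ hΦ
      have hcs : CS Ω (fun y => Φ y * χ y) := hχ.smooth_mul hΦ.1
      have h1 := heq _ hcs
      have hpd : ∀ c y, pderiv c (fun y => Φ y * χ y) y =
          pderiv c Φ y * χ y + Φ y * pderiv c χ y :=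
        fun c y => pderiv_mul' c y (hΦ.1.differentiable (by simp) y)
          (hχ.smooth.differentiable (by simp) y)
      simp_rw [hpd] at h1
      have hΦc : Continuous Φ := hΦ.continuous
      have hdΦc : ∀ c, Continuous (pderiv c Φ) := fun c =>
        (hΦ.dd (EuclideanSpace.single c 1)).continuous
      have i1 : ∀ c, Integrable (fun y => χ y * p c y * dd (EuclideanSpace.single c (1 : ℝ)) Φ y) := by
        intro c
        have := (hχ.cc.mul_left' (hdΦc c)).integrable_mul (hli c)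
        refine this.congr (Eventually.of_forall fun y => ?_)
        show pderiv c Φ y * χ y * p c y = χ y * p c y * pderiv c Φ y
        ring
      have i2 : ∀ c, Integrable (fun y => Φ y * (pderiv c χ y * p c y)) := by
        intro c
        have := ((hχ.pderiv c).cc.mul_left' hΦc).integrable_mul (hli c)
        refine this.congr (Eventually.of_forall fun y => ?_)
        simp only [mul_assoc]
      have i3 : Integrable (fun y => Φ y * (χ y * g y)) := by
        have := (hχ.cc.mul_left' hΦc).integrable_mul (hg.li hΩ)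
        simpa [mul_assoc] using this
      have e1 : ∀ c, ∫ y, (pderiv c Φ y * χ y + Φ y * pderiv c χ y) * p c y =
          (∫ y, χ y * p c y * dd (EuclideanSpace.single c (1 : ℝ)) Φ y) +
          ∫ y, Φ y * (pderiv c χ y * p c y) := by
        intro c
        rw [← integral_add (i1 c) (i2 c)]
        congr 1
        ext y
        show (pderiv c Φ y * χ y + Φ y * pderiv c χ y) * p c y =
          χ y * p c y * pderiv c Φ y + Φ y * (pderiv c χ y * p c y)
        ring
      simp_rw [e1] at h1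
      rw [Finset.sum_add_distrib] at h1
      have e2 : ∫ y, (-(χ y * g y) - ∑ c, pderiv c χ y * p c y) * Φ y =
          -(∫ y, Φ y * (χ y * g y)) - ∑ c, ∫ y, Φ y * (pderiv c χ y * p c y) := by
        rw [← integral_finsetSum _ (fun c _ => i2 c), ← integral_neg]
        have e4 := integral_sub (f := fun a => -(Φ a * (χ a * g a)))
          (g := fun a => ∑ c, Φ a * (pderiv c χ a * p c a)) i3.neg
          (integrable_finsetSum _ fun c _ => i2 c)
        rw [← e4]
        congr 1
        ext y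
        rw [sub_mul, Finset.sum_mul]
        congr 1
        · ring
        · exact Finset.sum_congr rfl fun c _ => by ring
      rw [e2]
      have e3 : ∫ y, Φ y * χ y * g y = ∫ y, Φ y * (χ y * g y) := by
        congr 1; ext y; ring
      rw [e3] at h1
      linarith)
    (fun y => φ y * f y) (fun c y => pderiv c φ y * f y + φ y * H c y)
    ((hφ.cc.mul_cont hΩ hf).memLp 2) (hφ.cc.mul_cont hΩ hf).comp
    (fun c => by
      have h1 := ((hφ.pderiv c).cc.mul_cont hΩ hf).memLp (2 : ℝ≥0∞)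
      exact h1.add (hH c φ hφ.cc))
    (fun c => WD.mul_on hΩ hf (hH c) c (hw c) hφ)
  have e1 : ∀ c, ∫ y, χ y * p c y * (pderiv c φ y * f y + φ y * H c y) =
      ∫ y, (pderiv c φ y * f y + φ y * H c y) * p c y := by
    intro c
    congr 1
    ext y
    by_cases hy : y ∈ tsupport φ
    · rw [hχ1' y hy]; ring
    · rw [hφz y hy, hdφz c y hy]; ring
  have e2 : ∫ y, (-(χ y * g y) - ∑ c, pderiv c χ y * p c y) * (φ y * f y) =
      - ∫ y, φ y * f y * g y := by
    rw [← integral_neg]
    congr 1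
    ext y
    by_cases hy : y ∈ tsupport φ
    · rw [hχ1' y hy]
      simp [hχd _ y hy]
      ring
    · rw [hφz y hy]; ring
  simp_rw [e1] at key
  rw [key, e2]

end Crest.Agent.R249.Lim41
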