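import Crest.Agent.R249.Lim7_41
import Crest.Agent.R249.LPt1_191
/-!
R249 / D3-LIM (helper41).  Abstract limit lemma, part 8: the data `LData` of the limit lemma.
-/

set_option autoImplicit false

open MeasureTheory Filter Topology Set
open scoped ContDiff ENNReal
open Crest.GeometryTopology.CoordMetric
open Crest.Agent.R249.LPt_191 (N1 sS kos)

noncomputable section

namespace Crest.Agent.R249.Lim41

/-- **Data of the abstract limit lemma.**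
`u i : X i → ℝⁿ`, `F i x` the Gram matrix `⟨du^a, du^b⟩`, `P i x a b c = ⟨dF^{ab}, du^c⟩`,
`D i x a b = |dF^{ab}|²`, `G i x a b = Δ F^{ab}`, `R i x a b = Ric(du^a, du^b)`. -/
structure LData {n : ℕ} {ι : Type*} (l : Filter ι) {X : ι → Type*} [∀ i, MeasurableSpace (X i)]
    (Ω : Set (E n)) (m : ∀ i, Measure (X i)) (u : ∀ i, X i → E n)
    (h : E n → Matrix (Fin n) (Fin n) ℝ) (F : ∀ i, X i → Matrix (Fin n) (Fin n) ℝ)
    (P : ∀ i, X i → Fin n → Fin n → Fin n → ℝ) (D G R : ∀ i, X i → Fin n → Fin n → ℝ)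
    (lam Mm C α : ℝ) : Prop where
  base : Base Ω m u Mm
  α_gt : 1 / 2 < α
  α_le : α ≤ 1
  C_nonneg : 0 ≤ C
  /-- the limit matrix -/
  h_symm : ∀ y ∈ Ω, ∀ a b, h y a b = h y b a
  h_near : ∀ y ∈ Ω, N1 (h y - 1) ≤ 1 / 8
  h_hold : ∀ x ∈ Ω, ∀ y ∈ Ω, ∀ a b, |h x a b - h y a b| ≤ C * dist x y ^ α
  /-- measurability and bounds -/
  F_meas : ∀ i a b, AEStronglyMeasurable (fun x => F i x a b) (m i)
  F_bdd : ∀ i, ∀ᵐ x ∂(m i), ∀ a b, |F i x a b| ≤ C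
  P_mem : ∀ i a b c, MemLp (fun x => P i x a b c) 2 (m i)
  P_bdd : ∀ i a b c, ∫ x, P i x a b c ^ 2 ∂(m i) ≤ C
  D_int : ∀ i a b, Integrable (fun x => D i x a b) (m i)
  D_bdd : ∀ i a b, ∫ x, |D i x a b| ∂(m i) ≤ C
  D_nonneg : ∀ i a b, ∀ᵐ x ∂(m i), 0 ≤ D i x a b
  G_mem : ∀ i a b, MemLp (fun x => G i x a b) 2 (m i)
  G_bdd : ∀ i a b, ∫ x, G i x a b ^ 2 ∂(m i) ≤ C
  R_int : ∀ i a b, Integrable (fun x => R i x a b) (m i)
  /-- weak convergence of the measures -/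
  wc_one : WC l Ω m u (fun _ _ => 1) (fun y => (√(h y).det)⁻¹)
  /-- strong convergence of the Gram matrices -/
  sc_F : ∀ a b, SC l Ω m u (fun i x => F i x a b) (fun y => h y a b)
  /-- Green identities -/
  H4 : ∀ c, ∀ φ, CS Ω φ → ∀ᶠ i in l, ∫ x, ∑ d, pderiv d φ (u i x) * F i x d c ∂(m i) = 0
  H5 : ∀ a b c, ∀ φ, CS Ω φ → ∀ᶠ i in l, ∫ x, φ (u i x) * P i x a b c ∂(m i) =
    - ∫ x, F i x a b * ∑ d, pderiv d φ (u i x) * F i x d c ∂(m i)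
  H6 : ∀ a b, ∀ φ, CS Ω φ → ∀ᶠ i in l, ∫ x, ∑ c, pderiv c φ (u i x) * P i x a b c ∂(m i) =
    - ∫ x, φ (u i x) * G i x a b ∂(m i)
  H7 : ∀ a b, ∀ φ, CS Ω φ → ∀ᶠ i in l, ∫ x, φ (u i x) * D i x a b ∂(m i) =
    - (∫ x, φ (u i x) * (F i x a b * G i x a b) ∂(m i)) -
      ∫ x, F i x a b * ∑ c, pderiv c φ (u i x) * P i x a b c ∂(m i)
  /-- pointwise identities where the Gram matrix is near `1` -/
  H9D : ∀ i, ∀ᵐ x ∂(m i), N1 (F i x - 1) ≤ 1 / 4 → ∀ a b,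
    D i x a b = ∑ c, ∑ d, (F i x)⁻¹ c d * P i x a b c * P i x a b d
  H9G : ∀ i, ∀ᵐ x ∂(m i), N1 (F i x - 1) ≤ 1 / 4 → ∀ a b,
    G i x a b = 2 * sS (F i x) (P i x) a b + 2 * R i x a b
  /-- almost Einstein -/
  H10 : ∀ a b, Tendsto (fun i => ∫ x, |R i x a b - lam * F i x a b| ∂(m i)) l (𝓝 0)
  /-- Morrey bound -/
  H11 : ∀ z r, 0 < r → Metric.closedBall z r ⊆ Ω → ∀ a b c, ∀ᶠ i in l,
    ∫ x in (u i) ⁻¹' Metric.ball z r, P i x a b c ^ 2 ∂(m i) ≤ C * r ^ ((n : ℝ) - 2 + 2 * α)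

/-- **Output of the abstract limit lemma**: `H a b c = ∂_c h^{ab}`, `J = (det h)^{-1/2}`. -/
structure LOut {n : ℕ} (Ω : Set (E n)) (h : E n → Matrix (Fin n) (Fin n) ℝ)
    (H : Fin n → Fin n → Fin n → E n → ℝ) (lam C α : ℝ) : Prop where
  mem : ∀ a b c, MemLp (H a b c) 2 (volume : Measure (E n))
  wd : ∀ a b c, ∀ ζ, CS Ω ζ → ∫ y, h y a b * pderiv c ζ y = - ∫ y, ζ y * H a b c y
  div : ∀ c, ∀ φ, CS Ω φ → ∫ y, ∑ d, pderiv d φ y * ((√(h y).det)⁻¹ * h y d c) = 0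
  sys : ∀ a b, ∀ φ, CS Ω φ →
    ∫ y, ∑ c, pderiv c φ y * ((√(h y).det)⁻¹ * ∑ d, h y c d * H a b d y) =
      - ∫ y, φ y * ((√(h y).det)⁻¹ * (2 * sS (h y) (fun a b c => ∑ d, h y c d * H a b d y) a b +
          2 * lam * h y a b))
  morrey : ∀ z r, 0 < r → Metric.closedBall z r ⊆ Ω → ∀ a b c,
    ∫ y in Metric.ball z r, H a b c y ^ 2 ≤ C * r ^ ((n : ℝ) - 2 + 2 * α)

end Crest.Agent.R249.Lim41
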