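import Crest.Agent.R249.Lim8_41
/-!
R249 / D3-LIM (helper41).  Abstract limit lemma, part 9: Riesz representation of weak limits of
`L²`-bounded functions, local bounds, Hölder continuity of smooth functions of the limit matrix.
-/

set_option autoImplicit false

open MeasureTheory Filter Topology Set
open scoped ContDiff ENNReal
open Crest.GeometryTopology.CoordMetric
open Crest.Agent.R249.LPt_191 (N1 sS kos)

noncomputable section

namespace Crest.Agent.R249.Lim41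

section RZ

variable {n : ℕ} {ι : Type*} {l : Filter ι} {X : ι → Type*} [∀ i, MeasurableSpace (X i)]
variable {Ω : Set (E n)} {m : ∀ i, Measure (X i)} {u : ∀ i, X i → E n}

theorem CC.integrable_comp {Mm : ℝ} (hB : Base Ω m u Mm) {φ : E n → ℝ} (hφ : CC Ω φ) {i : ι}
    {g : X i → ℝ} (hg : Integrable g (m i)) : Integrable (fun x => φ (u i x) * g x) (m i) := by
  obtain ⟨C', -, hC'⟩ := hφ.bdd
  exact Integrable.bdd_mul (c := C') hg (hφ.aesm hB.meas i)
    (Eventually.of_forall fun x => by simpa using hC' (u i x))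

theorem CC.memLp_comp {Mm : ℝ} (hB : Base Ω m u Mm) {φ : E n → ℝ} (hφ : CC Ω φ) (i : ι)
    (p : ℝ≥0∞) : MemLp (fun x => φ (u i x)) p (m i) := by
  have := hB.fin i
  obtain ⟨C', -, hC'⟩ := hφ.bdd
  exact MemLp.of_bound (hφ.aesm hB.meas i) C' (Eventually.of_forall fun x => by
    simpa using hC' (u i x))

/-- limits of integrals against `L²`-bounded functions -/
theorem lim_bound [l.NeBot] {Mm : ℝ} (hB : Base Ω m u Mm) {J : E n → ℝ}
    (hJ : WC l Ω m u (fun _ _ => 1) J) {CJ : ℝ} (hJC : ∀ y ∈ Ω, |J y| ≤ CJ) (hJ0 : 0 ≤ CJ)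
    (hJi : LI Ω J) {g : ∀ i, X i → ℝ} (hg : ∀ i, MemLp (g i) 2 (m i)) {B : Set (E n)}
    (hBΩ : B ⊆ Ω) (hBm : MeasurableSet B) {A : ℝ} (hA : 0 ≤ A)
    (hgA : ∀ᶠ i in l, ∫ x in (u i) ⁻¹' B, g i x ^ 2 ∂(m i) ≤ A) {φ : E n → ℝ} (hφ : CC B φ)
    {L : ℝ} (hL : Tendsto (fun i => ∫ x, φ (u i x) * g i x ∂(m i)) l (𝓝 L)) :
    |L| ≤ √(CJ * A) * √(∫ y, φ y ^ 2) := by
  have hφΩ : CC Ω φ := ⟨hφ.cont, hφ.comp, hφ.supp.trans hBΩ⟩
  have h1 := hJ _ hφΩ.sq
  have hφi : Integrable (fun y => φ y ^ 2) := by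
    have := hφΩ.sq.integrable_mul (γ := fun _ => (1 : ℝ)) (Ω := Ω) LI.one
    simpa using this
  have h2 : ∫ y, φ y ^ 2 * J y ≤ CJ * ∫ y, φ y ^ 2 := by
    rw [← integral_const_mul]
    apply integral_mono (hφΩ.sq.integrable_mul hJi) (hφi.const_mul _)
    intro y
    show φ y ^ 2 * J y ≤ CJ * φ y ^ 2
    by_cases hy : φ y = 0
    · simp [hy]
    · have := (le_abs_self _).trans (hJC y (hφΩ.mem_of_ne hy))
      nlinarith [sq_nonneg (φ y)]
  have h3 : ∀ᶠ i in l, |∫ x, φ (u i x) * g i x ∂(m i)| ≤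
      √(∫ x, φ (u i x) ^ 2 * 1 ∂(m i)) * √A := by
    filter_upwards [hgA] with i hi
    have hmB : MeasurableSet ((u i) ⁻¹' B) := hB.meas i hBm
    have e1 : ∫ x, φ (u i x) * g i x ∂(m i) =
        ∫ x, φ (u i x) * ((u i) ⁻¹' B).indicator (g i) x ∂(m i) := by
      congr 1
      ext x
      by_cases hx : u i x ∈ B
      · have : x ∈ (u i) ⁻¹' B := hx
        simp [this]
      · have : φ (u i x) = 0 := by
          by_contra h
          exact hx (hφ.mem_of_ne h)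
        simp [this]
    rw [e1]
    have hgi : MemLp (((u i) ⁻¹' B).indicator (g i)) 2 (m i) := (hg i).indicator hmB
    refine (cs (hφΩ.memLp_comp hB i 2) hgi).trans ?_
    have e2 : ∫ x, ((u i) ⁻¹' B).indicator (g i) x ^ 2 ∂(m i) =
        ∫ x in (u i) ⁻¹' B, g i x ^ 2 ∂(m i) := by
      rw [← integral_indicator hmB]
      congr 1
      ext x
      by_cases hx : x ∈ (u i) ⁻¹' B <;> simp [hx]
    rw [e2]
    simp only [mul_one]
    gcongr
  have h4 : Tendsto (fun i => √(∫ x, φ (u i x) ^ 2 * 1 ∂(m i)) * √A) l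
      (𝓝 (√(∫ y, φ y ^ 2 * J y) * √A)) :=
    ((Real.continuous_sqrt.tendsto _).comp h1).mul_const _
  have h5 : |L| ≤ √(∫ y, φ y ^ 2 * J y) * √A :=
    le_of_tendsto_of_tendsto hL.abs h4 h3
  refine h5.trans ?_
  calc √(∫ y, φ y ^ 2 * J y) * √A ≤ √(CJ * ∫ y, φ y ^ 2) * √A := by gcongr
    _ = _ := by
        rw [Real.sqrt_mul hJ0, Real.sqrt_mul hJ0]; ring

/-- **Riesz representation of weak limits** -/
theorem riesz_wc [l.NeBot] {Mm : ℝ} (hB : Base Ω m u Mm) {J : E n → ℝ}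
    (hJ : WC l Ω m u (fun _ _ => 1) J) {CJ : ℝ} (hJC : ∀ y ∈ Ω, |J y| ≤ CJ) (hJ0 : 0 ≤ CJ)
    (hJi : LI Ω J) {g : ∀ i, X i → ℝ} (hg : ∀ i, MemLp (g i) 2 (m i)) {A : ℝ} (hA : 0 ≤ A)
    (hgA : ∀ i, ∫ x, g i x ^ 2 ∂(m i) ≤ A) (Λ : (E n → ℝ) → ℝ)
    (hΛ : ∀ φ, CS Ω φ → Tendsto (fun i => ∫ x, φ (u i x) * g i x ∂(m i)) l (𝓝 (Λ φ))) :
    ∃ p : E n → ℝ, MemLp p 2 (volume : Measure (E n)) ∧ WC l Ω m u g p ∧
      ∀ φ, CS Ω φ → Λ φ = ∫ y, φ y * p y := by
  have hfin := hB.fin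
  have hgi : ∀ i, Integrable (g i) (m i) := fun i => (hg i).integrable (by norm_num)
  let L : csSub Ω →ₗ[ℝ] ℝ :=
    { toFun := fun φ => Λ (φ : E n → ℝ)
      map_add' := by
        intro a b
        have h1 := hΛ _ (CS.add a.2 b.2)
        have h2 := (hΛ _ a.2).add (hΛ _ b.2)
        refine tendsto_nhds_unique (h1.congr fun i => ?_) h2
        rw [← integral_add (a.2.cc.integrable_comp hB (hgi i)) (b.2.cc.integrable_comp hB (hgi i))]
        congr 1; ext x; ring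
      map_smul' := by
        intro c a
        have h1 := hΛ _ (CS.const_mul a.2 c)
        have h2 := (hΛ _ a.2).const_mul c
        refine tendsto_nhds_unique (h1.congr fun i => ?_) h2
        rw [← integral_const_mul]
        congr 1; ext x; ring }
  have hgA' : ∀ᶠ i in l, ∫ x in (u i) ⁻¹' Ω, g i x ^ 2 ∂(m i) ≤ A := by
    refine Eventually.of_forall fun i => (?_ : _ ≤ _).trans (hgA i)
    exact setIntegral_le_integral (hg i).integrable_sq
      (Eventually.of_forall fun x => sq_nonneg (g i x))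
  obtain ⟨p, hp, -, -, hpL⟩ := exists_repr_on (B := Ω) hB.opn.measurableSet L
    (A := √(CJ * A)) (Real.sqrt_nonneg _) (fun φ =>
      lim_bound hB hJ hJC hJ0 hJi hg subset_rfl hB.opn.measurableSet hA hgA' φ.2.cc (hΛ _ φ.2))
  have hrep : ∀ φ, CS Ω φ → Λ φ = ∫ y, φ y * p y := fun φ hφ => hpL ⟨φ, hφ⟩
  refine ⟨p, hp, ?_, hrep⟩
  have hbd : ∀ i, ∫ x, |g i x| ∂(m i) ≤ √Mm * √A := by
    intro i
    have h1 := cs (memLp_of_ae_bdd (C := 1) (f := fun _ : X i => (1 : ℝ))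
      aestronglyMeasurable_const (Eventually.of_forall fun x => by simp) 2) (hg i).abs
    have h2 : 0 ≤ ∫ x, |g i x| ∂(m i) := integral_nonneg fun x => abs_nonneg _
    simp only [one_mul, Pi.abs_apply, sq_abs, one_pow] at h1
    rw [abs_of_nonneg h2] at h1
    refine h1.trans ?_
    gcongr
    · simp only [integral_const, smul_eq_mul, mul_one]
      exact hB.mass i
    · exact hgA i
  refine wc_of_smooth hB.meas hgi hbd (LI.of_memLp hp) fun φ hφ => ?_
  rw [← hrep φ hφ]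
  exact hΛ φ hφ

/-- local `L²` bound of a weak limit -/
theorem local_bound [l.NeBot] {Mm : ℝ} (hB : Base Ω m u Mm) {J : E n → ℝ}
    (hJ : WC l Ω m u (fun _ _ => 1) J) {CJ : ℝ} (hJC : ∀ y ∈ Ω, |J y| ≤ CJ) (hJ0 : 0 ≤ CJ)
    (hJi : LI Ω J) {g : ∀ i, X i → ℝ} (hg : ∀ i, MemLp (g i) 2 (m i)) {p : E n → ℝ}
    (hp : MemLp p 2 (volume : Measure (E n))) (hW : WC l Ω m u g p) {B : Set (E n)}
    (hBΩ : B ⊆ Ω) (hBo : IsOpen B) {A : ℝ} (hA : 0 ≤ A)
    (hgA : ∀ᶠ i in l, ∫ x in (u i) ⁻¹' B, g i x ^ 2 ∂(m i) ≤ A) :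
    ∫ y in B, p y ^ 2 ≤ CJ * A := by
  have hpi : ∀ φ, CC B φ → Integrable (fun y => φ y * p y) := fun φ hφ =>
    hφ.integrable_mul (LI.of_memLp hp)
  let L : csSub B →ₗ[ℝ] ℝ :=
    { toFun := fun φ => ∫ y, (φ : E n → ℝ) y * p y
      map_add' := by
        intro a b
        rw [← integral_add (hpi _ a.2.cc) (hpi _ b.2.cc)]
        congr 1; ext x
        show ((a : E n → ℝ) x + (b : E n → ℝ) x) * p x = _
        ring
      map_smul' := by
        intro c a
        rw [RingHom.id_apply, smul_eq_mul, ← integral_const_mul]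
        congr 1; ext x
        show (c * (a : E n → ℝ) x) * p x = _
        ring }
  obtain ⟨k, hk, -, hkn, hkL⟩ := exists_repr_on (B := B) hBo.measurableSet L
    (A := √(CJ * A)) (Real.sqrt_nonneg _) (fun φ =>
      lim_bound hB hJ hJC hJ0 hJi hg hBΩ hBo.measurableSet hA hgA φ.2.cc
        (hW _ ⟨φ.2.cc.cont, φ.2.cc.comp, φ.2.cc.supp.trans hBΩ⟩))
  have hae : ∀ᵐ y, y ∈ B → p y - k y = 0 := by
    apply hBo.ae_eq_zero_of_integral_contDiff_smul_eq_zero
    · exact ((hp.sub hk).locallyIntegrable (by norm_num)).locallyIntegrableOn _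
    · intro g h1 h2 h3
      have hg' : CS B g := ⟨h1, h2, h3⟩
      have e1 : ∫ y, g y * p y = ∫ y, g y * k y := hkL ⟨g, hg'⟩
      have e2 : ∫ y, g y • (p y - k y) = (∫ y, g y * p y) - ∫ y, g y * k y := by
        rw [← integral_sub (hpi g hg'.cc) (hg'.cc.integrable_mul (LI.of_memLp hk))]
        congr 1; ext y; simp [mul_sub]
      rw [e2, e1, sub_self]
  have e1 : ∫ y in B, p y ^ 2 = ∫ y in B, k y ^ 2 := by
    apply setIntegral_congr_ae hBo.measurableSet
    filter_upwards [hae] with y hy hyB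
    have := hy hyB
    have e2 : p y = k y := by linarith
    rw [e2]
  rw [e1]
  calc ∫ y in B, k y ^ 2 ≤ ∫ y, k y ^ 2 :=
        setIntegral_le_integral hk.integrable_sq (Eventually.of_forall fun y => sq_nonneg (k y))
    _ ≤ √(CJ * A) ^ 2 := hkn
    _ = CJ * A := Real.sq_sqrt (mul_nonneg hJ0 hA)

end RZ

/-! ### smooth functions of the limit matrix -/

/-- matrices near the identity, as functions -/
def nearSet (n : ℕ) : Set (Fin n → Fin n → ℝ) := {A | N1 (Matrix.of A - 1) ≤ 1 / 8}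

theorem N1_of_continuous (n : ℕ) :
    Continuous (fun A : Fin n → Fin n → ℝ => N1 (Matrix.of A - 1)) := by
  unfold N1
  refine continuous_finsetSum _ fun a _ => continuous_finsetSum _ fun b _ => ?_
  simp only [Matrix.sub_apply, Matrix.of_apply]
  fun_prop

theorem nearSet_compact (n : ℕ) : IsCompact (nearSet n) := by
  apply Metric.isCompact_of_isClosed_isBounded
  · exact isClosed_le (N1_of_continuous n) continuous_const
  · rw [Metric.isBounded_iff_subset_closedBall (fun a b => (1 : Matrix (Fin n) (Fin n) ℝ) a b)]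
    refine ⟨1 / 8, fun A hA => ?_⟩
    rw [Metric.mem_closedBall, dist_eq_norm, pi_norm_le_iff_of_nonneg (by norm_num)]
    intro a
    rw [pi_norm_le_iff_of_nonneg (by norm_num)]
    intro b
    exact (Crest.Agent.R249.LPt_191.abs_le_N1 (Matrix.of A - (1 : Matrix (Fin n) (Fin n) ℝ)) a b).trans hA

theorem nearSet_convex (n : ℕ) : Convex ℝ (nearSet n) := by
  intro A hA B hB s t hs ht hst
  have h1 : N1 (Matrix.of (s • A + t • B) - (1 : Matrix (Fin n) (Fin n) ℝ)) ≤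
      s * N1 (Matrix.of A - 1) + t * N1 (Matrix.of B - 1) := by
    unfold N1
    rw [Finset.mul_sum, Finset.mul_sum, ← Finset.sum_add_distrib]
    refine Finset.sum_le_sum fun a _ => ?_
    rw [Finset.mul_sum, Finset.mul_sum, ← Finset.sum_add_distrib]
    refine Finset.sum_le_sum fun b _ => ?_
    simp only [Matrix.sub_apply, Matrix.of_apply, Pi.add_apply, Pi.smul_apply, smul_eq_mul]
    have e1 : s * A a b + t * B a b - (1 : Matrix (Fin n) (Fin n) ℝ) a b =
        s * (A a b - (1 : Matrix (Fin n) (Fin n) ℝ) a b) +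
        t * (B a b - (1 : Matrix (Fin n) (Fin n) ℝ) a b) := by
      have : t = 1 - s := by linarith
      rw [this]; ring
    rw [e1]
    refine (abs_add_le _ _).trans (le_of_eq ?_)
    rw [abs_mul, abs_mul, abs_of_nonneg hs, abs_of_nonneg ht]
  have hA' : N1 (Matrix.of A - 1) ≤ 1 / 8 := hA
  have hB' : N1 (Matrix.of B - 1) ≤ 1 / 8 := hB
  show N1 (Matrix.of (s • A + t • B) - (1 : Matrix (Fin n) (Fin n) ℝ)) ≤ 1 / 8
  nlinarith

/-- a `C¹` function of a Hölder matrix near the identity is Hölder. -/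
theorem hold_comp {n : ℕ} {Ω : Set (E n)} {h : E n → Matrix (Fin n) (Fin n) ℝ} {C α : ℝ}
    (hC : 0 ≤ C) (hnear : ∀ y ∈ Ω, N1 (h y - 1) ≤ 1 / 8)
    (hh : ∀ x ∈ Ω, ∀ y ∈ Ω, ∀ a b, |h x a b - h y a b| ≤ C * dist x y ^ α)
    {Ψ : (Fin n → Fin n → ℝ) → ℝ} (hΨ : ∀ A ∈ nearSet n, ContDiffAt ℝ 1 Ψ A) :
    ∃ C', 0 ≤ C' ∧ ∀ x ∈ Ω, ∀ y ∈ Ω,
      |Ψ (fun a b => h x a b) - Ψ (fun a b => h y a b)| ≤ C' * dist x y ^ α := by
  have hcont : ContinuousOn (fderiv ℝ Ψ) (nearSet n) := fun A hA =>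
    ((hΨ A hA).fderiv_right (m := 0) (by norm_num)).continuousAt.continuousWithinAt
  obtain ⟨B, hB⟩ := (nearSet_compact n).exists_bound_of_continuousOn hcont
  refine ⟨max B 0 * C, by positivity, fun x hx y hy => ?_⟩
  set hx0 : Fin n → Fin n → ℝ := fun a b => h x a b with hx0d
  set hy0 : Fin n → Fin n → ℝ := fun a b => h y a b with hy0d
  have hx' : hx0 ∈ nearSet n := hnear x hx
  have hy' : hy0 ∈ nearSet n := hnear y hy
  have h1 := (nearSet_convex n).norm_image_sub_le_of_norm_fderiv_le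
    (fun A hA => (hΨ A hA).differentiableAt one_ne_zero) (C := max B 0)
    (fun A hA => (hB A hA).trans (le_max_left _ _)) hy' hx'
  rw [Real.norm_eq_abs] at h1
  have hr : 0 ≤ C * dist x y ^ α := mul_nonneg hC (Real.rpow_nonneg dist_nonneg _)
  have h2 : ‖hx0 - hy0‖ ≤ C * dist x y ^ α := by
    rw [pi_norm_le_iff_of_nonneg hr]
    intro a
    rw [pi_norm_le_iff_of_nonneg hr]
    intro b
    exact hh x hx y hy a b
  calc |Ψ hx0 - Ψ hy0| ≤ max B 0 * ‖hx0 - hy0‖ := h1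
    _ ≤ max B 0 * (C * dist x y ^ α) := by gcongr
    _ = _ := by ring

end Crest.Agent.R249.Lim41
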