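import Crest.Agent.R249.Lim9_41
/-!
R249 / D3-LIM (helper41).  Abstract limit lemma, part 10: the cut-off on matrices, smoothness of the
determinant and of the inverse, the coefficients `M = J h`, `N = h⁻¹ / J`.
-/

set_option autoImplicit false

open MeasureTheory Filter Topology Set
open scoped ContDiff ENNReal
open Crest.GeometryTopology.CoordMetric
open Crest.Agent.R249.LPt_191 (N1 sS kos)

noncomputable section

namespace Crest.Agent.R249.Lim41

/-- matrices as functions -/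
abbrev Mt (n : ℕ) := Fin n → Fin n → ℝ

/-- distance to the identity -/
def nI {n : ℕ} (A : Mt n) : ℝ := N1 (Matrix.of A - (1 : Matrix (Fin n) (Fin n) ℝ))

theorem nI_continuous (n : ℕ) : Continuous (nI (n := n)) := N1_of_continuous n

theorem nI_nonneg {n : ℕ} (A : Mt n) : 0 ≤ nI A := Crest.Agent.R249.LPt_191.N1_nonneg _

theorem det_contDiff (n : ℕ) : ContDiff ℝ ∞ (fun A : Mt n => (Matrix.of A).det) := by
  simp_rw [Matrix.det_apply']
  refine ContDiff.sum fun σ _ => contDiff_const.mul (contDiff_prod fun i _ => ?_)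
  simp only [Matrix.of_apply]
  fun_prop

theorem adj_contDiff (n : ℕ) (i j : Fin n) :
    ContDiff ℝ ∞ (fun A : Mt n => (Matrix.of A).adjugate i j) := by
  simp_rw [Matrix.adjugate_apply, Matrix.det_apply']
  refine ContDiff.sum fun σ _ => contDiff_const.mul (contDiff_prod fun k _ => ?_)
  by_cases hk : σ k = j
  · have : ∀ A : Mt n, (Matrix.of A).updateRow j (Pi.single i 1) (σ k) k =
        (Pi.single i 1 : Fin n → ℝ) k := by
      intro A; rw [hk, Matrix.updateRow_self]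
    simp_rw [this]
    exact contDiff_const
  · have : ∀ A : Mt n, (Matrix.of A).updateRow j (Pi.single i 1) (σ k) k = A (σ k) k := by
      intro A; rw [Matrix.updateRow_ne hk]; rfl
    simp_rw [this]
    fun_prop

theorem inv_eq {n : ℕ} (A : Mt n) (i j : Fin n) :
    (Matrix.of A)⁻¹ i j = ((Matrix.of A).det)⁻¹ * (Matrix.of A).adjugate i j := by
  rw [Matrix.inv_def, Matrix.smul_apply, Ring.inverse_eq_inv', smul_eq_mul]

theorem det_ne_zero' {n : ℕ} {A : Mt n} (h : nI A < 1) : (Matrix.of A).det ≠ 0 :=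
  Crest.Agent.R249.LPt_191.det_ne_zero h

theorem det_pos_of_near {n : ℕ} {A : Mt n} (h : nI A < 1) : 0 < (Matrix.of A).det := by
  set f : ℝ → ℝ := fun t => (Matrix.of (fun a b => (1 : Matrix (Fin n) (Fin n) ℝ) a b +
    t * (A a b - (1 : Matrix (Fin n) (Fin n) ℝ) a b))).det with hf
  have hc : Continuous f := by
    refine (det_contDiff n).continuous.comp ?_
    fun_prop
  have h0 : f 0 = 1 := by
    have : (Matrix.of (fun a b => (1 : Matrix (Fin n) (Fin n) ℝ) a b +
        0 * (A a b - (1 : Matrix (Fin n) (Fin n) ℝ) a b))) = (1 : Matrix (Fin n) (Fin n) ℝ) := by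
      ext a b; simp
    simp only [hf, this, Matrix.det_one]
  have h1 : f 1 = (Matrix.of A).det := by
    have : (Matrix.of (fun a b => (1 : Matrix (Fin n) (Fin n) ℝ) a b +
        1 * (A a b - (1 : Matrix (Fin n) (Fin n) ℝ) a b))) = Matrix.of A := by
      ext a b; simp
    simp only [hf, this]
  have hne : ∀ t ∈ Icc (0 : ℝ) 1, f t ≠ 0 := by
    intro t ht
    apply det_ne_zero'
    have e1 : nI (fun a b => (1 : Matrix (Fin n) (Fin n) ℝ) a b +
        t * (A a b - (1 : Matrix (Fin n) (Fin n) ℝ) a b)) = t * nI A := by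
      unfold nI N1
      rw [Finset.mul_sum]
      refine Finset.sum_congr rfl fun a _ => ?_
      rw [Finset.mul_sum]
      refine Finset.sum_congr rfl fun b _ => ?_
      simp only [Matrix.sub_apply, Matrix.of_apply, add_sub_cancel_left]
      rw [abs_mul, abs_of_nonneg ht.1]
    rw [e1]
    nlinarith [nI_nonneg A, ht.1, ht.2]
  by_contra hneg
  push Not at hneg
  rw [← h1] at hneg
  have hivt := intermediate_value_Icc' (show (0 : ℝ) ≤ 1 by norm_num) hc.continuousOn
  have : (0 : ℝ) ∈ Icc (f 1) (f 0) := ⟨hneg, by rw [h0]; norm_num⟩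
  obtain ⟨t, ht, ht0⟩ := hivt this
  exact hne t ht ht0

/-- the volume density as a function of the matrix -/
def Jf {n : ℕ} (A : Mt n) : ℝ := (√(Matrix.of A).det)⁻¹

theorem sqrt_det_contDiffAt {n : ℕ} {A : Mt n} (h : nI A < 1) :
    ContDiffAt ℝ ∞ (fun A : Mt n => √(Matrix.of A).det) A :=
  (det_contDiff n).contDiffAt.sqrt (det_ne_zero' h)

theorem Jf_contDiffAt {n : ℕ} {A : Mt n} (h : nI A < 1) : ContDiffAt ℝ ∞ (Jf (n := n)) A :=
  (sqrt_det_contDiffAt h).inv (Real.sqrt_ne_zero'.2 (det_pos_of_near h))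

theorem inv_contDiffAt {n : ℕ} {A : Mt n} (h : nI A < 1) (i j : Fin n) :
    ContDiffAt ℝ ∞ (fun A : Mt n => (Matrix.of A)⁻¹ i j) A := by
  simp_rw [inv_eq]
  exact ((det_contDiff n).contDiffAt.inv (det_ne_zero' h)).mul (adj_contDiff n i j).contDiffAt

theorem Jf_pos {n : ℕ} {A : Mt n} (h : nI A < 1) : 0 < Jf A :=
  inv_pos.2 (Real.sqrt_pos.2 (det_pos_of_near h))

/-! ### the cut-off -/

def chi {n : ℕ} (A : Mt n) : ℝ := max 0 (min 1 (2 - 8 * nI A))

theorem chi_continuous (n : ℕ) : Continuous (chi (n := n)) := by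
  unfold chi
  have := nI_continuous n
  fun_prop

theorem chi_nonneg {n : ℕ} (A : Mt n) : 0 ≤ chi A := le_max_left _ _

theorem chi_le_one {n : ℕ} (A : Mt n) : chi A ≤ 1 := max_le (by norm_num) (min_le_left _ _)

theorem chi_one {n : ℕ} {A : Mt n} (h : nI A ≤ 1 / 8) : chi A = 1 := by
  unfold chi
  rw [min_eq_left (by linarith)]
  norm_num

theorem chi_zero {n : ℕ} {A : Mt n} (h : 1 / 4 ≤ nI A) : chi A = 0 := by
  unfold chi
  rw [max_eq_left]
  exact (min_le_right _ _).trans (by linarith)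

theorem chi_mul_continuous {n : ℕ} {Ψ : Mt n → ℝ}
    (h : ∀ A : Mt n, nI A ≤ 1 / 4 → ContinuousAt Ψ A) : Continuous (fun A => chi A * Ψ A) := by
  rw [continuous_iff_continuousAt]
  intro A
  by_cases hA : nI A ≤ 1 / 4
  · exact (chi_continuous n).continuousAt.mul (h A hA)
  · push Not at hA
    have h1 : (fun A => chi A * Ψ A) =ᶠ[𝓝 A] fun _ => (0 : ℝ) := by
      have : ∀ᶠ B in 𝓝 A, 1 / 4 < nI B :=
        (nI_continuous n).continuousAt.eventually (lt_mem_nhds hA)
      filter_upwards [this] with B hB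
      rw [chi_zero hB.le, zero_mul]
    exact continuousAt_const.congr h1.symm

/-- coercivity of the inverse near the identity -/
theorem coercive {n : ℕ} {A : Mt n} (h : nI A ≤ 1 / 4) (ξ : Fin n → ℝ) :
    ∑ c, ξ c ^ 2 ≤ 2 * ∑ c, ∑ d, (Matrix.of A)⁻¹ c d * (ξ c * ξ d) := by
  have h1 := Crest.Agent.R249.LPt_191.N1_inv_sub_one_le
    (F := Matrix.of A) (show N1 (Matrix.of A - 1) ≤ 1 / 2 from h.trans (by norm_num))
  have h2 : N1 ((Matrix.of A)⁻¹ - 1) ≤ 1 / 2 := by
    have : N1 (Matrix.of A - (1 : Matrix (Fin n) (Fin n) ℝ)) ≤ 1 / 4 := h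
    linarith
  set B := (Matrix.of A)⁻¹ with hB
  set s := ∑ c, ξ c ^ 2 with hs
  have hs0 : 0 ≤ s := Finset.sum_nonneg fun c _ => sq_nonneg _
  have hc : ∀ c d, |ξ c * ξ d| ≤ s := by
    intro c d
    have h3 : ∀ c, ξ c ^ 2 ≤ s := fun c =>
      Finset.single_le_sum (f := fun c => ξ c ^ 2) (fun c _ => sq_nonneg _) (Finset.mem_univ c)
    rw [abs_le]
    constructor <;> nlinarith [h3 c, h3 d, sq_nonneg (ξ c + ξ d), sq_nonneg (ξ c - ξ d)]
  have h4 : ∑ c, ∑ d, (B - 1) c d * (ξ c * ξ d) = (∑ c, ∑ d, B c d * (ξ c * ξ d)) - s := by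
    have : ∀ c, ∑ d, (B - 1) c d * (ξ c * ξ d) = (∑ d, B c d * (ξ c * ξ d)) - ξ c ^ 2 := by
      intro c
      simp_rw [Matrix.sub_apply, sub_mul]
      rw [Finset.sum_sub_distrib]
      congr 1
      simp [Matrix.one_apply, pow_two]
    simp_rw [this]
    rw [Finset.sum_sub_distrib]
  have h5 : |∑ c, ∑ d, (B - 1) c d * (ξ c * ξ d)| ≤ N1 (B - 1) * s := by
    unfold N1
    rw [Finset.sum_mul]
    refine (Finset.abs_sum_le_sum_abs _ _).trans (Finset.sum_le_sum fun c _ => ?_)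
    rw [Finset.sum_mul]
    refine (Finset.abs_sum_le_sum_abs _ _).trans (Finset.sum_le_sum fun d _ => ?_)
    rw [abs_mul]
    exact mul_le_mul_of_nonneg_left (hc c d) (abs_nonneg _)
  have h6 : N1 (B - 1) * s ≤ 1 / 2 * s := mul_le_mul_of_nonneg_right h2 hs0
  have h7 := (abs_le.1 (h5.trans h6)).1
  rw [h4] at h7
  linarith

theorem inv_le_two {n : ℕ} {A : Mt n} (h : nI A ≤ 1 / 4) (c d : Fin n) :
    |(Matrix.of A)⁻¹ c d| ≤ 2 :=
  Crest.Agent.R249.LPt_191.abs_inv_le_two
    (F := Matrix.of A) (show N1 (Matrix.of A - 1) ≤ 1 / 2 from h.trans (by norm_num)) c d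

end Crest.Agent.R249.Lim41
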