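import Crest.Agent.R249.LimA_41
/-!
R249 / D3-LIM (helper41).  Abstract limit lemma, part 11: first consequences of `LData`: weak limits of
`P`, `G`, `D`; weak derivatives of `h`.
-/

set_option autoImplicit false

open MeasureTheory Filter Topology Set
open scoped ContDiff ENNReal
open Crest.GeometryTopology.CoordMetric
open Crest.Agent.R249.LPt_191 (N1 sS kos)

noncomputable section

namespace Crest.Agent.R249.Lim41

/-- the matrix as a function -/
def fm {n : ℕ} (A : Matrix (Fin n) (Fin n) ℝ) : Mt n := fun a b => A a b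

theorem of_fm {n : ℕ} (A : Matrix (Fin n) (Fin n) ℝ) : Matrix.of (fm A) = A := rfl

section main

variable {n : ℕ} {ι : Type*} {l : Filter ι} {X : ι → Type*} [∀ i, MeasurableSpace (X i)]
  {Ω : Set (E n)} {m : ∀ i, Measure (X i)} {u : ∀ i, X i → E n}
  {h : E n → Matrix (Fin n) (Fin n) ℝ} {F : ∀ i, X i → Matrix (Fin n) (Fin n) ℝ}
  {P : ∀ i, X i → Fin n → Fin n → Fin n → ℝ} {D G R : ∀ i, X i → Fin n → Fin n → ℝ}
  {lam Mm C α : ℝ}

namespace LData

section noNeBot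

variable (hd : LData l Ω m u h F P D G R lam Mm C α)
include hd

theorem nIh {y : E n} (hy : y ∈ Ω) : nI (fm (h y)) ≤ 1 / 8 := hd.h_near y hy

theorem nIh1 {y : E n} (hy : y ∈ Ω) : nI (fm (h y)) < 1 := lt_of_le_of_lt (hd.nIh hy) (by norm_num)

theorem nIh4 {y : E n} (hy : y ∈ Ω) : nI (fm (h y)) ≤ 1 / 4 := (hd.nIh hy).trans (by norm_num)

theorem α_pos : 0 < α := lt_trans (by norm_num) hd.α_gt

theorem h_cont (a b : Fin n) : ContinuousOn (fun y => h y a b) Ω :=
  hold_cont hd.α_pos fun x hx y hy => hd.h_hold x hx y hy a b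

theorem fm_cont : ContinuousOn (fun y => fm (h y)) Ω := by
  rw [continuousOn_pi]
  intro a
  rw [continuousOn_pi]
  intro b
  exact hd.h_cont a b

theorem comp_cont {Ψ : Mt n → ℝ} (hΨ : ∀ A : Mt n, nI A ≤ 1 / 8 → ContinuousAt Ψ A) :
    ContinuousOn (fun y => Ψ (fm (h y))) Ω := fun y hy =>
  ContinuousAt.comp_continuousWithinAt (f := fun y => fm (h y)) (hΨ _ (hd.nIh hy))
    (hd.fm_cont y hy)

theorem comp_bdd {Ψ : Mt n → ℝ} (hΨ : ∀ A : Mt n, nI A ≤ 1 / 8 → ContinuousAt Ψ A) :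
    ∃ B, 0 ≤ B ∧ ∀ y ∈ Ω, |Ψ (fm (h y))| ≤ B := by
  obtain ⟨B, hB⟩ := (nearSet_compact n).exists_bound_of_continuousOn
    (f := Ψ) (fun A hA => (hΨ A hA).continuousWithinAt)
  exact ⟨max B 0, le_max_right _ _, fun y hy => (hB _ (hd.nIh hy)).trans (le_max_left _ _)⟩

/-- the vector valued strong convergence -/
theorem sc_fm : SC l Ω m u (fun i x => fm (F i x)) (fun y => fm (h y)) := by
  intro φ hφ
  have hfin := hd.base.fin
  have h1 : Tendsto (fun i => ∑ a, ∑ b, ∫ x, ‖φ (u i x) • (F i x a b - h (u i x) a b)‖ ∂(m i)) l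
      (𝓝 (∑ _a : Fin n, ∑ _b : Fin n, (0 : ℝ))) :=
    tendsto_finsetSum _ fun a _ => tendsto_finsetSum _ fun b _ => hd.sc_F a b φ hφ
  simp only [Finset.sum_const_zero] at h1
  refine squeeze_zero (fun i => integral_nonneg fun x => norm_nonneg _) (fun i => ?_) h1
  have hint : ∀ a b, Integrable (fun x => ‖φ (u i x) • (F i x a b - h (u i x) a b)‖) (m i) := by
    intro a b
    have := integrable_diff (F := fun i x => F i x a b) (f := fun y => h y a b) (m := m)
      hd.base.opn hd.base.meas hφ (fun i => Integrable.of_bound (C := C) (hd.F_meas i a b)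
        (by filter_upwards [hd.F_bdd i] with x hx; exact hx a b)) (hd.h_cont a b) i
    exact this.norm
  have e1 : ∑ a, ∑ b, ∫ x, ‖φ (u i x) • (F i x a b - h (u i x) a b)‖ ∂(m i) =
      ∫ x, ∑ a, ∑ b, ‖φ (u i x) • (F i x a b - h (u i x) a b)‖ ∂(m i) := by
    rw [integral_finsetSum _ fun a _ => integrable_finsetSum _ fun b _ => hint a b]
    refine Finset.sum_congr rfl fun a _ => ?_
    rw [integral_finsetSum _ fun b _ => hint a b]
  rw [e1]
  apply integral_mono_of_nonneg (Eventually.of_forall fun x => norm_nonneg _)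
    (integrable_finsetSum _ fun a _ => integrable_finsetSum _ fun b _ => hint a b)
  refine Eventually.of_forall fun x => ?_
  have hnn : 0 ≤ ∑ a, ∑ b, ‖φ (u i x) • (F i x a b - h (u i x) a b)‖ :=
    Finset.sum_nonneg fun a _ => Finset.sum_nonneg fun b _ => norm_nonneg _
  show ‖φ (u i x) • (fm (F i x) - fm (h (u i x)))‖ ≤ _
  rw [pi_norm_le_iff_of_nonneg hnn]
  intro a
  rw [pi_norm_le_iff_of_nonneg hnn]
  intro b
  have e2 : ‖(φ (u i x) • (fm (F i x) - fm (h (u i x)))) a b‖ =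
      ‖φ (u i x) • (F i x a b - h (u i x) a b)‖ := rfl
  rw [e2]
  refine le_trans ?_ (Finset.single_le_sum
    (f := fun a => ∑ b, ‖φ (u i x) • (F i x a b - h (u i x) a b)‖)
    (fun a _ => Finset.sum_nonneg fun b _ => norm_nonneg _) (Finset.mem_univ a))
  exact Finset.single_le_sum (f := fun b => ‖φ (u i x) • (F i x a b - h (u i x) a b)‖)
    (fun b _ => norm_nonneg _) (Finset.mem_univ b)

theorem fm_meas (i : ι) : AEStronglyMeasurable (fun x => fm (F i x)) (m i) := by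
  have h1 : AEMeasurable (fun x => fm (F i x)) (m i) := by
    refine aemeasurable_pi_lambda _ fun a => aemeasurable_pi_lambda _ fun b => ?_
    exact (hd.F_meas i a b).aemeasurable
  exact h1.aestronglyMeasurable

theorem fm_bdd (i : ι) : ∀ᵐ x ∂(m i), ‖fm (F i x)‖ ≤ C + 2 := by
  filter_upwards [hd.F_bdd i] with x hx
  have hC := hd.C_nonneg
  rw [pi_norm_le_iff_of_nonneg (by positivity)]
  intro a
  rw [pi_norm_le_iff_of_nonneg (by positivity)]
  intro b
  have := hx a b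
  show |F i x a b| ≤ C + 2
  linarith

theorem fmh_bdd {y : E n} (hy : y ∈ Ω) : ‖fm (h y)‖ ≤ C + 2 := by
  have hC := hd.C_nonneg
  rw [pi_norm_le_iff_of_nonneg (by positivity)]
  intro a
  rw [pi_norm_le_iff_of_nonneg (by positivity)]
  intro b
  have h1 : |h y a b - (1 : Matrix (Fin n) (Fin n) ℝ) a b| ≤ 1 / 8 :=
    (Crest.Agent.R249.LPt_191.abs_le_N1 (h y - 1) a b).trans (hd.h_near y hy)
  have h2 : |(1 : Matrix (Fin n) (Fin n) ℝ) a b| ≤ 1 := by
    rw [Matrix.one_apply]; split_ifs <;> simp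
  have h3 : |h y a b| ≤ |h y a b - (1 : Matrix (Fin n) (Fin n) ℝ) a b| +
      |(1 : Matrix (Fin n) (Fin n) ℝ) a b| := by
    have := abs_add_le (h y a b - (1 : Matrix (Fin n) (Fin n) ℝ) a b)
      ((1 : Matrix (Fin n) (Fin n) ℝ) a b)
    rwa [sub_add_cancel] at this
  show |h y a b| ≤ C + 2
  linarith

theorem bddΨ {Ψ : Mt n → ℝ} (hΨ : Continuous Ψ) : ∃ B, 0 ≤ B ∧
    (∀ i, ∀ᵐ x ∂(m i), |Ψ (fm (F i x))| ≤ B) ∧ ∀ y ∈ Ω, |Ψ (fm (h y))| ≤ B := by
  obtain ⟨B, hB⟩ := (isCompact_closedBall (0 : Mt n) (C + 2)).exists_bound_of_continuousOn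
    hΨ.continuousOn
  refine ⟨max B 0, le_max_right _ _, fun i => ?_, fun y hy => ?_⟩
  · filter_upwards [hd.fm_bdd i] with x hx
    exact (hB _ (by simpa using hx)).trans (le_max_left _ _)
  · exact (hB _ (by simpa using hd.fmh_bdd hy)).trans (le_max_left _ _)

theorem measΨ {Ψ : Mt n → ℝ} (hΨ : Continuous Ψ) (i : ι) :
    AEStronglyMeasurable (fun x => Ψ (fm (F i x))) (m i) :=
  hΨ.comp_aestronglyMeasurable (hd.fm_meas i)

theorem contΨ {Ψ : Mt n → ℝ} (hΨ : Continuous Ψ) : ContinuousOn (fun y => Ψ (fm (h y))) Ω :=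
  hΨ.comp_continuousOn hd.fm_cont

end noNeBot

variable [l.NeBot] (hd : LData l Ω m u h F P D G R lam Mm C α)
include hd

theorem scΨ {Ψ : Mt n → ℝ} (hΨ : Continuous Ψ) :
    SC l Ω m u (fun i x => Ψ (fm (F i x))) (fun y => Ψ (fm (h y))) := by
  have := hd.base.fin
  exact SC.comp hd.base.mass hd.base.opn hd.base.meas hd.fm_meas hd.fm_bdd hd.fm_cont
    (fun y hy => hd.fmh_bdd hy) hd.sc_fm hΨ

theorem wc_mul {Ψ : Mt n → ℝ} (hΨ : Continuous Ψ) {g : ∀ i, X i → ℝ} {γ : E n → ℝ}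
    (hg : ∀ i, MemLp (g i) 2 (m i)) {Cg : ℝ} (hgC : ∀ i, ∫ x, g i x ^ 2 ∂(m i) ≤ Cg)
    (hW : WC l Ω m u g γ) :
    WC l Ω m u (fun i x => Ψ (fm (F i x)) * g i x) (fun y => Ψ (fm (h y)) * γ y) := by
  obtain ⟨B, -, hB1, hB2⟩ := hd.bddΨ hΨ
  exact SC.mul_wc hd.base (fun i => hd.measΨ hΨ i) hB1 (hd.contΨ hΨ) hB2 (hd.scΨ hΨ) hg hgC hW

/-- the density -/
theorem wcΨ {Ψ : Mt n → ℝ} (hΨ : Continuous Ψ) :
    WC l Ω m u (fun i x => Ψ (fm (F i x))) (fun y => Ψ (fm (h y)) * Jf (fm (h y))) := by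
  have hfin := hd.base.fin
  have h1 := hd.wc_mul hΨ (g := fun _ _ => 1) (γ := fun y => Jf (fm (h y)))
    (fun i => memLp_of_ae_bdd (C := 1) aestronglyMeasurable_const
      (Eventually.of_forall fun x => by simp) 2) (Cg := Mm) (fun i => by
        simpa using hd.base.mass i) hd.wc_one
  exact h1.congr (fun i => Eventually.of_forall fun x => by simp) (fun y _ => rfl)

end LData

end main

end Crest.Agent.R249.Lim41
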