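import Crest.Agent.R249.LimC_41
/-!
R249 / D3-LIM (helper41).  Abstract limit lemma, part 12: weak limits of `P`, `G`, `D`; weak
derivatives of `h`.
-/

set_option autoImplicit false

open MeasureTheory Filter Topology Set
open scoped ContDiff ENNReal
open Crest.GeometryTopology.CoordMetric
open Crest.Agent.R249.LPt_191 (N1 sS kos)

noncomputable section

namespace Crest.Agent.R249.Lim41

section main

variable {n : ℕ} {ι : Type*} {l : Filter ι} {X : ι → Type*} [∀ i, MeasurableSpace (X i)]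
  {Ω : Set (E n)} {m : ∀ i, Measure (X i)} {u : ∀ i, X i → E n}
  {h : E n → Matrix (Fin n) (Fin n) ℝ} {F : ∀ i, X i → Matrix (Fin n) (Fin n) ℝ}
  {P : ∀ i, X i → Fin n → Fin n → Fin n → ℝ} {D G R : ∀ i, X i → Fin n → Fin n → ℝ}
  {lam Mm C α : ℝ}

theorem continuousAt_Jf {n : ℕ} {A : Mt n} (hA : nI A ≤ 1 / 8) : ContinuousAt (Jf (n := n)) A :=
  (Jf_contDiffAt (lt_of_le_of_lt hA (by norm_num))).continuousAt

theorem continuousAt_sqrt_det {n : ℕ} (A : Mt n) :
    ContinuousAt (fun A : Mt n => √(Matrix.of A).det) A :=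
  (Real.continuous_sqrt.comp (det_contDiff n).continuous).continuousAt

theorem continuous_entry {n : ℕ} (a b : Fin n) : Continuous (fun A : Mt n => A a b) := by fun_prop

theorem contDiff_entry {n : ℕ} (a b : Fin n) : ContDiff ℝ ∞ (fun A : Mt n => A a b) := by fun_prop

namespace LData

section noNeBot

variable (hd : LData l Ω m u h F P D G R lam Mm C α)
include hd

theorem J_pos {y : E n} (hy : y ∈ Ω) : 0 < Jf (fm (h y)) := Jf_pos (hd.nIh1 hy)

theorem J_cont : ContinuousOn (fun y => Jf (fm (h y))) Ω := hd.comp_cont fun _ hA => continuousAt_Jf hA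

theorem J_bdd : ∃ B, 0 ≤ B ∧ ∀ y ∈ Ω, |Jf (fm (h y))| ≤ B :=
  hd.comp_bdd fun _ hA => continuousAt_Jf hA

theorem Ji_cont : ContinuousOn (fun y => (Jf (fm (h y)))⁻¹) Ω :=
  hd.J_cont.inv₀ fun _ hy => (hd.J_pos hy).ne'

theorem Ji_bdd : ∃ B, 0 ≤ B ∧ ∀ y ∈ Ω, |(Jf (fm (h y)))⁻¹| ≤ B := by
  have : ∀ y, (Jf (fm (h y)))⁻¹ = (fun A : Mt n => √(Matrix.of A).det) (fm (h y)) := fun y => by
    simp only [Jf, inv_inv]
  simp_rw [this]
  exact hd.comp_bdd fun A _ => continuousAt_sqrt_det A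

/-- the coefficient `M = J h` -/
theorem M_hold : ∃ B, 0 ≤ B ∧ ∀ d c, ∀ x ∈ Ω, ∀ y ∈ Ω,
    |Jf (fm (h x)) * h x d c - Jf (fm (h y)) * h y d c| ≤ B * dist x y ^ α := by
  have h1 : ∀ d c, ∃ B, 0 ≤ B ∧ ∀ x ∈ Ω, ∀ y ∈ Ω,
      |Jf (fm (h x)) * h x d c - Jf (fm (h y)) * h y d c| ≤ B * dist x y ^ α := fun d c =>
    hold_comp hd.C_nonneg hd.h_near hd.h_hold (Ψ := fun A => Jf A * A d c) fun A hA =>
      ((Jf_contDiffAt (lt_of_le_of_lt hA (by norm_num))).of_le (by simp)).mul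
        ((contDiff_entry d c).contDiffAt.of_le (by simp))
  choose B hB0 hB using h1
  refine ⟨∑ d, ∑ c, B d c, Finset.sum_nonneg fun d _ => Finset.sum_nonneg fun c _ => hB0 d c,
    fun d c x hx y hy => (hB d c x hx y hy).trans ?_⟩
  refine mul_le_mul_of_nonneg_right ?_ (Real.rpow_nonneg dist_nonneg _)
  refine le_trans ?_ (Finset.single_le_sum (f := fun d => ∑ c, B d c)
    (fun d _ => Finset.sum_nonneg fun c _ => hB0 d c) (Finset.mem_univ d))
  exact Finset.single_le_sum (f := fun c => B d c) (fun c _ => hB0 d c) (Finset.mem_univ c)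

/-- the coefficient `N = h⁻¹ / J` -/
theorem N_hold : ∃ B, 0 ≤ B ∧ ∀ d c, ∀ x ∈ Ω, ∀ y ∈ Ω,
    |(Jf (fm (h x)))⁻¹ * (h x)⁻¹ d c - (Jf (fm (h y)))⁻¹ * (h y)⁻¹ d c| ≤ B * dist x y ^ α := by
  have h1 : ∀ d c, ∃ B, 0 ≤ B ∧ ∀ x ∈ Ω, ∀ y ∈ Ω,
      |(Jf (fm (h x)))⁻¹ * (h x)⁻¹ d c - (Jf (fm (h y)))⁻¹ * (h y)⁻¹ d c| ≤ B * dist x y ^ α :=
    fun d c =>
    hold_comp hd.C_nonneg hd.h_near hd.h_hold
      (Ψ := fun A => (Jf A)⁻¹ * (Matrix.of A)⁻¹ d c) fun A hA => by
      have hA1 : nI A < 1 := lt_of_le_of_lt hA (by norm_num)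
      exact (((Jf_contDiffAt hA1).inv (Jf_pos hA1).ne').of_le (by simp)).mul
        ((inv_contDiffAt hA1 d c).of_le (by simp))
  choose B hB0 hB using h1
  refine ⟨∑ d, ∑ c, B d c, Finset.sum_nonneg fun d _ => Finset.sum_nonneg fun c _ => hB0 d c,
    fun d c x hx y hy => (hB d c x hx y hy).trans ?_⟩
  refine mul_le_mul_of_nonneg_right ?_ (Real.rpow_nonneg dist_nonneg _)
  refine le_trans ?_ (Finset.single_le_sum (f := fun d => ∑ c, B d c)
    (fun d _ => Finset.sum_nonneg fun c _ => hB0 d c) (Finset.mem_univ d))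
  exact Finset.single_le_sum (f := fun c => B d c) (fun c _ => hB0 d c) (Finset.mem_univ c)

theorem det_unit {y : E n} (hy : y ∈ Ω) : IsUnit (h y).det :=
  isUnit_iff_ne_zero.2 (det_pos_of_near (hd.nIh1 hy)).ne'

theorem hinv_mul {y : E n} (hy : y ∈ Ω) (a b : Fin n) :
    ∑ c, (h y)⁻¹ a c * h y c b = if a = b then 1 else 0 := by
  have h1 := Matrix.nonsing_inv_mul (h y) (hd.det_unit hy)
  have h2 := congrFun (congrFun h1 a) b
  rw [Matrix.mul_apply, Matrix.one_apply] at h2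
  exact h2

theorem h_mul_inv {y : E n} (hy : y ∈ Ω) (a b : Fin n) :
    ∑ c, h y a c * (h y)⁻¹ c b = if a = b then 1 else 0 := by
  have h1 := Matrix.mul_nonsing_inv (h y) (hd.det_unit hy)
  have h2 := congrFun (congrFun h1 a) b
  rw [Matrix.mul_apply, Matrix.one_apply] at h2
  exact h2

theorem MN {y : E n} (hy : y ∈ Ω) (d e : Fin n) :
    ∑ c, (Jf (fm (h y)) * h y d c) * ((Jf (fm (h y)))⁻¹ * (h y)⁻¹ c e) =
      if d = e then 1 else 0 := by
  rw [← hd.h_mul_inv hy d e]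
  refine Finset.sum_congr rfl fun c _ => ?_
  have := (hd.J_pos hy).ne'
  field_simp

theorem h_inv_cont (a b : Fin n) : ContinuousOn (fun y => (h y)⁻¹ a b) Ω :=
  hd.comp_cont (Ψ := fun A => (Matrix.of A)⁻¹ a b) fun _ hA =>
    (inv_contDiffAt (lt_of_le_of_lt hA (by norm_num)) a b).continuousAt

end noNeBot

variable [l.NeBot] (hd : LData l Ω m u h F P D G R lam Mm C α)
include hd

/-- the divergence equation in the limit -/
theorem div_lim (c : Fin n) {φ : E n → ℝ} (hφ : CS Ω φ) :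
    ∫ y, ∑ d, pderiv d φ y * (Jf (fm (h y)) * h y d c) = 0 := by
  have hfin := hd.base.fin
  have h1 : Tendsto (fun i => ∑ d, ∫ x, pderiv d φ (u i x) * F i x d c ∂(m i)) l
      (𝓝 (∑ d, ∫ y, pderiv d φ y * (h y d c * Jf (fm (h y))))) :=
    tendsto_finsetSum _ fun d _ => hd.wcΨ (continuous_entry d c) _ (hφ.pderiv d).cc
  have hFi : ∀ i d, Integrable (fun x => F i x d c) (m i) := fun i d =>
    Integrable.of_bound (C := C) (hd.F_meas i d c)
      (by filter_upwards [hd.F_bdd i] with x hx; exact hx d c)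
  have h2 : ∀ i, ∑ d, ∫ x, pderiv d φ (u i x) * F i x d c ∂(m i) =
      ∫ x, ∑ d, pderiv d φ (u i x) * F i x d c ∂(m i) := fun i =>
    (integral_finsetSum _ fun d _ => (hφ.pderiv d).cc.integrable_comp hd.base (hFi i d)).symm
  simp_rw [h2] at h1
  have h3 := tendsto_nhds_unique (h1.congr' (hd.H4 c φ hφ)) tendsto_const_nhds
  rw [← h3, ← integral_finsetSum]
  · congr 1
    ext y
    refine Finset.sum_congr rfl fun d _ => ?_
    ring
  · intro d _
    exact (hφ.pderiv d).cc.integrable_mul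
      (LI.of_cont ((hd.h_cont d c).mul hd.J_cont))

/-- the weak limit of `P` -/
theorem exists_p (a b c : Fin n) : ∃ p : E n → ℝ, MemLp p 2 (volume : Measure (E n)) ∧
    WC l Ω m u (fun i x => P i x a b c) p ∧ ∀ φ, CS Ω φ →
      ∫ y, φ y * p y = - ∫ y, h y a b * ∑ d, pderiv d φ y * (Jf (fm (h y)) * h y d c) := by
  have hfin := hd.base.fin
  obtain ⟨CJ, hCJ0, hCJ⟩ := hd.J_bdd
  obtain ⟨p, hp, hW, hr⟩ := riesz_wc hd.base hd.wc_one hCJ hCJ0 (LI.of_cont hd.J_cont)
    (g := fun i x => P i x a b c) (fun i => hd.P_mem i a b c) hd.C_nonneg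
    (fun i => hd.P_bdd i a b c)
    (fun φ => - ∫ y, h y a b * ∑ d, pderiv d φ y * (Jf (fm (h y)) * h y d c)) (by
      intro φ hφ
      have h1 : Tendsto (fun i => ∑ d, ∫ x, pderiv d φ (u i x) * (F i x a b * F i x d c) ∂(m i)) l
          (𝓝 (∑ d, ∫ y, pderiv d φ y * ((h y a b * h y d c) * Jf (fm (h y))))) :=
        tendsto_finsetSum _ fun d _ =>
          hd.wcΨ ((continuous_entry a b).mul (continuous_entry d c)) _ (hφ.pderiv d).cc
      have hFi : ∀ i d, Integrable (fun x => F i x a b * F i x d c) (m i) := fun i d =>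
        Integrable.of_bound (C := C * C) ((hd.F_meas i a b).mul (hd.F_meas i d c))
          (by
            filter_upwards [hd.F_bdd i] with x hx
            rw [norm_mul]
            exact mul_le_mul (hx a b) (hx d c) (norm_nonneg _) hd.C_nonneg)
      have h2 : ∀ i, ∑ d, ∫ x, pderiv d φ (u i x) * (F i x a b * F i x d c) ∂(m i) =
          ∫ x, F i x a b * ∑ d, pderiv d φ (u i x) * F i x d c ∂(m i) := by
        intro i
        rw [← integral_finsetSum _ fun d _ =>
          (hφ.pderiv d).cc.integrable_comp hd.base (hFi i d)]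
        congr 1
        ext x
        rw [Finset.mul_sum]
        refine Finset.sum_congr rfl fun d _ => ?_
        ring
      have h3 : ∑ d, ∫ y, pderiv d φ y * ((h y a b * h y d c) * Jf (fm (h y))) =
          ∫ y, h y a b * ∑ d, pderiv d φ y * (Jf (fm (h y)) * h y d c) := by
        rw [← integral_finsetSum]
        · congr 1
          ext x
          rw [Finset.mul_sum]
          refine Finset.sum_congr rfl fun d _ => ?_
          ring
        · intro d _
          exact (hφ.pderiv d).cc.integrable_mul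
            (LI.of_cont (((hd.h_cont a b).mul (hd.h_cont d c)).mul hd.J_cont))
      simp_rw [h2] at h1
      rw [h3] at h1
      refine h1.neg.congr' ?_
      filter_upwards [hd.H5 a b c φ hφ] with i hi
      exact hi.symm)
  exact ⟨p, hp, hW, fun φ hφ => (hr φ hφ).symm⟩

/-- the weak limit of `P`, chosen -/
def p (a b c : Fin n) : E n → ℝ := (hd.exists_p a b c).choose

theorem p_mem (a b c : Fin n) : MemLp (hd.p a b c) 2 (volume : Measure (E n)) :=
  (hd.exists_p a b c).choose_spec.1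

theorem p_wc (a b c : Fin n) : WC l Ω m u (fun i x => P i x a b c) (hd.p a b c) :=
  (hd.exists_p a b c).choose_spec.2.1

theorem p_eq (a b c : Fin n) {φ : E n → ℝ} (hφ : CS Ω φ) :
    ∫ y, φ y * hd.p a b c y =
      - ∫ y, h y a b * ∑ d, pderiv d φ y * (Jf (fm (h y)) * h y d c) :=
  (hd.exists_p a b c).choose_spec.2.2 φ hφ

/-- the weak derivative of `h a b` in direction `e` -/
def H (a b e : Fin n) : E n → ℝ := fun y =>
  ∑ c, ((Jf (fm (h y)))⁻¹ * (h y)⁻¹ c e) * hd.p a b c y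

theorem p_of_H (a b c : Fin n) {y : E n} (hy : y ∈ Ω) :
    hd.p a b c y = Jf (fm (h y)) * ∑ e, h y e c * hd.H a b e y := by
  have hJ := (hd.J_pos hy).ne'
  have h1 : ∑ e, h y e c * hd.H a b e y = (Jf (fm (h y)))⁻¹ *
      ∑ c', (∑ e, (h y)⁻¹ c' e * h y e c) * hd.p a b c' y := by
    unfold H
    simp_rw [Finset.mul_sum, Finset.sum_mul]
    rw [Finset.sum_comm]
    simp_rw [Finset.mul_sum]
    refine Finset.sum_congr rfl fun c' _ => Finset.sum_congr rfl fun e _ => ?_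
    ring
  rw [h1]
  simp_rw [hd.hinv_mul hy]
  simp only [ite_mul, one_mul, zero_mul, Finset.sum_ite_eq', Finset.mem_univ, if_true]
  rw [← mul_assoc, mul_inv_cancel₀ hJ, one_mul]

theorem H_l2l (a b e : Fin n) : L2l Ω (hd.H a b e) := by
  refine L2l.sum _ fun c _ => ?_
  exact L2l.mul_cont hd.base.opn (hd.Ji_cont.mul (hd.h_inv_cont c e)) (L2l.of_memLp (hd.p_mem a b c))

/-- `H` is the weak derivative of `h` -/
theorem H_wd (a b e : Fin n) {ζ : E n → ℝ} (hζ : CS Ω ζ) :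
    ∫ y, h y a b * pderiv e ζ y = - ∫ y, ζ y * hd.H a b e y := by
  obtain ⟨B1, hB10, hB1⟩ := hd.M_hold
  obtain ⟨B2, hB20, hB2⟩ := hd.N_hold
  have key := weak_deriv (M := fun d c y => Jf (fm (h y)) * h y d c)
    (N := fun d c y => (Jf (fm (h y)))⁻¹ * (h y)⁻¹ d c) (C := max B1 B2) (α := α)
    (p := fun c => hd.p a b c) (f := fun y => h y a b)
    hd.base.opn hd.α_gt (le_max_of_le_left hB10)
    (fun d c x hx y hy => (hB1 d c x hx y hy).trans
      (mul_le_mul_of_nonneg_right (le_max_left _ _) (Real.rpow_nonneg dist_nonneg _)))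
    (fun d c x hx y hy => (hB2 d c x hx y hy).trans
      (mul_le_mul_of_nonneg_right (le_max_right _ _) (Real.rpow_nonneg dist_nonneg _)))
    (fun y hy d e => hd.MN hy d e) (fun c φ hφ => hd.div_lim c hφ) (hd.h_cont a b)
    (fun c => LI.of_memLp (hd.p_mem a b c)) (fun c φ hφ => hd.p_eq a b c hφ) e hζ
  exact key

/-- the weak limit of `G` -/
theorem exists_g (a b : Fin n) : ∃ g : E n → ℝ, MemLp g 2 (volume : Measure (E n)) ∧
    WC l Ω m u (fun i x => G i x a b) g ∧ ∀ φ, CS Ω φ →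
      ∑ c, ∫ y, pderiv c φ y * hd.p a b c y = - ∫ y, φ y * g y := by
  have hfin := hd.base.fin
  obtain ⟨CJ, hCJ0, hCJ⟩ := hd.J_bdd
  obtain ⟨g, hg, hW, hr⟩ := riesz_wc hd.base hd.wc_one hCJ hCJ0 (LI.of_cont hd.J_cont)
    (g := fun i x => G i x a b) (fun i => hd.G_mem i a b) hd.C_nonneg
    (fun i => hd.G_bdd i a b)
    (fun φ => - ∑ c, ∫ y, pderiv c φ y * hd.p a b c y) (by
      intro φ hφ
      have h1 : Tendsto (fun i => ∑ c, ∫ x, pderiv c φ (u i x) * P i x a b c ∂(m i)) l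
          (𝓝 (∑ c, ∫ y, pderiv c φ y * hd.p a b c y)) :=
        tendsto_finsetSum _ fun c _ => hd.p_wc a b c _ (hφ.pderiv c).cc
      refine h1.neg.congr' ?_
      filter_upwards [hd.H6 a b φ hφ] with i hi
      rw [← integral_finsetSum _ fun c _ => (hφ.pderiv c).cc.integrable_comp hd.base
        ((hd.P_mem i a b c).integrable (by norm_num)), hi, neg_neg])
  refine ⟨g, hg, hW, fun φ hφ => ?_⟩
  rw [← hr φ hφ, neg_neg]

def g (a b : Fin n) : E n → ℝ := (hd.exists_g a b).choose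

theorem g_mem (a b : Fin n) : MemLp (hd.g a b) 2 (volume : Measure (E n)) :=
  (hd.exists_g a b).choose_spec.1

theorem g_wc (a b : Fin n) : WC l Ω m u (fun i x => G i x a b) (hd.g a b) :=
  (hd.exists_g a b).choose_spec.2.1

theorem g_eq (a b : Fin n) {φ : E n → ℝ} (hφ : CS Ω φ) :
    ∑ c, ∫ y, pderiv c φ y * hd.p a b c y = - ∫ y, φ y * hd.g a b y :=
  (hd.exists_g a b).choose_spec.2.2 φ hφ

end LData

end main

end Crest.Agent.R249.Lim41
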