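import Crest.Agent.R249.LimG1_621
import Crest.Agent.R249.PenH_806

/-!
# Row 249, part A2 v3: the limit passage for the obstacles `Ob` of helper806 and fields of the
class `V = A dη + B dm + W J_η` (shift which keeps `dφ - dψ`).

File 0: relation, Lipschitz condition, points of `{k = 0}`.
-/

set_option autoImplicit false
set_option linter.unusedVariables false
set_option linter.unusedSectionVars false

open Set Filter Topology
open scoped ContDiff

namespace Crest.Agent.R249.LimE621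

open Crest.Agent.R249.Lim621 Crest.Agent.R249.LimG621 Crest.Agent.R249.PenH_806

variable {E H : Type*} [NormedAddCommGroup E] [InnerProductSpace ℝ E]
  [NormedAddCommGroup H] [NormedSpace ℝ H]

/-- the compared jets: same `dφ - dψ`, close values. -/
def RelE (ε : ℝ) (j j' : Jet E H) : Prop :=
  j'.p - j'.q = j.p - j.q ∧ |j.f - j'.f| ≤ ε ∧ |j.g - j'.g| ≤ ε

/-- weight four Lipschitz condition on the box, for pairs in relation `RelE`. -/
def LipE (g B C : ℝ) (I : Jet E H → ℝ) : Prop :=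
  ∀ (ε : ℝ) (j j' : Jet E H), 0 ≤ ε → ε ≤ 1 → g ≤ j.f → j.f ≤ B → g ≤ j.g → j.g ≤ B →
    g ≤ j'.f → j'.f ≤ B → g ≤ j'.g → j'.g ≤ B → RelE ε j j' → |I j - I j'| ≤ C * Mod ε j j'

section Ob

variable {g B : ℝ} (O : Ob g B)

theorem deriv_Γ_odd (η : ℝ) : deriv O.Γ (-η) = -deriv O.Γ η := by
  have h1 : deriv (fun x => O.Γ (-x)) η = -deriv O.Γ (-η) := deriv_comp_neg O.Γ η
  have h2 : (fun x => O.Γ (-x)) = O.Γ := funext O.even
  rw [h2] at h1
  linarith

theorem hasDeriv_Γ (η : ℝ) : HasDerivAt O.Γ (deriv O.Γ η) η :=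
  ((O.smooth.differentiable (by simp)) η).hasDerivAt

/-- `Γ` is `(1/2 - c)`-Lipschitz -/
theorem Γ_lip {a b : ℝ} (ha : |a| ≤ B - g) (hb : |b| ≤ B - g) :
    |O.Γ a - O.Γ b| ≤ (1 / 2 - O.c) * |a - b| := by
  have hconv : Convex ℝ (Icc (-(B - g)) (B - g)) := convex_Icc _ _
  have h := hconv.norm_image_sub_le_of_norm_hasDerivWithin_le (f := O.Γ) (f' := deriv O.Γ)
    (C := 1 / 2 - O.c) (x := b) (y := a)
    (fun x hx => (hasDeriv_Γ O x).hasDerivWithinAt)
    (fun x hx => by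
      rw [Real.norm_eq_abs]
      exact O.slope x (abs_le.mpr hx)) (abs_le.mp hb) (abs_le.mp ha)
  simpa [Real.norm_eq_abs] using h

/-- monotonicity of `k` along rays from `(g, g)` -/
theorem k_ray {f h lam lam' : ℝ} (hf : 0 ≤ f) (hh : 0 ≤ h) (hlam : 0 ≤ lam) (hll : lam ≤ lam')
    (h1 : lam' * f ≤ B - g) (h2 : lam' * h ≤ B - g) :
    O.k (g + lam' * f) (g + lam' * h) ≤
      O.k (g + lam * f) (g + lam * h) - O.c * (lam' - lam) * (f + h) := by
  have hl' : 0 ≤ lam' := hlam.trans hll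
  have e1 : |lam' * f - lam' * h| ≤ B - g := by
    rw [abs_le]
    have := mul_nonneg hl' hf
    have := mul_nonneg hl' hh
    constructor <;> linarith
  have h3 : lam * f ≤ lam' * f := mul_le_mul_of_nonneg_right hll hf
  have h4 : lam * h ≤ lam' * h := mul_le_mul_of_nonneg_right hll hh
  have e2 : |lam * f - lam * h| ≤ B - g := by
    rw [abs_le]
    have := mul_nonneg hlam hf
    have := mul_nonneg hlam hh
    constructor <;> linarith
  have h5 := Γ_lip O e1 e2
  have e3 : (lam' * f - lam' * h) - (lam * f - lam * h) = (lam' - lam) * (f - h) := by ring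
  rw [e3, abs_mul, abs_of_nonneg (sub_nonneg.2 hll)] at h5
  have h6 : |f - h| ≤ f + h := by
    rw [abs_le]; constructor <;> linarith
  have h7 : 0 ≤ 1 / 2 - O.c := by
    have hBg : 0 < B - g := by linarith [O.g_lt]
    exact (abs_nonneg _).trans (O.slope 0 (by rw [abs_zero]; exact hBg.le))
  have h8 : (1 / 2 - O.c) * ((lam' - lam) * |f - h|) ≤
      (1 / 2 - O.c) * ((lam' - lam) * (f + h)) := by
    apply mul_le_mul_of_nonneg_left _ h7
    exact mul_le_mul_of_nonneg_left h6 (sub_nonneg.2 hll)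
  have h9 := (abs_le.mp h5).2
  unfold Ob.k
  have e4 : g + lam' * f - (g + lam' * h) = lam' * f - lam' * h := by ring
  have e5 : g + lam * f - (g + lam * h) = lam * f - lam * h := by ring
  rw [e4, e5]
  nlinarith

/-- lower bound of `φ + ψ - 2g` in the contact zone -/
theorem sum_ge {f h ε : ℝ} (hf : g ≤ f) (hfB : f ≤ B) (hh : g ≤ h) (hhB : h ≤ B)
    (hk : O.k f h ≤ ε) : O.Γ 0 - g - ε ≤ (f - g) + (h - g) := by
  have hBg : 0 < B - g := by linarith [O.g_lt]
  have h1 := Γ_lip O (a := f - h) (b := 0) (by rw [abs_le]; constructor <;> linarith)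
    (by rw [abs_zero]; exact hBg.le)
  have h2 : |f - h - 0| ≤ (f - g) + (h - g) := by
    rw [sub_zero, abs_le]; constructor <;> linarith
  have h7 : 0 ≤ 1 / 2 - O.c := (abs_nonneg _).trans (O.slope 0 (by rw [abs_zero]; exact hBg.le))
  have h3 := (abs_le.mp h1).1
  have h4 := mul_le_mul_of_nonneg_left h2 h7
  have h5 := mul_nonneg O.c_pos.le (by linarith : 0 ≤ (f - g) + (h - g))
  unfold Ob.k at hk
  linarith

/-- **points of the contact curve.** -/
theorem exists_contact (hΓ : g < O.Γ 0) : ∃ ε0 K : ℝ, 0 < ε0 ∧ 0 < K ∧ ∀ f h ε : ℝ, g ≤ f → f ≤ B →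
    g ≤ h → h ≤ B → |O.k f h| ≤ ε → ε ≤ ε0 → ∃ f' h' : ℝ, g ≤ f' ∧ f' ≤ B ∧ g ≤ h' ∧ h' ≤ B ∧
      O.k f' h' = 0 ∧ |f - f'| ≤ K * ε ∧ |h - h'| ≤ K * ε := by
  have hBg : 0 < B - g := by linarith [O.g_lt]
  have hc := O.c_pos
  obtain ⟨κ, hκ⟩ : ∃ κ, κ = (B + g) / 2 - O.Γ (B - g) := ⟨_, rfl⟩
  have hκ0 : 0 < κ := by rw [hκ]; linarith [O.corner]
  obtain ⟨s, hs⟩ : ∃ s, s = (O.Γ 0 - g) / 2 := ⟨_, rfl⟩
  have hs0 : 0 < s := by rw [hs]; linarith
  -- the upper bound `f ≤ B - κ/2` in the zone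
  have hup : ∀ f h ε, g ≤ f → f ≤ B → g ≤ h → h ≤ B → |O.k f h| ≤ ε → ε ≤ κ / 2 →
      f ≤ B - κ / 2 ∧ h ≤ B - κ / 2 := by
    intro f h ε hf hfB hh hhB hk hε
    have h7 : 0 ≤ 1 / 2 - O.c := (abs_nonneg _).trans (O.slope 0 (by rw [abs_zero]; exact hBg.le))
    have hk1 := (abs_le.mp hk).1
    unfold Ob.k at hk1
    have key : ∀ a b : ℝ, g ≤ a → a ≤ B → g ≤ b → b ≤ B → -ε ≤ O.Γ (a - b) - (a + b) / 2 →
        a ≤ B - κ / 2 := by
      intro a b ha haB hb hbB hab
      have h1 := Γ_lip O (a := a - b) (b := B - g) (by rw [abs_le]; constructor <;> linarith)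
        (by rw [abs_of_pos hBg])
      have e1 : |a - b - (B - g)| = (B - a) + (b - g) := by
        rw [abs_of_nonpos (by linarith)]; ring
      rw [e1] at h1
      have h2 := (abs_le.mp h1).2
      have h3 := mul_nonneg hc.le (by linarith : 0 ≤ (B - a) + (b - g))
      rw [hκ] at hε ⊢
      linarith
    refine ⟨key f h hf hfB hh hhB hk1, key h f hh hhB hf hfB ?_⟩
    have : O.Γ (h - f) = O.Γ (f - h) := by rw [← O.even (f - h)]; congr 1; ring
    rw [this, add_comm h f]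
    exact hk1
  -- the parameters
  obtain ⟨K, hK⟩ : ∃ K, K = (O.c * s)⁻¹ * (B - g) := ⟨_, rfl⟩
  have hcs : 0 < O.c * s := by positivity
  have hK0 : 0 < K := by rw [hK]; positivity
  refine ⟨min (min (κ / 2) s) (min (O.c * s) (κ / 2 / K)), K, by positivity, hK0, ?_⟩
  intro f h ε hf hfB hh hhB hk hε
  have hε1 : ε ≤ κ / 2 := hε.trans ((min_le_left _ _).trans (min_le_left _ _))
  have hε2 : ε ≤ s := hε.trans ((min_le_left _ _).trans (min_le_right _ _))
  have hε3 : ε ≤ O.c * s := hε.trans ((min_le_right _ _).trans (min_le_left _ _))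
  have hε4 : ε ≤ κ / 2 / K := hε.trans ((min_le_right _ _).trans (min_le_right _ _))
  have hε0 : 0 ≤ ε := (abs_nonneg _).trans hk
  obtain ⟨hfu, hhu⟩ := hup f h ε hf hfB hh hhB hk hε1
  obtain ⟨hk1, hk2⟩ := abs_le.mp hk
  have hsum : s ≤ (f - g) + (h - g) := by
    have := sum_ge O hf hfB hh hhB hk2
    rw [hs] at hε2 ⊢
    linarith
  -- the interval of `lam`
  obtain ⟨τ, hτ⟩ : ∃ τ, τ = (O.c * s)⁻¹ * ε := ⟨_, rfl⟩
  have hτ0 : 0 ≤ τ := by rw [hτ]; positivity
  have hτ1 : τ ≤ 1 := by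
    rw [hτ, inv_mul_le_iff₀ hcs]; linarith
  have hτε : ε = τ * (O.c * s) := by
    rw [hτ]; field_simp
  have hτK : τ * (B - g) = K * ε := by rw [hτ, hK]; ring
  have hKε : K * ε ≤ κ / 2 := by
    have := (le_div_iff₀ hK0).1 hε4
    linarith
  have hf0 : 0 ≤ f - g := by linarith
  have hh0 : 0 ≤ h - g := by linarith
  have hbd : ∀ x : ℝ, 0 ≤ x → x ≤ B - g - κ / 2 → (1 + τ) * x ≤ B - g := by
    intro x hx0 hx
    have : τ * x ≤ τ * (B - g) := mul_le_mul_of_nonneg_left (by linarith) hτ0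
    nlinarith
  have hb1 := hbd (f - g) hf0 (by linarith)
  have hb2 := hbd (h - g) hh0 (by linarith)
  have hcτ : ε ≤ O.c * τ * ((f - g) + (h - g)) := by
    calc ε = O.c * τ * s := by rw [hτε]; ring
      _ ≤ _ := mul_le_mul_of_nonneg_left hsum (by positivity)
  have hfe : g + 1 * (f - g) = f := by ring
  have hhe : g + 1 * (h - g) = h := by ring
  have hlow : 0 ≤ O.k (g + (1 - τ) * (f - g)) (g + (1 - τ) * (h - g)) := by
    have h1 := k_ray O hf0 hh0 (by linarith : 0 ≤ 1 - τ) (by linarith : 1 - τ ≤ 1)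
      (by linarith) (by linarith)
    rw [hfe, hhe] at h1
    have e : O.c * (1 - (1 - τ)) * (f - g + (h - g)) = O.c * τ * ((f - g) + (h - g)) := by ring
    rw [e] at h1
    linarith
  have hhigh : O.k (g + (1 + τ) * (f - g)) (g + (1 + τ) * (h - g)) ≤ 0 := by
    have h1 := k_ray O hf0 hh0 (by linarith : (0:ℝ) ≤ 1) (by linarith : 1 ≤ 1 + τ) hb1 hb2
    rw [hfe, hhe] at h1
    have e : O.c * (1 + τ - 1) * (f - g + (h - g)) = O.c * τ * ((f - g) + (h - g)) := by ring
    rw [e] at h1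
    linarith
  have hcont : ContinuousOn (fun lam => O.k (g + lam * (f - g)) (g + lam * (h - g)))
      (Icc (1 - τ) (1 + τ)) := by
    have : Continuous (fun lam => O.k (g + lam * (f - g)) (g + lam * (h - g))) := by
      unfold Ob.k
      exact (O.smooth.continuous.comp (by fun_prop)).sub (by fun_prop)
    exact this.continuousOn
  have hivt := intermediate_value_Icc' (by linarith : 1 - τ ≤ 1 + τ) hcont
  obtain ⟨lam, hlam, hz⟩ := hivt ⟨hhigh, hlow⟩
  have hz' : O.k (g + lam * (f - g)) (g + lam * (h - g)) = 0 := hz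
  have hlam0 : 0 ≤ lam := by linarith [hlam.1]
  have hdist : ∀ x : ℝ, 0 ≤ x → x ≤ B - g → |(g + x) - (g + lam * x)| ≤ K * ε := by
    intro x hx0 hx
    have e : (g + x) - (g + lam * x) = (1 - lam) * x := by ring
    rw [e, abs_mul, abs_of_nonneg hx0, ← hτK]
    have h1 : |1 - lam| ≤ τ := by
      rw [abs_le]; constructor <;> linarith [hlam.1, hlam.2]
    exact mul_le_mul h1 hx hx0 hτ0
  have hd1 := hdist (f - g) hf0 (by linarith)
  have hd2 := hdist (h - g) hh0 (by linarith)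
  have hle : ∀ x : ℝ, 0 ≤ x → (1 + τ) * x ≤ B - g → g + lam * x ≤ B := by
    intro x hx0 hx
    have : lam * x ≤ (1 + τ) * x := mul_le_mul_of_nonneg_right hlam.2 hx0
    linarith
  refine ⟨g + lam * (f - g), g + lam * (h - g), ?_, hle _ hf0 hb1, ?_, hle _ hh0 hb2, hz', ?_, ?_⟩
  · have := mul_nonneg hlam0 hf0
    linarith
  · have := mul_nonneg hlam0 hh0
    linarith
  · have e : g + (f - g) = f := by ring
    rw [e] at hd1; exact hd1
  · have e : g + (h - g) = h := by ring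
    rw [e] at hd2; exact hd2

end Ob

end Crest.Agent.R249.LimE621
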