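import Crest.Agent.R249.LimE0_621

/-!
# Row 249, part A2 v3: the limit passage for `Ob`, file 1: the contact zone lemma
-/

set_option autoImplicit false
set_option linter.unusedVariables false
set_option linter.unusedSectionVars false

open Set Filter Topology
open scoped ContDiff

namespace Crest.Agent.R249.LimE621

open Crest.Agent.R249.Lim621 Crest.Agent.R249.LimG621 Crest.Agent.R249.PenH_806

variable {E H : Type*} [NormedAddCommGroup E] [InnerProductSpace ℝ E]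
  [NormedAddCommGroup H] [NormedSpace ℝ H]

variable {g B : ℝ}

/-- the bounds for `Γ` and `F` -/
structure Bds (O : Ob g B) (F : ℝ → ℝ) (A : ℝ) : Prop where
  one : 1 ≤ A
  c : 1 ≤ A * O.c
  G1 : ∀ a b, |a| ≤ B - g → |b| ≤ B - g → |deriv O.Γ a - deriv O.Γ b| ≤ A * |a - b|
  G2b : ∀ a, |a| ≤ B - g → |deriv (deriv O.Γ) a| ≤ A
  G2 : ∀ a b, |a| ≤ B - g → |b| ≤ B - g →
    |deriv (deriv O.Γ) a - deriv (deriv O.Γ) b| ≤ A * |a - b|
  Fb : ∀ u, g ≤ u → u ≤ B → |F u| ≤ A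
  F : ∀ u v, g ≤ u → u ≤ B → g ≤ v → v ≤ B → |F u - F v| ≤ A * |u - v|

theorem lip_of_contDiff {h : ℝ → ℝ} (hh : ContDiff ℝ ∞ h) (R : ℝ) : ∃ A : ℝ, 0 ≤ A ∧
    (∀ a, |a| ≤ R → |h a| ≤ A) ∧ ∀ a b, |a| ≤ R → |b| ≤ R → |h a - h b| ≤ A * |a - b| := by
  have hd : Continuous (deriv h) := hh.continuous_deriv (by simp)
  obtain ⟨A1, hA1⟩ := (isCompact_Icc (a := -R) (b := R)).exists_bound_of_continuousOn
    hh.continuous.continuousOn
  obtain ⟨A2, hA2⟩ := (isCompact_Icc (a := -R) (b := R)).exists_bound_of_continuousOn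
    hd.continuousOn
  refine ⟨max (max A1 A2) 0, le_max_right _ _, ?_, ?_⟩
  · intro a ha
    have := hA1 a (abs_le.mp ha)
    rw [Real.norm_eq_abs] at this
    exact this.trans ((le_max_left _ _).trans (le_max_left _ _))
  · intro a b ha hb
    have h := (convex_Icc (-R) R).norm_image_sub_le_of_norm_hasDerivWithin_le (f := h)
      (f' := deriv h) (C := max (max A1 A2) 0) (x := b) (y := a)
      (fun x hx => ((hh.differentiable (by simp)) x).hasDerivAt.hasDerivWithinAt)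
      (fun x hx => (hA2 x hx).trans ((le_max_right _ _).trans (le_max_left _ _)))
      (abs_le.mp hb) (abs_le.mp ha)
    simpa [Real.norm_eq_abs] using h

theorem contDiff_deriv {h : ℝ → ℝ} (hh : ContDiff ℝ ∞ h) : ContDiff ℝ ∞ (deriv h) := by
  have := contDiff_infty_iff_deriv.1 hh
  exact this.2

/-- existence of the bounds -/
theorem exists_bds (O : Ob g B) {F : ℝ → ℝ} {CF : ℝ} (hFb : ∀ u, g ≤ u → u ≤ B → |F u| ≤ CF)
    (hF : ∀ u v, g ≤ u → u ≤ B → g ≤ v → v ≤ B → |F u - F v| ≤ CF * |u - v|) :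
    ∃ A, Bds O F A := by
  obtain ⟨A1, h10, h11, h12⟩ := lip_of_contDiff (contDiff_deriv O.smooth) (B - g)
  obtain ⟨A2, h20, h21, h22⟩ := lip_of_contDiff (contDiff_deriv (contDiff_deriv O.smooth)) (B - g)
  have hc := O.c_pos
  have hCF : 0 ≤ CF := (abs_nonneg _).trans (hFb g le_rfl O.g_lt.le)
  obtain ⟨A, hA⟩ : ∃ A, A = 1 + O.c⁻¹ + A1 + A2 + CF := ⟨_, rfl⟩
  have hci : 0 < O.c⁻¹ := by positivity
  have k1 : A1 ≤ A := by rw [hA]; linarith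
  have k2 : A2 ≤ A := by rw [hA]; linarith
  have k3 : CF ≤ A := by rw [hA]; linarith
  have k4 : O.c⁻¹ ≤ A := by rw [hA]; linarith
  have k5 : 1 ≤ A := by rw [hA]; linarith
  refine ⟨A, k5, ?_, ?_, ?_, ?_, ?_, ?_⟩
  · calc (1 : ℝ) = O.c⁻¹ * O.c := by rw [inv_mul_cancel₀ hc.ne']
      _ ≤ A * O.c := mul_le_mul_of_nonneg_right k4 hc.le
  · intro a b ha hb
    exact (h12 a b ha hb).trans (mul_le_mul_of_nonneg_right k1 (abs_nonneg _))
  · intro a ha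
    exact (h21 a ha).trans k2
  · intro a b ha hb
    exact (h22 a b ha hb).trans (mul_le_mul_of_nonneg_right k2 (abs_nonneg _))
  · intro u hu huB
    exact (hFb u hu huB).trans k3
  · intro u v hu huB hv hvB
    exact (hF u v hu huB hv hvB).trans (mul_le_mul_of_nonneg_right k3 (abs_nonneg _))

/-- `dk` -/
noncomputable def LvE (O : Ob g B) (j : Jet E H) : E := O.k1 j.f j.g • j.p + O.k2 j.f j.g • j.q

/-- `E_k` -/
noncomputable def EkE (O : Ob g B) (F : ℝ → ℝ) (j : Jet E H) : ℝ :=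
  O.E F j.f j.g (‖j.p - j.q‖ ^ 2)

theorem k1_bounds (O : Ob g B) {f h : ℝ} (hfh : |f - h| ≤ B - g) :
    |O.k1 f h| ≤ 1 ∧ |O.k2 f h| ≤ 1 ∧ O.c ≤ -O.k1 f h ∧ O.c ≤ -O.k2 f h := by
  have hs := abs_le.mp (O.slope _ hfh)
  have hc := O.c_pos
  unfold Ob.k1 Ob.k2
  refine ⟨?_, ?_, ?_, ?_⟩
  · rw [abs_le]; constructor <;> linarith
  · rw [abs_le]; constructor <;> linarith
  · linarith
  · linarith

theorem Ek_diffE {O : Ob g B} {F : ℝ → ℝ} {A : ℝ} (hA : Bds O F A) {f h f' h' P w d : ℝ}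
    (hf : g ≤ f) (hfu : f ≤ B) (hh : g ≤ h) (hhu : h ≤ B)
    (hf' : g ≤ f') (hfu' : f' ≤ B) (hh' : g ≤ h') (hhu' : h' ≤ B)
    (hdf : |f - f'| ≤ d) (hdh : |h - h'| ≤ d) (hw : 1 ≤ w) (hP0 : 0 ≤ P) (hP : P ≤ 4 * w ^ 2) :
    |O.E F f h P - O.E F f' h' P| ≤ 14 * A ^ 2 * d * w ^ 2 ∧ |O.E F f h P| ≤ 6 * A * w ^ 2 := by
  have hA1 := hA.one
  have hA0 : 0 ≤ A := by linarith
  have hd0 : 0 ≤ d := (abs_nonneg _).trans hdf
  have hfh : |f - h| ≤ B - g := by rw [abs_le]; constructor <;> linarith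
  have hfh' : |f' - h'| ≤ B - g := by rw [abs_le]; constructor <;> linarith
  have hηd : |(f - h) - (f' - h')| ≤ 2 * d := by
    have e : (f - h) - (f' - h') = (f - f') - (h - h') := by ring
    rw [e]
    exact (abs_sub _ _).trans (by linarith)
  obtain ⟨a1, a2, a3, a4⟩ := k1_bounds O hfh
  have hG : |deriv O.Γ (f - h) - deriv O.Γ (f' - h')| ≤ A * (2 * d) :=
    (hA.G1 _ _ hfh hfh').trans (mul_le_mul_of_nonneg_left hηd hA0)
  have b1 : |O.k1 f h - O.k1 f' h'| ≤ A * (2 * d) := by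
    have e : O.k1 f h - O.k1 f' h' = deriv O.Γ (f - h) - deriv O.Γ (f' - h') := by
      unfold Ob.k1; ring
    rw [e]; exact hG
  have b2 : |O.k2 f h - O.k2 f' h'| ≤ A * (2 * d) := by
    have e : O.k2 f h - O.k2 f' h' = -(deriv O.Γ (f - h) - deriv O.Γ (f' - h')) := by
      unfold Ob.k2; ring
    rw [e, abs_neg]; exact hG
  have F1 := hA.Fb f' hf' hfu'
  have F2 := hA.Fb h' hh' hhu'
  have F3 : |F f - F f'| ≤ A * d :=
    (hA.F f f' hf hfu hf' hfu').trans (mul_le_mul_of_nonneg_left hdf hA0)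
  have F4 : |F h - F h'| ≤ A * d :=
    (hA.F h h' hh hhu hh' hhu').trans (mul_le_mul_of_nonneg_left hdh hA0)
  have t1 := ab_diff a1 F1 b1 F3
  have t2 := ab_diff a2 F2 b2 F4
  have t3 : |deriv (deriv O.Γ) (f - h) * P - deriv (deriv O.Γ) (f' - h') * P| ≤
      A * (2 * d) * (4 * w ^ 2) := by
    rw [← sub_mul, abs_mul, abs_of_nonneg hP0]
    have h5 : |deriv (deriv O.Γ) (f - h) - deriv (deriv O.Γ) (f' - h')| ≤ A * (2 * d) :=
      (hA.G2 _ _ hfh hfh').trans (mul_le_mul_of_nonneg_left hηd hA0)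
    exact mul_le_mul h5 hP hP0 (by positivity)
  have hw2 : 1 ≤ w ^ 2 := one_le_pow₀ hw
  constructor
  · have e : O.E F f h P - O.E F f' h' P = (O.k1 f h * F f - O.k1 f' h' * F f') +
        (O.k2 f h * F h - O.k2 f' h' * F h') +
        (deriv (deriv O.Γ) (f - h) * P - deriv (deriv O.Γ) (f' - h') * P) := by
      unfold Ob.E; ring
    have h1 : |O.E F f h P - O.E F f' h' P| ≤ (1 * (A * d) + A * (2 * d) * A) +
        (1 * (A * d) + A * (2 * d) * A) + A * (2 * d) * (4 * w ^ 2) := by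
      rw [e]
      exact (abs_add_le _ _).trans (add_le_add ((abs_add_le _ _).trans (add_le_add t1 t2)) t3)
    refine h1.trans ?_
    have hAA := le_sq_self hA1
    have k1 : A * d ≤ A ^ 2 * d * w ^ 2 := by
      calc A * d ≤ A ^ 2 * d := mul_le_mul_of_nonneg_right hAA hd0
        _ ≤ A ^ 2 * d * w ^ 2 := le_mul_of_one_le_right (by positivity) hw2
    have k2 : A * (2 * d) * A ≤ 2 * (A ^ 2 * d * w ^ 2) := by
      have : A * (2 * d) * A = 2 * (A ^ 2 * d) := by ring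
      rw [this]
      exact mul_le_mul_of_nonneg_left (le_mul_of_one_le_right (by positivity) hw2) (by norm_num)
    have k3 : A * (2 * d) * (4 * w ^ 2) ≤ 8 * (A ^ 2 * d * w ^ 2) := by
      calc A * (2 * d) * (4 * w ^ 2) = 8 * (A * (d * w ^ 2)) := by ring
        _ ≤ 8 * (A ^ 2 * (d * w ^ 2)) := by
            apply mul_le_mul_of_nonneg_left _ (by norm_num)
            exact mul_le_mul_of_nonneg_right hAA (by positivity)
        _ = _ := by ring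
    linarith
  · have F1 := hA.Fb f hf hfu
    have F2 := hA.Fb h hh hhu
    have c1 : |O.k1 f h * F f| ≤ 1 * A := by
      rw [abs_mul]; exact mul_le_mul a1 F1 (abs_nonneg _) zero_le_one
    have c2 : |O.k2 f h * F h| ≤ 1 * A := by
      rw [abs_mul]; exact mul_le_mul a2 F2 (abs_nonneg _) zero_le_one
    have c3 : |deriv (deriv O.Γ) (f - h) * P| ≤ A * (4 * w ^ 2) := by
      rw [abs_mul, abs_of_nonneg hP0]
      exact mul_le_mul (hA.G2b _ hfh) hP hP0 hA0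
    have h1 : |O.E F f h P| ≤ 1 * A + 1 * A + A * (4 * w ^ 2) := by
      unfold Ob.E
      exact (abs_add_le _ _).trans (add_le_add ((abs_add_le _ _).trans (add_le_add c1 c2)) c3)
    have k1 : A ≤ A * w ^ 2 := le_mul_of_one_le_right hA0 hw2
    linarith

theorem alphaE {A K0 c0 ε w e dm ΔE dF r al : ℝ} (hA : 1 ≤ A) (hK0 : 0 ≤ K0) (hc0 : 0 ≤ c0)
    (hε0 : 0 ≤ ε) (hε1 : ε ≤ 1) (hw : 1 ≤ w) (he : 0 ≤ e) (hr : 0 ≤ r)
    (hE : ΔE ≤ 14 * A ^ 2 * (K0 * ε) * w ^ 2)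
    (hdm : dm ≤ A * (ΔE + e) + A ^ 3 * (2 * (K0 * ε)) * (6 * A * w ^ 2 + c0 + e))
    (hdF : dF ≤ A * (K0 * ε)) (h : al ≤ dF + dm + r) :
    al ≤ (A * K0 + 14 * A ^ 3 * K0 + 12 * A ^ 4 * K0 + 2 * A ^ 3 * K0 * c0 + A + 2 * A ^ 3 * K0
      + 1) * (ε * w ^ 2 + e + r) := by
  have hA0 : 0 ≤ A := by linarith
  have hw2 : 1 ≤ w ^ 2 := one_le_pow₀ hw
  have hεw : ε ≤ ε * w ^ 2 := le_mul_of_one_le_right hε0 hw2
  have h1 : A * (ΔE + e) ≤ 14 * A ^ 3 * K0 * (ε * w ^ 2) + A * e := by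
    calc A * (ΔE + e) ≤ A * (14 * A ^ 2 * (K0 * ε) * w ^ 2 + e) :=
          mul_le_mul_of_nonneg_left (by linarith) hA0
      _ = _ := by ring
  have h2 : A ^ 3 * (2 * (K0 * ε)) * (6 * A * w ^ 2 + c0 + e) =
      12 * A ^ 4 * K0 * (ε * w ^ 2) + 2 * A ^ 3 * K0 * c0 * ε + 2 * A ^ 3 * K0 * (ε * e) := by ring
  have h3 : 2 * A ^ 3 * K0 * c0 * ε ≤ 2 * A ^ 3 * K0 * c0 * (ε * w ^ 2) :=
    mul_le_mul_of_nonneg_left hεw (by positivity)
  have h4 : 2 * A ^ 3 * K0 * (ε * e) ≤ 2 * A ^ 3 * K0 * e :=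
    mul_le_mul_of_nonneg_left (mul_le_of_le_one_left he hε1) (by positivity)
  have h5 : A * (K0 * ε) ≤ A * K0 * (ε * w ^ 2) := by
    calc A * (K0 * ε) = A * K0 * ε := by ring
      _ ≤ _ := mul_le_mul_of_nonneg_left hεw (by positivity)
  have e1 : (A * K0 + 14 * A ^ 3 * K0 + 12 * A ^ 4 * K0 + 2 * A ^ 3 * K0 * c0 + A + 2 * A ^ 3 * K0
      + 1) * (ε * w ^ 2 + e + r) = A * K0 * (ε * w ^ 2) + 14 * A ^ 3 * K0 * (ε * w ^ 2) +
      12 * A ^ 4 * K0 * (ε * w ^ 2) + 2 * A ^ 3 * K0 * c0 * (ε * w ^ 2) + A * e +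
      2 * A ^ 3 * K0 * e + r +
      ((A + 2 * A ^ 3 * K0 + 1) * (ε * w ^ 2) +
       (A * K0 + 14 * A ^ 3 * K0 + 12 * A ^ 4 * K0 + 2 * A ^ 3 * K0 * c0 + 1) * e +
       (A * K0 + 14 * A ^ 3 * K0 + 12 * A ^ 4 * K0 + 2 * A ^ 3 * K0 * c0 + A + 2 * A ^ 3 * K0)
        * r) := by ring
  rw [e1]
  have h6 : 0 ≤ (A + 2 * A ^ 3 * K0 + 1) * (ε * w ^ 2) +
       (A * K0 + 14 * A ^ 3 * K0 + 12 * A ^ 4 * K0 + 2 * A ^ 3 * K0 * c0 + 1) * e +
       (A * K0 + 14 * A ^ 3 * K0 + 12 * A ^ 4 * K0 + 2 * A ^ 3 * K0 * c0 + A + 2 * A ^ 3 * K0)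
        * r := by positivity
  linarith

/-- the constant -/
noncomputable def CE (A K0 c0 : ℝ) : ℝ :=
  A * K0 + 14 * A ^ 3 * K0 + 12 * A ^ 4 * K0 + 2 * A ^ 3 * K0 * c0 + A + 2 * A ^ 3 * K0 + 1

theorem fracE {a b a' b' ϑ m m' : ℝ} (ha : a' ≠ 0) (hb : b' ≠ 0) :
    a' * (ϑ * m * (a / a')) + b' * (ϑ * m' * (b / b')) = ϑ * (a * m + b * m') := by
  field_simp

set_option maxHeartbeats 1000000 in
/-- **the contact zone lemma** -/
theorem zoneE (tr : H →L[ℝ] ℝ) (one : H) (h1 : tr one = 1) (O : Ob g B) (hΓ : g < O.Γ 0)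
    {F : ℝ → ℝ} {A c0 : ℝ} (hA : Bds O F A) (hc0 : 0 ≤ c0) :
    ∃ ε0 K : ℝ, 0 < ε0 ∧ 1 ≤ K ∧ ∀ (j : Jet E H) (m m' r r' e ε : ℝ),
      g ≤ j.f → j.f ≤ B → g ≤ j.g → j.g ≤ B → 0 ≤ ε → ε ≤ ε0 → |O.k j.f j.g| ≤ ε →
      tr j.P = F j.f + m + r → tr j.Q = F j.g + m' + r' → 0 ≤ m → 0 ≤ m' → 0 ≤ e →
      -O.k1 j.f j.g * m + -O.k2 j.f j.g * m' ≤ max (EkE O F j) 0 + c0 + e →
      ∃ (j' : Jet E H) (m1 m1' : ℝ), g ≤ j'.f ∧ j'.f ≤ B ∧ g ≤ j'.g ∧ j'.g ≤ B ∧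
        O.k j'.f j'.g = 0 ∧ LvE O j' = 0 ∧
        tr j'.P = F j'.f + m1 ∧ tr j'.Q = F j'.g + m1' ∧ 0 ≤ m1 ∧ 0 ≤ m1' ∧
        -O.k1 j'.f j'.g * m1 + -O.k2 j'.f j'.g * m1' ≤ max (EkE O F j') 0 + c0 ∧
        (∃ α α' : ℝ, j'.P = j.P + α • one ∧ j'.Q = j.Q + α' • one) ∧
        RelE (K * ε) j j' ∧
        ‖j.p - j'.p‖ + ‖j.q - j'.q‖ ≤ K * (‖LvE O j‖ + ε * Real.sqrt j.W) ∧
        ‖j.P - j'.P‖ + ‖j.Q - j'.Q‖ ≤ K * (ε * j.W + e + |r| + |r'|) ∧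
        j.W + j'.W ≤ K * (j.W + e + |r| + |r'|) := by
  obtain ⟨ε1, K0, hε1, hK0, hcon⟩ := exists_contact O hΓ
  have hA1 := hA.one
  have hA0 : 0 ≤ A := by linarith
  have hn0 := norm_nonneg one
  have hCE : 0 ≤ CE A K0 c0 := by unfold CE; positivity
  obtain ⟨K, hK⟩ : ∃ K, K = 1 + K0 + 2 + 8 * A * K0 + 2 * CE A K0 c0 * ‖one‖ + 10 := ⟨_, rfl⟩
  refine ⟨min ε1 1, K, lt_min hε1 one_pos, ?_, ?_⟩
  · rw [hK]
    have : 0 ≤ K0 + 8 * A * K0 + 2 * CE A K0 c0 * ‖one‖ := by positivity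
    linarith
  intro j m m' r r' e ε hf hfu hh hhu hε hεε hk htP htQ hm hm' he hS
  have hε11 : ε ≤ 1 := hεε.trans (min_le_right _ _)
  obtain ⟨f', h', hf', hfu', hh', hhu', hk0, hdf, hdh⟩ := hcon j.f j.g ε hf hfu hh hhu hk
    (hεε.trans (min_le_left _ _))
  obtain ⟨hpw, hqw, hw1, hww⟩ := norm_le_w j
  obtain ⟨w, hw⟩ : ∃ w, w = Real.sqrt j.W := ⟨_, rfl⟩
  rw [← hw] at hpw hqw hw1 hww ⊢
  have hw0 : 0 ≤ w := by linarith
  have hw2 : 1 ≤ w ^ 2 := one_le_pow₀ hw1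
  obtain ⟨u, hu⟩ : ∃ u, u = j.p - j.q := ⟨_, rfl⟩
  have hun : ‖u‖ ≤ 2 * w := by rw [hu]; exact (norm_sub_le _ _).trans (by linarith)
  have hfh : |j.f - j.g| ≤ B - g := by rw [abs_le]; constructor <;> linarith
  have hfh' : |f' - h'| ≤ B - g := by rw [abs_le]; constructor <;> linarith
  obtain ⟨a1, a2, a3, a4⟩ := k1_bounds O hfh
  obtain ⟨b1, b2, b3, b4⟩ := k1_bounds O hfh'
  obtain ⟨s, hs⟩ : ∃ s, s = deriv O.Γ (f' - h') := ⟨_, rfl⟩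
  have hs1 : |s| ≤ 1 / 2 := by
    rw [hs]; exact (O.slope _ hfh').trans (by linarith [O.c_pos])
  have hηd : |(j.f - j.g) - (f' - h')| ≤ 2 * (K0 * ε) := by
    have e : (j.f - j.g) - (f' - h') = (j.f - f') - (j.g - h') := by ring
    rw [e]
    exact (abs_sub _ _).trans (by linarith)
  have hG : |deriv O.Γ (j.f - j.g) - s| ≤ A * (2 * (K0 * ε)) := by
    rw [hs]
    exact (hA.G1 _ _ hfh hfh').trans (mul_le_mul_of_nonneg_left hηd hA0)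
  -- the new gradients
  obtain ⟨p', hp'⟩ : ∃ p' : E, p' = s • u + (1 / 2 : ℝ) • u := ⟨_, rfl⟩
  obtain ⟨q', hq'⟩ : ∃ q' : E, q' = s • u - (1 / 2 : ℝ) • u := ⟨_, rfl⟩
  have hpq' : p' - q' = u := by rw [hp', hq']; module
  have hLv : LvE O j = (deriv O.Γ (j.f - j.g)) • u - (1 / 2 : ℝ) • (j.p + j.q) := by
    unfold LvE Ob.k1 Ob.k2
    rw [hu]; module
  have hpd : j.p - p' = -LvE O j + (deriv O.Γ (j.f - j.g) - s) • u := by
    rw [hLv, hp', hu]; module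
  have hqd : j.q - q' = -LvE O j + (deriv O.Γ (j.f - j.g) - s) • u := by
    rw [hLv, hq', hu]; module
  have hdn : ‖-LvE O j + (deriv O.Γ (j.f - j.g) - s) • u‖ ≤ ‖LvE O j‖ + 4 * A * K0 * (ε * w) := by
    refine (norm_add_le _ _).trans ?_
    rw [norm_neg, norm_smul, Real.norm_eq_abs]
    have : |deriv O.Γ (j.f - j.g) - s| * ‖u‖ ≤ A * (2 * (K0 * ε)) * (2 * w) :=
      mul_le_mul hG hun (norm_nonneg _) (by positivity)
    linarith
  have hp'n : ‖p'‖ ≤ 2 * w := by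
    have e : p' = (s + 1 / 2) • u := by rw [hp']; module
    rw [e, norm_smul, Real.norm_eq_abs]
    have h2 : |s + 1 / 2| ≤ 1 := by
      have := abs_le.mp hs1
      rw [abs_le]; constructor <;> linarith
    calc |s + 1 / 2| * ‖u‖ ≤ 1 * (2 * w) := mul_le_mul h2 hun (norm_nonneg _) zero_le_one
      _ = _ := one_mul _
  have hq'n : ‖q'‖ ≤ 2 * w := by
    have e : q' = (s - 1 / 2) • u := by rw [hq']; module
    rw [e, norm_smul, Real.norm_eq_abs]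
    have h2 : |s - 1 / 2| ≤ 1 := by
      have := abs_le.mp hs1
      rw [abs_le]; constructor <;> linarith
    calc |s - 1 / 2| * ‖u‖ ≤ 1 * (2 * w) := mul_le_mul h2 hun (norm_nonneg _) zero_le_one
      _ = _ := one_mul _
  -- `E_k`
  have hP4 : ‖u‖ ^ 2 ≤ 4 * w ^ 2 := by
    calc ‖u‖ ^ 2 ≤ (2 * w) ^ 2 := pow_le_pow_left₀ (norm_nonneg _) hun 2
      _ = _ := by ring
  obtain ⟨hE1, hEb⟩ := Ek_diffE hA hf hfu hh hhu hf' hfu' hh' hhu' hdf hdh hw1 (sq_nonneg ‖u‖) hP4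
  obtain ⟨E0, hE0⟩ : ∃ E0, E0 = O.E F j.f j.g (‖u‖ ^ 2) := ⟨_, rfl⟩
  obtain ⟨E1, hE1'⟩ : ∃ E1, E1 = O.E F f' h' (‖u‖ ^ 2) := ⟨_, rfl⟩
  have hS' : -O.k1 j.f j.g * m + -O.k2 j.f j.g * m' ≤ max E0 0 + c0 + e := by
    rw [hE0, hu]; exact hS
  rw [← hE0] at hE1 hEb
  rw [← hE1'] at hE1
  -- the multipliers
  have hcA := hA.c
  have pc := O.c_pos
  have pa : 0 < -O.k1 j.f j.g := by linarith
  have pb : 0 < -O.k2 j.f j.g := by linarith
  have pa' : 0 < -O.k1 f' h' := by linarith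
  have pb' : 0 < -O.k2 f' h' := by linarith
  have hge : ∀ x, O.c ≤ x → 1 ≤ A * x := fun x hx =>
    hcA.trans (mul_le_mul_of_nonneg_left hx hA0)
  have haa : |-O.k1 j.f j.g - -O.k1 f' h'| ≤ A * (2 * (K0 * ε)) := by
    have e : -O.k1 j.f j.g - -O.k1 f' h' = -(deriv O.Γ (j.f - j.g) - s) := by
      rw [hs]; unfold Ob.k1; ring
    rw [e, abs_neg]; exact hG
  have hbb : |-O.k2 j.f j.g - -O.k2 f' h'| ≤ A * (2 * (K0 * ε)) := by
    have e : -O.k2 j.f j.g - -O.k2 f' h' = deriv O.Γ (j.f - j.g) - s := by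
      rw [hs]; unfold Ob.k2; ring
    rw [e]; exact hG
  have hS0 : 0 ≤ -O.k1 j.f j.g * m + -O.k2 j.f j.g * m' := by positivity
  have hT0 : 0 ≤ max E1 0 + c0 := by positivity
  obtain ⟨ϑ, hϑ0, hϑ1, hϑT, hϑS⟩ := exists_theta hS0 hT0
  have hST : (-O.k1 j.f j.g * m + -O.k2 j.f j.g * m') - (max E1 0 + c0) ≤ |E0 - E1| + e := by
    have h2 : max E0 0 ≤ max E1 0 + |E0 - E1| := by
      apply max_le
      · have := le_abs_self (E0 - E1)
        have := le_max_left E1 0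
        linarith
      · have := abs_nonneg (E0 - E1)
        have := le_max_right E1 0
        linarith
    linarith
  have hSY : -O.k1 j.f j.g * m + -O.k2 j.f j.g * m' ≤ 6 * A * w ^ 2 + c0 + e := by
    have : max E0 0 ≤ 6 * A * w ^ 2 := max_le ((le_abs_self _).trans hEb) (by positivity)
    linarith
  have hΔ0 := abs_nonneg (E0 - E1)
  have hm1 := mult_boundG hA1 (hge _ a3) (hge _ b3) haa (by positivity) hm (by
      have : 0 ≤ -O.k2 j.f j.g * m' := by positivity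
      linarith : -O.k1 j.f j.g * m ≤ -O.k1 j.f j.g * m + -O.k2 j.f j.g * m') hϑ0 hϑ1 hϑS hST hΔ0
      he hSY
  have hm2 := mult_boundG hA1 (hge _ a4) (hge _ b4) hbb (by positivity) hm' (by
      have : 0 ≤ -O.k1 j.f j.g * m := by positivity
      linarith : -O.k2 j.f j.g * m' ≤ -O.k1 j.f j.g * m + -O.k2 j.f j.g * m') hϑ0 hϑ1 hϑS hST hΔ0
      he hSY
  obtain ⟨n1, hn1⟩ : ∃ n1, n1 = ϑ * m * (-O.k1 j.f j.g / -O.k1 f' h') := ⟨_, rfl⟩
  obtain ⟨n2, hn2⟩ : ∃ n2, n2 = ϑ * m' * (-O.k2 j.f j.g / -O.k2 f' h') := ⟨_, rfl⟩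
  rw [← hn1] at hm1
  rw [← hn2] at hm2
  -- traces
  have hFf : |F f' - F j.f| ≤ A * (K0 * ε) := by
    rw [abs_sub_comm]
    exact (hA.F _ _ hf hfu hf' hfu').trans (mul_le_mul_of_nonneg_left hdf hA0)
  have hFh : |F h' - F j.g| ≤ A * (K0 * ε) := by
    rw [abs_sub_comm]
    exact (hA.F _ _ hh hhu hh' hhu').trans (mul_le_mul_of_nonneg_left hdh hA0)
  obtain ⟨α, hα⟩ : ∃ α, α = F f' - F j.f - (m - n1) - r := ⟨_, rfl⟩
  obtain ⟨α', hα'⟩ : ∃ α', α' = F h' - F j.g - (m' - n2) - r' := ⟨_, rfl⟩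
  have hαt : |α| ≤ |F f' - F j.f| + |m - n1| + |r| := by
    rw [hα]; exact (abs_sub _ _).trans (add_le_add_left (abs_sub _ _) _)
  have hαt' : |α'| ≤ |F h' - F j.g| + |m' - n2| + |r'| := by
    rw [hα']; exact (abs_sub _ _).trans (add_le_add_left (abs_sub _ _) _)
  have hr0 := abs_nonneg r
  have hr0' := abs_nonneg r'
  have ha1 : |α| ≤ CE A K0 c0 * (ε * w ^ 2 + e + |r|) :=
    alphaE hA1 hK0.le hc0 hε hε11 hw1 he hr0 hE1 hm1 hFf hαt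
  have ha2 : |α'| ≤ CE A K0 c0 * (ε * w ^ 2 + e + |r'|) :=
    alphaE hA1 hK0.le hc0 hε hε11 hw1 he hr0' hE1 hm2 hFh hαt'
  have hsum : (|α| + |α'|) * ‖one‖ ≤ 2 * CE A K0 c0 * ‖one‖ * (ε * w ^ 2 + e + |r| + |r'|) := by
    have h3 : CE A K0 c0 * (ε * w ^ 2 + e + |r|) ≤ CE A K0 c0 * (ε * w ^ 2 + e + |r| + |r'|) :=
      mul_le_mul_of_nonneg_left (by linarith) hCE
    have h4 : CE A K0 c0 * (ε * w ^ 2 + e + |r'|) ≤ CE A K0 c0 * (ε * w ^ 2 + e + |r| + |r'|) :=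
      mul_le_mul_of_nonneg_left (by linarith) hCE
    calc (|α| + |α'|) * ‖one‖ ≤ (2 * CE A K0 c0 * (ε * w ^ 2 + e + |r| + |r'|)) * ‖one‖ :=
          mul_le_mul_of_nonneg_right (by linarith) hn0
      _ = _ := by ring
  have hAK : 0 ≤ A * K0 := by positivity
  have hCn : 0 ≤ CE A K0 c0 * ‖one‖ := by positivity
  have hKa : 2 + 8 * A * K0 ≤ K := by rw [hK]; linarith
  have hKb : 2 * CE A K0 c0 * ‖one‖ ≤ K := by rw [hK]; linarith
  have hKc : 10 + 2 * CE A K0 c0 * ‖one‖ ≤ K := by rw [hK]; linarith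
  have hKd : K0 ≤ K := by rw [hK]; linarith
  refine ⟨⟨f', h', p', q', j.P + α • one, j.Q + α' • one⟩, n1, n2, hf', hfu', hh', hhu', hk0, ?_,
    ?_, ?_, ?_, ?_, ?_, ⟨α, α', rfl, rfl⟩, ⟨?_, ?_, ?_⟩, ?_, ?_, ?_⟩
  · show O.k1 f' h' • p' + O.k2 f' h' • q' = 0
    unfold Ob.k1 Ob.k2
    rw [← hs, hp', hq']
    module
  · show tr (j.P + α • one) = F f' + n1
    rw [map_add, map_smul, h1, htP, hα, smul_eq_mul]
    ring
  · show tr (j.Q + α' • one) = F h' + n2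
    rw [map_add, map_smul, h1, htQ, hα', smul_eq_mul]
    ring
  · rw [hn1]; positivity
  · rw [hn2]; positivity
  · show -O.k1 f' h' * n1 + -O.k2 f' h' * n2 ≤ max (O.E F f' h' (‖p' - q'‖ ^ 2)) 0 + c0
    rw [hpq', ← hE1']
    have e1 : -O.k1 f' h' * n1 + -O.k2 f' h' * n2 =
        ϑ * (-O.k1 j.f j.g * m + -O.k2 j.f j.g * m') := by
      rw [hn1, hn2]
      exact fracE pa'.ne' pb'.ne'
    rw [e1]
    exact hϑT
  · show p' - q' = j.p - j.q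
    rw [hpq', hu]
  · exact hdf.trans (mul_le_mul_of_nonneg_right hKd hε)
  · exact hdh.trans (mul_le_mul_of_nonneg_right hKd hε)
  · show ‖j.p - p'‖ + ‖j.q - q'‖ ≤ _
    rw [hpd, hqd]
    have h5 : (2 + 8 * A * K0) * (‖LvE O j‖ + ε * w) ≤ K * (‖LvE O j‖ + ε * w) :=
      mul_le_mul_of_nonneg_right hKa (by positivity)
    have h6 : 0 ≤ 8 * A * K0 * ‖LvE O j‖ := by positivity
    have h7 : 0 ≤ 2 * (ε * w) := by positivity
    have h8 : (2 + 8 * A * K0) * (‖LvE O j‖ + ε * w) = 2 * ‖LvE O j‖ + 8 * A * K0 * (ε * w) +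
      8 * A * K0 * ‖LvE O j‖ + 2 * (ε * w) := by ring
    linarith
  · show ‖j.P - (j.P + α • one)‖ + ‖j.Q - (j.Q + α' • one)‖ ≤ _
    rw [sub_add_cancel_left, sub_add_cancel_left, norm_neg, norm_neg, norm_smul, norm_smul,
      Real.norm_eq_abs, Real.norm_eq_abs, ← add_mul]
    rw [hww] at hsum
    have : 0 ≤ ε * j.W + e + |r| + |r'| := by
      have := j.W_nonneg
      positivity
    exact hsum.trans (mul_le_mul_of_nonneg_right hKb this)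
  · show j.W + (1 + ‖p'‖ ^ 2 + ‖q'‖ ^ 2 + ‖j.P + α • one‖ + ‖j.Q + α' • one‖) ≤ _
    have hP' : ‖j.P + α • one‖ ≤ ‖j.P‖ + |α| * ‖one‖ := by
      refine (norm_add_le _ _).trans ?_
      rw [norm_smul, Real.norm_eq_abs]
    have hQ' : ‖j.Q + α' • one‖ ≤ ‖j.Q‖ + |α'| * ‖one‖ := by
      refine (norm_add_le _ _).trans ?_
      rw [norm_smul, Real.norm_eq_abs]
    have hpsq : ‖p'‖ ^ 2 ≤ 4 * w ^ 2 := by
      calc ‖p'‖ ^ 2 ≤ (2 * w) ^ 2 := pow_le_pow_left₀ (norm_nonneg _) hp'n 2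
        _ = _ := by ring
    have hqsq : ‖q'‖ ^ 2 ≤ 4 * w ^ 2 := by
      calc ‖q'‖ ^ 2 ≤ (2 * w) ^ 2 := pow_le_pow_left₀ (norm_nonneg _) hq'n 2
        _ = _ := by ring
    have hWd : j.W = 1 + ‖j.p‖ ^ 2 + ‖j.q‖ ^ 2 + ‖j.P‖ + ‖j.Q‖ := rfl
    have h5 := sq_nonneg ‖j.p‖
    have h6 := sq_nonneg ‖j.q‖
    have h7 : 1 + ‖j.P‖ + ‖j.Q‖ ≤ w ^ 2 := by rw [hww, hWd]; linarith
    have hsum2 : (|α| + |α'|) * ‖one‖ ≤ 2 * CE A K0 c0 * ‖one‖ * (w ^ 2 + e + |r| + |r'|) := by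
      refine hsum.trans ?_
      apply mul_le_mul_of_nonneg_left _ (by positivity)
      have : ε * w ^ 2 ≤ w ^ 2 := mul_le_of_le_one_left (sq_nonneg w) hε11
      linarith
    rw [← hww]
    have h8 : (10 + 2 * CE A K0 c0 * ‖one‖) * (w ^ 2 + e + |r| + |r'|) ≤
        K * (w ^ 2 + e + |r| + |r'|) := mul_le_mul_of_nonneg_right hKc (by positivity)
    have h9 : 0 ≤ 10 * (e + |r| + |r'|) := by positivity
    linarith

end Crest.Agent.R249.LimE621
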