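import Crest.Agent.R249.LimE2_621
import Crest.Agent.R249.Lim4_621

/-!
# Row 249, part A2 v3: the limit passage for `Ob`, file 3: integration over `C : Calc X μ`
-/

set_option autoImplicit false
set_option linter.unusedVariables false
set_option linter.unusedSectionVars false

open MeasureTheory Set Filter Topology Matrix
open scoped ContDiff

noncomputable section

namespace Crest.Agent.R249.LimE621

open Crest.Agent.R249.Lim621 Crest.Agent.R249.LimG621 Crest.Agent.R249.PenH_806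
open Calc_806 Calc_806.Calc

attribute [local instance] Matrix.frobeniusNormedAddCommGroup Matrix.frobeniusNormedSpace

variable {X : Type*} [TopologicalSpace X] [CompactSpace X] [MeasurableSpace X]
  [OpensMeasurableSpace X] {μ : Measure X} [IsFiniteMeasure μ]

variable {g B : ℝ}

/-- `k (φ, ψ)` -/
def kO (O : Ob g B) (φ ψ : X → ℝ) (x : X) : ℝ := O.k (φ x) (ψ x)

theorem sm_kO {C : Calc X μ} (O : Ob g B) {φ ψ : X → ℝ} (hφ : C.Sm φ) (hψ : C.Sm ψ) :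
    C.Sm (kO O φ ψ) := by
  have h1 : C.Sm (fun x => O.Γ (φ x - ψ x)) :=
    sm_comp1 isOpen_univ O.smooth.contDiffOn (sm_sub hφ hψ) (fun _ => mem_univ _)
  have h2 : C.Sm (fun x => (1 / 2 : ℝ) * (φ x + ψ x)) := sm_smul _ (sm_add hφ hψ)
  have h3 := sm_sub h1 h2
  have e : kO O φ ψ = fun x => O.Γ (φ x - ψ x) - (1 / 2 : ℝ) * (φ x + ψ x) := by
    funext x; unfold kO Ob.k; ring
  rw [e]
  exact h3

theorem D_kO {C : Calc X μ} (O : Ob g B) {φ ψ : X → ℝ} (hφ : C.Sm φ) (hψ : C.Sm ψ) (x : X) :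
    C.D (kO O φ ψ) x = O.k1 (φ x) (ψ x) • C.D φ x + O.k2 (φ x) (ψ x) • C.D ψ x := by
  have h1 : C.Sm (fun x => O.Γ (φ x - ψ x)) :=
    sm_comp1 isOpen_univ O.smooth.contDiffOn (sm_sub hφ hψ) (fun _ => mem_univ _)
  have h2 : C.Sm (fun x => (1 / 2 : ℝ) * (φ x + ψ x)) := sm_smul _ (sm_add hφ hψ)
  have e : kO O φ ψ = fun x => O.Γ (φ x - ψ x) - (1 / 2 : ℝ) * (φ x + ψ x) := by
    funext x; unfold kO Ob.k; ring
  have d1 := D_comp1 (C := C) isOpen_univ O.smooth.contDiffOn (sm_sub hφ hψ)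
    (fun _ => mem_univ _) x
  have d2 := D_sub hφ hψ x
  have d3 := D_smul (C := C) (1 / 2 : ℝ) (sm_add hφ hψ) x
  have d4 := D_add hφ hψ x
  rw [e, D_sub h1 h2 x, d1, d2, d3, d4]
  unfold Ob.k1 Ob.k2
  module

theorem norm_LvE_jt {C : Calc X μ} (O : Ob g B) {φ ψ : X → ℝ} (hφ : C.Sm φ) (hψ : C.Sm ψ)
    (θ : X → ℝ) (x : X) : ‖LvE O (jt C φ ψ θ x)‖ ^ 2 = C.G (kO O φ ψ) (kO O φ ψ) x := by
  have h1 : LvE O (jt C φ ψ θ x) = WithLp.toLp 2 (C.D (kO O φ ψ) x) := by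
    rw [D_kO O hφ hψ]
    rfl
  rw [h1]
  exact norm_sq_toLp _

/-- **what the penalised pair has to satisfy** -/
structure BdE (C : Calc X μ) (O : Ob g B) (c0 A δ : ℝ) (F : ℝ → ℝ)
    (φ ψ m m' r r' er : X → ℝ) (ε : ℝ) : Prop where
  sφ : C.Sm φ
  sψ : C.Sm ψ
  φmem : ∀ x, φ x ∈ Icc g B
  ψmem : ∀ x, ψ x ∈ Icc g B
  ε0 : 0 ≤ ε
  εδ : ε ≤ δ
  kap : ∀ x, -ε ≤ kO O φ ψ x
  eqφ : ∀ x, C.L φ x = F (φ x) + m x + r x
  eqψ : ∀ x, C.L ψ x = F (ψ x) + m' x + r' x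
  m0 : ∀ x, 0 ≤ m x
  m0' : ∀ x, 0 ≤ m' x
  off : ∀ x, ε < kO O φ ψ x → m x = 0 ∧ m' x = 0
  er0 : ∀ x, 0 ≤ er x
  simplex : ∀ x, kO O φ ψ x ≤ ε → -O.k1 (φ x) (ψ x) * m x + -O.k2 (φ x) (ψ x) * m' x ≤
    max (O.E F (φ x) (ψ x) (C.G (fun y => φ y - ψ y) (fun y => φ y - ψ y) x)) 0 + c0 + er x
  mr : AEStronglyMeasurable r μ
  mr' : AEStronglyMeasurable r' μ
  mer : AEStronglyMeasurable er μ
  ir : Integrable (fun x => r x ^ 2) μ
  ir' : Integrable (fun x => r' x ^ 2) μ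
  ier : Integrable (fun x => er x ^ 2) μ
  br : ∫ x, r x ^ 2 ∂μ ≤ δ
  br' : ∫ x, r' x ^ 2 ∂μ ≤ δ
  ber : ∫ x, er x ^ 2 ∂μ ≤ δ
  bκ : ∫ x in {x | kO O φ ψ x ≤ ε}, (C.G (kO O φ ψ) (kO O φ ψ) x) ^ 2 ∂μ ≤ δ
  bA : ∫ x, (1 + C.G φ φ x + C.G ψ ψ x + |C.L φ x| + |C.L ψ x|) ^ 2 ∂μ ≤ A

theorem EkE_jt (C : Calc X μ) (O : Ob g B) (F : ℝ → ℝ) {φ ψ : X → ℝ} (hφ : C.Sm φ)
    (hψ : C.Sm ψ) (θ : X → ℝ) (x : X) : EkE O F (jt C φ ψ θ x) =
      O.E F (φ x) (ψ x) (C.G (fun y => φ y - ψ y) (fun y => φ y - ψ y) x) := by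
  unfold EkE
  have h : ‖(jt C φ ψ θ x).p - (jt C φ ψ θ x).q‖ ^ 2 =
      C.G (fun y => φ y - ψ y) (fun y => φ y - ψ y) x := by
    have h1 : (jt C φ ψ θ x).p - (jt C φ ψ θ x).q =
        WithLp.toLp 2 (C.D (fun y => φ y - ψ y) x) := by
      rw [D_sub hφ hψ]; rfl
    rw [h1]
    exact norm_sq_toLp _
  rw [h]
  rfl

/-- **The limit passage.** -/
theorem limit_passageE (C : Calc X μ) (O : Ob g B) (hΓ : g < O.Γ 0)
    {AF c0 CI CO CR Cθ A b : ℝ} {F : ℝ → ℝ} {I Om R : Jet E4 H4 → ℝ}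
    (hc0 : 0 ≤ c0) (hF : Bds O F AF)
    (hI : LipE g B CI I) (hO : LipE g B CO Om) (hR : LipE g B CR R) (hCI : 0 ≤ CI)
    (hCO : 0 ≤ CO) (hCR : 0 ≤ CR)
    (hC : CertE trH SyH O F c0 I Om R) {δ' : ℝ} (hδ' : 0 < δ') :
    ∃ δ : ℝ, 0 < δ ∧ ∀ (φ ψ m m' r r' er θ V : X → ℝ) (ε : ℝ),
      BdE C O c0 A δ F φ ψ m m' r r' er ε → DivCert C b Cθ I φ ψ θ V →
      Integrable (fun x => Om (jt C φ ψ θ x)) μ → Integrable (fun x => R (jt C φ ψ θ x)) μ →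
      ∫ x, Om (jt C φ ψ θ x) ∂μ ≤ ∫ x, R (jt C φ ψ θ x) ∂μ + δ' := by
  obtain ⟨K, ε1, hK0, hε1, hK⟩ := pointwiseE (E := E4) trH SyH oneH trH_one oneH_mem O hΓ hF hc0
    I Om R hI hO hR hCI hCO hCR hC
  -- choice of the parameters
  obtain ⟨A', hA'⟩ : ∃ A', A' = 5 * (|A| + Cθ ^ 2 * |A| + 3) := ⟨_, rfl⟩
  have hA'0 : 0 < A' := by rw [hA']; positivity
  obtain ⟨t, ht0, ht1, htA⟩ : ∃ t : ℝ, 0 < t ∧ t ≤ 1 ∧ K * (t * A') ≤ δ' / 2 := by
    refine ⟨min 1 (δ' / (2 * K * A')), lt_min one_pos (by positivity), min_le_left _ _, ?_⟩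
    calc K * (min 1 (δ' / (2 * K * A')) * A') ≤ K * ((δ' / (2 * K * A')) * A') := by
          apply mul_le_mul_of_nonneg_left _ hK0.le
          exact mul_le_mul_of_nonneg_right (min_le_right _ _) hA'0.le
      _ = δ' / 2 := by field_simp
  obtain ⟨δ, hδ0, hδ1, hδt, hδ2, hδε⟩ : ∃ δ : ℝ, 0 < δ ∧ δ ≤ 1 ∧ δ ≤ t ∧
      K * ((t ^ 3)⁻¹ * (4 * δ)) ≤ δ' / 2 ∧ δ ≤ ε1 := by
    refine ⟨min (min (min 1 t) (δ' * t ^ 3 / (8 * K))) ε1,
      lt_min (lt_min (lt_min one_pos ht0) (by positivity)) hε1,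
      (min_le_left _ _).trans ((min_le_left _ _).trans (min_le_left _ _)),
      (min_le_left _ _).trans ((min_le_left _ _).trans (min_le_right _ _)), ?_, min_le_right _ _⟩
    calc K * ((t ^ 3)⁻¹ * (4 * min (min (min 1 t) (δ' * t ^ 3 / (8 * K))) ε1)) ≤
        K * ((t ^ 3)⁻¹ * (4 * (δ' * t ^ 3 / (8 * K)))) := by
          apply mul_le_mul_of_nonneg_left _ hK0.le
          apply mul_le_mul_of_nonneg_left _ (by positivity)
          exact mul_le_mul_of_nonneg_left ((min_le_left _ _).trans (min_le_right _ _))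
            (by norm_num)
      _ = δ' / 2 := by field_simp; ring
  refine ⟨δ, hδ0, ?_⟩
  intro φ ψ m m' r r' er θ V ε Bd DC iOm iR
  have sκ := sm_kO O Bd.sφ Bd.sψ
  have hGκ := C.sm_cont (C.sm_G sκ sκ)
  have hzone : MeasurableSet {x | kO O φ ψ x ≤ ε} :=
    (isClosed_le (C.sm_cont sκ) continuous_const).measurableSet
  -- the functions
  have hRb0 : ∀ x, 0 ≤ C.Rb θ x := fun x => Rb_nonneg DC.sθ x
  let h : X → ℝ := fun x => 1 + C.G φ φ x + C.G ψ ψ x + |C.L φ x| + |C.L ψ x|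
  let w : X → ℝ := fun x => h x + Real.sqrt (C.Rb θ x)
  let l : X → ℝ := indicator {x | kO O φ ψ x ≤ ε}
    (fun x => Real.sqrt (C.G (kO O φ ψ) (kO O φ ψ) x))
  have cg : Continuous h := by
    have h1 := C.sm_cont (C.sm_G Bd.sφ Bd.sφ)
    have h2 := C.sm_cont (C.sm_G Bd.sψ Bd.sψ)
    have h3 := C.sm_cont (C.sm_L Bd.sφ)
    have h4 := C.sm_cont (C.sm_L Bd.sψ)
    exact (((continuous_const.add h1).add h2).add h3.abs).add h4.abs
  have cRb : Continuous (C.Rb θ) := C.sm_cont (sm_Rb DC.sθ)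
  have cw : Continuous w := cg.add cRb.sqrt
  have hl0 : ∀ x, 0 ≤ l x := fun x => indicator_nonneg (fun _ _ => Real.sqrt_nonneg _) x
  -- pointwise inequality
  have hpt : ∀ x, Om (jt C φ ψ θ x) ≤ V x + R (jt C φ ψ θ x) +
      K * Er t (w x + er x + |r x| + |r' x|) (l x) (er x) (r x) (r' x) := by
    intro x
    have hnL : ‖LvE O (jt C φ ψ θ x)‖ = Real.sqrt (C.G (kO O φ ψ) (kO O φ ψ) x) := by
      rw [← norm_LvE_jt O Bd.sφ Bd.sψ θ x, Real.sqrt_sq (norm_nonneg _)]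
    have h1 := hK t ht0 ht1 (jt C φ ψ θ x) (m x) (m' x) (r x) (r' x) (er x) ε (l x)
      (Bd.φmem x).1 (Bd.φmem x).2 (Bd.ψmem x).1 (Bd.ψmem x).2
      (by
        rw [mem_SyH]
        ext i j
        exact C.hs_symm DC.sθ x j i)
      (by rw [mem_SyH]; exact Matrix.isSymm_zero)
      Bd.ε0 (Bd.εδ.trans hδε) (Bd.εδ.trans hδt) (Bd.kap x) (Bd.eqφ x) (Bd.eqψ x) (Bd.m0 x)
      (Bd.m0' x) (Bd.er0 x) (hl0 x) (Bd.off x)
      (by
        intro hz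
        have : l x = Real.sqrt (C.G (kO O φ ψ) (kO O φ ψ) x) :=
          indicator_of_mem (show x ∈ {x | kO O φ ψ x ≤ ε} from hz) _
        rw [this, hnL])
      (by
        intro hz
        rw [EkE_jt C O F Bd.sφ Bd.sψ]
        exact Bd.simplex x hz)
    have h2 := DC.le x
    have h3 := W_jt_le (φ := φ) (ψ := ψ) DC.sθ x
    have h4 : Er t ((jt C φ ψ θ x).W + er x + |r x| + |r' x|) (l x) (er x) (r x) (r' x) ≤
        Er t (w x + er x + |r x| + |r' x|) (l x) (er x) (r x) (r' x) := by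
      unfold Er
      have hW0 := (jt C φ ψ θ x).W_nonneg
      have he0 := Bd.er0 x
      have hr0 := abs_nonneg (r x)
      have hr0' := abs_nonneg (r' x)
      have h5 : (jt C φ ψ θ x).W + er x + |r x| + |r' x| ≤ w x + er x + |r x| + |r' x| := by
        show _ ≤ (1 + C.G φ φ x + C.G ψ ψ x + |C.L φ x| + |C.L ψ x|) + Real.sqrt (C.Rb θ x)
          + er x + |r x| + |r' x|
        linarith
      have h6 := pow_le_pow_left₀ (by linarith : 0 ≤ (jt C φ ψ θ x).W + er x + |r x| + |r' x|) h5 2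
      have h7 := mul_le_mul_of_nonneg_left h6 ht0.le
      linarith
    have h5 := mul_le_mul_of_nonneg_left h4 hK0.le
    linarith
  -- integrability
  have mw : AEStronglyMeasurable w μ := cw.aestronglyMeasurable
  have ig : Integrable (fun x => h x ^ 2) μ := integrable_cont (cg.pow 2)
  have iRb : Integrable (C.Rb θ) μ := integrable_cont cRb
  have mZ : AEStronglyMeasurable (fun x => (w x + er x + |r x| + |r' x|) ^ 2) μ := by
    have h1 := ((mw.add Bd.mer).add Bd.mr.norm).add Bd.mr'.norm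
    exact h1.pow 2
  have hZle : ∀ x, (w x + er x + |r x| + |r' x|) ^ 2 ≤
      5 * (h x ^ 2 + C.Rb θ x + er x ^ 2 + r x ^ 2 + r' x ^ 2) := by
    intro x
    have h1 := sq_sum5 (h x) (Real.sqrt (C.Rb θ x)) (er x) (|r x|) (|r' x|)
    rw [Real.sq_sqrt (hRb0 x), sq_abs, sq_abs] at h1
    exact h1
  obtain ⟨i5', e5'⟩ := int_add5 ig iRb Bd.ier Bd.ir Bd.ir'
  have i5 := i5'.const_mul 5
  have iZ : Integrable (fun x => (w x + er x + |r x| + |r' x|) ^ 2) μ := by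
    refine i5.mono' mZ (Eventually.of_forall fun x => ?_)
    rw [Real.norm_of_nonneg (sq_nonneg _)]
    exact hZle x
  have hl4 : ∀ x, l x ^ 4 = indicator {x | kO O φ ψ x ≤ ε}
      (fun x => (C.G (kO O φ ψ) (kO O φ ψ) x) ^ 2) x := by
    intro x
    by_cases hx : kO O φ ψ x ≤ ε
    · have hx' : x ∈ {x | kO O φ ψ x ≤ ε} := hx
      have h1 : l x = Real.sqrt (C.G (kO O φ ψ) (kO O φ ψ) x) := indicator_of_mem hx' _
      have h2 : indicator {x | kO O φ ψ x ≤ ε} (fun x => (C.G (kO O φ ψ) (kO O φ ψ) x) ^ 2) x =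
        (C.G (kO O φ ψ) (kO O φ ψ) x) ^ 2 := indicator_of_mem hx' _
      rw [h1, h2]
      have h3 : ∀ y : ℝ, y ^ 4 = (y ^ 2) ^ 2 := fun y => by ring
      rw [h3, Real.sq_sqrt (G_self_nonneg _ x)]
    · have hx' : x ∉ {x | kO O φ ψ x ≤ ε} := hx
      have h1 : l x = 0 := indicator_of_notMem hx' _
      have h2 : indicator {x | kO O φ ψ x ≤ ε} (fun x => (C.G (kO O φ ψ) (kO O φ ψ) x) ^ 2) x =
        0 := indicator_of_notMem hx' _
      rw [h1, h2]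
      norm_num
  have iG : Integrable (fun x => (C.G (kO O φ ψ) (kO O φ ψ) x) ^ 2) μ :=
    integrable_cont (hGκ.pow 2)
  have il : Integrable (fun x => l x ^ 4) μ := by
    simp_rw [hl4]
    exact iG.indicator hzone
  have hl4int : ∫ x, l x ^ 4 ∂μ ≤ δ := by
    simp_rw [hl4]
    rw [integral_indicator hzone]
    exact Bd.bκ
  -- integral of `Z²`
  have hRbint : ∫ x, C.Rb θ x ∂μ ≤ Cθ ^ 2 * A := by
    refine (int_Rb_le DC.sθ).trans ?_
    have h1 : ∫ x, C.L θ x ^ 2 ∂μ ≤ ∫ x, Cθ ^ 2 * h x ^ 2 ∂μ := by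
      refine integral_mono (integrable_sm (sm_pow (C.sm_L DC.sθ) 2)) (ig.const_mul _) fun x => ?_
      show C.L θ x ^ 2 ≤ Cθ ^ 2 * h x ^ 2
      rw [← mul_pow, ← sq_abs (C.L θ x)]
      exact pow_le_pow_left₀ (abs_nonneg _) (DC.Lθ x) 2
    rw [integral_const_mul] at h1
    exact h1.trans (mul_le_mul_of_nonneg_left Bd.bA (sq_nonneg _))
  have hZint : ∫ x, (w x + er x + |r x| + |r' x|) ^ 2 ∂μ ≤ A' := by
    have h1 := integral_mono iZ i5 hZle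
    rw [integral_const_mul, e5'] at h1
    have h2 := Bd.bA
    have h3 := Bd.br
    have h4 := Bd.br'
    have h5 := Bd.ber
    have h6 : A ≤ |A| := le_abs_self A
    have h7 : Cθ ^ 2 * A ≤ Cθ ^ 2 * |A| := mul_le_mul_of_nonneg_left h6 (sq_nonneg _)
    have h8 : ∫ x, h x ^ 2 ∂μ ≤ A := Bd.bA
    rw [hA']
    linarith
  have hfin := int_er iOm DC.iV DC.hV iR iZ il Bd.ier Bd.ir Bd.ir' hpt
  have h1 : K * (t * ∫ x, (w x + er x + |r x| + |r' x|) ^ 2 ∂μ) ≤ δ' / 2 :=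
    (mul_le_mul_of_nonneg_left (mul_le_mul_of_nonneg_left hZint ht0.le) hK0.le).trans htA
  have h2 : K * ((t ^ 3)⁻¹ * (∫ x, l x ^ 4 ∂μ + ∫ x, er x ^ 2 ∂μ + ∫ x, r x ^ 2 ∂μ +
      ∫ x, r' x ^ 2 ∂μ)) ≤ δ' / 2 := by
    refine le_trans ?_ hδ2
    apply mul_le_mul_of_nonneg_left _ hK0.le
    apply mul_le_mul_of_nonneg_left _ (by positivity)
    have h3 := Bd.br
    have h4 := Bd.br'
    have h5 := Bd.ber
    linarith
  rw [mul_add] at hfin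
  linarith

end Crest.Agent.R249.LimE621
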