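import Crest.Agent.R249.LimE3_621
import Crest.Agent.R249.ObF_780

/-!
# Row 249, part A2 v3: the limit passage for `Ob`, file 4: helper780's pairs, uniform bounds
-/

set_option autoImplicit false
set_option linter.unusedVariables false
set_option linter.unusedSectionVars false

open MeasureTheory Set Filter Topology Matrix
open scoped ContDiff

noncomputable section

namespace Crest.Agent.R249.LimE621

open Crest.Agent.R249.Lim621 Crest.Agent.R249.LimG621 Crest.Agent.R249.PenH_806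
open Crest.Agent.R249.ObE_780 Crest.Agent.R249.ObC_780
open Calc_806 Calc_806.Calc

attribute [local instance] Matrix.frobeniusNormedAddCommGroup Matrix.frobeniusNormedSpace

variable {X : Type*} [TopologicalSpace X] [CompactSpace X] [MeasurableSpace X]
  [OpensMeasurableSpace X] {μ : Measure X} [IsFiniteMeasure μ]

variable {g B : ℝ}

theorem E_le {O : Ob g B} {f : ℝ → ℝ} {M : ℝ} (hM : ∀ u, g ≤ u → u ≤ B → |f u| ≤ M)
    (hconc : ∀ η, |η| ≤ B - g → deriv (deriv O.Γ) η ≤ 0) {u v P : ℝ} (hu : u ∈ Icc g B)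
    (hv : v ∈ Icc g B) (hP : 0 ≤ P) : O.E f u v P ≤ 2 * M := by
  have huv : |u - v| ≤ B - g := by
    rw [abs_le]; constructor <;> linarith [hu.1, hu.2, hv.1, hv.2]
  obtain ⟨a1, a2, a3, a4⟩ := k1_bounds O huv
  have h1 : |O.k1 u v * f u| ≤ 1 * M := by
    rw [abs_mul]; exact mul_le_mul a1 (hM u hu.1 hu.2) (abs_nonneg _) zero_le_one
  have h2 : |O.k2 u v * f v| ≤ 1 * M := by
    rw [abs_mul]; exact mul_le_mul a2 (hM v hv.1 hv.2) (abs_nonneg _) zero_le_one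
  have h3 : deriv (deriv O.Γ) (u - v) * P ≤ 0 :=
    mul_nonpos_of_nonpos_of_nonneg (hconc _ huv) hP
  have h4 := (abs_le.mp h1).2
  have h5 := (abs_le.mp h2).2
  unfold Ob.E
  linarith

theorem m_le {c a m Y : ℝ} (hc : 0 < c) (hca : c ≤ a) (hm : 0 ≤ m) (h : a * m ≤ Y) :
    m ≤ c⁻¹ * Y := by
  rw [le_inv_mul_iff₀ hc]
  exact (mul_le_mul_of_nonneg_right hca hm).trans h

theorem sq2 (a b : ℝ) : (a + b) ^ 2 ≤ 2 * (a ^ 2 + b ^ 2) := by nlinarith [sq_nonneg (a - b)]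

theorem sq3 (a b c : ℝ) : (a + b + c) ^ 2 ≤ 3 * (a ^ 2 + b ^ 2 + c ^ 2) := by
  nlinarith [sq_nonneg (a - b), sq_nonneg (a - c), sq_nonneg (b - c)]

/-- **uniform bounds** (for `Γ'' ≤ 0`) -/
theorem exists_A0 (C : Calc X μ) (O : Ob g B) {f : ℝ → ℝ} (hf : ContDiff ℝ ∞ f)
    (hconc : ∀ η, |η| ≤ B - g → deriv (deriv O.Γ) η ≤ 0) :
    ∃ A₀ : ℝ, 0 ≤ A₀ ∧ ∀ (η₀ t₀ K e ε A δ : ℝ) (φ₀ ψ₀ : X → ℝ)
      (S : PenSolG C O f η₀ φ₀ ψ₀ K e ε) (er : X → ℝ), DatG C O f η₀ t₀ φ₀ ψ₀ → 0 ≤ η₀ →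
      η₀ ≤ 1 → 0 < e → e ≤ 1 → δ ≤ 1 → OutG S A δ er →
      ∫ x, (1 + C.G S.φ S.φ x + C.G S.ψ S.ψ x + |C.L S.φ x| + |C.L S.ψ x|) ^ 2 ∂μ ≤ A₀ := by
  have hc := O.c_pos
  have hB0 : 0 < B := O.g_pos.trans O.g_lt
  obtain ⟨M, hM⟩ := (isCompact_Icc (a := g) (b := B)).exists_bound_of_continuousOn
    hf.continuous.continuousOn
  have hM' : ∀ u, g ≤ u → u ≤ B → |f u| ≤ M := fun u h1 h2 => by
    have := hM u ⟨h1, h2⟩
    rwa [Real.norm_eq_abs] at this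
  have hM0 : 0 ≤ M := (abs_nonneg _).trans (hM' g le_rfl O.g_lt.le)
  obtain ⟨N, hN⟩ : ∃ N, N = M + 1 + O.c⁻¹ * (2 * M + 2) := ⟨_, rfl⟩
  have hci : 0 < O.c⁻¹ := by positivity
  have hN0 : 0 < N := by rw [hN]; positivity
  obtain ⟨V, hV⟩ : ∃ V, V = ∫ x : X, (1 : ℝ) ∂μ := ⟨_, rfl⟩
  have hV0 : 0 ≤ V := by rw [hV]; exact integral_nonneg fun _ => zero_le_one
  obtain ⟨B1, hB1⟩ : ∃ B1, B1 = 2 * (N ^ 2 * V + 1) := ⟨_, rfl⟩
  obtain ⟨B2, hB2⟩ : ∃ B2, B2 = 3 * (N ^ 2 * V + (O.c⁻¹) ^ 2 + 1) := ⟨_, rfl⟩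
  have hB10 : 0 ≤ B1 := by rw [hB1]; positivity
  have hB20 : 0 ≤ B2 := by rw [hB2]; positivity
  refine ⟨5 * (V + 16 * B ^ 2 * B1 + 16 * B ^ 2 * B2 + B1 + B2), by positivity, ?_⟩
  intro η₀ t₀ K e ε A δ φ₀ ψ₀ S er D hη0 hη1 he0 he1 hδ Ou
  -- pointwise bounds
  have h1mem : ∀ x, S.h₁ x ∈ Icc g B := fun x => ⟨S.h₁ge x, by linarith [S.h₁le x]⟩
  have h2mem : ∀ x, S.h₂ x ∈ Icc g B := fun x => ⟨S.h₂ge x, by linarith [S.h₂le x]⟩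
  have h0mem : ∀ x, ψ₀ x ∈ Icc g B := fun x => ⟨D.ψge x, D.ψle x⟩
  have hab : ∀ u v : ℝ, u ∈ Icc g B → v ∈ Icc g B → |u - v| ≤ B - g := fun u v hu hv => by
    rw [abs_le]; constructor <;> linarith [hu.1, hu.2, hv.1, hv.2]
  have hm1 : ∀ x, S.m₁ x ≤ O.c⁻¹ * (2 * M + 2) := fun x => by
    have h1 := Ou.contact₁ x
    have h2 := E_le hM' hconc (h1mem x) (h0mem x)
      (G_self_nonneg (C := C) (fun y => S.h₁ y - ψ₀ y) x)
    obtain ⟨-, -, a3, a4⟩ := k1_bounds O (hab _ _ (h1mem x) (h0mem x))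
    refine m_le hc a3 (S.m₁nn x) (h1.trans ?_)
    have : max 0 (O.E f (S.h₁ x) (ψ₀ x)
      (C.G (fun y => S.h₁ y - ψ₀ y) (fun y => S.h₁ y - ψ₀ y) x) + η₀) ≤ 2 * M + 1 :=
      max_le (by linarith) (by linarith)
    linarith
  have hm2 : ∀ x, S.m₂ x ≤ O.c⁻¹ * (2 * M + 2 + |S.g₁ x|) := fun x => by
    have h1 := Ou.contact₂ x
    have h2 := E_le hM' hconc (Ou.φ_mem x) (h2mem x)
      (G_self_nonneg (C := C) (fun y => S.φ y - S.h₂ y) x)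
    obtain ⟨-, -, a3, a4⟩ := k1_bounds O (hab _ _ (Ou.φ_mem x) (h2mem x))
    refine m_le hc a4 (S.m₂nn x) (h1.trans ?_)
    have h3 : O.k1 (S.φ x) (S.h₂ x) * S.m₁ x ≤ 0 :=
      mul_nonpos_of_nonpos_of_nonneg (by linarith) (S.m₁nn x)
    have h4 := abs_nonneg (S.g₁ x)
    have : max 0 (O.E f (S.φ x) (S.h₂ x)
      (C.G (fun y => S.φ y - S.h₂ y) (fun y => S.φ y - S.h₂ y) x) + η₀ +
        O.k1 (S.φ x) (S.h₂ x) * S.m₁ x + |S.g₁ x|) ≤ 2 * M + 1 + |S.g₁ x| :=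
      max_le (by positivity) (by linarith)
    linarith
  have hL1 : ∀ x, C.L S.φ x ^ 2 ≤ 2 * (N ^ 2 + S.g₁ x ^ 2) := fun x => by
    have h1 : |C.L S.φ x| ≤ N + |S.g₁ x| := by
      rw [S.eqφ x]
      have h2 := hM' _ (Ou.φ_mem x).1 (Ou.φ_mem x).2
      have h3 := hm1 x
      have h4 := S.m₁nn x
      have h5 := abs_le.mp h2
      have h6 := neg_abs_le (S.g₁ x)
      have h7 := le_abs_self (S.g₁ x)
      rw [hN, abs_le]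
      have h8 : 0 ≤ O.c⁻¹ * (2 * M + 2) := by positivity
      constructor <;> linarith
    calc C.L S.φ x ^ 2 = |C.L S.φ x| ^ 2 := (sq_abs _).symm
      _ ≤ (N + |S.g₁ x|) ^ 2 := pow_le_pow_left₀ (abs_nonneg _) h1 2
      _ ≤ 2 * (N ^ 2 + |S.g₁ x| ^ 2) := sq2 _ _
      _ = _ := by rw [sq_abs]
  have hL2 : ∀ x, C.L S.ψ x ^ 2 ≤ 3 * (N ^ 2 + (O.c⁻¹) ^ 2 * S.g₁ x ^ 2 + S.g₂ x ^ 2) := fun x => by
    have h1 : |C.L S.ψ x| ≤ N + O.c⁻¹ * |S.g₁ x| + |S.g₂ x| := by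
      rw [S.eqψ x]
      have h2 := hM' _ (Ou.ψ_mem x).1 (Ou.ψ_mem x).2
      have h3 := hm2 x
      have h4 := S.m₂nn x
      have h5 := abs_le.mp h2
      have h6 := neg_abs_le (S.g₂ x)
      have h7 := le_abs_self (S.g₂ x)
      rw [hN, abs_le]
      have h8 : 0 ≤ O.c⁻¹ * (2 * M + 2) := by positivity
      have h9 : 0 ≤ O.c⁻¹ * |S.g₁ x| := by positivity
      constructor <;> linarith
    calc C.L S.ψ x ^ 2 = |C.L S.ψ x| ^ 2 := (sq_abs _).symm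
      _ ≤ (N + O.c⁻¹ * |S.g₁ x| + |S.g₂ x|) ^ 2 := pow_le_pow_left₀ (abs_nonneg _) h1 2
      _ ≤ 3 * (N ^ 2 + (O.c⁻¹ * |S.g₁ x|) ^ 2 + |S.g₂ x| ^ 2) := sq3 _ _ _
      _ = _ := by rw [mul_pow, sq_abs, sq_abs]
  -- integrals
  have ig1 : Integrable (fun x => S.g₁ x ^ 2) μ := integrable_cont ((C.sm_cont S.sg₁).pow 2)
  have ig2 : Integrable (fun x => S.g₂ x ^ 2) μ := integrable_cont ((C.sm_cont S.sg₂).pow 2)
  have iN : Integrable (fun _ : X => N ^ 2) μ := integrable_const _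
  have iL1 : Integrable (fun x => C.L S.φ x ^ 2) μ := integrable_sm (sm_pow (C.sm_L S.sφ) 2)
  have iL2 : Integrable (fun x => C.L S.ψ x ^ 2) μ := integrable_sm (sm_pow (C.sm_L S.sψ) 2)
  have hNV : ∫ _ : X, N ^ 2 ∂μ = N ^ 2 * V := by
    rw [hV, ← integral_const_mul]; simp
  have hI1 : ∫ x, C.L S.φ x ^ 2 ∂μ ≤ B1 := by
    have h1 := integral_mono iL1 ((iN.add ig1).const_mul 2) hL1
    have h2 : ∫ x, 2 * (N ^ 2 + S.g₁ x ^ 2) ∂μ = 2 * (N ^ 2 * V + ∫ x, S.g₁ x ^ 2 ∂μ) := by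
      rw [integral_const_mul, integral_add iN ig1, hNV]
    have h3 : ∫ x, C.L S.φ x ^ 2 ∂μ ≤ ∫ x, 2 * (N ^ 2 + S.g₁ x ^ 2) ∂μ := h1
    rw [h2] at h3
    have h4 := Ou.g₁_sq
    rw [hB1]
    linarith
  have hI2 : ∫ x, C.L S.ψ x ^ 2 ∂μ ≤ B2 := by
    obtain ⟨i3, e3⟩ := int_add3 iN (ig1.const_mul ((O.c⁻¹) ^ 2)) ig2
    have h1 := integral_mono iL2 (i3.const_mul 3) hL2
    rw [integral_const_mul, e3, hNV, integral_const_mul] at h1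
    have h4 := Ou.g₁_sq
    have h5 := Ou.g₂_sq
    have h6 : (O.c⁻¹) ^ 2 * ∫ x, S.g₁ x ^ 2 ∂μ ≤ (O.c⁻¹) ^ 2 * 1 :=
      mul_le_mul_of_nonneg_left (h4.trans hδ) (by positivity)
    rw [hB2]
    linarith
  have hb1 : ∀ x, |S.φ x| ≤ B := fun x => by
    rw [abs_of_pos (O.g_pos.trans_le (Ou.φ_mem x).1)]; exact (Ou.φ_mem x).2
  have hb2 : ∀ x, |S.ψ x| ≤ B := fun x => by
    rw [abs_of_pos (O.g_pos.trans_le (Ou.ψ_mem x).1)]; exact (Ou.ψ_mem x).2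
  have hG1 : ∫ x, C.G S.φ S.φ x ^ 2 ∂μ ≤ 16 * B ^ 2 * B1 :=
    (IntA_780.int_G_sq_le S.sφ hB0 hb1).trans (mul_le_mul_of_nonneg_left
      ((int_Rb_le S.sφ).trans hI1) (by positivity))
  have hG2 : ∫ x, C.G S.ψ S.ψ x ^ 2 ∂μ ≤ 16 * B ^ 2 * B2 :=
    (IntA_780.int_G_sq_le S.sψ hB0 hb2).trans (mul_le_mul_of_nonneg_left
      ((int_Rb_le S.sψ).trans hI2) (by positivity))
  have iG1 : Integrable (fun x => C.G S.φ S.φ x ^ 2) μ :=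
    integrable_sm (sm_pow (C.sm_G S.sφ S.sφ) 2)
  have iG2 : Integrable (fun x => C.G S.ψ S.ψ x ^ 2) μ :=
    integrable_sm (sm_pow (C.sm_G S.sψ S.sψ) 2)
  have i1 : Integrable (fun _ : X => (1 : ℝ)) μ := integrable_const _
  obtain ⟨i5, e5⟩ := int_add5 i1 iG1 iG2 iL1 iL2
  have cont : Continuous
      (fun x => 1 + C.G S.φ S.φ x + C.G S.ψ S.ψ x + |C.L S.φ x| + |C.L S.ψ x|) := by
    have h1 := C.sm_cont (C.sm_G S.sφ S.sφ)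
    have h2 := C.sm_cont (C.sm_G S.sψ S.sψ)
    have h3 := C.sm_cont (C.sm_L S.sφ)
    have h4 := C.sm_cont (C.sm_L S.sψ)
    exact (((continuous_const.add h1).add h2).add h3.abs).add h4.abs
  have hle : ∀ x, (1 + C.G S.φ S.φ x + C.G S.ψ S.ψ x + |C.L S.φ x| + |C.L S.ψ x|) ^ 2 ≤
      5 * (1 + C.G S.φ S.φ x ^ 2 + C.G S.ψ S.ψ x ^ 2 + C.L S.φ x ^ 2 + C.L S.ψ x ^ 2) := fun x => by
    have h := sq_sum5 1 (C.G S.φ S.φ x) (C.G S.ψ S.ψ x) (|C.L S.φ x|) (|C.L S.ψ x|)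
    rw [sq_abs, sq_abs, one_pow] at h
    exact h
  have hfin := integral_mono (integrable_cont (cont.pow 2)) (i5.const_mul 5) hle
  rw [integral_const_mul, e5, ← hV] at hfin
  refine hfin.trans ?_
  linarith

/-- from helper780's output to the data of the limit passage -/
theorem toBdE {C : Calc X μ} {O : Ob g B} {f : ℝ → ℝ} {η₀ t₀ K e ε A A₀ δ δ1 : ℝ}
    {φ₀ ψ₀ : X → ℝ} (D : DatG C O f η₀ t₀ φ₀ ψ₀) (he : 0 < e) (heδ : 5 * e ≤ δ1) (hη0 : 0 ≤ η₀)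
    (S : PenSolG C O f η₀ φ₀ ψ₀ K e ε) {er : X → ℝ} (Ou : OutG S A δ er)
    (hδ : 2 * (δ + η₀ ^ 2 * ∫ x : X, (1 : ℝ) ∂μ) ≤ δ1) (hδ1 : δ ≤ δ1)
    (hA0 : ∫ x, (1 + C.G S.φ S.φ x + C.G S.ψ S.ψ x + |C.L S.φ x| + |C.L S.ψ x|) ^ 2 ∂μ ≤ A₀) :
    BdE C O 0 A₀ δ1 f S.φ S.ψ S.m₁ S.m₂ (fun x => S.g₁ x - η₀) (fun x => S.g₂ x - η₀)
      (fun x => er x + η₀) (5 * e) := by
  have hkap : kap S = kO O S.φ S.ψ := rfl
  have key : ∀ (q : X → ℝ), Integrable (fun x => q x ^ 2) μ → AEStronglyMeasurable q μ →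
      ∫ x, q x ^ 2 ∂μ ≤ δ → ∀ s : ℝ, s ^ 2 = η₀ ^ 2 →
      Integrable (fun x => (q x + s) ^ 2) μ ∧ ∫ x, (q x + s) ^ 2 ∂μ ≤ δ1 := by
    intro q iq mq hq s hs
    have i1 : Integrable (fun _ : X => η₀ ^ 2) μ := integrable_const _
    have hle : ∀ x, (q x + s) ^ 2 ≤ 2 * (q x ^ 2 + η₀ ^ 2) := fun x => by
      have := sq2 (q x) s
      rw [hs] at this
      exact this
    have i2 : Integrable (fun x => 2 * (q x ^ 2 + η₀ ^ 2)) μ := (iq.add i1).const_mul 2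
    have i3 : Integrable (fun x => (q x + s) ^ 2) μ := by
      refine i2.mono' ((mq.add aestronglyMeasurable_const).pow 2)
        (Eventually.of_forall fun x => ?_)
      rw [Real.norm_of_nonneg (sq_nonneg _)]
      exact hle x
    refine ⟨i3, (integral_mono i3 i2 hle).trans ?_⟩
    rw [integral_const_mul, integral_add iq i1]
    have : ∫ _ : X, η₀ ^ 2 ∂μ = η₀ ^ 2 * ∫ x : X, (1 : ℝ) ∂μ := by
      rw [← integral_const_mul]; simp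
    rw [this]
    linarith
  have c1 := C.sm_cont S.sg₁
  have c2 := C.sm_cont S.sg₂
  have k1 := key S.g₁ (integrable_cont (c1.pow 2)) c1.aestronglyMeasurable Ou.g₁_sq (-η₀)
    (by ring)
  have k2 := key S.g₂ (integrable_cont (c2.pow 2)) c2.aestronglyMeasurable Ou.g₂_sq (-η₀)
    (by ring)
  have k3 := key er Ou.er_int Ou.er_meas.aestronglyMeasurable Ou.er_le η₀ rfl
  have hk := Ou.kap_ge
  have hs1 := Ou.supp₁
  have hs2 := Ou.supp₂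
  have hk4 := Ou.kap_four
  rw [hkap] at hk hs1 hs2 hk4
  exact
  { sφ := S.sφ
    sψ := S.sψ
    φmem := Ou.φ_mem
    ψmem := Ou.ψ_mem
    ε0 := by positivity
    εδ := heδ
    kap := fun x => by have := hk x; linarith
    eqφ := fun x => by rw [S.eqφ x]; ring
    eqψ := fun x => by rw [S.eqψ x]; ring
    m0 := S.m₁nn
    m0' := S.m₂nn
    off := fun x hx => ⟨hs1 x hx, hs2 x hx⟩
    er0 := fun x => add_nonneg (Ou.er_nn x) hη0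
    simplex := fun x _ => by
      have := Ou.simplex x
      rw [max_comm] at this
      linarith
    mr := (c1.sub continuous_const).aestronglyMeasurable
    mr' := (c2.sub continuous_const).aestronglyMeasurable
    mer := Ou.er_meas.aestronglyMeasurable.add aestronglyMeasurable_const
    ir := k1.1
    ir' := k2.1
    ier := k3.1
    br := k1.2
    br' := k2.2
    ber := k3.2
    bκ := hk4.trans hδ1
    bA := hA0 }

/-- **A2 v3, sections 3-9.**  `hdiv`: every pair in the box has a smooth field whose divergence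
dominates `I`.  The number `δ₀` does not depend on `η₀, t₀, φ₀, ψ₀`. -/
theorem exists_limE (C : Calc X μ) (O : Ob g B) (hΓ : g < O.Γ 0)
    (hconc : ∀ η, |η| ≤ B - g → deriv (deriv O.Γ) η ≤ 0) {f : ℝ → ℝ} (hf : ContDiff ℝ ∞ f)
    {b CI CO CR Cθ : ℝ} {I Om R : Jet E4 H4 → ℝ}
    (hI : LipE g B CI I) (hO : LipE g B CO Om) (hR : LipE g B CR R) (hCI : 0 ≤ CI)
    (hCO : 0 ≤ CO) (hCR : 0 ≤ CR) (hC : CertE trH SyH O f 0 I Om R)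
    (hdiv : ∀ φ ψ : X → ℝ, C.Sm φ → C.Sm ψ → (∀ x, φ x ∈ Icc g B) → (∀ x, ψ x ∈ Icc g B) →
      ∃ θ V : X → ℝ, DivCert C b Cθ I φ ψ θ V ∧
        Integrable (fun x => Om (jt C φ ψ θ x)) μ ∧ Integrable (fun x => R (jt C φ ψ θ x)) μ)
    {δ' : ℝ} (hδ' : 0 < δ') :
    ∃ δ₀ : ℝ, 0 < δ₀ ∧ ∀ (η₀ t₀ : ℝ) (φ₀ ψ₀ : X → ℝ), 0 ≤ η₀ → η₀ ≤ δ₀ → 0 < t₀ →
      DatG C O f η₀ t₀ φ₀ ψ₀ → ∃ K e ε : ℝ, 0 < e ∧ e ≤ δ' ∧
      ∃ S : PenSolG C O f η₀ φ₀ ψ₀ K e ε,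
      (∀ x, S.φ x ∈ Icc g B) ∧ (∀ x, S.ψ x ∈ Icc g B) ∧
      (∀ x, -(2 * e) ≤ O.k (S.φ x) (S.ψ x)) ∧ ∃ θ V : X → ℝ,
        DivCert C b Cθ I S.φ S.ψ θ V ∧
        ∫ x, Om (jt C S.φ S.ψ θ x) ∂μ ≤ ∫ x, R (jt C S.φ S.ψ θ x) ∂μ + δ' := by
  obtain ⟨A₀, hA₀, hbd⟩ := exists_A0 C O hf hconc
  obtain ⟨CF, hCF0, hCF1, hCF2⟩ := lip_of_contDiff hf (max |g| |B|)
  have habs : ∀ u, g ≤ u → u ≤ B → |u| ≤ max |g| |B| := fun u h1 h2 => by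
    rw [abs_le]
    have h3 := neg_abs_le g
    have h4 := le_abs_self B
    have h5 := le_max_left |g| |B|
    have h6 := le_max_right |g| |B|
    constructor <;> linarith
  obtain ⟨AF, hAF⟩ := exists_bds O (F := f) (CF := CF)
    (fun u h1 h2 => hCF1 u (habs u h1 h2))
    (fun u v h1 h2 h3 h4 => hCF2 u v (habs u h1 h2) (habs v h3 h4))
  obtain ⟨δ, hδ0, hδ⟩ := limit_passageE C O hΓ (A := A₀) (Cθ := Cθ) (b := b) (le_refl (0:ℝ)) hAF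
    hI hO hR hCI hCO hCR hC hδ'
  obtain ⟨K, hK, hpair⟩ := ObF_780.exists_pairG C O hf
  obtain ⟨V, hV⟩ : ∃ V, V = ∫ x : X, (1 : ℝ) ∂μ := ⟨_, rfl⟩
  have hV0 : 0 ≤ V := by rw [hV]; exact integral_nonneg fun _ => zero_le_one
  -- the size of `η₀`
  refine ⟨min 1 (δ / (4 * (V + 1))), lt_min one_pos (by positivity), ?_⟩
  intro η₀ t₀ φ₀ ψ₀ hη0 hηδ ht D
  have hη1 : η₀ ≤ 1 := hηδ.trans (min_le_left _ _)
  have hη2 : η₀ * (4 * (V + 1)) ≤ δ := by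
    rw [← le_div_iff₀ (by positivity)]; exact hηδ.trans (min_le_right _ _)
  have hη3 : η₀ ^ 2 * V ≤ δ / 4 := by
    have h1 : η₀ ^ 2 ≤ η₀ := by nlinarith
    have h2 : η₀ ^ 2 * V ≤ η₀ * V := mul_le_mul_of_nonneg_right h1 hV0
    nlinarith
  obtain ⟨A, hA, h⟩ := hpair D ht hη0
  obtain ⟨δ2, hδ2⟩ : ∃ δ2, δ2 = min (min (δ / 5) (δ / 4)) (min δ' 1) := ⟨_, rfl⟩
  have hδ20 : 0 < δ2 := by rw [hδ2]; positivity
  have d1 : δ2 ≤ δ / 5 := by rw [hδ2]; exact (min_le_left _ _).trans (min_le_left _ _)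
  have d2 : δ2 ≤ δ / 4 := by rw [hδ2]; exact (min_le_left _ _).trans (min_le_right _ _)
  have d3 : δ2 ≤ δ' := by rw [hδ2]; exact (min_le_right _ _).trans (min_le_left _ _)
  have d4 : δ2 ≤ 1 := by rw [hδ2]; exact (min_le_right _ _).trans (min_le_right _ _)
  obtain ⟨e, ε, he, heδ, het, hε, S, er, Ou⟩ := h δ2 hδ20
  have hA0' := hbd η₀ t₀ K e ε A δ2 φ₀ ψ₀ S er D hη0 hη1 he (heδ.trans d4) d4 Ou
  have Bd := toBdE (A₀ := A₀) (δ1 := δ) D he (by linarith) hη0 S Ou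
    (by rw [← hV]; linarith) (by linarith) hA0'
  obtain ⟨θ, W, DC, iO, iR⟩ := hdiv S.φ S.ψ S.sφ S.sψ Ou.φ_mem Ou.ψ_mem
  exact ⟨K, e, ε, he, heδ.trans d3, S, Ou.φ_mem, Ou.ψ_mem, Ou.kap_ge, θ, W, DC,
    hδ S.φ S.ψ S.m₁ S.m₂ _ _ _ θ W (5 * e) Bd DC iO iR⟩

end Crest.Agent.R249.LimE621
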