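import Crest.Agent.R249.LimD_41
/-!
R249 / D3-LIM (helper41).  Abstract limit lemma, part 13: the limit of the energy density and the
strong convergence of `P`.
-/

set_option autoImplicit false

open MeasureTheory Filter Topology Set
open scoped ContDiff ENNReal
open Crest.GeometryTopology.CoordMetric
open Crest.Agent.R249.LPt_191 (N1 sS kos)

noncomputable section

namespace Crest.Agent.R249.Lim41

theorem L2l.mul_li {n : ℕ} {Ω : Set (E n)} (hΩ : IsOpen Ω) {f g : E n → ℝ} (hf : L2l Ω f)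
    (hg : L2l Ω g) : LI Ω (fun y => f y * g y) := by
  intro K hK hKΩ
  obtain ⟨θ, hθ, -, hθ1, -⟩ := exists_cs hK hΩ hKΩ
  have h1 : Integrable (fun y => (θ y * f y) * (θ y * g y)) :=
    (hf θ hθ.cc).integrable_mul (hg θ hθ.cc)
  refine h1.integrableOn.congr_fun (fun y hy => ?_) hK.measurableSet
  simp [hθ1 y hy]

theorem exists_q {n : ℕ} {p : E n → ℝ} (hp : MemLp p 2 (volume : Measure (E n))) {δ : ℝ}
    (hδ : 0 < δ) : ∃ q : E n → ℝ, Continuous q ∧ HasCompactSupport q ∧
      ∫ y, (p y - q y) ^ 2 ≤ δ := by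
  have h2 : ENNReal.ofReal (2 : ℝ) = 2 := by norm_num
  obtain ⟨q, hqc, hq, hq1, -⟩ := MemLp.exists_hasCompactSupport_integral_rpow_sub_le
    (p := (2 : ℝ)) (by norm_num) (f := p) (by rw [h2]; exact hp) hδ
  refine ⟨q, hq1, hqc, le_trans (le_of_eq ?_) hq⟩
  congr 1
  ext y
  rw [Real.norm_eq_abs]
  norm_num

section main

variable {n : ℕ} {ι : Type*} {l : Filter ι} {X : ι → Type*} [∀ i, MeasurableSpace (X i)]
  {Ω : Set (E n)} {m : ∀ i, Measure (X i)} {u : ∀ i, X i → E n}
  {h : E n → Matrix (Fin n) (Fin n) ℝ} {F : ∀ i, X i → Matrix (Fin n) (Fin n) ℝ}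
  {P : ∀ i, X i → Fin n → Fin n → Fin n → ℝ} {D G R : ∀ i, X i → Fin n → Fin n → ℝ}
  {lam Mm C α : ℝ}

/-- the cut-off inverse -/
def ih {n : ℕ} (c d : Fin n) (A : Mt n) : ℝ := chi A * (Matrix.of A)⁻¹ c d

theorem ih_continuous {n : ℕ} (c d : Fin n) : Continuous (ih c d) :=
  chi_mul_continuous fun _ hA => (inv_contDiffAt (lt_of_le_of_lt hA (by norm_num)) c d).continuousAt

namespace LData

section noNeBot

variable (hd : LData l Ω m u h F P D G R lam Mm C α)
include hd

theorem ih_h {y : E n} (hy : y ∈ Ω) (c d : Fin n) : ih c d (fm (h y)) = (h y)⁻¹ c d := by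
  unfold ih
  rw [chi_one (hd.nIh hy), one_mul]
  rfl

end noNeBot

variable [l.NeBot] (hd : LData l Ω m u h F P D G R lam Mm C α)
include hd

/-- the limit of the energy density -/
def De (a b : Fin n) : E n → ℝ := fun y => ∑ c, hd.H a b c y * hd.p a b c y

theorem De_li (a b : Fin n) : LI Ω (hd.De a b) :=
  LI.sum _ fun c _ => L2l.mul_li hd.base.opn (hd.H_l2l a b c) (L2l.of_memLp (hd.p_mem a b c))

theorem De_eq (a b : Fin n) (y : E n) : hd.De a b y =
    ∑ c, ∑ d, ((Jf (fm (h y)))⁻¹ * (h y)⁻¹ c d) * (hd.p a b c y * hd.p a b d y) := by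
  unfold De H
  simp_rw [Finset.sum_mul]
  rw [Finset.sum_comm]
  refine Finset.sum_congr rfl fun c _ => Finset.sum_congr rfl fun d _ => ?_
  ring

theorem D_wc (a b : Fin n) : WC l Ω m u (fun i x => D i x a b) (hd.De a b) := by
  have hfin := hd.base.fin
  refine wc_of_smooth hd.base.meas (fun i => hd.D_int i a b) (fun i => hd.D_bdd i a b)
    (hd.De_li a b) fun φ hφ => ?_
  have hPi : ∀ i c, Integrable (fun x => P i x a b c) (m i) := fun i c =>
    (hd.P_mem i a b c).integrable (by norm_num)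
  have hFb : ∀ i, ∀ᵐ x ∂(m i), ‖F i x a b‖ ≤ C := fun i => by
    filter_upwards [hd.F_bdd i] with x hx; exact hx a b
  have h1 := hd.wc_mul (continuous_entry a b) (fun i => hd.G_mem i a b)
    (fun i => hd.G_bdd i a b) (hd.g_wc a b) φ hφ.cc
  have h2 : Tendsto (fun i => ∑ c, ∫ x, pderiv c φ (u i x) * (F i x a b * P i x a b c) ∂(m i)) l
      (𝓝 (∑ c, ∫ y, pderiv c φ y * (h y a b * hd.p a b c y))) :=
    tendsto_finsetSum _ fun c _ => hd.wc_mul (continuous_entry a b) (fun i => hd.P_mem i a b c)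
      (fun i => hd.P_bdd i a b c) (hd.p_wc a b c) _ (hφ.pderiv c).cc
  have h3 : ∀ i, ∑ c, ∫ x, pderiv c φ (u i x) * (F i x a b * P i x a b c) ∂(m i) =
      ∫ x, F i x a b * ∑ c, pderiv c φ (u i x) * P i x a b c ∂(m i) := by
    intro i
    rw [← integral_finsetSum _ fun c _ => (hφ.pderiv c).cc.integrable_comp hd.base
      ((hPi i c).bdd_mul (c := C) (hd.F_meas i a b) (hFb i))]
    congr 1
    ext x
    rw [Finset.mul_sum]
    refine Finset.sum_congr rfl fun c _ => ?_
    ring
  simp_rw [h3] at h2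
  have h4 := (h1.neg).sub h2
  have hHp : ∀ c, Integrable (fun y => φ y * hd.H a b c y * hd.p a b c y) := fun c =>
    (hd.H_l2l a b c φ hφ.cc).integrable_mul (hd.p_mem a b c)
  have hhp : ∀ c, Integrable (fun y => pderiv c φ y * (h y a b * hd.p a b c y)) := fun c =>
    (hφ.pderiv c).cc.integrable_mul (LI.mul_cont (hd.h_cont a b) (LI.of_memLp (hd.p_mem a b c)))
  have hen := energy hd.base.opn (hd.h_cont a b) (fun c => hd.H_l2l a b c)
    (fun c => L2l.of_memLp (hd.p_mem a b c)) (L2l.of_memLp (hd.g_mem a b))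
    (fun c ζ hζ => hd.H_wd a b c hζ) (fun ζ hζ => hd.g_eq a b hζ) hφ
  have e1 : ∀ c, ∫ y, (pderiv c φ y * h y a b + φ y * hd.H a b c y) * hd.p a b c y =
      (∫ y, pderiv c φ y * (h y a b * hd.p a b c y)) +
      ∫ y, φ y * hd.H a b c y * hd.p a b c y := by
    intro c
    rw [← integral_add (hhp c) (hHp c)]
    congr 1
    ext y
    ring
  simp_rw [e1] at hen
  rw [Finset.sum_add_distrib] at hen
  have e2 : ∫ y, φ y * hd.De a b y = ∑ c, ∫ y, φ y * hd.H a b c y * hd.p a b c y := by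
    rw [← integral_finsetSum _ fun c _ => hHp c]
    congr 1
    ext y
    unfold De
    rw [Finset.mul_sum]
    refine Finset.sum_congr rfl fun c _ => ?_
    ring
  have e3 : ∫ y, φ y * h y a b * hd.g a b y = ∫ y, φ y * (fm (h y) a b * hd.g a b y) := by
    congr 1; ext y; unfold fm; ring
  have e4 : ∫ y, φ y * hd.De a b y = -(∫ y, φ y * (fm (h y) a b * hd.g a b y)) -
      ∑ c, ∫ y, pderiv c φ y * (h y a b * hd.p a b c y) := by
    rw [e2, ← e3]
    linarith
  rw [e4]
  refine h4.congr' ?_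
  filter_upwards [hd.H7 a b φ hφ] with i hi
  exact hi.symm

/-- **strong convergence** for one pair `a b` -/
theorem strong_aux (a b : Fin n) {φ : E n → ℝ} (hφ : CC Ω φ) (hφ0 : ∀ y, 0 ≤ φ y) :
    ∃ K : ℝ, 0 ≤ K ∧ ∀ q : Fin n → E n → ℝ, (∀ c, Continuous (q c)) →
      (∀ c, HasCompactSupport (q c)) → ∀ η : ℝ, 0 < η →
      (∀ c, ∫ y, (hd.p a b c y - q c y) ^ 2 ≤ η) →
      ∀ᶠ i in l, ∫ x, φ (u i x) * (chi (fm (F i x)) *
        ∑ c, (P i x a b c - (Jf (fm (h (u i x))))⁻¹ * q c (u i x)) ^ 2) ∂(m i) ≤ K * η := by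
  have hfin := hd.base.fin
  obtain ⟨Cφ, hCφ0, hCφ⟩ := hφ.bdd
  obtain ⟨BJ, hBJ0, hBJ⟩ := hd.Ji_bdd
  refine ⟨4 * Cφ * BJ * (n : ℝ) ^ 2 + 1, by positivity, fun q hq hqc η hη hqη => ?_⟩
  -- the test functions
  set Q : Fin n → E n → ℝ := fun c y => (Jf (fm (h y)))⁻¹ * q c y with hQ
  have hQc : ∀ c, ContinuousOn (Q c) Ω := fun c => hd.Ji_cont.mul (hq c).continuousOn
  have hφQ : ∀ c, CC Ω (fun y => φ y * Q c y) := fun c => hφ.mul_cont hd.base.opn (hQc c)
  have hφQQ : ∀ c d, CC Ω (fun y => φ y * (Q c y * Q d y)) := fun c d =>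
    hφ.mul_cont hd.base.opn ((hQc c).mul (hQc d))
  have hPi : ∀ i c, Integrable (fun x => P i x a b c) (m i) := fun i c =>
    (hd.P_mem i a b c).integrable (by norm_num)
  have hihb : ∀ c d, ∃ B, 0 ≤ B ∧ ∀ i, ∀ᵐ x ∂(m i), |ih c d (fm (F i x))| ≤ B := fun c d => by
    obtain ⟨B, hB0, hB1, -⟩ := hd.bddΨ (ih_continuous c d)
    exact ⟨B, hB0, hB1⟩
  have hihP : ∀ i c d e, Integrable (fun x => ih c d (fm (F i x)) * P i x a b e) (m i) := by
    intro i c d e
    obtain ⟨B, -, hB⟩ := hihb c d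
    exact (hPi i e).bdd_mul (c := B) (hd.measΨ (ih_continuous c d) i) (hB i)
  have hihi : ∀ i c d, Integrable (fun x => ih c d (fm (F i x))) (m i) := by
    intro i c d
    obtain ⟨B, -, hB⟩ := hihb c d
    exact Integrable.of_bound (C := B) (hd.measΨ (ih_continuous c d) i) (hB i)
  -- limits
  have t0 := hd.D_wc a b φ hφ
  have t1 : ∀ c d, Tendsto (fun i => ∫ x, (φ (u i x) * Q c (u i x)) *
      (ih c d (fm (F i x)) * P i x a b d) ∂(m i)) l
      (𝓝 (∫ y, (φ y * Q c y) * (ih c d (fm (h y)) * hd.p a b d y))) := fun c d =>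
    hd.wc_mul (ih_continuous c d) (fun i => hd.P_mem i a b d) (fun i => hd.P_bdd i a b d)
      (hd.p_wc a b d) _ (hφQ c)
  have t2 : ∀ c d, Tendsto (fun i => ∫ x, (φ (u i x) * Q d (u i x)) *
      (ih c d (fm (F i x)) * P i x a b c) ∂(m i)) l
      (𝓝 (∫ y, (φ y * Q d y) * (ih c d (fm (h y)) * hd.p a b c y))) := fun c d =>
    hd.wc_mul (ih_continuous c d) (fun i => hd.P_mem i a b c) (fun i => hd.P_bdd i a b c)
      (hd.p_wc a b c) _ (hφQ d)
  have t3 : ∀ c d, Tendsto (fun i => ∫ x, (φ (u i x) * (Q c (u i x) * Q d (u i x))) *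
      ih c d (fm (F i x)) ∂(m i)) l
      (𝓝 (∫ y, (φ y * (Q c y * Q d y)) * (ih c d (fm (h y)) * Jf (fm (h y))))) := fun c d =>
    hd.wcΨ (ih_continuous c d) _ (hφQQ c d)
  have T : Tendsto (fun i => 2 * ((∫ x, φ (u i x) * D i x a b ∂(m i)) -
      (∑ c, ∑ d, ∫ x, (φ (u i x) * Q c (u i x)) * (ih c d (fm (F i x)) * P i x a b d) ∂(m i)) -
      (∑ c, ∑ d, ∫ x, (φ (u i x) * Q d (u i x)) * (ih c d (fm (F i x)) * P i x a b c) ∂(m i)) +
      ∑ c, ∑ d, ∫ x, (φ (u i x) * (Q c (u i x) * Q d (u i x))) * ih c d (fm (F i x)) ∂(m i))) l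
      (𝓝 (2 * ((∫ y, φ y * hd.De a b y) -
      (∑ c, ∑ d, ∫ y, (φ y * Q c y) * (ih c d (fm (h y)) * hd.p a b d y)) -
      (∑ c, ∑ d, ∫ y, (φ y * Q d y) * (ih c d (fm (h y)) * hd.p a b c y)) +
      ∑ c, ∑ d, ∫ y, (φ y * (Q c y * Q d y)) * (ih c d (fm (h y)) * Jf (fm (h y)))))) := by
    refine (((t0.sub (tendsto_finsetSum _ fun c _ => tendsto_finsetSum _ fun d _ => t1 c d)).sub
      (tendsto_finsetSum _ fun c _ => tendsto_finsetSum _ fun d _ => t2 c d)).add
      (tendsto_finsetSum _ fun c _ => tendsto_finsetSum _ fun d _ => t3 c d)).const_mul 2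
  -- the limit value
  set Bl := 2 * ((∫ y, φ y * hd.De a b y) -
      (∑ c, ∑ d, ∫ y, (φ y * Q c y) * (ih c d (fm (h y)) * hd.p a b d y)) -
      (∑ c, ∑ d, ∫ y, (φ y * Q d y) * (ih c d (fm (h y)) * hd.p a b c y)) +
      ∑ c, ∑ d, ∫ y, (φ y * (Q c y * Q d y)) * (ih c d (fm (h y)) * Jf (fm (h y)))) with hBl
  have hBle : Bl ≤ 4 * Cφ * BJ * (n : ℝ) ^ 2 * η := by
    have j0 : Integrable (fun y => φ y * hd.De a b y) := hφ.integrable_mul (hd.De_li a b)
    have j1 : ∀ c d, Integrable (fun y => (φ y * Q c y) * (ih c d (fm (h y)) * hd.p a b d y)) :=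
      fun c d => (hφQ c).integrable_mul
        (LI.mul_cont (hd.contΨ (ih_continuous c d)) (LI.of_memLp (hd.p_mem a b d)))
    have j2 : ∀ c d, Integrable (fun y => (φ y * Q d y) * (ih c d (fm (h y)) * hd.p a b c y)) :=
      fun c d => (hφQ d).integrable_mul
        (LI.mul_cont (hd.contΨ (ih_continuous c d)) (LI.of_memLp (hd.p_mem a b c)))
    have j3 : ∀ c d, Integrable (fun y => (φ y * (Q c y * Q d y)) *
        (ih c d (fm (h y)) * Jf (fm (h y)))) := fun c d =>
      (hφQQ c d).integrable_mul (LI.of_cont ((hd.contΨ (ih_continuous c d)).mul hd.J_cont))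
    have hqm : ∀ c, MemLp (q c) 2 (volume : Measure (E n)) := fun c =>
      (hq c).memLp_of_hasCompactSupport (hqc c)
    have hsq : ∀ c, Integrable (fun y => (hd.p a b c y - q c y) ^ 2) := fun c =>
      ((hd.p_mem a b c).sub (hqm c)).integrable_sq
    have e1 : Bl = 2 * ∫ y, (φ y * hd.De a b y -
        (∑ c, ∑ d, (φ y * Q c y) * (ih c d (fm (h y)) * hd.p a b d y)) -
        (∑ c, ∑ d, (φ y * Q d y) * (ih c d (fm (h y)) * hd.p a b c y)) +
        ∑ c, ∑ d, (φ y * (Q c y * Q d y)) * (ih c d (fm (h y)) * Jf (fm (h y)))) := by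
      rw [hBl]
      congr 1
      have s1 : Integrable (fun y => ∑ c, ∑ d, (φ y * Q c y) *
          (ih c d (fm (h y)) * hd.p a b d y)) :=
        integrable_finsetSum _ fun c _ => integrable_finsetSum _ fun d _ => j1 c d
      have s2 : Integrable (fun y => ∑ c, ∑ d, (φ y * Q d y) *
          (ih c d (fm (h y)) * hd.p a b c y)) :=
        integrable_finsetSum _ fun c _ => integrable_finsetSum _ fun d _ => j2 c d
      have s3 : Integrable (fun y => ∑ c, ∑ d, (φ y * (Q c y * Q d y)) *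
          (ih c d (fm (h y)) * Jf (fm (h y)))) :=
        integrable_finsetSum _ fun c _ => integrable_finsetSum _ fun d _ => j3 c d
      rw [integral_add (f := fun y => φ y * hd.De a b y -
        (∑ c, ∑ d, (φ y * Q c y) * (ih c d (fm (h y)) * hd.p a b d y)) -
        (∑ c, ∑ d, (φ y * Q d y) * (ih c d (fm (h y)) * hd.p a b c y))) ((j0.sub s1).sub s2) s3,
        integral_sub (f := fun y => φ y * hd.De a b y -
        (∑ c, ∑ d, (φ y * Q c y) * (ih c d (fm (h y)) * hd.p a b d y))) (j0.sub s1) s2,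
        integral_sub j0 s1,
        integral_finsetSum _ fun c _ => integrable_finsetSum _ fun d _ => j1 c d,
        integral_finsetSum _ fun c _ => integrable_finsetSum _ fun d _ => j2 c d,
        integral_finsetSum _ fun c _ => integrable_finsetSum _ fun d _ => j3 c d]
      congr 1
      · congr 1
        · congr 1
          exact Finset.sum_congr rfl fun c _ => (integral_finsetSum _ fun d _ => j1 c d).symm
        · exact Finset.sum_congr rfl fun c _ => (integral_finsetSum _ fun d _ => j2 c d).symm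
      · exact Finset.sum_congr rfl fun c _ => (integral_finsetSum _ fun d _ => j3 c d).symm
    have e2 : ∀ y, φ y * hd.De a b y -
        (∑ c, ∑ d, (φ y * Q c y) * (ih c d (fm (h y)) * hd.p a b d y)) -
        (∑ c, ∑ d, (φ y * Q d y) * (ih c d (fm (h y)) * hd.p a b c y)) +
        (∑ c, ∑ d, (φ y * (Q c y * Q d y)) * (ih c d (fm (h y)) * Jf (fm (h y)))) ≤
        ∑ c, ∑ d, Cφ * BJ * ((hd.p a b c y - q c y) ^ 2 + (hd.p a b d y - q d y) ^ 2) := by
      intro y
      by_cases hz : φ y = 0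
      · simp only [hz, zero_mul, Finset.sum_const_zero, sub_zero, add_zero]
        exact Finset.sum_nonneg fun c _ => Finset.sum_nonneg fun d _ => by positivity
      · have hy : y ∈ Ω := hφ.mem_of_ne hz
        have hJ := hd.J_pos hy
        rw [hd.De_eq a b y]
        rw [Finset.mul_sum, ← Finset.sum_sub_distrib, ← Finset.sum_sub_distrib,
          ← Finset.sum_add_distrib]
        refine Finset.sum_le_sum fun c _ => ?_
        rw [Finset.mul_sum, ← Finset.sum_sub_distrib, ← Finset.sum_sub_distrib,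
          ← Finset.sum_add_distrib]
        refine Finset.sum_le_sum fun d _ => ?_
        rw [hd.ih_h hy]
        have e3 : φ y * (((Jf (fm (h y)))⁻¹ * (h y)⁻¹ c d) * (hd.p a b c y * hd.p a b d y)) -
            (φ y * Q c y) * ((h y)⁻¹ c d * hd.p a b d y) -
            (φ y * Q d y) * ((h y)⁻¹ c d * hd.p a b c y) +
            (φ y * (Q c y * Q d y)) * ((h y)⁻¹ c d * Jf (fm (h y))) =
            φ y * (Jf (fm (h y)))⁻¹ * ((h y)⁻¹ c d *
              ((hd.p a b c y - q c y) * (hd.p a b d y - q d y))) := by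
          simp only [hQ]
          field_simp
          ring
        rw [e3]
        have b1 : |φ y * (Jf (fm (h y)))⁻¹| ≤ Cφ * BJ := by
          rw [abs_mul]
          exact mul_le_mul (hCφ y) (hBJ y hy) (abs_nonneg _) hCφ0
        have b2 : |(h y)⁻¹ c d * ((hd.p a b c y - q c y) * (hd.p a b d y - q d y))| ≤
            (hd.p a b c y - q c y) ^ 2 + (hd.p a b d y - q d y) ^ 2 := by
          rw [abs_mul]
          have b3 : |(h y)⁻¹ c d| ≤ 2 := inv_le_two (A := fm (h y)) (hd.nIh4 hy) c d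
          have b4 : |(hd.p a b c y - q c y) * (hd.p a b d y - q d y)| ≤
              ((hd.p a b c y - q c y) ^ 2 + (hd.p a b d y - q d y) ^ 2) / 2 := by
            rw [abs_le]
            constructor <;> nlinarith [sq_nonneg ((hd.p a b c y - q c y) +
              (hd.p a b d y - q d y)), sq_nonneg ((hd.p a b c y - q c y) -
              (hd.p a b d y - q d y))]
          calc |(h y)⁻¹ c d| * |(hd.p a b c y - q c y) * (hd.p a b d y - q d y)|
              ≤ 2 * (((hd.p a b c y - q c y) ^ 2 + (hd.p a b d y - q d y) ^ 2) / 2) :=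
                mul_le_mul b3 b4 (abs_nonneg _) (by norm_num)
            _ = _ := by ring
        calc φ y * (Jf (fm (h y)))⁻¹ * ((h y)⁻¹ c d *
              ((hd.p a b c y - q c y) * (hd.p a b d y - q d y)))
            ≤ |φ y * (Jf (fm (h y)))⁻¹ * ((h y)⁻¹ c d *
              ((hd.p a b c y - q c y) * (hd.p a b d y - q d y)))| := le_abs_self _
          _ ≤ _ := by
              rw [abs_mul]
              exact mul_le_mul b1 b2 (abs_nonneg _) (by positivity)
    have s4 : Integrable (fun y => ∑ c, ∑ d, Cφ * BJ *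
        ((hd.p a b c y - q c y) ^ 2 + (hd.p a b d y - q d y) ^ 2)) :=
      integrable_finsetSum _ fun c _ => integrable_finsetSum _ fun d _ =>
        ((hsq c).add (hsq d)).const_mul _
    have s5 : Integrable (fun y => φ y * hd.De a b y -
        (∑ c, ∑ d, (φ y * Q c y) * (ih c d (fm (h y)) * hd.p a b d y)) -
        (∑ c, ∑ d, (φ y * Q d y) * (ih c d (fm (h y)) * hd.p a b c y)) +
        ∑ c, ∑ d, (φ y * (Q c y * Q d y)) * (ih c d (fm (h y)) * Jf (fm (h y)))) :=
      ((j0.sub (integrable_finsetSum _ fun c _ => integrable_finsetSum _ fun d _ => j1 c d)).sub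
        (integrable_finsetSum _ fun c _ => integrable_finsetSum _ fun d _ => j2 c d)).add
        (integrable_finsetSum _ fun c _ => integrable_finsetSum _ fun d _ => j3 c d)
    rw [e1]
    have e5 := integral_mono s5 s4 e2
    have e6 : ∫ y, ∑ c, ∑ d, Cφ * BJ *
        ((hd.p a b c y - q c y) ^ 2 + (hd.p a b d y - q d y) ^ 2) ≤
        ∑ _c : Fin n, ∑ _d : Fin n, Cφ * BJ * (η + η) := by
      have hs2 : ∀ c d, Integrable (fun y => Cφ * BJ *
          ((hd.p a b c y - q c y) ^ 2 + (hd.p a b d y - q d y) ^ 2)) := fun c d =>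
        ((hsq c).add (hsq d)).const_mul _
      rw [integral_finsetSum _ fun c _ => integrable_finsetSum _ fun d _ => hs2 c d]
      refine Finset.sum_le_sum fun c _ => ?_
      rw [integral_finsetSum _ fun d _ => hs2 c d]
      refine Finset.sum_le_sum fun d _ => ?_
      rw [integral_const_mul, integral_add (hsq c) (hsq d)]
      exact mul_le_mul_of_nonneg_left (add_le_add (hqη c) (hqη d)) (by positivity)
    have e7 : ∑ _c : Fin n, ∑ _d : Fin n, Cφ * BJ * (η + η) =
        2 * Cφ * BJ * (n : ℝ) ^ 2 * η := by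
      simp only [Finset.sum_const, Finset.card_univ, Fintype.card_fin, nsmul_eq_mul]
      ring
    linarith
  have hlt : ∀ᶠ i in l, 2 * ((∫ x, φ (u i x) * D i x a b ∂(m i)) -
      (∑ c, ∑ d, ∫ x, (φ (u i x) * Q c (u i x)) * (ih c d (fm (F i x)) * P i x a b d) ∂(m i)) -
      (∑ c, ∑ d, ∫ x, (φ (u i x) * Q d (u i x)) * (ih c d (fm (F i x)) * P i x a b c) ∂(m i)) +
      ∑ c, ∑ d, ∫ x, (φ (u i x) * (Q c (u i x) * Q d (u i x))) * ih c d (fm (F i x)) ∂(m i)) <
      (4 * Cφ * BJ * (n : ℝ) ^ 2 + 1) * η := by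
    refine T.eventually (gt_mem_nhds ?_)
    have : (4 * Cφ * BJ * (n : ℝ) ^ 2 + 1) * η = 4 * Cφ * BJ * (n : ℝ) ^ 2 * η + η := by ring
    rw [this]
    linarith
  filter_upwards [hlt] with i hi
  refine le_trans ?_ hi.le
  -- pointwise inequality
  have k0 : Integrable (fun x => φ (u i x) * D i x a b) (m i) :=
    hφ.integrable_comp hd.base (hd.D_int i a b)
  have k1 : ∀ c d, Integrable (fun x => (φ (u i x) * Q c (u i x)) *
      (ih c d (fm (F i x)) * P i x a b d)) (m i) := fun c d =>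
    (hφQ c).integrable_comp hd.base (hihP i c d d)
  have k2 : ∀ c d, Integrable (fun x => (φ (u i x) * Q d (u i x)) *
      (ih c d (fm (F i x)) * P i x a b c)) (m i) := fun c d =>
    (hφQ d).integrable_comp hd.base (hihP i c d c)
  have k3 : ∀ c d, Integrable (fun x => (φ (u i x) * (Q c (u i x) * Q d (u i x))) *
      ih c d (fm (F i x))) (m i) := fun c d => (hφQQ c d).integrable_comp hd.base (hihi i c d)
  have s1 : Integrable (fun x => ∑ c, ∑ d, (φ (u i x) * Q c (u i x)) *
      (ih c d (fm (F i x)) * P i x a b d)) (m i) :=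
    integrable_finsetSum _ fun c _ => integrable_finsetSum _ fun d _ => k1 c d
  have s2 : Integrable (fun x => ∑ c, ∑ d, (φ (u i x) * Q d (u i x)) *
      (ih c d (fm (F i x)) * P i x a b c)) (m i) :=
    integrable_finsetSum _ fun c _ => integrable_finsetSum _ fun d _ => k2 c d
  have s3 : Integrable (fun x => ∑ c, ∑ d, (φ (u i x) * (Q c (u i x) * Q d (u i x))) *
      ih c d (fm (F i x))) (m i) :=
    integrable_finsetSum _ fun c _ => integrable_finsetSum _ fun d _ => k3 c d
  have e1 : 2 * ((∫ x, φ (u i x) * D i x a b ∂(m i)) -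
      (∑ c, ∑ d, ∫ x, (φ (u i x) * Q c (u i x)) * (ih c d (fm (F i x)) * P i x a b d) ∂(m i)) -
      (∑ c, ∑ d, ∫ x, (φ (u i x) * Q d (u i x)) * (ih c d (fm (F i x)) * P i x a b c) ∂(m i)) +
      ∑ c, ∑ d, ∫ x, (φ (u i x) * (Q c (u i x) * Q d (u i x))) * ih c d (fm (F i x)) ∂(m i)) =
      ∫ x, 2 * (φ (u i x) * D i x a b -
      (∑ c, ∑ d, (φ (u i x) * Q c (u i x)) * (ih c d (fm (F i x)) * P i x a b d)) -
      (∑ c, ∑ d, (φ (u i x) * Q d (u i x)) * (ih c d (fm (F i x)) * P i x a b c)) +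
      ∑ c, ∑ d, (φ (u i x) * (Q c (u i x) * Q d (u i x))) * ih c d (fm (F i x))) ∂(m i) := by
    rw [integral_const_mul]
    congr 1
    rw [integral_add (f := fun x => φ (u i x) * D i x a b -
      (∑ c, ∑ d, (φ (u i x) * Q c (u i x)) * (ih c d (fm (F i x)) * P i x a b d)) -
      (∑ c, ∑ d, (φ (u i x) * Q d (u i x)) * (ih c d (fm (F i x)) * P i x a b c)))
      ((k0.sub s1).sub s2) s3,
      integral_sub (f := fun x => φ (u i x) * D i x a b -
      (∑ c, ∑ d, (φ (u i x) * Q c (u i x)) * (ih c d (fm (F i x)) * P i x a b d)))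
      (k0.sub s1) s2, integral_sub k0 s1,
      integral_finsetSum _ fun c _ => integrable_finsetSum _ fun d _ => k1 c d,
      integral_finsetSum _ fun c _ => integrable_finsetSum _ fun d _ => k2 c d,
      integral_finsetSum _ fun c _ => integrable_finsetSum _ fun d _ => k3 c d]
    congr 1
    · congr 1
      · congr 1
        exact Finset.sum_congr rfl fun c _ => (integral_finsetSum _ fun d _ => k1 c d).symm
      · exact Finset.sum_congr rfl fun c _ => (integral_finsetSum _ fun d _ => k2 c d).symm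
    · exact Finset.sum_congr rfl fun c _ => (integral_finsetSum _ fun d _ => k3 c d).symm
  rw [e1]
  apply integral_mono_of_nonneg
  · refine Eventually.of_forall fun x => ?_
    exact mul_nonneg (hφ0 _) (mul_nonneg (chi_nonneg _) (Finset.sum_nonneg fun c _ => sq_nonneg _))
  · exact (((k0.sub s1).sub s2).add s3).const_mul 2
  · filter_upwards [hd.H9D i, hd.D_nonneg i a b] with x hx hxD
    show φ (u i x) * (chi (fm (F i x)) * ∑ c, (P i x a b c - Q c (u i x)) ^ 2) ≤ _
    have hφx := hφ0 (u i x)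
    have hfac : 2 * (φ (u i x) * D i x a b -
        (∑ c, ∑ d, (φ (u i x) * Q c (u i x)) * (ih c d (fm (F i x)) * P i x a b d)) -
        (∑ c, ∑ d, (φ (u i x) * Q d (u i x)) * (ih c d (fm (F i x)) * P i x a b c)) +
        ∑ c, ∑ d, (φ (u i x) * (Q c (u i x) * Q d (u i x))) * ih c d (fm (F i x))) =
        φ (u i x) * (2 * (D i x a b + ∑ c, ∑ d, ih c d (fm (F i x)) *
          (Q c (u i x) * Q d (u i x) - Q c (u i x) * P i x a b d -
            P i x a b c * Q d (u i x)))) := by
      have y1 : ∀ (A B : Fin n → Fin n → ℝ) , (∑ c, ∑ d, A c d) - (∑ c, ∑ d, B c d) =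
          ∑ c, ∑ d, (A c d - B c d) := fun A B => by
        simp only [Finset.sum_sub_distrib]
      have y2 : ∀ (A B : Fin n → Fin n → ℝ) , (∑ c, ∑ d, A c d) + (∑ c, ∑ d, B c d) =
          ∑ c, ∑ d, (A c d + B c d) := fun A B => by
        simp only [Finset.sum_add_distrib]
      have y3 : ∀ (t : ℝ) (A : Fin n → Fin n → ℝ) , t * (∑ c, ∑ d, A c d) =
          ∑ c, ∑ d, t * A c d := fun t A => by
        simp only [Finset.mul_sum]
      have y4 : ∀ (t A B Cc : ℝ), 2 * (t - A - B + Cc) = 2 * t + 2 * (Cc - A - B) := by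
        intros; ring
      rw [y4, y1, y1, mul_add 2 (D i x a b), mul_add (φ (u i x)), y3, y3, y3]
      congr 1
      · ring
      · refine Finset.sum_congr rfl fun c _ => Finset.sum_congr rfl fun d _ => ?_
        ring
    rw [hfac]
    refine mul_le_mul_of_nonneg_left ?_ hφx
    by_cases hn : nI (fm (F i x)) ≤ 1 / 4
    · have hD := hx hn a b
      have hco := coercive hn (fun c => P i x a b c - Q c (u i x))
      have hchi0 := chi_nonneg (fm (F i x))
      have hchi1 := chi_le_one (fm (F i x))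
      have step1 : chi (fm (F i x)) * ∑ c, (P i x a b c - Q c (u i x)) ^ 2 ≤
          chi (fm (F i x)) * (2 * ∑ c, ∑ d, (Matrix.of (fm (F i x)))⁻¹ c d *
            ((P i x a b c - Q c (u i x)) * (P i x a b d - Q d (u i x)))) :=
        mul_le_mul_of_nonneg_left hco hchi0
      have step2 : chi (fm (F i x)) * (2 * ∑ c, ∑ d, (Matrix.of (fm (F i x)))⁻¹ c d *
            ((P i x a b c - Q c (u i x)) * (P i x a b d - Q d (u i x)))) =
          2 * (chi (fm (F i x)) * D i x a b + ∑ c, ∑ d, ih c d (fm (F i x)) *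
          (Q c (u i x) * Q d (u i x) - Q c (u i x) * P i x a b d -
            P i x a b c * Q d (u i x))) := by
        rw [hD, mul_left_comm]
        congr 1
        rw [Finset.mul_sum, Finset.mul_sum, ← Finset.sum_add_distrib]
        refine Finset.sum_congr rfl fun c _ => ?_
        rw [Finset.mul_sum, Finset.mul_sum, ← Finset.sum_add_distrib]
        refine Finset.sum_congr rfl fun d _ => ?_
        have : (F i x)⁻¹ c d = (Matrix.of (fm (F i x)))⁻¹ c d := rfl
        rw [this]
        unfold ih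
        ring
      rw [step2] at step1
      refine step1.trans ?_
      have : chi (fm (F i x)) * D i x a b ≤ D i x a b := by nlinarith
      linarith
    · push Not at hn
      have hz : chi (fm (F i x)) = 0 := chi_zero hn.le
      have : ∀ c d, ih c d (fm (F i x)) = 0 := fun c d => by unfold ih; rw [hz, zero_mul]
      simp only [hz, zero_mul, this, Finset.sum_const_zero, add_zero]
      linarith

end LData

end main

end Crest.Agent.R249.Lim41
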