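import Crest.Agent.R249.LimE2_621

/-!
# Row 249, part A2 v3: the limit passage for `Ob`, domain restricted version, file 2
-/

set_option autoImplicit false
set_option linter.unusedVariables false
set_option linter.unusedSectionVars false

open Set Filter Topology
open scoped ContDiff

namespace Crest.Agent.R249.LimF621

open Crest.Agent.R249.Lim621 Crest.Agent.R249.LimG621 Crest.Agent.R249.LimE621
  Crest.Agent.R249.PenH_806

variable {E H : Type*} [NormedAddCommGroup E] [InnerProductSpace ℝ E]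
  [NormedAddCommGroup H] [NormedSpace ℝ H]

variable {g B : ℝ}

/-- weight four Lipschitz condition for base points in `D`, pairs in relation `RelE`. -/
def LipD (D : Set (ℝ × ℝ)) (C : ℝ) (I : Jet E H → ℝ) : Prop :=
  ∀ (ε : ℝ) (j j' : Jet E H), 0 ≤ ε → ε ≤ 1 → (j.f, j.g) ∈ D → (j'.f, j'.g) ∈ D → RelE ε j j' →
    |I j - I j'| ≤ C * Lim621.Mod ε j j'

/-- the domain `{k ≥ -ε₂}` -/
def DomO (O : Ob g B) (ε2 : ℝ) : Set (ℝ × ℝ) :=
  {p | g ≤ p.1 ∧ p.1 ≤ B ∧ g ≤ p.2 ∧ p.2 ≤ B ∧ -ε2 ≤ O.k p.1 p.2}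

/-- **The pointwise inequality.** -/
theorem pointwiseF (tr : H →L[ℝ] ℝ) (Sy : Submodule ℝ H) (one : H) (h1 : tr one = 1)
    (hone : one ∈ Sy) (O : Ob g B) (hΓ : g < O.Γ 0) {F : ℝ → ℝ} {A c0 CI CO CR : ℝ}
    (hA : Bds O F A) (hc0 : 0 ≤ c0) {ε2 : ℝ} (hε2 : 0 < ε2)
    (I Om R : Jet E H → ℝ) (hI : LipD (DomO O ε2) CI I) (hO : LipD (DomO O ε2) CO Om)
    (hR : LipD (DomO O ε2) CR R) (hCI : 0 ≤ CI) (hCO : 0 ≤ CO) (hCR : 0 ≤ CR)
    (hC : CertE tr Sy O F c0 I Om R) :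
    ∃ K ε1 : ℝ, 0 < K ∧ 0 < ε1 ∧ ∀ (θ : ℝ), 0 < θ → θ ≤ 1 →
      ∀ (j : Jet E H) (m m' r r' e ε l : ℝ), g ≤ j.f → j.f ≤ B → g ≤ j.g → j.g ≤ B →
      j.P ∈ Sy → j.Q ∈ Sy → 0 ≤ ε → ε ≤ ε1 → ε ≤ θ → -ε ≤ O.k j.f j.g →
      tr j.P = F j.f + m + r → tr j.Q = F j.g + m' + r' →
      0 ≤ m → 0 ≤ m' → 0 ≤ e → 0 ≤ l →
      (ε < O.k j.f j.g → m = 0 ∧ m' = 0) → (O.k j.f j.g ≤ ε → ‖LvE O j‖ ≤ l) →
      (O.k j.f j.g ≤ ε → -O.k1 j.f j.g * m + -O.k2 j.f j.g * m' ≤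
        max (EkE O F j) 0 + c0 + e) →
      Om j ≤ I j + R j + K * Er θ (j.W + e + |r| + |r'|) l e r r' := by
  obtain ⟨ε0, K, hε0, hK1, hK⟩ := zoneE (E := E) tr one h1 O hΓ hA hc0
  obtain ⟨K', hK'⟩ : ∃ K', K' = K + 2 + ‖one‖ := ⟨_, rfl⟩
  have hn0 := norm_nonneg one
  have hK'1 : 1 ≤ K' := by rw [hK']; linarith
  have hKK' : K ≤ K' := by rw [hK']; linarith
  have hK0 : 0 < K := by linarith
  have hK'0 : 0 < K' := by linarith
  refine ⟨16 * K' ^ 3 * (CI + CO + CR) + 1, min (min ε0 ε2) K'⁻¹, by positivity,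
    lt_min (lt_min hε0 hε2) (by positivity), ?_⟩
  intro θ hθ hθ1 j m m' r r' e ε l hf hfu hh hhu hPS hQS hε hεε hεθ hk htP htQ hm hm' he hl hoff
    hL hS
  have hεε0 : ε ≤ ε0 := hεε.trans ((min_le_left _ _).trans (min_le_left _ _))
  have hεε2 : ε ≤ ε2 := hεε.trans ((min_le_left _ _).trans (min_le_right _ _))
  have hjD : (j.f, j.g) ∈ DomO O ε2 := ⟨hf, hfu, hh, hhu, by show -ε2 ≤ O.k j.f j.g; linarith⟩
  have hεK : K' * ε ≤ 1 := by
    have : ε ≤ K'⁻¹ := hεε.trans (min_le_right _ _)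
    calc K' * ε ≤ K' * K'⁻¹ := mul_le_mul_of_nonneg_left this hK'0.le
      _ = 1 := mul_inv_cancel₀ hK'0.ne'
  have hW0 := j.W_nonneg
  have hW1 := j.one_le_W
  obtain ⟨Z, hZ⟩ : ∃ Z, Z = j.W + e + |r| + |r'| := ⟨_, rfl⟩
  have har := abs_nonneg r
  have har' := abs_nonneg r'
  have hZ0 : 0 ≤ Z := by rw [hZ]; positivity
  have hWZ : j.W ≤ Z := by rw [hZ]; linarith
  rw [← hZ]
  have hEr0 : 0 ≤ Er θ Z l e r r' := by unfold Er; positivity
  have hlw0 : 0 ≤ l * Real.sqrt j.W := by positivity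
  -- the common conclusion
  have concl : ∀ j' : Jet E H, (j'.f, j'.g) ∈ DomO O ε2 → RelE (K' * ε) j j' →
      ‖j.p - j'.p‖ + ‖j.q - j'.q‖ ≤ K' * (l + ε * Real.sqrt j.W) →
      ‖j.P - j'.P‖ + ‖j.Q - j'.Q‖ ≤ K' * (ε * j.W + e + |r| + |r'|) →
      j.W + j'.W ≤ K' * Z → Om j' ≤ I j' + R j' →
      Om j ≤ I j + R j + (16 * K' ^ 3 * (CI + CO + CR) + 1) * Er θ Z l e r r' := by
    intro j' hj'D hrel hdp hdP hWW hcert
    have hV0 : 0 ≤ j.W + j'.W := add_nonneg hW0 j'.W_nonneg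
    have hd' : ‖j.P - j'.P‖ + ‖j.Q - j'.Q‖ ≤
        K' * (ε * j.W + l * Real.sqrt j.W + e + |r| + |r'|) :=
      hdP.trans (mul_le_mul_of_nonneg_left (by linarith) hK'0.le)
    have h3 := three_terms hK'1 hZ0 hθ hθ1 hε hεθ hl (by positivity) he hW0
      hWZ hV0 hWW hd'
    have h4 := mod_le (j := j) (j' := j') hK'1 hε hl hW0
      (by have := j'.W_nonneg; linarith : j.W ≤ j.W + j'.W) rfl hV0 hdp rfl (by positivity)
    have hX : Lim621.Mod (K' * ε) j j' ≤ 16 * K' ^ 3 * Er θ Z l e r r' := by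
      refine h4.trans ?_
      calc 2 * K' * (ε * (j.W + j'.W) ^ 2 + l * ((j.W + j'.W) * Real.sqrt (j.W + j'.W)) +
            (‖j.P - j'.P‖ + ‖j.Q - j'.Q‖) * (j.W + j'.W)) ≤
          2 * K' * (8 * K' ^ 2 * Er θ Z l e r r') := mul_le_mul_of_nonneg_left h3 (by positivity)
        _ = _ := by ring
    have hε' : 0 ≤ K' * ε := by positivity
    have eI := (hI _ j j' hε' hεK hjD hj'D hrel).trans
      (mul_le_mul_of_nonneg_left hX hCI)
    have eO := (hO _ j j' hε' hεK hjD hj'D hrel).trans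
      (mul_le_mul_of_nonneg_left hX hCO)
    have eR := (hR _ j j' hε' hεK hjD hj'D hrel).trans
      (mul_le_mul_of_nonneg_left hX hCR)
    have eI' := (abs_le.mp eI).1
    have eO' := (abs_le.mp eO).2
    have eR' := (abs_le.mp eR).1
    linarith
  rcases le_or_gt (O.k j.f j.g) ε with hz | hz
  · -- contact zone
    obtain ⟨j', m1, m1', a1, a2, a3, a4, a7, a8, a9, a10, a11, a12, a13, ⟨α, α', a14, a15⟩,
      ⟨a16, a16', a16''⟩, a17, a18, a19⟩ := hK j m m' r r' e ε hf hfu hh hhu hε hεε0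
        (abs_le.mpr ⟨hk, hz⟩) htP htQ hm hm' he (hS hz)
    have hc := hC j' m1 m1' a1 a2 a3 a4
      (by rw [a14]; exact Sy.add_mem hPS (Sy.smul_mem _ hone))
      (by rw [a15]; exact Sy.add_mem hQS (Sy.smul_mem _ hone)) a7.ge a9 a10
      (Or.inr ⟨a7, a8, a11, a12, a13⟩)
    have hKε : K * ε ≤ K' * ε := mul_le_mul_of_nonneg_right hKK' hε
    refine concl j' ⟨a1, a2, a3, a4, by show -ε2 ≤ O.k j'.f j'.g; rw [a7]; linarith⟩
      ⟨a16, a16'.trans hKε, a16''.trans hKε⟩ ?_ ?_ ?_ hc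
    · refine a17.trans ?_
      have hLl := hL hz
      have h5 : 0 ≤ ε * Real.sqrt j.W := by positivity
      exact mul_le_mul hKK' (by linarith) (by positivity) hK'0.le
    · refine a18.trans (mul_le_mul_of_nonneg_right hKK' (by positivity))
    · refine a19.trans ?_
      rw [hZ]
      exact mul_le_mul_of_nonneg_right hKK' (by positivity)
  · -- off the contact zone
    obtain ⟨hm0, hm0'⟩ := hoff hz
    have hc := hC ⟨j.f, j.g, j.p, j.q, j.P + (-r) • one, j.Q + (-r') • one⟩ 0 0 hf hfu hh hhu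
      (Sy.add_mem hPS (Sy.smul_mem _ hone)) (Sy.add_mem hQS (Sy.smul_mem _ hone))
      (hε.trans hz.le)
      (by simp only [map_add, map_smul, h1, htP, hm0, smul_eq_mul]; ring)
      (by simp only [map_add, map_smul, h1, htQ, hm0', smul_eq_mul]; ring)
      (Or.inl ⟨rfl, rfl⟩)
    have hPn : ‖j.P - (j.P + (-r) • one)‖ = |r| * ‖one‖ := by
      rw [sub_add_cancel_left, norm_neg, norm_smul, Real.norm_eq_abs, abs_neg]
    have hQn : ‖j.Q - (j.Q + (-r') • one)‖ = |r'| * ‖one‖ := by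
      rw [sub_add_cancel_left, norm_neg, norm_smul, Real.norm_eq_abs, abs_neg]
    refine concl ⟨j.f, j.g, j.p, j.q, j.P + (-r) • one, j.Q + (-r') • one⟩ hjD
      ⟨rfl, ?_, ?_⟩ ?_ ?_ ?_ hc
    · show |j.f - j.f| ≤ K' * ε
      rw [sub_self, abs_zero]; positivity
    · show |j.g - j.g| ≤ K' * ε
      rw [sub_self, abs_zero]; positivity
    · show ‖j.p - j.p‖ + ‖j.q - j.q‖ ≤ _
      simp only [sub_self, norm_zero, add_zero]
      positivity
    · show ‖j.P - (j.P + (-r) • one)‖ + ‖j.Q - (j.Q + (-r') • one)‖ ≤ _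
      rw [hPn, hQn, ← add_mul]
      have hnK : ‖one‖ ≤ K' := by rw [hK']; linarith
      have h5 : 0 ≤ ε * j.W := by positivity
      calc (|r| + |r'|) * ‖one‖ ≤ (|r| + |r'|) * K' := mul_le_mul_of_nonneg_left hnK (by positivity)
        _ = K' * (|r| + |r'|) := by ring
        _ ≤ _ := mul_le_mul_of_nonneg_left (by linarith) (by linarith)
    · show j.W + (1 + ‖j.p‖ ^ 2 + ‖j.q‖ ^ 2 + ‖j.P + (-r) • one‖ + ‖j.Q + (-r') • one‖) ≤ K' * Z
      have hP' : ‖j.P + (-r) • one‖ ≤ ‖j.P‖ + |r| * ‖one‖ := by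
        refine (norm_add_le _ _).trans ?_
        rw [norm_smul, Real.norm_eq_abs, abs_neg]
      have hQ' : ‖j.Q + (-r') • one‖ ≤ ‖j.Q‖ + |r'| * ‖one‖ := by
        refine (norm_add_le _ _).trans ?_
        rw [norm_smul, Real.norm_eq_abs, abs_neg]
      have hWd : j.W = 1 + ‖j.p‖ ^ 2 + ‖j.q‖ ^ 2 + ‖j.P‖ + ‖j.Q‖ := rfl
      have h7 : (|r| + |r'|) * ‖one‖ ≤ Z * ‖one‖ := by
        apply mul_le_mul_of_nonneg_right _ hn0
        rw [hZ]; linarith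
      have h8 : K' * Z = K * Z + 2 * Z + Z * ‖one‖ := by rw [hK']; ring
      have h9 : 0 ≤ K * Z := by positivity
      rw [h8]
      linarith

end Crest.Agent.R249.LimF621
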