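import Crest.Agent.R249.PenI_806

/-!
R249, part A2 v3 (helper806), file 4: the data `DatG` of the penalisation from `STC`.
-/

set_option autoImplicit false
set_option linter.unusedVariables false
set_option linter.unusedSectionVars false

open MeasureTheory Set Filter Topology Matrix
open scoped ContDiff

noncomputable section

namespace Crest.Agent.R249.PenH_806

open Calc_806 Calc_806.Calc Pen_806 PenG_806

variable {X : Type*} [TopologicalSpace X] [CompactSpace X] [MeasurableSpace X]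
  [OpensMeasurableSpace X] {μ : Measure X} [IsFiniteMeasure μ]

/-- the hypotheses on the obstacle region and the nonlinearity. -/
structure Adm {g B : ℝ} (O : Ob g B) (f : ℝ → ℝ) : Prop where
  smooth : ContDiff ℝ ∞ f
  g_lt : g < 1
  B_ge : 63 / 50 ≤ B
  fg : f g ≤ 0
  fle : ∀ u, g ≤ u → u ≤ B → f u ≤ (2 / 3) * (u * (1 - u ^ 3))
  region : ∀ u v, 0 ≤ u → 0 ≤ v → u ^ 3 + v ^ 3 < 2 → 0 < O.k (max u g) (max v g)

lemma Ob.k_anti' {g B : ℝ} (O : Ob g B) {u u' v v' : ℝ} (h1 : g ≤ u') (h2 : u' ≤ u) (h3 : u ≤ B)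
    (h4 : g ≤ v') (h5 : v' ≤ v) (h6 : v ≤ B) : O.k u v ≤ O.k u' v' := by
  have a1 := O.k_anti h1 h2 h3 (h4.trans h5) h6
  have a2 := O.k_anti2 h4 h5 h6 h1 (h2.trans h3)
  have b1 := mul_nonneg O.c_pos.le (sub_nonneg.2 h2)
  have b2 := mul_nonneg O.c_pos.le (sub_nonneg.2 h5)
  linarith

lemma reg_ge {d : ℝ} (hd : 0 < d) (hd8 : d ≤ 1 / 8) {F : X → ℝ} (hF : ∀ x, 0 ≤ F x) (x : X)
    (h2 : Real.sqrt (F x) ≤ 2) : (F x) ^ (1 / 6 : ℝ) - 4 * d ≤ reg d F x := by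
  have t1 := th3_ge hd hd8
  have t2 := th3_le hd
  have t3 := one_sub_th3 hd
  have h0 := hF x
  have h3 : (F x) ^ (1 / 6 : ℝ) ≤ (F x + d ^ 2) ^ (1 / 6 : ℝ) :=
    Real.rpow_le_rpow h0 (by nlinarith) (by norm_num)
  have h4 : th3 d ≤ th3 d ^ (1 / 3 : ℝ) := by
    have := Real.rpow_le_rpow_of_exponent_ge (by linarith : 0 < th3 d) t2
      (by norm_num : (1 / 3 : ℝ) ≤ 1)
    rwa [Real.rpow_one] at this
  have h5 : 0 ≤ (F x) ^ (1 / 6 : ℝ) := Real.rpow_nonneg h0 _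
  have h6 : (F x) ^ (1 / 6 : ℝ) ≤ 63 / 50 := by
    refine cube_le_63 h5 ?_
    rw [six_rpow h0]
    exact h2
  have h7 : 0 < th3 d ^ (1 / 3 : ℝ) := Real.rpow_pos_of_pos (by linarith) _
  unfold reg
  have h8 : th3 d ^ (1 / 3 : ℝ) * (F x) ^ (1 / 6 : ℝ) ≤
      th3 d ^ (1 / 3 : ℝ) * (F x + d ^ 2) ^ (1 / 6 : ℝ) := mul_le_mul_of_nonneg_left h3 h7.le
  have h9 : th3 d * (F x) ^ (1 / 6 : ℝ) ≤ th3 d ^ (1 / 3 : ℝ) * (F x) ^ (1 / 6 : ℝ) :=
    mul_le_mul_of_nonneg_right h4 h5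
  nlinarith

/-- **the data of the penalisation**. -/
theorem exists_datG {C : Calc X μ} {g B : ℝ} {O : Ob g B} {f : ℝ → ℝ} (A : Adm O f)
    {F₁ F₂ : X → ℝ} (H₁ : STC C F₁) (H₂ : STC C F₂)
    (hs : ∀ x, Real.sqrt (F₁ x) + Real.sqrt (F₂ x) ≤ 2) {δ : ℝ} (hδ : 0 < δ) :
    ∃ t₀ : ℝ, 0 < t₀ ∧ ∃ φ₀ ψ₀ : X → ℝ, DatG C O f δ t₀ φ₀ ψ₀ ∧
      (∀ x, (F₁ x) ^ (1 / 6 : ℝ) ≤ φ₀ x + δ) ∧ (∀ x, (F₂ x) ^ (1 / 6 : ℝ) ≤ ψ₀ x + δ) := by
  have g0 := O.g_pos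
  have g1 := A.g_lt
  have hB0 : 0 < B := by linarith [A.B_ge]
  obtain ⟨Ld, hLd, hlip⟩ := exists_lip A.smooth g B
  -- choice of `ε₁`, `d`
  obtain ⟨ε₁, hε₁, a1, a2, a3⟩ : ∃ ε₁ : ℝ, 0 < ε₁ ∧ ε₁ ≤ 1 - g ∧ Ld * ε₁ ≤ δ / 2 ∧ ε₁ ≤ δ / 2 := by
    refine ⟨min (1 - g) (min (δ / 2 / Ld) (δ / 2)), by
      refine lt_min (by linarith) (lt_min (by positivity) (by positivity)), min_le_left _ _, ?_, ?_⟩
    · have h1 : min (1 - g) (min (δ / 2 / Ld) (δ / 2)) ≤ δ / 2 / Ld :=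
        (min_le_right _ _).trans (min_le_left _ _)
      calc Ld * _ ≤ Ld * (δ / 2 / Ld) := mul_le_mul_of_nonneg_left h1 hLd.le
        _ = δ / 2 := by field_simp
    · exact (min_le_right _ _).trans (min_le_right _ _)
  set c0 : ℝ := 6 * B + (g ^ 5)⁻¹ with hc0
  have c0p : 0 < c0 := by positivity
  obtain ⟨d, hd, b1, b2, b3⟩ : ∃ d : ℝ, 0 < d ∧ d ≤ 1 / 8 ∧ c0 * d ≤ δ / 2 ∧ 4 * d ≤ δ / 2 := by
    refine ⟨min (1 / 8) (min (δ / 2 / c0) (δ / 8)), by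
      refine lt_min (by norm_num) (lt_min (by positivity) (by positivity)), min_le_left _ _, ?_, ?_⟩
    · have h1 : min (1 / 8) (min (δ / 2 / c0) (δ / 8)) ≤ δ / 2 / c0 :=
        (min_le_right _ _).trans (min_le_left _ _)
      calc c0 * _ ≤ c0 * (δ / 2 / c0) := mul_le_mul_of_nonneg_left h1 c0p.le
        _ = δ / 2 := by field_simp
    · have h1 : min (1 / 8) (min (δ / 2 / c0) (δ / 8)) ≤ δ / 8 :=
        (min_le_right _ _).trans (min_le_right _ _)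
      linarith
  have D := dat_of_STC hd b1 H₁ H₂ hs
  have s1 : ∀ x, Real.sqrt (F₁ x) ≤ 2 := fun x => by
    have := hs x; have := Real.sqrt_nonneg (F₂ x); linarith
  have s2 : ∀ x, Real.sqrt (F₂ x) ≤ 2 := fun x => by
    have := hs x; have := Real.sqrt_nonneg (F₁ x); linarith
  have u1 : ∀ x, reg d F₁ x ≤ 63 / 50 := fun x => cube_le_63 (D.φpos x).le (by
    have := D.sum_le x; have := pow_pos (D.ψpos x) 3; linarith)
  have u2 : ∀ x, reg d F₂ x ≤ 63 / 50 := fun x => cube_le_63 (D.ψpos x).le (by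
    have := D.sum_le x; have := pow_pos (D.φpos x) 3; linarith)
  -- the margin
  set Z : Set (ℝ × ℝ) := {p | 0 ≤ p.1 ∧ 0 ≤ p.2 ∧ p.1 ^ 3 + p.2 ^ 3 ≤ 2 - 4 * d} with hZ
  have hZc : IsClosed Z := by
    refine (isClosed_le continuous_const continuous_fst).inter
      ((isClosed_le continuous_const continuous_snd).inter
        (isClosed_le ((continuous_fst.pow 3).add (continuous_snd.pow 3)) continuous_const))
  have hZb : Z ⊆ Icc ((0 : ℝ), (0 : ℝ)) (2, 2) := by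
    rintro ⟨u, v⟩ ⟨h1, h2, h3⟩
    simp only at h1 h2 h3
    have c1 := pow_nonneg h1 3
    have c2 := pow_nonneg h2 3
    have d1 := cube_le_63 h1 (by linarith)
    have d2 := cube_le_63 h2 (by linarith)
    exact ⟨⟨h1, h2⟩, ⟨by simp only; linarith, by simp only; linarith⟩⟩
  have hZk : IsCompact Z := isCompact_Icc.of_isClosed_subset hZc hZb
  have hkc : Continuous (fun p : ℝ × ℝ => O.k (max p.1 g) (max p.2 g)) := by
    unfold Ob.k
    have := O.smooth.continuous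
    fun_prop
  obtain ⟨p, hp, hpm⟩ := hZk.exists_isMinOn ⟨(0, 0), by
    refine ⟨le_rfl, le_rfl, ?_⟩; norm_num; linarith⟩ hkc.continuousOn
  refine ⟨O.k (max p.1 g) (max p.2 g), A.region _ _ hp.1 hp.2.1 (by have := hp.2.2; linarith),
    fun x => Gc g ε₁ (reg d F₁ x), fun x => Gc g ε₁ (reg d F₂ x), ?_, ?_, ?_⟩
  · have gB : ∀ u : ℝ, u ≤ 63 / 50 → max u g ≤ B := fun u hu =>
      max_le (hu.trans A.B_ge) O.g_lt.le
    refine ⟨sm_trunc hd H₁, sm_trunc hd H₂, fun x => Gc_ge hε₁ _, fun x => Gc_ge hε₁ _,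
      fun x => (Gc_le_max hε₁ _).trans (gB _ (u1 x)), fun x => (Gc_le_max hε₁ _).trans (gB _ (u2 x)),
      fun x => ?_, fun x => ?_, fun x => ?_⟩
    · have h1 : O.k (max p.1 g) (max p.2 g) ≤ O.k (max (reg d F₁ x) g) (max (reg d F₂ x) g) :=
        hpm (show (reg d F₁ x, reg d F₂ x) ∈ Z from
          ⟨(D.φpos x).le, (D.ψpos x).le, D.sum_le x⟩)
      refine h1.trans (O.k_anti' (Gc_ge hε₁ _) (Gc_le_max hε₁ _) (gB _ (u1 x)) (Gc_ge hε₁ _)
        (Gc_le_max hε₁ _) (gB _ (u2 x)))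
    · have h1 := trunc_sub (B := B) g0 (by linarith) hε₁ hLd hlip A.fg A.fle O.g_lt.le hd b1 H₁ s1
        (fun x => (u1 x).trans A.B_ge) x
      linarith
    · have h1 := trunc_sub (B := B) g0 (by linarith) hε₁ hLd hlip A.fg A.fle O.g_lt.le hd b1 H₂ s2
        (fun x => (u2 x).trans A.B_ge) x
      linarith
  · intro x
    have h1 := reg_ge hd b1 H₁.nonneg x (s1 x)
    have h2 := sub_le_Gc (g := g) hε₁ (reg d F₁ x)
    simp only
    linarith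
  · intro x
    have h1 := reg_ge hd b1 H₂.nonneg x (s2 x)
    have h2 := sub_le_Gc (g := g) hε₁ (reg d F₂ x)
    simp only
    linarith

end Crest.Agent.R249.PenH_806
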