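import Crest.Agent.R249.LimF4_621
import Crest.Agent.R249.PenJ_806

/-!
# Row 249, part A2 v3: the limit passage for `Ob`, regularisation by levels, file 5

`Ob.lvl t` : the obstacle `{k ≥ t}` in the box `[g + t, B]²`; the lift of the data; the
quantified version of the data.
-/

set_option autoImplicit false
set_option linter.unusedVariables false
set_option linter.unusedSectionVars false

open MeasureTheory Set Filter Topology Matrix
open scoped ContDiff

noncomputable section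

namespace Crest.Agent.R249.LimF621

open Crest.Agent.R249.Lim621 Crest.Agent.R249.LimG621 Crest.Agent.R249.LimE621
  Crest.Agent.R249.PenH_806
open Crest.Agent.R249.ObE_780 Crest.Agent.R249.ObC_780
open Calc_806 Calc_806.Calc Pen_806 PenG_806

attribute [local instance] Matrix.frobeniusNormedAddCommGroup Matrix.frobeniusNormedSpace

variable {g B : ℝ}

/-- **the obstacle at level `t`**: `k_t = k - t` on the box `[g + t, B]²`. -/
def _root_.Crest.Agent.R249.PenH_806.Ob.lvl (O : Ob g B) (t : ℝ) (ht : 0 ≤ t) (htB : t < B - g) :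
    Ob (g + t) B where
  Γ := fun η => O.Γ η - t
  c := O.c
  g_pos := by linarith [O.g_pos]
  g_lt := by linarith
  smooth := O.smooth.sub contDiff_const
  even := fun η => by rw [O.even]
  c_pos := O.c_pos
  slope := fun η hη => by
    rw [deriv_sub_const]
    exact O.slope η (hη.trans (by linarith))
  corner := by
    have hBg : 0 < B - g := by linarith [O.g_lt]
    have h := Γ_lip O (a := B - (g + t)) (b := B - g)
      (by rw [abs_of_pos (by linarith)]; linarith) (by rw [abs_of_pos hBg])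
    have e : |B - (g + t) - (B - g)| = t := by
      rw [show B - (g + t) - (B - g) = -t by ring, abs_neg, abs_of_nonneg ht]
    rw [e] at h
    have h2 := (abs_le.1 h).2
    have h3 := O.corner
    have h4 := mul_nonneg O.c_pos.le ht
    show O.Γ (B - (g + t)) - t < (B + (g + t)) / 2
    linarith

section lvl

variable (O : Ob g B) (t : ℝ) (ht : 0 ≤ t) (htB : t < B - g)

@[simp] theorem lvl_k (u v : ℝ) : (O.lvl t ht htB).k u v = O.k u v - t := by
  show (O.Γ (u - v) - t) - (u + v) / 2 = (O.Γ (u - v) - (u + v) / 2) - t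
  ring

theorem lvl_dΓ : deriv (O.lvl t ht htB).Γ = deriv O.Γ := by
  funext η
  show deriv (fun η => O.Γ η - t) η = _
  rw [deriv_sub_const]

@[simp] theorem lvl_k1 (u v : ℝ) : (O.lvl t ht htB).k1 u v = O.k1 u v := by
  unfold Ob.k1
  rw [lvl_dΓ]

@[simp] theorem lvl_k2 (u v : ℝ) : (O.lvl t ht htB).k2 u v = O.k2 u v := by
  unfold Ob.k2
  rw [lvl_dΓ]

@[simp] theorem lvl_E (f : ℝ → ℝ) (u v P : ℝ) : (O.lvl t ht htB).E f u v P = O.E f u v P := by
  unfold Ob.E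
  rw [lvl_k1, lvl_k2, lvl_dΓ]

@[simp] theorem lvl_c : (O.lvl t ht htB).c = O.c := rfl

theorem lvl_Γ (η : ℝ) : (O.lvl t ht htB).Γ η = O.Γ η - t := rfl

end lvl

/-- the first coordinate on `{k ≥ 0}` -/
theorem le_of_k_nonneg (O : Ob g B) {a b : ℝ} (ha : g ≤ a) (haB : a ≤ B) (hb : g ≤ b) (hbB : b ≤ B)
    (hk : 0 ≤ O.k a b) : a ≤ B - O.κB := by
  have hBg : 0 < B - g := by linarith [O.g_lt]
  have h1 := Γ_lip O (a := a - b) (b := B - g) (by rw [abs_le]; constructor <;> linarith)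
    (by rw [abs_of_pos hBg])
  have e1 : |a - b - (B - g)| = (B - a) + (b - g) := by
    rw [abs_of_nonpos (by linarith)]; ring
  rw [e1] at h1
  have h2 := (abs_le.mp h1).2
  have h3 := mul_nonneg O.c_pos.le (by linarith : 0 ≤ (B - a) + (b - g))
  unfold Ob.k at hk
  unfold Ob.κB
  linarith

theorem le_of_k_nonneg' (O : Ob g B) {a b : ℝ} (ha : g ≤ a) (haB : a ≤ B) (hb : g ≤ b) (hbB : b ≤ B)
    (hk : 0 ≤ O.k a b) : b ≤ B - O.κB :=
  le_of_k_nonneg O hb hbB ha haB (by rw [O.k_symm]; exact hk)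

variable {X : Type*} [TopologicalSpace X] [CompactSpace X] [MeasurableSpace X]
  [OpensMeasurableSpace X] {μ : Measure X} [IsFiniteMeasure μ]

theorem L_add_const {C : Calc X μ} {u : X → ℝ} (hu : C.Sm u) (a : ℝ) (x : X) :
    C.L (fun y => u y + a) x = C.L u x := by
  rw [C.L_add hu (sm_const _), C.L_const, add_zero]

/-- **the lift of the data to level `t`.** -/
theorem datG_lvl {C : Calc X μ} {O : Ob g B} {f : ℝ → ℝ} {η₀ t₀ : ℝ} {φ₀ ψ₀ : X → ℝ}
    (D : DatG C O f η₀ t₀ φ₀ ψ₀) (ht₀ : 0 ≤ t₀) {Ld : ℝ}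
    (hlip : ∀ s t, g ≤ s → s ≤ t → t ≤ B → |f t - f s| ≤ Ld * (t - s))
    (t : ℝ) (ht : 0 ≤ t) (htB : t < B - g) (htκ : t ≤ O.κB) {ε : ℝ} (hε : η₀ + Ld * t ≤ ε) :
    DatG C (O.lvl t ht htB) (fun u => f u - ε) 0 (t₀ - 2 * t) (fun x => φ₀ x + t)
      (fun x => ψ₀ x + t) := by
  have hk0 : ∀ x, 0 ≤ O.k (φ₀ x) (ψ₀ x) := fun x => ht₀.trans (D.kge x)
  have b1 : ∀ x, φ₀ x + t ≤ B := fun x => by
    have := le_of_k_nonneg O (D.φge x) (D.φle x) (D.ψge x) (D.ψle x) (hk0 x)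
    linarith
  have b2 : ∀ x, ψ₀ x + t ≤ B := fun x => by
    have := le_of_k_nonneg' O (D.φge x) (D.φle x) (D.ψge x) (D.ψle x) (hk0 x)
    linarith
  refine ⟨sm_add D.sφ (sm_const t), sm_add D.sψ (sm_const t), fun x => ?_, fun x => ?_, b1, b2,
    fun x => ?_, fun x => ?_, fun x => ?_⟩
  · linarith [D.φge x]
  · linarith [D.ψge x]
  · rw [lvl_k]
    have h1 := D.kge x
    unfold Ob.k at h1 ⊢
    rw [show φ₀ x + t - (ψ₀ x + t) = φ₀ x - ψ₀ x by ring]
    linarith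
  · rw [L_add_const D.sφ]
    have h1 := hlip (φ₀ x) (φ₀ x + t) (D.φge x) (by linarith) (b1 x)
    have h2 := D.subφ x
    have h3 := (abs_le.1 h1).2
    rw [show φ₀ x + t - φ₀ x = t by ring] at h3
    show f (φ₀ x + t) - ε - 0 ≤ _
    linarith
  · rw [L_add_const D.sψ]
    have h1 := hlip (ψ₀ x) (ψ₀ x + t) (D.ψge x) (by linarith) (b2 x)
    have h2 := D.subψ x
    have h3 := (abs_le.1 h1).2
    rw [show ψ₀ x + t - ψ₀ x = t by ring] at h3
    show f (ψ₀ x + t) - ε - 0 ≤ _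
    linarith

/-- the margin of the region -/
theorem margin {O : Ob g B} {f : ℝ → ℝ} (A : Adm O f) : ∃ c1 : ℝ, 0 < c1 ∧ ∀ d : ℝ, 0 < d →
    d ≤ 1 / 8 → ∀ u v : ℝ, 0 ≤ u → 0 ≤ v → u ^ 3 + v ^ 3 ≤ 2 - 4 * d →
    c1 * d ≤ O.k (max u g) (max v g) := by
  have g0 := O.g_pos
  have g1 := A.g_lt
  have hc := O.c_pos
  have hgg : 0 < O.k g g := by
    have := A.region 0 0 le_rfl le_rfl (by norm_num)
    rwa [max_eq_right g0.le] at this
  refine ⟨min (O.c / 8) (O.k g g), lt_min (by positivity) hgg, ?_⟩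
  intro d hd hd8 u v hu hv huv
  have c1 := pow_nonneg hu 3
  have c2 := pow_nonneg hv 3
  have u1 : u ≤ 63 / 50 := cube_le_63 hu (by linarith)
  have v1 : v ≤ 63 / 50 := cube_le_63 hv (by linarith)
  obtain ⟨s, hs⟩ : ∃ s, s = d / 8 := ⟨_, rfl⟩
  have hs0 : 0 < s := by rw [hs]; positivity
  have hs1 : s ≤ 1 / 64 := by rw [hs]; linarith
  have hds : d = 8 * s := by rw [hs]; ring
  have key : ∀ w : ℝ, 0 ≤ w → w ≤ 63 / 50 → (w + s) ^ 3 ≤ w ^ 3 + 6 * s := by
    intro w hw hw1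
    have e : (w + s) ^ 3 = w ^ 3 + s * (3 * w ^ 2 + 3 * w * s + s ^ 2) := by ring
    have h1 : w ^ 2 ≤ (63 / 50) ^ 2 := pow_le_pow_left₀ hw hw1 2
    have h2 : w * s ≤ (63 / 50) * (1 / 64) := mul_le_mul hw1 hs1 hs0.le (by norm_num)
    have h3 : s ^ 2 ≤ (1 / 64) ^ 2 := pow_le_pow_left₀ hs0.le hs1 2
    have h4 : 3 * w ^ 2 + 3 * w * s + s ^ 2 ≤ 6 := by nlinarith
    rw [e]
    nlinarith
  have hsum : (u + s) ^ 3 + (v + s) ^ 3 < 2 := by
    have h1 := key u hu u1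
    have h2 := key v hv v1
    linarith
  have hus : 0 ≤ u + s := by linarith
  have hvs : 0 ≤ v + s := by linarith
  have hreg := A.region (u + s) (v + s) hus hvs hsum
  have d1 := pow_nonneg hus 3
  have d2 := pow_nonneg hvs 3
  have us1 : u + s ≤ 63 / 50 := cube_le_63 hus (by linarith)
  have vs1 : v + s ≤ 63 / 50 := cube_le_63 hvs (by linarith)
  have gB : ∀ w : ℝ, w ≤ 63 / 50 → max w g ≤ B := fun w hw =>
    max_le (hw.trans A.B_ge) O.g_lt.le
  have m1 : max u g ≤ max (u + s) g := max_le_max (by linarith) le_rfl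
  have m2 : max v g ≤ max (v + s) g := max_le_max (by linarith) le_rfl
  have a1 := O.k_anti (s := max u g) (t := max (u + s) g) (v := max v g) (le_max_right _ _) m1
    (gB _ us1) (le_max_right _ _) (gB _ v1)
  have a2 := O.k_anti2 (s := max v g) (t := max (v + s) g) (u := max (u + s) g)
    (le_max_right _ _) m2 (gB _ vs1) (le_max_right _ _) (gB _ us1)
  have b1 : 0 ≤ O.c * (max (u + s) g - max u g) := mul_nonneg hc.le (by linarith)
  have b2 : 0 ≤ O.c * (max (v + s) g - max v g) := mul_nonneg hc.le (by linarith)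
  have e8 : min (O.c / 8) (O.k g g) * d ≤ O.c * s := by
    calc min (O.c / 8) (O.k g g) * d ≤ O.c / 8 * d :=
          mul_le_mul_of_nonneg_right (min_le_left _ _) hd.le
      _ = O.c * s := by rw [hs]; ring
  rcases le_total g u with h | h
  · have e1 : max u g = u := max_eq_left h
    have e2 : max (u + s) g = u + s := max_eq_left (by linarith)
    have e3 : O.c * (max (u + s) g - max u g) = O.c * s := by rw [e1, e2]; ring
    rw [e3] at a1
    linarith
  · rcases le_total g v with h' | h'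
    · have e1 : max v g = v := max_eq_left h'
      have e2 : max (v + s) g = v + s := max_eq_left (by linarith)
      have e3 : O.c * (max (v + s) g - max v g) = O.c * s := by rw [e1, e2]; ring
      rw [e3] at a2
      linarith
    · rw [max_eq_right h, max_eq_right h']
      calc min (O.c / 8) (O.k g g) * d ≤ O.k g g * d :=
            mul_le_mul_of_nonneg_right (min_le_right _ _) hd.le
        _ ≤ O.k g g * 1 := mul_le_mul_of_nonneg_left (by linarith) hgg.le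
        _ = O.k g g := mul_one _

/-- **the data of the penalisation, quantified**: the margin is linear in `δ`. -/
theorem exists_datQ {O : Ob g B} {f : ℝ → ℝ} (A : Adm O f) : ∃ c1 : ℝ, 0 < c1 ∧
    ∀ (C : Calc X μ) {F₁ F₂ : X → ℝ} (H₁ : STC C F₁) (H₂ : STC C F₂)
    (hs : ∀ x, Real.sqrt (F₁ x) + Real.sqrt (F₂ x) ≤ 2) {δ : ℝ} (hδ : 0 < δ) (hδ1 : δ ≤ 1),
    ∃ φ₀ ψ₀ : X → ℝ, DatG C O f δ (c1 * δ) φ₀ ψ₀ ∧
      (∀ x, (F₁ x) ^ (1 / 6 : ℝ) ≤ φ₀ x + δ) ∧ (∀ x, (F₂ x) ^ (1 / 6 : ℝ) ≤ ψ₀ x + δ) := by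
  have g0 := O.g_pos
  have g1 := A.g_lt
  have hB0 : 0 < B := by linarith [A.B_ge]
  obtain ⟨Ld, hLd, hlip⟩ := exists_lip A.smooth g B
  obtain ⟨c1, hc1, hmar⟩ := margin A
  obtain ⟨c0, hc0⟩ : ∃ c0 : ℝ, c0 = 6 * B + (g ^ 5)⁻¹ := ⟨_, rfl⟩
  have c0p : 0 < c0 := by rw [hc0]; positivity
  obtain ⟨c3, hc3p, e1, e2⟩ : ∃ c3 : ℝ, 0 < c3 ∧ c3 ≤ 1 / 8 ∧ c0 * c3 ≤ 1 / 2 := by
    refine ⟨min (1 / 8) (1 / 2 / c0), lt_min (by norm_num) (by positivity), min_le_left _ _, ?_⟩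
    calc c0 * min (1 / 8) (1 / 2 / c0) ≤ c0 * (1 / 2 / c0) :=
          mul_le_mul_of_nonneg_left (min_le_right _ _) c0p.le
      _ = 1 / 2 := by field_simp
  refine ⟨c1 * c3, by positivity, ?_⟩
  intro C F₁ F₂ H₁ H₂ hs δ hδ hδ1
  -- choice of `ε₁`, `d`
  obtain ⟨ε₁, hε₁, a1, a2, a3⟩ : ∃ ε₁ : ℝ, 0 < ε₁ ∧ ε₁ ≤ 1 - g ∧ Ld * ε₁ ≤ δ / 2 ∧ ε₁ ≤ δ / 2 := by
    refine ⟨min (1 - g) (min (δ / 2 / Ld) (δ / 2)), by
      refine lt_min (by linarith) (lt_min (by positivity) (by positivity)), min_le_left _ _, ?_, ?_⟩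
    · have h1 : min (1 - g) (min (δ / 2 / Ld) (δ / 2)) ≤ δ / 2 / Ld :=
        (min_le_right _ _).trans (min_le_left _ _)
      calc Ld * _ ≤ Ld * (δ / 2 / Ld) := mul_le_mul_of_nonneg_left h1 hLd.le
        _ = δ / 2 := by field_simp
    · exact (min_le_right _ _).trans (min_le_right _ _)
  obtain ⟨d, hdd⟩ : ∃ d : ℝ, d = c3 * δ := ⟨_, rfl⟩
  have hd : 0 < d := by rw [hdd]; positivity
  have b1 : d ≤ 1 / 8 := by
    rw [hdd]
    calc c3 * δ ≤ c3 * 1 := mul_le_mul_of_nonneg_left hδ1 hc3p.le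
      _ ≤ 1 / 8 := by linarith
  have b2 : c0 * d ≤ δ / 2 := by
    rw [hdd]
    calc c0 * (c3 * δ) = (c0 * c3) * δ := by ring
      _ ≤ 1 / 2 * δ := mul_le_mul_of_nonneg_right e2 hδ.le
      _ = δ / 2 := by ring
  have b3 : 4 * d ≤ δ / 2 := by
    rw [hdd]
    have := mul_le_mul_of_nonneg_right e1 hδ.le
    linarith
  rw [hc0] at b2
  have D := dat_of_STC hd b1 H₁ H₂ hs
  have s1 : ∀ x, Real.sqrt (F₁ x) ≤ 2 := fun x => by
    have := hs x; have := Real.sqrt_nonneg (F₂ x); linarith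
  have s2 : ∀ x, Real.sqrt (F₂ x) ≤ 2 := fun x => by
    have := hs x; have := Real.sqrt_nonneg (F₁ x); linarith
  have u1 : ∀ x, reg d F₁ x ≤ 63 / 50 := fun x => cube_le_63 (D.φpos x).le (by
    have := D.sum_le x; have := pow_pos (D.ψpos x) 3; linarith)
  have u2 : ∀ x, reg d F₂ x ≤ 63 / 50 := fun x => cube_le_63 (D.ψpos x).le (by
    have := D.sum_le x; have := pow_pos (D.φpos x) 3; linarith)
  refine ⟨fun x => Gc g ε₁ (reg d F₁ x), fun x => Gc g ε₁ (reg d F₂ x), ?_, ?_, ?_⟩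
  · have gB : ∀ u : ℝ, u ≤ 63 / 50 → max u g ≤ B := fun u hu =>
      max_le (hu.trans A.B_ge) O.g_lt.le
    refine ⟨sm_trunc hd H₁, sm_trunc hd H₂, fun x => Gc_ge hε₁ _, fun x => Gc_ge hε₁ _,
      fun x => (Gc_le_max hε₁ _).trans (gB _ (u1 x)), fun x => (Gc_le_max hε₁ _).trans (gB _ (u2 x)),
      fun x => ?_, fun x => ?_, fun x => ?_⟩
    · have h1 : c1 * d ≤ O.k (max (reg d F₁ x) g) (max (reg d F₂ x) g) :=
        hmar d hd b1 _ _ (D.φpos x).le (D.ψpos x).le (D.sum_le x)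
      have h2 : c1 * c3 * δ = c1 * d := by rw [hdd]; ring
      rw [h2]
      refine h1.trans (O.k_anti' (Gc_ge hε₁ _) (Gc_le_max hε₁ _) (gB _ (u1 x)) (Gc_ge hε₁ _)
        (Gc_le_max hε₁ _) (gB _ (u2 x)))
    · have h1 := trunc_sub (B := B) g0 (by linarith) hε₁ hLd hlip A.fg A.fle O.g_lt.le hd b1 H₁ s1
        (fun x => (u1 x).trans A.B_ge) x
      linarith
    · have h1 := trunc_sub (B := B) g0 (by linarith) hε₁ hLd hlip A.fg A.fle O.g_lt.le hd b1 H₂ s2
        (fun x => (u2 x).trans A.B_ge) x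
      linarith
  · intro x
    have h1 := reg_ge hd b1 H₁.nonneg x (s1 x)
    have h2 := sub_le_Gc (g := g) hε₁ (reg d F₁ x)
    simp only
    linarith
  · intro x
    have h1 := reg_ge hd b1 H₂.nonneg x (s2 x)
    have h2 := sub_le_Gc (g := g) hε₁ (reg d F₂ x)
    simp only
    linarith

end Crest.Agent.R249.LimF621
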