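import Crest.Agent.R249.LimF5_621

/-!
# Row 249, part A2 v3: the limit passage for `Ob`, regularisation by levels, file 6: the final
theorem `exists_limL`.
-/

set_option autoImplicit false
set_option linter.unusedVariables false
set_option linter.unusedSectionVars false

open MeasureTheory Set Filter Topology Matrix
open scoped ContDiff

noncomputable section

namespace Crest.Agent.R249.LimF621

open Crest.Agent.R249.Lim621 Crest.Agent.R249.LimG621 Crest.Agent.R249.LimE621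
  Crest.Agent.R249.PenH_806
open Crest.Agent.R249.ObE_780 Crest.Agent.R249.ObC_780
open Calc_806 Calc_806.Calc Pen_806 PenG_806

attribute [local instance] Matrix.frobeniusNormedAddCommGroup Matrix.frobeniusNormedSpace

section W

variable {E H : Type*} [NormedAddCommGroup E] [InnerProductSpace ℝ E]
  [NormedAddCommGroup H] [NormedSpace ℝ H]

theorem sq_norm_diff (p p' : E) {V : ℝ} (hV : 0 ≤ V) (h1 : ‖p‖ ^ 2 ≤ V) (h2 : ‖p'‖ ^ 2 ≤ V) :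
    |‖p‖ ^ 2 - ‖p'‖ ^ 2| ≤ 2 * ‖p - p'‖ * Real.sqrt V := by
  have a1 : ‖p‖ ≤ Real.sqrt V := Real.le_sqrt_of_sq_le h1
  have a2 : ‖p'‖ ≤ Real.sqrt V := Real.le_sqrt_of_sq_le h2
  have a3 := abs_norm_sub_norm_le p p'
  have e : ‖p‖ ^ 2 - ‖p'‖ ^ 2 = (‖p‖ - ‖p'‖) * (‖p‖ + ‖p'‖) := by ring
  rw [e, abs_mul, abs_of_nonneg (by positivity : 0 ≤ ‖p‖ + ‖p'‖)]
  calc |‖p‖ - ‖p'‖| * (‖p‖ + ‖p'‖) ≤ ‖p - p'‖ * (2 * Real.sqrt V) :=
        mul_le_mul a3 (by linarith) (by positivity) (norm_nonneg _)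
    _ = _ := by ring

theorem absW_sub_le (j j' : Jet E H) : |j.W - j'.W| ≤
    2 * (‖j.p - j'.p‖ + ‖j.q - j'.q‖) * Real.sqrt (j.W + j'.W) +
      (‖j.P - j'.P‖ + ‖j.Q - j'.Q‖) := by
  have hW0 := j.W_nonneg
  have hW0' := j'.W_nonneg
  have hV0 : 0 ≤ j.W + j'.W := add_nonneg hW0 hW0'
  have b1 : ∀ i : Jet E H, ‖i.p‖ ^ 2 ≤ i.W ∧ ‖i.q‖ ^ 2 ≤ i.W := fun i => by
    have h1 := sq_nonneg ‖i.p‖
    have h2 := sq_nonneg ‖i.q‖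
    have h3 := norm_nonneg i.P
    have h4 := norm_nonneg i.Q
    unfold Jet.W
    constructor <;> linarith
  have c1 := sq_norm_diff j.p j'.p hV0 (by linarith [(b1 j).1]) (by linarith [(b1 j').1])
  have c2 := sq_norm_diff j.q j'.q hV0 (by linarith [(b1 j).2]) (by linarith [(b1 j').2])
  have c3 := abs_norm_sub_norm_le j.P j'.P
  have c4 := abs_norm_sub_norm_le j.Q j'.Q
  have e : j.W - j'.W = (‖j.p‖ ^ 2 - ‖j'.p‖ ^ 2) + (‖j.q‖ ^ 2 - ‖j'.q‖ ^ 2) + (‖j.P‖ - ‖j'.P‖) +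
      (‖j.Q‖ - ‖j'.Q‖) := by unfold Jet.W; ring
  rw [e]
  have d1 := abs_add_le ((‖j.p‖ ^ 2 - ‖j'.p‖ ^ 2) + (‖j.q‖ ^ 2 - ‖j'.q‖ ^ 2) + (‖j.P‖ - ‖j'.P‖))
    (‖j.Q‖ - ‖j'.Q‖)
  have d2 := abs_add_le ((‖j.p‖ ^ 2 - ‖j'.p‖ ^ 2) + (‖j.q‖ ^ 2 - ‖j'.q‖ ^ 2)) (‖j.P‖ - ‖j'.P‖)
  have d3 := abs_add_le (‖j.p‖ ^ 2 - ‖j'.p‖ ^ 2) (‖j.q‖ ^ 2 - ‖j'.q‖ ^ 2)
  have d4 : 2 * (‖j.p - j'.p‖ + ‖j.q - j'.q‖) * Real.sqrt (j.W + j'.W) =
      2 * ‖j.p - j'.p‖ * Real.sqrt (j.W + j'.W) + 2 * ‖j.q - j'.q‖ * Real.sqrt (j.W + j'.W) := by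
    ring
  rw [d4]
  linarith

/-- `κ W²` is admissible -/
theorem lipD_Wsq (D : Set (ℝ × ℝ)) {κ : ℝ} (hκ : 0 ≤ κ) :
    LipD D (2 * κ) (fun j : Jet E H => κ * j.W ^ 2) := by
  intro ε j j' hε _ _ _ _
  have hW0 := j.W_nonneg
  have hW0' := j'.W_nonneg
  have hV0 : 0 ≤ j.W + j'.W := add_nonneg hW0 hW0'
  have h1 := absW_sub_le j j'
  have e : κ * j.W ^ 2 - κ * j'.W ^ 2 = κ * ((j.W - j'.W) * (j.W + j'.W)) := by ring
  show |κ * j.W ^ 2 - κ * j'.W ^ 2| ≤ _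
  rw [e, abs_mul, abs_of_nonneg hκ, abs_mul, abs_of_nonneg hV0]
  have h2 := mul_le_mul_of_nonneg_right h1 hV0
  have h3 := mul_le_mul_of_nonneg_left h2 hκ
  refine h3.trans ?_
  unfold Lim621.Mod
  have s0 := Real.sqrt_nonneg (j.W + j'.W)
  have h4 : 0 ≤ ε * (j.W + j'.W) ^ 2 := by positivity
  have h5 : 0 ≤ (‖j.P - j'.P‖ + ‖j.Q - j'.Q‖) * (j.W + j'.W) := by positivity
  have h6 : 2 * κ * (ε * (j.W + j'.W) ^ 2
      + (‖j.p - j'.p‖ + ‖j.q - j'.q‖) * ((j.W + j'.W) * Real.sqrt (j.W + j'.W))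
      + (‖j.P - j'.P‖ + ‖j.Q - j'.Q‖) * (j.W + j'.W)) -
      κ * ((2 * (‖j.p - j'.p‖ + ‖j.q - j'.q‖) * Real.sqrt (j.W + j'.W) +
      (‖j.P - j'.P‖ + ‖j.Q - j'.Q‖)) * (j.W + j'.W)) =
      κ * (2 * (ε * (j.W + j'.W) ^ 2) + (‖j.P - j'.P‖ + ‖j.Q - j'.Q‖) * (j.W + j'.W)) := by ring
  have h7 : 0 ≤ κ * (2 * (ε * (j.W + j'.W) ^ 2) +
      (‖j.P - j'.P‖ + ‖j.Q - j'.Q‖) * (j.W + j'.W)) := by positivity
  linarith

end W

variable {X : Type*} [TopologicalSpace X] [CompactSpace X] [MeasurableSpace X]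
  [OpensMeasurableSpace X] {μ : Measure X} [IsFiniteMeasure μ]

variable {g B : ℝ}

/-- the weight function -/
def hw (C : Calc X μ) (φ ψ : X → ℝ) (x : X) : ℝ :=
  1 + C.G φ φ x + C.G ψ ψ x + |C.L φ x| + |C.L ψ x|

theorem cont_hw {C : Calc X μ} {φ ψ : X → ℝ} (sφ : C.Sm φ) (sψ : C.Sm ψ) :
    Continuous (hw C φ ψ) := by
  have h1 := C.sm_cont (C.sm_G sφ sφ)
  have h2 := C.sm_cont (C.sm_G sψ sψ)
  have h3 := C.sm_cont (C.sm_L sφ)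
  have h4 := C.sm_cont (C.sm_L sψ)
  exact (((continuous_const.add h1).add h2).add h3.abs).add h4.abs

/-- the majorant of `κ W²` -/
def RmW (C : Calc X μ) (κ : ℝ) (φ ψ θ : X → ℝ) (x : X) : ℝ :=
  2 * κ * (hw C φ ψ x ^ 2 + C.Rb θ x)

theorem int_RmW {C : Calc X μ} {κ : ℝ} (hκ : 0 ≤ κ) {φ ψ θ : X → ℝ} (sφ : C.Sm φ) (sψ : C.Sm ψ)
    (sθ : C.Sm θ) {Cθ A : ℝ} (hL : ∀ x, |C.L θ x| ≤ Cθ * hw C φ ψ x)
    (hA : ∫ x, hw C φ ψ x ^ 2 ∂μ ≤ A) :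
    Integrable (RmW C κ φ ψ θ) μ ∧ (∀ x, κ * (jt C φ ψ θ x).W ^ 2 ≤ RmW C κ φ ψ θ x) ∧
      ∫ x, RmW C κ φ ψ θ x ∂μ ≤ 2 * κ * ((1 + Cθ ^ 2) * A) := by
  have ig : Integrable (fun x => hw C φ ψ x ^ 2) μ := integrable_cont ((cont_hw sφ sψ).pow 2)
  have iRb : Integrable (C.Rb θ) μ := integrable_cont (C.sm_cont (sm_Rb sθ))
  refine ⟨(ig.add iRb).const_mul (2 * κ), fun x => ?_, ?_⟩
  · have h1 := W_jt_le (φ := φ) (ψ := ψ) sθ x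
    have h2 := (jt C φ ψ θ x).W_nonneg
    have h3 : (jt C φ ψ θ x).W ^ 2 ≤ (hw C φ ψ x + Real.sqrt (C.Rb θ x)) ^ 2 :=
      pow_le_pow_left₀ h2 h1 2
    have h4 : Real.sqrt (C.Rb θ x) ^ 2 = C.Rb θ x := Real.sq_sqrt (Rb_nonneg sθ x)
    have h5 : (hw C φ ψ x + Real.sqrt (C.Rb θ x)) ^ 2 ≤
        2 * (hw C φ ψ x ^ 2 + C.Rb θ x) := by
      have h6 := sq_nonneg (hw C φ ψ x - Real.sqrt (C.Rb θ x))
      have h7 : (hw C φ ψ x + Real.sqrt (C.Rb θ x)) ^ 2 +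
          (hw C φ ψ x - Real.sqrt (C.Rb θ x)) ^ 2 =
          2 * (hw C φ ψ x ^ 2 + Real.sqrt (C.Rb θ x) ^ 2) := by ring
      rw [h4] at h7
      linarith
    unfold RmW
    calc κ * (jt C φ ψ θ x).W ^ 2 ≤ κ * (2 * (hw C φ ψ x ^ 2 + C.Rb θ x)) :=
          mul_le_mul_of_nonneg_left (h3.trans h5) hκ
      _ = _ := by ring
  · have h1 : ∫ x, C.L θ x ^ 2 ∂μ ≤ ∫ x, Cθ ^ 2 * hw C φ ψ x ^ 2 ∂μ := by
      refine integral_mono (integrable_sm (sm_pow (C.sm_L sθ) 2)) (ig.const_mul _) fun x => ?_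
      show C.L θ x ^ 2 ≤ Cθ ^ 2 * hw C φ ψ x ^ 2
      rw [← mul_pow, ← sq_abs (C.L θ x)]
      exact pow_le_pow_left₀ (abs_nonneg _) (hL x) 2
    rw [integral_const_mul] at h1
    have h2 := (int_Rb_le sθ).trans h1
    have h3 : Cθ ^ 2 * ∫ x, hw C φ ψ x ^ 2 ∂μ ≤ Cθ ^ 2 * A :=
      mul_le_mul_of_nonneg_left hA (sq_nonneg _)
    have h4 : ∫ x, RmW C κ φ ψ θ x ∂μ = 2 * κ * (∫ x, hw C φ ψ x ^ 2 ∂μ + ∫ x, C.Rb θ x ∂μ) := by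
      unfold RmW
      rw [integral_const_mul, integral_add ig iRb]
    rw [h4]
    apply mul_le_mul_of_nonneg_left _ (by positivity)
    linarith

/-- **the inputs of the limit passage by levels.** -/
structure CertL (C : Calc X μ) (O : Ob g B) (f : ℝ → ℝ) (b Cθ : ℝ) (I : ℝ → Jet E4 H4 → ℝ)
    (Om : Jet E4 H4 → ℝ) : Prop where
  /-- the certificate at level `t` with the error `κ W²` -/
  cert : ∀ κ : ℝ, 0 < κ → ∀ C1 : ℝ, ∃ t1 : ℝ, 0 < t1 ∧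
    ∀ (t : ℝ) (ht : 0 < t) (htB : t < B - g), t < t1 → ∀ ε : ℝ, 0 ≤ ε → ε ≤ C1 * t →
    CertE trH SyH (O.lvl t ht.le htB) (fun u => f u - ε) 0 (I t) Om (fun j => κ * j.W ^ 2)
  /-- regularity and divergence theorem for pairs with values in `D_t` -/
  reg : ∃ t2 : ℝ, 0 < t2 ∧ ∀ (t : ℝ) (ht : 0 < t) (htB : t < B - g), t < t2 →
    (∃ CI : ℝ, 0 ≤ CI ∧ LipD (DomO (O.lvl t ht.le htB) (t / 2)) CI (I t)) ∧
    (∃ CO : ℝ, 0 ≤ CO ∧ LipD (DomO (O.lvl t ht.le htB) (t / 2)) CO Om) ∧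
    (∀ φ ψ : X → ℝ, C.Sm φ → C.Sm ψ →
      (∀ x, (φ x, ψ x) ∈ DomO (O.lvl t ht.le htB) (t / 2)) →
      ∃ θ V : X → ℝ, DivCert C b Cθ (I t) φ ψ θ V ∧ Integrable (fun x => Om (jt C φ ψ θ x)) μ)

/-- **A2 v3, final form with levels.** -/
theorem exists_limL (C : Calc X μ) {O : Ob g B} {f : ℝ → ℝ} (A : Adm O f)
    (hconc : ∀ η, |η| ≤ B - g → deriv (deriv O.Γ) η ≤ 0) {b Cθ : ℝ}
    {I : ℝ → Jet E4 H4 → ℝ} {Om : Jet E4 H4 → ℝ} (hL : CertL C O f b Cθ I Om)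
    {F₁ F₂ : X → ℝ} (H₁ : STC C F₁) (H₂ : STC C F₂)
    (hs : ∀ x, Real.sqrt (F₁ x) + Real.sqrt (F₂ x) ≤ 2) {δ : ℝ} (hδ : 0 < δ) :
    ∃ t : ℝ, 0 < t ∧ t ≤ δ ∧ ∃ φ ψ θ : X → ℝ, C.Sm φ ∧ C.Sm ψ ∧ C.Sm θ ∧
      (∀ x, φ x ∈ Icc (g + t) B) ∧ (∀ x, ψ x ∈ Icc (g + t) B) ∧
      (∀ x, t / 2 ≤ O.k (φ x) (ψ x)) ∧
      (∀ x, (F₁ x) ^ (1 / 6 : ℝ) ≤ φ x + δ) ∧ (∀ x, (F₂ x) ^ (1 / 6 : ℝ) ≤ ψ x + δ) ∧
      Integrable (fun x => Om (jt C φ ψ θ x)) μ ∧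
      ∫ x, Om (jt C φ ψ θ x) ∂μ ≤ δ := by
  have hgB := O.g_lt
  have hBg : 0 < B - g := by linarith
  have hκB := O.κB_pos
  have hΓ : 0 < O.Γ 0 - g := by
    have := A.region 0 0 le_rfl le_rfl (by norm_num)
    rw [max_eq_right O.g_pos.le] at this
    unfold Ob.k at this
    rw [sub_self] at this
    linarith
  obtain ⟨Ld, hLd, hlip⟩ := exists_lip A.smooth g B
  obtain ⟨c1, hc1, hdat⟩ := exists_datQ (μ := μ) A
  -- the bound of `f`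
  obtain ⟨M, hM⟩ : ∃ M : ℝ, ∀ u, g ≤ u → u ≤ B → |f u| ≤ M := by
    obtain ⟨M, hM⟩ := (isCompact_Icc (a := g) (b := B)).exists_bound_of_continuousOn
      A.smooth.continuous.continuousOn
    exact ⟨M, fun u h1 h2 => by
      have := hM u ⟨h1, h2⟩
      rwa [Real.norm_eq_abs] at this⟩
  obtain ⟨A0, hA0⟩ : ∃ A0, A0 = A0c O.c B (M + 1) (∫ x : X, (1 : ℝ) ∂μ) := ⟨_, rfl⟩
  obtain ⟨A1, hA1⟩ : ∃ A1, A1 = (1 + Cθ ^ 2) * |A0| := ⟨_, rfl⟩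
  have hA10 : 0 ≤ A1 := by rw [hA1]; positivity
  obtain ⟨κ, hκ⟩ : ∃ κ, κ = δ / (4 * (A1 + 1)) := ⟨_, rfl⟩
  have hκ0 : 0 < κ := by rw [hκ]; positivity
  have hκA : 2 * κ * A1 ≤ δ / 2 := by
    rw [hκ]
    have e : 2 * (δ / (4 * (A1 + 1))) * A1 = δ / 2 * (A1 / (A1 + 1)) := by
      field_simp; ring
    rw [e]
    have h1 : A1 / (A1 + 1) ≤ 1 := by rw [div_le_one (by positivity)]; linarith
    calc δ / 2 * (A1 / (A1 + 1)) ≤ δ / 2 * 1 := mul_le_mul_of_nonneg_left h1 (by positivity)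
      _ = δ / 2 := mul_one _
  obtain ⟨C1, hC1⟩ : ∃ C1, C1 = 3 / c1 + Ld := ⟨_, rfl⟩
  have hC10 : 0 < C1 := by rw [hC1]; positivity
  obtain ⟨t1, ht1, hcert⟩ := hL.cert κ hκ0 C1
  obtain ⟨t2, ht2, hreg⟩ := hL.reg
  -- the choice of `t`
  obtain ⟨t, ht0, a1, a2, a3, a4, a5, a6, a7, a8⟩ : ∃ t : ℝ, 0 < t ∧ t < t1 ∧ t < t2 ∧ t < B - g ∧
      t ≤ O.κB ∧ 2 * t < O.Γ 0 - g ∧ t ≤ δ ∧ 3 * t / c1 ≤ min 1 δ ∧ C1 * t ≤ 1 := by
    obtain ⟨T, hT⟩ : ∃ T, T = min (min (min t1 t2) (min (B - g) O.κB))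
      (min (min ((O.Γ 0 - g) / 2) δ) (min (c1 / 3 * min 1 δ) (1 / C1))) := ⟨_, rfl⟩
    have hmd : 0 < min 1 δ := lt_min one_pos hδ
    have hT0 : 0 < T := by rw [hT]; positivity
    have b1 : T ≤ t1 := by
      rw [hT]; exact (min_le_left _ _).trans ((min_le_left _ _).trans (min_le_left _ _))
    have b2 : T ≤ t2 := by
      rw [hT]; exact (min_le_left _ _).trans ((min_le_left _ _).trans (min_le_right _ _))
    have b3 : T ≤ B - g := by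
      rw [hT]; exact (min_le_left _ _).trans ((min_le_right _ _).trans (min_le_left _ _))
    have b4 : T ≤ O.κB := by
      rw [hT]; exact (min_le_left _ _).trans ((min_le_right _ _).trans (min_le_right _ _))
    have b5 : T ≤ (O.Γ 0 - g) / 2 := by
      rw [hT]; exact (min_le_right _ _).trans ((min_le_left _ _).trans (min_le_left _ _))
    have b6 : T ≤ δ := by
      rw [hT]; exact (min_le_right _ _).trans ((min_le_left _ _).trans (min_le_right _ _))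
    have b7 : T ≤ c1 / 3 * min 1 δ := by
      rw [hT]; exact (min_le_right _ _).trans ((min_le_right _ _).trans (min_le_left _ _))
    have b8 : T ≤ 1 / C1 := by
      rw [hT]; exact (min_le_right _ _).trans ((min_le_right _ _).trans (min_le_right _ _))
    refine ⟨T / 2, by positivity, by linarith, by linarith, by linarith, by linarith,
      by linarith, by linarith, ?_, ?_⟩
    · rw [div_le_iff₀ hc1]
      have e : c1 / 3 * min 1 δ = min 1 δ * c1 / 3 := by ring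
      rw [e] at b7
      have : 0 < min 1 δ * c1 := by positivity
      linarith
    · have h1 : C1 * T ≤ 1 := by
        calc C1 * T ≤ C1 * (1 / C1) := mul_le_mul_of_nonneg_left b8 hC10.le
          _ = 1 := by field_simp
      have : 0 < C1 * T := by positivity
      linarith
  -- the data
  obtain ⟨η₀, hη⟩ : ∃ η₀, η₀ = 3 * t / c1 := ⟨_, rfl⟩
  have hη0 : 0 < η₀ := by rw [hη]; positivity
  rw [← hη] at a7
  have hη1 : η₀ ≤ 1 := a7.trans (min_le_left _ _)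
  have hηδ : η₀ ≤ δ := a7.trans (min_le_right _ _)
  have hcη : c1 * η₀ = 3 * t := by rw [hη]; field_simp
  obtain ⟨φ₀, ψ₀, D, l1, l2⟩ := hdat C H₁ H₂ hs hη0 hη1
  rw [hcη] at D
  obtain ⟨ε, hε⟩ : ∃ ε, ε = C1 * t := ⟨_, rfl⟩
  have hε0 : 0 ≤ ε := by rw [hε]; positivity
  have hεη : η₀ + Ld * t ≤ ε := by
    rw [hε, hC1, hη]
    have : (3 / c1 + Ld) * t = 3 * t / c1 + Ld * t := by ring
    rw [this]
  have hε1 : ε ≤ 1 := by rw [hε]; exact a8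
  have D' := datG_lvl D (by positivity) hlip t ht0.le a3 a4 hεη
  rw [show 3 * t - 2 * t = t by ring] at D'
  -- the certificate
  have hC := hcert t ht0 a3 a1 ε hε0 (by rw [hε])
  obtain ⟨⟨CI, hCI, hI⟩, ⟨CO, hCO, hO⟩, hdiv⟩ := hreg t ht0 a3 a2
  obtain ⟨Ot, hOt⟩ : ∃ Ot, Ot = O.lvl t ht0.le a3 := ⟨_, rfl⟩
  have hconc' : ∀ η, |η| ≤ B - (g + t) → deriv (deriv (O.lvl t ht0.le a3).Γ) η ≤ 0 := by
    intro η hη
    rw [lvl_dΓ]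
    exact hconc η (hη.trans (by linarith))
  obtain ⟨δ', hδ'⟩ : ∃ δ', δ' = min (δ / 2) (t / 4) := ⟨_, rfl⟩
  have hδ'0 : 0 < δ' := by rw [hδ']; positivity
  have hδ'1 : δ' ≤ δ / 2 := by rw [hδ']; exact min_le_left _ _
  have hδ'2 : δ' ≤ t / 4 := by rw [hδ']; exact min_le_right _ _
  obtain ⟨δ₀, hδ₀, hex⟩ := exists_limF C (O.lvl t ht0.le a3)
    (by show g + t < O.Γ 0 - t; linarith) hconc'
    (f := fun u => f u - ε) (A.smooth.sub contDiff_const) (b := b) (Cθ := Cθ)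
    (ε2 := t / 2) (by positivity) hI hO (lipD_Wsq _ hκ0.le) hCI hCO
    (by positivity) hC (RmW C κ) (by
      intro φ ψ sφ sψ hmem
      obtain ⟨θ, V, DC, iO⟩ := hdiv φ ψ sφ sψ hmem
      obtain ⟨i1, i2, -⟩ := int_RmW (C := C) hκ0.le sφ sψ DC.sθ (Cθ := Cθ)
        (fun x => DC.Lθ x) le_rfl
      exact ⟨θ, V, DC, iO, i1, i2⟩) hδ'0
  obtain ⟨K, e, εp, he, heδ, S, m1, m2, m3, hbd, θ, V, DC, iO, hint⟩ :=
    hex 0 t (fun x => φ₀ x + t) (fun x => ψ₀ x + t) le_rfl hδ₀.le ht0 D'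
  have hkS : ∀ x, t / 2 ≤ O.k (S.φ x) (S.ψ x) := fun x => by
    have := m3 x
    rw [lvl_k] at this
    linarith
  have hmem : ∀ x, (S.φ x, S.ψ x) ∈ DomO (O.lvl t ht0.le a3) (t / 2) := fun x =>
    ⟨(m1 x).1, (m1 x).2, (m2 x).1, (m2 x).2, by
      show -(t / 2) ≤ (O.lvl t ht0.le a3).k (S.φ x) (S.ψ x)
      have := m3 x
      linarith⟩
  -- the bound
  have hA0' : ∫ x, hw C S.φ S.ψ x ^ 2 ∂μ ≤ A0 := by
    rw [hA0]
    refine hbd (M + 1) fun u h1 h2 => ?_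
    have h3 := hM u (by linarith) h2
    have h4 := abs_sub (f u) ε
    rw [abs_of_nonneg hε0] at h4
    linarith
  obtain ⟨i1, i2, i3⟩ := int_RmW (C := C) hκ0.le S.sφ S.sψ DC.sθ (Cθ := Cθ)
    (fun x => DC.Lθ x) hA0'
  have h5 : 2 * κ * ((1 + Cθ ^ 2) * A0) ≤ δ / 2 := by
    refine le_trans ?_ hκA
    apply mul_le_mul_of_nonneg_left _ (by positivity)
    rw [hA1]
    exact mul_le_mul_of_nonneg_left (le_abs_self _) (by positivity)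
  have e1 : 0 ≤ t := ht0.le
  refine ⟨t, ht0, a6, S.φ, S.ψ, θ, S.sφ, S.sψ, DC.sθ, m1, m2, hkS, fun x => ?_, fun x => ?_, iO, ?_⟩
  · have h6 : φ₀ x + t ≤ S.φ x := S.φge x
    have h7 := l1 x
    linarith
  · have h6 : ψ₀ x + t ≤ S.ψ x := S.ψge x
    have h7 := l2 x
    linarith
  · linarith

end Crest.Agent.R249.LimF621
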