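import Crest.Agent.R249.LimE_41
/-!
R249 / D3-LIM (helper41).  Abstract limit lemma, part 14: limits of quadratic expressions in `P`.
-/

set_option autoImplicit false

open MeasureTheory Filter Topology Set
open scoped ContDiff ENNReal
open Crest.GeometryTopology.CoordMetric
open Crest.Agent.R249.LPt_191 (N1 sS kos)

noncomputable section

namespace Crest.Agent.R249.Lim41

section main

variable {n : ℕ} {ι : Type*} {l : Filter ι} {X : ι → Type*} [∀ i, MeasurableSpace (X i)]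
  {Ω : Set (E n)} {m : ∀ i, Measure (X i)} {u : ∀ i, X i → E n}
  {h : E n → Matrix (Fin n) (Fin n) ℝ} {F : ∀ i, X i → Matrix (Fin n) (Fin n) ℝ}
  {P : ∀ i, X i → Fin n → Fin n → Fin n → ℝ} {D G R : ∀ i, X i → Fin n → Fin n → ℝ}
  {lam Mm C α : ℝ}

/-- finite sums of weakly convergent sequences -/
theorem WC.sum {Mm : ℝ} (hB : Base Ω m u Mm) {κ : Type*} (s : Finset κ)
    {g : κ → ∀ i, X i → ℝ} {γ : κ → E n → ℝ} (hg : ∀ k ∈ s, ∀ i, Integrable (g k i) (m i))
    (hγ : ∀ k ∈ s, LI Ω (γ k)) (hW : ∀ k ∈ s, WC l Ω m u (g k) (γ k)) :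
    WC l Ω m u (fun i x => ∑ k ∈ s, g k i x) (fun y => ∑ k ∈ s, γ k y) := by
  intro φ hφ
  have h1 : Tendsto (fun i => ∑ k ∈ s, ∫ x, φ (u i x) * g k i x ∂(m i)) l
      (𝓝 (∑ k ∈ s, ∫ y, φ y * γ k y)) := tendsto_finsetSum _ fun k hk => hW k hk φ hφ
  have h2 : ∑ k ∈ s, ∫ y, φ y * γ k y = ∫ y, φ y * ∑ k ∈ s, γ k y := by
    rw [← integral_finsetSum _ fun k hk => hφ.integrable_mul (hγ k hk)]
    simp_rw [Finset.mul_sum]
  have h3 : ∀ i, ∑ k ∈ s, ∫ x, φ (u i x) * g k i x ∂(m i) =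
      ∫ x, φ (u i x) * ∑ k ∈ s, g k i x ∂(m i) := fun i => by
    rw [← integral_finsetSum _ fun k hk => hφ.integrable_comp hB (hg k hk i)]
    simp_rw [Finset.mul_sum]
  rw [h2] at h1
  simp_rw [h3] at h1
  exact h1

theorem int4 {α : Type*} [MeasurableSpace α] {μ : Measure α} {f0 f1 f2 f3 : α → ℝ}
    (h0 : Integrable f0 μ) (h1 : Integrable f1 μ) (h2 : Integrable f2 μ) (h3 : Integrable f3 μ) :
    |∫ x, f0 x ∂μ - ((∫ x, f1 x ∂μ) + (∫ x, f2 x ∂μ) - ∫ x, f3 x ∂μ)| ≤
      ∫ x, |f0 x - (f1 x + f2 x - f3 x)| ∂μ := by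
  have e1 : ∫ x, f0 x ∂μ - ((∫ x, f1 x ∂μ) + (∫ x, f2 x ∂μ) - ∫ x, f3 x ∂μ) =
      ∫ x, (f0 x - (f1 x + f2 x - f3 x)) ∂μ := by
    rw [integral_sub h0 (f := f0) (g := fun x => f1 x + f2 x - f3 x) ((h1.add h2).sub h3),
      integral_sub (f := fun x => f1 x + f2 x) (h1.add h2) h3, integral_add h1 h2]
  rw [e1]
  exact abs_integral_le_integral_abs

/-- strongly approximable sequences -/
structure Good (l : Filter ι) (Ω : Set (E n)) (m : ∀ i, Measure (X i)) (u : ∀ i, X i → E n)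
    (h : E n → Matrix (Fin n) (Fin n) ℝ) (F : ∀ i, X i → Matrix (Fin n) (Fin n) ℝ)
    (f : ∀ i, X i → ℝ) (p : E n → ℝ) : Prop where
  mem : ∀ i, MemLp (f i) 2 (m i)
  bdd : ∃ A, ∀ i, ∫ x, f i x ^ 2 ∂(m i) ≤ A
  lim : MemLp p 2 (volume : Measure (E n))
  wc : WC l Ω m u f p
  strong : ∀ φ, CC Ω φ → (∀ y, 0 ≤ φ y) → ∀ δ : ℝ, 0 < δ → ∃ q : E n → ℝ,
    Continuous q ∧ HasCompactSupport q ∧ (∫ y, (p y - q y) ^ 2 ≤ δ) ∧
    ∀ᶠ i in l, ∫ x, φ (u i x) * (chi (fm (F i x)) *
      (f i x - (Jf (fm (h (u i x))))⁻¹ * q (u i x)) ^ 2) ∂(m i) ≤ δ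

namespace LData

section noNeBot

variable (hd : LData l Ω m u h F P D G R lam Mm C α)
include hd

theorem bddt {Ψ : Mt n → ℝ} (hΨ : Continuous Ψ) {i : ι} {g : X i → ℝ} (hg : Integrable g (m i)) :
    Integrable (fun x => Ψ (fm (F i x)) * g x) (m i) := by
  obtain ⟨B, -, hB, -⟩ := hd.bddΨ hΨ
  exact hg.bdd_mul (c := B) (hd.measΨ hΨ i) (hB i)

theorem int_sq {f : ∀ i, X i → ℝ} (hf : ∀ i, MemLp (f i) 2 (m i)) {φ : E n → ℝ} (hφ : CC Ω φ)
    {Q : E n → ℝ} (hQ : ContinuousOn Q Ω) (i : ι) :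
    Integrable (fun x => φ (u i x) * (chi (fm (F i x)) * (f i x - Q (u i x)) ^ 2)) (m i) := by
  have hfin := hd.base.fin
  have k0 : Integrable (fun x => φ (u i x) * (chi (fm (F i x)) * (f i x * f i x))) (m i) :=
    hφ.integrable_comp hd.base (hd.bddt (chi_continuous n) ((hf i).integrable_mul (hf i)))
  have k1 : Integrable (fun x => (φ (u i x) * Q (u i x)) * (chi (fm (F i x)) * f i x)) (m i) :=
    (hφ.mul_cont hd.base.opn hQ).integrable_comp hd.base
      (hd.bddt (chi_continuous n) ((hf i).integrable (by norm_num)))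
  have k2 : Integrable (fun x => (φ (u i x) * (Q (u i x) * Q (u i x))) *
      (chi (fm (F i x)) * 1)) (m i) :=
    (hφ.mul_cont hd.base.opn (hQ.mul hQ)).integrable_comp hd.base
      (hd.bddt (chi_continuous n) (integrable_const _))
  refine ((k0.sub (k1.const_mul 2)).add k2).congr (Eventually.of_forall fun x => ?_)
  simp only [Pi.add_apply, Pi.sub_apply]
  ring

theorem Jiq_cont {q : E n → ℝ} (hq : Continuous q) :
    ContinuousOn (fun y => (Jf (fm (h y)))⁻¹ * q y) Ω := hd.Ji_cont.mul hq.continuousOn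

theorem good_add {f f' : ∀ i, X i → ℝ} {p p' : E n → ℝ} [l.NeBot] (hf : Good l Ω m u h F f p)
    (hf' : Good l Ω m u h F f' p') :
    Good l Ω m u h F (fun i x => f i x + f' i x) (fun y => p y + p' y) := by
  have hfin := hd.base.fin
  refine ⟨fun i => (hf.mem i).add (hf'.mem i), ?_, hf.lim.add hf'.lim, ?_, ?_⟩
  · obtain ⟨A, hA⟩ := hf.bdd
    obtain ⟨A', hA'⟩ := hf'.bdd
    refine ⟨2 * A + 2 * A', fun i => ?_⟩
    have h1 := (hf.mem i).integrable_sq
    have h2 := (hf'.mem i).integrable_sq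
    calc ∫ x, (f i x + f' i x) ^ 2 ∂(m i) ≤ ∫ x, (2 * f i x ^ 2 + 2 * f' i x ^ 2) ∂(m i) := by
          apply integral_mono ((hf.mem i).add (hf'.mem i)).integrable_sq
            ((h1.const_mul 2).add (h2.const_mul 2))
          intro x
          show (f i x + f' i x) ^ 2 ≤ 2 * f i x ^ 2 + 2 * f' i x ^ 2
          nlinarith [sq_nonneg (f i x - f' i x)]
      _ = 2 * (∫ x, f i x ^ 2 ∂(m i)) + 2 * ∫ x, f' i x ^ 2 ∂(m i) := by
          rw [integral_add (h1.const_mul 2) (h2.const_mul 2), integral_const_mul,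
            integral_const_mul]
      _ ≤ _ := by linarith [hA i, hA' i]
  · exact WC.add hd.base (fun i => (hf.mem i).integrable (by norm_num))
      (fun i => (hf'.mem i).integrable (by norm_num)) (LI.of_memLp hf.lim) (LI.of_memLp hf'.lim)
      hf.wc hf'.wc
  · intro φ hφ hφ0 δ hδ
    obtain ⟨q, hq, hqc, hq1, hq2⟩ := hf.strong φ hφ hφ0 (δ / 4) (by positivity)
    obtain ⟨q', hq', hqc', hq1', hq2'⟩ := hf'.strong φ hφ hφ0 (δ / 4) (by positivity)
    refine ⟨fun y => q y + q' y, hq.add hq', hqc.add hqc', ?_, ?_⟩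
    · have s1 : Integrable (fun y => (p y - q y) ^ 2) :=
        (hf.lim.sub (hq.memLp_of_hasCompactSupport hqc)).integrable_sq
      have s2 : Integrable (fun y => (p' y - q' y) ^ 2) :=
        (hf'.lim.sub (hq'.memLp_of_hasCompactSupport hqc')).integrable_sq
      have s3 : Integrable (fun y => (p y + p' y - (q y + q' y)) ^ 2) :=
        ((hf.lim.add hf'.lim).sub ((hq.memLp_of_hasCompactSupport hqc).add
          (hq'.memLp_of_hasCompactSupport hqc'))).integrable_sq
      calc ∫ y, (p y + p' y - (q y + q' y)) ^ 2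
          ≤ ∫ y, (2 * (p y - q y) ^ 2 + 2 * (p' y - q' y) ^ 2) := by
            apply integral_mono s3 ((s1.const_mul 2).add (s2.const_mul 2))
            intro y
            show (p y + p' y - (q y + q' y)) ^ 2 ≤ 2 * (p y - q y) ^ 2 + 2 * (p' y - q' y) ^ 2
            nlinarith [sq_nonneg ((p y - q y) - (p' y - q' y))]
        _ = 2 * (∫ y, (p y - q y) ^ 2) + 2 * ∫ y, (p' y - q' y) ^ 2 := by
            rw [integral_add (s1.const_mul 2) (s2.const_mul 2), integral_const_mul,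
              integral_const_mul]
        _ ≤ δ := by linarith
    · filter_upwards [hq2, hq2'] with i hi hi'
      have s1 := hd.int_sq hf.mem hφ (hd.Jiq_cont hq) i
      have s2 := hd.int_sq hf'.mem hφ (hd.Jiq_cont hq') i
      have s3 := hd.int_sq (f := fun i x => f i x + f' i x)
        (fun i => (hf.mem i).add (hf'.mem i)) hφ (hd.Jiq_cont (hq.add hq')) i
      calc ∫ x, φ (u i x) * (chi (fm (F i x)) * (f i x + f' i x -
              (Jf (fm (h (u i x))))⁻¹ * (q (u i x) + q' (u i x))) ^ 2) ∂(m i)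
          ≤ ∫ x, (2 * (φ (u i x) * (chi (fm (F i x)) *
              (f i x - (Jf (fm (h (u i x))))⁻¹ * q (u i x)) ^ 2)) +
              2 * (φ (u i x) * (chi (fm (F i x)) *
              (f' i x - (Jf (fm (h (u i x))))⁻¹ * q' (u i x)) ^ 2))) ∂(m i) := by
            apply integral_mono s3 ((s1.const_mul 2).add (s2.const_mul 2))
            intro x
            show φ (u i x) * (chi (fm (F i x)) * (f i x + f' i x -
              (Jf (fm (h (u i x))))⁻¹ * (q (u i x) + q' (u i x))) ^ 2) ≤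
              2 * (φ (u i x) * (chi (fm (F i x)) *
              (f i x - (Jf (fm (h (u i x))))⁻¹ * q (u i x)) ^ 2)) +
              2 * (φ (u i x) * (chi (fm (F i x)) *
              (f' i x - (Jf (fm (h (u i x))))⁻¹ * q' (u i x)) ^ 2))
            have e1 : (f i x + f' i x - (Jf (fm (h (u i x))))⁻¹ * (q (u i x) + q' (u i x))) ^ 2 ≤
                2 * (f i x - (Jf (fm (h (u i x))))⁻¹ * q (u i x)) ^ 2 +
                2 * (f' i x - (Jf (fm (h (u i x))))⁻¹ * q' (u i x)) ^ 2 := by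
              nlinarith [sq_nonneg ((f i x - (Jf (fm (h (u i x))))⁻¹ * q (u i x)) -
                (f' i x - (Jf (fm (h (u i x))))⁻¹ * q' (u i x)))]
            have e2 := mul_le_mul_of_nonneg_left (mul_le_mul_of_nonneg_left e1
              (chi_nonneg (fm (F i x)))) (hφ0 (u i x))
            refine e2.trans (le_of_eq ?_)
            ring
        _ ≤ δ := by
            rw [integral_add (s1.const_mul 2) (s2.const_mul 2), integral_const_mul,
              integral_const_mul]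
            linarith

theorem good_mul {f : ∀ i, X i → ℝ} {p : E n → ℝ} (hf : Good l Ω m u h F f p) (c : ℝ) :
    Good l Ω m u h F (fun i x => c * f i x) (fun y => c * p y) := by
  refine ⟨fun i => (hf.mem i).const_mul c, ?_, hf.lim.const_mul c, hf.wc.const_mul c, ?_⟩
  · obtain ⟨A, hA⟩ := hf.bdd
    refine ⟨c ^ 2 * A, fun i => ?_⟩
    simp_rw [mul_pow]
    rw [integral_const_mul]
    exact mul_le_mul_of_nonneg_left (hA i) (sq_nonneg c)
  · intro φ hφ hφ0 δ hδ
    obtain ⟨q, hq, hqc, hq1, hq2⟩ := hf.strong φ hφ hφ0 (δ / (c ^ 2 + 1)) (by positivity)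
    have hle : c ^ 2 * (δ / (c ^ 2 + 1)) ≤ δ := by
      rw [mul_div_assoc', div_le_iff₀ (by positivity)]
      nlinarith
    refine ⟨fun y => c * q y, continuous_const.mul hq, hqc.mul_left, ?_, ?_⟩
    · have : ∀ y, (c * p y - c * q y) ^ 2 = c ^ 2 * (p y - q y) ^ 2 := fun y => by ring
      simp_rw [this]
      rw [integral_const_mul]
      exact (mul_le_mul_of_nonneg_left hq1 (sq_nonneg c)).trans hle
    · filter_upwards [hq2] with i hi
      have : ∀ x, φ (u i x) * (chi (fm (F i x)) *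
          (c * f i x - (Jf (fm (h (u i x))))⁻¹ * (c * q (u i x))) ^ 2) =
          c ^ 2 * (φ (u i x) * (chi (fm (F i x)) *
          (f i x - (Jf (fm (h (u i x))))⁻¹ * q (u i x)) ^ 2)) := fun x => by ring
      simp_rw [this]
      rw [integral_const_mul]
      exact (mul_le_mul_of_nonneg_left hi (sq_nonneg c)).trans hle

end noNeBot

variable [l.NeBot] (hd : LData l Ω m u h F P D G R lam Mm C α)
include hd

theorem good_P (a b c : Fin n) : Good l Ω m u h F (fun i x => P i x a b c) (hd.p a b c) := by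
  have hfin := hd.base.fin
  refine ⟨fun i => hd.P_mem i a b c, ⟨C, fun i => hd.P_bdd i a b c⟩, hd.p_mem a b c,
    hd.p_wc a b c, fun φ hφ hφ0 δ hδ => ?_⟩
  obtain ⟨K, hK0, hK⟩ := hd.strong_aux a b hφ hφ0
  set η := δ / (K + 1) with hη
  have hη0 : 0 < η := by positivity
  have hηδ : η ≤ δ := div_le_self hδ.le (by linarith)
  have hKη : K * η ≤ δ := by
    rw [hη, mul_div_assoc', div_le_iff₀ (by positivity)]
    nlinarith
  choose q hq hqc hq1 using fun c => exists_q (hd.p_mem a b c) hη0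
  refine ⟨q c, hq c, hqc c, (hq1 c).trans hηδ, ?_⟩
  filter_upwards [hK q hq hqc η hη0 hq1] with i hi
  refine le_trans ?_ (hi.trans hKη)
  have s1 := fun c => hd.int_sq (f := fun i x => P i x a b c) (fun i => hd.P_mem i a b c) hφ
    (hd.Jiq_cont (hq c)) i
  have s2 : Integrable (fun x => φ (u i x) * (chi (fm (F i x)) *
        ∑ c, (P i x a b c - (Jf (fm (h (u i x))))⁻¹ * q c (u i x)) ^ 2)) (m i) := by
    refine (integrable_finsetSum Finset.univ fun c _ => s1 c).congr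
      (Eventually.of_forall fun x => ?_)
    simp only [Finset.mul_sum]
  apply integral_mono (s1 c) s2
  intro x
  refine mul_le_mul_of_nonneg_left (mul_le_mul_of_nonneg_left ?_ (chi_nonneg _)) (hφ0 _)
  exact Finset.single_le_sum
    (f := fun c => (P i x a b c - (Jf (fm (h (u i x))))⁻¹ * q c (u i x)) ^ 2)
    (fun c _ => sq_nonneg _) (Finset.mem_univ c)

theorem good_kos (a b c : Fin n) : Good l Ω m u h F (fun i x => kos (P i x) a b c)
    (fun y => kos (fun a b c => hd.p a b c y) a b c) := by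
  have h1 := hd.good_mul (hd.good_add (hd.good_add (hd.good_P a b c) (hd.good_P a c b))
    (hd.good_mul (hd.good_P b c a) (-1))) (1 / 2)
  have e1 : (fun i x => kos (P i x) a b c) = fun i x =>
      1 / 2 * (P i x a b c + P i x a c b + (-1) * P i x b c a) := by
    ext i x; unfold kos; ring
  have e2 : (fun y => kos (fun a b c => hd.p a b c y) a b c) = fun y =>
      1 / 2 * (hd.p a b c y + hd.p a c b y + (-1) * hd.p b c a y) := by
    ext y; unfold kos; ring
  rw [e1, e2]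
  exact h1

/-- **the limit of quadratic expressions** -/
theorem quad {f f' : ∀ i, X i → ℝ} {p p' : E n → ℝ} (hf : Good l Ω m u h F f p)
    (hf' : Good l Ω m u h F f' p') {Θ : Mt n → ℝ}
    (hΘ : ∀ A : Mt n, nI A ≤ 1 / 4 → ContinuousAt Θ A) {BΘ : ℝ}
    (hBΘ : ∀ A : Mt n, nI A ≤ 1 / 4 → |Θ A| ≤ BΘ) :
    WC l Ω m u (fun i x => (chi (fm (F i x)) * Θ (fm (F i x))) * (f i x * f' i x))
      (fun y => Θ (fm (h y)) * (Jf (fm (h y)))⁻¹ * (p y * p' y)) := by
  intro φ hφ
  have hfin := hd.base.fin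
  have hΨ : Continuous (fun A : Mt n => chi A * Θ A) := chi_mul_continuous hΘ
  obtain ⟨Cφ, hCφ0, hCφ⟩ := hφ.bdd
  obtain ⟨BJ, hBJ0, hBJ⟩ := hd.Ji_bdd
  have hBΘ0 : 0 ≤ BΘ := by
    have : nI (fun a b => (1 : Matrix (Fin n) (Fin n) ℝ) a b) ≤ 1 / 4 := by
      unfold nI N1
      have : ∀ a b, (Matrix.of (fun a b => (1 : Matrix (Fin n) (Fin n) ℝ) a b) -
          (1 : Matrix (Fin n) (Fin n) ℝ)) a b = 0 := fun a b => sub_self _
      simp only [this, abs_zero, Finset.sum_const_zero]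
      norm_num
    exact (abs_nonneg _).trans (hBΘ _ this)
  have hΘc : ContinuousOn (fun y => Θ (fm (h y))) Ω :=
    hd.comp_cont fun A hA => hΘ A (hA.trans (by norm_num))
  apply tendsto_of_approx
  intro ε hε
  set δ := ε / (Cφ * BΘ * BJ + BΘ + 1) with hδ
  have hδ0 : 0 < δ := by positivity
  have hδ1 : Cφ * BΘ * BJ * δ ≤ ε := by
    rw [hδ, mul_div_assoc', div_le_iff₀ (by positivity)]
    nlinarith [mul_nonneg (mul_nonneg hCφ0 hBΘ0) hBJ0]
  have hδ2 : BΘ * δ ≤ ε := by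
    rw [hδ, mul_div_assoc', div_le_iff₀ (by positivity)]
    nlinarith [mul_nonneg (mul_nonneg hCφ0 hBΘ0) hBJ0]
  obtain ⟨q, hq, hqc, hq1, hq2⟩ := hf.strong _ hφ.abs (fun y => abs_nonneg _) δ hδ0
  obtain ⟨q', hq', hqc', hq1', hq2'⟩ := hf'.strong _ hφ.abs (fun y => abs_nonneg _) δ hδ0
  have hQ := hd.Jiq_cont hq
  have hQ' := hd.Jiq_cont hq'
  have hφQ := hφ.mul_cont hd.base.opn hQ
  have hφQ' := hφ.mul_cont hd.base.opn hQ'
  have hφQQ := hφ.mul_cont hd.base.opn (hQ.mul hQ')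
  obtain ⟨A, hA⟩ := hf.bdd
  obtain ⟨A', hA'⟩ := hf'.bdd
  have t1 := hd.wc_mul hΨ hf'.mem hA' hf'.wc _ hφQ
  have t2 := hd.wc_mul hΨ hf.mem hA hf.wc _ hφQ'
  have t3 := hd.wcΨ hΨ _ hφQQ
  refine ⟨_, _, (t1.add t2).sub t3, ?_, ?_⟩
  · filter_upwards [hq2, hq2'] with i hi hi'
    have k0 : Integrable (fun x => φ (u i x) * ((chi (fm (F i x)) * Θ (fm (F i x))) *
        (f i x * f' i x))) (m i) :=
      hφ.integrable_comp hd.base (hd.bddt hΨ ((hf.mem i).integrable_mul (hf'.mem i)))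
    have k1 := hφQ.integrable_comp hd.base
      (hd.bddt hΨ ((hf'.mem i).integrable (by norm_num : (1 : ℝ≥0∞) ≤ 2)))
    have k2 := hφQ'.integrable_comp hd.base
      (hd.bddt hΨ ((hf.mem i).integrable (by norm_num : (1 : ℝ≥0∞) ≤ 2)))
    have k3 : Integrable (fun x => (φ (u i x) * (((Jf (fm (h (u i x))))⁻¹ * q (u i x)) *
        ((Jf (fm (h (u i x))))⁻¹ * q' (u i x)))) *
        (chi (fm (F i x)) * Θ (fm (F i x)))) (m i) := by
      have := hφQQ.integrable_comp hd.base (hd.bddt hΨ (i := i) (integrable_const (1 : ℝ)))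
      refine this.congr (Eventually.of_forall fun x => ?_)
      simp only [mul_one, Pi.mul_apply]
    have s1 := hd.int_sq hf.mem hφ.abs hQ i
    have s2 := hd.int_sq hf'.mem hφ.abs hQ' i
    refine (int4 k0 k1 k2 k3).trans ?_
    have e1 : ∫ x, |φ (u i x) * ((chi (fm (F i x)) * Θ (fm (F i x))) * (f i x * f' i x)) -
        (φ (u i x) * ((Jf (fm (h (u i x))))⁻¹ * q (u i x)) *
          ((chi (fm (F i x)) * Θ (fm (F i x))) * f' i x) +
        φ (u i x) * ((Jf (fm (h (u i x))))⁻¹ * q' (u i x)) *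
          ((chi (fm (F i x)) * Θ (fm (F i x))) * f i x) -
        (φ (u i x) * (((Jf (fm (h (u i x))))⁻¹ * q (u i x)) *
        ((Jf (fm (h (u i x))))⁻¹ * q' (u i x)))) *
        (chi (fm (F i x)) * Θ (fm (F i x))))| ∂(m i) ≤
        ∫ x, (BΘ / 2 * (|φ (u i x)| * (chi (fm (F i x)) *
          (f i x - (Jf (fm (h (u i x))))⁻¹ * q (u i x)) ^ 2)) +
          BΘ / 2 * (|φ (u i x)| * (chi (fm (F i x)) *
          (f' i x - (Jf (fm (h (u i x))))⁻¹ * q' (u i x)) ^ 2))) ∂(m i) := by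
      apply integral_mono (k0.sub ((k1.add k2).sub k3)).abs
        ((s1.const_mul _).add (s2.const_mul _))
      intro x
      show |φ (u i x) * ((chi (fm (F i x)) * Θ (fm (F i x))) * (f i x * f' i x)) -
        (φ (u i x) * ((Jf (fm (h (u i x))))⁻¹ * q (u i x)) *
          ((chi (fm (F i x)) * Θ (fm (F i x))) * f' i x) +
        φ (u i x) * ((Jf (fm (h (u i x))))⁻¹ * q' (u i x)) *
          ((chi (fm (F i x)) * Θ (fm (F i x))) * f i x) -
        (φ (u i x) * (((Jf (fm (h (u i x))))⁻¹ * q (u i x)) *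
        ((Jf (fm (h (u i x))))⁻¹ * q' (u i x)))) *
        (chi (fm (F i x)) * Θ (fm (F i x))))| ≤
        BΘ / 2 * (|φ (u i x)| * (chi (fm (F i x)) *
          (f i x - (Jf (fm (h (u i x))))⁻¹ * q (u i x)) ^ 2)) +
          BΘ / 2 * (|φ (u i x)| * (chi (fm (F i x)) *
          (f' i x - (Jf (fm (h (u i x))))⁻¹ * q' (u i x)) ^ 2))
      have e2 : φ (u i x) * ((chi (fm (F i x)) * Θ (fm (F i x))) * (f i x * f' i x)) -
        (φ (u i x) * ((Jf (fm (h (u i x))))⁻¹ * q (u i x)) *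
          ((chi (fm (F i x)) * Θ (fm (F i x))) * f' i x) +
        φ (u i x) * ((Jf (fm (h (u i x))))⁻¹ * q' (u i x)) *
          ((chi (fm (F i x)) * Θ (fm (F i x))) * f i x) -
        (φ (u i x) * (((Jf (fm (h (u i x))))⁻¹ * q (u i x)) *
        ((Jf (fm (h (u i x))))⁻¹ * q' (u i x)))) *
        (chi (fm (F i x)) * Θ (fm (F i x)))) =
        φ (u i x) * (chi (fm (F i x)) * (Θ (fm (F i x)) *
          ((f i x - (Jf (fm (h (u i x))))⁻¹ * q (u i x)) *
          (f' i x - (Jf (fm (h (u i x))))⁻¹ * q' (u i x))))) := by ring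
      rw [e2, abs_mul, abs_mul, abs_of_nonneg (chi_nonneg _)]
      set s := f i x - (Jf (fm (h (u i x))))⁻¹ * q (u i x)
      set s' := f' i x - (Jf (fm (h (u i x))))⁻¹ * q' (u i x)
      by_cases hn : nI (fm (F i x)) ≤ 1 / 4
      · have e3 : |Θ (fm (F i x)) * (s * s')| ≤ BΘ * ((s ^ 2 + s' ^ 2) / 2) := by
          rw [abs_mul]
          refine mul_le_mul (hBΘ _ hn) ?_ (abs_nonneg _) hBΘ0
          rw [abs_le]
          constructor <;> nlinarith [sq_nonneg (s + s'), sq_nonneg (s - s')]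
        have e4 := mul_le_mul_of_nonneg_left (mul_le_mul_of_nonneg_left e3
          (chi_nonneg (fm (F i x)))) (abs_nonneg (φ (u i x)))
        refine e4.trans (le_of_eq ?_)
        ring
      · push Not at hn
        rw [chi_zero hn.le]
        simp
    refine e1.trans ?_
    rw [integral_add (s1.const_mul _) (s2.const_mul _), integral_const_mul,
      integral_const_mul]
    calc _ ≤ BΘ / 2 * δ + BΘ / 2 * δ := add_le_add
            (mul_le_mul_of_nonneg_left hi (by positivity))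
            (mul_le_mul_of_nonneg_left hi' (by positivity))
      _ = BΘ * δ := by ring
      _ ≤ ε := hδ2
  · have j0 : Integrable (fun y => φ y * (Θ (fm (h y)) * (Jf (fm (h y)))⁻¹ * (p y * p' y))) := by
      have h1 : LI Ω (fun y => p y * p' y) := fun K _ _ =>
        (hf.lim.integrable_mul hf'.lim).integrableOn
      exact hφ.integrable_mul (LI.mul_cont (hΘc.mul hd.Ji_cont) h1)
    have j1 := hφQ.integrable_mul (LI.mul_cont (hd.contΨ hΨ) (LI.of_memLp hf'.lim))
    have j2 := hφQ'.integrable_mul (LI.mul_cont (hd.contΨ hΨ) (LI.of_memLp hf.lim))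
    have j3 := hφQQ.integrable_mul (LI.of_cont ((hd.contΨ hΨ).mul hd.J_cont))
    have s1 : Integrable (fun y => (p y - q y) ^ 2) :=
      (hf.lim.sub (hq.memLp_of_hasCompactSupport hqc)).integrable_sq
    have s2 : Integrable (fun y => (p' y - q' y) ^ 2) :=
      (hf'.lim.sub (hq'.memLp_of_hasCompactSupport hqc')).integrable_sq
    refine (int4 j0 j1 j2 j3).trans ?_
    have e1 : ∫ y, |φ y * (Θ (fm (h y)) * (Jf (fm (h y)))⁻¹ * (p y * p' y)) -
        (φ y * ((Jf (fm (h y)))⁻¹ * q y) * ((chi (fm (h y)) * Θ (fm (h y))) * p' y) +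
        φ y * ((Jf (fm (h y)))⁻¹ * q' y) * ((chi (fm (h y)) * Θ (fm (h y))) * p y) -
        φ y * (((Jf (fm (h y)))⁻¹ * q y) * ((Jf (fm (h y)))⁻¹ * q' y)) *
          ((chi (fm (h y)) * Θ (fm (h y))) * Jf (fm (h y))))| ≤
        ∫ y, (Cφ * BΘ * BJ / 2 * (p y - q y) ^ 2 + Cφ * BΘ * BJ / 2 * (p' y - q' y) ^ 2) := by
      apply integral_mono (j0.sub ((j1.add j2).sub j3)).abs
        ((s1.const_mul _).add (s2.const_mul _))
      intro y
      show |φ y * (Θ (fm (h y)) * (Jf (fm (h y)))⁻¹ * (p y * p' y)) -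
        (φ y * ((Jf (fm (h y)))⁻¹ * q y) * ((chi (fm (h y)) * Θ (fm (h y))) * p' y) +
        φ y * ((Jf (fm (h y)))⁻¹ * q' y) * ((chi (fm (h y)) * Θ (fm (h y))) * p y) -
        φ y * (((Jf (fm (h y)))⁻¹ * q y) * ((Jf (fm (h y)))⁻¹ * q' y)) *
          ((chi (fm (h y)) * Θ (fm (h y))) * Jf (fm (h y))))| ≤
        Cφ * BΘ * BJ / 2 * (p y - q y) ^ 2 + Cφ * BΘ * BJ / 2 * (p' y - q' y) ^ 2
      by_cases hz : φ y = 0
      · simp only [hz, zero_mul, add_zero, sub_zero, abs_zero]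
        positivity
      · have hy : y ∈ Ω := hφ.mem_of_ne hz
        have hJ := hd.J_pos hy
        rw [chi_one (hd.nIh hy)]
        have e2 : φ y * (Θ (fm (h y)) * (Jf (fm (h y)))⁻¹ * (p y * p' y)) -
          (φ y * ((Jf (fm (h y)))⁻¹ * q y) * ((1 * Θ (fm (h y))) * p' y) +
          φ y * ((Jf (fm (h y)))⁻¹ * q' y) * ((1 * Θ (fm (h y))) * p y) -
          φ y * (((Jf (fm (h y)))⁻¹ * q y) * ((Jf (fm (h y)))⁻¹ * q' y)) *
            ((1 * Θ (fm (h y))) * Jf (fm (h y)))) =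
          φ y * (Θ (fm (h y)) * ((Jf (fm (h y)))⁻¹ * ((p y - q y) * (p' y - q' y)))) := by
          field_simp
          ring
        rw [e2, abs_mul, abs_mul, abs_mul]
        have e3 : |(p y - q y) * (p' y - q' y)| ≤ ((p y - q y) ^ 2 + (p' y - q' y) ^ 2) / 2 := by
          rw [abs_le]
          constructor <;> nlinarith [sq_nonneg ((p y - q y) + (p' y - q' y)),
            sq_nonneg ((p y - q y) - (p' y - q' y))]
        have e4 : |φ y| * (|Θ (fm (h y))| * (|(Jf (fm (h y)))⁻¹| *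
            |(p y - q y) * (p' y - q' y)|)) ≤
            Cφ * (BΘ * (BJ * (((p y - q y) ^ 2 + (p' y - q' y) ^ 2) / 2))) := by
          refine mul_le_mul (hCφ y) ?_ (by positivity) hCφ0
          refine mul_le_mul (hBΘ _ (hd.nIh4 hy)) ?_ (by positivity) hBΘ0
          exact mul_le_mul (hBJ y hy) e3 (abs_nonneg _) hBJ0
        refine e4.trans (le_of_eq ?_)
        ring
    refine e1.trans ?_
    rw [integral_add (s1.const_mul _) (s2.const_mul _), integral_const_mul,
      integral_const_mul]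
    calc _ ≤ Cφ * BΘ * BJ / 2 * δ + Cφ * BΘ * BJ / 2 * δ := add_le_add
            (mul_le_mul_of_nonneg_left hq1 (by positivity))
            (mul_le_mul_of_nonneg_left hq1' (by positivity))
      _ = Cφ * BΘ * BJ * δ := by ring
      _ ≤ ε := hδ1

end LData

end main

end Crest.Agent.R249.Lim41
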