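import Crest.Agent.R249.Lim3_621

/-!
# Row 249, part A2 v3: the limit passage for a general obstacle `k`, nonlinearity `F` and gauge `N`

finite dimensional part, file 0: data, shift, first estimates.
-/

set_option autoImplicit false
set_option linter.unusedVariables false

namespace Crest.Agent.R249.LimG621

open Crest.Agent.R249.Lim621

/-- constraint data: the defining function `k` with its derivatives, and the gauge `N` -/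
structure KD (E : Type*) where
  k : ℝ → ℝ → ℝ
  kf : ℝ → ℝ → ℝ
  kg : ℝ → ℝ → ℝ
  kff : ℝ → ℝ → ℝ
  kfg : ℝ → ℝ → ℝ
  kgg : ℝ → ℝ → ℝ
  N : ℝ → ℝ → E → E → ℝ

variable {E H : Type*} [NormedAddCommGroup E] [InnerProductSpace ℝ E]
  [NormedAddCommGroup H] [NormedSpace ℝ H]

/-- `dk` -/
def KD.Lv (D : KD E) (j : Jet E H) : E := D.kf j.f j.g • j.p + D.kg j.f j.g • j.q

/-- `E_k = Δk` for solutions of the equations -/
noncomputable def KD.Ek (D : KD E) (F : ℝ → ℝ) (f g : ℝ) (p q : E) : ℝ :=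
  D.kf f g * F f + D.kg f g * F g + D.kff f g * ‖p‖ ^ 2 +
    2 * D.kfg f g * inner ℝ p q + D.kgg f g * ‖q‖ ^ 2

/-- bounded and Lipschitz on the box -/
def LB (lo u B : ℝ) (h : ℝ → ℝ → ℝ) : Prop :=
  ∀ f g, lo ≤ f → f ≤ u → lo ≤ g → g ≤ u → |h f g| ≤ B ∧
    ∀ f' g', lo ≤ f' → f' ≤ u → lo ≤ g' → g' ≤ u → |h f g - h f' g'| ≤ B * (|f - f'| + |g - g'|)

/-- the hypotheses on the constraint data, all constants are `B` -/
structure KOK (D : KD E) (F : ℝ → ℝ) (o lo0 lo u0 u B ε0 : ℝ) : Prop where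
  B1 : 1 ≤ B
  ε00 : 0 < ε0
  ε01 : ε0 ≤ 1
  εB : B * ε0 ≤ 1 / 2
  olo : o ≤ lo
  lolo : lo ≤ lo0
  uu : u0 ≤ u
  ouB : u - o ≤ B
  hF : LB lo u B (fun f _ => F f)
  hkf : LB lo u B D.kf
  hkg : LB lo u B D.kg
  hkff : LB lo u B D.kff
  hkfg : LB lo u B D.kfg
  hkgg : LB lo u B D.kgg
  negf : ∀ f g, lo ≤ f → f ≤ u → lo ≤ g → g ≤ u → |D.k f g| ≤ ε0 → 1 ≤ B * (-D.kf f g)
  negg : ∀ f g, lo ≤ f → f ≤ u → lo ≤ g → g ≤ u → |D.k f g| ≤ ε0 → 1 ≤ B * (-D.kg f g)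
  rad : ∀ f g, lo ≤ f → f ≤ u → lo ≤ g → g ≤ u → D.k f g = 0 →
    1 ≤ B * (-((f - o) * D.kf f g + (g - o) * D.kg f g))
  ray : ∀ f g ε, lo0 ≤ f → f ≤ u0 → lo0 ≤ g → g ≤ u0 → |D.k f g| ≤ ε → ε ≤ ε0 →
    ∃ lam : ℝ, 0 < lam ∧ |lam - 1| ≤ B * ε ∧ D.k (o + lam * (f - o)) (o + lam * (g - o)) = 0 ∧
      lo ≤ o + lam * (f - o) ∧ o + lam * (f - o) ≤ u ∧ lo ≤ o + lam * (g - o) ∧
      o + lam * (g - o) ≤ u
  N0 : ∀ f g p q, 0 ≤ D.N f g p q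
  N1 : ∀ f g p q θ, 0 ≤ θ → D.N f g (θ • p) (θ • q) = θ ^ 2 * D.N f g p q
  N2 : ∀ f g f' g' p q p' q', lo ≤ f → f ≤ u → lo ≤ g → g ≤ u →
    lo ≤ f' → f' ≤ u → lo ≤ g' → g' ≤ u → |D.N f g p q - D.N f' g' p' q'| ≤
      B * ((|f - f'| + |g - g'|) * (‖p‖ ^ 2 + ‖q‖ ^ 2) +
        (‖p - p'‖ + ‖q - q'‖) * (‖p‖ + ‖q‖ + ‖p'‖ + ‖q'‖))
  N3 : ∀ f g p q, lo ≤ f → f ≤ u → lo ≤ g → g ≤ u → 1 ≤ D.N f g p q →
    ‖p‖ ^ 2 + ‖q‖ ^ 2 ≤ B * D.N f g p q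

/-- the shifted jet -/
def shiftG (one : H) (o : ℝ) (j : Jet E H) (lam : ℝ) (v : E) (θ α α' : ℝ) : Jet E H where
  f := o + lam * (j.f - o)
  g := o + lam * (j.g - o)
  p := θ • (j.p + (j.f - o) • v)
  q := θ • (j.q + (j.g - o) • v)
  P := j.P + α • one
  Q := j.Q + α' • one

/-- `X = (ψ - o) dφ - (φ - o) dψ` -/
def Xo (o : ℝ) (j : Jet E H) : E := (j.g - o) • j.p - (j.f - o) • j.q

theorem shiftG_Xo (one : H) (o : ℝ) (j : Jet E H) (lam : ℝ) (v : E) (θ α α' : ℝ) :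
    Xo o (shiftG one o j lam v θ α α') = (lam * θ) • Xo o j := by
  show (o + lam * (j.g - o) - o) • (θ • (j.p + (j.f - o) • v)) -
      (o + lam * (j.f - o) - o) • (θ • (j.q + (j.g - o) • v)) =
      (lam * θ) • ((j.g - o) • j.p - (j.f - o) • j.q)
  module

/-- the relation between the jets which are compared -/
def RelG (o ε : ℝ) (j j' : Jet E H) : Prop :=
  ∃ lam θ : ℝ, 0 < lam ∧ |lam - 1| ≤ ε ∧ 0 < θ ∧ θ ≤ 1 ∧ j'.f - o = lam * (j.f - o) ∧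
    j'.g - o = lam * (j.g - o) ∧ Xo o j' = (lam * θ) • Xo o j

/-- weight four Lipschitz condition on the box. -/
def LipG (o lo u C : ℝ) (I : Jet E H → ℝ) : Prop :=
  ∀ (ε : ℝ) (j j' : Jet E H), 0 ≤ ε → ε ≤ 1 / 2 → lo ≤ j.f → j.f ≤ u → lo ≤ j.g → j.g ≤ u →
    lo ≤ j'.f → j'.f ≤ u → lo ≤ j'.g → j'.g ≤ u → RelG o ε j j' →
    |I j - I j'| ≤ C * Mod ε j j'

/-- the error function -/
noncomputable def ErG (t Z l e r r' ν : ℝ) : ℝ :=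
  t * Z ^ 2 + (t ^ 7)⁻¹ * (l ^ 4 + e ^ 2 + r ^ 2 + r' ^ 2 + ν ^ 2)

/-! ### norms -/

theorem norm_le_w (j : Jet E H) : ‖j.p‖ ≤ Real.sqrt j.W ∧ ‖j.q‖ ≤ Real.sqrt j.W ∧
    1 ≤ Real.sqrt j.W ∧ Real.sqrt j.W ^ 2 = j.W := by
  have h1 := norm_nonneg j.P
  have h2 := norm_nonneg j.Q
  have h3 := sq_nonneg ‖j.p‖
  have h4 := sq_nonneg ‖j.q‖
  refine ⟨?_, ?_, ?_, Real.sq_sqrt j.W_nonneg⟩
  · apply Real.le_sqrt_of_sq_le
    unfold Jet.W; linarith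
  · apply Real.le_sqrt_of_sq_le
    unfold Jet.W; linarith
  · apply Real.le_sqrt_of_sq_le
    have := j.one_le_W
    simpa using this

/-! ### the tangential shift -/

theorem v_bound {a b a0 b0 A G B dF w l : ℝ} {p q v : E} (hB : 1 ≤ B) (hdF : 0 ≤ dF)
    (hp : ‖p‖ ≤ w) (hq : ‖q‖ ≤ w) (ha : |a0 - a| ≤ B * dF) (hb : |b0 - b| ≤ B * dF)
    (hl : ‖a0 • p + b0 • q‖ ≤ l) {Dn : ℝ} (hD : 1 ≤ 2 * B * Dn)
    (hv : v = Dn⁻¹ • (a • p + b • q)) : ‖v‖ ≤ 2 * B * l + 4 * B ^ 2 * dF * w := by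
  have hB0 : 0 < B := by linarith
  have hDn : 0 < Dn := by
    by_contra h
    rw [not_lt] at h
    have : 2 * B * Dn ≤ 0 := mul_nonpos_of_nonneg_of_nonpos (by positivity) h
    linarith
  have hinv : Dn⁻¹ ≤ 2 * B := by
    rw [inv_le_comm₀ hDn (by positivity), inv_le_iff_one_le_mul₀ (by positivity)]
    linarith
  have hw : 0 ≤ w := (norm_nonneg p).trans hp
  have h1 : a • p + b • q = (a0 • p + b0 • q) - ((a0 - a) • p + (b0 - b) • q) := by module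
  have h2 : ‖(a0 - a) • p + (b0 - b) • q‖ ≤ 2 * B * dF * w := by
    refine (norm_add_le _ _).trans ?_
    rw [norm_smul, norm_smul, Real.norm_eq_abs, Real.norm_eq_abs]
    have h3 : |a0 - a| * ‖p‖ ≤ B * dF * w := mul_le_mul ha hp (norm_nonneg _) (by positivity)
    have h4 : |b0 - b| * ‖q‖ ≤ B * dF * w := mul_le_mul hb hq (norm_nonneg _) (by positivity)
    linarith
  have h3 : ‖a • p + b • q‖ ≤ l + 2 * B * dF * w := by
    rw [h1]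
    exact (norm_sub_le _ _).trans (add_le_add hl h2)
  have hl0 : 0 ≤ l := (norm_nonneg _).trans hl
  rw [hv, norm_smul, Real.norm_of_nonneg (by positivity)]
  calc Dn⁻¹ * ‖a • p + b • q‖ ≤ (2 * B) * (l + 2 * B * dF * w) :=
        mul_le_mul hinv h3 (norm_nonneg _) (by positivity)
    _ = _ := by ring

/-- scaling to `N ≤ 1` -/
theorem exists_scal {D : KD E} {F : ℝ → ℝ} {o lo0 lo u0 u B ε0 : ℝ}
    (hD : KOK D F o lo0 lo u0 u B ε0) {f g : ℝ} (hf : lo ≤ f) (hf' : f ≤ u) (hg : lo ≤ g)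
    (hg' : g ≤ u) (p q : E) {η : ℝ} (hη : 0 ≤ η) (hN : D.N f g p q ≤ 1 + η) :
    ∃ θ : ℝ, 0 < θ ∧ θ ≤ 1 ∧ D.N f g (θ • p) (θ • q) ≤ 1 ∧
      ((1 - θ) * ‖p‖) ^ 2 ≤ B * η ∧ ((1 - θ) * ‖q‖) ^ 2 ≤ B * η := by
  have hB0 : 0 ≤ B := zero_le_one.trans hD.B1
  rcases le_or_gt (D.N f g p q) 1 with h | h
  · refine ⟨1, one_pos, le_rfl, by simpa using h, ?_, ?_⟩
    · rw [sub_self, zero_mul, zero_pow two_ne_zero]
      exact mul_nonneg hB0 hη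
    · rw [sub_self, zero_mul, zero_pow two_ne_zero]
      exact mul_nonneg hB0 hη
  · obtain ⟨n, hn⟩ : ∃ n, n = D.N f g p q := ⟨_, rfl⟩
    rw [← hn] at h hN
    have hn0 : 0 < n := by linarith
    have hs : Real.sqrt n ^ 2 = n := Real.sq_sqrt hn0.le
    have hs1 : 1 ≤ Real.sqrt n := by
      rw [Real.one_le_sqrt]; exact h.le
    have hs0 : 0 < Real.sqrt n := by linarith
    have h3 := hD.N3 f g p q hf hf' hg hg' (by rw [← hn]; exact h.le)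
    rw [← hn] at h3
    have h4 : 0 ≤ 1 - (Real.sqrt n)⁻¹ := by
      have := inv_le_one_of_one_le₀ hs1
      linarith
    have key : (1 - (Real.sqrt n)⁻¹) ^ 2 * n ≤ η := by
      have h5 : (1 - (Real.sqrt n)⁻¹) ^ 2 * n = (Real.sqrt n - 1) ^ 2 := by
        nth_rewrite 2 [← hs]
        field_simp
      rw [h5]
      nlinarith
    have hpq : ∀ y : ℝ, y ^ 2 ≤ B * n → ((1 - (Real.sqrt n)⁻¹) * y) ^ 2 ≤ B * η := by
      intro y hy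
      calc ((1 - (Real.sqrt n)⁻¹) * y) ^ 2 = (1 - (Real.sqrt n)⁻¹) ^ 2 * y ^ 2 := by ring
        _ ≤ (1 - (Real.sqrt n)⁻¹) ^ 2 * (B * n) := mul_le_mul_of_nonneg_left hy (sq_nonneg _)
        _ = B * ((1 - (Real.sqrt n)⁻¹) ^ 2 * n) := by ring
        _ ≤ B * η := mul_le_mul_of_nonneg_left key hB0
    refine ⟨(Real.sqrt n)⁻¹, by positivity, inv_le_one_of_one_le₀ hs1, ?_, ?_, ?_⟩
    · rw [hD.N1 _ _ _ _ _ (by positivity), ← hn, inv_pow, hs]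
      rw [inv_mul_cancel₀ hn0.ne']
    · apply hpq
      have := sq_nonneg ‖q‖
      linarith
    · apply hpq
      have := sq_nonneg ‖p‖
      linarith

end Crest.Agent.R249.LimG621
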