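import Crest.Agent.R249.LimG0_621

/-!
# Row 249, part A2 v3: the limit passage, general case; file 1: the estimates of the shift
-/

set_option autoImplicit false
set_option linter.unusedVariables false
set_option linter.unusedSectionVars false

namespace Crest.Agent.R249.LimG621

open Crest.Agent.R249.Lim621

variable {E H : Type*} [NormedAddCommGroup E] [InnerProductSpace ℝ E]
  [NormedAddCommGroup H] [NormedSpace ℝ H]

theorem ab_diff {a b a' b' A B' δa δb : ℝ} (ha : |a| ≤ A) (hb' : |b'| ≤ B') (h1 : |a - a'| ≤ δa)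
    (h2 : |b - b'| ≤ δb) : |a * b - a' * b'| ≤ A * δb + δa * B' := by
  have e : a * b - a' * b' = a * (b - b') + (a - a') * b' := by ring
  rw [e]
  refine (abs_add_le _ _).trans ?_
  rw [abs_mul, abs_mul]
  have h3 : 0 ≤ A := (abs_nonneg _).trans ha
  have h4 : 0 ≤ δa := (abs_nonneg _).trans h1
  exact add_le_add (mul_le_mul ha h2 (abs_nonneg _) h3) (mul_le_mul h1 hb' (abs_nonneg _) h4)

theorem norm_sq_diff {p p' : E} {d w M : ℝ} (hd : ‖p - p'‖ ≤ d) (hp : ‖p‖ ≤ w)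
    (hp' : ‖p'‖ ≤ M * w) : |‖p‖ ^ 2 - ‖p'‖ ^ 2| ≤ (1 + M) * w * d := by
  have h1 : |‖p‖ - ‖p'‖| ≤ d := (abs_norm_sub_norm_le _ _).trans hd
  have h2 : ‖p‖ ^ 2 - ‖p'‖ ^ 2 = (‖p‖ - ‖p'‖) * (‖p‖ + ‖p'‖) := by ring
  rw [h2, abs_mul, abs_of_nonneg (by positivity : 0 ≤ ‖p‖ + ‖p'‖)]
  have h3 : ‖p‖ + ‖p'‖ ≤ (1 + M) * w := by linarith
  calc |‖p‖ - ‖p'‖| * (‖p‖ + ‖p'‖) ≤ d * ((1 + M) * w) :=
        mul_le_mul h1 h3 (by positivity) ((abs_nonneg _).trans h1)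
    _ = _ := by ring

theorem inner_diff {p p' q q' : E} {d w M : ℝ} (hp0 : ‖p - p'‖ ≤ d) (hq0 : ‖q - q'‖ ≤ d)
    (hp : ‖p‖ ≤ w) (hq' : ‖q'‖ ≤ M * w) :
    |(inner ℝ p q : ℝ) - inner ℝ p' q'| ≤ (1 + M) * w * d := by
  have h1 : (inner ℝ p q : ℝ) - inner ℝ p' q' = inner ℝ p (q - q') + inner ℝ (p - p') q' := by
    rw [inner_sub_right, inner_sub_left]; ring
  rw [h1]
  refine (abs_add_le _ _).trans ?_
  have h2 := abs_real_inner_le_norm p (q - q')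
  have h3 := abs_real_inner_le_norm (p - p') q'
  have hw : 0 ≤ w := (norm_nonneg _).trans hp
  have hd : 0 ≤ d := (norm_nonneg _).trans hp0
  have h4 : ‖p‖ * ‖q - q'‖ ≤ w * d := mul_le_mul hp hq0 (norm_nonneg _) hw
  have h5 : ‖p - p'‖ * ‖q'‖ ≤ d * (M * w) := mul_le_mul hp0 hq' (norm_nonneg _) hd
  linarith

theorem le_sq_self {B : ℝ} (hB : 1 ≤ B) : B ≤ B ^ 2 := by nlinarith

theorem one_add_le {M : ℝ} (hM : 1 ≤ M) : 1 + M ≤ 2 * M ^ 2 := by nlinarith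

theorem ek_aux {B M w d dF : ℝ} (hB : 1 ≤ B) (hM : 1 ≤ M) (hw : 1 ≤ w) (hd0 : 0 ≤ d)
    (hdF0 : 0 ≤ dF) : (B * (B * dF) + B * dF * B) + (B * (B * dF) + B * dF * B) +
      (B * ((1 + M) * w * d) + B * dF * (M ^ 2 * w ^ 2)) +
      2 * (B * ((1 + M) * w * d) + B * dF * (M ^ 2 * w ^ 2)) +
      (B * ((1 + M) * w * d) + B * dF * (M ^ 2 * w ^ 2)) ≤
      8 * B ^ 2 * M ^ 2 * (dF * w ^ 2 + w * d) := by
  have hB0 : 0 ≤ B := by linarith
  have hw0 : 0 ≤ w := by linarith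
  have hM0 : 0 ≤ M := by linarith
  have k1 : B * (B * dF) ≤ B ^ 2 * M ^ 2 * (dF * w ^ 2) := by
    have : B * (B * dF) = B ^ 2 * dF := by ring
    rw [this]
    have h2 : dF ≤ dF * w ^ 2 := le_mul_of_one_le_right hdF0 (one_le_pow₀ hw)
    have h3 : 1 ≤ M ^ 2 := one_le_pow₀ hM
    calc B ^ 2 * dF ≤ B ^ 2 * (dF * w ^ 2) := mul_le_mul_of_nonneg_left h2 (by positivity)
      _ ≤ B ^ 2 * M ^ 2 * (dF * w ^ 2) := by
        apply mul_le_mul_of_nonneg_right _ (by positivity)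
        exact le_mul_of_one_le_right (by positivity) h3
  have k2 : B * ((1 + M) * w * d) ≤ 2 * (B ^ 2 * M ^ 2 * (w * d)) := by
    have h2 := one_add_le hM
    have h3 := le_sq_self hB
    have h4 : 0 ≤ w * d := by positivity
    calc B * ((1 + M) * w * d) = B * (1 + M) * (w * d) := by ring
      _ ≤ B ^ 2 * (2 * M ^ 2) * (w * d) := by
        apply mul_le_mul_of_nonneg_right _ h4
        exact mul_le_mul h3 h2 (by positivity) (by positivity)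
      _ = _ := by ring
  have k3 : B * dF * (M ^ 2 * w ^ 2) ≤ B ^ 2 * M ^ 2 * (dF * w ^ 2) := by
    have h3 := le_sq_self hB
    calc B * dF * (M ^ 2 * w ^ 2) = B * (M ^ 2 * (dF * w ^ 2)) := by ring
      _ ≤ B ^ 2 * (M ^ 2 * (dF * w ^ 2)) := mul_le_mul_of_nonneg_right h3 (by positivity)
      _ = _ := by ring
  have k4 : B * dF * B = B * (B * dF) := by ring
  rw [k4]
  linarith

theorem abs5 {a b c d e A B C D E : ℝ} (ha : |a| ≤ A) (hb : |b| ≤ B) (hc : |c| ≤ C)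
    (hd : |d| ≤ D) (he : |e| ≤ E) : |a + b + c + 2 * d + e| ≤ A + B + C + 2 * D + E := by
  have := abs_le.mp ha
  have := abs_le.mp hb
  have := abs_le.mp hc
  have := abs_le.mp hd
  have := abs_le.mp he
  rw [abs_le]
  constructor <;> linarith

/-- the difference of `E_k` -/
theorem Ek_diff {D : KD E} {F : ℝ → ℝ} {o lo0 lo u0 u B ε0 : ℝ}
    (hD : KOK D F o lo0 lo u0 u B ε0) {f g f' g' : ℝ} {p q p' q' : E} {w M d dF : ℝ}
    (hf : lo ≤ f) (hfu : f ≤ u) (hg : lo ≤ g) (hgu : g ≤ u)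
    (hf' : lo ≤ f') (hfu' : f' ≤ u) (hg' : lo ≤ g') (hgu' : g' ≤ u)
    (hdF : |f - f'| + |g - g'| ≤ dF) (hM : 1 ≤ M) (hw : 1 ≤ w)
    (hp : ‖p‖ ≤ w) (hq : ‖q‖ ≤ w) (hp' : ‖p'‖ ≤ M * w) (hq' : ‖q'‖ ≤ M * w)
    (hpd : ‖p - p'‖ ≤ d) (hqd : ‖q - q'‖ ≤ d) :
    |D.Ek F f g p q - D.Ek F f' g' p' q'| ≤ 8 * B ^ 2 * M ^ 2 * (dF * w ^ 2 + w * d) := by
  have hB := hD.B1
  have hB0 : 0 ≤ B := by linarith
  have hdF0 : 0 ≤ dF := le_trans (by positivity) hdF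
  have hd0 : 0 ≤ d := (norm_nonneg _).trans hpd
  have hw0 : 0 ≤ w := by linarith
  have hM0 : 0 ≤ M := by linarith
  -- coefficient differences
  have co : ∀ h : ℝ → ℝ → ℝ, LB lo u B h → |h f g| ≤ B ∧ |h f' g'| ≤ B ∧
      |h f g - h f' g'| ≤ B * dF := fun h hh =>
    ⟨(hh f g hf hfu hg hgu).1, (hh f' g' hf' hfu' hg' hgu').1,
      ((hh f g hf hfu hg hgu).2 f' g' hf' hfu' hg' hgu').trans
        (mul_le_mul_of_nonneg_left hdF hB0)⟩
  obtain ⟨f1, f2, f3⟩ := co _ hD.hkf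
  obtain ⟨g1, g2, g3⟩ := co _ hD.hkg
  obtain ⟨a1, a2, a3⟩ := co _ hD.hkff
  obtain ⟨b1, b2, b3⟩ := co _ hD.hkfg
  obtain ⟨c1, c2, c3⟩ := co _ hD.hkgg
  have F1 : |F f'| ≤ B := (hD.hF f' g' hf' hfu' hg' hgu').1
  have F2 : |F g'| ≤ B := (hD.hF g' f' hg' hgu' hf' hfu').1
  have F3 : |F f - F f'| ≤ B * dF :=
    ((hD.hF f g hf hfu hg hgu).2 f' g' hf' hfu' hg' hgu').trans (mul_le_mul_of_nonneg_left hdF hB0)
  have F4 : |F g - F g'| ≤ B * dF :=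
    ((hD.hF g f hg hgu hf hfu).2 g' f' hg' hgu' hf' hfu').trans
      (mul_le_mul_of_nonneg_left (by linarith) hB0)
  have t1 := ab_diff f1 F1 f3 F3
  have t2 := ab_diff g1 F2 g3 F4
  -- quadratic terms
  have hMw : ‖p'‖ ^ 2 ≤ M ^ 2 * w ^ 2 := by
    rw [← mul_pow]; exact pow_le_pow_left₀ (norm_nonneg _) hp' 2
  have hMw' : ‖q'‖ ^ 2 ≤ M ^ 2 * w ^ 2 := by
    rw [← mul_pow]; exact pow_le_pow_left₀ (norm_nonneg _) hq' 2
  have hMi : |(inner ℝ p' q' : ℝ)| ≤ M ^ 2 * w ^ 2 := by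
    refine (abs_real_inner_le_norm _ _).trans ?_
    calc ‖p'‖ * ‖q'‖ ≤ (M * w) * (M * w) := mul_le_mul hp' hq' (norm_nonneg _) (by positivity)
      _ = _ := by ring
  have hMa : |‖p'‖ ^ 2| ≤ M ^ 2 * w ^ 2 := by rw [abs_of_nonneg (sq_nonneg _)]; exact hMw
  have hMb : |‖q'‖ ^ 2| ≤ M ^ 2 * w ^ 2 := by rw [abs_of_nonneg (sq_nonneg _)]; exact hMw'
  have t3 := ab_diff a1 hMa a3 (norm_sq_diff hpd hp hp')
  have t4 := ab_diff b1 hMi b3 (inner_diff hpd hqd hp hq')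
  have t5 := ab_diff c1 hMb c3 (norm_sq_diff hqd hq hq')
  have e : D.Ek F f g p q - D.Ek F f' g' p' q' =
      (D.kf f g * F f - D.kf f' g' * F f') + (D.kg f g * F g - D.kg f' g' * F g') +
      (D.kff f g * ‖p‖ ^ 2 - D.kff f' g' * ‖p'‖ ^ 2) +
      2 * (D.kfg f g * inner ℝ p q - D.kfg f' g' * inner ℝ p' q') +
      (D.kgg f g * ‖q‖ ^ 2 - D.kgg f' g' * ‖q'‖ ^ 2) := by
    unfold KD.Ek; ring
  rw [e]
  exact (abs5 t1 t2 t3 t4 t5).trans (ek_aux hB hM hw hd0 hdF0)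

/-- bound for `E_k` -/
theorem Ek_bound {D : KD E} {F : ℝ → ℝ} {o lo0 lo u0 u B ε0 : ℝ}
    (hD : KOK D F o lo0 lo u0 u B ε0) {f g : ℝ} {p q : E} {w : ℝ}
    (hf : lo ≤ f) (hfu : f ≤ u) (hg : lo ≤ g) (hgu : g ≤ u) (hw : 1 ≤ w)
    (hp : ‖p‖ ≤ w) (hq : ‖q‖ ≤ w) : |D.Ek F f g p q| ≤ 6 * B ^ 2 * w ^ 2 := by
  have hB := hD.B1
  have hB0 : 0 ≤ B := by linarith
  have f1 := (hD.hkf f g hf hfu hg hgu).1
  have g1 := (hD.hkg f g hf hfu hg hgu).1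
  have a1 := (hD.hkff f g hf hfu hg hgu).1
  have b1 := (hD.hkfg f g hf hfu hg hgu).1
  have c1 := (hD.hkgg f g hf hfu hg hgu).1
  have F1 : |F f| ≤ B := (hD.hF f g hf hfu hg hgu).1
  have F2 : |F g| ≤ B := (hD.hF g f hg hgu hf hfu).1
  have hw2 : 1 ≤ w ^ 2 := one_le_pow₀ hw
  have hp2 : ‖p‖ ^ 2 ≤ w ^ 2 := pow_le_pow_left₀ (norm_nonneg _) hp 2
  have hq2 : ‖q‖ ^ 2 ≤ w ^ 2 := pow_le_pow_left₀ (norm_nonneg _) hq 2
  have hi : |(inner ℝ p q : ℝ)| ≤ w ^ 2 := by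
    refine (abs_real_inner_le_norm _ _).trans ?_
    rw [sq]
    exact mul_le_mul hp hq (norm_nonneg _) (by linarith)
  have mm : ∀ {a b A' B' : ℝ}, |a| ≤ A' → |b| ≤ B' → |a * b| ≤ A' * B' := fun ha hb => by
    rw [abs_mul]
    exact mul_le_mul ha hb (abs_nonneg _) ((abs_nonneg _).trans ha)
  have t1 := mm f1 F1
  have t2 := mm g1 F2
  have t3 := mm a1 (show |‖p‖ ^ 2| ≤ w ^ 2 by rw [abs_of_nonneg (sq_nonneg _)]; exact hp2)
  have t4 := mm b1 hi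
  have t5 := mm c1 (show |‖q‖ ^ 2| ≤ w ^ 2 by rw [abs_of_nonneg (sq_nonneg _)]; exact hq2)
  have h1 : |D.Ek F f g p q| ≤ B * B + B * B + B * w ^ 2 + 2 * (B * w ^ 2) + B * w ^ 2 := by
    have e : D.Ek F f g p q = D.kf f g * F f + D.kg f g * F g + D.kff f g * ‖p‖ ^ 2 +
      2 * (D.kfg f g * inner ℝ p q) + D.kgg f g * ‖q‖ ^ 2 := by unfold KD.Ek; ring
    rw [e]
    exact abs5 t1 t2 t3 t4 t5
  refine h1.trans ?_
  have h3 := le_sq_self hB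
  have h4 : B * B ≤ B ^ 2 * w ^ 2 := by
    rw [← sq]; exact le_mul_of_one_le_right (by positivity) hw2
  have h5 : B * w ^ 2 ≤ B ^ 2 * w ^ 2 := mul_le_mul_of_nonneg_right h3 (by positivity)
  linarith

/-- one multiplier -/
theorem mult_boundG {B a a' m S θ T ΔE e dF Y : ℝ} (hB : 1 ≤ B) (ha : 1 ≤ B * a)
    (ha' : 1 ≤ B * a') (haa : |a - a'| ≤ B * dF) (hdF : 0 ≤ dF) (hm : 0 ≤ m) (hmS : a * m ≤ S)
    (hθ0 : 0 ≤ θ) (hθ1 : θ ≤ 1) (hθS : (1 - θ) * S ≤ max (S - T) 0) (hST : S - T ≤ ΔE + e)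
    (hΔ : 0 ≤ ΔE) (he : 0 ≤ e) (hS : S ≤ Y) :
    |m - θ * m * (a / a')| ≤ B * (ΔE + e) + B ^ 3 * dF * Y := by
  have hB0 : 0 < B := by linarith
  have hapos : 0 < a := by
    by_contra h
    rw [not_lt] at h
    have : B * a ≤ 0 := mul_nonpos_of_nonneg_of_nonpos hB0.le h
    linarith
  have hapos' : 0 < a' := by
    by_contra h
    rw [not_lt] at h
    have : B * a' ≤ 0 := mul_nonpos_of_nonneg_of_nonpos hB0.le h
    linarith
  have hS0 : 0 ≤ S := le_trans (by positivity) hmS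
  have hmB : m ≤ B * S := by
    calc m = 1 * m := (one_mul m).symm
      _ ≤ (B * a) * m := mul_le_mul_of_nonneg_right ha hm
      _ = B * (a * m) := by ring
      _ ≤ B * S := mul_le_mul_of_nonneg_left hmS hB0.le
  have hinv : a'⁻¹ ≤ B := by
    rw [inv_le_iff_one_le_mul₀ hapos']
    exact ha'
  have e1 : m - θ * m * (a / a') = m * (1 - θ) + θ * m * ((a' - a) * a'⁻¹) := by
    field_simp
    ring
  have e2 : |m * (1 - θ)| ≤ B * (ΔE + e) := by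
    rw [abs_of_nonneg (mul_nonneg hm (by linarith))]
    have h1 : (1 - θ) * S ≤ ΔE + e := hθS.trans (max_le hST (by linarith))
    calc m * (1 - θ) ≤ (B * S) * (1 - θ) := mul_le_mul_of_nonneg_right hmB (by linarith)
      _ = B * ((1 - θ) * S) := by ring
      _ ≤ B * (ΔE + e) := mul_le_mul_of_nonneg_left h1 hB0.le
  have e3 : |θ * m * ((a' - a) * a'⁻¹)| ≤ B ^ 3 * dF * Y := by
    rw [abs_mul, abs_mul (a' - a), abs_of_nonneg (mul_nonneg hθ0 hm),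
      abs_of_pos (by positivity : 0 < a'⁻¹), abs_sub_comm a' a]
    have h1 : θ * m ≤ B * Y := by
      calc θ * m ≤ 1 * m := mul_le_mul_of_nonneg_right hθ1 hm
        _ = m := one_mul m
        _ ≤ B * S := hmB
        _ ≤ B * Y := mul_le_mul_of_nonneg_left hS hB0.le
    have hY : 0 ≤ Y := hS0.trans hS
    calc θ * m * (|a - a'| * a'⁻¹) ≤ (B * Y) * ((B * dF) * B) := by
          apply mul_le_mul h1 _ (by positivity) (by positivity)
          exact mul_le_mul haa hinv (by positivity) (by positivity)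
      _ = _ := by ring
  rw [e1]
  exact (abs_add_le _ _).trans (add_le_add e2 e3)

end Crest.Agent.R249.LimG621
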