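import Crest.Agent.R249.LimG1_621

/-!
# Row 249, part A2 v3: the limit passage, general case; file 2: the contact zone lemma
-/

set_option autoImplicit false
set_option linter.unusedVariables false
set_option linter.unusedSectionVars false

namespace Crest.Agent.R249.LimG621

open Crest.Agent.R249.Lim621

variable {E H : Type*} [NormedAddCommGroup E] [InnerProductSpace ℝ E]
  [NormedAddCommGroup H] [NormedSpace ℝ H]

theorem scal_aux {t w l s z B C3 η : ℝ} (ht : 0 < t) (hw : 0 ≤ w) (hl : 0 ≤ l) (hs : 0 ≤ s)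
    (hz : 0 ≤ z) (hB : 1 ≤ B) (hC : 0 ≤ C3) (hη : η ≤ C3 * (t ^ 2 * w ^ 2 + w * l))
    (h : z ^ 2 ≤ B * (s ^ 2 + η)) : z ≤ B * (1 + C3) * (t * w + l / t + s) := by
  have hX : 0 ≤ t * w + l / t + s := by positivity
  have hB0 : 0 ≤ B := by linarith
  have h1 : t ^ 2 * w ^ 2 + w * l + s ^ 2 ≤ (t * w + l / t + s) ^ 2 := by
    have e : (t * w + l / t + s) ^ 2 = t ^ 2 * w ^ 2 + 2 * (w * l) + s ^ 2 +
      ((l / t) ^ 2 + 2 * (t * w) * s + 2 * (l / t) * s) := by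
      field_simp
      ring
    rw [e]
    have : 0 ≤ (l / t) ^ 2 + 2 * (t * w) * s + 2 * (l / t) * s := by positivity
    have : 0 ≤ w * l := by positivity
    linarith
  have h2 : s ^ 2 + η ≤ (1 + C3) * (t * w + l / t + s) ^ 2 := by
    have h3 : 0 ≤ t ^ 2 * w ^ 2 + w * l := by positivity
    have h4 : s ^ 2 ≤ (t * w + l / t + s) ^ 2 := by linarith
    have h5 : t ^ 2 * w ^ 2 + w * l ≤ (t * w + l / t + s) ^ 2 := by
      have := sq_nonneg s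
      linarith
    have h6 := mul_le_mul_of_nonneg_left h5 hC
    linarith
  have h3 : 1 ≤ B * (1 + C3) := by
    have := mul_nonneg hB0 hC
    linarith
  have h4 : z ^ 2 ≤ (B * (1 + C3) * (t * w + l / t + s)) ^ 2 := by
    calc z ^ 2 ≤ B * (s ^ 2 + η) := h
      _ ≤ B * ((1 + C3) * (t * w + l / t + s) ^ 2) := mul_le_mul_of_nonneg_left h2 hB0
      _ = (B * (1 + C3)) * (t * w + l / t + s) ^ 2 := by ring
      _ ≤ (B * (1 + C3)) * ((B * (1 + C3)) * (t * w + l / t + s) ^ 2) := by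
          apply mul_le_mul_of_nonneg_left _ (by linarith)
          exact le_mul_of_one_le_left (by positivity) h3
      _ = _ := by ring
  exact (abs_le_of_sq_le_sq' h4 (by positivity)).2

/-- the constant `M` -/
def MB (B : ℝ) : ℝ := 1 + 4 * B ^ 3 + 8 * B ^ 5

theorem one_le_MB {B : ℝ} (hB : 1 ≤ B) : 1 ≤ MB B := by
  unfold MB
  have : 0 ≤ B := by linarith
  have : 0 ≤ 4 * B ^ 3 + 8 * B ^ 5 := by positivity
  linarith

theorem Lv_le {D : KD E} {F : ℝ → ℝ} {o lo0 lo u0 u B ε0 : ℝ}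
    (hD : KOK D F o lo0 lo u0 u B ε0) {j : Jet E H} (hf : lo ≤ j.f) (hfu : j.f ≤ u)
    (hg : lo ≤ j.g) (hgu : j.g ≤ u) : ‖D.Lv j‖ ≤ 2 * B * Real.sqrt j.W := by
  have f1 := (hD.hkf _ _ hf hfu hg hgu).1
  have g1 := (hD.hkg _ _ hf hfu hg hgu).1
  obtain ⟨h1, h2, h3, h4⟩ := norm_le_w j
  have hB := hD.B1
  have h5 : ‖D.Lv j‖ ≤ |D.kf j.f j.g| * ‖j.p‖ + |D.kg j.f j.g| * ‖j.q‖ := by
    unfold KD.Lv
    refine (norm_add_le _ _).trans ?_
    rw [norm_smul, norm_smul, Real.norm_eq_abs, Real.norm_eq_abs]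
  have h6 : |D.kf j.f j.g| * ‖j.p‖ ≤ B * Real.sqrt j.W :=
    mul_le_mul f1 h1 (norm_nonneg _) (by linarith)
  have h7 : |D.kg j.f j.g| * ‖j.q‖ ≤ B * Real.sqrt j.W :=
    mul_le_mul g1 h2 (norm_nonneg _) (by linarith)
  linarith

theorem vb_aux1 {B x n V w l ε : ℝ} (hB : 1 ≤ B) (hx : 0 ≤ x) (hxB : x ≤ B) (hn : 0 ≤ n)
    (hn' : n ≤ 2 * B * l + 4 * B ^ 2 * (2 * B ^ 2 * ε) * w) (hl : 0 ≤ l) (hw : 0 ≤ w)
    (hε : 0 ≤ ε) : x * n ≤ 8 * B ^ 5 * (l + ε * w) := by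
  have hB0 : 0 ≤ B := by linarith
  have h2 : B ^ 2 ≤ B ^ 5 := pow_le_pow_right₀ hB (by norm_num)
  calc x * n ≤ B * (2 * B * l + 4 * B ^ 2 * (2 * B ^ 2 * ε) * w) :=
        mul_le_mul hxB hn' hn hB0
    _ = 2 * B ^ 2 * l + 8 * B ^ 5 * (ε * w) := by ring
    _ ≤ 8 * B ^ 5 * l + 8 * B ^ 5 * (ε * w) := by
        have : 2 * B ^ 2 * l ≤ 8 * B ^ 5 * l := by
          apply mul_le_mul_of_nonneg_right _ hl
          have : 0 ≤ B ^ 5 := by positivity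
          linarith
        linarith
    _ = _ := by ring

theorem vb_aux2 {B x n w l ε : ℝ} (hB : 1 ≤ B) (hx : 0 ≤ x) (hxB : x ≤ B) (hn : 0 ≤ n)
    (hn' : n ≤ 2 * B * l + 4 * B ^ 2 * (2 * B ^ 2 * ε) * w) (hl : l ≤ 2 * B * w) (hw : 0 ≤ w)
    (hε1 : ε ≤ 1) : x * n ≤ (4 * B ^ 3 + 8 * B ^ 5) * w := by
  have hB0 : 0 ≤ B := by linarith
  calc x * n ≤ B * (2 * B * l + 4 * B ^ 2 * (2 * B ^ 2 * ε) * w) :=
        mul_le_mul hxB hn' hn hB0
    _ ≤ B * (2 * B * (2 * B * w) + 4 * B ^ 2 * (2 * B ^ 2 * 1) * w) := by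
        gcongr
    _ = _ := by ring

/-- the tangential shift -/
theorem shift_core {D : KD E} {F : ℝ → ℝ} {o lo0 lo u0 u B ε0 : ℝ}
    (hD : KOK D F o lo0 lo u0 u B ε0) (j : Jet E H) {lam ε : ℝ}
    (hf : lo ≤ j.f) (hfu : j.f ≤ u) (hg : lo ≤ j.g) (hgu : j.g ≤ u)
    (hf' : lo ≤ o + lam * (j.f - o)) (hfu' : o + lam * (j.f - o) ≤ u)
    (hg' : lo ≤ o + lam * (j.g - o)) (hgu' : o + lam * (j.g - o) ≤ u)
    (hlam : 0 < lam) (hlam2 : lam ≤ 2) (hε0 : 0 ≤ ε) (hε1 : ε ≤ 1) (hl1 : |lam - 1| ≤ B * ε)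
    (hk : D.k (o + lam * (j.f - o)) (o + lam * (j.g - o)) = 0) :
    (|j.f - (o + lam * (j.f - o))| + |j.g - (o + lam * (j.g - o))| ≤ 2 * B ^ 2 * ε) ∧
    ∃ v : E, D.kf (o + lam * (j.f - o)) (o + lam * (j.g - o)) • (j.p + (j.f - o) • v) +
        D.kg (o + lam * (j.f - o)) (o + lam * (j.g - o)) • (j.q + (j.g - o) • v) = 0 ∧
      ‖(j.f - o) • v‖ ≤ 8 * B ^ 5 * (‖D.Lv j‖ + ε * Real.sqrt j.W) ∧
      ‖(j.g - o) • v‖ ≤ 8 * B ^ 5 * (‖D.Lv j‖ + ε * Real.sqrt j.W) ∧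
      ‖j.p + (j.f - o) • v‖ ≤ MB B * Real.sqrt j.W ∧
      ‖j.q + (j.g - o) • v‖ ≤ MB B * Real.sqrt j.W := by
  have hB := hD.B1
  have hB0 : 0 ≤ B := by linarith
  have ho := hD.olo
  have hou := hD.ouB
  have hf0 : 0 ≤ j.f - o := by linarith
  have hg0 : 0 ≤ j.g - o := by linarith
  have hfB : j.f - o ≤ B := by linarith
  have hgB : j.g - o ≤ B := by linarith
  have e1 : |j.f - (o + lam * (j.f - o))| ≤ B ^ 2 * ε := by
    have : j.f - (o + lam * (j.f - o)) = -((lam - 1) * (j.f - o)) := by ring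
    rw [this, abs_neg, abs_mul, abs_of_nonneg hf0]
    calc |lam - 1| * (j.f - o) ≤ (B * ε) * B := mul_le_mul hl1 hfB hf0 (by positivity)
      _ = _ := by ring
  have e2 : |j.g - (o + lam * (j.g - o))| ≤ B ^ 2 * ε := by
    have : j.g - (o + lam * (j.g - o)) = -((lam - 1) * (j.g - o)) := by ring
    rw [this, abs_neg, abs_mul, abs_of_nonneg hg0]
    calc |lam - 1| * (j.g - o) ≤ (B * ε) * B := mul_le_mul hl1 hgB hg0 (by positivity)
      _ = _ := by ring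
  have hdF : |j.f - (o + lam * (j.f - o))| + |j.g - (o + lam * (j.g - o))| ≤ 2 * B ^ 2 * ε := by
    linarith
  refine ⟨hdF, ?_⟩
  obtain ⟨a, ha⟩ : ∃ a, a = D.kf (o + lam * (j.f - o)) (o + lam * (j.g - o)) := ⟨_, rfl⟩
  obtain ⟨b, hb⟩ : ∃ b, b = D.kg (o + lam * (j.f - o)) (o + lam * (j.g - o)) := ⟨_, rfl⟩
  rw [← ha, ← hb]
  have hra := hD.rad _ _ hf' hfu' hg' hgu' hk
  rw [← ha, ← hb] at hra
  obtain ⟨Dn, hDn⟩ : ∃ Dn, Dn = -((j.f - o) * a + (j.g - o) * b) := ⟨_, rfl⟩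
  have hlD : 1 ≤ B * (lam * Dn) := by
    have : B * (lam * Dn) = B * (-((o + lam * (j.f - o) - o) * a +
        (o + lam * (j.g - o) - o) * b)) := by rw [hDn]; ring
    rw [this]; exact hra
  have hDpos : 0 < Dn := by
    by_contra h
    rw [not_lt] at h
    have : B * (lam * Dn) ≤ 0 := by
      apply mul_nonpos_of_nonneg_of_nonpos hB0
      exact mul_nonpos_of_nonneg_of_nonpos hlam.le h
    linarith
  have hD2 : 1 ≤ 2 * B * Dn := by
    have : B * (lam * Dn) ≤ B * (2 * Dn) := by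
      apply mul_le_mul_of_nonneg_left _ hB0
      exact mul_le_mul_of_nonneg_right hlam2 hDpos.le
    linarith
  obtain ⟨h1, h2, h3, h4⟩ := norm_le_w j
  have hw0 : 0 ≤ Real.sqrt j.W := by linarith
  have ha' : |D.kf j.f j.g - a| ≤ B * (2 * B ^ 2 * ε) := by
    rw [ha]
    exact ((hD.hkf _ _ hf hfu hg hgu).2 _ _ hf' hfu' hg' hgu').trans
      (mul_le_mul_of_nonneg_left hdF hB0)
  have hb' : |D.kg j.f j.g - b| ≤ B * (2 * B ^ 2 * ε) := by
    rw [hb]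
    exact ((hD.hkg _ _ hf hfu hg hgu).2 _ _ hf' hfu' hg' hgu').trans
      (mul_le_mul_of_nonneg_left hdF hB0)
  have hl0 := norm_nonneg (D.Lv j)
  have hlw := Lv_le hD hf hfu hg hgu
  have hv := v_bound (A := 0) (G := 0) hB (by positivity) h1 h2 ha' hb' (le_refl ‖D.Lv j‖) hD2
    (v := Dn⁻¹ • (a • j.p + b • j.q)) rfl
  obtain ⟨v, hvd⟩ : ∃ v, v = Dn⁻¹ • (a • j.p + b • j.q) := ⟨_, rfl⟩
  rw [← hvd] at hv
  have hvn := norm_nonneg v
  refine ⟨v, ?_, ?_, ?_, ?_, ?_⟩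
  · have e3 : a • (j.p + (j.f - o) • v) + b • (j.q + (j.g - o) • v) =
        (a • j.p + b • j.q) - Dn • v := by
      rw [hDn]; module
    rw [e3, hvd, smul_smul, mul_inv_cancel₀ hDpos.ne', one_smul, sub_self]
  · rw [norm_smul, Real.norm_of_nonneg hf0]
    exact vb_aux1 (V := 0) hB hf0 hfB hvn hv hl0 hw0 hε0
  · rw [norm_smul, Real.norm_of_nonneg hg0]
    exact vb_aux1 (V := 0) hB hg0 hgB hvn hv hl0 hw0 hε0
  · refine (norm_add_le _ _).trans ?_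
    rw [norm_smul, Real.norm_of_nonneg hf0]
    have := vb_aux2 hB hf0 hfB hvn hv hlw hw0 hε1
    unfold MB
    linarith
  · refine (norm_add_le _ _).trans ?_
    rw [norm_smul, Real.norm_of_nonneg hg0]
    have := vb_aux2 hB hg0 hgB hvn hv hlw hw0 hε1
    unfold MB
    linarith

end Crest.Agent.R249.LimG621
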