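import Crest.Agent.R249.LimG2_621

/-!
# Row 249, part A2 v3: the limit passage, general case; file 3: the contact zone lemma
-/

set_option autoImplicit false
set_option linter.unusedVariables false
set_option linter.unusedSectionVars false

namespace Crest.Agent.R249.LimG621

open Crest.Agent.R249.Lim621

variable {E H : Type*} [NormedAddCommGroup E] [InnerProductSpace ℝ E]
  [NormedAddCommGroup H] [NormedSpace ℝ H]

/-- constants -/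
noncomputable def C3B (B : ℝ) : ℝ := 4 * B ^ 3 + 32 * B ^ 6 * (1 + MB B)
noncomputable def K4B (B : ℝ) : ℝ := 8 * B ^ 5 + B * (1 + C3B B)
noncomputable def K5B (B : ℝ) : ℝ := 8 * B ^ 2 * MB B ^ 2 * (2 * B ^ 2 + K4B B)
noncomputable def K5B' (B : ℝ) : ℝ := 8 * B ^ 2 * MB B ^ 2 * (2 * B ^ 2 + (1 + MB B))
noncomputable def K6B (B K c0 : ℝ) : ℝ := B * K + 2 * B ^ 5 * (6 * B ^ 2 + c0) + B + 2 * B ^ 5
noncomputable def K7B (B K c0 : ℝ) : ℝ := 2 * B ^ 3 + K6B B K c0 + 1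

/-- the increase of `N` -/
theorem N_incr {B M n n' dF w l ε t a b a' b' da : ℝ} (hB : 1 ≤ B) (hM : 0 ≤ M) (hw : 0 ≤ w)
    (hl : 0 ≤ l) (hε0 : 0 ≤ ε) (hεt : ε ≤ t ^ 2) (ha0 : 0 ≤ a) (hb0 : 0 ≤ b) (ha0' : 0 ≤ a')
    (hb0' : 0 ≤ b') (ha : a ≤ w) (hb : b ≤ w) (ha' : a' ≤ M * w) (hb' : b' ≤ M * w)
    (hdF0 : 0 ≤ dF) (hdF : dF ≤ 2 * B ^ 2 * ε) (hda0 : 0 ≤ da)
    (hda : da ≤ 2 * (8 * B ^ 5 * (l + ε * w)))
    (h : |n - n'| ≤ B * (dF * (a ^ 2 + b ^ 2) + da * (a + b + a' + b'))) :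
    n' ≤ n + (4 * B ^ 3 + 32 * B ^ 6 * (1 + M)) * (t ^ 2 * w ^ 2 + w * l) := by
  have hB0 : 0 ≤ B := by linarith
  have h1 : a ^ 2 + b ^ 2 ≤ 2 * w ^ 2 := by
    have := pow_le_pow_left₀ ha0 ha 2
    have := pow_le_pow_left₀ hb0 hb 2
    linarith
  have h2 : dF * (a ^ 2 + b ^ 2) ≤ (2 * B ^ 2 * ε) * (2 * w ^ 2) :=
    mul_le_mul hdF h1 (by positivity) (by positivity)
  have h3 : a + b + a' + b' ≤ 2 * (1 + M) * w := by linarith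
  have h4 : da * (a + b + a' + b') ≤ (2 * (8 * B ^ 5 * (l + ε * w))) * (2 * (1 + M) * w) :=
    mul_le_mul hda h3 (by positivity) (by positivity)
  have h5 := (abs_le.mp h).1
  have h6 : B * (dF * (a ^ 2 + b ^ 2) + da * (a + b + a' + b')) ≤
      B * ((2 * B ^ 2 * ε) * (2 * w ^ 2) + (2 * (8 * B ^ 5 * (l + ε * w))) * (2 * (1 + M) * w)) :=
    mul_le_mul_of_nonneg_left (add_le_add h2 h4) hB0
  have h7 : B * ((2 * B ^ 2 * ε) * (2 * w ^ 2) + (2 * (8 * B ^ 5 * (l + ε * w))) *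
      (2 * (1 + M) * w)) = (4 * B ^ 3) * (ε * w ^ 2) +
        (32 * B ^ 6 * (1 + M)) * (ε * w ^ 2 + w * l) := by ring
  have h8 : ε * w ^ 2 ≤ t ^ 2 * w ^ 2 := mul_le_mul_of_nonneg_right hεt (sq_nonneg w)
  have h9 : (4 * B ^ 3) * (ε * w ^ 2) ≤ (4 * B ^ 3) * (t ^ 2 * w ^ 2 + w * l) := by
    apply mul_le_mul_of_nonneg_left _ (by positivity)
    have : 0 ≤ w * l := by positivity
    linarith
  have h10 : (32 * B ^ 6 * (1 + M)) * (ε * w ^ 2 + w * l) ≤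
      (32 * B ^ 6 * (1 + M)) * (t ^ 2 * w ^ 2 + w * l) := by
    apply mul_le_mul_of_nonneg_left _ (by positivity)
    linarith
  have h11 : (4 * B ^ 3 + 32 * B ^ 6 * (1 + M)) * (t ^ 2 * w ^ 2 + w * l) =
      (4 * B ^ 3) * (t ^ 2 * w ^ 2 + w * l) +
        (32 * B ^ 6 * (1 + M)) * (t ^ 2 * w ^ 2 + w * l) := by ring
  rw [h11]
  linarith

/-- the multiplier estimate -/
theorem mult_fin {B K X w e ε c0 dm ΔE : ℝ} (hB : 1 ≤ B) (hc0 : 0 ≤ c0) (he : 0 ≤ e)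
    (hε0 : 0 ≤ ε) (hε1 : ε ≤ 1) (hX : ε * w ^ 2 ≤ X) (hX1 : ε ≤ X)
    (hE : ΔE ≤ K * X) (hK : 0 ≤ K)
    (h : dm ≤ B * (ΔE + e) + B ^ 3 * (2 * B ^ 2 * ε) * (6 * B ^ 2 * w ^ 2 + c0 + e)) :
    dm ≤ K6B B K c0 * (X + e) := by
  have hB0 : 0 ≤ B := by linarith
  have hX0 : 0 ≤ X := hε0.trans hX1
  have h1 : B * ΔE ≤ B * (K * X) := mul_le_mul_of_nonneg_left hE hB0
  have h2 : B ^ 3 * (2 * B ^ 2 * ε) * (6 * B ^ 2 * w ^ 2 + c0 + e) =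
      2 * B ^ 5 * (6 * B ^ 2) * (ε * w ^ 2) + (2 * B ^ 5 * c0) * ε + 2 * B ^ 5 * (ε * e) := by ring
  have h3 : 2 * B ^ 5 * (6 * B ^ 2) * (ε * w ^ 2) ≤ 2 * B ^ 5 * (6 * B ^ 2) * X :=
    mul_le_mul_of_nonneg_left hX (by positivity)
  have h4 : (2 * B ^ 5 * c0) * ε ≤ (2 * B ^ 5 * c0) * X :=
    mul_le_mul_of_nonneg_left hX1 (by positivity)
  have h5 : 2 * B ^ 5 * (ε * e) ≤ 2 * B ^ 5 * e := by
    apply mul_le_mul_of_nonneg_left _ (by positivity)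
    exact mul_le_of_le_one_left he hε1
  rw [h2] at h
  unfold K6B
  have h6 : 0 ≤ (B * K + 2 * B ^ 5 * (6 * B ^ 2 + c0)) * e := by positivity
  have h7 : (B * K + 2 * B ^ 5 * (6 * B ^ 2 + c0) + B + 2 * B ^ 5) * (X + e) =
    B * (K * X) + 2 * B ^ 5 * (6 * B ^ 2) * X + (2 * B ^ 5 * c0) * X + (B + 2 * B ^ 5) * X +
    (B * K + 2 * B ^ 5 * (6 * B ^ 2 + c0)) * e + B * e + 2 * B ^ 5 * e := by
    ring
  rw [h7]
  have : 0 ≤ (B + 2 * B ^ 5) * X := by positivity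
  linarith

theorem alpha_fin {B K X e ε c0 dm dF rr al : ℝ} (hB : 1 ≤ B) (hX : ε ≤ X) (hX0 : 0 ≤ X)
    (he : 0 ≤ e) (hr : 0 ≤ rr) (hK : 0 ≤ K6B B K c0)
    (hdF : dF ≤ B * (2 * B ^ 2 * ε)) (hdm : dm ≤ K6B B K c0 * (X + e))
    (h : al ≤ dF + dm + rr) : al ≤ K7B B K c0 * (X + e + rr) := by
  have hB0 : 0 ≤ B := by linarith
  have h1 : B * (2 * B ^ 2 * ε) ≤ 2 * B ^ 3 * X := by
    calc B * (2 * B ^ 2 * ε) = 2 * B ^ 3 * ε := by ring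
      _ ≤ _ := mul_le_mul_of_nonneg_left hX (by positivity)
  unfold K7B
  have h2 : (2 * B ^ 3 + K6B B K c0 + 1) * (X + e + rr) = 2 * B ^ 3 * X + K6B B K c0 * (X + e) +
    rr + 2 * B ^ 3 * (e + rr) + K6B B K c0 * rr + (X + e) := by ring
  rw [h2]
  have h3 : 0 ≤ 2 * B ^ 3 * (e + rr) := by positivity
  have h4 : 0 ≤ K6B B K c0 * rr := by positivity
  linarith

theorem K6B_nonneg {B K c0 : ℝ} (hB : 1 ≤ B) (hK : 0 ≤ K) (hc0 : 0 ≤ c0) : 0 ≤ K6B B K c0 := by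
  have hB0 : 0 ≤ B := by linarith
  unfold K6B; positivity

theorem K7B_nonneg {B K c0 : ℝ} (hB : 1 ≤ B) (hK : 0 ≤ K) (hc0 : 0 ≤ c0) : 0 ≤ K7B B K c0 := by
  have hB0 : 0 ≤ B := by linarith
  have := K6B_nonneg hB hK hc0
  unfold K7B; positivity

/-- the constant of the zone lemma -/
noncomputable def KZ (B c0 n : ℝ) : ℝ :=
  2 * K4B B + 2 * K7B B (K5B B) c0 * n + 2 * MB B ^ 2 + 2 + 2 * K7B B (K5B' B) c0 * n

theorem maxE {a b : ℝ} : max a 0 ≤ max b 0 + |a - b| := by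
  apply max_le
  · have := le_abs_self (a - b)
    have := le_max_left b 0
    linarith
  · have := abs_nonneg (a - b)
    have := le_max_right b 0
    linarith

theorem frac_aux {a b a' b' ϑ m m' : ℝ} (ha : a' ≠ 0) (hb : b' ≠ 0) :
    a' * (ϑ * m * (a / a')) + b' * (ϑ * m' * (b / b')) = ϑ * (a * m + b * m') := by
  field_simp

set_option maxHeartbeats 1600000 in
/-- The contact zone lemma. -/
theorem zoneG (tr : H →L[ℝ] ℝ) (one : H) (h1 : tr one = 1) {D : KD E} {F : ℝ → ℝ}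
    {o lo0 lo u0 u B ε0 c0 : ℝ} (hD : KOK D F o lo0 lo u0 u B ε0) (hc0 : 0 ≤ c0)
    (t : ℝ) (ht : 0 < t) (ht1 : t ≤ 1) (j : Jet E H) (m m' r r' e ν ε : ℝ)
    (hf0 : lo0 ≤ j.f) (hfu0 : j.f ≤ u0) (hg0 : lo0 ≤ j.g) (hgu0 : j.g ≤ u0)
    (hε : 0 ≤ ε) (hεε : ε ≤ ε0) (hεt : ε ≤ t ^ 2) (hk : |D.k j.f j.g| ≤ ε)
    (htP : tr j.P = F j.f + m + r) (htQ : tr j.Q = F j.g + m' + r')
    (hm : 0 ≤ m) (hm' : 0 ≤ m') (he : 0 ≤ e) (hν : 0 ≤ ν) (hN : D.N j.f j.g j.p j.q ≤ 1 + ν)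
    (hS : -D.kf j.f j.g * m + -D.kg j.f j.g * m' ≤ max (D.Ek F j.f j.g j.p j.q) 0 + c0 + e) :
    ∃ (j' : Jet E H) (m1 m1' : ℝ), lo ≤ j'.f ∧ j'.f ≤ u ∧ lo ≤ j'.g ∧ j'.g ≤ u ∧
        D.k j'.f j'.g = 0 ∧ D.Lv j' = 0 ∧ D.N j'.f j'.g j'.p j'.q ≤ 1 ∧
        tr j'.P = F j'.f + m1 ∧ tr j'.Q = F j'.g + m1' ∧ 0 ≤ m1 ∧ 0 ≤ m1' ∧
        -D.kf j'.f j'.g * m1 + -D.kg j'.f j'.g * m1' ≤ max (D.Ek F j'.f j'.g j'.p j'.q) 0 + c0 ∧
        (∃ α α' : ℝ, j'.P = j.P + α • one ∧ j'.Q = j.Q + α' • one) ∧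
        RelG o (B * ε) j j' ∧
        ‖j.p - j'.p‖ + ‖j.q - j'.q‖ ≤
          KZ B c0 ‖one‖ * (t * Real.sqrt j.W + ‖D.Lv j‖ / t + Real.sqrt ν) ∧
        ‖j.P - j'.P‖ + ‖j.Q - j'.Q‖ ≤ KZ B c0 ‖one‖ *
          (Real.sqrt j.W * (t * Real.sqrt j.W + ‖D.Lv j‖ / t + Real.sqrt ν) + e + |r| + |r'|) ∧
        j.W + j'.W ≤ KZ B c0 ‖one‖ * (j.W + e + |r| + |r'|) := by
  have hB := hD.B1
  have hB0 : 0 ≤ B := by linarith
  have hlolo := hD.lolo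
  have huu := hD.uu
  have hf : lo ≤ j.f := by linarith
  have hfu : j.f ≤ u := by linarith
  have hg : lo ≤ j.g := by linarith
  have hgu : j.g ≤ u := by linarith
  have hε1 : ε ≤ 1 := hεε.trans hD.ε01
  have hM1 := one_le_MB hB
  obtain ⟨hpw, hqw, hw1, hww⟩ := norm_le_w j
  obtain ⟨w, hw⟩ : ∃ w, w = Real.sqrt j.W := ⟨_, rfl⟩
  rw [← hw] at hpw hqw hw1 hww ⊢
  have hw0 : 0 ≤ w := by linarith
  -- the radial shift
  obtain ⟨lam, hlam, hl1, hk0, hf', hfu', hg', hgu'⟩ := hD.ray _ _ ε hf0 hfu0 hg0 hgu0 hk hεε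
  have hBε : B * ε ≤ 1 / 2 := (mul_le_mul_of_nonneg_left hεε hB0).trans hD.εB
  have hlam2 : lam ≤ 2 := by
    have := (abs_le.mp hl1).2
    linarith
  obtain ⟨hdF, v, hv0, hv1, hv2, hv3, hv4⟩ := shift_core hD j hf hfu hg hgu hf' hfu' hg' hgu'
    hlam hlam2 hε hε1 hl1 hk0
  rw [← hw] at hv1 hv2 hv3 hv4
  obtain ⟨f', hfd⟩ : ∃ f', f' = o + lam * (j.f - o) := ⟨_, rfl⟩
  obtain ⟨g', hgd⟩ : ∃ g', g' = o + lam * (j.g - o) := ⟨_, rfl⟩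
  obtain ⟨p2, hp2⟩ : ∃ p2, p2 = j.p + (j.f - o) • v := ⟨_, rfl⟩
  obtain ⟨q2, hq2⟩ : ∃ q2, q2 = j.q + (j.g - o) • v := ⟨_, rfl⟩
  rw [← hfd, ← hgd] at hdF hv0 hk0
  rw [← hfd] at hf' hfu'
  rw [← hgd] at hg' hgu'
  rw [← hp2] at hv0 hv3
  rw [← hq2] at hv0 hv4
  have hdp2 : ‖j.p - p2‖ ≤ 8 * B ^ 5 * (‖D.Lv j‖ + ε * w) := by
    rw [hp2, sub_add_cancel_left, norm_neg]; exact hv1
  have hdq2 : ‖j.q - q2‖ ≤ 8 * B ^ 5 * (‖D.Lv j‖ + ε * w) := by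
    rw [hq2, sub_add_cancel_left, norm_neg]; exact hv2
  have hl0 := norm_nonneg (D.Lv j)
  have hdF0 : 0 ≤ |j.f - f'| + |j.g - g'| := by positivity
  -- the gauge
  have hC3 : 0 ≤ C3B B := by unfold C3B; positivity
  have hN2 := N_incr hB (by linarith : 0 ≤ MB B) hw0 hl0 hε hεt (norm_nonneg j.p) (norm_nonneg j.q)
    (norm_nonneg p2) (norm_nonneg q2) hpw hqw hv3 hv4 hdF0 hdF
    (by positivity) (by linarith : ‖j.p - p2‖ + ‖j.q - q2‖ ≤ 2 * (8 * B ^ 5 * (‖D.Lv j‖ + ε * w)))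
    (hD.N2 _ _ _ _ _ _ _ _ hf hfu hg hgu hf' hfu' hg' hgu')
  obtain ⟨η, hη⟩ : ∃ η, η = C3B B * (t ^ 2 * w ^ 2 + w * ‖D.Lv j‖) := ⟨_, rfl⟩
  have hη0 : 0 ≤ η := by rw [hη]; positivity
  have hN3 : D.N f' g' p2 q2 ≤ 1 + (ν + η) := by
    rw [hη]; unfold C3B; linarith
  obtain ⟨θ, hθ0, hθ1, hN4, hs1, hs2⟩ := exists_scal hD hf' hfu' hg' hgu' p2 q2
    (by positivity) hN3
  obtain ⟨X, hX⟩ : ∃ X, X = t * w + ‖D.Lv j‖ / t + Real.sqrt ν := ⟨_, rfl⟩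
  have hsν := Real.sqrt_nonneg ν
  have hX0 : 0 ≤ X := by rw [hX]; positivity
  have hsq : Real.sqrt ν ^ 2 = ν := Real.sq_sqrt hν
  have hz1 : (1 - θ) * ‖p2‖ ≤ B * (1 + C3B B) * X := by
    rw [hX]
    exact scal_aux ht hw0 hl0 hsν (mul_nonneg (by linarith) (norm_nonneg _)) hB hC3 hη.le
      (by rw [hsq]; exact hs1)
  have hz2 : (1 - θ) * ‖q2‖ ≤ B * (1 + C3B B) * X := by
    rw [hX]
    exact scal_aux ht hw0 hl0 hsν (mul_nonneg (by linarith) (norm_nonneg _)) hB hC3 hη.le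
      (by rw [hsq]; exact hs2)
  -- distances
  have ht2 : t ^ 2 ≤ t := by
    rw [sq]; exact mul_le_of_le_one_left ht.le ht1
  have hlt : ‖D.Lv j‖ ≤ ‖D.Lv j‖ / t := by
    rw [le_div_iff₀ ht]; exact mul_le_of_le_one_right hl0 ht1
  have hlX : ‖D.Lv j‖ + ε * w ≤ X := by
    have : ε * w ≤ t * w := mul_le_mul_of_nonneg_right (hεt.trans ht2) hw0
    rw [hX]; linarith
  have hdp : ∀ (a b : E), ‖a - b‖ ≤ 8 * B ^ 5 * (‖D.Lv j‖ + ε * w) →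
      (1 - θ) * ‖b‖ ≤ B * (1 + C3B B) * X → ‖a - θ • b‖ ≤ K4B B * X := by
    intro a b h2 h3
    have e1 : a - θ • b = (a - b) + (1 - θ) • b := by module
    rw [e1]
    refine (norm_add_le _ _).trans ?_
    rw [norm_smul, Real.norm_of_nonneg (by linarith : 0 ≤ 1 - θ)]
    have h4 : 8 * B ^ 5 * (‖D.Lv j‖ + ε * w) ≤ 8 * B ^ 5 * X :=
      mul_le_mul_of_nonneg_left hlX (by positivity)
    unfold K4B
    linarith
  have hdp' := hdp _ _ hdp2 hz1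
  have hdq' := hdp _ _ hdq2 hz2
  have hsm : ∀ (b : E), ‖b‖ ≤ MB B * w → ‖θ • b‖ ≤ MB B * w := by
    intro b hb
    rw [norm_smul, Real.norm_of_nonneg hθ0.le]
    exact (mul_le_of_le_one_left (norm_nonneg _) hθ1).trans hb
  have hpM := hsm _ hv3
  have hqM := hsm _ hv4
  have hdpM : ‖j.p - θ • p2‖ ≤ (1 + MB B) * w := by
    refine (norm_sub_le _ _).trans ?_; linarith
  have hdqM : ‖j.q - θ • q2‖ ≤ (1 + MB B) * w := by
    refine (norm_sub_le _ _).trans ?_; linarith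
  -- `E_k`
  have hE1 := Ek_diff hD hf hfu hg hgu hf' hfu' hg' hgu' hdF hM1 hw1 hpw hqw hpM hqM hdp' hdq'
  have hE2 := Ek_diff hD hf hfu hg hgu hf' hfu' hg' hgu' hdF hM1 hw1 hpw hqw hpM hqM hdpM hdqM
  have hEb := Ek_bound hD hf hfu hg hgu hw1 hpw hqw
  obtain ⟨E0, hE0⟩ : ∃ E0, E0 = D.Ek F j.f j.g j.p j.q := ⟨_, rfl⟩
  obtain ⟨E1, hE1'⟩ : ∃ E1, E1 = D.Ek F f' g' (θ • p2) (θ • q2) := ⟨_, rfl⟩
  rw [← hE0] at hE1 hE2 hEb hS
  rw [← hE1'] at hE1 hE2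
  have hw2 : 1 ≤ w ^ 2 := one_le_pow₀ hw1
  have hεw : ε * w ^ 2 ≤ w * X := by
    have h2 : ε * w ^ 2 ≤ t * w * w := by
      calc ε * w ^ 2 ≤ t * w ^ 2 := mul_le_mul_of_nonneg_right (hεt.trans ht2) (sq_nonneg w)
        _ = _ := by ring
    have h3 : t * w * w ≤ X * w := by
      apply mul_le_mul_of_nonneg_right _ hw0
      rw [hX]
      have : 0 ≤ ‖D.Lv j‖ / t := by positivity
      linarith
    linarith
  have hεX : ε ≤ w * X := (le_mul_of_one_le_right hε hw2).trans hεw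
  have hεw2 : ε * w ^ 2 ≤ w ^ 2 := mul_le_of_le_one_left (sq_nonneg w) hε1
  have hE1b : |E0 - E1| ≤ K5B B * (w * X) := by
    refine hE1.trans ?_
    have h2 : 2 * B ^ 2 * ε * w ^ 2 + w * (K4B B * X) ≤ (2 * B ^ 2 + K4B B) * (w * X) := by
      have : 2 * B ^ 2 * ε * w ^ 2 ≤ 2 * B ^ 2 * (w * X) := by
        calc 2 * B ^ 2 * ε * w ^ 2 = 2 * B ^ 2 * (ε * w ^ 2) := by ring
          _ ≤ _ := mul_le_mul_of_nonneg_left hεw (by positivity)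
      linarith
    unfold K5B
    calc 8 * B ^ 2 * MB B ^ 2 * (2 * B ^ 2 * ε * w ^ 2 + w * (K4B B * X)) ≤
        8 * B ^ 2 * MB B ^ 2 * ((2 * B ^ 2 + K4B B) * (w * X)) :=
          mul_le_mul_of_nonneg_left h2 (by positivity)
      _ = _ := by ring
  have hE2b : |E0 - E1| ≤ K5B' B * w ^ 2 := by
    refine hE2.trans ?_
    have h2 : 2 * B ^ 2 * ε * w ^ 2 + w * ((1 + MB B) * w) ≤
        (2 * B ^ 2 + (1 + MB B)) * w ^ 2 := by
      have : 2 * B ^ 2 * ε * w ^ 2 ≤ 2 * B ^ 2 * w ^ 2 := by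
        calc 2 * B ^ 2 * ε * w ^ 2 = 2 * B ^ 2 * (ε * w ^ 2) := by ring
          _ ≤ _ := mul_le_mul_of_nonneg_left hεw2 (by positivity)
      linarith
    unfold K5B'
    calc 8 * B ^ 2 * MB B ^ 2 * (2 * B ^ 2 * ε * w ^ 2 + w * ((1 + MB B) * w)) ≤
        8 * B ^ 2 * MB B ^ 2 * ((2 * B ^ 2 + (1 + MB B)) * w ^ 2) :=
          mul_le_mul_of_nonneg_left h2 (by positivity)
      _ = _ := by ring
  -- the multipliers
  have hka : 1 ≤ B * (-D.kf j.f j.g) := hD.negf _ _ hf hfu hg hgu (hk.trans hεε)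
  have hkb : 1 ≤ B * (-D.kg j.f j.g) := hD.negg _ _ hf hfu hg hgu (hk.trans hεε)
  have hk00 : |D.k f' g'| ≤ ε0 := by rw [hk0, abs_zero]; exact hD.ε00.le
  have hka' : 1 ≤ B * (-D.kf f' g') := hD.negf _ _ hf' hfu' hg' hgu' hk00
  have hkb' : 1 ≤ B * (-D.kg f' g') := hD.negg _ _ hf' hfu' hg' hgu' hk00
  have pos_of : ∀ x : ℝ, 1 ≤ B * x → 0 < x := by
    intro x hx
    by_contra h
    rw [not_lt] at h
    have : B * x ≤ 0 := mul_nonpos_of_nonneg_of_nonpos hB0 h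
    linarith
  have pa := pos_of _ hka
  have pb := pos_of _ hkb
  have pa' := pos_of _ hka'
  have pb' := pos_of _ hkb'
  have haa : |-D.kf j.f j.g - -D.kf f' g'| ≤ B * (2 * B ^ 2 * ε) := by
    have : -D.kf j.f j.g - -D.kf f' g' = -(D.kf j.f j.g - D.kf f' g') := by ring
    rw [this, abs_neg]
    exact ((hD.hkf _ _ hf hfu hg hgu).2 _ _ hf' hfu' hg' hgu').trans
      (mul_le_mul_of_nonneg_left hdF hB0)
  have hbb : |-D.kg j.f j.g - -D.kg f' g'| ≤ B * (2 * B ^ 2 * ε) := by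
    have : -D.kg j.f j.g - -D.kg f' g' = -(D.kg j.f j.g - D.kg f' g') := by ring
    rw [this, abs_neg]
    exact ((hD.hkg _ _ hf hfu hg hgu).2 _ _ hf' hfu' hg' hgu').trans
      (mul_le_mul_of_nonneg_left hdF hB0)
  have hS0 : 0 ≤ -D.kf j.f j.g * m + -D.kg j.f j.g * m' := by positivity
  have hT0 : 0 ≤ max E1 0 + c0 := by positivity
  obtain ⟨ϑ, hϑ0, hϑ1, hϑT, hϑS⟩ := exists_theta hS0 hT0
  have hST : (-D.kf j.f j.g * m + -D.kg j.f j.g * m') - (max E1 0 + c0) ≤ |E0 - E1| + e := by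
    have := maxE (a := E0) (b := E1)
    linarith
  have hSY : -D.kf j.f j.g * m + -D.kg j.f j.g * m' ≤ 6 * B ^ 2 * w ^ 2 + c0 + e := by
    have : max E0 0 ≤ 6 * B ^ 2 * w ^ 2 := max_le ((le_abs_self _).trans hEb) (by positivity)
    linarith
  have hΔ0 := abs_nonneg (E0 - E1)
  have hm1 := mult_boundG hB hka hka' haa (by positivity) hm (by
      have : 0 ≤ -D.kg j.f j.g * m' := by positivity
      linarith : -D.kf j.f j.g * m ≤ -D.kf j.f j.g * m + -D.kg j.f j.g * m') hϑ0 hϑ1 hϑS hST hΔ0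
      he hSY
  have hm2 := mult_boundG hB hkb hkb' hbb (by positivity) hm' (by
      have : 0 ≤ -D.kf j.f j.g * m := by positivity
      linarith : -D.kg j.f j.g * m' ≤ -D.kf j.f j.g * m + -D.kg j.f j.g * m') hϑ0 hϑ1 hϑS hST hΔ0
      he hSY
  have hK4 : 0 ≤ K4B B := by unfold K4B; positivity
  have hK5 : 0 ≤ K5B B := by unfold K5B; positivity
  have hK5' : 0 ≤ K5B' B := by
    have : 0 ≤ MB B := by linarith
    unfold K5B'; positivity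
  have hm1a := mult_fin hB hc0 he hε hε1 hεw hεX hE1b hK5 hm1
  have hm2a := mult_fin hB hc0 he hε hε1 hεw hεX hE1b hK5 hm2
  have hm1b := mult_fin hB hc0 he hε hε1 hεw2 (hε1.trans hw2) hE2b hK5' hm1
  have hm2b := mult_fin hB hc0 he hε hε1 hεw2 (hε1.trans hw2) hE2b hK5' hm2
  obtain ⟨n1, hn1⟩ : ∃ n1, n1 = ϑ * m * (-D.kf j.f j.g / -D.kf f' g') := ⟨_, rfl⟩
  obtain ⟨n2, hn2⟩ : ∃ n2, n2 = ϑ * m' * (-D.kg j.f j.g / -D.kg f' g') := ⟨_, rfl⟩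
  rw [← hn1] at hm1a hm1b
  rw [← hn2] at hm2a hm2b
  -- the Hessians
  have hFf : |F f' - F j.f| ≤ B * (2 * B ^ 2 * ε) := by
    rw [abs_sub_comm]
    exact ((hD.hF j.f j.g hf hfu hg hgu).2 f' g' hf' hfu' hg' hgu').trans
      (mul_le_mul_of_nonneg_left hdF hB0)
  have hFg : |F g' - F j.g| ≤ B * (2 * B ^ 2 * ε) := by
    rw [abs_sub_comm]
    exact ((hD.hF j.g j.f hg hgu hf hfu).2 g' f' hg' hgu' hf' hfu').trans
      (mul_le_mul_of_nonneg_left (by linarith) hB0)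
  obtain ⟨α, hα⟩ : ∃ α, α = F f' - F j.f - (m - n1) - r := ⟨_, rfl⟩
  obtain ⟨α', hα'⟩ : ∃ α', α' = F g' - F j.g - (m' - n2) - r' := ⟨_, rfl⟩
  have hαt : |α| ≤ |F f' - F j.f| + |m - n1| + |r| := by
    rw [hα]; exact (abs_sub _ _).trans (add_le_add_left (abs_sub _ _) _)
  have hαt' : |α'| ≤ |F g' - F j.g| + |m' - n2| + |r'| := by
    rw [hα']; exact (abs_sub _ _).trans (add_le_add_left (abs_sub _ _) _)
  have hwX0 : 0 ≤ w * X := by positivity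
  have hw20 : 0 ≤ w ^ 2 := sq_nonneg w
  have hr0 := abs_nonneg r
  have hr0' := abs_nonneg r'
  have ha1 := alpha_fin hB hεX hwX0 he hr0 (K6B_nonneg hB hK5 hc0) hFf hm1a hαt
  have ha2 := alpha_fin hB hεX hwX0 he hr0' (K6B_nonneg hB hK5 hc0) hFg hm2a hαt'
  have ha3 := alpha_fin hB (hε1.trans hw2) hw20 he hr0 (K6B_nonneg hB hK5' hc0) hFf hm1b hαt
  have ha4 := alpha_fin hB (hε1.trans hw2) hw20 he hr0' (K6B_nonneg hB hK5' hc0) hFg hm2b hαt'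
  have hK7 := K7B_nonneg hB hK5 hc0
  have hK7' := K7B_nonneg hB hK5' hc0
  have hn0 := norm_nonneg one
  have hsum1 : (|α| + |α'|) * ‖one‖ ≤
      2 * K7B B (K5B B) c0 * ‖one‖ * (w * X + e + |r| + |r'|) := by
    have h2 : |α| + |α'| ≤ 2 * K7B B (K5B B) c0 * (w * X + e + |r| + |r'|) := by
      have h3 : K7B B (K5B B) c0 * (w * X + e + |r|) ≤
        K7B B (K5B B) c0 * (w * X + e + |r| + |r'|) :=
        mul_le_mul_of_nonneg_left (by linarith) hK7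
      have h4 : K7B B (K5B B) c0 * (w * X + e + |r'|) ≤
        K7B B (K5B B) c0 * (w * X + e + |r| + |r'|) :=
        mul_le_mul_of_nonneg_left (by linarith) hK7
      linarith
    calc (|α| + |α'|) * ‖one‖ ≤ (2 * K7B B (K5B B) c0 * (w * X + e + |r| + |r'|)) * ‖one‖ :=
          mul_le_mul_of_nonneg_right h2 hn0
      _ = _ := by ring
  have hsum2 : (|α| + |α'|) * ‖one‖ ≤
      2 * K7B B (K5B' B) c0 * ‖one‖ * (w ^ 2 + e + |r| + |r'|) := by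
    have h2 : |α| + |α'| ≤ 2 * K7B B (K5B' B) c0 * (w ^ 2 + e + |r| + |r'|) := by
      have h3 : K7B B (K5B' B) c0 * (w ^ 2 + e + |r|) ≤
        K7B B (K5B' B) c0 * (w ^ 2 + e + |r| + |r'|) :=
        mul_le_mul_of_nonneg_left (by linarith) hK7'
      have h4 : K7B B (K5B' B) c0 * (w ^ 2 + e + |r'|) ≤
        K7B B (K5B' B) c0 * (w ^ 2 + e + |r| + |r'|) :=
        mul_le_mul_of_nonneg_left (by linarith) hK7'
      linarith
    calc (|α| + |α'|) * ‖one‖ ≤ (2 * K7B B (K5B' B) c0 * (w ^ 2 + e + |r| + |r'|)) * ‖one‖ :=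
          mul_le_mul_of_nonneg_right h2 hn0
      _ = _ := by ring
  have hMsq : 0 ≤ 2 * MB B ^ 2 := by positivity
  have hKZ1 : 2 * K4B B ≤ KZ B c0 ‖one‖ := by
    unfold KZ
    have : 0 ≤ 2 * K7B B (K5B B) c0 * ‖one‖ := by positivity
    have : 0 ≤ 2 * K7B B (K5B' B) c0 * ‖one‖ := by positivity
    linarith
  have hKZ2 : 2 * K7B B (K5B B) c0 * ‖one‖ ≤ KZ B c0 ‖one‖ := by
    unfold KZ
    have : 0 ≤ 2 * K7B B (K5B' B) c0 * ‖one‖ := by positivity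
    linarith
  have hKZ3 : 2 * MB B ^ 2 + 2 + 2 * K7B B (K5B' B) c0 * ‖one‖ ≤ KZ B c0 ‖one‖ := by
    unfold KZ
    have : 0 ≤ 2 * K7B B (K5B B) c0 * ‖one‖ := by positivity
    linarith
  refine ⟨shiftG one o j lam v θ α α', n1, n2, ?_, ?_, ?_, ?_, ?_, ?_, ?_, ?_, ?_, ?_, ?_, ?_,
    ⟨α, α', rfl, rfl⟩, ?_, ?_, ?_, ?_⟩
  · show lo ≤ o + lam * (j.f - o); rw [← hfd]; exact hf'
  · show o + lam * (j.f - o) ≤ u; rw [← hfd]; exact hfu'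
  · show lo ≤ o + lam * (j.g - o); rw [← hgd]; exact hg'
  · show o + lam * (j.g - o) ≤ u; rw [← hgd]; exact hgu'
  · show D.k (o + lam * (j.f - o)) (o + lam * (j.g - o)) = 0
    rw [← hfd, ← hgd]; exact hk0
  · show D.kf (o + lam * (j.f - o)) (o + lam * (j.g - o)) • (θ • (j.p + (j.f - o) • v)) +
      D.kg (o + lam * (j.f - o)) (o + lam * (j.g - o)) • (θ • (j.q + (j.g - o) • v)) = 0
    rw [← hfd, ← hgd, ← hp2, ← hq2]
    have : D.kf f' g' • (θ • p2) + D.kg f' g' • (θ • q2) =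
      θ • (D.kf f' g' • p2 + D.kg f' g' • q2) := by module
    rw [this, hv0, smul_zero]
  · show D.N (o + lam * (j.f - o)) (o + lam * (j.g - o)) (θ • (j.p + (j.f - o) • v))
      (θ • (j.q + (j.g - o) • v)) ≤ 1
    rw [← hfd, ← hgd, ← hp2, ← hq2]; exact hN4
  · show tr (j.P + α • one) = F (o + lam * (j.f - o)) + n1
    rw [map_add, map_smul, h1, htP, hα, smul_eq_mul, ← hfd]
    ring
  · show tr (j.Q + α' • one) = F (o + lam * (j.g - o)) + n2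
    rw [map_add, map_smul, h1, htQ, hα', smul_eq_mul, ← hgd]
    ring
  · rw [hn1]; positivity
  · rw [hn2]; positivity
  · show -D.kf (o + lam * (j.f - o)) (o + lam * (j.g - o)) * n1 +
      -D.kg (o + lam * (j.f - o)) (o + lam * (j.g - o)) * n2 ≤
      max (D.Ek F (o + lam * (j.f - o)) (o + lam * (j.g - o)) (θ • (j.p + (j.f - o) • v))
      (θ • (j.q + (j.g - o) • v))) 0 + c0
    rw [← hfd, ← hgd, ← hp2, ← hq2, ← hE1']
    have e1 : -D.kf f' g' * n1 + -D.kg f' g' * n2 =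
        ϑ * (-D.kf j.f j.g * m + -D.kg j.f j.g * m') := by
      rw [hn1, hn2]
      exact frac_aux pa'.ne' pb'.ne'
    rw [e1]
    exact hϑT
  · exact ⟨lam, θ, hlam, hl1, hθ0, hθ1, by show o + lam * (j.f - o) - o = _; ring,
      by show o + lam * (j.g - o) - o = _; ring, shiftG_Xo _ _ _ _ _ _ _ _⟩
  · show ‖j.p - θ • (j.p + (j.f - o) • v)‖ + ‖j.q - θ • (j.q + (j.g - o) • v)‖ ≤ _
    rw [← hp2, ← hq2, ← hX]
    have := mul_le_mul_of_nonneg_right hKZ1 hX0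
    linarith
  · show ‖j.P - (j.P + α • one)‖ + ‖j.Q - (j.Q + α' • one)‖ ≤ _
    rw [sub_add_cancel_left, sub_add_cancel_left, norm_neg, norm_neg, norm_smul, norm_smul,
      Real.norm_eq_abs, Real.norm_eq_abs, ← add_mul, ← hX]
    exact hsum1.trans (mul_le_mul_of_nonneg_right hKZ2 (by positivity))
  · have hP' : ‖j.P + α • one‖ ≤ ‖j.P‖ + |α| * ‖one‖ := by
      refine (norm_add_le _ _).trans ?_
      rw [norm_smul, Real.norm_eq_abs]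
    have hQ' : ‖j.Q + α' • one‖ ≤ ‖j.Q‖ + |α'| * ‖one‖ := by
      refine (norm_add_le _ _).trans ?_
      rw [norm_smul, Real.norm_eq_abs]
    have hpsq : ‖θ • p2‖ ^ 2 ≤ MB B ^ 2 * w ^ 2 := by
      rw [← mul_pow]; exact pow_le_pow_left₀ (norm_nonneg _) hpM 2
    have hqsq : ‖θ • q2‖ ^ 2 ≤ MB B ^ 2 * w ^ 2 := by
      rw [← mul_pow]; exact pow_le_pow_left₀ (norm_nonneg _) hqM 2
    have hWd : j.W = 1 + ‖j.p‖ ^ 2 + ‖j.q‖ ^ 2 + ‖j.P‖ + ‖j.Q‖ := rfl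
    have h5 := sq_nonneg ‖j.p‖
    have h6 := sq_nonneg ‖j.q‖
    have hW' : (shiftG one o j lam v θ α α').W = 1 + ‖θ • p2‖ ^ 2 + ‖θ • q2‖ ^ 2
        + ‖j.P + α • one‖ + ‖j.Q + α' • one‖ := by rw [hp2, hq2]; rfl
    rw [hW']
    have h7 : j.W + (1 + ‖θ • p2‖ ^ 2 + ‖θ • q2‖ ^ 2 + ‖j.P + α • one‖ + ‖j.Q + α' • one‖) ≤
        (2 * MB B ^ 2 + 2) * w ^ 2 + 2 * K7B B (K5B' B) c0 * ‖one‖ * (w ^ 2 + e + |r| + |r'|) := by
      have : 1 + ‖j.P‖ + ‖j.Q‖ ≤ w ^ 2 := by rw [hww, hWd]; linarith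
      linarith
    refine h7.trans ?_
    rw [← hww]
    have h8 : (2 * MB B ^ 2 + 2) * w ^ 2 ≤ (2 * MB B ^ 2 + 2) * (w ^ 2 + e + |r| + |r'|) :=
      mul_le_mul_of_nonneg_left (by linarith) (by positivity)
    have h9 : (2 * MB B ^ 2 + 2) * (w ^ 2 + e + |r| + |r'|) +
        2 * K7B B (K5B' B) c0 * ‖one‖ * (w ^ 2 + e + |r| + |r'|) =
        (2 * MB B ^ 2 + 2 + 2 * K7B B (K5B' B) c0 * ‖one‖) * (w ^ 2 + e + |r| + |r'|) := by ring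
    have h10 : (2 * MB B ^ 2 + 2 + 2 * K7B B (K5B' B) c0 * ‖one‖) * (w ^ 2 + e + |r| + |r'|) ≤
        KZ B c0 ‖one‖ * (w ^ 2 + e + |r| + |r'|) :=
      mul_le_mul_of_nonneg_right hKZ3 (by positivity)
    linarith

end Crest.Agent.R249.LimG621
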