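import Crest.Agent.R249.Grn1_324
import Crest.Agent.R249.Bia3_104
import Crest.Agent.R247.Bs1_84

/-!
# R249, leaf L-GR of D3-LIM (helper899): the Green identities for harmonic coordinates

`U` open in `M`, `u : M → ℝᵐ` with components smooth on `U` and `mLap = 0` on `U`;
`F^{ab} = ⟨du_a, du_b⟩`, `P^{ab;c} = ⟨dF^{ab}, du_c⟩`; `φ` a `C²` function on `ℝᵐ`, `ψ` a `C¹` function
on `M` with compact support in `U` and `ψ = φ ∘ u` on `U`.

* `mfderiv_comp_vec`, `mGam_comp_vec` : `⟨d(φ∘u), df⟩ = Σ_d (∂_d φ)(u) ⟨du_d, df⟩`;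
* `gr1` : `∫_U Σ_d ∂_dφ(u) F^{dc} = 0`;
* `gr2` : `∫_U φ(u) P^{ab;c} = - ∫_U F^{ab} Σ_d ∂_dφ(u) F^{dc}`;
* `gr3` : `∫_U Σ_c ∂_cφ(u) P^{ab;c} = - ∫_U φ(u) ΔF^{ab}`;
* `gr4` : `∫_U φ(u)|dF^{ab}|² = - ∫_U φ(u) F^{ab} ΔF^{ab} - ∫_U F^{ab} Σ_c ∂_cφ(u) P^{ab;c}`;
* `bochner_polar`, `gr5` : `ΔF^{ab} = 2⟨Hess u_a, Hess u_b⟩ + 2 Ric(∇u_a, ∇u_b)` on `U`.
-/

set_option autoImplicit false
set_option maxSynthPendingDepth 3
set_option linter.unusedSectionVars false

open Bundle Set MeasureTheory Manifold Filter Metric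
open scoped ContDiff Topology NNReal RealInnerProductSpace
open Crest.GeometryTopology.CoordMetric Crest.GeometryTopology.ChartCurvature
  Crest.GeometryTopology.PointedLimit
open Crest.Agent.R247.Bo84 Crest.Agent.R247.Ms322

noncomputable section

namespace Crest.Agent.R249.LimGR_899

variable {n m : ℕ} {M : Type*} [MetricSpace M] [ChartedSpace (EuclideanSpace ℝ (Fin n)) M]
  [IsManifold (𝓡 n) ∞ M]
  [RiemannianBundle (fun p : M => TangentSpace (𝓡 n) p)]
  [IsContMDiffRiemannianBundle (𝓡 n) ∞ (EuclideanSpace ℝ (Fin n)) (fun p : M => TangentSpace (𝓡 n) p)]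

local notation "𝔼" => EuclideanSpace ℝ (Fin n)

/-! ### chain rule for functions of several functions -/

/-- the differential of a function of `u` -/
theorem mfderiv_comp_vec {u : M → EuclideanSpace ℝ (Fin m)} {φ : EuclideanSpace ℝ (Fin m) → ℝ}
    {z : M} (hu : ∀ a, MDifferentiableAt (𝓡 n) 𝓘(ℝ) (fun y => u y a) z)
    (hφ : DifferentiableAt ℝ φ (u z)) (v : TangentSpace (𝓡 n) z) :
    dM n (fun y => φ (u y)) z v = ∑ d, pderiv d φ (u z) * dM n (fun y => u y d) z v := by
  set c := chartAt 𝔼 z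
  have hc : chartCentre n M z ∈ c.target := mem_chart_target 𝔼 z
  have hcz : c.symm (chartCentre n M z) = z := c.left_inv (mem_chart_source 𝔼 z)
  -- the functions in the chart
  have h1 : ∀ a, DifferentiableAt ℝ (inCh n z (fun y => u y a)) (chartCentre n M z) := fun a =>
    differentiableAt_centre (hu a)
  have h2 : ∀ f : M → ℝ, dM n f z v =
      fderiv ℝ (inCh n z f) (chartCentre n M z) (dCh z z v) := fun f => mfderiv_centre f z v
  rw [h2]
  simp only [h2]
  have h3 : DifferentiableAt ℝ (fun b => u (c.symm b)) (chartCentre n M z) :=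
    differentiableAt_euclidean.2 fun a => h1 a
  have h4 : DifferentiableAt ℝ φ ((fun b => u (c.symm b)) (chartCentre n M z)) := by
    simp only [hcz]; exact hφ
  have h6 : inCh n z (fun y => φ (u y)) = φ ∘ fun b => u (c.symm b) := rfl
  set w : 𝔼 := dCh z z v
  have h7 : ∀ d, fderiv ℝ (fun b => u (c.symm b)) (chartCentre n M z) w d =
      fderiv ℝ (inCh n z (fun y => u y d)) (chartCentre n M z) w := by
    intro d
    have h8 := ((EuclideanSpace.proj d : EuclideanSpace ℝ (Fin m) →L[ℝ] ℝ).hasFDerivAt.comp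
      (chartCentre n M z) h3.hasFDerivAt).fderiv
    exact (congrArg (fun L : 𝔼 →L[ℝ] ℝ => L w) h8).symm
  have h9 : fderiv ℝ (fun b => u (c.symm b)) (chartCentre n M z) w =
      ∑ d, fderiv ℝ (inCh n z (fun y => u y d)) (chartCentre n M z) w •
        (EuclideanSpace.single d (1:ℝ) : EuclideanSpace ℝ (Fin m)) := by
    ext d
    rw [h7]
    simp [Pi.single_apply]
  have h10 := (h4.hasFDerivAt.comp (chartCentre n M z) h3.hasFDerivAt).fderiv
  rw [h6, h10, ContinuousLinearMap.comp_apply, h9, map_sum]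
  refine Finset.sum_congr rfl fun d _ => ?_
  rw [map_smul, smul_eq_mul, mul_comm]
  simp only [pderiv, hcz]

/-- `φ ∘ u` is differentiable -/
theorem mdifferentiableAt_comp_vec {u : M → EuclideanSpace ℝ (Fin m)}
    {φ : EuclideanSpace ℝ (Fin m) → ℝ}
    {z : M} (hu : ∀ a, MDifferentiableAt (𝓡 n) 𝓘(ℝ) (fun y => u y a) z)
    (hφ : DifferentiableAt ℝ φ (u z)) :
    MDifferentiableAt (𝓡 n) 𝓘(ℝ) (fun y => φ (u y)) z := by
  refine mdifferentiableAt_of_inCh (x₀ := z) (mem_chart_source 𝔼 z) ?_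
  have h1 : ∀ a, DifferentiableAt ℝ (inCh n z (fun y => u y a)) (chartCentre n M z) := fun a =>
    differentiableAt_centre (hu a)
  have hcz : (chartAt 𝔼 z).symm (chartCentre n M z) = z :=
    (chartAt 𝔼 z).left_inv (mem_chart_source 𝔼 z)
  have h3 : DifferentiableAt ℝ (fun b => u ((chartAt 𝔼 z).symm b)) (chartCentre n M z) :=
    differentiableAt_euclidean.2 fun a => h1 a
  have h4 : DifferentiableAt ℝ φ ((fun b => u ((chartAt 𝔼 z).symm b)) (chartCentre n M z)) := by
    simp only [hcz]; exact hφ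
  exact h4.comp (chartCentre n M z) h3

/-- `⟨d(φ∘u), df⟩ = Σ_d (∂_d φ)(u) ⟨du_d, df⟩` -/
theorem mGam_comp_vec {u : M → EuclideanSpace ℝ (Fin m)} {φ : EuclideanSpace ℝ (Fin m) → ℝ}
    {z : M} (hu : ∀ a, MDifferentiableAt (𝓡 n) 𝓘(ℝ) (fun y => u y a) z)
    (hφ : DifferentiableAt ℝ φ (u z)) (f : M → ℝ) :
    mGam n (fun y => φ (u y)) f z = ∑ d, pderiv d φ (u z) * mGam n (fun y => u y d) f z := by
  have h : ∀ k : M → ℝ, mGam n k f z = dM n k z (mgrad n f z) := fun k => mGam_eq_mfderiv k f z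
  rw [h, mfderiv_comp_vec hu hφ]
  simp only [h]

/-! ### polarised Bochner formula -/

section Boch

variable {f h : M → ℝ} {z : M}

lemma mRic_add_add (v w : TangentSpace (𝓡 n) z) :
    mRic n z (v + w) (v + w) = mRic n z v v + mRic n z w w + 2 * mRic n z v w := by
  have hs : mRic n z w v = mRic n z v w := by
    unfold mRic
    rw [Finset.sum_comm]
    refine Finset.sum_congr rfl fun i _ => Finset.sum_congr rfl fun j _ => ?_
    rw [Crest.Agent.R249.Bia3_104.ricci_symm (Crest.Agent.R247.Bo84.isRiemannianOn_chartMetric (n := n) z)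
      (centre_mem z) j i]
    ring
  have h1 : mRic n z (v + w) (v + w) =
      mRic n z v v + mRic n z w w + (mRic n z v w + mRic n z w v) := by
    unfold mRic
    have e : dCh z z (v + w) = dCh z z v + dCh z z w := map_add (dCh z z) v w
    rw [e]
    simp only [PiLp.add_apply, ← Finset.sum_add_distrib]
    refine Finset.sum_congr rfl fun i _ => Finset.sum_congr rfl fun j _ => ?_
    ring
  rw [h1, hs]; ring

lemma mRic_symm (v w : TangentSpace (𝓡 n) z) : mRic n z v w = mRic n z w v := by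
  unfold mRic
  rw [Finset.sum_comm]
  refine Finset.sum_congr rfl fun i _ => Finset.sum_congr rfl fun j _ => ?_
  rw [Crest.Agent.R249.Bia3_104.ricci_symm (Crest.Agent.R247.Bo84.isRiemannianOn_chartMetric (n := n) z)
    (centre_mem z) j i]
  ring

/-- the product of the Hessians, as polarised square -/
def hessIn (n : ℕ) {M : Type*} [TopologicalSpace M] [ChartedSpace (EuclideanSpace ℝ (Fin n)) M]
    [RiemannianBundle (fun p : M => TangentSpace (𝓡 n) p)] (f h : M → ℝ) (z : M) : ℝ :=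
  (1 / 2) * (mHessSq n (fun y => f y + h y) z - mHessSq n f z - mHessSq n h z)

/-- **Bochner's formula, polarised.** -/
theorem bochner_polar (hf : ContMDiffAt (𝓡 n) 𝓘(ℝ) 3 f z) (hh : ContMDiffAt (𝓡 n) 𝓘(ℝ) 3 h z) :
    mLap n (mGam n f h) z = 2 * hessIn n f h z + mGam n f (mLap n h) z + mGam n h (mLap n f) z +
      2 * mRic n z (mgrad n f z) (mgrad n h z) := by
  have ev : ∀ {k : M → ℝ}, ContMDiffAt (𝓡 n) 𝓘(ℝ) 3 k z →
      ∀ᶠ y in 𝓝 z, ContMDiffAt (𝓡 n) 𝓘(ℝ) 3 k y := fun {k} hk =>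
    (contMDiffAt_iff_contMDiffAt_nhds (by norm_num)).1 hk
  have h23 : (2 : WithTop ℕ∞) ≤ 3 := by norm_num
  have h3i : (3 : WithTop ℕ∞) ≤ ∞ := three_le_infty
  have h0 := mBochner (hf.add hh)
  have hff := mBochner hf
  have hhh := mBochner hh
  have dff : ContMDiffAt (𝓡 n) 𝓘(ℝ) 2 (mGam n f f) z :=
    contMDiffAt_mGam (a := 3) (m := 2) hf hf (by norm_num) h3i
  have dfh : ContMDiffAt (𝓡 n) 𝓘(ℝ) 2 (mGam n f h) z :=
    contMDiffAt_mGam (a := 3) (m := 2) hf hh (by norm_num) h3i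
  have dhh : ContMDiffAt (𝓡 n) 𝓘(ℝ) 2 (mGam n h h) z :=
    contMDiffAt_mGam (a := 3) (m := 2) hh hh (by norm_num) h3i
  have md : ∀ {k : M → ℝ} {y : M}, ContMDiffAt (𝓡 n) 𝓘(ℝ) 3 k y →
      MDifferentiableAt (𝓡 n) 𝓘(ℝ) k y := fun {k} {y} hk => hk.mdifferentiableAt (by norm_num)
  -- left side
  have e1 : mGam n (f + h) (f + h) =ᶠ[𝓝 z]
      fun y => (mGam n f f y + (2 * mGam n f h y)) + mGam n h h y := by
    filter_upwards [ev hf, ev hh] with y hfy hhy
    have a1 : mGam n (f + h) (f + h) y = mGam n f (f + h) y + mGam n h (f + h) y :=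
      mGam_add_left (md hfy) (md hhy)
    have a2 : mGam n f (f + h) y = mGam n f f y + mGam n f h y :=
      mGam_add_right (md hfy) (md hhy)
    have a3 : mGam n h (f + h) y = mGam n h f y + mGam n h h y :=
      mGam_add_right (md hfy) (md hhy)
    rw [a1, a2, a3, mGam_comm h f]
    ring
  have e2 : mLap n (mGam n (f + h) (f + h)) z =
      mLap n (mGam n f f) z + 2 * mLap n (mGam n f h) z + mLap n (mGam n h h) z := by
    have d2 : ContMDiffAt (𝓡 n) 𝓘(ℝ) 2 (fun y => 2 * mGam n f h y) z :=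
      contMDiffAt_const.mul dfh
    have d3 : ContMDiffAt (𝓡 n) 𝓘(ℝ) 2 (fun y => mGam n f f y + 2 * mGam n f h y) z := dff.add d2
    have a1 : mLap n (fun y => (mGam n f f y + 2 * mGam n f h y) + mGam n h h y) z =
        mLap n (fun y => mGam n f f y + 2 * mGam n f h y) z + mLap n (mGam n h h) z :=
      mLap_add d3 dhh
    have a2 : mLap n (fun y => mGam n f f y + 2 * mGam n f h y) z =
        mLap n (mGam n f f) z + mLap n (fun y => 2 * mGam n f h y) z := mLap_add dff d2
    rw [mLap_congr e1, a1, a2, mLap_const_mul 2 dfh]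
  -- the gradient of the Laplacian
  have l1 : mLap n (f + h) =ᶠ[𝓝 z] fun y => mLap n f y + mLap n h y := by
    filter_upwards [ev hf, ev hh] with y hfy hhy
    exact mLap_add (hfy.of_le h23) (hhy.of_le h23)
  have dlf : MDifferentiableAt (𝓡 n) 𝓘(ℝ) (mLap n f) z :=
    (contMDiffAt_mLap (a := 3) (m := 1) hf (by norm_num) h3i).mdifferentiableAt (by norm_num)
  have dlh : MDifferentiableAt (𝓡 n) 𝓘(ℝ) (mLap n h) z :=
    (contMDiffAt_mLap (a := 3) (m := 1) hh (by norm_num) h3i).mdifferentiableAt (by norm_num)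
  have e3 : mGam n (f + h) (mLap n (f + h)) z =
      mGam n f (mLap n f) z + mGam n f (mLap n h) z +
        (mGam n h (mLap n f) z + mGam n h (mLap n h) z) := by
    rw [mGam_congr (EventuallyEq.refl _ (f + h)) l1]
    have a1 : mGam n (f + h) (fun y => mLap n f y + mLap n h y) z =
        mGam n f (fun y => mLap n f y + mLap n h y) z +
          mGam n h (fun y => mLap n f y + mLap n h y) z := mGam_add_left (md hf) (md hh)
    rw [a1, mGam_add_right dlf dlh, mGam_add_right dlf dlh]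
  have e4 : mgrad n (f + h) z = mgrad n f z + mgrad n h z := mgrad_add (md hf) (md hh)
  have e5 : mHessSq n (f + h) z = mHessSq n (fun y => f y + h y) z := rfl
  rw [e2, e3, e4, mRic_add_add, e5] at h0
  unfold hessIn
  linarith

end Boch

section Sel

variable [SecondCountableTopology M] [Nonempty M]

open Crest.Agent.R247.Bs84 in
/-- the polarised product of the Hessians is the scalar product of the Hessian matrices in the
orthonormal frame. -/
theorem hessIn_eq_inner {f h : M → ℝ} {z : M} (hf : ContMDiffAt (𝓡 n) 𝓘(ℝ) 2 f z)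
    (hh : ContMDiffAt (𝓡 n) 𝓘(ℝ) 2 h z) :
    hessIn n f h z = inner ℝ (Hf (n := n) f z) (Hf (n := n) h z) := by
  have h1 : Hf (n := n) (fun y => f y + h y) z = Hf f z + Hf h z := by
    ext ij
    exact mHess_add hf hh _ _
  have h2 := norm_Hf_sq (hf.add hh)
  have e5 : mHessSq n (f + h) z = mHessSq n (fun y => f y + h y) z := rfl
  have e6 : Hf (n := n) (f + h) z = Hf (n := n) (fun y => f y + h y) z := rfl
  rw [e5, e6, h1] at h2
  unfold hessIn
  rw [← h2, ← norm_Hf_sq hf, ← norm_Hf_sq hh, norm_add_sq_real]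
  ring

end Sel

/-! ### integral identities -/

section Int

variable [IsRiemannianManifold (𝓡 n) M] [SecondCountableTopology M] [Nonempty M]
  [MeasurableSpace M] [BorelSpace M] {U : Set M} {f w ψ : M → ℝ}

/-- Green's formula on an open set. -/
theorem green (hU : IsOpen U) (hf : ∀ z ∈ U, ContMDiffAt (𝓡 n) 𝓘(ℝ) 2 f z)
    (hψ : LocallyLipschitz ψ) (hc : HasCompactSupport ψ) (hs : tsupport ψ ⊆ U) :
    Integrable (mGam n f ψ) (μHE[n] : Measure M) ∧
    Integrable (fun z => ψ z * mLap n f z) (μHE[n] : Measure M) ∧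
    ∫ z in U, mGam n f ψ z ∂(μHE[n] : Measure M) =
      - ∫ z in U, ψ z * mLap n f z ∂(μHE[n] : Measure M) := by
  have h1 : (fun z => inner ℝ (Gr (n := n) f z) (Gr (n := n) ψ z)) = mGam n f ψ := by
    funext z; exact inner_Gr_eq_mGam f ψ z
  have h2 := ibp_mLap (n := n) hU hf hψ hc hs
  have hL : LLo U f := LLo.of_contMDiffAt fun z hz => (hf z hz).of_le (by norm_num)
  have h3 := integrable_inner_Gr (n := n) hL hψ hc hs
  simp only [h1] at h2
  rw [h1] at h3
  have h4 : Integrable (fun z => ψ z * mLap n f z) (μHE[n] : Measure M) :=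
    integrable_mul_of_continuousOn_M (continuousOn_mLap hf) hψ.continuous hc hs
  refine ⟨h3, h4, ?_⟩
  rw [setIntegral_eq_integral_of_forall_compl_eq_zero, setIntegral_eq_integral_of_forall_compl_eq_zero,
    h2]
  · intro z hz
    rw [image_eq_zero_of_notMem_tsupport (fun h => hz (hs h)), zero_mul]
  · intro z hz
    rw [← inner_Gr_eq_mGam, Gr_zero_off (fun h => hz (hs h)), inner_zero_right]

/-- Green's formula with a weight. -/
theorem green_w (hU : IsOpen U) (hf : ∀ z ∈ U, ContMDiffAt (𝓡 n) 𝓘(ℝ) 2 f z)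
    (hw : ∀ z ∈ U, ContMDiffAt (𝓡 n) 𝓘(ℝ) 1 w z)
    (hψ : LocallyLipschitz ψ) (hc : HasCompactSupport ψ) (hs : tsupport ψ ⊆ U)
    (hd : ∀ z ∈ U, MDifferentiableAt (𝓡 n) 𝓘(ℝ) ψ z) :
    IntegrableOn (fun z => ψ z * mGam n f w z) U (μHE[n] : Measure M) ∧
    IntegrableOn (fun z => w z * mGam n f ψ z) U (μHE[n] : Measure M) ∧
    IntegrableOn (fun z => ψ z * (w z * mLap n f z)) U (μHE[n] : Measure M) ∧
    ∫ z in U, ψ z * mGam n f w z ∂(μHE[n] : Measure M) =
      - ∫ z in U, ψ z * (w z * mLap n f z) ∂(μHE[n] : Measure M)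
      - ∫ z in U, w z * mGam n f ψ z ∂(μHE[n] : Measure M) := by
  have hwL : LLo U w := LLo.of_contMDiffAt hw
  have hχ : LocallyLipschitz (fun z => ψ z * w z) := LLo.mul_supp hψ hwL hs
  have hχc : HasCompactSupport (fun z => ψ z * w z) := hc.mul_right
  have hχs : tsupport (fun z => ψ z * w z) ⊆ U := (tsupport_mul_subset_left).trans hs
  obtain ⟨i1, i2, i3⟩ := green hU hf hχ hχc hχs
  have hcw : ContinuousOn (mGam n f w) U := by
    intro z hz
    exact (contMDiffAt_mGam (a := 1) (m := 0) ((hf z hz).of_le (by norm_num)) (hw z hz)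
      (by norm_num) (by simp)).continuousAt.continuousWithinAt
  have j1 : Integrable (fun z => ψ z * mGam n f w z) (μHE[n] : Measure M) :=
    integrable_mul_of_continuousOn_M hcw hψ.continuous hc hs
  have hpt : ∀ z ∈ U, mGam n f (fun y => ψ y * w y) z =
      ψ z * mGam n f w z + w z * mGam n f ψ z := by
    intro z hz
    rw [mGam_mul_right (hd z hz) ((hw z hz).mdifferentiableAt (by norm_num))]
  have j2 : IntegrableOn (fun z => w z * mGam n f ψ z) U (μHE[n] : Measure M) := by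
    refine (i1.integrableOn.sub j1.integrableOn).congr ?_
    filter_upwards [ae_restrict_mem hU.measurableSet] with z hz
    simp only [Pi.sub_apply, hpt z hz]
    ring
  have j3 : IntegrableOn (fun z => ψ z * (w z * mLap n f z)) U (μHE[n] : Measure M) := by
    refine i2.integrableOn.congr ?_
    filter_upwards with z
    ring
  refine ⟨j1.integrableOn, j2, j3, ?_⟩
  have k1 : ∫ z in U, mGam n f (fun y => ψ y * w y) z ∂(μHE[n] : Measure M) =
      ∫ z in U, ψ z * mGam n f w z ∂(μHE[n] : Measure M) +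
        ∫ z in U, w z * mGam n f ψ z ∂(μHE[n] : Measure M) := by
    rw [← integral_add j1.integrableOn j2]
    refine setIntegral_congr_fun hU.measurableSet fun z hz => ?_
    exact hpt z hz
  have k2 : ∫ z in U, ψ z * w z * mLap n f z ∂(μHE[n] : Measure M) =
      ∫ z in U, ψ z * (w z * mLap n f z) ∂(μHE[n] : Measure M) := by
    refine setIntegral_congr_fun hU.measurableSet fun z _ => ?_
    ring
  rw [k1, k2] at i3
  linarith

end Int

/-! ### harmonic coordinates -/

section Harm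

variable [IsRiemannianManifold (𝓡 n) M] [SecondCountableTopology M] [Nonempty M]
  [MeasurableSpace M] [BorelSpace M] {U : Set M}

/-- `F^{ab} = ⟨du_a, du_b⟩` -/
def FF (n : ℕ) {m : ℕ} {M : Type*} [TopologicalSpace M] [ChartedSpace (EuclideanSpace ℝ (Fin n)) M]
    [RiemannianBundle (fun p : M => TangentSpace (𝓡 n) p)] (u : M → EuclideanSpace ℝ (Fin m))
    (a b : Fin m) : M → ℝ := mGam n (fun y => u y a) (fun y => u y b)

/-- `P^{ab;c} = ⟨dF^{ab}, du_c⟩` -/
def PP (n : ℕ) {m : ℕ} {M : Type*} [TopologicalSpace M] [ChartedSpace (EuclideanSpace ℝ (Fin n)) M]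
    [RiemannianBundle (fun p : M => TangentSpace (𝓡 n) p)] (u : M → EuclideanSpace ℝ (Fin m))
    (a b c : Fin m) : M → ℝ := mGam n (FF n u a b) (fun y => u y c)

/-- the data: `U` open, `u` smooth and harmonic on `U`, `ψ` a locally Lipschitz function with compact
support in `U` which is `φ ∘ u` on `U`. -/
structure Dat (n m : ℕ) {M : Type*} [MetricSpace M] [ChartedSpace (EuclideanSpace ℝ (Fin n)) M]
    [RiemannianBundle (fun p : M => TangentSpace (𝓡 n) p)] (U : Set M)
    (u : M → EuclideanSpace ℝ (Fin m)) (φ : EuclideanSpace ℝ (Fin m) → ℝ) (ψ : M → ℝ) : Prop where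
  isOpen : IsOpen U
  smooth : ∀ z ∈ U, ∀ a, ContMDiffAt (𝓡 n) 𝓘(ℝ) ∞ (fun y => u y a) z
  harm : ∀ z ∈ U, ∀ a, mLap n (fun y => u y a) z = 0
  diff : Differentiable ℝ φ
  lip : LocallyLipschitz ψ
  comp : HasCompactSupport ψ
  supp : tsupport ψ ⊆ U
  eq : ∀ z ∈ U, ψ z = φ (u z)

namespace Dat

variable {u : M → EuclideanSpace ℝ (Fin m)} {φ : EuclideanSpace ℝ (Fin m) → ℝ} {ψ : M → ℝ}
  (D : Dat n m U u φ ψ)

include D

lemma mdu {z : M} (hz : z ∈ U) (a : Fin m) : MDifferentiableAt (𝓡 n) 𝓘(ℝ) (fun y => u y a) z :=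
  (D.smooth z hz a).mdifferentiableAt (by simp)

lemma ev {z : M} (hz : z ∈ U) : ψ =ᶠ[𝓝 z] fun y => φ (u y) := by
  filter_upwards [D.isOpen.mem_nhds hz] with y hy using D.eq y hy

lemma mdψ {z : M} (hz : z ∈ U) : MDifferentiableAt (𝓡 n) 𝓘(ℝ) ψ z :=
  (mdifferentiableAt_comp_vec (D.mdu hz) (D.diff _)).congr_of_eventuallyEq (D.ev hz)

/-- `⟨df, dψ⟩ = Σ_d ∂_dφ(u) ⟨df, du_d⟩` -/
lemma gam_ψ {z : M} (hz : z ∈ U) (f : M → ℝ) :
    mGam n f ψ z = ∑ d, pderiv d φ (u z) * mGam n f (fun y => u y d) z := by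
  rw [mGam_congr (EventuallyEq.refl _ f) (D.ev hz), mGam_comm, mGam_comp_vec (D.mdu hz) (D.diff _)]
  exact Finset.sum_congr rfl fun d _ => by rw [mGam_comm]

lemma smooth_FF {z : M} (hz : z ∈ U) (a b : Fin m) :
    ContMDiffAt (𝓡 n) 𝓘(ℝ) ∞ (FF n u a b) z :=
  contMDiffAt_mGam (a := ∞) (m := ∞) (D.smooth z hz a) (D.smooth z hz b) (by simp) le_rfl

/-- (i) -/
theorem gr1 (c : Fin m) :
    ∫ z in U, ∑ d, pderiv d φ (u z) * FF n u d c z ∂(μHE[n] : Measure M) = 0 := by
  obtain ⟨-, -, h⟩ := green (n := n) D.isOpen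
    (fun z hz => (D.smooth z hz c).of_le two_le_infty) D.lip D.comp D.supp
  have h1 : ∫ z in U, mGam n (fun y => u y c) ψ z ∂(μHE[n] : Measure M) =
      ∫ z in U, ∑ d, pderiv d φ (u z) * FF n u d c z ∂(μHE[n] : Measure M) := by
    refine setIntegral_congr_fun D.isOpen.measurableSet fun z hz => ?_
    simp only [D.gam_ψ hz]
    exact Finset.sum_congr rfl fun d _ => by rw [FF, mGam_comm]
  have h2 : ∫ z in U, ψ z * mLap n (fun y => u y c) z ∂(μHE[n] : Measure M) = 0 := by
    refine setIntegral_eq_zero_of_forall_eq_zero fun z hz => ?_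
    rw [D.harm z hz c, mul_zero]
  rw [← h1, h, h2, neg_zero]

/-- (ii) -/
theorem gr2 (a b c : Fin m) :
    ∫ z in U, φ (u z) * PP n u a b c z ∂(μHE[n] : Measure M) =
      - ∫ z in U, FF n u a b z * ∑ d, pderiv d φ (u z) * FF n u d c z ∂(μHE[n] : Measure M) := by
  obtain ⟨-, -, -, h⟩ := green_w (n := n) D.isOpen (f := fun y => u y c) (w := FF n u a b)
    (fun z hz => (D.smooth z hz c).of_le two_le_infty)
    (fun z hz => (D.smooth_FF hz a b).of_le (by simp)) D.lip D.comp D.supp (fun z hz => D.mdψ hz)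
  have h0 : ∫ z in U, ψ z * (FF n u a b z * mLap n (fun y => u y c) z) ∂(μHE[n] : Measure M)
      = 0 := by
    refine setIntegral_eq_zero_of_forall_eq_zero fun z hz => ?_
    rw [D.harm z hz c, mul_zero, mul_zero]
  have h1 : ∫ z in U, ψ z * mGam n (fun y => u y c) (FF n u a b) z ∂(μHE[n] : Measure M) =
      ∫ z in U, φ (u z) * PP n u a b c z ∂(μHE[n] : Measure M) := by
    refine setIntegral_congr_fun D.isOpen.measurableSet fun z hz => ?_
    simp only [D.eq z hz, PP, mGam_comm (fun y => u y c)]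
  have h2 : ∫ z in U, FF n u a b z * mGam n (fun y => u y c) ψ z ∂(μHE[n] : Measure M) =
      ∫ z in U, FF n u a b z * ∑ d, pderiv d φ (u z) * FF n u d c z ∂(μHE[n] : Measure M) := by
    refine setIntegral_congr_fun D.isOpen.measurableSet fun z hz => ?_
    simp only [D.gam_ψ hz]
    congr 1
    exact Finset.sum_congr rfl fun d _ => by rw [FF, mGam_comm]
  rw [h0, h1, h2] at h
  rw [h]; ring

/-- (iii) -/
theorem gr3 (a b : Fin m) :
    ∫ z in U, ∑ c, pderiv c φ (u z) * PP n u a b c z ∂(μHE[n] : Measure M) =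
      - ∫ z in U, φ (u z) * mLap n (FF n u a b) z ∂(μHE[n] : Measure M) := by
  obtain ⟨-, -, h⟩ := green (n := n) D.isOpen (f := FF n u a b)
    (fun z hz => (D.smooth_FF hz a b).of_le two_le_infty) D.lip D.comp D.supp
  have h1 : ∫ z in U, mGam n (FF n u a b) ψ z ∂(μHE[n] : Measure M) =
      ∫ z in U, ∑ c, pderiv c φ (u z) * PP n u a b c z ∂(μHE[n] : Measure M) := by
    refine setIntegral_congr_fun D.isOpen.measurableSet fun z hz => ?_
    simp only [D.gam_ψ hz, PP]
  have h2 : ∫ z in U, ψ z * mLap n (FF n u a b) z ∂(μHE[n] : Measure M) =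
      ∫ z in U, φ (u z) * mLap n (FF n u a b) z ∂(μHE[n] : Measure M) := by
    refine setIntegral_congr_fun D.isOpen.measurableSet fun z hz => ?_
    simp only [D.eq z hz]
  rw [← h1, ← h2, h]

/-- (iv) -/
theorem gr4 (a b : Fin m) :
    ∫ z in U, φ (u z) * mGam n (FF n u a b) (FF n u a b) z ∂(μHE[n] : Measure M) =
      - ∫ z in U, φ (u z) * (FF n u a b z * mLap n (FF n u a b) z) ∂(μHE[n] : Measure M)
      - ∫ z in U, FF n u a b z * ∑ c, pderiv c φ (u z) * PP n u a b c z ∂(μHE[n] : Measure M) := by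
  obtain ⟨-, -, -, h⟩ := green_w (n := n) D.isOpen (f := FF n u a b) (w := FF n u a b)
    (fun z hz => (D.smooth_FF hz a b).of_le two_le_infty)
    (fun z hz => (D.smooth_FF hz a b).of_le (by simp)) D.lip D.comp D.supp (fun z hz => D.mdψ hz)
  have h0 : ∫ z in U, ψ z * (FF n u a b z * mLap n (FF n u a b) z) ∂(μHE[n] : Measure M) =
      ∫ z in U, φ (u z) * (FF n u a b z * mLap n (FF n u a b) z) ∂(μHE[n] : Measure M) := by
    refine setIntegral_congr_fun D.isOpen.measurableSet fun z hz => ?_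
    simp only [D.eq z hz]
  have h1 : ∫ z in U, ψ z * mGam n (FF n u a b) (FF n u a b) z ∂(μHE[n] : Measure M) =
      ∫ z in U, φ (u z) * mGam n (FF n u a b) (FF n u a b) z ∂(μHE[n] : Measure M) := by
    refine setIntegral_congr_fun D.isOpen.measurableSet fun z hz => ?_
    simp only [D.eq z hz]
  have h2 : ∫ z in U, FF n u a b z * mGam n (FF n u a b) ψ z ∂(μHE[n] : Measure M) =
      ∫ z in U, FF n u a b z * ∑ c, pderiv c φ (u z) * PP n u a b c z ∂(μHE[n] : Measure M) := by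
    refine setIntegral_congr_fun D.isOpen.measurableSet fun z hz => ?_
    simp only [D.gam_ψ hz, PP]
  rw [← h0, ← h1, ← h2, h]

/-- (v), polarised form -/
theorem gr5 {z : M} (hz : z ∈ U) (a b : Fin m) :
    mLap n (FF n u a b) z = 2 * hessIn n (fun y => u y a) (fun y => u y b) z +
      2 * mRic n z (mgrad n (fun y => u y a) z) (mgrad n (fun y => u y b) z) := by
  have h1 := bochner_polar (n := n) ((D.smooth z hz a).of_le three_le_infty)
    ((D.smooth z hz b).of_le three_le_infty)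
  have h2 : ∀ a, mLap n (fun y => u y a) =ᶠ[𝓝 z] fun _ => 0 := fun a => by
    filter_upwards [D.isOpen.mem_nhds hz] with y hy using D.harm y hy a
  rw [mGam_congr (EventuallyEq.refl _ _) (h2 b), mGam_congr (EventuallyEq.refl _ _) (h2 a),
    mGam_const_right, mGam_const_right] at h1
  rw [FF, h1]; ring

open Crest.Agent.R247.Bs84 in
/-- (v), frame form -/
theorem gr5' {z : M} (hz : z ∈ U) (a b : Fin m) :
    mLap n (FF n u a b) z = 2 * inner ℝ (Hf (n := n) (fun y => u y a) z) (Hf (fun y => u y b) z) +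
      2 * mRic n z (mgrad n (fun y => u y a) z) (mgrad n (fun y => u y b) z) := by
  rw [D.gr5 hz, hessIn_eq_inner ((D.smooth z hz a).of_le two_le_infty)
    ((D.smooth z hz b).of_le two_le_infty)]

/-- `P^{ab;c} = Hess u_a(∇u_b, ∇u_c) + Hess u_b(∇u_a, ∇u_c)` -/
theorem PP_eq {z : M} (hz : z ∈ U) (a b c : Fin m) :
    PP n u a b c z =
      mHess n (fun y => u y a) z (mgrad n (fun y => u y b) z) (mgrad n (fun y => u y c) z) +
      mHess n (fun y => u y b) z (mgrad n (fun y => u y a) z) (mgrad n (fun y => u y c) z) := by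
  have h2a := (D.smooth z hz a).of_le two_le_infty
  have h2b := (D.smooth z hz b).of_le two_le_infty
  have h1 := mfderiv_mGam h2a h2b (mgrad n (fun y => u y c) z)
  have h3 : PP n u a b c z = dM n (FF n u a b) z (mgrad n (fun y => u y c) z) :=
    mGam_eq_mfderiv _ _ z
  rw [h3]
  refine Eq.trans h1 ?_
  rw [mHess_symm h2a (mgrad n (fun y => u y c) z), mHess_symm h2b (mgrad n (fun y => u y c) z)]

end Dat

end Harm

end Crest.Agent.R249.LimGR_899
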