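import Crest.Agent.R249.LimF_41
/-!
R249 / D3-LIM (helper41).  Abstract limit lemma, part 15: the limit system, the main theorem
`LData → LOut`.
-/

set_option autoImplicit false

open MeasureTheory Filter Topology Set
open scoped ContDiff ENNReal
open Crest.GeometryTopology.CoordMetric
open Crest.Agent.R249.LPt_191 (N1 sS kos)

noncomputable section

namespace Crest.Agent.R249.Lim41

section main

variable {n : ℕ} {ι : Type*} {l : Filter ι} {X : ι → Type*} [∀ i, MeasurableSpace (X i)]
  {Ω : Set (E n)} {m : ∀ i, Measure (X i)} {u : ∀ i, X i → E n}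
  {h : E n → Matrix (Fin n) (Fin n) ℝ} {F : ∀ i, X i → Matrix (Fin n) (Fin n) ℝ}
  {P : ∀ i, X i → Fin n → Fin n → Fin n → ℝ} {D G R : ∀ i, X i → Fin n → Fin n → ℝ}
  {lam Mm C α : ℝ}

namespace LData

variable [l.NeBot] (hd : LData l Ω m u h F P D G R lam Mm C α)
include hd

/-- the limit of `χ sS` -/
theorem sS_wc (a b : Fin n) :
    WC l Ω m u (fun i x => chi (fm (F i x)) * sS (F i x) (P i x) a b)
      (fun y => (Jf (fm (h y)))⁻¹ * sS (h y) (fun a b c => hd.p a b c y) a b) := by
  have hinvc : ∀ c d (A : Mt n), nI A ≤ 1 / 4 →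
      ContinuousAt (fun A : Mt n => (Matrix.of A)⁻¹ c d) A := fun c d A hA =>
    (inv_contDiffAt (lt_of_le_of_lt hA (by norm_num)) c d).continuousAt
  have hq : ∀ c d c' d', WC l Ω m u (fun i x => (chi (fm (F i x)) *
      ((Matrix.of (fm (F i x)))⁻¹ c c' * (Matrix.of (fm (F i x)))⁻¹ d d')) *
      (kos (P i x) a c d * kos (P i x) b c' d'))
      (fun y => ((Matrix.of (fm (h y)))⁻¹ c c' * (Matrix.of (fm (h y)))⁻¹ d d') *
        (Jf (fm (h y)))⁻¹ * (kos (fun a b c => hd.p a b c y) a c d *
          kos (fun a b c => hd.p a b c y) b c' d')) := fun c d c' d' =>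
    hd.quad (hd.good_kos a c d) (hd.good_kos b c' d')
      (Θ := fun A => (Matrix.of A)⁻¹ c c' * (Matrix.of A)⁻¹ d d')
      (fun A hA => (hinvc c c' A hA).mul (hinvc d d' A hA)) (BΘ := 2 * 2)
      (fun A hA => by
        rw [abs_mul]
        exact mul_le_mul (inv_le_two hA _ _) (inv_le_two hA _ _) (abs_nonneg _) (by norm_num))
  have hΨc : ∀ c d c' d', Continuous (fun A : Mt n => chi A *
      ((Matrix.of A)⁻¹ c c' * (Matrix.of A)⁻¹ d d')) := fun c d c' d' =>
    chi_mul_continuous fun A hA => (hinvc c c' A hA).mul (hinvc d d' A hA)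
  have hi : ∀ c d c' d' i, Integrable (fun x => (chi (fm (F i x)) *
      ((Matrix.of (fm (F i x)))⁻¹ c c' * (Matrix.of (fm (F i x)))⁻¹ d d')) *
      (kos (P i x) a c d * kos (P i x) b c' d')) (m i) := fun c d c' d' i =>
    hd.bddt (hΨc c d c' d')
      (((hd.good_kos a c d).mem i).integrable_mul ((hd.good_kos b c' d').mem i))
  have hL : ∀ c d c' d', LI Ω (fun y => ((Matrix.of (fm (h y)))⁻¹ c c' *
      (Matrix.of (fm (h y)))⁻¹ d d') * (Jf (fm (h y)))⁻¹ *
      (kos (fun a b c => hd.p a b c y) a c d * kos (fun a b c => hd.p a b c y) b c' d')) := by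
    intro c d c' d'
    have h1 : LI Ω (fun y => kos (fun a b c => hd.p a b c y) a c d *
        kos (fun a b c => hd.p a b c y) b c' d') := fun K _ _ =>
      ((hd.good_kos a c d).lim.integrable_mul (hd.good_kos b c' d').lim).integrableOn
    exact LI.mul_cont (((hd.h_inv_cont c c').mul (hd.h_inv_cont d d')).mul hd.Ji_cont) h1
  have hB := hd.base
  have key := WC.sum hB Finset.univ
    (fun c _ i => integrable_finsetSum Finset.univ fun d _ => integrable_finsetSum Finset.univ
      fun c' _ => integrable_finsetSum Finset.univ fun d' _ => hi c d c' d' i)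
    (fun c _ => LI.sum Finset.univ fun d _ => LI.sum Finset.univ fun c' _ =>
      LI.sum Finset.univ fun d' _ => hL c d c' d')
    (fun c _ => WC.sum hB Finset.univ
      (fun d _ i => integrable_finsetSum Finset.univ fun c' _ => integrable_finsetSum Finset.univ
        fun d' _ => hi c d c' d' i)
      (fun d _ => LI.sum Finset.univ fun c' _ => LI.sum Finset.univ fun d' _ => hL c d c' d')
      (fun d _ => WC.sum hB Finset.univ
        (fun c' _ i => integrable_finsetSum Finset.univ fun d' _ => hi c d c' d' i)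
        (fun c' _ => LI.sum Finset.univ fun d' _ => hL c d c' d')
        (fun c' _ => WC.sum hB Finset.univ (fun d' _ i => hi c d c' d' i)
          (fun d' _ => hL c d c' d') (fun d' _ => hq c d c' d'))))
  refine key.congr (fun i => Eventually.of_forall fun x => ?_) (fun y _ => ?_)
  · show _ = chi (fm (F i x)) * sS (F i x) (P i x) a b
    unfold sS
    simp_rw [Finset.mul_sum]
    refine Finset.sum_congr rfl fun c _ => Finset.sum_congr rfl fun d _ =>
      Finset.sum_congr rfl fun c' _ => Finset.sum_congr rfl fun d' _ => ?_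
    have : (Matrix.of (fm (F i x))) = F i x := rfl
    rw [this]
    ring
  · unfold sS
    simp_rw [Finset.mul_sum]
    refine Finset.sum_congr rfl fun c _ => Finset.sum_congr rfl fun d _ =>
      Finset.sum_congr rfl fun c' _ => Finset.sum_congr rfl fun d' _ => ?_
    have : (Matrix.of (fm (h y))) = h y := rfl
    rw [this]
    ring

/-- the limit of `χ R` -/
theorem R_wc (a b : Fin n) {φ : E n → ℝ} (hφ : CC Ω φ) :
    Tendsto (fun i => ∫ x, φ (u i x) * (chi (fm (F i x)) * R i x a b) ∂(m i)) l
      (𝓝 (∫ y, φ y * (lam * h y a b * Jf (fm (h y))))) := by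
  have hfin := hd.base.fin
  obtain ⟨Cφ, hCφ0, hCφ⟩ := hφ.bdd
  have hΨ : Continuous (fun A : Mt n => chi A * (lam * A a b)) :=
    (chi_continuous n).mul (continuous_const.mul (continuous_entry a b))
  have h1 := hd.wcΨ hΨ φ hφ
  have e1 : ∫ y, φ y * (chi (fm (h y)) * (lam * fm (h y) a b) * Jf (fm (h y))) =
      ∫ y, φ y * (lam * h y a b * Jf (fm (h y))) := by
    congr 1
    ext y
    by_cases hz : φ y = 0
    · rw [hz, zero_mul, zero_mul]
    · rw [chi_one (hd.nIh (hφ.mem_of_ne hz)), one_mul]; rfl
  rw [e1] at h1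
  have hFi : ∀ i, Integrable (fun x => F i x a b) (m i) := fun i =>
    Integrable.of_bound (C := C) (hd.F_meas i a b)
      (by filter_upwards [hd.F_bdd i] with x hx; exact hx a b)
  have hdi : ∀ i, Integrable (fun x => R i x a b - lam * F i x a b) (m i) := fun i =>
    (hd.R_int i a b).sub ((hFi i).const_mul lam)
  have h2 : Tendsto (fun i => ∫ x, φ (u i x) * (chi (fm (F i x)) *
      (R i x a b - lam * F i x a b)) ∂(m i)) l (𝓝 0) := by
    have h3 : Tendsto (fun i => Cφ * ∫ x, |R i x a b - lam * F i x a b| ∂(m i)) l (𝓝 0) := by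
      simpa using (hd.H10 a b).const_mul Cφ
    refine squeeze_zero_norm (fun i => ?_) h3
    rw [Real.norm_eq_abs, ← integral_const_mul]
    refine abs_integral_le_integral_abs.trans ?_
    apply integral_mono_of_nonneg (Eventually.of_forall fun x => abs_nonneg _)
      ((hdi i).abs.const_mul Cφ)
    refine Eventually.of_forall fun x => ?_
    show |φ (u i x) * (chi (fm (F i x)) * (R i x a b - lam * F i x a b))| ≤
      Cφ * |R i x a b - lam * F i x a b|
    rw [abs_mul, abs_mul, abs_of_nonneg (chi_nonneg _)]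
    refine mul_le_mul (hCφ _) ?_ (mul_nonneg (chi_nonneg _) (abs_nonneg _)) hCφ0
    have := chi_le_one (fm (F i x))
    nlinarith [abs_nonneg (R i x a b - lam * F i x a b)]
  have h4 := h1.add h2
  rw [add_zero] at h4
  refine h4.congr fun i => ?_
  have k1 : Integrable (fun x => φ (u i x) * (chi (fm (F i x)) * (lam * fm (F i x) a b))) (m i) := by
    have h5 := hφ.integrable_comp hd.base
      (hd.bddt (chi_continuous n) ((hFi i).const_mul lam))
    exact h5
  have k2 : Integrable (fun x => φ (u i x) * (chi (fm (F i x)) *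
      (R i x a b - lam * F i x a b))) (m i) :=
    hφ.integrable_comp hd.base (hd.bddt (chi_continuous n) (hdi i))
  rw [← integral_add k1 k2]
  congr 1
  ext x
  have : fm (F i x) a b = F i x a b := rfl
  rw [this]
  ring

/-- the value of `g` in the limit -/
theorem g_lim (a b : Fin n) {φ : E n → ℝ} (hφ : CC Ω φ) :
    ∫ y, φ y * hd.g a b y =
      2 * (∫ y, φ y * ((Jf (fm (h y)))⁻¹ * sS (h y) (fun a b c => hd.p a b c y) a b)) +
      2 * ∫ y, φ y * (lam * h y a b * Jf (fm (h y))) := by
  have hfin := hd.base.fin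
  have h1 := hd.wc_mul (chi_continuous n) (fun i => hd.G_mem i a b) (fun i => hd.G_bdd i a b)
    (hd.g_wc a b) φ hφ
  have h2 := ((hd.sS_wc a b φ hφ).const_mul 2).add ((hd.R_wc a b hφ).const_mul 2)
  have e1 : ∫ y, φ y * hd.g a b y = ∫ y, φ y * (chi (fm (h y)) * hd.g a b y) := by
    congr 1
    ext y
    by_cases hz : φ y = 0
    · rw [hz, zero_mul, zero_mul]
    · rw [chi_one (hd.nIh (hφ.mem_of_ne hz)), one_mul]
  rw [e1]
  refine tendsto_nhds_unique h1 (h2.congr fun i => ?_)
  have hG : Integrable (fun x => φ (u i x) * (chi (fm (F i x)) * G i x a b)) (m i) :=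
    hφ.integrable_comp hd.base (hd.bddt (chi_continuous n)
      ((hd.G_mem i a b).integrable (by norm_num)))
  have hR : Integrable (fun x => φ (u i x) * (chi (fm (F i x)) * R i x a b)) (m i) :=
    hφ.integrable_comp hd.base (hd.bddt (chi_continuous n) (hd.R_int i a b))
  have hae : ∀ᵐ x ∂(m i), φ (u i x) * (chi (fm (F i x)) * G i x a b) =
      2 * (φ (u i x) * (chi (fm (F i x)) * sS (F i x) (P i x) a b)) +
      2 * (φ (u i x) * (chi (fm (F i x)) * R i x a b)) := by
    filter_upwards [hd.H9G i] with x hx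
    by_cases hn : nI (fm (F i x)) ≤ 1 / 4
    · rw [hx hn a b]; ring
    · push Not at hn
      rw [chi_zero hn.le]; ring
  have hS : Integrable (fun x => φ (u i x) * (chi (fm (F i x)) * sS (F i x) (P i x) a b))
      (m i) := by
    have h3 : Integrable (fun x => (1 / 2) * (φ (u i x) * (chi (fm (F i x)) * G i x a b) -
        2 * (φ (u i x) * (chi (fm (F i x)) * R i x a b)))) (m i) :=
      (hG.sub (hR.const_mul 2)).const_mul _
    refine h3.congr ?_
    filter_upwards [hae] with x hx
    rw [hx]; ring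
  rw [integral_congr_ae hae, integral_add (hS.const_mul 2) (hR.const_mul 2),
    integral_const_mul, integral_const_mul]

end LData

end main

end Crest.Agent.R249.Lim41
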