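import Crest.Agent.R249.LimG_41
/-!
R249 / D3-LIM (helper41).  Abstract limit lemma, part 16: the main theorem `LData → LOut`.
-/

set_option autoImplicit false

open MeasureTheory Filter Topology Set
open scoped ContDiff ENNReal
open Crest.GeometryTopology.CoordMetric
open Crest.Agent.R249.LPt_191 (N1 sS kos)

noncomputable section

namespace Crest.Agent.R249.Lim41

theorem kos_smul {n : ℕ} (t : ℝ) (P : Fin n → Fin n → Fin n → ℝ) (a b c : Fin n) :
    kos (fun a b c => t * P a b c) a b c = t * kos P a b c := by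
  unfold kos; ring

theorem sS_smul {n : ℕ} (t : ℝ) (A : Matrix (Fin n) (Fin n) ℝ) (P : Fin n → Fin n → Fin n → ℝ)
    (a b : Fin n) : sS A (fun a b c => t * P a b c) a b = t ^ 2 * sS A P a b := by
  unfold sS
  simp_rw [Finset.mul_sum, kos_smul]
  refine Finset.sum_congr rfl fun c _ => Finset.sum_congr rfl fun d _ =>
    Finset.sum_congr rfl fun c' _ => Finset.sum_congr rfl fun d' _ => ?_
  ring

section main

variable {n : ℕ} {ι : Type*} {l : Filter ι} {X : ι → Type*} [∀ i, MeasurableSpace (X i)]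
  {Ω : Set (E n)} {m : ∀ i, Measure (X i)} {u : ∀ i, X i → E n}
  {h : E n → Matrix (Fin n) (Fin n) ℝ} {F : ∀ i, X i → Matrix (Fin n) (Fin n) ℝ}
  {P : ∀ i, X i → Fin n → Fin n → Fin n → ℝ} {D G R : ∀ i, X i → Fin n → Fin n → ℝ}
  {lam Mm C α : ℝ}

namespace LData

variable [l.NeBot] (hd : LData l Ω m u h F P D G R lam Mm C α)
include hd

theorem N_bdd : ∃ B, 0 ≤ B ∧ ∀ c e, ∀ y ∈ Ω, |(Jf (fm (h y)))⁻¹ * (h y)⁻¹ c e| ≤ B := by
  obtain ⟨BJ, hBJ0, hBJ⟩ := hd.Ji_bdd
  refine ⟨BJ * 2, by positivity, fun c e y hy => ?_⟩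
  rw [abs_mul]
  exact mul_le_mul (hBJ y hy) (inv_le_two (A := fm (h y)) (hd.nIh4 hy) c e) (abs_nonneg _) hBJ0

theorem H_ind_mem (a b e : Fin n) :
    MemLp (Ω.indicator (hd.H a b e)) 2 (volume : Measure (E n)) := by
  obtain ⟨B, hB0, hB⟩ := hd.N_bdd
  have hΩ := hd.base.opn.measurableSet
  have e1 : Ω.indicator (hd.H a b e) = fun y => ∑ c,
      Ω.indicator (fun y => (Jf (fm (h y)))⁻¹ * (h y)⁻¹ c e) y * hd.p a b c y := by
    ext y
    by_cases hy : y ∈ Ω
    · simp only [indicator_of_mem hy]; rfl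
    · simp only [indicator_of_notMem hy, zero_mul, Finset.sum_const_zero]
  rw [e1]
  refine memLp_finset_sum _ fun c _ => ?_
  refine MemLp.of_le_mul (c := B) (hd.p_mem a b c) ?_ (Eventually.of_forall fun y => ?_)
  · refine AEStronglyMeasurable.mul ?_ (hd.p_mem a b c).aestronglyMeasurable
    rw [aestronglyMeasurable_indicator_iff hΩ]
    exact (hd.Ji_cont.mul (hd.h_inv_cont c e)).aestronglyMeasurable hΩ
  · rw [norm_mul]
    refine mul_le_mul_of_nonneg_right ?_ (norm_nonneg _)
    by_cases hy : y ∈ Ω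
    · rw [indicator_of_mem hy]; exact hB c e y hy
    · rw [indicator_of_notMem hy, norm_zero]; exact hB0

theorem p_of_H' (a b c : Fin n) {y : E n} (hy : y ∈ Ω) :
    hd.p a b c y = Jf (fm (h y)) * ∑ d, h y c d * hd.H a b d y := by
  rw [hd.p_of_H a b c hy]
  congr 1
  refine Finset.sum_congr rfl fun e _ => ?_
  rw [hd.h_symm y hy e c]

theorem sS_p (a b : Fin n) {y : E n} (hy : y ∈ Ω) :
    (Jf (fm (h y)))⁻¹ * sS (h y) (fun a b c => hd.p a b c y) a b =
      Jf (fm (h y)) * sS (h y) (fun a b c => ∑ d, h y c d * hd.H a b d y) a b := by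
  have e1 : (fun a b c => hd.p a b c y) =
      fun a b c => Jf (fm (h y)) * ∑ d, h y c d * hd.H a b d y := by
    ext a b c; exact hd.p_of_H' a b c hy
  rw [e1, sS_smul (Jf (fm (h y))) (h y) (fun a b c => ∑ d, h y c d * hd.H a b d y)]
  have := (hd.J_pos hy).ne'
  field_simp

theorem out_sys (a b : Fin n) {φ : E n → ℝ} (hφ : CS Ω φ) :
    ∫ y, ∑ c, pderiv c φ y * (Jf (fm (h y)) * ∑ d, h y c d * Ω.indicator (hd.H a b d) y) =
      - ∫ y, φ y * (Jf (fm (h y)) *
        (2 * sS (h y) (fun a b c => ∑ d, h y c d * Ω.indicator (hd.H a b d) y) a b +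
          2 * lam * h y a b)) := by
  have h1 := hd.g_eq a b hφ
  have h2 := hd.g_lim a b hφ.cc
  have e1 : ∫ y, ∑ c, pderiv c φ y * (Jf (fm (h y)) *
      ∑ d, h y c d * Ω.indicator (hd.H a b d) y) = ∑ c, ∫ y, pderiv c φ y * hd.p a b c y := by
    rw [← integral_finsetSum _ fun c _ =>
      (hφ.pderiv c).cc.integrable_mul (LI.of_memLp (hd.p_mem a b c))]
    congr 1
    ext y
    refine Finset.sum_congr rfl fun c _ => ?_
    by_cases hz : pderiv c φ y = 0
    · rw [hz, zero_mul, zero_mul]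
    · have hy : y ∈ Ω := (hφ.pderiv c).cc.mem_of_ne hz
      rw [hd.p_of_H' a b c hy]
      simp only [indicator_of_mem hy]
  have hsS : Integrable (fun y => φ y * ((Jf (fm (h y)))⁻¹ *
      sS (h y) (fun a b c => hd.p a b c y) a b)) := by
    have hk : ∀ c d c' d', Integrable (fun y => φ y * ((Jf (fm (h y)))⁻¹ *
        ((h y)⁻¹ c c' * (h y)⁻¹ d d' * kos (fun a b c => hd.p a b c y) a c d *
          kos (fun a b c => hd.p a b c y) b c' d'))) := by
      intro c d c' d'
      have h3 : LI Ω (fun y => kos (fun a b c => hd.p a b c y) a c d *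
        kos (fun a b c => hd.p a b c y) b c' d') := fun K _ _ =>
        ((hd.good_kos a c d).lim.integrable_mul (hd.good_kos b c' d').lim).integrableOn
      have h4 := hφ.cc.integrable_mul (LI.mul_cont (((hd.h_inv_cont c c').mul
        (hd.h_inv_cont d d')).mul hd.Ji_cont) h3)
      refine h4.congr (Eventually.of_forall fun y => ?_)
      simp only [Pi.mul_apply]
      ring
    have h5 := integrable_finsetSum Finset.univ fun c _ => integrable_finsetSum Finset.univ
      fun d _ => integrable_finsetSum Finset.univ fun c' _ => integrable_finsetSum Finset.univ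
      fun d' _ => hk c d c' d'
    refine h5.congr (Eventually.of_forall fun y => ?_)
    simp only
    unfold sS
    simp_rw [Finset.mul_sum]
  have hlam : Integrable (fun y => φ y * (lam * h y a b * Jf (fm (h y)))) :=
    hφ.cc.integrable_mul (LI.of_cont ((continuousOn_const.mul (hd.h_cont a b)).mul hd.J_cont))
  have e2 : ∫ y, φ y * (Jf (fm (h y)) *
        (2 * sS (h y) (fun a b c => ∑ d, h y c d * Ω.indicator (hd.H a b d) y) a b +
          2 * lam * h y a b)) = ∫ y, φ y * hd.g a b y := by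
    rw [h2, ← integral_const_mul, ← integral_const_mul,
      ← integral_add (hsS.const_mul 2) (hlam.const_mul 2)]
    congr 1
    ext y
    by_cases hz : φ y = 0
    · simp only [hz, zero_mul, mul_zero, add_zero]
    · have hy : y ∈ Ω := hφ.cc.mem_of_ne hz
      rw [hd.sS_p a b hy]
      simp only [indicator_of_mem hy]
      ring
  rw [e1, e2, h1]

end LData

/-- **The abstract limit lemma.** -/
theorem lim_main [l.NeBot] (hd : LData l Ω m u h F P D G R lam Mm C α) :
    ∃ H C', LOut Ω h H lam C' α := by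
  obtain ⟨B, hB0, hB⟩ := hd.N_bdd
  obtain ⟨CJ, hCJ0, hCJ⟩ := hd.J_bdd
  have hΩ := hd.base.opn
  refine ⟨fun a b c => Ω.indicator (hd.H a b c), (n : ℝ) * (n : ℝ) * B ^ 2 * (CJ * C),
    fun a b c => hd.H_ind_mem a b c, fun a b c ζ hζ => ?_, fun c φ hφ => hd.div_lim c hφ,
    fun a b φ hφ => hd.out_sys a b hφ, fun z r hr hzr a b c => ?_⟩
  · rw [hd.H_wd a b c hζ]
    congr 2
    ext y
    by_cases hz : ζ y = 0
    · rw [hz, zero_mul, zero_mul]
    · rw [indicator_of_mem (hζ.cc.mem_of_ne hz)]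
  · have hr0 : 0 ≤ r ^ ((n : ℝ) - 2 + 2 * α) := Real.rpow_nonneg hr.le _
    have hbΩ : Metric.ball z r ⊆ Ω := Metric.ball_subset_closedBall.trans hzr
    have h1 : ∀ d, ∫ y in Metric.ball z r, hd.p a b d y ^ 2 ≤
        CJ * (C * r ^ ((n : ℝ) - 2 + 2 * α)) := fun d =>
      local_bound hd.base hd.wc_one hCJ hCJ0 (LI.of_cont hd.J_cont) (hg := fun i => hd.P_mem i a b d)
        (hd.p_mem a b d) (hd.p_wc a b d) hbΩ Metric.isOpen_ball (mul_nonneg hd.C_nonneg hr0)
        (hd.H11 z r hr hzr a b d)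
    have h2 : ∀ y ∈ Metric.ball z r, Ω.indicator (hd.H a b c) y ^ 2 ≤
        (n : ℝ) * B ^ 2 * ∑ d, hd.p a b d y ^ 2 := by
      intro y hy
      rw [indicator_of_mem (hbΩ hy)]
      have h3 : hd.H a b c y ^ 2 ≤ (n : ℝ) * ∑ d,
          (((Jf (fm (h y)))⁻¹ * (h y)⁻¹ d c) * hd.p a b d y) ^ 2 := by
        have := sq_sum_le_card_mul_sum_sq (s := (Finset.univ : Finset (Fin n)))
          (f := fun d => ((Jf (fm (h y)))⁻¹ * (h y)⁻¹ d c) * hd.p a b d y)
        simp only [Finset.card_univ, Fintype.card_fin] at this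
        exact this
      refine h3.trans ?_
      rw [mul_assoc, Finset.mul_sum (a := B ^ 2)]
      refine mul_le_mul_of_nonneg_left (Finset.sum_le_sum fun d _ => ?_) (Nat.cast_nonneg n)
      rw [mul_pow]
      refine mul_le_mul_of_nonneg_right ?_ (sq_nonneg _)
      rw [← sq_abs ((Jf (fm (h y)))⁻¹ * (h y)⁻¹ d c)]
      exact pow_le_pow_left₀ (abs_nonneg _) (hB d c y (hbΩ hy)) 2
    have i1 : ∀ d, IntegrableOn (fun y => hd.p a b d y ^ 2) (Metric.ball z r) := fun d =>
      (hd.p_mem a b d).integrable_sq.integrableOn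
    calc ∫ y in Metric.ball z r, Ω.indicator (hd.H a b c) y ^ 2
        ≤ ∫ y in Metric.ball z r, (n : ℝ) * B ^ 2 * ∑ d, hd.p a b d y ^ 2 := by
          apply setIntegral_mono_on (hd.H_ind_mem a b c).integrable_sq.integrableOn
            ((integrable_finsetSum _ fun d _ => i1 d).const_mul _) measurableSet_ball h2
      _ = (n : ℝ) * B ^ 2 * ∑ d, ∫ y in Metric.ball z r, hd.p a b d y ^ 2 := by
          rw [integral_const_mul, integral_finsetSum _ fun d _ => i1 d]
      _ ≤ (n : ℝ) * B ^ 2 * ∑ _d : Fin n, CJ * (C * r ^ ((n : ℝ) - 2 + 2 * α)) := by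
          refine mul_le_mul_of_nonneg_left (Finset.sum_le_sum fun d _ => h1 d) (by positivity)
      _ = _ := by
          simp only [Finset.sum_const, Finset.card_univ, Fintype.card_fin, nsmul_eq_mul]
          ring

end main

end Crest.Agent.R249.Lim41
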