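import Crest.Agent.R247.Bo5_84

/-!
# R249 (helper285): smooth local isometries, part 1 (charts and curvature)

`LocIso n ϖ` : `ϖ : N → M` is smooth and its derivative preserves inner products (same dimension).
In charts it is a `Pull`, so all curvature conditions of `Def_ChartCurvature` are transported.
-/

set_option autoImplicit false
set_option maxSynthPendingDepth 3
set_option linter.unusedSectionVars false

open Bundle Set Filter Topology
open scoped ContDiff Manifold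
open Crest.GeometryTopology.CoordMetric Crest.GeometryTopology.ChartCurvature
  Crest.GeometryTopology.PointedLimit
open Crest.Agent.R247.Bo84 Crest.Agent.R202.Tens

noncomputable section

namespace Crest.Agent.R249.Loc1_285

variable {n : ℕ}

local notation "𝔼" => EuclideanSpace ℝ (Fin n)
local notation "𝓘E" => 𝓘(ℝ, EuclideanSpace ℝ (Fin n))

section Defs

variable (n) {N M : Type*}
  [TopologicalSpace N] [ChartedSpace (EuclideanSpace ℝ (Fin n)) N]
  [RiemannianBundle (fun x : N => TangentSpace 𝓘(ℝ, EuclideanSpace ℝ (Fin n)) x)]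
  [TopologicalSpace M] [ChartedSpace (EuclideanSpace ℝ (Fin n)) M]
  [RiemannianBundle (fun x : M => TangentSpace 𝓘(ℝ, EuclideanSpace ℝ (Fin n)) x)]

/-- smooth local isometries. -/
structure LocIso (ϖ : N → M) : Prop where
  smooth : ContMDiff 𝓘(ℝ, EuclideanSpace ℝ (Fin n)) 𝓘(ℝ, EuclideanSpace ℝ (Fin n)) ∞ ϖ
  isom : ∀ (x : N) (v w : TangentSpace 𝓘(ℝ, EuclideanSpace ℝ (Fin n)) x),
    inner ℝ (mfderiv 𝓘(ℝ, EuclideanSpace ℝ (Fin n)) 𝓘(ℝ, EuclideanSpace ℝ (Fin n)) ϖ x v)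
      (mfderiv 𝓘(ℝ, EuclideanSpace ℝ (Fin n)) 𝓘(ℝ, EuclideanSpace ℝ (Fin n)) ϖ x w) =
      inner ℝ v w

/-- expression of a map in charts. -/
def lmap (ϖ : N → M) (x : N) (x₀ : M) (y : EuclideanSpace ℝ (Fin n)) :
    EuclideanSpace ℝ (Fin n) :=
  chartAt (EuclideanSpace ℝ (Fin n)) x₀ (ϖ ((chartAt (EuclideanSpace ℝ (Fin n)) x).symm y))

/-- domain of the expression of a map in charts. -/
def ldom (ϖ : N → M) (x : N) (x₀ : M) : Set (EuclideanSpace ℝ (Fin n)) :=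
  (chartAt (EuclideanSpace ℝ (Fin n)) x).target ∩
    {y | ϖ ((chartAt (EuclideanSpace ℝ (Fin n)) x).symm y) ∈
      (chartAt (EuclideanSpace ℝ (Fin n)) x₀).source}

end Defs

variable {N M : Type*}
  [TopologicalSpace N] [ChartedSpace (EuclideanSpace ℝ (Fin n)) N]
  [IsManifold 𝓘(ℝ, EuclideanSpace ℝ (Fin n)) ∞ N]
  [RiemannianBundle (fun x : N => TangentSpace 𝓘(ℝ, EuclideanSpace ℝ (Fin n)) x)]
  [TopologicalSpace M] [ChartedSpace (EuclideanSpace ℝ (Fin n)) M]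
  [IsManifold 𝓘(ℝ, EuclideanSpace ℝ (Fin n)) ∞ M]
  [RiemannianBundle (fun x : M => TangentSpace 𝓘(ℝ, EuclideanSpace ℝ (Fin n)) x)]
  {ϖ : N → M}

theorem isOpen_ldom (hϖ : Continuous ϖ) (x : N) (x₀ : M) : IsOpen (ldom n ϖ x x₀) :=
  (chartAt 𝔼 x).continuousOn_symm.isOpen_inter_preimage (chartAt 𝔼 x).open_target
    ((chartAt 𝔼 x₀).open_source.preimage hϖ)

theorem contDiffOn_lmap (hϖ : ContMDiff 𝓘E 𝓘E ∞ ϖ) (x : N) (x₀ : M) :
    ContDiffOn ℝ ∞ (lmap n ϖ x x₀) (ldom n ϖ x x₀) := by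
  rw [← contMDiffOn_iff_contDiffOn]
  have h1 : ContMDiffOn 𝓘E 𝓘E ∞ (chartAt 𝔼 x).symm (chartAt 𝔼 x).target :=
    contMDiffOn_chart_symm
  have h2 : ContMDiffOn 𝓘E 𝓘E ∞ (chartAt 𝔼 x₀) (chartAt 𝔼 x₀).source := contMDiffOn_chart
  have h3 : ContMDiffOn 𝓘E 𝓘E ∞ (fun y => ϖ ((chartAt 𝔼 x).symm y)) (ldom n ϖ x x₀) :=
    (hϖ.comp_contMDiffOn h1).mono inter_subset_left
  exact h2.comp h3 fun y hy => hy.2

theorem fderiv_lmap (hϖ : ContMDiff 𝓘E 𝓘E ∞ ϖ) {x : N} {x₀ : M} {y : 𝔼}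
    (hy : y ∈ ldom n ϖ x x₀) (u : 𝔼) :
    fderiv ℝ (lmap n ϖ x x₀) y u = dCh x₀ (ϖ ((chartAt 𝔼 x).symm y))
      (mfderiv 𝓘E 𝓘E ϖ ((chartAt 𝔼 x).symm y) (dSy x y u)) := by
  have h1 : MDifferentiableAt 𝓘E 𝓘E (chartAt 𝔼 x).symm y :=
    (mdifferentiable_chart (I := 𝓘E) x).mdifferentiableAt_symm hy.1
  have h2 : MDifferentiableAt 𝓘E 𝓘E (chartAt 𝔼 x₀) (ϖ ((chartAt 𝔼 x).symm y)) :=
    (mdifferentiable_chart (I := 𝓘E) x₀).mdifferentiableAt hy.2
  have h0 : MDifferentiableAt 𝓘E 𝓘E ϖ ((chartAt 𝔼 x).symm y) :=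
    (hϖ _).mdifferentiableAt (by simp)
  have h3 : MDifferentiableAt 𝓘E 𝓘E (ϖ ∘ (chartAt 𝔼 x).symm) y := h0.comp y h1
  have h4 := mfderiv_comp y (g := chartAt 𝔼 x₀) (f := ϖ ∘ (chartAt 𝔼 x).symm) h2 h3
  have h5 := mfderiv_comp y (g := ϖ) (f := (chartAt 𝔼 x).symm) h0 h1
  have h6 : fderiv ℝ (lmap n ϖ x x₀) y = mfderiv 𝓘E 𝓘E
      ((chartAt 𝔼 x₀) ∘ (ϖ ∘ (chartAt 𝔼 x).symm)) y := by
    rw [mfderiv_eq_fderiv]; rfl
  rw [h6, h4, h5]
  rfl

namespace LocIso

variable (h : LocIso n ϖ)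

include h

theorem continuous : Continuous ϖ := h.smooth.continuous

/-- the expression in charts is the pull back of the metric. -/
theorem pull [IsContMDiffRiemannianBundle 𝓘(ℝ, EuclideanSpace ℝ (Fin n)) ∞
      (EuclideanSpace ℝ (Fin n)) (fun x : M => TangentSpace 𝓘(ℝ, EuclideanSpace ℝ (Fin n)) x)]
    (x : N) (x₀ : M) :
    Pull (chartMetric n N x) (chartMetric n M x₀) (lmap n ϖ x x₀) (ldom n ϖ x x₀)
      (chartAt 𝔼 x₀).target := by
  have key : ∀ y ∈ ldom n ϖ x x₀, ∀ u v : 𝔼, bil (chartMetric n N x y) u v =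
      bil (chartMetric n M x₀ (lmap n ϖ x x₀ y)) (fderiv ℝ (lmap n ϖ x x₀) y u)
        (fderiv ℝ (lmap n ϖ x x₀) y v) := by
    intro y hy u v
    rw [bil_chartMetric, fderiv_lmap h.smooth hy, fderiv_lmap h.smooth hy]
    have h1 := inner_eq_bil x₀ hy.2
      (mfderiv 𝓘E 𝓘E ϖ ((chartAt 𝔼 x).symm y) (dSy x y u))
      (mfderiv 𝓘E 𝓘E ϖ ((chartAt 𝔼 x).symm y) (dSy x y v))
    have h2 := h.isom ((chartAt 𝔼 x).symm y) (dSy x y u) (dSy x y v)
    exact h2.symm.trans h1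
  exact
  { isOpen := isOpen_ldom h.continuous x x₀
    riem := isRiemannianOn_chartMetric x₀
    maps := fun y hy => (chartAt 𝔼 x₀).map_source hy.2
    smooth := contDiffOn_lmap h.smooth x x₀
    pull := by
      intro y hy i j
      rw [← bil_apply, ← key y hy, bil_apply]
      simp [PiLp.single_apply, Finset.sum_ite_eq']
    inj := by
      intro y hy u v huv
      have h1 : ∀ w : 𝔼, w ≠ 0 → fderiv ℝ (lmap n ϖ x x₀) y w ≠ 0 := by
        intro w hw h0
        have h2 := key y hy w w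
        rw [h0, map_zero, bil_chartMetric] at h2
        have h3 : dSy x y w ≠ 0 := by
          intro h4
          exact hw (dSy_injective hy.1 (h4.trans (map_zero _).symm))
        have h5 : 0 < @inner ℝ (TangentSpace 𝓘E ((chartAt 𝔼 x).symm y)) _ (dSy x y w)
            (dSy x y w) := real_inner_self_pos.2 h3
        exact absurd h2 h5.ne'
      by_contra hne
      exact h1 (u - v) (sub_ne_zero.2 hne) (by rw [map_sub, huv, sub_self]) }

theorem centre_mem (x : N) : chartCentre n N x ∈ ldom n ϖ x (ϖ x) := by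
  refine ⟨mem_chart_target 𝔼 x, ?_⟩
  change ϖ ((chartAt 𝔼 x).symm (chartAt 𝔼 x x)) ∈ (chartAt 𝔼 (ϖ x)).source
  rw [(chartAt 𝔼 x).left_inv (mem_chart_source 𝔼 x)]
  exact mem_chart_source 𝔼 (ϖ x)

theorem lmap_centre (x : N) : lmap n ϖ x (ϖ x) (chartCentre n N x) = chartCentre n M (ϖ x) := by
  change chartAt 𝔼 (ϖ x) (ϖ ((chartAt 𝔼 x).symm (chartAt 𝔼 x x))) = _
  rw [(chartAt 𝔼 x).left_inv (mem_chart_source 𝔼 x)]
  rfl

section Curv

variable [IsContMDiffRiemannianBundle 𝓘(ℝ, EuclideanSpace ℝ (Fin n)) ∞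
      (EuclideanSpace ℝ (Fin n)) (fun x : M => TangentSpace 𝓘(ℝ, EuclideanSpace ℝ (Fin n)) x)]
  [IsContMDiffRiemannianBundle 𝓘(ℝ, EuclideanSpace ℝ (Fin n)) ∞
      (EuclideanSpace ℝ (Fin n)) (fun x : N => TangentSpace 𝓘(ℝ, EuclideanSpace ℝ (Fin n)) x)]

theorem secNumer_iso (x : N) (u v : 𝔼) :
    secNumer (chartMetric n N x) (chartCentre n N x) u v =
      secNumer (chartMetric n M (ϖ x)) (chartCentre n M (ϖ x))
        (fderiv ℝ (lmap n ϖ x (ϖ x)) (chartCentre n N x) u)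
        (fderiv ℝ (lmap n ϖ x (ϖ x)) (chartCentre n N x) v) := by
  rw [(h.pull x (ϖ x)).secNumer_pull (h.centre_mem x), h.lmap_centre]

theorem gramDet_iso (x : N) (u v : 𝔼) :
    gramDet (chartMetric n N x) (chartCentre n N x) u v =
      gramDet (chartMetric n M (ϖ x)) (chartCentre n M (ϖ x))
        (fderiv ℝ (lmap n ϖ x (ϖ x)) (chartCentre n N x) u)
        (fderiv ℝ (lmap n ϖ x (ϖ x)) (chartCentre n N x) v) := by
  rw [(h.pull x (ϖ x)).gramDet_pull (h.centre_mem x), h.lmap_centre]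

theorem surjective_fderiv (x : N) :
    Function.Surjective (fderiv ℝ (lmap n ϖ x (ϖ x)) (chartCentre n N x)) :=
  (h.pull x (ϖ x)).surj (h.centre_mem x)

theorem nonnegSec (hK : HasNonnegSectionalCurvature n M) : HasNonnegSectionalCurvature n N := by
  intro x u v
  rw [h.secNumer_iso x]
  exact hK (ϖ x) _ _

theorem posSec (hK : HasPosSectionalCurvature n M) : HasPosSectionalCurvature n N := by
  intro x u v huv
  rw [h.secNumer_iso x]
  exact hK (ϖ x) _ _ (by rw [← h.gramDet_iso x]; exact huv)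

theorem ricci_form (x : N) (u v : 𝔼) :
    ∑ i, ∑ j, ricci (chartMetric n N x) (chartCentre n N x) i j * u i * v j =
      ∑ i, ∑ j, ricci (chartMetric n M (ϖ x)) (chartCentre n M (ϖ x)) i j *
        (fderiv ℝ (lmap n ϖ x (ϖ x)) (chartCentre n N x) u) i *
        (fderiv ℝ (lmap n ϖ x (ϖ x)) (chartCentre n N x) v) j := by
  rw [(h.pull x (ϖ x)).ricci_pull (h.centre_mem x), h.lmap_centre]

theorem einstein {c : ℝ} (hE : IsEinsteinWith n M c) : IsEinsteinWith n N c := by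
  intro x i j
  have h1 := h.ricci_form x (EuclideanSpace.single i 1) (EuclideanSpace.single j 1)
  have h2 := (h.pull x (ϖ x)).bil_eq (h.centre_mem x) (EuclideanSpace.single i 1)
    (EuclideanSpace.single j 1)
  rw [h.lmap_centre, bil_apply, bil_apply] at h2
  have h3 : ∀ a b : Fin n, ricci (chartMetric n M (ϖ x)) (chartCentre n M (ϖ x)) a b =
      c * chartMetric n M (ϖ x) (chartCentre n M (ϖ x)) a b := hE (ϖ x)
  simp only [h3] at h1
  have h4 : ∀ A : Matrix (Fin n) (Fin n) ℝ, ∑ a, ∑ b, A a b *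
      (EuclideanSpace.single i (1:ℝ) : 𝔼) a * (EuclideanSpace.single j (1:ℝ) : 𝔼) b = A i j := by
    intro A
    simp [PiLp.single_apply, Finset.sum_ite_eq']
  have h5 := h4 (fun a b => ricci (chartMetric n N x) (chartCentre n N x) a b)
  have h6 := h4 (chartMetric n N x (chartCentre n N x))
  rw [h6] at h2
  rw [h5] at h1
  rw [h1, h2, Finset.mul_sum]
  refine Finset.sum_congr rfl fun a _ => ?_
  rw [Finset.mul_sum]
  refine Finset.sum_congr rfl fun b _ => ?_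
  ring

end Curv

end LocIso

end Crest.Agent.R249.Loc1_285
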