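import Crest.Agent.R249.Loc1_285

/-!
# R249 (helper285): smooth local isometries, part 2 (distances)

`LocIso.edist_le` : local isometries do not increase distances;
`LocIso.exists_dist_eq` : they preserve distances of nearby points.
-/

set_option autoImplicit false
set_option maxSynthPendingDepth 3
set_option linter.unusedSectionVars false

open Bundle Set Filter Topology Manifold
open scoped ContDiff ENNReal
open Crest.GeometryTopology.CoordMetric Crest.GeometryTopology.ChartCurvature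
  Crest.GeometryTopology.PointedLimit
open Crest.Agent.R247.Bo84 Crest.Agent.R202.Tens Crest.Agent.R249.Loc1_285

noncomputable section

namespace Crest.Agent.R249.Loc2_285

variable {n : ℕ}

local notation "𝔼" => EuclideanSpace ℝ (Fin n)
local notation "𝓘E" => 𝓘(ℝ, EuclideanSpace ℝ (Fin n))

section Length

variable {N M : Type*}
  [TopologicalSpace N] [ChartedSpace (EuclideanSpace ℝ (Fin n)) N]
  [IsManifold 𝓘(ℝ, EuclideanSpace ℝ (Fin n)) ∞ N]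
  [RiemannianBundle (fun x : N => TangentSpace 𝓘(ℝ, EuclideanSpace ℝ (Fin n)) x)]
  [TopologicalSpace M] [ChartedSpace (EuclideanSpace ℝ (Fin n)) M]
  [IsManifold 𝓘(ℝ, EuclideanSpace ℝ (Fin n)) ∞ M]
  [RiemannianBundle (fun x : M => TangentSpace 𝓘(ℝ, EuclideanSpace ℝ (Fin n)) x)]
  {ϖ : N → M}

/-- the derivative preserves norms. -/
theorem enorm_mfderiv (h : LocIso n ϖ) (x : N) (v : TangentSpace 𝓘E x) :
    ‖mfderiv 𝓘E 𝓘E ϖ x v‖ₑ = ‖v‖ₑ := by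
  have h1 : ‖mfderiv 𝓘E 𝓘E ϖ x v‖ = ‖v‖ := by
    rw [@norm_eq_sqrt_real_inner, @norm_eq_sqrt_real_inner, h.isom]
  simp only [enorm, nnnorm, h1]

/-- lengths of curves are preserved. -/
theorem pathELength_comp (h : LocIso n ϖ) {γ : ℝ → N} {a b : ℝ}
    (hγ : MDifferentiableOn 𝓘(ℝ, ℝ) 𝓘E γ (Icc a b)) :
    pathELength 𝓘E (ϖ ∘ γ) a b = pathELength 𝓘E γ a b := by
  rcases le_or_gt b a with hab | hab
  · rw [pathELength_eq_lintegral_mfderiv_Ioo, pathELength_eq_lintegral_mfderiv_Ioo,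
      Ioo_eq_empty (not_lt.2 hab)]
    simp
  rw [pathELength_eq_lintegral_mfderivWithin_Icc, pathELength_eq_lintegral_mfderivWithin_Icc]
  refine MeasureTheory.setLIntegral_congr_fun measurableSet_Icc fun t ht => ?_
  have h1 : mfderivWithin 𝓘(ℝ, ℝ) 𝓘E (ϖ ∘ γ) (Icc a b) t =
      (mfderiv 𝓘E 𝓘E ϖ (γ t)).comp (mfderivWithin 𝓘(ℝ, ℝ) 𝓘E γ (Icc a b) t) := by
    apply mfderiv_comp_mfderivWithin
    · exact (h.smooth _).mdifferentiableAt (by simp)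
    · exact hγ t ht
    · rw [uniqueMDiffWithinAt_iff_uniqueDiffWithinAt]
      exact uniqueDiffOn_Icc hab t ht
  rw [h1]
  exact enorm_mfderiv h (γ t) _

end Length

section Dist

variable {N M : Type*}
  [MetricSpace N] [ChartedSpace (EuclideanSpace ℝ (Fin n)) N]
  [IsManifold 𝓘(ℝ, EuclideanSpace ℝ (Fin n)) ∞ N]
  [RiemannianBundle (fun x : N => TangentSpace 𝓘(ℝ, EuclideanSpace ℝ (Fin n)) x)]
  [IsContMDiffRiemannianBundle 𝓘(ℝ, EuclideanSpace ℝ (Fin n)) ∞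
      (EuclideanSpace ℝ (Fin n)) (fun x : N => TangentSpace 𝓘(ℝ, EuclideanSpace ℝ (Fin n)) x)]
  [IsRiemannianManifold 𝓘(ℝ, EuclideanSpace ℝ (Fin n)) N]
  [MetricSpace M] [ChartedSpace (EuclideanSpace ℝ (Fin n)) M]
  [IsManifold 𝓘(ℝ, EuclideanSpace ℝ (Fin n)) ∞ M]
  [RiemannianBundle (fun x : M => TangentSpace 𝓘(ℝ, EuclideanSpace ℝ (Fin n)) x)]
  [IsContMDiffRiemannianBundle 𝓘(ℝ, EuclideanSpace ℝ (Fin n)) ∞
      (EuclideanSpace ℝ (Fin n)) (fun x : M => TangentSpace 𝓘(ℝ, EuclideanSpace ℝ (Fin n)) x)]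
  [IsRiemannianManifold 𝓘(ℝ, EuclideanSpace ℝ (Fin n)) M]
  {ϖ : N → M}

theorem edist_le (h : LocIso n ϖ) (x y : N) : edist (ϖ x) (ϖ y) ≤ edist x y := by
  rw [IsRiemannianManifold.out (I := 𝓘E) x y, IsRiemannianManifold.out (I := 𝓘E) (ϖ x) (ϖ y)]
  refine le_of_forall_gt fun r hr => ?_
  obtain ⟨γ, h0, h1, h2, h3⟩ := exists_lt_of_riemannianEDist_lt hr
  refine lt_of_le_of_lt ?_ h3
  rw [← pathELength_comp h (h2.mdifferentiableOn one_ne_zero)]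
  refine riemannianEDist_le_pathELength ?_ ?_ ?_ zero_le_one
  · exact (h.smooth.of_le (by simp)).comp_contMDiffOn h2
  · simp [h0]
  · simp [h1]

theorem dist_le (h : LocIso n ϖ) (x y : N) : dist (ϖ x) (ϖ y) ≤ dist x y := by
  have h1 := edist_le h x y
  rw [edist_dist, edist_dist] at h1
  exact (ENNReal.ofReal_le_ofReal_iff dist_nonneg).1 h1

/-- local inverse of a local isometry (in the manifold). -/
theorem exists_localInverse (h : LocIso n ϖ) (x : N) :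
    ∃ (W : Set M) (σ : M → N), IsOpen W ∧ ϖ x ∈ W ∧ ContMDiffOn 𝓘E 𝓘E 1 σ W ∧
      (∀ m ∈ W, ϖ (σ m) = m) ∧ ∀ᶠ y in 𝓝 x, σ (ϖ y) = y := by
  set y₀ := chartCentre n N x with hy₀
  have hmem := h.centre_mem x
  have hP := h.pull x (ϖ x)
  have hC : ContDiffAt ℝ ∞ (lmap n ϖ x (ϖ x)) y₀ := hP.contDiffAt hmem
  have hinj : Function.Injective (fderiv ℝ (lmap n ϖ x (ϖ x)) y₀) := hP.inj y₀ hmem
  let L : 𝔼 ≃L[ℝ] 𝔼 := (LinearEquiv.ofInjectiveEndo
    (fderiv ℝ (lmap n ϖ x (ϖ x)) y₀ : 𝔼 →ₗ[ℝ] 𝔼) hinj).toContinuousLinearEquiv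
  have hL : (L : 𝔼 →L[ℝ] 𝔼) = fderiv ℝ (lmap n ϖ x (ϖ x)) y₀ := by
    ext v; rfl
  have hd : HasFDerivAt (lmap n ϖ x (ϖ x)) (L : 𝔼 →L[ℝ] 𝔼) y₀ := by
    rw [hL]; exact (hC.differentiableAt (by simp)).hasFDerivAt
  have hC1 : ContDiffAt ℝ 1 (lmap n ϖ x (ϖ x)) y₀ := hC.of_le (by simp)
  set g := hC1.localInverse hd one_ne_zero with hg
  have hg1 : ContDiffAt ℝ 1 g (lmap n ϖ x (ϖ x) y₀) := hC1.to_localInverse hd one_ne_zero
  have hgy : g (lmap n ϖ x (ϖ x) y₀) = y₀ := hC1.localInverse_apply_image hd one_ne_zero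
  have hstr := hC1.hasStrictFDerivAt' hd one_ne_zero
  have hr : ∀ᶠ z in 𝓝 (lmap n ϖ x (ϖ x) y₀), lmap n ϖ x (ϖ x) (g z) = z :=
    hstr.eventually_right_inverse
  have hl : ∀ᶠ z in 𝓝 y₀, g (lmap n ϖ x (ϖ x) z) = z := hstr.eventually_left_inverse
  have hc : lmap n ϖ x (ϖ x) y₀ = chartAt 𝔼 (ϖ x) (ϖ x) := h.lmap_centre x
  rw [hc] at hg1 hgy hr
  have hev : ∀ᶠ z in 𝓝 (chartAt 𝔼 (ϖ x) (ϖ x)), ContDiffAt ℝ 1 g z ∧
      g z ∈ ldom n ϖ x (ϖ x) ∧ lmap n ϖ x (ϖ x) (g z) = z := by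
    refine (hg1.eventually (by simp)).and (Filter.Eventually.and ?_ hr)
    have := hg1.continuousAt
    rw [ContinuousAt, hgy] at this
    exact this ((isOpen_ldom h.continuous x (ϖ x)).mem_nhds hmem)
  obtain ⟨V, hV, hVo, hVm⟩ := eventually_nhds_iff.1 hev
  refine ⟨(chartAt 𝔼 (ϖ x)).source ∩ (chartAt 𝔼 (ϖ x)) ⁻¹' V,
    fun m => (chartAt 𝔼 x).symm (g (chartAt 𝔼 (ϖ x) m)),
    (chartAt 𝔼 (ϖ x)).isOpen_inter_preimage hVo, ⟨mem_chart_source 𝔼 _, hVm⟩, ?_, ?_, ?_⟩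
  · have h1 : ContMDiffOn 𝓘E 𝓘E 1 (chartAt 𝔼 (ϖ x)) (chartAt 𝔼 (ϖ x)).source :=
      (contMDiffOn_chart (I := 𝓘E) (n := ∞)).of_le (by simp)
    have h2 : ContMDiffOn 𝓘E 𝓘E 1 (chartAt 𝔼 x).symm (chartAt 𝔼 x).target :=
      (contMDiffOn_chart_symm (I := 𝓘E) (n := ∞)).of_le (by simp)
    have h3 : ContMDiffOn 𝓘E 𝓘E 1 g V := by
      rw [contMDiffOn_iff_contDiffOn]
      exact fun z hz => (hV z hz).1.contDiffWithinAt
    have h4 : ContMDiffOn 𝓘E 𝓘E 1 (fun z => (chartAt 𝔼 x).symm (g z)) V :=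
      h2.comp h3 fun z hz => (hV z hz).2.1.1
    exact h4.comp (h1.mono inter_subset_left) fun m hm => hm.2
  · rintro m ⟨hm1, hm2⟩
    obtain ⟨-, h2, h3⟩ := hV _ hm2
    exact (chartAt 𝔼 (ϖ x)).injOn h2.2 hm1 h3
  · have h1 : ∀ᶠ y in 𝓝 x, g (lmap n ϖ x (ϖ x) (chartAt 𝔼 x y)) = chartAt 𝔼 x y :=
      ((chartAt 𝔼 x).continuousAt (mem_chart_source 𝔼 x)).eventually hl
    filter_upwards [h1, chart_source_mem_nhds 𝔼 x] with y hy hy'
    rw [lmap, (chartAt 𝔼 x).left_inv hy'] at hy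
    rw [hy]
    exact (chartAt 𝔼 x).left_inv hy'

/-- nearby points: distances are preserved. -/
theorem exists_dist_eq (h : LocIso n ϖ) (x : N) :
    ∃ ε : ℝ, 0 < ε ∧ ∀ q q', dist x q < ε → dist x q' < ε → dist (ϖ q) (ϖ q') = dist q q' := by
  obtain ⟨W, σ, hW, hxW, hσ, hr, hl⟩ := exists_localInverse h x
  obtain ⟨δ, hδ, hδW⟩ := Metric.isOpen_iff.1 hW (ϖ x) hxW
  obtain ⟨δ', hδ', hδl⟩ := Metric.eventually_nhds_iff.1 hl
  refine ⟨min (δ / 3) δ', lt_min (by positivity) hδ', ?_⟩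
  intro q q' hq hq'
  have hq1 : dist x q < δ / 3 := lt_of_lt_of_le hq (min_le_left _ _)
  have hq1' : dist x q' < δ / 3 := lt_of_lt_of_le hq' (min_le_left _ _)
  have hσq : σ (ϖ q) = q := hδl (by rw [dist_comm]; exact lt_of_lt_of_le hq (min_le_right _ _))
  have hσq' : σ (ϖ q') = q' :=
    hδl (by rw [dist_comm]; exact lt_of_lt_of_le hq' (min_le_right _ _))
  refine le_antisymm (dist_le h q q') ?_
  refine le_of_forall_gt fun r hr0 => ?_
  have hrpos : 0 < r := lt_of_le_of_lt dist_nonneg hr0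
  set r' := min r (2 * δ / 3) with hr'
  have hdd : dist (ϖ q) (ϖ q') < 2 * δ / 3 := by
    have h1 := dist_le h q q'
    have h2 := dist_triangle q x q'
    rw [dist_comm q x] at h2
    linarith
  have hr'1 : dist (ϖ q) (ϖ q') < r' := lt_min hr0 hdd
  have hr'0 : 0 < r' := lt_of_le_of_lt dist_nonneg hr'1
  have h4 : riemannianEDist 𝓘E (ϖ q) (ϖ q') < ENNReal.ofReal r' := by
    rw [← IsRiemannianManifold.out (I := 𝓘E) (ϖ q) (ϖ q'), edist_dist]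
    exact (ENNReal.ofReal_lt_ofReal_iff hr'0).2 hr'1
  obtain ⟨γ, g0, g1, g2, g3⟩ := exists_lt_of_riemannianEDist_lt h4
  have hmem : ∀ t ∈ Icc (0:ℝ) 1, γ t ∈ W := by
    intro t ht
    apply hδW
    have h5 : edist (ϖ q) (γ t) ≤ pathELength 𝓘E γ 0 t := by
      rw [IsRiemannianManifold.out (I := 𝓘E) (ϖ q) (γ t)]
      exact riemannianEDist_le_pathELength (g2.mono (Icc_subset_Icc_right ht.2)) g0 rfl ht.1
    have h6 : pathELength 𝓘E γ 0 t ≤ pathELength 𝓘E γ 0 1 := pathELength_mono le_rfl ht.2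
    have h7 : edist (ϖ q) (γ t) < ENNReal.ofReal r' := (h5.trans h6).trans_lt g3
    rw [edist_dist, ENNReal.ofReal_lt_ofReal_iff hr'0] at h7
    have h8 : dist (ϖ x) (ϖ q) ≤ dist x q := dist_le h x q
    have h9 : r' ≤ 2 * δ / 3 := min_le_right _ _
    have h10 := dist_triangle (γ t) (ϖ q) (ϖ x)
    rw [Metric.mem_ball]
    rw [dist_comm (γ t) (ϖ q), dist_comm (ϖ q) (ϖ x)] at h10
    linarith
  have hσγ : ContMDiffOn 𝓘(ℝ, ℝ) 𝓘E 1 (σ ∘ γ) (Icc 0 1) := hσ.comp g2 hmem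
  have h11 : pathELength 𝓘E (σ ∘ γ) 0 1 = pathELength 𝓘E γ 0 1 := by
    rw [← pathELength_comp h (hσγ.mdifferentiableOn one_ne_zero)]
    exact pathELength_congr fun t ht => hr _ (hmem t ht)
  have h12 : edist q q' ≤ pathELength 𝓘E (σ ∘ γ) 0 1 := by
    rw [IsRiemannianManifold.out (I := 𝓘E) q q']
    refine riemannianEDist_le_pathELength hσγ ?_ ?_ zero_le_one
    · simp [g0, hσq]
    · simp [g1, hσq']
  have h13 : edist q q' < ENNReal.ofReal r' := by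
    rw [h11] at h12
    exact h12.trans_lt g3
  rw [edist_dist, ENNReal.ofReal_lt_ofReal_iff hr'0] at h13
  exact h13.trans_le (min_le_left _ _)

end Dist

end Crest.Agent.R249.Loc2_285
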