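/-
Row 249, part B2, leaf MC (helper48): smooth even trigonometric functions.

* `C s = cos √s`, `S s = sin √s / √s` as smooth functions of `s ∈ ℝ` (power series);
* `At q = arctan √q / √q` near `q = 0` as a power series, `psi` on `[0, ∞)`.
-/
import Mathlib

set_option autoImplicit false

open Real Filter Topology Set
open scoped ContDiff

noncomputable section

namespace Crest.Agent.R249.MCPa_48

/-- sum of the power series with coefficients `c` -/
def ps (c : ℕ → ℝ) (x : ℝ) : ℝ := FormalMultilinearSeries.ofScalarsSum c x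

theorem ps_eq_of_hasSum {c : ℕ → ℝ} {x a : ℝ} (h : HasSum (fun n => c n * x ^ n) a) : ps c x = a := by
  unfold ps
  rw [FormalMultilinearSeries.ofScalars_sum_eq]
  simp only [smul_eq_mul]
  exact h.tsum_eq

theorem ofScalars_norm_le' (c : ℕ → ℝ) (n : ℕ) :
    ‖FormalMultilinearSeries.ofScalars ℝ c n‖ = ‖c n‖ :=
  FormalMultilinearSeries.ofScalars_norm ℝ c n

theorem ps_contDiffOn {c : ℕ → ℝ} {r K : ℝ} (hr : 0 < r) (hc : ∀ n, |c n| * r ^ n ≤ K) :
    ContDiffOn ℝ ∞ (ps c) (Metric.ball 0 r) := by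
  have h1 : (r.toNNReal : ENNReal) ≤ (FormalMultilinearSeries.ofScalars ℝ c).radius := by
    refine FormalMultilinearSeries.le_radius_of_bound _ K ?_
    intro n
    rw [ofScalars_norm_le', Real.coe_toNNReal _ hr.le]
    exact hc n
  have hpos : (0 : ENNReal) < (FormalMultilinearSeries.ofScalars ℝ c).radius := by
    refine lt_of_lt_of_le ?_ h1
    rw [ENNReal.coe_pos, Real.toNNReal_pos]
    exact hr
  have h2 := ((FormalMultilinearSeries.ofScalars ℝ c).hasFPowerSeriesOnBall hpos).analyticOnNhd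
  have h3 : AnalyticOnNhd ℝ (ps c) (Metric.ball 0 r) := by
    intro x hx
    refine h2 x ?_
    refine Metric.eball_subset_eball h1 ?_
    rw [Metric.mem_ball] at hx
    rw [Metric.mem_eball, edist_nndist, ENNReal.coe_lt_coe, Real.lt_toNNReal_iff_coe_lt]
    exact hx
  intro x hx
  exact ((h3 x hx).contDiffAt.of_le le_top).contDiffWithinAt

theorem ps_contDiff {c : ℕ → ℝ} (hc : ∀ n, |c n| ≤ 1 / n.factorial) : ContDiff ℝ ∞ (ps c) := by
  rw [contDiff_iff_contDiffAt]
  intro x
  have hr : (0 : ℝ) < |x| + 1 := by positivity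
  have h := ps_contDiffOn (c := c) (r := |x| + 1) (K := Real.exp (|x| + 1)) hr ?_
  · refine h.contDiffAt ?_
    refine Metric.isOpen_ball.mem_nhds ?_
    rw [mem_ball_zero_iff, Real.norm_eq_abs]
    linarith
  · intro n
    calc |c n| * (|x| + 1) ^ n ≤ (1 / n.factorial) * (|x| + 1) ^ n := by
          gcongr
          exact hc n
      _ = (|x| + 1) ^ n / n.factorial := by ring
      _ ≤ Real.exp (|x| + 1) := Real.pow_div_factorial_le_exp _ hr.le _

/-- `cos √s` -/
def C : ℝ → ℝ := ps (fun n => (-1) ^ n / (2 * n).factorial)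
/-- `sin √s / √s` -/
def S : ℝ → ℝ := ps (fun n => (-1) ^ n / (2 * n + 1).factorial)

theorem C_contDiff : ContDiff ℝ ∞ C := by
  refine ps_contDiff fun n => ?_
  rw [abs_div, abs_pow, abs_neg, abs_one, one_pow, abs_of_pos (by positivity)]
  refine one_div_le_one_div_of_le (by positivity) ?_
  exact_mod_cast Nat.factorial_le (by omega)

theorem S_contDiff : ContDiff ℝ ∞ S := by
  refine ps_contDiff fun n => ?_
  rw [abs_div, abs_pow, abs_neg, abs_one, one_pow, abs_of_pos (by positivity)]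
  refine one_div_le_one_div_of_le (by positivity) ?_
  exact_mod_cast Nat.factorial_le (by omega)

theorem C_sq (r : ℝ) : C (r ^ 2) = cos r := by
  refine ps_eq_of_hasSum ?_
  convert Real.hasSum_cos r using 1
  funext n
  rw [← pow_mul]
  ring

theorem S_zero : S 0 = 1 := by
  refine ps_eq_of_hasSum ?_
  convert hasSum_single 0 ?_ using 2
  · simp
  · intro n hn
    simp [hn]

theorem S_sq (r : ℝ) : r * S (r ^ 2) = sin r := by
  rcases eq_or_ne r 0 with rfl | hr
  · simp
  · have h : S (r ^ 2) = r⁻¹ * sin r := by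
      refine ps_eq_of_hasSum ?_
      have h3 := (Real.hasSum_sin r).mul_left r⁻¹
      have h4 : (fun n : ℕ => (-1) ^ n / ((2 * n + 1).factorial : ℝ) * (r ^ 2) ^ n) =
          fun n : ℕ => r⁻¹ * ((-1) ^ n * r ^ (2 * n + 1) / ((2 * n + 1).factorial : ℝ)) := by
        funext n
        rw [← pow_mul, pow_succ r]
        field_simp
      rw [h4]
      exact h3
    rw [h]
    field_simp

theorem C_zero : C 0 = 1 := by
  have := C_sq 0
  simpa using this

theorem CS (s : ℝ) (hs : 0 ≤ s) : C s ^ 2 + s * S s ^ 2 = 1 := by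
  obtain ⟨r, rfl⟩ : ∃ r : ℝ, s = r ^ 2 := ⟨√s, (Real.sq_sqrt hs).symm⟩
  have h := S_sq r
  rw [C_sq]
  have h2 : r ^ 2 * S (r ^ 2) ^ 2 = sin r ^ 2 := by
    rw [← h]
    ring
  rw [h2]
  exact Real.cos_sq_add_sin_sq r

/-- `T = 2 S'` -/
def T (s : ℝ) : ℝ := 2 * deriv S s

theorem T_contDiff : ContDiff ℝ ∞ T := by
  unfold T
  have : ContDiff ℝ ∞ (deriv S) := (contDiff_infty_iff_deriv.1 S_contDiff).2
  exact contDiff_const.mul this

theorem hasDerivAt_S (s : ℝ) : HasDerivAt S (T s / 2) s := by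
  have h : DifferentiableAt ℝ S s := S_contDiff.differentiable (by simp) s
  have h2 := h.hasDerivAt
  have h3 : T s / 2 = deriv S s := by
    unfold T
    ring
  rw [h3]
  exact h2

theorem mul_T (s : ℝ) (hs : 0 ≤ s) : s * T s = C s - S s := by
  rcases hs.eq_or_lt with rfl | hs
  · rw [C_zero, S_zero]
    ring
  · obtain ⟨r, hr, rfl⟩ : ∃ r : ℝ, 0 < r ∧ s = r ^ 2 :=
      ⟨√s, Real.sqrt_pos.2 hs, (Real.sq_sqrt hs.le).symm⟩
    have h1 : HasDerivAt (fun r : ℝ => r * S (r ^ 2)) (1 * S (r ^ 2) + r * (T (r ^ 2) / 2 * (2 * r))) r := by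
      have h2 : HasDerivAt (fun r : ℝ => r ^ 2) (2 * r) r := by
        simpa using hasDerivAt_pow 2 r
      exact (hasDerivAt_id r).mul ((hasDerivAt_S (r ^ 2)).comp r h2)
    have h3 : HasDerivAt (fun r : ℝ => r * S (r ^ 2)) (cos r) r := by
      have : (fun r : ℝ => r * S (r ^ 2)) = sin := by
        funext r
        exact S_sq r
      rw [this]
      exact Real.hasDerivAt_sin r
    have h4 := h1.unique h3
    rw [C_sq]
    linarith

theorem hasDerivAt_C (s : ℝ) (hs : 0 < s) : HasDerivAt C (-S s / 2) s := by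
  obtain ⟨r, hr, rfl⟩ : ∃ r : ℝ, 0 < r ∧ s = r ^ 2 :=
    ⟨√s, Real.sqrt_pos.2 hs, (Real.sq_sqrt hs.le).symm⟩
  have h : DifferentiableAt ℝ C (r ^ 2) := C_contDiff.differentiable (by simp) _
  have h1 : HasDerivAt (fun r : ℝ => C (r ^ 2)) (deriv C (r ^ 2) * (2 * r)) r := by
    have h2 : HasDerivAt (fun r : ℝ => r ^ 2) (2 * r) r := by
      simpa using hasDerivAt_pow 2 r
    exact HasDerivAt.comp (h := fun r : ℝ => r ^ 2) r h.hasDerivAt h2
  have h3 : HasDerivAt (fun r : ℝ => C (r ^ 2)) (-sin r) r := by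
    have : (fun r : ℝ => C (r ^ 2)) = cos := by
      funext r
      exact C_sq r
    rw [this]
    exact Real.hasDerivAt_cos r
  have h4 := h1.unique h3
  have h5 : deriv C (r ^ 2) = -S (r ^ 2) / 2 := by
    have h6 := S_sq r
    rw [← h6] at h4
    have : 2 * r * (deriv C (r ^ 2) - -S (r ^ 2) / 2) = 0 := by linarith
    rcases mul_eq_zero.1 this with h | h
    · exfalso
      linarith
    · linarith
  rw [← h5]
  exact h.hasDerivAt

/-- `psi (τ ^ 2) = arctan τ / τ` for `τ ≥ 0` -/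
def psi (q : ℝ) : ℝ := if q = 0 then 1 else arctan (√q) / √q

theorem psi_sq {t : ℝ} (ht : 0 ≤ t) : psi (t ^ 2) * t = arctan t := by
  unfold psi
  rcases ht.eq_or_lt with rfl | ht
  · simp
  · rw [if_neg (by positivity), Real.sqrt_sq ht.le]
    field_simp

/-- the power series of `psi` -/
def psi0 : ℝ → ℝ := ps (fun n => (-1) ^ n / (2 * n + 1))

theorem psi0_contDiffOn : ContDiffOn ℝ ∞ psi0 (Metric.ball 0 1) := by
  refine ps_contDiffOn one_pos (K := 1) fun n => ?_
  rw [abs_div, abs_pow, abs_neg, abs_one, one_pow, abs_of_pos (by positivity), mul_one]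
  rw [div_le_one (by positivity)]
  have : (0 : ℝ) ≤ n := by positivity
  linarith

theorem psi_eq_psi0 {q : ℝ} (h0 : 0 ≤ q) (h1 : q < 1) : psi q = psi0 q := by
  symm
  rcases h0.eq_or_lt with rfl | hq
  · refine ps_eq_of_hasSum ?_
    unfold psi
    rw [if_pos rfl]
    convert hasSum_single 0 ?_ using 2
    · simp
    · intro n hn
      simp [hn]
  · unfold psi
    rw [if_neg hq.ne']
    refine ps_eq_of_hasSum ?_
    have hs : 0 < √q := Real.sqrt_pos.2 hq
    have h2 : ‖√q‖ < 1 := by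
      rw [Real.norm_eq_abs, abs_of_pos hs]
      rw [Real.sqrt_lt' one_pos]
      linarith
    have h3 := (Real.hasSum_arctan h2).mul_right (√q)⁻¹
    rw [div_eq_mul_inv]
    have h5 : (fun n : ℕ => (-1) ^ n / (2 * (n : ℝ) + 1) * q ^ n) =
        fun n : ℕ => (-1) ^ n * √q ^ (2 * n + 1) / ((2 * n + 1 : ℕ) : ℝ) * (√q)⁻¹ := by
      funext n
      have h4 : √q ^ (2 * n + 1) = q ^ n * √q := by
        rw [pow_succ, pow_mul, Real.sq_sqrt hq.le]
      rw [h4]
      push_cast
      field_simp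
    rw [h5]
    exact h3

/-- smoothness of `psi` composed with a smooth nonnegative function -/
theorem psi_comp {F : Type*} [NormedAddCommGroup F] [NormedSpace ℝ F] {f : F → ℝ} {x : F}
    (hf : ContDiffAt ℝ ∞ f x) (h0 : ∀ᶠ y in 𝓝 x, 0 ≤ f y) :
    ContDiffAt ℝ ∞ (fun y => psi (f y)) x := by
  have hx := h0.self_of_nhds
  rcases hx.eq_or_lt with hx | hx
  · have h1 : ContDiffAt ℝ ∞ (fun y => psi0 (f y)) x := by
      refine ContDiffAt.comp x ?_ hf
      rw [← hx]
      exact psi0_contDiffOn.contDiffAt (Metric.ball_mem_nhds _ one_pos)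
    refine h1.congr_of_eventuallyEq ?_
    have h2 : ∀ᶠ y in 𝓝 x, f y < 1 :=
      hf.continuousAt.eventually_lt continuousAt_const (by rw [← hx]; exact one_pos)
    filter_upwards [h0, h2] with y h3 h4
    exact psi_eq_psi0 h3 h4
  · have h1 : ContDiffAt ℝ ∞ (fun y => arctan (√(f y)) / √(f y)) x := by
      have hs : ContDiffAt ℝ ∞ (fun y => √(f y)) x := hf.sqrt hx.ne'
      exact (Real.contDiff_arctan.contDiffAt.comp x hs).div hs (Real.sqrt_pos.2 hx).ne'
    refine h1.congr_of_eventuallyEq ?_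
    have h2 : ∀ᶠ y in 𝓝 x, 0 < f y :=
      continuousAt_const.eventually_lt hf.continuousAt hx
    filter_upwards [h2] with y h3
    unfold psi
    rw [if_neg h3.ne']

end Crest.Agent.R249.MCPa_48
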