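/-
Row 249, part B2, leaf MC (helper48): linear algebra of `ℝ⁴ = ℂ² ⊂ ℂ³`.
-/
import Crest.Agent.R249.MCPa_48

set_option autoImplicit false

open Real Filter Topology Set
open scoped ContDiff ComplexConjugate

noncomputable section

namespace Crest.Agent.R249.MCPb_48

/-- `ℝ⁴` -/
abbrev E := EuclideanSpace ℝ (Fin 4)
/-- `ℂ³` -/
abbrev V := EuclideanSpace ℂ (Fin 3)

/-- base point -/
def p : V := EuclideanSpace.single 0 1

/-- `ℝ⁴ → ℂ³`, `w ↦ (0, w₀ + i w₁, w₂ + i w₃)` -/
def iotaL : E →ₗ[ℝ] V where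
  toFun w := !₂[0, ⟨w 0, w 1⟩, ⟨w 2, w 3⟩]
  map_add' u v := by
    ext i
    fin_cases i <;> simp [Complex.ext_iff]
  map_smul' a v := by
    ext i
    fin_cases i <;> simp [Complex.ext_iff]

/-- complex structure of `ℝ⁴` -/
def JL : E →ₗ[ℝ] E where
  toFun w := !₂[-w 1, w 0, -w 3, w 2]
  map_add' u v := by
    ext i
    fin_cases i <;> simp <;> ring
  map_smul' a v := by
    ext i
    fin_cases i <;> simp

/-- `ℂ³ → ℝ⁴` -/
def prL : V →ₗ[ℝ] E where
  toFun x := !₂[(x 1).re, (x 1).im, (x 2).re, (x 2).im]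
  map_add' u v := by
    ext i
    fin_cases i <;> simp
  map_smul' a v := by
    ext i
    fin_cases i <;> simp

/-- the continuous linear map -/
def iota : E →L[ℝ] V := LinearMap.toContinuousLinearMap iotaL
/-- the continuous linear map -/
def J : E →L[ℝ] E := LinearMap.toContinuousLinearMap JL
/-- the continuous linear map -/
def pr : V →L[ℝ] E := LinearMap.toContinuousLinearMap prL

theorem iota_apply (w : E) : iota w = !₂[0, ⟨w 0, w 1⟩, ⟨w 2, w 3⟩] := rfl
theorem J_apply (w : E) : J w = !₂[-w 1, w 0, -w 3, w 2] := rfl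
theorem pr_apply (x : V) : pr x = !₂[(x 1).re, (x 1).im, (x 2).re, (x 2).im] := rfl

theorem inner_V (x y : V) : inner ℂ x y = conj (x 0) * y 0 + conj (x 1) * y 1 + conj (x 2) * y 2 := by
  rw [PiLp.inner_apply]
  simp [Fin.sum_univ_three, mul_comm]

theorem inner_E (x y : E) : inner ℝ x y = x 0 * y 0 + x 1 * y 1 + x 2 * y 2 + x 3 * y 3 := by
  rw [PiLp.inner_apply]
  simp [Fin.sum_univ_four, mul_comm]

theorem inner_p (x : V) : inner ℂ p x = x 0 := by
  rw [inner_V]
  simp [p]

theorem norm_p : ‖p‖ = 1 := by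
  unfold p
  simp

theorem inner_iota (u v : E) :
    inner ℂ (iota u) (iota v) = ((inner ℝ u v : ℝ) : ℂ) + ((inner ℝ (J u) v : ℝ) : ℂ) * Complex.I := by
  rw [inner_V, inner_E, inner_E, iota_apply, iota_apply, J_apply]
  apply Complex.ext
  · simp
    ring
  · simp
    ring

theorem inner_p_iota (u : E) : inner ℂ p (iota u) = 0 := by
  rw [inner_p, iota_apply]
  simp

theorem inner_iota_p (u : E) : inner ℂ (iota u) p = 0 := by
  rw [← inner_conj_symm, inner_p_iota, map_zero]

theorem inner_J_self (u : E) : inner ℝ (J u) u = 0 := by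
  rw [inner_E, J_apply]
  simp
  ring

theorem inner_self_J (u : E) : inner ℝ u (J u) = 0 := by
  rw [real_inner_comm, inner_J_self]

theorem inner_J_J (u v : E) : inner ℝ (J u) (J v) = inner ℝ u v := by
  rw [inner_E, inner_E, J_apply, J_apply]
  simp
  ring

theorem inner_J_left (u v : E) : inner ℝ (J u) v = -inner ℝ u (J v) := by
  rw [inner_E, inner_E, J_apply, J_apply]
  simp
  ring

theorem J_J (u : E) : J (J u) = -u := by
  ext i
  rw [J_apply, J_apply]
  fin_cases i <;> simp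

theorem norm_J (u : E) : ‖J u‖ = ‖u‖ := by
  have h := inner_J_J u u
  rw [real_inner_self_eq_norm_sq, real_inner_self_eq_norm_sq] at h
  exact (sq_eq_sq₀ (norm_nonneg _) (norm_nonneg _)).1 h

theorem norm_iota (u : E) : ‖iota u‖ = ‖u‖ := by
  have h := inner_iota u u
  rw [inner_J_self, inner_self_eq_norm_sq_to_K, real_inner_self_eq_norm_sq] at h
  have h2 : ‖iota u‖ ^ 2 = ‖u‖ ^ 2 := by
    have h3 := congrArg Complex.re h
    simpa [← Complex.ofReal_pow] using h3
  exact (sq_eq_sq₀ (norm_nonneg _) (norm_nonneg _)).1 h2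

theorem iota_J (u : E) : iota (J u) = Complex.I • iota u := by
  ext i
  rw [iota_apply, iota_apply, J_apply]
  fin_cases i <;> simp [Complex.ext_iff]

theorem pr_iota (u : E) : pr (iota u) = u := by
  ext i
  rw [iota_apply, pr_apply]
  fin_cases i <;> simp

theorem pr_p : pr p = 0 := by
  ext i
  rw [pr_apply]
  fin_cases i <;> simp [p]

theorem iota_pr (x : V) : iota (pr x) = x - x 0 • p := by
  ext i
  rw [iota_apply, pr_apply]
  fin_cases i <;> simp [p]

theorem decomp (x : V) : x = x 0 • p + iota (pr x) := by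
  rw [iota_pr]
  abel

theorem norm_sq_decomp (x : V) : ‖x‖ ^ 2 = ‖x 0‖ ^ 2 + ‖pr x‖ ^ 2 := by
  rw [EuclideanSpace.norm_sq_eq, EuclideanSpace.norm_sq_eq, pr_apply]
  simp [Fin.sum_univ_three, Fin.sum_univ_four, Complex.sq_norm, Complex.normSq_apply]
  ring

theorem pr_smul_iota (a b : ℝ) (u : E) :
    pr ((⟨a, b⟩ : ℂ) • iota u) = a • u + b • J u := by
  ext i
  rw [iota_apply, pr_apply, J_apply]
  fin_cases i <;> simp <;> ring

end Crest.Agent.R249.MCPb_48
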