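/-
Row 249, part B2, leaf MC (helper48): exponential map of the complex projective plane, the
horizontal form and the metric in normal coordinates; Jacobi fields.
-/
import Crest.Agent.R249.MCPb_48

set_option autoImplicit false
set_option maxSynthPendingDepth 3

open Real Filter Topology Set
open scoped ContDiff ComplexConjugate
open Crest.Agent.R249.MCPa_48 Crest.Agent.R249.MCPb_48

noncomputable section

namespace Crest.Agent.R249.MCPc_48

/-- exponential map with values in `ℂ³` -/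
def ex (w : E) : V := C (‖w‖ ^ 2) • p + S (‖w‖ ^ 2) • iota w

theorem nsq_contDiff : ContDiff ℝ ∞ (fun w : E => ‖w‖ ^ 2) := contDiff_norm_sq ℝ

theorem ex_contDiff : ContDiff ℝ ∞ ex := by
  unfold ex
  have h1 : ContDiff ℝ ∞ (fun w : E => C (‖w‖ ^ 2)) := C_contDiff.comp nsq_contDiff
  have h2 : ContDiff ℝ ∞ (fun w : E => S (‖w‖ ^ 2)) := S_contDiff.comp nsq_contDiff
  exact (h1.smul contDiff_const).add (h2.smul iota.contDiff)

/-- derivative of `ex` -/
def dex (w : E) : E →L[ℝ] V :=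
  (-S (‖w‖ ^ 2)) • ((innerSL ℝ w).smulRight p) + (T (‖w‖ ^ 2)) • ((innerSL ℝ w).smulRight (iota w))
    + S (‖w‖ ^ 2) • iota

theorem dex_apply (w u : E) : dex w u = (-S (‖w‖ ^ 2) * inner ℝ w u) • p +
    (T (‖w‖ ^ 2) * inner ℝ w u) • iota w + S (‖w‖ ^ 2) • iota u := by
  unfold dex
  simp [smul_smul]

theorem hasFDerivAt_nsq (w : E) : HasFDerivAt (fun w : E => ‖w‖ ^ 2) ((2 : ℝ) • innerSL ℝ w) w := by
  refine (hasStrictFDerivAt_norm_sq w).hasFDerivAt.congr_fderiv ?_
  ext1 u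
  simp

theorem hasFDerivAt_C (w : E) :
    HasFDerivAt (fun w : E => C (‖w‖ ^ 2)) ((-S (‖w‖ ^ 2)) • innerSL ℝ w) w := by
  have hC : DifferentiableAt ℝ C (‖w‖ ^ 2) := C_contDiff.differentiable (by simp) _
  refine (hC.hasDerivAt.comp_hasFDerivAt w (hasFDerivAt_nsq w)).congr_fderiv ?_
  rcases eq_or_ne w 0 with rfl | hw
  · simp
  · have h2 := MCPa_48.hasDerivAt_C (‖w‖ ^ 2) (by positivity)
    rw [h2.deriv, smul_smul]
    congr 1
    ring

theorem hasFDerivAt_S (w : E) :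
    HasFDerivAt (fun w : E => S (‖w‖ ^ 2)) ((T (‖w‖ ^ 2)) • innerSL ℝ w) w := by
  refine ((MCPa_48.hasDerivAt_S (‖w‖ ^ 2)).comp_hasFDerivAt w (hasFDerivAt_nsq w)).congr_fderiv ?_
  rw [smul_smul]
  congr 1
  ring

theorem hasFDerivAt_ex (w : E) : HasFDerivAt ex (dex w) w := by
  have h1 := (hasFDerivAt_C w).smul_const p
  have h2 := (hasFDerivAt_S w).smul iota.hasFDerivAt
  refine (h1.add h2).congr_fderiv ?_
  ext1 u
  rw [dex_apply]
  simp [smul_smul]
  abel

/-- horizontal form -/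
def hor (x ξ η : V) : ℝ := (inner ℂ ξ η - conj (inner ℂ x ξ) * inner ℂ x η).re

theorem hor_add (x ξ η : V) (a b : ℂ) (hx : ‖x‖ = 1) :
    hor x (ξ + a • x) (η + b • x) = hor x ξ η := by
  unfold hor
  congr 1
  have h1 : inner ℂ x x = 1 := by
    rw [inner_self_eq_norm_sq_to_K, hx]
    simp
  have h2 : inner ℂ ξ x = conj (inner ℂ x ξ) := (inner_conj_symm ξ x).symm
  simp only [inner_add_left, inner_add_right, inner_smul_left, inner_smul_right, h1, h2, map_add,
    map_mul, mul_one]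
  ring

theorem hor_smul (x ξ η : V) (a : ℂ) (ha : ‖a‖ = 1) :
    hor (a • x) (a • ξ) (a • η) = hor x ξ η := by
  unfold hor
  congr 1
  have h1 : conj a * a = 1 := by
    rw [mul_comm, Complex.mul_conj, Complex.normSq_eq_norm_sq, ha]
    simp
  simp only [inner_smul_left, inner_smul_right, map_mul, Complex.conj_conj]
  linear_combination (inner ℂ ξ η - conj (inner ℂ x ξ) * inner ℂ x η * (1 + conj a * a)) * h1

theorem hor_map (g : V ≃ₗᵢ[ℂ] V) (x ξ η : V) : hor (g x) (g ξ) (g η) = hor x ξ η := by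
  unfold hor
  simp only [LinearIsometryEquiv.inner_map_map]

/-- the metric in normal coordinates -/
def B (s : ℝ) : ℝ := S s ^ 2 + s * T s ^ 2 + 2 * S s * T s

theorem mul_B (s : ℝ) (hs : 0 ≤ s) : s * B s = 1 - S s ^ 2 := by
  have h1 := mul_T s hs
  have h2 := CS s hs
  unfold B
  have : s * (S s ^ 2 + s * T s ^ 2 + 2 * S s * T s) = s * S s ^ 2 + (s * T s) ^ 2 + 2 * S s * (s * T s) := by
    ring
  rw [this, h1]
  linear_combination h2

/-- the inner product as a bilinear map -/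
def innE : E →L[ℝ] E →L[ℝ] ℝ := LinearMap.toContinuousLinearMap
  { toFun := fun u => innerSL ℝ u
    map_add' := fun u v => by
      ext w
      simp
    map_smul' := fun a v => by
      ext w
      simp }

theorem innE_apply (u v : E) : innE u v = inner ℝ u v := rfl

/-- the metric in normal coordinates -/
def g0 (w : E) : E →L[ℝ] E →L[ℝ] ℝ :=
  (S (‖w‖ ^ 2) ^ 2) • innE + (B (‖w‖ ^ 2)) • ((innE w).smulRight (innE w))
    - (S (‖w‖ ^ 2) ^ 4) • ((innE (J w)).smulRight (innE (J w)))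

theorem g0_apply (w u v : E) : g0 w u v = S (‖w‖ ^ 2) ^ 2 * inner ℝ u v +
    B (‖w‖ ^ 2) * (inner ℝ w u * inner ℝ w v) - S (‖w‖ ^ 2) ^ 4 * (inner ℝ (J w) u * inner ℝ (J w) v) := by
  unfold g0
  simp [innE_apply]

theorem rs (a : ℝ) (x : V) : a • x = (a : ℂ) • x := by
  ext i
  simp

/-- inner product of two combinations -/
theorem inner_comb (a b c a' b' c' : ℝ) (w u v : E) :
    inner ℂ (a • p + b • iota w + c • iota u) (a' • p + b' • iota w + c' • iota v) =
      ((a * a' + b * b' * ‖w‖ ^ 2 + b * c' * inner ℝ w v + c * b' * inner ℝ w u +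
        c * c' * inner ℝ u v : ℝ) : ℂ) +
      ((b * c' * inner ℝ (J w) v - c * b' * inner ℝ (J w) u + c * c' * inner ℝ (J u) v : ℝ) : ℂ)
        * Complex.I := by
  have h1 : inner ℂ p p = 1 := by
    rw [inner_self_eq_norm_sq_to_K, norm_p]
    simp
  have h2 : inner ℝ w w = ‖w‖ ^ 2 := real_inner_self_eq_norm_sq w
  have h3 : inner ℝ (J u) w = -inner ℝ (J w) u := by
    rw [inner_J_left, real_inner_comm]
  have h4 : inner ℝ u w = inner ℝ w u := real_inner_comm w u
  simp only [rs, inner_add_left, inner_add_right, inner_smul_left, inner_smul_right, inner_p_iota,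
    inner_iota_p, inner_iota, h1, inner_J_self, Complex.conj_ofReal, h2, h3, h4]
  push_cast
  ring

theorem ex_eq (w : E) : ex w = C (‖w‖ ^ 2) • p + S (‖w‖ ^ 2) • iota w + (0 : ℝ) • iota 0 := by
  unfold ex
  simp

theorem norm_ex (w : E) : ‖ex w‖ = 1 := by
  have h : ‖ex w‖ ^ 2 = 1 := by
    have h1 : (inner ℂ (ex w) (ex w)).re = ‖ex w‖ ^ 2 := by
      rw [inner_self_eq_norm_sq_to_K]
      simp [← Complex.ofReal_pow]
    rw [← h1]
    nth_rw 1 [ex_eq]
    rw [ex_eq, inner_comb]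
    have h2 := CS (‖w‖ ^ 2) (by positivity)
    simp [← Complex.ofReal_pow]
    linarith
  have h0 := norm_nonneg (ex w)
  nlinarith

theorem inner_ex_dex (w v : E) : inner ℂ (ex w) (dex w v) =
    ((S (‖w‖ ^ 2) ^ 2 * inner ℝ (J w) v : ℝ) : ℂ) * Complex.I := by
  rw [ex_eq, dex_apply, inner_comb]
  have h1 := mul_T (‖w‖ ^ 2) (by positivity)
  have aux : ∀ a b c : ℝ, a = 0 → b = c → (a : ℂ) + (b : ℂ) * Complex.I = (c : ℂ) * Complex.I := by
    rintro a b c rfl rfl
    simp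
  refine aux _ _ _ ?_ ?_
  · simp only [map_zero, inner_zero_left, zero_mul, mul_zero, add_zero]
    linear_combination S (‖w‖ ^ 2) * inner ℝ w v * h1
  · simp only [map_zero, inner_zero_left, zero_mul, mul_zero, add_zero]
    ring

theorem hor_dex (w u v : E) : hor (ex w) (dex w u) (dex w v) = g0 w u v := by
  have aux : ∀ a b c d : ℝ, ((a : ℂ) + (b : ℂ) * Complex.I -
      conj ((c : ℂ) * Complex.I) * ((d : ℂ) * Complex.I)).re = a - c * d := by
    intro a b c d
    simp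
    ring
  unfold hor
  rw [inner_ex_dex, inner_ex_dex, dex_apply, dex_apply, inner_comb, g0_apply, aux]
  unfold B
  ring

theorem B_contDiff : ContDiff ℝ ∞ B := by
  unfold B
  exact ((S_contDiff.pow 2).add (contDiff_id.mul (T_contDiff.pow 2))).add
    ((contDiff_const.mul S_contDiff).mul T_contDiff)

theorem g0_contDiff : ContDiff ℝ ∞ g0 := by
  unfold g0
  have h1 : ContDiff ℝ ∞ (fun w : E => S (‖w‖ ^ 2)) := S_contDiff.comp nsq_contDiff
  have h2 : ContDiff ℝ ∞ (fun w : E => B (‖w‖ ^ 2)) := B_contDiff.comp nsq_contDiff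
  have h3 : ContDiff ℝ ∞ (fun w : E => (innE w).smulRight (innE w)) :=
    innE.contDiff.smulRight innE.contDiff
  have h4 : ContDiff ℝ ∞ (fun w : E => (innE (J w)).smulRight (innE (J w))) :=
    (innE.contDiff.comp J.contDiff).smulRight (innE.contDiff.comp J.contDiff)
  exact (((h1.pow 2).smul contDiff_const).add (h2.smul h3)).sub ((h1.pow 4).smul h4)

theorem g0_symm (w u v : E) : g0 w u v = g0 w v u := by
  rw [g0_apply, g0_apply, real_inner_comm u v]
  ring

/-- orthogonal part -/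
def orth (v u : E) : E := u - (inner ℝ u v / ‖v‖ ^ 2) • v - (inner ℝ u (J v) / ‖v‖ ^ 2) • J v

theorem orth_v {v : E} (hv : v ≠ 0) (u : E) : inner ℝ (orth v u) v = 0 := by
  have h : ‖v‖ ^ 2 ≠ 0 := by positivity
  unfold orth
  rw [inner_sub_left, inner_sub_left, real_inner_smul_left, real_inner_smul_left, inner_J_self,
    real_inner_self_eq_norm_sq]
  field_simp
  ring

theorem orth_Jv {v : E} (hv : v ≠ 0) (u : E) : inner ℝ (orth v u) (J v) = 0 := by
  have h : ‖v‖ ^ 2 ≠ 0 := by positivity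
  unfold orth
  rw [inner_sub_left, inner_sub_left, real_inner_smul_left, real_inner_smul_left, inner_J_J,
    real_inner_self_eq_norm_sq, inner_self_J]
  field_simp
  ring

theorem orth_add {v : E} (u : E) :
    u = (inner ℝ u v / ‖v‖ ^ 2) • v + (inner ℝ u (J v) / ‖v‖ ^ 2) • J v + orth v u := by
  unfold orth
  abel

theorem inner_orth {v : E} (hv : v ≠ 0) (u u' : E) : inner ℝ (orth v u) (orth v u') =
    inner ℝ u u' - inner ℝ u v * inner ℝ u' v / ‖v‖ ^ 2 - inner ℝ u (J v) * inner ℝ u' (J v) / ‖v‖ ^ 2 := by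
  have h : ‖v‖ ^ 2 ≠ 0 := by positivity
  conv_lhs => rw [orth]
  rw [inner_sub_left, inner_sub_left, real_inner_smul_left, real_inner_smul_left,
    real_inner_comm (orth v u') v, real_inner_comm (orth v u') (J v), orth_v hv, orth_Jv hv]
  unfold orth
  rw [inner_sub_right, inner_sub_right, real_inner_smul_right, real_inner_smul_right]
  ring

theorem bessel {v : E} (hv : v ≠ 0) (u : E) :
    ‖orth v u‖ ^ 2 = ‖u‖ ^ 2 - inner ℝ u v ^ 2 / ‖v‖ ^ 2 - inner ℝ u (J v) ^ 2 / ‖v‖ ^ 2 := by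
  rw [← real_inner_self_eq_norm_sq, inner_orth hv, real_inner_self_eq_norm_sq]
  ring

theorem g0_pos {w : E} (hw : ‖w‖ < π / 2) {u : E} (hu : u ≠ 0) : 0 < g0 w u u := by
  rcases eq_or_ne w 0 with rfl | h0
  · rw [g0_apply]
    simp only [norm_zero, inner_zero_left, map_zero, mul_zero, add_zero, sub_zero]
    have : (0 : ℝ) ^ 2 = 0 := by norm_num
    rw [this, S_zero, real_inner_self_eq_norm_sq]
    positivity
  · have hr : 0 < ‖w‖ := by positivity
    have hs : 0 < ‖w‖ ^ 2 := by positivity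
    have h1 := mul_B (‖w‖ ^ 2) hs.le
    have h2 := CS (‖w‖ ^ 2) hs.le
    have hS : 0 < S (‖w‖ ^ 2) := by
      have h3 := S_sq ‖w‖
      have h4 : 0 < sin ‖w‖ := Real.sin_pos_of_pos_of_lt_pi hr (by linarith [Real.pi_pos])
      rw [← h3] at h4
      exact (pos_iff_pos_of_mul_pos h4).1 hr
    have hC : 0 < C (‖w‖ ^ 2) := by
      rw [C_sq]
      exact Real.cos_pos_of_mem_Ioo ⟨by linarith [Real.pi_pos], hw⟩
    have hb := bessel h0 u
    have hb0 : 0 ≤ ‖orth w u‖ ^ 2 := by positivity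
    have key : ‖w‖ ^ 2 * g0 w u u = S (‖w‖ ^ 2) ^ 2 * ‖w‖ ^ 2 * ‖orth w u‖ ^ 2 +
        inner ℝ u w ^ 2 + S (‖w‖ ^ 2) ^ 2 * C (‖w‖ ^ 2) ^ 2 * inner ℝ u (J w) ^ 2 := by
      rw [g0_apply, hb, real_inner_self_eq_norm_sq, real_inner_comm u w, real_inner_comm u (J w)]
      field_simp
      linear_combination (inner ℝ u w) ^ 2 * h1 -
        S (‖w‖ ^ 2) ^ 2 * inner ℝ u (J w) ^ 2 * h2
    have hpos : 0 < ‖w‖ ^ 2 * g0 w u u := by
      rw [key]
      by_cases hO : orth w u = 0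
      · by_cases ha : inner ℝ u w = 0
        · have hJ : inner ℝ u (J w) ≠ 0 := by
            intro hJ
            apply hu
            rw [orth_add (v := w) u, hO, ha, hJ]
            simp
          have : 0 < S (‖w‖ ^ 2) ^ 2 * C (‖w‖ ^ 2) ^ 2 * inner ℝ u (J w) ^ 2 := by positivity
          positivity
        · have : 0 < inner ℝ u w ^ 2 := by positivity
          positivity
      · have : 0 < ‖orth w u‖ := by positivity
        positivity
    exact (pos_iff_pos_of_mul_pos hpos).1 hs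

/-- Jacobi fields -/
def Jac (v u : E) (t : ℝ) : E := if v = 0 then t • u else
  (t * (inner ℝ u v / ‖v‖ ^ 2)) • v + (sin (2 * ‖v‖ * t) / (2 * ‖v‖) * (inner ℝ u (J v) / ‖v‖ ^ 2)) • J v
    + (sin (‖v‖ * t) / ‖v‖) • orth v u

/-- derivative of Jacobi fields -/
def Jac' (v u : E) (t : ℝ) : E := if v = 0 then u else
  (inner ℝ u v / ‖v‖ ^ 2) • v + (cos (2 * ‖v‖ * t) * (inner ℝ u (J v) / ‖v‖ ^ 2)) • J v
    + (cos (‖v‖ * t)) • orth v u

/-- curvature at the base point -/
def R0 (u v w : E) : E := (inner ℝ v w) • u - (inner ℝ u w) • v + (inner ℝ (J v) w) • J u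
  - (inner ℝ (J u) w) • J v + (2 * inner ℝ u (J v)) • J w

theorem Jac_zero (v u : E) : Jac v u 0 = 0 := by
  unfold Jac
  split_ifs <;> simp

theorem Jac'_zero (v u : E) : Jac' v u 0 = u := by
  unfold Jac'
  split_ifs
  · rfl
  · conv_rhs => rw [orth_add (v := v) u]
    simp

theorem Jac_deriv (v u : E) (t : ℝ) : HasDerivAt (Jac v u) (Jac' v u t) t := by
  by_cases hv : v = 0
  · have h1 : Jac v u = fun t => t • u := by
      funext t
      simp [Jac, hv]
    have h2 : Jac' v u t = (1 : ℝ) • u := by simp [Jac', hv]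
    rw [h1, h2]
    exact (hasDerivAt_id t).smul_const u
  · have hr : ‖v‖ ≠ 0 := by positivity
    have h1 : Jac v u = fun t => (t * (inner ℝ u v / ‖v‖ ^ 2)) • v +
        (sin (2 * ‖v‖ * t) / (2 * ‖v‖) * (inner ℝ u (J v) / ‖v‖ ^ 2)) • J v
        + (sin (‖v‖ * t) / ‖v‖) • orth v u := by
      funext t
      simp [Jac, hv]
    have h2 : Jac' v u t = (inner ℝ u v / ‖v‖ ^ 2) • v +
        (cos (2 * ‖v‖ * t) * (inner ℝ u (J v) / ‖v‖ ^ 2)) • J v + (cos (‖v‖ * t)) • orth v u := by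
      simp [Jac', hv]
    rw [h1, h2]
    have a1 : HasDerivAt (fun t : ℝ => t * (inner ℝ u v / ‖v‖ ^ 2)) (inner ℝ u v / ‖v‖ ^ 2) t := by
      simpa using (hasDerivAt_id t).mul_const (inner ℝ u v / ‖v‖ ^ 2)
    have a2 : HasDerivAt (fun t : ℝ => sin (2 * ‖v‖ * t) / (2 * ‖v‖) * (inner ℝ u (J v) / ‖v‖ ^ 2))
        (cos (2 * ‖v‖ * t) * (inner ℝ u (J v) / ‖v‖ ^ 2)) t := by
      have b : HasDerivAt (fun t : ℝ => 2 * ‖v‖ * t) (2 * ‖v‖) t := by
        simpa using (hasDerivAt_id t).const_mul (2 * ‖v‖)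
      have c := ((b.sin).div_const (2 * ‖v‖)).mul_const (inner ℝ u (J v) / ‖v‖ ^ 2)
      refine c.congr_deriv ?_
      field_simp
    have a3 : HasDerivAt (fun t : ℝ => sin (‖v‖ * t) / ‖v‖) (cos (‖v‖ * t)) t := by
      have b : HasDerivAt (fun t : ℝ => ‖v‖ * t) ‖v‖ t := by
        simpa using (hasDerivAt_id t).const_mul ‖v‖
      have c := (b.sin).div_const ‖v‖
      refine c.congr_deriv ?_
      field_simp
    exact ((a1.smul_const v).add (a2.smul_const (J v))).add (a3.smul_const (orth v u))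

theorem R0_v (X v : E) : R0 X v v = (‖v‖ ^ 2) • X - (inner ℝ X v) • v + (3 * inner ℝ X (J v)) • J v := by
  unfold R0
  rw [inner_J_self, real_inner_self_eq_norm_sq, inner_J_left]
  module

theorem Jac'_deriv (v u : E) (t : ℝ) : HasDerivAt (Jac' v u) (-R0 (Jac v u t) v v) t := by
  by_cases hv : v = 0
  · have h1 : Jac' v u = fun t => u := by
      funext t
      simp [Jac', hv]
    have h2 : -R0 (Jac v u t) v v = 0 := by
      rw [R0_v, hv]
      simp
    rw [h1, h2]
    exact hasDerivAt_const t u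
  · have hr : ‖v‖ ≠ 0 := by positivity
    have h1 : Jac' v u = fun t => (inner ℝ u v / ‖v‖ ^ 2) • v +
        (cos (2 * ‖v‖ * t) * (inner ℝ u (J v) / ‖v‖ ^ 2)) • J v + (cos (‖v‖ * t)) • orth v u := by
      funext t
      simp [Jac', hv]
    have h2 : Jac v u t = (t * (inner ℝ u v / ‖v‖ ^ 2)) • v +
        (sin (2 * ‖v‖ * t) / (2 * ‖v‖) * (inner ℝ u (J v) / ‖v‖ ^ 2)) • J v
        + (sin (‖v‖ * t) / ‖v‖) • orth v u := by
      simp [Jac, hv]
    have h3 : -R0 (Jac v u t) v v = (0 : ℝ) • v +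
        (-(2 * ‖v‖) * sin (2 * ‖v‖ * t) * (inner ℝ u (J v) / ‖v‖ ^ 2)) • J v +
        (-‖v‖ * sin (‖v‖ * t)) • orth v u := by
      have c1 : inner ℝ (Jac v u t) v = t * (inner ℝ u v / ‖v‖ ^ 2) * ‖v‖ ^ 2 := by
        rw [h2, inner_add_left, inner_add_left, real_inner_smul_left, real_inner_smul_left,
          real_inner_smul_left, orth_v hv, inner_J_self, real_inner_self_eq_norm_sq]
        ring
      have c2 : inner ℝ (Jac v u t) (J v) =
          sin (2 * ‖v‖ * t) / (2 * ‖v‖) * (inner ℝ u (J v) / ‖v‖ ^ 2) * ‖v‖ ^ 2 := by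
        rw [h2, inner_add_left, inner_add_left, real_inner_smul_left, real_inner_smul_left,
          real_inner_smul_left, orth_Jv hv, inner_self_J, inner_J_J,
          real_inner_self_eq_norm_sq]
        ring
      rw [R0_v, c1, c2, h2]
      have d1 : (‖v‖ ^ 2) • ((t * (inner ℝ u v / ‖v‖ ^ 2)) • v +
        (sin (2 * ‖v‖ * t) / (2 * ‖v‖) * (inner ℝ u (J v) / ‖v‖ ^ 2)) • J v
        + (sin (‖v‖ * t) / ‖v‖) • orth v u) = (t * (inner ℝ u v / ‖v‖ ^ 2) * ‖v‖ ^ 2) • v +
          (sin (2 * ‖v‖ * t) / (2 * ‖v‖) * (inner ℝ u (J v) / ‖v‖ ^ 2) * ‖v‖ ^ 2) • J v +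
          (‖v‖ * sin (‖v‖ * t)) • orth v u := by
        rw [smul_add, smul_add, smul_smul, smul_smul, smul_smul]
        congr 1
        · congr 1
          · congr 1
            ring
          · congr 1
            ring
        · congr 1
          field_simp
      rw [d1]
      have d2 : -(2 * ‖v‖) * sin (2 * ‖v‖ * t) * (inner ℝ u (J v) / ‖v‖ ^ 2) =
          -(4 * (sin (2 * ‖v‖ * t) / (2 * ‖v‖) * (inner ℝ u (J v) / ‖v‖ ^ 2) * ‖v‖ ^ 2)) := by
        field_simp
        ring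
      rw [d2]
      module
    rw [h1, h3]
    have a1 : HasDerivAt (fun t : ℝ => (inner ℝ u v / ‖v‖ ^ 2)) 0 t := hasDerivAt_const _ _
    have a2 : HasDerivAt (fun t : ℝ => cos (2 * ‖v‖ * t) * (inner ℝ u (J v) / ‖v‖ ^ 2))
        (-(2 * ‖v‖) * sin (2 * ‖v‖ * t) * (inner ℝ u (J v) / ‖v‖ ^ 2)) t := by
      have b : HasDerivAt (fun t : ℝ => 2 * ‖v‖ * t) (2 * ‖v‖) t := by
        simpa using (hasDerivAt_id t).const_mul (2 * ‖v‖)
      have c := (b.cos).mul_const (inner ℝ u (J v) / ‖v‖ ^ 2)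
      refine c.congr_deriv ?_
      ring
    have a3 : HasDerivAt (fun t : ℝ => cos (‖v‖ * t)) (-‖v‖ * sin (‖v‖ * t)) t := by
      have b : HasDerivAt (fun t : ℝ => ‖v‖ * t) ‖v‖ t := by
        simpa using (hasDerivAt_id t).const_mul ‖v‖
      refine (b.cos).congr_deriv ?_
      ring
    exact ((a1.smul_const v).add (a2.smul_const (J v))).add (a3.smul_const (orth v u))

theorem Jac_g0 (v u u' : E) : g0 v u u' = inner ℝ (Jac v u 1) (Jac v u' 1) := by
  by_cases hv : v = 0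
  · rw [g0_apply]
    simp only [Jac, hv, norm_zero, inner_zero_left, map_zero, mul_zero, add_zero, sub_zero, if_true,
      one_smul]
    have : (0 : ℝ) ^ 2 = 0 := by norm_num
    rw [this, S_zero]
    ring
  · have hr : ‖v‖ ≠ 0 := by positivity
    have hs : 0 < ‖v‖ ^ 2 := by positivity
    have h1 := mul_B (‖v‖ ^ 2) hs.le
    have h2 := CS (‖v‖ ^ 2) hs.le
    have h3 := S_sq ‖v‖
    have e1 : ∀ u, Jac v u 1 = (inner ℝ u v / ‖v‖ ^ 2) • v +
        (S (‖v‖ ^ 2) * C (‖v‖ ^ 2) * (inner ℝ u (J v) / ‖v‖ ^ 2)) • J v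
        + S (‖v‖ ^ 2) • orth v u := by
      intro u
      simp only [Jac, hv, if_false, mul_one, one_mul, Real.sin_two_mul]
      rw [← h3, C_sq]
      congr 3
      · field_simp
      · field_simp
    have o1 : ∀ u, inner ℝ v (orth v u) = 0 := fun u => by
      rw [real_inner_comm, orth_v hv]
    have o2 : ∀ u, inner ℝ (J v) (orth v u) = 0 := fun u => by
      rw [real_inner_comm, orth_Jv hv]
    rw [e1, e1]
    simp only [inner_add_left, inner_add_right, real_inner_smul_left, real_inner_smul_right, orth_v hv,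
      orth_Jv hv, o1, o2, inner_self_J, inner_J_self, inner_orth hv, real_inner_self_eq_norm_sq, norm_J]
    rw [g0_apply, real_inner_comm u v, real_inner_comm u' v, real_inner_comm u (J v),
      real_inner_comm u' (J v)]
    field_simp
    linear_combination ‖v‖ ^ 2 * inner ℝ u v * inner ℝ u' v * h1 -
      ‖v‖ ^ 2 * S (‖v‖ ^ 2) ^ 2 * inner ℝ u (J v) * inner ℝ u' (J v) * h2

end Crest.Agent.R249.MCPc_48
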