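/-
Row 249, part B2, leaf MC (helper48): Fubini-Study distance, logarithm, local isometries.
-/
import Crest.Agent.R249.MCPc_48

set_option autoImplicit false
set_option maxSynthPendingDepth 3

open Real Filter Topology Set
open scoped ContDiff ComplexConjugate
open Crest.Agent.R249.MCPa_48 Crest.Agent.R249.MCPb_48 Crest.Agent.R249.MCPc_48

noncomputable section

namespace Crest.Agent.R249.MCPd_48

/-- Fubini-Study distance -/
def dV (x y : V) : ℝ := arccos ‖inner ℂ x y‖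

theorem exists_phase (z : ℂ) : ∃ a : ℂ, ‖a‖ = 1 ∧ conj a * z = (‖z‖ : ℂ) := by
  rcases eq_or_ne z 0 with rfl | hz
  · exact ⟨1, by simp, by simp⟩
  · have h : (‖z‖ : ℂ) ≠ 0 := by simpa using hz
    refine ⟨z / ‖z‖, ?_, ?_⟩
    · rw [norm_div, Complex.norm_real, norm_norm]
      exact div_self (by simpa using hz)
    · rw [map_div₀, Complex.conj_ofReal, div_mul_eq_mul_div, mul_comm, Complex.mul_conj,
        Complex.normSq_eq_norm_sq]
      push_cast
      field_simp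

theorem norm_inner_le {x y : V} (hx : ‖x‖ = 1) (hy : ‖y‖ = 1) : ‖inner ℂ x y‖ ≤ 1 := by
  have := norm_inner_le_norm (𝕜 := ℂ) x y
  rwa [hx, hy, one_mul] at this

theorem cos_dV {x y : V} (hx : ‖x‖ = 1) (hy : ‖y‖ = 1) : cos (dV x y) = ‖inner ℂ x y‖ :=
  Real.cos_arccos (by linarith [norm_nonneg (inner ℂ x y)]) (norm_inner_le hx hy)

theorem dV_symm (x y : V) : dV x y = dV y x := by
  unfold dV
  rw [norm_inner_symm]

theorem dV_smul {a : ℂ} (ha : ‖a‖ = 1) (x y : V) : dV (a • x) y = dV x y := by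
  unfold dV
  rw [inner_smul_left, norm_mul, RCLike.norm_conj, ha, one_mul]

theorem dV_smul' {a : ℂ} (ha : ‖a‖ = 1) (x y : V) : dV x (a • y) = dV x y := by
  rw [dV_symm, dV_smul ha, dV_symm]

theorem inner_self_one {x : V} (hx : ‖x‖ = 1) : inner ℂ x x = 1 := by
  rw [inner_self_eq_norm_sq_to_K, hx]
  simp

theorem dV_self {x : V} (hx : ‖x‖ = 1) : dV x x = 0 := by
  unfold dV
  rw [inner_self_one hx]
  simp

theorem dV_nonneg (x y : V) : 0 ≤ dV x y := Real.arccos_nonneg _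

theorem dV_eq_zero {x y : V} (hx : ‖x‖ = 1) (hy : ‖y‖ = 1) (h : dV x y = 0) :
    ∃ a : ℂ, ‖a‖ = 1 ∧ y = a • x := by
  have h1 : ‖inner ℂ x y‖ = 1 := by
    rw [← cos_dV hx hy, h, Real.cos_zero]
  refine ⟨inner ℂ x y, h1, ?_⟩
  rw [← sub_eq_zero, ← inner_self_eq_zero (𝕜 := ℂ)]
  simp only [inner_sub_left, inner_sub_right, inner_smul_left, inner_smul_right, inner_self_one hx,
    inner_self_one hy]
  have h2 : inner ℂ y x = conj (inner ℂ x y) := (inner_conj_symm y x).symm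
  have h3 : inner ℂ x y * conj (inner ℂ x y) = 1 := by
    rw [Complex.mul_conj, Complex.normSq_eq_norm_sq, h1]
    simp
  rw [h2]
  linear_combination -h3

theorem angle_eq {x y : V} (hx : ‖x‖ = 1) (hy : ‖y‖ = 1) :
    InnerProductGeometry.angle x y = arccos (inner ℂ x y).re := by
  unfold InnerProductGeometry.angle
  rw [hx, hy, mul_one, div_one]
  rfl

theorem dV_tri {x y z : V} (hx : ‖x‖ = 1) (hy : ‖y‖ = 1) (hz : ‖z‖ = 1) :
    dV x z ≤ dV x y + dV y z := by
  obtain ⟨a, ha, ha2⟩ := exists_phase (inner ℂ x y)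
  obtain ⟨b, hb, hb2⟩ := exists_phase (conj (inner ℂ y z))
  have hb3 : b * inner ℂ y z = (‖inner ℂ y z‖ : ℂ) := by
    have := congrArg conj hb2
    rw [map_mul, Complex.conj_conj, Complex.conj_conj, Complex.conj_ofReal, RCLike.norm_conj] at this
    exact this
  have hx' : ‖a • x‖ = 1 := by rw [norm_smul, ha, hx, one_mul]
  have hz' : ‖b • z‖ = 1 := by rw [norm_smul, hb, hz, one_mul]
  have h1 : InnerProductGeometry.angle (a • x) y = dV x y := by
    rw [angle_eq hx' hy, inner_smul_left, ha2]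
    simp [dV]
  have h2 : InnerProductGeometry.angle y (b • z) = dV y z := by
    rw [angle_eq hy hz', inner_smul_right, hb3]
    simp [dV]
  have h3 : dV x z = dV (a • x) (b • z) := by rw [dV_smul ha, dV_smul' hb]
  rw [h3, ← h1, ← h2]
  refine le_trans ?_ (InnerProductGeometry.angle_le_angle_add_angle (a • x) y (b • z))
  rw [angle_eq hx' hz']
  exact Real.arccos_le_arccos (Complex.re_le_norm _)

theorem dV_map (g : V ≃ₗᵢ[ℂ] V) (x y : V) : dV (g x) (g y) = dV x y := by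
  unfold dV
  rw [LinearIsometryEquiv.inner_map_map]

/-- approximate phase: a representative of `y` close to `x` -/
theorem exists_close {x y : V} (hx : ‖x‖ = 1) (hy : ‖y‖ = 1) :
    ∃ a : ℂ, ‖a‖ = 1 ∧ ‖a • y - x‖ ≤ dV x y := by
  obtain ⟨b, hb, hb2⟩ := exists_phase (conj (inner ℂ x y))
  have hb3 : b * inner ℂ x y = (‖inner ℂ x y‖ : ℂ) := by
    have := congrArg conj hb2
    rw [map_mul, Complex.conj_conj, Complex.conj_conj, Complex.conj_ofReal, RCLike.norm_conj] at this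
    exact this
  refine ⟨b, hb, ?_⟩
  have hy' : ‖b • y‖ = 1 := by rw [norm_smul, hb, hy, one_mul]
  have h1 : ‖b • y - x‖ ^ 2 = 2 - 2 * ‖inner ℂ x y‖ := by
    have h2 := norm_sub_sq (𝕜 := ℂ) x (b • y)
    rw [hx, hy', inner_smul_right, hb3] at h2
    rw [norm_sub_rev, h2]
    simp
    ring
  have h2 := Real.one_sub_sq_div_two_le_cos (x := dV x y)
  rw [cos_dV hx hy] at h2
  have h3 : ‖b • y - x‖ ^ 2 ≤ dV x y ^ 2 := by
    rw [h1]
    linarith
  exact (sq_le_sq₀ (norm_nonneg _) (dV_nonneg x y)).1 h3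

/-- affine coordinate -/
def zt (x : V) : E := pr ((x 0)⁻¹ • x)

/-- logarithm -/
def lgV (x : V) : E := psi (‖zt x‖ ^ 2) • zt x

theorem zt_smul {a : ℂ} (ha : a ≠ 0) (x : V) : zt (a • x) = zt x := by
  unfold zt
  congr 1
  rw [smul_smul]
  congr 1
  simp only [PiLp.smul_apply, smul_eq_mul, mul_inv]
  rcases eq_or_ne (x 0) 0 with h | h
  · rw [h]
    simp
  · field_simp

theorem lgV_smul {a : ℂ} (ha : a ≠ 0) (x : V) : lgV (a • x) = lgV x := by
  unfold lgV
  rw [zt_smul ha]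

theorem psi_nonneg (q : ℝ) : 0 ≤ psi q := by
  unfold psi
  split_ifs
  · exact zero_le_one
  · have h := Real.sqrt_nonneg q
    have h2 : 0 ≤ arctan (√q) := by
      rw [← Real.arctan_zero]
      exact Real.arctan_strictMono.monotone h
    positivity

theorem norm_lgV (x : V) : ‖lgV x‖ = arctan ‖zt x‖ := by
  unfold lgV
  rw [norm_smul, Real.norm_of_nonneg (psi_nonneg _), psi_sq (norm_nonneg _)]

theorem norm_lgV_lt (x : V) : ‖lgV x‖ < π / 2 := by
  rw [norm_lgV]
  exact Real.arctan_lt_pi_div_two _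

theorem ex_zero_coord (w : E) : (ex w) 0 = (C (‖w‖ ^ 2) : ℂ) := by
  have h := inner_p (ex w)
  rw [← h]
  unfold ex
  rw [inner_add_right, rs, rs, inner_smul_right, inner_smul_right, inner_p_iota,
    inner_self_one norm_p]
  simp

theorem C_pos {w : E} (hw : ‖w‖ < π / 2) : 0 < C (‖w‖ ^ 2) := by
  rw [C_sq]
  exact Real.cos_pos_of_mem_Ioo ⟨by linarith [Real.pi_pos, norm_nonneg w], hw⟩

theorem pr_ex (w : E) : pr (ex w) = S (‖w‖ ^ 2) • w := by
  unfold ex
  rw [map_add, map_smul, map_smul, pr_p, pr_iota]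
  simp

theorem lgV_ex {w : E} (hw : ‖w‖ < π / 2) : lgV (ex w) = w := by
  have hC := C_pos hw
  have h1 : zt (ex w) = (S (‖w‖ ^ 2) / C (‖w‖ ^ 2)) • w := by
    unfold zt
    rw [ex_zero_coord, ← Complex.ofReal_inv, ← rs, map_smul, pr_ex, smul_smul]
    congr 1
    field_simp
  unfold lgV
  rw [h1]
  rcases eq_or_ne w 0 with rfl | hw0
  · simp
  · have hr : 0 < ‖w‖ := by positivity
    have hS : 0 < S (‖w‖ ^ 2) := by
      have h3 := S_sq ‖w‖
      have h4 : 0 < sin ‖w‖ := Real.sin_pos_of_pos_of_lt_pi hr (by linarith [Real.pi_pos])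
      rw [← h3] at h4
      exact (pos_iff_pos_of_mul_pos h4).1 hr
    have hq : 0 < S (‖w‖ ^ 2) / C (‖w‖ ^ 2) := by positivity
    have h2 : ‖(S (‖w‖ ^ 2) / C (‖w‖ ^ 2)) • w‖ = tan ‖w‖ := by
      rw [norm_smul, Real.norm_of_nonneg hq.le, Real.tan_eq_sin_div_cos, ← S_sq, ← C_sq]
      ring
    rw [h2, smul_smul]
    have ht : 0 ≤ tan ‖w‖ := by
      rw [← h2]
      positivity
    have h3 := psi_sq ht
    rw [Real.arctan_tan (by linarith [Real.pi_pos]) hw] at h3
    have h4 : psi (tan ‖w‖ ^ 2) * (S (‖w‖ ^ 2) / C (‖w‖ ^ 2)) = 1 := by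
      have h5 : tan ‖w‖ = S (‖w‖ ^ 2) / C (‖w‖ ^ 2) * ‖w‖ := by
        rw [Real.tan_eq_sin_div_cos, ← S_sq, ← C_sq]
        ring
      have h6 : (psi (tan ‖w‖ ^ 2) * (S (‖w‖ ^ 2) / C (‖w‖ ^ 2))) * ‖w‖ = 1 * ‖w‖ := by
        rw [one_mul, mul_assoc, ← h5, h3]
      exact mul_right_cancel₀ hr.ne' h6
    rw [h4, one_smul]

theorem ex_lgV {x : V} (h0 : x 0 ≠ 0) :
    ex (lgV x) = ((cos (arctan ‖zt x‖) : ℂ) * (x 0)⁻¹) • x := by
  have h1 : (x 0)⁻¹ • x = p + iota (zt x) := by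
    have h2 := decomp ((x 0)⁻¹ • x)
    have h3 : ((x 0)⁻¹ • x) 0 = 1 := by
      simp only [PiLp.smul_apply, smul_eq_mul]
      exact inv_mul_cancel₀ h0
    rw [h3, one_smul] at h2
    exact h2
  rw [mul_smul, h1]
  have h4 : ex (lgV x) = cos (arctan ‖zt x‖) • (p + iota (zt x)) := by
    unfold ex
    rw [norm_lgV, C_sq, smul_add]
    congr 1
    unfold lgV
    rw [map_smul, smul_smul]
    rcases eq_or_ne (zt x) 0 with hz | hz
    · rw [hz]
      simp
    · have hr : 0 < ‖zt x‖ := by positivity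
      congr 1
      have h5 := S_sq (arctan ‖zt x‖)
      have h6 := psi_sq (norm_nonneg (zt x))
      have h7 : sin (arctan ‖zt x‖) = ‖zt x‖ * cos (arctan ‖zt x‖) := by
        have h8 := Real.tan_arctan ‖zt x‖
        rw [Real.tan_eq_sin_div_cos, div_eq_iff (Real.cos_arctan_pos _).ne'] at h8
        exact h8
      have h9 : (S (arctan ‖zt x‖ ^ 2) * psi (‖zt x‖ ^ 2)) * ‖zt x‖ = cos (arctan ‖zt x‖) * ‖zt x‖ := by
        rw [mul_assoc, h6, mul_comm, h5, h7]
        ring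
      exact mul_right_cancel₀ hr.ne' h9
  rw [h4, rs]

theorem lgV_contDiffAt {x : V} (h0 : x 0 ≠ 0) : ContDiffAt ℝ ∞ lgV x := by
  have h1 : ContDiffAt ℝ ∞ (fun x : V => x 0) x := by
    have : (fun x : V => x 0) = fun x : V => inner ℂ p x := by
      funext x
      rw [inner_p]
    rw [this]
    exact (contDiffAt_const.inner ℂ contDiffAt_id)
  have h2 : ContDiffAt ℝ ∞ zt x := by
    unfold zt
    exact pr.contDiff.contDiffAt.comp x ((h1.inv h0).smul contDiffAt_id)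
  unfold lgV
  have h3 : ContDiffAt ℝ ∞ (fun x => ‖zt x‖ ^ 2) x := h2.norm_sq ℝ
  exact (psi_comp h3 (Eventually.of_forall fun y => by positivity)).smul h2

end Crest.Agent.R249.MCPd_48
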