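/-
Row 249, leaf (MS) (helper581), file 1: the round sphere, exponential map, metric in normal
coordinates, Jacobi solutions.
-/
import Crest.Agent.R208.GH0
import Mathlib.Geometry.Euclidean.Angle.Unoriented.TriangleInequality

set_option autoImplicit false
set_option maxSynthPendingDepth 3

open Filter Topology Set
open scoped ContDiff RealInnerProductSpace
open Crest.Agent.R208.GH

noncomputable section

namespace Crest.Agent.R249.MdlS_581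

/-! ### the scalar functions -/

/-- derivative of `Sn` -/
def Sd : ℝ → ℝ := deriv Sn

lemma contDiff_Sd : ContDiff ℝ ∞ Sd := by
  exact (contDiff_infty_iff_deriv.1 contDiff_Sn).2

lemma hasDerivAt_Sn (q : ℝ) : HasDerivAt Sn (Sd q) q :=
  ((contDiff_Sn.differentiable (by simp)) q).hasDerivAt

lemma hasDerivAt_Cs (q : ℝ) : HasDerivAt Cs (deriv Cs q) q :=
  ((contDiff_Cs.differentiable (by simp)) q).hasDerivAt

lemma two_mul_Sd_sq (s : ℝ) : 2 * s ^ 2 * Sd (s ^ 2) = Cs (s ^ 2) - Sn (s ^ 2) := by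
  have h2 : HasDerivAt (fun s : ℝ => s ^ 2) (2 * s) s := by
    simpa using hasDerivAt_pow 2 s
  have h3 : HasDerivAt (fun s : ℝ => Sn (s ^ 2)) (Sd (s ^ 2) * (2 * s)) s :=
    HasDerivAt.comp (h := fun s : ℝ => s ^ 2) s (hasDerivAt_Sn (s ^ 2)) h2
  have h4 : HasDerivAt (fun s : ℝ => s * Sn (s ^ 2)) (1 * Sn (s ^ 2) + s * (Sd (s ^ 2) * (2 * s))) s :=
    (hasDerivAt_id s).mul h3
  have h5 : HasDerivAt (fun s : ℝ => s * Sn (s ^ 2)) (Real.cos s) s := by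
    have : (fun s : ℝ => s * Sn (s ^ 2)) = Real.sin := by ext s; exact Sn_sq s
    rw [this]; exact Real.hasDerivAt_sin _
  have h6 := h4.unique h5
  rw [Cs_sq]
  linarith

lemma two_mul_Sd {q : ℝ} (h : 0 ≤ q) : 2 * q * Sd q = Cs q - Sn q := by
  have h1 := two_mul_Sd_sq (Real.sqrt q)
  rwa [Real.sq_sqrt h] at h1

/-! ### the model -/

variable (n : ℕ)

/-- tangent space at the base point -/
abbrev EE := EuclideanSpace ℝ (Fin n)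

/-- ambient space -/
abbrev VV := WithLp 2 (ℝ × EE n)

variable {n}

/-- base point -/
def pp : VV n := WithLp.toLp 2 (1, 0)

/-- the inclusion of the tangent space at `pp` -/
def io : EE n →L[ℝ] VV n :=
  ((WithLp.prodContinuousLinearEquiv 2 ℝ ℝ (EE n)).symm : (ℝ × EE n) →L[ℝ] VV n) ∘L
    (ContinuousLinearMap.inr ℝ ℝ (EE n))

/-- the projection to the tangent space at `pp` -/
def pr : VV n →L[ℝ] EE n :=
  (ContinuousLinearMap.snd ℝ ℝ (EE n)) ∘L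
    ((WithLp.prodContinuousLinearEquiv 2 ℝ ℝ (EE n)) : VV n →L[ℝ] (ℝ × EE n))

lemma io_apply (w : EE n) : io w = WithLp.toLp 2 ((0 : ℝ), w) := rfl

lemma pr_apply (x : VV n) : pr x = x.snd := rfl

attribute [-simp] WithLp.prod_inner_apply

@[simp] lemma inner_pp_pp : ⟪(pp : VV n), pp⟫ = 1 := by
  simp [pp]

@[simp] lemma norm_pp : ‖(pp : VV n)‖ = 1 := by
  have h := inner_pp_pp (n := n)
  rw [real_inner_self_eq_norm_sq] at h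
  nlinarith [norm_nonneg (pp : VV n)]

@[simp] lemma inner_pp_io (w : EE n) : ⟪(pp : VV n), io w⟫ = 0 := by
  simp [pp, io_apply, WithLp.prod_inner_apply]

@[simp] lemma inner_io_pp (w : EE n) : ⟪io w, (pp : VV n)⟫ = 0 := by
  rw [real_inner_comm]; simp

@[simp] lemma inner_io_io (v w : EE n) : ⟪io v, io w⟫ = ⟪v, w⟫ := by
  simp [io_apply, WithLp.prod_inner_apply]

@[simp] lemma pr_pp : pr (pp : VV n) = 0 := rfl

@[simp] lemma pr_io (w : EE n) : pr (io w) = w := rfl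

lemma dec (x : VV n) : x = ⟪pp, x⟫ • pp + io (pr x) := by
  apply (WithLp.ofLp_injective 2)
  apply Prod.ext <;> simp [pp, io_apply, pr_apply, WithLp.prod_inner_apply]

lemma inner_dec (x y : VV n) : ⟪x, y⟫ = ⟪pp, x⟫ * ⟪pp, y⟫ + ⟪pr x, pr y⟫ := by
  conv_lhs => rw [dec x, dec y]
  simp only [inner_add_left, inner_add_right, real_inner_smul_left, real_inner_smul_right,
    inner_pp_pp, inner_pp_io, inner_io_pp, inner_io_io]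
  ring

lemma finrank_VV : Module.finrank ℝ (VV n) = n + 1 := by
  rw [(WithLp.prodContinuousLinearEquiv 2 ℝ ℝ (EE n)).toLinearEquiv.finrank_eq]
  simp [Module.finrank_prod]
  omega

/-- the exponential map at `pp` -/
def ex (w : EE n) : VV n := Cs (‖w‖ ^ 2) • pp + Sn (‖w‖ ^ 2) • io w

@[simp] lemma ex_zero : ex (0 : EE n) = pp := by simp [ex, Cs_zero]

@[simp] lemma inner_pp_ex (w : EE n) : ⟪(pp : VV n), ex w⟫ = Real.cos ‖w‖ := by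
  simp [ex, inner_add_right, real_inner_smul_right, Cs_sq]

@[simp] lemma pr_ex (w : EE n) : pr (ex w) = Sn (‖w‖ ^ 2) • w := by
  simp [ex]

lemma inner_ex_ex (w : EE n) : ⟪ex w, ex w⟫ = 1 := by
  rw [inner_dec, inner_pp_ex, pr_ex, real_inner_smul_left, real_inner_smul_right,
    real_inner_self_eq_norm_sq, ← Cs_sq]
  have := Cs_sq_add (sq_nonneg ‖w‖)
  linarith

@[simp] lemma norm_ex (w : EE n) : ‖ex w‖ = 1 := by
  have h := inner_ex_ex w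
  rw [real_inner_self_eq_norm_sq] at h
  nlinarith [norm_nonneg (ex w)]

lemma contDiff_ex : ContDiff ℝ ∞ (ex : EE n → VV n) := by
  have h : ContDiff ℝ ∞ (fun w : EE n => ‖w‖ ^ 2) := contDiff_norm_sq ℝ
  exact ((contDiff_Cs.comp h).smul contDiff_const).add ((contDiff_Sn.comp h).smul io.contDiff)

/-- the derivative of `ex` -/
def LL (w : EE n) : EE n →L[ℝ] VV n :=
  (-(Sn (‖w‖ ^ 2))) • ((innerSL ℝ w).smulRight (pp : VV n)) +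
    ((2 * Sd (‖w‖ ^ 2)) • ((innerSL ℝ w).smulRight (io w)) + Sn (‖w‖ ^ 2) • io)

lemma LL_apply (w u : EE n) : LL w u = (-(Sn (‖w‖ ^ 2)) * ⟪w, u⟫) • pp +
    ((2 * Sd (‖w‖ ^ 2) * ⟪w, u⟫) • io w + Sn (‖w‖ ^ 2) • io u) := by
  simp [LL, smul_smul]

lemma two_inner_dCs (w u : EE n) :
    deriv Cs (‖w‖ ^ 2) * (2 * ⟪w, u⟫) = -(Sn (‖w‖ ^ 2)) * ⟪w, u⟫ := by
  rcases eq_or_ne w 0 with rfl | hw
  · simp
  · rw [deriv_Cs (by positivity)]; ring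

lemma hasFDerivAt_ex (w : EE n) : HasFDerivAt ex (LL w) w := by
  have h : HasFDerivAt (fun w : EE n => ‖w‖ ^ 2) ((2 : ℝ) • (innerSL ℝ w)) w := by
    have h0 := (hasStrictFDerivAt_norm_sq w).hasFDerivAt
    refine h0.congr_fderiv ?_
    ext u; simp [two_smul]
  have h1 : HasFDerivAt (fun w : EE n => Cs (‖w‖ ^ 2))
      ((deriv Cs (‖w‖ ^ 2)) • ((2 : ℝ) • (innerSL ℝ w))) w :=
    (hasDerivAt_Cs (‖w‖ ^ 2)).comp_hasFDerivAt w h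
  have h2 : HasFDerivAt (fun w : EE n => Sn (‖w‖ ^ 2))
      ((Sd (‖w‖ ^ 2)) • ((2 : ℝ) • (innerSL ℝ w))) w :=
    (hasDerivAt_Sn (‖w‖ ^ 2)).comp_hasFDerivAt w h
  have h3 := (h1.smul_const (pp : VV n)).add (h2.smul io.hasFDerivAt)
  refine h3.congr_fderiv ?_
  ext1 u
  rw [LL_apply]
  simp only [add_apply, ContinuousLinearMap.smulRight_apply,
    smul_apply, innerSL_apply_apply, smul_eq_mul]
  rw [two_inner_dCs]
  rw [show Sd (‖w‖ ^ 2) * (2 * ⟪w, u⟫) = 2 * Sd (‖w‖ ^ 2) * ⟪w, u⟫ by ring]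
  rw [add_comm (Sn (‖w‖ ^ 2) • io u)]

/-- the inner product as a bilinear form -/
def ip : EE n →L[ℝ] EE n →L[ℝ] ℝ := innerSL ℝ

@[simp] lemma ip_apply (u v : EE n) : ip u v = ⟪u, v⟫ := rfl

/-- the metric in normal coordinates -/
def g0 (w : EE n) : EE n →L[ℝ] EE n →L[ℝ] ℝ :=
  (Sn (‖w‖ ^ 2)) ^ 2 • ip +
    ((Sn (‖w‖ ^ 2)) ^ 2 + 4 * Sn (‖w‖ ^ 2) * Sd (‖w‖ ^ 2) + 4 * Sd (‖w‖ ^ 2) ^ 2 * ‖w‖ ^ 2) •
      ((ip w).smulRight (ip w))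

lemma g0_apply (w u v : EE n) : g0 w u v = (Sn (‖w‖ ^ 2)) ^ 2 * ⟪u, v⟫ +
    ((Sn (‖w‖ ^ 2)) ^ 2 + 4 * Sn (‖w‖ ^ 2) * Sd (‖w‖ ^ 2) + 4 * Sd (‖w‖ ^ 2) ^ 2 * ‖w‖ ^ 2) *
      (⟪w, u⟫ * ⟪w, v⟫) := by
  simp [g0]

lemma g0_eq_LL (w u v : EE n) : g0 w u v = ⟪LL w u, LL w v⟫ := by
  rw [g0_apply, LL_apply, LL_apply]
  simp only [inner_add_left, inner_add_right, real_inner_smul_left, real_inner_smul_right,
    inner_pp_pp, inner_pp_io, inner_io_pp, inner_io_io]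
  rw [real_inner_self_eq_norm_sq, real_inner_comm w u]
  ring

lemma K_eq (w : EE n) : ((Sn (‖w‖ ^ 2)) ^ 2 + 4 * Sn (‖w‖ ^ 2) * Sd (‖w‖ ^ 2) +
    4 * Sd (‖w‖ ^ 2) ^ 2 * ‖w‖ ^ 2) * ‖w‖ ^ 2 = 1 - (Sn (‖w‖ ^ 2)) ^ 2 := by
  have h := two_mul_Sd (sq_nonneg ‖w‖)
  have h2 := Cs_sq_add (sq_nonneg ‖w‖)
  set q := ‖w‖ ^ 2
  have h3 : (2 * q * Sd q) ^ 2 = (Cs q - Sn q) ^ 2 := by rw [h]
  have h4 : Sn q * (2 * q * Sd q) = Sn q * (Cs q - Sn q) := by rw [h]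
  nlinarith

lemma g0_symm (w u v : EE n) : g0 w u v = g0 w v u := by
  rw [g0_apply, g0_apply, real_inner_comm]; ring

lemma Sn_pos_of {w : EE n} (hw : ‖w‖ < Real.pi) : 0 < Sn (‖w‖ ^ 2) := by
  apply Sn_pos (sq_nonneg _)
  have := norm_nonneg w
  nlinarith

lemma g0_pos {w : EE n} (hw : ‖w‖ < Real.pi) (u : EE n) (hu : u ≠ 0) : 0 < g0 w u u := by
  have hS := Sn_pos_of hw
  rcases eq_or_ne w 0 with rfl | h0
  · rw [g0_apply]; simp only [inner_zero_left, mul_zero, add_zero]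
    rw [real_inner_self_eq_norm_sq]
    have : 0 < ‖u‖ := norm_pos_iff.2 hu
    positivity
  · have hq : 0 < ‖w‖ ^ 2 := by have := norm_pos_iff.2 h0; positivity
    have hK := K_eq w
    rw [g0_apply]
    set K := ((Sn (‖w‖ ^ 2)) ^ 2 + 4 * Sn (‖w‖ ^ 2) * Sd (‖w‖ ^ 2) +
      4 * Sd (‖w‖ ^ 2) ^ 2 * ‖w‖ ^ 2)
    have hC : ⟪w, u⟫ * ⟪w, u⟫ ≤ ⟪w, w⟫ * ⟪u, u⟫ := real_inner_mul_inner_self_le w u
    rw [real_inner_self_eq_norm_sq, real_inner_self_eq_norm_sq] at hC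
    have hu' : 0 < ‖u‖ ^ 2 := by have := norm_pos_iff.2 hu; positivity
    rw [real_inner_self_eq_norm_sq]
    have h1 : 0 < ‖w‖ ^ 2 * (Sn (‖w‖ ^ 2) ^ 2 * ‖u‖ ^ 2 + K * (⟪w, u⟫ * ⟪w, u⟫)) := by
      have h2 : ‖w‖ ^ 2 * (Sn (‖w‖ ^ 2) ^ 2 * ‖u‖ ^ 2 + K * (⟪w, u⟫ * ⟪w, u⟫)) =
        Sn (‖w‖ ^ 2) ^ 2 * (‖w‖ ^ 2 * ‖u‖ ^ 2 - ⟪w, u⟫ * ⟪w, u⟫) + ⟪w, u⟫ * ⟪w, u⟫ := by
        linear_combination (⟪w, u⟫ * ⟪w, u⟫) * hK
      rw [h2]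
      rcases eq_or_ne ⟪w, u⟫ 0 with h3 | h3
      · rw [h3]; simp; positivity
      · have h4 : 0 < ⟪w, u⟫ * ⟪w, u⟫ := by
          rcases lt_or_gt_of_ne h3 with h | h <;> nlinarith
        have h5 : 0 ≤ Sn (‖w‖ ^ 2) ^ 2 * (‖w‖ ^ 2 * ‖u‖ ^ 2 - ⟪w, u⟫ * ⟪w, u⟫) :=
          mul_nonneg (sq_nonneg _) (by linarith)
        linarith
    exact (mul_pos_iff_of_pos_left hq).1 h1

lemma contDiff_g0 : ContDiff ℝ ∞ (g0 : EE n → _) := by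
  have h : ContDiff ℝ ∞ (fun w : EE n => ‖w‖ ^ 2) := contDiff_norm_sq ℝ
  have hS : ContDiff ℝ ∞ (fun w : EE n => Sn (‖w‖ ^ 2)) := contDiff_Sn.comp h
  have hD : ContDiff ℝ ∞ (fun w : EE n => Sd (‖w‖ ^ 2)) := contDiff_Sd.comp h
  have hI : ContDiff ℝ ∞ (fun w : EE n => ip w) :=
    (ip : EE n →L[ℝ] EE n →L[ℝ] ℝ).contDiff
  have h1 : ContDiff ℝ ∞ (fun w : EE n => (Sn (‖w‖ ^ 2)) ^ 2 • (ip : EE n →L[ℝ] EE n →L[ℝ] ℝ)) :=
    (hS.pow 2).smul contDiff_const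
  have h2 : ContDiff ℝ ∞ (fun w : EE n => (Sn (‖w‖ ^ 2)) ^ 2 + 4 * Sn (‖w‖ ^ 2) * Sd (‖w‖ ^ 2) +
      4 * Sd (‖w‖ ^ 2) ^ 2 * ‖w‖ ^ 2) :=
    ((hS.pow 2).add ((contDiff_const.mul hS).mul hD)).add ((contDiff_const.mul (hD.pow 2)).mul h)
  have h3 : ContDiff ℝ ∞ (fun w : EE n => ((ip w).smulRight (ip w) : EE n →L[ℝ] EE n →L[ℝ] ℝ)) :=
    hI.smulRight hI
  exact h1.add (h2.smul h3)

/-! ### Jacobi solutions -/

/-- curvature of the unit sphere -/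
def R0 (u v w : EE n) : EE n := ⟪v, w⟫ • u - ⟪u, w⟫ • v

/-- Jacobi field -/
def Jf (v u : EE n) (t : ℝ) : EE n :=
  (t * Sn (t ^ 2 * ‖v‖ ^ 2)) • u + ((t - t * Sn (t ^ 2 * ‖v‖ ^ 2)) * (‖v‖ ^ 2)⁻¹ * ⟪v, u⟫) • v

/-- its derivative -/
def Jf' (v u : EE n) (t : ℝ) : EE n :=
  (Cs (t ^ 2 * ‖v‖ ^ 2)) • u + ((1 - Cs (t ^ 2 * ‖v‖ ^ 2)) * (‖v‖ ^ 2)⁻¹ * ⟪v, u⟫) • v

lemma Jf_zero (v u : EE n) : Jf v u 0 = 0 := by simp [Jf]

lemma Jf'_zero (v u : EE n) : Jf' v u 0 = u := by simp [Jf', Cs_zero]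

lemma hasDerivAt_tSn {q : ℝ} (hq : 0 ≤ q) (t : ℝ) :
    HasDerivAt (fun t : ℝ => t * Sn (t ^ 2 * q)) (Cs (t ^ 2 * q)) t := by
  have h2 : HasDerivAt (fun s : ℝ => s ^ 2 * q) (2 * t * q) t := by
    simpa using (hasDerivAt_pow 2 t).mul_const q
  have h3 : HasDerivAt (fun s : ℝ => Sn (s ^ 2 * q)) (Sd (t ^ 2 * q) * (2 * t * q)) t :=
    HasDerivAt.comp (h := fun s : ℝ => s ^ 2 * q) t (hasDerivAt_Sn (t ^ 2 * q)) h2
  have h4 : HasDerivAt (fun s : ℝ => s * Sn (s ^ 2 * q))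
      (1 * Sn (t ^ 2 * q) + t * (Sd (t ^ 2 * q) * (2 * t * q))) t := (hasDerivAt_id t).mul h3
  convert h4 using 1
  have := two_mul_Sd (show 0 ≤ t ^ 2 * q by positivity)
  linarith

lemma hasDerivAt_tCs {q : ℝ} (hq : 0 ≤ q) (t : ℝ) :
    HasDerivAt (fun t : ℝ => Cs (t ^ 2 * q)) (-(q * (t * Sn (t ^ 2 * q)))) t := by
  have h2 : HasDerivAt (fun s : ℝ => s ^ 2 * q) (2 * t * q) t := by
    simpa using (hasDerivAt_pow 2 t).mul_const q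
  have h3 : HasDerivAt (fun s : ℝ => Cs (s ^ 2 * q)) (deriv Cs (t ^ 2 * q) * (2 * t * q)) t :=
    HasDerivAt.comp (h := fun s : ℝ => s ^ 2 * q) t (hasDerivAt_Cs (t ^ 2 * q)) h2
  convert h3 using 1
  rcases eq_or_ne t 0 with rfl | ht
  · simp
  rcases hq.eq_or_lt with h | h
  · rw [← h]; simp
  · rw [deriv_Cs (by positivity)]; ring

lemma hasDerivAt_Jf (v u : EE n) (t : ℝ) : HasDerivAt (Jf v u) (Jf' v u t) t := by
  have h := hasDerivAt_tSn (sq_nonneg ‖v‖) t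
  have h2 : HasDerivAt (fun t : ℝ => (t - t * Sn (t ^ 2 * ‖v‖ ^ 2)) * (‖v‖ ^ 2)⁻¹ * ⟪v, u⟫)
      ((1 - Cs (t ^ 2 * ‖v‖ ^ 2)) * (‖v‖ ^ 2)⁻¹ * ⟪v, u⟫) t :=
    (((hasDerivAt_id t).sub h).mul_const _).mul_const _
  exact (h.smul_const u).add (h2.smul_const v)

lemma hasDerivAt_Jf' (v u : EE n) (t : ℝ) : HasDerivAt (Jf' v u) (-R0 (Jf v u t) v v) t := by
  have h := hasDerivAt_tCs (sq_nonneg ‖v‖) t
  have h2 : HasDerivAt (fun t : ℝ => (1 - Cs (t ^ 2 * ‖v‖ ^ 2)) * (‖v‖ ^ 2)⁻¹ * ⟪v, u⟫)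
      ((0 - -(‖v‖ ^ 2 * (t * Sn (t ^ 2 * ‖v‖ ^ 2)))) * (‖v‖ ^ 2)⁻¹ * ⟪v, u⟫) t :=
    (((hasDerivAt_const t (1 : ℝ)).sub h).mul_const _).mul_const _
  have h3 := (h.smul_const u).add (h2.smul_const v)
  refine h3.congr_deriv ?_
  rcases eq_or_ne v 0 with rfl | hv
  · simp [R0]
  have hq : ‖v‖ ^ 2 ≠ 0 := by have := norm_pos_iff.2 hv; positivity
  have hi : ⟪Jf v u t, v⟫ = t * ⟪v, u⟫ := by
    rw [Jf, inner_add_left, real_inner_smul_left, real_inner_smul_left,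
      real_inner_self_eq_norm_sq, real_inner_comm]
    field_simp
    ring
  rw [R0, hi, real_inner_self_eq_norm_sq, Jf]
  rw [show (0 - -(‖v‖ ^ 2 * (t * Sn (t ^ 2 * ‖v‖ ^ 2)))) * (‖v‖ ^ 2)⁻¹ * ⟪v, u⟫ =
    t * Sn (t ^ 2 * ‖v‖ ^ 2) * ⟪v, u⟫ by field_simp; ring]
  have e1 : ‖v‖ ^ 2 * ((t - t * Sn (t ^ 2 * ‖v‖ ^ 2)) * (‖v‖ ^ 2)⁻¹ * ⟪v, u⟫) =
    (t - t * Sn (t ^ 2 * ‖v‖ ^ 2)) * ⟪v, u⟫ := by field_simp
  rw [smul_add, smul_smul, smul_smul, e1]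
  module

lemma Jf_one (v u u' : EE n) : g0 v u u' = ⟪Jf v u 1, Jf v u' 1⟫ := by
  have hK := K_eq v
  rw [g0_apply]
  set K := ((Sn (‖v‖ ^ 2)) ^ 2 + 4 * Sn (‖v‖ ^ 2) * Sd (‖v‖ ^ 2) +
      4 * Sd (‖v‖ ^ 2) ^ 2 * ‖v‖ ^ 2)
  rcases eq_or_ne v 0 with rfl | hv
  · simp only [Jf, inner_zero_left, mul_zero, add_zero, one_mul, one_pow, smul_zero,
      real_inner_smul_left, real_inner_smul_right]
    ring
  have hq : ‖v‖ ^ 2 ≠ 0 := by have := norm_pos_iff.2 hv; positivity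
  have hK' : K = (1 - (Sn (‖v‖ ^ 2)) ^ 2) * (‖v‖ ^ 2)⁻¹ := by
    field_simp
    linarith
  rw [hK', Jf, Jf]
  simp only [one_mul, one_pow, inner_add_left, inner_add_right, real_inner_smul_left,
    real_inner_smul_right, real_inner_self_eq_norm_sq]
  rw [real_inner_comm v u]
  field_simp
  ring

end Crest.Agent.R249.MdlS_581
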