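import Mathlib

/-!
# R249 (helper285): all template instances from a smooth manifold with a smooth metric

`Geo n` : a connected, regular Hausdorff smooth `n`-manifold (lowest universe) with a smooth
Riemannian metric; `G.S` is the same space with the path distance and ALL the instances of the
templates of row 249 (`MetricSpace`, `ChartedSpace`, `IsManifold`, `RiemannianBundle`,
`IsContMDiffRiemannianBundle`, `IsRiemannianManifold`, `ConnectedSpace`).
-/

set_option autoImplicit false
set_option linter.style.haveILetI false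

open Set Bundle
open scoped ContDiff Manifold Topology ENNReal

noncomputable section

namespace Crest.Agent.R249.Mk_285

/-- a connected Hausdorff regular smooth manifold with a smooth metric. -/
structure Geo (n : ℕ) where
  X : Type
  top : TopologicalSpace X
  t3 : T3Space X
  conn : ConnectedSpace X
  chs : ChartedSpace (EuclideanSpace ℝ (Fin n)) X
  mfd : IsManifold 𝓘(ℝ, EuclideanSpace ℝ (Fin n)) ∞ X
  g : ContMDiffRiemannianMetric 𝓘(ℝ, EuclideanSpace ℝ (Fin n)) ∞ (EuclideanSpace ℝ (Fin n))
    (fun x : X => TangentSpace 𝓘(ℝ, EuclideanSpace ℝ (Fin n)) x)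

attribute [local instance] Geo.top Geo.t3 Geo.conn Geo.chs Geo.mfd

variable {n : ℕ}

/-- the space of `G`, without instances. -/
def Geo.S (G : Geo n) : Type := G.X

namespace Geo

variable (G : Geo n)

@[reducible] def tp : TopologicalSpace G.S := G.top

@[reducible] def ch : letI := G.tp; ChartedSpace (EuclideanSpace ℝ (Fin n)) G.S := G.chs

theorem mf : letI := G.tp; letI := G.ch;
    IsManifold 𝓘(ℝ, EuclideanSpace ℝ (Fin n)) ∞ G.S := G.mfd

theorem t3' : letI := G.tp; T3Space G.S := G.t3

theorem cn : letI := G.tp; ConnectedSpace G.S := G.conn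

@[reducible] def rb : letI := G.tp; letI := G.ch;
    RiemannianBundle (fun p : G.S => TangentSpace 𝓘(ℝ, EuclideanSpace ℝ (Fin n)) p) :=
  letI := G.tp; letI := G.ch; ⟨G.g.toRiemannianMetric⟩

theorem crb : letI := G.tp; letI := G.ch; letI := G.mf; letI := G.rb;
    IsContMDiffRiemannianBundle 𝓘(ℝ, EuclideanSpace ℝ (Fin n)) ∞ (EuclideanSpace ℝ (Fin n))
    (fun p : G.S => TangentSpace 𝓘(ℝ, EuclideanSpace ℝ (Fin n)) p) :=
  letI := G.tp; letI := G.ch; letI := G.mf; letI := G.rb;
  ⟨G.g.inner, G.g.contMDiff, fun _ _ _ => rfl⟩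

theorem cob : letI := G.tp; letI := G.ch; letI := G.mf; letI := G.rb;
    IsContinuousRiemannianBundle (EuclideanSpace ℝ (Fin n))
    (fun p : G.S => TangentSpace 𝓘(ℝ, EuclideanSpace ℝ (Fin n)) p) :=
  letI := G.tp; letI := G.ch; letI := G.mf; letI := G.rb;
  ⟨G.g.inner, G.g.contMDiff.continuous, fun _ _ _ => rfl⟩

/-- the Riemannian distance, extended version, with the given topology -/
@[reducible] def ems : EMetricSpace G.S :=
  letI := G.tp; letI := G.ch; letI := G.mf; letI := G.rb; letI := G.crb; letI := G.t3'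
  letI := G.cob
  EMetricSpace.ofRiemannianMetric 𝓘(ℝ, EuclideanSpace ℝ (Fin n)) G.S

/-- the Riemannian distance is finite -/
theorem edist_ne_top' (x y : G.S) : (G.ems).edist x y ≠ ⊤ := by
  letI := G.ems
  letI := G.cn
  have h1 : IsOpen {z : G.S | edist x z < ⊤} := by
    rw [isOpen_iff_mem_nhds]
    intro z hz
    refine Filter.mem_of_superset (Metric.eball_mem_nhds z (ε := 1) one_pos) ?_
    intro w hw
    have hw' : edist w z < 1 := hw
    have h2 : edist x w ≤ edist x z + edist z w := edist_triangle _ _ _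
    refine lt_of_le_of_lt h2 (ENNReal.add_lt_top.2 ⟨hz, ?_⟩)
    rw [edist_comm]
    exact hw'.trans ENNReal.one_lt_top
  have h2 : IsClosed {z : G.S | edist x z < ⊤} := by
    rw [← isOpen_compl_iff, isOpen_iff_mem_nhds]
    intro z hz
    refine Filter.mem_of_superset (Metric.eball_mem_nhds z (ε := 1) one_pos) ?_
    intro w hw hw2
    have hw' : edist w z < 1 := hw
    have hw3 : edist x w < ⊤ := hw2
    have h3 : edist x z ≤ edist x w + edist w z := edist_triangle _ _ _
    exact hz (lt_of_le_of_lt h3 (ENNReal.add_lt_top.2 ⟨hw3, hw'.trans ENNReal.one_lt_top⟩))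
  have h3 : {z : G.S | edist x z < ⊤} = univ :=
    IsClopen.eq_univ ⟨h2, h1⟩ ⟨x, by simp⟩
  have h4 : y ∈ {z : G.S | edist x z < ⊤} := h3 ▸ mem_univ y
  exact ne_of_lt h4

/-- the Riemannian distance; its topology is the given one. -/
instance instMS : MetricSpace G.S :=
  letI := G.ems
  EMetricSpace.toMetricSpace (G.edist_ne_top')

instance instCh : ChartedSpace (EuclideanSpace ℝ (Fin n)) G.S := G.ch

instance instMfd : IsManifold 𝓘(ℝ, EuclideanSpace ℝ (Fin n)) ∞ G.S := G.mf

instance instConn : ConnectedSpace G.S := G.cn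

instance instRB :
    RiemannianBundle (fun p : G.S => TangentSpace 𝓘(ℝ, EuclideanSpace ℝ (Fin n)) p) := G.rb

instance instCRB :
    IsContMDiffRiemannianBundle 𝓘(ℝ, EuclideanSpace ℝ (Fin n)) ∞ (EuclideanSpace ℝ (Fin n))
    (fun p : G.S => TangentSpace 𝓘(ℝ, EuclideanSpace ℝ (Fin n)) p) := G.crb

instance instRM : IsRiemannianManifold 𝓘(ℝ, EuclideanSpace ℝ (Fin n)) G.S := ⟨fun _ _ => rfl⟩

/-- compactness is inherited. -/
theorem compactSpace (h : letI := G.top; CompactSpace G.X) : CompactSpace G.S := by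
  letI := G.tp
  exact (h : CompactSpace G.S)

theorem inner_eq (p : G.S) (v w : TangentSpace 𝓘(ℝ, EuclideanSpace ℝ (Fin n)) p) :
    inner ℝ v w = G.g.inner p v w := rfl

end Geo

end Crest.Agent.R249.Mk_285
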