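/-
Row 249, part B2 (helper662): the entire functions `CC`, `SS` with `CC (c^2) = cos c`,
`SS (c^2) = sinc c`, and the exponential map `ee p ι w = cos |w| p + sinc |w| ι w` of a round
sphere (any real inner product space), its derivative, the metric in normal coordinates and the
Jacobi fields.
-/
import Mathlib

set_option autoImplicit false

open Real Set Filter Topology
open scoped ContDiff Nat InnerProductSpace

noncomputable section

namespace Crest.Agent.R249.TrigS_662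

/-! ### the functions -/

def cC (k : ℕ) : ℝ := (-1) ^ k / (2 * k)!
def cS (k : ℕ) : ℝ := (-1) ^ k / (2 * k + 1)!

/-- `CC s = ∑ (-1)^k s^k / (2k)!` -/
def CC (s : ℝ) : ℝ := FormalMultilinearSeries.ofScalarsSum (E := ℝ) cC s
/-- `SS s = ∑ (-1)^k s^k / (2k+1)!` -/
def SS (s : ℝ) : ℝ := FormalMultilinearSeries.ofScalarsSum (E := ℝ) cS s

theorem CC_sq (c : ℝ) : CC (c ^ 2) = cos c := by
  unfold CC
  rw [FormalMultilinearSeries.ofScalars_sum_eq]
  have h := (Real.hasSum_cos c).tsum_eq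
  rw [← h]
  refine tsum_congr fun k => ?_
  simp only [cC, smul_eq_mul]
  rw [← pow_mul]
  ring

theorem SS_sq (c : ℝ) : SS (c ^ 2) = sinc c := by
  unfold SS
  rw [FormalMultilinearSeries.ofScalars_sum_eq]
  by_cases hc : c = 0
  · subst hc
    rw [Real.sinc_zero, tsum_eq_single 0]
    · simp [cS]
    · intro k hk
      simp [hk]
  · rw [Real.sinc_of_ne_zero hc]
    have h := (Real.hasSum_sin c).tsum_eq
    rw [← h, ← tsum_div_const]
    refine tsum_congr fun k => ?_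
    simp only [cS, smul_eq_mul]
    rw [← pow_mul, pow_succ]
    field_simp

theorem cC_ne (k : ℕ) : cC k ≠ 0 := by
  unfold cC
  have : ((2 * k)! : ℝ) ≠ 0 := by positivity
  exact div_ne_zero (pow_ne_zero _ (by norm_num)) this

theorem cS_ne (k : ℕ) : cS k ≠ 0 := by
  unfold cS
  have : ((2 * k + 1)! : ℝ) ≠ 0 := by positivity
  exact div_ne_zero (pow_ne_zero _ (by norm_num)) this

theorem radC : (FormalMultilinearSeries.ofScalars ℝ cC).radius = ⊤ := by
  apply FormalMultilinearSeries.ofScalars_radius_eq_top_of_tendsto ℝ _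
    (Eventually.of_forall cC_ne)
  have h : ∀ k : ℕ, ‖cC k.succ‖ / ‖cC k‖ = 1 / ((2 * k + 1) * (2 * k + 2)) := by
    intro k
    unfold cC
    rw [norm_div, norm_div, norm_pow, norm_pow, norm_neg, norm_one, one_pow, one_pow]
    rw [show 2 * k.succ = 2 * k + 1 + 1 by omega, Nat.factorial_succ, Nat.factorial_succ]
    push_cast
    rw [Real.norm_of_nonneg (by positivity), Real.norm_of_nonneg (by positivity)]
    have : ((2 * k)! : ℝ) ≠ 0 := by positivity
    field_simp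
    ring
  simp only [h]
  have h2 : Tendsto (fun k : ℕ => 1 / ((k : ℝ) + 1)) atTop (𝓝 0) :=
    tendsto_one_div_add_atTop_nhds_zero_nat
  refine squeeze_zero (fun k => by positivity) (fun k => ?_) h2
  apply one_div_le_one_div_of_le (by positivity)
  have hk : (0 : ℝ) ≤ k := Nat.cast_nonneg k
  nlinarith

theorem radS : (FormalMultilinearSeries.ofScalars ℝ cS).radius = ⊤ := by
  apply FormalMultilinearSeries.ofScalars_radius_eq_top_of_tendsto ℝ _
    (Eventually.of_forall cS_ne)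
  have h : ∀ k : ℕ, ‖cS k.succ‖ / ‖cS k‖ = 1 / ((2 * k + 2) * (2 * k + 3)) := by
    intro k
    unfold cS
    rw [norm_div, norm_div, norm_pow, norm_pow, norm_neg, norm_one, one_pow, one_pow]
    rw [show 2 * k.succ + 1 = 2 * k + 1 + 1 + 1 by omega, Nat.factorial_succ (2 * k + 1 + 1),
      Nat.factorial_succ (2 * k + 1)]
    push_cast
    rw [Real.norm_of_nonneg (by positivity), Real.norm_of_nonneg (by positivity)]
    have : ((2 * k + 1)! : ℝ) ≠ 0 := by positivity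
    field_simp
    ring
  simp only [h]
  have h2 : Tendsto (fun k : ℕ => 1 / ((k : ℝ) + 1)) atTop (𝓝 0) :=
    tendsto_one_div_add_atTop_nhds_zero_nat
  refine squeeze_zero (fun k => by positivity) (fun k => ?_) h2
  apply one_div_le_one_div_of_le (by positivity)
  have hk : (0 : ℝ) ≤ k := Nat.cast_nonneg k
  nlinarith

theorem contDiff_CC : ContDiff ℝ ∞ CC := by
  have h : HasFPowerSeriesOnBall (FormalMultilinearSeries.ofScalars ℝ cC).sum
      (FormalMultilinearSeries.ofScalars ℝ cC) 0 (FormalMultilinearSeries.ofScalars ℝ cC).radius :=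
    (FormalMultilinearSeries.ofScalars ℝ cC).hasFPowerSeriesOnBall (by rw [radC]; simp)
  rw [contDiff_iff_contDiffAt]
  intro s
  have h2 : AnalyticAt ℝ (FormalMultilinearSeries.ofScalars ℝ cC).sum s :=
    h.analyticAt_of_mem (by rw [radC]; simp)
  exact h2.contDiffAt

theorem contDiff_SS : ContDiff ℝ ∞ SS := by
  have h : HasFPowerSeriesOnBall (FormalMultilinearSeries.ofScalars ℝ cS).sum
      (FormalMultilinearSeries.ofScalars ℝ cS) 0 (FormalMultilinearSeries.ofScalars ℝ cS).radius :=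
    (FormalMultilinearSeries.ofScalars ℝ cS).hasFPowerSeriesOnBall (by rw [radS]; simp)
  rw [contDiff_iff_contDiffAt]
  intro s
  have h2 : AnalyticAt ℝ (FormalMultilinearSeries.ofScalars ℝ cS).sum s :=
    h.analyticAt_of_mem (by rw [radS]; simp)
  exact h2.contDiffAt

theorem CC_sq_add {s : ℝ} (hs : 0 ≤ s) : CC s ^ 2 + s * SS s ^ 2 = 1 := by
  obtain ⟨c, rfl⟩ : ∃ c : ℝ, s = c ^ 2 := ⟨√s, (Real.sq_sqrt hs).symm⟩
  rw [CC_sq, SS_sq]
  by_cases hc : c = 0
  · subst hc; simp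
  · rw [Real.sinc_of_ne_zero hc]
    have := Real.sin_sq_add_cos_sq c
    field_simp
    linarith

theorem SS_zero : SS 0 = 1 := by
  have := SS_sq 0
  simpa using this

theorem CC_zero : CC 0 = 1 := by
  have := CC_sq 0
  simpa using this

theorem deriv_CC {s : ℝ} (hs : 0 < s) : deriv CC s = -(SS s) / 2 := by
  set c := √s with hc
  have hc0 : 0 < c := Real.sqrt_pos.2 hs
  have hcs : c ^ 2 = s := Real.sq_sqrt hs.le
  have h1 : HasDerivAt CC (deriv CC s) (c ^ 2) := by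
    rw [hcs]
    exact ((contDiff_CC.differentiable (by simp)) s).hasDerivAt
  have h2 : HasDerivAt (fun x : ℝ => x ^ 2) (2 * c) c := by
    simpa using hasDerivAt_pow 2 c
  have h3 : HasDerivAt (fun x : ℝ => CC (x ^ 2)) (deriv CC s * (2 * c)) c :=
    HasDerivAt.comp (h := fun x : ℝ => x ^ 2) c h1 h2
  have h4 : HasDerivAt (fun x : ℝ => CC (x ^ 2)) (-sin c) c := by
    simp only [CC_sq]
    exact Real.hasDerivAt_cos c
  have h5 := h3.unique h4
  rw [← hcs, SS_sq, Real.sinc_of_ne_zero hc0.ne', hcs]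
  field_simp
  linarith

theorem deriv_SS {s : ℝ} (hs : 0 < s) : deriv SS s = (CC s - SS s) / (2 * s) := by
  set c := √s with hc
  have hc0 : 0 < c := Real.sqrt_pos.2 hs
  have hcs : c ^ 2 = s := Real.sq_sqrt hs.le
  have h1 : HasDerivAt SS (deriv SS s) (c ^ 2) := by
    rw [hcs]
    exact ((contDiff_SS.differentiable (by simp)) s).hasDerivAt
  have h2 : HasDerivAt (fun x : ℝ => x ^ 2) (2 * c) c := by
    simpa using hasDerivAt_pow 2 c
  have h3 : HasDerivAt (fun x : ℝ => x * SS (x ^ 2)) (1 * SS (c ^ 2) + c * (deriv SS s * (2 * c))) c :=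
    (hasDerivAt_id c).mul (HasDerivAt.comp (h := fun x : ℝ => x ^ 2) c h1 h2)
  have h4 : HasDerivAt (fun x : ℝ => x * SS (x ^ 2)) (cos c) c := by
    have : (fun x : ℝ => x * SS (x ^ 2)) = sin := by
      funext x
      rw [SS_sq]
      by_cases hx : x = 0
      · subst hx; simp
      · rw [Real.sinc_of_ne_zero hx]; field_simp
    rw [this]
    exact Real.hasDerivAt_sin c
  have h5 := h3.unique h4
  rw [hcs] at h5
  have h6 : CC s = cos c := by rw [← hcs, CC_sq]
  rw [h6, ← h5, ← hcs]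
  field_simp
  ring

/-! ### the exponential map of a round sphere -/

variable {E V : Type*} [NormedAddCommGroup E] [InnerProductSpace ℝ E]
  [NormedAddCommGroup V] [InnerProductSpace ℝ V]

/-- `cos |w| p + sinc |w| ι w` -/
def ee (p : V) (ι : E →ₗᵢ[ℝ] V) (w : E) : V := CC (‖w‖ ^ 2) • p + SS (‖w‖ ^ 2) • ι w

variable (p : V) (ι : E →ₗᵢ[ℝ] V)

theorem ee_eq (w : E) : ee p ι w = cos ‖w‖ • p + sinc ‖w‖ • ι w := by
  rw [ee, CC_sq, SS_sq]

theorem ee_zero : ee p ι 0 = p := by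
  rw [ee_eq]; simp

theorem contDiff_ee : ContDiff ℝ ∞ (ee p ι) := by
  have h1 : ContDiff ℝ ∞ (fun w : E => ‖w‖ ^ 2) := contDiff_norm_sq ℝ
  have h2 : ContDiff ℝ ∞ (fun w : E => ι w) := ι.toContinuousLinearMap.contDiff
  exact ((contDiff_CC.comp h1).smul contDiff_const).add ((contDiff_SS.comp h1).smul h2)

theorem hasFDerivAt_normsq (w : E) :
    HasFDerivAt (fun w : E => ‖w‖ ^ 2) ((2 : ℝ) • innerSL ℝ w) w := by
  have := (hasStrictFDerivAt_norm_sq w).hasFDerivAt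
  convert this using 1
  ext u
  simp [two_smul]

theorem fderiv_ee (w u : E) : fderiv ℝ (ee p ι) w u =
    (2 * ⟪w, u⟫_ℝ * deriv CC (‖w‖ ^ 2)) • p +
      ((2 * ⟪w, u⟫_ℝ * deriv SS (‖w‖ ^ 2)) • ι w + SS (‖w‖ ^ 2) • ι u) := by
  have h1 := hasFDerivAt_normsq w
  have hC : HasDerivAt CC (deriv CC (‖w‖ ^ 2)) (‖w‖ ^ 2) :=
    ((contDiff_CC.differentiable (by simp)) _).hasDerivAt
  have hS : HasDerivAt SS (deriv SS (‖w‖ ^ 2)) (‖w‖ ^ 2) :=
    ((contDiff_SS.differentiable (by simp)) _).hasDerivAt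
  have h2 : HasFDerivAt (fun w : E => CC (‖w‖ ^ 2)) (deriv CC (‖w‖ ^ 2) • ((2 : ℝ) • innerSL ℝ w)) w :=
    hC.comp_hasFDerivAt w h1
  have h3 : HasFDerivAt (fun w : E => SS (‖w‖ ^ 2)) (deriv SS (‖w‖ ^ 2) • ((2 : ℝ) • innerSL ℝ w)) w :=
    hS.comp_hasFDerivAt w h1
  have h4 : HasFDerivAt (fun w : E => ι w) ι.toContinuousLinearMap w :=
    ι.toContinuousLinearMap.hasFDerivAt
  have h5 := (h2.smul_const p).add (h3.smul h4)
  have h6 : HasFDerivAt (ee p ι) _ w := h5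
  rw [h6.fderiv]
  simp [ContinuousLinearMap.smulRight_apply, smul_smul]
  module

section metric

variable {p ι}
variable (hp : ‖p‖ = 1) (hι : ∀ w, ⟪p, ι w⟫_ℝ = 0)

include hp hι in
theorem inner_p_ee (w : E) : ⟪p, ee p ι w⟫_ℝ = cos ‖w‖ := by
  rw [ee_eq, inner_add_right, inner_smul_right, inner_smul_right, hι, real_inner_self_eq_norm_sq,
    hp]
  ring

include hp hι in
theorem inner_ee_ee (w w' : E) : ⟪ee p ι w, ee p ι w'⟫_ℝ =
    cos ‖w‖ * cos ‖w'‖ + sinc ‖w‖ * sinc ‖w'‖ * ⟪w, w'⟫_ℝ := by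
  have h2 : ∀ w, ⟪ι w, p⟫_ℝ = 0 := fun w => by rw [real_inner_comm]; exact hι w
  rw [ee_eq, ee_eq, inner_add_right, inner_add_left, inner_add_left]
  simp only [inner_smul_left, inner_smul_right, hι, h2, real_inner_self_eq_norm_sq, hp,
    LinearIsometry.inner_map_map, RCLike.conj_to_real]
  ring

include hp hι in
theorem norm_ee (w : E) : ‖ee p ι w‖ = 1 := by
  have h := inner_ee_ee hp hι w w
  rw [real_inner_self_eq_norm_sq, real_inner_self_eq_norm_sq] at h
  have h2 : ‖ee p ι w‖ ^ 2 = 1 := by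
    rw [h]
    by_cases hw : ‖w‖ = 0
    · rw [hw]; simp
    · rw [Real.sinc_of_ne_zero hw]
      have := Real.sin_sq_add_cos_sq ‖w‖
      field_simp
      linarith
  have h3 : (0 : ℝ) ≤ ‖ee p ι w‖ := norm_nonneg _
  nlinarith

/-- the metric in normal coordinates, explicitly -/
def gg (v u u' : E) : ℝ :=
  SS (‖v‖ ^ 2) ^ 2 * ⟪u, u'⟫_ℝ + (1 - SS (‖v‖ ^ 2) ^ 2) * (⟪v, u⟫_ℝ * ⟪v, u'⟫_ℝ) / ‖v‖ ^ 2

include hp hι in
theorem inner_fderiv_ee (v u u' : E) :
    ⟪fderiv ℝ (ee p ι) v u, fderiv ℝ (ee p ι) v u'⟫_ℝ = gg v u u' := by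
  have h2 : ∀ w, ⟪ι w, p⟫_ℝ = 0 := fun w => by rw [real_inner_comm]; exact hι w
  rw [fderiv_ee, fderiv_ee]
  simp only [inner_add_left, inner_add_right, inner_smul_left, inner_smul_right, hι, h2,
    real_inner_self_eq_norm_sq, hp, LinearIsometry.inner_map_map, RCLike.conj_to_real]
  rw [real_inner_comm v u]
  by_cases hv : v = 0
  · subst hv
    simp [gg]
    ring
  · have hs : 0 < ‖v‖ ^ 2 := by positivity
    rw [deriv_CC hs, deriv_SS hs, gg]
    have h3 := CC_sq_add hs.le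
    set s := ‖v‖ ^ 2 with hsdef
    set S := SS s
    set C := CC s
    set a := ⟪v, u⟫_ℝ
    set b := ⟪v, u'⟫_ℝ
    set c := ⟪u, u'⟫_ℝ
    field_simp
    linear_combination (a * b * 1) * h3

/-- Jacobi fields along `t ↦ t v` in a parallel frame. -/
def J (v u : E) (t : ℝ) : E :=
  (t * sinc (t * ‖v‖)) • u + (t * (1 - sinc (t * ‖v‖)) * ⟪v, u⟫_ℝ / ‖v‖ ^ 2) • v

def J' (v u : E) (t : ℝ) : E :=
  cos (t * ‖v‖) • u + ((1 - cos (t * ‖v‖)) * ⟪v, u⟫_ℝ / ‖v‖ ^ 2) • v

/-- curvature of the unit sphere -/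
def R0 (u v w : E) : E := ⟪v, w⟫_ℝ • u - ⟪u, w⟫_ℝ • v

theorem J_zero (v u : E) : J v u 0 = 0 := by simp [J]

theorem J'_zero (v u : E) : J' v u 0 = u := by simp [J']

theorem inner_J (v u u' : E) : ⟪J v u 1, J v u' 1⟫_ℝ = gg v u u' := by
  unfold J gg
  rw [SS_sq]
  simp only [inner_add_left, inner_add_right, inner_smul_left, inner_smul_right,
    real_inner_self_eq_norm_sq, RCLike.conj_to_real, one_mul]
  rw [real_inner_comm v u]
  by_cases hv : v = 0
  · subst hv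
    simp
  · have hs : 0 < ‖v‖ := by positivity
    field_simp
    ring

theorem hasDerivAt_tsinc (c t : ℝ) : HasDerivAt (fun t => t * sinc (t * c)) (cos (t * c)) t := by
  by_cases hc : c = 0
  · subst hc
    simp only [mul_zero, Real.sinc_zero, mul_one, Real.cos_zero]
    exact hasDerivAt_id t
  · have h1 : (fun t => t * sinc (t * c)) = fun t => sin (t * c) / c := by
      funext x
      by_cases hx : x = 0
      · subst hx; simp
      · rw [Real.sinc_of_ne_zero (mul_ne_zero hx hc)]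
        field_simp
    rw [h1]
    have h2 : HasDerivAt (fun t : ℝ => t * c) (1 * c) t := (hasDerivAt_id t).mul_const c
    have h3 := (h2.sin).div_const c
    exact h3.congr_deriv (by rw [one_mul, mul_div_assoc, div_self hc, mul_one])

theorem t_sinc (c t : ℝ) : c ^ 2 * (t * sinc (t * c)) = c * sin (t * c) := by
  by_cases hc : c = 0
  · subst hc; simp
  by_cases hx : t = 0
  · subst hx; simp
  · rw [Real.sinc_of_ne_zero (mul_ne_zero hx hc)]
    field_simp

theorem J_deriv (v u : E) (t : ℝ) : HasDerivAt (J v u) (J' v u t) t := by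
  have h1 := hasDerivAt_tsinc ‖v‖ t
  have h2 : HasDerivAt (fun t => t * (1 - sinc (t * ‖v‖)) * ⟪v, u⟫_ℝ / ‖v‖ ^ 2)
      ((1 - cos (t * ‖v‖)) * ⟪v, u⟫_ℝ / ‖v‖ ^ 2) t := by
    have h3 : HasDerivAt (fun t : ℝ => t - t * sinc (t * ‖v‖)) (1 - cos (t * ‖v‖)) t :=
      (hasDerivAt_id t).sub h1
    have h4 := (h3.mul_const ⟪v, u⟫_ℝ).div_const (‖v‖ ^ 2)
    refine h4.congr_of_eventuallyEq (Eventually.of_forall fun x => ?_)
    simp only
    ring
  exact (h1.smul_const u).add (h2.smul_const v)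

theorem J'_deriv (v u : E) (t : ℝ) : HasDerivAt (J' v u) (-R0 (J v u t) v v) t := by
  have h0 : HasDerivAt (fun t : ℝ => t * ‖v‖) (1 * ‖v‖) t := (hasDerivAt_id t).mul_const _
  have h1 : HasDerivAt (fun t : ℝ => cos (t * ‖v‖)) (-sin (t * ‖v‖) * (1 * ‖v‖)) t := h0.cos
  have h2 : HasDerivAt (fun t => (1 - cos (t * ‖v‖)) * ⟪v, u⟫_ℝ / ‖v‖ ^ 2)
      ((0 - (-sin (t * ‖v‖) * (1 * ‖v‖))) * ⟪v, u⟫_ℝ / ‖v‖ ^ 2) t :=
    (((hasDerivAt_const t (1:ℝ)).sub h1).mul_const ⟪v, u⟫_ℝ).div_const (‖v‖ ^ 2)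
  have h3 := (h1.smul_const u).add (h2.smul_const v)
  have h4 : HasDerivAt (J' v u) _ t := h3
  convert h4 using 1
  have h5 := t_sinc ‖v‖ t
  unfold R0 J
  simp only [inner_add_left, inner_smul_left, real_inner_self_eq_norm_sq, RCLike.conj_to_real]
  rw [real_inner_comm v u]
  by_cases hv : v = 0
  · subst hv
    simp
  · have hs : 0 < ‖v‖ := by positivity
    have e1 : ‖v‖ ^ 2 • ((t * sinc (t * ‖v‖)) • u +
        (t * (1 - sinc (t * ‖v‖)) * ⟪v, u⟫_ℝ / ‖v‖ ^ 2) • v) =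
        (‖v‖ * sin (t * ‖v‖)) • u + (t * (1 - sinc (t * ‖v‖)) * ⟪v, u⟫_ℝ) • v := by
      rw [smul_add, smul_smul, smul_smul, h5]
      congr 2
      field_simp
    rw [e1]
    have e2 : t * sinc (t * ‖v‖) * ⟪v, u⟫_ℝ + t * (1 - sinc (t * ‖v‖)) * ⟪v, u⟫_ℝ / ‖v‖ ^ 2 *
        ‖v‖ ^ 2 = t * ⟪v, u⟫_ℝ := by
      field_simp
      ring
    rw [e2]
    have e3 : t * sinc (t * ‖v‖) = sin (t * ‖v‖) / ‖v‖ := by
      rw [eq_div_iff hs.ne']
      have : ‖v‖ * (‖v‖ * (t * sinc (t * ‖v‖))) = ‖v‖ * sin (t * ‖v‖) := by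
        rw [← h5]; ring
      have := mul_left_cancel₀ hs.ne' this
      linarith
    have e4 : (0 - (-sin (t * ‖v‖) * (1 * ‖v‖))) * ⟪v, u⟫_ℝ / ‖v‖ ^ 2 =
        t * sinc (t * ‖v‖) * ⟪v, u⟫_ℝ := by
      rw [e3]; field_simp; ring
    rw [e4]
    module

end metric

end Crest.Agent.R249.TrigS_662
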