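import Crest.Agent.R249.PbC_40
import Crest.Agent.R249.TrigS_662

/-!
# R249, B3 models (helper40): round sphere and complex projective space

`modMet_sphere`, `modMet_proj`: the model distances `arccos ⟪ee v, ee w⟫` and
`arccos ‖⟪ee v, ee w⟫_ℂ‖` in normal coordinates satisfy `ModMet`.
-/

set_option autoImplicit false
set_option maxSynthPendingDepth 3
set_option linter.unusedSectionVars false

open Real Set Filter Topology
open scoped ContDiff InnerProductSpace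
open Crest.Agent.R249.Pb40 Crest.Agent.R249.MyS40 Crest.Agent.R249.TrigS_662

noncomputable section

namespace Crest.Agent.R249.Mod40

/-! ### trigonometric limits -/

theorem sinc_bound {x : ℝ} (hx : |x| ≤ 1) : |sinc x - (1 - x ^ 2 / 6)| ≤ x ^ 4 / 100 := by
  by_cases h : x = 0
  · subst h; simp
  · rw [Real.sinc_of_ne_zero h]
    have h1 := Real.sin_bound hx
    have h2 : sin x / x - (1 - x ^ 2 / 6) = (sin x - (x - x ^ 3 / 6)) / x := by field_simp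
    rw [h2, abs_div, div_le_iff₀ (abs_pos.2 h)]
    have h3 : |x| ^ 4 = x ^ 4 := by
      rw [← abs_pow]; exact abs_of_nonneg (by positivity)
    calc |sin x - (x - x ^ 3 / 6)| ≤ |x| ^ 5 / 100 := h1
      _ = |x| ^ 4 / 100 * |x| := by ring
      _ = x ^ 4 / 100 * |x| := by rw [h3]

theorem tendsto_one_sub_sinc_sq (ρ : ℝ) :
    Tendsto (fun t : ℝ => (1 - sinc (t * ρ) ^ 2) / t ^ 2) (𝓝[>] 0) (𝓝 (ρ ^ 2 / 3)) := by
  have hid : Tendsto (fun t : ℝ => t) (𝓝[>] 0) (𝓝 0) := tendsto_nhdsWithin_of_tendsto_nhds tendsto_id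
  have hx : Tendsto (fun t : ℝ => t * ρ) (𝓝[>] 0) (𝓝 0) := by simpa using hid.mul_const ρ
  have h2 : Tendsto (fun t : ℝ => 1 + sinc (t * ρ)) (𝓝[>] 0) (𝓝 2) := by
    have := (Real.continuous_sinc.tendsto 0).comp hx
    rw [Real.sinc_zero] at this
    have h3 := this.const_add 1
    norm_num at h3
    exact h3
  have h1 : Tendsto (fun t : ℝ => (1 - sinc (t * ρ)) / t ^ 2) (𝓝[>] 0) (𝓝 (ρ ^ 2 / 6)) := by
    have e0 : Tendsto (fun t : ℝ => t ^ 2 * ρ ^ 4 / 100) (𝓝[>] 0) (𝓝 0) := by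
      have := ((hid.pow 2).mul_const (ρ ^ 4)).div_const 100
      simpa using this
    rw [tendsto_iff_dist_tendsto_zero]
    refine squeeze_zero' (Eventually.of_forall fun _ => dist_nonneg) ?_ e0
    have e1 : ∀ᶠ t : ℝ in 𝓝[>] 0, |t * ρ| < 1 := by
      have := hx.abs
      rw [abs_zero] at this
      exact this.eventually (gt_mem_nhds one_pos)
    filter_upwards [e1, self_mem_nhdsWithin] with t ht ht0
    have ht0' : (0:ℝ) < t := ht0
    have h3 := sinc_bound ht.le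
    rw [Real.dist_eq]
    have h4 : (1 - sinc (t * ρ)) / t ^ 2 - ρ ^ 2 / 6 =
        -(sinc (t * ρ) - (1 - (t * ρ) ^ 2 / 6)) / t ^ 2 := by field_simp; ring
    rw [h4, abs_div, abs_neg, abs_of_pos (by positivity : (0:ℝ) < t ^ 2), div_le_iff₀ (by positivity)]
    calc _ ≤ (t * ρ) ^ 4 / 100 := h3
      _ = _ := by ring
  have h3 := h1.mul h2
  have h4 : ρ ^ 2 / 6 * 2 = ρ ^ 2 / 3 := by ring
  rw [h4] at h3
  refine h3.congr fun t => ?_
  ring

theorem tendsto_sinc_pow (ρ : ℝ) (k : ℕ) :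
    Tendsto (fun t : ℝ => sinc (t * ρ) ^ k) (𝓝[>] 0) (𝓝 1) := by
  have hid : Tendsto (fun t : ℝ => t) (𝓝[>] 0) (𝓝 0) := tendsto_nhdsWithin_of_tendsto_nhds tendsto_id
  have hx : Tendsto (fun t : ℝ => t * ρ) (𝓝[>] 0) (𝓝 0) := by simpa using hid.mul_const ρ
  have := ((Real.continuous_sinc.tendsto 0).comp hx).pow k
  rw [Real.sinc_zero, one_pow] at this
  exact this

/-! ### metric derivative of `arccos ‖⟪·,·⟫‖` -/

section Curve

variable {𝕜 V : Type*} [RCLike 𝕜] [NormedAddCommGroup V] [InnerProductSpace 𝕜 V]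

theorem one_sub_norm_inner_sq {p q : V} (hp : ‖p‖ = 1) (hq : ‖q‖ = 1) :
    1 - ‖(inner 𝕜 p q : 𝕜)‖ ^ 2 = ‖q - p‖ ^ 2 - ‖(inner 𝕜 p (q - p) : 𝕜)‖ ^ 2 := by
  have h1 : (inner 𝕜 p (q - p) : 𝕜) = inner 𝕜 p q - 1 := by
    rw [inner_sub_right, inner_self_eq_norm_sq_to_K, hp]; simp
  have h2 : ‖q - p‖ ^ 2 = 2 - 2 * RCLike.re (inner 𝕜 p q : 𝕜) := by
    rw [norm_sub_rev, @norm_sub_sq 𝕜, hp, hq]; ring
  have h3 : ‖(inner 𝕜 p q : 𝕜) - 1‖ ^ 2 = ‖(inner 𝕜 p q : 𝕜)‖ ^ 2 -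
      2 * RCLike.re (inner 𝕜 p q : 𝕜) + 1 := by
    rw [← RCLike.normSq_eq_def', ← RCLike.normSq_eq_def', RCLike.normSq_sub]
    simp
    ring
  rw [h1, h2, h3]; ring

theorem tendsto_arccos_norm_inner {y : ℝ → V} {y' : V} (h1 : ∀ t, ‖y t‖ = 1)
    (hy : Tendsto (fun t : ℝ => ((t⁻¹ : ℝ) : 𝕜) • (y t - y 0)) (𝓝[>] 0) (𝓝 y')) :
    Tendsto (fun t : ℝ => arccos ‖(inner 𝕜 (y 0) (y t) : 𝕜)‖ / t) (𝓝[>] 0)
      (𝓝 (√(‖y'‖ ^ 2 - ‖(inner 𝕜 (y 0) y' : 𝕜)‖ ^ 2))) := by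
  set σ : ℝ → ℝ := fun t => √(‖y t - y 0‖ ^ 2 - ‖(inner 𝕜 (y 0) (y t - y 0) : 𝕜)‖ ^ 2) with hσ
  have hσ0 : σ 0 = 0 := by simp [hσ]
  have hlim : Tendsto (fun t : ℝ => σ t / t) (𝓝[>] 0)
      (𝓝 (√(‖y'‖ ^ 2 - ‖(inner 𝕜 (y 0) y' : 𝕜)‖ ^ 2))) := by
    have e1 : Continuous fun w : V => √(‖w‖ ^ 2 - ‖(inner 𝕜 (y 0) w : 𝕜)‖ ^ 2) := by
      refine Real.continuous_sqrt.comp ?_
      refine (continuous_norm.pow 2).sub ((Continuous.norm ?_).pow 2)
      exact continuous_const.inner continuous_id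
    have e2 := (e1.tendsto y').comp hy
    refine e2.congr' ?_
    filter_upwards [self_mem_nhdsWithin] with t ht
    have ht' : (0:ℝ) < t := ht
    simp only [Function.comp, hσ]
    rw [norm_smul, inner_smul_right, norm_mul, RCLike.norm_ofReal, abs_inv, abs_of_pos ht',
      mul_pow, mul_pow, ← mul_sub, Real.sqrt_mul (by positivity), Real.sqrt_sq (by positivity)]
    field_simp
  have hd : HasDerivWithinAt σ (√(‖y'‖ ^ 2 - ‖(inner 𝕜 (y 0) y' : 𝕜)‖ ^ 2)) (Ioi 0) 0 := by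
    rw [hasDerivWithinAt_iff_tendsto_slope' (by simp)]
    refine hlim.congr fun t => ?_
    rw [slope_def_field, hσ0, sub_zero, sub_zero]
  have has : HasDerivAt arcsin 1 (σ 0) := by
    rw [hσ0]
    have := hasDerivAt_arcsin (x := 0) (by norm_num) (by norm_num)
    simpa using this
  have hcomp := has.comp_hasDerivWithinAt (0:ℝ) hd
  rw [hasDerivWithinAt_iff_tendsto_slope' (by simp), one_mul] at hcomp
  refine hcomp.congr' ?_
  filter_upwards with t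
  rw [slope_def_field]
  simp only [Function.comp]
  rw [hσ0, arcsin_zero, sub_zero, sub_zero, arccos_eq_arcsin (norm_nonneg _),
    one_sub_norm_inner_sq (h1 0) (h1 t)]

end Curve

section CurveReal

variable {V : Type*} [NormedAddCommGroup V] [InnerProductSpace ℝ V]

theorem inner_deriv_eq_zero {y : ℝ → V} {y' : V} (h1 : ∀ t, ‖y t‖ = 1) (hy : HasDerivAt y y' 0) :
    inner ℝ (y 0) y' = 0 := by
  have h2 := hy.norm_sq
  have h3 : HasDerivAt (fun t => ‖y t‖ ^ 2) 0 0 := by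
    simp only [h1]
    exact hasDerivAt_const (0:ℝ) _
  have := h2.unique h3
  linarith

theorem tendsto_arccos_inner {y : ℝ → V} {y' : V} (h1 : ∀ t, ‖y t‖ = 1) (hy : HasDerivAt y y' 0) :
    Tendsto (fun t : ℝ => arccos (inner ℝ (y 0) (y t)) / t) (𝓝[>] 0) (𝓝 ‖y'‖) := by
  have h2 : Tendsto (fun t : ℝ => ((t⁻¹ : ℝ) : ℝ) • (y t - y 0)) (𝓝[>] 0) (𝓝 y') := by
    have e2 := (hasDerivAt_iff_tendsto_slope.1 hy).mono_left
      (nhdsWithin_mono (0:ℝ) (fun t (ht : t ∈ Ioi (0:ℝ)) => (ne_of_gt ht : t ≠ 0)))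
    refine e2.congr fun t => ?_
    rw [slope_def_module, sub_zero]
  have h3 := tendsto_arccos_norm_inner (𝕜 := ℝ) h1 h2
  rw [inner_deriv_eq_zero h1 hy] at h3
  have e3 : √(‖y'‖ ^ 2 - ‖(0:ℝ)‖ ^ 2) = ‖y'‖ := by
    rw [norm_zero]
    simp
  rw [e3] at h3
  refine h3.congr' ?_
  have h4 : Tendsto (fun t : ℝ => inner ℝ (y 0) (y t)) (𝓝[>] 0) (𝓝 (inner ℝ (y 0) (y 0))) :=
    ((continuousAt_const.inner hy.continuousAt).tendsto).mono_left nhdsWithin_le_nhds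
  rw [real_inner_self_eq_norm_sq, h1 0] at h4
  have h5 : ∀ᶠ t : ℝ in 𝓝[>] 0, 0 < inner ℝ (y 0) (y t) :=
    h4.eventually (lt_mem_nhds (by norm_num))
  filter_upwards [h5] with t ht
  rw [Real.norm_eq_abs, abs_of_pos ht]

end CurveReal

/-! ### `ModDist` from the cosine -/

theorem modDist_of_cos {n : ℕ} {r : ℝ} (hr : r ≤ π / 2)
    {c : EuclideanSpace ℝ (Fin n) → EuclideanSpace ℝ (Fin n) → ℝ}
    (h1 : ∀ v : EuclideanSpace ℝ (Fin n), ‖v‖ < r → ∀ s t : ℝ, 0 ≤ s → s ≤ 1 → 0 ≤ t → t ≤ 1 →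
      c (s • v) (t • v) = cos ((s - t) * ‖v‖))
    (h2 : ∀ v ξ : EuclideanSpace ℝ (Fin n), ‖v‖ < r →
      HasDerivAt (fun t : ℝ => c (t • ξ) v) (sinc ‖v‖ * inner ℝ v ξ) 0) :
    ModDist n r (fun v w => arccos (c v w)) := by
  have hray : ∀ v : EuclideanSpace ℝ (Fin n), ‖v‖ < r → ∀ s t : ℝ, 0 ≤ s → s ≤ 1 → 0 ≤ t →
      t ≤ 1 → arccos (c (s • v) (t • v)) = |s - t| * ‖v‖ := by
    intro v hv s t hs0 hs1 ht0 ht1
    rw [h1 v hv s t hs0 hs1 ht0 ht1]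
    have h3 : |s - t| ≤ 1 := by rw [abs_le]; constructor <;> linarith
    have h4 : |s - t| * ‖v‖ ≤ π := by
      have : |s - t| * ‖v‖ ≤ 1 * (π / 2) :=
        mul_le_mul h3 (hv.le.trans hr) (norm_nonneg _) zero_le_one
      linarith [Real.pi_pos]
    have h5 : cos ((s - t) * ‖v‖) = cos (|s - t| * ‖v‖) := by
      rcases abs_cases (s - t) with h | h
      · rw [h.1]
      · rw [h.1, neg_mul, Real.cos_neg]
    rw [h5, arccos_cos (by positivity) h4]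
  refine ⟨hray, ?_⟩
  intro v ξ hv hξ
  by_cases hv0 : v = 0
  · subst hv0
    rw [inner_zero_left, neg_zero]
    have h3 : HasDerivWithinAt (fun t : ℝ => t ^ 2 * (‖ξ‖ ^ 2 / 2)) 0 (Ici 0) 0 := by
      have := ((hasDerivAt_pow 2 (0:ℝ)).mul_const (‖ξ‖ ^ 2 / 2)).hasDerivWithinAt (s := Ici 0)
      simpa using this
    refine h3.congr_of_eventuallyEq ?_ ?_
    · have h4 : Ico (0:ℝ) 1 ∈ 𝓝[Ici 0] (0:ℝ) := Ico_mem_nhdsGE one_pos
      filter_upwards [h4] with t ht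
      have := hray ξ hξ t 0 ht.1 ht.2.le le_rfl zero_le_one
      rw [zero_smul] at this
      rw [this, sub_zero, abs_of_nonneg ht.1]
      ring
    · have := hray ξ hξ 0 0 le_rfl zero_le_one le_rfl zero_le_one
      rw [zero_smul] at this
      simp [this]
  · have hρ : 0 < ‖v‖ := norm_pos_iff.2 hv0
    have hρ2 : ‖v‖ < π / 2 := hv.trans_le hr
    have e0 : c ((0:ℝ) • ξ) v = cos ‖v‖ := by
      have := h1 v hv 0 1 le_rfl zero_le_one zero_le_one le_rfl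
      rw [zero_smul, one_smul] at this
      rw [zero_smul, this]
      simp
    have hsin : 0 < sin ‖v‖ := Real.sin_pos_of_pos_of_lt_pi hρ (by linarith [Real.pi_pos])
    have hcos : 0 < cos ‖v‖ := Real.cos_pos_of_mem_Ioo ⟨by linarith [Real.pi_pos], hρ2⟩
    have hcos1 : cos ‖v‖ ≠ 1 := by
      intro h
      have := Real.sin_sq_add_cos_sq ‖v‖
      rw [h] at this
      nlinarith
    have hac : HasDerivAt arccos (-(1 / √(1 - cos ‖v‖ ^ 2))) (c ((0:ℝ) • ξ) v) := by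
      rw [e0]
      exact hasDerivAt_arccos (by linarith) hcos1
    have h3 := (hac.comp (0:ℝ) (h2 v ξ hv))
    have h4 := ((h3.pow 2).div_const 2).hasDerivWithinAt (s := Ici 0)
    refine h4.congr_deriv ?_
    have e1 : √(1 - cos ‖v‖ ^ 2) = sin ‖v‖ := by
      rw [← Real.sin_sq, Real.sqrt_sq hsin.le]
    simp only [Function.comp]
    rw [e0, arccos_cos hρ.le (by linarith [Real.pi_pos]), e1, Real.sinc_of_ne_zero hρ.ne']
    simp only [Nat.add_one_sub_one, pow_one, Nat.cast_ofNat]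
    field_simp

/-! ### the sphere -/

section Sphere

variable {n : ℕ} {V : Type*} [NormedAddCommGroup V] [InnerProductSpace ℝ V]
  {p : V} {ι : EuclideanSpace ℝ (Fin n) →ₗᵢ[ℝ] V}

local notation "𝔼" => EuclideanSpace ℝ (Fin n)

/-- `sinc` law: `cos s ρ cos t ρ + sinc sinc (sρ)(tρ) = cos ((s-t)ρ)` -/
theorem cos_sinc_aux (v : 𝔼) {s t : ℝ} (hs : 0 ≤ s) (ht : 0 ≤ t) :
    cos ‖s • v‖ * cos ‖t • v‖ + sinc ‖s • v‖ * sinc ‖t • v‖ * (s * t * ‖v‖ ^ 2) =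
      cos ((s - t) * ‖v‖) := by
  rw [norm_smul, norm_smul, Real.norm_eq_abs, Real.norm_eq_abs, abs_of_nonneg hs, abs_of_nonneg ht,
    sub_mul, Real.cos_sub]
  have h : ∀ x : ℝ, x * sinc x = sin x := by
    intro x
    by_cases hx : x = 0
    · subst hx; simp
    · rw [Real.sinc_of_ne_zero hx]; field_simp
  rw [← h (s * ‖v‖), ← h (t * ‖v‖)]
  ring

theorem hasDerivAt_ee (v ξ : 𝔼) : HasDerivAt (fun t : ℝ => ee p ι (v + t • ξ))
    (fderiv ℝ (ee p ι) v ξ) 0 := by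
  have hline : HasDerivAt (fun t : ℝ => v + t • ξ) ξ 0 := by
    have := ((hasDerivAt_id (0:ℝ)).smul_const ξ).const_add v
    simpa using this
  have h3 : HasFDerivAt (ee p ι) (fderiv ℝ (ee p ι) v) (v + (0:ℝ) • ξ) := by
    rw [zero_smul, add_zero]
    exact ((contDiff_ee p ι).differentiable (by simp) v).hasFDerivAt
  exact h3.comp_hasDerivAt (0:ℝ) hline

theorem fderiv_ee_zero (ξ : 𝔼) : fderiv ℝ (ee p ι) 0 ξ = ι ξ := by
  rw [fderiv_ee]
  simp [SS_zero]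

theorem gg_self_nonneg (hp : ‖p‖ = 1) (hι : ∀ w, ⟪p, ι w⟫_ℝ = 0) (v ξ : 𝔼) : 0 ≤ gg v ξ ξ := by
  rw [← inner_fderiv_ee hp hι, real_inner_self_eq_norm_sq]
  positivity

theorem tendsto_gg (v ξ : 𝔼) :
    Tendsto (fun t : ℝ => (gg (t • v) ξ ξ - ‖ξ‖ ^ 2) / t ^ 2) (𝓝[>] 0)
      (𝓝 (-(‖v‖ ^ 2 * ‖ξ‖ ^ 2 - ⟪v, ξ⟫_ℝ ^ 2) / 3)) := by
  by_cases hv : v = 0
  · subst hv
    have : ∀ t : ℝ, (gg (t • (0 : 𝔼)) ξ ξ - ‖ξ‖ ^ 2) / t ^ 2 = 0 := by
      intro t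
      rw [smul_zero, gg]
      simp [SS_zero]
    simp only [this]
    simp
  · have hρ : 0 < ‖v‖ := norm_pos_iff.2 hv
    have h1 := (tendsto_one_sub_sinc_sq ‖v‖).mul_const (-(‖ξ‖ ^ 2 - ⟪v, ξ⟫_ℝ ^ 2 / ‖v‖ ^ 2))
    have h2 : ‖v‖ ^ 2 / 3 * (-(‖ξ‖ ^ 2 - ⟪v, ξ⟫_ℝ ^ 2 / ‖v‖ ^ 2)) =
        -(‖v‖ ^ 2 * ‖ξ‖ ^ 2 - ⟪v, ξ⟫_ℝ ^ 2) / 3 := by field_simp
    rw [h2] at h1
    refine h1.congr' ?_
    filter_upwards [self_mem_nhdsWithin] with t ht
    have ht' : (0:ℝ) < t := ht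
    rw [gg, SS_sq, norm_smul, Real.norm_eq_abs, abs_of_pos ht', real_inner_self_eq_norm_sq,
      real_inner_smul_left]
    field_simp
    ring

theorem curvLike_sphere : CurvLike (n := n) (fun v ξ => ‖v‖ ^ 2 * ‖ξ‖ ^ 2 - ⟪v, ξ⟫_ℝ ^ 2) where
  self w := by rw [real_inner_self_eq_norm_sq]; ring
  comm u v := by rw [real_inner_comm]; ring
  pol u v := by
    rw [norm_add_sq_real, norm_sub_sq_real, inner_add_left, inner_sub_right, inner_sub_right,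
      real_inner_self_eq_norm_sq, real_inner_self_eq_norm_sq, real_inner_comm v u]
    ring

/-- **the round sphere** in normal coordinates -/
theorem modMet_sphere (hp : ‖p‖ = 1) (hι : ∀ w, ⟪p, ι w⟫_ℝ = 0) :
    ModMet n (π / 2) (fun v w => arccos ⟪ee p ι v, ee p ι w⟫_ℝ)
      (fun v ξ => ‖v‖ ^ 2 * ‖ξ‖ ^ 2 - ⟪v, ξ⟫_ℝ ^ 2) where
  toModDist := by
    refine modDist_of_cos (c := fun v w => ⟪ee p ι v, ee p ι w⟫_ℝ) le_rfl ?_ ?_
    · intro v _ s t hs0 _ ht0 _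
      rw [inner_ee_ee hp hι, ← cos_sinc_aux v hs0 ht0, real_inner_smul_left, real_inner_smul_right,
        real_inner_self_eq_norm_sq]
      ring
    · intro v ξ _
      have h1 := hasDerivAt_ee (p := p) (ι := ι) 0 ξ
      simp only [zero_add] at h1
      have h2 := h1.inner ℝ (hasDerivAt_const (0:ℝ) (ee p ι v))
      refine h2.congr_deriv ?_
      rw [fderiv_ee_zero, inner_zero_right, zero_add, ee_eq, inner_add_right, inner_smul_right,
        inner_smul_right, real_inner_comm p (ι ξ), hι, LinearIsometry.inner_map_map,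
        real_inner_comm]
      ring
  like := curvLike_sphere
  met := by
    refine ⟨fun v ξ => gg v ξ ξ, ?_, tendsto_gg⟩
    intro v ξ _
    refine ⟨gg_self_nonneg hp hι v ξ, ?_⟩
    have h1 := tendsto_arccos_inner (y := fun t : ℝ => ee p ι (v + t • ξ))
      (fun t => norm_ee hp hι _) (hasDerivAt_ee v ξ)
    have h2 : √(gg v ξ ξ) = ‖fderiv ℝ (ee p ι) v ξ‖ := by
      rw [← inner_fderiv_ee hp hι, real_inner_self_eq_norm_sq, Real.sqrt_sq (norm_nonneg _)]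
    rw [h2]
    simpa using h1

end Sphere

/-! ### complex projective space -/

section Proj

variable {n : ℕ} {V : Type*} [NormedAddCommGroup V] [InnerProductSpace ℂ V]

attribute [local instance] InnerProductSpace.complexToReal

variable {p : V} {ι : EuclideanSpace ℝ (Fin n) →ₗᵢ[ℝ] V}

local notation "𝔼" => EuclideanSpace ℝ (Fin n)

theorem re_inner_eq (x y : V) : (⟪x, y⟫_ℂ).re = ⟪x, y⟫_ℝ := rfl

theorem real_smul_eq (r : ℝ) (x : V) : r • x = (r : ℂ) • x := rfl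

theorem inner_ee_ee_complex (hp : ‖p‖ = 1) (hι : ∀ w, ⟪p, ι w⟫_ℂ = 0) (v w : 𝔼) :
    ⟪ee p ι v, ee p ι w⟫_ℂ =
      (cos ‖v‖ * cos ‖w‖ : ℝ) + (sinc ‖v‖ * sinc ‖w‖ : ℝ) * ⟪ι v, ι w⟫_ℂ := by
  have h2 : ∀ w, ⟪ι w, p⟫_ℂ = 0 := fun w => by
    rw [← inner_conj_symm, hι, map_zero]
  have h3 : ⟪p, p⟫_ℂ = 1 := by rw [inner_self_eq_norm_sq_to_K, hp]; simp
  rw [ee_eq, ee_eq]
  simp only [real_smul_eq, inner_add_right, inner_add_left, inner_smul_left, inner_smul_right, hι,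
    h2, h3, Complex.conj_ofReal, mul_zero, add_zero, zero_add, mul_one]
  push_cast
  ring

theorem hιr (hι : ∀ w, ⟪p, ι w⟫_ℂ = 0) (w : 𝔼) : ⟪p, ι w⟫_ℝ = 0 := by
  rw [← re_inner_eq, hι, Complex.zero_re]

/-- the Kähler form of the model -/
def kf (ι : EuclideanSpace ℝ (Fin n) →ₗᵢ[ℝ] V) (v ξ : EuclideanSpace ℝ (Fin n)) : ℝ :=
  (⟪ι v, ι ξ⟫_ℂ).im

theorem kf_self (v : 𝔼) : kf ι v v = 0 := by
  unfold kf
  rw [inner_self_eq_norm_sq_to_K]
  norm_cast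

theorem kf_comm (v w : 𝔼) : kf ι v w = -kf ι w v := by
  unfold kf
  rw [← inner_conj_symm, Complex.conj_im]

theorem kf_smul_left (t : ℝ) (v w : 𝔼) : kf ι (t • v) w = t * kf ι v w := by
  unfold kf
  rw [map_smul, real_smul_eq, inner_smul_left, Complex.conj_ofReal, Complex.im_ofReal_mul]

theorem kf_smul_right (t : ℝ) (v w : 𝔼) : kf ι v (t • w) = t * kf ι v w := by
  rw [kf_comm, kf_smul_left, kf_comm w v]; ring

theorem kf_add_left (u v w : 𝔼) : kf ι (u + v) w = kf ι u w + kf ι v w := by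
  unfold kf
  rw [map_add, inner_add_left, Complex.add_im]

theorem kf_add_right (u v w : 𝔼) : kf ι u (v + w) = kf ι u v + kf ι u w := by
  unfold kf
  rw [map_add, inner_add_right, Complex.add_im]

theorem kf_sub_right (u v w : 𝔼) : kf ι u (v - w) = kf ι u v - kf ι u w := by
  unfold kf
  rw [map_sub, inner_sub_right, Complex.sub_im]

theorem curvLike_proj : CurvLike (n := n)
    (fun v ξ => ‖v‖ ^ 2 * ‖ξ‖ ^ 2 - ⟪v, ξ⟫_ℝ ^ 2 + 3 * kf ι v ξ ^ 2) where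
  self w := by rw [real_inner_self_eq_norm_sq, kf_self]; ring
  comm u v := by rw [real_inner_comm, kf_comm]; ring
  pol u v := by
    rw [norm_add_sq_real, norm_sub_sq_real, inner_add_left, inner_sub_right, inner_sub_right,
      real_inner_self_eq_norm_sq, real_inner_self_eq_norm_sq, real_inner_comm v u, kf_add_left,
      kf_sub_right, kf_sub_right, kf_self, kf_self, kf_comm v u]
    ring

theorem inner_ray (v : 𝔼) (s t : ℝ) : ⟪ι (s • v), ι (t • v)⟫_ℂ = ((s * t * ‖v‖ ^ 2 : ℝ) : ℂ) := by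
  rw [map_smul, map_smul, real_smul_eq, real_smul_eq, inner_smul_left, inner_smul_right,
    Complex.conj_ofReal, inner_self_eq_norm_sq_to_K, LinearIsometry.norm_map]
  push_cast
  ring_nf
  rfl

theorem hasDerivAt_norm_complex {z : ℝ → ℂ} {z' : ℂ} {c : ℝ} (hz : HasDerivAt z z' 0)
    (h0 : z 0 = (c : ℂ)) (hc : 0 < c) : HasDerivAt (fun t => ‖z t‖) z'.re 0 := by
  have h1 := hz.norm_sq
  have hne : (fun t => ‖z t‖ ^ 2) 0 ≠ 0 := by
    simp only [h0, Complex.norm_real]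
    have : ‖c‖ ≠ 0 := by simpa using hc.ne'
    positivity
  have h2 := h1.sqrt hne
  have e : (fun t => √((fun t => ‖z t‖ ^ 2) t)) = fun t => ‖z t‖ := by
    funext t
    exact Real.sqrt_sq (norm_nonneg _)
  have h3 : HasDerivAt (fun t => √((fun t => ‖z t‖ ^ 2) t))
      ((2 * ⟪z 0, z'⟫_ℝ) / (2 * √(‖z 0‖ ^ 2))) 0 := h2
  rw [e] at h3
  refine h3.congr_deriv ?_
  rw [h0, Real.sqrt_sq (norm_nonneg _), Complex.norm_real, Real.norm_eq_abs, abs_of_pos hc,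
    Complex.inner, Complex.conj_ofReal]
  rw [mul_comm z' (c : ℂ), Complex.re_ofReal_mul]
  field_simp

theorem norm_inner_deriv (hp : ‖p‖ = 1) (hι : ∀ w, ⟪p, ι w⟫_ℂ = 0) (v ξ : 𝔼) :
    ‖⟪ee p ι v, fderiv ℝ (ee p ι) v ξ⟫_ℂ‖ ^ 2 = (SS (‖v‖ ^ 2)) ^ 4 * kf ι v ξ ^ 2 := by
  have h2 : ∀ w, ⟪ι w, p⟫_ℂ = 0 := fun w => by
    rw [← inner_conj_symm, hι, map_zero]
  have h3 : ⟪p, p⟫_ℂ = 1 := by rw [inner_self_eq_norm_sq_to_K, hp]; simp
  have hre : (⟪ee p ι v, fderiv ℝ (ee p ι) v ξ⟫_ℂ).re = 0 := by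
    rw [re_inner_eq]
    have := inner_deriv_eq_zero (y := fun t : ℝ => ee p ι (v + t • ξ))
      (fun t => norm_ee hp (hιr hι) _) (hasDerivAt_ee v ξ)
    simpa using this
  have him : (⟪ee p ι v, fderiv ℝ (ee p ι) v ξ⟫_ℂ).im = (SS (‖v‖ ^ 2)) ^ 2 * kf ι v ξ := by
    rw [fderiv_ee, ee]
    simp only [real_smul_eq, inner_add_right, inner_add_left, inner_smul_left, inner_smul_right, hι,
      h2, h3, Complex.conj_ofReal, mul_zero, add_zero, zero_add, mul_one]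
    have h4 : ⟪ι v, ι v⟫_ℂ = ((‖v‖ ^ 2 : ℝ) : ℂ) := by
      have := inner_ray (ι := ι) v 1 1
      simpa using this
    rw [h4, Complex.add_im, Complex.add_im, ← Complex.ofReal_mul, Complex.ofReal_im,
      Complex.im_ofReal_mul, Complex.im_ofReal_mul]
    unfold kf
    simp only [← Complex.ofReal_mul, Complex.ofReal_im]
    simp [Complex.im_ofReal_mul]
    ring
  rw [← Complex.normSq_eq_norm_sq, Complex.normSq_apply, hre, him]
  ring

/-- **complex projective space** in normal coordinates -/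
theorem modMet_proj (hp : ‖p‖ = 1) (hι : ∀ w, ⟪p, ι w⟫_ℂ = 0) :
    ModMet n (π / 2) (fun v w => arccos ‖⟪ee p ι v, ee p ι w⟫_ℂ‖)
      (fun v ξ => ‖v‖ ^ 2 * ‖ξ‖ ^ 2 - ⟪v, ξ⟫_ℝ ^ 2 + 3 * kf ι v ξ ^ 2) where
  toModDist := by
    refine modDist_of_cos (c := fun v w => ‖⟪ee p ι v, ee p ι w⟫_ℂ‖) le_rfl ?_ ?_
    · intro v hv s t hs0 hs1 ht0 ht1
      have h1 : ⟪ee p ι (s • v), ee p ι (t • v)⟫_ℂ = ((cos ((s - t) * ‖v‖) : ℝ) : ℂ) := by
        rw [inner_ee_ee_complex hp hι, inner_ray, ← Complex.ofReal_mul, ← Complex.ofReal_add,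
          cos_sinc_aux v hs0 ht0]
      rw [h1, Complex.norm_real, Real.norm_eq_abs, abs_of_nonneg]
      have h3 : |s - t| ≤ 1 := by rw [abs_le]; constructor <;> linarith
      have h4 : |(s - t) * ‖v‖| ≤ π / 2 := by
        rw [abs_mul, abs_of_nonneg (norm_nonneg v)]
        calc |s - t| * ‖v‖ ≤ 1 * (π / 2) :=
              mul_le_mul h3 hv.le (norm_nonneg _) zero_le_one
          _ = π / 2 := one_mul _
      exact Real.cos_nonneg_of_mem_Icc (abs_le.1 h4)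
    · intro v ξ hv
      have h1 := hasDerivAt_ee (p := p) (ι := ι) 0 ξ
      simp only [zero_add] at h1
      have h2 := h1.inner ℂ (hasDerivAt_const (0:ℝ) (ee p ι v))
      have h0 : ⟪ee p ι ((0:ℝ) • ξ), ee p ι v⟫_ℂ = ((cos ‖v‖ : ℝ) : ℂ) := by
        rw [inner_ee_ee_complex hp hι]
        simp
      have hcos : 0 < cos ‖v‖ :=
        Real.cos_pos_of_mem_Ioo ⟨by linarith [Real.pi_pos, norm_nonneg v], hv⟩
      have h3 := hasDerivAt_norm_complex h2 h0 hcos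
      refine h3.congr_deriv ?_
      rw [fderiv_ee_zero, inner_zero_right, zero_add, re_inner_eq, ee_eq, inner_add_right,
        inner_smul_right, inner_smul_right, real_inner_comm p (ι ξ), hιr hι,
        LinearIsometry.inner_map_map, real_inner_comm]
      ring
  like := curvLike_proj
  met := by
    refine ⟨fun v ξ => gg v ξ ξ - (SS (‖v‖ ^ 2)) ^ 4 * kf ι v ξ ^ 2, ?_, ?_⟩
    · intro v ξ _
      have h2 : gg v ξ ξ - (SS (‖v‖ ^ 2)) ^ 4 * kf ι v ξ ^ 2 =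
          ‖fderiv ℝ (ee p ι) v ξ‖ ^ 2 - ‖⟪ee p ι v, fderiv ℝ (ee p ι) v ξ⟫_ℂ‖ ^ 2 := by
        rw [← inner_fderiv_ee hp (hιr hι), real_inner_self_eq_norm_sq, norm_inner_deriv hp hι]
      simp only [h2]
      constructor
      · have h3 : ‖⟪ee p ι v, fderiv ℝ (ee p ι) v ξ⟫_ℂ‖ ≤ ‖fderiv ℝ (ee p ι) v ξ‖ := by
          have := norm_inner_le_norm (𝕜 := ℂ) (ee p ι v) (fderiv ℝ (ee p ι) v ξ)
          rwa [norm_ee hp (hιr hι), one_mul] at this
        have := pow_le_pow_left₀ (norm_nonneg _) h3 2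
        linarith
      · have hd := hasDerivAt_ee (p := p) (ι := ι) v ξ
        have h4 : Tendsto (fun t : ℝ => ((t⁻¹ : ℝ) : ℂ) •
            (ee p ι (v + t • ξ) - ee p ι (v + (0:ℝ) • ξ))) (𝓝[>] 0)
            (𝓝 (fderiv ℝ (ee p ι) v ξ)) := by
          have e2 := (hasDerivAt_iff_tendsto_slope.1 hd).mono_left
            (nhdsWithin_mono (0:ℝ) (fun t (ht : t ∈ Ioi (0:ℝ)) => (ne_of_gt ht : t ≠ 0)))
          refine e2.congr fun t => ?_
          rw [slope_def_module, sub_zero, real_smul_eq]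
        have h1 := tendsto_arccos_norm_inner (𝕜 := ℂ) (y := fun t : ℝ => ee p ι (v + t • ξ))
          (fun t => norm_ee hp (hιr hι) _) h4
        simpa using h1
    · intro v ξ
      have h1 := (tendsto_gg v ξ).sub ((tendsto_sinc_pow ‖v‖ 4).mul_const (kf ι v ξ ^ 2))
      have h2 : -(‖v‖ ^ 2 * ‖ξ‖ ^ 2 - ⟪v, ξ⟫_ℝ ^ 2) / 3 - 1 * kf ι v ξ ^ 2 =
          -(‖v‖ ^ 2 * ‖ξ‖ ^ 2 - ⟪v, ξ⟫_ℝ ^ 2 + 3 * kf ι v ξ ^ 2) / 3 := by ring
      rw [h2] at h1
      refine h1.congr' ?_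
      filter_upwards [self_mem_nhdsWithin] with t ht
      have ht' : (0:ℝ) < t := ht
      rw [SS_sq, norm_smul, Real.norm_eq_abs, abs_of_pos ht', kf_smul_left]
      field_simp
      ring

end Proj

end Crest.Agent.R249.Mod40
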