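import Crest.Agent.R249.ModA_40
import Crest.Agent.R249.MdlP_850

/-!
# R249, B3 models (helper40): products and scalings of model distances
-/

set_option autoImplicit false
set_option maxSynthPendingDepth 3
set_option linter.unusedSectionVars false

open Real Set Filter Topology
open scoped ContDiff InnerProductSpace
open Crest.Agent.R249.Pb40 Crest.Agent.R249.MyS40 Crest.Agent.R249.MdlP_850

noncomputable section

namespace Crest.Agent.R249.Mod40

local notation "𝔼" n => EuclideanSpace ℝ (Fin n)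

/-- scaling of the model -/
theorem modMet_scale {n : ℕ} {r : ℝ} {D S : (𝔼 n) → (𝔼 n) → ℝ} (h : ModMet n r D S)
    {c : ℝ} (hc : 0 < c) (hS : ∀ v ξ, S (c • v) ξ = c ^ 2 * S v ξ) :
    ModMet n (r / c) (fun v w => D (c • v) (c • w) / c) (fun v ξ => c ^ 2 * S v ξ) where
  ray v hv s t hs0 hs1 ht0 ht1 := by
    have h1 : ‖c • v‖ < r := by
      rw [norm_smul, Real.norm_eq_abs, abs_of_pos hc, mul_comm]
      exact (lt_div_iff₀ hc).1 hv
    have h2 := h.ray (c • v) h1 s t hs0 hs1 ht0 ht1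
    rw [smul_comm s c v, smul_comm t c v] at h2
    rw [h2, norm_smul, Real.norm_eq_abs, abs_of_pos hc]
    field_simp
  var v ξ hv hξ := by
    have h1 : ‖c • v‖ < r := by
      rw [norm_smul, Real.norm_eq_abs, abs_of_pos hc, mul_comm]
      exact (lt_div_iff₀ hc).1 hv
    have h2 : ‖c • ξ‖ < r := by
      rw [norm_smul, Real.norm_eq_abs, abs_of_pos hc, mul_comm]
      exact (lt_div_iff₀ hc).1 hξ
    have h3 := (h.var (c • v) (c • ξ) h1 h2).div_const (c ^ 2)
    refine (h3.congr_deriv ?_).congr ?_ ?_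
    · rw [real_inner_smul_left, real_inner_smul_right]
      field_simp
    · intro t _
      rw [smul_comm c t ξ]
      field_simp
    · rw [smul_comm c (0:ℝ) ξ]
      field_simp
  like :=
    { self := fun w => by rw [h.like.self]; ring
      comm := fun u v => by rw [h.like.comm]
      pol := fun u v => by rw [h.like.pol]; ring }
  met := by
    obtain ⟨q, h1, h2⟩ := h.met
    refine ⟨fun v ξ => q (c • v) ξ, ?_, ?_⟩
    · intro v ξ hv
      have hv' : ‖c • v‖ < r := by
        rw [norm_smul, Real.norm_eq_abs, abs_of_pos hc, mul_comm]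
        exact (lt_div_iff₀ hc).1 hv
      obtain ⟨h3, h4⟩ := h1 (c • v) ξ hv'
      refine ⟨h3, ?_⟩
      have h5 : Tendsto (fun t : ℝ => c * t) (𝓝[>] 0) (𝓝[>] 0) := by
        refine tendsto_nhdsWithin_iff.2 ⟨?_, ?_⟩
        · have : Tendsto (fun t : ℝ => c * t) (𝓝 0) (𝓝 (c * 0)) :=
            (continuous_const.mul continuous_id).tendsto 0
          rw [mul_zero] at this
          exact this.mono_left nhdsWithin_le_nhds
        · filter_upwards [self_mem_nhdsWithin] with t ht
          exact mul_pos hc ht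
      refine (h4.comp h5).congr' ?_
      filter_upwards [self_mem_nhdsWithin] with t ht
      have ht' : (0:ℝ) < t := ht
      simp only [Function.comp]
      rw [smul_add, smul_smul, div_div]
    · intro v ξ
      have h3 := h2 (c • v) ξ
      rw [hS] at h3
      refine h3.congr fun t => ?_
      show _ = (q (c • t • v) ξ - ‖ξ‖ ^ 2) / t ^ 2
      rw [smul_comm c t v]

/-- product of two models -/
theorem modMet_prod {a b : ℕ} {r : ℝ} {D S : (𝔼 a) → (𝔼 a) → ℝ} {D' S' : (𝔼 b) → (𝔼 b) → ℝ}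
    (h : ModMet a r D S) (h' : ModMet b r D' S') :
    ModMet (a + b) r
      (fun v w => √(D (p1 a b v) (p1 a b w) ^ 2 + D' (p2 a b v) (p2 a b w) ^ 2))
      (fun v w => S (p1 a b v) (p1 a b w) + S' (p2 a b v) (p2 a b w)) where
  ray v hv s t hs0 hs1 ht0 ht1 := by
    have h1 := h.ray (p1 a b v) ((norm_p1_le v).trans_lt hv) s t hs0 hs1 ht0 ht1
    have h2 := h'.ray (p2 a b v) ((norm_p2_le v).trans_lt hv) s t hs0 hs1 ht0 ht1
    simp only [map_smul]
    rw [h1, h2, mul_pow, mul_pow, ← mul_add, ← norm_sq_eq, ← mul_pow,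
      Real.sqrt_sq (by positivity)]
  var v ξ hv hξ := by
    have h1 := h.var (p1 a b v) (p1 a b ξ) ((norm_p1_le v).trans_lt hv) ((norm_p1_le ξ).trans_lt hξ)
    have h2 := h'.var (p2 a b v) (p2 a b ξ) ((norm_p2_le v).trans_lt hv) ((norm_p2_le ξ).trans_lt hξ)
    refine ((h1.add h2).congr_deriv ?_).congr ?_ ?_
    · rw [inner_eq]; ring
    · intro t _
      simp only [map_smul, Pi.add_apply]
      rw [Real.sq_sqrt (by positivity)]
      ring
    · simp only [map_smul, Pi.add_apply]
      rw [Real.sq_sqrt (by positivity)]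
      ring
  like :=
    { self := fun w => by simp only [h.like.self, h'.like.self, add_zero]
      comm := fun u v => by simp only [h.like.comm (p1 a b u), h'.like.comm (p2 a b u)]
      pol := fun u v => by
        simp only [map_add, map_sub, h.like.pol, h'.like.pol]; ring }
  met := by
    obtain ⟨q, h1, h2⟩ := h.met
    obtain ⟨q', h1', h2'⟩ := h'.met
    refine ⟨fun v ξ => q (p1 a b v) (p1 a b ξ) + q' (p2 a b v) (p2 a b ξ), ?_, ?_⟩
    · intro v ξ hv
      obtain ⟨h3, h4⟩ := h1 (p1 a b v) (p1 a b ξ) ((norm_p1_le v).trans_lt hv)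
      obtain ⟨h3', h4'⟩ := h1' (p2 a b v) (p2 a b ξ) ((norm_p2_le v).trans_lt hv)
      refine ⟨add_nonneg h3 h3', ?_⟩
      have h5 := (Real.continuous_sqrt.tendsto _).comp ((h4.pow 2).add (h4'.pow 2))
      rw [Real.sq_sqrt h3, Real.sq_sqrt h3'] at h5
      refine h5.congr' ?_
      filter_upwards [self_mem_nhdsWithin] with t ht
      have ht' : (0:ℝ) < t := ht
      simp only [Function.comp, map_add, map_smul]
      rw [div_pow, div_pow, ← add_div, Real.sqrt_div' _ (by positivity), Real.sqrt_sq ht'.le]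
    · intro v ξ
      have h3 := (h2 (p1 a b v) (p1 a b ξ)).add (h2' (p2 a b v) (p2 a b ξ))
      have h4 : -S (p1 a b v) (p1 a b ξ) / 3 + -S' (p2 a b v) (p2 a b ξ) / 3 =
          -(S (p1 a b v) (p1 a b ξ) + S' (p2 a b v) (p2 a b ξ)) / 3 := by ring
      rw [h4] at h3
      refine h3.congr fun t => ?_
      simp only [map_smul]
      rw [norm_sq_eq ξ]
      ring

/-! ### the isometric embedding `ι` -/

theorem exists_iota {n : ℕ} (p : EuclideanSpace ℝ (Fin (n + 1))) (hp : ‖p‖ = 1) :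
    ∃ ι : (𝔼 n) →ₗᵢ[ℝ] EuclideanSpace ℝ (Fin (n + 1)), ∀ w, ⟪p, ι w⟫_ℝ = 0 := by
  have hp0 : p ≠ 0 := by
    intro h; rw [h, norm_zero] at hp; exact zero_ne_one hp
  have : Fact (Module.finrank ℝ (EuclideanSpace ℝ (Fin (n + 1))) = n + 1) :=
    ⟨finrank_euclideanSpace_fin⟩
  let b := OrthonormalBasis.fromOrthogonalSpanSingleton (𝕜 := ℝ) n hp0
  refine ⟨(Submodule.subtypeₗᵢ _).comp b.repr.symm.toLinearIsometry, fun w => ?_⟩
  have : ((b.repr.symm w : (ℝ ∙ p)ᗮ) : EuclideanSpace ℝ (Fin (n + 1))) ∈ (ℝ ∙ p)ᗮ :=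
    (b.repr.symm w).2
  exact (Submodule.mem_orthogonal_singleton_iff_inner_right).1 this

section Complex

attribute [local instance] InnerProductSpace.complexToReal

theorem exists_iota_complex {m : ℕ} {V : Type*} [NormedAddCommGroup V] [InnerProductSpace ℂ V]
    [FiniteDimensional ℂ V] (hV : Module.finrank ℂ V = m + 1) (p : V) (hp : ‖p‖ = 1) :
    ∃ ι : (𝔼 (2 * m)) →ₗᵢ[ℝ] V, ∀ w, ⟪p, ι w⟫_ℂ = 0 := by
  have hp0 : p ≠ 0 := by
    intro h; rw [h, norm_zero] at hp; exact zero_ne_one hp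
  have : Fact (Module.finrank ℂ V = m + 1) := ⟨hV⟩
  let K : Submodule ℂ V := (ℂ ∙ p)ᗮ
  have hK : Module.finrank ℂ K = m := Submodule.finrank_orthogonal_span_singleton hp0
  have hKr : Module.finrank ℝ K = 2 * m := by
    rw [← hK]
    exact finrank_real_of_complex K
  have : FiniteDimensional ℝ K := FiniteDimensional.complexToReal K
  let b : OrthonormalBasis (Fin (2 * m)) ℝ K :=
    (stdOrthonormalBasis ℝ K).reindex (finCongr hKr)
  let ι0 : (𝔼 (2 * m)) →ₗᵢ[ℝ] K := b.repr.symm.toLinearIsometry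
  refine ⟨⟨⟨⟨fun w => (ι0 w : V), ?_⟩, ?_⟩, ?_⟩, ?_⟩
  · intro x y
    rw [map_add]; rfl
  · intro r x
    simp only [map_smul]
    rfl
  · intro x
    exact ι0.norm_map x
  · intro w
    exact (Submodule.mem_orthogonal_singleton_iff_inner_right).1 (ι0 w).2

end Complex

end Crest.Agent.R249.Mod40
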