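import Mathlib

/-!
# R249 (helper174): ultralimits of pointed metric spaces (1): the space

* `om : Filter ℕ` : a fixed non-principal ultrafilter;
* `UL q` : the ultralimit of the pointed spaces `(M k, q k)`; `MetricSpace (UL q)`;
* `UL.mk x hx` : the class of a sequence `x` with `Bd q x` (bounded distance from `q`);
* `UL.exists_rep`, `UL.tendsto_dist` : every point is a class, distances are `om`-limits.
-/

set_option autoImplicit false
noncomputable section
open Set Filter Topology Metric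

namespace Crest.Agent.R249.Ul174

universe u

/-- the fixed non-principal ultrafilter on `ℕ` -/
def omU : Ultrafilter ℕ := Filter.hyperfilter ℕ

/-- the fixed non-principal ultrafilter on `ℕ`, as a filter -/
def om : Filter ℕ := (omU : Filter ℕ)

instance om_neBot : NeBot om := omU.neBot

theorem om_le_atTop : om ≤ atTop := by
  rw [← Nat.cofinite_eq_atTop]
  exact hyperfilter_le_cofinite

theorem ev_om_of_atTop {p : ℕ → Prop} (h : ∀ᶠ k in atTop, p k) : ∀ᶠ k in om, p k :=
  om_le_atTop h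

theorem tendsto_om_of_atTop {X : Type*} {f : ℕ → X} {l : Filter X} (h : Tendsto f atTop l) :
    Tendsto f om l := h.mono_left om_le_atTop

theorem ev_ge (N : ℕ) : ∀ᶠ k in om, N ≤ k := ev_om_of_atTop (eventually_ge_atTop N)

/-- the dichotomy -/
theorem ev_or_not (p : ℕ → Prop) : (∀ᶠ k in om, p k) ∨ ∀ᶠ k in om, ¬ p k := by
  by_cases h : ∀ᶠ k in om, p k
  · exact Or.inl h
  · exact Or.inr (Ultrafilter.eventually_not.2 h)

theorem ev_of_freq {p : ℕ → Prop} (h : ∃ᶠ k in om, p k) : ∀ᶠ k in om, p k := by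
  rcases ev_or_not p with h1 | h1
  · exact h1
  · exact absurd h1 h

theorem ev_not_iff {p : ℕ → Prop} : (∀ᶠ k in om, ¬ p k) ↔ ¬ ∀ᶠ k in om, p k :=
  Ultrafilter.eventually_not

theorem ev_or {p q : ℕ → Prop} : (∀ᶠ k in om, p k ∨ q k) ↔
    (∀ᶠ k in om, p k) ∨ ∀ᶠ k in om, q k := Ultrafilter.eventually_or

/-- pigeonhole along the ultrafilter: finitely many values -/
theorem ev_finite {ι : Type*} {s : Set ι} (hs : s.Finite) {p : ι → ℕ → Prop}
    (h : ∀ᶠ k in om, ∃ i ∈ s, p i k) : ∃ i ∈ s, ∀ᶠ k in om, p i k := by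
  by_contra hc
  have hc : ∀ i ∈ s, ¬ ∀ᶠ k in om, p i k := fun i hi h => hc ⟨i, hi, h⟩
  have h1 : ∀ i ∈ s, ∀ᶠ k in om, ¬ p i k := fun i hi => by
    rcases ev_or_not (p i) with h1 | h1
    · exact absurd h1 (fun h2 => hc i hi h2)
    · exact h1
  have h2 : ∀ᶠ k in om, ∀ i ∈ s, ¬ p i k := (eventually_all_finite hs).2 h1
  obtain ⟨k, hk1, hk2⟩ := (h.and h2).exists
  obtain ⟨i, hi, hp⟩ := hk1
  exact hk2 i hi hp

/-! ### limits of bounded sequences -/

/-- bounded sequences in a proper space converge along `om` -/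
theorem exists_lim_of_compact {X : Type*} [TopologicalSpace X] {f : ℕ → X} {K : Set X}
    (hK : IsCompact K) (h : ∀ᶠ k in om, f k ∈ K) : ∃ a ∈ K, Tendsto f om (𝓝 a) := by
  have h1 : ((omU.map f : Ultrafilter X) : Filter X) ≤ 𝓟 K := by
    rw [le_principal_iff]
    exact h
  obtain ⟨a, ha, hle⟩ := hK.ultrafilter_le_nhds (omU.map f) h1
  exact ⟨a, ha, hle⟩

theorem exists_lim {X : Type*} [PseudoMetricSpace X] [ProperSpace X] {f : ℕ → X} {a : X} {C : ℝ}
    (h : ∀ᶠ k in om, dist (f k) a ≤ C) : ∃ b, dist b a ≤ C ∧ Tendsto f om (𝓝 b) := by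
  obtain ⟨b, hb, hl⟩ := exists_lim_of_compact (isCompact_closedBall a C) h
  exact ⟨b, hb, hl⟩

theorem exists_lim_real {f : ℕ → ℝ} {C : ℝ} (h : ∀ᶠ k in om, |f k| ≤ C) :
    ∃ a, |a| ≤ C ∧ Tendsto f om (𝓝 a) := by
  obtain ⟨b, hb, hl⟩ := exists_lim (a := (0:ℝ)) (C := C) (f := f)
    (h.mono fun k hk => by simpa [Real.dist_eq] using hk)
  exact ⟨b, by simpa [Real.dist_eq] using hb, hl⟩

/-- the `om`-limit of a real sequence (meaningful for bounded sequences) -/
def rlim (f : ℕ → ℝ) : ℝ := limUnder om f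

theorem tendsto_rlim {f : ℕ → ℝ} {C : ℝ} (h : ∀ᶠ k in om, |f k| ≤ C) :
    Tendsto f om (𝓝 (rlim f)) := by
  obtain ⟨a, -, ha⟩ := exists_lim_real h
  exact tendsto_nhds_limUnder ⟨a, ha⟩

/-! ### the space -/

variable {M : ℕ → Type u} [∀ k, MetricSpace (M k)]

/-- the sequence `x` stays at bounded distance from `q` -/
def Bd (q x : ∀ k, M k) : Prop := ∃ C : ℝ, ∀ᶠ k in om, dist (q k) (x k) ≤ C

theorem Bd.refl (q : ∀ k, M k) : Bd q q := ⟨0, Eventually.of_forall fun k => by simp⟩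

theorem Bd.of_lt {q x : ∀ k, M k} {C : ℝ} (h : ∀ᶠ k in om, dist (q k) (x k) < C) : Bd q x :=
  ⟨C, h.mono fun _ hk => hk.le⟩

theorem Bd.dist_bd {q x y : ∀ k, M k} (hx : Bd q x) (hy : Bd q y) :
    ∃ C : ℝ, ∀ᶠ k in om, |dist (x k) (y k)| ≤ C := by
  obtain ⟨C, hC⟩ := hx
  obtain ⟨D, hD⟩ := hy
  refine ⟨C + D, ?_⟩
  filter_upwards [hC, hD] with k h1 h2
  rw [abs_of_nonneg dist_nonneg]
  have := dist_triangle (x k) (q k) (y k)
  rw [dist_comm (x k) (q k)] at this
  linarith

theorem Bd.trans {q x y : ∀ k, M k} (hx : Bd q x) {C : ℝ}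
    (h : ∀ᶠ k in om, dist (x k) (y k) ≤ C) : Bd q y := by
  obtain ⟨D, hD⟩ := hx
  refine ⟨D + C, ?_⟩
  filter_upwards [h, hD] with k h1 h2
  have := dist_triangle (q k) (x k) (y k)
  linarith

/-- bounded sequences -/
def Pre (q : ∀ k, M k) : Type u := {x : ∀ k, M k // Bd q x}

variable {q : ∀ k, M k}

theorem Pre.tendsto (x y : Pre q) :
    Tendsto (fun k => dist (x.1 k) (y.1 k)) om (𝓝 (rlim fun k => dist (x.1 k) (y.1 k))) := by
  obtain ⟨C, hC⟩ := x.2.dist_bd y.2
  exact tendsto_rlim hC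

instance instPre : PseudoMetricSpace (Pre q) where
  dist x y := rlim fun k => dist (x.1 k) (y.1 k)
  dist_self x := by
    refine tendsto_nhds_unique (Pre.tendsto x x) ?_
    simp
  dist_comm x y := by
    refine tendsto_nhds_unique (Pre.tendsto x y) ?_
    refine (Pre.tendsto y x).congr fun k => ?_
    rw [dist_comm]
  dist_triangle x y z := by
    refine le_of_tendsto_of_tendsto (Pre.tendsto x z) ((Pre.tendsto x y).add (Pre.tendsto y z)) ?_
    exact Eventually.of_forall fun k => dist_triangle _ _ _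

theorem Pre.tendsto_dist (x y : Pre q) :
    Tendsto (fun k => dist (x.1 k) (y.1 k)) om (𝓝 (dist x y)) := Pre.tendsto x y

/-- **the ultralimit** of the pointed metric spaces `(M k, q k)` -/
def UL (q : ∀ k, M k) : Type u := SeparationQuotient (Pre q)

instance instUL : MetricSpace (UL q) := inferInstanceAs (MetricSpace (SeparationQuotient (Pre q)))

/-- the class of a bounded sequence -/
def UL.mk (x : ∀ k, M k) (hx : Bd q x) : UL q := SeparationQuotient.mk (⟨x, hx⟩ : Pre q)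

theorem UL.exists_rep (y : UL q) : ∃ (x : ∀ k, M k) (hx : Bd q x), UL.mk x hx = y := by
  obtain ⟨p, hp⟩ := SeparationQuotient.surjective_mk y
  exact ⟨p.1, p.2, hp⟩

theorem UL.tendsto_dist {x y : ∀ k, M k} (hx : Bd q x) (hy : Bd q y) :
    Tendsto (fun k => dist (x k) (y k)) om (𝓝 (dist (UL.mk x hx) (UL.mk y hy))) :=
  Pre.tendsto_dist (⟨x, hx⟩ : Pre q) ⟨y, hy⟩

theorem UL.dist_eq {x y : ∀ k, M k} (hx : Bd q x) (hy : Bd q y) {a : ℝ}
    (h : Tendsto (fun k => dist (x k) (y k)) om (𝓝 a)) : dist (UL.mk x hx) (UL.mk y hy) = a :=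
  tendsto_nhds_unique (UL.tendsto_dist hx hy) h

theorem UL.dist_le {x y : ∀ k, M k} (hx : Bd q x) (hy : Bd q y) {a : ℝ}
    (h : ∀ᶠ k in om, dist (x k) (y k) ≤ a) : dist (UL.mk x hx) (UL.mk y hy) ≤ a :=
  le_of_tendsto (UL.tendsto_dist hx hy) h

theorem UL.le_dist {x y : ∀ k, M k} (hx : Bd q x) (hy : Bd q y) {a : ℝ}
    (h : ∀ᶠ k in om, a ≤ dist (x k) (y k)) : a ≤ dist (UL.mk x hx) (UL.mk y hy) :=
  ge_of_tendsto (UL.tendsto_dist hx hy) h

theorem UL.ev_lt {x y : ∀ k, M k} (hx : Bd q x) (hy : Bd q y) {a : ℝ}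
    (h : dist (UL.mk x hx) (UL.mk y hy) < a) : ∀ᶠ k in om, dist (x k) (y k) < a :=
  (UL.tendsto_dist hx hy).eventually_lt_const h

theorem UL.ev_gt {x y : ∀ k, M k} (hx : Bd q x) (hy : Bd q y) {a : ℝ}
    (h : a < dist (UL.mk x hx) (UL.mk y hy)) : ∀ᶠ k in om, a < dist (x k) (y k) :=
  (UL.tendsto_dist hx hy).eventually_const_lt h

theorem UL.mk_eq_mk {x y : ∀ k, M k} (hx : Bd q x) (hy : Bd q y) :
    UL.mk x hx = UL.mk y hy ↔ Tendsto (fun k => dist (x k) (y k)) om (𝓝 0) := by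
  constructor
  · intro h
    have := UL.tendsto_dist hx hy
    rwa [h, dist_self] at this
  · intro h
    exact dist_eq_zero.1 (UL.dist_eq hx hy h)

theorem UL.mk_congr {x y : ∀ k, M k} (hx : Bd q x) (hy : Bd q y)
    (h : ∀ᶠ k in om, x k = y k) : UL.mk x hx = UL.mk y hy := by
  rw [UL.mk_eq_mk]
  refine Tendsto.congr' ?_ tendsto_const_nhds
  filter_upwards [h] with k hk
  rw [hk, dist_self]

/-- the base point -/
def UL.base (q : ∀ k, M k) : UL q := UL.mk q (Bd.refl q)

instance : Inhabited (UL q) := ⟨UL.base q⟩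

/-! ### completeness -/

instance instCompletePre : CompleteSpace (Pre q) := by
  classical
  refine Metric.complete_of_convergent_controlled_sequences (fun N => (1 / 2 : ℝ) ^ N)
    (fun N => by positivity) ?_
  intro u hu
  set B : ℕ → ℝ := fun N => (1 / 2 : ℝ) ^ N with hB
  set P : ℕ → ℕ → Prop := fun k N => ∀ n ≤ N, ∀ m ≤ N, ∀ j, j ≤ n → j ≤ m →
    dist ((u n).1 k) ((u m).1 k) < B j with hP
  have hP0 : ∀ k, P k 0 := by
    intro k n hn m hm j hj hj'
    obtain rfl : n = 0 := by omega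
    obtain rfl : m = 0 := by omega
    rw [dist_self]
    simp only [hB]
    positivity
  have hev : ∀ N, ∀ᶠ k in om, P k N := by
    intro N
    have h1 : ∀ n ∈ Finset.range (N + 1), ∀ᶠ k in om, ∀ m ∈ Finset.range (N + 1),
        ∀ j ∈ Finset.range (N + 1), j ≤ n → j ≤ m → dist ((u n).1 k) ((u m).1 k) < B j := by
      intro n hn
      rw [eventually_all_finset]
      intro m hm
      rw [eventually_all_finset]
      intro j hj
      by_cases h : j ≤ n ∧ j ≤ m
      · have h2 := hu j n m h.1 h.2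
        filter_upwards [(Pre.tendsto_dist (u n) (u m)).eventually_lt_const h2] with k hk _ _
        exact hk
      · refine Eventually.of_forall fun k h3 h4 => absurd ⟨h3, h4⟩ h
    have h2 := (eventually_all_finset (Finset.range (N + 1))).2 h1
    filter_upwards [h2] with k hk
    intro n hn m hm j hj hj'
    exact hk n (by simp; omega) m (by simp; omega) j (by simp; omega) hj hj'
  set N : ℕ → ℕ := fun k => Nat.findGreatest (P k) k with hN
  have hNP : ∀ k, P k (N k) := fun k => Nat.findGreatest_spec (P := P k) (Nat.zero_le k) (hP0 k)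
  have hkey : ∀ n, ∀ᶠ k in om, dist ((u n).1 k) ((u (N k)).1 k) < B n := by
    intro n
    filter_upwards [hev n, ev_ge n] with k hk hkn
    have h1 : n ≤ N k := Nat.le_findGreatest hkn hk
    exact hNP k n h1 (N k) le_rfl n le_rfl h1
  have hbd : Bd q (fun k => (u (N k)).1 k) := (u 0).2.trans ((hkey 0).mono fun _ hk => hk.le)
  set y : Pre q := ⟨fun k => (u (N k)).1 k, hbd⟩ with hy
  refine ⟨y, ?_⟩
  refine tendsto_iff_dist_tendsto_zero.2 ?_
  refine squeeze_zero (fun _ => dist_nonneg) (g := B) ?_ ?_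
  · intro n
    exact le_of_tendsto (Pre.tendsto_dist (u n) y) ((hkey n).mono fun _ hk => hk.le)
  · exact tendsto_pow_atTop_nhds_zero_of_lt_one (by norm_num) (by norm_num)

instance instCompleteUL : CompleteSpace (UL q) :=
  inferInstanceAs (CompleteSpace (SeparationQuotient (Pre q)))

end Crest.Agent.R249.Ul174
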