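import Crest.Agent.R085.Lim1
import Crest.Agent.R249.Ul1_174

/-!
# R249, D3-LIM/MS (1) (helper717): the limit measure of the push-forwards along the ultrafilter

`exists_riesz` : if `m k` is a measure on `X k` of mass `≤ C` and `v k : X k → ℝⁿ`, there is a
finite measure `ν` on `ℝⁿ` with `∫ φ (v k) dm_k → ∫ φ dν` for all `φ ∈ C_c`, and with the two
one-sided comparisons of the measures of sets.
-/

set_option autoImplicit false
noncomputable section
open Set Filter Topology MeasureTheory Metric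
open scoped ENNReal NNReal
open Crest.Agent.R249.Ul174 Crest.Agent.R085

namespace Crest.Agent.R249.Ms1_717

variable {n : ℕ} {X : ℕ → Type*} [∀ k, MeasurableSpace (X k)]

/-- the limit measure -/
structure LimMeas (m : ∀ k, Measure (X k)) (v : ∀ k, X k → EuclideanSpace ℝ (Fin n))
    (ν : Measure (EuclideanSpace ℝ (Fin n))) : Prop where
  fin : IsFiniteMeasure ν
  lim : ∀ φ : EuclideanSpace ℝ (Fin n) → ℝ, Continuous φ → HasCompactSupport φ →
    Tendsto (fun k => ∫ y, φ (v k y) ∂(m k)) om (𝓝 (∫ z, φ z ∂ν))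
  /-- open sets -/
  le_open : ∀ G : Set (EuclideanSpace ℝ (Fin n)), IsOpen G → ∀ b : ℝ≥0∞,
    (∀ᶠ k in om, m k {y | v k y ∈ G} ≤ b) → ν G ≤ b
  /-- compact sets -/
  ge_compact : ∀ K : Set (EuclideanSpace ℝ (Fin n)), IsCompact K → ∀ b : ℝ≥0∞,
    (∀ᶠ k in om, b ≤ m k {y | v k y ∈ K}) → b ≤ ν K
  /-- (R+) -/
  le_of : ∀ K O : Set (EuclideanSpace ℝ (Fin n)), K ⊆ O → IsOpen O → ∀ b : ℝ≥0∞,
    (∀ᶠ k in om, m k {y | v k y ∈ O} ≤ b) → ν K ≤ b
  /-- (R-) -/
  ge_of : ∀ K O : Set (EuclideanSpace ℝ (Fin n)), IsCompact K → K ⊆ O → ∀ b : ℝ≥0∞,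
    (∀ᶠ k in om, b ≤ m k {y | v k y ∈ K}) → b ≤ ν O

theorem exists_riesz (m : ∀ k, Measure (X k)) (v : ∀ k, X k → EuclideanSpace ℝ (Fin n)) (C : ℝ)
    (hC : ∀ᶠ k in om, m k univ ≤ ENNReal.ofReal C) (hv : ∀ᶠ k in om, AEMeasurable (v k) (m k)) :
    ∃ ν : Measure (EuclideanSpace ℝ (Fin n)), LimMeas m v ν := by
  classical
  set μ : ℕ → Measure (EuclideanSpace ℝ (Fin n)) := fun k =>
    if m k univ ≤ ENNReal.ofReal C then (m k).map (v k) else 0 with hμ
  have hμC : ∀ k, μ k univ ≤ ENNReal.ofReal C := by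
    intro k
    simp only [hμ]
    split_ifs with h
    · by_cases h1 : AEMeasurable (v k) (m k)
      · rw [Measure.map_apply_of_aemeasurable h1 MeasurableSet.univ, preimage_univ]
        exact h
      · rw [Measure.map_of_not_aemeasurable h1]
        simp
    · simp
  have hfin : ∀ k, IsFiniteMeasure (μ k) := fun k =>
    ⟨(hμC k).trans_lt ENNReal.ofReal_lt_top⟩
  have hunif : UnifLocBdd (omU : Filter ℕ) μ := by
    intro K _
    refine ⟨C.toNNReal, Eventually.of_forall fun k => ?_⟩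
    exact (measure_mono (subset_univ K)).trans (hμC k)
  obtain ⟨ν, hν1, hν2, hν3⟩ := exists_vagueTendsto omU μ hunif
  -- measures of sets
  have hset : ∀ᶠ k in om, ∀ A : Set (EuclideanSpace ℝ (Fin n)), MeasurableSet A →
      μ k A = m k {y | v k y ∈ A} := by
    filter_upwards [hC, hv] with k h1 h2 A hA
    simp only [hμ, h1, if_true]
    exact Measure.map_apply_of_aemeasurable h2 hA
  have hopen : ∀ G : Set (EuclideanSpace ℝ (Fin n)), IsOpen G → ∀ b : ℝ≥0∞,
      (∀ᶠ k in om, m k {y | v k y ∈ G} ≤ b) → ν G ≤ b := by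
    intro G hG b hb
    have h1 : ∀ᶠ k in (omU : Filter ℕ), μ k G ≤ b := by
      have : ∀ᶠ k in om, μ k G ≤ b := by
        filter_upwards [hset, hb] with k h1 h2
        rw [h1 G hG.measurableSet]
        exact h2
      exact this
    exact hν3.measure_open_le hG h1.frequently
  have hcomp : ∀ K : Set (EuclideanSpace ℝ (Fin n)), IsCompact K → ∀ b : ℝ≥0∞,
      (∀ᶠ k in om, b ≤ m k {y | v k y ∈ K}) → b ≤ ν K := by
    intro K hK b hb
    have h1 : ∀ᶠ k in (omU : Filter ℕ), b ≤ μ k K := by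
      have : ∀ᶠ k in om, b ≤ μ k K := by
        filter_upwards [hset, hb] with k h1 h2
        rw [h1 K hK.measurableSet]
        exact h2
      exact this
    exact hν3.le_measure_compact hK h1.frequently
  refine ⟨ν, ⟨⟨?_⟩, ?_, hopen, hcomp, ?_, ?_⟩⟩
  · refine (hopen univ isOpen_univ (ENNReal.ofReal C) ?_).trans_lt ENNReal.ofReal_lt_top
    filter_upwards [hC] with k hk
    simpa using hk
  · intro φ hφ hφc
    have h1 := hν3 φ hφ hφc
    refine Tendsto.congr' ?_ h1
    have : ∀ᶠ k in om, ∫ x, φ x ∂(μ k) = ∫ y, φ (v k y) ∂(m k) := by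
      filter_upwards [hC, hv] with k h1 h2
      simp only [hμ, h1, if_true]
      exact integral_map h2 hφ.aestronglyMeasurable
    exact this
  · intro K O hKO hO b hb
    exact (measure_mono hKO).trans (hopen O hO b hb)
  · intro K O hK hKO b hb
    exact (hcomp K hK b hb).trans (measure_mono hKO)

end Crest.Agent.R249.Ms1_717
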