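import Crest.Agent.R226.NearDiagFinal_996

/-!
# R249, B3.2 (helper40): the local Myers-Steenrod lemma

`ModDist n r D`: `D` is a model distance function on the ball of radius `r` of `ℝⁿ`, written in
normal coordinates (rays through `0` are minimal, first variation of `D²/2` at the centre).
`exists_linear`: a map `F` from the ball into a closed Riemannian manifold with
`dist (F v) (F w) = D v w` is `e x ∘ A` for a linear isometry `A`, where `e` is the local exponential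
map of `R226` (`NearDiag`).
-/

set_option autoImplicit false
set_option maxSynthPendingDepth 3
set_option linter.unusedSectionVars false

open MeasureTheory Bundle Set Filter
open scoped Manifold ContDiff Bundle ENNReal Topology
open Crest.GeometryTopology.MTW Crest.Agent.R226

noncomputable section

namespace Crest.Agent.R249.MyS40

/-- a model distance function in normal coordinates on the ball of radius `r`. -/
structure ModDist (n : ℕ) (r : ℝ)
    (D : EuclideanSpace ℝ (Fin n) → EuclideanSpace ℝ (Fin n) → ℝ) : Prop where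
  ray : ∀ v : EuclideanSpace ℝ (Fin n), ‖v‖ < r → ∀ s t : ℝ, 0 ≤ s → s ≤ 1 → 0 ≤ t → t ≤ 1 →
    D (s • v) (t • v) = |s - t| * ‖v‖
  var : ∀ v ξ : EuclideanSpace ℝ (Fin n), ‖v‖ < r → ‖ξ‖ < r →
    HasDerivWithinAt (fun t : ℝ => D (t • ξ) v ^ 2 / 2) (-inner ℝ v ξ) (Ici 0) 0

/-- comparison of one sided derivatives -/
theorem deriv_le_of_le {h q : ℝ → ℝ} {h' q' : ℝ} (hh : HasDerivWithinAt h h' (Ici 0) 0)
    (hq : HasDerivWithinAt q q' (Ici 0) 0) (h0 : h 0 = q 0)
    (hle : ∀ s : ℝ, 0 ≤ s → s ≤ 1 → q s ≤ h s) : q' ≤ h' := by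
  have hd : HasDerivWithinAt (fun s => h s - q s) (h' - q') (Ioi 0) 0 :=
    (hh.sub hq).Ioi_of_Ici
  rw [hasDerivWithinAt_iff_tendsto_slope' (by simp)] at hd
  have h1 : 0 ≤ h' - q' := by
    refine ge_of_tendsto hd ?_
    have h2 : Ioo (0:ℝ) 1 ∈ 𝓝[Ioi 0] (0:ℝ) := Ioo_mem_nhdsGT (by norm_num)
    filter_upwards [h2] with s hs
    rw [slope_def_field]
    have := hle s hs.1.le hs.2.le
    have h3 : (h s - q s) - (h 0 - q 0) = h s - q s := by rw [h0]; ring
    rw [h3, sub_zero]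
    exact div_nonneg (by linarith) hs.1.le
  linarith

section Main

variable {n : ℕ} {M : Type*} [MetricSpace M] [ChartedSpace (EuclideanSpace ℝ (Fin n)) M]
  [IsManifold (𝓡 n) ∞ M]
  [RiemannianBundle (fun p : M => TangentSpace (𝓡 n) p)]

local notation "𝔼" => EuclideanSpace ℝ (Fin n)

theorem hom_of_dist (G : NearDiag n M) (x : M) {u w : TangentSpace (𝓡 n) x} (hu : ‖u‖ < G.r₀)
    {t : ℝ} (ht0 : 0 ≤ t) (ht1 : t ≤ 1) (hw : ‖w‖ = t * ‖u‖)
    (hd : dist (G.e x u) (G.e x w) = (1 - t) * ‖u‖) : w = t • u := by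
  have hw' : ‖w‖ < G.r₀ := by
    rw [hw]
    nlinarith [norm_nonneg u]
  have hnu : ‖-u‖ < G.r₀ := by rwa [norm_neg]
  -- the function `h`
  have hder := (G.hasDerivAt_cost x w (-u) hw' hnu).hasDerivWithinAt (s := Ici (0:ℝ))
  have hq : HasDerivWithinAt (fun s : ℝ => ((s + t) * ‖u‖) ^ 2 / 2) (t * ‖u‖ ^ 2) (Ici 0) 0 := by
    have h1 : HasDerivAt (fun s : ℝ => ((s + t) * ‖u‖) ^ 2 / 2) (t * ‖u‖ ^ 2) 0 := by
      have h2 : HasDerivAt (fun s : ℝ => (s + t) * ‖u‖) (1 * ‖u‖) 0 :=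
        ((hasDerivAt_id (0:ℝ)).add_const t).mul_const ‖u‖
      have h3 := (h2.pow 2).div_const 2
      refine h3.congr_deriv ?_
      simp only [zero_add, one_mul]
      norm_num
      ring
    exact h1.hasDerivWithinAt
  have hdist0 : ∀ s : ℝ, 0 ≤ s → s ≤ 1 → dist (G.e x (s • (-u))) (G.e x u) = (s + 1) * ‖u‖ := by
    intro s hs0 hs1
    have := G.dist_eq x u hu (-s) 1 (by rw [abs_neg, abs_of_nonneg hs0]; exact hs1) (by simp)
    rw [one_smul] at this
    rw [smul_neg, ← neg_smul, this]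
    congr 1
    rw [abs_of_nonpos (by linarith)]
    ring
  have hle : ∀ s : ℝ, 0 ≤ s → s ≤ 1 →
      ((s + t) * ‖u‖) ^ 2 / 2 ≤ halfDistSq (G.e x (s • (-u))) (G.e x w) := by
    intro s hs0 hs1
    have h1 := dist_triangle (G.e x (s • (-u))) (G.e x w) (G.e x u)
    rw [hdist0 s hs0 hs1, dist_comm (G.e x w) (G.e x u), hd] at h1
    have h2 : (s + t) * ‖u‖ ≤ dist (G.e x (s • (-u))) (G.e x w) := by linarith
    have h3 : 0 ≤ (s + t) * ‖u‖ := mul_nonneg (by linarith) (norm_nonneg _)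
    unfold halfDistSq
    have := pow_le_pow_left₀ h3 h2 2
    linarith
  have h0 : halfDistSq (G.e x ((0:ℝ) • (-u))) (G.e x w) = ((0 + t) * ‖u‖) ^ 2 / 2 := by
    have := G.dist_eq x w hw' 0 1 (by simp) (by simp)
    rw [one_smul, zero_smul] at this
    rw [zero_smul]
    unfold halfDistSq
    rw [this, hw]
    simp
  have h5 := deriv_le_of_le hder hq h0 hle
  rw [inner_neg_right, neg_neg] at h5
  have h6 : ‖w - t • u‖ ^ 2 ≤ 0 := by
    have e1 : ‖w - t • u‖ ^ 2 = ‖w‖ ^ 2 - 2 * inner ℝ w (t • u) + ‖t • u‖ ^ 2 :=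
      norm_sub_sq_real w (t • u)
    rw [e1, inner_smul_right, norm_smul, hw, Real.norm_eq_abs, abs_of_nonneg ht0]
    nlinarith
  have h7 : ‖w - t • u‖ = 0 := by
    have : ‖w - t • u‖ ^ 2 = 0 := le_antisymm h6 (by positivity)
    exact pow_eq_zero_iff (two_ne_zero) |>.1 this
  exact sub_eq_zero.1 (norm_eq_zero.1 h7)

/-- **Local Myers–Steenrod lemma.** -/
theorem exists_linear (G : NearDiag n M) {x : M} {r : ℝ} (hr0 : 0 < r) (hr : r ≤ G.r₀)
    {D : 𝔼 → 𝔼 → ℝ} (hD : ModDist n r D) {F : 𝔼 → M} (hF0 : F 0 = x)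
    (hF : ∀ v w : 𝔼, ‖v‖ < r → ‖w‖ < r → dist (F v) (F w) = D v w) :
    ∃ A : 𝔼 →ₗ[ℝ] TangentSpace (𝓡 n) x, (∀ v w : 𝔼, inner ℝ (A v) (A w) = inner ℝ v w) ∧
      ∀ v : 𝔼, ‖v‖ < r → F v = G.e x (A v) := by
  classical
  have hz : ‖(0:𝔼)‖ < r := by simpa using hr0
  have hd0 : ∀ v : 𝔼, ‖v‖ < r → dist x (F v) = ‖v‖ := by
    intro v hv
    rw [← hF0, hF 0 v hz hv]
    have := hD.ray v hv 0 1 le_rfl zero_le_one zero_le_one le_rfl
    rw [zero_smul, one_smul] at this
    rw [this]; simp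
  have hex : ∀ v : 𝔼, ∃ u : TangentSpace (𝓡 n) x, ‖v‖ < r → ‖u‖ = ‖v‖ ∧ G.e x u = F v := by
    intro v
    by_cases hv : ‖v‖ < r
    · obtain ⟨u, hu1, hu2⟩ := G.surj x (F v) (by rw [hd0 v hv]; exact hv.trans_le hr)
      exact ⟨u, fun _ => ⟨by rw [hu1, hd0 v hv], hu2⟩⟩
    · exact ⟨0, fun h => absurd h hv⟩
  choose T hT using hex
  have hTn : ∀ v : 𝔼, ‖v‖ < r → ‖T v‖ = ‖v‖ := fun v hv => (hT v hv).1
  have hTe : ∀ v : 𝔼, ‖v‖ < r → G.e x (T v) = F v := fun v hv => (hT v hv).2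
  have hsm : ∀ v : 𝔼, ‖v‖ < r → ∀ t : ℝ, 0 ≤ t → t ≤ 1 → ‖t • v‖ < r := by
    intro v hv t ht0 ht1
    rw [norm_smul, Real.norm_eq_abs, abs_of_nonneg ht0]
    nlinarith [norm_nonneg v]
  have hhom : ∀ v : 𝔼, ‖v‖ < r → ∀ t : ℝ, 0 ≤ t → t ≤ 1 → T (t • v) = t • T v := by
    intro v hv t ht0 ht1
    refine hom_of_dist G x (u := T v) ((hTn v hv).trans_lt (hv.trans_le hr)) ht0 ht1 ?_ ?_
    · rw [hTn _ (hsm v hv t ht0 ht1), hTn v hv, norm_smul, Real.norm_eq_abs, abs_of_nonneg ht0]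
    · rw [hTe v hv, hTe _ (hsm v hv t ht0 ht1), hF v _ hv (hsm v hv t ht0 ht1), hTn v hv]
      have := hD.ray v hv 1 t zero_le_one le_rfl ht0 ht1
      rw [one_smul] at this
      rw [this, abs_of_nonneg (by linarith)]
  have hinn : ∀ v ξ : 𝔼, ‖v‖ < r → ‖ξ‖ < r → inner ℝ (T v) (T ξ) = inner ℝ v ξ := by
    intro v ξ hv hξ
    have h1 := (G.hasDerivAt_cost x (T v) (T ξ) ((hTn v hv).trans_lt (hv.trans_le hr))
      ((hTn ξ hξ).trans_lt (hξ.trans_le hr))).hasDerivWithinAt (s := Icc (0:ℝ) 1)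
    have h2 := (hD.var v ξ hv hξ).mono (Icc_subset_Ici_self : Icc (0:ℝ) 1 ⊆ Ici 0)
    have h3 : HasDerivWithinAt (fun t : ℝ => D (t • ξ) v ^ 2 / 2) (-inner ℝ (T v) (T ξ))
        (Icc (0:ℝ) 1) 0 := by
      refine h1.congr ?_ ?_
      · intro t ht
        have e1 : G.e x (t • T ξ) = F (t • ξ) := by
          rw [← hhom ξ hξ t ht.1 ht.2, hTe _ (hsm ξ hξ t ht.1 ht.2)]
        show D (t • ξ) v ^ 2 / 2 = halfDistSq (G.e x (t • T ξ)) (G.e x (T v))
        rw [e1, hTe v hv]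
        unfold halfDistSq
        rw [hF _ _ (hsm ξ hξ t ht.1 ht.2) hv]
      · have e1 : G.e x ((0:ℝ) • T ξ) = F ((0:ℝ) • ξ) := by
          rw [← hhom ξ hξ 0 le_rfl zero_le_one, hTe _ (hsm ξ hξ 0 le_rfl zero_le_one)]
        show D ((0:ℝ) • ξ) v ^ 2 / 2 = halfDistSq (G.e x ((0:ℝ) • T ξ)) (G.e x (T v))
        rw [e1, hTe v hv]
        unfold halfDistSq
        rw [hF _ _ (hsm ξ hξ 0 le_rfl zero_le_one) hv]
    have hu : UniqueDiffWithinAt ℝ (Icc (0:ℝ) 1) 0 :=
      uniqueDiffOn_Icc (by norm_num) 0 (by simp)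
    have h4 := hu.eq_deriv (Icc (0:ℝ) 1) h3 h2
    linarith
  -- the linear map
  set c : ℝ := r / 2 with hc
  have hcpos : 0 < c := by positivity
  set b : Fin n → 𝔼 := fun i => c • EuclideanSpace.single i (1:ℝ) with hb
  have hbn : ∀ i, ‖b i‖ < r := by
    intro i
    rw [hb]
    simp only [norm_smul, PiLp.norm_single, norm_one, mul_one, Real.norm_eq_abs,
      abs_of_pos hcpos]
    rw [hc]; linarith
  have hvb : ∀ (v : 𝔼) (i : Fin n), inner ℝ v (b i) = c * v i := by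
    intro v i
    rw [hb]
    simp [inner_smul_right, EuclideanSpace.inner_single_right]
  have hbb : ∀ i j : Fin n, inner ℝ (b i) (b j) = if i = j then c ^ 2 else 0 := by
    intro i j
    rw [hvb, hb]
    by_cases hij : i = j
    · subst hij; simp; ring
    · simp [hij]
  let A : 𝔼 →ₗ[ℝ] TangentSpace (𝓡 n) x :=
    { toFun := fun v => ∑ i, (v i / c) • T (b i)
      map_add' := by
        intro v w
        rw [← Finset.sum_add_distrib]
        refine Finset.sum_congr rfl fun i _ => ?_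
        rw [← add_smul]
        congr 1
        simp [add_div]
      map_smul' := by
        intro a v
        rw [Finset.smul_sum]
        refine Finset.sum_congr rfl fun i _ => ?_
        rw [smul_smul]
        congr 1
        simp [mul_div_assoc] }
  have hAapp : ∀ v : 𝔼, A v = ∑ i, (v i / c) • T (b i) := fun v => rfl
  have hAA : ∀ v w : 𝔼, inner ℝ (A v) (A w) = inner ℝ v w := by
    intro v w
    rw [hAapp, hAapp, sum_inner]
    have : ∀ i ∈ Finset.univ, inner ℝ ((v i / c) • T (b i)) (∑ j, (w j / c) • T (b j)) =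
        v i * w i := by
      intro i _
      rw [inner_sum]
      have : ∀ j ∈ Finset.univ, inner ℝ ((v i / c) • T (b i)) ((w j / c) • T (b j)) =
          if i = j then v i * w j else 0 := by
        intro j _
        rw [real_inner_smul_left, real_inner_smul_right, hinn _ _ (hbn i) (hbn j), hbb]
        by_cases hij : i = j
        · simp only [hij, if_true]
          field_simp
        · simp [hij]
      rw [Finset.sum_congr rfl this]
      simp
    rw [Finset.sum_congr rfl this]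
    simp only [PiLp.inner_apply]
    refine Finset.sum_congr rfl fun i _ => ?_
    simp [mul_comm]
  refine ⟨A, hAA, fun v hv => ?_⟩
  have hTA : T v = A v := by
    have e1 : inner ℝ (T v) (A v) = inner ℝ v v := by
      rw [hAapp, inner_sum]
      have : ∀ i ∈ Finset.univ, inner ℝ (T v) ((v i / c) • T (b i)) = v i * v i := by
        intro i _
        rw [real_inner_smul_right, hinn v _ hv (hbn i), hvb]
        field_simp
      rw [Finset.sum_congr rfl this]
      simp only [PiLp.inner_apply]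
      refine Finset.sum_congr rfl fun i _ => ?_
      simp [sq]
    have e2 : ‖T v - A v‖ ^ 2 = 0 := by
      have e3 : ‖T v - A v‖ ^ 2 = ‖T v‖ ^ 2 - 2 * inner ℝ (T v) (A v) + ‖A v‖ ^ 2 :=
        norm_sub_sq_real (T v) (A v)
      have e4 : ‖A v‖ ^ 2 = inner ℝ v v := by
        rw [← real_inner_self_eq_norm_sq, hAA]
      rw [e3, e1, e4, hTn v hv, real_inner_self_eq_norm_sq]
      ring
    exact sub_eq_zero.1 (norm_eq_zero.1 (pow_eq_zero_iff (two_ne_zero) |>.1 e2))
  rw [← hTA, hTe v hv]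

end Main

end Crest.Agent.R249.MyS40
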