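import Mathlib

/-!
# R249, leaf L-NI (helper923), part 1: linear algebra

`nrm A v = √(v ⬝ᵥ A⁻¹ *ᵥ v)` for a symmetric matrix `A ≥ 1/2`:
* `nrm_add_le`, `nrm_le_sum`, `abs_nrm_sub_le`;
* `nrm_near` : for `g : Fin n → ℝⁿ`, `w : ℝⁿ`, `κ = ∑ |⟪g a, g b⟫ - A a b|` one has
  `| nrm A (⟪g a, w⟫)_a - ‖w‖ | ≤ 2 κ ‖w‖`.
-/

set_option autoImplicit false
open Matrix Finset

noncomputable section
namespace Crest.Agent.R249.NI_923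

variable {n : ℕ}

/-- `|v|_{A⁻¹}` -/
def nrm (A : Matrix (Fin n) (Fin n) ℝ) (v : Fin n → ℝ) : ℝ := √(v ⬝ᵥ (A⁻¹ *ᵥ v))

/-- symmetric, `≥ 1/2` -/
structure Lo (A : Matrix (Fin n) (Fin n) ℝ) : Prop where
  symm : A.IsSymm
  lo : ∀ v : Fin n → ℝ, 1 / 2 * (v ⬝ᵥ v) ≤ v ⬝ᵥ (A *ᵥ v)

variable {A : Matrix (Fin n) (Fin n) ℝ}

lemma dot_nonneg (v : Fin n → ℝ) : 0 ≤ v ⬝ᵥ v := by
  simp only [dotProduct]
  exact Finset.sum_nonneg fun i _ => mul_self_nonneg _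

lemma Lo.nonneg (h : Lo A) (v : Fin n → ℝ) : 0 ≤ v ⬝ᵥ (A *ᵥ v) := by
  have := h.lo v
  have := dot_nonneg v
  linarith

lemma Lo.swap (h : Lo A) (v w : Fin n → ℝ) : v ⬝ᵥ (A *ᵥ w) = w ⬝ᵥ (A *ᵥ v) := by
  rw [dotProduct_mulVec, ← mulVec_transpose, h.symm.eq, dotProduct_comm]

/-- Cauchy–Schwarz for a nonnegative symmetric matrix -/
lemma cs_of_nonneg {B : Matrix (Fin n) (Fin n) ℝ} (hs : ∀ v w : Fin n → ℝ, v ⬝ᵥ (B *ᵥ w) = w ⬝ᵥ (B *ᵥ v))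
    (h0 : ∀ v : Fin n → ℝ, 0 ≤ v ⬝ᵥ (B *ᵥ v)) (v w : Fin n → ℝ) :
    (v ⬝ᵥ (B *ᵥ w)) ^ 2 ≤ (v ⬝ᵥ (B *ᵥ v)) * (w ⬝ᵥ (B *ᵥ w)) := by
  set a := v ⬝ᵥ (B *ᵥ v) with ha
  set b := v ⬝ᵥ (B *ᵥ w) with hb
  set c := w ⬝ᵥ (B *ᵥ w) with hc
  have key : ∀ t : ℝ, 0 ≤ c * (t * t) + (2 * b) * t + a := by
    intro t
    have h1 := h0 (v + t • w)
    rw [mulVec_add, mulVec_smul, add_dotProduct, dotProduct_add, dotProduct_add, smul_dotProduct,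
      smul_dotProduct, dotProduct_smul, dotProduct_smul, hs w v] at h1
    simp only [smul_eq_mul] at h1
    rw [← ha, ← hb, ← hc] at h1
    nlinarith [h1]
  have := discrim_le_zero key
  unfold discrim at this
  nlinarith

lemma Lo.cs (h : Lo A) (v w : Fin n → ℝ) :
    (v ⬝ᵥ (A *ᵥ w)) ^ 2 ≤ (v ⬝ᵥ (A *ᵥ v)) * (w ⬝ᵥ (A *ᵥ w)) := cs_of_nonneg h.swap h.nonneg v w

lemma Lo.isUnit (h : Lo A) : IsUnit A.det := by
  rw [← Matrix.isUnit_iff_isUnit_det]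
  rw [← Matrix.mulVec_injective_iff_isUnit]
  intro v w hvw
  have h1 : A *ᵥ (v - w) = 0 := by rw [mulVec_sub]; simp [hvw]
  have h2 := h.lo (v - w)
  rw [h1, dotProduct_zero] at h2
  have h3 : (v - w) ⬝ᵥ (v - w) = 0 := le_antisymm (by linarith) (dot_nonneg _)
  exact sub_eq_zero.1 (dotProduct_self_eq_zero.1 h3)

lemma Lo.mul_inv (h : Lo A) (v : Fin n → ℝ) : A *ᵥ (A⁻¹ *ᵥ v) = v := by
  rw [mulVec_mulVec, Matrix.mul_nonsing_inv _ h.isUnit, one_mulVec]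

/-- `v ⬝ᵥ A⁻¹ v = ξ ⬝ᵥ A ξ`, `ξ = A⁻¹ v` -/
lemma Lo.inv_form (h : Lo A) (v w : Fin n → ℝ) :
    v ⬝ᵥ (A⁻¹ *ᵥ w) = (A⁻¹ *ᵥ v) ⬝ᵥ (A *ᵥ (A⁻¹ *ᵥ w)) := by
  rw [h.swap, h.mul_inv, dotProduct_comm]

lemma Lo.inv_swap (h : Lo A) (v w : Fin n → ℝ) :
    v ⬝ᵥ (A⁻¹ *ᵥ w) = w ⬝ᵥ (A⁻¹ *ᵥ v) := by
  rw [h.inv_form, h.inv_form w v, h.swap]

lemma Lo.inv_nonneg (h : Lo A) (v : Fin n → ℝ) : 0 ≤ v ⬝ᵥ (A⁻¹ *ᵥ v) := by
  rw [h.inv_form]; exact h.nonneg _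

lemma Lo.inv_cs (h : Lo A) (v w : Fin n → ℝ) :
    (v ⬝ᵥ (A⁻¹ *ᵥ w)) ^ 2 ≤ (v ⬝ᵥ (A⁻¹ *ᵥ v)) * (w ⬝ᵥ (A⁻¹ *ᵥ w)) :=
  cs_of_nonneg h.inv_swap h.inv_nonneg v w

lemma Lo.nrm_sq (h : Lo A) (v : Fin n → ℝ) : nrm A v ^ 2 = v ⬝ᵥ (A⁻¹ *ᵥ v) :=
  Real.sq_sqrt (h.inv_nonneg v)

lemma nrm_nonneg (A : Matrix (Fin n) (Fin n) ℝ) (v : Fin n → ℝ) : 0 ≤ nrm A v := Real.sqrt_nonneg _

@[simp] lemma nrm_zero (A : Matrix (Fin n) (Fin n) ℝ) : nrm A 0 = 0 := by simp [nrm]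

lemma nrm_neg (A : Matrix (Fin n) (Fin n) ℝ) (v : Fin n → ℝ) : nrm A (-v) = nrm A v := by
  simp [nrm, mulVec_neg]

lemma Lo.nrm_add_le (h : Lo A) (v w : Fin n → ℝ) : nrm A (v + w) ≤ nrm A v + nrm A w := by
  apply Real.sqrt_le_iff.2 ⟨add_nonneg (nrm_nonneg _ _) (nrm_nonneg _ _), ?_⟩
  have h1 : (v + w) ⬝ᵥ (A⁻¹ *ᵥ (v + w)) =
      v ⬝ᵥ (A⁻¹ *ᵥ v) + 2 * (v ⬝ᵥ (A⁻¹ *ᵥ w)) + w ⬝ᵥ (A⁻¹ *ᵥ w) := by
    rw [mulVec_add, add_dotProduct, dotProduct_add, dotProduct_add, h.inv_swap w v]; ring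
  have h2 : v ⬝ᵥ (A⁻¹ *ᵥ w) ≤ nrm A v * nrm A w := by
    refine (le_abs_self _).trans (abs_le_of_sq_le_sq ?_
      (mul_nonneg (nrm_nonneg _ _) (nrm_nonneg _ _)))
    rw [mul_pow, h.nrm_sq, h.nrm_sq]
    exact h.inv_cs v w
  rw [h1, add_sq, h.nrm_sq, h.nrm_sq]
  linarith

lemma Lo.abs_nrm_sub_le (h : Lo A) (v w : Fin n → ℝ) : |nrm A v - nrm A w| ≤ nrm A (v - w) := by
  have h1 := h.nrm_add_le (v - w) w
  have h2 := h.nrm_add_le (w - v) v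
  rw [sub_add_cancel] at h1 h2
  have h3 : nrm A (w - v) = nrm A (v - w) := by rw [← nrm_neg, neg_sub]
  rw [abs_le]
  constructor <;> linarith

/-- `|v|²_{A⁻¹} ≤ 2 |v|²` -/
lemma Lo.nrm_sq_le (h : Lo A) (v : Fin n → ℝ) : nrm A v ^ 2 ≤ 2 * (v ⬝ᵥ v) := by
  set ξ := A⁻¹ *ᵥ v with hξ
  have h1 : nrm A v ^ 2 = ξ ⬝ᵥ (A *ᵥ ξ) := by rw [h.nrm_sq, h.inv_form]
  have h2 : nrm A v ^ 2 = v ⬝ᵥ ξ := h.nrm_sq v
  have h3 := h.lo ξ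
  have h4 : 2 * (v ⬝ᵥ ξ) ≤ 2 * (v ⬝ᵥ v) + 1 / 2 * (ξ ⬝ᵥ ξ) := by
    have h5 := dot_nonneg ((2 : ℝ) • v - ξ)
    rw [sub_dotProduct, dotProduct_sub, dotProduct_sub, smul_dotProduct, smul_dotProduct,
      dotProduct_smul, dotProduct_smul, dotProduct_comm ξ v] at h5
    simp only [smul_eq_mul] at h5
    nlinarith
  linarith

lemma Lo.nrm_le_sum (h : Lo A) (v : Fin n → ℝ) : nrm A v ≤ √2 * ∑ a, |v a| := by
  have h0 : 0 ≤ ∑ a, |v a| := Finset.sum_nonneg fun i _ => abs_nonneg _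
  refine (le_abs_self _).trans (abs_le_of_sq_le_sq ?_ (by positivity))
  rw [mul_pow, Real.sq_sqrt (by norm_num)]
  refine (h.nrm_sq_le v).trans ?_
  have h1 : v ⬝ᵥ v ≤ (∑ a, |v a|) ^ 2 := by
    have h2 : v ⬝ᵥ v = ∑ a, |v a| ^ 2 := by
      simp only [dotProduct]
      exact Finset.sum_congr rfl fun i _ => by rw [sq_abs, sq]
    rw [h2]
    exact Finset.sum_sq_le_sq_sum_of_nonneg fun i _ => abs_nonneg _
  linarith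

/-- the quadratic form of an entrywise small matrix -/
lemma abs_form_le (E : Matrix (Fin n) (Fin n) ℝ) (ξ : Fin n → ℝ) :
    |ξ ⬝ᵥ (E *ᵥ ξ)| ≤ (∑ a, ∑ b, |E a b|) * (ξ ⬝ᵥ ξ) := by
  have h0 : ξ ⬝ᵥ (E *ᵥ ξ) = ∑ a, ∑ b, ξ a * E a b * ξ b := by
    simp only [dotProduct, mulVec, Finset.mul_sum, mul_assoc]
  have hle : ∀ a b, |ξ a| * |ξ b| ≤ ξ ⬝ᵥ ξ := by
    intro a b
    have h1 : ∀ c, ξ c ^ 2 ≤ ξ ⬝ᵥ ξ := by
      intro c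
      have : ξ ⬝ᵥ ξ = ∑ c, ξ c ^ 2 := by
        simp only [dotProduct]; exact Finset.sum_congr rfl fun i _ => (sq _).symm
      rw [this]
      exact Finset.single_le_sum (f := fun c => ξ c ^ 2) (fun i _ => sq_nonneg _) (Finset.mem_univ c)
    have h2 := h1 a
    have h3 := h1 b
    have h4 := sq_nonneg (|ξ a| - |ξ b|)
    rw [sub_sq, sq_abs, sq_abs] at h4
    nlinarith
  rw [h0]
  calc |∑ a, ∑ b, ξ a * E a b * ξ b| ≤ ∑ a, |∑ b, ξ a * E a b * ξ b| := Finset.abs_sum_le_sum_abs _ _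
    _ ≤ ∑ a, ∑ b, |ξ a * E a b * ξ b| :=
        Finset.sum_le_sum fun a _ => Finset.abs_sum_le_sum_abs _ _
    _ ≤ ∑ a, ∑ b, |E a b| * (ξ ⬝ᵥ ξ) := by
        refine Finset.sum_le_sum fun a _ => Finset.sum_le_sum fun b _ => ?_
        rw [abs_mul, abs_mul]
        calc |ξ a| * |E a b| * |ξ b| = |E a b| * (|ξ a| * |ξ b|) := by ring
          _ ≤ |E a b| * (ξ ⬝ᵥ ξ) := by gcongr; exact hle a b
    _ = _ := by
        rw [Finset.sum_mul]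
        exact Finset.sum_congr rfl fun a _ => (Finset.sum_mul _ _ _).symm

local notation "𝔼" => EuclideanSpace ℝ (Fin n)

/-- the Gram form -/
lemma gram_form (g : Fin n → 𝔼) (ξ : Fin n → ℝ) :
    ξ ⬝ᵥ ((Matrix.of fun a b => (inner ℝ (g a) (g b) : ℝ)) *ᵥ ξ) = ‖∑ a, ξ a • g a‖ ^ 2 := by
  rw [← real_inner_self_eq_norm_sq, sum_inner]
  simp only [dotProduct, mulVec, Matrix.of_apply]
  refine Finset.sum_congr rfl fun a _ => ?_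
  rw [inner_sum, Finset.mul_sum]
  refine Finset.sum_congr rfl fun b _ => ?_
  rw [inner_smul_left, inner_smul_right]
  simp only [conj_trivial]
  ring

lemma dot_inner (g : Fin n → 𝔼) (ξ : Fin n → ℝ) (w : 𝔼) :
    ξ ⬝ᵥ (fun a => (inner ℝ (g a) w : ℝ)) = inner ℝ (∑ a, ξ a • g a) w := by
  rw [sum_inner]
  simp only [dotProduct]
  refine Finset.sum_congr rfl fun a _ => ?_
  rw [inner_smul_left]; simp

/-- **pointwise estimate.** -/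
theorem Lo.nrm_near (h : Lo A) (g : Fin n → 𝔼) (w : 𝔼) {κ : ℝ}
    (hκ : ∑ a, ∑ b, |(inner ℝ (g a) (g b) : ℝ) - A a b| ≤ κ) :
    |nrm A (fun a => (inner ℝ (g a) w : ℝ)) - ‖w‖| ≤ 2 * κ * ‖w‖ := by
  set F : Matrix (Fin n) (Fin n) ℝ := Matrix.of fun a b => (inner ℝ (g a) (g b) : ℝ) with hF
  set v : Fin n → ℝ := fun a => (inner ℝ (g a) w : ℝ) with hv
  have hκ0 : 0 ≤ κ := le_trans (Finset.sum_nonneg fun i _ => Finset.sum_nonneg fun j _ =>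
    abs_nonneg _) hκ
  -- comparison of the forms of `F` and `A`
  have hcmp : ∀ ξ : Fin n → ℝ, |‖∑ a, ξ a • g a‖ ^ 2 - ξ ⬝ᵥ (A *ᵥ ξ)| ≤
      2 * κ * (ξ ⬝ᵥ (A *ᵥ ξ)) := by
    intro ξ
    have h1 := abs_form_le (F - A) ξ
    rw [sub_mulVec, dotProduct_sub, gram_form] at h1
    have h2 : ∑ a, ∑ b, |(F - A) a b| ≤ κ := by simpa [hF] using hκ
    have h3 := h.lo ξ
    have h4 := dot_nonneg ξ
    calc _ ≤ _ := h1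
      _ ≤ κ * (ξ ⬝ᵥ ξ) := by gcongr
      _ ≤ κ * (2 * (ξ ⬝ᵥ (A *ᵥ ξ))) := by gcongr; linarith
      _ = _ := by ring
  set Q := nrm A v with hQ
  have hQ0 : 0 ≤ Q := nrm_nonneg _ _
  have hw0 := norm_nonneg w
  -- upper bound
  have hup : Q ≤ (1 + κ) * ‖w‖ := by
    set ξ := A⁻¹ *ᵥ v with hξ
    have h1 : Q ^ 2 = ξ ⬝ᵥ (A *ᵥ ξ) := by rw [hQ, h.nrm_sq, h.inv_form]
    have h2 : Q ^ 2 = inner ℝ (∑ a, ξ a • g a) w := by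
      rw [hQ, h.nrm_sq, dotProduct_comm, hv, dot_inner]
    have h3 := (abs_le.1 (hcmp ξ)).2
    rw [← h1] at h3
    set N := ‖∑ a, ξ a • g a‖ with hN
    have hN0 : 0 ≤ N := norm_nonneg _
    have h4 : Q ^ 2 ≤ N * ‖w‖ := by rw [h2]; exact real_inner_le_norm _ _
    have h5 : N ≤ (1 + κ) * Q := by
      refine (le_abs_self _).trans (abs_le_of_sq_le_sq ?_ (by positivity))
      nlinarith [sq_nonneg Q, sq_nonneg (κ * Q)]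
    rcases hQ0.eq_or_lt with h6 | h6
    · rw [← h6]; positivity
    · have h7 : Q * Q ≤ ((1 + κ) * ‖w‖) * Q := by nlinarith
      exact le_of_mul_le_mul_right h7 h6
  have hlow : (1 - 2 * κ) * ‖w‖ ≤ Q := by
    rcases le_or_gt (1 - 2 * κ) 0 with h0 | h0
    · exact (mul_nonpos_of_nonpos_of_nonneg h0 hw0).trans hQ0
    -- the `g a` are a basis
    have hli : LinearIndependent ℝ g := by
      rw [Fintype.linearIndependent_iff]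
      intro ξ hξ
      have h1 := (abs_le.1 (hcmp ξ)).1
      rw [hξ, norm_zero] at h1
      have h2 := h.lo ξ
      have h3 := dot_nonneg ξ
      have h5 : ξ ⬝ᵥ ξ = 0 := by nlinarith
      have := dotProduct_self_eq_zero.1 h5
      intro i
      exact congrFun this i
    have hspan : Submodule.span ℝ (Set.range g) = ⊤ :=
      hli.span_eq_top_of_card_eq_finrank' (by simp)
    obtain ⟨ξ, hξ⟩ := (Submodule.mem_span_range_iff_exists_fun ℝ).1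
      (hspan ▸ Submodule.mem_top : w ∈ Submodule.span ℝ (Set.range g))
    have h1 : ‖w‖ ^ 2 = ξ ⬝ᵥ v := by
      rw [hv, dot_inner, hξ, real_inner_self_eq_norm_sq]
    have h2 : (ξ ⬝ᵥ v) ^ 2 ≤ (ξ ⬝ᵥ (A *ᵥ ξ)) * Q ^ 2 := by
      have := h.cs ξ (A⁻¹ *ᵥ v)
      rw [h.mul_inv] at this
      rw [hQ, h.nrm_sq, h.inv_form]
      simpa [h.mul_inv] using this
    set a' := ξ ⬝ᵥ (A *ᵥ ξ) with ha'
    have h3 := (abs_le.1 (hcmp ξ)).1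
    rw [hξ, ← ha'] at h3
    have ha0 : 0 ≤ a' := h.nonneg ξ
    have h4 : (1 - 2 * κ) * a' ≤ ‖w‖ ^ 2 := by nlinarith
    rw [← h1] at h2
    -- `(1-2κ) ‖w‖⁴ ≤ ‖w‖² Q²`
    rcases hw0.eq_or_lt with h6 | h6
    · rw [← h6]; simpa using hQ0
    · have h7 : (1 - 2 * κ) * ‖w‖ ^ 2 ≤ Q ^ 2 := by
        have h8 : ((1 - 2 * κ) * ‖w‖ ^ 2) * ‖w‖ ^ 2 ≤ Q ^ 2 * ‖w‖ ^ 2 := by
          calc ((1 - 2 * κ) * ‖w‖ ^ 2) * ‖w‖ ^ 2 = (1 - 2 * κ) * (‖w‖ ^ 2) ^ 2 := by ring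
            _ ≤ (1 - 2 * κ) * (a' * Q ^ 2) := by gcongr
            _ = ((1 - 2 * κ) * a') * Q ^ 2 := by ring
            _ ≤ ‖w‖ ^ 2 * Q ^ 2 := by gcongr
            _ = _ := by ring
        exact le_of_mul_le_mul_right h8 (by positivity)
      refine (le_abs_self _).trans (abs_le_of_sq_le_sq ?_ hQ0)
      calc ((1 - 2 * κ) * ‖w‖) ^ 2 = (1 - 2 * κ) * ((1 - 2 * κ) * ‖w‖ ^ 2) := by ring
        _ ≤ 1 * ((1 - 2 * κ) * ‖w‖ ^ 2) := by gcongr; linarith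
        _ ≤ Q ^ 2 := by rw [one_mul]; exact h7
  rw [abs_le]
  constructor
  · linarith
  · nlinarith

end Crest.Agent.R249.NI_923
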