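import Crest.Agent.R249.PenH_806
import Crest.Agent.R249.FamA_780

/-!
Row 249, part A2 v3 (helper780), file 2: pointwise facts for the general obstacle region
`Ob g B` of helper806: constants, the chain rule for `k`, the simplex property in real numbers.
-/

set_option autoImplicit false
set_option linter.unusedVariables false
set_option linter.unusedSectionVars false

open MeasureTheory Set Filter Topology Matrix
open scoped ContDiff

noncomputable section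

namespace Crest.Agent.R249.ObB_780

open Crest.Agent.R249.Calc_806 Crest.Agent.R249.Calc_806.Calc Crest.Agent.R249.PenH_806

/-! ### constants -/

/-- the constants of the region and of the nonlinearity. -/
structure Cst {g B : ℝ} (O : Ob g B) (f : ℝ → ℝ) (M : ℝ) : Prop where
  M1 : 1 ≤ M
  fb : ∀ u ∈ Icc g B, |f u| ≤ M
  fl : ∀ u ∈ Icc g B, ∀ v ∈ Icc g B, |f u - f v| ≤ M * |u - v|
  b2 : ∀ η, |η| ≤ B - g → |deriv (deriv O.Γ) η| ≤ M
  l1 : ∀ η η', |η| ≤ B - g → |η'| ≤ B - g → |deriv O.Γ η - deriv O.Γ η'| ≤ M * |η - η'|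
  l2 : ∀ η η', |η| ≤ B - g → |η'| ≤ B - g →
    |deriv (deriv O.Γ) η - deriv (deriv O.Γ) η'| ≤ M * |η - η'|

/-- a smooth function is bounded and Lipschitz on an interval. -/
lemma exists_bd {h : ℝ → ℝ} (hh : ContDiff ℝ ∞ h) (a b : ℝ) : ∃ M, 0 ≤ M ∧
    (∀ y ∈ Icc a b, |h y| ≤ M) ∧ ∀ y ∈ Icc a b, ∀ z ∈ Icc a b, |h y - h z| ≤ M * |y - z| := by
  have hd : ContDiff ℝ ∞ (deriv h) := (contDiff_infty_iff_deriv.1 hh).2
  obtain ⟨M₁, h1⟩ := (isCompact_Icc (a := a) (b := b)).exists_bound_of_continuousOn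
    hh.continuous.continuousOn
  obtain ⟨M₂, h2⟩ := (isCompact_Icc (a := a) (b := b)).exists_bound_of_continuousOn
    hd.continuous.continuousOn
  refine ⟨max (max M₁ M₂) 0, le_max_right _ _, fun y hy => ?_, fun y hy z hz => ?_⟩
  · exact (h1 y hy).trans ((le_max_left _ _).trans (le_max_left _ _))
  · have h3 := Convex.norm_image_sub_le_of_norm_deriv_le (𝕜 := ℝ) (f := h) (s := Icc a b)
      (C := max (max M₁ M₂) 0)
      (fun x _ => (hh.differentiable (by simp)).differentiableAt)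
      (fun x hx => (h2 x hx).trans ((le_max_right _ _).trans (le_max_left _ _)))
      (convex_Icc a b) hz hy
    simpa [Real.norm_eq_abs] using h3

theorem exists_cst {g B : ℝ} (O : Ob g B) {f : ℝ → ℝ} (hf : ContDiff ℝ ∞ f) : ∃ M, Cst O f M := by
  have hd : ContDiff ℝ ∞ (deriv O.Γ) := (contDiff_infty_iff_deriv.1 O.smooth).2
  have hd2 : ContDiff ℝ ∞ (deriv (deriv O.Γ)) := (contDiff_infty_iff_deriv.1 hd).2
  obtain ⟨M₀, h0, h0a, h0b⟩ := exists_bd hf g B
  obtain ⟨M₁, h1, h1a, h1b⟩ := exists_bd hd (-(B - g)) (B - g)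
  obtain ⟨M₂, h2, h2a, h2b⟩ := exists_bd hd2 (-(B - g)) (B - g)
  refine ⟨1 + M₀ + M₁ + M₂, by linarith, fun u hu => (h0a u hu).trans (by linarith),
    fun u hu v hv => (h0b u hu v hv).trans
      (mul_le_mul_of_nonneg_right (by linarith) (abs_nonneg _)),
    fun η hη => (h2a η (abs_le.1 hη)).trans (by linarith),
    fun η η' hη hη' => (h1b η (abs_le.1 hη) η' (abs_le.1 hη')).trans
      (mul_le_mul_of_nonneg_right (by linarith) (abs_nonneg _)),
    fun η η' hη hη' => (h2b η (abs_le.1 hη) η' (abs_le.1 hη')).trans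
      (mul_le_mul_of_nonneg_right (by linarith) (abs_nonneg _))⟩

section Region

variable {g B : ℝ} (O : Ob g B)

lemma eta_le {u v : ℝ} (hu : u ∈ Icc g B) (hv : v ∈ Icc g B) : |u - v| ≤ B - g := by
  rw [abs_le]
  constructor <;> linarith [hu.1, hu.2, hv.1, hv.2]

lemma k1_le {u v : ℝ} (hu : u ∈ Icc g B) (hv : v ∈ Icc g B) : O.k1 u v ≤ -O.c := by
  have := (abs_le.1 (O.slope _ (eta_le hu hv))).2
  unfold Ob.k1; linarith

lemma k1_ge {u v : ℝ} (hu : u ∈ Icc g B) (hv : v ∈ Icc g B) : -1 ≤ O.k1 u v := by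
  have := (abs_le.1 (O.slope _ (eta_le hu hv))).1
  have := O.c_pos
  unfold Ob.k1; linarith

lemma k2_le {u v : ℝ} (hu : u ∈ Icc g B) (hv : v ∈ Icc g B) : O.k2 u v ≤ -O.c := by
  have := (abs_le.1 (O.slope _ (eta_le hu hv))).1
  unfold Ob.k2; linarith

lemma k2_ge {u v : ℝ} (hu : u ∈ Icc g B) (hv : v ∈ Icc g B) : -1 ≤ O.k2 u v := by
  have := (abs_le.1 (O.slope _ (eta_le hu hv))).2
  have := O.c_pos
  unfold Ob.k2; linarith

lemma c_le_half : O.c ≤ 1 / 2 := by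
  have h1 := O.slope 0 (by rw [abs_zero]; linarith [O.g_lt])
  have := abs_nonneg (deriv O.Γ 0)
  linarith

lemma Γ_lip {η η' : ℝ} (h : |η| ≤ B - g) (h' : |η'| ≤ B - g) :
    |O.Γ η - O.Γ η'| ≤ (1 / 2 - O.c) * |η - η'| := by
  have h3 := Convex.norm_image_sub_le_of_norm_deriv_le (𝕜 := ℝ) (f := O.Γ)
    (s := Icc (-(B - g)) (B - g)) (C := 1 / 2 - O.c)
    (fun x _ => (O.smooth.differentiable (by simp)).differentiableAt)
    (fun x hx => O.slope x (abs_le.2 hx))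
    (convex_Icc _ _) (abs_le.1 h') (abs_le.1 h)
  simpa [Real.norm_eq_abs] using h3

/-- `k` is decreasing in the first variable, slope between `-1` and `-c`. -/
lemma k_mono1 {u u' v : ℝ} (hu : u ∈ Icc g B) (hu' : u' ∈ Icc g B) (hv : v ∈ Icc g B)
    (h : u ≤ u') : O.c * (u' - u) ≤ O.k u v - O.k u' v ∧ O.k u v - O.k u' v ≤ u' - u := by
  have h1 := Γ_lip O (eta_le hu hv) (eta_le hu' hv)
  have e1 : u - v - (u' - v) = -(u' - u) := by ring
  rw [e1, abs_neg, abs_of_nonneg (sub_nonneg.2 h)] at h1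
  have h2 := abs_le.1 h1
  have h3 := O.c_pos
  have h4 : 0 ≤ O.c * (u' - u) := mul_nonneg h3.le (sub_nonneg.2 h)
  unfold Ob.k
  constructor <;> nlinarith [h2.1, h2.2]

lemma k_mono2 {u v v' : ℝ} (hu : u ∈ Icc g B) (hv : v ∈ Icc g B) (hv' : v' ∈ Icc g B)
    (h : v ≤ v') : O.c * (v' - v) ≤ O.k u v - O.k u v' ∧ O.k u v - O.k u v' ≤ v' - v := by
  have h1 := Γ_lip O (eta_le hu hv) (eta_le hu hv')
  have e1 : u - v - (u - v') = v' - v := by ring
  rw [e1, abs_of_nonneg (sub_nonneg.2 h)] at h1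
  have h2 := abs_le.1 h1
  have h3 := O.c_pos
  have h4 : 0 ≤ O.c * (v' - v) := mul_nonneg h3.le (sub_nonneg.2 h)
  unfold Ob.k
  constructor <;> nlinarith [h2.1, h2.2]

lemma abs_k1 {u v : ℝ} (hu : u ∈ Icc g B) (hv : v ∈ Icc g B) : |O.k1 u v| ≤ 1 := by
  have h1 := k1_le O hu hv
  have h2 := k1_ge O hu hv
  have := O.c_pos
  rw [abs_le]; constructor <;> linarith

lemma abs_k2 {u v : ℝ} (hu : u ∈ Icc g B) (hv : v ∈ Icc g B) : |O.k2 u v| ≤ 1 := by
  have h1 := k2_le O hu hv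
  have h2 := k2_ge O hu hv
  have := O.c_pos
  rw [abs_le]; constructor <;> linarith

variable {O} {f : ℝ → ℝ} {M : ℝ}

lemma Cst.k1_lip (c : Cst O f M) {u v u' v' : ℝ} (hu : u ∈ Icc g B) (hv : v ∈ Icc g B)
    (hu' : u' ∈ Icc g B) (hv' : v' ∈ Icc g B) :
    |O.k1 u v - O.k1 u' v'| ≤ M * |(u - v) - (u' - v')| := by
  have h1 := c.l1 _ _ (eta_le hu hv) (eta_le hu' hv')
  have e1 : O.k1 u v - O.k1 u' v' = deriv O.Γ (u - v) - deriv O.Γ (u' - v') := by
    unfold Ob.k1; ring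
  rw [e1]; exact h1

lemma Cst.k2_lip (c : Cst O f M) {u v u' v' : ℝ} (hu : u ∈ Icc g B) (hv : v ∈ Icc g B)
    (hu' : u' ∈ Icc g B) (hv' : v' ∈ Icc g B) :
    |O.k2 u v - O.k2 u' v'| ≤ M * |(u - v) - (u' - v')| := by
  have h1 := c.l1 _ _ (eta_le hu hv) (eta_le hu' hv')
  have e1 : O.k2 u v - O.k2 u' v' = -(deriv O.Γ (u - v) - deriv O.Γ (u' - v')) := by
    unfold Ob.k2; ring
  rw [e1, abs_neg]; exact h1

/-- **Lipschitz bound for `E`**: `|u - u'| + |v - v'| ≤ a`. -/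
lemma Cst.E_lip (c : Cst O f M) {u v u' v' P P' a : ℝ} (hu : u ∈ Icc g B) (hv : v ∈ Icc g B)
    (hu' : u' ∈ Icc g B) (hv' : v' ∈ Icc g B) (hP' : 0 ≤ P')
    (ha : |u - u'| + |v - v'| ≤ a) :
    |O.E f u v P - O.E f u' v' P'| ≤ 3 * M ^ 2 * (a * (1 + P')) + M * |P - P'| := by
  have hM := c.M1
  have ha0 : 0 ≤ a := le_trans (by positivity) ha
  have hη : |(u - v) - (u' - v')| ≤ a := by
    have : (u - v) - (u' - v') = (u - u') - (v - v') := by ring
    rw [this]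
    exact (abs_sub _ _).trans ha
  have a1 : |O.k1 u v - O.k1 u' v'| ≤ M * a :=
    (c.k1_lip hu hv hu' hv').trans (mul_le_mul_of_nonneg_left hη (by linarith))
  have a2 : |O.k2 u v - O.k2 u' v'| ≤ M * a :=
    (c.k2_lip hu hv hu' hv').trans (mul_le_mul_of_nonneg_left hη (by linarith))
  have a3 : |deriv (deriv O.Γ) (u - v) - deriv (deriv O.Γ) (u' - v')| ≤ M * a :=
    (c.l2 _ _ (eta_le hu hv) (eta_le hu' hv')).trans (mul_le_mul_of_nonneg_left hη (by linarith))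
  have a4 := c.b2 _ (eta_le hu hv)
  have e1 : O.E f u v P - O.E f u' v' P' =
      (O.k1 u v - O.k1 u' v') * f u + O.k1 u' v' * (f u - f u') +
      ((O.k2 u v - O.k2 u' v') * f v + O.k2 u' v' * (f v - f v')) +
      (deriv (deriv O.Γ) (u - v) * (P - P') +
        (deriv (deriv O.Γ) (u - v) - deriv (deriv O.Γ) (u' - v')) * P') := by
    unfold Ob.E; ring
  have b1 : |(O.k1 u v - O.k1 u' v') * f u| ≤ M * a * M := by
    rw [abs_mul]; exact mul_le_mul a1 (c.fb u hu) (abs_nonneg _) (by positivity)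
  have b2 : |(O.k2 u v - O.k2 u' v') * f v| ≤ M * a * M := by
    rw [abs_mul]; exact mul_le_mul a2 (c.fb v hv) (abs_nonneg _) (by positivity)
  have b3 : |O.k1 u' v' * (f u - f u')| ≤ M * |u - u'| := by
    rw [abs_mul]
    have := mul_le_mul (abs_k1 O hu' hv') (c.fl u hu u' hu') (abs_nonneg _) zero_le_one
    linarith
  have b4 : |O.k2 u' v' * (f v - f v')| ≤ M * |v - v'| := by
    rw [abs_mul]
    have := mul_le_mul (abs_k2 O hu' hv') (c.fl v hv v' hv') (abs_nonneg _) zero_le_one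
    linarith
  have b5 : |deriv (deriv O.Γ) (u - v) * (P - P')| ≤ M * |P - P'| := by
    rw [abs_mul]; exact mul_le_mul_of_nonneg_right a4 (abs_nonneg _)
  have b6 : |(deriv (deriv O.Γ) (u - v) - deriv (deriv O.Γ) (u' - v')) * P'| ≤ M * a * P' := by
    rw [abs_mul, abs_of_nonneg hP']; exact mul_le_mul_of_nonneg_right a3 hP'
  rw [e1]
  have t1 := abs_add_le ((O.k1 u v - O.k1 u' v') * f u + O.k1 u' v' * (f u - f u') +
      ((O.k2 u v - O.k2 u' v') * f v + O.k2 u' v' * (f v - f v')))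
      (deriv (deriv O.Γ) (u - v) * (P - P') +
        (deriv (deriv O.Γ) (u - v) - deriv (deriv O.Γ) (u' - v')) * P')
  have t2 := abs_add_le ((O.k1 u v - O.k1 u' v') * f u + O.k1 u' v' * (f u - f u'))
      ((O.k2 u v - O.k2 u' v') * f v + O.k2 u' v' * (f v - f v'))
  have t3 := abs_add_le ((O.k1 u v - O.k1 u' v') * f u) (O.k1 u' v' * (f u - f u'))
  have t4 := abs_add_le ((O.k2 u v - O.k2 u' v') * f v) (O.k2 u' v' * (f v - f v'))
  have t5 := abs_add_le (deriv (deriv O.Γ) (u - v) * (P - P'))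
        ((deriv (deriv O.Γ) (u - v) - deriv (deriv O.Γ) (u' - v')) * P')
  have s1 : M * |u - u'| + M * |v - v'| ≤ M * a := by
    rw [← mul_add]; exact mul_le_mul_of_nonneg_left ha (by linarith)
  have s2 : M * a ≤ M ^ 2 * a := by
    have : M ≤ M ^ 2 := by nlinarith
    exact mul_le_mul_of_nonneg_right this ha0
  have s3 : M * a * P' ≤ M ^ 2 * a * P' := mul_le_mul_of_nonneg_right s2 hP'
  have s4 : 0 ≤ M ^ 2 * a * P' := by positivity
  nlinarith

end Region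

/-! ### the simplex property in real numbers -/

/-- the error function. -/
def errR (N e m₁ m₂ g₁ P P₁ P₂ : ℝ) : ℝ :=
  N * (e + |g₁| + e * (m₁ + m₂) + (if m₁ = 0 then 0 else e * (1 + P₁) + |P - P₁|) +
    (if m₂ = 0 then 0 else e * (1 + P₂) + |P - P₂|))

section Real

variable {g B : ℝ} {O : Ob g B} {f : ℝ → ℝ} {M : ℝ}

/-- the pointwise data. -/
structure Pt (O : Ob g B) (f : ℝ → ℝ) (M η₀ C₁ e u v h w h' P P₁ P₂ Lu Lw Lh Lh' m₁ m₂ g₁ : ℝ) :
    Prop where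
  e0 : 0 < e
  C1 : 0 ≤ C₁
  η0 : 0 ≤ η₀
  hu : u ∈ Icc g B
  hv : v ∈ Icc g B
  hh : h ∈ Icc g B
  hw : w ∈ Icc g B
  hh' : h' ∈ Icc g B
  P0 : 0 ≤ P
  P10 : 0 ≤ P₁
  P20 : 0 ≤ P₂
  eq1 : O.k1 h w * Lh + O.k2 h w * Lw + deriv (deriv O.Γ) (h - w) * P₁ = 0
  eq2 : O.k1 u h' * Lu + O.k2 u h' * Lh' + deriv (deriv O.Γ) (u - h') * P₂ = 0
  subw : f w - η₀ ≤ Lw
  equ : Lu = (f u - η₀) + m₁ + g₁
  m1 : 0 ≤ m₁
  m2 : 0 ≤ m₂
  le1 : m₁ ≤ max 0 (Lh - (f h - η₀)) + e
  le2 : m₂ ≤ max 0 (Lh' - (f h' - η₀)) + e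
  n1 : m₁ ≠ 0 → |u - h| + |v - w| ≤ (2 + C₁) * e
  n2 : m₂ ≠ 0 → |v - h'| ≤ 2 * e

variable {η₀ C₁ e u v h w h' P P₁ P₂ Lu Lw Lh Lh' m₁ m₂ g₁ : ℝ}

/-- the first contact inequality. -/
lemma Pt.first (p : Pt O f M η₀ C₁ e u v h w h' P P₁ P₂ Lu Lw Lh Lh' m₁ m₂ g₁) :
    -O.k1 h w * m₁ ≤ max 0 (O.E f h w P₁ + η₀) + e := by
  have h1 := k1_le O p.hh p.hw
  have h2 := k1_ge O p.hh p.hw
  have h3 := k2_le O p.hh p.hw
  have hc := O.c_pos
  have key : -O.k1 h w * (Lh - (f h - η₀)) ≤ O.E f h w P₁ + η₀ := by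
    have e1 : -O.k1 h w * (Lh - (f h - η₀)) =
        O.E f h w P₁ + O.k2 h w * (Lw - f w) - O.k1 h w * η₀ := by
      have := p.eq1
      unfold Ob.E
      linear_combination -this
    have e2 : O.k2 h w * (Lw - f w) ≤ -O.k2 h w * η₀ := by
      have := p.subw
      nlinarith
    have e3 : O.k1 h w + O.k2 h w = -1 := by unfold Ob.k1 Ob.k2; ring
    rw [e1]
    nlinarith [p.η0]
  have h4 : -O.k1 h w * m₁ ≤ -O.k1 h w * (max 0 (Lh - (f h - η₀)) + e) :=
    mul_le_mul_of_nonneg_left p.le1 (by linarith)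
  have h5 : -O.k1 h w * max 0 (Lh - (f h - η₀)) ≤ max 0 (O.E f h w P₁ + η₀) := by
    rcases le_total (Lh - (f h - η₀)) 0 with h6 | h6
    · rw [max_eq_left h6, mul_zero]; exact le_max_left _ _
    · rw [max_eq_right h6]; exact key.trans (le_max_right _ _)
  have h6 : -O.k1 h w * e ≤ e := by nlinarith [p.e0]
  rw [mul_add] at h4
  linarith

/-- the second contact inequality. -/
lemma Pt.second (p : Pt O f M η₀ C₁ e u v h w h' P P₁ P₂ Lu Lw Lh Lh' m₁ m₂ g₁) :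
    -O.k2 u h' * m₂ ≤ max 0 (O.E f u h' P₂ + η₀ + O.k1 u h' * m₁ + |g₁|) + e := by
  have h1 := k2_le O p.hu p.hh'
  have h2 := k2_ge O p.hu p.hh'
  have hc := O.c_pos
  have key : -O.k2 u h' * (Lh' - (f h' - η₀)) ≤ O.E f u h' P₂ + η₀ + O.k1 u h' * m₁ + |g₁| := by
    have e3 : O.k1 u h' + O.k2 u h' = -1 := by unfold Ob.k1 Ob.k2; ring
    have e1 : -O.k2 u h' * (Lh' - (f h' - η₀)) =
        O.E f u h' P₂ + η₀ + O.k1 u h' * m₁ + O.k1 u h' * g₁ := by
      have h4 := p.eq2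
      have h5 := p.equ
      unfold Ob.E
      rw [h5] at h4
      linear_combination -h4 - η₀ * e3
    have e2 : O.k1 u h' * g₁ ≤ |g₁| := by
      refine (le_abs_self _).trans ?_
      rw [abs_mul]
      have := abs_k1 O p.hu p.hh'
      nlinarith [abs_nonneg g₁]
    rw [e1]; linarith
  have h4 : -O.k2 u h' * m₂ ≤ -O.k2 u h' * (max 0 (Lh' - (f h' - η₀)) + e) :=
    mul_le_mul_of_nonneg_left p.le2 (by linarith)
  have h5 : -O.k2 u h' * max 0 (Lh' - (f h' - η₀)) ≤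
      max 0 (O.E f u h' P₂ + η₀ + O.k1 u h' * m₁ + |g₁|) := by
    rcases le_total (Lh' - (f h' - η₀)) 0 with h6 | h6
    · rw [max_eq_left h6, mul_zero]; exact le_max_left _ _
    · rw [max_eq_right h6]; exact key.trans (le_max_right _ _)
  have h6 : -O.k2 u h' * e ≤ e := by nlinarith [p.e0]
  rw [mul_add] at h4
  linarith

/-- the first inequality at `(u, v)`. -/
lemma Pt.first' (p : Pt O f M η₀ C₁ e u v h w h' P P₁ P₂ Lu Lw Lh Lh' m₁ m₂ g₁) (c : Cst O f M)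
    (hm : m₁ ≠ 0) :
    -O.k1 u v * m₁ ≤ max 0 (O.E f u v P) + η₀ + e + M * ((2 + C₁) * e) * m₁ +
      (3 * M ^ 2 * ((2 + C₁) * e * (1 + P₁)) + M * |P - P₁|) := by
  have h1 := p.first
  have h2 := c.E_lip (P := P) (P' := P₁) p.hu p.hv p.hh p.hw p.P10 (p.n1 hm)
  have h3 : |O.k1 u v - O.k1 h w| ≤ M * ((2 + C₁) * e) := by
    refine (c.k1_lip p.hu p.hv p.hh p.hw).trans
      (mul_le_mul_of_nonneg_left ?_ (by linarith [c.M1]))
    have : (u - v) - (h - w) = (u - h) - (v - w) := by ring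
    rw [this]
    exact (abs_sub _ _).trans (p.n1 hm)
  have h4 : -O.k1 u v * m₁ ≤ -O.k1 h w * m₁ + M * ((2 + C₁) * e) * m₁ := by
    have := (abs_le.1 h3).1
    nlinarith [p.m1]
  have h5 : max 0 (O.E f h w P₁ + η₀) ≤ max 0 (O.E f u v P) + η₀ +
      (3 * M ^ 2 * ((2 + C₁) * e * (1 + P₁)) + M * |P - P₁|) := by
    have h6 := (abs_le.1 h2).1
    have h7 := le_max_right 0 (O.E f u v P)
    have h8 := le_max_left 0 (O.E f u v P)
    have h9 : 0 ≤ 3 * M ^ 2 * ((2 + C₁) * e * (1 + P₁)) + M * |P - P₁| :=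
      le_trans (abs_nonneg _) h2
    refine max_le ?_ ?_ <;> linarith [p.η0]
  linarith

/-- **the simplex property**. -/
theorem Pt.simplex (p : Pt O f M η₀ C₁ e u v h w h' P P₁ P₂ Lu Lw Lh Lh' m₁ m₂ g₁) (c : Cst O f M) :
    -O.k1 u v * m₁ + -O.k2 u v * m₂ ≤ max 0 (O.E f u v P) + η₀ +
      errR (12 * M ^ 2 * (2 + C₁)) e m₁ m₂ g₁ P P₁ P₂ := by
  have hM := c.M1
  have he := p.e0
  have hC := p.C1
  have hm1 := p.m1
  have hm2 := p.m2
  have hP10 := p.P10
  have hP20 := p.P20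
  have hMM : M ≤ M ^ 2 := by nlinarith
  set N := 12 * M ^ 2 * (2 + C₁) with hN
  have hN24 : 24 ≤ N := by
    have : (1:ℝ) ≤ M ^ 2 := by nlinarith
    rw [hN]; nlinarith
  have hNM : 12 * M ≤ N := by
    rw [hN]; nlinarith [mul_nonneg (by linarith : (0:ℝ) ≤ M ^ 2) hC]
  -- the pieces of the error
  have q0 : e ≤ N * e := by nlinarith
  have hMC : M * (2 + C₁) ≤ M ^ 2 * (2 + C₁) := mul_le_mul_of_nonneg_right hMM (by linarith)
  have q1 : M * ((2 + C₁) * e) * m₁ ≤ N / 12 * (e * m₁) := by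
    have e1 : M * ((2 + C₁) * e) * m₁ = (M * (2 + C₁)) * (e * m₁) := by ring
    rw [e1]
    refine mul_le_mul_of_nonneg_right ?_ (by positivity)
    rw [hN]; linarith
  have A1 : m₁ ≠ 0 → 3 * M ^ 2 * ((2 + C₁) * e * (1 + P₁)) + M * |P - P₁| ≤
      N / 4 * (e * (1 + P₁) + |P - P₁|) := by
    intro _
    have e1 : 3 * M ^ 2 * ((2 + C₁) * e * (1 + P₁)) = N / 4 * (e * (1 + P₁)) := by
      rw [hN]; ring
    have e2 : M * |P - P₁| ≤ N / 4 * |P - P₁| :=
      mul_le_mul_of_nonneg_right (by linarith) (abs_nonneg _)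
    rw [e1, mul_add]; linarith
  have key1 : m₁ ≠ 0 → -O.k1 u v * m₁ ≤ max 0 (O.E f u v P) + η₀ + e + N / 12 * (e * m₁) +
      N / 4 * (e * (1 + P₁) + |P - P₁|) := fun hm => by
    have := p.first' c hm
    have := A1 hm
    linarith
  have hE0 := le_max_left 0 (O.E f u v P)
  have hE1 := le_max_right 0 (O.E f u v P)
  have hη := p.η0
  have hg0 := abs_nonneg g₁
  unfold errR
  by_cases hm2' : m₂ = 0
  · by_cases hm1' : m₁ = 0
    · rw [if_pos hm1', if_pos hm2', hm1', hm2']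
      have : 0 ≤ N * (e + |g₁| + e * (0 + 0) + 0 + 0) := by positivity
      linarith
    · rw [if_neg hm1', if_pos hm2', hm2']
      have h1 := key1 hm1'
      have h2 : 0 ≤ N * |g₁| := by positivity
      have h3 : 0 ≤ N * (e * m₁) := by positivity
      have h4 : 0 ≤ e * (1 + P₁) + |P - P₁| := by positivity
      have h5 : 0 ≤ N * (e * (1 + P₁) + |P - P₁|) := by positivity
      have e1 : N * (e + |g₁| + e * (m₁ + 0) + (e * (1 + P₁) + |P - P₁|) + 0) =
        N * e + N * |g₁| + N * (e * m₁) + N * (e * (1 + P₁) + |P - P₁|) := by ring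
      rw [e1]
      linarith
  · -- `m₂ ≠ 0`
    rw [if_neg hm2']
    have hn2 := p.n2 hm2'
    have hab : |u - u| + |v - h'| ≤ 2 * e := by simpa using hn2
    have h2 := c.E_lip (P := P) (P' := P₂) p.hu p.hv p.hu p.hh' p.P20 hab
    have h3 : |O.k1 u v - O.k1 u h'| ≤ M * (2 * e) := by
      refine (c.k1_lip p.hu p.hv p.hu p.hh').trans (mul_le_mul_of_nonneg_left ?_ (by linarith))
      have : (u - v) - (u - h') = -(v - h') := by ring
      rw [this, abs_neg]; exact hn2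
    have h4 : |O.k2 u v - O.k2 u h'| ≤ M * (2 * e) := by
      refine (c.k2_lip p.hu p.hv p.hu p.hh').trans (mul_le_mul_of_nonneg_left ?_ (by linarith))
      have : (u - v) - (u - h') = -(v - h') := by ring
      rw [this, abs_neg]; exact hn2
    have h5 := p.second
    have c1 : M * (2 * e) * m₁ ≤ N / 12 * (e * m₁) := by
      have e1 : M * (2 * e) * m₁ = (M * 2) * (e * m₁) := by ring
      rw [e1]
      refine mul_le_mul_of_nonneg_right ?_ (by positivity)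
      rw [hN]; nlinarith [mul_nonneg (by linarith : (0:ℝ) ≤ M ^ 2) hC]
    have c2 : M * (2 * e) * m₂ ≤ N / 12 * (e * m₂) := by
      have e1 : M * (2 * e) * m₂ = (M * 2) * (e * m₂) := by ring
      rw [e1]
      refine mul_le_mul_of_nonneg_right ?_ (by positivity)
      rw [hN]; nlinarith [mul_nonneg (by linarith : (0:ℝ) ≤ M ^ 2) hC]
    have h6 : -O.k2 u v * m₂ ≤ -O.k2 u h' * m₂ + N / 12 * (e * m₂) := by
      have := (abs_le.1 h4).1
      nlinarith
    have h7 : O.k1 u h' * m₁ ≤ O.k1 u v * m₁ + N / 12 * (e * m₁) := by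
      have := (abs_le.1 h3).1
      nlinarith
    have h8 : 3 * M ^ 2 * (2 * e * (1 + P₂)) + M * |P - P₂| ≤ N / 4 * (e * (1 + P₂) + |P - P₂|) := by
      have e2 : M * |P - P₂| ≤ N / 4 * |P - P₂| :=
        mul_le_mul_of_nonneg_right (by linarith) (abs_nonneg _)
      have e1 : 3 * M ^ 2 * (2 * e * (1 + P₂)) ≤ N / 4 * (e * (1 + P₂)) := by
        have e3 : 3 * M ^ 2 * (2 * e * (1 + P₂)) = (6 * M ^ 2) * (e * (1 + P₂)) := by ring
        rw [e3]
        refine mul_le_mul_of_nonneg_right ?_ (by positivity)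
        rw [hN]; nlinarith [mul_nonneg (by linarith : (0:ℝ) ≤ M ^ 2) hC]
      rw [mul_add]; linarith
    have h9 := (abs_le.1 h2).1
    have n1 : 0 ≤ e * (1 + P₂) + |P - P₂| := by positivity
    have n2 : 0 ≤ N * (e * (1 + P₂) + |P - P₂|) := by positivity
    have n3 : 0 ≤ N * (e * m₁) := by positivity
    have n4 : 0 ≤ N * (e * m₂) := by positivity
    have n5 : |g₁| ≤ N * |g₁| := by nlinarith
    have n6 : 2 * e ≤ N * e := by nlinarith
    by_cases hm1' : m₁ = 0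
    · rw [if_pos hm1']
      rw [hm1'] at h5 h7 ⊢
      have e1 : N * (e + |g₁| + e * (0 + m₂) + 0 + (e * (1 + P₂) + |P - P₂|)) =
        N * e + N * |g₁| + N * (e * m₂) + N * (e * (1 + P₂) + |P - P₂|) := by ring
      rw [e1]
      have h10 : max 0 (O.E f u h' P₂ + η₀ + O.k1 u h' * 0 + |g₁|) ≤
          max 0 (O.E f u v P) + η₀ + |g₁| + N / 4 * (e * (1 + P₂) + |P - P₂|) := by
        refine max_le ?_ ?_ <;> linarith
      linarith
    · rw [if_neg hm1']
      have h1 := key1 hm1'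
      have n7 : 0 ≤ e * (1 + P₁) + |P - P₁| := by positivity
      have n8 : 0 ≤ N * (e * (1 + P₁) + |P - P₁|) := by positivity
      have e1 : N * (e + |g₁| + e * (m₁ + m₂) + (e * (1 + P₁) + |P - P₁|) +
          (e * (1 + P₂) + |P - P₂|)) = N * e + N * |g₁| + N * (e * m₁) + N * (e * m₂) +
          N * (e * (1 + P₁) + |P - P₁|) + N * (e * (1 + P₂) + |P - P₂|) := by ring
      rw [e1]
      -- two cases for the maximum
      rcases le_total (O.E f u h' P₂ + η₀ + O.k1 u h' * m₁ + |g₁|) 0 with h10 | h10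
      · rw [max_eq_left h10] at h5
        linarith
      · rw [max_eq_right h10] at h5
        linarith

end Real

end Crest.Agent.R249.ObB_780
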