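import Crest.Agent.R249.ObB_780

/-!
Row 249, part A2 v3 (helper780), file 3: the penalised pair `PenSolG` of helper806 for a general
region: ranges, the constraint function, the obstacles, the simplex property.
-/

set_option autoImplicit false
set_option linter.unusedVariables false
set_option linter.unusedSectionVars false

open MeasureTheory Set Filter Topology Matrix
open scoped ContDiff

noncomputable section

namespace Crest.Agent.R249.ObC_780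

open Crest.Agent.R249.Calc_806 Crest.Agent.R249.Calc_806.Calc Crest.Agent.R249.PenH_806
  Crest.Agent.R249.ObB_780 Crest.Agent.R249.FamA_780

variable {X : Type*} [TopologicalSpace X] [CompactSpace X] [MeasurableSpace X]
  [OpensMeasurableSpace X] {μ : Measure X} [IsFiniteMeasure μ] {C : Calc X μ}

/-! ### the chain rule for `k` -/

section Chain

variable {g B : ℝ} (O : Ob g B) {u v : X → ℝ}

lemma sm_Γ (hu : C.Sm u) (hv : C.Sm v) : C.Sm (fun x => O.Γ (u x - v x)) :=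
  sm_comp' O.smooth (sm_sub hu hv)

lemma sm_half (hu : C.Sm u) (hv : C.Sm v) : C.Sm (fun x => (1 / 2) * (u x + v x)) :=
  sm_smul _ (sm_add hu hv)

lemma k_eq (u v : X → ℝ) : (fun x => O.k (u x) (v x)) =
    fun x => O.Γ (u x - v x) - (1 / 2) * (u x + v x) := by
  funext x; unfold Ob.k; ring

lemma sm_k (hu : C.Sm u) (hv : C.Sm v) : C.Sm (fun x => O.k (u x) (v x)) := by
  rw [k_eq]
  exact sm_sub (sm_Γ O hu hv) (sm_half hu hv)

lemma D_k (hu : C.Sm u) (hv : C.Sm v) (x : X) : C.D (fun x => O.k (u x) (v x)) x =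
    O.k1 (u x) (v x) • C.D u x + O.k2 (u x) (v x) • C.D v x := by
  rw [k_eq, D_sub (sm_Γ O hu hv) (sm_half hu hv), D_smul _ (sm_add hu hv), D_add hu hv,
    D_comp' O.smooth (sm_sub hu hv), D_sub hu hv]
  funext i
  simp only [Pi.sub_apply, Pi.add_apply, Pi.smul_apply, smul_eq_mul, Ob.k1, Ob.k2]
  ring

lemma L_k (hu : C.Sm u) (hv : C.Sm v) (x : X) : C.L (fun x => O.k (u x) (v x)) x =
    O.k1 (u x) (v x) * C.L u x + O.k2 (u x) (v x) * C.L v x +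
      deriv (deriv O.Γ) (u x - v x) * C.G (fun y => u y - v y) (fun y => u y - v y) x := by
  rw [k_eq, L_sub (sm_Γ O hu hv) (sm_half hu hv), L_smul _ (sm_add hu hv), C.L_add hu hv,
    L_comp' O.smooth (sm_sub hu hv), L_sub hu hv]
  simp only [Ob.k1, Ob.k2]
  ring

/-- `|dk|² ≤ 2 |du|² + 2 |dv|²` on the box. -/
lemma G_k_le (hu : C.Sm u) (hv : C.Sm v) (x : X) (h1 : u x ∈ Icc g B) (h2 : v x ∈ Icc g B) :
    C.G (fun x => O.k (u x) (v x)) (fun x => O.k (u x) (v x)) x ≤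
      2 * C.G u u x + 2 * C.G v v x := by
  have e1 : C.G (fun x => O.k (u x) (v x)) (fun x => O.k (u x) (v x)) x =
      O.k1 (u x) (v x) ^ 2 * C.G u u x + 2 * (O.k1 (u x) (v x) * O.k2 (u x) (v x)) * C.G u v x +
        O.k2 (u x) (v x) ^ 2 * C.G v v x := by
    have : C.toCalc0.G (fun x => O.k (u x) (v x)) (fun x => O.k (u x) (v x)) x =
      C.D (fun x => O.k (u x) (v x)) x ⬝ᵥ C.D (fun x => O.k (u x) (v x)) x := rfl
    rw [this, D_k O hu hv]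
    have e2 : C.toCalc0.G u u x = C.D u x ⬝ᵥ C.D u x := rfl
    have e3 : C.toCalc0.G u v x = C.D u x ⬝ᵥ C.D v x := rfl
    have e4 : C.toCalc0.G v v x = C.D v x ⬝ᵥ C.D v x := rfl
    rw [e2, e3, e4]
    simp only [add_dotProduct, dotProduct_add, smul_dotProduct, dotProduct_smul, smul_eq_mul]
    rw [dotProduct_comm (C.D v x) (C.D u x)]
    ring
  have a1 := abs_k1 O h1 h2
  have a2 := abs_k2 O h1 h2
  set a := O.k1 (u x) (v x)
  set b := O.k2 (u x) (v x)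
  have hG := G_self_nonneg (C := C) u x
  have hG' := G_self_nonneg (C := C) v x
  have h3 := two_G_le (C := C) u v x one_pos
  simp only [one_mul, inv_one] at h3
  have b1 : a ^ 2 ≤ 1 := by rw [← sq_abs]; nlinarith [abs_nonneg a]
  have b2 : b ^ 2 ≤ 1 := by rw [← sq_abs]; nlinarith [abs_nonneg b]
  have b3 : |a * b| ≤ 1 := by
    rw [abs_mul]; exact mul_le_one₀ a1 (abs_nonneg _) a2
  have b4 : 2 * (a * b) * C.G u v x ≤ 2 * |C.G u v x| := by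
    refine (le_abs_self _).trans ?_
    rw [abs_mul, abs_mul, abs_of_pos (by norm_num : (0:ℝ) < 2)]
    nlinarith [abs_nonneg (C.G u v x), abs_nonneg (a * b)]
  rw [e1]
  nlinarith

end Chain

/-! ### the pair -/

variable {g B : ℝ} {O : Ob g B} {f : ℝ → ℝ} {η₀ t₀ K e ε M : ℝ} {φ₀ ψ₀ : X → ℝ}
variable (S : PenSolG C O f η₀ φ₀ ψ₀ K e ε) (D : DatG C O f η₀ t₀ φ₀ ψ₀)

/-- the constraint function. -/
def kap (S : PenSolG C O f η₀ φ₀ ψ₀ K e ε) (x : X) : ℝ := O.k (S.φ x) (S.ψ x)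

lemma sm_kap : C.Sm (kap S) := sm_k O S.sφ S.sψ

section Range

include D

lemma φ_mem (x : X) : S.φ x ∈ Icc g B :=
  ⟨(D.φge x).trans (S.φge x), (S.φle x).trans (S.h₁le x)⟩

lemma ψ_mem (x : X) : S.ψ x ∈ Icc g B :=
  ⟨(D.ψge x).trans (S.ψge x), (S.ψle x).trans (S.h₂le x)⟩

lemma ψ₀_mem (x : X) : ψ₀ x ∈ Icc g B := ⟨D.ψge x, D.ψle x⟩

end Range

lemma h₁_mem (he : 0 < e) (x : X) : S.h₁ x ∈ Icc g B :=
  ⟨S.h₁ge x, by have := S.h₁le x; linarith⟩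

lemma h₂_mem (he : 0 < e) (x : X) : S.h₂ x ∈ Icc g B :=
  ⟨S.h₂ge x, by have := S.h₂le x; linarith⟩

section Kap

include D

/-- `k ≥ - 2 e`. -/
lemma kap_ge (he : 0 < e) (x : X) : -(2 * e) ≤ kap S x := by
  have h0 := S.kh₂ x
  have hφ := φ_mem S D x
  have hψ := ψ_mem S D x
  have hh := h₂_mem S he x
  rcases le_total (S.ψ x) (S.h₂ x) with h | h
  · have h1 := (k_mono2 O hφ hψ hh h).1
    have h2 := mul_nonneg O.c_pos.le (sub_nonneg.2 h)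
    unfold kap
    linarith
  · have h1 := (k_mono2 O hφ hh hψ h).2
    have h2 := S.ψle x
    unfold kap
    linarith

/-- `k(φ, ψ₀) ≤ 5 e` on the support of `m₁`. -/
lemma k_φψ₀_le (he : 0 < e) (x : X) (hm : S.m₁ x ≠ 0) : O.k (S.φ x) (ψ₀ x) ≤ 5 * e := by
  have h0 := S.kh₁ x
  have hs := S.m₁sup x hm
  have hφ := φ_mem S D x
  have hψ := ψ₀_mem D x
  have hh := h₁_mem S he x
  rcases le_total (S.φ x) (S.h₁ x) with h | h
  · have h1 := (k_mono1 O hφ hh hψ h).2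
    linarith
  · have h1 := (k_mono1 O hh hφ hψ h).1
    have h2 := mul_nonneg O.c_pos.le (sub_nonneg.2 h)
    linarith

/-- `m₁ = 0` off `{k ≤ 5 e}`. -/
lemma kap_le₁ (he : 0 < e) (x : X) (hm : S.m₁ x ≠ 0) : kap S x ≤ 5 * e := by
  have h1 := k_φψ₀_le S D he x hm
  have h2 := (k_mono2 O (φ_mem S D x) (ψ₀_mem D x) (ψ_mem S D x) (S.ψge x)).1
  have h3 := mul_nonneg O.c_pos.le (sub_nonneg.2 (S.ψge x))
  unfold kap
  linarith

/-- `m₂ = 0` off `{k ≤ e}`. -/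
lemma kap_le₂ (he : 0 < e) (x : X) (hm : S.m₂ x ≠ 0) : kap S x ≤ e := by
  have h0 := S.kh₂ x
  have hs := S.m₂sup x hm
  have hφ := φ_mem S D x
  have hψ := ψ_mem S D x
  have hh := h₂_mem S he x
  rcases le_total (S.ψ x) (S.h₂ x) with h | h
  · have h1 := (k_mono2 O hφ hψ hh h).2
    unfold kap
    linarith
  · have h1 := (k_mono2 O hφ hh hψ h).1
    have h2 := mul_nonneg O.c_pos.le (sub_nonneg.2 h)
    unfold kap
    linarith

/-- `ψ - ψ₀ ≤ (7/c) e` on the support of `m₁`. -/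
lemma ψ_sub_le (he : 0 < e) (x : X) (hm : S.m₁ x ≠ 0) : S.ψ x - ψ₀ x ≤ 7 / O.c * e := by
  have h1 := k_φψ₀_le S D he x hm
  have h2 := (k_mono2 O (φ_mem S D x) (ψ₀_mem D x) (ψ_mem S D x) (S.ψge x)).1
  have h3 := kap_ge S D he x
  have hc := O.c_pos
  have h4 : O.c * (S.ψ x - ψ₀ x) ≤ 7 * e := by
    unfold kap at h3
    linarith
  rw [div_mul_eq_mul_div, le_div_iff₀ hc]
  linarith

/-! ### the obstacles -/

lemma lap_h₁ (x : X) : O.k1 (S.h₁ x) (ψ₀ x) * C.L S.h₁ x + O.k2 (S.h₁ x) (ψ₀ x) * C.L ψ₀ x +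
    deriv (deriv O.Γ) (S.h₁ x - ψ₀ x) * C.G (fun y => S.h₁ y - ψ₀ y) (fun y => S.h₁ y - ψ₀ y) x
      = 0 := by
  rw [← L_k O S.sh₁ D.sψ]
  have : (fun x => O.k (S.h₁ x) (ψ₀ x)) = fun _ => 4 * e := by funext y; exact S.kh₁ y
  rw [this, C.L_const]

omit D in
lemma lap_h₂ (x : X) : O.k1 (S.φ x) (S.h₂ x) * C.L S.φ x + O.k2 (S.φ x) (S.h₂ x) * C.L S.h₂ x +
    deriv (deriv O.Γ) (S.φ x - S.h₂ x) * C.G (fun y => S.φ y - S.h₂ y) (fun y => S.φ y - S.h₂ y) x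
      = 0 := by
  rw [← L_k O S.sφ S.sh₂]
  have : (fun x => O.k (S.φ x) (S.h₂ x)) = fun _ => 0 := by funext y; exact S.kh₂ y
  rw [this, C.L_const]

omit D in
/-- if `a • p + b • q = 0`, `|a| ≥ c`, `|b| ≤ 1` then `c² |p|² ≤ |q|²`. -/
lemma sq_of_lin {p q : Fin 4 → ℝ} {a b c : ℝ} (h : a • p + b • q = 0) (hc : 0 < c)
    (ha : a ≤ -c) (hb : |b| ≤ 1) : c ^ 2 * (p ⬝ᵥ p) ≤ q ⬝ᵥ q := by
  have h1 : a • p = -(b • q) := by rw [← add_eq_zero_iff_eq_neg]; exact h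
  have h2 : a ^ 2 * (p ⬝ᵥ p) = b ^ 2 * (q ⬝ᵥ q) := by
    have : (a • p) ⬝ᵥ (a • p) = (b • q) ⬝ᵥ (b • q) := by
      rw [h1, neg_dotProduct, dotProduct_neg, neg_neg]
    simp only [smul_dotProduct, dotProduct_smul, smul_eq_mul] at this
    nlinarith
  have hp : 0 ≤ p ⬝ᵥ p := by
    rw [dotProduct]; exact Finset.sum_nonneg fun i _ => mul_self_nonneg _
  have hq : 0 ≤ q ⬝ᵥ q := by
    rw [dotProduct]; exact Finset.sum_nonneg fun i _ => mul_self_nonneg _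
  have h3 : c ^ 2 ≤ a ^ 2 := by nlinarith
  have h4 : b ^ 2 ≤ 1 := by rw [← sq_abs]; nlinarith [abs_nonneg b]
  nlinarith

lemma G_h₁ (he : 0 < e) (x : X) : O.c ^ 2 * C.G S.h₁ S.h₁ x ≤ C.G ψ₀ ψ₀ x := by
  have h1 := D_k O S.sh₁ D.sψ x
  have h2 : (fun x => O.k (S.h₁ x) (ψ₀ x)) = fun _ => 4 * e := by funext y; exact S.kh₁ y
  rw [h2, D_const] at h1
  exact sq_of_lin h1.symm O.c_pos (k1_le O (h₁_mem S he x) (ψ₀_mem D x))
    (abs_k2 O (h₁_mem S he x) (ψ₀_mem D x))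

lemma G_h₂ (he : 0 < e) (x : X) : O.c ^ 2 * C.G S.h₂ S.h₂ x ≤ C.G S.φ S.φ x := by
  have h1 := D_k O S.sφ S.sh₂ x
  have h2 : (fun x => O.k (S.φ x) (S.h₂ x)) = fun _ => 0 := by funext y; exact S.kh₂ y
  rw [h2, D_const, add_comm] at h1
  exact sq_of_lin h1.symm O.c_pos (k2_le O (φ_mem S D x) (h₂_mem S he x))
    (abs_k1 O (φ_mem S D x) (h₂_mem S he x))

/-! ### the pointwise data -/

/-- **the pointwise data of the pair**. -/
theorem pt (he : 0 < e) (hη : 0 ≤ η₀) (M : ℝ) (x : X) :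
    Pt O f M η₀ (7 / O.c) e (S.φ x) (S.ψ x) (S.h₁ x) (ψ₀ x) (S.h₂ x)
      (C.G (fun y => S.φ y - S.ψ y) (fun y => S.φ y - S.ψ y) x)
      (C.G (fun y => S.h₁ y - ψ₀ y) (fun y => S.h₁ y - ψ₀ y) x)
      (C.G (fun y => S.φ y - S.h₂ y) (fun y => S.φ y - S.h₂ y) x)
      (C.L S.φ x) (C.L ψ₀ x) (C.L S.h₁ x) (C.L S.h₂ x) (S.m₁ x) (S.m₂ x) (S.g₁ x) where
  e0 := he
  C1 := by have := O.c_pos; positivity
  η0 := hη
  hu := φ_mem S D x
  hv := ψ_mem S D x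
  hh := h₁_mem S he x
  hw := ψ₀_mem D x
  hh' := h₂_mem S he x
  P0 := G_self_nonneg _ _
  P10 := G_self_nonneg _ _
  P20 := G_self_nonneg _ _
  eq1 := lap_h₁ S D x
  eq2 := lap_h₂ S x
  subw := D.subψ x
  equ := S.eqφ x
  m1 := S.m₁nn x
  m2 := S.m₂nn x
  le1 := S.m₁le x
  le2 := S.m₂le x
  n1 := fun hm => by
    have h1 := S.m₁sup x hm
    have h2 := S.φle x
    have h3 := S.ψge x
    have h4 := ψ_sub_le S D he x hm
    have h5 : |S.φ x - S.h₁ x| ≤ 2 * e := by rw [abs_le]; constructor <;> linarith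
    have h6 : |S.ψ x - ψ₀ x| ≤ 7 / O.c * e := by
      rw [abs_of_nonneg (sub_nonneg.2 h3)]; exact h4
    rw [add_mul]; linarith
  n2 := fun hm => by
    have h1 := S.m₂sup x hm
    have h2 := S.ψle x
    rw [abs_le]; constructor <;> linarith

/-- the error function of the simplex property. -/
def Err (M : ℝ) (S : PenSolG C O f η₀ φ₀ ψ₀ K e ε) (x : X) : ℝ :=
  errR (12 * M ^ 2 * (2 + 7 / O.c)) e (S.m₁ x) (S.m₂ x) (S.g₁ x)
    (C.G (fun y => S.φ y - S.ψ y) (fun y => S.φ y - S.ψ y) x)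
    (C.G (fun y => S.h₁ y - ψ₀ y) (fun y => S.h₁ y - ψ₀ y) x)
    (C.G (fun y => S.φ y - S.h₂ y) (fun y => S.φ y - S.h₂ y) x)

/-- **(P3)**. -/
theorem simplex (he : 0 < e) (hη : 0 ≤ η₀) (c : Cst O f M) (x : X) :
    -O.k1 (S.φ x) (S.ψ x) * S.m₁ x + -O.k2 (S.φ x) (S.ψ x) * S.m₂ x ≤
      max 0 (O.E f (S.φ x) (S.ψ x)
        (C.G (fun y => S.φ y - S.ψ y) (fun y => S.φ y - S.ψ y) x)) + η₀ + Err M S x :=
  (pt S D he hη M x).simplex c

/-- the first contact inequality. -/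
theorem contact₁ (he : 0 < e) (hη : 0 ≤ η₀) (x : X) :
    -O.k1 (S.h₁ x) (ψ₀ x) * S.m₁ x ≤ max 0 (O.E f (S.h₁ x) (ψ₀ x)
      (C.G (fun y => S.h₁ y - ψ₀ y) (fun y => S.h₁ y - ψ₀ y) x) + η₀) + e :=
  (pt S D he hη 1 x).first

/-- the second contact inequality. -/
theorem contact₂ (he : 0 < e) (hη : 0 ≤ η₀) (x : X) :
    -O.k2 (S.φ x) (S.h₂ x) * S.m₂ x ≤ max 0 (O.E f (S.φ x) (S.h₂ x)
      (C.G (fun y => S.φ y - S.h₂ y) (fun y => S.φ y - S.h₂ y) x) + η₀ +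
        O.k1 (S.φ x) (S.h₂ x) * S.m₁ x + |S.g₁ x|) + e :=
  (pt S D he hη 1 x).second

lemma Err_nonneg (he : 0 < e) (M : ℝ) (x : X) : 0 ≤ Err M S x := by
  have hc := O.c_pos
  have h1 := S.m₁nn x
  have h2 := S.m₂nn x
  have h3 := G_self_nonneg (C := C) (fun y => S.h₁ y - ψ₀ y) x
  have h4 := G_self_nonneg (C := C) (fun y => S.φ y - S.h₂ y) x
  unfold Err errR
  split_ifs <;> positivity

end Kap

end Crest.Agent.R249.ObC_780
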