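import Crest.Agent.R249.ObC_780

/-!
Row 249, part A2 v3 (helper780), file 4: uniform bounds for the penalised pairs `PenSolG`.
-/

set_option autoImplicit false
set_option linter.unusedVariables false
set_option linter.unusedSectionVars false

open MeasureTheory Set Filter Topology Matrix
open scoped ContDiff

noncomputable section

namespace Crest.Agent.R249.ObD_780

open Crest.Agent.R249.Calc_806 Crest.Agent.R249.Calc_806.Calc Crest.Agent.R249.PenH_806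
  Crest.Agent.R249.ObB_780 Crest.Agent.R249.ObC_780 Crest.Agent.R249.FamA_780

variable {X : Type*} [TopologicalSpace X] [CompactSpace X] [MeasurableSpace X]
  [OpensMeasurableSpace X] {μ : Measure X} [IsFiniteMeasure μ] {C : Calc X μ}

/-! ### the error on the contact set, abstract form -/

section Part

variable {ι : Type*} {good : ι → Prop} {e : ι → ℝ} {p q : ι → X → ℝ} {T : ι → Set X}

lemma int_part (he : ∀ i, good i → 0 < e i ∧ e i ≤ 1) (hp : ∀ i, C.Sm (p i)) (hq : ∀ i, C.Sm (q i))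
    (hT : ∀ i, MeasurableSet (T i)) (h1 : LB μ good (fun i => C.G (p i) (p i)))
    (h2 : LB μ good (fun i => C.G (q i) (q i)))
    (hw : ∃ A : ℝ, 0 ≤ A ∧ ∀ i, good i →
      ∫ x in T i, C.G (fun y => p i y - q i y) (fun y => p i y - q i y) x ^ 2 ∂μ ≤ A * e i) :
    ∃ A : ℝ, 0 ≤ A ∧ ∀ i, good i → ∫ x in T i, (e i * (1 + C.G (q i) (q i) x) +
      |C.G (p i) (p i) x - C.G (q i) (q i) x|) ^ 2 ∂μ ≤ A * Real.sqrt (e i) := by
  obtain ⟨A, hA, hw⟩ := hw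
  obtain ⟨A₁, hA₁, k1⟩ := ((LB.const (μ := μ) (good := good) 1).add h2).ub
  obtain ⟨A₂, hA₂, k2⟩ := (h1.add h2).ub
  refine ⟨2 * A₁ + 2 * A + 2 * A₂, by positivity, fun i hi => ?_⟩
  obtain ⟨he0, he1⟩ := he i hi
  set s := Real.sqrt (e i) with hs'
  have hs0 : 0 < s := Real.sqrt_pos.2 he0
  have hss : s ^ 2 = e i := Real.sq_sqrt he0.le
  have hs1 : s ≤ 1 := by rw [hs']; exact Real.sqrt_le_one.2 he1
  have hes : e i ≤ s := by nlinarith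
  have sP := C.sm_G (hp i) (hp i)
  have sQ := C.sm_G (hq i) (hq i)
  have sw := sm_sub (hp i) (hq i)
  have sW := C.sm_G sw sw
  set P := C.G (p i) (p i) with hP
  set Q := C.G (q i) (q i) with hQ
  set W := C.G (fun y => p i y - q i y) (fun y => p i y - q i y) with hW
  have hpt : ∀ x, (e i * (1 + Q x) + |P x - Q x|) ^ 2 ≤
      2 * e i ^ 2 * (1 + Q x) ^ 2 + (2 * s⁻¹ * W x ^ 2 + 2 * s * (P x + Q x) ^ 2) := by
    intro x
    have a1 := G_diff_sq (hp i) (hq i) x hs0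
    have a2 : (e i * (1 + Q x) + |P x - Q x|) ^ 2 ≤
        2 * (e i * (1 + Q x)) ^ 2 + 2 * |P x - Q x| ^ 2 := by
      nlinarith [sq_nonneg (e i * (1 + Q x) - |P x - Q x|)]
    rw [sq_abs] at a2
    nlinarith
  have s1 : C.Sm (fun x => 1 + Q x) := sm_add (sm_const _) sQ
  have s2 : C.Sm (fun x => P x + Q x) := sm_add sP sQ
  have j1 : Integrable (fun x => (1 + Q x) ^ 2) μ := integrable_sm (sm_pow s1 2)
  have j2 : Integrable (fun x => W x ^ 2) μ := integrable_sm (sm_pow sW 2)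
  have j3 : Integrable (fun x => (P x + Q x) ^ 2) μ := integrable_sm (sm_pow s2 2)
  have c1 : IntegrableOn (fun x => 2 * e i ^ 2 * (1 + Q x) ^ 2) (T i) μ :=
    (j1.const_mul _).integrableOn
  have c2 : IntegrableOn (fun x => 2 * s⁻¹ * W x ^ 2) (T i) μ := (j2.const_mul _).integrableOn
  have c3 : IntegrableOn (fun x => 2 * s * (P x + Q x) ^ 2) (T i) μ :=
    (j3.const_mul _).integrableOn
  have c4 : IntegrableOn (fun x => 2 * s⁻¹ * W x ^ 2 + 2 * s * (P x + Q x) ^ 2) (T i) μ :=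
    c2.add c3
  have hle : ∫ x in T i, (e i * (1 + Q x) + |P x - Q x|) ^ 2 ∂μ ≤
      ∫ x in T i, (2 * e i ^ 2 * (1 + Q x) ^ 2 + (2 * s⁻¹ * W x ^ 2 + 2 * s * (P x + Q x) ^ 2)) ∂μ :=
    integral_mono_of_nonneg (Eventually.of_forall fun x => sq_nonneg _) (c1.add c4)
      (Eventually.of_forall hpt)
  refine hle.trans ?_
  rw [integral_add c1 c4, integral_add c2 c3, integral_const_mul, integral_const_mul,
    integral_const_mul]
  have v1 : ∫ x in T i, (1 + Q x) ^ 2 ∂μ ≤ A₁ :=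
    (setIntegral_le_integral j1 (Eventually.of_forall fun x => sq_nonneg _)).trans (k1 i hi)
  have v3 : ∫ x in T i, (P x + Q x) ^ 2 ∂μ ≤ A₂ :=
    (setIntegral_le_integral j3 (Eventually.of_forall fun x => sq_nonneg _)).trans (k2 i hi)
  have v2 := hw i hi
  have w1 : 2 * e i ^ 2 * ∫ x in T i, (1 + Q x) ^ 2 ∂μ ≤ 2 * A₁ * s := by
    have a1 : 2 * e i ^ 2 * ∫ x in T i, (1 + Q x) ^ 2 ∂μ ≤ 2 * e i ^ 2 * A₁ :=
      mul_le_mul_of_nonneg_left v1 (by positivity)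
    have a2 : e i ^ 2 ≤ s := by nlinarith
    nlinarith
  have w2 : 2 * s⁻¹ * ∫ x in T i, W x ^ 2 ∂μ ≤ 2 * A * s := by
    have a1 : 2 * s⁻¹ * ∫ x in T i, W x ^ 2 ∂μ ≤ 2 * s⁻¹ * (A * e i) :=
      mul_le_mul_of_nonneg_left v2 (by positivity)
    have a2 : 2 * s⁻¹ * (A * e i) = 2 * A * s := by
      rw [← hss]; field_simp
    linarith
  have w3 : 2 * s * ∫ x in T i, (P x + Q x) ^ 2 ∂μ ≤ 2 * s * A₂ :=
    mul_le_mul_of_nonneg_left v3 (by positivity)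
  linarith

end Part

/-! ### the family of all pairs -/

/-- a penalised pair with its parameters. -/
structure Idx (C : Calc X μ) {g B : ℝ} (O : Ob g B) (f : ℝ → ℝ) (η₀ : ℝ) (φ₀ ψ₀ : X → ℝ)
    (K : ℝ) where
  e : ℝ
  ε : ℝ
  S : PenSolG C O f η₀ φ₀ ψ₀ K e ε

variable {g B : ℝ} {O : Ob g B} {f : ℝ → ℝ} {η₀ t₀ K M : ℝ} {φ₀ ψ₀ : X → ℝ}

/-- small width and small residual. -/
def Good (i : Idx C O f η₀ φ₀ ψ₀ K) : Prop := 0 < i.e ∧ i.e ≤ 1 ∧ i.ε ≤ i.e ^ 2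

lemma diff_le {u v : ℝ} (hu : u ∈ Icc g B) (hv : v ∈ Icc g B) : |u - v| ≤ B - g + 1 := by
  have := eta_le hu hv; linarith

section Bounds

variable (D : DatG C O f η₀ t₀ φ₀ ψ₀) (hη : 0 ≤ η₀) (c : Cst O f M)

local notation "GG" => Good (C := C) (O := O) (f := f) (η₀ := η₀) (φ₀ := φ₀) (ψ₀ := ψ₀) (K := K)

include D

lemma pb_G_h₁ : PB GG (fun i x => C.G i.S.h₁ i.S.h₁ x) := by
  obtain ⟨K₀, hK₀, hK⟩ := exists_bound (C.sm_G D.sψ D.sψ)
  have hc := O.c_pos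
  refine ⟨K₀ / O.c ^ 2, by positivity, fun i hi x => ?_⟩
  rw [le_div_iff₀ (by positivity), mul_comm]
  exact (G_h₁ i.S D hi.1 x).trans ((le_abs_self _).trans (hK x))

include c

omit D in
/-- the Laplacian of an obstacle. -/
lemma lap_obst {a b r P Lh Lw : ℝ} (h : a * Lh + b * Lw + r * P = 0) (ha : a ≤ -O.c)
    (hb : |b| ≤ 1) (hr : |r| ≤ M) (hP : 0 ≤ P) : |Lh| ≤ (|Lw| + M * P) * (1 / O.c) := by
  have hc := O.c_pos
  have h1 : |a * Lh| ≤ |Lw| + M * P := by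
    have e1 : a * Lh = -(b * Lw) - r * P := by linarith
    rw [e1]
    refine (abs_sub _ _).trans ?_
    rw [abs_neg, abs_mul, abs_mul, abs_of_nonneg hP]
    have := mul_le_mul_of_nonneg_right hb (abs_nonneg Lw)
    have := mul_le_mul_of_nonneg_right hr hP
    linarith
  have h2 : O.c * |Lh| ≤ |a * Lh| := by
    rw [abs_mul]
    refine mul_le_mul_of_nonneg_right ?_ (abs_nonneg _)
    rw [abs_of_neg (by linarith)]; linarith
  rw [mul_one_div, le_div_iff₀ hc]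
  linarith

lemma pb_L_h₁ : PB GG (fun i x => |C.L i.S.h₁ x|) := by
  obtain ⟨K₀, hK₀, hK⟩ := exists_bound (C.sm_G D.sψ D.sψ)
  obtain ⟨K₁, hK₁, hK'⟩ := exists_bound (C.sm_L D.sψ)
  obtain ⟨K₂, hK₂, hK''⟩ := pb_G_h₁ (K := K) D
  have hc := O.c_pos
  have hM := c.M1
  refine ⟨(K₁ + M * (2 * K₂ + 2 * K₀)) * (1 / O.c), by positivity, fun i hi x => ?_⟩
  have h1 := lap_obst (O := O) c (lap_h₁ i.S D x) (k1_le O (h₁_mem i.S hi.1 x) (ψ₀_mem D x))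
    (abs_k2 O (h₁_mem i.S hi.1 x) (ψ₀_mem D x))
    (c.b2 _ (eta_le (h₁_mem i.S hi.1 x) (ψ₀_mem D x))) (G_self_nonneg _ _)
  refine h1.trans (mul_le_mul_of_nonneg_right ?_ (by positivity))
  have h2 := G_sub_le i.S.sh₁ D.sψ x
  have h3 := hK' x
  have h4 := (le_abs_self _).trans (hK x)
  have h5 := hK'' i hi x
  have h6 : M * C.G (fun y => i.S.h₁ y - ψ₀ y) (fun y => i.S.h₁ y - ψ₀ y) x ≤
      M * (2 * K₂ + 2 * K₀) := mul_le_mul_of_nonneg_left (by linarith) (by linarith)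
  linarith

include hη

lemma pb_m₁ : PB GG (fun i x => i.S.m₁ x) := by
  obtain ⟨A, hA, h⟩ := pb_L_h₁ (K := K) D c
  have hM := c.M1
  refine ⟨A + M + η₀ + 1, by positivity, fun i hi x => ?_⟩
  have h1 := i.S.m₁le x
  have h2 := h i hi x
  have h3 := c.fb _ (h₁_mem i.S hi.1 x)
  have h4 : max 0 (C.L i.S.h₁ x - (f (i.S.h₁ x) - η₀)) ≤ A + M + η₀ := by
    refine max_le (by positivity) ?_
    have := (abs_le.1 h3).1
    have := (le_abs_self _).trans h2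
    linarith
  have h5 := hi.2.1
  linarith

lemma lb_m₁ : LB μ GG (fun i => i.S.m₁) :=
  LB.of_pb (fun i => C.sm_cont i.S.sm₁) (by
    obtain ⟨A, hA, h⟩ := pb_m₁ (K := K) D hη c
    refine ⟨A, hA, fun i hi x => ?_⟩
    simp only
    rw [abs_of_nonneg (i.S.m₁nn x)]
    exact h i hi x)

omit D c hη in
lemma int_g₁ (i : Idx C O f η₀ φ₀ ψ₀ K) (hi : Good i) :
    ∫ x, i.S.g₁ x ^ 2 ∂μ ≤ Kg K μ * i.e :=
  int_g_sq i.S.sg₁ (C.sm_cont i.S.sr₁) hi.1 hi.2.1 hi.2.2 i.S.r₁int i.S.g₁le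

omit D c hη in
lemma int_g₂ (i : Idx C O f η₀ φ₀ ψ₀ K) (hi : Good i) :
    ∫ x, i.S.g₂ x ^ 2 ∂μ ≤ Kg K μ * i.e :=
  int_g_sq i.S.sg₂ (C.sm_cont i.S.sr₂) hi.1 hi.2.1 hi.2.2 i.S.r₂int i.S.g₂le

omit D c hη in
lemma lb_g₁ : LB μ GG (fun i => i.S.g₁) :=
  ⟨fun i => C.sm_cont i.S.sg₁, Kg K μ, Kg_nonneg K, fun i hi => (int_g₁ i hi).trans (by
    have := hi.2.1; have := Kg_nonneg (μ := μ) K; nlinarith)⟩

omit D c hη in
lemma lb_g₂ : LB μ GG (fun i => i.S.g₂) :=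
  ⟨fun i => C.sm_cont i.S.sg₂, Kg K μ, Kg_nonneg K, fun i hi => (int_g₂ i hi).trans (by
    have := hi.2.1; have := Kg_nonneg (μ := μ) K; nlinarith)⟩

lemma lb_L_φ : LB μ GG (fun i => C.L i.S.φ) := by
  have h0 := ((LB.const (μ := μ) (good := GG) (M + η₀)).add (lb_m₁ (K := K) D hη c)).add
    (lb_g₁ (K := K)).abs
  refine h0.mono (fun i => C.sm_cont (C.sm_L i.S.sφ)) fun i hi x => ?_
  have h3 := c.fb _ (φ_mem i.S D x)
  have h4 := i.S.m₁nn x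
  rw [i.S.eqφ x]
  have h5 : |(f (i.S.φ x) - η₀) + i.S.m₁ x + i.S.g₁ x| ≤
      |f (i.S.φ x) - η₀| + |i.S.m₁ x| + |i.S.g₁ x| :=
    (abs_add_le _ _).trans (add_le_add_left (abs_add_le _ _) _)
  have h6 : |f (i.S.φ x) - η₀| ≤ |f (i.S.φ x)| + |η₀| := abs_sub _ _
  rw [abs_of_nonneg hη] at h6
  rw [abs_of_nonneg h4] at h5
  linarith

lemma lb_G_φ : LB μ GG (fun i => C.G i.S.φ i.S.φ) :=
  lb_G (v := fun i : Idx C O f η₀ φ₀ ψ₀ K => i.S.φ) (fun i => i.S.sφ) (s := |g| + |B| + 1)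
    (by positivity) (fun i hi x => by
      have h := φ_mem i.S D x
      have a1 := neg_abs_le g
      have a2 := le_abs_self B
      have a3 := abs_nonneg g
      have a4 := abs_nonneg B
      rw [abs_le]; constructor <;> linarith [h.1, h.2]) (lb_L_φ D hη c)

lemma lb_G_h₂ : LB μ GG (fun i => C.G i.S.h₂ i.S.h₂) := by
  have hc := O.c_pos
  refine ((lb_G_φ (K := K) D hη c).mul (1 / O.c ^ 2)).mono
    (fun i => C.sm_cont (C.sm_G i.S.sh₂ i.S.sh₂)) fun i hi x => ?_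
  have h1 := G_h₂ i.S D hi.1 x
  rw [abs_of_nonneg (G_self_nonneg _ _), one_div, inv_mul_eq_div, le_div_iff₀ (by positivity),
    mul_comm]
  exact h1

/-- `|d(φ - h₂)|²` -/
lemma lb_G_φh₂ : LB μ GG (fun i => C.G (fun y => i.S.φ y - i.S.h₂ y)
    (fun y => i.S.φ y - i.S.h₂ y)) := by
  refine (((lb_G_φ (K := K) D hη c).mul 2).add ((lb_G_h₂ (K := K) D hη c).mul 2)).mono
    (fun i => C.sm_cont (C.sm_G (sm_sub i.S.sφ i.S.sh₂) (sm_sub i.S.sφ i.S.sh₂)))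
    fun i hi x => ?_
  rw [abs_of_nonneg (G_self_nonneg _ _)]
  exact G_sub_le i.S.sφ i.S.sh₂ x

lemma lb_L_h₂ : LB μ GG (fun i => C.L i.S.h₂) := by
  refine (((lb_L_φ (K := K) D hη c).abs.add ((lb_G_φh₂ (K := K) D hη c).mul M)).mul
    (1 / O.c)).mono (fun i => C.sm_cont (C.sm_L i.S.sh₂)) fun i hi x => ?_
  have h0 := lap_h₂ i.S x
  have h1 := lap_obst (O := O) c (a := O.k2 (i.S.φ x) (i.S.h₂ x)) (b := O.k1 (i.S.φ x) (i.S.h₂ x))
    (Lh := C.L i.S.h₂ x) (Lw := C.L i.S.φ x) (by rw [← h0]; ring)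
    (k2_le O (φ_mem i.S D x) (h₂_mem i.S hi.1 x))
    (abs_k1 O (φ_mem i.S D x) (h₂_mem i.S hi.1 x))
    (c.b2 _ (eta_le (φ_mem i.S D x) (h₂_mem i.S hi.1 x))) (G_self_nonneg _ _)
  rw [mul_comm (1 / O.c)]
  exact h1

lemma lb_m₂ : LB μ GG (fun i => i.S.m₂) := by
  refine ((lb_L_h₂ (K := K) D hη c).abs.add (LB.const (μ := μ) (good := GG) (M + η₀ + 1))).mono
    (fun i => C.sm_cont i.S.sm₂) fun i hi x => ?_
  have hM := c.M1
  rw [abs_of_nonneg (i.S.m₂nn x)]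
  have h1 := i.S.m₂le x
  have h3 := c.fb _ (h₂_mem i.S hi.1 x)
  have h4 : max 0 (C.L i.S.h₂ x - (f (i.S.h₂ x) - η₀)) ≤ |C.L i.S.h₂ x| + M + η₀ := by
    have := abs_nonneg (C.L i.S.h₂ x)
    refine max_le (by linarith) ?_
    have := (abs_le.1 h3).1
    have := le_abs_self (C.L i.S.h₂ x)
    linarith
  have h5 := hi.2.1
  linarith

lemma lb_L_ψ : LB μ GG (fun i => C.L i.S.ψ) := by
  have h0 := ((LB.const (μ := μ) (good := GG) (M + η₀)).add (lb_m₂ (K := K) D hη c)).add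
    (lb_g₂ (K := K)).abs
  refine h0.mono (fun i => C.sm_cont (C.sm_L i.S.sψ)) fun i hi x => ?_
  have h3 := c.fb _ (ψ_mem i.S D x)
  have h4 := i.S.m₂nn x
  rw [i.S.eqψ x]
  have h5 : |(f (i.S.ψ x) - η₀) + i.S.m₂ x + i.S.g₂ x| ≤
      |f (i.S.ψ x) - η₀| + |i.S.m₂ x| + |i.S.g₂ x| :=
    (abs_add_le _ _).trans (add_le_add_left (abs_add_le _ _) _)
  have h6 : |f (i.S.ψ x) - η₀| ≤ |f (i.S.ψ x)| + |η₀| := abs_sub _ _
  rw [abs_of_nonneg hη] at h6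
  rw [abs_of_nonneg h4] at h5
  linarith

lemma lb_G_ψ : LB μ GG (fun i => C.G i.S.ψ i.S.ψ) :=
  lb_G (v := fun i : Idx C O f η₀ φ₀ ψ₀ K => i.S.ψ) (fun i => i.S.sψ) (s := |g| + |B| + 1)
    (by positivity) (fun i hi x => by
      have h := ψ_mem i.S D x
      have a1 := neg_abs_le g
      have a2 := le_abs_self B
      have a3 := abs_nonneg g
      have a4 := abs_nonneg B
      rw [abs_le]; constructor <;> linarith [h.1, h.2]) (lb_L_ψ D hη c)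

/-- `|d(φ - ψ)|²` -/
lemma lb_G_η : LB μ GG (fun i => C.G (fun y => i.S.φ y - i.S.ψ y)
    (fun y => i.S.φ y - i.S.ψ y)) := by
  refine (((lb_G_φ (K := K) D hη c).mul 2).add ((lb_G_ψ (K := K) D hη c).mul 2)).mono
    (fun i => C.sm_cont (C.sm_G (sm_sub i.S.sφ i.S.sψ) (sm_sub i.S.sφ i.S.sψ)))
    fun i hi x => ?_
  rw [abs_of_nonneg (G_self_nonneg _ _)]
  exact G_sub_le i.S.sφ i.S.sψ x

omit hη c in
/-- `|d(h₁ - ψ₀)|²` -/
lemma lb_G_h₁ψ₀ : LB μ GG (fun i => C.G (fun y => i.S.h₁ y - ψ₀ y)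
    (fun y => i.S.h₁ y - ψ₀ y)) := by
  have h1 : LB μ GG (fun i => C.G i.S.h₁ i.S.h₁) :=
    LB.of_pb (fun i => C.sm_cont (C.sm_G i.S.sh₁ i.S.sh₁)) (by
      obtain ⟨A, hA, h⟩ := pb_G_h₁ (K := K) D
      refine ⟨A, hA, fun i hi x => ?_⟩
      simp only
      rw [abs_of_nonneg (G_self_nonneg _ _)]
      exact h i hi x)
  refine ((h1.mul 2).add ((LB.fix (C.sm_cont (C.sm_G D.sψ D.sψ))).mul 2)).mono
    (fun i => C.sm_cont (C.sm_G (sm_sub i.S.sh₁ D.sψ) (sm_sub i.S.sh₁ D.sψ)))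
    fun i hi x => ?_
  rw [abs_of_nonneg (G_self_nonneg _ _)]
  exact G_sub_le i.S.sh₁ D.sψ x

lemma lb_L_kap : LB μ GG (fun i => C.L (kap i.S)) := by
  have hM := c.M1
  refine (((lb_L_φ (K := K) D hη c).abs.add (lb_L_ψ (K := K) D hη c).abs).add
    ((lb_G_η (K := K) D hη c).mul M)).mono
    (fun i => C.sm_cont (C.sm_L (sm_kap i.S))) fun i hi x => ?_
  have h1 : C.L (kap i.S) x = C.L (fun x => O.k (i.S.φ x) (i.S.ψ x)) x := rfl
  rw [h1, L_k O i.S.sφ i.S.sψ]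
  have a1 := abs_k1 O (φ_mem i.S D x) (ψ_mem i.S D x)
  have a2 := abs_k2 O (φ_mem i.S D x) (ψ_mem i.S D x)
  have a3 := c.b2 _ (eta_le (φ_mem i.S D x) (ψ_mem i.S D x))
  have t1 := abs_add_le (O.k1 (i.S.φ x) (i.S.ψ x) * C.L i.S.φ x +
    O.k2 (i.S.φ x) (i.S.ψ x) * C.L i.S.ψ x) (deriv (deriv O.Γ) (i.S.φ x - i.S.ψ x) *
      C.G (fun y => i.S.φ y - i.S.ψ y) (fun y => i.S.φ y - i.S.ψ y) x)
  have t2 := abs_add_le (O.k1 (i.S.φ x) (i.S.ψ x) * C.L i.S.φ x)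
    (O.k2 (i.S.φ x) (i.S.ψ x) * C.L i.S.ψ x)
  rw [abs_mul, abs_mul] at t2
  rw [abs_mul (deriv (deriv O.Γ) (i.S.φ x - i.S.ψ x)),
    abs_of_nonneg (G_self_nonneg (C := C) (fun y => i.S.φ y - i.S.ψ y) x)] at t1
  have b1 := mul_le_mul_of_nonneg_right a1 (abs_nonneg (C.L i.S.φ x))
  have b2 := mul_le_mul_of_nonneg_right a2 (abs_nonneg (C.L i.S.ψ x))
  have b3 := mul_le_mul_of_nonneg_right a3
    (G_self_nonneg (C := C) (fun y => i.S.φ y - i.S.ψ y) x)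
  linarith

/-! ### the truncated bounds -/

/-- `k` on `{k ≤ 5 e}`. -/
theorem trunc_kap : ∃ A : ℝ, 0 ≤ A ∧ ∀ i : Idx C O f η₀ φ₀ ψ₀ K, Good i →
    ∀ T : Set X, MeasurableSet T → (∀ x ∈ T, kap i.S x ≤ 5 * i.e) →
      ∫ x in T, C.G (kap i.S) (kap i.S) x ^ 2 ∂μ ≤ A * i.e ∧
      ∫ x in T, C.G (kap i.S) (kap i.S) x ∂μ ≤ A * i.e := by
  refine trunc_family (C := C) (good := GG) (e := fun i => i.e) (v := fun i => kap i.S)
    (fun i hi => hi.1) (fun i => sm_kap i.S) (s := B - g + 1) (α := 2) (β := 5)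
    (by linarith [O.g_lt]) (by norm_num) (by norm_num) (fun i hi x => ?_)
    (fun i hi x => kap_ge i.S D hi.1 x) (lb_L_kap D hη c)
  have hφ := φ_mem i.S D x
  have hψ := ψ_mem i.S D x
  have hh := h₂_mem i.S hi.1 x
  have h0 := i.S.kh₂ x
  have h1 := abs_le.1 (eta_le hψ hh)
  rcases le_total (i.S.ψ x) (i.S.h₂ x) with h | h
  · obtain ⟨h2, h3⟩ := k_mono2 O hφ hψ hh h
    have h4 := mul_nonneg O.c_pos.le (sub_nonneg.2 h)
    unfold kap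
    rw [abs_le]; constructor <;> linarith
  · obtain ⟨h2, h3⟩ := k_mono2 O hφ hh hψ h
    have h4 := mul_nonneg O.c_pos.le (sub_nonneg.2 h)
    unfold kap
    rw [abs_le]; constructor <;> linarith

omit D c hη in
/-- the support of the first penalty. -/
lemma meas_T₁ (i : Idx C O f η₀ φ₀ ψ₀ K) : MeasurableSet {x | i.S.m₁ x ≠ 0} :=
  (isOpen_ne_fun (C.sm_cont i.S.sm₁) continuous_const).measurableSet

omit D c hη in
lemma meas_T₂ (i : Idx C O f η₀ φ₀ ψ₀ K) : MeasurableSet {x | i.S.m₂ x ≠ 0} :=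
  (isOpen_ne_fun (C.sm_cont i.S.sm₂) continuous_const).measurableSet

/-- `h₁ - φ` on the support of the first penalty. -/
theorem trunc_v₁ : ∃ A : ℝ, 0 ≤ A ∧ ∀ i : Idx C O f η₀ φ₀ ψ₀ K, Good i →
    ∫ x in {x | i.S.m₁ x ≠ 0},
      C.G (fun y => i.S.h₁ y - i.S.φ y) (fun y => i.S.h₁ y - i.S.φ y) x ^ 2 ∂μ ≤ A * i.e := by
  have lb1 : LB μ GG (fun i => C.L i.S.h₁) :=
    LB.of_pb (fun i => C.sm_cont (C.sm_L i.S.sh₁)) (pb_L_h₁ D c)
  obtain ⟨A, hA, h⟩ := trunc_family (C := C) (good := GG) (e := fun i => i.e)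
    (v := fun i y => i.S.h₁ y - i.S.φ y)
    (fun i hi => hi.1) (fun i => sm_sub i.S.sh₁ i.S.sφ) (s := B - g + 1) (α := 2) (β := 1)
    (by linarith [O.g_lt]) (by norm_num) (by norm_num)
    (fun i hi x => diff_le (h₁_mem i.S hi.1 x) (φ_mem i.S D x))
    (fun i hi x => by have := i.S.φle x; linarith)
    (lb_L_sub (fun i => i.S.sh₁) (fun i => i.S.sφ) lb1 (lb_L_φ D hη c))
  refine ⟨A, hA, fun i hi => (h i hi _ (meas_T₁ i) fun x hx => ?_).1⟩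
  have := i.S.m₁sup x hx
  linarith

/-- `ψ - ψ₀` on the support of the first penalty. -/
theorem trunc_v₂ : ∃ A : ℝ, 0 ≤ A ∧ ∀ i : Idx C O f η₀ φ₀ ψ₀ K, Good i →
    ∫ x in {x | i.S.m₁ x ≠ 0},
      C.G (fun y => i.S.ψ y - ψ₀ y) (fun y => i.S.ψ y - ψ₀ y) x ^ 2 ∂μ ≤ A * i.e := by
  have hc := O.c_pos
  obtain ⟨A, hA, h⟩ := trunc_family (C := C) (good := GG) (e := fun i => i.e)
    (v := fun i y => i.S.ψ y - ψ₀ y)
    (fun i hi => hi.1) (fun i => sm_sub i.S.sψ D.sψ) (s := B - g + 1) (α := 0) (β := 7 / O.c)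
    (by linarith [O.g_lt]) (by norm_num) (by positivity)
    (fun i hi x => diff_le (ψ_mem i.S D x) (ψ₀_mem D x))
    (fun i hi x => by have := i.S.ψge x; linarith)
    (lb_L_sub (fun i => i.S.sψ) (fun i => D.sψ) (lb_L_ψ D hη c)
      (LB.fix (C.sm_cont (C.sm_L D.sψ))))
  refine ⟨A, hA, fun i hi => (h i hi _ (meas_T₁ i) fun x hx => ?_).1⟩
  exact ψ_sub_le i.S D hi.1 x hx

/-- `h₂ - ψ` on the support of the second penalty. -/
theorem trunc_v₃ : ∃ A : ℝ, 0 ≤ A ∧ ∀ i : Idx C O f η₀ φ₀ ψ₀ K, Good i →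
    ∫ x in {x | i.S.m₂ x ≠ 0},
      C.G (fun y => i.S.h₂ y - i.S.ψ y) (fun y => i.S.h₂ y - i.S.ψ y) x ^ 2 ∂μ ≤ A * i.e := by
  obtain ⟨A, hA, h⟩ := trunc_family (C := C) (good := GG) (e := fun i => i.e)
    (v := fun i y => i.S.h₂ y - i.S.ψ y)
    (fun i hi => hi.1) (fun i => sm_sub i.S.sh₂ i.S.sψ) (s := B - g + 1) (α := 2) (β := 1)
    (by linarith [O.g_lt]) (by norm_num) (by norm_num)
    (fun i hi x => diff_le (h₂_mem i.S hi.1 x) (ψ_mem i.S D x))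
    (fun i hi x => by have := i.S.ψle x; linarith)
    (lb_L_sub (fun i => i.S.sh₂) (fun i => i.S.sψ) (lb_L_h₂ D hη c) (lb_L_ψ D hη c))
  refine ⟨A, hA, fun i hi => (h i hi _ (meas_T₂ i) fun x hx => ?_).1⟩
  have := i.S.m₂sup x hx
  linarith

end Bounds

end Crest.Agent.R249.ObD_780
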