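import Crest.Agent.R249.ObD_780

/-!
Row 249, part A2 v3 (helper780), file 5: the error of the simplex property tends to zero in `L²`;
**output of sections 5 and 6** for the penalised pairs `PenSolG` of helper806.
-/

set_option autoImplicit false
set_option linter.unusedVariables false
set_option linter.unusedSectionVars false

open MeasureTheory Set Filter Topology Matrix
open scoped ContDiff

noncomputable section

namespace Crest.Agent.R249.ObE_780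

open Crest.Agent.R249.Calc_806 Crest.Agent.R249.Calc_806.Calc Crest.Agent.R249.PenH_806
  Crest.Agent.R249.ObB_780 Crest.Agent.R249.ObC_780 Crest.Agent.R249.ObD_780
  Crest.Agent.R249.FamA_780

variable {X : Type*} [TopologicalSpace X] [CompactSpace X] [MeasurableSpace X]
  [OpensMeasurableSpace X] {μ : Measure X} [IsFiniteMeasure μ] {C : Calc X μ}

variable {g B : ℝ} {O : Ob g B} {f : ℝ → ℝ} {η₀ t₀ K M : ℝ} {φ₀ ψ₀ : X → ℝ}

local notation "GG" => Good (C := C) (O := O) (f := f) (η₀ := η₀) (φ₀ := φ₀) (ψ₀ := ψ₀) (K := K)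

/-- `|d(φ-ψ)|²`. -/
def Pη (i : Idx C O f η₀ φ₀ ψ₀ K) : X → ℝ :=
  C.G (fun y => i.S.φ y - i.S.ψ y) (fun y => i.S.φ y - i.S.ψ y)

/-- `|d(h₁-ψ₀)|²`. -/
def P₁ (i : Idx C O f η₀ φ₀ ψ₀ K) : X → ℝ :=
  C.G (fun y => i.S.h₁ y - ψ₀ y) (fun y => i.S.h₁ y - ψ₀ y)

/-- `|d(φ-h₂)|²`. -/
def P₂ (i : Idx C O f η₀ φ₀ ψ₀ K) : X → ℝ :=
  C.G (fun y => i.S.φ y - i.S.h₂ y) (fun y => i.S.φ y - i.S.h₂ y)

/-- `|-(a) - b|² ≤ 2|a|² + 2|b|²` with functions: `(φ-ψ)-(h₁-ψ₀) = -(h₁-φ)-(ψ-ψ₀)`. -/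
lemma G_four {a b : X → ℝ} (ha : C.Sm a) (hb : C.Sm b) (x : X) :
    C.G (fun y => -a y - b y) (fun y => -a y - b y) x ^ 2 ≤
      8 * (C.G a a x ^ 2 + C.G b b x ^ 2) := by
  have h1 := G_sub_le (C := C) (sm_neg ha) hb x
  have h2 : C.G (fun y => -a y) (fun y => -a y) x = C.G a a x := by
    rw [G_neg_left ha, G_symm, G_neg_left ha]; ring
  rw [h2] at h1
  have h3 := G_self_nonneg (C := C) (fun y => -a y - b y) x
  have h4 := G_self_nonneg (C := C) a x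
  have h5 := G_self_nonneg (C := C) b x
  have h6 : C.G (fun y => -a y - b y) (fun y => -a y - b y) x ^ 2 ≤
      (2 * C.G a a x + 2 * C.G b b x) ^ 2 := pow_le_pow_left₀ h3 h1 2
  nlinarith [sq_nonneg (C.G a a x - C.G b b x)]

section Err

variable (D : DatG C O f η₀ t₀ φ₀ ψ₀) (hη : 0 ≤ η₀) (c : Cst O f M)

include D hη c

lemma part₁ : ∃ A : ℝ, 0 ≤ A ∧ ∀ i : Idx C O f η₀ φ₀ ψ₀ K, Good i →
    ∫ x in {x | i.S.m₁ x ≠ 0}, (i.e * (1 + P₁ i x) + |Pη i x - P₁ i x|) ^ 2 ∂μ ≤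
      A * Real.sqrt i.e := by
  obtain ⟨A₁, hA₁, h1⟩ := trunc_v₁ (K := K) D hη c
  obtain ⟨A₂, hA₂, h2⟩ := trunc_v₂ (K := K) D hη c
  refine int_part (C := C) (good := GG) (e := fun i => i.e) (p := fun i y => i.S.φ y - i.S.ψ y)
    (q := fun i y => i.S.h₁ y - ψ₀ y) (T := fun i => {x | i.S.m₁ x ≠ 0})
    (fun i hi => ⟨hi.1, hi.2.1⟩) (fun i => sm_sub i.S.sφ i.S.sψ) (fun i => sm_sub i.S.sh₁ D.sψ)
    meas_T₁ (lb_G_η D hη c) (lb_G_h₁ψ₀ D) ⟨8 * (A₁ + A₂), by positivity, fun i hi => ?_⟩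
  have sa := sm_sub i.S.sh₁ i.S.sφ
  have sb := sm_sub i.S.sψ D.sψ
  have e1 : (fun y => i.S.φ y - i.S.ψ y - (i.S.h₁ y - ψ₀ y)) =
      fun y => -(i.S.h₁ y - i.S.φ y) - (i.S.ψ y - ψ₀ y) := by funext y; ring
  rw [e1]
  have j1 : IntegrableOn (fun x => C.G (fun y => i.S.h₁ y - i.S.φ y)
      (fun y => i.S.h₁ y - i.S.φ y) x ^ 2) {x | i.S.m₁ x ≠ 0} μ :=
    (integrable_sm (sm_pow (C.sm_G sa sa) 2)).integrableOn
  have j2 : IntegrableOn (fun x => C.G (fun y => i.S.ψ y - ψ₀ y)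
      (fun y => i.S.ψ y - ψ₀ y) x ^ 2) {x | i.S.m₁ x ≠ 0} μ :=
    (integrable_sm (sm_pow (C.sm_G sb sb) 2)).integrableOn
  have hle : ∫ x in {x | i.S.m₁ x ≠ 0}, C.G (fun y => -(i.S.h₁ y - i.S.φ y) - (i.S.ψ y - ψ₀ y))
      (fun y => -(i.S.h₁ y - i.S.φ y) - (i.S.ψ y - ψ₀ y)) x ^ 2 ∂μ ≤
      ∫ x in {x | i.S.m₁ x ≠ 0}, 8 * (C.G (fun y => i.S.h₁ y - i.S.φ y)
      (fun y => i.S.h₁ y - i.S.φ y) x ^ 2 + C.G (fun y => i.S.ψ y - ψ₀ y)
      (fun y => i.S.ψ y - ψ₀ y) x ^ 2) ∂μ :=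
    integral_mono_of_nonneg (Eventually.of_forall fun x => sq_nonneg _) ((j1.add j2).const_mul 8)
      (Eventually.of_forall fun x => G_four sa sb x)
  refine hle.trans ?_
  rw [integral_const_mul, integral_add j1 j2]
  have := h1 i hi
  have := h2 i hi
  have e3 : 8 * (A₁ + A₂) * i.e = 8 * (A₁ * i.e + A₂ * i.e) := by ring
  rw [e3]
  linarith

lemma part₂ : ∃ A : ℝ, 0 ≤ A ∧ ∀ i : Idx C O f η₀ φ₀ ψ₀ K, Good i →
    ∫ x in {x | i.S.m₂ x ≠ 0}, (i.e * (1 + P₂ i x) + |Pη i x - P₂ i x|) ^ 2 ∂μ ≤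
      A * Real.sqrt i.e := by
  obtain ⟨A₁, hA₁, h1⟩ := trunc_v₃ (K := K) D hη c
  refine int_part (C := C) (good := GG) (e := fun i => i.e) (p := fun i y => i.S.φ y - i.S.ψ y)
    (q := fun i y => i.S.φ y - i.S.h₂ y) (T := fun i => {x | i.S.m₂ x ≠ 0})
    (fun i hi => ⟨hi.1, hi.2.1⟩) (fun i => sm_sub i.S.sφ i.S.sψ) (fun i => sm_sub i.S.sφ i.S.sh₂)
    meas_T₂ (lb_G_η D hη c) (lb_G_φh₂ D hη c) ⟨A₁, hA₁, fun i hi => ?_⟩
  have e1 : (fun y => i.S.φ y - i.S.ψ y - (i.S.φ y - i.S.h₂ y)) =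
      fun y => i.S.h₂ y - i.S.ψ y := by funext y; ring
  rw [e1]
  exact h1 i hi

/-- **the error of the simplex property** tends to zero in `L²`. -/
theorem int_Err : ∃ A : ℝ, 0 ≤ A ∧ ∀ i : Idx C O f η₀ φ₀ ψ₀ K, Good i →
      Measurable (Err M i.S) ∧ Integrable (fun x => Err M i.S x ^ 2) μ ∧
        ∫ x, Err M i.S x ^ 2 ∂μ ≤ A * Real.sqrt i.e := by
  classical
  obtain ⟨A₁, hA₁, h1⟩ := part₁ (K := K) D hη c
  obtain ⟨A₂, hA₂, h2⟩ := part₂ (K := K) D hη c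
  obtain ⟨A₃, hA₃, h3⟩ := ((lb_m₁ (K := K) D hη c).add (lb_m₂ (K := K) D hη c)).ub
  set N : ℝ := 12 * M ^ 2 * (2 + 7 / O.c) with hN
  have hKg := Kg_nonneg (μ := μ) K
  refine ⟨5 * N ^ 2 * (μ.real univ + Kg K μ + A₃ + A₁ + A₂), by positivity, fun i hi => ?_⟩
  obtain ⟨he, he1, hε⟩ := hi
  have hi : Good i := ⟨he, he1, hε⟩
  set e := i.e with he'
  set s := Real.sqrt e with hs'
  have hs0 : 0 < s := Real.sqrt_pos.2 he
  have hss : s ^ 2 = e := Real.sq_sqrt he.le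
  have hs1 : s ≤ 1 := by rw [hs']; exact Real.sqrt_le_one.2 he1
  have hes : e ≤ s := by nlinarith
  have c1 : Continuous (fun x => e * (1 + P₁ i x) + |Pη i x - P₁ i x|) := by
    have s1 := C.sm_cont (C.sm_G (sm_sub i.S.sφ i.S.sψ) (sm_sub i.S.sφ i.S.sψ))
    have s2 := C.sm_cont (C.sm_G (sm_sub i.S.sh₁ D.sψ) (sm_sub i.S.sh₁ D.sψ))
    unfold P₁ Pη
    fun_prop
  have c2 : Continuous (fun x => e * (1 + P₂ i x) + |Pη i x - P₂ i x|) := by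
    have s1 := C.sm_cont (C.sm_G (sm_sub i.S.sφ i.S.sψ) (sm_sub i.S.sφ i.S.sψ))
    have s2 := C.sm_cont (C.sm_G (sm_sub i.S.sφ i.S.sh₂) (sm_sub i.S.sφ i.S.sh₂))
    unfold P₂ Pη
    fun_prop
  have cg := C.sm_cont i.S.sg₁
  have cm : Continuous (fun x => i.S.m₁ x + i.S.m₂ x) :=
    (C.sm_cont i.S.sm₁).add (C.sm_cont i.S.sm₂)
  set E₁ := fun x => e * (1 + P₁ i x) + |Pη i x - P₁ i x| with hE₁
  set E₂ := fun x => e * (1 + P₂ i x) + |Pη i x - P₂ i x| with hE₂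
  set T₁ : Set X := {x | i.S.m₁ x ≠ 0} with hT₁
  set T₂ : Set X := {x | i.S.m₂ x ≠ 0} with hT₂
  have mT₁ : MeasurableSet T₁ := meas_T₁ i
  have mT₂ : MeasurableSet T₂ := meas_T₂ i
  have hform : ∀ x, Err M i.S x = N * (e + |i.S.g₁ x| + e * (i.S.m₁ x + i.S.m₂ x) +
      T₁.indicator E₁ x + T₂.indicator E₂ x) := by
    intro x
    have a1 : T₁.indicator E₁ x = if i.S.m₁ x = 0 then 0 else E₁ x := by
      by_cases h : i.S.m₁ x = 0
      · rw [if_pos h, indicator_of_notMem]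
        simpa [hT₁] using h
      · rw [if_neg h, indicator_of_mem]
        exact h
    have a2 : T₂.indicator E₂ x = if i.S.m₂ x = 0 then 0 else E₂ x := by
      by_cases h : i.S.m₂ x = 0
      · rw [if_pos h, indicator_of_notMem]
        simpa [hT₂] using h
      · rw [if_neg h, indicator_of_mem]
        exact h
    rw [a1, a2]
    rfl
  have hmeas : Measurable (Err M i.S) := by
    have : Err M i.S = fun x => N * (e + |i.S.g₁ x| + e * (i.S.m₁ x + i.S.m₂ x) +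
      T₁.indicator E₁ x + T₂.indicator E₂ x) := by funext x; exact hform x
    rw [this]
    exact measurable_const.mul ((((measurable_const.add cg.abs.measurable).add
      (measurable_const.mul cm.measurable)).add (c1.measurable.indicator mT₁)).add
        (c2.measurable.indicator mT₂))
  -- the majorant
  set W : X → ℝ := fun x => 5 * N ^ 2 * (e ^ 2 + i.S.g₁ x ^ 2 + e ^ 2 * (i.S.m₁ x + i.S.m₂ x) ^ 2 +
      T₁.indicator (fun x => E₁ x ^ 2) x + T₂.indicator (fun x => E₂ x ^ 2) x) with hW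
  have hle : ∀ x, Err M i.S x ^ 2 ≤ W x := by
    intro x
    have a1 : T₁.indicator (fun x => E₁ x ^ 2) x = (T₁.indicator E₁ x) ^ 2 := by
      by_cases h : x ∈ T₁
      · rw [indicator_of_mem h, indicator_of_mem h]
      · rw [indicator_of_notMem h, indicator_of_notMem h]; norm_num
    have a2 : T₂.indicator (fun x => E₂ x ^ 2) x = (T₂.indicator E₂ x) ^ 2 := by
      by_cases h : x ∈ T₂
      · rw [indicator_of_mem h, indicator_of_mem h]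
      · rw [indicator_of_notMem h, indicator_of_notMem h]; norm_num
    rw [hform, hW]
    simp only
    rw [a1, a2]
    have a3 : i.S.g₁ x ^ 2 = |i.S.g₁ x| ^ 2 := (sq_abs _).symm
    have a4 : e ^ 2 * (i.S.m₁ x + i.S.m₂ x) ^ 2 = (e * (i.S.m₁ x + i.S.m₂ x)) ^ 2 := by ring
    rw [a3, a4, mul_pow, mul_comm (5:ℝ) (N ^ 2), mul_assoc]
    refine mul_le_mul_of_nonneg_left ?_ (sq_nonneg _)
    generalize T₁.indicator E₁ x = p
    generalize T₂.indicator E₂ x = q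
    generalize |i.S.g₁ x| = r
    generalize e * (i.S.m₁ x + i.S.m₂ x) = t
    nlinarith [sq_nonneg (e - r), sq_nonneg (e - t), sq_nonneg (e - p), sq_nonneg (e - q),
      sq_nonneg (r - t), sq_nonneg (r - p), sq_nonneg (r - q), sq_nonneg (t - p),
      sq_nonneg (t - q), sq_nonneg (p - q)]
  have i1 : Integrable (fun x => i.S.g₁ x ^ 2) μ := integrable_sm (sm_pow i.S.sg₁ 2)
  have i1' : Integrable (fun x => (i.S.m₁ x + i.S.m₂ x) ^ 2) μ := integrable_cont (cm.pow 2)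
  have i2 : Integrable (T₁.indicator (fun x => E₁ x ^ 2)) μ :=
    (integrable_cont (c1.pow 2)).indicator mT₁
  have i3 : Integrable (T₂.indicator (fun x => E₂ x ^ 2)) μ :=
    (integrable_cont (c2.pow 2)).indicator mT₂
  have i4 : Integrable (fun x => e ^ 2 + i.S.g₁ x ^ 2) μ := (integrable_const _).add i1
  have i4' : Integrable (fun x => e ^ 2 + i.S.g₁ x ^ 2 + e ^ 2 * (i.S.m₁ x + i.S.m₂ x) ^ 2) μ :=
    i4.add (i1'.const_mul _)
  have i5 : Integrable (fun x => e ^ 2 + i.S.g₁ x ^ 2 + e ^ 2 * (i.S.m₁ x + i.S.m₂ x) ^ 2 +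
      T₁.indicator (fun x => E₁ x ^ 2) x) μ := i4'.add i2
  have i6 : Integrable W μ := (i5.add i3).const_mul _
  have iE : Integrable (fun x => Err M i.S x ^ 2) μ :=
    i6.mono' (hmeas.pow_const 2).aestronglyMeasurable (Eventually.of_forall fun x => by
      rw [Real.norm_eq_abs, abs_of_nonneg (sq_nonneg _)]
      exact hle x)
  refine ⟨hmeas, iE, (integral_mono iE i6 hle).trans ?_⟩
  have e1 : ∫ x, W x ∂μ = 5 * N ^ 2 * (e ^ 2 * μ.real univ +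
      ∫ x, i.S.g₁ x ^ 2 ∂μ + e ^ 2 * ∫ x, (i.S.m₁ x + i.S.m₂ x) ^ 2 ∂μ +
      ∫ x in T₁, E₁ x ^ 2 ∂μ + ∫ x in T₂, E₂ x ^ 2 ∂μ) := by
    rw [hW, integral_const_mul, integral_add i5 i3, integral_add i4' i2,
      integral_add i4 (i1'.const_mul _), integral_add (integrable_const _) i1, integral_const,
      integral_const_mul, integral_indicator mT₁, integral_indicator mT₂, smul_eq_mul]
    ring
  rw [e1]
  have g1 := int_g₁ i hi
  have g2 := h1 i hi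
  have g3 := h2 i hi
  have g4 := h3 i hi
  have hV : 0 ≤ μ.real univ := measureReal_nonneg
  have e2 : e ^ 2 ≤ s := by nlinarith
  have b1 : e ^ 2 * μ.real univ ≤ μ.real univ * s := by nlinarith
  have b2 : ∫ x, i.S.g₁ x ^ 2 ∂μ ≤ Kg K μ * s := by
    have : Kg K μ * e ≤ Kg K μ * s := mul_le_mul_of_nonneg_left hes hKg
    linarith
  have b3 : e ^ 2 * ∫ x, (i.S.m₁ x + i.S.m₂ x) ^ 2 ∂μ ≤ A₃ * s := by
    have : e ^ 2 * ∫ x, (i.S.m₁ x + i.S.m₂ x) ^ 2 ∂μ ≤ s * A₃ :=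
      mul_le_mul e2 g4 (integral_nonneg fun x => sq_nonneg _) hs0.le
    linarith
  have e3 : 5 * N ^ 2 * (μ.real univ + Kg K μ + A₃ + A₁ + A₂) * s =
      5 * N ^ 2 * (μ.real univ * s + Kg K μ * s + A₃ * s + A₁ * s + A₂ * s) := by ring
  rw [e3]
  refine mul_le_mul_of_nonneg_left ?_ (by positivity)
  linarith

end Err

/-! ### the output -/

/-- **output of sections 5 and 6** for one penalised pair. -/
structure OutG {e ε : ℝ} (S : PenSolG C O f η₀ φ₀ ψ₀ K e ε) (A δ : ℝ) (er : X → ℝ) : Prop where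
  er_meas : Measurable er
  er_nn : ∀ x, 0 ≤ er x
  er_int : Integrable (fun x => er x ^ 2) μ
  er_le : ∫ x, er x ^ 2 ∂μ ≤ δ
  φ_mem : ∀ x, S.φ x ∈ Icc g B
  ψ_mem : ∀ x, S.ψ x ∈ Icc g B
  simplex : ∀ x, -O.k1 (S.φ x) (S.ψ x) * S.m₁ x + -O.k2 (S.φ x) (S.ψ x) * S.m₂ x ≤
    max 0 (O.E f (S.φ x) (S.ψ x) (C.G (fun y => S.φ y - S.ψ y) (fun y => S.φ y - S.ψ y) x)) +
      η₀ + er x
  kap_ge : ∀ x, -(2 * e) ≤ kap S x
  supp₁ : ∀ x, 5 * e < kap S x → S.m₁ x = 0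
  supp₂ : ∀ x, 5 * e < kap S x → S.m₂ x = 0
  kap_four : ∫ x in {x | kap S x ≤ 5 * e}, C.G (kap S) (kap S) x ^ 2 ∂μ ≤ δ
  g₁_sq : ∫ x, S.g₁ x ^ 2 ∂μ ≤ δ
  g₂_sq : ∫ x, S.g₂ x ^ 2 ∂μ ≤ δ
  bound : ∫ x, (1 + C.G S.φ S.φ x + C.G S.ψ S.ψ x + |C.L S.φ x| + |C.L S.ψ x|) ^ 2 ∂μ ≤ A
  rbφ : ∫ x, C.Rb S.φ x ∂μ ≤ A
  rbψ : ∫ x, C.Rb S.ψ x ∂μ ≤ A
  rbη : ∫ x, C.Rb (fun y => S.φ y - S.ψ y) x ∂μ ≤ A
  rbκ : ∫ x, C.Rb (kap S) x ∂μ ≤ A
  -- contact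
  m₁_le : ∀ x, S.m₁ x ≤ A
  m₂_sq : ∫ x, S.m₂ x ^ 2 ∂μ ≤ A
  contact₁ : ∀ x, -O.k1 (S.h₁ x) (ψ₀ x) * S.m₁ x ≤ max 0 (O.E f (S.h₁ x) (ψ₀ x)
      (C.G (fun y => S.h₁ y - ψ₀ y) (fun y => S.h₁ y - ψ₀ y) x) + η₀) + e
  contact₂ : ∀ x, -O.k2 (S.φ x) (S.h₂ x) * S.m₂ x ≤ max 0 (O.E f (S.φ x) (S.h₂ x)
      (C.G (fun y => S.φ y - S.h₂ y) (fun y => S.φ y - S.h₂ y) x) + η₀ +
        O.k1 (S.φ x) (S.h₂ x) * S.m₁ x + |S.g₁ x|) + e
  near₁ : ∫ x in {x | S.m₁ x ≠ 0},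
      C.G (fun y => S.h₁ y - S.φ y) (fun y => S.h₁ y - S.φ y) x ^ 2 ∂μ ≤ δ
  near₂ : ∫ x in {x | S.m₁ x ≠ 0},
      C.G (fun y => S.ψ y - ψ₀ y) (fun y => S.ψ y - ψ₀ y) x ^ 2 ∂μ ≤ δ
  near₃ : ∫ x in {x | S.m₂ x ≠ 0},
      C.G (fun y => S.h₂ y - S.ψ y) (fun y => S.h₂ y - S.ψ y) x ^ 2 ∂μ ≤ δ

/-- **sections 5 and 6**. -/
theorem exists_outG (hf : ContDiff ℝ ∞ f) (D : DatG C O f η₀ t₀ φ₀ ψ₀)
    (hη : 0 ≤ η₀) : ∃ A : ℝ, 0 ≤ A ∧ ∀ δ > 0, ∃ e₀ > 0, ∀ e > 0, e ≤ e₀ →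
      ∀ ε, ε ≤ e ^ 2 → ∀ S : PenSolG C O f η₀ φ₀ ψ₀ K e ε, ∃ er : X → ℝ, OutG S A δ er := by
  obtain ⟨M, c⟩ := exists_cst O hf
  obtain ⟨A₁, hA₁, h1⟩ := int_Err (K := K) D hη c
  obtain ⟨A₂, hA₂, h2⟩ := trunc_kap (K := K) D hη c
  obtain ⟨A₃, hA₃, h3⟩ := (((((LB.const (μ := μ) (good := GG) 1).add
    (lb_G_φ (K := K) D hη c)).add (lb_G_ψ (K := K) D hη c)).add
    (lb_L_φ (K := K) D hη c).abs).add (lb_L_ψ (K := K) D hη c).abs).ub
  obtain ⟨A₄, hA₄, h4⟩ := ub_Rb (v := fun i : Idx C O f η₀ φ₀ ψ₀ K => i.S.φ)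
    (fun i => i.S.sφ) (lb_L_φ D hη c)
  obtain ⟨A₅, hA₅, h5⟩ := ub_Rb (v := fun i : Idx C O f η₀ φ₀ ψ₀ K => i.S.ψ)
    (fun i => i.S.sψ) (lb_L_ψ D hη c)
  obtain ⟨A₆, hA₆, h6⟩ := ub_Rb (v := fun i : Idx C O f η₀ φ₀ ψ₀ K => kap i.S)
    (fun i => sm_kap i.S) (lb_L_kap D hη c)
  obtain ⟨A₇, hA₇, h7⟩ := ub_Rb (v := fun (i : Idx C O f η₀ φ₀ ψ₀ K) y => i.S.φ y - i.S.ψ y)
    (fun i => sm_sub i.S.sφ i.S.sψ)
    (lb_L_sub (fun i => i.S.sφ) (fun i => i.S.sψ) (lb_L_φ D hη c) (lb_L_ψ D hη c))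
  obtain ⟨A₈, hA₈, h8⟩ := pb_m₁ (K := K) D hη c
  obtain ⟨A₉, hA₉, h9⟩ := (lb_m₂ (K := K) D hη c).ub
  obtain ⟨B₁, hB₁, k1⟩ := trunc_v₁ (K := K) D hη c
  obtain ⟨B₂, hB₂, k2⟩ := trunc_v₂ (K := K) D hη c
  obtain ⟨B₃, hB₃, k3⟩ := trunc_v₃ (K := K) D hη c
  have hKg := Kg_nonneg (μ := μ) K
  refine ⟨A₃ + A₄ + A₅ + A₆ + A₇ + A₈ + A₉, by positivity, fun δ hδ => ?_⟩
  set Q : ℝ := 1 + A₁ + A₂ + Kg K μ + B₁ + B₂ + B₃ with hQ
  have hQ0 : 0 < Q := by rw [hQ]; linarith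
  refine ⟨min 1 ((δ / Q) ^ 2), lt_min one_pos (by positivity), ?_⟩
  intro e he hee ε hε S
  have l3 : e ≤ 1 := hee.trans (min_le_left _ _)
  have l4 : e ≤ (δ / Q) ^ 2 := hee.trans (min_le_right _ _)
  have hse : Real.sqrt e ≤ δ / Q := by
    rw [Real.sqrt_le_left (by positivity)]
    exact l4
  have hes : e ≤ Real.sqrt e := by
    have h8 : Real.sqrt e ^ 2 = e := Real.sq_sqrt he.le
    have h9 : Real.sqrt e ≤ 1 := Real.sqrt_le_one.2 l3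
    have h10 := Real.sqrt_nonneg e
    nlinarith
  have key : ∀ {a : ℝ}, 0 ≤ a → a ≤ Q → a * Real.sqrt e ≤ δ := by
    intro a ha haB
    have : a * Real.sqrt e ≤ Q * (δ / Q) := mul_le_mul haB hse (Real.sqrt_nonneg _) hQ0.le
    rw [mul_div_cancel₀ _ hQ0.ne'] at this
    exact this
  have key' : ∀ {a : ℝ}, 0 ≤ a → a ≤ Q → a * e ≤ δ := fun ha haB =>
    (mul_le_mul_of_nonneg_left hes ha).trans (key ha haB)
  set i : Idx C O f η₀ φ₀ ψ₀ K := ⟨e, ε, S⟩ with hi'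
  have hi : Good i := ⟨he, l3, hε⟩
  obtain ⟨q1, q2, q3⟩ := h1 i hi
  refine ⟨Err M S, ?_⟩
  constructor
  · exact q1
  · exact Err_nonneg S D he M
  · exact q2
  · exact q3.trans (key hA₁ (by rw [hQ]; linarith))
  · exact ObC_780.φ_mem S D
  · exact ObC_780.ψ_mem S D
  · exact ObC_780.simplex S D he hη c
  · exact ObC_780.kap_ge S D he
  · intro x hx
    by_contra hne
    exact absurd (kap_le₁ S D he x hne) (not_le.2 hx)
  · intro x hx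
    by_contra hne
    have h9 := kap_le₂ S D he x hne
    linarith
  · have hm : MeasurableSet {x | kap S x ≤ 5 * e} :=
      (isClosed_le (C.sm_cont (sm_kap S)) continuous_const).measurableSet
    exact (h2 i hi _ hm fun x hx => hx).1.trans (key' hA₂ (by rw [hQ]; linarith))
  · exact (int_g₁ i hi).trans (key' hKg (by rw [hQ]; linarith))
  · exact (int_g₂ i hi).trans (key' hKg (by rw [hQ]; linarith))
  · have := h3 i hi
    simp only at this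
    refine le_trans this (by linarith)
  · have := h4 i hi
    exact le_trans this (by linarith)
  · have := h5 i hi
    exact le_trans this (by linarith)
  · have := h7 i hi
    exact le_trans this (by linarith)
  · have := h6 i hi
    exact le_trans this (by linarith)
  · intro x
    have := h8 i hi x
    simp only at this
    exact le_trans this (by linarith)
  · have := h9 i hi
    simp only at this
    exact le_trans this (by linarith)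
  · exact ObC_780.contact₁ S D he hη
  · exact ObC_780.contact₂ S D he hη
  · exact (k1 i hi).trans (key' hB₁ (by rw [hQ]; linarith))
  · exact (k2 i hi).trans (key' hB₂ (by rw [hQ]; linarith))
  · exact (k3 i hi).trans (key' hB₃ (by rw [hQ]; linarith))

end Crest.Agent.R249.ObE_780
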