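import Crest.Agent.R249.SimB_780
import Crest.Agent.R249.IntA_780

/-!
Row 249, part A2, sections 5 and 6 (helper780), file 3: the penalised pair in the abstract
calculus: lower bounds, obstacles, the jet at a point, the simplex property.
-/

set_option autoImplicit false
set_option linter.unusedVariables false
set_option linter.unusedSectionVars false

open MeasureTheory Set Filter Topology Matrix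
open scoped ContDiff

noncomputable section

namespace Crest.Agent.R249.PairA_780

open Crest.Agent.R249.Calc_806 Crest.Agent.R249.Calc_806.Calc Crest.Agent.R249.SimA_780
  Crest.Agent.R249.IntA_780

/-- the regularised nonlinearity (806). -/
def fd (d u : ℝ) : ℝ := u * (2 / 3 * (1 - u ^ 3) - (6 * d + 2 / 3 * d ^ 2 / u ^ 6))

/-- the relative error. -/
def rr (d u : ℝ) : ℝ := 6 * d + 2 / 3 * d ^ 2 / u ^ 6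

lemma fd_eq (d u : ℝ) : fd d u = ff u - u * rr d u := by
  unfold fd rr ff; ring

lemma cube_rr_le {d u : ℝ} (hd : 0 < d) (hu : 0 < u) (h1 : d / 2 ≤ u ^ 3) (h2 : u ≤ 13 / 10) :
    u ^ 3 * rr d u ≤ 15 * d := by
  have h3 : u ^ 3 * rr d u = 6 * d * u ^ 3 + 2 / 3 * (d * (d / u ^ 3)) := by
    unfold rr
    have : u ≠ 0 := hu.ne'
    field_simp
  have h4 : d / u ^ 3 ≤ 2 := by
    rw [div_le_iff₀ (by positivity)]; linarith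
  have h5 : u ^ 3 ≤ (13 / 10) ^ 3 := pow_le_pow_left₀ hu.le h2 3
  rw [h3]
  have h6 : d * (d / u ^ 3) ≤ d * 2 := mul_le_mul_of_nonneg_left h4 hd.le
  have h7 : 6 * d * u ^ 3 ≤ 6 * d * (13 / 10) ^ 3 := mul_le_mul_of_nonneg_left h5 (by positivity)
  norm_num at h7
  linarith

variable {X : Type*} [TopologicalSpace X] [CompactSpace X] [MeasurableSpace X]
  [OpensMeasurableSpace X] {μ : Measure X} [IsFiniteMeasure μ]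

/-- the data: subsolutions. -/
structure Dat (C : Calc X μ) (d : ℝ) (φ₀ ψ₀ : X → ℝ) : Prop where
  d_pos : 0 < d
  d_le : d ≤ 1 / 8
  smφ : C.Sm φ₀
  smψ : C.Sm ψ₀
  posφ : ∀ x, 0 < φ₀ x
  posψ : ∀ x, 0 < ψ₀ x
  loφ : ∀ x, d / 2 ≤ φ₀ x ^ 3
  loψ : ∀ x, d / 2 ≤ ψ₀ x ^ 3
  sum_le : ∀ x, φ₀ x ^ 3 + ψ₀ x ^ 3 ≤ 2 - 4 * d
  subφ : ∀ x, fd d (φ₀ x) ≤ C.L φ₀ x
  subψ : ∀ x, fd d (ψ₀ x) ≤ C.L ψ₀ x

/-- the penalised pair. -/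
structure Sol (C : Calc X μ) (φ₀ ψ₀ : X → ℝ) (d K e vs : ℝ) where
  φ : X → ℝ
  ψ : X → ℝ
  h₁ : X → ℝ
  h₂ : X → ℝ
  m₁ : X → ℝ
  m₂ : X → ℝ
  g₁ : X → ℝ
  g₂ : X → ℝ
  r₁ : X → ℝ
  r₂ : X → ℝ
  smφ : C.Sm φ
  smψ : C.Sm ψ
  smh₁ : C.Sm h₁
  smh₂ : C.Sm h₂
  smm₁ : C.Sm m₁
  smm₂ : C.Sm m₂
  smg₁ : C.Sm g₁
  smg₂ : C.Sm g₂
  contr₁ : Continuous r₁
  contr₂ : Continuous r₂
  pos₁ : ∀ x, 0 < h₁ x
  pos₂ : ∀ x, 0 < h₂ x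
  cub₁ : ∀ x, h₁ x ^ 3 = 2 - 40 * e - ψ₀ x ^ 3
  cub₂ : ∀ x, h₂ x ^ 3 = 2 - φ x ^ 3
  loφ : ∀ x, φ₀ x ≤ φ x
  upφ : ∀ x, φ x ≤ h₁ x + 2 * e
  loψ : ∀ x, ψ₀ x ≤ ψ x
  upψ : ∀ x, ψ x ≤ h₂ x + 2 * e
  eqφ : ∀ x, C.L φ x = fd d (φ x) + m₁ x + g₁ x
  eqψ : ∀ x, C.L ψ x = fd d (ψ x) + m₂ x + g₂ x
  nn₁ : ∀ x, 0 ≤ m₁ x
  nn₂ : ∀ x, 0 ≤ m₂ x
  le₁ : ∀ x, m₁ x ≤ max 0 (C.L h₁ x - fd d (h₁ x)) + e
  le₂ : ∀ x, m₂ x ≤ max 0 (C.L h₂ x - fd d (h₂ x)) + e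
  supp₁ : ∀ x, m₁ x ≠ 0 → h₁ x - φ x ≤ e
  supp₂ : ∀ x, m₂ x ≠ 0 → h₂ x - ψ x ≤ e
  gle₁ : ∀ x, |g₁ x| ≤ K * e + |r₁ x|
  gle₂ : ∀ x, |g₂ x| ≤ K * e + |r₂ x|
  int₁ : ∫ x, |r₁ x| ^ 4 ∂μ ≤ vs
  int₂ : ∫ x, |r₂ x| ^ 4 ∂μ ≤ vs

/-- the lower bound of all functions: `b = (d/2)^{1/3}`. -/
def bb (d : ℝ) : ℝ := (d / 2) ^ ((1:ℝ) / 3)

lemma bb_pos {d : ℝ} (hd : 0 < d) : 0 < bb d := Real.rpow_pos_of_pos (by positivity) _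

lemma bb_cube {d : ℝ} (hd : 0 < d) : bb d ^ 3 = d / 2 := by
  unfold bb
  rw [← Real.rpow_natCast, ← Real.rpow_mul (by positivity)]
  norm_num

lemma bb_le_of_cube {d u : ℝ} (hd : 0 < d) (hu : 0 ≤ u) (h : d / 2 ≤ u ^ 3) : bb d ≤ u := by
  rw [← bb_cube hd] at h
  exact le_of_pow_le_pow_left₀ (by norm_num) hu h

lemma le_of_cube_le {u c : ℝ} (hc : 0 ≤ c) (h : u ^ 3 ≤ c ^ 3) : u ≤ c :=
  le_of_pow_le_pow_left₀ (by norm_num) hc h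

lemma bb_le {d : ℝ} (hd : 0 < d) (hd' : d ≤ 1 / 8) : bb d ≤ 1 / 2 := by
  refine le_of_cube_le (by norm_num) ?_
  rw [bb_cube hd]
  norm_num
  linarith

variable {C : Calc X μ} {d K e vs : ℝ} {φ₀ ψ₀ : X → ℝ}

/-- smallness of the penalty width. -/
structure Small (d e : ℝ) : Prop where
  pos : 0 < e
  le_d : 40 * e ≤ d
  le_b : e ≤ bb d

namespace Sol

variable (S : Sol C φ₀ ψ₀ d K e vs)

include S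

lemma e_small (hD : Dat C d φ₀ ψ₀) (hs : Small d e) : e ≤ 1 / 320 := by
  have := hs.le_d
  have := hD.d_le
  linarith

lemma lo_ψ₀ (hD : Dat C d φ₀ ψ₀) (x : X) : bb d ≤ ψ₀ x :=
  bb_le_of_cube hD.d_pos (hD.posψ x).le (hD.loψ x)

lemma lo_φ₀ (hD : Dat C d φ₀ ψ₀) (x : X) : bb d ≤ φ₀ x :=
  bb_le_of_cube hD.d_pos (hD.posφ x).le (hD.loφ x)

lemma lo_φ (hD : Dat C d φ₀ ψ₀) (x : X) : bb d ≤ S.φ x := (S.lo_φ₀ hD x).trans (S.loφ x)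

lemma lo_ψ (hD : Dat C d φ₀ ψ₀) (x : X) : bb d ≤ S.ψ x := (S.lo_ψ₀ hD x).trans (S.loψ x)

lemma cube_lo (hD : Dat C d φ₀ ψ₀) {u : ℝ} (hu : bb d ≤ u) : d / 2 ≤ u ^ 3 := by
  rw [← bb_cube hD.d_pos]
  exact pow_le_pow_left₀ (bb_pos hD.d_pos).le hu 3

lemma up_ψ₀ (hD : Dat C d φ₀ ψ₀) (x : X) : ψ₀ x ≤ 126 / 100 := by
  refine le_of_cube_le (by norm_num) ?_
  have h1 := hD.sum_le x
  have h2 := hD.loφ x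
  have h3 := hD.d_pos
  norm_num
  linarith

lemma cube_h₁ (hD : Dat C d φ₀ ψ₀) (hs : Small d e) (x : X) : φ₀ x ^ 3 + 3 * d ≤ S.h₁ x ^ 3 := by
  have h1 := hD.sum_le x
  have h2 := hs.le_d
  rw [S.cub₁]
  linarith

lemma lo_h₁ (hD : Dat C d φ₀ ψ₀) (hs : Small d e) (x : X) : bb d ≤ S.h₁ x := by
  refine bb_le_of_cube hD.d_pos (S.pos₁ x).le ?_
  have h1 := S.cube_h₁ hD hs x
  have h2 := hD.loφ x
  have h3 := hD.d_pos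
  linarith

lemma up_h₁ (hD : Dat C d φ₀ ψ₀) (hs : Small d e) (x : X) : S.h₁ x ≤ 126 / 100 := by
  refine le_of_cube_le (by norm_num) ?_
  rw [S.cub₁]
  have h2 := hD.loψ x
  have h3 := hD.d_pos
  have h4 := hs.pos
  norm_num
  linarith

lemma up_φ (hD : Dat C d φ₀ ψ₀) (hs : Small d e) (x : X) : S.φ x ≤ 13 / 10 := by
  have h1 := S.upφ x
  have h2 := S.up_h₁ hD hs x
  have h3 := S.e_small hD hs
  linarith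

/-- `(h + 2e)³ ≤ h³ + 11 e`. -/
lemma cube_add {h : ℝ} (h0 : 0 ≤ h) (h1 : h ≤ 126 / 100) (he : 0 ≤ e) (he' : e ≤ 1 / 320) :
    (h + 2 * e) ^ 3 ≤ h ^ 3 + 11 * e := by
  have e1 : (h + 2 * e) ^ 3 = h ^ 3 + (6 * h ^ 2 + 12 * h * e + 8 * e ^ 2) * e := by ring
  rw [e1]
  have : 6 * h ^ 2 + 12 * h * e + 8 * e ^ 2 ≤ 11 := by nlinarith [mul_nonneg h0 he]
  nlinarith

lemma cube_h₂ (hD : Dat C d φ₀ ψ₀) (hs : Small d e) (x : X) :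
    ψ₀ x ^ 3 + 29 * e ≤ S.h₂ x ^ 3 := by
  have h1 : S.φ x ^ 3 ≤ (S.h₁ x + 2 * e) ^ 3 :=
    pow_le_pow_left₀ ((bb_pos hD.d_pos).le.trans (S.lo_φ hD x)) (S.upφ x) 3
  have h2 := cube_add S (S.pos₁ x).le (S.up_h₁ hD hs x) hs.pos.le (S.e_small hD hs)
  have h3 := S.cub₁ x
  rw [S.cub₂]
  linarith

lemma lo_h₂ (hD : Dat C d φ₀ ψ₀) (hs : Small d e) (x : X) : bb d ≤ S.h₂ x := by
  refine bb_le_of_cube hD.d_pos (S.pos₂ x).le ?_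
  have h1 := S.cube_h₂ hD hs x
  have h2 := hD.loψ x
  have h3 := hs.pos
  linarith

lemma up_h₂ (hD : Dat C d φ₀ ψ₀) (hs : Small d e) (x : X) : S.h₂ x ≤ 126 / 100 := by
  refine le_of_cube_le (by norm_num) ?_
  rw [S.cub₂]
  have h2 := S.cube_lo hD (S.lo_φ hD x)
  have h3 := hD.d_pos
  norm_num
  linarith

lemma up_ψ (hD : Dat C d φ₀ ψ₀) (hs : Small d e) (x : X) : S.ψ x ≤ 13 / 10 := by
  have h1 := S.upψ x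
  have h2 := S.up_h₂ hD hs x
  have h3 := S.e_small hD hs
  linarith

/-! ### the obstacles -/

lemma lap_h₁ (hD : Dat C d φ₀ ψ₀) (x : X) :
    3 * S.h₁ x ^ 2 * C.L S.h₁ x + 6 * S.h₁ x * C.G S.h₁ S.h₁ x =
      -(3 * ψ₀ x ^ 2 * C.L ψ₀ x + 6 * ψ₀ x * C.G ψ₀ ψ₀ x) := by
  rw [← L_cube S.smh₁, ← L_cube hD.smψ]
  have h1 : (fun y => S.h₁ y ^ 3) = fun y => (2 - 40 * e) - ψ₀ y ^ 3 := by
    funext y; rw [S.cub₁]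
  rw [h1, L_sub (sm_const _) (sm_pow hD.smψ 3), C.L_const]
  ring

lemma lap_h₂ (x : X) :
    3 * S.h₂ x ^ 2 * C.L S.h₂ x + 6 * S.h₂ x * C.G S.h₂ S.h₂ x =
      -(3 * S.φ x ^ 2 * C.L S.φ x + 6 * S.φ x * C.G S.φ S.φ x) := by
  rw [← L_cube S.smh₂, ← L_cube S.smφ]
  have h1 : (fun y => S.h₂ y ^ 3) = fun y => 2 - S.φ y ^ 3 := by
    funext y; rw [S.cub₂]
  rw [h1, L_sub (sm_const _) (sm_pow S.smφ 3), C.L_const]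
  ring

lemma G_h₁ (hD : Dat C d φ₀ ψ₀) (x : X) :
    S.h₁ x ^ 4 * C.G S.h₁ S.h₁ x = ψ₀ x ^ 4 * C.G ψ₀ ψ₀ x := by
  have h1 : C.D (fun y => S.h₁ y ^ 3) x = - C.D (fun y => ψ₀ y ^ 3) x := by
    have e1 : (fun y => S.h₁ y ^ 3) = fun y => (2 - 40 * e) - ψ₀ y ^ 3 := by
      funext y; rw [S.cub₁]
    rw [e1, D_sub (sm_const _) (sm_pow hD.smψ 3), D_const, zero_sub]
  rw [D_pow S.smh₁, D_pow hD.smψ] at h1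
  have h2 : (((3:ℕ):ℝ) * S.h₁ x ^ (3 - 1)) • C.D S.h₁ x ⬝ᵥ (((3:ℕ):ℝ) * S.h₁ x ^ (3 - 1)) • C.D S.h₁ x =
      (((3:ℕ):ℝ) * ψ₀ x ^ (3 - 1)) • C.D ψ₀ x ⬝ᵥ (((3:ℕ):ℝ) * ψ₀ x ^ (3 - 1)) • C.D ψ₀ x := by
    rw [h1, neg_dotProduct, dotProduct_neg, neg_neg]
  simp only [smul_dotProduct, dotProduct_smul, smul_eq_mul] at h2
  have h3 : C.G S.h₁ S.h₁ x = C.D S.h₁ x ⬝ᵥ C.D S.h₁ x := rfl
  have h4 : C.G ψ₀ ψ₀ x = C.D ψ₀ x ⬝ᵥ C.D ψ₀ x := rfl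
  rw [← h3, ← h4] at h2
  norm_num at h2
  nlinarith

lemma G_h₂ (x : X) :
    S.h₂ x ^ 4 * C.G S.h₂ S.h₂ x = S.φ x ^ 4 * C.G S.φ S.φ x := by
  have h1 : C.D (fun y => S.h₂ y ^ 3) x = - C.D (fun y => S.φ y ^ 3) x := by
    have e1 : (fun y => S.h₂ y ^ 3) = fun y => 2 - S.φ y ^ 3 := by
      funext y; rw [S.cub₂]
    rw [e1, D_sub (sm_const _) (sm_pow S.smφ 3), D_const, zero_sub]
  rw [D_pow S.smh₂, D_pow S.smφ] at h1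
  have h2 : (((3:ℕ):ℝ) * S.h₂ x ^ (3 - 1)) • C.D S.h₂ x ⬝ᵥ (((3:ℕ):ℝ) * S.h₂ x ^ (3 - 1)) • C.D S.h₂ x =
      (((3:ℕ):ℝ) * S.φ x ^ (3 - 1)) • C.D S.φ x ⬝ᵥ (((3:ℕ):ℝ) * S.φ x ^ (3 - 1)) • C.D S.φ x := by
    rw [h1, neg_dotProduct, dotProduct_neg, neg_neg]
  simp only [smul_dotProduct, dotProduct_smul, smul_eq_mul] at h2
  have h3 : C.G S.h₂ S.h₂ x = C.D S.h₂ x ⬝ᵥ C.D S.h₂ x := rfl
  have h4 : C.G S.φ S.φ x = C.D S.φ x ⬝ᵥ C.D S.φ x := rfl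
  rw [← h3, ← h4] at h2
  norm_num at h2
  nlinarith

end Sol

end Crest.Agent.R249.PairA_780
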