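import Crest.Agent.R249.PairA_780

/-!
Row 249, part A2, section 6 (helper780), file 4: the jet of the penalised pair at a point and the
simplex property with its error function.
-/

set_option autoImplicit false
set_option linter.unusedVariables false
set_option linter.unusedSectionVars false

open MeasureTheory Set Filter Topology Matrix
open scoped ContDiff

noncomputable section

namespace Crest.Agent.R249.PairA_780

open Crest.Agent.R249.Calc_806 Crest.Agent.R249.Calc_806.Calc Crest.Agent.R249.SimA_780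
  Crest.Agent.R249.IntA_780

variable {X : Type*} [TopologicalSpace X] [CompactSpace X] [MeasurableSpace X]
  [OpensMeasurableSpace X] {μ : Measure X} [IsFiniteMeasure μ]
variable {C : Calc X μ} {d K e vs : ℝ} {φ₀ ψ₀ : X → ℝ}

/-- the gradient as an element of Euclidean space. -/
def vec (C : Calc X μ) (u : X → ℝ) (x : X) : EuclideanSpace ℝ (Fin 4) := WithLp.toLp 2 (C.D u x)

lemma norm_vec_sq (u : X → ℝ) (x : X) : ‖vec C u x‖ ^ 2 = C.G u u x := by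
  rw [vec, EuclideanSpace.norm_sq_eq]
  have : C.toCalc0.G u u x = C.D u x ⬝ᵥ C.D u x := rfl
  rw [this, dotProduct]
  refine Finset.sum_congr rfl fun i _ => ?_
  rw [Real.norm_eq_abs, sq_abs, sq]

lemma vec_sub {u v : X → ℝ} (hu : C.Sm u) (hv : C.Sm v) (x : X) :
    vec C u x - vec C v x = vec C (fun y => u y - v y) x := by
  rw [vec, vec, vec, D_sub hu hv]
  rfl

namespace Sol

variable (S : Sol C φ₀ ψ₀ d K e vs)

include S

theorem jet (hD : Dat C d φ₀ ψ₀) (hs : Small d e) (x : X) :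
    Jet (bb d) (15 * d) e (2 - 40 * e) (S.φ x) (S.ψ x) (S.h₁ x) (ψ₀ x) (S.h₂ x)
      (vec C S.φ x) (vec C S.ψ x) (vec C S.h₁ x) (vec C ψ₀ x) (vec C S.h₂ x)
      (C.L S.φ x) (C.L ψ₀ x) (C.L S.h₁ x) (C.L S.h₂ x) (S.m₁ x) (S.m₂ x) (S.g₁ x)
      (rr d (S.φ x)) (rr d (ψ₀ x)) (rr d (S.h₁ x)) (rr d (S.h₂ x)) where
  beta_pos := bb_pos hD.d_pos
  beta_le := (bb_le hD.d_pos hD.d_le).trans (by norm_num)
  e_nonneg := hs.pos.le
  e_le := hs.le_b
  l_le := by have := hs.pos; linarith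
  l_ge := le_rfl
  hφ := S.lo_φ hD x
  hφ' := S.up_φ hD hs x
  hw := S.lo_ψ₀ hD x
  hw' := (S.up_ψ₀ hD x).trans (by norm_num)
  hh := S.lo_h₁ hD hs x
  hh' := (S.up_h₁ hD hs x).trans (by norm_num)
  hk := S.lo_h₂ hD hs x
  hk' := (S.up_h₂ hD hs x).trans (by norm_num)
  wψ := S.loψ x
  hψ' := S.up_ψ hD hs x
  φh := S.upφ x
  ψk := S.upψ x
  cub_h := by rw [S.cub₁]; ring
  cub_k := by rw [S.cub₂]; ring
  lap_h := by
    rw [norm_vec_sq, norm_vec_sq]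
    exact S.lap_h₁ hD x
  lap_k := by
    rw [norm_vec_sq, norm_vec_sq]
    exact S.lap_h₂ x
  eq_w := by
    have := hD.subψ x
    rw [fd_eq] at this
    exact this
  eq_φ := by
    rw [S.eqφ, fd_eq]
  m₁_nonneg := S.nn₁ x
  m₁_le := by
    have := S.le₁ x
    rw [fd_eq] at this
    rw [max_comm]
    have e1 : C.L S.h₁ x - (ff (S.h₁ x) - S.h₁ x * rr d (S.h₁ x)) =
      C.L S.h₁ x - ff (S.h₁ x) + S.h₁ x * rr d (S.h₁ x) := by ring
    rw [e1] at this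
    exact this
  m₁_supp := S.supp₁ x
  m₂_nonneg := S.nn₂ x
  m₂_le := by
    have := S.le₂ x
    rw [fd_eq] at this
    rw [max_comm]
    have e1 : C.L S.h₂ x - (ff (S.h₂ x) - S.h₂ x * rr d (S.h₂ x)) =
      C.L S.h₂ x - ff (S.h₂ x) + S.h₂ x * rr d (S.h₂ x) := by ring
    rw [e1] at this
    exact this
  m₂_supp := S.supp₂ x
  c_nonneg := by have := hD.d_pos; positivity
  c_le := by have := hD.d_le; linarith
  c_w := cube_rr_le hD.d_pos (hD.posψ x) (hD.loψ x) ((S.up_ψ₀ hD x).trans (by norm_num))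
  c_h := cube_rr_le hD.d_pos (S.pos₁ x) (S.cube_lo hD (S.lo_h₁ hD hs x))
    ((S.up_h₁ hD hs x).trans (by norm_num))
  c_φ := cube_rr_le hD.d_pos ((bb_pos hD.d_pos).trans_le (S.lo_φ hD x))
    (S.cube_lo hD (S.lo_φ hD x)) (S.up_φ hD hs x)
  c_k := cube_rr_le hD.d_pos (S.pos₂ x) (S.cube_lo hD (S.lo_h₂ hD hs x))
    ((S.up_h₂ hD hs x).trans (by norm_num))

open Classical in
/-- the error function of the simplex property. -/
def Err (x : X) : ℝ := 300 * (e / bb d) + 50 * |S.g₁ x| +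
  (if S.m₁ x = 0 then 0 else err1 e (bb d) (vec C S.φ x) (vec C S.h₁ x) (vec C S.ψ x) (vec C ψ₀ x)) +
  (if S.m₂ x = 0 then 0 else err2 e (vec C S.ψ x) (vec C S.h₂ x))

/-- **(P3)**. -/
theorem simplex (hD : Dat C d φ₀ ψ₀) (hs : Small d e) (x : X) :
    3 * S.φ x ^ 2 * S.m₁ x + 3 * S.ψ x ^ 2 * S.m₂ x ≤
      max (EE (S.φ x) (S.ψ x) (C.G S.φ S.φ x) (C.G S.ψ S.ψ x)) 0 + 180 * d + S.Err x := by
  have h := (S.jet hD hs x).simplex
  rw [norm_vec_sq, norm_vec_sq] at h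
  unfold Err
  linarith

lemma Err_nonneg (hD : Dat C d φ₀ ψ₀) (hs : Small d e) (x : X) : 0 ≤ S.Err x := by
  unfold Err
  have h1 := err1_nonneg (β := bb d) hs.pos.le (vec C S.φ x) (vec C S.h₁ x) (vec C S.ψ x)
    (vec C ψ₀ x)
  have h2 := err2_nonneg hs.pos.le (vec C S.ψ x) (vec C S.h₂ x)
  have h3 := bb_pos hD.d_pos
  have h4 := hs.pos
  split_ifs <;> positivity

/-! ### the constraint and the supports -/

/-- `κ = 2 - φ³ - ψ³ ≥ - 11 e`. -/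
lemma kap_ge (hD : Dat C d φ₀ ψ₀) (hs : Small d e) (x : X) :
    -(11 * e) ≤ 2 - S.φ x ^ 3 - S.ψ x ^ 3 := by
  have h1 : S.ψ x ^ 3 ≤ (S.h₂ x + 2 * e) ^ 3 :=
    pow_le_pow_left₀ ((bb_pos hD.d_pos).le.trans (S.lo_ψ hD x)) (S.upψ x) 3
  have h2 := cube_add S (S.pos₂ x).le (S.up_h₂ hD hs x) hs.pos.le (S.e_small hD hs)
  have h3 := S.cub₂ x
  linarith

/-- a lower bound for a cube. -/
lemma cube_sub_ge {u h : ℝ} (hu : 0 ≤ u) (hh : 0 ≤ h) (hh' : h ≤ 126 / 100) (he : 0 ≤ e)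
    (huh : h - u ≤ e) : h ^ 3 - 5 * e ≤ u ^ 3 := by
  rcases le_total h u with h1 | h1
  · have : h ^ 3 ≤ u ^ 3 := pow_le_pow_left₀ hh h1 3
    linarith
  · have e1 : h ^ 3 - u ^ 3 = (h ^ 2 + h * u + u ^ 2) * (h - u) := by ring
    have e2 : h ^ 2 + h * u + u ^ 2 ≤ 5 := by nlinarith [mul_nonneg hh hu]
    have e3 : 0 ≤ h - u := by linarith
    have e4 : 0 ≤ h ^ 2 + h * u + u ^ 2 := by positivity
    nlinarith

/-- `m₂ = 0` off `{κ ≤ 5 e}`. -/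
lemma kap_le₂ (hD : Dat C d φ₀ ψ₀) (hs : Small d e) (x : X) (hm : S.m₂ x ≠ 0) :
    2 - S.φ x ^ 3 - S.ψ x ^ 3 ≤ 5 * e := by
  have h1 := cube_sub_ge S ((bb_pos hD.d_pos).le.trans (S.lo_ψ hD x)) (S.pos₂ x).le
    (S.up_h₂ hD hs x) hs.pos.le (S.supp₂ x hm)
  have h3 := S.cub₂ x
  linarith

/-- `m₁ = 0` off `{κ ≤ 45 e}`. -/
lemma kap_le₁ (hD : Dat C d φ₀ ψ₀) (hs : Small d e) (x : X) (hm : S.m₁ x ≠ 0) :
    2 - S.φ x ^ 3 - S.ψ x ^ 3 ≤ 45 * e := by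
  have h1 := cube_sub_ge S ((bb_pos hD.d_pos).le.trans (S.lo_φ hD x)) (S.pos₁ x).le
    (S.up_h₁ hD hs x) hs.pos.le (S.supp₁ x hm)
  have h3 := S.cub₁ x
  have h4 : ψ₀ x ^ 3 ≤ S.ψ x ^ 3 := pow_le_pow_left₀ (hD.posψ x).le (S.loψ x) 3
  linarith

end Sol

end Crest.Agent.R249.PairA_780
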