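import Crest.Agent.R249.PairB_780

/-!
Row 249, part A2, section 5 (helper780), file 5: uniform `L²` bounds of the Laplacians and `L⁴`
bounds of the gradients of the penalised pair (uniform in the penalty width `e`).
-/

set_option autoImplicit false
set_option linter.unusedVariables false
set_option linter.unusedSectionVars false

open MeasureTheory Set Filter Topology Matrix
open scoped ContDiff

noncomputable section

namespace Crest.Agent.R249.PairA_780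

open Crest.Agent.R249.Calc_806 Crest.Agent.R249.Calc_806.Calc Crest.Agent.R249.SimA_780
  Crest.Agent.R249.IntA_780

/-- `|fd| ≤ 5` on the range. -/
lemma abs_fd_le {d u : ℝ} (hd : 0 < d) (hd' : d ≤ 1 / 8) (hu : bb d ≤ u) (hu' : u ≤ 13 / 10) :
    |fd d u| ≤ 5 := by
  have hb := bb_pos hd
  have hb1 := bb_le hd hd'
  have hb3 := bb_cube hd
  have hu0 : 0 < u := hb.trans_le hu
  have h1 : u * rr d u = 6 * d * u + 2 / 3 * (d ^ 2 / u ^ 5) := by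
    unfold rr
    field_simp
  have h2 : d ^ 2 / u ^ 5 ≤ 2 := by
    rw [div_le_iff₀ (by positivity)]
    have h3 : bb d ^ 5 ≤ u ^ 5 := pow_le_pow_left₀ hb.le hu 5
    have h4 : d ^ 2 = 4 * bb d * bb d ^ 5 := by
      have : d = 2 * bb d ^ 3 := by rw [hb3]; ring
      calc d ^ 2 = (2 * bb d ^ 3) ^ 2 := by rw [← this]
        _ = _ := by ring
    rw [h4]
    have h5 : 0 ≤ bb d ^ 5 := by positivity
    nlinarith
  have h3 : 0 ≤ u * rr d u := by rw [h1]; positivity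
  have h4 : u * rr d u ≤ 3 := by
    rw [h1]
    have : d * u ≤ 1 / 8 * (13 / 10) := mul_le_mul hd' hu' hu0.le (by norm_num)
    nlinarith
  have h5 : u ^ 4 ≤ (13 / 10) ^ 4 := pow_le_pow_left₀ hu0.le hu' 4
  have h6 : 0 ≤ u ^ 4 := by positivity
  rw [fd_eq, ff, abs_le]
  norm_num at h5
  constructor <;> nlinarith

variable {X : Type*} [TopologicalSpace X] [CompactSpace X] [MeasurableSpace X]
  [OpensMeasurableSpace X] {μ : Measure X} [IsFiniteMeasure μ]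
variable {C : Calc X μ} {d K : ℝ} {φ₀ ψ₀ : X → ℝ}

/-- a quantity attached to penalised pairs is bounded uniformly. -/
def UB (C : Calc X μ) (φ₀ ψ₀ : X → ℝ) (d K : ℝ)
    (F : (e vs : ℝ) → Sol C φ₀ ψ₀ d K e vs → ℝ) : Prop :=
  ∃ A : ℝ, 0 ≤ A ∧ ∀ e vs (S : Sol C φ₀ ψ₀ d K e vs), Small d e → vs ≤ e ^ 2 → F e vs S ≤ A

lemma UB.mono {F F' : (e vs : ℝ) → Sol C φ₀ ψ₀ d K e vs → ℝ} (h : UB C φ₀ ψ₀ d K F)
    (hle : ∀ e vs S, Small d e → vs ≤ e ^ 2 → F' e vs S ≤ F e vs S) : UB C φ₀ ψ₀ d K F' := by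
  obtain ⟨A, hA, h1⟩ := h
  exact ⟨A, hA, fun e vs S h2 h3 => (hle e vs S h2 h3).trans (h1 e vs S h2 h3)⟩

lemma UB.const (c : ℝ) : UB C φ₀ ψ₀ d K (fun _ _ _ => c) :=
  ⟨max c 0, le_max_right _ _, fun _ _ _ _ _ => le_max_left _ _⟩

lemma UB.add {F F' : (e vs : ℝ) → Sol C φ₀ ψ₀ d K e vs → ℝ} (h : UB C φ₀ ψ₀ d K F)
    (h' : UB C φ₀ ψ₀ d K F') : UB C φ₀ ψ₀ d K (fun e vs S => F e vs S + F' e vs S) := by
  obtain ⟨A, hA, h1⟩ := h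
  obtain ⟨B, hB, h2⟩ := h'
  exact ⟨A + B, add_nonneg hA hB, fun e vs S h3 h4 => add_le_add (h1 e vs S h3 h4) (h2 e vs S h3 h4)⟩

lemma UB.mul {F : (e vs : ℝ) → Sol C φ₀ ψ₀ d K e vs → ℝ} (h : UB C φ₀ ψ₀ d K F)
    {c : ℝ} (hc : 0 ≤ c) : UB C φ₀ ψ₀ d K (fun e vs S => c * F e vs S) := by
  obtain ⟨A, hA, h1⟩ := h
  exact ⟨c * A, mul_nonneg hc hA, fun e vs S h3 h4 => mul_le_mul_of_nonneg_left (h1 e vs S h3 h4) hc⟩

/-- pointwise version. -/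
def PB (C : Calc X μ) (φ₀ ψ₀ : X → ℝ) (d K : ℝ)
    (F : (e vs : ℝ) → Sol C φ₀ ψ₀ d K e vs → X → ℝ) : Prop :=
  ∃ A : ℝ, 0 ≤ A ∧ ∀ e vs (S : Sol C φ₀ ψ₀ d K e vs), Small d e → vs ≤ e ^ 2 → ∀ x, F e vs S x ≤ A

lemma vs_nonneg {e vs : ℝ} (S : Sol C φ₀ ψ₀ d K e vs) : 0 ≤ vs :=
  le_trans (integral_nonneg fun x => by positivity) S.int₁

/-! ### the first obstacle -/

lemma pb_G_h₁ (hD : Dat C d φ₀ ψ₀) : PB C φ₀ ψ₀ d K (fun _ _ S x => C.G S.h₁ S.h₁ x) := by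
  obtain ⟨K₀, hK₀, hK⟩ := exists_bound (C.sm_G hD.smψ hD.smψ)
  have hb := bb_pos hD.d_pos
  refine ⟨3 * K₀ / bb d ^ 4, by positivity, fun e vs S hs hv x => ?_⟩
  have h1 := S.G_h₁ hD x
  have h2 := S.lo_h₁ hD hs x
  have h3 : bb d ^ 4 ≤ S.h₁ x ^ 4 := pow_le_pow_left₀ hb.le h2 4
  have h4 : ψ₀ x ^ 4 ≤ 3 := by
    have := pow_le_pow_left₀ (hD.posψ x).le (S.up_ψ₀ hD x) 4
    norm_num at this; linarith
  have h5 := G_self_nonneg (C := C) S.h₁ x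
  have h6 := G_self_nonneg (C := C) ψ₀ x
  have h7 := (le_abs_self _).trans (hK x)
  rw [le_div_iff₀ (by positivity)]
  have h8 : 0 ≤ ψ₀ x ^ 4 := by have := hD.posψ x; positivity
  calc C.G S.h₁ S.h₁ x * bb d ^ 4 ≤ C.G S.h₁ S.h₁ x * S.h₁ x ^ 4 :=
        mul_le_mul_of_nonneg_left h3 h5
    _ = ψ₀ x ^ 4 * C.G ψ₀ ψ₀ x := by rw [← h1]; ring
    _ ≤ 3 * K₀ := mul_le_mul h4 h7 h6 (by norm_num)

/-- bound of the Laplacian of an obstacle. -/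
lemma lap_obst {h w P Q Lh Lw b : ℝ} (hb : 0 < b) (hbh : b ≤ h) (hh : h ≤ 126 / 100)
    (hw0 : 0 ≤ w) (hw : w ≤ 13 / 10) (hP : 0 ≤ P) (hQ : 0 ≤ Q)
    (hL : 3 * h ^ 2 * Lh + 6 * h * P = -(3 * w ^ 2 * Lw + 6 * w * Q)) :
    |Lh| ≤ (|Lw| + 2 * Q + 2 * P) * (8 / (3 * b ^ 2)) := by
  have h0 : 0 < h := hb.trans_le hbh
  have h1 : 3 * b ^ 2 * |Lh| ≤ 3 * h ^ 2 * |Lh| :=
    mul_le_mul_of_nonneg_right (by nlinarith) (abs_nonneg _)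
  have h2 : 3 * h ^ 2 * |Lh| = |3 * h ^ 2 * Lh| := by
    rw [abs_mul, abs_of_nonneg (show (0:ℝ) ≤ 3 * h ^ 2 by positivity)]
  have h3 : 3 * h ^ 2 * Lh = -(3 * w ^ 2 * Lw) - 6 * w * Q - 6 * h * P := by linarith
  have h4 : |3 * h ^ 2 * Lh| ≤ 3 * w ^ 2 * |Lw| + 6 * w * Q + 6 * h * P := by
    rw [h3]
    have a1 : |-(3 * w ^ 2 * Lw) - 6 * w * Q - 6 * h * P| ≤
        |-(3 * w ^ 2 * Lw)| + |6 * w * Q| + |6 * h * P| :=
      (abs_sub _ _).trans (add_le_add_left (abs_sub _ _) _)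
    rw [abs_neg, abs_mul, abs_of_nonneg (show 0 ≤ 3 * w ^ 2 by positivity),
      abs_of_nonneg (show 0 ≤ 6 * w * Q by positivity),
      abs_of_nonneg (show 0 ≤ 6 * h * P by positivity)] at a1
    exact a1
  have h5 : 3 * w ^ 2 * |Lw| ≤ 8 * |Lw| :=
    mul_le_mul_of_nonneg_right (by nlinarith) (abs_nonneg _)
  have h6 : 6 * w * Q ≤ 16 * Q := mul_le_mul_of_nonneg_right (by linarith) hQ
  have h7 : 6 * h * P ≤ 16 * P := mul_le_mul_of_nonneg_right (by linarith) hP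
  rw [mul_div_assoc', le_div_iff₀ (by positivity)]
  nlinarith

lemma pb_L_h₁ (hD : Dat C d φ₀ ψ₀) : PB C φ₀ ψ₀ d K (fun _ _ S x => |C.L S.h₁ x|) := by
  obtain ⟨K₀, hK₀, hK⟩ := exists_bound (C.sm_G hD.smψ hD.smψ)
  obtain ⟨K₁, hK₁, hK'⟩ := exists_bound (C.sm_L hD.smψ)
  obtain ⟨K₂, hK₂, hK''⟩ := pb_G_h₁ (K := K) hD
  have hb := bb_pos hD.d_pos
  refine ⟨(K₁ + 2 * K₀ + 2 * K₂) * (8 / (3 * bb d ^ 2)), by positivity, fun e vs S hs hv x => ?_⟩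
  have h1 := lap_obst hb (S.lo_h₁ hD hs x) (S.up_h₁ hD hs x) (hD.posψ x).le
    ((S.up_ψ₀ hD x).trans (by norm_num)) (G_self_nonneg (C := C) S.h₁ x)
    (G_self_nonneg (C := C) ψ₀ x) (S.lap_h₁ hD x)
  refine h1.trans ?_
  refine mul_le_mul_of_nonneg_right ?_ (by positivity)
  have h2 := hK' x
  have h3 := (le_abs_self _).trans (hK x)
  have h4 := hK'' e vs S hs hv x
  linarith

lemma pb_m₁ (hD : Dat C d φ₀ ψ₀) : PB C φ₀ ψ₀ d K (fun _ _ S x => S.m₁ x) := by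
  obtain ⟨A, hA, h⟩ := pb_L_h₁ (K := K) hD
  refine ⟨A + 6, by positivity, fun e vs S hs hv x => ?_⟩
  have h1 := S.le₁ x
  have h2 := h e vs S hs hv x
  have h3 := abs_fd_le hD.d_pos hD.d_le (S.lo_h₁ hD hs x) ((S.up_h₁ hD hs x).trans (by norm_num))
  have h4 : max 0 (C.L S.h₁ x - fd d (S.h₁ x)) ≤ A + 5 := by
    refine max_le (by positivity) ?_
    have := (abs_le.1 h3).1
    have := (le_abs_self _).trans h2
    linarith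
  have h5 := S.e_small hD hs
  linarith

/-- `|Lφ| ≤ A + |g₁|`. -/
lemma pb_L_φ (hD : Dat C d φ₀ ψ₀) :
    PB C φ₀ ψ₀ d K (fun _ _ S x => |C.L S.φ x| - |S.g₁ x|) := by
  obtain ⟨A, hA, h⟩ := pb_m₁ (K := K) hD
  refine ⟨A + 5, by positivity, fun e vs S hs hv x => ?_⟩
  have h1 := h e vs S hs hv x
  have h3 := abs_fd_le hD.d_pos hD.d_le (S.lo_φ hD x) (S.up_φ hD hs x)
  have h4 := S.nn₁ x
  change |C.L S.φ x| - |S.g₁ x| ≤ A + 5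
  simp only at h1
  rw [S.eqφ x]
  have h5 : |fd d (S.φ x) + S.m₁ x + S.g₁ x| ≤ |fd d (S.φ x)| + |S.m₁ x| + |S.g₁ x| :=
    (abs_add_le _ _).trans (add_le_add_left (abs_add_le _ _) _)
  rw [abs_of_nonneg h4] at h5
  linarith

/-! ### the error terms -/

lemma int_sq_le_of_four {r : X → ℝ} (hr : Continuous r) {e vs : ℝ} (he : 0 < e) (hvs : vs ≤ e ^ 2)
    (h : ∫ x, |r x| ^ 4 ∂μ ≤ vs) : ∫ x, r x ^ 2 ∂μ ≤ e * (μ.real univ + 1) / 2 := by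
  have i1 : Integrable (fun x => |r x| ^ 4) μ := integrable_cont (hr.abs.pow 4)
  have i2 : Integrable (fun x => r x ^ 2) μ := integrable_cont (hr.pow 2)
  have h1 : ∫ x, r x ^ 2 ∂μ ≤ ∫ x, (e / 2 + (1 / (2 * e)) * |r x| ^ 4) ∂μ := by
    refine integral_mono i2 ((integrable_const _).add (i1.const_mul _)) fun x => ?_
    have h2 : 0 ≤ (e - r x ^ 2) ^ 2 := sq_nonneg _
    have h3 : |r x| ^ 4 = (r x ^ 2) ^ 2 := by
      rw [← sq_abs (r x)]; ring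
    simp only
    rw [h3]
    have h4 : e / 2 + 1 / (2 * e) * (r x ^ 2) ^ 2 - r x ^ 2 = (e - r x ^ 2) ^ 2 / (2 * e) := by
      field_simp
      ring
    have h5 : 0 ≤ (e - r x ^ 2) ^ 2 / (2 * e) := by positivity
    linarith
  rw [integral_add (integrable_const _) (i1.const_mul _), integral_const, integral_const_mul] at h1
  have h2 : 1 / (2 * e) * ∫ x, |r x| ^ 4 ∂μ ≤ 1 / (2 * e) * e ^ 2 :=
    mul_le_mul_of_nonneg_left (h.trans hvs) (by positivity)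
  have h3 : 1 / (2 * e) * e ^ 2 = e / 2 := by field_simp
  simp only [smul_eq_mul] at h1
  rw [h3] at h2
  linarith

lemma int_g_sq {g r : X → ℝ} (hg : C.Sm g) (hr : Continuous r) {e vs : ℝ} (he : 0 < e) (he1 : e ≤ 1)
    (hvs : vs ≤ e ^ 2) (h : ∫ x, |r x| ^ 4 ∂μ ≤ vs) (hgr : ∀ x, |g x| ≤ K * e + |r x|) :
    ∫ x, g x ^ 2 ∂μ ≤ (2 * K ^ 2 * μ.real univ + (μ.real univ + 1)) * e := by
  have i1 : Integrable (fun x => g x ^ 2) μ := integrable_sm (sm_pow hg 2)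
  have i2 : Integrable (fun x => r x ^ 2) μ := integrable_cont (hr.pow 2)
  have h1 : ∫ x, g x ^ 2 ∂μ ≤ ∫ x, (2 * K ^ 2 * e ^ 2 + 2 * r x ^ 2) ∂μ := by
    refine integral_mono i1 ((integrable_const _).add (i2.const_mul _)) fun x => ?_
    have h2 : g x ^ 2 ≤ (K * e + |r x|) ^ 2 := by
      rw [← sq_abs (g x)]
      exact pow_le_pow_left₀ (abs_nonneg _) (hgr x) 2
    have h3 : (K * e + |r x|) ^ 2 ≤ 2 * (K * e) ^ 2 + 2 * |r x| ^ 2 := by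
      nlinarith [sq_nonneg (K * e - |r x|)]
    rw [sq_abs] at h3
    simp only
    nlinarith
  rw [integral_add (integrable_const _) (i2.const_mul _), integral_const, integral_const_mul] at h1
  have h2 := int_sq_le_of_four hr he hvs h
  simp only [smul_eq_mul] at h1
  have h3 : μ.real univ * (2 * K ^ 2 * e ^ 2) ≤ 2 * K ^ 2 * μ.real univ * e := by
    have : e ^ 2 ≤ e := by nlinarith
    have h4 : 0 ≤ 2 * K ^ 2 * μ.real univ := by positivity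
    nlinarith
  nlinarith

variable (K) in
/-- the constant of `∫ g²`. -/
def Kg (μ : Measure X) : ℝ := 2 * K ^ 2 * μ.real univ + (μ.real univ + 1)

lemma Kg_nonneg : 0 ≤ Kg K μ := by unfold Kg; positivity

lemma Sol.int_g₁ {e vs : ℝ} (S : Sol C φ₀ ψ₀ d K e vs) (hD : Dat C d φ₀ ψ₀) (hs : Small d e)
    (hvs : vs ≤ e ^ 2) : ∫ x, S.g₁ x ^ 2 ∂μ ≤ Kg K μ * e :=
  int_g_sq S.smg₁ S.contr₁ hs.pos ((S.e_small hD hs).trans (by norm_num)) hvs S.int₁ S.gle₁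

lemma Sol.int_g₂ {e vs : ℝ} (S : Sol C φ₀ ψ₀ d K e vs) (hD : Dat C d φ₀ ψ₀) (hs : Small d e)
    (hvs : vs ≤ e ^ 2) : ∫ x, S.g₂ x ^ 2 ∂μ ≤ Kg K μ * e :=
  int_g_sq S.smg₂ S.contr₂ hs.pos ((S.e_small hD hs).trans (by norm_num)) hvs S.int₂ S.gle₂

lemma ub_g₁ (hD : Dat C d φ₀ ψ₀) : UB C φ₀ ψ₀ d K (fun _ _ S => ∫ x, S.g₁ x ^ 2 ∂μ) := by
  refine ⟨Kg K μ, Kg_nonneg, fun e vs S hs hv => (S.int_g₁ hD hs hv).trans ?_⟩
  have := S.e_small hD hs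
  have := Kg_nonneg (K := K) (μ := μ)
  nlinarith

lemma ub_g₂ (hD : Dat C d φ₀ ψ₀) : UB C φ₀ ψ₀ d K (fun _ _ S => ∫ x, S.g₂ x ^ 2 ∂μ) := by
  refine ⟨Kg K μ, Kg_nonneg, fun e vs S hs hv => (S.int_g₂ hD hs hv).trans ?_⟩
  have := S.e_small hD hs
  have := Kg_nonneg (K := K) (μ := μ)
  nlinarith

/-! ### the first function -/

lemma ub_L_φ (hD : Dat C d φ₀ ψ₀) : UB C φ₀ ψ₀ d K (fun _ _ S => ∫ x, C.L S.φ x ^ 2 ∂μ) := by
  obtain ⟨A, hA, h⟩ := pb_L_φ (K := K) hD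
  have h0 := ((UB.const (C := C) (φ₀ := φ₀) (ψ₀ := ψ₀) (d := d) (K := K)
    (μ.real univ * (2 * A ^ 2))).add ((ub_g₁ (K := K) hD).mul (c := 2) (by norm_num)))
  refine h0.mono fun e vs S hs hv => ?_
  have i1 : Integrable (fun x => C.L S.φ x ^ 2) μ := integrable_sm (sm_pow (C.sm_L S.smφ) 2)
  have i2 : Integrable (fun x => S.g₁ x ^ 2) μ := integrable_sm (sm_pow S.smg₁ 2)
  have h1 : ∫ x, C.L S.φ x ^ 2 ∂μ ≤ ∫ x, (2 * A ^ 2 + 2 * S.g₁ x ^ 2) ∂μ := by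
    refine integral_mono i1 ((integrable_const _).add (i2.const_mul _)) fun x => ?_
    have h2 := h e vs S hs hv x
    have h3 : |C.L S.φ x| ≤ A + |S.g₁ x| := by linarith
    have h4 : C.L S.φ x ^ 2 ≤ (A + |S.g₁ x|) ^ 2 := by
      rw [← sq_abs (C.L S.φ x)]
      exact pow_le_pow_left₀ (abs_nonneg _) h3 2
    have h5 : (A + |S.g₁ x|) ^ 2 ≤ 2 * A ^ 2 + 2 * |S.g₁ x| ^ 2 := by
      nlinarith [sq_nonneg (A - |S.g₁ x|)]
    rw [sq_abs] at h5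
    exact h4.trans h5
  rw [integral_add (integrable_const _) (i2.const_mul _), integral_const, integral_const_mul,
    smul_eq_mul] at h1
  exact h1

lemma ub_Rb_of {F : (e vs : ℝ) → Sol C φ₀ ψ₀ d K e vs → X → ℝ}
    (hF : ∀ e vs S, C.Sm (F e vs S))
    (h : UB C φ₀ ψ₀ d K (fun e vs S => ∫ x, C.L (F e vs S) x ^ 2 ∂μ)) :
    UB C φ₀ ψ₀ d K (fun e vs S => ∫ x, C.Rb (F e vs S) x ∂μ) :=
  h.mono fun e vs S hs hv => int_Rb_le (hF e vs S)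

lemma ub_G_of {F : (e vs : ℝ) → Sol C φ₀ ψ₀ d K e vs → X → ℝ}
    (hF : ∀ e vs S, C.Sm (F e vs S)) {s : ℝ} (hs : 0 < s)
    (hFs : ∀ e vs S, Small d e → vs ≤ e ^ 2 → ∀ x, |F e vs S x| ≤ s)
    (h : UB C φ₀ ψ₀ d K (fun e vs S => ∫ x, C.L (F e vs S) x ^ 2 ∂μ)) :
    UB C φ₀ ψ₀ d K (fun e vs S => ∫ x, C.G (F e vs S) (F e vs S) x ^ 2 ∂μ) := by
  refine ((ub_Rb_of hF h).mul (c := 16 * s ^ 2) (by positivity)).mono fun e vs S h1 h2 => ?_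
  exact int_G_sq_le (hF e vs S) hs (hFs e vs S h1 h2)

lemma abs_φ_le (hD : Dat C d φ₀ ψ₀) {e vs : ℝ} (S : Sol C φ₀ ψ₀ d K e vs) (hs : Small d e) (x : X) :
    |S.φ x| ≤ 13 / 10 := by
  rw [abs_of_nonneg ((bb_pos hD.d_pos).le.trans (S.lo_φ hD x))]
  exact S.up_φ hD hs x

lemma abs_ψ_le (hD : Dat C d φ₀ ψ₀) {e vs : ℝ} (S : Sol C φ₀ ψ₀ d K e vs) (hs : Small d e) (x : X) :
    |S.ψ x| ≤ 13 / 10 := by
  rw [abs_of_nonneg ((bb_pos hD.d_pos).le.trans (S.lo_ψ hD x))]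
  exact S.up_ψ hD hs x

lemma ub_Rb_φ (hD : Dat C d φ₀ ψ₀) : UB C φ₀ ψ₀ d K (fun _ _ S => ∫ x, C.Rb S.φ x ∂μ) :=
  ub_Rb_of (F := fun _ _ S => S.φ) (fun _ _ S => S.smφ) (ub_L_φ hD)

lemma ub_G_φ (hD : Dat C d φ₀ ψ₀) : UB C φ₀ ψ₀ d K (fun _ _ S => ∫ x, C.G S.φ S.φ x ^ 2 ∂μ) :=
  ub_G_of (F := fun _ _ S => S.φ) (fun _ _ S => S.smφ) (s := 13 / 10) (by norm_num)
    (fun e vs S h1 h2 x => abs_φ_le hD S h1 x) (ub_L_φ hD)

/-! ### the second obstacle -/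

lemma Sol.G_h₂_le {e vs : ℝ} (S : Sol C φ₀ ψ₀ d K e vs) (hD : Dat C d φ₀ ψ₀) (hs : Small d e)
    (x : X) : C.G S.h₂ S.h₂ x ≤ 3 / bb d ^ 4 * C.G S.φ S.φ x := by
  have hb := bb_pos hD.d_pos
  have h1 := S.G_h₂ x
  have h2 := S.lo_h₂ hD hs x
  have h3 : bb d ^ 4 ≤ S.h₂ x ^ 4 := pow_le_pow_left₀ hb.le h2 4
  have h4 : S.φ x ^ 4 ≤ 3 := by
    have := pow_le_pow_left₀ (hb.le.trans (S.lo_φ hD x)) (S.up_φ hD hs x) 4
    norm_num at this; linarith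
  have h5 := G_self_nonneg (C := C) S.h₂ x
  have h6 := G_self_nonneg (C := C) S.φ x
  rw [div_mul_eq_mul_div, le_div_iff₀ (by positivity)]
  calc C.G S.h₂ S.h₂ x * bb d ^ 4 ≤ C.G S.h₂ S.h₂ x * S.h₂ x ^ 4 :=
        mul_le_mul_of_nonneg_left h3 h5
    _ = S.φ x ^ 4 * C.G S.φ S.φ x := by rw [← h1]; ring
    _ ≤ 3 * C.G S.φ S.φ x := mul_le_mul_of_nonneg_right h4 h6

end Crest.Agent.R249.PairA_780
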