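import Crest.Agent.R249.PairC_780

/-!
Row 249, part A2, section 5 (helper780), file 6: uniform bounds for the second function, the
constraint function and the three differences; the truncated bounds `O(e)`.
-/

set_option autoImplicit false
set_option linter.unusedVariables false
set_option linter.unusedSectionVars false

open MeasureTheory Set Filter Topology Matrix
open scoped ContDiff

noncomputable section

namespace Crest.Agent.R249.PairA_780

open Crest.Agent.R249.Calc_806 Crest.Agent.R249.Calc_806.Calc Crest.Agent.R249.SimA_780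
  Crest.Agent.R249.IntA_780

variable {X : Type*} [TopologicalSpace X] [CompactSpace X] [MeasurableSpace X]
  [OpensMeasurableSpace X] {μ : Measure X} [IsFiniteMeasure μ]
variable {C : Calc X μ} {d K : ℝ} {φ₀ ψ₀ : X → ℝ}

/-- a family of continuous functions, uniformly bounded in `L²`. -/
structure LB (C : Calc X μ) (φ₀ ψ₀ : X → ℝ) (d K : ℝ)
    (F : (e vs : ℝ) → Sol C φ₀ ψ₀ d K e vs → X → ℝ) : Prop where
  cont : ∀ e vs S, Continuous (F e vs S)
  ub : UB C φ₀ ψ₀ d K (fun e vs S => ∫ x, F e vs S x ^ 2 ∂μ)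

variable {F F' : (e vs : ℝ) → Sol C φ₀ ψ₀ d K e vs → X → ℝ}

lemma LB.const (c : ℝ) : LB C φ₀ ψ₀ d K (fun _ _ _ _ => c) where
  cont := fun _ _ _ => continuous_const
  ub := UB.const _

lemma LB.add (h : LB C φ₀ ψ₀ d K F) (h' : LB C φ₀ ψ₀ d K F') :
    LB C φ₀ ψ₀ d K (fun e vs S x => F e vs S x + F' e vs S x) where
  cont := fun e vs S => (h.cont e vs S).add (h'.cont e vs S)
  ub := by
    refine ((h.ub.mul (c := 2) (by norm_num)).add (h'.ub.mul (c := 2) (by norm_num))).mono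
      fun e vs S _ _ => ?_
    have i1 : Integrable (fun x => F e vs S x ^ 2) μ := integrable_cont ((h.cont e vs S).pow 2)
    have i2 : Integrable (fun x => F' e vs S x ^ 2) μ := integrable_cont ((h'.cont e vs S).pow 2)
    have i3 : Integrable (fun x => (F e vs S x + F' e vs S x) ^ 2) μ :=
      integrable_cont (((h.cont e vs S).add (h'.cont e vs S)).pow 2)
    rw [← integral_const_mul, ← integral_const_mul, ← integral_add (i1.const_mul _) (i2.const_mul _)]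
    refine integral_mono i3 ((i1.const_mul _).add (i2.const_mul _)) fun x => ?_
    simp only
    nlinarith [sq_nonneg (F e vs S x - F' e vs S x)]

lemma LB.mul (h : LB C φ₀ ψ₀ d K F) (c : ℝ) :
    LB C φ₀ ψ₀ d K (fun e vs S x => c * F e vs S x) where
  cont := fun e vs S => continuous_const.mul (h.cont e vs S)
  ub := by
    refine (h.ub.mul (c := c ^ 2) (by positivity)).mono fun e vs S _ _ => ?_
    rw [← integral_const_mul]
    refine le_of_eq (integral_congr_ae (Eventually.of_forall fun x => ?_))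
    simp only
    ring

lemma LB.abs (h : LB C φ₀ ψ₀ d K F) : LB C φ₀ ψ₀ d K (fun e vs S x => |F e vs S x|) where
  cont := fun e vs S => (h.cont e vs S).abs
  ub := by
    refine h.ub.mono fun e vs S _ _ => ?_
    simp only [sq_abs]
    exact le_rfl

lemma LB.mono (h : LB C φ₀ ψ₀ d K F) (hc : ∀ e vs S, Continuous (F' e vs S))
    (hle : ∀ e vs S, Small d e → vs ≤ e ^ 2 → ∀ x, |F' e vs S x| ≤ F e vs S x) :
    LB C φ₀ ψ₀ d K F' where
  cont := hc
  ub := by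
    refine h.ub.mono fun e vs S h1 h2 => ?_
    refine integral_mono (integrable_cont ((hc e vs S).pow 2))
      (integrable_cont ((h.cont e vs S).pow 2)) fun x => ?_
    simp only
    rw [← sq_abs (F' e vs S x)]
    exact pow_le_pow_left₀ (abs_nonneg _) (hle e vs S h1 h2 x) 2

lemma LB.of_pb (hc : ∀ e vs S, Continuous (F e vs S))
    (h : PB C φ₀ ψ₀ d K (fun e vs S x => |F e vs S x|)) : LB C φ₀ ψ₀ d K F := by
  obtain ⟨A, hA, h1⟩ := h
  exact (LB.const A).mono hc fun e vs S h2 h3 x => h1 e vs S h2 h3 x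

/-! ### the functions -/

lemma lb_g₁ (hD : Dat C d φ₀ ψ₀) : LB C φ₀ ψ₀ d K (fun _ _ S => S.g₁) :=
  ⟨fun e vs S => C.sm_cont S.smg₁, ub_g₁ hD⟩

lemma lb_g₂ (hD : Dat C d φ₀ ψ₀) : LB C φ₀ ψ₀ d K (fun _ _ S => S.g₂) :=
  ⟨fun e vs S => C.sm_cont S.smg₂, ub_g₂ hD⟩

lemma lb_L_φ (hD : Dat C d φ₀ ψ₀) : LB C φ₀ ψ₀ d K (fun _ _ S => C.L S.φ) :=
  ⟨fun e vs S => C.sm_cont (C.sm_L S.smφ), ub_L_φ hD⟩

lemma lb_L_h₁ (hD : Dat C d φ₀ ψ₀) : LB C φ₀ ψ₀ d K (fun _ _ S => C.L S.h₁) :=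
  LB.of_pb (fun e vs S => C.sm_cont (C.sm_L S.smh₁)) (pb_L_h₁ hD)

lemma lb_G_φ (hD : Dat C d φ₀ ψ₀) : LB C φ₀ ψ₀ d K (fun _ _ S => C.G S.φ S.φ) :=
  ⟨fun e vs S => C.sm_cont (C.sm_G S.smφ S.smφ), ub_G_φ hD⟩

lemma lb_L_h₂ (hD : Dat C d φ₀ ψ₀) : LB C φ₀ ψ₀ d K (fun _ _ S => C.L S.h₂) := by
  have hb := bb_pos hD.d_pos
  have h0 := ((lb_L_φ (K := K) hD).abs.add ((lb_G_φ (K := K) hD).mul
    (2 + 2 * (3 / bb d ^ 4)))).mul (8 / (3 * bb d ^ 2))
  refine h0.mono (fun e vs S => C.sm_cont (C.sm_L S.smh₂)) fun e vs S hs hv x => ?_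
  have h1 := lap_obst hb (S.lo_h₂ hD hs x) (S.up_h₂ hD hs x)
    (hb.le.trans (S.lo_φ hD x)) (S.up_φ hD hs x) (G_self_nonneg (C := C) S.h₂ x)
    (G_self_nonneg (C := C) S.φ x) (S.lap_h₂ x)
  have h2 := S.G_h₂_le hD hs x
  refine h1.trans ?_
  rw [mul_comm]
  refine mul_le_mul_of_nonneg_left ?_ (by positivity)
  linarith

lemma lb_m₂ (hD : Dat C d φ₀ ψ₀) : LB C φ₀ ψ₀ d K (fun _ _ S => S.m₂) := by
  have h0 := ((LB.const (C := C) (φ₀ := φ₀) (ψ₀ := ψ₀) (d := d) (K := K) 1).add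
    (lb_g₁ (K := K) hD).abs).mul (7 / bb d ^ 2)
  refine h0.mono (fun e vs S => C.sm_cont S.smm₂) fun e vs S hs hv x => ?_
  rw [abs_of_nonneg (S.nn₂ x)]
  exact (S.jet hD hs x).m₂_bound

lemma lb_L_ψ (hD : Dat C d φ₀ ψ₀) : LB C φ₀ ψ₀ d K (fun _ _ S => C.L S.ψ) := by
  have h0 := ((LB.const (C := C) (φ₀ := φ₀) (ψ₀ := ψ₀) (d := d) (K := K) 5).add
    (lb_m₂ (K := K) hD)).add (lb_g₂ (K := K) hD).abs
  refine h0.mono (fun e vs S => C.sm_cont (C.sm_L S.smψ)) fun e vs S hs hv x => ?_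
  have h3 := abs_fd_le hD.d_pos hD.d_le (S.lo_ψ hD x) (S.up_ψ hD hs x)
  have h4 := S.nn₂ x
  rw [S.eqψ x]
  have h5 : |fd d (S.ψ x) + S.m₂ x + S.g₂ x| ≤ |fd d (S.ψ x)| + |S.m₂ x| + |S.g₂ x| :=
    (abs_add_le _ _).trans (add_le_add_left (abs_add_le _ _) _)
  rw [abs_of_nonneg h4] at h5
  linarith

lemma ub_Rb_ψ (hD : Dat C d φ₀ ψ₀) : UB C φ₀ ψ₀ d K (fun _ _ S => ∫ x, C.Rb S.ψ x ∂μ) :=
  ub_Rb_of (F := fun _ _ S => S.ψ) (fun _ _ S => S.smψ) (lb_L_ψ hD).ub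

lemma lb_G_ψ (hD : Dat C d φ₀ ψ₀) : LB C φ₀ ψ₀ d K (fun _ _ S => C.G S.ψ S.ψ) :=
  ⟨fun e vs S => C.sm_cont (C.sm_G S.smψ S.smψ),
    ub_G_of (F := fun _ _ S => S.ψ) (fun _ _ S => S.smψ) (s := 13 / 10) (by norm_num)
      (fun e vs S h1 h2 x => abs_ψ_le hD S h1 x) (lb_L_ψ hD).ub⟩

/-! ### differences -/

lemma lb_L_sub {u v : (e vs : ℝ) → Sol C φ₀ ψ₀ d K e vs → X → ℝ}
    (hu : ∀ e vs S, C.Sm (u e vs S)) (hv : ∀ e vs S, C.Sm (v e vs S))
    (h1 : LB C φ₀ ψ₀ d K (fun e vs S => C.L (u e vs S)))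
    (h2 : LB C φ₀ ψ₀ d K (fun e vs S => C.L (v e vs S))) :
    LB C φ₀ ψ₀ d K (fun e vs S => C.L (fun y => u e vs S y - v e vs S y)) := by
  refine (h1.abs.add h2.abs).mono (fun e vs S => C.sm_cont (C.sm_L (sm_sub (hu e vs S) (hv e vs S))))
    fun e vs S _ _ x => ?_
  rw [L_sub (hu e vs S) (hv e vs S)]
  exact abs_sub _ _

/-- **the truncated bounds of a family**. -/
theorem trunc_family {v : (e vs : ℝ) → Sol C φ₀ ψ₀ d K e vs → X → ℝ}
    (hv : ∀ e vs S, C.Sm (v e vs S)) {s α β : ℝ} (hs : 0 < s) (hα : 0 ≤ α) (hβ : 0 < β)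
    (hvs : ∀ e vs S, Small d e → vs ≤ e ^ 2 → ∀ x, |v e vs S x| ≤ s)
    (hlo : ∀ e vs S, Small d e → vs ≤ e ^ 2 → ∀ x, -(α * e) ≤ v e vs S x)
    (hL : LB C φ₀ ψ₀ d K (fun e vs S => C.L (v e vs S))) :
    ∃ A : ℝ, 0 ≤ A ∧ ∀ e vs (S : Sol C φ₀ ψ₀ d K e vs), Small d e → vs ≤ e ^ 2 →
      ∀ T : Set X, MeasurableSet T → (∀ x ∈ T, v e vs S x ≤ β * e) →
        ∫ x in T, C.G (v e vs S) (v e vs S) x ^ 2 ∂μ ≤ A * e ∧
        ∫ x in T, C.G (v e vs S) (v e vs S) x ∂μ ≤ A * e := by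
  obtain ⟨A₁, hA₁, h1⟩ := hL.ub
  obtain ⟨A₂, hA₂, h2⟩ := ub_G_of hv hs hvs hL.ub
  obtain ⟨A₃, hA₃, h3⟩ := ub_Rb_of hv hL.ub
  refine ⟨6 * (α + β) * (A₂ + A₃) + 3 * (α + β) * (μ.real univ + A₁), by positivity,
    fun e vs S hs hv' T hT hTb => ?_⟩
  have he := hs.pos
  have hc : 0 < α * e + β * e := by
    have : 0 < β * e := mul_pos hβ he
    have : 0 ≤ α * e := mul_nonneg hα he.le
    linarith
  have g1 := h1 e vs S hs hv'
  have g2 := h2 e vs S hs hv'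
  have g3 := h3 e vs S hs hv'
  have t4 := trunc_four (hv e vs S) hc (hlo e vs S hs hv') T hT hTb
  have t2 := trunc_two (hv e vs S) hc (hlo e vs S hs hv') T hT hTb
  have hV : 0 ≤ μ.real univ := measureReal_nonneg
  constructor
  · refine t4.trans ?_
    have e1 : 6 * (α * e + β * e) * (∫ x, C.G (v e vs S) (v e vs S) x ^ 2 ∂μ +
        ∫ x, C.Rb (v e vs S) x ∂μ) ≤ 6 * (α * e + β * e) * (A₂ + A₃) :=
      mul_le_mul_of_nonneg_left (add_le_add g2 g3) (by positivity)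
    have e2 : 0 ≤ 3 * (α + β) * (μ.real univ + A₁) * e := by positivity
    have e3 : 6 * (α * e + β * e) * (A₂ + A₃) = 6 * (α + β) * (A₂ + A₃) * e := by ring
    rw [e3] at e1
    rw [add_mul]
    linarith
  · refine t2.trans ?_
    have i1 : Integrable (fun x => C.L (v e vs S) x ^ 2) μ :=
      integrable_sm (sm_pow (C.sm_L (hv e vs S)) 2)
    have e0 : ∫ x, |C.L (v e vs S) x| ∂μ ≤ μ.real univ + A₁ := by
      have : ∫ x, |C.L (v e vs S) x| ∂μ ≤ ∫ x, (1 + C.L (v e vs S) x ^ 2) ∂μ := by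
        refine integral_mono (integrable_sm (C.sm_L (hv e vs S))).abs
          ((integrable_const _).add i1) fun x => ?_
        simp only
        nlinarith [sq_nonneg (|C.L (v e vs S) x| - 1), sq_abs (C.L (v e vs S) x),
          abs_nonneg (C.L (v e vs S) x)]
      rw [integral_add (integrable_const _) i1, integral_const, smul_eq_mul, mul_one] at this
      linarith
    have e1 : 3 * (α * e + β * e) * ∫ x, |C.L (v e vs S) x| ∂μ ≤
        3 * (α * e + β * e) * (μ.real univ + A₁) :=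
      mul_le_mul_of_nonneg_left e0 (by positivity)
    have e2 : 0 ≤ 6 * (α + β) * (A₂ + A₃) * e := by positivity
    have e3 : 3 * (α * e + β * e) * (μ.real univ + A₁) =
      3 * (α + β) * (μ.real univ + A₁) * e := by ring
    rw [e3] at e1
    rw [add_mul]
    linarith

end Crest.Agent.R249.PairA_780
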