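import Crest.Agent.R249.PairD_780

/-!
Row 249, part A2, sections 5 and 6 (helper780), file 7: the truncated bounds of `h₁ - φ`,
`ψ - ψ₀`, `h₂ - ψ` and `κ`; the error of the simplex property tends to zero in `L²`.
-/

set_option autoImplicit false
set_option linter.unusedVariables false
set_option linter.unusedSectionVars false

open MeasureTheory Set Filter Topology Matrix
open scoped ContDiff

noncomputable section

namespace Crest.Agent.R249.PairA_780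

open Crest.Agent.R249.Calc_806 Crest.Agent.R249.Calc_806.Calc Crest.Agent.R249.SimA_780
  Crest.Agent.R249.IntA_780

variable {X : Type*} [TopologicalSpace X] [CompactSpace X] [MeasurableSpace X]
  [OpensMeasurableSpace X] {μ : Measure X} [IsFiniteMeasure μ]
variable {C : Calc X μ} {d K : ℝ} {φ₀ ψ₀ : X → ℝ}

/-- the support of the first penalty. -/
def Sol.T₁ {e vs : ℝ} (S : Sol C φ₀ ψ₀ d K e vs) : Set X := {x | S.m₁ x ≠ 0}

/-- the support of the second penalty. -/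
def Sol.T₂ {e vs : ℝ} (S : Sol C φ₀ ψ₀ d K e vs) : Set X := {x | S.m₂ x ≠ 0}

lemma Sol.meas_T₁ {e vs : ℝ} (S : Sol C φ₀ ψ₀ d K e vs) : MeasurableSet S.T₁ :=
  (isOpen_ne_fun (C.sm_cont S.smm₁) continuous_const).measurableSet

lemma Sol.meas_T₂ {e vs : ℝ} (S : Sol C φ₀ ψ₀ d K e vs) : MeasurableSet S.T₂ :=
  (isOpen_ne_fun (C.sm_cont S.smm₂) continuous_const).measurableSet

/-- the constraint function. -/
def Sol.κ {e vs : ℝ} (S : Sol C φ₀ ψ₀ d K e vs) (x : X) : ℝ := 2 - S.φ x ^ 3 - S.ψ x ^ 3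

lemma Sol.smκ {e vs : ℝ} (S : Sol C φ₀ ψ₀ d K e vs) : C.Sm S.κ :=
  sm_sub (sm_sub (sm_const _) (sm_pow S.smφ 3)) (sm_pow S.smψ 3)

lemma Sol.L_κ {e vs : ℝ} (S : Sol C φ₀ ψ₀ d K e vs) (x : X) : C.L S.κ x =
    -(3 * S.φ x ^ 2 * C.L S.φ x + 6 * S.φ x * C.G S.φ S.φ x) -
      (3 * S.ψ x ^ 2 * C.L S.ψ x + 6 * S.ψ x * C.G S.ψ S.ψ x) := by
  have h1 : C.L S.κ x = C.L (fun y => (2 - S.φ y ^ 3) - S.ψ y ^ 3) x := rfl
  rw [h1, L_sub (sm_sub (sm_const _) (sm_pow S.smφ 3)) (sm_pow S.smψ 3),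
    L_sub (sm_const _) (sm_pow S.smφ 3), C.L_const, L_cube S.smφ, L_cube S.smψ]
  ring

lemma lb_L_κ (hD : Dat C d φ₀ ψ₀) : LB C φ₀ ψ₀ d K (fun _ _ S => C.L S.κ) := by
  have hb := bb_pos hD.d_pos
  have h0 := (((lb_L_φ (K := K) hD).abs.add (lb_G_φ (K := K) hD)).add
    ((lb_L_ψ (K := K) hD).abs.add (lb_G_ψ (K := K) hD))).mul 8
  refine h0.mono (fun e vs S => C.sm_cont (C.sm_L S.smκ)) fun e vs S hs hv x => ?_
  rw [S.L_κ]
  have key : ∀ {u L G : ℝ}, 0 ≤ u → u ≤ 13 / 10 → 0 ≤ G →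
      |3 * u ^ 2 * L + 6 * u * G| ≤ 8 * (|L| + G) := by
    intro u L G hu hu' hG
    refine (abs_add_le _ _).trans ?_
    rw [abs_mul, abs_of_nonneg (show (0:ℝ) ≤ 3 * u ^ 2 by positivity),
      abs_of_nonneg (show (0:ℝ) ≤ 6 * u * G by positivity)]
    have h5 : 3 * u ^ 2 * |L| ≤ 8 * |L| :=
      mul_le_mul_of_nonneg_right (by nlinarith) (abs_nonneg _)
    have h6 : 6 * u * G ≤ 8 * G := mul_le_mul_of_nonneg_right (by linarith) hG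
    linarith
  have k1 := key (L := C.L S.φ x) (hb.le.trans (S.lo_φ hD x)) (S.up_φ hD hs x)
    (G_self_nonneg (C := C) S.φ x)
  have k2 := key (L := C.L S.ψ x) (hb.le.trans (S.lo_ψ hD x)) (S.up_ψ hD hs x)
    (G_self_nonneg (C := C) S.ψ x)
  refine (abs_sub _ _).trans ?_
  rw [abs_neg]
  linarith

/-- the constraint function on `{κ ≤ 45 e}`. -/
theorem trunc_κ (hD : Dat C d φ₀ ψ₀) :
    ∃ A : ℝ, 0 ≤ A ∧ ∀ e vs (S : Sol C φ₀ ψ₀ d K e vs), Small d e → vs ≤ e ^ 2 →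
      ∀ T : Set X, MeasurableSet T → (∀ x ∈ T, S.κ x ≤ 45 * e) →
        ∫ x in T, C.G S.κ S.κ x ^ 2 ∂μ ≤ A * e ∧ ∫ x in T, C.G S.κ S.κ x ∂μ ≤ A * e := by
  refine trunc_family (v := fun _ _ S => S.κ) (fun _ _ S => S.smκ) (s := 5) (α := 11) (β := 45)
    (by norm_num) (by norm_num) (by norm_num) (fun e vs S hs hv x => ?_)
    (fun e vs S hs hv x => S.kap_ge hD hs x) (lb_L_κ hD)
  have hb := bb_pos hD.d_pos
  have h1 : S.φ x ^ 3 ≤ (13 / 10) ^ 3 := pow_le_pow_left₀ (hb.le.trans (S.lo_φ hD x))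
    (S.up_φ hD hs x) 3
  have h2 : S.ψ x ^ 3 ≤ (13 / 10) ^ 3 := pow_le_pow_left₀ (hb.le.trans (S.lo_ψ hD x))
    (S.up_ψ hD hs x) 3
  have h3 : 0 ≤ S.φ x ^ 3 := by have := hb.le.trans (S.lo_φ hD x); positivity
  have h4 : 0 ≤ S.ψ x ^ 3 := by have := hb.le.trans (S.lo_ψ hD x); positivity
  norm_num at h1 h2
  simp only [Sol.κ]
  rw [abs_le]
  constructor <;> linarith

/-- `h₁ - φ` on the support of the first penalty. -/
theorem trunc_v₁ (hD : Dat C d φ₀ ψ₀) :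
    ∃ A : ℝ, 0 ≤ A ∧ ∀ e vs (S : Sol C φ₀ ψ₀ d K e vs), Small d e → vs ≤ e ^ 2 →
        ∫ x in S.T₁, C.G (fun y => S.h₁ y - S.φ y) (fun y => S.h₁ y - S.φ y) x ^ 2 ∂μ ≤ A * e ∧
        ∫ x in S.T₁, C.G (fun y => S.h₁ y - S.φ y) (fun y => S.h₁ y - S.φ y) x ∂μ ≤ A * e := by
  have hb := bb_pos hD.d_pos
  have hbd : ∀ e vs (S : Sol C φ₀ ψ₀ d K e vs), Small d e → vs ≤ e ^ 2 → ∀ x,
      |S.h₁ x - S.φ x| ≤ 3 := by
    intro e vs S hs hv x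
    have h1 := S.up_h₁ hD hs x
    have h2 := S.up_φ hD hs x
    have h3 := hb.le.trans (S.lo_φ hD x)
    have h4 := (S.pos₁ x).le
    rw [abs_le]
    constructor <;> linarith
  obtain ⟨A, hA, h⟩ := trunc_family (K := K) (μ := μ) (C := C) (d := d) (φ₀ := φ₀) (ψ₀ := ψ₀)
    (v := fun _ _ S y => S.h₁ y - S.φ y)
    (fun _ _ S => sm_sub S.smh₁ S.smφ) (s := 3) (α := 2) (β := 1)
    (by norm_num) (by norm_num) (by norm_num) hbd
    (fun e vs S hs hv x => by have := S.upφ x; linarith)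
    (lb_L_sub (fun _ _ S => S.smh₁) (fun _ _ S => S.smφ) (lb_L_h₁ hD) (lb_L_φ hD))
  refine ⟨A, hA, fun e vs S hs hv => h e vs S hs hv S.T₁ S.meas_T₁ fun x hx => ?_⟩
  have := S.supp₁ x hx
  linarith

/-- `h₂ - ψ` on the support of the second penalty. -/
theorem trunc_v₃ (hD : Dat C d φ₀ ψ₀) :
    ∃ A : ℝ, 0 ≤ A ∧ ∀ e vs (S : Sol C φ₀ ψ₀ d K e vs), Small d e → vs ≤ e ^ 2 →
        ∫ x in S.T₂, C.G (fun y => S.h₂ y - S.ψ y) (fun y => S.h₂ y - S.ψ y) x ^ 2 ∂μ ≤ A * e ∧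
        ∫ x in S.T₂, C.G (fun y => S.h₂ y - S.ψ y) (fun y => S.h₂ y - S.ψ y) x ∂μ ≤ A * e := by
  have hb := bb_pos hD.d_pos
  have hbd : ∀ e vs (S : Sol C φ₀ ψ₀ d K e vs), Small d e → vs ≤ e ^ 2 → ∀ x,
      |S.h₂ x - S.ψ x| ≤ 3 := by
    intro e vs S hs hv x
    have h1 := S.up_h₂ hD hs x
    have h2 := S.up_ψ hD hs x
    have h3 := hb.le.trans (S.lo_ψ hD x)
    have h4 := (S.pos₂ x).le
    rw [abs_le]
    constructor <;> linarith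
  obtain ⟨A, hA, h⟩ := trunc_family (K := K) (μ := μ) (C := C) (d := d) (φ₀ := φ₀) (ψ₀ := ψ₀)
    (v := fun _ _ S y => S.h₂ y - S.ψ y)
    (fun _ _ S => sm_sub S.smh₂ S.smψ) (s := 3) (α := 2) (β := 1)
    (by norm_num) (by norm_num) (by norm_num) hbd
    (fun e vs S hs hv x => by have := S.upψ x; linarith)
    (lb_L_sub (fun _ _ S => S.smh₂) (fun _ _ S => S.smψ) (lb_L_h₂ hD) (lb_L_ψ hD))
  refine ⟨A, hA, fun e vs S hs hv => h e vs S hs hv S.T₂ S.meas_T₂ fun x hx => ?_⟩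
  have := S.supp₂ x hx
  linarith

/-- `ψ - ψ₀` on the support of the first penalty. -/
theorem trunc_v₂ (hD : Dat C d φ₀ ψ₀) :
    ∃ A : ℝ, 0 ≤ A ∧ ∀ e vs (S : Sol C φ₀ ψ₀ d K e vs), Small d e → vs ≤ e ^ 2 →
        ∫ x in S.T₁, C.G (fun y => S.ψ y - ψ₀ y) (fun y => S.ψ y - ψ₀ y) x ^ 2 ∂μ ≤ A * e ∧
        ∫ x in S.T₁, C.G (fun y => S.ψ y - ψ₀ y) (fun y => S.ψ y - ψ₀ y) x ∂μ ≤ A * e := by
  have hb := bb_pos hD.d_pos
  have lb0 : LB C φ₀ ψ₀ d K (fun _ _ _ => C.L ψ₀) :=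
    ⟨fun e vs S => C.sm_cont (C.sm_L hD.smψ), UB.const _⟩
  have hbd : ∀ e vs (S : Sol C φ₀ ψ₀ d K e vs), Small d e → vs ≤ e ^ 2 → ∀ x,
      |S.ψ x - ψ₀ x| ≤ 3 := by
    intro e vs S hs hv x
    have h1 := S.up_ψ₀ hD x
    have h2 := S.up_ψ hD hs x
    have h3 := hb.le.trans (S.lo_ψ hD x)
    have h4 := (hD.posψ x).le
    rw [abs_le]
    constructor <;> linarith
  obtain ⟨A, hA, h⟩ := trunc_family (K := K) (μ := μ) (C := C) (d := d) (φ₀ := φ₀) (ψ₀ := ψ₀)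
    (v := fun _ _ S y => S.ψ y - ψ₀ y)
    (fun _ _ S => sm_sub S.smψ hD.smψ) (s := 3) (α := 0) (β := 18 / bb d ^ 2)
    (by norm_num) (by norm_num) (by positivity) hbd
    (fun e vs S hs hv x => by have := S.loψ x; linarith)
    (lb_L_sub (fun _ _ S => S.smψ) (fun _ _ S => hD.smψ) (lb_L_ψ hD) lb0)
  refine ⟨A, hA, fun e vs S hs hv => h e vs S hs hv S.T₁ S.meas_T₁ fun x hx => ?_⟩
  have h1 := (S.jet hD hs x).psi_sub (S.supp₁ x hx)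
  have h2 : 18 * (e / bb d ^ 2) = 18 / bb d ^ 2 * e := by ring
  rw [h2] at h1
  exact h1

end Crest.Agent.R249.PairA_780
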