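import Crest.Agent.R249.PairE_780

/-!
Row 249, part A2, section 6 (helper780), file 8: the error of the simplex property is `O(√e)` in
`L²`, squared: `∫ Err² ≤ A √e`.
-/

set_option autoImplicit false
set_option linter.unusedVariables false
set_option linter.unusedSectionVars false

open MeasureTheory Set Filter Topology Matrix
open scoped ContDiff

noncomputable section

namespace Crest.Agent.R249.PairA_780

open Crest.Agent.R249.Calc_806 Crest.Agent.R249.Calc_806.Calc Crest.Agent.R249.SimA_780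
  Crest.Agent.R249.IntA_780

/-- pointwise bound of the square of the first error. -/
lemma err1_sq_le {V : Type*} [NormedAddCommGroup V] {e b B : ℝ} (he : 0 ≤ e) (hb : 0 < b)
    (hB : 1 ≤ B) (hBb : 1 / b ^ 2 ≤ B) {X X' Y Y' : V} (hX : ‖X'‖ ≤ B) (hY : ‖Y'‖ ≤ B) :
    err1 e b X X' Y Y' ^ 2 ≤ 5 * (620 * B ^ 3) ^ 2 *
      (e ^ 2 + ‖X - X'‖ ^ 2 + (‖X - X'‖ ^ 2) ^ 2 + ‖Y - Y'‖ ^ 2 + (‖Y - Y'‖ ^ 2) ^ 2) := by
  set p := ‖X - X'‖ with hp
  set q := ‖Y - Y'‖ with hq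
  have hp0 : 0 ≤ p := norm_nonneg _
  have hq0 : 0 ≤ q := norm_nonneg _
  have hX0 : 0 ≤ ‖X'‖ := norm_nonneg _
  have hY0 : 0 ≤ ‖Y'‖ := norm_nonneg _
  have hB0 : 0 ≤ B := by linarith
  have hB1 : B ≤ B ^ 3 := by nlinarith [sq_nonneg (B - 1), mul_nonneg hB0 hB0]
  have hB2 : 1 ≤ B ^ 3 := hB.trans hB1
  have hX2 : ‖X'‖ ^ 2 ≤ B ^ 2 := pow_le_pow_left₀ hX0 hX 2
  have hY2 : ‖Y'‖ ^ 2 ≤ B ^ 2 := pow_le_pow_left₀ hY0 hY 2
  have hB23 : B ^ 2 ≤ B ^ 3 := by nlinarith [sq_nonneg B]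
  have heb : e / b ^ 2 ≤ e * B := by
    have : e / b ^ 2 = e * (1 / b ^ 2) := by ring
    rw [this]
    exact mul_le_mul_of_nonneg_left hBb he
  have heb0 : 0 ≤ e / b ^ 2 := by positivity
  have h1 : err1 e b X X' Y Y' ≤ 620 * B ^ 3 * (e + p + p ^ 2 + q + q ^ 2) := by
    unfold err1
    rw [← hp, ← hq]
    have a1 : 500 * (e / b ^ 2) ≤ 500 * B ^ 3 * e := by nlinarith
    have a2 : 12 * e * ‖X'‖ ^ 2 ≤ 12 * B ^ 3 * e := by nlinarith
    have a3 : 8 * (2 * ‖X'‖ * p + p ^ 2) ≤ 16 * B ^ 3 * p + 8 * B ^ 3 * p ^ 2 := by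
      have : ‖X'‖ * p ≤ B ^ 3 * p := mul_le_mul_of_nonneg_right (hX.trans hB1) hp0
      have : p ^ 2 ≤ B ^ 3 * p ^ 2 := by nlinarith [sq_nonneg p]
      nlinarith
    have a4 : 108 * (e / b ^ 2) * ‖Y'‖ ^ 2 ≤ 108 * B ^ 3 * e := by
      have : (e / b ^ 2) * ‖Y'‖ ^ 2 ≤ (e * B) * B ^ 2 :=
        mul_le_mul heb hY2 (by positivity) (by positivity)
      nlinarith
    have a5 : 8 * (2 * ‖Y'‖ * q + q ^ 2) ≤ 16 * B ^ 3 * q + 8 * B ^ 3 * q ^ 2 := by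
      have : ‖Y'‖ * q ≤ B ^ 3 * q := mul_le_mul_of_nonneg_right (hY.trans hB1) hq0
      have : q ^ 2 ≤ B ^ 3 * q ^ 2 := by nlinarith [sq_nonneg q]
      nlinarith
    have b1 : 0 ≤ B ^ 3 * p := by positivity
    have b2 : 0 ≤ B ^ 3 * q := by positivity
    have b3 : 0 ≤ B ^ 3 * p ^ 2 := by positivity
    have b4 : 0 ≤ B ^ 3 * q ^ 2 := by positivity
    nlinarith
  have h2 : 0 ≤ err1 e b X X' Y Y' := err1_nonneg he _ _ _ _
  have h3 : (e + p + p ^ 2 + q + q ^ 2) ^ 2 ≤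
      5 * (e ^ 2 + p ^ 2 + (p ^ 2) ^ 2 + q ^ 2 + (q ^ 2) ^ 2) := by
    nlinarith [sq_nonneg (e - p), sq_nonneg (e - p ^ 2), sq_nonneg (e - q), sq_nonneg (e - q ^ 2),
      sq_nonneg (p - p ^ 2), sq_nonneg (p - q), sq_nonneg (p - q ^ 2), sq_nonneg (p ^ 2 - q),
      sq_nonneg (p ^ 2 - q ^ 2), sq_nonneg (q - q ^ 2)]
  calc err1 e b X X' Y Y' ^ 2 ≤ (620 * B ^ 3 * (e + p + p ^ 2 + q + q ^ 2)) ^ 2 :=
        pow_le_pow_left₀ h2 h1 2
    _ = (620 * B ^ 3) ^ 2 * (e + p + p ^ 2 + q + q ^ 2) ^ 2 := by ring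
    _ ≤ (620 * B ^ 3) ^ 2 * (5 * (e ^ 2 + p ^ 2 + (p ^ 2) ^ 2 + q ^ 2 + (q ^ 2) ^ 2)) :=
        mul_le_mul_of_nonneg_left h3 (by positivity)
    _ = _ := by ring

/-- pointwise bound of the square of the second error: `‖Z‖² ≤ k P`. -/
lemma err2_sq_le {V : Type*} [NormedAddCommGroup V] {e k P s : ℝ} (he : 0 < e) (he1 : e ≤ 1)
    (hk : 1 ≤ k) (hP : 0 ≤ P) (hs : 0 < s) (hes : e ≤ s) {Y Z : V} (hZ : ‖Z‖ ^ 2 ≤ k * P) :
    err2 e Y Z ^ 2 ≤ 10000 * k ^ 2 * (e + s * P ^ 2 + (1 + 1 / s) * (‖Y - Z‖ ^ 2) ^ 2) := by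
  set q := ‖Y - Z‖ with hq
  have hq0 : 0 ≤ q := norm_nonneg _
  set z := ‖Z‖ with hz
  have hz0 : 0 ≤ z := norm_nonneg _
  have h1 : err2 e Y Z ^ 2 ≤ 4 * ((46 * e) ^ 2 + (12 * e * z ^ 2) ^ 2 + (16 * z * q) ^ 2 +
      (8 * q ^ 2) ^ 2) := by
    unfold err2
    rw [← hq, ← hz]
    nlinarith [sq_nonneg (46 * e - 12 * e * z ^ 2), sq_nonneg (46 * e - 16 * z * q),
      sq_nonneg (46 * e - 8 * q ^ 2), sq_nonneg (12 * e * z ^ 2 - 16 * z * q),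
      sq_nonneg (12 * e * z ^ 2 - 8 * q ^ 2), sq_nonneg (16 * z * q - 8 * q ^ 2)]
  have k2 : 1 ≤ k ^ 2 := by nlinarith
  have hz4 : (z ^ 2) ^ 2 ≤ (k * P) ^ 2 := pow_le_pow_left₀ (by positivity) hZ 2
  have a1 : (46 * e) ^ 2 ≤ 2116 * e := by nlinarith
  have a2 : (12 * e * z ^ 2) ^ 2 ≤ 144 * (k ^ 2 * (s * P ^ 2)) := by
    have e1 : (12 * e * z ^ 2) ^ 2 = 144 * (e ^ 2 * (z ^ 2) ^ 2) := by ring
    have e2 : e ^ 2 ≤ s := by nlinarith
    have e3 : e ^ 2 * (z ^ 2) ^ 2 ≤ s * (k * P) ^ 2 :=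
      mul_le_mul e2 hz4 (by positivity) hs.le
    rw [e1]
    nlinarith
  have a3 : (16 * z * q) ^ 2 ≤ 128 * (k ^ 2 * (s * P ^ 2)) + 128 * (1 / s * (q ^ 2) ^ 2) := by
    have e1 : (16 * z * q) ^ 2 = 256 * (z ^ 2 * q ^ 2) := by ring
    have e2 : 2 * (z ^ 2 * q ^ 2) ≤ s * (z ^ 2) ^ 2 + 1 / s * (q ^ 2) ^ 2 := by
      have : 0 ≤ (s * z ^ 2 - q ^ 2) ^ 2 / s := by positivity
      have e3 : (s * z ^ 2 - q ^ 2) ^ 2 / s =
          s * (z ^ 2) ^ 2 + 1 / s * (q ^ 2) ^ 2 - 2 * (z ^ 2 * q ^ 2) := by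
        field_simp
        ring
      linarith
    have e4 : s * (z ^ 2) ^ 2 ≤ s * (k * P) ^ 2 := mul_le_mul_of_nonneg_left hz4 hs.le
    rw [e1]
    nlinarith
  have a4 : (8 * q ^ 2) ^ 2 = 64 * (q ^ 2) ^ 2 := by ring
  have q4 : 0 ≤ (q ^ 2) ^ 2 := by positivity
  have s1 : 0 ≤ 1 / s * (q ^ 2) ^ 2 := by positivity
  have p1 : 0 ≤ s * P ^ 2 := by positivity
  have m1 : e ≤ k ^ 2 * e := by nlinarith
  have m2 : (q ^ 2) ^ 2 ≤ k ^ 2 * (q ^ 2) ^ 2 := by nlinarith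
  have m3 : 1 / s * (q ^ 2) ^ 2 ≤ k ^ 2 * (1 / s * (q ^ 2) ^ 2) := by nlinarith
  have m4 : 0 ≤ k ^ 2 * (s * P ^ 2) := by positivity
  have e9 : 10000 * k ^ 2 * (e + s * P ^ 2 + (1 + 1 / s) * (q ^ 2) ^ 2) =
      10000 * (k ^ 2 * e) + 10000 * (k ^ 2 * (s * P ^ 2)) + 10000 * (k ^ 2 * (q ^ 2) ^ 2) +
        10000 * (k ^ 2 * (1 / s * (q ^ 2) ^ 2)) := by ring
  rw [e9]
  linarith

variable {X : Type*} [TopologicalSpace X] [CompactSpace X] [MeasurableSpace X]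
  [OpensMeasurableSpace X] {μ : Measure X} [IsFiniteMeasure μ]
variable {C : Calc X μ} {d K : ℝ} {φ₀ ψ₀ : X → ℝ}

/-- the first error on its support. -/
theorem int_err1 (hD : Dat C d φ₀ ψ₀) :
    ∃ A : ℝ, 0 ≤ A ∧ ∀ e vs (S : Sol C φ₀ ψ₀ d K e vs), Small d e → vs ≤ e ^ 2 →
      ∫ x in S.T₁, err1 e (bb d) (vec C S.φ x) (vec C S.h₁ x) (vec C S.ψ x) (vec C ψ₀ x) ^ 2 ∂μ
        ≤ A * e := by
  have hb := bb_pos hD.d_pos
  obtain ⟨A₁, hA₁, h1⟩ := trunc_v₁ (K := K) hD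
  obtain ⟨A₂, hA₂, h2⟩ := trunc_v₂ (K := K) hD
  obtain ⟨B₁, hB₁, k1⟩ := pb_G_h₁ (K := K) hD
  obtain ⟨B₂, hB₂, k2⟩ := exists_bound (C.sm_G hD.smψ hD.smψ)
  set B : ℝ := 1 + 1 / bb d ^ 2 + B₁ + B₂ with hB
  have hbb : 0 ≤ 1 / bb d ^ 2 := by positivity
  have hB1 : 1 ≤ B := by rw [hB]; linarith
  refine ⟨5 * (620 * B ^ 3) ^ 2 * (μ.real univ + 2 * A₁ + 2 * A₂), by positivity,
    fun e vs S hs hv => ?_⟩
  have he := hs.pos
  have he1 : e ≤ 1 := (S.e_small hD hs).trans (by norm_num)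
  obtain ⟨p4, p2⟩ := h1 e vs S hs hv
  obtain ⟨q4, q2⟩ := h2 e vs S hs hv
  set G₁ := C.G (fun y => S.h₁ y - S.φ y) (fun y => S.h₁ y - S.φ y) with hG₁
  set G₂ := C.G (fun y => S.ψ y - ψ₀ y) (fun y => S.ψ y - ψ₀ y) with hG₂
  have s1 : C.Sm G₁ := C.sm_G (sm_sub S.smh₁ S.smφ) (sm_sub S.smh₁ S.smφ)
  have s2 : C.Sm G₂ := C.sm_G (sm_sub S.smψ hD.smψ) (sm_sub S.smψ hD.smψ)
  have hpt : ∀ x, err1 e (bb d) (vec C S.φ x) (vec C S.h₁ x) (vec C S.ψ x) (vec C ψ₀ x) ^ 2 ≤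
      5 * (620 * B ^ 3) ^ 2 * (e ^ 2 + G₁ x + G₁ x ^ 2 + G₂ x + G₂ x ^ 2) := by
    intro x
    have n1 : ‖vec C S.φ x - vec C S.h₁ x‖ ^ 2 = G₁ x := by
      rw [norm_sub_rev, vec_sub S.smh₁ S.smφ, norm_vec_sq]
    have n2 : ‖vec C S.ψ x - vec C ψ₀ x‖ ^ 2 = G₂ x := by
      rw [vec_sub S.smψ hD.smψ, norm_vec_sq]
    have t : ∀ {a c : ℝ}, 0 ≤ a → a ^ 2 ≤ c → 0 ≤ c → a ≤ 1 + c := by
      intro a c ha hac hc
      nlinarith [sq_nonneg (a - 1)]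
    have m1 : ‖vec C S.h₁ x‖ ≤ B := by
      have := t (norm_nonneg (vec C S.h₁ x)) (by rw [norm_vec_sq]; exact k1 e vs S hs hv x) hB₁
      rw [hB]; linarith
    have m2 : ‖vec C ψ₀ x‖ ≤ B := by
      have := t (norm_nonneg (vec C ψ₀ x))
        (by rw [norm_vec_sq]; exact (le_abs_self _).trans (k2 x)) hB₂
      rw [hB]; linarith
    have := err1_sq_le (X := vec C S.φ x) (Y := vec C S.ψ x) he.le hb hB1
      (by rw [hB]; linarith) m1 m2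
    rw [n1, n2] at this
    exact this
  have i0 : Integrable (fun x => 5 * (620 * B ^ 3) ^ 2 *
      (e ^ 2 + G₁ x + G₁ x ^ 2 + G₂ x + G₂ x ^ 2)) (μ.restrict S.T₁) :=
    (integrable_sm (C := C) (sm_smul _ (sm_add (sm_add (sm_add (sm_add (sm_const _) s1) (sm_pow s1 2)) s2)
      (sm_pow s2 2)))).integrableOn
  have j1 : IntegrableOn G₁ S.T₁ μ := (integrable_sm s1).integrableOn
  have j2 : IntegrableOn (fun x => G₁ x ^ 2) S.T₁ μ := (integrable_sm (sm_pow s1 2)).integrableOn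
  have j3 : IntegrableOn G₂ S.T₁ μ := (integrable_sm s2).integrableOn
  have j4 : IntegrableOn (fun x => G₂ x ^ 2) S.T₁ μ := (integrable_sm (sm_pow s2 2)).integrableOn
  have hle : ∫ x in S.T₁, err1 e (bb d) (vec C S.φ x) (vec C S.h₁ x) (vec C S.ψ x)
      (vec C ψ₀ x) ^ 2 ∂μ ≤ ∫ x in S.T₁, 5 * (620 * B ^ 3) ^ 2 *
      (e ^ 2 + G₁ x + G₁ x ^ 2 + G₂ x + G₂ x ^ 2) ∂μ :=
    integral_mono_of_nonneg (Eventually.of_forall fun x => sq_nonneg _) i0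
      (Eventually.of_forall hpt)
  refine hle.trans ?_
  have c0 : IntegrableOn (fun _ : X => e ^ 2) S.T₁ μ := (integrable_const _).integrableOn
  have c1 : IntegrableOn (fun x : X => e ^ 2 + G₁ x) S.T₁ μ := c0.add j1
  have c2 : IntegrableOn (fun x : X => e ^ 2 + G₁ x + G₁ x ^ 2) S.T₁ μ := c1.add j2
  have c3 : IntegrableOn (fun x : X => e ^ 2 + G₁ x + G₁ x ^ 2 + G₂ x) S.T₁ μ := c2.add j3
  rw [integral_const_mul, integral_add c3 j4, integral_add c2 j3, integral_add c1 j2,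
    integral_add c0 j1]
  have v1 : ∫ x in S.T₁, e ^ 2 ∂μ ≤ μ.real univ * e := by
    rw [integral_const, smul_eq_mul]
    have a1 : (μ.restrict S.T₁).real univ ≤ μ.real univ := by
      rw [measureReal_restrict_apply_univ]
      exact measureReal_mono (subset_univ _)
    have a2 : e ^ 2 ≤ e := by nlinarith
    exact mul_le_mul a1 a2 (by positivity) measureReal_nonneg
  have hc : 0 ≤ 5 * (620 * B ^ 3) ^ 2 := by positivity
  have e9 : 5 * (620 * B ^ 3) ^ 2 * (μ.real univ + 2 * A₁ + 2 * A₂) * e =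
    5 * (620 * B ^ 3) ^ 2 * ((μ.real univ + 2 * A₁ + 2 * A₂) * e) := by ring
  rw [e9]
  refine mul_le_mul_of_nonneg_left ?_ hc
  linarith

/-- the second error on its support. -/
theorem int_err2 (hD : Dat C d φ₀ ψ₀) :
    ∃ A : ℝ, 0 ≤ A ∧ ∀ e vs (S : Sol C φ₀ ψ₀ d K e vs), Small d e → vs ≤ e ^ 2 →
      ∫ x in S.T₂, err2 e (vec C S.ψ x) (vec C S.h₂ x) ^ 2 ∂μ ≤ A * Real.sqrt e := by
  have hb := bb_pos hD.d_pos
  obtain ⟨A₁, hA₁, h1⟩ := trunc_v₃ (K := K) hD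
  obtain ⟨A₂, hA₂, h2⟩ := ub_G_φ (K := K) hD
  set k : ℝ := 1 + 3 / bb d ^ 4 with hk
  have hk0 : 0 ≤ 3 / bb d ^ 4 := by positivity
  have hk1 : 1 ≤ k := by rw [hk]; linarith
  refine ⟨10000 * k ^ 2 * (μ.real univ + A₂ + 2 * A₁), by positivity, fun e vs S hs hv => ?_⟩
  have he := hs.pos
  have he1 : e ≤ 1 := (S.e_small hD hs).trans (by norm_num)
  set s := Real.sqrt e with hs'
  have hs0 : 0 < s := Real.sqrt_pos.2 he
  have hss : s ^ 2 = e := Real.sq_sqrt he.le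
  have hs1 : s ≤ 1 := by rw [hs']; exact Real.sqrt_le_one.2 he1
  have hes : e ≤ s := by nlinarith
  obtain ⟨p4, p2⟩ := h1 e vs S hs hv
  have g2 := h2 e vs S hs hv
  set G₁ := C.G (fun y => S.h₂ y - S.ψ y) (fun y => S.h₂ y - S.ψ y) with hG₁
  have s1 : C.Sm G₁ := C.sm_G (sm_sub S.smh₂ S.smψ) (sm_sub S.smh₂ S.smψ)
  have s2 : C.Sm (C.G S.φ S.φ) := C.sm_G S.smφ S.smφ
  have hpt : ∀ x, err2 e (vec C S.ψ x) (vec C S.h₂ x) ^ 2 ≤
      10000 * k ^ 2 * (e + s * C.G S.φ S.φ x ^ 2 + (1 + 1 / s) * G₁ x ^ 2) := by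
    intro x
    have n1 : ‖vec C S.ψ x - vec C S.h₂ x‖ ^ 2 = G₁ x := by
      rw [norm_sub_rev, vec_sub S.smh₂ S.smψ, norm_vec_sq]
    have hG0 := G_self_nonneg (C := C) S.φ x
    have hZ : ‖vec C S.h₂ x‖ ^ 2 ≤ k * C.G S.φ S.φ x := by
      rw [norm_vec_sq]
      refine (S.G_h₂_le hD hs x).trans ?_
      exact mul_le_mul_of_nonneg_right (by rw [hk]; linarith) hG0
    have := err2_sq_le (Y := vec C S.ψ x) he he1 hk1 hG0 hs0 hes hZ
    rw [n1] at this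
    exact this
  have i0 : Integrable (fun x => 10000 * k ^ 2 *
      (e + s * C.G S.φ S.φ x ^ 2 + (1 + 1 / s) * G₁ x ^ 2)) (μ.restrict S.T₂) :=
    (integrable_sm (C := C) (sm_smul _ (sm_add (sm_add (sm_const _) (sm_smul _ (sm_pow s2 2)))
      (sm_smul _ (sm_pow s1 2))))).integrableOn
  have j1 : IntegrableOn (fun x => s * C.G S.φ S.φ x ^ 2) S.T₂ μ :=
    (integrable_sm (sm_smul _ (sm_pow s2 2))).integrableOn
  have j2 : IntegrableOn (fun x => (1 + 1 / s) * G₁ x ^ 2) S.T₂ μ :=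
    (integrable_sm (sm_smul _ (sm_pow s1 2))).integrableOn
  have hle : ∫ x in S.T₂, err2 e (vec C S.ψ x) (vec C S.h₂ x) ^ 2 ∂μ ≤
      ∫ x in S.T₂, 10000 * k ^ 2 *
      (e + s * C.G S.φ S.φ x ^ 2 + (1 + 1 / s) * G₁ x ^ 2) ∂μ :=
    integral_mono_of_nonneg (Eventually.of_forall fun x => sq_nonneg _) i0
      (Eventually.of_forall hpt)
  refine hle.trans ?_
  have c0 : IntegrableOn (fun _ : X => e) S.T₂ μ := (integrable_const _).integrableOn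
  have c1 : IntegrableOn (fun x : X => e + s * C.G S.φ S.φ x ^ 2) S.T₂ μ := c0.add j1
  rw [integral_const_mul, integral_add c1 j2, integral_add c0 j1, integral_const_mul,
    integral_const_mul]
  have v1 : ∫ x in S.T₂, e ∂μ ≤ μ.real univ * s := by
    rw [integral_const, smul_eq_mul]
    have a1 : (μ.restrict S.T₂).real univ ≤ μ.real univ := by
      rw [measureReal_restrict_apply_univ]
      exact measureReal_mono (subset_univ _)
    exact mul_le_mul a1 hes he.le measureReal_nonneg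
  have v2 : ∫ x in S.T₂, C.G S.φ S.φ x ^ 2 ∂μ ≤ A₂ :=
    (setIntegral_le_integral (integrable_sm (sm_pow s2 2))
      (Eventually.of_forall fun x => sq_nonneg _)).trans g2
  have v3 : (1 + 1 / s) * ∫ x in S.T₂, G₁ x ^ 2 ∂μ ≤ 2 * A₁ * s := by
    have a1 : (1 + 1 / s) * ∫ x in S.T₂, G₁ x ^ 2 ∂μ ≤ (1 + 1 / s) * (A₁ * e) :=
      mul_le_mul_of_nonneg_left p4 (by positivity)
    have a2 : (1 + 1 / s) * (A₁ * e) = A₁ * (e + s) := by
      rw [← hss]; field_simp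
    rw [a2] at a1
    nlinarith
  have hc : 0 ≤ 10000 * k ^ 2 := by positivity
  have v4 : s * ∫ x in S.T₂, C.G S.φ S.φ x ^ 2 ∂μ ≤ s * A₂ := mul_le_mul_of_nonneg_left v2 hs0.le
  have h9 : 10000 * k ^ 2 * (∫ x in S.T₂, e ∂μ + s * ∫ x in S.T₂, C.G S.φ S.φ x ^ 2 ∂μ +
      (1 + 1 / s) * ∫ x in S.T₂, G₁ x ^ 2 ∂μ) ≤
      10000 * k ^ 2 * (μ.real univ * s + s * A₂ + 2 * A₁ * s) :=
    mul_le_mul_of_nonneg_left (by linarith) hc
  refine h9.trans (le_of_eq (by ring))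

lemma err1_meas {e vs : ℝ} (S : Sol C φ₀ ψ₀ d K e vs) (hD : Dat C d φ₀ ψ₀) :
    Continuous (fun x =>
      err1 e (bb d) (vec C S.φ x) (vec C S.h₁ x) (vec C S.ψ x) (vec C ψ₀ x)) := by
  have e1 : ∀ x, err1 e (bb d) (vec C S.φ x) (vec C S.h₁ x) (vec C S.ψ x) (vec C ψ₀ x) =
      500 * (e / bb d ^ 2) + (12 * e * C.G S.h₁ S.h₁ x +
        8 * (2 * Real.sqrt (C.G S.h₁ S.h₁ x) *
          Real.sqrt (C.G (fun y => S.h₁ y - S.φ y) (fun y => S.h₁ y - S.φ y) x) +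
          C.G (fun y => S.h₁ y - S.φ y) (fun y => S.h₁ y - S.φ y) x)) +
      (108 * (e / bb d ^ 2) * C.G ψ₀ ψ₀ x +
        8 * (2 * Real.sqrt (C.G ψ₀ ψ₀ x) *
          Real.sqrt (C.G (fun y => S.ψ y - ψ₀ y) (fun y => S.ψ y - ψ₀ y) x) +
          C.G (fun y => S.ψ y - ψ₀ y) (fun y => S.ψ y - ψ₀ y) x)) := by
    intro x
    rw [← norm_vec_sq, ← norm_vec_sq, ← norm_vec_sq, ← norm_vec_sq, Real.sqrt_sq (norm_nonneg _),
      Real.sqrt_sq (norm_nonneg _), Real.sqrt_sq (norm_nonneg _), Real.sqrt_sq (norm_nonneg _),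
      ← vec_sub S.smh₁ S.smφ, ← vec_sub S.smψ hD.smψ, norm_sub_rev (vec C S.h₁ x)]
    rfl
  simp only [e1]
  have s1 := C.sm_cont (C.sm_G S.smh₁ S.smh₁)
  have s2 := C.sm_cont (C.sm_G (sm_sub S.smh₁ S.smφ) (sm_sub S.smh₁ S.smφ))
  have s3 := C.sm_cont (C.sm_G hD.smψ hD.smψ)
  have s4 := C.sm_cont (C.sm_G (sm_sub S.smψ hD.smψ) (sm_sub S.smψ hD.smψ))
  fun_prop

lemma err2_meas {e vs : ℝ} (S : Sol C φ₀ ψ₀ d K e vs) :
    Continuous (fun x => err2 e (vec C S.ψ x) (vec C S.h₂ x)) := by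
  have e1 : ∀ x, err2 e (vec C S.ψ x) (vec C S.h₂ x) =
      46 * e + (12 * e * C.G S.h₂ S.h₂ x +
        8 * (2 * Real.sqrt (C.G S.h₂ S.h₂ x) *
          Real.sqrt (C.G (fun y => S.h₂ y - S.ψ y) (fun y => S.h₂ y - S.ψ y) x) +
          C.G (fun y => S.h₂ y - S.ψ y) (fun y => S.h₂ y - S.ψ y) x)) := by
    intro x
    rw [← norm_vec_sq, ← norm_vec_sq, Real.sqrt_sq (norm_nonneg _),
      Real.sqrt_sq (norm_nonneg _), ← vec_sub S.smh₂ S.smψ, norm_sub_rev (vec C S.h₂ x)]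
    rfl
  simp only [e1]
  have s1 := C.sm_cont (C.sm_G S.smh₂ S.smh₂)
  have s2 := C.sm_cont (C.sm_G (sm_sub S.smh₂ S.smψ) (sm_sub S.smh₂ S.smψ))
  fun_prop

/-- **the error of the simplex property** tends to zero in `L²`. -/
theorem int_Err (hD : Dat C d φ₀ ψ₀) :
    ∃ A : ℝ, 0 ≤ A ∧ ∀ e vs (S : Sol C φ₀ ψ₀ d K e vs), Small d e → vs ≤ e ^ 2 →
      Measurable S.Err ∧ Integrable (fun x => S.Err x ^ 2) μ ∧
        ∫ x, S.Err x ^ 2 ∂μ ≤ A * Real.sqrt e := by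
  classical
  have hb := bb_pos hD.d_pos
  obtain ⟨A₁, hA₁, h1⟩ := int_err1 (K := K) hD
  obtain ⟨A₂, hA₂, h2⟩ := int_err2 (K := K) hD
  refine ⟨4 * (90000 / bb d ^ 2 * μ.real univ + 2500 * Kg K μ + A₁ + A₂), by
    have := Kg_nonneg (K := K) (μ := μ); positivity, fun e vs S hs hv => ?_⟩
  have he := hs.pos
  have he1 : e ≤ 1 := (S.e_small hD hs).trans (by norm_num)
  set s := Real.sqrt e with hs'
  have hs0 : 0 < s := Real.sqrt_pos.2 he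
  have hss : s ^ 2 = e := Real.sq_sqrt he.le
  have hs1 : s ≤ 1 := by rw [hs']; exact Real.sqrt_le_one.2 he1
  have hes : e ≤ s := by nlinarith
  have c1 := err1_meas S hD
  have c2 := err2_meas S
  have cg := C.sm_cont S.smg₁
  set E₁ := fun x => err1 e (bb d) (vec C S.φ x) (vec C S.h₁ x) (vec C S.ψ x) (vec C ψ₀ x)
    with hE₁
  set E₂ := fun x => err2 e (vec C S.ψ x) (vec C S.h₂ x) with hE₂
  have hform : ∀ x, S.Err x = (300 * (e / bb d) + 50 * |S.g₁ x|) + S.T₁.indicator E₁ x +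
      S.T₂.indicator E₂ x := by
    intro x
    have a1 : S.T₁.indicator E₁ x = if S.m₁ x = 0 then 0 else E₁ x := by
      by_cases h : S.m₁ x = 0
      · rw [if_pos h, indicator_of_notMem]
        simpa [Sol.T₁] using h
      · rw [if_neg h, indicator_of_mem]
        exact h
    have a2 : S.T₂.indicator E₂ x = if S.m₂ x = 0 then 0 else E₂ x := by
      by_cases h : S.m₂ x = 0
      · rw [if_pos h, indicator_of_notMem]
        simpa [Sol.T₂] using h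
      · rw [if_neg h, indicator_of_mem]
        exact h
    rw [a1, a2]
    simp only [Sol.Err, hE₁, hE₂]
  have hmeas : Measurable S.Err := by
    have : S.Err = fun x => (300 * (e / bb d) + 50 * |S.g₁ x|) + S.T₁.indicator E₁ x +
      S.T₂.indicator E₂ x := by funext x; exact hform x
    rw [this]
    exact ((measurable_const.add (measurable_const.mul cg.abs.measurable)).add
      (c1.measurable.indicator S.meas_T₁)).add (c2.measurable.indicator S.meas_T₂)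
  -- the majorant
  set W : X → ℝ := fun x => 4 * ((300 * (e / bb d)) ^ 2 + 2500 * S.g₁ x ^ 2 +
      S.T₁.indicator (fun x => E₁ x ^ 2) x + S.T₂.indicator (fun x => E₂ x ^ 2) x) with hW
  have hle : ∀ x, S.Err x ^ 2 ≤ W x := by
    intro x
    have a1 : S.T₁.indicator (fun x => E₁ x ^ 2) x = (S.T₁.indicator E₁ x) ^ 2 := by
      by_cases h : x ∈ S.T₁
      · rw [indicator_of_mem h, indicator_of_mem h]
      · rw [indicator_of_notMem h, indicator_of_notMem h]; norm_num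
    have a2 : S.T₂.indicator (fun x => E₂ x ^ 2) x = (S.T₂.indicator E₂ x) ^ 2 := by
      by_cases h : x ∈ S.T₂
      · rw [indicator_of_mem h, indicator_of_mem h]
      · rw [indicator_of_notMem h, indicator_of_notMem h]; norm_num
    rw [hform, hW]
    simp only
    rw [a1, a2]
    set p := 300 * (e / bb d)
    set q := S.T₁.indicator E₁ x
    set r := S.T₂.indicator E₂ x
    have a3 : 2500 * S.g₁ x ^ 2 = (50 * |S.g₁ x|) ^ 2 := by
      rw [mul_pow, sq_abs]; norm_num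
    rw [a3]
    set t := 50 * |S.g₁ x|
    nlinarith [sq_nonneg (p - t), sq_nonneg (p - q), sq_nonneg (p - r), sq_nonneg (t - q),
      sq_nonneg (t - r), sq_nonneg (q - r)]
  have i1 : Integrable (fun x => S.g₁ x ^ 2) μ := integrable_sm (sm_pow S.smg₁ 2)
  have i2 : Integrable (S.T₁.indicator (fun x => E₁ x ^ 2)) μ :=
    (integrable_cont (c1.pow 2)).indicator S.meas_T₁
  have i3 : Integrable (S.T₂.indicator (fun x => E₂ x ^ 2)) μ :=
    (integrable_cont (c2.pow 2)).indicator S.meas_T₂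
  have i4 : Integrable (fun x => (300 * (e / bb d)) ^ 2 + 2500 * S.g₁ x ^ 2) μ :=
    (integrable_const _).add (i1.const_mul _)
  have i5 : Integrable (fun x => (300 * (e / bb d)) ^ 2 + 2500 * S.g₁ x ^ 2 +
      S.T₁.indicator (fun x => E₁ x ^ 2) x) μ := i4.add i2
  have i6 : Integrable W μ := (i5.add i3).const_mul 4
  have iE : Integrable (fun x => S.Err x ^ 2) μ :=
    i6.mono' (hmeas.pow_const 2).aestronglyMeasurable (Eventually.of_forall fun x => by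
      rw [Real.norm_eq_abs, abs_of_nonneg (sq_nonneg _)]
      exact hle x)
  refine ⟨hmeas, iE, (integral_mono iE i6 hle).trans ?_⟩
  have e1 : ∫ x, W x ∂μ = 4 * ((300 * (e / bb d)) ^ 2 * μ.real univ +
      2500 * ∫ x, S.g₁ x ^ 2 ∂μ + ∫ x in S.T₁, E₁ x ^ 2 ∂μ + ∫ x in S.T₂, E₂ x ^ 2 ∂μ) := by
    rw [hW, integral_const_mul, integral_add i5 i3, integral_add i4 i2,
      integral_add (integrable_const _) (i1.const_mul _), integral_const, integral_const_mul,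
      integral_indicator S.meas_T₁, integral_indicator S.meas_T₂, smul_eq_mul]
    ring
  rw [e1]
  have g1 := S.int_g₁ hD hs hv
  have g2 := h1 e vs S hs hv
  have g3 := h2 e vs S hs hv
  have k0 := Kg_nonneg (K := K) (μ := μ)
  have b1 : (300 * (e / bb d)) ^ 2 * μ.real univ ≤ 90000 / bb d ^ 2 * μ.real univ * s := by
    have : (300 * (e / bb d)) ^ 2 = 90000 / bb d ^ 2 * e ^ 2 := by
      field_simp
      ring
    rw [this]
    have e2 : e ^ 2 ≤ s := by nlinarith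
    have e3 : 0 ≤ 90000 / bb d ^ 2 * μ.real univ := by positivity
    nlinarith
  have b2 : 2500 * ∫ x, S.g₁ x ^ 2 ∂μ ≤ 2500 * Kg K μ * s := by
    have : Kg K μ * e ≤ Kg K μ * s := mul_le_mul_of_nonneg_left hes k0
    linarith
  have b3 : ∫ x in S.T₁, E₁ x ^ 2 ∂μ ≤ A₁ * s := by
    refine g2.trans ?_
    exact mul_le_mul_of_nonneg_left hes hA₁
  have b4 : ∫ x in S.T₂, E₂ x ^ 2 ∂μ ≤ A₂ * s := g3
  have b5 : 4 * (90000 / bb d ^ 2 * μ.real univ + 2500 * Kg K μ + A₁ + A₂) * s =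
      4 * (90000 / bb d ^ 2 * μ.real univ * s + 2500 * Kg K μ * s + A₁ * s + A₂ * s) := by ring
  rw [b5]
  linarith

end Crest.Agent.R249.PairA_780
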