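import Crest.Agent.R249.FrP_129

/-!
Row 249, B1-PAR (helper493), ring level: covariant derivative of the Riemann tensor in a frame;
for an Einstein frame of dimension four it vanishes as soon as `∇W⁺ = 0` (`NN = 0`) and `∇W⁻ = 0`
(`flip.NN = 0`).
-/

set_option autoImplicit false
set_option linter.unusedSimpArgs false
set_option linter.unusedSectionVars false

namespace Crest.Agent.R249.Fr129

open Finset Matrix

namespace Frame

section gen

variable {n : ℕ} {S : Type*} [CommRing S] [Algebra ℝ S] (F : Frame n S)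

/-- components of the covariant derivative of the curvature tensor:
`⟨(∇_{e_p} R)(e_i, e_j) e_k, e_l⟩`. -/
def nabRm (p i j k l : Fin n) : S :=
  F.D p (F.Rm i j k l) - ∑ m, F.w p i m * F.Rm m j k l - ∑ m, F.w p j m * F.Rm i m k l
    - ∑ m, F.w p k m * F.Rm i j m l - ∑ m, F.w p l m * F.Rm i j k m

lemma nabRm_anti12 (p i j k l : Fin n) : F.nabRm p i j k l = - F.nabRm p j i k l := by
  have h1 : ∀ a b c d, F.Rm a b c d = - F.Rm b a c d := F.Rm_anti12
  simp only [nabRm]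
  rw [h1 i j k l, map_neg]
  have e1 : ∑ m, F.w p i m * F.Rm m j k l = - ∑ m, F.w p i m * F.Rm j m k l := by
    rw [← sum_neg_distrib]; exact sum_congr rfl fun m _ => by rw [h1 m j]; ring
  have e2 : ∑ m, F.w p j m * F.Rm i m k l = - ∑ m, F.w p j m * F.Rm m i k l := by
    rw [← sum_neg_distrib]; exact sum_congr rfl fun m _ => by rw [h1 i m]; ring
  have e3 : ∑ m, F.w p k m * F.Rm i j m l = - ∑ m, F.w p k m * F.Rm j i m l := by
    rw [← sum_neg_distrib]; exact sum_congr rfl fun m _ => by rw [h1 i j]; ring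
  have e4 : ∑ m, F.w p l m * F.Rm i j k m = - ∑ m, F.w p l m * F.Rm j i k m := by
    rw [← sum_neg_distrib]; exact sum_congr rfl fun m _ => by rw [h1 i j]; ring
  rw [e1, e2, e3, e4]; ring

lemma nabRm_anti34 (p i j k l : Fin n) : F.nabRm p i j k l = - F.nabRm p i j l k := by
  have h1 : ∀ a b c d, F.Rm a b c d = - F.Rm a b d c := F.Rm_anti34
  simp only [nabRm]
  rw [h1 i j k l, map_neg]
  have e1 : ∑ m, F.w p i m * F.Rm m j k l = - ∑ m, F.w p i m * F.Rm m j l k := by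
    rw [← sum_neg_distrib]; exact sum_congr rfl fun m _ => by rw [h1 m j]; ring
  have e2 : ∑ m, F.w p j m * F.Rm i m k l = - ∑ m, F.w p j m * F.Rm i m l k := by
    rw [← sum_neg_distrib]; exact sum_congr rfl fun m _ => by rw [h1 i m]; ring
  have e3 : ∑ m, F.w p k m * F.Rm i j m l = - ∑ m, F.w p k m * F.Rm i j l m := by
    rw [← sum_neg_distrib]; exact sum_congr rfl fun m _ => by rw [h1 i j]; ring
  have e4 : ∑ m, F.w p l m * F.Rm i j k m = - ∑ m, F.w p l m * F.Rm i j m k := by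
    rw [← sum_neg_distrib]; exact sum_congr rfl fun m _ => by rw [h1 i j]; ring
  rw [e1, e2, e3, e4]; ring

lemma nabRm_self12 (p i k l : Fin n) : F.nabRm p i i k l = 0 :=
  eq_zero_of_two (by have := F.nabRm_anti12 p i i k l; linear_combination this)

lemma nabRm_self34 (p i j k : Fin n) : F.nabRm p i j k k = 0 :=
  eq_zero_of_two (by have := F.nabRm_anti34 p i j k k; linear_combination this)

end gen

variable {S : Type*} [CommRing S] [Algebra ℝ S] (F : Frame 4 S)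

/-- the covariant derivative of the curvature of `Λ⁺`. -/
def dPP (p k l : Fin 4) : Fin 3 → S :=
  F.cov F.sdc p (F.PP k l) - ∑ m, F.w p k m • F.PP m l - ∑ m, F.w p l m • F.PP k m

lemma dPP_apply (p k l : Fin 4) (c : Fin 3) : F.dPP p k l c = F.D p (F.PP k l c)
    + (F.sdc p c 0 * F.PP k l 0 + F.sdc p c 1 * F.PP k l 1 + F.sdc p c 2 * F.PP k l 2)
    - (F.w p k 0 * F.PP 0 l c + F.w p k 1 * F.PP 1 l c + F.w p k 2 * F.PP 2 l c
        + F.w p k 3 * F.PP 3 l c)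
    - (F.w p l 0 * F.PP k 0 c + F.w p l 1 * F.PP k 1 c + F.w p l 2 * F.PP k 2 c
        + F.w p l 3 * F.PP k 3 c) := by
  simp only [dPP, Pi.sub_apply, Pi.add_apply, Finset.sum_apply, Pi.smul_apply, smul_eq_mul, cov,
    Fin.sum_univ_four, Fin.sum_univ_three]

/-- `(∇_p R)_{kl01} + (∇_p R)_{kl23} = (∇_p P)_{kl,0}` etc. -/
lemma dPP_zero (p k l : Fin 4) : F.dPP p k l 0 = F.nabRm p k l 0 1 + F.nabRm p k l 2 3 := by
  rw [dPP_apply]
  simp only [nabRm, Fin.sum_univ_four, PP, sdc, cr, pp, map_add, map_sub, map_neg]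
  simp [w_self, w10, w20, w30, w21, w31, w32, Rm_self34, R10, R20, R30, R21, R31, R32]
  ring

lemma dPP_one (p k l : Fin 4) : F.dPP p k l 1 = F.nabRm p k l 0 2 - F.nabRm p k l 1 3 := by
  rw [dPP_apply]
  simp only [nabRm, Fin.sum_univ_four, PP, sdc, cr, pp, map_add, map_sub, map_neg]
  simp [w_self, w10, w20, w30, w21, w31, w32, Rm_self34, R10, R20, R30, R21, R31, R32]
  ring

lemma dPP_two (p k l : Fin 4) : F.dPP p k l 2 = F.nabRm p k l 0 3 + F.nabRm p k l 1 2 := by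
  rw [dPP_apply]
  simp only [nabRm, Fin.sum_univ_four, PP, sdc, cr, pp, map_add, map_sub, map_neg]
  simp [w_self, w10, w20, w30, w21, w31, w32, Rm_self34, R10, R20, R30, R21, R31, R32]
  ring

lemma dPP_anti (p k l : Fin 4) (c : Fin 3) : F.dPP p k l c = - F.dPP p l k c := by
  fin_cases c
  · simp only [Fin.zero_eta, dPP_zero]; rw [F.nabRm_anti12 p k l, F.nabRm_anti12 p k l]; ring
  · simp only [Fin.mk_one, dPP_one]; rw [F.nabRm_anti12 p k l, F.nabRm_anti12 p k l]; ring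
  · simp only [Fin.reduceFinMk, dPP_two]; rw [F.nabRm_anti12 p k l, F.nabRm_anti12 p k l]; ring

lemma dPP_self (p k : Fin 4) (c : Fin 3) : F.dPP p k k c = 0 :=
  eq_zero_of_two (by have := F.dPP_anti p k k c; linear_combination this)

section ein

variable {lam : S} (hE : F.Einstein lam)
include hE

lemma dPP_01 (p : Fin 4) (c : Fin 3) : F.dPP p 0 1 c = - F.NN p c 0 := by
  rw [dPP_apply, NN_eq]
  simp only [F.P01 hE, F.P23 hE, F.P02 hE, F.P13 hE, F.P03 hE, F.P12 hE, F.P10 hE, F.P32 hE,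
    F.P20 hE, F.P31 hE, F.P30 hE, F.P21 hE, F.PP_self, Fin.sum_univ_three, w_self, w10, w20, w30,
    w21, w31, w32, map_neg]
  simp [sdc, cr, pp]
  ring

lemma dPP_23 (p : Fin 4) (c : Fin 3) : F.dPP p 2 3 c = - F.NN p c 0 := by
  rw [dPP_apply, NN_eq]
  simp only [F.P01 hE, F.P23 hE, F.P02 hE, F.P13 hE, F.P03 hE, F.P12 hE, F.P10 hE, F.P32 hE,
    F.P20 hE, F.P31 hE, F.P30 hE, F.P21 hE, F.PP_self, Fin.sum_univ_three, w_self, w10, w20, w30,
    w21, w31, w32, map_neg]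
  simp [sdc, cr, pp]
  ring

lemma dPP_02 (p : Fin 4) (c : Fin 3) : F.dPP p 0 2 c = - F.NN p c 1 := by
  rw [dPP_apply, NN_eq]
  simp only [F.P01 hE, F.P23 hE, F.P02 hE, F.P13 hE, F.P03 hE, F.P12 hE, F.P10 hE, F.P32 hE,
    F.P20 hE, F.P31 hE, F.P30 hE, F.P21 hE, F.PP_self, Fin.sum_univ_three, w_self, w10, w20, w30,
    w21, w31, w32, map_neg]
  simp [sdc, cr, pp]
  ring

lemma dPP_13 (p : Fin 4) (c : Fin 3) : F.dPP p 1 3 c = F.NN p c 1 := by
  rw [dPP_apply, NN_eq]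
  simp only [F.P01 hE, F.P23 hE, F.P02 hE, F.P13 hE, F.P03 hE, F.P12 hE, F.P10 hE, F.P32 hE,
    F.P20 hE, F.P31 hE, F.P30 hE, F.P21 hE, F.PP_self, Fin.sum_univ_three, w_self, w10, w20, w30,
    w21, w31, w32, map_neg]
  simp [sdc, cr, pp]
  ring

lemma dPP_03 (p : Fin 4) (c : Fin 3) : F.dPP p 0 3 c = - F.NN p c 2 := by
  rw [dPP_apply, NN_eq]
  simp only [F.P01 hE, F.P23 hE, F.P02 hE, F.P13 hE, F.P03 hE, F.P12 hE, F.P10 hE, F.P32 hE,
    F.P20 hE, F.P31 hE, F.P30 hE, F.P21 hE, F.PP_self, Fin.sum_univ_three, w_self, w10, w20, w30,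
    w21, w31, w32, map_neg]
  simp [sdc, cr, pp]
  ring

lemma dPP_12 (p : Fin 4) (c : Fin 3) : F.dPP p 1 2 c = - F.NN p c 2 := by
  rw [dPP_apply, NN_eq]
  simp only [F.P01 hE, F.P23 hE, F.P02 hE, F.P13 hE, F.P03 hE, F.P12 hE, F.P10 hE, F.P32 hE,
    F.P20 hE, F.P31 hE, F.P30 hE, F.P21 hE, F.PP_self, Fin.sum_univ_three, w_self, w10, w20, w30,
    w21, w31, w32, map_neg]
  simp [sdc, cr, pp]
  ring

/-- `∇W⁺ ∈ I` ⇒ the covariant derivative of the curvature of `Λ⁺` is in `I` (direction `p`). -/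
lemma dPP_mem (I : Ideal S) {p : Fin 4} (hN : ∀ c d, F.NN p c d ∈ I) (k l : Fin 4) (c : Fin 3) :
    F.dPP p k l c ∈ I := by
  have a := F.dPP_anti p
  fin_cases k <;> fin_cases l <;> simp only [Fin.zero_eta, Fin.mk_one, Fin.reduceFinMk]
  · rw [F.dPP_self p 0 c]; exact I.zero_mem
  · rw [F.dPP_01 hE]; exact I.neg_mem (hN _ _)
  · rw [F.dPP_02 hE]; exact I.neg_mem (hN _ _)
  · rw [F.dPP_03 hE]; exact I.neg_mem (hN _ _)
  · rw [a, F.dPP_01 hE, neg_neg]; exact hN _ _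
  · rw [F.dPP_self p 1 c]; exact I.zero_mem
  · rw [F.dPP_12 hE]; exact I.neg_mem (hN _ _)
  · rw [F.dPP_13 hE]; exact hN _ _
  · rw [a, F.dPP_02 hE, neg_neg]; exact hN _ _
  · rw [a, F.dPP_12 hE, neg_neg]; exact hN _ _
  · rw [F.dPP_self p 2 c]; exact I.zero_mem
  · rw [F.dPP_23 hE]; exact I.neg_mem (hN _ _)
  · rw [a, F.dPP_03 hE, neg_neg]; exact hN _ _
  · rw [a, F.dPP_13 hE]; exact I.neg_mem (hN _ _)
  · rw [a, F.dPP_23 hE, neg_neg]; exact hN _ _
  · rw [F.dPP_self p 3 c]; exact I.zero_mem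

end ein

/-! ### orientation reversal -/

lemma nabRm_flip (p i j k l : Fin 4) :
    F.flip.nabRm p i j k l = e3 p * e3 i * e3 j * e3 k * e3 l * F.nabRm p i j k l := by
  have z : ∀ k l, F.D k ((e3 l : ℤ) : S) = 0 := fun k l => by
    have : ((e3 l : ℤ) : S) = algebraMap ℝ S (e3 l : ℝ) := by simp
    rw [this, Derivation.map_algebraMap]
  have hw : ∀ a b c, F.flip.w a b c = e3 a * e3 b * e3 c * F.w a b c := fun a b c => rfl
  simp only [nabRm, flip_D, Rm_flip, D_mul, z, hw]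
  have hs := fun m => cast_sq (S := S) e3_sq m
  have s1 : ∑ m, (e3 p : S) * e3 i * e3 m * F.w p i m * (e3 m * e3 j * e3 k * e3 l * F.Rm m j k l)
      = e3 p * e3 i * e3 j * e3 k * e3 l * ∑ m, F.w p i m * F.Rm m j k l := by
    rw [mul_sum]
    exact sum_congr rfl fun m _ => by
      linear_combination ((e3 p : S) * e3 i * e3 j * e3 k * e3 l * (F.w p i m * F.Rm m j k l))
        * hs m
  have s2 : ∑ m, (e3 p : S) * e3 j * e3 m * F.w p j m * (e3 i * e3 m * e3 k * e3 l * F.Rm i m k l)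
      = e3 p * e3 i * e3 j * e3 k * e3 l * ∑ m, F.w p j m * F.Rm i m k l := by
    rw [mul_sum]
    exact sum_congr rfl fun m _ => by
      linear_combination ((e3 p : S) * e3 i * e3 j * e3 k * e3 l * (F.w p j m * F.Rm i m k l))
        * hs m
  have s3 : ∑ m, (e3 p : S) * e3 k * e3 m * F.w p k m * (e3 i * e3 j * e3 m * e3 l * F.Rm i j m l)
      = e3 p * e3 i * e3 j * e3 k * e3 l * ∑ m, F.w p k m * F.Rm i j m l := by
    rw [mul_sum]
    exact sum_congr rfl fun m _ => by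
      linear_combination ((e3 p : S) * e3 i * e3 j * e3 k * e3 l * (F.w p k m * F.Rm i j m l))
        * hs m
  have s4 : ∑ m, (e3 p : S) * e3 l * e3 m * F.w p l m * (e3 i * e3 j * e3 k * e3 m * F.Rm i j k m)
      = e3 p * e3 i * e3 j * e3 k * e3 l * ∑ m, F.w p l m * F.Rm i j k m := by
    rw [mul_sum]
    exact sum_congr rfl fun m _ => by
      linear_combination ((e3 p : S) * e3 i * e3 j * e3 k * e3 l * (F.w p l m * F.Rm i j k m))
        * hs m
  rw [s1, s2, s3, s4]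
  ring

section ein2

variable {lam : S} (hE : F.Einstein lam)

lemma mem_of_two (I : Ideal S) {x : S} (h : 2 * x ∈ I) : x ∈ I := by
  have e : x = (algebraMap ℝ S (1/2)) * (2 * x) := by
    have h2 : (algebraMap ℝ S (1/2)) * 2 = 1 := by
      have : (2 : S) = algebraMap ℝ S 2 := (map_ofNat (algebraMap ℝ S) 2).symm
      rw [this, ← map_mul]; norm_num
    rw [← mul_assoc, h2, one_mul]
  rw [e]; exact I.mul_mem_left _ h

include hE

/-- **Main algebraic statement**: `∇_p W⁺ ∈ I` and `∇_p W⁻ ∈ I` imply `∇_p R ∈ I`. -/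
theorem nabRm_mem (I : Ideal S) {p : Fin 4} (hN : ∀ c d, F.NN p c d ∈ I)
    (hN' : ∀ c d, F.flip.NN p c d ∈ I) (i j k l : Fin 4) : F.nabRm p i j k l ∈ I := by
  have hE' := F.Einstein_flip hE
  have a0 := fun k l => F.dPP_mem hE I hN k l 0
  have a1 := fun k l => F.dPP_mem hE I hN k l 1
  have a2 := fun k l => F.dPP_mem hE I hN k l 2
  have b0 := fun k l => F.flip.dPP_mem hE' I hN' k l 0
  have b1 := fun k l => F.flip.dPP_mem hE' I hN' k l 1
  have b2 := fun k l => F.flip.dPP_mem hE' I hN' k l 2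
  simp only [dPP_zero, dPP_one, dPP_two] at a0 a1 a2 b0 b1 b2
  simp only [nabRm_flip] at b0 b1 b2
  have hs := fun m => cast_sq (S := S) e3_sq m
  have h0 : (e3 0 : S) = 1 := by simp [e3]
  have h1 : (e3 1 : S) = 1 := by simp [e3]
  have h2 : (e3 2 : S) = 1 := by simp [e3]
  have h3 : (e3 3 : S) = -1 := by simp [e3]
  have c0 : ∀ k l, F.nabRm p k l 0 1 - F.nabRm p k l 2 3 ∈ I := by
    intro k l
    have h := I.mul_mem_left ((e3 p : S) * e3 k * e3 l) (b0 k l)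
    have e : ((e3 p : S) * e3 k * e3 l) * ((e3 p : S) * e3 k * e3 l * e3 0 * e3 1 * F.nabRm p k l 0 1
        + e3 p * e3 k * e3 l * e3 2 * e3 3 * F.nabRm p k l 2 3)
        = F.nabRm p k l 0 1 - F.nabRm p k l 2 3 := by
      rw [h0, h1, h2, h3]
      linear_combination (F.nabRm p k l 0 1 - F.nabRm p k l 2 3) * ((e3 k : S) * e3 k * (e3 l * e3 l))
        * hs p + (F.nabRm p k l 0 1 - F.nabRm p k l 2 3) * (e3 l * e3 l) * hs k
        + (F.nabRm p k l 0 1 - F.nabRm p k l 2 3) * hs l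
    rwa [e] at h
  have c1 : ∀ k l, F.nabRm p k l 0 2 + F.nabRm p k l 1 3 ∈ I := by
    intro k l
    have h := I.mul_mem_left ((e3 p : S) * e3 k * e3 l) (b1 k l)
    have e : ((e3 p : S) * e3 k * e3 l) * ((e3 p : S) * e3 k * e3 l * e3 0 * e3 2 * F.nabRm p k l 0 2
        - e3 p * e3 k * e3 l * e3 1 * e3 3 * F.nabRm p k l 1 3)
        = F.nabRm p k l 0 2 + F.nabRm p k l 1 3 := by
      rw [h0, h1, h2, h3]
      linear_combination (F.nabRm p k l 0 2 + F.nabRm p k l 1 3) * ((e3 k : S) * e3 k * (e3 l * e3 l))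
        * hs p + (F.nabRm p k l 0 2 + F.nabRm p k l 1 3) * (e3 l * e3 l) * hs k
        + (F.nabRm p k l 0 2 + F.nabRm p k l 1 3) * hs l
    rwa [e] at h
  have c2 : ∀ k l, - F.nabRm p k l 0 3 + F.nabRm p k l 1 2 ∈ I := by
    intro k l
    have h := I.mul_mem_left ((e3 p : S) * e3 k * e3 l) (b2 k l)
    have e : ((e3 p : S) * e3 k * e3 l) * ((e3 p : S) * e3 k * e3 l * e3 0 * e3 3 * F.nabRm p k l 0 3
        + e3 p * e3 k * e3 l * e3 1 * e3 2 * F.nabRm p k l 1 2)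
        = - F.nabRm p k l 0 3 + F.nabRm p k l 1 2 := by
      rw [h0, h1, h2, h3]
      linear_combination (- F.nabRm p k l 0 3 + F.nabRm p k l 1 2)
        * ((e3 k : S) * e3 k * (e3 l * e3 l))
        * hs p + (- F.nabRm p k l 0 3 + F.nabRm p k l 1 2) * (e3 l * e3 l) * hs k
        + (- F.nabRm p k l 0 3 + F.nabRm p k l 1 2) * hs l
    rwa [e] at h
  have z01 : F.nabRm p i j 0 1 ∈ I := mem_of_two I (by
    convert I.add_mem (a0 i j) (c0 i j) using 1; ring)
  have z23 : F.nabRm p i j 2 3 ∈ I := mem_of_two I (by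
    convert I.sub_mem (a0 i j) (c0 i j) using 1; ring)
  have z02 : F.nabRm p i j 0 2 ∈ I := mem_of_two I (by
    convert I.add_mem (a1 i j) (c1 i j) using 1; ring)
  have z13 : F.nabRm p i j 1 3 ∈ I := mem_of_two I (by
    convert I.sub_mem (c1 i j) (a1 i j) using 1; ring)
  have z03 : F.nabRm p i j 0 3 ∈ I := mem_of_two I (by
    convert I.sub_mem (a2 i j) (c2 i j) using 1; ring)
  have z12 : F.nabRm p i j 1 2 ∈ I := mem_of_two I (by
    convert I.add_mem (a2 i j) (c2 i j) using 1; ring)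
  have a := F.nabRm_anti34 p i j
  fin_cases k <;> fin_cases l <;> simp only [Fin.zero_eta, Fin.mk_one, Fin.reduceFinMk]
  · rw [F.nabRm_self34 p i j 0]; exact I.zero_mem
  · exact z01
  · exact z02
  · exact z03
  · rw [a]; exact I.neg_mem z01
  · rw [F.nabRm_self34 p i j 1]; exact I.zero_mem
  · exact z12
  · exact z13
  · rw [a]; exact I.neg_mem z02
  · rw [a]; exact I.neg_mem z12
  · rw [F.nabRm_self34 p i j 2]; exact I.zero_mem
  · exact z23
  · rw [a]; exact I.neg_mem z03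
  · rw [a]; exact I.neg_mem z13
  · rw [a]; exact I.neg_mem z23
  · rw [F.nabRm_self34 p i j 3]; exact I.zero_mem

/-- ring level: `∇W⁺ = 0`, `∇W⁻ = 0` ⇒ `∇R = 0`. -/
theorem nabRm_eq_zero {p : Fin 4} (hN : ∀ c d, F.NN p c d = 0)
    (hN' : ∀ c d, F.flip.NN p c d = 0) (i j k l : Fin 4) : F.nabRm p i j k l = 0 := by
  have := F.nabRm_mem hE ⊥ (fun c d => by rw [hN c d]; exact Ideal.zero_mem _)
    (fun c d => by rw [hN' c d]; exact Ideal.zero_mem _) i j k l
  simpa using this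

/-- pointwise: `∇W⁺ = 0`, `∇W⁻ = 0` at the point ⇒ `∇R = 0` at the point. -/
theorem ev_nabRm_eq_zero (ev : S →ₐ[ℝ] ℝ) {p : Fin 4} (hN : ∀ c d, F.Nr ev p c d = 0)
    (hN' : ∀ c d, F.flip.Nr ev p c d = 0) (i j k l : Fin 4) : ev (F.nabRm p i j k l) = 0 := by
  have := F.nabRm_mem hE (RingHom.ker ev) (fun c d => (RingHom.mem_ker).2 (hN c d))
    (fun c d => (RingHom.mem_ker).2 (hN' c d)) i j k l
  exact (RingHom.mem_ker).1 this

end ein2

/-! ### the equation of a parallel `W⁺` -/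

/-- `∇A = 0` (as germs) implies `∇²A = 0`. -/
lemma HH_eq_zero (hN : ∀ p c d, F.NN p c d = 0) (m i : Fin 4) (c d : Fin 3) :
    F.HH m i c d = 0 := by
  rw [HH_eq]
  simp [hN]

lemma LL_eq_zero (hN : ∀ p c d, F.NN p c d = 0) (c d : Fin 3) : F.LL c d = 0 := by
  rw [LL_eq]
  simp [F.HH_eq_zero hN]

/-- `∇A = 0` ⇒ `6 λ A - 6 A² - 2 (λ² - |A|²) I = 0`. -/
lemma par_eq {lam : S} (hE : F.Einstein lam) (hN : ∀ p c d, F.NN p c d = 0) (c e : Fin 3) :
    6 * lam * F.AA c e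
    - 6 * (F.AA c 0 * F.AA 0 e + F.AA c 1 * F.AA 1 e + F.AA c 2 * F.AA 2 e)
    - (if c = e then 2 * (lam ^ 2 - (F.AA 0 0 ^ 2 + F.AA 1 1 ^ 2
        + F.AA 2 2 ^ 2 + 2 * F.AA 0 1 ^ 2 + 2 * F.AA 0 2 ^ 2 + 2 * F.AA 1 2 ^ 2)) else 0) = 0 := by
  have h := F.LL_formula hE c e
  rw [F.LL_eq_zero hN, F.AA_trace hE] at h
  exact h.symm

end Frame

end Crest.Agent.R249.Fr129
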