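import Crest.Agent.R249.Par1_493
import Crest.Agent.R249.LA1_49

/-!
Row 249, B1-PAR (helper493), pointwise statements.

`F : Frame 4 S` Einstein with constant `lam`, `ev : S →ₐ[ℝ] ℝ` evaluation at a point.
* `Nr_eq_zero_of_zero`   : `|W⁺|² = 0`, `Δ|W⁺|² = 0` at the point ⇒ `∇W⁺ = 0` there;
* `Nr_eq_zero_of_max`    : `|W⁺|² = 2 lam²/3`, `Δ|W⁺|² = 0` ⇒ `∇W⁺ = 0`;
* `Am ev`                : the `Λ⁺`-block at the point; `Am_cases_*` : `Am = lam/3` or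
  `Am = lam v vᵀ`, `|v| = 1`.
-/

set_option autoImplicit false
set_option linter.unusedSimpArgs false
set_option linter.unusedSectionVars false

namespace Crest.Agent.R249.Fr129

open Finset FrK129 FrL129 FrM129 Matrix

namespace Frame

variable {S : Type*} [CommRing S] [Algebra ℝ S] (F : Frame 4 S) (ev : S →ₐ[ℝ] ℝ) {lam : ℝ}

/-- the `Λ⁺`-block of the curvature operator at the point. -/
noncomputable def Am : Matrix (Fin 3) (Fin 3) ℝ := Matrix.of fun c d => ev (F.AA c d)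

lemma Am_apply (c d : Fin 3) : F.Am ev c d = ev (F.AA c d) := rfl

lemma Am_symm : (F.Am ev)ᵀ = F.Am ev := by
  ext c d
  rw [transpose_apply, Am_apply, Am_apply, F.AA_symm]

lemma LA_nsq_eq (W : Matrix (Fin 3) (Fin 3) ℝ) : LA49.nsq W = nsq (fun c d => W c d) := rfl

lemma LA_det_eq {W : Matrix (Fin 3) (Fin 3) ℝ} (hW : Wᵀ = W) :
    W.det = sdet (fun c d => W c d) := by
  have h : ∀ c d, W c d = W d c := fun c d => by
    conv_lhs => rw [← hW, transpose_apply]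
  rw [Matrix.det_fin_three, sdet]
  simp only [h 1 0, h 2 0, h 2 1]
  ring

section
variable (hE : F.Einstein (algebraMap ℝ S lam))
include hE

lemma Am_trace : (F.Am ev).trace = lam := by
  have h := congrArg ev (F.AA_trace hE)
  simp only [map_add, AlgHom.commutes, Algebra.algebraMap_self, RingHom.id_apply] at h
  simpa [Matrix.trace, Fin.sum_univ_three, Am_apply] using h

/-- `W⁺ = A - lam/3` as a matrix. -/
lemma Wm_eq : (Matrix.of (F.Wr ev lam) : Matrix (Fin 3) (Fin 3) ℝ) =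
    F.Am ev - (lam / 3) • (1 : Matrix (Fin 3) (Fin 3) ℝ) := by
  ext c d
  rw [Matrix.sub_apply, Matrix.smul_apply, Matrix.one_apply, Am_apply, F.AA_eq_W ev hE]
  split_ifs <;> simp

lemma Wm_symm : (F.Am ev - (lam / 3) • (1 : Matrix (Fin 3) (Fin 3) ℝ))ᵀ =
    F.Am ev - (lam / 3) • (1 : Matrix (Fin 3) (Fin 3) ℝ) := by
  rw [transpose_sub, F.Am_symm, transpose_smul, transpose_one]

lemma Wm_trace : (F.Am ev - (lam / 3) • (1 : Matrix (Fin 3) (Fin 3) ℝ)).trace = 0 := by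
  rw [trace_sub, F.Am_trace ev hE, trace_smul, trace_one]
  simp

lemma Wm_nsq : LA49.nsq (F.Am ev - (lam / 3) • (1 : Matrix (Fin 3) (Fin 3) ℝ)) =
    ev (F.qq (algebraMap ℝ S lam)) := by
  rw [← F.Wm_eq ev hE, F.ev_qq ev]; rfl

lemma Wm_det : (F.Am ev - (lam / 3) • (1 : Matrix (Fin 3) (Fin 3) ℝ)).det =
    sdet (F.Wr ev lam) := by
  rw [LA_det_eq (F.Wm_symm ev hE), ← F.Wm_eq ev hE]; rfl

/-- the Bochner formula at the point. -/
lemma lap_eq : ev (F.lap0 (F.qq (algebraMap ℝ S lam)))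
    = 2 * ∑ i, ∑ c, ∑ d, F.Nr ev i c d ^ 2 + 4 * lam * ev (F.qq (algebraMap ℝ S lam))
      - 36 * sdet (F.Wr ev lam) := by
  rw [F.ev_lap_qq ev hE, F.ev_qq ev]

omit hE in
lemma Nr_zero_of_sum (h : ∑ i, ∑ c, ∑ d, F.Nr ev i c d ^ 2 ≤ 0) (i : Fin 4) (c d : Fin 3) :
    F.Nr ev i c d = 0 := by
  have h0 : ∑ i, ∑ c, ∑ d, F.Nr ev i c d ^ 2 = 0 :=
    le_antisymm h (sum_nonneg fun _ _ => sum_nonneg fun _ _ => sum_nonneg fun _ _ => sq_nonneg _)
  have h1 := (sum_eq_zero_iff_of_nonneg (fun _ _ => sum_nonneg fun _ _ => sum_nonneg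
    fun _ _ => sq_nonneg _)).1 h0 i (mem_univ _)
  have h2 := (sum_eq_zero_iff_of_nonneg (fun _ _ => sum_nonneg
    fun _ _ => sq_nonneg _)).1 h1 c (mem_univ _)
  have h3 := (sum_eq_zero_iff_of_nonneg (fun _ _ => sq_nonneg _)).1 h2 d (mem_univ _)
  simpa using h3

/-- `W⁺ = 0` at the point when `|W⁺|² = 0` there. -/
theorem Am_of_zero (hq : ev (F.qq (algebraMap ℝ S lam)) = 0) :
    F.Am ev = (lam / 3) • (1 : Matrix (Fin 3) (Fin 3) ℝ) := by
  have h := LA49.nsq_eq_zero (W := F.Am ev - (lam / 3) • (1 : Matrix (Fin 3) (Fin 3) ℝ))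
    (by rw [F.Wm_nsq ev hE, hq])
  exact sub_eq_zero.1 h

/-- `|W⁺|² = 0`, `Δ|W⁺|² = 0` at the point: `∇W⁺ = 0` there. -/
theorem Nr_eq_zero_of_zero (hq : ev (F.qq (algebraMap ℝ S lam)) = 0)
    (hl : ev (F.lap0 (F.qq (algebraMap ℝ S lam))) = 0) (i : Fin 4) (c d : Fin 3) :
    F.Nr ev i c d = 0 := by
  apply F.Nr_zero_of_sum ev
  have h := F.lap_eq ev hE
  have h2 := sdet_sq_le (F.Wr_sym0 ev hE)
  rw [← F.ev_qq ev, hq] at h2
  have h3 : sdet (F.Wr ev lam) = 0 := by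
    have : sdet (F.Wr ev lam) ^ 2 ≤ 0 := by nlinarith
    exact pow_eq_zero_iff (two_ne_zero) |>.1 (le_antisymm this (sq_nonneg _))
  rw [hl, hq, h3] at h
  linarith

/-- `|W⁺|² = 2 lam²/3`, `Δ|W⁺|² = 0` at the point: `∇W⁺ = 0` and `det W⁺ = 2 (lam/3)³` there. -/
theorem max_aux (hlam : 0 ≤ lam) (hq : ev (F.qq (algebraMap ℝ S lam)) = 2 / 3 * lam ^ 2)
    (hl : ev (F.lap0 (F.qq (algebraMap ℝ S lam))) = 0) :
    (∑ i, ∑ c, ∑ d, F.Nr ev i c d ^ 2 ≤ 0) ∧ sdet (F.Wr ev lam) = 2 * (lam / 3) ^ 3 := by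
  have h := F.lap_eq ev hE
  rw [hl, hq] at h
  have h2 := sdet_sq_le (F.Wr_sym0 ev hE)
  rw [← F.ev_qq ev, hq] at h2
  have hN : 0 ≤ ∑ i, ∑ c, ∑ d, F.Nr ev i c d ^ 2 :=
    sum_nonneg fun _ _ => sum_nonneg fun _ _ => sum_nonneg fun _ _ => sq_nonneg _
  have hup : sdet (F.Wr ev lam) ≤ 2 * (lam / 3) ^ 3 := by
    refine abs_le_of_sq_le_sq' ?_ (by positivity) |>.2
    nlinarith
  have hlow : 2 * (lam / 3) ^ 3 ≤ sdet (F.Wr ev lam) := by nlinarith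
  have he := le_antisymm hup hlow
  refine ⟨?_, he⟩
  rw [he] at h
  nlinarith

theorem Nr_eq_zero_of_max (hlam : 0 ≤ lam)
    (hq : ev (F.qq (algebraMap ℝ S lam)) = 2 / 3 * lam ^ 2)
    (hl : ev (F.lap0 (F.qq (algebraMap ℝ S lam))) = 0) (i : Fin 4) (c d : Fin 3) :
    F.Nr ev i c d = 0 :=
  F.Nr_zero_of_sum ev (F.max_aux ev hE hlam hq hl).1 i c d

/-- the block at a point with `|W⁺|² = 2 lam²/3`, `Δ|W⁺|² = 0`. -/
theorem Am_of_max (hlam : 0 < lam) (hq : ev (F.qq (algebraMap ℝ S lam)) = 2 / 3 * lam ^ 2)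
    (hl : ev (F.lap0 (F.qq (algebraMap ℝ S lam))) = 0) :
    ∃ v : Fin 3 → ℝ, v ⬝ᵥ v = 1 ∧ F.Am ev = lam • vecMulVec v v := by
  have hd := (F.max_aux ev hE hlam.le hq hl).2
  rw [← F.Wm_det ev hE] at hd
  have hn : LA49.nsq (F.Am ev - (lam / 3) • (1 : Matrix (Fin 3) (Fin 3) ℝ)) =
      6 * (lam / 3) ^ 2 := by
    rw [F.Wm_nsq ev hE, hq]; ring
  exact LA49.exists_unit_of_sq (F.Am_symm ev) hlam.ne' (F.Am_trace ev hE)
    (LA49.sq_eq_of_quad (LA49.quad_of_det_eq (F.Wm_symm ev hE) (F.Wm_trace ev hE) hn hd))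

/-- the equation of a parallel `W⁺` at the point. -/
lemma par_mat (hN : ∀ p c d, F.NN p c d = 0) :
    (2 * lam) • (F.Am ev - (lam / 3) • (1 : Matrix (Fin 3) (Fin 3) ℝ))
      - (6 : ℝ) • ((F.Am ev - (lam / 3) • (1 : Matrix (Fin 3) (Fin 3) ℝ))
        * (F.Am ev - (lam / 3) • (1 : Matrix (Fin 3) (Fin 3) ℝ)))
      + (2 * LA49.nsq (F.Am ev - (lam / 3) • (1 : Matrix (Fin 3) (Fin 3) ℝ))) •
        (1 : Matrix (Fin 3) (Fin 3) ℝ) = 0 := by
  have ht := congrArg ev (F.AA_trace hE)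
  simp only [map_add, AlgHom.commutes, Algebra.algebraMap_self, RingHom.id_apply] at ht
  have s10 : F.AA 1 0 = F.AA 0 1 := F.AA_symm 1 0
  have s20 : F.AA 2 0 = F.AA 0 2 := F.AA_symm 2 0
  have s21 : F.AA 2 1 = F.AA 1 2 := F.AA_symm 2 1
  ext c e
  have h := congrArg ev (F.par_eq hE hN c e)
  have hl : (lam : ℝ) = ev (F.AA 0 0) + ev (F.AA 1 1) + ev (F.AA 2 2) := ht.symm
  fin_cases c <;> fin_cases e <;>
  · simp [map_sub, map_mul, map_add, map_pow, map_ofNat, AlgHom.commutes, s10, s20, s21] at h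
    simp [Matrix.sub_apply, Matrix.add_apply, Matrix.smul_apply, Matrix.mul_apply,
      Fin.sum_univ_three, Am_apply, Matrix.one_apply, LA49.nsq, s10, s20, s21]
    have e6 : ev 6 = 6 := map_ofNat ev 6
    have e2 : ev 2 = 2 := map_ofNat ev 2
    rw [hl] at h ⊢
    try rw [e6] at h
    try rw [e2] at h
    linear_combination h

/-- **parallel `W⁺`**: the block is `lam/3` or `lam v vᵀ`. -/
theorem Am_of_parallel (hlam : 0 < lam) (hN : ∀ p c d, F.NN p c d = 0) :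
    F.Am ev = (lam / 3) • (1 : Matrix (Fin 3) (Fin 3) ℝ) ∨
    ∃ v : Fin 3 → ℝ, v ⬝ᵥ v = 1 ∧ F.Am ev = lam • vecMulVec v v := by
  rcases LA49.parallel_alg (F.Wm_symm ev hE) (F.Wm_trace ev hE) (F.par_mat ev hE hN) with h | ⟨-, h⟩
  · exact Or.inl (sub_eq_zero.1 h)
  · exact Or.inr (LA49.exists_unit_of_sq (F.Am_symm ev) hlam.ne' (F.Am_trace ev hE)
      (LA49.sq_eq_of_quad h))

end

end Frame

end Crest.Agent.R249.Fr129
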