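import Crest.Agent.R249.Par5_493

/-!
Row 249, B1-PAR (helper493): the three model cases, from germ frames.

`RS c = (c/3) T1`, `RC c = (c/6) TC J0`, `RP c = c TS` (850's tensors).
* `caseIII`  : `|W⁺|² = |W⁻|² = 2c²/3`, both Laplacians `0` at every point;
* `caseI`    : `∇W⁺ = 0` (germs), `|W⁻|² = 0`, `Δ|W⁻|² = 0`;
* `caseI'`   : the same with the orientation reversed.
-/

set_option autoImplicit false
set_option maxSynthPendingDepth 3
set_option linter.unusedSectionVars false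

open Set Filter Topology Bundle
open scoped ContDiff Manifold
open Crest.GeometryTopology.CoordMetric Crest.GeometryTopology.ChartCurvature
open Crest.Agent.R249.Sg129 hiding gm
open Crest.Agent.R249.Fr129
open Crest.Agent.R249.Fr129.Frame (e3 e3_sq)
open Crest.Agent.R249.B2Defs_474 Crest.Agent.R249.Par5_493
open Crest.Agent.R249.Ptw_850 (om omf RV RJK RV_eq Rm_of_blocks T1 TC TS J0 RJK_M1 frame_M2 frame_M2'
  frame_M3)

noncomputable section

namespace Crest.Agent.R249.Par6_493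

local notation "E4" => EuclideanSpace ℝ (Fin 4)

section blocks

variable {S : Type*} [CommRing S] [Algebra ℝ S] (F : Fr129.Frame 4 S) (ev : S →ₐ[ℝ] ℝ)

/-- the curvature of `Λ⁺` through its block. -/
theorem ev_PP {lam : S} (hE : F.Einstein lam) (c : Fin 3) (i j : Fin 4) :
    ev (F.PP i j c) = - ∑ d, F.Am ev c d * om d i j := by
  simp only [Fin.sum_univ_three, Frame.Am_apply]
  fin_cases i <;> fin_cases j <;>
    simp [om, F.PP_self, F.P01 hE, F.P23 hE, F.P02 hE, F.P13 hE, F.P03 hE, F.P12 hE, F.P10 hE,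
      F.P32 hE, F.P20 hE, F.P31 hE, F.P30 hE, F.P21 hE]

theorem omf_eq (d : Fin 3) (i j : Fin 4) :
    omf d i j = ((e3 i : ℤ) : ℝ) * ((e3 j : ℤ) : ℝ) * om d i j := by
  fin_cases d <;> fin_cases i <;> fin_cases j <;> simp [om, omf, e3]

theorem e3_sq' (i : Fin 4) : ((e3 i : ℤ) : ℝ) * ((e3 i : ℤ) : ℝ) = 1 := by
  exact_mod_cast e3_sq i

theorem ev_Rm_flip (i j k l : Fin 4) : ev (F.flip.Rm i j k l)
    = ((e3 i : ℤ) : ℝ) * ((e3 j : ℤ) : ℝ) * ((e3 k : ℤ) : ℝ) * ((e3 l : ℤ) : ℝ) * ev (F.Rm i j k l) := by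
  rw [F.Rm_flip]
  simp only [map_mul, map_intCast]

/-- **the curvature tensor in vector form through the two blocks.** -/
theorem RV_blocks {lam : S} (hE : F.Einstein lam) (u v w : E4) :
    RV (fun i j k l => ev (F.Rm i j k l)) u v w = RJK (F.Am ev) (F.flip.Am ev) u v w := by
  have hE' := F.Einstein_flip hE
  have hp : ∀ c i j, ev (F.PP i j c) = - ∑ d, F.Am ev c d * om d i j := ev_PP F ev hE
  have hm : ∀ c i j, ((e3 i : ℤ) : ℝ) * ((e3 j : ℤ) : ℝ) * ev (F.flip.PP i j c)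
      = - ∑ d, F.flip.Am ev c d * omf d i j := by
    intro c i j
    rw [ev_PP F.flip ev hE']
    simp only [omf_eq, mul_neg, Finset.mul_sum]
    congr 1
    exact Finset.sum_congr rfl fun d _ => by ring
  have v0 : ((e3 0 : ℤ) : ℝ) = 1 := by simp [e3]
  have v1 : ((e3 1 : ℤ) : ℝ) = 1 := by simp [e3]
  have v2 : ((e3 2 : ℤ) : ℝ) = 1 := by simp [e3]
  have v3 : ((e3 3 : ℤ) : ℝ) = -1 := by simp [e3]
  refine RV_eq (fun i j k l => Rm_of_blocks (Rm := fun i j k l => ev (F.Rm i j k l)) ?_ ?_ ?_ ?_ ?_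
    ?_ ?_ i j k l) u v w
  · intro i j k l
    show ev (F.Rm i j k l) = - ev (F.Rm i j l k)
    rw [F.Rm_anti34 i j k l, map_neg]
  · intro i j
    rw [← hp 0 i j]
    simp [Frame.PP]
  · intro i j
    rw [← hp 1 i j]
    simp [Frame.PP]
  · intro i j
    rw [← hp 2 i j]
    simp [Frame.PP]
  · intro i j
    rw [← hm 0 i j]
    simp only [Frame.PP, Matrix.cons_val_zero, map_add, ev_Rm_flip]
    have a := e3_sq' i
    have b := e3_sq' j
    rw [v0, v1, v2, v3]
    linear_combination (- (ev (F.Rm i j 0 1) - ev (F.Rm i j 2 3)) * ((e3 j : ℤ) : ℝ) ^ 2) * a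
      - (ev (F.Rm i j 0 1) - ev (F.Rm i j 2 3)) * b
  · intro i j
    rw [← hm 1 i j]
    simp only [Frame.PP, Matrix.cons_val_one, Matrix.cons_val_zero, map_sub, ev_Rm_flip]
    have a := e3_sq' i
    have b := e3_sq' j
    rw [v0, v1, v2, v3]
    linear_combination (- (ev (F.Rm i j 0 2) + ev (F.Rm i j 1 3)) * ((e3 j : ℤ) : ℝ) ^ 2) * a
      - (ev (F.Rm i j 0 2) + ev (F.Rm i j 1 3)) * b
  · intro i j
    rw [← hm 2 i j]
    simp only [Frame.PP, Matrix.cons_val, map_add, ev_Rm_flip]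
    have a := e3_sq' i
    have b := e3_sq' j
    rw [v0, v1, v2, v3]
    linear_combination (- (- ev (F.Rm i j 0 3) + ev (F.Rm i j 1 2)) * ((e3 j : ℤ) : ℝ) ^ 2) * a
      - (- ev (F.Rm i j 0 3) + ev (F.Rm i j 1 2)) * b

end blocks

/-- curvature tensor of the round sphere with Einstein constant `c` -/
def RS (c : ℝ) (u v w : E4) : E4 := (c / 3) • T1 u v w

/-- curvature tensor of the complex projective plane with Einstein constant `c` -/
def RC (c : ℝ) (u v w : E4) : E4 := (c / 6) • TC J0 u v w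

/-- curvature tensor of the product of two spheres with Einstein constant `c` -/
def RP (c : ℝ) (u v w : E4) : E4 := c • TS u v w

section M

variable {M : Type*} [MetricSpace M] [ChartedSpace (EuclideanSpace ℝ (Fin 4)) M]
  [IsManifold (𝓡 4) ∞ M]
  [RiemannianBundle (fun p : M => TangentSpace (𝓡 4) p)]
  [IsContMDiffRiemannianBundle (𝓡 4) ∞ (EuclideanSpace ℝ (Fin 4)) (fun p : M => TangentSpace (𝓡 4) p)]

theorem nsq_rank1 {c : ℝ} {v : Fin 3 → ℝ} (hv : dotProduct v v = 1) :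
    LA49.nsq (c • Matrix.vecMulVec v v - (c / 3) • (1 : Matrix (Fin 3) (Fin 3) ℝ))
      = 2 / 3 * c ^ 2 := by
  have hv1 : v 0 * v 0 + v 1 * v 1 + v 2 * v 2 = 1 := by
    simpa [dotProduct, Fin.sum_univ_three] using hv
  simp [LA49.nsq, Matrix.sub_apply, Matrix.smul_apply, Matrix.vecMulVec_apply, Fin.sum_univ_three]
  linear_combination (c ^ 2 * (v 0 * v 0 + v 1 * v 1 + v 2 * v 2 + 1) - 2 / 3 * c ^ 2) * hv1

/-- frame from the two blocks at the point -/
theorem frame_of_blocks {p : M} {e : Fin 4 → E4 → E4}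
    (h : ONF (chartMetric 4 M p) (chartAt E4 p).target (chartAt E4 p p) e)
    {lam : SG (chartAt E4 p p)} (hE : h.frameOf.Einstein lam)
    {O : E4 →L[ℝ] E4} (hO : ∀ u v, inner ℝ (O u) (O v) = inner ℝ u v) {R0 : E4 → E4 → E4 → E4}
    (hR : ∀ u v w, RJK (h.frameOf.Am ev) (h.frameOf.flip.Am ev) (O u) (O v) (O w) = O (R0 u v w)) :
    Nonempty (B2Defs_474.Frame 4 R0 p) :=
  frame_of_onf h hO (fun u v w l => by
    rw [← hR, ← RV_blocks h.frameOf ev hE]; rfl)

/-- the Einstein condition for germ frames -/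
theorem einstein_onf {c : ℝ} (hE : IsEinsteinWith 4 M c) {p : M} {e : Fin 4 → E4 → E4}
    (h : ONF (chartMetric 4 M p) (chartAt E4 p).target (chartAt E4 p p) e) :
    h.frameOf.Einstein (algebraMap ℝ (SG (chartAt E4 p p)) c) :=
  h.einstein (by
    filter_upwards [(chartAt E4 p).open_target.mem_nhds (mem_chart_target E4 p)] with y hy i j
    exact einstein_chart hE p hy i j)

section pt

variable {c : ℝ} {p : M} {e : Fin 4 → EuclideanSpace ℝ (Fin 4) → EuclideanSpace ℝ (Fin 4)}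
  (h : ONF (chartMetric 4 M p) (chartAt (EuclideanSpace ℝ (Fin 4)) p).target
    (chartAt (EuclideanSpace ℝ (Fin 4)) p p) e)

/-- case III at a point -/
theorem caseIII_pt (hc : 0 < c)
    (hE : h.frameOf.Einstein (algebraMap ℝ (SG (chartAt E4 p p)) c))
    (hq : ev (h.frameOf.qq (algebraMap ℝ _ c)) = 2 / 3 * c ^ 2)
    (hl : ev (h.frameOf.lap0 (h.frameOf.qq (algebraMap ℝ _ c))) = 0)
    (hq' : ev (h.frameOf.flip.qq (algebraMap ℝ _ c)) = 2 / 3 * c ^ 2)
    (hl' : ev (h.frameOf.lap0 (h.frameOf.flip.qq (algebraMap ℝ _ c))) = 0) :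
    (∀ q i j k l, ev (h.frameOf.nabRm q i j k l) = 0) ∧
      Nonempty (B2Defs_474.Frame 4 (RP c) p) := by
  have hE' := h.frameOf.Einstein_flip hE
  rw [← h.frameOf.flip_lap0] at hl'
  refine ⟨fun q i j k l => h.frameOf.ev_nabRm_eq_zero hE ev
    (h.frameOf.Nr_eq_zero_of_max ev hE hc.le hq hl q)
    (h.frameOf.flip.Nr_eq_zero_of_max ev hE' hc.le hq' hl' q) i j k l, ?_⟩
  obtain ⟨v, hv, hA⟩ := h.frameOf.Am_of_max ev hE hc hq hl
  obtain ⟨v', hv', hA'⟩ := h.frameOf.flip.Am_of_max ev hE' hc hq' hl'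
  obtain ⟨O, hO, hR⟩ := frame_M3 (a := c) (α := v) (γ := v')
    (by simpa [dotProduct, sq] using hv) (by simpa [dotProduct, sq] using hv')
  refine frame_of_blocks h hE hO (R0 := RP c) fun u w z => ?_
  rw [hA, hA', hR]; rfl

/-- case I at a point: the anti-self-dual Weyl tensor vanishes, the self-dual one is parallel. -/
theorem caseI_pt (hc : 0 < c)
    (hE : h.frameOf.Einstein (algebraMap ℝ (SG (chartAt E4 p p)) c))
    (hN : ∀ q a b, h.frameOf.NN q a b = 0)
    (hq' : ev (h.frameOf.flip.qq (algebraMap ℝ _ c)) = 0)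
    (hl' : ev (h.frameOf.lap0 (h.frameOf.flip.qq (algebraMap ℝ _ c))) = 0) :
    (∀ q i j k l, ev (h.frameOf.nabRm q i j k l) = 0) ∧
      ((ev (h.frameOf.qq (algebraMap ℝ _ c)) = 0 ∧ Nonempty (B2Defs_474.Frame 4 (RS c) p)) ∨
       (ev (h.frameOf.qq (algebraMap ℝ _ c)) = 2 / 3 * c ^ 2 ∧
        Nonempty (B2Defs_474.Frame 4 (RC c) p))) := by
  have hE' := h.frameOf.Einstein_flip hE
  rw [← h.frameOf.flip_lap0] at hl'
  have hN0 : ∀ q a b, h.frameOf.Nr ev q a b = 0 := fun q a b => by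
    show ev (h.frameOf.NN q a b) = 0
    rw [hN, map_zero]
  refine ⟨fun q i j k l => h.frameOf.ev_nabRm_eq_zero hE ev (hN0 q)
    (h.frameOf.flip.Nr_eq_zero_of_zero ev hE' hq' hl' q) i j k l, ?_⟩
  have hA' := h.frameOf.flip.Am_of_zero ev hE' hq'
  rcases h.frameOf.Am_of_parallel ev hE hc hN with hA | ⟨v, hv, hA⟩
  · left
    refine ⟨?_, ?_⟩
    · rw [← h.frameOf.Wm_nsq ev hE, hA, sub_self]
      simp [LA49.nsq]
    · refine frame_of_blocks h hE (O := ContinuousLinearMap.id ℝ E4) (fun u v => rfl) (R0 := RS c)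
        fun u v w => ?_
      rw [hA, hA']
      exact RJK_M1 (c / 3) u v w
  · right
    refine ⟨?_, ?_⟩
    · rw [← h.frameOf.Wm_nsq ev hE, hA, nsq_rank1 hv]
    · obtain ⟨O, hO, hR⟩ := frame_M2 (a := c) (α := v) (by simpa [dotProduct, sq] using hv)
      refine frame_of_blocks h hE hO (R0 := RC c) fun u w z => ?_
      rw [hA, hA', hR]; rfl

/-- case I', the orientation reversed. -/
theorem caseI'_pt (hc : 0 < c)
    (hE : h.frameOf.Einstein (algebraMap ℝ (SG (chartAt E4 p p)) c))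
    (hN : ∀ q a b, h.frameOf.flip.NN q a b = 0)
    (hq : ev (h.frameOf.qq (algebraMap ℝ _ c)) = 0)
    (hl : ev (h.frameOf.lap0 (h.frameOf.qq (algebraMap ℝ _ c))) = 0) :
    (∀ q i j k l, ev (h.frameOf.nabRm q i j k l) = 0) ∧
      ((ev (h.frameOf.flip.qq (algebraMap ℝ _ c)) = 0 ∧ Nonempty (B2Defs_474.Frame 4 (RS c) p)) ∨
       (ev (h.frameOf.flip.qq (algebraMap ℝ _ c)) = 2 / 3 * c ^ 2 ∧
        Nonempty (B2Defs_474.Frame 4 (RC c) p))) := by
  have hE' := h.frameOf.Einstein_flip hE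
  have hN0 : ∀ q a b, h.frameOf.flip.Nr ev q a b = 0 := fun q a b => by
    show ev (h.frameOf.flip.NN q a b) = 0
    rw [hN, map_zero]
  refine ⟨fun q i j k l => h.frameOf.ev_nabRm_eq_zero hE ev
    (h.frameOf.Nr_eq_zero_of_zero ev hE hq hl q) (hN0 q) i j k l, ?_⟩
  have hA := h.frameOf.Am_of_zero ev hE hq
  rcases h.frameOf.flip.Am_of_parallel ev hE' hc hN with hA' | ⟨v, hv, hA'⟩
  · left
    refine ⟨?_, ?_⟩
    · rw [← h.frameOf.flip.Wm_nsq ev hE', hA', sub_self]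
      simp [LA49.nsq]
    · refine frame_of_blocks h hE (O := ContinuousLinearMap.id ℝ E4) (fun u v => rfl) (R0 := RS c)
        fun u v w => ?_
      rw [hA, hA']
      exact RJK_M1 (c / 3) u v w
  · right
    refine ⟨?_, ?_⟩
    · rw [← h.frameOf.flip.Wm_nsq ev hE', hA', nsq_rank1 hv]
    · obtain ⟨O, hO, hR⟩ := frame_M2' (a := c) (α := v) (by simpa [dotProduct, sq] using hv)
      refine frame_of_blocks h hE hO (R0 := RC c) fun u w z => ?_
      rw [hA, hA', hR]; rfl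

end pt

/-! ### global statements -/

/-- **Case III.** -/
theorem caseIII {c : ℝ} (hc : 0 < c) (hE : IsEinsteinWith 4 M c)
    (H : ∀ p : M, ∃ e : Fin 4 → E4 → E4,
      ∃ h : ONF (chartMetric 4 M p) (chartAt E4 p).target (chartAt E4 p p) e,
        ev (h.frameOf.qq (algebraMap ℝ _ c)) = 2 / 3 * c ^ 2 ∧
        ev (h.frameOf.lap0 (h.frameOf.qq (algebraMap ℝ _ c))) = 0 ∧
        ev (h.frameOf.flip.qq (algebraMap ℝ _ c)) = 2 / 3 * c ^ 2 ∧
        ev (h.frameOf.lap0 (h.frameOf.flip.qq (algebraMap ℝ _ c))) = 0) :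
    ParCurv 4 M ∧ ∀ p : M, Nonempty (B2Defs_474.Frame 4 (RP c) p) := by
  have key : ∀ p : M, ∃ e : Fin 4 → E4 → E4,
      ∃ h : ONF (chartMetric 4 M p) (chartAt E4 p).target (chartAt E4 p p) e,
      (∀ q i j k l, ev (h.frameOf.nabRm q i j k l) = 0) ∧
        Nonempty (B2Defs_474.Frame 4 (RP c) p) := by
    intro p
    obtain ⟨e, h, h1, h2, h3, h4⟩ := H p
    exact ⟨e, h, caseIII_pt h hc (einstein_onf hE h) h1 h2 h3 h4⟩
  refine ⟨parCurv_of_onf fun p => ?_, fun p => ?_⟩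
  · obtain ⟨e, h, h1, -⟩ := key p
    exact ⟨e, h, h1⟩
  · obtain ⟨e, h, -, h1⟩ := key p
    exact h1

/-- a continuous function with two values on a connected space is constant -/
theorem const_of_two {X : Type*} [TopologicalSpace X] [PreconnectedSpace X] {f : X → ℝ}
    (hf : Continuous f) {a b : ℝ} (hab : a ≠ b) (h : ∀ x, f x = a ∨ f x = b) :
    (∀ x, f x = a) ∨ ∀ x, f x = b := by
  by_contra hcon
  push Not at hcon
  obtain ⟨⟨x, hx⟩, ⟨y, hy⟩⟩ := hcon
  have hx' : f x = b := (h x).resolve_left hx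
  have hy' : f y = a := (h y).resolve_right hy
  have hr := isPreconnected_range hf
  have hI := hr.ordConnected
  have hmem : (a + b) / 2 ∈ Set.range f := by
    rcases lt_or_gt_of_ne hab with hlt | hlt
    · exact hI.out ⟨y, hy'⟩ ⟨x, hx'⟩ ⟨by linarith, by linarith⟩
    · exact hI.out ⟨x, hx'⟩ ⟨y, hy'⟩ ⟨by linarith, by linarith⟩
  obtain ⟨z, hz⟩ := hmem
  rcases h z with h1 | h1
  · apply hab; linarith
  · apply hab; linarith

/-- **Case I.** `q` is the function `|W⁺|²`. -/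
theorem caseI [ConnectedSpace M] {c : ℝ} (hc : 0 < c) (hE : IsEinsteinWith 4 M c) {f : M → ℝ}
    (hf : Continuous f)
    (H : ∀ p : M, ∃ e : Fin 4 → E4 → E4,
      ∃ h : ONF (chartMetric 4 M p) (chartAt E4 p).target (chartAt E4 p p) e,
        ev (h.frameOf.qq (algebraMap ℝ _ c)) = f p ∧
        (∀ q a b, h.frameOf.NN q a b = 0) ∧
        ev (h.frameOf.flip.qq (algebraMap ℝ _ c)) = 0 ∧
        ev (h.frameOf.lap0 (h.frameOf.flip.qq (algebraMap ℝ _ c))) = 0) :
    (ParCurv 4 M ∧ ∀ p : M, Nonempty (B2Defs_474.Frame 4 (RS c) p)) ∨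
      (ParCurv 4 M ∧ ∀ p : M, Nonempty (B2Defs_474.Frame 4 (RC c) p)) := by
  have key : ∀ p : M, (∃ e : Fin 4 → E4 → E4,
      ∃ h : ONF (chartMetric 4 M p) (chartAt E4 p).target (chartAt E4 p p) e,
      (∀ q i j k l, ev (h.frameOf.nabRm q i j k l) = 0)) ∧
        ((f p = 0 ∧ Nonempty (B2Defs_474.Frame 4 (RS c) p)) ∨
         (f p = 2 / 3 * c ^ 2 ∧ Nonempty (B2Defs_474.Frame 4 (RC c) p))) := by
    intro p
    obtain ⟨e, h, h1, h2, h3, h4⟩ := H p
    obtain ⟨ha, hb⟩ := caseI_pt h hc (einstein_onf hE h) h2 h3 h4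
    rw [h1] at hb
    exact ⟨⟨e, h, ha⟩, hb⟩
  have hP : ParCurv 4 M := parCurv_of_onf fun p => (key p).1
  have hne : (0 : ℝ) ≠ 2 / 3 * c ^ 2 := by positivity
  rcases const_of_two hf hne (fun x => (key x).2.imp And.left And.left) with h0 | h0
  · left
    refine ⟨hP, fun p => ?_⟩
    rcases (key p).2 with h1 | h1
    · exact h1.2
    · exact absurd ((h0 p).symm.trans h1.1) hne
  · right
    refine ⟨hP, fun p => ?_⟩
    rcases (key p).2 with h1 | h1
    · exact absurd (h1.1.symm.trans (h0 p)) hne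
    · exact h1.2

/-- **Case I'.** `f` is the function `|W⁻|²`. -/
theorem caseI' [ConnectedSpace M] {c : ℝ} (hc : 0 < c) (hE : IsEinsteinWith 4 M c) {f : M → ℝ}
    (hf : Continuous f)
    (H : ∀ p : M, ∃ e : Fin 4 → E4 → E4,
      ∃ h : ONF (chartMetric 4 M p) (chartAt E4 p).target (chartAt E4 p p) e,
        ev (h.frameOf.flip.qq (algebraMap ℝ _ c)) = f p ∧
        (∀ q a b, h.frameOf.flip.NN q a b = 0) ∧
        ev (h.frameOf.qq (algebraMap ℝ _ c)) = 0 ∧
        ev (h.frameOf.lap0 (h.frameOf.qq (algebraMap ℝ _ c))) = 0) :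
    (ParCurv 4 M ∧ ∀ p : M, Nonempty (B2Defs_474.Frame 4 (RS c) p)) ∨
      (ParCurv 4 M ∧ ∀ p : M, Nonempty (B2Defs_474.Frame 4 (RC c) p)) := by
  have key : ∀ p : M, (∃ e : Fin 4 → E4 → E4,
      ∃ h : ONF (chartMetric 4 M p) (chartAt E4 p).target (chartAt E4 p p) e,
      (∀ q i j k l, ev (h.frameOf.nabRm q i j k l) = 0)) ∧
        ((f p = 0 ∧ Nonempty (B2Defs_474.Frame 4 (RS c) p)) ∨
         (f p = 2 / 3 * c ^ 2 ∧ Nonempty (B2Defs_474.Frame 4 (RC c) p))) := by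
    intro p
    obtain ⟨e, h, h1, h2, h3, h4⟩ := H p
    obtain ⟨ha, hb⟩ := caseI'_pt h hc (einstein_onf hE h) h2 h3 h4
    rw [h1] at hb
    exact ⟨⟨e, h, ha⟩, hb⟩
  have hP : ParCurv 4 M := parCurv_of_onf fun p => (key p).1
  have hne : (0 : ℝ) ≠ 2 / 3 * c ^ 2 := by positivity
  rcases const_of_two hf hne (fun x => (key x).2.imp And.left And.left) with h0 | h0
  · left
    refine ⟨hP, fun p => ?_⟩
    rcases (key p).2 with h1 | h1
    · exact h1.2
    · exact absurd ((h0 p).symm.trans h1.1) hne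
  · right
    refine ⟨hP, fun p => ?_⟩
    rcases (key p).2 with h1 | h1
    · exact absurd (h1.1.symm.trans (h0 p)) hne
    · exact h1.2

end M

end Crest.Agent.R249.Par6_493

end
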