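import Crest.Agent.R202.GeoTens

/-!
# R249, B3.3 part A (helper40): the curvature at the origin from the second order expansion

`g` Riemannian near `0` with `g(0) = id` and `g(tv)(ξ,ξ) = |ξ|² - t² S(v,ξ)/3 + o(t²)` (one sided), `S`
of curvature type. Then `secNumer g 0 u v = S u v`, `gramDet g 0 u v = |u|²|v|² - ⟪u,v⟫²` and the Ricci
form is the trace of `S`.
-/

set_option autoImplicit false
set_option maxSynthPendingDepth 3
set_option linter.unusedSectionVars false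

open Set Filter
open scoped ContDiff Topology
open Crest.GeometryTopology.CoordMetric Crest.GeometryTopology.ChartCurvature
open Crest.Agent.R202.Tens

noncomputable section

namespace Crest.Agent.R249.Pb40

theorem two_le_infty : (2 : WithTop ℕ∞) ≤ ∞ := WithTop.coe_le_coe.2 le_top

theorem one_add_one_le : (1 : WithTop ℕ∞) + 1 ≤ ∞ := by
  rw [one_add_one_eq_two]; exact two_le_infty

/-- one sided second order expansion of a `C²` function -/
theorem second_deriv_of_tendsto {f f' : ℝ → ℝ} {f'' L : ℝ}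
    (hf : ∀ᶠ t in 𝓝 (0:ℝ), HasDerivAt f (f' t) t) (hf' : HasDerivAt f' f'' 0)
    (hL : Tendsto (fun t => (f t - f 0) / t ^ 2) (𝓝[>] 0) (𝓝 L)) : f' 0 = 0 ∧ f'' = 2 * L := by
  have hd0 : HasDerivAt f (f' 0) 0 := hf.self_of_nhds
  have hid : Tendsto (fun t : ℝ => t) (𝓝[>] 0) (𝓝 0) := tendsto_nhdsWithin_of_tendsto_nhds tendsto_id
  have h1 : f' 0 = 0 := by
    have e1 : Tendsto (fun t => (f t - f 0) / t ^ 2 * t) (𝓝[>] 0) (𝓝 (L * 0)) := hL.mul hid
    have e2 := (hasDerivAt_iff_tendsto_slope.1 hd0).mono_left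
      (nhdsWithin_mono (0:ℝ) (fun t (ht : t ∈ Ioi (0:ℝ)) => (ne_of_gt ht : t ≠ 0)))
    have e3 : Tendsto (fun t => (f t - f 0) / t ^ 2 * t) (𝓝[>] 0) (𝓝 (f' 0)) := by
      refine e2.congr' ?_
      filter_upwards [self_mem_nhdsWithin] with t ht
      have ht' : (t:ℝ) ≠ 0 := ne_of_gt ht
      rw [slope_def_field, sub_zero]
      field_simp
    have := tendsto_nhds_unique e3 e1
    simpa using this
  refine ⟨h1, ?_⟩
  have h2 : Tendsto (fun t => f' t / (2 * t)) (𝓝[>] 0) (𝓝 (f'' / 2)) := by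
    have e2 := (hasDerivAt_iff_tendsto_slope.1 hf').mono_left
      (nhdsWithin_mono (0:ℝ) (fun t (ht : t ∈ Ioi (0:ℝ)) => (ne_of_gt ht : t ≠ 0)))
    refine (e2.div_const 2).congr' ?_
    filter_upwards [self_mem_nhdsWithin] with t ht
    have ht' : (t:ℝ) ≠ 0 := ne_of_gt ht
    rw [slope_def_field, sub_zero, h1, sub_zero]
    field_simp
  have h3 : Tendsto (fun t => (f t - f 0) / t ^ 2) (𝓝[>] 0) (𝓝 (f'' / 2)) := by
    refine HasDerivAt.lhopital_zero_nhdsGT (f' := f') (g' := fun t => 2 * t) ?_ ?_ ?_ ?_ ?_ h2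
    · filter_upwards [hf.filter_mono nhdsWithin_le_nhds] with t ht
      exact ht.sub_const (f 0)
    · filter_upwards with t
      have := hasDerivAt_pow 2 t
      simpa using this
    · filter_upwards [self_mem_nhdsWithin] with t ht
      have ht' : (t:ℝ) ≠ 0 := ne_of_gt ht
      positivity
    · have := (hd0.continuousAt.tendsto.sub_const (f 0)).mono_left
        (nhdsWithin_le_nhds (a := (0:ℝ)) (s := Ioi 0))
      simpa using this
    · have : Tendsto (fun t : ℝ => t ^ 2) (𝓝[>] 0) (𝓝 (0 ^ 2)) := hid.pow 2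
      simpa using this
  have := tendsto_nhds_unique hL h3
  linarith

variable {n : ℕ}

local notation "𝔼" => EuclideanSpace ℝ (Fin n)

theorem contDiffAt_Gf {g : MetricField n} {U : Set 𝔼} (hg : IsRiemannianOn g U) {x : 𝔼}
    (hx : x ∈ U) : ContDiffAt ℝ ∞ (Gf g) x := by
  have h : ContDiffOn ℝ ∞ (Gf g) U := by
    unfold Gf
    have : ContDiffOn ℝ ∞ (fun y => ∑ i, ∑ j, g y i j • eij i j) U :=
      ContDiffOn.sum fun i _ => ContDiffOn.sum fun j _ =>
        (hg.contDiffOn i j).smul contDiffOn_const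
    exact this
  exact h.contDiffAt (hg.isOpen.mem_nhds hx)

/-- Taylor data of the metric at the origin. -/
structure Tay (g : MetricField n) (S : 𝔼 → 𝔼 → ℝ) : Prop where
  zero : ∀ u v : 𝔼, bil (g 0) u v = inner ℝ u v
  tay : ∀ v ξ : 𝔼, Tendsto (fun t : ℝ => (bil (g (t • v)) ξ ξ - ‖ξ‖ ^ 2) / t ^ 2) (𝓝[>] 0)
    (𝓝 (-S v ξ / 3))

/-- `S` is the quadratic form of a curvature like tensor -/
structure CurvLike (S : 𝔼 → 𝔼 → ℝ) : Prop where
  self : ∀ w : 𝔼, S w w = 0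
  comm : ∀ u v : 𝔼, S u v = S v u
  pol : ∀ u v : 𝔼, S (u + v) (u - v) = 4 * S u v

section

variable {g : MetricField n} {U : Set (EuclideanSpace ℝ (Fin n))}
  {S : EuclideanSpace ℝ (Fin n) → EuclideanSpace ℝ (Fin n) → ℝ}

theorem deriv_data (hg : IsRiemannianOn g U) (h0 : (0:𝔼) ∈ U) (hT : Tay g S) (v ξ : 𝔼) :
    fderiv ℝ (Gf g) 0 v ξ ξ = 0 ∧
      fderiv ℝ (fderiv ℝ (Gf g)) 0 v v ξ ξ = -(2 / 3) * S v ξ := by
  have hG : ContDiffAt ℝ ∞ (Gf g) 0 := contDiffAt_Gf hg h0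
  have hcont : Continuous fun t : ℝ => t • v := by fun_prop
  have hmem : ∀ᶠ t in 𝓝 (0:ℝ), t • v ∈ U := by
    have : Tendsto (fun t : ℝ => t • v) (𝓝 0) (𝓝 ((0:ℝ) • v)) := hcont.tendsto 0
    rw [zero_smul] at this
    exact this.eventually (hg.isOpen.mem_nhds h0)
  have hline : ∀ t : ℝ, HasDerivAt (fun t : ℝ => t • v) v t := by
    intro t
    have := (hasDerivAt_id t).smul_const v
    simpa using this
  have hf : ∀ᶠ t in 𝓝 (0:ℝ), HasDerivAt (fun t : ℝ => Gf g (t • v) ξ ξ)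
      (fderiv ℝ (Gf g) (t • v) v ξ ξ) t := by
    filter_upwards [hmem] with t ht
    have h1 : HasFDerivAt (Gf g) (fderiv ℝ (Gf g) (t • v)) (t • v) :=
      ((contDiffAt_Gf hg ht).differentiableAt (by norm_num)).hasFDerivAt
    have h2 := h1.comp_hasDerivAt t (hline t)
    have h3 := h2.clm_apply (hasDerivAt_const t ξ)
    have h4 := h3.clm_apply (hasDerivAt_const t ξ)
    simpa using h4
  have hf' : HasDerivAt (fun t : ℝ => fderiv ℝ (Gf g) (t • v) v ξ ξ)
      (fderiv ℝ (fderiv ℝ (Gf g)) 0 v v ξ ξ) 0 := by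
    have h1 : HasFDerivAt (fderiv ℝ (Gf g)) (fderiv ℝ (fderiv ℝ (Gf g)) 0) ((0:ℝ) • v) := by
      rw [zero_smul]
      exact ((hG.fderiv_right (m := 1) one_add_one_le).differentiableAt (by norm_num)).hasFDerivAt
    have h2 := h1.comp_hasDerivAt (0:ℝ) (hline 0)
    have h3 := h2.clm_apply (hasDerivAt_const (0:ℝ) v)
    have h4 := h3.clm_apply (hasDerivAt_const (0:ℝ) ξ)
    have h5 := h4.clm_apply (hasDerivAt_const (0:ℝ) ξ)
    simpa using h5
  have hL : Tendsto (fun t : ℝ => (Gf g (t • v) ξ ξ - Gf g ((0:ℝ) • v) ξ ξ) / t ^ 2) (𝓝[>] 0)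
      (𝓝 (-S v ξ / 3)) := by
    have e : Gf g ((0:ℝ) • v) ξ ξ = ‖ξ‖ ^ 2 := by
      rw [zero_smul]
      show bil (g 0) ξ ξ = _
      rw [hT.zero, real_inner_self_eq_norm_sq]
    rw [e]
    exact hT.tay v ξ
  obtain ⟨h1, h2⟩ := second_deriv_of_tendsto hf hf' hL
  constructor
  · simpa using h1
  · rw [h2]; ring

theorem Gf_symm (hg : IsRiemannianOn g U) {x : 𝔼} (hx : x ∈ U) (u v : 𝔼) :
    Gf g x u v = Gf g x v u := bil_symm hg hx u v

theorem fderiv_Gf_symm (hg : IsRiemannianOn g U) {x : 𝔼} (hx : x ∈ U) (w u v : 𝔼) :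
    fderiv ℝ (Gf g) x w u v = fderiv ℝ (Gf g) x w v u := by
  have hd : DifferentiableAt ℝ (Gf g) x := (contDiffAt_Gf hg hx).differentiableAt (by norm_num)
  have e : ∀ a b : 𝔼, fderiv ℝ (fun y => Gf g y a b) x w = fderiv ℝ (Gf g) x w a b := by
    intro a b
    have h1 := (hd.hasFDerivAt.clm_apply (hasFDerivAt_const a x)).clm_apply (hasFDerivAt_const b x)
    rw [h1.fderiv]
    simp
  rw [← e, ← e]
  have : (fun y => Gf g y u v) =ᶠ[𝓝 x] fun y => Gf g y v u := by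
    filter_upwards [hg.isOpen.mem_nhds hx] with y hy using Gf_symm hg hy u v
  rw [this.fderiv_eq]

theorem fderiv_Gf_zero (hg : IsRiemannianOn g U) (h0 : (0:𝔼) ∈ U) (hT : Tay g S) :
    fderiv ℝ (Gf g) 0 = 0 := by
  ext w u v
  have e1 := (deriv_data hg h0 hT w (u + v)).1
  have e2 := (deriv_data hg h0 hT w u).1
  have e3 := (deriv_data hg h0 hT w v).1
  have e4 := fderiv_Gf_symm hg h0 w u v
  simp only [map_add, add_apply] at e1
  simp only [zero_apply]
  linarith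

theorem snd_symm1 (hg : IsRiemannianOn g U) (h0 : (0:𝔼) ∈ U) (a b u v : 𝔼) :
    fderiv ℝ (fderiv ℝ (Gf g)) 0 a b u v = fderiv ℝ (fderiv ℝ (Gf g)) 0 b a u v := by
  have h := (contDiffAt_Gf hg h0).isSymmSndFDerivAt (by simpa using two_le_infty)
  rw [h.eq a b]

theorem snd_symm2 (hg : IsRiemannianOn g U) (h0 : (0:𝔼) ∈ U) (a b u v : 𝔼) :
    fderiv ℝ (fderiv ℝ (Gf g)) 0 a b u v = fderiv ℝ (fderiv ℝ (Gf g)) 0 a b v u := by
  have hd : DifferentiableAt ℝ (fderiv ℝ (Gf g)) 0 :=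
    ((contDiffAt_Gf hg h0).fderiv_right (m := 1) one_add_one_le).differentiableAt (by norm_num)
  have e : ∀ c d : 𝔼, fderiv ℝ (fun y => fderiv ℝ (Gf g) y b c d) 0 a =
      fderiv ℝ (fderiv ℝ (Gf g)) 0 a b c d := by
    intro c d
    have h1 := ((hd.hasFDerivAt.clm_apply (hasFDerivAt_const b (0:𝔼))).clm_apply
      (hasFDerivAt_const c (0:𝔼))).clm_apply (hasFDerivAt_const d (0:𝔼))
    rw [h1.fderiv]
    simp
  rw [← e, ← e]
  have : (fun y => fderiv ℝ (Gf g) y b u v) =ᶠ[𝓝 0] fun y => fderiv ℝ (Gf g) y b v u := by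
    filter_upwards [hg.isOpen.mem_nhds h0] with y hy using fderiv_Gf_symm hg hy b u v
  rw [this.fderiv_eq]

/-- the mixed second derivative by polarisation -/
theorem snd_mixed (hg : IsRiemannianOn g U) (h0 : (0:𝔼) ∈ U) (hT : Tay g S) (hS : CurvLike S)
    (u v : 𝔼) : fderiv ℝ (fderiv ℝ (Gf g)) 0 u v u v = (1 / 3) * S u v := by
  set B := fderiv ℝ (fderiv ℝ (Gf g)) 0 with hB
  have q : ∀ a ξ : 𝔼, B a a ξ ξ = -(2 / 3) * S a ξ := fun a ξ => (deriv_data hg h0 hT a ξ).2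
  have s1 : ∀ a b c d : 𝔼, B a b c d = B b a c d := snd_symm1 hg h0
  have s2 : ∀ a b c d : 𝔼, B a b c d = B a b d c := snd_symm2 hg h0
  have p1 := q (u + v) (u + v)
  have p2 := q (u + v) (u - v)
  have p3 := q (u - v) (u + v)
  have p4 := q (u - v) (u - v)
  rw [hS.self] at p1 p4
  rw [hS.pol] at p2
  rw [hS.comm, hS.pol] at p3
  simp only [map_add, map_sub, add_apply, sub_apply] at p1 p2 p3 p4
  have t1 := s1 v u u v
  have t2 := s1 v u u u
  have t3 := s1 v u v v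
  have t4 := s1 v u v u
  have t5 := s2 u v v u
  have t6 := s2 v u v u
  have t7 := s2 u u v u
  have t8 := s2 v v v u
  linarith

theorem gam_zero (hg : IsRiemannianOn g U) (h0 : (0:𝔼) ∈ U) (hT : Tay g S) (X Y : 𝔼) :
    Gam g 0 X Y = 0 := by
  have hlc := isLC_Gam (fun i j => differentiableAt_entry hg h0 i j)
    (hg.posDef 0 h0).det_pos.ne'.isUnit (fun i j => metric_symm hg h0 i j)
  by_contra hne
  have h1 := hlc X Y (Gam g 0 X Y)
  rw [fderiv_Gf_zero hg h0 hT] at h1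
  simp only [zero_apply, add_zero, sub_zero, mul_zero] at h1
  exact (bil_pos hg h0 hne).ne' h1

/-- the lowered derivative of the Christoffel map at the origin -/
theorem low_fderiv_gam (hg : IsRiemannianOn g U) (h0 : (0:𝔼) ∈ U) (hT : Tay g S) (W X Y Z : 𝔼) :
    Gf g 0 (fderiv ℝ (Gam g) 0 W X Y) Z =
      (1 / 2) * (fderiv ℝ (fderiv ℝ (Gf g)) 0 W X Y Z + fderiv ℝ (fderiv ℝ (Gf g)) 0 W Y X Z
        - fderiv ℝ (fderiv ℝ (Gf g)) 0 W Z X Y) := by
  have hd : DifferentiableAt ℝ (fderiv ℝ (Gf g)) 0 :=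
    ((contDiffAt_Gf hg h0).fderiv_right (m := 1) one_add_one_le).differentiableAt (by norm_num)
  have hG : DifferentiableAt ℝ (Gf g) 0 := (contDiffAt_Gf hg h0).differentiableAt (by norm_num)
  have hΓ : DifferentiableAt ℝ (Gam g) 0 :=
    (hasFDerivAt_Gam fun k i j => differentiableAt_christoffel hg h0 k i j).differentiableAt
  have hev : (fun y => Gf g y (Gam g y X Y) Z) =ᶠ[𝓝 0] fun y =>
      (1 / 2) * (fderiv ℝ (Gf g) y X Y Z + fderiv ℝ (Gf g) y Y X Z - fderiv ℝ (Gf g) y Z X Y) := by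
    filter_upwards [hg.isOpen.mem_nhds h0] with y hy
    exact isLC_Gam (fun i j => differentiableAt_entry hg hy i j)
      (hg.posDef y hy).det_pos.ne'.isUnit (fun i j => metric_symm hg hy i j) X Y Z
  have e : ∀ b c d : 𝔼, HasFDerivAt (fun y => fderiv ℝ (Gf g) y b c d)
      (((fderiv ℝ (fderiv ℝ (Gf g)) 0).flip b).flip c |>.flip d) 0 := by
    intro b c d
    have h1 := ((hd.hasFDerivAt.clm_apply (hasFDerivAt_const b (0:𝔼))).clm_apply
      (hasFDerivAt_const c (0:𝔼))).clm_apply (hasFDerivAt_const d (0:𝔼))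
    refine h1.congr_fderiv ?_
    ext a
    simp
  have hR := (((e X Y Z).add (e Y X Z)).sub (e Z X Y)).const_mul (1 / 2 : ℝ)
  have hLd := (hG.hasFDerivAt.clm_apply
    ((hΓ.hasFDerivAt.clm_apply (hasFDerivAt_const X (0:𝔼))).clm_apply
      (hasFDerivAt_const Y (0:𝔼)))).clm_apply (hasFDerivAt_const Z (0:𝔼))
  have h1 := hev.fderiv_eq (𝕜 := ℝ)
  rw [hLd.fderiv] at h1
  have h2 := congrArg (fun L : 𝔼 →L[ℝ] ℝ => L W) h1
  have h3 : fderiv ℝ (fun y => (1 / 2 : ℝ) * (fderiv ℝ (Gf g) y X Y Z + fderiv ℝ (Gf g) y Y X Z -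
      fderiv ℝ (Gf g) y Z X Y)) 0 = _ := hR.fderiv
  rw [h3] at h2
  simp [gam_zero hg h0 hT] at h2
  linarith

/-- **the curvature at the origin** -/
theorem secNumer_eq_of_tay (hg : IsRiemannianOn g U) (h0 : (0:𝔼) ∈ U) (hT : Tay g S)
    (hS : CurvLike S) (u v : 𝔼) : secNumer g 0 u v = S u v := by
  rw [secNumer_eq hg h0]
  have e1 : curv (Gam g) 0 u v v = fderiv ℝ (Gam g) 0 u v v - fderiv ℝ (Gam g) 0 v u v := by
    unfold curv
    rw [gam_zero hg h0 hT v v, gam_zero hg h0 hT u v]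
    simp
  have e2 := low_fderiv_gam hg h0 hT u v v u
  have e3 := low_fderiv_gam hg h0 hT v u v u
  have e4 : bil (g 0) (curv (Gam g) 0 u v v) u =
      Gf g 0 (fderiv ℝ (Gam g) 0 u v v) u - Gf g 0 (fderiv ℝ (Gam g) 0 v u v) u := by
    rw [e1]
    show Gf g 0 _ u = _
    rw [map_sub]
    simp
  rw [e4, e2, e3]
  have m1 := snd_mixed hg h0 hT hS u v
  have d1 := (deriv_data hg h0 hT u v).2
  have d2 := (deriv_data hg h0 hT v u).2
  rw [hS.comm v u] at d2
  have t1 := snd_symm1 hg h0 v u u v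
  have t2 := snd_symm2 hg h0 u v v u
  have t3 := snd_symm1 hg h0 v u v u
  linarith

/-- the Ricci form at a point where the metric is the identity: trace of the curvature numerators -/
theorem ricci_eq_sum_secNumer (hg : IsRiemannianOn g U) {x : 𝔼} (hx : x ∈ U)
    (h1 : ∀ u v : 𝔼, bil (g x) u v = inner ℝ u v) (v : 𝔼) :
    ∑ i, ∑ j, ricci g x i j * v i * v j =
      ∑ k, secNumer g x (EuclideanSpace.single k 1) v := by
  rw [ricci_form hg hx v v]
  refine Finset.sum_congr rfl fun k _ => ?_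
  rw [secNumer_eq hg hx, h1]
  simp [EuclideanSpace.inner_single_right]

theorem quadForm_eq_of_one {x : 𝔼} (h1 : ∀ u v : 𝔼, bil (g x) u v = inner ℝ u v) (v : 𝔼) :
    quadForm g x v = ‖v‖ ^ 2 := by
  rw [quadForm_eq, h1, real_inner_self_eq_norm_sq]

theorem gramDet_eq_of_one {x : 𝔼} (h1 : ∀ u v : 𝔼, bil (g x) u v = inner ℝ u v) (u v : 𝔼) :
    gramDet g x u v = ‖u‖ ^ 2 * ‖v‖ ^ 2 - inner ℝ u v ^ 2 := by
  rw [gramDet_eq, h1, h1, h1, real_inner_self_eq_norm_sq, real_inner_self_eq_norm_sq]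

end

end Crest.Agent.R249.Pb40
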