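import Crest.Agent.R247.Ms2_322

/-!
# R249, B3.3 part B (helper40): the metric is the derivative of the distance
-/

set_option autoImplicit false
set_option maxSynthPendingDepth 3
set_option linter.unusedSectionVars false

open Bundle Set Filter Metric
open scoped ContDiff Manifold Topology NNReal
open Crest.GeometryTopology.CoordMetric Crest.GeometryTopology.ChartCurvature
open Crest.Agent.R226.ChartMet842 Crest.Agent.R247.Ms322

noncomputable section

namespace Crest.Agent.R249.Pb40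

variable {n : ℕ} {M : Type*} [MetricSpace M] [ChartedSpace (EuclideanSpace ℝ (Fin n)) M]
  [IsManifold (𝓡 n) ∞ M]
  [RiemannianBundle (fun p : M => TangentSpace (𝓡 n) p)]
  [IsContMDiffRiemannianBundle (𝓡 n) ∞ (EuclideanSpace ℝ (Fin n)) (fun p : M => TangentSpace (𝓡 n) p)]
  [IsRiemannianManifold (𝓡 n) M]

local notation "𝔼" => EuclideanSpace ℝ (Fin n)

/-- the metric derivative of a chart curve -/
theorem tendsto_dist_div (x : M) {c : ℝ → 𝔼} {c' : 𝔼} (hc : HasDerivAt c c' 0)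
    (h0 : c 0 ∈ (chartAt 𝔼 x).target) :
    Tendsto (fun t => dist ((chartAt 𝔼 x).symm (c 0)) ((chartAt 𝔼 x).symm (c t)) / t)
      (𝓝[>] 0) (𝓝 (√(gm x (c 0) c' c'))) := by
  obtain ⟨A, hA, -⟩ := exists_isometry x h0
  have hnorm : ‖A c'‖ = √(gm x (c 0) c' c') := by
    rw [← hA, real_inner_self_eq_norm_sq, Real.sqrt_sq (norm_nonneg _)]
  rw [← hnorm]
  -- the Euclidean quotient
  have hslope : Tendsto (fun t => ‖A (c t) - A (c 0)‖ / t) (𝓝[>] 0) (𝓝 ‖A c'‖) := by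
    have h1 : HasDerivAt (fun t => A (c t)) (A c') 0 :=
      (A : 𝔼 →L[ℝ] 𝔼).hasFDerivAt.comp_hasDerivAt (0:ℝ) hc
    have h2 := ((hasDerivAt_iff_tendsto_slope.1 h1).mono_left
      (nhdsWithin_mono (0:ℝ) (fun t (ht : t ∈ Ioi (0:ℝ)) => (ne_of_gt ht : t ≠ 0)))).norm
    refine h2.congr' ?_
    filter_upwards [self_mem_nhdsWithin] with t ht
    rw [slope_def_module, norm_smul, sub_zero, norm_inv, Real.norm_eq_abs,
      abs_of_pos (show (0:ℝ) < t from ht)]
    field_simp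
  have hctn : ContinuousAt c 0 := hc.continuousAt
  -- squeeze
  have hkey : ∀ η : ℝ, 0 < η → ∀ᶠ t in 𝓝[>] (0:ℝ),
      ‖A (c t) - A (c 0)‖ / t ≤ (1 + η) *
        (dist ((chartAt 𝔼 x).symm (c 0)) ((chartAt 𝔼 x).symm (c t)) / t) ∧
      dist ((chartAt 𝔼 x).symm (c 0)) ((chartAt 𝔼 x).symm (c t)) / t ≤ (1 + η) *
        (‖A (c t) - A (c 0)‖ / t) := by
    intro η hη
    obtain ⟨r, hr0, hrt, hL1, hL2⟩ := exists_bilip x h0 hA (η := ⟨η, hη.le⟩) hη
    have hball : ∀ᶠ t in 𝓝[>] (0:ℝ), c t ∈ ball (c 0) r :=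
      (hctn.eventually (ball_mem_nhds _ hr0)).filter_mono nhdsWithin_le_nhds
    filter_upwards [hball, self_mem_nhdsWithin] with t ht ht0
    have ht0' : (0:ℝ) < t := ht0
    have hm0 : c 0 ∈ ball (c 0) r := mem_ball_self hr0
    constructor
    · have h1 := hL2.dist_le_mul _ ⟨c t, ht, rfl⟩ _ ⟨c 0, hm0, rfl⟩
      rw [(chartAt 𝔼 x).right_inv (hrt ht), (chartAt 𝔼 x).right_inv (hrt hm0),
        dist_eq_norm, dist_comm] at h1
      have h2 : (((1 + ⟨η, hη.le⟩ : ℝ≥0)) : ℝ) = 1 + η := rfl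
      rw [h2] at h1
      rw [← mul_div_assoc]
      exact div_le_div_of_nonneg_right h1 ht0'.le
    · have h1 := hL1.dist_le_mul _ ⟨c 0, hm0, rfl⟩ _ ⟨c t, ht, rfl⟩
      simp only [ContinuousLinearEquiv.symm_apply_apply] at h1
      rw [dist_comm (A (c 0)), dist_eq_norm (A (c t))] at h1
      have h2 : (((1 + ⟨η, hη.le⟩ : ℝ≥0)) : ℝ) = 1 + η := rfl
      rw [h2] at h1
      rw [← mul_div_assoc]
      exact div_le_div_of_nonneg_right h1 ht0'.le
  -- conclusion
  rw [Metric.tendsto_nhds]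
  intro ε hε
  set N := ‖A c'‖ with hN
  have hN0 : 0 ≤ N := norm_nonneg _
  obtain ⟨η, hη0, hη1, hη2⟩ : ∃ η : ℝ, 0 < η ∧ η ≤ 1 ∧ η * (N + 2) ≤ ε / 4 := by
    refine ⟨min 1 (ε / (4 * (N + 2))), by positivity, min_le_left _ _, ?_⟩
    calc min 1 (ε / (4 * (N + 2))) * (N + 2) ≤ ε / (4 * (N + 2)) * (N + 2) := by
          gcongr; exact min_le_right _ _
      _ = ε / 4 := by field_simp
  have hclose : ∀ᶠ t in 𝓝[>] (0:ℝ), |‖A (c t) - A (c 0)‖ / t - N| < min 1 (ε / 4) := by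
    have := (Metric.tendsto_nhds.1 hslope) (min 1 (ε / 4)) (by positivity)
    simpa [Real.dist_eq] using this
  filter_upwards [hkey η hη0, hclose, self_mem_nhdsWithin] with t h1 h2 h3
  obtain ⟨h4, h5⟩ := h1
  have h6 : |‖A (c t) - A (c 0)‖ / t - N| < 1 := h2.trans_le (min_le_left _ _)
  have h7 : |‖A (c t) - A (c 0)‖ / t - N| < ε / 4 := h2.trans_le (min_le_right _ _)
  rw [abs_lt] at h6 h7
  set q := ‖A (c t) - A (c 0)‖ / t with hq
  set d := dist ((chartAt 𝔼 x).symm (c 0)) ((chartAt 𝔼 x).symm (c t)) / t with hd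
  rw [Real.dist_eq, abs_lt]
  have h8 : d ≤ q + ε / 4 := by
    have : η * q ≤ η * (N + 2) := by gcongr; linarith
    nlinarith
  have h9 : q - ε / 2 ≤ d := by
    have h10 : d ≤ N + 2 + ε := by
      nlinarith
    have h11 : 0 ≤ d := by
      have : (0:ℝ) < t := h3
      positivity
    -- `q ≤ d + η d`, `η d ≤ ε / 2`
    have h12 : η * d ≤ ε / 2 := by
      have h13 : d ≤ (1 + η) * (N + 1) := h5.trans (by gcongr; linarith)
      have h14 : d ≤ 2 * (N + 2) := by nlinarith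
      nlinarith
    nlinarith
  constructor <;> linarith

end Crest.Agent.R249.Pb40
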