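import Crest.Agent.R249.MyS_40
import Crest.Agent.R249.PbA_40
import Crest.Agent.R249.PbB_40
import Crest.Agent.R226.ChartCost_77
import Crest.Agent.R226.GeoThm_542
import Crest.Agent.R247.Bo5_84

/-!
# R249, B3.3 part C (helper40): a distance preserving map from a model ball gives the curvature

`ModMet n r D S`: the model distance `D` (in normal coordinates at `0`) has metric derivative `√q` with
`q (tv) ξ = |ξ|² - t² S v ξ / 3 + o(t²)`.
`exists_pull`: if `F` maps the model ball distance-preservingly into `M` with `F 0 = x` then the chart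
metric at `x` pulls back to a metric with Taylor data `S` at the origin; so `secNumer = S`.
-/

set_option autoImplicit false
set_option maxSynthPendingDepth 3
set_option linter.unusedSectionVars false

open Bundle Set Filter Metric
open scoped ContDiff Manifold Topology NNReal
open Crest.GeometryTopology.CoordMetric Crest.GeometryTopology.ChartCurvature
open Crest.Agent.R226 Crest.Agent.R226.ChartMet842 Crest.Agent.R247.Ms322 Crest.Agent.R247.Bo84
open Crest.Agent.R202.Tens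

noncomputable section

namespace Crest.Agent.R249.Pb40

/-- the near-diagonal package of a global one -/
def toNear {n : ℕ} {M : Type*} [MetricSpace M] [ChartedSpace (EuclideanSpace ℝ (Fin n)) M]
    [IsManifold (𝓡 n) ∞ M]
    [RiemannianBundle (fun p : M => TangentSpace (𝓡 n) p)] (G : GeoData n M) : NearDiag n M where
  r₀ := G.r₀ / 2
  r₀_pos := half_pos G.r₀_pos
  e := G.ex
  smooth := G.smooth.contMDiffOn
  smooth_cost := G.smooth_cost.mono fun q (hq : dist q.1 q.2 < G.r₀ / 2) =>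
    (show dist q.1 q.2 < G.r₀ by linarith [G.r₀_pos])
  e_zero := G.ex_zero
  vel_zero x v _ := G.vel_zero x v
  norm_vel x v _ t _ := G.norm_vel x v t
  dist_eq x v hv s t hs ht := by
    refine G.dist_eq x v s t ?_
    have h1 : |s - t| ≤ 2 := by
      rw [abs_le] at hs ht ⊢
      constructor <;> linarith [hs.1, hs.2, ht.1, ht.2]
    nlinarith [norm_nonneg v]
  surj x y _ := by
    obtain ⟨v, h1, h2⟩ := G.surj x y
    exact ⟨v, h2, h1⟩
  inj x v w hv hw h := G.inj x v w (by linarith [G.r₀_pos]) (by linarith [G.r₀_pos]) h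
  hasDerivAt_cost x v ξ hv _ := G.hasDerivAt_cost x v ξ (by linarith [G.r₀_pos])

/-- model distance with its metric and curvature -/
structure ModMet (n : ℕ) (r : ℝ)
    (D : EuclideanSpace ℝ (Fin n) → EuclideanSpace ℝ (Fin n) → ℝ)
    (S : EuclideanSpace ℝ (Fin n) → EuclideanSpace ℝ (Fin n) → ℝ) : Prop
    extends MyS40.ModDist n r D where
  like : CurvLike S
  met : ∃ q : EuclideanSpace ℝ (Fin n) → EuclideanSpace ℝ (Fin n) → ℝ,
    (∀ v ξ : EuclideanSpace ℝ (Fin n), ‖v‖ < r → 0 ≤ q v ξ ∧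
      Tendsto (fun t : ℝ => D v (v + t • ξ) / t) (𝓝[>] 0) (𝓝 (√(q v ξ)))) ∧
    ∀ v ξ : EuclideanSpace ℝ (Fin n),
      Tendsto (fun t : ℝ => (q (t • v) ξ - ‖ξ‖ ^ 2) / t ^ 2) (𝓝[>] 0) (𝓝 (-S v ξ / 3))

theorem ModMet.mono {n : ℕ} {r r' : ℝ}
    {D : EuclideanSpace ℝ (Fin n) → EuclideanSpace ℝ (Fin n) → ℝ}
    {S : EuclideanSpace ℝ (Fin n) → EuclideanSpace ℝ (Fin n) → ℝ} (h : ModMet n r D S)
    (hr : r' ≤ r) : ModMet n r' D S where
  ray v hv := h.ray v (hv.trans_le hr)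
  var v ξ hv hξ := h.var v ξ (hv.trans_le hr) (hξ.trans_le hr)
  like := h.like
  met := by
    obtain ⟨q, h1, h2⟩ := h.met
    exact ⟨q, fun v ξ hv => h1 v ξ (hv.trans_le hr), h2⟩

section Main

variable {n : ℕ} {M : Type*} [MetricSpace M] [ChartedSpace (EuclideanSpace ℝ (Fin n)) M]
  [IsManifold (𝓡 n) ∞ M]
  [RiemannianBundle (fun p : M => TangentSpace (𝓡 n) p)]
  [IsContMDiffRiemannianBundle (𝓡 n) ∞ (EuclideanSpace ℝ (Fin n)) (fun p : M => TangentSpace (𝓡 n) p)]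
  [IsRiemannianManifold (𝓡 n) M] [CompactSpace M]

local notation "𝔼" => EuclideanSpace ℝ (Fin n)

/-- **pull-back of the metric by the model exponential** -/
theorem exists_pull (x : M) {r : ℝ} (hr : 0 < r) {D S : 𝔼 → 𝔼 → ℝ} (hD : ModMet n r D S)
    {F : 𝔼 → M} (hF0 : F 0 = x)
    (hF : ∀ v w : 𝔼, ‖v‖ < r → ‖w‖ < r → dist (F v) (F w) = D v w) :
    ∃ (g' : MetricField n) (Φ : 𝔼 → 𝔼) (V : Set 𝔼), (0:𝔼) ∈ V ∧ Φ 0 = chartCentre n M x ∧
      Pull g' (chartMetric n M x) Φ V (chartAt 𝔼 x).target ∧ Tay g' S := by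
  classical
  obtain ⟨G⟩ := GeoThm542.nonempty_geoData (n := n) (M := M)
    (NearDiagFinal996.nonempty_nearDiag (n := n) (M := M)).some
  set N := toNear G with hN
  set r' : ℝ := min r N.r₀ with hr'
  have hr'0 : 0 < r' := lt_min hr N.r₀_pos
  have hr'r : r' ≤ r := min_le_left _ _
  have hD' : ModMet n r' D S := hD.mono hr'r
  have hF' : ∀ v w : 𝔼, ‖v‖ < r' → ‖w‖ < r' → dist (F v) (F w) = D v w :=
    fun v w hv hw => hF v w (hv.trans_le hr'r) (hw.trans_le hr'r)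
  obtain ⟨A, hA, hFA⟩ := MyS40.exists_linear N hr'0 (min_le_right _ _) hD'.toModDist hF0 hF'
  have hFA' : ∀ v : 𝔼, ‖v‖ < r' → F v = G.ex x (A v) := hFA
  obtain ⟨q, hq1, hq2⟩ := hD'.met
  let Ai : 𝔼 →ₗᵢ[ℝ] TangentSpace (𝓡 n) x :=
    { A with
      norm_map' := fun v => by
        have h1 : ‖A v‖ ^ 2 = ‖v‖ ^ 2 := by
          rw [← real_inner_self_eq_norm_sq, ← real_inner_self_eq_norm_sq, hA]
        exact (sq_eq_sq₀ (norm_nonneg _) (norm_nonneg _)).1 h1 }
  have hAi : ∀ v, Ai v = A v := fun v => rfl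
  -- the map into `M`
  set ψ : 𝔼 → M := fun v => G.ex x (Ai v) with hψ
  have hψs : ContMDiff 𝓘(ℝ, 𝔼) (𝓡 n) ∞ ψ :=
    (MTWConc117.contMDiff_ex G x).comp (Ai.contDiff (n := ∞)).contMDiff
  have hψF : ∀ v : 𝔼, ‖v‖ < r' → ψ v = F v := fun v hv => (hFA' v hv).symm
  have hψ0 : ψ 0 = x := by
    rw [hψF 0 (by simpa using hr'0), hF0]
  set Φ : 𝔼 → 𝔼 := fun v => chartAt 𝔼 x (ψ v) with hΦ
  set V0 : Set 𝔼 := ψ ⁻¹' (chartAt 𝔼 x).source with hV0
  have hV0o : IsOpen V0 := (chartAt 𝔼 x).open_source.preimage hψs.continuous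
  have h0V0 : (0:𝔼) ∈ V0 := by
    show ψ 0 ∈ (chartAt 𝔼 x).source
    rw [hψ0]; exact mem_chart_source 𝔼 x
  have hΦs : ContDiffOn ℝ ∞ Φ V0 := by
    rw [← contMDiffOn_iff_contDiffOn]
    have h2 : ContMDiffOn (𝓡 n) 𝓘(ℝ, 𝔼) ∞ (chartAt 𝔼 x) (chartAt 𝔼 x).source := contMDiffOn_chart
    exact h2.comp hψs.contMDiffOn fun y hy => hy
  have hΦd : ∀ v ∈ V0, HasFDerivAt Φ (fderiv ℝ Φ v) v := fun v hv =>
    ((hΦs.contDiffAt (hV0o.mem_nhds hv)).differentiableAt (by norm_num)).hasFDerivAt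
  -- the derivative at the origin
  have hd0 : ∀ ξ : 𝔼, (fderiv ℝ Φ 0 ξ : 𝔼) = A ξ := by
    intro ξ
    have h1 := ChartCost77.hasDerivAt_chart_radial G x (A ξ)
    have h2 : HasDerivAt (fun t : ℝ => t • ξ) ξ 0 := by
      have := (hasDerivAt_id (0:ℝ)).smul_const ξ
      simpa using this
    have h3 : HasFDerivAt Φ (fderiv ℝ Φ 0) ((0:ℝ) • ξ) := by
      rw [zero_smul]; exact hΦd 0 h0V0
    have h4 := h3.comp_hasDerivAt (0:ℝ) h2
    have h5 : HasDerivAt (fun t : ℝ => Φ (t • ξ)) (A ξ : 𝔼) 0 := by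
      refine h1.congr_of_eventuallyEq (Eventually.of_forall fun t => ?_)
      show chartAt 𝔼 x (G.ex x (Ai (t • ξ))) = extChartAt (𝓡 n) x (G.ex x (t • A ξ))
      rw [map_smul, hAi]
      rfl
    exact h4.unique h5
  set V : Set 𝔼 := V0 ∩ (fun v => (fderiv ℝ Φ v).det) ⁻¹' {0}ᶜ with hV
  have hVo : IsOpen V := by
    refine ContinuousOn.isOpen_inter_preimage ?_ hV0o isOpen_compl_singleton
    exact ContinuousLinearMap.continuous_det.comp_continuousOn
      (hΦs.continuousOn_fderiv_of_isOpen hV0o (by norm_num))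
  have h0V : (0:𝔼) ∈ V := by
    refine ⟨h0V0, ?_⟩
    show (fderiv ℝ Φ 0).det ≠ 0
    have hinj : Function.Injective (fderiv ℝ Φ 0) := by
      intro u v huv
      rw [hd0, hd0] at huv
      exact Ai.injective huv
    have hk : LinearMap.ker ((fderiv ℝ Φ 0 : 𝔼 →L[ℝ] 𝔼) : 𝔼 →ₗ[ℝ] 𝔼) = ⊥ :=
      LinearMap.ker_eq_bot.2 hinj
    intro hdet
    exact (LinearMap.bot_lt_ker_of_det_eq_zero
      (f := ((fderiv ℝ Φ 0 : 𝔼 →L[ℝ] 𝔼) : 𝔼 →ₗ[ℝ] 𝔼)) hdet).ne' hk
  set g' : MetricField n := fun y => Matrix.of fun i j => ∑ a, ∑ b,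
    chartMetric n M x (Φ y) a b * (fderiv ℝ Φ y (EuclideanSpace.single i 1)) a *
      (fderiv ℝ Φ y (EuclideanSpace.single j 1)) b with hg'
  have hP : Pull g' (chartMetric n M x) Φ V (chartAt 𝔼 x).target :=
    { isOpen := hVo
      riem := Crest.Agent.R247.Bo84.isRiemannianOn_chartMetric x
      maps := fun y hy => (chartAt 𝔼 x).map_source hy.1
      smooth := hΦs.mono inter_subset_left
      pull := fun y hy i j => rfl
      inj := fun y hy =>
        ((fderiv ℝ Φ y).toContinuousLinearEquivOfDetNeZero hy.2).injective }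
  -- the metric is `q`
  have hbq : ∀ v ∈ V, ‖v‖ < r' → ∀ ξ : 𝔼, bil (g' v) ξ ξ = q v ξ := by
    intro v hv hvr ξ
    obtain ⟨hq0, hql⟩ := hq1 v ξ hvr
    have hline : HasDerivAt (fun t : ℝ => v + t • ξ) ξ 0 := by
      have := ((hasDerivAt_id (0:ℝ)).smul_const ξ).const_add v
      simpa using this
    have hc : HasDerivAt (fun t : ℝ => Φ (v + t • ξ)) (fderiv ℝ Φ v ξ) 0 := by
      have h3 : HasFDerivAt Φ (fderiv ℝ Φ v) (v + (0:ℝ) • ξ) := by
        rw [zero_smul, add_zero]; exact hΦd v hv.1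
      exact h3.comp_hasDerivAt (0:ℝ) hline
    have h1 := tendsto_dist_div x hc (by
      show Φ (v + (0:ℝ) • ξ) ∈ (chartAt 𝔼 x).target
      rw [zero_smul, add_zero]; exact hP.maps v hv)
    rw [zero_smul, add_zero] at h1
    have hlim : Tendsto (fun t : ℝ => v + t • ξ) (𝓝[>] 0) (𝓝 v) := by
      have h2 : Tendsto (fun t : ℝ => v + t • ξ) (𝓝 0) (𝓝 (v + (0:ℝ) • ξ)) :=
        hline.continuousAt.tendsto
      rw [zero_smul, add_zero] at h2
      exact h2.mono_left nhdsWithin_le_nhds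
    have e1 : ∀ᶠ t : ℝ in 𝓝[>] 0, v + t • ξ ∈ V0 ∧ ‖v + t • ξ‖ < r' :=
      (hlim.eventually (hV0o.mem_nhds hv.1)).and
        (hlim.norm.eventually (gt_mem_nhds hvr))
    have h2 : Tendsto (fun t : ℝ => D v (v + t • ξ) / t) (𝓝[>] 0)
        (𝓝 (√(gm x (Φ v) (fderiv ℝ Φ v ξ) (fderiv ℝ Φ v ξ)))) := by
      refine h1.congr' ?_
      filter_upwards [e1] with t ht
      have e2 : (chartAt 𝔼 x).symm (Φ v) = ψ v := (chartAt 𝔼 x).left_inv hv.1
      have e3 : (chartAt 𝔼 x).symm (Φ (v + t • ξ)) = ψ (v + t • ξ) :=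
        (chartAt 𝔼 x).left_inv ht.1
      rw [e2, e3, hψF v hvr, hψF _ ht.2, hF' v _ hvr ht.2]
    have h3 := tendsto_nhds_unique h2 hql
    have h4 : gm x (Φ v) (fderiv ℝ Φ v ξ) (fderiv ℝ Φ v ξ) = q v ξ := by
      rw [← Real.sq_sqrt (gm_self_nonneg x (Φ v) (fderiv ℝ Φ v ξ)), h3, Real.sq_sqrt hq0]
    rw [hP.bil_eq hv, bil_chartMetric, ← h4, gm_apply]
    rfl
  have hmem : ∀ v : 𝔼, ∀ᶠ t : ℝ in 𝓝[>] 0, t • v ∈ V ∧ ‖t • v‖ < r' := by
    intro v
    have hlim : Tendsto (fun t : ℝ => t • v) (𝓝[>] 0) (𝓝 (0:𝔼)) := by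
      have h2 : Tendsto (fun t : ℝ => t • v) (𝓝 0) (𝓝 ((0:ℝ) • v)) :=
        (by fun_prop : Continuous fun t : ℝ => t • v).tendsto 0
      rw [zero_smul] at h2
      exact h2.mono_left nhdsWithin_le_nhds
    refine (hlim.eventually (hVo.mem_nhds h0V)).and (hlim.norm.eventually (gt_mem_nhds ?_))
    simpa using hr'0
  have h0r : ‖(0:𝔼)‖ < r' := by simpa using hr'0
  -- the metric at the origin
  have hz1 : ∀ ξ : 𝔼, bil (g' 0) ξ ξ = ‖ξ‖ ^ 2 := by
    intro ξ
    rw [hbq 0 h0V h0r ξ]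
    obtain ⟨hq0, hql⟩ := hq1 0 ξ h0r
    have h1 : Tendsto (fun t : ℝ => D 0 (0 + t • ξ) / t) (𝓝[>] 0) (𝓝 ‖ξ‖) := by
      refine tendsto_const_nhds.congr' ?_
      -- `D 0 (tξ) = t ‖ξ‖`
      by_cases hξ : ξ = 0
      · filter_upwards with t
        have := hD'.ray 0 h0r 0 0 le_rfl zero_le_one le_rfl zero_le_one
        simp only [smul_zero, sub_zero, norm_zero, mul_zero] at this
        subst hξ
        simp [this]
      · have hξ' : 0 < ‖ξ‖ := norm_pos_iff.2 hξ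
        have hIoo : Ioo (0:ℝ) (r' / ‖ξ‖) ∈ 𝓝[>] (0:ℝ) := Ioo_mem_nhdsGT (by positivity)
        filter_upwards [hIoo] with t ht
        have htr : ‖t • ξ‖ < r' := by
          rw [norm_smul, Real.norm_eq_abs, abs_of_pos ht.1]
          exact (lt_div_iff₀ hξ').1 ht.2
        have := hD'.ray (t • ξ) htr 0 1 le_rfl zero_le_one zero_le_one le_rfl
        rw [zero_smul, one_smul, norm_smul, Real.norm_eq_abs, abs_of_pos ht.1] at this
        rw [zero_add, this]
        have ht0 : t ≠ 0 := ht.1.ne'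
        simp
        field_simp
    have h2 := tendsto_nhds_unique hql h1
    rw [← h2, Real.sq_sqrt hq0]
  refine ⟨g', Φ, V, h0V, ?_, hP, ?_⟩
  · show chartAt 𝔼 x (ψ 0) = _
    rw [hψ0]; rfl
  · refine ⟨?_, ?_⟩
    · intro u v
      have e1 := hz1 (u + v)
      have e2 := hz1 u
      have e3 := hz1 v
      have e4 := bil_symm hP.riem' h0V u v
      simp only [map_add, add_apply] at e1
      have e5 := norm_add_sq_real u v
      linarith
    · intro v ξ
      refine (hq2 v ξ).congr' ?_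
      filter_upwards [hmem v] with t ht
      rw [hbq _ ht.1 ht.2]

/-- consequences at the centre of the preferred chart -/
theorem curvature_of_model (x : M) {r : ℝ} (hr : 0 < r) {D S : 𝔼 → 𝔼 → ℝ} (hD : ModMet n r D S)
    {F : 𝔼 → M} (hF0 : F 0 = x)
    (hF : ∀ v w : 𝔼, ‖v‖ < r → ‖w‖ < r → dist (F v) (F w) = D v w) :
    ∃ L : 𝔼 ≃ₗ[ℝ] 𝔼,
      (∀ u v, bil (chartMetric n M x (chartCentre n M x)) (L u) (L v) = inner ℝ u v) ∧
      (∀ u v, secNumer (chartMetric n M x) (chartCentre n M x) (L u) (L v) = S u v) ∧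
      (∀ u v, gramDet (chartMetric n M x) (chartCentre n M x) (L u) (L v) =
        ‖u‖ ^ 2 * ‖v‖ ^ 2 - inner ℝ u v ^ 2) ∧
      (∀ v, ∑ i, ∑ j, ricci (chartMetric n M x) (chartCentre n M x) i j * (L v) i * (L v) j =
        ∑ k, S (EuclideanSpace.single k 1) v) := by
  obtain ⟨g', Φ, V, h0, hc, hP, hT⟩ := exists_pull x hr hD hF0 hF
  have hb := fun u v => hP.bil_eq h0 u v
  refine ⟨LinearEquiv.ofBijective (fderiv ℝ Φ 0 : 𝔼 →ₗ[ℝ] 𝔼) ⟨hP.inj 0 h0, hP.surj h0⟩,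
    ?_, ?_, ?_, ?_⟩
  · intro u v
    have := hb u v
    rw [hc, hT.zero] at this
    exact this.symm
  · intro u v
    have := hP.secNumer_pull h0 u v
    rw [hc, secNumer_eq_of_tay hP.riem' h0 hT hD.like] at this
    exact this.symm
  · intro u v
    have := hP.gramDet_pull h0 u v
    rw [hc, gramDet_eq_of_one hT.zero] at this
    exact this.symm
  · intro v
    have := hP.ricci_pull h0 v v
    rw [hc, ricci_eq_sum_secNumer hP.riem' h0 hT.zero] at this
    refine Eq.trans this.symm ?_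
    refine Finset.sum_congr rfl fun k _ => ?_
    rw [secNumer_eq_of_tay hP.riem' h0 hT hD.like]

end Main

end Crest.Agent.R249.Pb40
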