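import Crest.Agent.R202.EllFinal

/-!
Row 249, leaf A-PEN (helper255), part A: elliptic regularity with a zero order term.
`ell_reg_zero` : distributional solutions `u ∈ L¹_loc(U)` of `div(A∇u) - w u = f`, `A`, `w`, `f` smooth,
`w > 0`, are smooth.  (Apply `R202.Ell.ell_regularity (n+1)` to `u(x) cos t` and `div(A∇) + w ∂_t²`.)
-/

set_option autoImplicit false

open MeasureTheory Set Filter Topology
open scoped BigOperators ContDiff
open Crest.GeometryTopology.CoordMetric
open Crest.Agent.R202.Ell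

namespace Crest.Agent.R249.PenA_255

noncomputable section

variable {n : ℕ}

local notation "E" => EuclideanSpace ℝ (Fin n)
local notation "E'" => EuclideanSpace ℝ (Fin (n + 1))

/-- the linear identification `ℝ × ℝⁿ = ℝⁿ⁺¹` -/
def kL (n : ℕ) : (ℝ × EuclideanSpace ℝ (Fin n)) ≃ₗ[ℝ] EuclideanSpace ℝ (Fin (n + 1)) where
  toFun p := WithLp.toLp 2 (Fin.cons p.1 p.2.ofLp : Fin (n + 1) → ℝ)
  invFun y := (y 0, WithLp.toLp 2 fun i => y i.succ)
  map_add' p q := by
    ext i
    refine Fin.cases ?_ (fun j => ?_) i <;> simp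
  map_smul' c p := by
    ext i
    refine Fin.cases ?_ (fun j => ?_) i <;> simp
  left_inv p := by
    rcases p with ⟨t, x⟩
    simp
  right_inv y := by
    ext i
    refine Fin.cases ?_ (fun j => ?_) i <;> simp

/-- the continuous linear identification `ℝ × ℝⁿ = ℝⁿ⁺¹` -/
def kE (n : ℕ) : (ℝ × EuclideanSpace ℝ (Fin n)) ≃L[ℝ] EuclideanSpace ℝ (Fin (n + 1)) :=
  (kL n).toContinuousLinearEquiv

/-- the last `n` coordinates -/
def tl (n : ℕ) : EuclideanSpace ℝ (Fin (n + 1)) →L[ℝ] EuclideanSpace ℝ (Fin n) :=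
  (ContinuousLinearMap.snd ℝ ℝ (EuclideanSpace ℝ (Fin n))).comp
    ((kE n).symm : EuclideanSpace ℝ (Fin (n + 1)) →L[ℝ] (ℝ × EuclideanSpace ℝ (Fin n)))

theorem kE_zero (t : ℝ) (x : E) : (kE n (t, x)) 0 = t := rfl

theorem kE_succ (t : ℝ) (x : E) (i : Fin n) : (kE n (t, x)) i.succ = x i := rfl

theorem tl_kE (t : ℝ) (x : E) : tl n (kE n (t, x)) = x := by
  simp [tl]

theorem kE_eta (y : E') : kE n (y 0, tl n y) = y := by
  have h : (kE n).symm y = (y 0, tl n y) := rfl
  rw [← h, ContinuousLinearEquiv.apply_symm_apply]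

theorem kE_single_zero : kE n ((1 : ℝ), (0 : E)) = EuclideanSpace.single 0 1 := by
  ext i
  refine Fin.cases ?_ (fun j => ?_) i
  · rw [kE_zero]; simp
  · rw [kE_succ]; simp [Fin.succ_ne_zero]

theorem kE_single_succ (i : Fin n) :
    kE n ((0 : ℝ), (EuclideanSpace.single i (1 : ℝ) : E)) = EuclideanSpace.single i.succ 1 := by
  ext j
  refine Fin.cases ?_ (fun j => ?_) j
  · rw [kE_zero]; simp [(Fin.succ_ne_zero i).symm]
  · rw [kE_succ]
    by_cases h : j = i
    · subst h; simp
    · have h' : j.succ ≠ i.succ := fun e => h (Fin.succ_injective _ e)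
      simp [h, h']

theorem measurePreserving_kE :
    MeasurePreserving (kE n) (volume : Measure (ℝ × EuclideanSpace ℝ (Fin n))) volume := by
  have h1 : MeasurePreserving (fun p : ℝ × E => (p.1, p.2.ofLp)) volume volume :=
    (MeasurePreserving.id volume).prod (PiLp.volume_preserving_ofLp (Fin n))
  have h2 := (volume_preserving_piFinSuccAbove (fun _ : Fin (n + 1) => ℝ) 0).symm
  have h3 := (PiLp.volume_preserving_toLp (Fin (n + 1)))
  have h4 := h3.comp (h2.comp h1)
  have e : (kE n : ℝ × E → E') = (WithLp.toLp 2) ∘ (MeasurableEquiv.piFinSuccAbove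
      (fun _ : Fin (n + 1) => ℝ) 0).symm ∘ fun p : ℝ × E => (p.1, p.2.ofLp) := by
    funext p
    ext i
    refine Fin.cases ?_ (fun j => ?_) i
    · simp only [Function.comp, MeasurableEquiv.piFinSuccAbove_symm_apply, Fin.insertNthEquiv_zero]; rfl
    · simp only [Function.comp, MeasurableEquiv.piFinSuccAbove_symm_apply, Fin.insertNthEquiv_zero]; rfl
  rw [e]
  exact h4

theorem measurableEmbedding_kE : MeasurableEmbedding (kE n) :=
  (kE n).toHomeomorph.measurableEmbedding

theorem integral_kE (G : E' → ℝ) : ∫ y, G y = ∫ p : ℝ × E, G (kE n p) :=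
  (measurePreserving_kE.integral_comp measurableEmbedding_kE G).symm

/-! ### derivatives -/

theorem hasFDerivAt_line (t : ℝ) (x : E) :
    HasFDerivAt (fun s : ℝ => kE n (s, x))
      (((kE n : (ℝ × E) →L[ℝ] E')).comp (ContinuousLinearMap.inl ℝ ℝ E)) t := by
  exact (kE n : (ℝ × E) →L[ℝ] E').hasFDerivAt.comp t (hasFDerivAt_prodMk_left t x)

theorem hasFDerivAt_slice (t : ℝ) (x : E) :
    HasFDerivAt (fun z : E => kE n (t, z))
      (((kE n : (ℝ × E) →L[ℝ] E')).comp (ContinuousLinearMap.inr ℝ ℝ E)) x := by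
  exact (kE n : (ℝ × E) →L[ℝ] E').hasFDerivAt.comp x (hasFDerivAt_prodMk_right t x)

theorem hasDerivAt_line {G : E' → ℝ} {t : ℝ} {x : E}
    (hG : DifferentiableAt ℝ G (kE n (t, x))) :
    HasDerivAt (fun s : ℝ => G (kE n (s, x))) (pderiv 0 G (kE n (t, x))) t := by
  have h := (hG.hasFDerivAt.comp t (hasFDerivAt_line t x)).hasDerivAt
  have e : (((fderiv ℝ G (kE n (t, x))).comp
      (((kE n : (ℝ × E) →L[ℝ] E')).comp (ContinuousLinearMap.inl ℝ ℝ E))) (1 : ℝ))
      = pderiv 0 G (kE n (t, x)) := by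
    simp only [ContinuousLinearMap.comp_apply, ContinuousLinearMap.inl_apply, pderiv]
    rw [← kE_single_zero]
    rfl
  rw [e] at h
  exact h

theorem pderiv_slice {G : E' → ℝ} {t : ℝ} {x : E} (i : Fin n)
    (hG : DifferentiableAt ℝ G (kE n (t, x))) :
    pderiv i (fun z : E => G (kE n (t, z))) x = pderiv i.succ G (kE n (t, x)) := by
  have h := (hG.hasFDerivAt.comp x (hasFDerivAt_slice t x)).fderiv
  unfold pderiv
  have e : (fun z : E => G (kE n (t, z))) = G ∘ fun z : E => kE n (t, z) := rfl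
  rw [e, h]
  simp only [ContinuousLinearMap.comp_apply, ContinuousLinearMap.inr_apply]
  rw [← kE_single_succ]
  rfl

/-- the matrix `diag(w, A)` -/
def ext (A : E → Matrix (Fin n) (Fin n) ℝ) (w : E → ℝ) (y : E') :
    Matrix (Fin (n + 1)) (Fin (n + 1)) ℝ :=
  Matrix.of (Fin.cons (Fin.cons (w (tl n y)) fun _ => 0)
    fun i => Fin.cons 0 fun j => A (tl n y) i j)

variable {A : EuclideanSpace ℝ (Fin n) → Matrix (Fin n) (Fin n) ℝ}
  {w f u : EuclideanSpace ℝ (Fin n) → ℝ} {U : Set (EuclideanSpace ℝ (Fin n))}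

theorem ext_zero_zero (y : E') : ext A w y 0 0 = w (tl n y) := rfl
theorem ext_zero_succ (y : E') (j : Fin n) : ext A w y 0 j.succ = 0 := rfl
theorem ext_succ_zero (y : E') (i : Fin n) : ext A w y i.succ 0 = 0 := rfl
theorem ext_succ_succ (y : E') (i j : Fin n) : ext A w y i.succ j.succ = A (tl n y) i j := rfl

theorem posDef_ext {y : E'} (hA : (A (tl n y)).PosDef) (hw : 0 < w (tl n y)) :
    (ext A w y).PosDef := by
  refine Matrix.PosDef.of_dotProduct_mulVec_pos ?_ ?_
  · ext i j
    refine Fin.cases ?_ (fun i => ?_) i <;> refine Fin.cases ?_ (fun j => ?_) j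
    · simp [ext_zero_zero]
    · simp [ext_zero_succ, ext_succ_zero]
    · simp [ext_zero_succ, ext_succ_zero]
    · simp only [Matrix.conjTranspose_apply, ext_succ_succ]
      exact hA.1.apply i j
  · intro v hv
    have h0 : star v ⬝ᵥ (ext A w y).mulVec v =
        w (tl n y) * v 0 ^ 2 + (star (fun i : Fin n => v i.succ)) ⬝ᵥ
          (A (tl n y)).mulVec (fun i : Fin n => v i.succ) := by
      simp only [dotProduct, Matrix.mulVec, Fin.sum_univ_succ, Pi.star_apply, star_trivial,
        ext_zero_zero, ext_zero_succ, ext_succ_zero, ext_succ_succ]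
      simp
      ring
    rw [h0]
    by_cases hs : (fun i : Fin n => v i.succ) = 0
    · have hv0 : v 0 ≠ 0 := by
        intro h
        apply hv
        funext i
        refine Fin.cases h (fun j => ?_) i
        exact congrFun hs j
      rw [hs]
      have : 0 < w (tl n y) * v 0 ^ 2 := by positivity
      simpa using this
    · have h1 := hA.dotProduct_mulVec_pos hs
      have : 0 ≤ w (tl n y) * v 0 ^ 2 := by positivity
      linarith

theorem contDiffAt_entry (hU : IsOpen U) (hA : ∀ i j, ContDiffOn ℝ ∞ (fun x => A x i j) U)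
    (i j : Fin n) {y : E'} (hy : tl n y ∈ U) : ContDiffAt ℝ ∞ (fun z => A (tl n z) i j) y :=
  ((hA i j).contDiffAt (hU.mem_nhds hy)).comp y (tl n).contDiff.contDiffAt

theorem contDiffAt_comp_tl (hU : IsOpen U) (hw : ContDiffOn ℝ ∞ w U) {y : E'} (hy : tl n y ∈ U) :
    ContDiffAt ℝ ∞ (fun z => w (tl n z)) y :=
  (hw.contDiffAt (hU.mem_nhds hy)).comp y (tl n).contDiff.contDiffAt

theorem contDiffAt_pderiv {m : ℕ} {k : WithTop ℕ∞} (j : Fin m) {G : EuclideanSpace ℝ (Fin m) → ℝ}
    {y : EuclideanSpace ℝ (Fin m)} (hG : ContDiffAt ℝ (k + 1) G y) :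
    ContDiffAt ℝ k (pderiv j G) y :=
  (hG.fderiv_right (m := k) le_rfl).clm_apply contDiffAt_const

/-- `div(diag(w,A) ∇G) = w ∂_t² G + div(A ∇ G(t,·))` -/
theorem divA_ext (hU : IsOpen U) (hA : ∀ i j, ContDiffOn ℝ ∞ (fun x => A x i j) U)
    (hw : ContDiffOn ℝ ∞ w U) {G : E' → ℝ} {t : ℝ} {x : E} (hx : x ∈ U)
    (hG : ContDiffAt ℝ 2 G (kE n (t, x))) :
    divA (ext A w) G (kE n (t, x)) = w x * pderiv 0 (pderiv 0 G) (kE n (t, x)) +
      divA A (fun z => G (kE n (t, z))) x := by
  have htl : tl n (kE n (t, x)) = x := tl_kE t x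
  have hyU : tl n (kE n (t, x)) ∈ U := by rw [htl]; exact hx
  have hp : ∀ j, ContDiffAt ℝ 1 (pderiv j G) (kE n (t, x)) := fun j => contDiffAt_pderiv j hG
  have hpd : ∀ j, DifferentiableAt ℝ (pderiv j G) (kE n (t, x)) := fun j =>
    (hp j).differentiableAt (by norm_num)
  have hwd : DifferentiableAt ℝ (fun z => w (tl n z)) (kE n (t, x)) :=
    (contDiffAt_comp_tl hU hw hyU).differentiableAt (by simp)
  have hAd : ∀ i j, DifferentiableAt ℝ (fun z => A (tl n z) i j) (kE n (t, x)) := fun i j =>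
    (contDiffAt_entry hU hA i j hyU).differentiableAt (by simp)
  unfold divA
  rw [Fin.sum_univ_succ]
  congr 1
  · -- time part
    have e1 : (fun y : E' => ∑ j, ext A w y 0 j * pderiv j G y) =
        fun y => w (tl n y) * pderiv 0 G y := by
      funext y
      rw [Fin.sum_univ_succ]
      simp [ext_zero_zero, ext_zero_succ]
    rw [e1]
    have h1 := hasDerivAt_line (hwd.mul (hpd 0))
    have h2 := (hasDerivAt_line (hpd 0)).const_mul (w x)
    have e2 : (fun s : ℝ => ((fun z => w (tl n z)) * pderiv 0 G) (kE n (s, x))) =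
        fun s => w x * pderiv 0 G (kE n (s, x)) := by
      funext s
      simp only [Pi.mul_apply, tl_kE]
    rw [e2] at h1
    exact h1.unique h2
  · refine Finset.sum_congr rfl fun i _ => ?_
    have e1 : (fun y : E' => ∑ j, ext A w y i.succ j * pderiv j G y) =
        fun y => ∑ j : Fin n, A (tl n y) i j * pderiv j.succ G y := by
      funext y
      rw [Fin.sum_univ_succ]
      simp [ext_succ_zero, ext_succ_succ]
    rw [e1]
    have hd : DifferentiableAt ℝ (fun y => ∑ j : Fin n, A (tl n y) i j * pderiv j.succ G y)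
        (kE n (t, x)) :=
      DifferentiableAt.fun_sum fun j _ => (hAd i j).mul (hpd j.succ)
    rw [← pderiv_slice i hd]
    have hev : ∀ᶠ z in 𝓝 x, DifferentiableAt ℝ G (kE n (t, z)) := by
      have h1 : ∀ᶠ y in 𝓝 (kE n (t, x)), DifferentiableAt ℝ G y := by
        filter_upwards [hG.eventually (by simp)] with y hy using hy.differentiableAt (by norm_num)
      exact ((kE n).continuous.comp (continuous_const.prodMk continuous_id)).continuousAt.eventually h1
    have he : (fun z : E => ∑ j : Fin n, A (tl n (kE n (t, z))) i j *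
        pderiv j.succ G (kE n (t, z))) =ᶠ[𝓝 x]
        fun z => ∑ j : Fin n, A z i j * pderiv j (fun z' => G (kE n (t, z'))) z := by
      filter_upwards [hev] with z hz
      refine Finset.sum_congr rfl fun j _ => ?_
      rw [tl_kE, pderiv_slice j hz]
    unfold pderiv at he ⊢
    rw [he.fderiv_eq]

/-! ### integrability -/

theorem integrable_mul_of_locOn {m : ℕ} {V : Set (EuclideanSpace ℝ (Fin m))}
    {v G : EuclideanSpace ℝ (Fin m) → ℝ} (hv : LocallyIntegrableOn v V) (hG : Continuous G)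
    (hc : HasCompactSupport G) (hs : tsupport G ⊆ V) : Integrable fun x => v x * G x := by
  have hI : Integrable ((tsupport G).indicator v) := by
    rw [integrable_indicator_iff (isClosed_tsupport G).measurableSet]
    exact hv.integrableOn_compact_subset hs hc.isCompact
  obtain ⟨C, hC⟩ := hc.exists_bound_of_continuous hG
  refine (hI.mul_bdd hG.aestronglyMeasurable (Eventually.of_forall hC)).congr
    (Eventually.of_forall fun x => ?_)
  by_cases hx : x ∈ tsupport G
  · simp only [Set.indicator_of_mem hx]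
  · simp only [Set.indicator_of_notMem hx, image_eq_zero_of_notMem_tsupport hx, mul_zero]

/-- `u(x) cos t` -/
def uc (u : EuclideanSpace ℝ (Fin n) → ℝ) (y : EuclideanSpace ℝ (Fin (n + 1))) : ℝ :=
  Real.cos (y 0) * u (tl n y)

theorem uc_kE (t : ℝ) (x : E) : uc u (kE n (t, x)) = Real.cos t * u x := by
  rw [uc, kE_zero, tl_kE]

/-- the cylinder over `U` -/
def Uc (U : Set (EuclideanSpace ℝ (Fin n))) : Set (EuclideanSpace ℝ (Fin (n + 1))) :=
  (tl n) ⁻¹' U

theorem isOpen_Uc (hU : IsOpen U) : IsOpen (Uc U) := hU.preimage (tl n).continuous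

theorem mem_Uc {t : ℝ} {x : E} : kE n (t, x) ∈ Uc U ↔ x ∈ U := by
  rw [Uc, mem_preimage, tl_kE]

theorem locallyIntegrableOn_uc (hU : IsOpen U) (hu : LocallyIntegrableOn u U) :
    LocallyIntegrableOn (uc u) (Uc U) := by
  intro y hy
  have hx : tl n y ∈ U := hy
  obtain ⟨S, hS, hSi⟩ := hu (tl n y) hx
  rw [hU.nhdsWithin_eq hx] at hS
  set I : Set ℝ := Icc (y 0 - 1) (y 0 + 1) with hI
  refine ⟨kE n '' (I ×ˢ S), ?_, ?_⟩
  · refine mem_nhdsWithin_of_mem_nhds ?_
    have h1 : I ×ˢ S ∈ 𝓝 ((y 0, tl n y) : ℝ × E) :=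
      prod_mem_nhds (Icc_mem_nhds (by linarith) (by linarith)) hS
    have h2 := (kE n).toHomeomorph.isOpenMap.image_mem_nhds h1
    have h3 : (kE n).toHomeomorph (y 0, tl n y) = y := kE_eta y
    rw [h3] at h2
    exact h2
  · rw [measurePreserving_kE.integrableOn_image measurableEmbedding_kE]
    have e : uc u ∘ kE n = fun p : ℝ × E => Real.cos p.1 * u p.2 := by
      funext p
      exact uc_kE p.1 p.2
    rw [e]
    have h1 : Integrable (fun t : ℝ => Real.cos t) (volume.restrict I) :=
      (Real.continuous_cos.continuousOn).integrableOn_Icc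
    have h2 : Integrable u (volume.restrict S) := hSi
    have h3 := Integrable.mul_prod h1 h2
    rw [Measure.prod_restrict] at h3
    exact h3

/-! ### test functions on the cylinder -/

section Test

variable {φ : EuclideanSpace ℝ (Fin (n + 1)) → ℝ}

theorem contDiff_slice (hφ : ContDiff ℝ ∞ φ) (t : ℝ) : ContDiff ℝ ∞ fun x : E => φ (kE n (t, x)) :=
  hφ.comp ((kE n).contDiff.comp (contDiff_const.prodMk contDiff_id))

theorem contDiff_line (hφ : ContDiff ℝ ∞ φ) (x : E) : ContDiff ℝ ∞ fun t : ℝ => φ (kE n (t, x)) :=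
  hφ.comp ((kE n).contDiff.comp (contDiff_id.prodMk contDiff_const))

theorem tsupport_slice (t : ℝ) :
    tsupport (fun x : E => φ (kE n (t, x))) ⊆ (fun x : E => kE n (t, x)) ⁻¹' tsupport φ := by
  refine closure_minimal (fun x hx => subset_tsupport φ hx) ?_
  exact (isClosed_tsupport φ).preimage
    ((kE n).continuous.comp (continuous_const.prodMk continuous_id))

theorem tsupport_line (x : E) :
    tsupport (fun t : ℝ => φ (kE n (t, x))) ⊆ (fun t : ℝ => kE n (t, x)) ⁻¹' tsupport φ := by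
  refine closure_minimal (fun t ht => subset_tsupport φ ht) ?_
  exact (isClosed_tsupport φ).preimage
    ((kE n).continuous.comp (continuous_id.prodMk continuous_const))

theorem hasCompactSupport_slice (hc : HasCompactSupport φ) (t : ℝ) :
    HasCompactSupport fun x : E => φ (kE n (t, x)) := by
  have h1 : IsCompact (tl n '' tsupport φ) := hc.isCompact.image (tl n).continuous
  refine h1.of_isClosed_subset (isClosed_tsupport _) fun x hx => ?_
  exact ⟨_, tsupport_slice t hx, tl_kE t x⟩

theorem hasCompactSupport_line (hc : HasCompactSupport φ) (x : E) :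
    HasCompactSupport fun t : ℝ => φ (kE n (t, x)) := by
  have hcont : Continuous fun y : E' => y 0 :=
    (EuclideanSpace.proj (0 : Fin (n + 1)) : E' →L[ℝ] ℝ).continuous
  have h1 : IsCompact ((fun y : E' => y 0) '' tsupport φ) := hc.isCompact.image hcont
  refine h1.of_isClosed_subset (isClosed_tsupport _) fun t ht => ?_
  exact ⟨_, tsupport_line x ht, kE_zero t x⟩

theorem integral_line_zero (hφ : ContDiff ℝ ∞ φ) (hc : HasCompactSupport φ) (x : E) :
    ∫ t : ℝ, Real.cos t * (pderiv 0 (pderiv 0 φ) (kE n (t, x)) + φ (kE n (t, x))) = 0 := by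
  have hp : ContDiff ℝ ∞ (pderiv 0 φ) := contDiff_pderiv hφ 0
  have hpp : ContDiff ℝ ∞ (pderiv 0 (pderiv 0 φ)) := contDiff_pderiv hp 0
  have d1 : ∀ t : ℝ, HasDerivAt (fun s => φ (kE n (s, x))) (pderiv 0 φ (kE n (t, x))) t := fun t =>
    hasDerivAt_line ((hφ.differentiable (by simp)) _)
  have d2 : ∀ t : ℝ, HasDerivAt (fun s => pderiv 0 φ (kE n (s, x)))
      (pderiv 0 (pderiv 0 φ) (kE n (t, x))) t := fun t =>
    hasDerivAt_line ((hp.differentiable (by simp)) _)
  have c1 := hasCompactSupport_line hc x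
  have c2 := hasCompactSupport_line (hasCompactSupport_pderiv hc 0) x
  have c3 := hasCompactSupport_line (hasCompactSupport_pderiv (hasCompactSupport_pderiv hc 0) 0) x
  have k1 := (contDiff_line hφ x).continuous
  have k2 := (contDiff_line hp x).continuous
  have k3 := (contDiff_line hpp x).continuous
  refine integral_eq_zero_of_hasDerivAt_of_integrable
    (f := fun t => Real.cos t * pderiv 0 φ (kE n (t, x)) + Real.sin t * φ (kE n (t, x))) ?_ ?_ ?_
  · intro t
    have h := ((Real.hasDerivAt_cos t).mul (d2 t)).add ((Real.hasDerivAt_sin t).mul (d1 t))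
    convert h using 1
    · rfl
    · ring
  · have e : (fun t : ℝ => Real.cos t * (pderiv 0 (pderiv 0 φ) (kE n (t, x)) + φ (kE n (t, x)))) =
        fun t => Real.cos t * pderiv 0 (pderiv 0 φ) (kE n (t, x)) +
          Real.cos t * φ (kE n (t, x)) := by
      funext t; ring
    rw [e]
    exact ((Real.continuous_cos.mul k3).integrable_of_hasCompactSupport c3.mul_left).add
      ((Real.continuous_cos.mul k1).integrable_of_hasCompactSupport c1.mul_left)
  · exact ((Real.continuous_cos.mul k2).integrable_of_hasCompactSupport c2.mul_left).add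
      ((Real.continuous_sin.mul k1).integrable_of_hasCompactSupport c1.mul_left)

end Test

theorem contDiff_of_tsupport {m : ℕ} {V : Set (EuclideanSpace ℝ (Fin m))} (hV : IsOpen V)
    {G : EuclideanSpace ℝ (Fin m) → ℝ} (hG : ContDiffOn ℝ ∞ G V) (hs : tsupport G ⊆ V) :
    ContDiff ℝ ∞ G := by
  rw [contDiff_iff_contDiffAt]
  intro x
  by_cases hx : x ∈ V
  · exact hG.contDiffAt (hV.mem_nhds hx)
  · have hx' : x ∉ tsupport G := fun h => hx (hs h)
    have : G =ᶠ[nhds x] fun _ => 0 := by
      filter_upwards [(isClosed_tsupport G).isOpen_compl.mem_nhds hx'] with y hy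
      exact image_eq_zero_of_notMem_tsupport hy
    exact contDiffAt_const.congr_of_eventuallyEq this

theorem contDiffOn_divA {m : ℕ} {V : Set (EuclideanSpace ℝ (Fin m))} (hV : IsOpen V)
    {B : EuclideanSpace ℝ (Fin m) → Matrix (Fin m) (Fin m) ℝ}
    (hB : ∀ i j, ContDiffOn ℝ ∞ (fun x => B x i j) V) {G : EuclideanSpace ℝ (Fin m) → ℝ}
    (hG : ContDiffOn ℝ ∞ G V) : ContDiffOn ℝ ∞ (divA B G) V := by
  unfold divA
  refine ContDiffOn.sum fun i _ => ?_
  refine contDiffOn_pd hV ?_ i
  exact ContDiffOn.sum fun j _ => (hB i j).mul (contDiffOn_pd hV hG j)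

theorem contDiffOn_ext (hU : IsOpen U) (hA : ∀ i j, ContDiffOn ℝ ∞ (fun x => A x i j) U)
    (hw : ContDiffOn ℝ ∞ w U) (i j : Fin (n + 1)) :
    ContDiffOn ℝ ∞ (fun y => ext A w y i j) (Uc U) := by
  intro y hy
  refine ContDiffAt.contDiffWithinAt ?_
  refine Fin.cases ?_ (fun i => ?_) i <;> refine Fin.cases ?_ (fun j => ?_) j
  · exact contDiffAt_comp_tl hU hw hy
  · exact contDiffAt_const
  · exact contDiffAt_const
  · exact contDiffAt_entry hU hA i j hy

/-- the equation of `u(x) cos t` on the cylinder -/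
theorem weak_uc (hU : IsOpen U) (hA : ∀ i j, ContDiffOn ℝ ∞ (fun x => A x i j) U)
    (hw : ContDiffOn ℝ ∞ w U) (hf : ContDiffOn ℝ ∞ f U) (hu : LocallyIntegrableOn u U)
    (h : ∀ φ : EuclideanSpace ℝ (Fin n) → ℝ, ContDiff ℝ ∞ φ → HasCompactSupport φ →
      tsupport φ ⊆ U → ∫ x, u x * (divA A φ x - w x * φ x) = ∫ x, f x * φ x)
    {φ : EuclideanSpace ℝ (Fin (n + 1)) → ℝ} (hφ : ContDiff ℝ ∞ φ) (hc : HasCompactSupport φ)
    (hs : tsupport φ ⊆ Uc U) :
    ∫ y, uc u y * divA (ext A w) φ y = ∫ y, uc f y * φ y := by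
  have hUc := isOpen_Uc hU
  have hul := locallyIntegrableOn_uc hU hu
  -- the two test functions
  have hpp : ContDiff ℝ ∞ (pderiv 0 (pderiv 0 φ)) := contDiff_pderiv (contDiff_pderiv hφ 0) 0
  have hppc : HasCompactSupport (pderiv 0 (pderiv 0 φ)) :=
    hasCompactSupport_pderiv (hasCompactSupport_pderiv hc 0) 0
  have hpps : tsupport (pderiv 0 (pderiv 0 φ)) ⊆ tsupport φ :=
    (tsupport_pderiv_subset _ 0).trans (tsupport_pderiv_subset _ 0)
  set W : E' → ℝ := fun y => w (tl n y) with hW
  have hWs : ContDiffOn ℝ ∞ W (Uc U) := fun y hy =>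
    (contDiffAt_comp_tl hU hw hy).contDiffWithinAt
  set G2 : E' → ℝ := fun y => (pderiv 0 (pderiv 0 φ) y + φ y) * W y with hG2
  have hq : ContDiff ℝ ∞ fun y => pderiv 0 (pderiv 0 φ) y + φ y := hpp.add hφ
  have hqs : tsupport (fun y => pderiv 0 (pderiv 0 φ) y + φ y) ⊆ tsupport φ :=
    (tsupport_add _ _).trans (union_subset hpps Subset.rfl)
  have hqc : HasCompactSupport fun y => pderiv 0 (pderiv 0 φ) y + φ y := hppc.add hc
  have hG2s : ContDiff ℝ ∞ G2 := contDiff_mul_of_tsupport hUc hq (hqs.trans hs) hWs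
  have hG2c : HasCompactSupport G2 := hqc.mul_right
  have hG2t : tsupport G2 ⊆ Uc U := (tsupport_mul_subset_left.trans hqs).trans hs
  have hD : ContDiff ℝ ∞ (divA (ext A w) φ) :=
    contDiff_of_tsupport hUc (contDiffOn_divA hUc (contDiffOn_ext hU hA hw) hφ.contDiffOn)
      ((tsupport_divA_subset _ _).trans hs)
  have hDc : HasCompactSupport (divA (ext A w) φ) :=
    hc.isCompact.of_isClosed_subset (isClosed_tsupport _) (tsupport_divA_subset _ _)
  set G1 : E' → ℝ := fun y => divA (ext A w) φ y - G2 y with hG1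
  have hG1c : HasCompactSupport G1 := hDc.sub hG2c
  have hG1t : tsupport G1 ⊆ Uc U :=
    (tsupport_sub _ _).trans (union_subset ((tsupport_divA_subset _ _).trans hs) hG2t)
  have i1 := integrable_mul_of_locOn hul (hD.sub hG2s).continuous hG1c hG1t
  have i2 := integrable_mul_of_locOn hul hG2s.continuous hG2c hG2t
  have e0 : ∫ y, uc u y * divA (ext A w) φ y =
      (∫ y, uc u y * G1 y) + ∫ y, uc u y * G2 y := by
    rw [← integral_add i1 i2]
    refine integral_congr_ae (Eventually.of_forall fun y => ?_)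
    simp only [hG1]
    ring
  -- values of G1 on slices
  have v1 : ∀ (t : ℝ) (x : E), G1 (kE n (t, x)) =
      divA A (fun z => φ (kE n (t, z))) x - w x * φ (kE n (t, x)) := by
    intro t x
    by_cases hx : x ∈ U
    · rw [hG1, hG2]
      simp only
      rw [divA_ext hU hA hw hx (hφ.contDiffAt.of_le (WithTop.coe_le_coe.2 le_top)), hW]
      simp only [tl_kE]
      ring
    · have h1 : kE n (t, x) ∉ tsupport φ := fun h' => hx (mem_Uc.1 (hs h'))
      have h2 : x ∉ tsupport (fun z : E => φ (kE n (t, z))) := fun h' => h1 (tsupport_slice t h')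
      have h3 : φ (kE n (t, x)) = 0 := image_eq_zero_of_notMem_tsupport h1
      have h4 : divA A (fun z => φ (kE n (t, z))) x = 0 :=
        image_eq_zero_of_notMem_tsupport fun h' => h2 (tsupport_divA_subset _ _ h')
      have h5 : G1 (kE n (t, x)) = 0 :=
        image_eq_zero_of_notMem_tsupport fun h' => hx (mem_Uc.1 (hG1t h'))
      rw [h5, h3, h4]
      ring
  have e1 : ∫ y, uc u y * G1 y = ∫ y, uc f y * φ y := by
    rw [integral_kE, integral_kE]
    have j1 : Integrable fun p : ℝ × E => uc u (kE n p) * G1 (kE n p) :=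
      (measurePreserving_kE.integrable_comp_emb measurableEmbedding_kE).2 i1
    have hff : ContDiff ℝ ∞ fun y => φ y * uc f y := by
      refine contDiff_mul_of_tsupport hUc hφ hs ?_
      intro y hy
      refine ContDiffAt.contDiffWithinAt ?_
      unfold uc
      exact ((Real.contDiff_cos.comp
        (EuclideanSpace.proj (0 : Fin (n + 1)) : E' →L[ℝ] ℝ).contDiff).contDiffAt).mul
        (contDiffAt_comp_tl hU hf hy)
    have i3 : Integrable fun y => uc f y * φ y :=
      (hff.continuous.integrable_of_hasCompactSupport hc.mul_right).congr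
        (Eventually.of_forall fun y => mul_comm _ _)
    have j3 : Integrable fun p : ℝ × E => uc f (kE n p) * φ (kE n p) :=
      (measurePreserving_kE.integrable_comp_emb measurableEmbedding_kE).2 i3
    rw [Measure.volume_eq_prod] at j1 j3 ⊢
    rw [integral_prod _ j1, integral_prod _ j3]
    refine integral_congr_ae (Eventually.of_forall fun t => ?_)
    simp only [uc_kE, v1]
    have h1 := h _ (contDiff_slice hφ t) (hasCompactSupport_slice hc t)
      ((tsupport_slice t).trans fun x hx => mem_Uc.1 (hs hx))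
    have e3 : ∀ x : E, Real.cos t * u x *
        (divA A (fun z => φ (kE n (t, z))) x - w x * φ (kE n (t, x))) =
        Real.cos t * (u x * (divA A (fun z => φ (kE n (t, z))) x - w x * φ (kE n (t, x)))) := by
      intro x; ring
    have e4 : ∀ x : E, Real.cos t * f x * φ (kE n (t, x)) =
        Real.cos t * (f x * φ (kE n (t, x))) := by
      intro x; ring
    simp_rw [e3, e4]
    rw [integral_const_mul, integral_const_mul, h1]
  have e2 : ∫ y, uc u y * G2 y = 0 := by
    rw [integral_kE]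
    have j2 : Integrable fun p : ℝ × E => uc u (kE n p) * G2 (kE n p) :=
      (measurePreserving_kE.integrable_comp_emb measurableEmbedding_kE).2 i2
    rw [Measure.volume_eq_prod] at j2 ⊢
    rw [integral_prod_symm _ j2]
    have hz : ∀ x : E, ∫ t : ℝ, uc u (kE n (t, x)) * G2 (kE n (t, x)) = 0 := by
      intro x
      have e3 : ∀ t : ℝ, uc u (kE n (t, x)) * G2 (kE n (t, x)) = (u x * w x) *
          (Real.cos t * (pderiv 0 (pderiv 0 φ) (kE n (t, x)) + φ (kE n (t, x)))) := by
        intro t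
        rw [uc_kE, hG2, hW]
        simp only [tl_kE]
        ring
      simp_rw [e3]
      rw [integral_const_mul, integral_line_zero hφ hc x, mul_zero]
    simp_rw [hz]
    simp
  rw [e0, e1, e2, add_zero]

/-- **Elliptic regularity with a positive zero order term.** -/
theorem ell_reg_zero (hU : IsOpen U) (hA : ∀ i j, ContDiffOn ℝ ∞ (fun x => A x i j) U)
    (hpos : ∀ x ∈ U, (A x).PosDef) (hw : ContDiffOn ℝ ∞ w U) (hw0 : ∀ x ∈ U, 0 < w x)
    (hf : ContDiffOn ℝ ∞ f U) (hu : LocallyIntegrableOn u U)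
    (h : ∀ φ : EuclideanSpace ℝ (Fin n) → ℝ, ContDiff ℝ ∞ φ → HasCompactSupport φ →
      tsupport φ ⊆ U → ∫ x, u x * (divA A φ x - w x * φ x) = ∫ x, f x * φ x) :
    ∃ v : EuclideanSpace ℝ (Fin n) → ℝ, ContDiffOn ℝ ∞ v U ∧ (∀ᵐ x, x ∈ U → v x = u x) ∧
      ∀ x ∈ U, divA A v x - w x * v x = f x := by
  have hUc := isOpen_Uc hU
  have hfc : ContDiffOn ℝ ∞ (uc f) (Uc U) := by
    intro y hy
    refine ContDiffAt.contDiffWithinAt ?_
    unfold uc
    exact ((Real.contDiff_cos.comp
      (EuclideanSpace.proj (0 : Fin (n + 1)) : E' →L[ℝ] ℝ).contDiff).contDiffAt).mul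
      (contDiffAt_comp_tl hU hf hy)
  obtain ⟨V, hV, hVu, hVe⟩ := ell_regularity (n + 1) (Uc U) hUc (ext A w)
    (contDiffOn_ext hU hA hw) (fun y hy => posDef_ext (hpos _ hy) (hw0 _ hy)) (uc f) hfc (uc u)
    (locallyIntegrableOn_uc hU hu) fun φ hφ hc hs => weak_uc hU hA hw hf hu h hφ hc hs
  -- the a.e. identity on `ℝ × ℝⁿ`
  have hae : ∀ᵐ p : ℝ × E, p.2 ∈ U → V (kE n p) = Real.cos p.1 * u p.2 := by
    have h1 := measurePreserving_kE.quasiMeasurePreserving.ae hVu
    filter_upwards [h1] with p hp hpU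
    have h2 : kE n p ∈ Uc U := by
      rcases p with ⟨t, x⟩
      exact mem_Uc.2 hpU
    rw [hp h2]
    exact uc_kE p.1 p.2
  have hae2 : ∀ᵐ t : ℝ, ∀ᵐ x : E, x ∈ U → V (kE n (t, x)) = Real.cos t * u x := by
    rw [Measure.volume_eq_prod] at hae
    exact Measure.ae_ae_of_ae_prod hae
  -- times in the good set, tending to `0`
  obtain ⟨τ, hτ0, hτ⟩ : ∃ τ : ℕ → ℝ, Tendsto τ atTop (𝓝 0) ∧
      ∀ k, ∀ᵐ x : E, x ∈ U → V (kE n (τ k, x)) = Real.cos (τ k) * u x := by
    have hk : ∀ k : ℕ, ∃ t : ℝ, |t| < 1 / (k + 1) ∧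
        ∀ᵐ x : E, x ∈ U → V (kE n (t, x)) = Real.cos t * u x := by
      intro k
      by_contra hcon
      simp only [not_exists, not_and] at hcon
      have h0 : (volume : Measure ℝ) (Ioo (-(1 / ((k : ℝ) + 1))) (1 / ((k : ℝ) + 1))) = 0 := by
        refine measure_mono_null (fun t ht => ?_) (ae_iff.1 hae2)
        exact hcon t (abs_lt.2 ht)
      rw [Real.volume_Ioo] at h0
      have h2 : (0 : ℝ) < 1 / ((k : ℝ) + 1) := by positivity
      rw [ENNReal.ofReal_eq_zero] at h0
      linarith
    choose τ h1 h2 using hk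
    refine ⟨τ, ?_, h2⟩
    refine squeeze_zero_norm (fun k => (h1 k).le) ?_
    exact tendsto_one_div_add_atTop_nhds_zero_nat
  have hVc : ∀ x ∈ U, ContinuousAt (fun t : ℝ => V (kE n (t, x))) 0 := by
    intro x hx
    have h1 : ContinuousAt V (kE n (0, x)) :=
      (hV.contDiffAt (hUc.mem_nhds (mem_Uc.2 hx))).continuousAt
    exact ContinuousAt.comp (g := V) (f := fun t : ℝ => kE n (t, x)) h1
      ((kE n).continuous.comp (continuous_id.prodMk continuous_const)).continuousAt
  set v : E → ℝ := fun x => V (kE n (0, x)) with hv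
  have hvu : ∀ᵐ x, x ∈ U → v x = u x := by
    filter_upwards [ae_all_iff.2 hτ] with x hx hxU
    have h1 : Tendsto (fun k => V (kE n (τ k, x))) atTop (𝓝 (v x)) :=
      (hVc x hxU).tendsto.comp hτ0
    have h2 : Tendsto (fun k => Real.cos (τ k) * u x) atTop (𝓝 (Real.cos 0 * u x)) :=
      ((Real.continuous_cos.tendsto 0).comp hτ0).mul_const _
    have h3 : (fun k => V (kE n (τ k, x))) = fun k => Real.cos (τ k) * u x := by
      funext k
      exact hx k hxU
    rw [h3] at h1
    have := tendsto_nhds_unique h1 h2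
    rw [this, Real.cos_zero, one_mul]
  have hvs : ContDiffOn ℝ ∞ v U := by
    intro x hx
    refine ContDiffAt.contDiffWithinAt ?_
    have h1 : ContDiffAt ℝ ∞ V (kE n (0, x)) := hV.contDiffAt (hUc.mem_nhds (mem_Uc.2 hx))
    exact h1.comp x ((kE n).contDiff.comp (contDiff_const.prodMk contDiff_id)).contDiffAt
  refine ⟨v, hvs, hvu, ?_⟩
  -- `V = cos t v(x)` everywhere on the cylinder
  have hVv : EqOn V (uc v) (Uc U) := by
    refine Measure.eqOn_open_of_ae_eq (μ := volume) ?_ hUc hV.continuousOn ?_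
    · rw [EventuallyEq, ae_restrict_iff' hUc.measurableSet]
      have h1 : ∀ᵐ p : ℝ × E, p.2 ∈ U → v p.2 = u p.2 := by
        rw [Measure.volume_eq_prod]
        exact Measure.quasiMeasurePreserving_snd.ae hvu
      have h2 : ∀ᵐ p : ℝ × E, kE n p ∈ Uc U → V (kE n p) = uc v (kE n p) := by
        filter_upwards [hae, h1] with p hp hp1 hpU
        rcases p with ⟨t, x⟩
        have hx : x ∈ U := mem_Uc.1 hpU
        rw [hp hx, uc_kE, hp1 hx]
      have h3 := (measurePreserving_kE (n := n)).symm (kE n).toHomeomorph.toMeasurableEquiv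
      have h4 := h3.quasiMeasurePreserving.ae h2
      filter_upwards [h4] with y hy
      have e : kE n ((kE n).toHomeomorph.toMeasurableEquiv.symm y) = y :=
        (kE n).apply_symm_apply y
      rw [e] at hy
      exact hy
    · intro y hy
      refine ContinuousAt.continuousWithinAt ?_
      unfold uc
      exact (((Real.contDiff_cos (n := 0)).comp
        (EuclideanSpace.proj (0 : Fin (n + 1)) : E' →L[ℝ] ℝ).contDiff).continuous.continuousAt).mul
        (contDiffAt_comp_tl hU hvs hy).continuousAt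
  intro x hx
  have hy0 : kE n ((0 : ℝ), x) ∈ Uc U := mem_Uc.2 hx
  have h1 := hVe _ hy0
  have h2 : divA (ext A w) V (kE n ((0 : ℝ), x)) = divA (ext A w) (uc v) (kE n ((0 : ℝ), x)) :=
    divA_congr_of_open hUc (fun _ _ _ _ => rfl) (fun y hy => hVv hy) hy0
  have hucv : ContDiffOn ℝ ∞ (uc v) (Uc U) := by
    intro y hy
    refine ContDiffAt.contDiffWithinAt ?_
    unfold uc
    exact ((Real.contDiff_cos.comp
      (EuclideanSpace.proj (0 : Fin (n + 1)) : E' →L[ℝ] ℝ).contDiff).contDiffAt).mul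
      (contDiffAt_comp_tl hU hvs hy)
  have hc2 : ContDiffAt ℝ 2 (uc v) (kE n ((0 : ℝ), x)) :=
    (hucv.contDiffAt (hUc.mem_nhds hy0)).of_le (WithTop.coe_le_coe.2 le_top)
  rw [h2, divA_ext hU hA hw hx hc2, uc_kE, Real.cos_zero, one_mul] at h1
  -- time derivatives
  have hp1 : ∀ t : ℝ, pderiv 0 (uc v) (kE n (t, x)) = -Real.sin t * v x := by
    intro t
    have hd : DifferentiableAt ℝ (uc v) (kE n (t, x)) :=
      (hucv.contDiffAt (hUc.mem_nhds (mem_Uc.2 hx))).differentiableAt (by simp)
    have k1 := hasDerivAt_line hd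
    have k2 : HasDerivAt (fun s : ℝ => uc v (kE n (s, x))) (-Real.sin t * v x) t := by
      have e : (fun s : ℝ => uc v (kE n (s, x))) = fun s => Real.cos s * v x := by
        funext s
        exact uc_kE s x
      rw [e]
      exact (Real.hasDerivAt_cos t).mul_const _
    exact k1.unique k2
  have hp2 : pderiv 0 (pderiv 0 (uc v)) (kE n ((0 : ℝ), x)) = - v x := by
    have hd : DifferentiableAt ℝ (pderiv 0 (uc v)) (kE n ((0 : ℝ), x)) :=
      (contDiffAt_pderiv (k := 1) 0 hc2).differentiableAt (by norm_num)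
    have k1 := hasDerivAt_line hd
    have k2 : HasDerivAt (fun s : ℝ => pderiv 0 (uc v) (kE n (s, x))) (-Real.cos 0 * v x) 0 := by
      have e : (fun s : ℝ => pderiv 0 (uc v) (kE n (s, x))) = fun s => -Real.sin s * v x := by
        funext s
        exact hp1 s
      rw [e]
      exact ((Real.hasDerivAt_sin 0).neg).mul_const _
    rw [k1.unique k2, Real.cos_zero]
    ring
  have hp3 : (fun z : E => uc v (kE n ((0 : ℝ), z))) = v := by
    funext z
    rw [uc_kE, Real.cos_zero, one_mul]
  rw [hp2, hp3] at h1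
  linarith

end

end Crest.Agent.R249.PenA_255
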