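import Crest.Agent.R249.PenA_255
import Crest.Agent.R247.Ms11_322
import Crest.Agent.R247.Bo8_84

/-!
Row 249, leaf A-PEN (helper255), part B: integration by parts on a closed manifold; weak (`L²`)
solutions of `Δu - cu = g` by duality.
-/

set_option autoImplicit false
set_option maxSynthPendingDepth 3
set_option linter.unusedSectionVars false
set_option linter.unusedVariables false

open Bundle Bornology Set MeasureTheory Manifold Filter Metric
open scoped ENNReal ContDiff Topology NNReal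
open Crest.GeometryTopology.CoordMetric Crest.GeometryTopology.ChartCurvature
open Crest.GeometryTopology.Geodesic
open Crest.Agent.R226.ChartMet842

namespace Crest.Agent.R249.PenB_255

open Crest.Agent.R247 Crest.Agent.R247.Ms322

noncomputable section

/-! ### abstract duality -/

/-- If `|ℓ s| ≤ C ‖T s‖` then `ℓ = ⟪h, T ·⟫`. -/
theorem exists_dual {S H : Type*} [AddCommGroup S] [Module ℝ S] [NormedAddCommGroup H]
    [InnerProductSpace ℝ H] [CompleteSpace H] (T : S →ₗ[ℝ] H) (ℓ : S →ₗ[ℝ] ℝ) (C : ℝ)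
    (hC : ∀ s, |ℓ s| ≤ C * ‖T s‖) : ∃ h : H, ∀ s, inner ℝ h (T s) = ℓ s := by
  obtain ⟨σ, hσ⟩ := LinearMap.exists_rightInverse_of_surjective T.rangeRestrict
    T.range_rangeRestrict
  have hσ' : ∀ y : LinearMap.range T, T (σ y) = y := fun y => by
    have := LinearMap.congr_fun hσ y
    exact congrArg Subtype.val this
  have hk : ∀ s, ℓ (σ (T.rangeRestrict s)) = ℓ s := by
    intro s
    have h1 : T (σ (T.rangeRestrict s) - s) = 0 := by
      rw [map_sub, hσ']
      simp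
    have h2 := hC (σ (T.rangeRestrict s) - s)
    rw [h1, norm_zero, mul_zero] at h2
    have h3 : ℓ (σ (T.rangeRestrict s) - s) = 0 := abs_eq_zero.1 (le_antisymm h2 (abs_nonneg _))
    rw [map_sub] at h3
    linarith
  let p : Submodule ℝ H := LinearMap.range T
  let f : p →L[ℝ] ℝ := (ℓ.comp σ).mkContinuous C fun y => by
    have := hC (σ y)
    rw [hσ' y] at this
    exact this
  obtain ⟨g, hg, -⟩ := exists_extension_norm_eq p f
  refine ⟨(InnerProductSpace.toDual ℝ H).symm g, fun s => ?_⟩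
  rw [InnerProductSpace.toDual_symm_apply]
  have := hg (T.rangeRestrict s)
  have e : ((T.rangeRestrict s : p) : H) = T s := rfl
  rw [e] at this
  rw [this]
  exact hk s

variable {n : ℕ} {M : Type*} [MetricSpace M] [ChartedSpace (EuclideanSpace ℝ (Fin n)) M]
  [IsManifold (𝓡 n) ∞ M]
  [RiemannianBundle (fun p : M => TangentSpace (𝓡 n) p)]
  [IsContMDiffRiemannianBundle (𝓡 n) ∞ (EuclideanSpace ℝ (Fin n)) (fun p : M => TangentSpace (𝓡 n) p)]

local notation "𝔼" => EuclideanSpace ℝ (Fin n)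

/-- smooth functions -/
def Sm (n : ℕ) {M : Type*} [TopologicalSpace M] [ChartedSpace (EuclideanSpace ℝ (Fin n)) M]
    (f : M → ℝ) : Prop := ContMDiff (𝓡 n) 𝓘(ℝ, ℝ) ∞ f

theorem Sm.at {f : M → ℝ} (hf : Sm n f) (z : M) : ContMDiffAt (𝓡 n) 𝓘(ℝ, ℝ) ∞ f z := hf z

theorem Sm.two {f : M → ℝ} (hf : Sm n f) (z : M) : ContMDiffAt (𝓡 n) 𝓘(ℝ, ℝ) 2 f z :=
  (hf z).of_le Bo84.two_le_infty

theorem Sm.continuous {f : M → ℝ} (hf : Sm n f) : Continuous f := ContMDiff.continuous hf

theorem Sm.mLap {f : M → ℝ} (hf : Sm n f) : Sm n (Bo84.mLap n f) := fun z =>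
  Bo84.contMDiffAt_mLap (m := ∞) (hf z) (by norm_num) le_rfl

theorem Sm.mGam {f g : M → ℝ} (hf : Sm n f) (hg : Sm n g) : Sm n (Bo84.mGam n f g) := fun z =>
  Bo84.contMDiffAt_mGam (m := ∞) (hf z) (hg z) (by norm_num) le_rfl

theorem Sm.loclip [IsRiemannianManifold (𝓡 n) M] {f : M → ℝ} (hf : Sm n f) : LocallyLipschitz f :=
  LLo.loc (LLo.of_contMDiffAt fun z _ => (hf z).of_le Bo84.one_le_infty)

section Int

variable [IsRiemannianManifold (𝓡 n) M] [CompactSpace M] [MeasurableSpace M] [BorelSpace M]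

variable (n M) in
theorem isFiniteMeasure : IsFiniteMeasure (μHE[n] : Measure M) := by
  have := isLocallyFiniteMeasure n M
  exact ⟨isCompact_univ.measure_lt_top⟩

theorem integrable_of_continuous {f : M → ℝ} (hf : Continuous f) :
    Integrable f (μHE[n] : Measure M) := by
  have := isLocallyFiniteMeasure n M
  exact hf.integrable_of_hasCompactSupport (HasCompactSupport.of_compactSpace f)

theorem memLp_of_continuous {f : M → ℝ} (hf : Continuous f) (p : ℝ≥0∞) :
    MemLp f p (μHE[n] : Measure M) := by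
  have := isLocallyFiniteMeasure n M
  exact hf.memLp_of_hasCompactSupport (HasCompactSupport.of_compactSpace f)

/-- **Green's formula** on a closed manifold. -/
theorem integral_mGam {f φ : M → ℝ} (hf : ∀ z, ContMDiffAt (𝓡 n) 𝓘(ℝ, ℝ) 2 f z)
    (hφ : LocallyLipschitz φ) :
    ∫ z, Bo84.mGam n f φ z ∂(μHE[n] : Measure M) =
      - ∫ z, φ z * Bo84.mLap n f z ∂(μHE[n] : Measure M) := by
  rcases isEmpty_or_nonempty M with hM | hM
  · have h0 : (μHE[n] : Measure M) = 0 := Measure.eq_zero_of_isEmpty _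
    rw [h0]
    simp only [integral_zero_measure, neg_zero]
  · have : SecondCountableTopology M := inferInstance
    have h := ibp_mLap (n := n) (U := univ) isOpen_univ (fun z _ => hf z) hφ
      (HasCompactSupport.of_compactSpace φ) (subset_univ _)
    rw [← h]
    exact integral_congr_ae (Eventually.of_forall fun z => (inner_Gr_eq_mGam f φ z).symm)

theorem integral_mul_mLap {f φ : M → ℝ} (hf : Sm n f) (hφ : Sm n φ) :
    ∫ z, φ z * Bo84.mLap n f z ∂(μHE[n] : Measure M) =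
      - ∫ z, Bo84.mGam n f φ z ∂(μHE[n] : Measure M) := by
  rw [integral_mGam hf.two hφ.loclip, neg_neg]

theorem integral_mLap {f : M → ℝ} (hf : Sm n f) :
    ∫ z, Bo84.mLap n f z ∂(μHE[n] : Measure M) = 0 := by
  have h1 : Sm n (fun _ : M => (1 : ℝ)) := contMDiff_const
  have h := integral_mul_mLap hf h1
  simp only [one_mul, Bo84.mGam_const_right, integral_zero, neg_zero] at h
  exact h

/-- self-adjointness -/
theorem integral_mLap_symm {f φ : M → ℝ} (hf : Sm n f) (hφ : Sm n φ) :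
    ∫ z, φ z * Bo84.mLap n f z ∂(μHE[n] : Measure M) =
      ∫ z, f z * Bo84.mLap n φ z ∂(μHE[n] : Measure M) := by
  rw [integral_mul_mLap hf hφ, integral_mul_mLap hφ hf]
  simp only [Bo84.mGam_comm]

/-! ### the weak solution -/

end Int

/-- the space of smooth functions -/
abbrev SmS (n : ℕ) (M : Type*) [TopologicalSpace M] [ChartedSpace (EuclideanSpace ℝ (Fin n)) M] :=
  ContMDiffMap (𝓡 n) 𝓘(ℝ, ℝ) M ℝ ∞

/-- the operator `Δ - c` -/
def LC (n : ℕ) {M : Type*} [TopologicalSpace M] [ChartedSpace (EuclideanSpace ℝ (Fin n)) M]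
    [IsManifold (𝓡 n) ∞ M]
    [RiemannianBundle (fun p : M => TangentSpace (𝓡 n) p)]
    [IsContMDiffRiemannianBundle (𝓡 n) ∞ (EuclideanSpace ℝ (Fin n)) (fun p : M => TangentSpace (𝓡 n) p)]
    (c : ℝ) (φ : M → ℝ) (z : M) : ℝ := Bo84.mLap n φ z - c * φ z

theorem Sm.LC {φ : M → ℝ} (hφ : Sm n φ) (c : ℝ) : Sm n (LC n c φ) :=
  ContMDiff.sub hφ.mLap (contMDiff_const.mul hφ)

theorem LC_add (c : ℝ) {φ ψ : M → ℝ} (hφ : Sm n φ) (hψ : Sm n ψ) (z : M) :
    LC n c (fun y => φ y + ψ y) z = LC n c φ z + LC n c ψ z := by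
  unfold LC
  rw [Bo84.mLap_add (hφ.two z) (hψ.two z)]
  ring

theorem LC_sub (c : ℝ) {φ ψ : M → ℝ} (hφ : Sm n φ) (hψ : Sm n ψ) (z : M) :
    LC n c (fun y => φ y - ψ y) z = LC n c φ z - LC n c ψ z := by
  unfold LC
  rw [Bo84.mLap_sub (hφ.two z) (hψ.two z)]
  ring

theorem LC_smul (c r : ℝ) {φ : M → ℝ} (hφ : Sm n φ) (z : M) :
    LC n c (fun y => r * φ y) z = r * LC n c φ z := by
  unfold LC
  rw [Bo84.mLap_const_mul r (hφ.two z)]
  ring

section Int

variable [IsRiemannianManifold (𝓡 n) M] [CompactSpace M] [MeasurableSpace M] [BorelSpace M]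

theorem memLp_LC (c : ℝ) {φ : M → ℝ} (hφ : Sm n φ) :
    MemLp (LC n c φ) 2 (μHE[n] : Measure M) :=
  memLp_of_continuous (Sm.continuous (Sm.LC (n := n) hφ c)) 2

variable (n M) in
/-- `Δ - c` as a linear map into `L²` -/
def opT (c : ℝ) : SmS n M →ₗ[ℝ] Lp ℝ 2 (μHE[n] : Measure M) where
  toFun φ := (memLp_LC (n := n) c φ.contMDiff).toLp _
  map_add' φ ψ := by
    rw [← MemLp.toLp_add]
    congr 1
    funext z
    exact LC_add (n := n) c φ.contMDiff ψ.contMDiff z
  map_smul' r φ := by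
    rw [RingHom.id_apply, ← MemLp.toLp_const_smul]
    congr 1
    funext z
    exact LC_smul (n := n) c r φ.contMDiff z

variable (n M) in
/-- `φ ↦ ∫ g φ` -/
def opL (g : C(M, ℝ)) : SmS n M →ₗ[ℝ] ℝ where
  toFun φ := ∫ z, g z * φ z ∂(μHE[n] : Measure M)
  map_add' φ ψ := by
    have h1 : Integrable (fun z => g z * φ z) (μHE[n] : Measure M) :=
      integrable_of_continuous (n := n) (g.continuous.mul φ.contMDiff.continuous)
    have h2 : Integrable (fun z => g z * ψ z) (μHE[n] : Measure M) :=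
      integrable_of_continuous (n := n) (g.continuous.mul ψ.contMDiff.continuous)
    have h3 := integral_add h1 h2
    rw [← h3]
    refine integral_congr_ae (Eventually.of_forall fun z => ?_)
    show g z * (φ z + ψ z) = g z * φ z + g z * ψ z
    ring
  map_smul' r φ := by
    have h3 := integral_const_mul (μ := (μHE[n] : Measure M)) r (fun z => g z * φ z)
    rw [RingHom.id_apply, smul_eq_mul, ← h3]
    refine integral_congr_ae (Eventually.of_forall fun z => ?_)
    show g z * (r * φ z) = r * (g z * φ z)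
    ring

theorem inner_toLp {f g : M → ℝ} (hf : MemLp f 2 (μHE[n] : Measure M))
    (hg : MemLp g 2 (μHE[n] : Measure M)) :
    inner ℝ (hf.toLp f) (hg.toLp g) = ∫ z, f z * g z ∂(μHE[n] : Measure M) := by
  rw [L2.inner_def]
  refine integral_congr_ae ?_
  filter_upwards [hf.coeFn_toLp, hg.coeFn_toLp] with z h1 h2
  rw [h1, h2]
  simp only [RCLike.inner_apply, conj_trivial]
  ring

/-- the a priori estimate `c ‖φ‖ ≤ ‖(Δ - c) φ‖` -/
theorem norm_le_opT {c : ℝ} (hc : 0 < c) (φ : SmS n M) :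
    c * ‖(memLp_of_continuous φ.contMDiff.continuous 2 :
      MemLp φ 2 (μHE[n] : Measure M)).toLp φ‖ ≤ ‖opT n M c φ‖ := by
  set F := (memLp_of_continuous φ.contMDiff.continuous 2 :
      MemLp φ 2 (μHE[n] : Measure M)).toLp φ with hF
  have hs : Sm n φ := φ.contMDiff
  have h1 : inner ℝ F (opT n M c φ) = ∫ z, φ z * LC n c φ z ∂(μHE[n] : Measure M) :=
    inner_toLp _ (memLp_LC c hs)
  have h2 : inner ℝ F F = ∫ z, φ z * φ z ∂(μHE[n] : Measure M) := inner_toLp _ _
  have i1 : Integrable (fun z => φ z * Bo84.mLap n φ z) (μHE[n] : Measure M) :=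
    integrable_of_continuous (n := n) (hs.continuous.mul hs.mLap.continuous)
  have i2 : Integrable (fun z => φ z * φ z) (μHE[n] : Measure M) :=
    integrable_of_continuous (n := n) (hs.continuous.mul hs.continuous)
  have h3 : ∫ z, φ z * LC n c φ z ∂(μHE[n] : Measure M) =
      - ∫ z, Bo84.mGam n φ φ z ∂(μHE[n] : Measure M) - c * ∫ z, φ z * φ z ∂(μHE[n] : Measure M) := by
    rw [← integral_mul_mLap hs hs, ← integral_const_mul, ← integral_sub i1 (i2.const_mul c)]
    refine integral_congr_ae (Eventually.of_forall fun z => ?_)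
    simp only [LC]
    ring
  have h4 : 0 ≤ ∫ z, Bo84.mGam n φ φ z ∂(μHE[n] : Measure M) :=
    integral_nonneg fun z => Bo84.mGam_self_nonneg φ z
  have h5 : c * ‖F‖ ^ 2 ≤ ‖F‖ * ‖opT n M c φ‖ := by
    have h6 := abs_real_inner_le_norm F (opT n M c φ)
    rw [← real_inner_self_eq_norm_sq, h2]
    rw [h1, h3] at h6
    have h7 := neg_le_abs (- ∫ z, Bo84.mGam n φ φ z ∂(μHE[n] : Measure M) -
      c * ∫ z, φ z * φ z ∂(μHE[n] : Measure M))
    linarith
  rcases eq_or_lt_of_le (norm_nonneg F) with h0 | h0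
  · rw [← h0, mul_zero]
    exact norm_nonneg _
  · have : ‖F‖ * (c * ‖F‖) ≤ ‖F‖ * ‖opT n M c φ‖ := by
      have e : ‖F‖ * (c * ‖F‖) = c * ‖F‖ ^ 2 := by ring
      rw [e]; exact h5
    exact le_of_mul_le_mul_left this h0

/-- **`L²` weak solutions** of `Δu - cu = g`. -/
theorem exists_weak {c : ℝ} (hc : 0 < c) {g : M → ℝ} (hg : Continuous g) :
    ∃ u : M → ℝ, MemLp u 2 (μHE[n] : Measure M) ∧ ∀ φ : M → ℝ, Sm n φ →
      ∫ z, u z * LC n c φ z ∂(μHE[n] : Measure M) = ∫ z, g z * φ z ∂(μHE[n] : Measure M) := by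
  have hgm := memLp_of_continuous (n := n) hg 2
  have hbd : ∀ φ : SmS n M, |opL n M ⟨g, hg⟩ φ| ≤ (c⁻¹ * ‖hgm.toLp g‖) * ‖opT n M c φ‖ := by
    intro φ
    have h1 : opL n M ⟨g, hg⟩ φ = inner ℝ (hgm.toLp g)
        ((memLp_of_continuous φ.contMDiff.continuous 2 :
          MemLp φ 2 (μHE[n] : Measure M)).toLp φ) := (inner_toLp _ _).symm
    rw [h1]
    refine (abs_real_inner_le_norm _ _).trans ?_
    have h2 := norm_le_opT hc φ
    have h3 : ‖(memLp_of_continuous φ.contMDiff.continuous 2 :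
        MemLp φ 2 (μHE[n] : Measure M)).toLp φ‖ ≤ c⁻¹ * ‖opT n M c φ‖ := by
      rw [inv_mul_eq_div, le_div_iff₀ hc]
      linarith
    calc ‖hgm.toLp g‖ * _ ≤ ‖hgm.toLp g‖ * (c⁻¹ * ‖opT n M c φ‖) :=
          mul_le_mul_of_nonneg_left h3 (norm_nonneg _)
      _ = _ := by ring
  obtain ⟨u, hu⟩ := exists_dual (opT n M c) (opL n M ⟨g, hg⟩) _ hbd
  refine ⟨u, Lp.memLp u, fun φ hφ => ?_⟩
  have h1 := hu ⟨φ, hφ⟩
  have h2 : opL n M ⟨g, hg⟩ ⟨φ, hφ⟩ = ∫ z, g z * φ z ∂(μHE[n] : Measure M) := rfl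
  rw [← h2, ← h1, L2.inner_def]
  refine integral_congr_ae ?_
  have h3 : (opT n M c ⟨φ, hφ⟩ : M → ℝ) =ᵐ[(μHE[n] : Measure M)] LC n c φ :=
    MemLp.coeFn_toLp (memLp_LC c hφ)
  filter_upwards [h3] with z hz
  rw [hz]
  simp only [RCLike.inner_apply, conj_trivial]
  ring

end Int

end

end Crest.Agent.R249.PenB_255
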