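import Crest.Agent.R249.PenB_255

/-!
Row 249, leaf A-PEN (helper255), part C: regularity of the weak solutions and existence:
`exists_solution` : `M` closed, `c > 0`, `G` smooth: there is a smooth `u` with `Δu - cu = G`.
-/

set_option autoImplicit false
set_option maxSynthPendingDepth 3
set_option linter.unusedSectionVars false
set_option linter.unusedVariables false

open Bundle Bornology Set MeasureTheory Manifold Filter Metric
open scoped ENNReal ContDiff Topology NNReal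
open Crest.GeometryTopology.CoordMetric Crest.GeometryTopology.ChartCurvature
open Crest.GeometryTopology.Geodesic
open Crest.Agent.R226.ChartMet842

namespace Crest.Agent.R249.PenC_255

open Crest.Agent.R247 Crest.Agent.R247.Ms322
open Crest.Agent.R202.Ell hiding LC
open Crest.Agent.R249.PenA_255 Crest.Agent.R249.PenB_255

noncomputable section

variable {n : ℕ} {M : Type*} [MetricSpace M] [ChartedSpace (EuclideanSpace ℝ (Fin n)) M]
  [IsManifold (𝓡 n) ∞ M]
  [RiemannianBundle (fun p : M => TangentSpace (𝓡 n) p)]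
  [IsContMDiffRiemannianBundle (𝓡 n) ∞ (EuclideanSpace ℝ (Fin n)) (fun p : M => TangentSpace (𝓡 n) p)]

local notation "𝔼" => EuclideanSpace ℝ (Fin n)

/-! ### the coefficients in a chart -/

/-- `√det g · g^{ij}` -/
def Ac (x₀ : M) (a : EuclideanSpace ℝ (Fin n)) : Matrix (Fin n) (Fin n) ℝ :=
  dens x₀ a • (chartMetric n M x₀ a)⁻¹

theorem Ac_apply (x₀ : M) (a : 𝔼) (i j : Fin n) :
    Ac x₀ a i j = dens x₀ a * (chartMetric n M x₀ a)⁻¹ i j := rfl

theorem contDiffOn_Ac (x₀ : M) (i j : Fin n) :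
    ContDiffOn ℝ ∞ (fun a => Ac x₀ a i j) (chartAt 𝔼 x₀).target := by
  refine ContDiffOn.mul (contDiffOn_dens (n := n) x₀) fun a ha => ?_
  exact (Bo84.contDiffAt_inv (isRiemannianOn_chartMetric (n := n) x₀) ha i j).contDiffWithinAt

theorem posDef_Ac (x₀ : M) {a : 𝔼} (ha : a ∈ (chartAt 𝔼 x₀).target) :
    (Ac (n := n) x₀ a).PosDef := by
  have h1 := ((isRiemannianOn_chartMetric (n := n) x₀).posDef a ha).inv
  have h2 := dens_pos (n := n) x₀ ha
  exact h1.smul h2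

theorem divA_Ac (x₀ : M) {a : 𝔼} (ha : a ∈ (chartAt 𝔼 x₀).target) (φ : 𝔼 → ℝ) :
    divA (Ac (n := n) x₀) φ a =
      dens x₀ a * laplaceBeltrami (chartMetric n M x₀) φ a := by
  have hd := (dens_pos (n := n) x₀ ha).ne'
  unfold divA laplaceBeltrami
  have e : ∀ i : Fin n, (fun y : 𝔼 => ∑ j, Ac (n := n) x₀ y i j * pderiv j φ y) =
      fun y => Real.sqrt (chartMetric n M x₀ y).det *
        ∑ j, inverseField (chartMetric n M x₀) y i j * pderiv j φ y := by
    intro i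
    funext y
    rw [Finset.mul_sum]
    refine Finset.sum_congr rfl fun j _ => ?_
    rw [Ac_apply]
    show dens x₀ y * (chartMetric n M x₀ y)⁻¹ i j * pderiv j φ y =
      dens x₀ y * ((chartMetric n M x₀ y)⁻¹ i j * pderiv j φ y)
    ring
  simp_rw [e]
  show _ = dens x₀ a * (1 / dens x₀ a * _)
  field_simp

/-! ### test functions -/

/-- extension by zero of a function in the chart at `x₀` -/
def ez (x₀ : M) (φ : EuclideanSpace ℝ (Fin n) → ℝ) (z : M) : ℝ :=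
  (chartAt (EuclideanSpace ℝ (Fin n)) x₀).source.indicator
    (fun z => φ (chartAt (EuclideanSpace ℝ (Fin n)) x₀ z)) z

theorem ez_of_mem (x₀ : M) (φ : 𝔼 → ℝ) {z : M} (hz : z ∈ (chartAt 𝔼 x₀).source) :
    ez x₀ φ z = φ (chartAt 𝔼 x₀ z) := indicator_of_mem hz _

theorem ez_symm (x₀ : M) (φ : 𝔼 → ℝ) {a : 𝔼} (ha : a ∈ (chartAt 𝔼 x₀).target) :
    ez x₀ φ ((chartAt 𝔼 x₀).symm a) = φ a := by
  rw [ez_of_mem x₀ φ ((chartAt 𝔼 x₀).map_target ha), (chartAt 𝔼 x₀).right_inv ha]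

theorem ez_zero_near (x₀ : M) {φ : 𝔼 → ℝ} (hc : HasCompactSupport φ)
    (hs : tsupport φ ⊆ (chartAt 𝔼 x₀).target) {z : M} (hz : z ∉ (chartAt 𝔼 x₀).source) :
    ez x₀ φ =ᶠ[𝓝 z] fun _ => 0 := by
  have hK : IsCompact ((chartAt 𝔼 x₀).symm '' tsupport φ) :=
    hc.isCompact.image_of_continuousOn ((chartAt 𝔼 x₀).continuousOn_symm.mono hs)
  have hzK : z ∉ (chartAt 𝔼 x₀).symm '' tsupport φ := by
    rintro ⟨a, ha, rfl⟩
    exact hz ((chartAt 𝔼 x₀).map_target (hs ha))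
  filter_upwards [hK.isClosed.isOpen_compl.mem_nhds hzK] with y hy
  by_cases hys : y ∈ (chartAt 𝔼 x₀).source
  · rw [ez_of_mem x₀ φ hys]
    refine image_eq_zero_of_notMem_tsupport fun h => hy ?_
    exact ⟨_, h, (chartAt 𝔼 x₀).left_inv hys⟩
  · exact indicator_of_notMem hys _

theorem inCh_ez (x₀ : M) (φ : 𝔼 → ℝ) {a : 𝔼} (ha : a ∈ (chartAt 𝔼 x₀).target) :
    Bo84.inCh n x₀ (ez x₀ φ) =ᶠ[𝓝 a] φ := by
  filter_upwards [(chartAt 𝔼 x₀).open_target.mem_nhds ha] with b hb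
  exact ez_symm x₀ φ hb

theorem sm_ez (x₀ : M) {φ : 𝔼 → ℝ} (hφ : ContDiff ℝ ∞ φ) (hc : HasCompactSupport φ)
    (hs : tsupport φ ⊆ (chartAt 𝔼 x₀).target) : Sm n (ez x₀ φ) := by
  intro z
  by_cases hz : z ∈ (chartAt 𝔼 x₀).source
  · refine Bo84.contMDiffAt_of_inCh le_rfl hz ?_
    exact hφ.contDiffAt.congr_of_eventuallyEq (inCh_ez x₀ φ ((chartAt 𝔼 x₀).map_source hz))
  · exact contMDiffAt_const.congr_of_eventuallyEq (ez_zero_near x₀ hc hs hz)

theorem LC_ez (c : ℝ) (x₀ : M) {φ : 𝔼 → ℝ} (hφ : ContDiff ℝ ∞ φ) (hc : HasCompactSupport φ)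
    (hs : tsupport φ ⊆ (chartAt 𝔼 x₀).target) {a : 𝔼} (ha : a ∈ (chartAt 𝔼 x₀).target) :
    dens x₀ a * LC n c (ez x₀ φ) ((chartAt 𝔼 x₀).symm a) =
      divA (Ac (n := n) x₀) φ a - (c * dens (n := n) x₀ a) * φ a := by
  have h1 := (sm_ez x₀ hφ hc hs).two ((chartAt 𝔼 x₀).symm a)
  rw [LC, Bo84.mLap_chart ha h1, Bo84.lap_congr (inCh_ez x₀ φ ha), ez_symm x₀ φ ha,
    divA_Ac x₀ ha]
  ring

theorem LC_zero (c : ℝ) {φ : M → ℝ} {z : M} (h : φ =ᶠ[𝓝 z] fun _ => 0) : LC n c φ z = 0 := by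
  rw [LC, Bo84.mLap_congr h, Bo84.mLap_const, h.eq_of_nhds]
  ring

section Int

variable [IsRiemannianManifold (𝓡 n) M] [CompactSpace M] [MeasurableSpace M] [BorelSpace M]

theorem integral_chart (x₀ : M) {F : M → ℝ} {H : 𝔼 → ℝ}
    (h0 : ∀ z, z ∉ (chartAt 𝔼 x₀).source → F z = 0)
    (h1 : ∀ a ∈ (chartAt 𝔼 x₀).target, dens x₀ a * F ((chartAt 𝔼 x₀).symm a) = H a)
    (h2 : ∀ a, a ∉ (chartAt 𝔼 x₀).target → H a = 0) :
    ∫ z, F z ∂(μHE[n] : Measure M) = ∫ a, H a := by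
  rw [integral_eq_of_support x₀ F h0, ← setIntegral_eq_integral_of_forall_compl_eq_zero h2]
  exact setIntegral_congr_fun (chartAt 𝔼 x₀).open_target.measurableSet fun a ha => h1 a ha

theorem locallyIntegrableOn_symm (x₀ : M) {u : M → ℝ}
    (hu : Integrable u (μHE[n] : Measure M)) :
    LocallyIntegrableOn (fun a => u ((chartAt 𝔼 x₀).symm a)) (chartAt 𝔼 x₀).target := by
  have h1 := (integrableOn_source_iff (n := n) x₀ u).1 hu.integrableOn
  have h2 := h1.locallyIntegrableOn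
  have hc : ContinuousOn (fun a => (dens (n := n) x₀ a)⁻¹) (chartAt 𝔼 x₀).target :=
    (continuousOn_dens (n := n) x₀).inv₀ fun a ha => (dens_pos (n := n) x₀ ha).ne'
  have h3 := h2.continuousOn_mul hc (chartAt 𝔼 x₀).open_target.isLocallyClosed
  intro a ha
  obtain ⟨s, hs, hi⟩ := h3 a ha
  refine ⟨s ∩ (chartAt 𝔼 x₀).target, inter_mem hs self_mem_nhdsWithin, ?_⟩
  have h4 := hi.mono_set (inter_subset_left (s := s) (t := (chartAt 𝔼 x₀).target))
  have hae : ∀ᵐ b ∂(volume.restrict (s ∩ (chartAt 𝔼 x₀).target)),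
      b ∈ (chartAt 𝔼 x₀).target := by
    have h5 : ∀ᵐ b ∂(volume.restrict (chartAt 𝔼 x₀).target), b ∈ (chartAt 𝔼 x₀).target :=
      ae_restrict_mem (chartAt 𝔼 x₀).open_target.measurableSet
    exact ae_restrict_of_ae_restrict_of_subset inter_subset_right h5
  refine IntegrableOn.congr_fun_ae (f := fun b => (dens (n := n) x₀ b)⁻¹ *
    (dens (n := n) x₀ b • u ((chartAt 𝔼 x₀).symm b))) h4 ?_
  filter_upwards [hae] with b hb
  have := (dens_pos (n := n) x₀ hb).ne'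
  rw [smul_eq_mul]
  field_simp

/-- local regularity -/
theorem exists_local {c : ℝ} (hc : 0 < c) {G u : M → ℝ} (hG : Sm n G)
    (hu : Integrable u (μHE[n] : Measure M))
    (hw : ∀ φ : M → ℝ, Sm n φ →
      ∫ z, u z * LC n c φ z ∂(μHE[n] : Measure M) = ∫ z, G z * φ z ∂(μHE[n] : Measure M))
    (x₀ : M) : ∃ v : 𝔼 → ℝ, ContDiffOn ℝ ∞ v (chartAt 𝔼 x₀).target ∧
      (∀ᵐ a, a ∈ (chartAt 𝔼 x₀).target → v a = u ((chartAt 𝔼 x₀).symm a)) ∧
      ∀ a ∈ (chartAt 𝔼 x₀).target,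
        laplaceBeltrami (chartMetric n M x₀) v a - c * v a = G ((chartAt 𝔼 x₀).symm a) := by
  have hdc := contDiffOn_dens (n := n) x₀
  have hGc : ContDiffOn ℝ ∞ (Bo84.inCh n x₀ G) (chartAt 𝔼 x₀).target := fun a ha =>
    (Bo84.contDiffAt_inCh le_rfl ha (hG _)).contDiffWithinAt
  obtain ⟨v, hv, hvu, hve⟩ := ell_reg_zero (A := Ac (n := n) x₀)
    (w := fun a => c * dens (n := n) x₀ a)
    (f := fun a => dens (n := n) x₀ a * Bo84.inCh n x₀ G a)
    (u := fun a => u ((chartAt 𝔼 x₀).symm a)) (chartAt 𝔼 x₀).open_target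
    (contDiffOn_Ac x₀) (fun a ha => posDef_Ac x₀ ha) (contDiffOn_const.mul hdc)
    (fun a ha => mul_pos hc (dens_pos (n := n) x₀ ha)) (hdc.mul hGc)
    (locallyIntegrableOn_symm x₀ hu) (by
      intro φ hφ hφc hs
      have h1 := hw _ (sm_ez x₀ hφ hφc hs)
      rw [integral_chart x₀ (H := fun a => u ((chartAt 𝔼 x₀).symm a) *
          (divA (Ac (n := n) x₀) φ a - (c * dens (n := n) x₀ a) * φ a))
          (fun z hz => by rw [LC_zero c (ez_zero_near x₀ hφc hs hz), mul_zero])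
          (fun a ha => by rw [← LC_ez c x₀ hφ hφc hs ha]; ring)
          (fun a ha => by
            have h2 : a ∉ tsupport φ := fun h => ha (hs h)
            rw [image_eq_zero_of_notMem_tsupport h2,
              image_eq_zero_of_notMem_tsupport fun h => h2 (tsupport_divA_subset _ _ h)]
            ring),
        integral_chart x₀ (H := fun a => (dens (n := n) x₀ a * Bo84.inCh n x₀ G a) * φ a)
          (fun z hz => by rw [(ez_zero_near x₀ hφc hs hz).eq_of_nhds, mul_zero])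
          (fun a ha => by rw [ez_symm x₀ φ ha, Bo84.inCh]; ring)
          (fun a ha => by
            have h2 : a ∉ tsupport φ := fun h => ha (hs h)
            rw [image_eq_zero_of_notMem_tsupport h2, mul_zero])] at h1
      exact h1)
  refine ⟨v, hv, hvu, fun a ha => ?_⟩
  have h1 := hve a ha
  have hd := dens_pos (n := n) x₀ ha
  rw [divA_Ac x₀ ha] at h1
  have h2 : dens (n := n) x₀ a * (laplaceBeltrami (chartMetric n M x₀) v a - c * v a) =
      dens (n := n) x₀ a * G ((chartAt 𝔼 x₀).symm a) := by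
    rw [mul_sub]
    have h3 : dens (n := n) x₀ a * Bo84.inCh n x₀ G a =
      dens (n := n) x₀ a * G ((chartAt 𝔼 x₀).symm a) := rfl
    rw [← h3, ← h1]
    ring
  exact mul_left_cancel₀ hd.ne' h2

theorem ae_source (x₀ : M) {u : M → ℝ} {v : 𝔼 → ℝ}
    (h : ∀ᵐ a, a ∈ (chartAt 𝔼 x₀).target → v a = u ((chartAt 𝔼 x₀).symm a)) :
    ∀ᵐ z ∂(μHE[n] : Measure M), z ∈ (chartAt 𝔼 x₀).source → v (chartAt 𝔼 x₀ z) = u z := by
  set B : Set 𝔼 := toMeasurable volume
    {a | ¬ (a ∈ (chartAt 𝔼 x₀).target → v a = u ((chartAt 𝔼 x₀).symm a))} ∩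
      (chartAt 𝔼 x₀).target with hB
  have hBm : MeasurableSet B :=
    (measurableSet_toMeasurable _ _).inter (chartAt 𝔼 x₀).open_target.measurableSet
  have hB0 : volume B = 0 := by
    refine measure_mono_null inter_subset_left ?_
    rw [measure_toMeasurable]
    exact h
  have h1 := muHE_symm_image (n := n) x₀ (B := B) inter_subset_right hBm
  have h2 : ∫⁻ b in B, ENNReal.ofReal (dens (n := n) x₀ b) = 0 := by
    rw [Measure.restrict_eq_zero.2 hB0]
    simp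
  rw [h2] at h1
  rw [ae_iff]
  refine measure_mono_null (fun z hz => ?_) h1
  simp only [Classical.not_imp, mem_setOf_eq] at hz
  refine ⟨chartAt 𝔼 x₀ z, ⟨subset_toMeasurable _ _ ?_, (chartAt 𝔼 x₀).map_source hz.1⟩,
    (chartAt 𝔼 x₀).left_inv hz.1⟩
  intro hcon
  apply hz.2
  have := hcon ((chartAt 𝔼 x₀).map_source hz.1)
  rw [this, (chartAt 𝔼 x₀).left_inv hz.1]

/-- **Regularity**: a weak (`L¹`) solution of `Δu - cu = G`, `G` smooth, is smooth. -/
theorem regularity {c : ℝ} (hc : 0 < c) {G u : M → ℝ} (hG : Sm n G)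
    (hu : Integrable u (μHE[n] : Measure M))
    (hw : ∀ φ : M → ℝ, Sm n φ →
      ∫ z, u z * LC n c φ z ∂(μHE[n] : Measure M) = ∫ z, G z * φ z ∂(μHE[n] : Measure M)) :
    ∃ U : M → ℝ, Sm n U ∧ U =ᵐ[(μHE[n] : Measure M)] u ∧ ∀ z, LC n c U z = G z := by
  have := isOpenPosMeasure n M
  have hex := fun x₀ => exists_local hc hG hu hw x₀
  choose V hV hVu hVe using hex
  have hcomp : ∀ x₀ x₁ : M, EqOn (fun z => V x₀ (chartAt 𝔼 x₀ z)) (fun z => V x₁ (chartAt 𝔼 x₁ z))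
      ((chartAt 𝔼 x₀).source ∩ (chartAt 𝔼 x₁).source) := by
    intro x₀ x₁
    refine Measure.eqOn_open_of_ae_eq (μ := (μHE[n] : Measure M)) ?_
      ((chartAt 𝔼 x₀).open_source.inter (chartAt 𝔼 x₁).open_source) ?_ ?_
    · rw [EventuallyEq, ae_restrict_iff'
        ((chartAt 𝔼 x₀).open_source.inter (chartAt 𝔼 x₁).open_source).measurableSet]
      filter_upwards [ae_source (n := n) x₀ (hVu x₀), ae_source (n := n) x₁ (hVu x₁)]
        with z h0 h1 hz
      rw [h0 hz.1, h1 hz.2]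
    · exact ((hV x₀).continuousOn.comp (chartAt 𝔼 x₀).continuousOn
        (fun z hz => (chartAt 𝔼 x₀).map_source hz)).mono inter_subset_left
    · exact ((hV x₁).continuousOn.comp (chartAt 𝔼 x₁).continuousOn
        (fun z hz => (chartAt 𝔼 x₁).map_source hz)).mono inter_subset_right
  set U : M → ℝ := fun z => V z (chartAt 𝔼 z z) with hU
  have hUx : ∀ x₀ z : M, z ∈ (chartAt 𝔼 x₀).source → U z = V x₀ (chartAt 𝔼 x₀ z) := fun x₀ z hz =>
    hcomp z x₀ ⟨mem_chart_source 𝔼 z, hz⟩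
  have hin : ∀ x₀ : M, ∀ a ∈ (chartAt 𝔼 x₀).target, Bo84.inCh n x₀ U a = V x₀ a := by
    intro x₀ a ha
    rw [Bo84.inCh, hUx x₀ _ ((chartAt 𝔼 x₀).map_target ha), (chartAt 𝔼 x₀).right_inv ha]
  have hin' : ∀ x₀ : M, ∀ a ∈ (chartAt 𝔼 x₀).target, Bo84.inCh n x₀ U =ᶠ[𝓝 a] V x₀ := by
    intro x₀ a ha
    filter_upwards [(chartAt 𝔼 x₀).open_target.mem_nhds ha] with b hb using hin x₀ b hb
  have hUs : Sm n U := by
    intro z
    have hz := mem_chart_source 𝔼 z
    refine Bo84.contMDiffAt_of_inCh (x₀ := z) le_rfl hz ?_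
    have ha := (chartAt 𝔼 z).map_source hz
    exact ((hV z).contDiffAt ((chartAt 𝔼 z).open_target.mem_nhds ha)).congr_of_eventuallyEq
      (hin' z _ ha)
  refine ⟨U, hUs, ?_, fun z => ?_⟩
  · haveI : Nonempty M ∨ IsEmpty M := (isEmpty_or_nonempty M).symm
    have hcov : ∃ s : Finset M, (univ : Set M) ⊆ ⋃ x ∈ s, (chartAt 𝔼 x).source :=
      isCompact_univ.elim_finite_subcover (fun x : M => (chartAt 𝔼 x).source)
        (fun x => (chartAt 𝔼 x).open_source)
        (fun z _ => mem_iUnion.2 ⟨z, mem_chart_source 𝔼 z⟩)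
    obtain ⟨s, hs⟩ := hcov
    have h1 : ∀ᵐ z ∂(μHE[n] : Measure M), ∀ x ∈ s, z ∈ (chartAt 𝔼 x).source →
        V x (chartAt 𝔼 x z) = u z :=
      (Finset.eventually_all s).2 fun x _ => ae_source (n := n) x (hVu x)
    filter_upwards [h1] with z hz
    obtain ⟨x, hx, hzx⟩ := mem_iUnion₂.1 (hs (mem_univ z))
    rw [hUx x z hzx, hz x hx hzx]
  · have hz := mem_chart_source 𝔼 z
    have ha := (chartAt 𝔼 z).map_source hz
    rw [LC, Bo84.mLap_chart' hz (hUs.two z), Bo84.lap_congr (hin' z _ ha), hUx z z hz,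
      hVe z _ ha, (chartAt 𝔼 z).left_inv hz]

end Int

variable [IsRiemannianManifold (𝓡 n) M] [CompactSpace M]

/-- **Existence**: `Δu - cu = G` is solvable in smooth functions on a closed manifold. -/
theorem exists_solution {c : ℝ} (hc : 0 < c) {G : M → ℝ} (hG : Sm n G) :
    ∃ u : M → ℝ, Sm n u ∧ ∀ z, Bo84.mLap n u z - c * u z = G z := by
  borelize M
  obtain ⟨u, hu, hw⟩ := exists_weak (n := n) hc hG.continuous
  have := isFiniteMeasure n M
  have hui : Integrable u (μHE[n] : Measure M) := hu.integrable (by norm_num)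
  obtain ⟨U, hU, -, hUe⟩ := regularity hc hG hui hw
  exact ⟨U, hU, hUe⟩

end

end Crest.Agent.R249.PenC_255
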