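import Crest.Agent.R249.PenC_255

/-!
Row 249, leaf A-PEN (helper255), part D: maximum principle, comparison, uniqueness for `Δ - c` on a
closed manifold.
-/

set_option autoImplicit false
set_option maxSynthPendingDepth 3
set_option linter.unusedSectionVars false
set_option linter.unusedVariables false

open Bundle Bornology Set MeasureTheory Manifold Filter Metric
open scoped ENNReal ContDiff Topology NNReal
open Crest.GeometryTopology.CoordMetric Crest.GeometryTopology.ChartCurvature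
open Crest.GeometryTopology.Geodesic
open Crest.Agent.R226.ChartMet842

namespace Crest.Agent.R249.PenD_255

open Crest.Agent.R247 Crest.Agent.R247.Ms322
open Crest.Agent.R249.PenB_255 Crest.Agent.R249.PenC_255

noncomputable section

/-- second order condition at a local maximum -/
theorem second_order_max {X : Type*} [NormedAddCommGroup X] [NormedSpace ℝ X] {f : X → ℝ} {x : X}
    (hf : ContDiffAt ℝ 2 f x) (hmax : IsLocalMax f x) (v : X) :
    fderiv ℝ (fderiv ℝ f) x v v ≤ 0 := by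
  set g : ℝ → ℝ := fun t => f (x + t • v) with hg
  have hline : ∀ t : ℝ, HasDerivAt (fun t : ℝ => x + t • v) v t := fun t => by
    simpa using ((hasDerivAt_id t).smul_const v).const_add x
  have htend : Tendsto (fun t : ℝ => x + t • v) (𝓝 0) (𝓝 x) := by
    have := (hline 0).continuousAt.tendsto
    simpa using this
  have hev : ∀ᶠ y in 𝓝 x, DifferentiableAt ℝ f y := by
    have h := hf.eventually (by simp)
    filter_upwards [h] with y hy using hy.differentiableAt (by norm_num)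
  have h1 : deriv g =ᶠ[𝓝 0] fun t => fderiv ℝ f (x + t • v) v := by
    filter_upwards [htend.eventually hev] with t ht
    exact (ht.hasFDerivAt.comp_hasDerivAt t (hline t)).deriv
  have h3 : ContDiffAt ℝ 1 (fderiv ℝ f) x := hf.fderiv_right (by norm_num)
  have h4 : HasFDerivAt (fderiv ℝ f) (fderiv ℝ (fderiv ℝ f) x) x :=
    (h3.differentiableAt (by norm_num)).hasFDerivAt
  have h5 : HasDerivAt (fun t : ℝ => fderiv ℝ f (x + t • v)) (fderiv ℝ (fderiv ℝ f) x v) 0 := by
    have h6 : HasFDerivAt (fderiv ℝ f) (fderiv ℝ (fderiv ℝ f) x) (x + (0 : ℝ) • v) := by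
      simpa using h4
    exact h6.comp_hasDerivAt 0 (hline 0)
  have h7 : HasDerivAt (fun t : ℝ => fderiv ℝ f (x + t • v) v) (fderiv ℝ (fderiv ℝ f) x v v) 0 := by
    have := h5.clm_apply (hasDerivAt_const (0 : ℝ) v)
    simpa using this
  have h8 : deriv (deriv g) 0 = fderiv ℝ (fderiv ℝ f) x v v := by
    rw [h1.deriv_eq, h7.deriv]
  have hgc : ContinuousAt g 0 := by
    have h0 : ContinuousAt f (x + (0 : ℝ) • v) := by simpa using hf.continuousAt
    exact ContinuousAt.comp (g := f) (f := fun t : ℝ => x + t • v) h0 (hline 0).continuousAt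
  have hgm : IsLocalMax g 0 := by
    have := htend.eventually hmax
    filter_upwards [this] with t ht
    simpa [hg] using ht
  have hle : deriv (deriv g) 0 ≤ 0 := by
    by_contra hneg
    push Not at hneg
    have hmin := isLocalMin_of_deriv_deriv_pos hneg hgm.deriv_eq_zero hgc
    have hconst : g =ᶠ[𝓝 0] fun _ => g 0 := by
      filter_upwards [hmin, hgm] with y h1 h2 using le_antisymm h2 h1
    have h1 : deriv g =ᶠ[𝓝 0] fun _ => 0 := by
      have := hconst.deriv
      simpa using this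
    have : deriv (deriv g) 0 = 0 := by
      rw [h1.deriv_eq]; simp
    linarith
  rwa [h8] at hle

variable {n : ℕ} {M : Type*} [MetricSpace M] [ChartedSpace (EuclideanSpace ℝ (Fin n)) M]
  [IsManifold (𝓡 n) ∞ M]
  [RiemannianBundle (fun p : M => TangentSpace (𝓡 n) p)]
  [IsContMDiffRiemannianBundle (𝓡 n) ∞ (EuclideanSpace ℝ (Fin n)) (fun p : M => TangentSpace (𝓡 n) p)]

local notation "𝔼" => EuclideanSpace ℝ (Fin n)

theorem isLocalMax_inCh {f : M → ℝ} {z : M} (hm : IsLocalMax f z) :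
    IsLocalMax (Bo84.inCh n z f) (chartAt 𝔼 z z) := by
  have hz := mem_chart_source 𝔼 z
  have hc : ContinuousAt (chartAt 𝔼 z).symm (chartAt 𝔼 z z) :=
    (chartAt 𝔼 z).continuousAt_symm ((chartAt 𝔼 z).map_source hz)
  have h1 := hc.tendsto
  rw [(chartAt 𝔼 z).left_inv hz] at h1
  have h2 := h1.eventually hm
  filter_upwards [h2] with a ha
  show f ((chartAt 𝔼 z).symm a) ≤ f ((chartAt 𝔼 z).symm (chartAt 𝔼 z z))
  rw [(chartAt 𝔼 z).left_inv hz]
  exact ha

/-- the Laplacian at a local maximum -/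
theorem mLap_nonpos_of_max {f : M → ℝ} {z : M} (hf : ContMDiffAt (𝓡 n) 𝓘(ℝ, ℝ) 2 f z)
    (hm : IsLocalMax f z) : Bo84.mLap n f z ≤ 0 := by
  have hz := mem_chart_source 𝔼 z
  have ha := (chartAt 𝔼 z).map_source hz
  have hg := isRiemannianOn_chartMetric (n := n) z
  have hfc : ContDiffAt ℝ 2 (Bo84.inCh n z f) (chartAt 𝔼 z z) := by
    refine Bo84.contDiffAt_inCh Bo84.two_le_infty ha ?_
    rw [(chartAt 𝔼 z).left_inv hz]
    exact hf
  have hmc := isLocalMax_inCh (n := n) hm
  obtain ⟨ξ, hξ⟩ := Bo84.exists_frame hg ha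
  rw [Bo84.mLap_chart' hz hf, Bo84.lap_frame hg ha hfc hξ]
  refine Finset.sum_nonpos fun j _ => ?_
  rw [Bo84.hess_apply, hmc.fderiv_eq_zero]
  have := second_order_max hfc hmc (ξ j)
  simpa using this

theorem mGam_eq_zero_of_max {f : M → ℝ} {z : M} (hm : IsLocalMax f z) (h : M → ℝ) :
    Bo84.mGam n f h z = 0 := by
  have hz := mem_chart_source 𝔼 z
  have hmc := isLocalMax_inCh (n := n) hm
  rw [Bo84.mGam_chart' hz, Bo84.gam_congr_fderiv (f' := fun _ => 0)
    (h' := Bo84.inCh n z h) (by rw [hmc.fderiv_eq_zero]; simp) rfl]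
  exact Bo84.gam_const_left 0

theorem mLap_nonneg_of_min {f : M → ℝ} {z : M} (hf : ContMDiffAt (𝓡 n) 𝓘(ℝ, ℝ) 2 f z)
    (hm : IsLocalMin f z) : 0 ≤ Bo84.mLap n f z := by
  have h1 : ContMDiffAt (𝓡 n) 𝓘(ℝ, ℝ) 2 (fun y => (-1 : ℝ) * f y) z := contMDiffAt_const.mul hf
  have h2 : IsLocalMax (fun y => (-1 : ℝ) * f y) z := by
    filter_upwards [hm] with y hy
    linarith
  have h3 := mLap_nonpos_of_max h1 h2
  rw [Bo84.mLap_const_mul _ hf] at h3
  linarith

section Closed

variable [CompactSpace M]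

/-- **Maximum principle**: `Δu ≥ q u` with `q > 0` gives `u ≤ 0`. -/
theorem max_principle {u : M → ℝ} (hu : ∀ z, ContMDiffAt (𝓡 n) 𝓘(ℝ, ℝ) 2 u z) {q : M → ℝ}
    (hq : ∀ z, 0 < q z) (h : ∀ z, q z * u z ≤ Bo84.mLap n u z) : ∀ z, u z ≤ 0 := by
  intro z
  have hne : (univ : Set M).Nonempty := ⟨z, mem_univ z⟩
  have hc : Continuous u := continuous_iff_continuousAt.2 fun y => (hu y).continuousAt
  obtain ⟨p, -, hp⟩ := isCompact_univ.exists_isMaxOn hne hc.continuousOn
  have h1 : IsLocalMax u p := hp.isLocalMax Filter.univ_mem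
  have h2 := mLap_nonpos_of_max (hu p) h1
  have h3 := h p
  have h4 : u z ≤ u p := hp (mem_univ z)
  have h5 : u p ≤ 0 := by
    by_contra hcon
    push Not at hcon
    have := mul_pos (hq p) hcon
    linarith
  linarith

/-- comparison for `Δ - c` -/
theorem comparison {c : ℝ} (hc : 0 < c) {u v : M → ℝ}
    (hu : ∀ z, ContMDiffAt (𝓡 n) 𝓘(ℝ, ℝ) 2 u z) (hv : ∀ z, ContMDiffAt (𝓡 n) 𝓘(ℝ, ℝ) 2 v z)
    (h : ∀ z, Bo84.mLap n v z - c * v z ≤ Bo84.mLap n u z - c * u z) : ∀ z, u z ≤ v z := by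
  intro z
  have h1 := max_principle (n := n) (u := fun y => u y - v y) (fun y => (hu y).sub (hv y))
    (q := fun _ => c) (fun _ => hc) (fun y => by
      have h2 := h y
      have h3 : Bo84.mLap n (fun y => u y - v y) y = Bo84.mLap n u y - Bo84.mLap n v y :=
        Bo84.mLap_sub (hu y) (hv y)
      rw [h3]
      linarith)
  have := h1 z
  linarith

theorem unique_solution {c : ℝ} (hc : 0 < c) {u v : M → ℝ}
    (hu : ∀ z, ContMDiffAt (𝓡 n) 𝓘(ℝ, ℝ) 2 u z) (hv : ∀ z, ContMDiffAt (𝓡 n) 𝓘(ℝ, ℝ) 2 v z)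
    (h : ∀ z, Bo84.mLap n v z - c * v z = Bo84.mLap n u z - c * u z) : u = v :=
  funext fun z => le_antisymm (comparison hc hu hv (fun y => (h y).le) z)
    (comparison hc hv hu (fun y => (h y).ge) z)

/-- sup bound -/
theorem abs_le_of {c S : ℝ} (hc : 0 < c) {u : M → ℝ}
    (hu : ∀ z, ContMDiffAt (𝓡 n) 𝓘(ℝ, ℝ) 2 u z)
    (h : ∀ z, |Bo84.mLap n u z - c * u z| ≤ S) : ∀ z, |u z| ≤ S / c := by
  intro z
  have hk : ∀ y : M, Bo84.mLap n (fun _ : M => S / c) y - c * (S / c) = -S := by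
    intro y
    rw [Bo84.mLap_const]
    field_simp
    ring
  have hk' : ∀ y : M, Bo84.mLap n (fun _ : M => -(S / c)) y - c * (-(S / c)) = S := by
    intro y
    rw [Bo84.mLap_const]
    field_simp
    ring
  rw [abs_le]
  constructor
  · refine comparison (n := n) hc (u := fun _ => -(S / c)) (fun y => contMDiffAt_const) hu
      (fun y => ?_) z
    show _ ≤ Bo84.mLap n (fun _ : M => -(S / c)) y - c * (-(S / c))
    rw [hk']
    exact (abs_le.1 (h y)).2
  · refine comparison (n := n) hc (v := fun _ => S / c) hu (fun y => contMDiffAt_const)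
      (fun y => ?_) z
    show Bo84.mLap n (fun _ : M => S / c) y - c * (S / c) ≤ _
    rw [hk]
    exact (abs_le.1 (h y)).1

end Closed

variable [IsRiemannianManifold (𝓡 n) M] [CompactSpace M]

variable (n) in
/-- the resolvent `(Δ - c)⁻¹` on smooth functions (zero otherwise) -/
def Rs (c : ℝ) (G : M → ℝ) : M → ℝ := by
  classical
  exact if h : ∃ u : M → ℝ, Sm n u ∧ ∀ z, Bo84.mLap n u z - c * u z = G z then h.choose
    else fun _ => 0

theorem Rs_spec {c : ℝ} (hc : 0 < c) {G : M → ℝ} (hG : Sm n G) :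
    Sm n (Rs n c G) ∧ ∀ z, Bo84.mLap n (Rs n c G) z - c * Rs n c G z = G z := by
  have h := exists_solution (n := n) hc hG
  unfold Rs
  rw [dif_pos h]
  exact h.choose_spec

end

end Crest.Agent.R249.PenD_255
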