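import Crest.Agent.R249.Pen2_806

/-!
R249, part A2 v3 (helper806), file 1: general nonlinearity and general obstacles.

* `stepG` : one penalised problem for `L w = f(w)`, any smooth `f`, any smooth obstacle `h`;
* `Gc g ε` : smooth convex truncation from below at the level `g`;
* `trunc_sub` : the truncated subsolution `Gc g ε (reg d F)`.
-/

set_option autoImplicit false
set_option linter.unusedVariables false
set_option linter.unusedSectionVars false

open MeasureTheory Set Filter Topology Matrix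
open scoped ContDiff

noncomputable section

namespace Crest.Agent.R249.PenG_806

open Calc_806 Calc_806.Calc Pen_806

variable {X : Type*} [TopologicalSpace X] [CompactSpace X] [MeasurableSpace X]
  [OpensMeasurableSpace X] {μ : Measure X} [IsFiniteMeasure μ]

/-! ### one penalised problem, general nonlinearity -/

/-- **one penalised problem**: `w₀` a subsolution of `L w = f w`, `w₀ + e ≤ h` an obstacle. -/
theorem stepG (C : Calc X μ) {f : ℝ → ℝ} (hf : ContDiff ℝ ∞ f) {b B Ld : ℝ} (hLd : 0 < Ld)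
    (hlipf : ∀ s t, b ≤ s → s ≤ t → t ≤ B → |f t - f s| ≤ Ld * (t - s))
    {e : ℝ} (he : 0 < e) {w₀ h : X → ℝ} (hw₀ : C.Sm w₀)
    (hh : C.Sm h) (hbw : ∀ x, b ≤ w₀ x) (hwh : ∀ x, w₀ x + e ≤ h x) (hh2 : ∀ x, h x + 2 * e ≤ B)
    (hsub : ∀ x, f (w₀ x) ≤ C.L w₀ x) {ε : ℝ} (hε : 0 < ε) :
    ∃ w m g r : X → ℝ, C.Sm w ∧ C.Sm m ∧ C.Sm g ∧ C.Sm r ∧ (∀ x, w₀ x ≤ w x) ∧
      (∀ x, w x ≤ h x + 2 * e) ∧ (∀ x, C.L w x = f (w x) + m x + g x) ∧ (∀ x, 0 ≤ m x) ∧
      (∀ x, m x ≤ max 0 (C.L h x - f (h x)) + e) ∧ (∀ x, m x ≠ 0 → h x - w x ≤ e) ∧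
      (∀ x, |g x| ≤ 2 * Ld * e + |r x|) ∧ ∫ x, r x ^ 4 ∂μ ≤ ε := by
  obtain ⟨Ls, hLs0, hLs⟩ := exists_st_lip
  have sfd : ∀ u : X → ℝ, C.Sm u → C.Sm (fun x => f (u x)) := fun u hu => sm_comp' hf hu
  -- the coefficient of the penalty
  let G : X → ℝ := fun x => ps e (C.L h x - f (h x))
  have sG : C.Sm G := sm_ps he (sm_sub (C.sm_L hh) (sfd h hh))
  obtain ⟨KG, hKG0, hKG⟩ := exists_bound (C := C) sG
  have hst : ContDiff ℝ ∞ Real.smoothTransition := Real.smoothTransition.contDiff
  let F : X → ℝ → ℝ := fun x u => f u + G x * Real.smoothTransition (1 - (h x - u) / e) +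
    2 * Ld * e * Real.smoothTransition ((u - h x) / e)
  have sF1 : ∀ u : X → ℝ, C.Sm u → C.Sm (fun x => G x * Real.smoothTransition (1 - (h x - u x) / e)) :=
    fun u hu => by
      refine sm_mul sG (sm_comp' hst ?_)
      have := sm_sub (C := C) (sm_const 1) (sm_smul (e⁻¹) (sm_sub hh hu))
      have e1 : (fun x => 1 - (h x - u x) / e) = fun x => 1 - e⁻¹ * (h x - u x) := by
        funext x; rw [div_eq_inv_mul]
      rw [e1]; exact this
  have sF2 : ∀ u : X → ℝ, C.Sm u →
      C.Sm (fun x => 2 * Ld * e * Real.smoothTransition ((u x - h x) / e)) := fun u hu => by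
    refine sm_smul _ (sm_comp' hst ?_)
    have := sm_smul (C := C) (e⁻¹) (sm_sub hu hh)
    have e1 : (fun x => (u x - h x) / e) = fun x => e⁻¹ * (u x - h x) := by
      funext x; rw [div_eq_inv_mul]
    rw [e1]; exact this
  set c : ℝ := Ld + KG * (Ls / e) + 2 * Ld * Ls with hcdef
  have hc : 0 < c := by positivity
  have h1 : C.Sm (fun x => h x + 2 * e) := sm_add hh (sm_const _)
  have hL1 : ∀ x, C.L (fun y => h y + 2 * e) x = C.L h x := fun x => by
    rw [C.L_add hh (sm_const _), C.L_const, add_zero]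
  have hlipF : ∀ x, ∀ s t, w₀ x ≤ s → s ≤ t → t ≤ h x + 2 * e → |F x t - F x s| ≤ c * (t - s) := by
    intro x s t hs hst' ht
    have b1 := hlipf s t ((hbw x).trans hs) hst' (ht.trans (hh2 x))
    have b2 := hLs (1 - (h x - t) / e) (1 - (h x - s) / e)
    have b3 := hLs ((t - h x) / e) ((s - h x) / e)
    have e2 : 1 - (h x - t) / e - (1 - (h x - s) / e) = (t - s) / e := by field_simp; ring
    have e3 : (t - h x) / e - (s - h x) / e = (t - s) / e := by field_simp; ring
    have hts : 0 ≤ t - s := sub_nonneg.2 hst'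
    rw [e2, abs_of_nonneg (div_nonneg hts he.le)] at b2
    rw [e3, abs_of_nonneg (div_nonneg hts he.le)] at b3
    have e4 : F x t - F x s = (f t - f s) + G x * (Real.smoothTransition (1 - (h x - t) / e) -
        Real.smoothTransition (1 - (h x - s) / e)) + 2 * Ld * e *
        (Real.smoothTransition ((t - h x) / e) - Real.smoothTransition ((s - h x) / e)) := by
      simp only [F]; ring
    rw [e4]
    have c1 : |G x * (Real.smoothTransition (1 - (h x - t) / e) -
        Real.smoothTransition (1 - (h x - s) / e))| ≤ KG * (Ls * ((t - s) / e)) := by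
      rw [abs_mul]
      exact mul_le_mul (hKG x) b2 (abs_nonneg _) hKG0
    have c2 : |2 * Ld * e * (Real.smoothTransition ((t - h x) / e) -
        Real.smoothTransition ((s - h x) / e))| ≤ 2 * Ld * e * (Ls * ((t - s) / e)) := by
      rw [abs_mul, abs_of_pos (by positivity : 0 < 2 * Ld * e)]
      exact mul_le_mul_of_nonneg_left b3 (by positivity)
    have d1 := abs_add_le ((f t - f s) + G x * (Real.smoothTransition (1 - (h x - t) / e) -
        Real.smoothTransition (1 - (h x - s) / e))) (2 * Ld * e *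
        (Real.smoothTransition ((t - h x) / e) - Real.smoothTransition ((s - h x) / e)))
    have d2 := abs_add_le (f t - f s) (G x * (Real.smoothTransition (1 - (h x - t) / e) -
        Real.smoothTransition (1 - (h x - s) / e)))
    have e5 : c * (t - s) = Ld * (t - s) + KG * (Ls * ((t - s) / e)) +
        2 * Ld * e * (Ls * ((t - s) / e)) := by
      rw [hcdef]; field_simp
    rw [e5]
    linarith
  have hsubF : ∀ x, F x (w₀ x) ≤ C.L w₀ x := by
    intro x
    have a1 : 1 - (h x - w₀ x) / e ≤ 0 := by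
      rw [sub_nonpos, le_div_iff₀ he]; linarith [hwh x]
    have a2 : (w₀ x - h x) / e ≤ 0 := div_nonpos_of_nonpos_of_nonneg (by linarith [hwh x]) he.le
    simp only [F]
    rw [Real.smoothTransition.zero_of_nonpos a1, Real.smoothTransition.zero_of_nonpos a2]
    simpa using hsub x
  have hsupF : ∀ x, C.L (fun y => h y + 2 * e) x ≤ F x (h x + 2 * e) := by
    intro x
    rw [hL1 x]
    have a1 : 1 ≤ 1 - (h x - (h x + 2 * e)) / e := by
      have : 1 - (h x - (h x + 2 * e)) / e = 3 := by field_simp; ring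
      rw [this]; norm_num
    have a2 : 1 ≤ (h x + 2 * e - h x) / e := by
      have : (h x + 2 * e - h x) / e = 2 := by field_simp; ring
      rw [this]; norm_num
    simp only [F]
    rw [Real.smoothTransition.one_of_one_le a1, Real.smoothTransition.one_of_one_le a2]
    have b1 := hlipf (h x) (h x + 2 * e)
      (by linarith [hbw x, hwh x]) (by linarith) (hh2 x)
    have b2 := (abs_le.1 b1).1
    have b3 : C.L h x - f (h x) ≤ G x := (le_max_right _ _).trans (ps_ge _ _)
    have e5 : h x + 2 * e - h x = 2 * e := by ring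
    rw [e5] at b2
    nlinarith
  obtain ⟨w, r, sw, sr, hw0, hw1, hLw, hr0, hr1, hr4⟩ := mono_iter C (F := F) (u₀ := w₀)
    (u₁ := fun x => h x + 2 * e) hw₀ h1 (fun x => by linarith [hwh x])
    (fun u hu hu0 hu1 => sm_add (sm_add (sfd u hu) (sF1 u hu)) (sF2 u hu))
    hc hlipF hsubF hsupF hε
  refine ⟨w, fun x => G x * Real.smoothTransition (1 - (h x - w x) / e),
    fun x => 2 * Ld * e * Real.smoothTransition ((w x - h x) / e) + r x, r, sw, sF1 w sw,
    sm_add (sF2 w sw) sr, sr, hw0, hw1, ?_, ?_, ?_, ?_, ?_, hr4⟩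
  · intro x
    rw [hLw x]
    simp only [F]
    ring
  · intro x
    exact mul_nonneg (ps_nonneg _ _) (Real.smoothTransition.nonneg _)
  · intro x
    have a1 := ps_le he.le (C.L h x - f (h x))
    have a2 : G x * Real.smoothTransition (1 - (h x - w x) / e) ≤ G x * 1 :=
      mul_le_mul_of_nonneg_left (Real.smoothTransition.le_one _) (ps_nonneg _ _)
    simp only [mul_one] at a2
    exact a2.trans a1
  · intro x hx
    by_contra hcon
    push Not at hcon
    apply hx
    have : 1 - (h x - w x) / e ≤ 0 := by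
      rw [sub_nonpos, le_div_iff₀ he]; linarith
    change G x * Real.smoothTransition (1 - (h x - w x) / e) = 0
    rw [Real.smoothTransition.zero_of_nonpos this, mul_zero]
  · intro x
    refine (abs_add_le _ _).trans ?_
    have a1 : |2 * Ld * e * Real.smoothTransition ((w x - h x) / e)| ≤ 2 * Ld * e := by
      rw [abs_mul, abs_of_nonneg (Real.smoothTransition.nonneg _), abs_of_pos (by positivity)]
      exact mul_le_of_le_one_right (by positivity) (Real.smoothTransition.le_one _)
    linarith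

/-! ### the convex truncation -/

/-- smooth convex function, `= g` below `g`, of slope `1` above `g + ε`. -/
def Gc (g ε u : ℝ) : ℝ := g + ∫ s in g..u, Real.smoothTransition ((s - g) / ε)

lemma hasDerivAt_Gc (g ε u : ℝ) :
    HasDerivAt (Gc g ε) (Real.smoothTransition ((u - g) / ε)) u := by
  have hc : Continuous fun s : ℝ => Real.smoothTransition ((s - g) / ε) :=
    Real.smoothTransition.continuous.comp (by fun_prop)
  exact (intervalIntegral.integral_hasDerivAt_right (hc.intervalIntegrable _ _)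
    (hc.stronglyMeasurableAtFilter _ _) hc.continuousAt).const_add g

lemma deriv_Gc (g ε : ℝ) : deriv (Gc g ε) = fun u => Real.smoothTransition ((u - g) / ε) :=
  funext fun u => (hasDerivAt_Gc g ε u).deriv

lemma contDiff_stc (g ε : ℝ) : ContDiff ℝ ∞ fun u : ℝ => Real.smoothTransition ((u - g) / ε) := by
  have h1 : ContDiff ℝ ∞ Real.smoothTransition := Real.smoothTransition.contDiff
  exact h1.comp ((contDiff_id.sub contDiff_const).div_const _)

lemma contDiff_Gc (g ε : ℝ) : ContDiff ℝ ∞ (Gc g ε) := by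
  rw [contDiff_infty_iff_deriv]
  refine ⟨fun u => (hasDerivAt_Gc g ε u).differentiableAt, ?_⟩
  rw [deriv_Gc]
  exact contDiff_stc g ε

lemma deriv2_Gc_nonneg {g ε : ℝ} (hε : 0 < ε) (u : ℝ) : 0 ≤ deriv (deriv (Gc g ε)) u := by
  rw [deriv_Gc]
  have hm : Monotone fun u : ℝ => Real.smoothTransition ((u - g) / ε) := by
    intro a b hab
    exact Real.smoothTransition.monotone (by gcongr)
  exact hm.deriv_nonneg

lemma Gc_mono {g ε : ℝ} : Monotone (Gc g ε) := by
  refine monotone_of_deriv_nonneg (fun u => (hasDerivAt_Gc g ε u).differentiableAt) fun u => ?_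
  rw [deriv_Gc]
  exact Real.smoothTransition.nonneg _

lemma Gc_self (g ε : ℝ) : Gc g ε g = g := by simp [Gc]

lemma Gc_of_le {g ε u : ℝ} (hε : 0 < ε) (hu : u ≤ g) : Gc g ε u = g := by
  have h1 : ∫ s in g..u, Real.smoothTransition ((s - g) / ε) = 0 := by
    have h2 : ∫ s in g..u, Real.smoothTransition ((s - g) / ε) = ∫ s in g..u, (0 : ℝ) := by
      refine intervalIntegral.integral_congr fun s hs => ?_
      rw [uIcc_of_ge hu] at hs
      exact Real.smoothTransition.zero_of_nonpos
        (div_nonpos_of_nonpos_of_nonneg (by linarith [hs.2]) hε.le)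
    rw [h2]; simp
  rw [Gc, h1, add_zero]

lemma Gc_ge {g ε : ℝ} (hε : 0 < ε) (u : ℝ) : g ≤ Gc g ε u := by
  rcases le_total u g with h | h
  · rw [Gc_of_le hε h]
  · have := Gc_mono (g := g) (ε := ε) h
    rwa [Gc_self] at this

/-- `Gc` is 1-Lipschitz from above -/
lemma Gc_sub_le {g ε u v : ℝ} (huv : u ≤ v) : Gc g ε v - Gc g ε u ≤ v - u := by
  have h1 : Monotone fun u => u - Gc g ε u := by
    refine monotone_of_deriv_nonneg (fun u =>
      differentiableAt_id.sub (hasDerivAt_Gc g ε u).differentiableAt) fun u => ?_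
    have h2 : HasDerivAt (fun u => u - Gc g ε u) (1 - Real.smoothTransition ((u - g) / ε)) u :=
      (hasDerivAt_id u).sub (hasDerivAt_Gc g ε u)
    rw [h2.deriv]
    linarith [Real.smoothTransition.le_one ((u - g) / ε)]
  have := h1 huv
  simp only at this
  linarith

lemma Gc_le_max {g ε : ℝ} (hε : 0 < ε) (u : ℝ) : Gc g ε u ≤ max u g := by
  rcases le_total u g with h | h
  · rw [Gc_of_le hε h]; exact le_max_right _ _
  · have h1 := Gc_sub_le (g := g) (ε := ε) h
    rw [Gc_self] at h1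
    exact le_trans (by linarith) (le_max_left _ _)

/-- `Gc u ≥ u - ε` -/
lemma sub_le_Gc {g ε : ℝ} (hε : 0 < ε) (u : ℝ) : u - ε ≤ Gc g ε u := by
  rcases le_total u (g + ε) with h | h
  · have := Gc_ge (g := g) hε u; linarith
  · -- slope one above `g + ε`
    have h0 := Gc_ge (g := g) hε (g + ε)
    have h1 : ∫ s in (g + ε)..u, Real.smoothTransition ((s - g) / ε) = u - (g + ε) := by
      have h2 : ∫ s in (g + ε)..u, Real.smoothTransition ((s - g) / ε) = ∫ s in (g + ε)..u, (1 : ℝ) := by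
        refine intervalIntegral.integral_congr fun s hs => ?_
        rw [uIcc_of_le h] at hs
        refine Real.smoothTransition.one_of_one_le ?_
        rw [le_div_iff₀ hε]; linarith [hs.1]
      rw [h2]; simp
    have hc : Continuous fun s : ℝ => Real.smoothTransition ((s - g) / ε) :=
      Real.smoothTransition.continuous.comp (by fun_prop)
    have h3 : Gc g ε u = Gc g ε (g + ε) + (u - (g + ε)) := by
      rw [Gc, Gc, ← h1, add_assoc, intervalIntegral.integral_add_adjacent_intervals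
        (hc.intervalIntegrable _ _) (hc.intervalIntegrable _ _)]
    rw [h3]; linarith

/-- the algebraic inequality of the truncation -/
lemma Gc_ineq {f : ℝ → ℝ} {g B Ld ε : ℝ} (hg0 : 0 < g) (hg1 : g + ε ≤ 1) (hε : 0 < ε)
    (hLd : 0 < Ld) (hlipf : ∀ s t, g ≤ s → s ≤ t → t ≤ B → |f t - f s| ≤ Ld * (t - s))
    (hfg : f g ≤ 0) (hfF : ∀ u, g ≤ u → u ≤ B → f u ≤ (2 / 3) * (u * (1 - u ^ 3)))
    {u : ℝ} (hu : u ≤ B) (hgB : g ≤ B) :
    f (Gc g ε u) - Ld * ε ≤ Real.smoothTransition ((u - g) / ε) * ((2 / 3) * (u * (1 - u ^ 3))) := by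
  rcases le_total u g with h | h
  · rw [Gc_of_le hε h, Real.smoothTransition.zero_of_nonpos
      (div_nonpos_of_nonpos_of_nonneg (by linarith) hε.le)]
    nlinarith
  · have hG1 := Gc_ge (g := g) hε u
    have hG2 : Gc g ε u ≤ u := by
      have := Gc_le_max (g := g) hε u
      rwa [max_eq_left h] at this
    rcases le_total u (g + ε) with h' | h'
    · have h1 := hlipf g (Gc g ε u) le_rfl hG1 (hG2.trans hu)
      have h2 := (abs_le.1 h1).2
      have hu0 : 0 < u := hg0.trans_le h
      have hu1 : u ≤ 1 := h'.trans hg1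
      have h3 : 0 ≤ 1 - u ^ 3 := by
        have := pow_le_one₀ (n := 3) hu0.le hu1
        linarith
      have h4 : 0 ≤ Real.smoothTransition ((u - g) / ε) * ((2 / 3) * (u * (1 - u ^ 3))) :=
        mul_nonneg (Real.smoothTransition.nonneg _) (by positivity)
      nlinarith
    · have h1 := hlipf (Gc g ε u) u hG1 hG2 hu
      have h2 := (abs_le.1 h1).1
      have h3 := sub_le_Gc (g := g) hε u
      have h4 : Real.smoothTransition ((u - g) / ε) = 1 :=
        Real.smoothTransition.one_of_one_le (by rw [le_div_iff₀ hε]; linarith)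
      rw [h4, one_mul]
      have h5 := hfF u h hu
      nlinarith

/-- **the truncated subsolution** `Gc g ε (reg d F)`: `L φ₀ ≥ f(φ₀) - η`. -/
theorem trunc_sub {C : Calc X μ} {f : ℝ → ℝ} {g B Ld ε : ℝ} (hg0 : 0 < g) (hg1 : g + ε ≤ 1)
    (hε : 0 < ε) (hLd : 0 < Ld)
    (hlipf : ∀ s t, g ≤ s → s ≤ t → t ≤ B → |f t - f s| ≤ Ld * (t - s))
    (hfg : f g ≤ 0) (hfF : ∀ u, g ≤ u → u ≤ B → f u ≤ (2 / 3) * (u * (1 - u ^ 3))) (hgB : g ≤ B)
    {d : ℝ} (hd : 0 < d) (hd8 : d ≤ 1 / 8) {F : X → ℝ} (H : STC C F)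
    (h2 : ∀ x, Real.sqrt (F x) ≤ 2) (hB : ∀ x, reg d F x ≤ B) (x : X) :
    f (Gc g ε (reg d F x)) - (Ld * ε + (6 * B + (g ^ 5)⁻¹) * d) ≤
      C.L (fun y => Gc g ε (reg d F y)) x := by
  have sR := sm_reg (C := C) hd H.nonneg H.smooth
  have hu0 := reg_pos hd hd8 H.nonneg x
  rw [L_comp' (contDiff_Gc g ε) sR]
  have h3 : 0 ≤ deriv (deriv (Gc g ε)) (reg d F x) * C.G (reg d F) (reg d F) x :=
    mul_nonneg (deriv2_Gc_nonneg hε _) (G_self_nonneg _ _)
  have h4 := reg_sub hd hd8 H h2 x
  have h5 := Gc_ineq hg0 hg1 hε hLd hlipf hfg hfF (hB x) hgB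
  set u := reg d F x with hu
  set s := Real.smoothTransition ((u - g) / ε) with hs
  have hs0 : 0 ≤ s := Real.smoothTransition.nonneg _
  have hs1 : s ≤ 1 := Real.smoothTransition.le_one _
  have h6 : deriv (Gc g ε) u = s := by rw [deriv_Gc]
  rw [h6]
  have h7 : s * fd d u ≤ s * C.L (reg d F) x := mul_le_mul_of_nonneg_left h4 hs0
  have hB0 : 0 < B := hg0.trans_le hgB
  -- the error of `fd`
  have h8 : s * ((2 / 3) * (u * (1 - u ^ 3))) - (6 * B + (g ^ 5)⁻¹) * d ≤ s * fd d u := by
    rcases le_total u g with h | h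
    · have : s = 0 := Real.smoothTransition.zero_of_nonpos
        (div_nonpos_of_nonpos_of_nonneg (by linarith) hε.le)
      rw [this]
      have : 0 ≤ (6 * B + (g ^ 5)⁻¹) * d := by positivity
      linarith
    · have e1 : fd d u = (2 / 3) * (u * (1 - u ^ 3)) - (6 * d * u + (2 / 3) * d ^ 2 * (u ^ 5)⁻¹) := by
        unfold fd
        field_simp
      have h9 : (u ^ 5)⁻¹ ≤ (g ^ 5)⁻¹ := inv_anti₀ (by positivity) (pow_le_pow_left₀ hg0.le h 5)
      have h10 : 6 * d * u + (2 / 3) * d ^ 2 * (u ^ 5)⁻¹ ≤ (6 * B + (g ^ 5)⁻¹) * d := by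
        have a1 : 6 * d * u ≤ 6 * d * B := mul_le_mul_of_nonneg_left (hB x) (by positivity)
        have a2 : (2 / 3) * d ^ 2 * (u ^ 5)⁻¹ ≤ (2 / 3) * d ^ 2 * (g ^ 5)⁻¹ :=
          mul_le_mul_of_nonneg_left h9 (by positivity)
        have a3 : (2 / 3) * d ^ 2 * (g ^ 5)⁻¹ ≤ d * (g ^ 5)⁻¹ := by
          refine mul_le_mul_of_nonneg_right ?_ (by positivity)
          nlinarith
        linarith
      have h11 : 0 ≤ 6 * d * u + (2 / 3) * d ^ 2 * (u ^ 5)⁻¹ := by positivity
      have h12 : s * (6 * d * u + (2 / 3) * d ^ 2 * (u ^ 5)⁻¹) ≤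
          1 * (6 * d * u + (2 / 3) * d ^ 2 * (u ^ 5)⁻¹) := mul_le_mul_of_nonneg_right hs1 h11
      rw [e1, mul_sub]
      linarith
  linarith

lemma sm_trunc {C : Calc X μ} {g ε d : ℝ} (hd : 0 < d) {F : X → ℝ} (H : STC C F) :
    C.Sm (fun y => Gc g ε (reg d F y)) :=
  sm_comp' (contDiff_Gc g ε) (sm_reg hd H.nonneg H.smooth)

end Crest.Agent.R249.PenG_806
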