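import Crest.Agent.R249.Grn6_324
import Crest.Agent.R249.CalM_255

/-!
# R249 (helper324): the field `PoissonStmt` of `CalM_255`
-/

set_option autoImplicit false
set_option maxSynthPendingDepth 3
set_option linter.unusedSectionVars false

open Bundle Set MeasureTheory Manifold Filter Metric
open scoped ContDiff Topology NNReal
open Crest.GeometryTopology.PointedLimit

namespace Crest.Agent.R249.Grn324

variable (M : Type*) [MetricSpace M] [ChartedSpace (EuclideanSpace ℝ (Fin 4)) M]
  [IsManifold (𝓡 4) ∞ M] [RiemannianBundle (fun p : M => TangentSpace (𝓡 4) p)]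
  [IsContMDiffRiemannianBundle (𝓡 4) ∞ (EuclideanSpace ℝ (Fin 4))
    (fun p : M => TangentSpace (𝓡 4) p)]
  [IsRiemannianManifold (𝓡 4) M] [CompactSpace M] [ConnectedSpace M]
  [MeasurableSpace M] [BorelSpace M]

/-- the Poisson equation, in the form of `CalM_255` -/
theorem poissonStmt : Crest.Agent.R249.CalM_255.PoissonStmt M := fun g hg h0 => by
  obtain ⟨u, hu, h, -⟩ := exists_poisson (n := 4) (M := M) hg h0
  exact ⟨u, hu, h⟩

end Crest.Agent.R249.Grn324
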