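import Crest.Agent.R249.StFc_912

/-!
Row 249 (helper912), leaf A2-FIN, file 4: the final deduction (F) of Blueprint_806, section 10.
`Approx lam f₁ f₂ a ε φ ψ` = the output of the limit passage (BP-A2, section 9) at accuracy `ε`;
`final` : if approximate pairs exist for every `ε > 0` then the conclusion of `ST` holds.
-/

set_option autoImplicit false
set_option maxSynthPendingDepth 3
set_option linter.unusedSectionVars false
set_option linter.unusedVariables false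

open Bundle Bornology Set MeasureTheory Manifold Filter Metric
open scoped ENNReal ContDiff Topology NNReal
open Crest.GeometryTopology.CoordMetric Crest.GeometryTopology.ChartCurvature
  Crest.GeometryTopology.PointedLimit
open Crest.Agent.R247.Bo84 Crest.Agent.R247.Bs84
open Crest.Agent.R249.Top49

noncomputable section

namespace Crest.Agent.R249.StF_912

section Def

variable {M : Type*} [MetricSpace M] [ChartedSpace (EuclideanSpace ℝ (Fin 4)) M]
  [IsManifold (𝓡 4) ∞ M]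
  [RiemannianBundle (fun p : M => TangentSpace (𝓡 4) p)]
  [IsContMDiffRiemannianBundle (𝓡 4) ∞ (EuclideanSpace ℝ (Fin 4)) (fun p : M => TangentSpace (𝓡 4) p)]
  [MeasurableSpace M] [BorelSpace M]

local notation "μ" => (μHE[4] : Measure M)

/-- **Input of the final deduction** = output of the limit passage. -/
structure Approx (lam : ℝ) (f₁ f₂ : M → ℝ) (a : ℕ) (ε : ℝ) (φ ψ : M → ℝ) : Prop where
  sφ : ContMDiff (𝓡 4) 𝓘(ℝ, ℝ) ∞ φ
  sψ : ContMDiff (𝓡 4) 𝓘(ℝ, ℝ) ∞ ψ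
  pφ : ∀ x, 0 ≤ φ x
  pψ : ∀ x, 0 ≤ ψ x
  sum : ∀ x, φ x ^ 3 + ψ x ^ 3 ≤ 2 + ε
  lφ : ∀ x, Real.sqrt (f₁ x) ≤ k0 lam * (φ x ^ 3 + ε)
  lψ : ∀ x, Real.sqrt (f₂ x) ≤ k0 lam * (ψ x ^ 3 + ε)
  i1 : ∫ x, mGam 4 (fun y => (φ y * ψ y) ^ a) (fun y => (φ y * ψ y) ^ a) x ∂μ ≤ ε
  i2 : ∫ x, ((φ x * ψ x) ^ a * (1 - (φ x * ψ x) ^ a)) ^ 2 ∂μ ≤ ε

variable {lam : ℝ} {f₁ f₂ : M → ℝ} {a : ℕ} {ε : ℝ} {φ ψ : M → ℝ}

theorem Approx.mono (hlam : 0 < lam) (h : Approx lam f₁ f₂ a ε φ ψ) {ε' : ℝ} (he : ε ≤ ε') :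
    Approx lam f₁ f₂ a ε' φ ψ where
  sφ := h.sφ
  sψ := h.sψ
  pφ := h.pφ
  pψ := h.pψ
  sum := fun x => (h.sum x).trans (by linarith)
  lφ := fun x => (h.lφ x).trans (mul_le_mul_of_nonneg_left (by linarith) (k0_pos hlam).le)
  lψ := fun x => (h.lψ x).trans (mul_le_mul_of_nonneg_left (by linarith) (k0_pos hlam).le)
  i1 := h.i1.trans he
  i2 := h.i2.trans he

theorem Approx.symm (h : Approx lam f₁ f₂ a ε φ ψ) : Approx lam f₂ f₁ a ε ψ φ where
  sφ := h.sψ
  sψ := h.sφ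
  pφ := h.pψ
  pψ := h.pφ
  sum := fun x => by rw [add_comm]; exact h.sum x
  lφ := h.lψ
  lψ := h.lφ
  i1 := by
    have e : (fun y => (ψ y * φ y) ^ a) = fun y => (φ y * ψ y) ^ a := by
      funext y; rw [mul_comm]
    rw [e]; exact h.i1
  i2 := by
    have e : ∀ y, (ψ y * φ y) ^ a = (φ y * ψ y) ^ a := fun y => by rw [mul_comm]
    simp only [e]; exact h.i2

end Def

section Four

variable {M : Type*} [MetricSpace M] [ChartedSpace (EuclideanSpace ℝ (Fin 4)) M]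
  [IsManifold (𝓡 4) ∞ M]
  [RiemannianBundle (fun p : M => TangentSpace (𝓡 4) p)]
  [IsContMDiffRiemannianBundle (𝓡 4) ∞ (EuclideanSpace ℝ (Fin 4)) (fun p : M => TangentSpace (𝓡 4) p)]
  [IsRiemannianManifold (𝓡 4) M] [CompactSpace M] [ConnectedSpace M] [MeasurableSpace M]
  [BorelSpace M]

local notation "μ" => (μHE[4] : Measure M)

theorem vol_pos : 0 < (μ).real univ := by
  have h1 : (μ).IsOpenPosMeasure := Crest.Agent.R247.Ms322.isOpenPosMeasure 4 M
  have h2 : IsFiniteMeasure μ := finMeas (n := 4)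
  rw [measureReal_def]
  exact ENNReal.toReal_pos (isOpen_univ.measure_pos μ univ_nonempty).ne' (measure_ne_top _ _)

theorem lower {g : M → ℝ} (hg : Continuous g) (hn : ∀ x, 0 ≤ g x) {U : Set M} (hU : IsOpen U)
    {c : ℝ} (hc : ∀ x ∈ U, c ≤ g x) : c * (μ).real U ≤ ∫ x, g x ∂μ := by
  have h2 : IsFiniteMeasure μ := finMeas (n := 4)
  have hgi := integrable_of_continuous (n := 4) hg
  calc c * (μ).real U = ∫ x in U, c ∂μ := by
        rw [setIntegral_const, smul_eq_mul, mul_comm]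
    _ ≤ ∫ x in U, g x ∂μ :=
        setIntegral_mono_on (integrable_const _).integrableOn hgi.integrableOn hU.measurableSet hc
    _ ≤ ∫ x, g x ∂μ := setIntegral_le_integral hgi (Eventually.of_forall hn)

theorem real_pos {U : Set M} (hU : IsOpen U) (hne : U.Nonempty) : 0 < (μ).real U := by
  have h1 : (μ).IsOpenPosMeasure := Crest.Agent.R247.Ms322.isOpenPosMeasure 4 M
  have h2 : IsFiniteMeasure μ := finMeas (n := 4)
  rw [measureReal_def]
  exact ENNReal.toReal_pos (hU.measure_pos μ hne).ne' (measure_ne_top _ _)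

variable {lam : ℝ} {f₁ f₂ : M → ℝ} {a : ℕ} {ε : ℝ} {φ ψ : M → ℝ}

theorem Approx.prod_le (h : Approx lam f₁ f₂ a ε φ ψ) (hε : ε ≤ 1) (x : M) :
    φ x * ψ x ≤ 2 := by
  have h1 := h.pφ x
  have h2 := h.pψ x
  have h3 := h.sum x
  by_contra hcon
  rw [not_le] at hcon
  have h4 : 8 < (φ x * ψ x) ^ 3 := by
    have := pow_lt_pow_left₀ hcon (by norm_num) (three_ne_zero)
    norm_num at this
    exact this
  have h5 : (φ x * ψ x) ^ 3 = φ x ^ 3 * ψ x ^ 3 := by ring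
  have h6 : 0 ≤ φ x ^ 3 := by positivity
  have h7 : 0 ≤ ψ x ^ 3 := by positivity
  nlinarith [sq_nonneg (φ x ^ 3 - ψ x ^ 3)]

set_option maxHeartbeats 1000000 in
/-- the key dichotomy at accuracy `ε`. -/
theorem Approx.dich (hlam : 0 < lam) (hR : HasRicciLowerBound 4 M lam) (hP : PoissonStmt 4 M)
    (h : Approx lam f₁ f₂ a ε φ ψ) (hε : ε ≤ 1) (hε0 : 0 ≤ ε) :
    ∫ x, ((φ x * ψ x) ^ a) ^ 2 ∂μ ≤ (2 / lam + 8 * (2 + 2 * (1 + 2 * 2 ^ a) ^ 2 / lam)) * ε ∨
    ∫ x, (1 - (φ x * ψ x) ^ a) ^ 2 ∂μ ≤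
      (2 / lam + 8 * (2 + 2 * (1 + 2 * 2 ^ a) ^ 2 / lam)) * ε := by
  have hfin : IsFiniteMeasure μ := finMeas (n := 4)
  set F : M → ℝ := fun x => (φ x * ψ x) ^ a with hF
  have sF : ContMDiff (𝓡 4) 𝓘(ℝ, ℝ) ∞ F := (h.sφ.mul h.sψ).pow a
  have cF := sF.continuous
  have F0 : ∀ x, 0 ≤ F x := fun x => pow_nonneg (mul_nonneg (h.pφ x) (h.pψ x)) a
  set C : ℝ := 2 ^ a with hC
  have C0 : 0 < C := by positivity
  have FC : ∀ x, F x ≤ C := fun x =>
    pow_le_pow_left₀ (mul_nonneg (h.pφ x) (h.pψ x)) (h.prod_le hε x) a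
  set V := (μ).real univ with hV
  have V0 : 0 < V := vol_pos
  set m := (∫ x, F x ∂μ) / V with hm
  have iF := integrable_of_continuous (n := 4) cF
  have m0 : 0 ≤ m := div_nonneg (integral_nonneg F0) V0.le
  have mC : m ≤ C := by
    rw [hm, div_le_iff₀ V0]
    calc ∫ x, F x ∂μ ≤ ∫ x, C ∂μ := integral_mono iF (integrable_const _) FC
      _ = C * V := by rw [integral_const, smul_eq_mul, mul_comm]
  set H : M → ℝ := fun x => F x - m with hH
  have sH : ContMDiff (𝓡 4) 𝓘(ℝ, ℝ) ∞ H := sF.sub contMDiff_const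
  have cH := sH.continuous
  have iH : ∫ x, H x ∂μ = 0 := by
    rw [hH, integral_sub iF (integrable_const _), integral_const, smul_eq_mul, ← hV, hm]
    field_simp
    ring
  have hp := poincare (n := 4) (M := M) hR (by norm_num) hlam hP sH iH
  have mdF : ∀ x, MDifferentiableAt (𝓡 4) 𝓘(ℝ, ℝ) F x := fun x =>
    (sF x).mdifferentiableAt (by simp)
  have mdc : ∀ x, MDifferentiableAt (𝓡 4) 𝓘(ℝ, ℝ) (fun _ : M => m) x := fun x =>
    mdifferentiableAt_const
  have e1 : ∀ x, mGam 4 H H x = mGam 4 F F x := by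
    intro x
    simp only [hH]
    rw [mGam_sub_left (mdF x) (mdc x), mGam_sub_right (mdF x) (mdc x), mGam_const_right,
      mGam_const_left]
    ring
  simp only [e1] at hp
  have i1 : ∫ x, mGam 4 F F x ∂μ ≤ ε := h.i1
  have i2 : ∫ x, (F x * (1 - F x)) ^ 2 ∂μ ≤ ε := h.i2
  set Q := ∫ x, H x ^ 2 ∂μ with hQ
  have Q0 : 0 ≤ Q := integral_nonneg fun x => sq_nonneg _
  have iG0 : 0 ≤ ∫ x, mGam 4 F F x ∂μ := integral_nonneg fun x => mGam_self_nonneg F x
  have hQε : Q ≤ ε / lam := by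
    rw [le_div_iff₀ hlam]
    have : (1 - 1 / ((4:ℕ):ℝ)) = 3 / 4 := by norm_num
    rw [this] at hp
    nlinarith
  have q1 : V * (m * (1 - m)) ^ 2 ≤ 2 * ε + 2 * (1 + 2 * C) ^ 2 * (ε / lam) := by
    have k1 : ∀ x, (m * (1 - m)) ^ 2 ≤ 2 * (F x * (1 - F x)) ^ 2 + 2 * (1 + 2 * C) ^ 2 * H x ^ 2 := by
      intro x
      have a1 := F0 x
      have a2 := FC x
      have a3 : (F x * (1 - F x) - m * (1 - m)) ^ 2 ≤ (1 + 2 * C) ^ 2 * H x ^ 2 := by
        have e : F x * (1 - F x) - m * (1 - m) = (1 - F x - m) * H x := by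
          simp only [hH]; ring
        rw [e, mul_pow]
        apply mul_le_mul_of_nonneg_right _ (sq_nonneg _)
        apply sq_le_sq'
        · linarith
        · linarith
      nlinarith [sq_nonneg (2 * (F x * (1 - F x)) - m * (1 - m))]
    have k2 : ∫ x, (m * (1 - m)) ^ 2 ∂μ ≤
        ∫ x, (2 * (F x * (1 - F x)) ^ 2 + 2 * (1 + 2 * C) ^ 2 * H x ^ 2) ∂μ := by
      refine integral_mono (integrable_const _) (integrable_of_continuous (n := 4) ?_) k1
      exact (continuous_const.mul ((cF.mul (continuous_const.sub cF)).pow 2)).add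
        (continuous_const.mul (cH.pow 2))
    rw [integral_const, smul_eq_mul, integral_add, integral_const_mul, integral_const_mul] at k2
    · have k3 : 2 * (1 + 2 * C) ^ 2 * Q ≤ 2 * (1 + 2 * C) ^ 2 * (ε / lam) :=
        mul_le_mul_of_nonneg_left hQε (by positivity)
      linarith
    · exact integrable_of_continuous (n := 4)
        (continuous_const.mul ((cF.mul (continuous_const.sub cF)).pow 2))
    · exact integrable_of_continuous (n := 4) (continuous_const.mul (cH.pow 2))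
  set D := 2 + 2 * (1 + 2 * C) ^ 2 / lam with hD
  have q2 : V * (m * (1 - m)) ^ 2 ≤ D * ε := by
    refine q1.trans (le_of_eq ?_)
    rw [hD]; field_simp
  have e3 : (2 / lam + 8 * D) * ε = 2 * (ε / lam) + 8 * (D * ε) := by field_simp
  rw [e3]
  rcases le_total m (1 / 2) with hm2 | hm2
  · left
    have k1 : ∀ x, F x ^ 2 ≤ 2 * H x ^ 2 + 2 * m ^ 2 := by
      intro x
      simp only [hH]
      nlinarith [sq_nonneg (F x - 2 * m)]
    have k2 : ∫ x, F x ^ 2 ∂μ ≤ ∫ x, (2 * H x ^ 2 + 2 * m ^ 2) ∂μ :=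
      integral_mono (integrable_of_continuous (n := 4) (cF.pow 2))
        (integrable_of_continuous (n := 4) ((continuous_const.mul (cH.pow 2)).add
          continuous_const)) k1
    rw [integral_add, integral_const_mul, integral_const, smul_eq_mul] at k2
    · have k3 : V * m ^ 2 ≤ 4 * (V * (m * (1 - m)) ^ 2) := by
        have : m ^ 2 ≤ 4 * (m * (1 - m)) ^ 2 := by
          rw [mul_pow]
          nlinarith [mul_nonneg (sq_nonneg m) (by nlinarith : (0:ℝ) ≤ 4 * (1 - m) ^ 2 - 1)]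
        nlinarith
      linarith
    · exact integrable_of_continuous (n := 4) (continuous_const.mul (cH.pow 2))
    · exact integrable_const _
  · right
    have k1 : ∀ x, (1 - F x) ^ 2 ≤ 2 * H x ^ 2 + 2 * (1 - m) ^ 2 := by
      intro x
      simp only [hH]
      nlinarith [sq_nonneg ((1 - F x) - 2 * (1 - m))]
    have k2 : ∫ x, (1 - F x) ^ 2 ∂μ ≤ ∫ x, (2 * H x ^ 2 + 2 * (1 - m) ^ 2) ∂μ :=
      integral_mono (integrable_of_continuous (n := 4) ((continuous_const.sub cF).pow 2))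
        (integrable_of_continuous (n := 4) ((continuous_const.mul (cH.pow 2)).add
          continuous_const)) k1
    rw [integral_add, integral_const_mul, integral_const, smul_eq_mul] at k2
    · have k3 : V * (1 - m) ^ 2 ≤ 4 * (V * (m * (1 - m)) ^ 2) := by
        have : (1 - m) ^ 2 ≤ 4 * (m * (1 - m)) ^ 2 := by
          rw [mul_pow]
          nlinarith [mul_nonneg (sq_nonneg (1 - m)) (by nlinarith : (0:ℝ) ≤ 4 * m ^ 2 - 1)]
        nlinarith
      linarith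
    · exact integrable_of_continuous (n := 4) (continuous_const.mul (cH.pow 2))
    · exact integrable_const _

/-- case `c = 1`. -/
theorem le_k0_of_one (hlam : 0 < lam) (ha : 1 ≤ a) (hf : Continuous f₁)
    (hQ : ∀ η : ℝ, 0 < η → ∃ φ ψ : M → ℝ, Approx lam f₁ f₂ a η φ ψ ∧
      ∫ x, (1 - (φ x * ψ x) ^ a) ^ 2 ∂μ ≤ η) (x : M) : Real.sqrt (f₁ x) ≤ k0 lam := by
  by_contra hcon
  rw [not_le] at hcon
  have hk := k0_pos hlam
  obtain ⟨t, ht0, ht1, ht2⟩ : ∃ t : ℝ, 0 < t ∧ t ≤ 1 / 2 ∧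
      k0 lam * (1 + 2 * t) < Real.sqrt (f₁ x) := by
    refine ⟨min (1 / 2) ((Real.sqrt (f₁ x) / k0 lam - 1) / 4), ?_, min_le_left _ _, ?_⟩
    · have : 1 < Real.sqrt (f₁ x) / k0 lam := by rw [lt_div_iff₀ hk]; linarith
      have h2 : 0 < (Real.sqrt (f₁ x) / k0 lam - 1) / 4 := by linarith
      exact lt_min (by norm_num) h2
    · have h1 : 1 < Real.sqrt (f₁ x) / k0 lam := by rw [lt_div_iff₀ hk]; linarith
      have h2 := min_le_right (1 / 2 : ℝ) ((Real.sqrt (f₁ x) / k0 lam - 1) / 4)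
      have h3 : 1 + 2 * min (1 / 2 : ℝ) ((Real.sqrt (f₁ x) / k0 lam - 1) / 4) <
          Real.sqrt (f₁ x) / k0 lam := by linarith
      calc _ < k0 lam * (Real.sqrt (f₁ x) / k0 lam) := mul_lt_mul_of_pos_left h3 hk
        _ = _ := by field_simp
  set U : Set M := {y | k0 lam * (1 + 2 * t) < Real.sqrt (f₁ y)} with hU
  have hUo : IsOpen U := isOpen_lt continuous_const (Real.continuous_sqrt.comp hf)
  have hUp : 0 < (μ).real U := real_pos hUo ⟨x, ht2⟩
  obtain ⟨φ, ψ, hA, hI⟩ := hQ (min (t ^ 2 / 4) ((t ^ 2 / 6) ^ 2 * (μ).real U / 2)) (by positivity)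
  set η := min (t ^ 2 / 4) ((t ^ 2 / 6) ^ 2 * (μ).real U / 2) with hη
  have hη1 : η ≤ t ^ 2 / 4 := min_le_left _ _
  have hη2 : η ≤ (t ^ 2 / 6) ^ 2 * (μ).real U / 2 := min_le_right _ _
  have hη0 : 0 < η := by positivity
  have key : ∀ y ∈ U, (t ^ 2 / 6) ^ 2 ≤ (1 - (φ y * ψ y) ^ a) ^ 2 := by
    intro y hy
    have h1 := hA.lφ y
    have h2 : 1 + 2 * t < φ y ^ 3 + η := by
      have := lt_of_lt_of_le hy h1
      exact lt_of_mul_lt_mul_left this hk.le
    have h3 := hA.sum y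
    have h4 := hA.pφ y
    have h5 := hA.pψ y
    set X := φ y ^ 3 with hX
    set Y := ψ y ^ 3 with hY
    have hX1 : 1 + t ≤ X := by nlinarith
    have hY0 : 0 ≤ Y := by positivity
    have hXY : X * Y ≤ 1 - t ^ 2 / 2 := by
      have a1 : Y ≤ 2 + η - X := by linarith
      have a2 : X * Y ≤ X * (2 + η - X) := mul_le_mul_of_nonneg_left a1 (by linarith)
      have a3 : t * η ≤ t ^ 2 / 8 := by nlinarith
      have a4 : η ≤ t := by nlinarith
      nlinarith [mul_nonneg (sub_nonneg.2 hX1) (by linarith : (0:ℝ) ≤ (X - 1) + t - η)]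
    set r := φ y * ψ y with hr
    have hr0 : 0 ≤ r := mul_nonneg h4 h5
    have hr3 : r ^ 3 ≤ 1 - t ^ 2 / 2 := by
      have : r ^ 3 = X * Y := by rw [hr, hX, hY]; ring
      rw [this]; exact hXY
    have hr1 : r ≤ 1 := by
      by_contra hc
      rw [not_le] at hc
      have : 1 < r ^ 3 := by
        have := pow_lt_pow_left₀ hc (by norm_num) three_ne_zero
        simpa using this
      nlinarith [sq_nonneg t]
    have hr2 : t ^ 2 / 6 ≤ 1 - r := by nlinarith [mul_nonneg hr0 hr0, mul_nonneg (sub_nonneg.2 hr1) hr0]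
    have hra : r ^ a ≤ r := by
      calc r ^ a ≤ r ^ 1 := pow_le_pow_of_le_one hr0 hr1 ha
        _ = r := pow_one r
    have h6 : t ^ 2 / 6 ≤ 1 - r ^ a := by linarith
    exact pow_le_pow_left₀ (by positivity) h6 2
  have hc : Continuous fun y => (1 - (φ y * ψ y) ^ a) ^ 2 :=
    (continuous_const.sub ((hA.sφ.continuous.mul hA.sψ.continuous).pow a)).pow 2
  have h7 := lower hc (fun y => sq_nonneg _) hUo key
  have h8 : 0 < (t ^ 2 / 6) ^ 2 * (μ).real U := by positivity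
  linarith

/-- case `c = 0`. -/
theorem prod_zero_of_zero (hlam : 0 < lam) (hf₁ : Continuous f₁) (hf₂ : Continuous f₂)
    (n₁ : ∀ x, 0 ≤ f₁ x) (n₂ : ∀ x, 0 ≤ f₂ x)
    (hQ : ∀ η : ℝ, 0 < η → ∃ φ ψ : M → ℝ, Approx lam f₁ f₂ a η φ ψ ∧
      ∫ x, ((φ x * ψ x) ^ a) ^ 2 ∂μ ≤ η) (x : M) : f₁ x * f₂ x = 0 := by
  by_contra hcon
  have p₁ : 0 < f₁ x := lt_of_le_of_ne (n₁ x) fun h => hcon (by rw [← h, zero_mul])
  have p₂ : 0 < f₂ x := lt_of_le_of_ne (n₂ x) fun h => hcon (by rw [← h, mul_zero])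
  have hk := k0_pos hlam
  have q₁ : 0 < Real.sqrt (f₁ x) := Real.sqrt_pos.2 p₁
  have q₂ : 0 < Real.sqrt (f₂ x) := Real.sqrt_pos.2 p₂
  obtain ⟨c, hc0, hc1, hc2⟩ : ∃ c : ℝ, 0 < c ∧ k0 lam * (2 * c) < Real.sqrt (f₁ x) ∧
      k0 lam * (2 * c) < Real.sqrt (f₂ x) := by
    refine ⟨min (Real.sqrt (f₁ x)) (Real.sqrt (f₂ x)) / (4 * k0 lam), by positivity, ?_, ?_⟩
    · have h1 := min_le_left (Real.sqrt (f₁ x)) (Real.sqrt (f₂ x))
      have e : k0 lam * (2 * (min (Real.sqrt (f₁ x)) (Real.sqrt (f₂ x)) / (4 * k0 lam))) =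
        min (Real.sqrt (f₁ x)) (Real.sqrt (f₂ x)) / 2 := by field_simp; ring
      rw [e]; linarith
    · have h1 := min_le_right (Real.sqrt (f₁ x)) (Real.sqrt (f₂ x))
      have e : k0 lam * (2 * (min (Real.sqrt (f₁ x)) (Real.sqrt (f₂ x)) / (4 * k0 lam))) =
        min (Real.sqrt (f₁ x)) (Real.sqrt (f₂ x)) / 2 := by field_simp; ring
      rw [e]; linarith
  set U : Set M := {y | k0 lam * (2 * c) < Real.sqrt (f₁ y)} ∩
    {y | k0 lam * (2 * c) < Real.sqrt (f₂ y)} with hU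
  have hUo : IsOpen U := (isOpen_lt continuous_const (Real.continuous_sqrt.comp hf₁)).inter
    (isOpen_lt continuous_const (Real.continuous_sqrt.comp hf₂))
  have hUp : 0 < (μ).real U := real_pos hUo ⟨x, hc1, hc2⟩
  set κ : ℝ := (c ^ 2) ^ a / 2 ^ a with hκ
  have hκ0 : 0 < κ := by positivity
  obtain ⟨φ, ψ, hA, hI⟩ := hQ (min (min 1 c) (κ * (μ).real U / 2)) (by positivity)
  set η := min (min 1 c) (κ * (μ).real U / 2) with hη
  have hη1 : η ≤ c := (min_le_left _ _).trans (min_le_right _ _)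
  have hη3 : η ≤ 1 := (min_le_left _ _).trans (min_le_left _ _)
  have hη2 : η ≤ κ * (μ).real U / 2 := min_le_right _ _
  have key : ∀ y ∈ U, κ ≤ ((φ y * ψ y) ^ a) ^ 2 := by
    intro y hy
    have h1 : 2 * c < φ y ^ 3 + η := lt_of_mul_lt_mul_left (lt_of_lt_of_le hy.1 (hA.lφ y)) hk.le
    have h2 : 2 * c < ψ y ^ 3 + η := lt_of_mul_lt_mul_left (lt_of_lt_of_le hy.2 (hA.lψ y)) hk.le
    have h4 := hA.pφ y
    have h5 := hA.pψ y
    set r := φ y * ψ y with hr
    have hr0 : 0 ≤ r := mul_nonneg h4 h5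
    have hr3 : c ^ 2 ≤ r ^ 3 := by
      have e : r ^ 3 = φ y ^ 3 * ψ y ^ 3 := by rw [hr]; ring
      rw [e, sq]
      exact mul_le_mul (by linarith) (by linarith) hc0.le (by positivity)
    have hr2 : r ≤ 2 := hA.prod_le hη3 y
    have h6 : (c ^ 2) ^ a ≤ (r ^ a) ^ 2 * 2 ^ a := by
      calc (c ^ 2) ^ a ≤ (r ^ 3) ^ a := pow_le_pow_left₀ (by positivity) hr3 a
        _ = (r ^ a) ^ 2 * r ^ a := by ring
        _ ≤ (r ^ a) ^ 2 * 2 ^ a :=
          mul_le_mul_of_nonneg_left (pow_le_pow_left₀ hr0 hr2 a) (by positivity)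
    rw [hκ, div_le_iff₀ (by positivity)]
    exact h6
  have hc : Continuous fun y => ((φ y * ψ y) ^ a) ^ 2 :=
    ((hA.sφ.continuous.mul hA.sψ.continuous).pow a).pow 2
  have h7 := lower hc (fun y => sq_nonneg _) hUo key
  have h8 : 0 < κ * (μ).real U := by positivity
  linarith

/-- **The final deduction (F).** -/
theorem final (hlam : 0 < lam) (hR : HasRicciLowerBound 4 M lam) (hP : PoissonStmt 4 M)
    (h₁ : STHyp M lam f₁) (h₂ : STHyp M lam f₂)
    (hs : ∀ x, Real.sqrt (f₁ x) + Real.sqrt (f₂ x) ≤ 2 * lam * Real.sqrt (2 / 3))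
    (ha : 1 ≤ a)
    (happ : ∀ ε : ℝ, 0 < ε → ∃ φ ψ : M → ℝ, Approx lam f₁ f₂ a ε φ ψ) :
    (∀ x, f₁ x = 0) ∨ (∀ x, f₂ x = 0) ∨
        (∀ x, f₁ x = 2 / 3 * lam ^ 2 ∧ f₂ x = 2 / 3 * lam ^ 2) := by
  have hs' : ∀ x, Real.sqrt (f₁ x) + Real.sqrt (f₂ x) ≤ 2 * k0 lam := by
    intro x
    refine (hs x).trans (le_of_eq ?_)
    unfold k0; ring
  have b₁ : ∀ x, Real.sqrt (f₁ x) ≤ 2 * k0 lam := fun x => by
    have := hs' x; have := Real.sqrt_nonneg (f₂ x); linarith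
  have b₂ : ∀ x, Real.sqrt (f₂ x) ≤ 2 * k0 lam := fun x => by
    have := hs' x; have := Real.sqrt_nonneg (f₁ x); linarith
  by_cases hZ : ∀ η : ℝ, 0 < η → ∃ φ ψ : M → ℝ, Approx lam f₁ f₂ a η φ ψ ∧
      ∫ x, ((φ x * ψ x) ^ a) ^ 2 ∂μ ≤ η
  · have h0 := prod_zero_of_zero hlam h₁.smooth.continuous h₂.smooth.continuous h₁.nonneg
      h₂.nonneg hZ
    rcases disjoint_zero hlam hR hP h₁ h₂ b₁ b₂ h0 with h | h
    · exact Or.inl h
    · exact Or.inr (Or.inl h)
  · have hO : ∀ η : ℝ, 0 < η → ∃ φ ψ : M → ℝ, Approx lam f₁ f₂ a η φ ψ ∧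
        ∫ x, (1 - (φ x * ψ x) ^ a) ^ 2 ∂μ ≤ η := by
      intro η hη
      rw [not_forall] at hZ
      obtain ⟨η', hZ⟩ := hZ
      rw [Classical.not_imp] at hZ
      obtain ⟨hη', hZ⟩ := hZ
      set K : ℝ := 2 / lam + 8 * (2 + 2 * (1 + 2 * 2 ^ a) ^ 2 / lam) with hK
      have hK0 : 0 < K := by positivity
      set m := min η η' with hm
      have hm0 : 0 < m := lt_min hη hη'
      obtain ⟨φ, ψ, hA⟩ := happ (min 1 (min m (m / K))) (by positivity)
      set ε := min 1 (min m (m / K)) with hε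
      have e1 : ε ≤ 1 := min_le_left _ _
      have e2 : ε ≤ m := (min_le_right _ _).trans (min_le_left _ _)
      have e3 : K * ε ≤ m := by
        have : ε ≤ m / K := (min_le_right _ _).trans (min_le_right _ _)
        calc K * ε ≤ K * (m / K) := mul_le_mul_of_nonneg_left this hK0.le
          _ = m := by field_simp
      have e0 : 0 < ε := by positivity
      rcases Approx.dich hlam hR hP hA e1 e0.le with h | h
      · exfalso
        exact hZ ⟨φ, ψ, hA.mono hlam (e2.trans (min_le_right _ _)),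
          h.trans (e3.trans (min_le_right _ _))⟩
      · exact ⟨φ, ψ, hA.mono hlam (e2.trans (min_le_left _ _)),
          h.trans (e3.trans (min_le_left _ _))⟩
    have l₁ := le_k0_of_one hlam ha h₁.smooth.continuous hO
    have l₂ : ∀ x, Real.sqrt (f₂ x) ≤ k0 lam := by
      refine le_k0_of_one (f₂ := f₁) hlam ha h₂.smooth.continuous ?_
      intro η hη
      obtain ⟨φ, ψ, hA, hI⟩ := hO η hη
      refine ⟨ψ, φ, hA.symm, ?_⟩
      have e : ∀ y, (ψ y * φ y) ^ a = (φ y * ψ y) ^ a := fun y => by rw [mul_comm]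
      simp only [e]
      exact hI
    rcases const_of_le hlam h₁ l₁ with h | h
    · exact Or.inl h
    · rcases const_of_le hlam h₂ l₂ with h' | h'
      · exact Or.inr (Or.inl h')
      · exact Or.inr (Or.inr fun x => ⟨h x, h' x⟩)

end Four

/-- existence of approximate pairs = the output of BP-A2, section 9. -/
def AppStmt.{u} : Prop :=
  ∀ (M : Type u) [MetricSpace M] [ChartedSpace (EuclideanSpace ℝ (Fin 4)) M]
    [IsManifold (𝓡 4) ∞ M] [CompactSpace M] [ConnectedSpace M]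
    [RiemannianBundle (fun x : M => TangentSpace (𝓡 4) x)]
    [IsContMDiffRiemannianBundle (𝓡 4) ∞ (EuclideanSpace ℝ (Fin 4))
      (fun x : M => TangentSpace (𝓡 4) x)]
    [IsRiemannianManifold (𝓡 4) M] [MeasurableSpace M] [BorelSpace M]
    (lam : ℝ), 0 < lam → HasRicciLowerBound 4 M lam →
    ∀ f₁ f₂ : M → ℝ, STHyp M lam f₁ → STHyp M lam f₂ →
      (∀ x, Real.sqrt (f₁ x) + Real.sqrt (f₂ x) ≤ 2 * lam * Real.sqrt (2 / 3)) →
      ∃ a : ℕ, 1 ≤ a ∧ ∀ ε : ℝ, 0 < ε → ∃ φ ψ : M → ℝ, Approx lam f₁ f₂ a ε φ ψ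

/-- the Poisson equation on all closed 4-manifolds. -/
def PoissonAll.{u} : Prop :=
  ∀ (M : Type u) [MetricSpace M] [ChartedSpace (EuclideanSpace ℝ (Fin 4)) M]
    [IsManifold (𝓡 4) ∞ M] [CompactSpace M] [ConnectedSpace M]
    [RiemannianBundle (fun x : M => TangentSpace (𝓡 4) x)]
    [IsContMDiffRiemannianBundle (𝓡 4) ∞ (EuclideanSpace ℝ (Fin 4))
      (fun x : M => TangentSpace (𝓡 4) x)]
    [IsRiemannianManifold (𝓡 4) M] [MeasurableSpace M] [BorelSpace M], PoissonStmt 4 M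

/-- **ST from approximate pairs.** -/
theorem st_of.{u} (hP : PoissonAll.{u}) (hA : AppStmt.{u}) : Crest.Agent.R249.Top49.ST.{u} := by
  intro M _ _ _ _ _ _ _ _ lam hlam hR f₁ f₂ h₁ h₂ hs
  letI : MeasurableSpace M := borel M
  have hb : BorelSpace M := ⟨rfl⟩
  obtain ⟨a, ha, happ⟩ := hA M lam hlam hR f₁ f₂ h₁ h₂ hs
  exact final hlam hR (hP M) h₁ h₂ hs ha happ

end Crest.Agent.R249.StF_912

end
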