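import Crest.Agent.R249.Grn6_324
import Crest.Agent.R249.StFd_912

/-!
# R249 (helper324): the hypothesis `PoissonAll` of `StF_912`
-/

set_option autoImplicit false
set_option maxSynthPendingDepth 3
set_option linter.unusedSectionVars false

open Bundle Set MeasureTheory Manifold Filter Metric
open scoped ContDiff Topology NNReal
open Crest.GeometryTopology.PointedLimit

namespace Crest.Agent.R249.Grn324

/-- the Poisson equation, in the form of `StF_912` -/
theorem poissonAll.{u} : Crest.Agent.R249.StF_912.PoissonAll.{u} := by
  intro M _ _ _ _ _ _ _ _ _ _ g hg h0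
  obtain ⟨u, hu, h, -⟩ := exists_poisson (n := 4) (M := M) hg h0
  exact ⟨u, hu, h⟩

end Crest.Agent.R249.Grn324
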