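import Crest.Agent.R249.Glue1_832

/-!
# R249, D4-PROJ (helper832), part 1: smooth functions on a compact metric space with a smooth atlas

* `exists_cutoff` : smooth cut-off functions in a finite dimensional space;
* `exists_atl` : compact cores;
* `SmX A g` : `g : X → W` is smooth in the charts; `ext A a G` : extension by zero;
* `BL A` : the charts are locally bi-Lipschitz; `SmX.lipschitz`.
-/

set_option autoImplicit false
set_option linter.style.haveILetI false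
noncomputable section
open Set Filter Topology Metric
open scoped ContDiff Manifold

namespace Crest.Agent.R249.Prj832

open Crest.Agent.R249.Glue832

theorem exists_cutoff {V : Type*} [NormedAddCommGroup V] [NormedSpace ℝ V] [FiniteDimensional ℝ V]
    {K U : Set V} (hK : IsCompact K) (hU : IsOpen U) (h : K ⊆ U) :
    ∃ (θ : V → ℝ) (K' : Set V), IsCompact K' ∧ K' ⊆ U ∧ ContDiff ℝ ∞ θ ∧ (∀ y, 0 ≤ θ y) ∧
      (∀ y, θ y ≤ 1) ∧ (∀ y, y ∉ K' → θ y = 0) ∧ ∀ y ∈ K, ∀ᶠ z in 𝓝 y, θ z = 1 := by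
  haveI : ProperSpace V := FiniteDimensional.proper_real V
  obtain ⟨K', hK', hK1, hK2⟩ := exists_compact_between hK hU h
  obtain ⟨f, hf1, hf2, hf3⟩ := exists_contMDiffMap_one_nhds_of_subset_interior
    (n := (⊤ : ℕ∞)) 𝓘(ℝ, V) (s := K) (t := K') hK.isClosed hK1
  refine ⟨f, K', hK', hK2, f.contMDiff.contDiff, fun y => (hf3 y).1, fun y => (hf3 y).2, hf2, ?_⟩
  intro y hy
  exact eventually_nhdsSet_iff_forall.1 hf1 y hy

variable {n : ℕ} {ι : Type*} {X : Type*} [MetricSpace X]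

theorem exists_atl [CompactSpace X] [Finite ι]
    (e : ι → OpenPartialHomeomorph X (EuclideanSpace ℝ (Fin n))) (hcov : ∀ x, ∃ a, x ∈ (e a).source)
    (htr : ∀ a b, ContDiffOn ℝ ∞ (fun y => e b ((e a).symm y))
      {y | y ∈ (e a).target ∧ (e a).symm y ∈ (e b).source}) :
    ∃ A : Atl n ι X, A.e = e ∧ ∀ x, ∃ a, x ∈ A.core a := by
  obtain ⟨v, hv1, hv2, hv3⟩ := exists_iUnion_eq_closure_subset (u := fun a => (e a).source)
    (fun a => (e a).open_source) (fun x => Set.toFinite _)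
    (eq_univ_of_forall fun x => mem_iUnion.2 (hcov x))
  refine ⟨⟨e, fun a => e a '' closure (v a), fun a => ?_, fun a => ?_, htr⟩, rfl, fun x => ?_⟩
  · exact (isClosed_closure.isCompact).image_of_continuousOn ((e a).continuousOn.mono (hv3 a))
  · rintro _ ⟨x, hx, rfl⟩
    exact (e a).map_source (hv3 a hx)
  · have hx : x ∈ ⋃ a, v a := by rw [hv1]; trivial
    obtain ⟨a, ha⟩ := mem_iUnion.1 hx
    refine ⟨a, ?_⟩
    rw [Atl.mem_core]
    exact ⟨hv3 a (subset_closure ha), ⟨x, subset_closure ha, rfl⟩⟩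

variable {W W' : Type*} [NormedAddCommGroup W] [NormedSpace ℝ W] [NormedAddCommGroup W']
  [NormedSpace ℝ W']

/-- smooth functions on `X` -/
def SmX (A : Atl n ι X) (g : X → W) : Prop :=
  ∀ b, ContDiffOn ℝ ∞ (fun y => g ((A.e b).symm y)) (A.e b).target

theorem SmX.at {A : Atl n ι X} {g : X → W} (h : SmX A g) {b : ι} {x : X}
    (hx : x ∈ (A.e b).source) : ContDiffAt ℝ ∞ (fun y => g ((A.e b).symm y)) (A.e b x) :=
  (h b).contDiffAt ((A.e b).open_target.mem_nhds ((A.e b).map_source hx))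

omit [NormedAddCommGroup W] [NormedSpace ℝ W] in
theorem SmX.eventually {A : Atl n ι X} (g : X → W) {b : ι} {x : X}
    (hx : x ∈ (A.e b).source) : g =ᶠ[𝓝 x] fun z => g ((A.e b).symm (A.e b z)) := by
  filter_upwards [(A.e b).open_source.mem_nhds hx] with z hz
  rw [(A.e b).left_inv hz]

theorem SmX.continuousAt {A : Atl n ι X} {g : X → W} (h : SmX A g) {b : ι} {x : X}
    (hx : x ∈ (A.e b).source) : ContinuousAt g x := by
  have h1 : ContinuousAt (fun z => g ((A.e b).symm (A.e b z))) x :=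
    ContinuousAt.comp (g := fun y => g ((A.e b).symm y)) (f := A.e b) (h.at hx).continuousAt
      ((A.e b).continuousAt hx)
  exact h1.congr_of_eventuallyEq (SmX.eventually g hx)

theorem SmX.comp {A : Atl n ι X} {g : X → W} (h : SmX A g) {F : W → W'} (hF : ContDiff ℝ ∞ F) :
    SmX A (fun x => F (g x)) := fun b => hF.comp_contDiffOn (h b)

theorem SmX.pi {κ : Type*} [Fintype κ] {A : Atl n ι X} {g : X → κ → W}
    (h : ∀ k, SmX A (fun x => g x k)) : SmX A g := fun b =>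
  contDiffOn_pi.2 fun k => h k b

open Classical in
/-- extension by zero of a function given in the chart `a` -/
def ext (A : Atl n ι X) (a : ι) (G : EuclideanSpace ℝ (Fin n) → W) (x : X) : W :=
  if x ∈ (A.e a).source then G (A.e a x) else 0

theorem ext_of_mem {A : Atl n ι X} {a : ι} {G : EuclideanSpace ℝ (Fin n) → W} {x : X}
    (hx : x ∈ (A.e a).source) : ext A a G x = G (A.e a x) := if_pos hx

theorem ext_of_notMem {A : Atl n ι X} {a : ι} {G : EuclideanSpace ℝ (Fin n) → W} {x : X}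
    (hx : x ∉ (A.e a).source) : ext A a G x = 0 := if_neg hx

theorem smX_ext (A : Atl n ι X) (a : ι) {G : EuclideanSpace ℝ (Fin n) → W}
    (hG : ContDiff ℝ ∞ G) {K : Set (EuclideanSpace ℝ (Fin n))} (hK : IsCompact K)
    (hKt : K ⊆ (A.e a).target) (h0 : ∀ y, y ∉ K → G y = 0) : SmX A (ext A a G) := by
  intro b y hy
  refine ContDiffAt.contDiffWithinAt ?_
  set x := (A.e b).symm y with hx
  by_cases hxa : x ∈ (A.e a).source
  · have h1 : ContDiffAt ℝ ∞ (fun z => G (A.tr b a z)) y :=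
      hG.contDiffAt.comp y (A.contDiffAt_tr hy hxa)
    refine h1.congr_of_eventuallyEq ?_
    have h2 : ∀ᶠ z in 𝓝 y, (A.e b).symm z ∈ (A.e a).source :=
      ((A.e b).continuousAt_symm hy).eventually ((A.e a).open_source.mem_nhds hxa)
    filter_upwards [h2] with z hz
    rw [ext_of_mem hz]
    rfl
  · set S : Set X := (A.e a).symm '' K with hS
    have hSc : IsCompact S := hK.image_of_continuousOn ((A.e a).continuousOn_symm.mono hKt)
    have hxS : x ∉ S := by
      rintro ⟨w, hw, hwx⟩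
      exact hxa (hwx ▸ (A.e a).map_target (hKt hw))
    have h2 : ∀ᶠ z in 𝓝 y, (A.e b).symm z ∈ Sᶜ :=
      ((A.e b).continuousAt_symm hy).eventually (hSc.isClosed.isOpen_compl.mem_nhds hxS)
    have h3 : ContDiffAt ℝ ∞ (fun _ : EuclideanSpace ℝ (Fin n) => (0 : W)) y := contDiffAt_const
    refine h3.congr_of_eventuallyEq ?_
    filter_upwards [h2] with z hz
    by_cases hz' : (A.e b).symm z ∈ (A.e a).source
    · rw [ext_of_mem hz']
      refine h0 _ fun hk => hz ⟨_, hk, ?_⟩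
      rw [(A.e a).left_inv hz']
    · rw [ext_of_notMem hz']

/-- near every point some chart is bi-Lipschitz -/
def BL (A : Atl n ι X) : Prop :=
  ∀ z : X, ∃ a, z ∈ (A.e a).source ∧ ∃ c C r : ℝ, 0 < c ∧ 0 < C ∧ 0 < r ∧
    ∀ x ∈ ball z r, ∀ y ∈ ball z r, c * dist x y ≤ ‖A.e a x - A.e a y‖ ∧
      ‖A.e a x - A.e a y‖ ≤ C * dist x y

/-- a `C^∞` function is Lipschitz near a point -/
theorem exists_lip {E' : Type*} [NormedAddCommGroup E'] [NormedSpace ℝ E'] {g : E' → W} {y : E'}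
    (h : ContDiffAt ℝ ∞ g y) : ∃ K r : ℝ, 0 ≤ K ∧ 0 < r ∧ ∀ u ∈ ball y r, ∀ v ∈ ball y r,
      ‖g u - g v‖ ≤ K * ‖u - v‖ := by
  obtain ⟨K, t, ht, hK⟩ := (h.of_le (by simp : (1 : WithTop ℕ∞) ≤ ∞)).exists_lipschitzOnWith
  obtain ⟨r, hr, hrt⟩ := Metric.mem_nhds_iff.1 ht
  refine ⟨K, r, K.2, hr, fun u hu v hv => ?_⟩
  have := hK.dist_le_mul u (hrt hu) v (hrt hv)
  rwa [dist_eq_norm, dist_eq_norm] at this

theorem SmX.locLip {A : Atl n ι X} (hBL : BL A) {g : X → W} (h : SmX A g) (z : X) :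
    ∃ K r : ℝ, 0 ≤ K ∧ 0 < r ∧ ∀ x ∈ ball z r, ∀ y ∈ ball z r, ‖g x - g y‖ ≤ K * dist x y := by
  obtain ⟨a, hza, c, C, r, hc, hC, hr, hb⟩ := hBL z
  obtain ⟨K, s, hK, hs, hg⟩ := exists_lip (h.at hza)
  have h1 : ∀ᶠ x in 𝓝 z, x ∈ (A.e a).source ∧ A.e a x ∈ ball (A.e a z) s ∧ x ∈ ball z r := by
    filter_upwards [(A.e a).open_source.mem_nhds hza,
      ((A.e a).continuousAt hza).eventually (ball_mem_nhds _ hs), ball_mem_nhds z hr]
      with x h1 h2 h3
    exact ⟨h1, h2, h3⟩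
  obtain ⟨t, ht, ht'⟩ := Metric.eventually_nhds_iff_ball.1 h1
  refine ⟨K * C, t, by positivity, ht, fun x hx y hy => ?_⟩
  have hx' := ht' x hx
  have hy' := ht' y hy
  have h2 := hg _ hx'.2.1 _ hy'.2.1
  rw [(A.e a).left_inv hx'.1, (A.e a).left_inv hy'.1] at h2
  calc ‖g x - g y‖ ≤ K * ‖A.e a x - A.e a y‖ := h2
    _ ≤ K * (C * dist x y) := by
        gcongr
        exact (hb x hx'.2.2 y hy'.2.2).2
    _ = K * C * dist x y := by ring

/-- every chart is locally antilipschitz -/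
theorem BL.anti {A : Atl n ι X} (hBL : BL A) {b : ι} {z : X} (hz : z ∈ (A.e b).source) :
    ∃ c r : ℝ, 0 < c ∧ 0 < r ∧ ∀ x ∈ ball z r, ∀ y ∈ ball z r,
      c * dist x y ≤ ‖A.e b x - A.e b y‖ := by
  obtain ⟨a, hza, c, C, r, hc, hC, hr, hb⟩ := hBL z
  have hz2 : (A.e b).symm (A.e b z) ∈ (A.e a).source := by rwa [(A.e b).left_inv hz]
  obtain ⟨K, s, hK, hs, hg⟩ := exists_lip (A.contDiffAt_tr ((A.e b).map_source hz) hz2)
  have h1 : ∀ᶠ x in 𝓝 z, x ∈ (A.e b).source ∧ A.e b x ∈ ball (A.e b z) s ∧ x ∈ ball z r := by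
    filter_upwards [(A.e b).open_source.mem_nhds hz,
      ((A.e b).continuousAt hz).eventually (ball_mem_nhds _ hs), ball_mem_nhds z hr]
      with x h1 h2 h3
    exact ⟨h1, h2, h3⟩
  obtain ⟨t, ht, ht'⟩ := Metric.eventually_nhds_iff_ball.1 h1
  refine ⟨c / (K + 1), t, by positivity, ht, fun x hx y hy => ?_⟩
  have hx' := ht' x hx
  have hy' := ht' y hy
  have h2 := hg _ hx'.2.1 _ hy'.2.1
  simp only [Atl.tr] at h2
  rw [(A.e b).left_inv hx'.1, (A.e b).left_inv hy'.1] at h2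
  have h3 := (hb x hx'.2.2 y hy'.2.2).1
  rw [div_mul_eq_mul_div, div_le_iff₀ (by positivity)]
  nlinarith [norm_nonneg (A.e b x - A.e b y)]

/-- locally Lipschitz functions on compact spaces are Lipschitz -/
theorem exists_lip_of_compact [CompactSpace X] {g : X → W}
    (h : ∀ z, ∃ K r : ℝ, 0 ≤ K ∧ 0 < r ∧ ∀ x ∈ ball z r, ∀ y ∈ ball z r,
      ‖g x - g y‖ ≤ K * dist x y) : ∃ C : ℝ, 0 < C ∧ ∀ x y, ‖g x - g y‖ ≤ C * dist x y := by
  have h1 : LocallyLipschitzOn univ g := by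
    intro z _
    obtain ⟨K, r, hK, hr, hg⟩ := h z
    refine ⟨⟨K, hK⟩, ball z r, mem_nhdsWithin_of_mem_nhds (ball_mem_nhds z hr), ?_⟩
    refine LipschitzOnWith.of_dist_le_mul fun x hx y hy => ?_
    rw [dist_eq_norm]
    exact hg x hx y hy
  obtain ⟨K, hK⟩ := h1.exists_lipschitzOnWith_of_compact isCompact_univ
  refine ⟨K + 1, by positivity, fun x y => ?_⟩
  have h2 := hK.dist_le_mul x (mem_univ _) y (mem_univ _)
  rw [dist_eq_norm] at h2
  nlinarith [dist_nonneg (x := x) (y := y)]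

/-- injective, continuous, locally antilipschitz maps on compact spaces are antilipschitz -/
theorem exists_anti_of_compact [CompactSpace X] {g : X → W} (hg : Continuous g)
    (hinj : Function.Injective g)
    (h : ∀ z, ∃ c r : ℝ, 0 < c ∧ 0 < r ∧ ∀ x ∈ ball z r, ∀ y ∈ ball z r,
      c * dist x y ≤ ‖g x - g y‖) : ∃ c : ℝ, 0 < c ∧ ∀ x y, c * dist x y ≤ ‖g x - g y‖ := by
  -- work on the compact space `X × X`
  have key : ∀ p : X × X, ∃ c : ℝ, 0 < c ∧ ∀ᶠ q : X × X in 𝓝 p,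
      c * dist q.1 q.2 ≤ ‖g q.1 - g q.2‖ := by
    rintro ⟨x, y⟩
    rcases eq_or_ne x y with rfl | hxy
    · obtain ⟨c, r, hc, hr, h1⟩ := h x
      refine ⟨c, hc, ?_⟩
      filter_upwards [prod_mem_nhds (ball_mem_nhds x hr) (ball_mem_nhds x hr)] with q hq
      exact h1 _ hq.1 _ hq.2
    · have h1 : 0 < ‖g x - g y‖ := norm_pos_iff.2 (sub_ne_zero.2 fun h => hxy (hinj h))
      have hd : 0 < dist x y := dist_pos.2 hxy
      refine ⟨‖g x - g y‖ / (4 * dist x y), by positivity, ?_⟩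
      have c1 : Tendsto (fun q : X × X => ‖g q.1 - g q.2‖) (𝓝 (x, y)) (𝓝 ‖g x - g y‖) := by
        have : Continuous fun q : X × X => ‖g q.1 - g q.2‖ := by fun_prop
        exact this.tendsto (x, y)
      have c2 : Tendsto (fun q : X × X => dist q.1 q.2) (𝓝 (x, y)) (𝓝 (dist x y)) := by
        have : Continuous fun q : X × X => dist q.1 q.2 := by fun_prop
        exact this.tendsto (x, y)
      filter_upwards [c1.eventually (lt_mem_nhds (show ‖g x - g y‖ / 2 < _ by linarith)),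
        c2.eventually (gt_mem_nhds (show dist x y < 2 * dist x y by linarith))] with q h2 h3
      rw [div_mul_eq_mul_div, div_le_iff₀ (by positivity)]
      nlinarith [dist_nonneg (x := q.1) (y := q.2), norm_nonneg (g q.1 - g q.2)]
  choose c hc hc' using key
  obtain ⟨t, ht⟩ := CompactSpace.elim_nhds_subcover
    (fun p => {q : X × X | c p * dist q.1 q.2 ≤ ‖g q.1 - g q.2‖}) (fun p => hc' p)
  obtain ⟨r, hr, hr'⟩ : ∃ r : ℝ, 0 < r ∧ ∀ p ∈ t, r ≤ c p := by
    rcases t.eq_empty_or_nonempty with rfl | hne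
    · exact ⟨1, one_pos, by simp⟩
    · exact ⟨t.inf' hne c, (Finset.lt_inf'_iff _).2 fun p _ => hc p,
        fun p hp => Finset.inf'_le _ hp⟩
  refine ⟨r, hr, fun x y => ?_⟩
  have h1 : (x, y) ∈ ⋃ p ∈ t, {q : X × X | c p * dist q.1 q.2 ≤ ‖g q.1 - g q.2‖} := by
    rw [ht]; trivial
  simp only [mem_iUnion] at h1
  obtain ⟨p, hp, hq⟩ := h1
  have h2 : c p * dist x y ≤ ‖g x - g y‖ := hq
  nlinarith [hr' p hp, dist_nonneg (x := x) (y := y)]

end Crest.Agent.R249.Prj832
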