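import Mathlib

/-!
Row 249, part D, D4-PROJ (P2) (helper330): smooth nearest point retraction onto a compact space
with smooth charts embedded in a Euclidean space.
-/

set_option autoImplicit false
set_option linter.unusedSectionVars false
open scoped ContDiff Topology RealInnerProductSpace
open Set Filter

namespace Crest.Agent.R249.Prj330

noncomputable section

variable {n : ℕ} {X : Type*} [MetricSpace X] {κ : Type*}
variable {W : Type*} [NormedAddCommGroup W] [InnerProductSpace ℝ W] [FiniteDimensional ℝ W]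

local notation "𝔼" => EuclideanSpace ℝ (Fin n)

/-- smooth transition maps -/
def Trans (e : κ → OpenPartialHomeomorph X (EuclideanSpace ℝ (Fin n))) : Prop :=
  ∀ a b, ContDiffOn ℝ ∞ (fun ξ => e b ((e a).symm ξ)) ((e a).target ∩ (e a).symm ⁻¹' (e b).source)

/-- a smooth immersion, read in the charts, continuous and injective -/
structure Emb (e : κ → OpenPartialHomeomorph X (EuclideanSpace ℝ (Fin n))) (ι : X → W) : Prop where
  cont : Continuous ι
  inj : Function.Injective ι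
  smooth : ∀ a, ContDiffOn ℝ ∞ (fun ξ => ι ((e a).symm ξ)) (e a).target
  imm : ∀ a, ∀ ξ ∈ (e a).target, Function.Injective (fderiv ℝ (fun ξ => ι ((e a).symm ξ)) ξ)

section nearest

variable [CompactSpace X] [Nonempty X]

/-- a nearest point -/
def near (ι : X → W) (hι : Continuous ι) (y : W) : X :=
  (isCompact_univ.exists_isMinOn univ_nonempty
    (continuous_const.sub hι).norm.continuousOn (f := fun x => ‖y - ι x‖)).choose

theorem near_le (ι : X → W) (hι : Continuous ι) (y : W) (x : X) :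
    ‖y - ι (near ι hι y)‖ ≤ ‖y - ι x‖ :=
  (isCompact_univ.exists_isMinOn univ_nonempty
    (continuous_const.sub hι).norm.continuousOn (f := fun x => ‖y - ι x‖)).choose_spec.2
    (mem_univ x)

theorem near_self {ι : X → W} (hι : Continuous ι) (hi : Function.Injective ι) (x : X) :
    near ι hι (ι x) = x := by
  have h := near_le ι hι (ι x) x
  rw [sub_self, norm_zero] at h
  have h1 : ι x - ι (near ι hι (ι x)) = 0 := norm_le_zero_iff.1 h
  exact (hi (sub_eq_zero.1 h1)).symm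

theorem tendsto_near {ι : X → W} (hι : Continuous ι) (hi : Function.Injective ι) (x : X) :
    Tendsto (near ι hι) (𝓝 (ι x)) (𝓝 x) := by
  have hemb : Topology.IsClosedEmbedding ι := hι.isClosedEmbedding hi
  rw [hemb.isInducing.nhds_eq_comap, tendsto_comap_iff]
  rw [Metric.tendsto_nhds_nhds]
  intro ε hε
  refine ⟨ε / 2, half_pos hε, fun y hy => ?_⟩
  have h1 := near_le ι hι y x
  rw [dist_eq_norm] at hy
  rw [Function.comp_apply, dist_eq_norm]
  calc ‖ι (near ι hι y) - ι x‖ = ‖(y - ι x) - (y - ι (near ι hι y))‖ := by congr 1; abel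
    _ ≤ ‖y - ι x‖ + ‖y - ι (near ι hι y)‖ := norm_sub_le _ _
    _ ≤ ‖y - ι x‖ + ‖y - ι x‖ := by gcongr
    _ < ε := by linarith

/-- first order condition at a nearest point -/
theorem near_crit {e : κ → OpenPartialHomeomorph X (EuclideanSpace ℝ (Fin n))} {ι : X → W}
    (hι : Emb e ι) (y : W) {a : κ} (ha : near ι hι.cont y ∈ (e a).source) :
    (fderiv ℝ (fun ξ => ι ((e a).symm ξ)) (e a (near ι hι.cont y))).adjoint
      (y - ι (near ι hι.cont y)) = 0 := by
  set x := near ι hι.cont y with hx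
  set g : 𝔼 → W := fun ξ => ι ((e a).symm ξ) with hg
  set ξ := e a x with hξ
  have hξt : ξ ∈ (e a).target := (e a).map_source ha
  have hgξ : g ξ = ι x := by rw [hg]; simp only [hξ, (e a).left_inv ha]
  have hgd : HasFDerivAt g (fderiv ℝ g ξ) ξ :=
    (((hι.smooth a).contDiffAt ((e a).open_target.mem_nhds hξt)).differentiableAt
      (by simp)).hasFDerivAt
  have hmin : IsLocalMin (fun ζ => ‖y - g ζ‖ ^ 2) ξ := by
    filter_upwards with ζ
    have h1 := near_le ι hι.cont y ((e a).symm ζ)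
    rw [hgξ]
    exact pow_le_pow_left₀ (norm_nonneg _) h1 2
  have hd : HasFDerivAt (fun ζ => ‖y - g ζ‖ ^ 2)
      (2 • (innerSL ℝ (y - g ξ)).comp (-(fderiv ℝ g ξ))) ξ := by
    have h1 : HasFDerivAt (fun ζ => y - g ζ) (-(fderiv ℝ g ξ)) ξ := hgd.const_sub y
    exact h1.norm_sq
  have h0 := hmin.hasFDerivAt_eq_zero hd
  apply ext_inner_right ℝ
  intro u
  rw [ContinuousLinearMap.adjoint_inner_left, inner_zero_left]
  have h2 := DFunLike.congr_fun h0 u
  simp only [smul_apply, ContinuousLinearMap.comp_apply,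
    neg_apply, innerSL_apply_apply, zero_apply,
    inner_neg_right, smul_neg, neg_eq_zero] at h2
  rw [hgξ] at h2
  simpa using h2

/-- The map whose inverse gives the nearest point. -/
def Gmap (g : EuclideanSpace ℝ (Fin n) → W) (q : EuclideanSpace ℝ (Fin n) × W) :
    EuclideanSpace ℝ (Fin n) × W :=
  ((fderiv ℝ g q.1).adjoint (q.2 - g q.1), q.2)

theorem contDiffAt_Gmap {g : EuclideanSpace ℝ (Fin n) → W} {T : Set (EuclideanSpace ℝ (Fin n))}
    (hT : IsOpen T) (hg : ContDiffOn ℝ ∞ g T) {q : EuclideanSpace ℝ (Fin n) × W}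
    (hq : q.1 ∈ T) : ContDiffAt ℝ ∞ (Gmap g) q := by
  have hgq : ContDiffAt ℝ ∞ g q.1 := hg.contDiffAt (hT.mem_nhds hq)
  have h1 : ContDiffAt ℝ ∞ (fderiv ℝ g) q.1 := hgq.fderiv_right (m := ∞) (by simp)
  have h2 : ContDiffAt ℝ ∞ (fun q : EuclideanSpace ℝ (Fin n) × W => fderiv ℝ g q.1) q :=
    h1.comp q contDiffAt_fst
  have h3 : ContDiffAt ℝ ∞ (fun q : EuclideanSpace ℝ (Fin n) × W =>
      (fderiv ℝ g q.1).adjoint) q := by
    have h4 : ContDiff ℝ ∞ (fun L : EuclideanSpace ℝ (Fin n) →L[ℝ] W => L.adjoint) :=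
      (ContinuousLinearMap.adjoint (𝕜 := ℝ) (E := EuclideanSpace ℝ (Fin n))
        (F := W)).toContinuousLinearEquiv.contDiff
    exact h4.contDiffAt.comp q h2
  have h5 : ContDiffAt ℝ ∞ (fun q : EuclideanSpace ℝ (Fin n) × W => q.2 - g q.1) q :=
    contDiffAt_snd.sub (hgq.comp q contDiffAt_fst)
  exact (h3.clm_apply h5).prodMk contDiffAt_snd

/-- derivative of `Gmap` at `(ξ, g ξ)` is injective -/
theorem fderiv_Gmap_injective {g : EuclideanSpace ℝ (Fin n) → W}
    {T : Set (EuclideanSpace ℝ (Fin n))}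
    (hT : IsOpen T) (hg : ContDiffOn ℝ ∞ g T) {ξ : EuclideanSpace ℝ (Fin n)} (hξ : ξ ∈ T)
    (hi : Function.Injective (fderiv ℝ g ξ)) :
    Function.Injective (fderiv ℝ (Gmap g) (ξ, g ξ)) := by
  have hgq : ContDiffAt ℝ ∞ g ξ := hg.contDiffAt (hT.mem_nhds hξ)
  set A := fderiv ℝ g ξ with hA
  -- derivative in the direction `(u, v)`
  have key : ∀ u v, fderiv ℝ (Gmap g) (ξ, g ξ) (u, v) = (A.adjoint (v - A u), v) := by
    intro u v
    have hc : ContDiffAt ℝ ∞ (fderiv ℝ g) ξ := hgq.fderiv_right (m := ∞) (by simp)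
    have hc2 : HasFDerivAt (fun q : EuclideanSpace ℝ (Fin n) × W => (fderiv ℝ g q.1).adjoint)
        (fderiv ℝ (fun q : EuclideanSpace ℝ (Fin n) × W => (fderiv ℝ g q.1).adjoint) (ξ, g ξ))
        (ξ, g ξ) := by
      have h3 : ContDiffAt ℝ ∞ (fun q : EuclideanSpace ℝ (Fin n) × W =>
          (fderiv ℝ g q.1).adjoint) (ξ, g ξ) := by
        have h4 : ContDiff ℝ ∞ (fun L : EuclideanSpace ℝ (Fin n) →L[ℝ] W => L.adjoint) :=
          (ContinuousLinearMap.adjoint (𝕜 := ℝ) (E := EuclideanSpace ℝ (Fin n))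
            (F := W)).toContinuousLinearEquiv.contDiff
        have h2 : ContDiffAt ℝ ∞ (fun q : EuclideanSpace ℝ (Fin n) × W => fderiv ℝ g q.1)
            (ξ, g ξ) := ContDiffAt.comp (x := ((ξ, g ξ) : EuclideanSpace ℝ (Fin n) × W))
              (g := fderiv ℝ g) hc contDiffAt_fst
        exact h4.contDiffAt.comp _ h2
      exact (h3.differentiableAt (by simp)).hasFDerivAt
    have hd2 : HasFDerivAt (fun q : EuclideanSpace ℝ (Fin n) × W => q.2 - g q.1)
        (ContinuousLinearMap.snd ℝ _ W - A.comp (ContinuousLinearMap.fst ℝ _ W)) (ξ, g ξ) := by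
      have h1 : HasFDerivAt (fun q : EuclideanSpace ℝ (Fin n) × W => g q.1)
          (A.comp (ContinuousLinearMap.fst ℝ _ W)) (ξ, g ξ) := by
        have h0 : HasFDerivAt g A ((ξ, g ξ) : EuclideanSpace ℝ (Fin n) × W).1 :=
          (hgq.differentiableAt (by simp)).hasFDerivAt
        exact h0.comp (ξ, g ξ) hasFDerivAt_fst
      exact hasFDerivAt_snd.sub h1
    have h6 := (hc2.clm_apply hd2).prodMk
      (hasFDerivAt_snd (𝕜 := ℝ) (p := ((ξ, g ξ) : EuclideanSpace ℝ (Fin n) × W)))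
    have h7 : fderiv ℝ (Gmap g) (ξ, g ξ) = _ := h6.fderiv
    rw [h7]
    simp [hA]
  rw [injective_iff_map_eq_zero]
  rintro ⟨u, v⟩ h
  rw [key] at h
  have hv : v = 0 := (Prod.ext_iff.1 h).2
  have hu : A.adjoint (v - A u) = 0 := (Prod.ext_iff.1 h).1
  rw [hv, zero_sub, map_neg, neg_eq_zero] at hu
  have h8 : ⟪A u, A u⟫ = 0 := by
    rw [← ContinuousLinearMap.adjoint_inner_left, hu, inner_zero_left]
  have h9 : A u = 0 := inner_self_eq_zero.1 h8
  have h10 : u = 0 := hi (by rw [h9, map_zero])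
  rw [h10, hv]; rfl

/-- the local solution of the critical point equation near `ι x₀` -/
theorem local_solution {e : κ → OpenPartialHomeomorph X (EuclideanSpace ℝ (Fin n))} {ι : X → W}
    (hι : Emb e ι) {x₀ : X} {a : κ} (ha : x₀ ∈ (e a).source) :
    ∃ ξ : W → EuclideanSpace ℝ (Fin n),
      ∀ᶠ y in 𝓝 (ι x₀), near ι hι.cont y ∈ (e a).source ∧ e a (near ι hι.cont y) = ξ y ∧
        ContDiffAt ℝ ∞ ξ y := by
  set g : EuclideanSpace ℝ (Fin n) → W := fun ξ => ι ((e a).symm ξ) with hg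
  set ξ₀ := e a x₀ with hξ₀
  have hT : IsOpen (e a).target := (e a).open_target
  have hξt : ξ₀ ∈ (e a).target := (e a).map_source ha
  have hgξ : g ξ₀ = ι x₀ := by rw [hg]; simp only [hξ₀, (e a).left_inv ha]
  have hcd : ContDiffAt ℝ ∞ (Gmap g) (ξ₀, g ξ₀) := contDiffAt_Gmap hT (hι.smooth a) hξt
  have hinj := fderiv_Gmap_injective hT (hι.smooth a) hξt (hι.imm a ξ₀ hξt)
  -- invertible derivative
  have hequiv : ∀ L : (EuclideanSpace ℝ (Fin n) × W) →L[ℝ] (EuclideanSpace ℝ (Fin n) × W),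
      Function.Injective L → ∃ L' : (EuclideanSpace ℝ (Fin n) × W) ≃L[ℝ]
        (EuclideanSpace ℝ (Fin n) × W), (L' : _ →L[ℝ] _) = L := by
    intro L hL
    refine ⟨(LinearEquiv.ofInjectiveEndo (L : _ →ₗ[ℝ] _) hL).toContinuousLinearEquiv, ?_⟩
    ext x <;> rfl
  obtain ⟨L₀, hL₀⟩ := hequiv _ hinj
  have hfd : HasFDerivAt (Gmap g) (L₀ : _ →L[ℝ] _) (ξ₀, g ξ₀) := by
    rw [hL₀]; exact (hcd.differentiableAt (by simp)).hasFDerivAt
  set Γ := hcd.toOpenPartialHomeomorph (Gmap g) hfd (by simp) with hΓ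
  have hΓc : ∀ q, Γ q = Gmap g q := fun q => by
    rw [hΓ, ContDiffAt.toOpenPartialHomeomorph_coe]
  have hsrc : (ξ₀, g ξ₀) ∈ Γ.source := hcd.mem_toOpenPartialHomeomorph_source hfd (by simp)
  have hval : Gmap g (ξ₀, g ξ₀) = (0, ι x₀) := by
    rw [Gmap]; simp only [sub_self, map_zero, hgξ]
  have htgt : (0, ι x₀) ∈ Γ.target := by
    rw [← hval, ← hΓc]; exact Γ.map_source hsrc
  -- the set of good points `q`
  have hgood : ∀ᶠ q in 𝓝 ((ξ₀, g ξ₀) : EuclideanSpace ℝ (Fin n) × W),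
      q.1 ∈ (e a).target ∧ ∃ L' : (EuclideanSpace ℝ (Fin n) × W) ≃L[ℝ]
        (EuclideanSpace ℝ (Fin n) × W), (L' : _ →L[ℝ] _) = fderiv ℝ (Gmap g) q := by
    have h1 : ∀ᶠ q in 𝓝 ((ξ₀, g ξ₀) : EuclideanSpace ℝ (Fin n) × W), q.1 ∈ (e a).target :=
      continuous_fst.continuousAt.eventually (hT.mem_nhds hξt)
    have h2 : ContinuousAt (fderiv ℝ (Gmap g)) (ξ₀, g ξ₀) :=
      (hcd.fderiv_right (m := 0) (by simp)).continuousAt
    have h3 : ∀ᶠ L in 𝓝 (fderiv ℝ (Gmap g) (ξ₀, g ξ₀)),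
        L ∈ range ((↑) : ((EuclideanSpace ℝ (Fin n) × W) ≃L[ℝ]
          (EuclideanSpace ℝ (Fin n) × W)) → _) := by
      rw [← hL₀]
      exact ContinuousLinearEquiv.nhds L₀
    filter_upwards [h1, h2.eventually h3] with q hq1 hq2
    exact ⟨hq1, hq2⟩
  -- the curve `y ↦ (0, y)` and its preimage
  have hc0 : Tendsto (fun y : W => ((0 : EuclideanSpace ℝ (Fin n)), y)) (𝓝 (ι x₀))
      (𝓝 (0, ι x₀)) := (continuous_const.prodMk continuous_id).tendsto _
  have hsymm : Tendsto Γ.symm (𝓝 (0, ι x₀)) (𝓝 (ξ₀, g ξ₀)) := by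
    have h1 : ContinuousAt Γ.symm (0, ι x₀) := Γ.continuousAt_symm htgt
    have h2 : Γ.symm (0, ι x₀) = (ξ₀, g ξ₀) := by
      rw [← hval, ← hΓc]; exact Γ.left_inv hsrc
    rw [← h2]; exact h1
  refine ⟨fun y => (Γ.symm (0, y)).1, ?_⟩
  have hnear := tendsto_near hι.cont hι.inj x₀
  have e1 : ∀ᶠ y in 𝓝 (ι x₀), near ι hι.cont y ∈ (e a).source :=
    hnear.eventually ((e a).open_source.mem_nhds ha)
  have e2 : ∀ᶠ y in 𝓝 (ι x₀), (e a (near ι hι.cont y), y) ∈ Γ.source := by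
    have h1 : Tendsto (fun y => (e a (near ι hι.cont y), y)) (𝓝 (ι x₀)) (𝓝 (ξ₀, ι x₀)) :=
      (((e a).continuousAt ha).tendsto.comp hnear).prodMk_nhds tendsto_id
    rw [← hgξ] at h1 ⊢
    exact h1.eventually (Γ.open_source.mem_nhds hsrc)
  have e3 : ∀ᶠ y in 𝓝 (ι x₀), ((0 : EuclideanSpace ℝ (Fin n)), y) ∈ Γ.target :=
    hc0.eventually (Γ.open_target.mem_nhds htgt)
  have e4 := (hsymm.comp hc0).eventually hgood
  filter_upwards [e1, e2, e3, e4] with y h1 h2 h3 h4
  refine ⟨h1, ?_, ?_⟩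
  · have h5 := near_crit hι y h1
    have h6 : Γ (e a (near ι hι.cont y), y) = (0, y) := by
      rw [hΓc, Gmap]
      have h7 : g (e a (near ι hι.cont y)) = ι (near ι hι.cont y) := by
        rw [hg]; simp only [(e a).left_inv h1]
      simp only [h7]
      rw [h5]
    have h8 : Γ.symm (0, y) = (e a (near ι hι.cont y), y) := by
      rw [← h6]; exact Γ.left_inv h2
    simp only [h8]
  · obtain ⟨h5, L', hL'⟩ := h4
    have h6 : ContDiffAt ℝ ∞ (Gmap g) (Γ.symm (0, y)) := contDiffAt_Gmap hT (hι.smooth a) h5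
    have h7 : HasFDerivAt Γ (L' : _ →L[ℝ] _) (Γ.symm (0, y)) := by
      rw [hL']
      have : (Γ : _ → _) = Gmap g := funext hΓc
      rw [this]
      exact (h6.differentiableAt (by simp)).hasFDerivAt
    have h8 : ContDiffAt ℝ ∞ Γ (Γ.symm (0, y)) := by
      have : (Γ : _ → _) = Gmap g := funext hΓc
      rw [this]; exact h6
    have h9 : ContDiffAt ℝ ∞ Γ.symm (0, y) := Γ.contDiffAt_symm h3 h7 h8
    have h10 : ContDiffAt ℝ ∞ (fun y : W => Γ.symm ((0 : EuclideanSpace ℝ (Fin n)), y)) y :=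
      h9.comp y (contDiffAt_const.prodMk contDiffAt_id)
    exact h10.fst

/-- **(P2)**: smooth retraction onto the image. -/
theorem exists_retraction {e : κ → OpenPartialHomeomorph X (EuclideanSpace ℝ (Fin n))} {ι : X → W}
    (hcov : ∀ x, ∃ a, x ∈ (e a).source) (hT : Trans e) (hι : Emb e ι) :
    ∃ (O : Set W) (π : W → X), IsOpen O ∧ range ι ⊆ O ∧ (∀ x, π (ι x) = x) ∧ ContinuousOn π O ∧
      (∀ a, ContDiffOn ℝ ∞ (fun y => e a (π y)) (O ∩ π ⁻¹' (e a).source)) ∧
      ContDiffOn ℝ ∞ (fun y => ι (π y)) O := by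
  set π := near ι hι.cont with hπ
  -- good points
  set G : W → Prop := fun y => ContinuousAt π y ∧
    (∀ b, π y ∈ (e b).source → ContDiffAt ℝ ∞ (fun y => e b (π y)) y) ∧
    ContDiffAt ℝ ∞ (fun y => ι (π y)) y with hG
  have hmain : ∀ x₀, ∀ᶠ y in 𝓝 (ι x₀), G y := by
    intro x₀
    obtain ⟨a, ha⟩ := hcov x₀
    obtain ⟨ξ, hξ⟩ := local_solution hι ha
    filter_upwards [hξ.eventually_nhds] with y hy
    obtain ⟨hy1, hy2, hy3⟩ := hy.self_of_nhds
    have hyt : ξ y ∈ (e a).target := by rw [← hy2]; exact (e a).map_source hy1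
    have hπeq : π =ᶠ[𝓝 y] fun z => (e a).symm (ξ z) := by
      filter_upwards [hy] with z hz
      rw [← hz.2.1]; exact ((e a).left_inv hz.1).symm
    have hc : ContinuousAt π y := by
      have h1 : ContinuousAt (fun z => (e a).symm (ξ z)) y :=
        ContinuousAt.comp (g := (e a).symm) ((e a).continuousAt_symm hyt) hy3.continuousAt
      exact h1.congr hπeq.symm
    refine ⟨hc, fun b hb => ?_, ?_⟩
    · have hyb : ξ y ∈ (e a).target ∩ (e a).symm ⁻¹' (e b).source := by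
        refine ⟨hyt, ?_⟩
        have : (e a).symm (ξ y) = π y := hπeq.self_of_nhds.symm
        rw [mem_preimage, this]; exact hb
      have hop : IsOpen ((e a).target ∩ (e a).symm ⁻¹' (e b).source) :=
        (e a).isOpen_inter_preimage_symm (e b).open_source
      have h1 : ContDiffAt ℝ ∞ (fun ξ => e b ((e a).symm ξ)) (ξ y) :=
        (hT a b).contDiffAt (hop.mem_nhds hyb)
      have h2 : ContDiffAt ℝ ∞ (fun z => e b ((e a).symm (ξ z))) y :=
        ContDiffAt.comp (g := fun ξ => e b ((e a).symm ξ)) y h1 hy3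
      refine h2.congr_of_eventuallyEq ?_
      filter_upwards [hπeq] with z hz
      rw [hz]
    · have h1 : ContDiffAt ℝ ∞ (fun ξ => ι ((e a).symm ξ)) (ξ y) :=
        (hι.smooth a).contDiffAt ((e a).open_target.mem_nhds hyt)
      have h2 : ContDiffAt ℝ ∞ (fun z => ι ((e a).symm (ξ z))) y :=
        ContDiffAt.comp (g := fun ξ => ι ((e a).symm ξ)) y h1 hy3
      refine h2.congr_of_eventuallyEq ?_
      filter_upwards [hπeq] with z hz
      rw [hz]
  refine ⟨interior {y | G y}, π, isOpen_interior, ?_, near_self hι.cont hι.inj, ?_, ?_, ?_⟩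
  · rintro _ ⟨x, rfl⟩
    exact mem_interior_iff_mem_nhds.2 (hmain x)
  · intro y hy
    exact (interior_subset hy).1.continuousWithinAt
  · intro a y hy
    exact ((interior_subset hy.1).2.1 a hy.2).contDiffWithinAt
  · intro y hy
    exact (interior_subset hy).2.2.contDiffWithinAt

end nearest

end

end Crest.Agent.R249.Prj330
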