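import Crest.Agent.R249.Prj1_832

/-!
# R249, D4-PROJ (helper832), part 2: the embedding and the projection

* `Emb A V` : a smooth map `io : X → V` with smooth local left inverses `P a`;
* `Good A pi y` : `pi : V → X` is smooth near `y`;
* `Emb.exists_pi` : a smooth projection onto `X` near `range io`;
* `exists_emb` : embeddings exist.
-/

set_option autoImplicit false
set_option linter.style.haveILetI false
set_option linter.unusedSectionVars false
noncomputable section
open Set Filter Topology Metric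
open scoped ContDiff Manifold

namespace Crest.Agent.R249.Prj832

open Crest.Agent.R249.Glue832

variable {n : ℕ} {ι : Type*} {X : Type*} [MetricSpace X]
  {V : Type*} [NormedAddCommGroup V] [NormedSpace ℝ V]

/-- a smooth map to `V` with local left inverses -/
structure Emb (A : Atl n ι X) (V : Type*) [NormedAddCommGroup V] [NormedSpace ℝ V] where
  /-- the map -/
  io : X → V
  sm : SmX A io
  /-- domains of the left inverses -/
  N : ι → Set V
  open_N : ∀ a, IsOpen (N a)
  /-- left inverses -/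
  P : ι → V → EuclideanSpace ℝ (Fin n)
  smP : ∀ a, ContDiffOn ℝ ∞ (P a) (N a)
  mem : ∀ a x, x ∈ A.core a → io x ∈ N a
  src : ∀ a x, io x ∈ N a → x ∈ (A.e a).source
  left : ∀ a x, io x ∈ N a → P a (io x) = A.e a x

namespace Emb

variable {A : Atl n ι X} (F : Emb A V)

theorem continuous (hcov : ∀ x, ∃ a, x ∈ A.core a) : Continuous F.io := by
  rw [continuous_iff_continuousAt]
  intro x
  obtain ⟨a, ha⟩ := hcov x
  exact F.sm.continuousAt (A.mem_core.1 ha).1

theorem injective (hcov : ∀ x, ∃ a, x ∈ A.core a) : Function.Injective F.io := by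
  intro x y h
  obtain ⟨a, ha⟩ := hcov x
  have h1 := F.mem a x ha
  have h2 : F.io y ∈ F.N a := h ▸ h1
  have h3 : A.e a x = A.e a y := by rw [← F.left a x h1, ← F.left a y h2, h]
  exact (A.e a).injOn (F.src a x h1) (F.src a y h2) h3

theorem locAnti (hBL : BL A) (hcov : ∀ x, ∃ a, x ∈ A.core a) (z : X) :
    ∃ c r : ℝ, 0 < c ∧ 0 < r ∧ ∀ x ∈ ball z r, ∀ y ∈ ball z r,
      c * dist x y ≤ ‖F.io x - F.io y‖ := by
  obtain ⟨a, ha⟩ := hcov z
  have h1 := F.mem a z ha
  obtain ⟨c, r, hc, hr, h2⟩ := hBL.anti (F.src a z h1)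
  obtain ⟨K, s, hK, hs, h3⟩ := exists_lip ((F.smP a).contDiffAt ((F.open_N a).mem_nhds h1))
  have hcont := F.continuous hcov
  have h4 : ∀ᶠ x in 𝓝 z, F.io x ∈ F.N a ∧ F.io x ∈ ball (F.io z) s ∧ x ∈ ball z r := by
    filter_upwards [hcont.continuousAt.eventually ((F.open_N a).mem_nhds h1),
      hcont.continuousAt.eventually (ball_mem_nhds _ hs), ball_mem_nhds z hr] with x h1 h2 h3
    exact ⟨h1, h2, h3⟩
  obtain ⟨t, ht, ht'⟩ := Metric.eventually_nhds_iff_ball.1 h4
  refine ⟨c / (K + 1), t, by positivity, ht, fun x hx y hy => ?_⟩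
  have hx' := ht' x hx
  have hy' := ht' y hy
  have h5 := h3 _ hx'.2.1 _ hy'.2.1
  rw [F.left a x hx'.1, F.left a y hy'.1] at h5
  have h6 := h2 x hx'.2.2 y hy'.2.2
  rw [div_mul_eq_mul_div, div_le_iff₀ (by positivity)]
  nlinarith [norm_nonneg (F.io x - F.io y)]

/-- the embedding is bi-Lipschitz -/
theorem biLip [CompactSpace X] (hBL : BL A) (hcov : ∀ x, ∃ a, x ∈ A.core a) :
    ∃ c C : ℝ, 0 < c ∧ 0 < C ∧ ∀ x y, c * dist x y ≤ ‖F.io x - F.io y‖ ∧
      ‖F.io x - F.io y‖ ≤ C * dist x y := by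
  obtain ⟨C, hC, h1⟩ := exists_lip_of_compact (fun z => F.sm.locLip hBL z)
  obtain ⟨c, hc, h2⟩ := exists_anti_of_compact (F.continuous hcov) (F.injective hcov)
    (F.locAnti hBL hcov)
  exact ⟨c, C, hc, hC, fun x y => ⟨h2 x y, h1 x y⟩⟩

end Emb

/-- `pi : V → X` is smooth near `y` -/
def Good (A : Atl n ι X) (pi : V → X) (y : V) : Prop :=
  ∃ (a : ι) (G : V → EuclideanSpace ℝ (Fin n)) (U : Set V), IsOpen U ∧ y ∈ U ∧
    ContDiffOn ℝ ∞ G U ∧ MapsTo G U (A.e a).target ∧ EqOn pi (fun z => (A.e a).symm (G z)) U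

theorem isOpen_good (A : Atl n ι X) (pi : V → X) : IsOpen {y | Good A pi y} := by
  rw [isOpen_iff_mem_nhds]
  rintro y ⟨a, G, U, hU, hy, h1, h2, h3⟩
  exact Filter.mem_of_superset (hU.mem_nhds hy) fun z hz => ⟨a, G, U, hU, hz, h1, h2, h3⟩

theorem Good.continuousAt {A : Atl n ι X} {pi : V → X} {y : V} (h : Good A pi y) :
    ContinuousAt pi y := by
  obtain ⟨a, G, U, hU, hy, h1, h2, h3⟩ := h
  have h4 : ContinuousAt (fun z => (A.e a).symm (G z)) y :=
    ((A.e a).continuousAt_symm (h2 hy)).comp (h1.contDiffAt (hU.mem_nhds hy)).continuousAt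
  exact h4.congr_of_eventuallyEq (h3.eventuallyEq_of_mem (hU.mem_nhds hy))

theorem Good.contDiffAt {A : Atl n ι X} {pi : V → X} {y : V} (h : Good A pi y) {b : ι}
    (hb : pi y ∈ (A.e b).source) : ContDiffAt ℝ ∞ (fun z => A.e b (pi z)) y := by
  obtain ⟨a, G, U, hU, hy, h1, h2, h3⟩ := h
  have hb' : (A.e a).symm (G y) ∈ (A.e b).source := by
    have h4 : pi y = (A.e a).symm (G y) := h3 hy
    rw [← h4]; exact hb
  have h4 : ContDiffAt ℝ ∞ (fun z => A.tr a b (G z)) y :=
    (A.contDiffAt_tr (h2 hy) hb').comp y (h1.contDiffAt (hU.mem_nhds hy))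
  refine h4.congr_of_eventuallyEq ?_
  filter_upwards [hU.mem_nhds hy] with z hz
  rw [h3 hz]
  rfl

theorem Good.congr {A : Atl n ι X} {pi pi' : V → X} {y : V} (h : Good A pi y) {S : Set V}
    (hS : IsOpen S) (hy : y ∈ S) (he : EqOn pi' pi S) : Good A pi' y := by
  obtain ⟨a, G, U, hU, hy', h1, h2, h3⟩ := h
  exact ⟨a, G, U ∩ S, hU.inter hS, ⟨hy', hy⟩, h1.mono inter_subset_left,
    fun z hz => h2 hz.1, fun z hz => (he hz.2).trans (h3 hz.1)⟩

theorem Good.of_at {A : Atl n ι X} {pi : V → X} {y : V} (h : ∀ᶠ z in 𝓝 y, Good A pi z) (b : ι)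
    (hb : pi y ∈ (A.e b).source) : ∃ U : Set V, IsOpen U ∧ y ∈ U ∧
      ContDiffOn ℝ ∞ (fun z => A.e b (pi z)) U ∧ ∀ z ∈ U, pi z ∈ (A.e b).source := by
  have h0 : Good A pi y := h.self_of_nhds
  have h1 : ∀ᶠ z in 𝓝 y, pi z ∈ (A.e b).source :=
    h0.continuousAt.eventually ((A.e b).open_source.mem_nhds hb)
  obtain ⟨U, hU1, hU2, hU3⟩ := _root_.mem_nhds_iff.1 (h.and h1)
  exact ⟨U, hU2, hU3, fun z hz => ((hU1 hz).1.contDiffAt (hU1 hz).2).contDiffWithinAt,
    fun z hz => (hU1 hz).2⟩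

/-- one step of the construction of the projection -/
theorem Emb.step [FiniteDimensional ℝ V] {A : Atl n ι X} (F : Emb A V) (hF : Continuous F.io)
    (D : Set X) (pi : V → X)
    (hpi : ∀ x ∈ D, Good A pi (F.io x) ∧ pi (F.io x) = x) (a : ι) :
    ∃ pi' : V → X, ∀ x ∈ D ∪ A.core a, Good A pi' (F.io x) ∧ pi' (F.io x) = x := by
  classical
  obtain ⟨θ, K', hK', hKN, hθ, hθ0, hθ1, hθz, hθo⟩ := exists_cutoff
    ((A.isCompact_core a).image hF) (F.open_N a) (by
      rintro _ ⟨x, hx, rfl⟩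
      exact F.mem a x hx)
  set cb : V → EuclideanSpace ℝ (Fin n) := fun z => (1 - θ z) • A.e a (pi z) + θ z • F.P a z
    with hcb
  refine ⟨fun z => if z ∈ K' then (A.e a).symm (cb z) else pi z, fun x hx => ?_⟩
  set y := F.io x with hy
  by_cases hc : x ∈ A.core a
  · -- near `y` we have `θ = 1`
    have h1 : ∀ᶠ z in 𝓝 y, θ z = 1 := hθo y ⟨x, hc, rfl⟩
    have hyN : y ∈ F.N a := F.mem a x hc
    have hPy : F.P a y = A.e a x := F.left a x hyN
    have hxs := (A.mem_core.1 hc).1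
    have h2 : ∀ᶠ z in 𝓝 y, F.P a z ∈ (A.e a).target := by
      have h3 := ((F.smP a).contDiffAt ((F.open_N a).mem_nhds hyN)).continuousAt
      refine h3.eventually ((A.e a).open_target.mem_nhds ?_)
      rw [hPy]
      exact (A.e a).map_source hxs
    obtain ⟨U, hU1, hU2, hU3⟩ := _root_.mem_nhds_iff.1 (h1.and (h2.and ((F.open_N a).mem_nhds hyN)))
    have hval : ∀ z ∈ U, (if z ∈ K' then (A.e a).symm (cb z) else pi z) =
        (A.e a).symm (F.P a z) := by
      intro z hz
      have h4 : θ z = 1 := (hU1 hz).1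
      have h5 : z ∈ K' := by
        by_contra h6
        rw [hθz z h6] at h4
        exact zero_ne_one h4
      rw [if_pos h5, hcb]
      simp only [h4, sub_self, zero_smul, one_smul, zero_add]
    refine ⟨⟨a, F.P a, U, hU2, hU3, (F.smP a).mono fun z hz => (hU1 hz).2.2,
      fun z hz => (hU1 hz).2.1, hval⟩, ?_⟩
    have := hval y hU3
    simp only [] at this ⊢
    rw [this, hPy, (A.e a).left_inv hxs]
  · have hxD : x ∈ D := by
      rcases hx with h | h
      · exact h
      · exact absurd h hc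
    obtain ⟨hg, hgx⟩ := hpi x hxD
    by_cases hyK : y ∈ K'
    · have hyN : y ∈ F.N a := hKN hyK
      have hxs : x ∈ (A.e a).source := F.src a x hyN
      have hPy : F.P a y = A.e a x := F.left a x hyN
      have hev : ∀ᶠ z in 𝓝 y, Good A pi z := (isOpen_good A pi).mem_nhds hg
      obtain ⟨U, hU, hyU, hsm, hsrc⟩ := Good.of_at hev a (by rw [hgx]; exact hxs)
      have hcbs : ContDiffOn ℝ ∞ cb (U ∩ F.N a) :=
        ((contDiff_const.sub hθ).contDiffOn.smul (hsm.mono inter_subset_left)).add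
          (hθ.contDiffOn.smul ((F.smP a).mono inter_subset_right))
      have hcby : cb y = A.e a x := by
        have h9 : pi y = x := hgx
        show (1 - θ y) • A.e a (pi y) + θ y • F.P a y = A.e a x
        rw [h9, hPy, ← add_smul, sub_add_cancel, one_smul]
      have hopen : IsOpen (U ∩ F.N a) := hU.inter (F.open_N a)
      have h2 : ∀ᶠ z in 𝓝 y, cb z ∈ (A.e a).target := by
        have h3 := (hcbs.contDiffAt (hopen.mem_nhds ⟨hyU, hyN⟩)).continuousAt
        refine h3.eventually ((A.e a).open_target.mem_nhds ?_)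
        rw [hcby]
        exact (A.e a).map_source hxs
      obtain ⟨U', hU1, hU2, hU3⟩ := _root_.mem_nhds_iff.1 (h2.and (hopen.mem_nhds ⟨hyU, hyN⟩))
      have hval : ∀ z ∈ U', (if z ∈ K' then (A.e a).symm (cb z) else pi z) =
          (A.e a).symm (cb z) := by
        intro z hz
        by_cases hz' : z ∈ K'
        · rw [if_pos hz']
        · rw [if_neg hz', hcb]
          simp only [hθz z hz', sub_zero, one_smul, zero_smul, add_zero]
          rw [(A.e a).left_inv (hsrc z (hU1 hz).2.1)]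
      refine ⟨⟨a, cb, U', hU2, hU3, hcbs.mono fun z hz => (hU1 hz).2,
        fun z hz => (hU1 hz).1, hval⟩, ?_⟩
      have := hval y hU3
      simp only [] at this ⊢
      rw [this, hcby, (A.e a).left_inv hxs]
    · refine ⟨hg.congr (S := K'ᶜ) hK'.isClosed.isOpen_compl hyK fun z hz => if_neg hz, ?_⟩
      simp only [if_neg hyK]
      exact hgx

/-- existence of the projection -/
theorem Emb.exists_pi [FiniteDimensional ℝ V] [Fintype ι] [Nonempty X] {A : Atl n ι X}
    (F : Emb A V) (hcov : ∀ x, ∃ a, x ∈ A.core a) :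
    ∃ pi : V → X, ∀ x, Good A pi (F.io x) ∧ pi (F.io x) = x := by
  classical
  have key : ∀ S : Finset ι, ∃ pi : V → X, ∀ x ∈ {x | ∃ a ∈ S, x ∈ A.core a},
      Good A pi (F.io x) ∧ pi (F.io x) = x := by
    intro S
    induction S using Finset.induction_on with
    | empty =>
      refine ⟨fun _ => Classical.arbitrary X, fun x hx => ?_⟩
      obtain ⟨a, ha, -⟩ := hx
      simp at ha
    | insert a S _ ih =>
      obtain ⟨pi, hpi⟩ := ih
      obtain ⟨pi', hpi'⟩ := F.step (F.continuous hcov) _ pi hpi a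
      refine ⟨pi', fun x hx => hpi' x ?_⟩
      obtain ⟨b, hb, hxb⟩ := hx
      rcases Finset.mem_insert.1 hb with rfl | hb
      · exact Or.inr hxb
      · exact Or.inl ⟨b, hb, hxb⟩
  obtain ⟨pi, hpi⟩ := key Finset.univ
  exact ⟨pi, fun x => hpi x (by obtain ⟨a, ha⟩ := hcov x; exact ⟨a, Finset.mem_univ _, ha⟩)⟩

/-- existence of the embedding -/
theorem exists_emb [Fintype ι] (A : Atl n ι X) :
    Nonempty (Emb A (ι → EuclideanSpace ℝ (Fin n) × ℝ)) := by
  have key := fun a => exists_cutoff (A.isCompact_C a) (A.e a).open_target (A.C_sub a)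
  choose θ K hK hKt hθ hθ0 hθ1 hθz hθo using key
  set G : ι → EuclideanSpace ℝ (Fin n) → EuclideanSpace ℝ (Fin n) × ℝ :=
    fun a y => (θ a y • y, θ a y) with hG
  have hGs : ∀ a, ContDiff ℝ ∞ (G a) := fun a => ((hθ a).smul contDiff_id).prodMk (hθ a)
  have hG0 : ∀ a y, y ∉ K a → G a y = 0 := by
    intro a y hy
    rw [hG]
    simp only [hθz a y hy, zero_smul]
    rfl
  have hsrc : ∀ a x, (1:ℝ) / 2 < (ext A a (G a) x).2 → x ∈ (A.e a).source := by
    intro a x hx
    by_contra h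
    rw [ext_of_notMem h] at hx
    norm_num at hx
  refine ⟨⟨fun x a => ext A a (G a) x, SmX.pi fun a => smX_ext A a (hGs a) (hK a) (hKt a) (hG0 a),
    fun a => {w | (1:ℝ) / 2 < (w a).2}, fun a => ?_, fun a w => ((w a).2)⁻¹ • (w a).1,
    fun a => ?_, fun a x hx => ?_, fun a x hx => hsrc a x hx, fun a x hx => ?_⟩⟩
  · exact isOpen_lt continuous_const (by fun_prop)
  · have h1 : ContDiff ℝ ∞ fun w : ι → EuclideanSpace ℝ (Fin n) × ℝ => (w a).2 :=
      contDiff_snd.comp (contDiff_apply ℝ _ a)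
    have h2 : ContDiff ℝ ∞ fun w : ι → EuclideanSpace ℝ (Fin n) × ℝ => (w a).1 :=
      contDiff_fst.comp (contDiff_apply ℝ _ a)
    refine (h1.contDiffOn.inv fun w hw => ?_).smul h2.contDiffOn
    have : (1:ℝ) / 2 < (w a).2 := hw
    linarith
  · obtain ⟨h1, h2⟩ := A.mem_core.1 hx
    show (1:ℝ) / 2 < (ext A a (G a) x).2
    rw [ext_of_mem h1, hG]
    simp only
    rw [(hθo a _ h2).self_of_nhds]
    norm_num
  · have h1 := hsrc a x hx
    have h2 : (1:ℝ) / 2 < (ext A a (G a) x).2 := hx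
    show ((ext A a (G a) x).2)⁻¹ • (ext A a (G a) x).1 = A.e a x
    rw [ext_of_mem h1] at h2 ⊢
    rw [hG] at h2 ⊢
    simp only at h2 ⊢
    rw [smul_smul, inv_mul_cancel₀ (by linarith), one_smul]

end Crest.Agent.R249.Prj832
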