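import Crest.Agent.R249.Prj2_832

/-!
# R249, D4-PROJ (helper832), part 3: flatness and the final structure

* `INF e` : infinitesimal form of the distance;
* `Proj m e` : bi-Lipschitz embedding, smooth projection, flatness at small scales;
* `exists_proj`.
-/

set_option autoImplicit false
set_option linter.style.haveILetI false
set_option linter.unusedSectionVars false
noncomputable section
open Set Filter Topology Metric
open scoped ContDiff Manifold

namespace Crest.Agent.R249.Prj832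

open Crest.Agent.R249.Glue832

variable {n : ℕ} {ι : Type*} {X : Type*} [MetricSpace X]
  {V : Type*} [NormedAddCommGroup V] [NormedSpace ℝ V]

/-- infinitesimal form of the distance -/
def INF (e : ι → OpenPartialHomeomorph X (EuclideanSpace ℝ (Fin n))) : Prop :=
  ∀ z : X, ∃ a, z ∈ (e a).source ∧ ∃ L : EuclideanSpace ℝ (Fin n) ≃L[ℝ] EuclideanSpace ℝ (Fin n),
    ∀ η : ℝ, 0 < η → ∃ r : ℝ, 0 < r ∧ ∀ x ∈ ball z r, ∀ y ∈ ball z r,
      |dist x y - ‖L (e a x - e a y)‖| ≤ η * dist x y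

theorem BL_of_INF {A : Atl n ι X} (h : INF A.e) : BL A := by
  intro z
  obtain ⟨a, hz, L, hL⟩ := h z
  obtain ⟨r, hr, h1⟩ := hL (1 / 2) (by norm_num)
  set N : ℝ := ‖(L : EuclideanSpace ℝ (Fin n) →L[ℝ] EuclideanSpace ℝ (Fin n))‖ + 1 with hN
  set N' : ℝ := ‖(L.symm : EuclideanSpace ℝ (Fin n) →L[ℝ] EuclideanSpace ℝ (Fin n))‖ + 1 with hN'
  have hN0 : 0 < N := by positivity
  have hN'0 : 0 < N' := by positivity
  refine ⟨a, hz, 1 / (2 * N), 3 / 2 * N', r, by positivity, by positivity, hr,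
    fun x hx y hy => ?_⟩
  have h2 := abs_le.1 (h1 x hx y hy)
  set v := A.e a x - A.e a y with hv
  have h3 : ‖L v‖ ≤ N * ‖v‖ := by
    have := (L : EuclideanSpace ℝ (Fin n) →L[ℝ] EuclideanSpace ℝ (Fin n)).le_opNorm v
    have h4 : ‖L v‖ ≤ (N - 1) * ‖v‖ := by simpa [hN] using this
    nlinarith [norm_nonneg v]
  have h3' : ‖v‖ ≤ N' * ‖L v‖ := by
    have := (L.symm : EuclideanSpace ℝ (Fin n) →L[ℝ] EuclideanSpace ℝ (Fin n)).le_opNorm (L v)
    have h4 : ‖v‖ ≤ (N' - 1) * ‖L v‖ := by simpa [hN'] using this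
    nlinarith [norm_nonneg (L v)]
  constructor
  · rw [one_div, inv_mul_le_iff₀ (by positivity)]
    nlinarith
  · nlinarith [mul_le_mul_of_nonneg_left (show ‖L v‖ ≤ 3 / 2 * dist x y by linarith) hN'0.le]

/-- transfer of an embedding to another normed space -/
def Emb.map {A : Atl n ι X} (F : Emb A V) {V' : Type*} [NormedAddCommGroup V'] [NormedSpace ℝ V']
    (T : V ≃L[ℝ] V') : Emb A V' where
  io x := T (F.io x)
  sm := F.sm.comp T.contDiff
  N a := T.symm ⁻¹' (F.N a)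
  open_N a := (F.open_N a).preimage T.symm.continuous
  P a w := F.P a (T.symm w)
  smP a := (F.smP a).comp T.symm.contDiff.contDiffOn fun _ hw => hw
  mem a x hx := by
    show T.symm (T (F.io x)) ∈ F.N a
    rw [T.symm_apply_apply]; exact F.mem a x hx
  src a x hx := by
    have : T.symm (T (F.io x)) ∈ F.N a := hx
    rw [T.symm_apply_apply] at this
    exact F.src a x this
  left a x hx := by
    have : T.symm (T (F.io x)) ∈ F.N a := hx
    rw [T.symm_apply_apply] at this ⊢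
    exact F.left a x this

/-- derivative bounds from Lipschitz bounds at small scales -/
theorem fderiv_bounds {E : Type*} [NormedAddCommGroup E] [NormedSpace ℝ E] {T : E → V} {p : E}
    (hT : DifferentiableAt ℝ T p) {c C : ℝ}
    (h : ∀ ε : ℝ, 0 < ε → ∀ᶠ u in 𝓝 p, (c - ε) * ‖u - p‖ ≤ ‖T u - T p‖ ∧
      ‖T u - T p‖ ≤ (C + ε) * ‖u - p‖) (v : E) :
    c * ‖v‖ ≤ ‖fderiv ℝ T p v‖ ∧ ‖fderiv ℝ T p v‖ ≤ C * ‖v‖ := by
  rcases eq_or_ne v 0 with rfl | hv
  · simp
  have hvn : 0 < ‖v‖ := norm_pos_iff.2 hv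
  have key : ∀ ε : ℝ, 0 < ε → (c - 2 * ε) * ‖v‖ ≤ ‖fderiv ℝ T p v‖ ∧
      ‖fderiv ℝ T p v‖ ≤ (C + 2 * ε) * ‖v‖ := by
    intro ε hε
    have h1 := (hasFDerivAt_iff_isLittleO.1 hT.hasFDerivAt).def hε
    have h2 := h ε hε
    have h3 : Tendsto (fun t : ℝ => p + t • v) (𝓝[>] 0) (𝓝 p) := by
      have : Continuous fun t : ℝ => p + t • v := by fun_prop
      have h4 := this.tendsto 0
      simp only [zero_smul, add_zero] at h4
      exact h4.mono_left nhdsWithin_le_nhds
    have h8 : ∀ᶠ t : ℝ in 𝓝[>] 0, t ∈ Ioi (0:ℝ) := self_mem_nhdsWithin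
    obtain ⟨t, ht, ht1, ht2⟩ := (h8.and (h3.eventually (h1.and h2))).exists
    have ht0 : 0 < t := ht
    simp only [add_sub_cancel_left, map_smul, norm_smul, Real.norm_eq_abs, abs_of_pos ht0]
      at ht1 ht2
    have h5 : ‖T (p + t • v) - T p‖ ≤ t * ‖fderiv ℝ T p v‖ + ε * (t * ‖v‖) := by
      calc ‖T (p + t • v) - T p‖ = ‖t • fderiv ℝ T p v +
            (T (p + t • v) - T p - t • fderiv ℝ T p v)‖ := by congr 1; abel
        _ ≤ ‖t • fderiv ℝ T p v‖ + ‖T (p + t • v) - T p - t • fderiv ℝ T p v‖ :=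
            norm_add_le _ _
        _ ≤ _ := by
            rw [norm_smul, Real.norm_eq_abs, abs_of_pos ht0]
            gcongr
    have h6 : t * ‖fderiv ℝ T p v‖ ≤ ‖T (p + t • v) - T p‖ + ε * (t * ‖v‖) := by
      calc t * ‖fderiv ℝ T p v‖ = ‖t • fderiv ℝ T p v‖ := by
            rw [norm_smul, Real.norm_eq_abs, abs_of_pos ht0]
        _ = ‖(T (p + t • v) - T p) - (T (p + t • v) - T p - t • fderiv ℝ T p v)‖ := by
            congr 1; abel
        _ ≤ ‖T (p + t • v) - T p‖ + ‖T (p + t • v) - T p - t • fderiv ℝ T p v‖ :=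
            norm_sub_le _ _
        _ ≤ _ := by gcongr
    constructor
    · have : t * ((c - 2 * ε) * ‖v‖) ≤ t * ‖fderiv ℝ T p v‖ := by nlinarith [ht2.1]
      exact le_of_mul_le_mul_left this ht0
    · have : t * ‖fderiv ℝ T p v‖ ≤ t * ((C + 2 * ε) * ‖v‖) := by nlinarith [ht2.2]
      exact le_of_mul_le_mul_left this ht0
  constructor
  · refine le_of_forall_pos_le_add fun ε hε => ?_
    have := (key (ε / (2 * ‖v‖)) (by positivity)).1
    have h7 : (c - 2 * (ε / (2 * ‖v‖))) * ‖v‖ = c * ‖v‖ - ε := by field_simp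
    linarith
  · refine le_of_forall_pos_le_add fun ε hε => ?_
    have := (key (ε / (2 * ‖v‖)) (by positivity)).2
    have h7 : (C + 2 * (ε / (2 * ‖v‖))) * ‖v‖ = C * ‖v‖ + ε := by field_simp
    linarith

/-- flatness near a point, all scales -/
theorem Emb.flat_at {A : Atl n ι X} (F : Emb A V) {c₀ C₀ : ℝ} (hc₀ : 0 < c₀) (hC₀ : 0 < C₀)
    (hb : ∀ x y, c₀ * dist x y ≤ ‖F.io x - F.io y‖ ∧ ‖F.io x - F.io y‖ ≤ C₀ * dist x y)
    {a : ι} {z : X} (hz : z ∈ (A.e a).source)
    (L : EuclideanSpace ℝ (Fin n) ≃L[ℝ] EuclideanSpace ℝ (Fin n))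
    (hL : ∀ η : ℝ, 0 < η → ∃ r : ℝ, 0 < r ∧ ∀ x ∈ ball z r, ∀ y ∈ ball z r,
      |dist x y - ‖L (A.e a x - A.e a y)‖| ≤ η * dist x y) :
    ∃ (f : X → EuclideanSpace ℝ (Fin n)) (B : EuclideanSpace ℝ (Fin n) →L[ℝ] V),
      (∀ v, c₀ * ‖v‖ ≤ ‖B v‖ ∧ ‖B v‖ ≤ C₀ * ‖v‖) ∧
      (∀ G : V → V, DifferentiableAt ℝ G (F.io z) → (∀ x, G (F.io x) = F.io x) →
        ∀ v, fderiv ℝ G (F.io z) (B v) = B v) ∧ ∀ η : ℝ, 0 < η → ∃ r : ℝ, 0 < r ∧
        (∀ x ∈ ball z r, ∀ y ∈ ball z r, |‖f x - f y‖ - dist x y| ≤ η * dist x y ∧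
          ‖F.io x - F.io y - B (f x - f y)‖ ≤ η * dist x y) ∧
        ∃ s : ℝ, 0 < s ∧ ∀ w ∈ ball (f z) s, ∃ y ∈ ball z r, f y = w := by
  set f : X → EuclideanSpace ℝ (Fin n) := fun x => L (A.e a x) with hf
  set T : EuclideanSpace ℝ (Fin n) → V := fun u => F.io ((A.e a).symm (L.symm u)) with hT
  set p := f z with hp
  have hLp : L.symm p = A.e a z := by rw [hp, hf]; simp
  have hTs : ContDiffAt ℝ ∞ T p := by
    have h1 : ContDiffAt ℝ ∞ (fun y => F.io ((A.e a).symm y)) (L.symm p) := by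
      rw [hLp]; exact F.sm.at hz
    exact h1.comp p L.symm.contDiff.contDiffAt
  have hTf : ∀ x ∈ (A.e a).source, T (f x) = F.io x := by
    intro x hx
    simp only [hT, hf, L.symm_apply_apply, (A.e a).left_inv hx]
  -- the inverse of `f`
  have hinv : ∀ᶠ u in 𝓝 p, L.symm u ∈ (A.e a).target := by
    have h1 : ContinuousAt (fun u => L.symm u) p := L.symm.continuous.continuousAt
    refine h1.eventually ((A.e a).open_target.mem_nhds ?_)
    show L.symm p ∈ _
    rw [hLp]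
    exact (A.e a).map_source hz
  have hg : ∀ r : ℝ, 0 < r → ∀ᶠ u in 𝓝 p, (A.e a).symm (L.symm u) ∈ ball z r := by
    intro r hr
    have h1 : ContinuousAt (fun u => (A.e a).symm (L.symm u)) p := by
      have h2 : ContinuousAt (A.e a).symm (L.symm p) := by
        rw [hLp]; exact (A.e a).continuousAt_symm ((A.e a).map_source hz)
      exact h2.comp L.symm.continuous.continuousAt
    refine h1.eventually (isOpen_ball.mem_nhds ?_)
    show (A.e a).symm (L.symm p) ∈ _
    rw [hLp, (A.e a).left_inv hz]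
    exact mem_ball_self hr
  have hfg : ∀ u, L.symm u ∈ (A.e a).target → f ((A.e a).symm (L.symm u)) = u := by
    intro u hu
    simp only [hf, (A.e a).right_inv hu, L.apply_symm_apply]
  have hL' : ∀ η : ℝ, 0 < η → ∃ r : ℝ, 0 < r ∧ ∀ x ∈ ball z r, ∀ y ∈ ball z r,
      |‖f x - f y‖ - dist x y| ≤ η * dist x y := by
    intro η hη
    obtain ⟨r, hr, h1⟩ := hL η hη
    refine ⟨r, hr, fun x hx y hy => ?_⟩
    rw [abs_sub_comm]
    simpa only [hf, map_sub] using h1 x hx y hy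
  refine ⟨f, fderiv ℝ T p, fderiv_bounds (hTs.differentiableAt (by simp)) ?_, ?_, ?_⟩
  · -- small scale bounds of `T`
    intro ε hε
    obtain ⟨η, hη, hη1, hη2, hη3⟩ : ∃ η : ℝ, 0 < η ∧ η ≤ 1 / 2 ∧ 2 * C₀ * η ≤ ε ∧ c₀ * η ≤ ε := by
      refine ⟨min (1 / 2) (min (ε / (2 * C₀)) (ε / c₀)), by positivity, min_le_left _ _, ?_, ?_⟩
      · have h1 : min (1 / 2) (min (ε / (2 * C₀)) (ε / c₀)) ≤ ε / (2 * C₀) :=
          (min_le_right _ _).trans (min_le_left _ _)
        rw [le_div_iff₀ (by positivity)] at h1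
        linarith
      · have h1 : min (1 / 2) (min (ε / (2 * C₀)) (ε / c₀)) ≤ ε / c₀ :=
          (min_le_right _ _).trans (min_le_right _ _)
        rw [le_div_iff₀ (by positivity)] at h1
        linarith
    obtain ⟨r, hr, h1⟩ := hL' η hη
    filter_upwards [hg r hr, hinv] with u hu1 hu2
    set x := (A.e a).symm (L.symm u) with hx
    have h2 := abs_le.1 (h1 x hu1 z (mem_ball_self hr))
    rw [hfg u hu2] at h2
    have h3 := hb x z
    have h4 : T u = F.io x := rfl
    have h5 : T p = F.io z := hTf z hz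
    rw [h4, h5]
    have hd : 0 ≤ dist x z := dist_nonneg
    constructor
    · -- `(c₀ - ε) ‖u - p‖ ≤ c₀ dist x z`
      refine le_trans ?_ h3.1
      rcases le_or_gt c₀ ε with hcε | hcε
      · exact (mul_nonpos_of_nonpos_of_nonneg (by linarith) (norm_nonneg _)).trans
          (by positivity)
      · have h6 : ‖u - p‖ ≤ (1 + η) * dist x z := by linarith
        calc (c₀ - ε) * ‖u - p‖ ≤ (c₀ - ε) * ((1 + η) * dist x z) := by
              gcongr
          _ = ((c₀ - ε) * (1 + η)) * dist x z := by ring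
          _ ≤ c₀ * dist x z := by
              gcongr
              nlinarith
    · refine h3.2.trans ?_
      have h6 : (1 - η) * dist x z ≤ ‖u - p‖ := by linarith
      have h7 : dist x z ≤ (1 + 2 * η) * ‖u - p‖ := by
        have h8 : 0 ≤ (1 + 2 * η) := by linarith
        have h9 := mul_le_mul_of_nonneg_left h6 h8
        have h10 : 1 ≤ (1 + 2 * η) * (1 - η) := by nlinarith
        nlinarith
      calc C₀ * dist x z ≤ C₀ * ((1 + 2 * η) * ‖u - p‖) := by gcongr
        _ = (C₀ + 2 * C₀ * η) * ‖u - p‖ := by ring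
        _ ≤ (C₀ + ε) * ‖u - p‖ := by gcongr
  · intro G hG hGio v
    have h1 : (fun u => G (T u)) = T := funext fun u => hGio _
    have h2 : T p = F.io z := hTf z hz
    have h3 : HasFDerivAt (fun u => G (T u)) ((fderiv ℝ G (F.io z)).comp (fderiv ℝ T p)) p := by
      rw [← h2]
      rw [← h2] at hG
      exact hG.hasFDerivAt.comp p (hTs.differentiableAt (by simp)).hasFDerivAt
    rw [h1] at h3
    have h4 := h3.fderiv
    conv_rhs => rw [h4]
    rfl
  · intro η hη
    obtain ⟨η', hη', hη'1, hη'2⟩ : ∃ η' : ℝ, 0 < η' ∧ η' ≤ 1 ∧ 2 * η' ≤ η :=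
      ⟨min 1 (η / 2), by positivity, min_le_left _ _, by
        have := min_le_right 1 (η / 2); linarith⟩
    obtain ⟨r₁, hr₁, h1⟩ := hL' η' hη'
    -- strict differentiability
    have hst := (hTs.hasStrictFDerivAt (by simp)).isLittleO.def hη'
    have hcf : ContinuousAt f z := by
      have : ContinuousAt (fun x => L (A.e a x)) z :=
        L.continuous.continuousAt.comp ((A.e a).continuousAt hz)
      exact this
    obtain ⟨δ, hδ, h2⟩ := Metric.eventually_nhds_iff_ball.1 hst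
    have h3 : ∀ᶠ x in 𝓝 z, x ∈ (A.e a).source ∧ f x ∈ ball p δ ∧ x ∈ ball z r₁ := by
      filter_upwards [(A.e a).open_source.mem_nhds hz, hcf.eventually (ball_mem_nhds _ hδ),
        ball_mem_nhds z hr₁] with x h1 h2 h3
      exact ⟨h1, h2, h3⟩
    obtain ⟨r, hr, hr'⟩ := Metric.eventually_nhds_iff_ball.1 h3
    refine ⟨r, hr, fun x hx y hy => ?_, ?_⟩
    · obtain ⟨hx1, hx2, hx3⟩ := hr' x hx
      obtain ⟨hy1, hy2, hy3⟩ := hr' y hy
      have h4 := h1 x hx3 y hy3
      have hd : 0 ≤ dist x y := dist_nonneg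
      refine ⟨h4.trans (by nlinarith), ?_⟩
      have h5 := h2 (f x, f y) (by
        rw [mem_ball, Prod.dist_eq]
        exact max_lt hx2 hy2)
      simp only at h5
      rw [hTf x hx1, hTf y hy1] at h5
      refine h5.trans ?_
      have h6 := (abs_le.1 h4).2
      have h7 : ‖f x - f y‖ ≤ (1 + η') * dist x y := by linarith
      calc η' * ‖f x - f y‖ ≤ η' * ((1 + η') * dist x y) := by gcongr
        _ = (η' * (1 + η')) * dist x y := by ring
        _ ≤ η * dist x y := by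
            gcongr
            nlinarith
    · obtain ⟨s, hs, hs'⟩ := Metric.eventually_nhds_iff_ball.1 ((hg r hr).and hinv)
      exact ⟨s, hs, fun w hw => ⟨_, (hs' w hw).1, hfg w (hs' w hw).2⟩⟩

end Crest.Agent.R249.Prj832
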