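import Crest.Agent.R249.Prj3_832

/-!
# R249, D4-PROJ (helper832), part 4: the final structure

* `Proj m e` : bi-Lipschitz embedding `io` of `X` in `ℝ^m`, smooth projection `pi`, flatness;
* `exists_proj` : from finitely many charts with smooth transitions and `INF e`.
-/

set_option autoImplicit false
set_option linter.style.haveILetI false
set_option linter.unusedSectionVars false
noncomputable section
open Set Filter Topology Metric
open scoped ContDiff Manifold

namespace Crest.Agent.R249.Prj832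

open Crest.Agent.R249.Glue832

variable {n : ℕ} {ι : Type*} {X : Type*} [MetricSpace X]

/-- bi-Lipschitz embedding of `X` in `ℝ^m`, smooth projection, flatness at small scales -/
structure Proj (m : ℕ) (e : ι → OpenPartialHomeomorph X (EuclideanSpace ℝ (Fin n))) where
  /-- the embedding -/
  io : X → EuclideanSpace ℝ (Fin m)
  /-- lower Lipschitz constant -/
  c₀ : ℝ
  /-- upper Lipschitz constant -/
  C₀ : ℝ
  c₀_pos : 0 < c₀
  C₀_pos : 0 < C₀
  lower : ∀ x y, c₀ * dist x y ≤ ‖io x - io y‖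
  upper : ∀ x y, ‖io x - io y‖ ≤ C₀ * dist x y
  /-- the domain of the projection -/
  O : Set (EuclideanSpace ℝ (Fin m))
  isOpen_O : IsOpen O
  io_mem : ∀ x, io x ∈ O
  /-- the projection -/
  pi : EuclideanSpace ℝ (Fin m) → X
  pi_io : ∀ x, pi (io x) = x
  continuousOn_pi : ContinuousOn pi O
  smooth_pi : ∀ a, ContDiffOn ℝ ∞ (fun y => e a (pi y)) (O ∩ pi ⁻¹' (e a).source)
  smooth_io : ∀ a, ContDiffOn ℝ ∞ (fun y => io ((e a).symm y)) (e a).target
  smooth_io_pi : ContDiffOn ℝ ∞ (fun y => io (pi y)) O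
  bound : ∃ K ρ : ℝ, 0 < K ∧ 0 < ρ ∧ ∀ x y, ‖y - io x‖ ≤ ρ →
    y ∈ O ∧ ‖fderiv ℝ (fun y => io (pi y)) y‖ ≤ K
  flat : ∀ η : ℝ, 0 < η → ∃ d₀ : ℝ, 0 < d₀ ∧ ∀ d : ℝ, 0 < d → d ≤ d₀ → ∀ x₀ : X,
    ∃ (f : X → EuclideanSpace ℝ (Fin n))
      (B : EuclideanSpace ℝ (Fin n) →L[ℝ] EuclideanSpace ℝ (Fin m)),
      (∀ v, c₀ * ‖v‖ ≤ ‖B v‖ ∧ ‖B v‖ ≤ C₀ * ‖v‖) ∧
      (∀ y v, ‖y - io x₀‖ ≤ d₀ → ‖fderiv ℝ (fun y => io (pi y)) y (B v) - B v‖ ≤ η * ‖v‖) ∧
      (∀ x ∈ ball x₀ (20 * d), ∀ y ∈ ball x₀ (20 * d),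
        |‖f x - f y‖ - dist x y| ≤ η * d ∧ ‖io x - io y - B (f x - f y)‖ ≤ η * d) ∧
      ∀ w, ‖w - f x₀‖ ≤ 10 * d → ∃ y ∈ ball x₀ (20 * d), f y = w

/-- **Existence of the embedding and the projection.** -/
theorem exists_proj [CompactSpace X] [Nonempty X] [Fintype ι]
    (e : ι → OpenPartialHomeomorph X (EuclideanSpace ℝ (Fin n)))
    (hcov : ∀ x, ∃ a, x ∈ (e a).source)
    (htr : ∀ a b, ContDiffOn ℝ ∞ (fun y => e b ((e a).symm y))
      {y | y ∈ (e a).target ∧ (e a).symm y ∈ (e b).source})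
    (hinf : INF e) : ∃ m : ℕ, Nonempty (Proj m e) := by
  obtain ⟨A, rfl, hA⟩ := exists_atl e hcov htr
  obtain ⟨F0⟩ := exists_emb A
  set m := Module.finrank ℝ (ι → EuclideanSpace ℝ (Fin n) × ℝ) with hm
  have T : (ι → EuclideanSpace ℝ (Fin n) × ℝ) ≃L[ℝ] EuclideanSpace ℝ (Fin m) :=
    ContinuousLinearEquiv.ofFinrankEq (by rw [finrank_euclideanSpace_fin])
  set F := F0.map T with hF
  have hBL : BL A := BL_of_INF hinf
  obtain ⟨c₀, C₀, hc₀, hC₀, hb⟩ := F.biLip hBL hA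
  obtain ⟨pi, hpi⟩ := F.exists_pi hA
  have hO : IsOpen {y | Good A pi y} := isOpen_good A pi
  set G : EuclideanSpace ℝ (Fin m) → EuclideanSpace ℝ (Fin m) := fun y => F.io (pi y) with hG
  have hGs : ContDiffOn ℝ ∞ G {y | Good A pi y} := by
    intro y hy
    obtain ⟨a, ha⟩ := hcov (pi y)
    have h1 : ContDiffAt ℝ ∞ (fun z => F.io ((A.e a).symm (A.e a (pi z)))) y :=
      ContDiffAt.comp y (g := fun w => F.io ((A.e a).symm w)) (F.sm.at ha)
        (Good.contDiffAt hy ha)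
    refine (h1.congr_of_eventuallyEq ?_).contDiffWithinAt
    filter_upwards [(Good.continuousAt hy).eventually ((A.e a).open_source.mem_nhds ha)]
      with z hz
    rw [(A.e a).left_inv hz]
  have hGd : ∀ y, Good A pi y → ContDiffAt ℝ ∞ G y := fun y hy => hGs.contDiffAt (hO.mem_nhds hy)
  have hGio : ∀ x, G (F.io x) = F.io x := by
    intro x
    show F.io (pi (F.io x)) = F.io x
    rw [(hpi x).2]
  refine ⟨m, ⟨⟨F.io, c₀, C₀, hc₀, hC₀, fun x y => (hb x y).1, fun x y => (hb x y).2,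
    {y | Good A pi y}, hO, fun x => (hpi x).1, pi, fun x => (hpi x).2,
    fun y hy => hy.continuousAt.continuousWithinAt, ?_, F.sm, hGs, ?_, ?_⟩⟩⟩
  · rintro a y ⟨hy, hya⟩
    exact (Good.contDiffAt hy hya).contDiffWithinAt
  · -- bound
    have hcio : Continuous F.io := F.continuous hA
    have hK : IsCompact (range F.io) := isCompact_range hcio
    obtain ⟨K', hK', hK1, hK2⟩ := exists_compact_between hK hO (by
      rintro _ ⟨x, rfl⟩; exact (hpi x).1)
    obtain ⟨ρ, hρ, hρ'⟩ := hK.exists_thickening_subset_open isOpen_interior hK1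
    have hc : ContinuousOn (fderiv ℝ G) K' := fun y hy =>
      ((hGd y (hK2 hy)).continuousAt_fderiv (by simp)).continuousWithinAt
    obtain ⟨B, hB⟩ := hK'.exists_bound_of_continuousOn hc
    refine ⟨max B 1, ρ / 2, lt_max_of_lt_right one_pos, by positivity, fun x y hxy => ?_⟩
    have h1 : y ∈ K' := by
      refine interior_subset (hρ' ?_)
      rw [Metric.mem_thickening_iff]
      exact ⟨F.io x, ⟨x, rfl⟩, by rw [dist_eq_norm]; linarith⟩
    exact ⟨hK2 h1, (hB y h1).trans (le_max_left _ _)⟩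
  · -- flatness
    intro η hη
    obtain ⟨η', hη', hη'1, hη'2⟩ : ∃ η' : ℝ, 0 < η' ∧ 40 * η' ≤ η ∧ η' ≤ 1 / 4 :=
      ⟨min (η / 40) (1 / 4), by positivity,
        by have := min_le_left (η / 40) (1 / 4); linarith, min_le_right _ _⟩
    have key : ∀ z : X, ∃ (f : X → EuclideanSpace ℝ (Fin n))
        (B : EuclideanSpace ℝ (Fin n) →L[ℝ] EuclideanSpace ℝ (Fin m)) (ρ : ℝ), 0 < ρ ∧
        (∀ v, c₀ * ‖v‖ ≤ ‖B v‖ ∧ ‖B v‖ ≤ C₀ * ‖v‖) ∧
        ∀ x₀ ∈ ball z ρ,
          (∀ y v, ‖y - F.io x₀‖ ≤ ρ → ‖fderiv ℝ G y (B v) - B v‖ ≤ η * ‖v‖) ∧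
          ∀ d : ℝ, 0 < d → d ≤ ρ →
          (∀ x ∈ ball x₀ (20 * d), ∀ y ∈ ball x₀ (20 * d),
            |‖f x - f y‖ - dist x y| ≤ η * d ∧ ‖F.io x - F.io y - B (f x - f y)‖ ≤ η * d) ∧
          ∀ w, ‖w - f x₀‖ ≤ 10 * d → ∃ y ∈ ball x₀ (20 * d), f y = w := by
      intro z
      obtain ⟨a, hza, L, hL⟩ := hinf z
      obtain ⟨f, B, hB, hBG, h1⟩ := F.flat_at hc₀ hC₀ hb hza L hL
      obtain ⟨r, hr, h2, s, hs, h3⟩ := h1 η' hη'
      have hGz := hGd (F.io z) (hpi z).1
      have hBz := hBG G (hGz.differentiableAt (by simp)) hGio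
      have hcd : ContinuousAt (fderiv ℝ G) (F.io z) := hGz.continuousAt_fderiv (by simp)
      obtain ⟨δ, hδ, hδ'⟩ := Metric.continuousAt_iff.1 hcd (η / C₀) (by positivity)
      set ρ := min (min (r / 21) (s / 13)) (δ / (2 * (1 + C₀))) with hρ
      have hρ1 : 21 * ρ ≤ r := by
        have : ρ ≤ r / 21 := (min_le_left _ _).trans (min_le_left _ _)
        linarith
      have hρ2 : 13 * ρ ≤ s := by
        have : ρ ≤ s / 13 := (min_le_left _ _).trans (min_le_right _ _)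
        linarith
      have hρ0 : 0 < ρ := by positivity
      have hρ3 : (1 + C₀) * ρ < δ := by
        have h4 : ρ ≤ δ / (2 * (1 + C₀)) := min_le_right _ _
        rw [le_div_iff₀ (by positivity)] at h4
        nlinarith
      refine ⟨f, B, ρ, hρ0, hB, fun x₀ hx₀ => ⟨fun y v hy => ?_, fun d hd hdρ => ?_⟩⟩
      · have h4 : dist y (F.io z) < δ := by
          rw [dist_eq_norm]
          calc ‖y - F.io z‖ = ‖(y - F.io x₀) + (F.io x₀ - F.io z)‖ := by congr 1; abel
            _ ≤ ‖y - F.io x₀‖ + ‖F.io x₀ - F.io z‖ := norm_add_le _ _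
            _ ≤ ρ + C₀ * ρ := by
                refine add_le_add hy ((hb x₀ z).2.trans ?_)
                have : dist x₀ z < ρ := hx₀
                gcongr
            _ < δ := by linarith
        have h5 := hδ' h4
        rw [dist_eq_norm] at h5
        have h6 : fderiv ℝ G y (B v) - B v = (fderiv ℝ G y - fderiv ℝ G (F.io z)) (B v) := by
          rw [sub_apply, hBz]
        rw [h6]
        calc ‖(fderiv ℝ G y - fderiv ℝ G (F.io z)) (B v)‖
            ≤ ‖fderiv ℝ G y - fderiv ℝ G (F.io z)‖ * ‖B v‖ := ContinuousLinearMap.le_opNorm _ _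
          _ ≤ η / C₀ * (C₀ * ‖v‖) := by
              gcongr
              exact (hB v).2
          _ = η * ‖v‖ := by field_simp
      have hx₀' : dist x₀ z < ρ := hx₀
      have hsub : ∀ x ∈ ball x₀ (20 * d), x ∈ ball z r := by
        intro x hx
        have h4 : dist x x₀ < 20 * d := hx
        have h5 := dist_triangle x x₀ z
        rw [mem_ball]
        linarith
      refine ⟨fun x hx y hy => ?_, fun w hw => ?_⟩
      · have h4 := h2 x (hsub x hx) y (hsub y hy)
        have h5 : dist x y ≤ 40 * d := by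
          have h6 : dist x x₀ < 20 * d := hx
          have h7 : dist y x₀ < 20 * d := hy
          have h8 := dist_triangle_right x y x₀
          linarith
        have h6 : η' * dist x y ≤ η * d := by
          calc η' * dist x y ≤ η' * (40 * d) := by gcongr
            _ = 40 * η' * d := by ring
            _ ≤ η * d := by gcongr
        exact ⟨h4.1.trans h6, h4.2.trans h6⟩
      · have hx₀r : x₀ ∈ ball z r := hsub x₀ (mem_ball_self (by positivity))
        have h4 := (abs_le.1 (h2 x₀ hx₀r z (mem_ball_self hr)).1).2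
        have h5 : ‖f x₀ - f z‖ ≤ 2 * ρ := by
          nlinarith [dist_nonneg (x := x₀) (y := z)]
        have h6 : w ∈ ball (f z) s := by
          rw [mem_ball, dist_eq_norm]
          calc ‖w - f z‖ = ‖(w - f x₀) + (f x₀ - f z)‖ := by congr 1; abel
            _ ≤ ‖w - f x₀‖ + ‖f x₀ - f z‖ := norm_add_le _ _
            _ < s := by linarith
        obtain ⟨y, hy, hyw⟩ := h3 w h6
        refine ⟨y, ?_, hyw⟩
        have h7 := (abs_le.1 (h2 y hy x₀ hx₀r).1).1
        rw [hyw] at h7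
        rw [mem_ball]
        nlinarith [dist_nonneg (x := y) (y := x₀)]
    choose f B ρ hρ hB hkey using key
    obtain ⟨t, ht⟩ := CompactSpace.elim_nhds_subcover (fun z => ball z (ρ z))
      (fun z => ball_mem_nhds z (hρ z))
    obtain ⟨d₀, hd₀, hd₀'⟩ : ∃ r : ℝ, 0 < r ∧ ∀ p ∈ t, r ≤ ρ p := by
      rcases t.eq_empty_or_nonempty with rfl | hne
      · exact ⟨1, one_pos, by simp⟩
      · exact ⟨t.inf' hne ρ, (Finset.lt_inf'_iff _).2 fun p _ => hρ p,
          fun p hp => Finset.inf'_le _ hp⟩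
    refine ⟨d₀, hd₀, fun d hd hdd x₀ => ?_⟩
    have h1 : x₀ ∈ ⋃ z ∈ t, ball z (ρ z) := by rw [ht]; trivial
    simp only [mem_iUnion] at h1
    obtain ⟨z, hz, hx₀⟩ := h1
    exact ⟨f z, B z, hB z, fun y v hy => (hkey z x₀ hx₀).1 y v (hy.trans (hd₀' z hz)),
      (hkey z x₀ hx₀).2 d hd (hdd.trans (hd₀' z hz))⟩

end Crest.Agent.R249.Prj832
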