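import Crest.Agent.R249.KerM2_638
import Crest.Agent.R249.Cd1_133

/-!
# Row 249, part A: the interior check, chart Ia of `cert_709` (lists of `Cd1_133`)

Generated subdivision tree; `.lf` = list of congruences, `.out 0` = the obstacle polynomial is
nonpositive.
-/

set_option autoImplicit false
set_option maxRecDepth 100000

namespace Crest.Agent.R249.Ps638

open Crest.Agent.R249 Crest.Agent.R249.Ker254 Crest.Agent.R249.KerT368 Crest.Agent.R249.KerM638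

def T_Ia : TreeM :=
(.rb 148 (.nd 1 1 1
(.nd 2 1 1
(.rb 157 (.lf (.cons 324 (-58) 183 184 (-388) 32 .nil)))
(.rb 157 (.lf (.cons 232 (-45) 166 187 (-403) 32 (.cons 115 (-32) 154 376 (-305) 32 .nil)))))
(.nd 2 1 1
(.rb 158 (.lf (.cons 210 (-35) 157 201 (-383) 32 (.cons 506 (-38) 295 375 (-277) 32 (.cons 108 (-20) 112 323 (-396) 32 .nil)))))
(.rb 158 (.lf (.cons 246 (-37) 186 100 (-470) 32 (.cons 145 (-24) 126 371 (-363) 32 (.cons 103 (-57) 358 40 (-457) 32 (.cons 111 (-26) 123 296 (-422) 32 .nil)))))))))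

def Kn_Ia : P3 :=
  [[[-8], [0, 35]],
   [[], [], [0, 0, -40]]]

theorem ok_Ia : okTM 1 T_Ia = true := by decide +kernel

theorem chk_Ia : runM 180 13 8 9 550907180400000 ⟨none, some (3, 10)⟩ ⟨none, some (1, 1)⟩ ⟨none, some (1, 10)⟩ 0 T_Ia
    [Cd133.PIa00, Cd133.PIa01, Cd133.PIa02, Cd133.PIa11, Cd133.PIa12, Cd133.PIa22] = true := by
  decide +kernel

theorem chkK_Ia : runM 27 1 2 2 40 ⟨none, some (3, 10)⟩ ⟨none, some (1, 1)⟩ ⟨none, some (1, 10)⟩ 1 T_Ia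
    [Kn_Ia, [], [], [], [], []] = true := by
  decide +kernel

theorem neg_Ia (w b T : ℝ) : ev3 w b T Kn_Ia = - ev3 w b T Cd133.KIa := by
  simp only [Kn_Ia, Cd133.KIa, ev3, ev2, ev1]
  push_cast
  ring

theorem psd_Ia (w b T : ℝ) (h1 : 0 ≤ w) (h2 : 10 * w ≤ 3) (h3 : 0 ≤ b) (h4 : b ≤ 1) (h5 : 0 ≤ T) (h6 : 10 * T ≤ 1)
    (hk : 0 < ev3 w b T Cd133.KIa) (x₁ x₂ x₃ : ℝ) :
    0 ≤ qf (ev3 w b T Cd133.PIa00) (ev3 w b T Cd133.PIa01) (ev3 w b T Cd133.PIa02)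
      (ev3 w b T Cd133.PIa11) (ev3 w b T Cd133.PIa12) (ev3 w b T Cd133.PIa22) x₁ x₂ x₃ := by
  refine psdM1 ok_Ia chk_Ia chkK_Ia
    (Lim.in_hi (by norm_num) (by norm_num) h1 (by push_cast; linarith))
    (Lim.in_hi (by norm_num) (by norm_num) h3 (by push_cast; linarith))
    (Lim.in_hi (by norm_num) (by norm_num) h5 (by push_cast; linarith))
    ?_ x₁ x₂ x₃
  rw [neg_Ia]
  linarith

end Crest.Agent.R249.Ps638
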