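import Crest.Agent.R249.KerM2_638
import Crest.Agent.R249.Cd1_133

/-!
# Row 249, part A: the interior check, chart VII of `cert_709` (lists of `Cd1_133`)

Generated subdivision tree; `.lf` = list of congruences, `.out 0` = the obstacle polynomial is
nonpositive.
-/

set_option autoImplicit false
set_option maxRecDepth 100000

namespace Crest.Agent.R249.Ps638

open Crest.Agent.R249 Crest.Agent.R249.Ker254 Crest.Agent.R249.KerT368 Crest.Agent.R249.KerM638

def T_VII : TreeM :=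
(.rb 153 (.nd 1 1 1
(.nd 0 1 1
(.rb 169 (.lf (.cons 248 42 628 0 477 32 (.cons 342 32 564 0 0 32 (.cons 37 26 212 6 456 32 (.cons 403 67 1271 (-211) 189 32 .nil))))))
(.rb 169 (.nd 2 1 1
(.lf (.cons 271 39 423 (-162) (-55) 32 (.cons 90 53 618 (-135) (-191) 32 (.cons 309 58 317 (-486) (-86) 32 .nil))))
(.nd 0 2 1
(.rb 189 (.lf (.cons 232 107 850 (-37) 322 32 (.cons 79 68 516 4 419 32 (.cons 141 77 831 (-88) 130 32 (.cons 43 17 141 (-5) 357 32 (.cons 581 185 974 (-254) 156 32 .nil)))))))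
(.rb 189 (.lf (.cons 160 68 519 (-94) 0 32 (.cons 165 42 332 8 354 32 (.cons 375 72 610 0 315 32 (.cons 54 18 156 20 399 32 (.cons 81 30 244 29 424 32 .nil)))))))))))
(.nd 0 1 1
(.rb 169 (.lf (.cons 105 30 549 (-113) 0 32 (.cons 43 24 223 13 509 32 .nil))))
(.rb 169 (.nd 2 1 1
(.lf (.cons 278 178 2580 (-448) (-728) 128 (.cons 482 389 3312 (-845) (-2805) 128 (.cons 355 344 3877 (-650) 0 128 (.cons 471 385 3429 (-926) (-2574) 128 (.cons 1097 1380 8934 (-1752) (-5817) 128 .nil))))))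
(.lf (.cons 80 75 879 (-64) 0 32 (.cons 47 51 584 26 453 32 (.cons 32 37 478 73 724 40 (.cons 163 177 1930 120 918 32 .nil))))))))))

def Kn_VII : P3 :=
  [[[-8], [35]],
   [[], [], [-40]]]

theorem ok_VII : okTM 1 T_VII = true := by decide +kernel

theorem chk_VII : runM 216 18 8 5 550907180400000 ⟨none, some (3, 10)⟩ ⟨none, some (1, 4)⟩ ⟨some (1, 2), none⟩ 0 T_VII
    [Cd133.PVII00, Cd133.PVII01, Cd133.PVII02, Cd133.PVII11, Cd133.PVII12, Cd133.PVII22] = true := by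
  decide +kernel

theorem chkK_VII : runM 22 1 2 0 40 ⟨none, some (3, 10)⟩ ⟨none, some (1, 4)⟩ ⟨some (1, 2), none⟩ 1 T_VII
    [Kn_VII, [], [], [], [], []] = true := by
  decide +kernel

theorem neg_VII (w v p : ℝ) : ev3 w v p Kn_VII = - ev3 w v p Cd133.KVII := by
  simp only [Kn_VII, Cd133.KVII, ev3, ev2, ev1]
  push_cast
  ring

theorem psd_VII (w v p : ℝ) (h1 : 0 ≤ w) (h2 : 10 * w ≤ 3) (h3 : 0 ≤ v) (h4 : 4 * v ≤ 1) (h5 : 1 ≤ 2 * p)
    (hk : 0 < ev3 w v p Cd133.KVII) (x₁ x₂ x₃ : ℝ) :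
    0 ≤ qf (ev3 w v p Cd133.PVII00) (ev3 w v p Cd133.PVII01) (ev3 w v p Cd133.PVII02)
      (ev3 w v p Cd133.PVII11) (ev3 w v p Cd133.PVII12) (ev3 w v p Cd133.PVII22) x₁ x₂ x₃ := by
  refine psdM1 ok_VII chk_VII chkK_VII
    (Lim.in_hi (by norm_num) (by norm_num) h1 (by push_cast; linarith))
    (Lim.in_hi (by norm_num) (by norm_num) h3 (by push_cast; linarith))
    (Lim.in_lo (by norm_num) (by norm_num) (by push_cast; linarith))
    ?_ x₁ x₂ x₃
  rw [neg_VII]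
  linarith

end Crest.Agent.R249.Ps638
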