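import Crest.Agent.R249.KerM2_638
import Crest.Agent.R249.Cd1_133

/-!
# Row 249, part A: the interior check, chart VI of `cert_709` (lists of `Cd1_133`)

Generated subdivision tree; `.lf` = list of congruences, `.out 0` = the obstacle polynomial is
nonpositive.
-/

set_option autoImplicit false
set_option maxRecDepth 100000

namespace Crest.Agent.R249.Ps638

open Crest.Agent.R249 Crest.Agent.R249.Ker254 Crest.Agent.R249.KerT368 Crest.Agent.R249.KerM638

def T_VI : TreeM :=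
(.rb 169 (.lf (.cons 63 5 216 (-52) 97 32 (.cons 232 11 1234 (-29) 0 32 .nil))))

def Kn_VI : P3 :=
  [[[-8], [35]],
   [[], [], [0, -40]]]

theorem ok_VI : okTM 1 T_VI = true := by decide +kernel

theorem chk_VI : runM 192 13 8 18 550907180400000 ⟨none, some (1, 2)⟩ ⟨none, some (1, 4)⟩ ⟨none, some (1, 9)⟩ 0 T_VI
    [Cd133.PVI00, Cd133.PVI01, Cd133.PVI02, Cd133.PVI11, Cd133.PVI12, Cd133.PVI22] = true := by
  decide +kernel

theorem chkK_VI : runM 24 1 2 1 40 ⟨none, some (1, 2)⟩ ⟨none, some (1, 4)⟩ ⟨none, some (1, 9)⟩ 1 T_VI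
    [Kn_VI, [], [], [], [], []] = true := by
  decide +kernel

theorem neg_VI (p v s : ℝ) : ev3 p v s Kn_VI = - ev3 p v s Cd133.KVI := by
  simp only [Kn_VI, Cd133.KVI, ev3, ev2, ev1]
  push_cast
  ring

theorem psd_VI (p v s : ℝ) (h1 : 0 ≤ p) (h2 : 2 * p ≤ 1) (h3 : 0 ≤ v) (h4 : 4 * v ≤ 1) (h5 : 0 ≤ s) (h6 : 9 * s ≤ 1)
    (hk : 0 < ev3 p v s Cd133.KVI) (x₁ x₂ x₃ : ℝ) :
    0 ≤ qf (ev3 p v s Cd133.PVI00) (ev3 p v s Cd133.PVI01) (ev3 p v s Cd133.PVI02)
      (ev3 p v s Cd133.PVI11) (ev3 p v s Cd133.PVI12) (ev3 p v s Cd133.PVI22) x₁ x₂ x₃ := by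
  refine psdM1 ok_VI chk_VI chkK_VI
    (Lim.in_hi (by norm_num) (by norm_num) h1 (by push_cast; linarith))
    (Lim.in_hi (by norm_num) (by norm_num) h3 (by push_cast; linarith))
    (Lim.in_hi (by norm_num) (by norm_num) h5 (by push_cast; linarith))
    ?_ x₁ x₂ x₃
  rw [neg_VI]
  linarith

end Crest.Agent.R249.Ps638
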