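/-
Row 249, leaf B-PTW (helper850): pointwise models.

The curvature tensor of an Einstein metric at a point of an oriented Riemannian 4-manifold is
`RJK A C u v w = -(1/2) ∑ A c d ⟨J_d u, v⟩ J_c w - (1/2) ∑ C c d ⟨K_d u, v⟩ K_c w`
(`A`, `C` = self-dual and anti-self-dual blocks, conventions of `FrD_129`, `C` = block of the frame
with `e_3` replaced by `-e_3`).  If `A`, `C` are as in the three models (round sphere, complex
projective plane, product of two spheres), there is a linear isometry carrying the model tensor to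
`RJK A C`.
-/
import Crest.Agent.R249.MdlP_850

set_option autoImplicit false

open Finset

noncomputable section

namespace Crest.Agent.R249.Ptw_850

local notation "E4" => EuclideanSpace ℝ (Fin 4)

local notation "⟪" x ", " y "⟫" => inner ℝ x y

/-- vector with given components -/
def vec (a b c d : ℝ) : E4 := WithLp.toLp 2 ![a, b, c, d]

@[simp] theorem vec_0 (a b c d : ℝ) : vec a b c d 0 = a := rfl
@[simp] theorem vec_1 (a b c d : ℝ) : vec a b c d 1 = b := rfl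
@[simp] theorem vec_2 (a b c d : ℝ) : vec a b c d 2 = c := rfl
@[simp] theorem vec_3 (a b c d : ℝ) : vec a b c d 3 = d := rfl

theorem ext4 {u v : E4} (h0 : u 0 = v 0) (h1 : u 1 = v 1) (h2 : u 2 = v 2) (h3 : u 3 = v 3) :
    u = v := by
  ext i
  fin_cases i
  · exact h0
  · exact h1
  · exact h2
  · exact h3

theorem inner4 (u v : E4) : ⟪u, v⟫ = u 0 * v 0 + u 1 * v 1 + u 2 * v 2 + u 3 * v 3 := by
  simp only [PiLp.inner_apply, Fin.sum_univ_four, RCLike.inner_apply, conj_trivial]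
  ring

/-- linear map given by four linear component functions -/
def lin4 (f : E4 → E4) (ha : ∀ u v, f (u + v) = f u + f v) (hs : ∀ (c : ℝ) u, f (c • u) = c • f u) :
    E4 →ₗ[ℝ] E4 where
  toFun := f
  map_add' := ha
  map_smul' := hs

/-- The three self-dual complex structures. -/
def JJ : Fin 3 → E4 →ₗ[ℝ] E4 :=
  ![lin4 (fun u => vec (-u 1) (u 0) (-u 3) (u 2))
      (fun u v => by apply ext4 <;> simp <;> ring) (fun c u => by apply ext4 <;> simp),
    lin4 (fun u => vec (-u 2) (u 3) (u 0) (-u 1))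
      (fun u v => by apply ext4 <;> simp <;> ring) (fun c u => by apply ext4 <;> simp),
    lin4 (fun u => vec (-u 3) (-u 2) (u 1) (u 0))
      (fun u v => by apply ext4 <;> simp <;> ring) (fun c u => by apply ext4 <;> simp)]

/-- The three anti-self-dual complex structures. -/
def KK : Fin 3 → E4 →ₗ[ℝ] E4 :=
  ![lin4 (fun u => vec (-u 1) (u 0) (u 3) (-u 2))
      (fun u v => by apply ext4 <;> simp <;> ring) (fun c u => by apply ext4 <;> simp),
    lin4 (fun u => vec (-u 2) (-u 3) (u 0) (u 1))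
      (fun u v => by apply ext4 <;> simp <;> ring) (fun c u => by apply ext4 <;> simp),
    lin4 (fun u => vec (u 3) (-u 2) (u 1) (-u 0))
      (fun u v => by apply ext4 <;> simp <;> ring) (fun c u => by apply ext4 <;> simp)]

@[simp] theorem JJ_0 (u : E4) : JJ 0 u = vec (-u 1) (u 0) (-u 3) (u 2) := rfl
@[simp] theorem JJ_1 (u : E4) : JJ 1 u = vec (-u 2) (u 3) (u 0) (-u 1) := rfl
@[simp] theorem JJ_2 (u : E4) : JJ 2 u = vec (-u 3) (-u 2) (u 1) (u 0) := rfl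
@[simp] theorem KK_0 (u : E4) : KK 0 u = vec (-u 1) (u 0) (u 3) (-u 2) := rfl
@[simp] theorem KK_1 (u : E4) : KK 1 u = vec (-u 2) (-u 3) (u 0) (u 1) := rfl
@[simp] theorem KK_2 (u : E4) : KK 2 u = vec (u 3) (-u 2) (u 1) (-u 0) := rfl

/-- Clifford triple -/
structure Cl (J : Fin 3 → E4 →ₗ[ℝ] E4) : Prop where
  skew : ∀ c u v, ⟪J c u, v⟫ = -⟪u, J c v⟫
  anti : ∀ c d u, J c (J d u) + J d (J c u) = if c = d then (-2 : ℝ) • u else 0

theorem cl_JJ : Cl JJ where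
  skew c u v := by fin_cases c <;> simp [inner4] <;> ring
  anti c d u := by
    fin_cases c <;> fin_cases d <;> simp <;> apply ext4 <;> simp <;> ring

theorem cl_KK : Cl KK where
  skew c u v := by fin_cases c <;> simp [inner4] <;> ring
  anti c d u := by
    fin_cases c <;> fin_cases d <;> simp <;> apply ext4 <;> simp <;> ring

theorem comm_JK (c d : Fin 3) (u : E4) : JJ c (KK d u) = KK d (JJ c u) := by
  fin_cases c <;> fin_cases d <;> simp

/-- completeness of the two triples -/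
theorem complete (u v w : E4) :
    ∑ c, (⟪JJ c u, v⟫ • JJ c w + ⟪KK c u, v⟫ • KK c w) = (-2 : ℝ) • (⟪v, w⟫ • u - ⟪u, w⟫ • v) := by
  rw [Fin.sum_univ_three]
  apply ext4 <;> simp [inner4] <;> ring

/-- The complex structure of a unit vector. -/
def cs (J : Fin 3 → E4 →ₗ[ℝ] E4) (α : Fin 3 → ℝ) : E4 →ₗ[ℝ] E4 := ∑ c, α c • J c

theorem cs_apply (J : Fin 3 → E4 →ₗ[ℝ] E4) (α : Fin 3 → ℝ) (u : E4) :
    cs J α u = ∑ c, α c • J c u := by
  simp [cs]

section cl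

variable {J : Fin 3 → E4 →ₗ[ℝ] E4} (hJ : Cl J) {α : Fin 3 → ℝ}

include hJ

theorem Cl.cs_skew (α : Fin 3 → ℝ) (u v : E4) : ⟪cs J α u, v⟫ = -⟪u, cs J α v⟫ := by
  rw [cs_apply, cs_apply, sum_inner, inner_sum, ← sum_neg_distrib]
  refine sum_congr rfl fun c _ => ?_
  rw [real_inner_smul_left, real_inner_smul_right, hJ.skew]
  ring

theorem Cl.cs_anti (α : Fin 3 → ℝ) (c : Fin 3) (u : E4) :
    cs J α (J c u) + J c (cs J α u) = (-2 * α c) • u := by
  rw [cs_apply, cs_apply, map_sum, ← sum_add_distrib]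
  have : ∀ d, α d • J d (J c u) + J c (α d • J d u)
      = if d = c then (-2 * α c) • u else 0 := by
    intro d
    rw [map_smul, ← smul_add, hJ.anti d c]
    by_cases h : d = c
    · subst h
      simp only [if_true, smul_smul]
      congr 1
      ring
    · simp [h]
  rw [sum_congr rfl fun d _ => this d]
  simp

theorem Cl.cs_sq (h1 : ∑ c, α c ^ 2 = 1) (u : E4) : cs J α (cs J α u) = -u := by
  have h2 : (2 : ℝ) • cs J α (cs J α u) = (2 : ℝ) • (-u) := by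
    have h3 : cs J α (cs J α u) = ∑ c, α c • cs J α (J c u) := by
      rw [cs_apply J α u, map_sum]
      exact sum_congr rfl fun c _ => map_smul _ _ _
    have h4 : cs J α (cs J α u) = ∑ c, α c • J c (cs J α u) := cs_apply _ _ _
    calc (2 : ℝ) • cs J α (cs J α u) = cs J α (cs J α u) + cs J α (cs J α u) := two_smul _ _
      _ = ∑ c, α c • cs J α (J c u) + ∑ c, α c • J c (cs J α u) := by rw [← h3, ← h4]
      _ = ∑ c, α c • (cs J α (J c u) + J c (cs J α u)) := by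
        rw [← sum_add_distrib]
        exact sum_congr rfl fun c _ => (smul_add _ _ _).symm
      _ = ∑ c, (-2 * α c ^ 2) • u := by
        refine sum_congr rfl fun c _ => ?_
        rw [hJ.cs_anti, smul_smul]
        congr 1
        ring
      _ = (2 : ℝ) • (-u) := by
        rw [← sum_smul, ← mul_sum, h1]
        simp
  have h5 := congrArg (fun x => (2 : ℝ)⁻¹ • x) h2
  simpa [smul_smul] using h5

theorem Cl.cs_iso (h1 : ∑ c, α c ^ 2 = 1) (u v : E4) : ⟪cs J α u, cs J α v⟫ = ⟪u, v⟫ := by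
  rw [hJ.cs_skew, hJ.cs_sq h1, inner_neg_right, neg_neg]

theorem Cl.cs_self (u : E4) : ⟪u, cs J α u⟫ = 0 := by
  have h := hJ.cs_skew α u u
  rw [real_inner_comm] at h
  linarith

/-- `⟨J_c J u, J v⟩` -/
theorem Cl.inner_cs (h1 : ∑ c, α c ^ 2 = 1) (c : Fin 3) (u v : E4) :
    ⟪J c (cs J α u), cs J α v⟫ = 2 * α c * ⟪cs J α u, v⟫ - ⟪J c u, v⟫ := by
  have h2 : J c (cs J α u) = (-2 * α c) • u - cs J α (J c u) := by
    rw [← hJ.cs_anti α c u]; abel
  rw [h2, inner_sub_left, hJ.cs_iso h1, real_inner_smul_left, hJ.cs_skew]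
  ring

end cl

theorem comm_cs (α γ : Fin 3 → ℝ) (u : E4) : cs JJ α (cs KK γ u) = cs KK γ (cs JJ α u) := by
  rw [cs_apply, cs_apply KK γ (cs JJ α u)]
  have h1 : ∀ c, α c • JJ c (cs KK γ u) = ∑ d, (α c * γ d) • JJ c (KK d u) := by
    intro c
    rw [cs_apply, map_sum, smul_sum]
    exact sum_congr rfl fun d _ => by rw [map_smul, smul_smul]
  have h2 : ∀ d, γ d • KK d (cs JJ α u) = ∑ c, (α c * γ d) • KK d (JJ c u) := by
    intro d
    rw [cs_apply, map_sum, smul_sum]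
    exact sum_congr rfl fun c _ => by rw [map_smul, smul_smul, mul_comm]
  simp_rw [h1, h2]
  rw [sum_comm]
  exact sum_congr rfl fun d _ => sum_congr rfl fun c _ => by rw [comm_JK]

theorem KK_cs (α : Fin 3 → ℝ) (c : Fin 3) (u : E4) : KK c (cs JJ α u) = cs JJ α (KK c u) := by
  rw [cs_apply, cs_apply, map_sum]
  exact sum_congr rfl fun d _ => by rw [map_smul, comm_JK]

theorem JJ_cs (α : Fin 3 → ℝ) (c : Fin 3) (u : E4) : JJ c (cs KK α u) = cs KK α (JJ c u) := by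
  rw [cs_apply, cs_apply, map_sum]
  exact sum_congr rfl fun d _ => by rw [map_smul, comm_JK]

/-! ### The curvature tensor -/

/-- `∑ c, ⟨J_c u, v⟩ J_c w` -/
def sg (J : Fin 3 → E4 →ₗ[ℝ] E4) (u v w : E4) : E4 := ∑ c, ⟪J c u, v⟫ • J c w

/-- block `A` of the curvature tensor -/
def blk (J : Fin 3 → E4 →ₗ[ℝ] E4) (A : Matrix (Fin 3) (Fin 3) ℝ) (u v w : E4) : E4 :=
  ∑ c, ∑ d, (A c d * ⟪J d u, v⟫) • J c w

/-- curvature tensor with the blocks `A`, `C` -/
def RJK (A C : Matrix (Fin 3) (Fin 3) ℝ) (u v w : E4) : E4 :=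
  (-(1 / 2) : ℝ) • blk JJ A u v w + (-(1 / 2) : ℝ) • blk KK C u v w

theorem blk_scalar (J : Fin 3 → E4 →ₗ[ℝ] E4) (a : ℝ) (u v w : E4) :
    blk J (a • (1 : Matrix (Fin 3) (Fin 3) ℝ)) u v w = a • sg J u v w := by
  unfold blk sg
  rw [smul_sum]
  refine sum_congr rfl fun c _ => ?_
  have : ∀ d, ((a • (1 : Matrix (Fin 3) (Fin 3) ℝ)) c d * ⟪J d u, v⟫) • J c w
      = if d = c then (a * ⟪J c u, v⟫) • J c w else 0 := by
    intro d
    by_cases h : d = c
    · subst h; simp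
    · simp [Ne.symm h, h]
  rw [sum_congr rfl fun d _ => this d]
  simp [smul_smul]

theorem blk_rank1 (J : Fin 3 → E4 →ₗ[ℝ] E4) (a : ℝ) (α : Fin 3 → ℝ) (u v w : E4) :
    blk J (a • Matrix.vecMulVec α α) u v w = a • (⟪cs J α u, v⟫ • cs J α w) := by
  unfold blk
  rw [cs_apply, cs_apply, sum_inner, sum_smul_sum, smul_sum, sum_comm]
  refine sum_congr rfl fun d _ => ?_
  rw [smul_sum]
  refine sum_congr rfl fun c _ => ?_
  rw [real_inner_smul_left, smul_smul, smul_smul, Matrix.smul_apply, Matrix.vecMulVec_apply]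
  congr 1
  simp only [smul_eq_mul]
  ring

theorem sg_add (u v w : E4) :
    sg JJ u v w + sg KK u v w = (-2 : ℝ) • (⟪v, w⟫ • u - ⟪u, w⟫ • v) := by
  rw [← complete, sg, sg, sum_add_distrib]

/-- curvature tensor of the unit sphere -/
def T1 (u v w : E4) : E4 := ⟪v, w⟫ • u - ⟪u, w⟫ • v

/-- curvature tensor of the complex projective space with respect to a complex structure -/
def TC (J : E4 →ₗ[ℝ] E4) (u v w : E4) : E4 :=
  ⟪v, w⟫ • u - ⟪u, w⟫ • v + ⟪J v, w⟫ • J u - ⟪J u, w⟫ • J v + (2 * ⟪u, J v⟫) • J w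

/-- model `M1` -/
theorem RJK_M1 (a : ℝ) (u v w : E4) :
    RJK (a • (1 : Matrix (Fin 3) (Fin 3) ℝ)) (a • (1 : Matrix (Fin 3) (Fin 3) ℝ)) u v w
      = a • T1 u v w := by
  rw [RJK, blk_scalar, blk_scalar, ← smul_add, ← smul_add, sg_add, T1, smul_smul, smul_smul]
  congr 1
  ring

theorem sg_cs_same {J : Fin 3 → E4 →ₗ[ℝ] E4} (hJ : Cl J) {α : Fin 3 → ℝ} (h1 : ∑ c, α c ^ 2 = 1)
    (u v w : E4) : sg J (cs J α u) (cs J α v) w
      = (2 * ⟪cs J α u, v⟫) • cs J α w - sg J u v w := by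
  unfold sg
  have : ∀ c, ⟪J c (cs J α u), cs J α v⟫ • J c w
      = (2 * ⟪cs J α u, v⟫) • α c • J c w - ⟪J c u, v⟫ • J c w := by
    intro c
    rw [hJ.inner_cs h1, sub_smul, smul_smul]
    congr 2
    ring
  simp_rw [this, sum_sub_distrib]
  rw [← smul_sum, ← cs_apply]

theorem sg_cs_comm {J K : Fin 3 → E4 →ₗ[ℝ] E4} (hJ : Cl J) {α : Fin 3 → ℝ}
    (h1 : ∑ c, α c ^ 2 = 1) (hc : ∀ c u, K c (cs J α u) = cs J α (K c u)) (u v w : E4) :
    sg K (cs J α u) (cs J α v) w = sg K u v w := by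
  unfold sg
  refine sum_congr rfl fun c _ => ?_
  rw [hc, hJ.cs_iso h1]

theorem T1_add {J K : Fin 3 → E4 →ₗ[ℝ] E4} (hJ : Cl J) {α : Fin 3 → ℝ}
    (h1 : ∑ c, α c ^ 2 = 1) (hc : ∀ c u, K c (cs J α u) = cs J α (K c u))
    (hS : ∀ u v w, sg J u v w + sg K u v w = (-2 : ℝ) • (⟪v, w⟫ • u - ⟪u, w⟫ • v)) (u v w : E4) :
    TC (cs J α) u v w = (-3 : ℝ) • (⟪cs J α u, v⟫ • cs J α w) - sg K u v w := by
  have e1 : ⟪v, w⟫ • u - ⟪u, w⟫ • v = (-(1 / 2) : ℝ) • (sg J u v w + sg K u v w) := by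
    rw [hS, smul_smul]; norm_num
  have e2 : ⟪cs J α v, w⟫ • cs J α u - ⟪cs J α u, w⟫ • cs J α v
      = (-(1 / 2) : ℝ) • ((2 * ⟪cs J α u, v⟫) • cs J α w - sg J u v w + sg K u v w) := by
    have := hS (cs J α u) (cs J α v) w
    rw [sg_cs_same hJ h1, sg_cs_comm hJ h1 hc] at this
    rw [this, smul_smul]; norm_num
  have e3 : ⟪u, cs J α v⟫ = -⟪cs J α u, v⟫ := by rw [hJ.cs_skew, neg_neg]
  unfold TC
  rw [e3]
  have e4 : ⟪v, w⟫ • u - ⟪u, w⟫ • v + ⟪cs J α v, w⟫ • cs J α u - ⟪cs J α u, w⟫ • cs J α v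
      + (2 * -⟪cs J α u, v⟫) • cs J α w
      = (⟪v, w⟫ • u - ⟪u, w⟫ • v) + (⟪cs J α v, w⟫ • cs J α u - ⟪cs J α u, w⟫ • cs J α v)
        + (2 * -⟪cs J α u, v⟫) • cs J α w := by abel
  rw [e4, e1, e2]
  module

/-- model `M2` -/
theorem RJK_M2 {a : ℝ} {α : Fin 3 → ℝ} (h1 : ∑ c, α c ^ 2 = 1) (u v w : E4) :
    RJK (a • Matrix.vecMulVec α α) ((a / 3) • (1 : Matrix (Fin 3) (Fin 3) ℝ)) u v w
      = (a / 6) • TC (cs JJ α) u v w := by
  rw [RJK, blk_scalar, blk_rank1, T1_add cl_JJ h1 (KK_cs α) sg_add]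
  module

/-- model `M2`, other orientation -/
theorem RJK_M2' {a : ℝ} {α : Fin 3 → ℝ} (h1 : ∑ c, α c ^ 2 = 1) (u v w : E4) :
    RJK ((a / 3) • (1 : Matrix (Fin 3) (Fin 3) ℝ)) (a • Matrix.vecMulVec α α) u v w
      = (a / 6) • TC (cs KK α) u v w := by
  rw [RJK, blk_scalar, blk_rank1, T1_add cl_KK h1 (JJ_cs α)
    (fun u v w => by rw [add_comm]; exact sg_add u v w)]
  module

/-- model `M3` -/
theorem RJK_M3 {a : ℝ} {α γ : Fin 3 → ℝ} (u v w : E4) :
    RJK (a • Matrix.vecMulVec α α) (a • Matrix.vecMulVec γ γ) u v w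
      = (-(a / 2) : ℝ) • (⟪cs JJ α u, v⟫ • cs JJ α w + ⟪cs KK γ u, v⟫ • cs KK γ w) := by
  rw [RJK, blk_rank1, blk_rank1]
  module

/-! ### Adapted frames -/

/-- the linear map with `e_i ↦ b_i` -/
def fr (b : Fin 4 → E4) : E4 →L[ℝ] E4 :=
  LinearMap.toContinuousLinearMap
    { toFun := fun x => ∑ i, x i • b i
      map_add' := fun x y => by simp [add_smul, sum_add_distrib]
      map_smul' := fun c x => by simp [smul_sum, smul_smul] }

theorem fr_apply (b : Fin 4 → E4) (x : E4) : fr b x = ∑ i, x i • b i := rfl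

theorem fr_iso {b : Fin 4 → E4} (hb : Orthonormal ℝ b) (x y : E4) : ⟪fr b x, fr b y⟫ = ⟪x, y⟫ := by
  rw [fr_apply, fr_apply, hb.inner_sum]
  simp only [PiLp.inner_apply, RCLike.inner_apply, conj_trivial]
  exact sum_congr rfl fun i _ => mul_comm _ _

/-- standard complex structure `e0 ↦ e1`, `e2 ↦ e3` -/
def J0 : E4 →ₗ[ℝ] E4 := JJ 0

theorem J0_apply (u : E4) : J0 u = vec (-u 1) (u 0) (-u 3) (u 2) := rfl

theorem orthonormal4 {b : Fin 4 → E4} (h0 : ⟪b 0, b 0⟫ = 1) (h1 : ⟪b 1, b 1⟫ = 1)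
    (h2 : ⟪b 2, b 2⟫ = 1) (h3 : ⟪b 3, b 3⟫ = 1) (h01 : ⟪b 0, b 1⟫ = 0) (h02 : ⟪b 0, b 2⟫ = 0)
    (h03 : ⟪b 0, b 3⟫ = 0) (h12 : ⟪b 1, b 2⟫ = 0) (h13 : ⟪b 1, b 3⟫ = 0) (h23 : ⟪b 2, b 3⟫ = 0) :
    Orthonormal ℝ b := by
  rw [orthonormal_iff_ite]
  intro i j
  fin_cases i <;> fin_cases j
  · exact h0.trans (if_pos rfl).symm
  · exact h01.trans (if_neg (by decide)).symm
  · exact h02.trans (if_neg (by decide)).symm
  · exact h03.trans (if_neg (by decide)).symm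
  · exact ((real_inner_comm _ _).trans h01).trans (if_neg (by decide)).symm
  · exact h1.trans (if_pos rfl).symm
  · exact h12.trans (if_neg (by decide)).symm
  · exact h13.trans (if_neg (by decide)).symm
  · exact ((real_inner_comm _ _).trans h02).trans (if_neg (by decide)).symm
  · exact ((real_inner_comm _ _).trans h12).trans (if_neg (by decide)).symm
  · exact h2.trans (if_pos rfl).symm
  · exact h23.trans (if_neg (by decide)).symm
  · exact ((real_inner_comm _ _).trans h03).trans (if_neg (by decide)).symm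
  · exact ((real_inner_comm _ _).trans h13).trans (if_neg (by decide)).symm
  · exact ((real_inner_comm _ _).trans h23).trans (if_neg (by decide)).symm
  · exact h3.trans (if_pos rfl).symm

section adapted

variable {J : E4 →ₗ[ℝ] E4} (hs : ∀ u v, ⟪J u, v⟫ = -⟪u, J v⟫) (hq : ∀ u, J (J u) = -u)

include hs hq

theorem orth_adapted {u w : E4} (hu : ⟪u, u⟫ = 1) (hw : ⟪w, w⟫ = 1) (huw : ⟪u, w⟫ = 0)
    (hjw : ⟪J u, w⟫ = 0) : Orthonormal ℝ ![u, J u, w, J w] := by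
  have hi : ∀ x y, ⟪J x, J y⟫ = ⟪x, y⟫ := fun x y => by rw [hs, hq, inner_neg_right, neg_neg]
  have h0 : ∀ x, ⟪x, J x⟫ = 0 := fun x => by
    have h := hs x x
    rw [real_inner_comm] at h
    linarith
  have huj : ⟪u, J w⟫ = 0 := by
    have := hs u w
    rw [hjw] at this
    linarith
  exact orthonormal4 hu ((hi u u).trans hu) hw ((hi w w).trans hw) (h0 u) huw huj hjw
    ((hi u w).trans huw) (h0 w)

omit hs in
theorem fr_J (u w : E4) (x : E4) : J (fr ![u, J u, w, J w] x) = fr ![u, J u, w, J w] (J0 x) := by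
  rw [fr_apply, fr_apply, map_sum, Fin.sum_univ_four, Fin.sum_univ_four, J0_apply]
  simp [hq]
  module

/-- an isometry with `J ∘ O = O ∘ J0` -/
theorem exists_adapted : ∃ O : E4 →L[ℝ] E4, (∀ x y, ⟪O x, O y⟫ = ⟪x, y⟫) ∧
    ∀ x, J (O x) = O (J0 x) := by
  have hi : ∀ x y, ⟪J x, J y⟫ = ⟪x, y⟫ := fun x y => by rw [hs, hq, inner_neg_right, neg_neg]
  set u : E4 := vec 1 0 0 0 with hu
  have huu : ⟪u, u⟫ = 1 := by rw [inner4, hu]; simp
  obtain ⟨w, hw0, hw1, hw2⟩ : ∃ w : E4, w ≠ 0 ∧ ⟪u, w⟫ = 0 ∧ ⟪J u, w⟫ = 0 := by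
    have hne : (Submodule.span ℝ {u, J u})ᗮ ≠ ⊥ := by
      intro h
      have h1 := (Submodule.span ℝ {u, J u}).finrank_add_finrank_orthogonal
      rw [h, finrank_bot, add_zero, finrank_euclideanSpace_fin] at h1
      have h2 : Module.finrank ℝ (Submodule.span ℝ ({u, J u} : Set E4)) ≤ 2 := by
        refine (finrank_span_le_card _).trans ?_
        simpa using Finset.card_le_two
      omega
    obtain ⟨w, hw, hw0⟩ := Submodule.exists_mem_ne_zero_of_ne_bot hne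
    refine ⟨w, hw0, ?_, ?_⟩
    · exact (Submodule.mem_orthogonal _ _).1 hw u (Submodule.subset_span (by simp))
    · exact (Submodule.mem_orthogonal _ _).1 hw (J u) (Submodule.subset_span (by simp))
  have hn : 0 < ‖w‖ := norm_pos_iff.2 hw0
  have hw' : ⟪‖w‖⁻¹ • w, ‖w‖⁻¹ • w⟫ = 1 := by
    rw [real_inner_smul_left, real_inner_smul_right, real_inner_self_eq_norm_sq]
    field_simp
  refine ⟨fr ![u, J u, ‖w‖⁻¹ • w, J (‖w‖⁻¹ • w)], ?_, ?_⟩
  · refine fr_iso (orth_adapted hs hq huu hw' ?_ ?_)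
    · rw [real_inner_smul_right, hw1, mul_zero]
    · rw [real_inner_smul_right, hw2, mul_zero]
  · exact fr_J hq _ _

end adapted

theorem TC_map {J : E4 →ₗ[ℝ] E4} {O : E4 →L[ℝ] E4} (hO : ∀ x y, ⟪O x, O y⟫ = ⟪x, y⟫)
    (hJ : ∀ x, J (O x) = O (J0 x)) (u v w : E4) :
    TC J (O u) (O v) (O w) = O (TC J0 u v w) := by
  simp only [TC, hJ, hO, map_add, map_sub, map_smul]

/-- model `M2`: the frame -/
theorem frame_M2 {a : ℝ} {α : Fin 3 → ℝ} (h1 : ∑ c, α c ^ 2 = 1) :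
    ∃ O : E4 →L[ℝ] E4, (∀ x y, ⟪O x, O y⟫ = ⟪x, y⟫) ∧ ∀ u v w,
      RJK (a • Matrix.vecMulVec α α) ((a / 3) • (1 : Matrix (Fin 3) (Fin 3) ℝ)) (O u) (O v) (O w)
        = O ((a / 6) • TC J0 u v w) := by
  obtain ⟨O, hO, hJ⟩ := exists_adapted (cl_JJ.cs_skew α) (cl_JJ.cs_sq h1)
  exact ⟨O, hO, fun u v w => by rw [RJK_M2 h1, TC_map hO hJ, map_smul]⟩

/-- model `M2`, other orientation: the frame -/
theorem frame_M2' {a : ℝ} {α : Fin 3 → ℝ} (h1 : ∑ c, α c ^ 2 = 1) :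
    ∃ O : E4 →L[ℝ] E4, (∀ x y, ⟪O x, O y⟫ = ⟪x, y⟫) ∧ ∀ u v w,
      RJK ((a / 3) • (1 : Matrix (Fin 3) (Fin 3) ℝ)) (a • Matrix.vecMulVec α α) (O u) (O v) (O w)
        = O ((a / 6) • TC J0 u v w) := by
  obtain ⟨O, hO, hJ⟩ := exists_adapted (cl_KK.cs_skew α) (cl_KK.cs_sq h1)
  exact ⟨O, hO, fun u v w => by rw [RJK_M2' h1, TC_map hO hJ, map_smul]⟩

/-! ### The product model -/

open Crest.Agent.R249.MdlP_850 (p1 p2 jj)

/-- curvature of the product of two unit spheres, in the shape of `MdlP_850.sq` -/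
def TS (u v w : E4) : E4 :=
  (jj (a := 2) (b := 2)
    (⟪p1 2 2 v, p1 2 2 w⟫ • p1 2 2 u - ⟪p1 2 2 u, p1 2 2 w⟫ • p1 2 2 v)
    (⟪p2 2 2 v, p2 2 2 w⟫ • p2 2 2 u - ⟪p2 2 2 u, p2 2 2 w⟫ • p2 2 2 v) :
      EuclideanSpace ℝ (Fin (2 + 2)))

theorem TS_eq (u v w : E4) : TS u v w = vec
    ((v 0 * w 0 + v 1 * w 1) * u 0 - (u 0 * w 0 + u 1 * w 1) * v 0)
    ((v 0 * w 0 + v 1 * w 1) * u 1 - (u 0 * w 0 + u 1 * w 1) * v 1)
    ((v 2 * w 2 + v 3 * w 3) * u 2 - (u 2 * w 2 + u 3 * w 3) * v 2)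
    ((v 2 * w 2 + v 3 * w 3) * u 3 - (u 2 * w 2 + u 3 * w 3) * v 3) := by
  have i1 : ∀ x y : E4, ⟪p1 2 2 x, p1 2 2 y⟫ = x 0 * y 0 + x 1 * y 1 := by
    intro x y
    simp only [PiLp.inner_apply, Fin.sum_univ_two, RCLike.inner_apply, conj_trivial]
    show y 0 * x 0 + y 1 * x 1 = _
    ring
  have i2 : ∀ x y : E4, ⟪p2 2 2 x, p2 2 2 y⟫ = x 2 * y 2 + x 3 * y 3 := by
    intro x y
    simp only [PiLp.inner_apply, Fin.sum_univ_two, RCLike.inner_apply, conj_trivial]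
    show y 2 * x 2 + y 3 * x 3 = _
    ring
  refine MdlP_850.ext12 (a := 2) (b := 2) ?_ ?_
  · rw [TS, MdlP_850.p1_jj, i1, i1]
    ext i
    fin_cases i <;> simp <;> rfl
  · rw [TS, MdlP_850.p2_jj, i2, i2]
    ext i
    fin_cases i <;> simp <;> rfl

/-- the second complex structure in an adapted frame -/
def K0 : E4 →ₗ[ℝ] E4 := -KK 0

theorem K0_apply (u : E4) : K0 u = vec (u 1) (-u 0) (-u 3) (u 2) := by
  apply ext4 <;> simp [K0]

theorem TS_eq' (u v w : E4) :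
    (-(1 / 2) : ℝ) • (⟪J0 u, v⟫ • J0 w + ⟪K0 u, v⟫ • K0 w) = TS u v w := by
  rw [TS_eq]
  apply ext4 <;> simp [J0_apply, K0_apply, inner4] <;> ring

/-- trace of `J_α K_γ` vanishes -/
theorem trace_JK (α γ : Fin 3 → ℝ) :
    ⟪vec 1 0 0 0, cs JJ α (cs KK γ (vec 1 0 0 0))⟫ + ⟪vec 0 1 0 0, cs JJ α (cs KK γ (vec 0 1 0 0))⟫
    + ⟪vec 0 0 1 0, cs JJ α (cs KK γ (vec 0 0 1 0))⟫
    + ⟪vec 0 0 0 1, cs JJ α (cs KK γ (vec 0 0 0 1))⟫ = 0 := by
  simp only [cs_apply, Fin.sum_univ_three, map_add, map_smul]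
  simp [inner4]
  ring

/-- model `M3`: the frame -/
theorem frame_M3 {a : ℝ} {α γ : Fin 3 → ℝ} (h1 : ∑ c, α c ^ 2 = 1) (h2 : ∑ c, γ c ^ 2 = 1) :
    ∃ O : E4 →L[ℝ] E4, (∀ x y, ⟪O x, O y⟫ = ⟪x, y⟫) ∧ ∀ u v w,
      RJK (a • Matrix.vecMulVec α α) (a • Matrix.vecMulVec γ γ) (O u) (O v) (O w)
        = O (a • TS u v w) := by
  set J := cs JJ α with hJ
  set K := cs KK γ with hK
  have Js := cl_JJ.cs_skew α
  have Jq := cl_JJ.cs_sq h1
  have Ks := cl_KK.cs_skew γ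
  have Kq := cl_KK.cs_sq h2
  rw [← hJ] at Js Jq
  rw [← hK] at Ks Kq
  have hc : ∀ u, J (K u) = K (J u) := comm_cs α γ
  -- the involution
  have Ssymm : ∀ u v, ⟪J (K u), v⟫ = ⟪u, J (K v)⟫ := fun u v => by
    rw [Js, Ks, neg_neg, hc]
  have Sinv : ∀ u, J (K (J (K u))) = u := fun u => by
    rw [← hc (K u), Kq, map_neg, map_neg, Jq, neg_neg]
  -- existence of eigenvectors
  have key : ∀ e : E4, ⟪e, e⟫ = 1 → ∀ s : ℝ, s ^ 2 = 1 → s * ⟪e, J (K e)⟫ ≠ -1 →
      ∃ u : E4, ⟪u, u⟫ = 1 ∧ K u = -(s • J u) := by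
    intro e he s hs hne
    set u' : E4 := e + s • J (K e) with hu'
    have hSu : J (K u') = s • u' := by
      rw [hu', map_add, map_smul, map_add, map_smul, Sinv, smul_add, smul_smul]
      rw [show s * s = 1 by rw [← sq, hs], one_smul]
      abel
    have hnn : u' ≠ 0 := by
      intro h0
      have h3 : ⟪e, u'⟫ = 0 := by rw [h0, inner_zero_right]
      rw [hu', inner_add_right, he, real_inner_smul_right] at h3
      exact hne (by linarith)
    have hn : 0 < ‖u'‖ := norm_pos_iff.2 hnn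
    refine ⟨‖u'‖⁻¹ • u', ?_, ?_⟩
    · rw [real_inner_smul_left, real_inner_smul_right, real_inner_self_eq_norm_sq]
      field_simp
    · have h4 : K u' = -(s • J u') := by
        have h5 := congrArg J hSu
        rw [Jq, map_smul] at h5
        rw [← h5, neg_neg]
      rw [map_smul, h4, map_smul, smul_neg, smul_comm]
  have tr := trace_JK α γ
  rw [← hJ, ← hK] at tr
  have e0 : ⟪vec 1 0 0 0, vec 1 0 0 0⟫ = (1 : ℝ) := by rw [inner4]; simp
  have e1 : ⟪vec 0 1 0 0, vec 0 1 0 0⟫ = (1 : ℝ) := by rw [inner4]; simp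
  have e2 : ⟪vec 0 0 1 0, vec 0 0 1 0⟫ = (1 : ℝ) := by rw [inner4]; simp
  have e3 : ⟪vec 0 0 0 1, vec 0 0 0 1⟫ = (1 : ℝ) := by rw [inner4]; simp
  have hex : ∀ s : ℝ, s ^ 2 = 1 → ∃ u : E4, ⟪u, u⟫ = 1 ∧ K u = -(s • J u) := by
    intro s hs
    by_contra hcon
    have f0 : s * ⟪vec 1 0 0 0, J (K (vec 1 0 0 0))⟫ = -1 := by
      by_contra h; exact hcon (key _ e0 s hs h)
    have f1 : s * ⟪vec 0 1 0 0, J (K (vec 0 1 0 0))⟫ = -1 := by
      by_contra h; exact hcon (key _ e1 s hs h)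
    have f2 : s * ⟪vec 0 0 1 0, J (K (vec 0 0 1 0))⟫ = -1 := by
      by_contra h; exact hcon (key _ e2 s hs h)
    have f3 : s * ⟪vec 0 0 0 1, J (K (vec 0 0 0 1))⟫ = -1 := by
      by_contra h; exact hcon (key _ e3 s hs h)
    have : s * 0 = -4 := by rw [← tr]; linarith
    norm_num at this
  obtain ⟨u, hu1, hu2⟩ := hex 1 (by norm_num)
  obtain ⟨w, hw1, hw2⟩ := hex (-1) (by norm_num)
  rw [one_smul] at hu2
  rw [neg_smul, one_smul, neg_neg] at hw2
  have hSu : J (K u) = u := by rw [hu2, map_neg, Jq, neg_neg]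
  have hSw : J (K w) = -w := by rw [hw2, Jq]
  have huw : ⟪u, w⟫ = 0 := by
    have := Ssymm u w
    rw [hSu, hSw, inner_neg_right] at this
    linarith
  have hjw : ⟪J u, w⟫ = 0 := by
    have h5 : J (K (J u)) = J u := by rw [← hc, hSu]
    have := Ssymm (J u) w
    rw [h5, hSw, inner_neg_right] at this
    linarith
  set O := fr ![u, J u, w, J w] with hO
  have hiso : ∀ x y, ⟪O x, O y⟫ = ⟪x, y⟫ := fr_iso (orth_adapted Js Jq hu1 hw1 huw hjw)
  have hJO : ∀ x, J (O x) = O (J0 x) := fr_J Jq u w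
  have hKO : ∀ x, K (O x) = O (K0 x) := by
    intro x
    have k1 : K (J u) = u := by rw [← hc, hSu]
    have k2 : K (J w) = -w := by rw [← hc, hSw]
    rw [hO, fr_apply, fr_apply, map_sum, Fin.sum_univ_four, Fin.sum_univ_four, K0_apply]
    simp [k1, k2, hu2, hw2]
    module
  refine ⟨O, hiso, fun x y z => ?_⟩
  rw [RJK_M3, ← hJ, ← hK, hJO, hJO, hKO, hKO, hiso, hiso, ← TS_eq']
  simp only [map_smul, map_add]
  module

/-! ### Spectral form of the hypotheses -/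

theorem tr_zero {B : Matrix (Fin 3) (Fin 3) ℝ} (h : (B.transpose * B).trace = 0) : B = 0 := by
  rw [Matrix.trace] at h
  simp only [Matrix.diag_apply, Matrix.mul_apply, Matrix.transpose_apply] at h
  have h1 := (sum_eq_zero_iff_of_nonneg (fun i _ => sum_nonneg fun j _ => mul_self_nonneg _)).1 h
  ext i j
  have h2 := (sum_eq_zero_iff_of_nonneg (fun k _ => mul_self_nonneg (B k j))).1
    (h1 j (mem_univ _)) i (mem_univ _)
  exact mul_self_eq_zero.1 h2

/-- a symmetric `3 × 3` matrix with `A² = λ A`, `tr A = λ ≠ 0` is `λ α αᵀ`, `|α| = 1` -/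
theorem rank_one {A : Matrix (Fin 3) (Fin 3) ℝ} {l : ℝ} (hl : l ≠ 0) (hA : A.IsSymm)
    (hq : A * A = l • A) (ht : A.trace = l) :
    ∃ α : Fin 3 → ℝ, ∑ c, α c ^ 2 = 1 ∧ A = l • Matrix.vecMulVec α α := by
  -- a nonzero column
  obtain ⟨j, hj⟩ : ∃ j, A.col j ≠ 0 := by
    by_contra h
    push Not at h
    have : A = 0 := by
      ext i j
      exact congrFun (h j) i
    rw [this, Matrix.trace_zero] at ht
    exact hl ht.symm
  set v : Fin 3 → ℝ := A.col j with hv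
  have hvv : 0 < v ⬝ᵥ v := by
    have h0 : 0 ≤ v ⬝ᵥ v := by
      rw [dotProduct]
      exact sum_nonneg fun i _ => mul_self_nonneg _
    rcases h0.eq_or_lt with h | h
    · exact absurd (dotProduct_self_eq_zero.1 h.symm) hj
    · exact h
  have hAv : A.mulVec v = l • v := by
    have := congrArg (fun M : Matrix (Fin 3) (Fin 3) ℝ => M.col j) hq
    ext i
    have h1 := congrFun this i
    simpa [Matrix.col, Matrix.mul_apply, Matrix.mulVec, dotProduct, hv] using h1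
  set r : ℝ := √(v ⬝ᵥ v) with hr
  have hr0 : 0 < r := Real.sqrt_pos.2 hvv
  have hr2 : r * r = v ⬝ᵥ v := Real.mul_self_sqrt hvv.le
  set α : Fin 3 → ℝ := r⁻¹ • v with hα
  have hα1 : α ⬝ᵥ α = 1 := by
    rw [hα, smul_dotProduct, dotProduct_smul, ← hr2]
    simp only [smul_eq_mul]
    field_simp
  have hAα : A.mulVec α = l • α := by
    rw [hα, Matrix.mulVec_smul, hAv, smul_comm]
  set P := Matrix.vecMulVec α α with hP
  have hPP : P * P = P := by
    rw [hP, Matrix.vecMulVec_mul_vecMulVec, hα1]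
    simp
  have hAP : A * P = l • P := by
    rw [hP, Matrix.mul_vecMulVec, hAα, Matrix.smul_vecMulVec]
  have hPs : P.IsSymm := by
    ext i j
    simp [hP, Matrix.vecMulVec_apply, mul_comm]
  have hPA : P * A = l • P := by
    have := congrArg Matrix.transpose hAP
    rwa [Matrix.transpose_mul, Matrix.transpose_smul, hA.eq, hPs.eq] at this
  refine ⟨α, ?_, ?_⟩
  · rw [← hα1, dotProduct]
    exact sum_congr rfl fun c _ => sq _
  · set B := A - l • P with hB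
    have hBs : B.IsSymm := by
      rw [hB]
      exact hA.sub (hPs.smul l)
    have hBB : B * B = l • B := by
      rw [hB, sub_mul, mul_sub, mul_sub, hq, smul_mul_assoc, smul_mul_assoc, mul_smul_comm,
        mul_smul_comm, hAP, hPA, hPP, smul_sub]
      abel
    have htB : B.trace = 0 := by
      rw [hB, Matrix.trace_sub, Matrix.trace_smul, ht, hP, Matrix.trace_vecMulVec, hα1]
      simp
    have h2 : (B * B).trace = 0 := by rw [hBB, Matrix.trace_smul, htB, smul_zero]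
    have h3 : B = 0 := by
      have h4 : (B.transpose * B).trace = 0 := by rw [hBs.eq]; exact h2
      exact tr_zero h4
    have h5 := sub_eq_zero.1 h3
    exact h5

/-- a symmetric `3 × 3` matrix with `tr A = λ`, `|A|² = λ²`, `det A = 0` has `A² = λ A` -/
theorem sq_eq {A : Matrix (Fin 3) (Fin 3) ℝ} {l : ℝ} (hA : A.IsSymm) (ht : A.trace = l)
    (hn : ∑ i, ∑ j, A i j ^ 2 = l ^ 2) (hd : A.det = 0) : A * A = l • A := by
  have s10 : A 1 0 = A 0 1 := hA.apply 0 1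
  have s20 : A 2 0 = A 0 2 := hA.apply 0 2
  have s21 : A 2 1 = A 1 2 := hA.apply 1 2
  have ht' : A 0 0 + A 1 1 + A 2 2 = l := by
    rw [← ht, Matrix.trace, Fin.sum_univ_three]
    rfl
  rw [Matrix.det_fin_three, s10, s20, s21] at hd
  simp only [Fin.sum_univ_three, s10, s20, s21] at hn
  -- `A² - l A` is the adjugate; the sum of the squares of its entries is `e₂² - 2 tr A det A = 0`
  set a := A 0 0
  set b := A 1 1
  set c := A 2 2
  set p := A 0 1
  set q := A 0 2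
  set t := A 1 2
  have e2 : a * b + b * c + a * c - p ^ 2 - q ^ 2 - t ^ 2 = 0 := by
    rw [← ht'] at hn
    linarith
  have k1 : a * a + p * p + q * q - l * a = b * c - t ^ 2 := by
    rw [← ht']; linear_combination -e2
  have k2 : p * p + b * b + t * t - l * b = a * c - q ^ 2 := by
    rw [← ht']; linear_combination -e2
  have k3 : q * q + t * t + c * c - l * c = a * b - p ^ 2 := by
    rw [← ht']; linear_combination -e2
  have k4 : a * p + p * b + q * t - l * p = -(p * c - q * t) := by rw [← ht']; ring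
  have k5 : a * q + p * t + q * c - l * q = -(b * q - p * t) := by rw [← ht']; ring
  have k6 : p * q + b * t + t * c - l * t = -(a * t - p * q) := by rw [← ht']; ring
  have h : (b * c - t ^ 2) ^ 2 + (a * c - q ^ 2) ^ 2 + (a * b - p ^ 2) ^ 2
      + 2 * (p * c - q * t) ^ 2 + 2 * (b * q - p * t) ^ 2 + 2 * (a * t - p * q) ^ 2 = 0 := by
    linear_combination (a * b + b * c + a * c - p ^ 2 - q ^ 2 - t ^ 2) * e2
      - 2 * (a + b + c) * hd
  have g1 := sq_nonneg (b * c - t ^ 2)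
  have g2 := sq_nonneg (a * c - q ^ 2)
  have g3 := sq_nonneg (a * b - p ^ 2)
  have g4 := sq_nonneg (p * c - q * t)
  have g5 := sq_nonneg (b * q - p * t)
  have g6 := sq_nonneg (a * t - p * q)
  have z1 : b * c - t ^ 2 = 0 := pow_eq_zero_iff (two_ne_zero) |>.1 (by linarith)
  have z2 : a * c - q ^ 2 = 0 := pow_eq_zero_iff (two_ne_zero) |>.1 (by linarith)
  have z3 : a * b - p ^ 2 = 0 := pow_eq_zero_iff (two_ne_zero) |>.1 (by linarith)
  have z4 : p * c - q * t = 0 := pow_eq_zero_iff (two_ne_zero) |>.1 (by linarith)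
  have z5 : b * q - p * t = 0 := pow_eq_zero_iff (two_ne_zero) |>.1 (by linarith)
  have z6 : a * t - p * q = 0 := pow_eq_zero_iff (two_ne_zero) |>.1 (by linarith)
  ext i j
  rw [Matrix.mul_apply, Fin.sum_univ_three, Matrix.smul_apply, smul_eq_mul]
  fin_cases i <;> fin_cases j
  · change a * a + p * A 1 0 + q * A 2 0 = l * a
    rw [s10, s20]; linarith
  · change a * p + p * b + q * A 2 1 = l * p
    rw [s21]; linarith
  · change a * q + p * t + q * c = l * q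
    linarith
  · change A 1 0 * a + b * A 1 0 + t * A 2 0 = l * A 1 0
    rw [s10, s20]; linarith
  · change A 1 0 * p + b * b + t * A 2 1 = l * b
    rw [s10, s21]; linarith
  · change A 1 0 * q + b * t + t * c = l * t
    rw [s10]; linarith
  · change A 2 0 * a + A 2 1 * A 1 0 + c * A 2 0 = l * A 2 0
    rw [s10, s20, s21]; linarith
  · change A 2 0 * p + A 2 1 * b + c * A 2 1 = l * A 2 1
    rw [s20, s21]; linarith
  · change A 2 0 * q + A 2 1 * t + c * c = l * c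
    rw [s20, s21]; linarith

/-! ### Four index form -/

/-- coefficients of the self-dual 2-forms `e01 + e23`, `e02 - e13`, `e03 + e12` -/
def om (c : Fin 3) (i j : Fin 4) : ℝ := (JJ c (EuclideanSpace.single i 1)) j

/-- coefficients of the anti-self-dual 2-forms -/
def omf (c : Fin 3) (i j : Fin 4) : ℝ := (KK c (EuclideanSpace.single i 1)) j

/-- the curvature tensor as a trilinear map -/
def RV (Rm : Fin 4 → Fin 4 → Fin 4 → Fin 4 → ℝ) (u v w : E4) : E4 :=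
  WithLp.toLp 2 (fun l => ∑ i, ∑ j, ∑ k, Rm i j k l * (u i * v j * w k))

theorem JJ_om (c : Fin 3) (u : E4) (j : Fin 4) : (JJ c u) j = ∑ i, om c i j * u i := by
  rw [Fin.sum_univ_four]
  fin_cases c <;> fin_cases j <;> simp [om]

theorem KK_omf (c : Fin 3) (u : E4) (j : Fin 4) : (KK c u) j = ∑ i, omf c i j * u i := by
  rw [Fin.sum_univ_four]
  fin_cases c <;> fin_cases j <;> simp [omf]

theorem inner_JJ (c : Fin 3) (u v : E4) : ⟪JJ c u, v⟫ = ∑ i, ∑ j, om c i j * (u i * v j) := by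
  simp only [PiLp.inner_apply, RCLike.inner_apply, conj_trivial, JJ_om, mul_sum]
  rw [sum_comm]
  exact sum_congr rfl fun i _ => sum_congr rfl fun j _ => by ring

theorem inner_KK (c : Fin 3) (u v : E4) : ⟪KK c u, v⟫ = ∑ i, ∑ j, omf c i j * (u i * v j) := by
  simp only [PiLp.inner_apply, RCLike.inner_apply, conj_trivial, KK_omf, mul_sum]
  rw [sum_comm]
  exact sum_congr rfl fun i _ => sum_congr rfl fun j _ => by ring

theorem RV_eq {Rm : Fin 4 → Fin 4 → Fin 4 → Fin 4 → ℝ} {A C : Matrix (Fin 3) (Fin 3) ℝ}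
    (h : ∀ i j k l, Rm i j k l = -(1 / 2) * ∑ c, ∑ d, A c d * om d i j * om c k l
      - (1 / 2) * ∑ c, ∑ d, C c d * omf d i j * omf c k l) (u v w : E4) :
    RV Rm u v w = RJK A C u v w := by
  ext l
  have h1 : (RV Rm u v w) l = ∑ i, ∑ j, ∑ k, Rm i j k l * (u i * v j * w k) := rfl
  have h2 : ∀ (J : Fin 3 → E4 →ₗ[ℝ] E4) (B : Matrix (Fin 3) (Fin 3) ℝ),
      (blk J B u v w) l = ∑ c, ∑ d, B c d * ⟪J d u, v⟫ * (J c w) l := by
    intro J B
    rw [blk, WithLp.ofLp_sum, Finset.sum_apply]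
    refine sum_congr rfl fun c _ => ?_
    rw [WithLp.ofLp_sum, Finset.sum_apply]
    exact sum_congr rfl fun d _ => rfl
  have h3 : (RJK A C u v w) l = -(1 / 2) * (blk JJ A u v w) l + -(1 / 2) * (blk KK C u v w) l := rfl
  rw [h1, h3, h2, h2]
  simp only [inner_JJ, inner_KK, JJ_om, KK_omf, h]
  simp only [Fin.sum_univ_three, Fin.sum_univ_four]
  ring

/-- values of the self-dual forms -/
theorem om_val : (om 0 0 1 = 1 ∧ om 0 2 3 = 1 ∧ om 0 0 2 = 0 ∧ om 0 0 3 = 0 ∧ om 0 1 2 = 0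
    ∧ om 0 1 3 = 0) ∧ (om 1 0 2 = 1 ∧ om 1 1 3 = -1 ∧ om 1 0 1 = 0 ∧ om 1 0 3 = 0 ∧ om 1 1 2 = 0
    ∧ om 1 2 3 = 0) ∧ (om 2 0 3 = 1 ∧ om 2 1 2 = 1 ∧ om 2 0 1 = 0 ∧ om 2 0 2 = 0 ∧ om 2 1 3 = 0
    ∧ om 2 2 3 = 0) := by
  simp [om]

/-- values of the anti-self-dual forms -/
theorem omf_val : (omf 0 0 1 = 1 ∧ omf 0 2 3 = -1 ∧ omf 0 0 2 = 0 ∧ omf 0 0 3 = 0 ∧ omf 0 1 2 = 0
    ∧ omf 0 1 3 = 0) ∧ (omf 1 0 2 = 1 ∧ omf 1 1 3 = 1 ∧ omf 1 0 1 = 0 ∧ omf 1 0 3 = 0
    ∧ omf 1 1 2 = 0 ∧ omf 1 2 3 = 0) ∧ (omf 2 0 3 = -1 ∧ omf 2 1 2 = 1 ∧ omf 2 0 1 = 0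
    ∧ omf 2 0 2 = 0 ∧ omf 2 1 3 = 0 ∧ omf 2 2 3 = 0) := by
  simp [omf]

theorem om_anti (c : Fin 3) (i j : Fin 4) : om c i j = -om c j i := by
  fin_cases c <;> fin_cases i <;> fin_cases j <;> simp [om]

theorem omf_anti (c : Fin 3) (i j : Fin 4) : omf c i j = -omf c j i := by
  fin_cases c <;> fin_cases i <;> fin_cases j <;> simp [omf]

/-- The four index curvature from its blocks (shape of `FrD_129.PP_eq`). -/
theorem Rm_of_blocks {Rm : Fin 4 → Fin 4 → Fin 4 → Fin 4 → ℝ} {A C : Matrix (Fin 3) (Fin 3) ℝ}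
    (h34 : ∀ i j k l, Rm i j k l = -Rm i j l k)
    (hP0 : ∀ i j, Rm i j 0 1 + Rm i j 2 3 = -∑ d, A 0 d * om d i j)
    (hP1 : ∀ i j, Rm i j 0 2 - Rm i j 1 3 = -∑ d, A 1 d * om d i j)
    (hP2 : ∀ i j, Rm i j 0 3 + Rm i j 1 2 = -∑ d, A 2 d * om d i j)
    (hM0 : ∀ i j, Rm i j 0 1 - Rm i j 2 3 = -∑ d, C 0 d * omf d i j)
    (hM1 : ∀ i j, Rm i j 0 2 + Rm i j 1 3 = -∑ d, C 1 d * omf d i j)
    (hM2 : ∀ i j, -Rm i j 0 3 + Rm i j 1 2 = -∑ d, C 2 d * omf d i j) (i j k l : Fin 4) :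
    Rm i j k l = -(1 / 2) * ∑ c, ∑ d, A c d * om d i j * om c k l
      - (1 / 2) * ∑ c, ∑ d, C c d * omf d i j * omf c k l := by
  have p0 := hP0 i j
  have p1 := hP1 i j
  have p2 := hP2 i j
  have m0 := hM0 i j
  have m1 := hM1 i j
  have m2 := hM2 i j
  have hd : ∀ k, Rm i j k k = 0 := fun k => by have := h34 i j k k; linarith
  -- reduction to `k < l`
  have red : ∀ k l, Rm i j k l = -(1 / 2) * ∑ c, ∑ d, A c d * om d i j * om c k l
      - (1 / 2) * ∑ c, ∑ d, C c d * omf d i j * omf c k l →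
      Rm i j l k = -(1 / 2) * ∑ c, ∑ d, A c d * om d i j * om c l k
      - (1 / 2) * ∑ c, ∑ d, C c d * omf d i j * omf c l k := by
    intro k l h
    rw [h34, h]
    simp only [om_anti _ l k, omf_anti _ l k, mul_neg, sum_neg_distrib]
    ring
  obtain ⟨⟨a1, a2, a3, a4, a5, a6⟩, ⟨b1, b2, b3, b4, b5, b6⟩, ⟨c1, c2, c3, c4, c5, c6⟩⟩ := om_val
  obtain ⟨⟨a1', a2', a3', a4', a5', a6'⟩, ⟨b1', b2', b3', b4', b5', b6'⟩,
    ⟨c1', c2', c3', c4', c5', c6'⟩⟩ := omf_val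
  rw [Fin.sum_univ_three] at p0 p1 p2 m0 m1 m2
  have r01 : Rm i j 0 1 = -(1 / 2) * ∑ c, ∑ d, A c d * om d i j * om c 0 1
      - (1 / 2) * ∑ c, ∑ d, C c d * omf d i j * omf c 0 1 := by
    simp only [Fin.sum_univ_three, a1, b3, c3, a1', b3', c3']; linarith
  have r23 : Rm i j 2 3 = -(1 / 2) * ∑ c, ∑ d, A c d * om d i j * om c 2 3
      - (1 / 2) * ∑ c, ∑ d, C c d * omf d i j * omf c 2 3 := by
    simp only [Fin.sum_univ_three, a2, b6, c6, a2', b6', c6']; linarith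
  have r02 : Rm i j 0 2 = -(1 / 2) * ∑ c, ∑ d, A c d * om d i j * om c 0 2
      - (1 / 2) * ∑ c, ∑ d, C c d * omf d i j * omf c 0 2 := by
    simp only [Fin.sum_univ_three, a3, b1, c4, a3', b1', c4']; linarith
  have r13 : Rm i j 1 3 = -(1 / 2) * ∑ c, ∑ d, A c d * om d i j * om c 1 3
      - (1 / 2) * ∑ c, ∑ d, C c d * omf d i j * omf c 1 3 := by
    simp only [Fin.sum_univ_three, a6, b2, c5, a6', b2', c5']; linarith
  have r03 : Rm i j 0 3 = -(1 / 2) * ∑ c, ∑ d, A c d * om d i j * om c 0 3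
      - (1 / 2) * ∑ c, ∑ d, C c d * omf d i j * omf c 0 3 := by
    simp only [Fin.sum_univ_three, a4, b4, c1, a4', b4', c1']; linarith
  have r12 : Rm i j 1 2 = -(1 / 2) * ∑ c, ∑ d, A c d * om d i j * om c 1 2
      - (1 / 2) * ∑ c, ∑ d, C c d * omf d i j * omf c 1 2 := by
    simp only [Fin.sum_univ_three, a5, b5, c2, a5', b5', c2']; linarith
  have rd : ∀ k, Rm i j k k = -(1 / 2) * ∑ c, ∑ d, A c d * om d i j * om c k k
      - (1 / 2) * ∑ c, ∑ d, C c d * omf d i j * omf c k k := by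
    intro k
    have z1 : ∀ c, om c k k = 0 := fun c => by have := om_anti c k k; linarith
    have z2 : ∀ c, omf c k k = 0 := fun c => by have := omf_anti c k k; linarith
    simp [hd, z1, z2]
  fin_cases k <;> fin_cases l
  · exact rd 0
  · exact r01
  · exact r02
  · exact r03
  · exact red _ _ r01
  · exact rd 1
  · exact r12
  · exact r13
  · exact red _ _ r02
  · exact red _ _ r12
  · exact rd 2
  · exact r23
  · exact red _ _ r03
  · exact red _ _ r13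
  · exact red _ _ r23
  · exact rd 3

end Crest.Agent.R249.Ptw_850
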