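import Crest.Prelude.Def_ChartCurvature
import Crest.Prelude.Def_RicciEnergy

/-!
# Row 249, leaf D6-PUL, part 1 (helper47): a manifold with a new Riemannian metric

`M` a connected T3 smooth `n`-manifold, `g : Met n M` a smooth Riemannian metric on it
(`ContMDiffRiemannianMetric`). `MG g` is the type `M` with the Riemannian distance of `g`, the same
topology and charts, and all the instances of the templates of row 249.
-/

set_option autoImplicit false
set_option linter.style.haveILetI false

noncomputable section

open Bundle Set Metric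
open scoped Manifold ContDiff Bundle ENNReal Topology

namespace Crest.Agent.R249.Pul47

/-- smooth Riemannian metrics on `M` -/
abbrev Met (n : ℕ) (M : Type*) [TopologicalSpace M] [ChartedSpace (EuclideanSpace ℝ (Fin n)) M]
    [IsManifold (𝓡 n) ∞ M] : Type _ :=
  Bundle.ContMDiffRiemannianMetric (𝓡 n) ∞ (EuclideanSpace ℝ (Fin n))
    (fun x : M => TangentSpace (𝓡 n) x)

section

variable {n : ℕ} {M : Type*} [TM : TopologicalSpace M] [CM : ChartedSpace (EuclideanSpace ℝ (Fin n)) M]
  [IM : IsManifold (𝓡 n) ∞ M]

/-- `M` with the Riemannian distance of `g` -/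
def MG (_g : Met n M) : Type _ := M

/-- the topology of `M` -/
@[reducible] def top (g : Met n M) : TopologicalSpace (MG g) := TM

/-- the charts of `M` -/
@[reducible] def chs (g : Met n M) : letI := top g; ChartedSpace (EuclideanSpace ℝ (Fin n)) (MG g) := CM

theorem mfd (g : Met n M) : letI := top g; letI := chs g; IsManifold (𝓡 n) ∞ (MG g) := IM

/-- the inner products of `g` -/
@[reducible] def rb (g : Met n M) : letI := top g; letI := chs g;
    RiemannianBundle (fun p : MG g => TangentSpace (𝓡 n) p) :=
  letI := top g; letI := chs g; ⟨g.toRiemannianMetric⟩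

theorem crb (g : Met n M) : letI := top g; letI := chs g; letI := mfd g; letI := rb g;
    IsContMDiffRiemannianBundle (𝓡 n) ∞ (EuclideanSpace ℝ (Fin n))
    (fun p : MG g => TangentSpace (𝓡 n) p) :=
  letI := top g; letI := chs g; letI := mfd g; letI := rb g;
  ⟨g.inner, g.contMDiff, fun _ _ _ => rfl⟩

theorem cob (g : Met n M) : letI := top g; letI := chs g; letI := mfd g; letI := rb g;
    IsContinuousRiemannianBundle (EuclideanSpace ℝ (Fin n))
    (fun p : MG g => TangentSpace (𝓡 n) p) :=
  letI := top g; letI := chs g; letI := mfd g; letI := rb g;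
  ⟨g.inner, g.contMDiff.continuous, fun _ _ _ => rfl⟩

/-- the Riemannian distance, extended version, with the given topology -/
@[reducible] def ems [T3Space M] (g : Met n M) : EMetricSpace (MG g) :=
  letI := top g; letI := chs g; letI := mfd g; letI := rb g; letI := crb g
  letI : T3Space (MG g) := inferInstanceAs (T3Space M)
  letI := cob g
  EMetricSpace.ofRiemannianMetric (𝓡 n) (MG g)

/-- the Riemannian distance is finite -/
theorem edist_ne_top [T3Space M] [ConnectedSpace M] (g : Met n M) (x y : MG g) :
    (ems g).edist x y ≠ ⊤ := by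
  letI := ems g
  letI : ConnectedSpace (MG g) := inferInstanceAs (ConnectedSpace M)
  have h1 : IsOpen {z : MG g | edist x z < ⊤} := by
    rw [isOpen_iff_mem_nhds]
    intro z hz
    refine Filter.mem_of_superset (Metric.eball_mem_nhds z (ε := 1) one_pos) ?_
    intro w hw
    have hw' : edist w z < 1 := hw
    have h2 : edist x w ≤ edist x z + edist z w := edist_triangle _ _ _
    refine lt_of_le_of_lt h2 (ENNReal.add_lt_top.2 ⟨hz, ?_⟩)
    rw [edist_comm]
    exact hw'.trans ENNReal.one_lt_top
  have h2 : IsClosed {z : MG g | edist x z < ⊤} := by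
    rw [← isOpen_compl_iff, isOpen_iff_mem_nhds]
    intro z hz
    refine Filter.mem_of_superset (Metric.eball_mem_nhds z (ε := 1) one_pos) ?_
    intro w hw hw2
    have hw' : edist w z < 1 := hw
    have hw3 : edist x w < ⊤ := hw2
    have h3 : edist x z ≤ edist x w + edist w z := edist_triangle _ _ _
    exact hz (lt_of_le_of_lt h3 (ENNReal.add_lt_top.2 ⟨hw3, hw'.trans ENNReal.one_lt_top⟩))
  have h3 : {z : MG g | edist x z < ⊤} = univ :=
    IsClopen.eq_univ ⟨h2, h1⟩ ⟨x, by simp⟩
  have h4 : y ∈ {z : MG g | edist x z < ⊤} := h3 ▸ mem_univ y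
  exact ne_of_lt h4

/-- the Riemannian distance -/
@[reducible] def ms [T3Space M] [ConnectedSpace M] (g : Met n M) : MetricSpace (MG g) :=
  letI := ems g
  EMetricSpace.toMetricSpace (edist_ne_top g)

end

/-! ### the instances -/

section inst

variable {n : ℕ} {M : Type*} [TM : TopologicalSpace M] [CM : ChartedSpace (EuclideanSpace ℝ (Fin n)) M]
  [IM : IsManifold (𝓡 n) ∞ M] [T3 : T3Space M] [CO : ConnectedSpace M] (g : Met n M)

instance instMS : MetricSpace (MG g) := ms g

instance instCh : ChartedSpace (EuclideanSpace ℝ (Fin n)) (MG g) := chs g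

instance instMfd : IsManifold (𝓡 n) ∞ (MG g) := mfd g

instance instCpt [h : CompactSpace M] : CompactSpace (MG g) := h

instance instConn : ConnectedSpace (MG g) := CO

instance instSC [h : SimplyConnectedSpace M] : SimplyConnectedSpace (MG g) := h

instance instRB : RiemannianBundle (fun p : MG g => TangentSpace (𝓡 n) p) := rb g

instance instCRB : IsContMDiffRiemannianBundle (𝓡 n) ∞ (EuclideanSpace ℝ (Fin n))
    (fun p : MG g => TangentSpace (𝓡 n) p) := crb g

instance instRM : IsRiemannianManifold (𝓡 n) (MG g) := ⟨fun _ _ => rfl⟩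

theorem inner_eq (p : MG g) (v w : TangentSpace (𝓡 n) p) : inner ℝ v w = g.inner p v w := rfl

/-- the identity, from `M` to `MG g` -/
def toMG : M ≃ₜ MG g := Homeomorph.refl M

/-- the identity as a diffeomorphism from `M` to `MG g` -/
def diffMG : Diffeomorph (𝓡 n) (𝓡 n) M (MG g) ∞ := Diffeomorph.refl (𝓡 n) M ∞

end inst

end Crest.Agent.R249.Pul47
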