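import Crest.Agent.R249.PxI2a_324

/-!
# Row 249, part A (helper324): the chart matrix `I2` is positive semidefinite
-/

set_option autoImplicit false
set_option linter.unusedVariables false

namespace Crest.Agent.R249.Px324

open Ker254 Cd133

theorem pI' {w v T : ℝ} (h0 : 0 ≤ w) (h1 : 10 * w ≤ 3) (h2 : 1 ≤ 10 * v) (h3 : 4 * v ≤ 1) (h4 : 0 ≤ T) (h5 : 10 * T ≤ 1)
    (hK : 0 < ev3 w v T KI) (x1 x2 x3 : ℝ) :
    0 ≤ qf (ev3 w v T PI00) (ev3 w v T PI01) (ev3 w v T PI02) (ev3 w v T PI11)
      (ev3 w v T PI12) (ev3 w v T PI22) x1 x2 x3 := by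
  rcases le_total w (1/10) with k | k
  · rcases le_total v (1/5) with k | k
    · exact q_I200
        (Lim.in_hi (α := 1) (β := 10) (by norm_num) (by norm_num) (by linarith) (by norm_num; linarith))
        (Lim.in_lohi (α := 1) (β := 10) (α' := 1) (β' := 1) (by norm_num) (by norm_num) (by norm_num) (by norm_num) (by norm_num; linarith) (by norm_num; linarith))
        (Lim.in_hi (α := 1) (β := 10) (by norm_num) (by norm_num) (by linarith) (by norm_num; linarith))
        hK x1 x2 x3
    · exact q_I201
        (Lim.in_hi (α := 1) (β := 10) (by norm_num) (by norm_num) (by linarith) (by norm_num; linarith))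
        (Lim.in_lohi (α := 1) (β := 5) (α' := 1) (β' := 4) (by norm_num) (by norm_num) (by norm_num) (by norm_num) (by norm_num; linarith) (by norm_num; linarith))
        (Lim.in_hi (α := 1) (β := 10) (by norm_num) (by norm_num) (by linarith) (by norm_num; linarith))
        hK x1 x2 x3
  · exact q_I21
      (Lim.in_lohi (α := 1) (β := 10) (α' := 2) (β' := 1) (by norm_num) (by norm_num) (by norm_num) (by norm_num) (by norm_num; linarith) (by norm_num; linarith))
      (Lim.in_lohi (α := 1) (β := 10) (α' := 3) (β' := 2) (by norm_num) (by norm_num) (by norm_num) (by norm_num) (by norm_num; linarith) (by norm_num; linarith))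
      (Lim.in_hi (α := 1) (β := 10) (by norm_num) (by norm_num) (by linarith) (by norm_num; linarith))
      hK x1 x2 x3

end Crest.Agent.R249.Px324
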