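import Crest.Agent.R249.Cd1_133
import Crest.Agent.R249.Ker12_254

/-!
# Row 249, part A (helper324): the chart matrix `Ia` is positive semidefinite (kernel check)
-/

set_option autoImplicit false
set_option linter.unusedVariables false

namespace Crest.Agent.R249.Px324

open Ker254 Cd133

def T_Ia : TreeX :=
(.nd 2 1 1
(.nd 2 1 2
(.lf (.ofNat 183) (.ofNat 55) (.ofNat 10) (.negSucc 135) (.negSucc 12) (.ofNat 256)) (.nd 2 2 1
(.lf (.ofNat 627) (.ofNat 139) (.ofNat 36) (.negSucc 456) (.negSucc 53) (.ofNat 1024)) (.nd 0 1 1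
(.lf (.ofNat 226) (.ofNat 4) (.ofNat 8) (.negSucc 136) (.negSucc 21) (.ofNat 448)) (.nd 1 1 1
(.lf (.ofNat 169) (.ofNat 64) (.ofNat 9) (.negSucc 158) (.negSucc 13) (.ofNat 256)) (.nd 0 2 1
(.lf (.ofNat 143) (.ofNat 28) (.ofNat 8) (.negSucc 136) (.negSucc 17) (.ofNat 347)) (.lf (.ofNat 104) (.ofNat 54) (.ofNat 8) (.negSucc 158) (.negSucc 15) (.ofNat 260))))))) (.nd 1 1 1
(.nd 2 2 1
(.nd 0 1 1
(.lf (.ofNat 242) (.ofNat 2) (.ofNat 8) (.negSucc 133) (.negSucc 19) (.ofNat 415)) (.lf (.ofNat 129) (.ofNat 52) (.ofNat 8) (.negSucc 163) (.negSucc 14) (.ofNat 272))) (.nd 0 1 1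
(.lf (.ofNat 260) (.negSucc 3) (.ofNat 8) (.negSucc 155) (.negSucc 25) (.ofNat 554)) (.nd 1 1 2
(.lf (.ofNat 177) (.ofNat 49) (.ofNat 8) (.negSucc 166) (.negSucc 14) (.ofNat 283)) (.nd 1 2 1
(.lf (.ofNat 149) (.ofNat 36) (.ofNat 8) (.negSucc 163) (.negSucc 16) (.ofNat 309)) (.lf (.ofNat 445) (.ofNat 79) (.ofNat 25) (.negSucc 446) (.negSucc 54) (.ofNat 1024)))))) (.nd 0 1 1
(.lf (.ofNat 147) (.negSucc 3) (.ofNat 8) (.negSucc 89) (.negSucc 22) (.ofNat 496)) (.nd 2 2 1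
(.nd 1 2 1
(.nd 1 1 2
(.lf (.ofNat 135) (.ofNat 34) (.ofNat 8) (.negSucc 139) (.negSucc 16) (.ofNat 301)) (.lf (.ofNat 133) (.ofNat 27) (.ofNat 8) (.negSucc 122) (.negSucc 16) (.ofNat 314))) (.nd 0 2 1
(.lf (.ofNat 127) (.ofNat 11) (.ofNat 8) (.negSucc 97) (.negSucc 17) (.ofNat 385)) (.lf (.ofNat 110) (.ofNat 22) (.ofNat 8) (.negSucc 97) (.negSucc 14) (.ofNat 292)))) (.nd 1 2 1
(.nd 1 1 2
(.lf (.ofNat 140) (.ofNat 15) (.ofNat 8) (.negSucc 121) (.negSucc 17) (.ofNat 360)) (.lf (.ofNat 138) (.ofNat 7) (.ofNat 8) (.negSucc 102) (.negSucc 18) (.ofNat 401))) (.lf (.ofNat 92) (.negSucc 1) (.ofNat 8) (.negSucc 48) (.negSucc 11) (.ofNat 290)))))))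

theorem ok_Ia : okT 2 T_Ia = true := by decide +kernel

theorem r0_Ia : runX 266 13 8 9 550907180400000 ⟨none, some (3, 10)⟩ ⟨none, some (1, 1)⟩ ⟨none, some (1, 10)⟩ 0 T_Ia
    [PIa00, PIa02, PIa01, PIa22, PIa12, PIa11] = true := by
  decide +kernel

theorem r1_Ia : runX 27 1 2 2 1 ⟨none, some (3, 10)⟩ ⟨none, some (1, 1)⟩ ⟨none, some (1, 10)⟩ 1 T_Ia
    [[[[-1]]], [], [], [], [], []] = true := by
  decide +kernel

theorem r2_Ia : runX 27 1 2 2 1 ⟨none, some (3, 10)⟩ ⟨none, some (1, 1)⟩ ⟨none, some (1, 10)⟩ 2 T_Ia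
    [[[[-1]]], [], [], [], [], []] = true := by
  decide +kernel

theorem pIa {w b T : ℝ} (h0 : 0 ≤ w) (h1 : 10 * w ≤ 3) (h2 : 0 ≤ b) (h3 : b ≤ 1) (h4 : 0 ≤ T) (h5 : 10 * T ≤ 1)
    (hK : 0 < ev3 w b T KIa) (x1 x2 x3 : ℝ) :
    0 ≤ qf (ev3 w b T PIa00) (ev3 w b T PIa01) (ev3 w b T PIa02) (ev3 w b T PIa11)
      (ev3 w b T PIa12) (ev3 w b T PIa22) x1 x2 x3 := by
  have hg : ev3 w b T [[[-1]]] < 0 := by simp [ev3, ev2, ev1]
  have hg2 : ev3 w b T [[[-1]]] < 0 := by simp [ev3, ev2, ev1]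
  have l0 : Lim.In ⟨none, some (3, 10)⟩ w := Lim.in_hi (α := 3) (β := 10) (by norm_num) (by norm_num) (by linarith) (by norm_num; linarith)
  have l1 : Lim.In ⟨none, some (1, 1)⟩ b := Lim.in_hi (α := 1) (β := 1) (by norm_num) (by norm_num) (by linarith) (by norm_num; linarith)
  have l2 : Lim.In ⟨none, some (1, 10)⟩ T := Lim.in_hi (α := 1) (β := 10) (by norm_num) (by norm_num) (by linarith) (by norm_num; linarith)
  have h := psdX ok_Ia r0_Ia r1_Ia r2_Ia l0 l1 l2 hg hg2 x1 x3 x2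
  simp only [qf] at h ⊢
  linarith

end Crest.Agent.R249.Px324
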