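import Crest.Agent.R249.PxKa_324
import Crest.Agent.R249.PxKb_324

/-!
# Row 249, part A (helper324): the chart matrix `II` is positive semidefinite
-/

set_option autoImplicit false
set_option linter.unusedVariables false

namespace Crest.Agent.R249.Px324

open Ker254 Cd133

theorem pII {m v T : ℝ} (h0 : 0 ≤ m) (h1 : 10 * m ≤ 7) (h2 : 0 ≤ v) (h3 : v ≤ 1) (h4 : 0 ≤ T)
    (hK : 0 < ev3 m v T KII) (x1 x2 x3 : ℝ) :
    0 ≤ qf (ev3 m v T PII00) (ev3 m v T PII01) (ev3 m v T PII02) (ev3 m v T PII11)
      (ev3 m v T PII12) (ev3 m v T PII22) x1 x2 x3 := by
  rcases le_total v (1/2) with k | k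
  · rcases le_total T 4 with k | k
    · rcases le_total T 1 with k | k
      · rcases le_total m (1/2) with k | k
        · exact q_II0000
            (Lim.in_hi (α := 1) (β := 2) (by norm_num) (by norm_num) (by linarith) (by norm_num; linarith))
            (Lim.in_hi (α := 1) (β := 2) (by norm_num) (by norm_num) (by linarith) (by norm_num; linarith))
            (Lim.in_hi (α := 1) (β := 1) (by norm_num) (by norm_num) (by linarith) (by norm_num; linarith))
            hK x1 x2 x3
        · exact q_II0001
            (Lim.in_lohi (α := 1) (β := 2) (α' := 2) (β' := 5) (by norm_num) (by norm_num) (by norm_num) (by norm_num) (by norm_num; linarith) (by norm_num; linarith))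
            (Lim.in_hi (α := 1) (β := 2) (by norm_num) (by norm_num) (by linarith) (by norm_num; linarith))
            (Lim.in_hi (α := 1) (β := 1) (by norm_num) (by norm_num) (by linarith) (by norm_num; linarith))
            hK x1 x2 x3
      · exact q_II001
          (Lim.in_hi (α := 7) (β := 10) (by norm_num) (by norm_num) (by linarith) (by norm_num; linarith))
          (Lim.in_hi (α := 1) (β := 2) (by norm_num) (by norm_num) (by linarith) (by norm_num; linarith))
          (Lim.in_lohi (α := 1) (β := 1) (α' := 3) (β' := 1) (by norm_num) (by norm_num) (by norm_num) (by norm_num) (by norm_num; linarith) (by norm_num; linarith))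
          hK x1 x2 x3
    · exact q_II01
        (Lim.in_hi (α := 7) (β := 10) (by norm_num) (by norm_num) (by linarith) (by norm_num; linarith))
        (Lim.in_hi (α := 1) (β := 2) (by norm_num) (by norm_num) (by linarith) (by norm_num; linarith))
        (Lim.in_lo (α := 4) (β := 1) (by norm_num) (by norm_num) (by norm_num; linarith))
        hK x1 x2 x3
  · rcases le_total m (3/5) with k | k
    · exact q_II10
        (Lim.in_hi (α := 3) (β := 5) (by norm_num) (by norm_num) (by linarith) (by norm_num; linarith))
        (Lim.in_lohi (α := 1) (β := 2) (α' := 1) (β' := 1) (by norm_num) (by norm_num) (by norm_num) (by norm_num) (by norm_num; linarith) (by norm_num; linarith))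
        (Lim.in_none (by linarith))
        hK x1 x2 x3
    · exact q_II11
        (Lim.in_lohi (α := 3) (β := 5) (α' := 1) (β' := 6) (by norm_num) (by norm_num) (by norm_num) (by norm_num) (by norm_num; linarith) (by norm_num; linarith))
        (Lim.in_lohi (α := 1) (β := 2) (α' := 1) (β' := 1) (by norm_num) (by norm_num) (by norm_num) (by norm_num) (by norm_num; linarith) (by norm_num; linarith))
        (Lim.in_none (by linarith))
        hK x1 x2 x3

end Crest.Agent.R249.Px324
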