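import Crest.Agent.R249.Cd1_133
import Crest.Agent.R249.Ker12_254

/-!
# Row 249, part A (helper324): the chart matrix `VI` is positive semidefinite (kernel check)
-/

set_option autoImplicit false
set_option linter.unusedVariables false

namespace Crest.Agent.R249.Px324

open Ker254 Cd133

def T_VI : TreeX :=
(.nd 0 1 1
(.lf (.ofNat 85) (.negSucc 89) (.ofNat 58) (.ofNat 3) (.ofNat 1) (.ofNat 256)) (.lf (.ofNat 136) (.negSucc 86) (.ofNat 40) (.ofNat 5) (.ofNat 1) (.ofNat 256)))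

theorem ok_VI : okT 2 T_VI = true := by decide +kernel

theorem r0_VI : runX 210 13 8 18 550907180400000 ⟨none, some (1, 2)⟩ ⟨none, some (1, 4)⟩ ⟨none, some (1, 9)⟩ 0 T_VI
    [PVI00, PVI02, PVI01, PVI22, PVI12, PVI11] = true := by
  decide +kernel

theorem r1_VI : runX 24 1 2 1 1 ⟨none, some (1, 2)⟩ ⟨none, some (1, 4)⟩ ⟨none, some (1, 9)⟩ 1 T_VI
    [[[[-1]]], [], [], [], [], []] = true := by
  decide +kernel

theorem r2_VI : runX 24 1 2 1 1 ⟨none, some (1, 2)⟩ ⟨none, some (1, 4)⟩ ⟨none, some (1, 9)⟩ 2 T_VI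
    [[[[-1]]], [], [], [], [], []] = true := by
  decide +kernel

theorem pVI {p v s : ℝ} (h0 : 0 ≤ p) (h1 : 2 * p ≤ 1) (h2 : 0 ≤ v) (h3 : 4 * v ≤ 1) (h4 : 0 ≤ s) (h5 : 9 * s ≤ 1)
    (hK : 0 < ev3 p v s KVI) (x1 x2 x3 : ℝ) :
    0 ≤ qf (ev3 p v s PVI00) (ev3 p v s PVI01) (ev3 p v s PVI02) (ev3 p v s PVI11)
      (ev3 p v s PVI12) (ev3 p v s PVI22) x1 x2 x3 := by
  have hg : ev3 p v s [[[-1]]] < 0 := by simp [ev3, ev2, ev1]
  have hg2 : ev3 p v s [[[-1]]] < 0 := by simp [ev3, ev2, ev1]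
  have l0 : Lim.In ⟨none, some (1, 2)⟩ p := Lim.in_hi (α := 1) (β := 2) (by norm_num) (by norm_num) (by linarith) (by norm_num; linarith)
  have l1 : Lim.In ⟨none, some (1, 4)⟩ v := Lim.in_hi (α := 1) (β := 4) (by norm_num) (by norm_num) (by linarith) (by norm_num; linarith)
  have l2 : Lim.In ⟨none, some (1, 9)⟩ s := Lim.in_hi (α := 1) (β := 9) (by norm_num) (by norm_num) (by linarith) (by norm_num; linarith)
  have h := psdX ok_VI r0_VI r1_VI r2_VI l0 l1 l2 hg hg2 x1 x3 x2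
  simp only [qf] at h ⊢
  linarith

end Crest.Agent.R249.Px324
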