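import Crest.Agent.R249.Cd9_133
import Crest.Agent.R249.PxJ_324
import Crest.Agent.R249.PxI2_324
import Crest.Agent.R249.PxIa_324
import Crest.Agent.R249.PxIb_324
import Crest.Agent.R249.PxVI_324
import Crest.Agent.R249.PxVII_324
import Crest.Agent.R249.PxK_324

/-!
# Row 249, part A (helper324): all chart matrices of the certificate are positive semidefinite
-/

set_option autoImplicit false

namespace Crest.Agent.R249.Px324

open Ker254 Cd133

/-- **all seven interior checks** -/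
theorem psdAll : PsdAll where
  pI _ _ _ h0 h1 h2 h3 h4 h5 hK u s t := pI h0 h1 h2 h3 h4 h5 hK u s t
  pI' _ _ _ h0 h1 h2 h3 h4 h5 hK u s t := pI' h0 h1 h2 h3 h4 h5 hK u s t
  pIa _ _ _ h0 h1 h2 h3 h4 h5 hK u s t := pIa h0 h1 h2 h3 h4 h5 hK u s t
  pIb _ _ _ h0 h1 h2 h3 h4 h5 hK u s t := pIb h0 h1 h2 h3 h4 h5 hK u s t
  pVI _ _ _ h0 h1 h2 h3 h4 h5 hK u s t := pVI h0 h1 h2 h3 h4 h5 hK u s t
  pVII _ _ _ h0 h1 h2 h3 h4 hK u s t := pVII h0 h1 h2 h3 h4 hK u s t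
  pII _ _ _ h0 h1 h2 h3 h4 hK u s t := pII h0 h1 h2 h3 h4 hK u s t

end Crest.Agent.R249.Px324
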