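import Crest.Agent.R249.Cd1_133
import Crest.Agent.R249.Con2_378

/-!
# Row 249, part A (helper324): the contact family, common data
-/

set_option autoImplicit false
set_option linter.unusedVariables false

namespace Crest.Agent.R249.PxC324

open Ker254 Cd133 Con378 Brg133 Eta467

/-- `-Ê`, `E = ξ² Ê` -/
def gE : P3 := [[[-440], [140]],
  [],
  [[58780], [-15360]],
  [],
  [[-4275000]],
  [],
  [[166118400]],
  [],
  [[-3096576000]],
  [],
  [[23068672000]]]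

theorem gE_eq (ξ p : ℝ) : rE ξ p = -(ξ ^ 2 * ev3 ξ p 0 gE) := by
  simp only [rE, rSig, rD, rK, rM, gE, ev3, ev2, ev1]
  ring

theorem gE_neg {ξ p : ℝ} (h0 : 0 < ξ) (hE : 0 < rE ξ p) : ev3 ξ p 0 gE < 0 := by
  rw [gE_eq] at hE
  by_contra h
  push Not at h
  have : 0 ≤ ξ ^ 2 * ev3 ξ p 0 gE := by positivity
  linarith

/-- `p ≤ 4` where `E > 0` -/
theorem p_le {ξ p : ℝ} (h0 : 0 < ξ) (h1 : ξ ≤ 7 / 100) (hE : 0 < rE ξ p) : p ≤ 4 := by
  have hg := gE_neg h0 hE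
  obtain ⟨t, ht⟩ : ∃ t, t = ξ ^ 2 := ⟨_, rfl⟩
  have ht0 : 0 ≤ t := by rw [ht]; positivity
  have ht1 : t ≤ 49 / 10000 := by rw [ht]; nlinarith
  have e : ev3 ξ p 0 gE = -(440 - 58780 * t + 4275000 * t ^ 2 - 166118400 * t ^ 3 +
      3096576000 * t ^ 4 - 23068672000 * t ^ 5 - (140 - 15360 * t) * p) := by
    rw [ht]
    simp only [gE, ev3, ev2, ev1]
    ring
  rw [e] at hg
  by_contra h
  push Not at h
  have h2 : (140 - 15360 * t) * 4 ≤ (140 - 15360 * t) * p :=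
    mul_le_mul_of_nonneg_left h.le (by linarith)
  have h3 : t ^ 2 ≤ 2401 / 100000000 := by nlinarith
  have h4 : 0 ≤ t ^ 3 := by positivity
  have h5 : t ^ 4 ≤ 5764801 / 10000000000000000 := by
    have : t ^ 4 = t ^ 2 * t ^ 2 := by ring
    rw [this]
    nlinarith [sq_nonneg t]
  have h6 : 0 ≤ t ^ 5 := by positivity
  linarith

/-- the quartic `v` is negative on `[26/375, 1/10]` -/
theorem xi_le {ξ : ℝ} (h0 : 0 < ξ) (h1 : ξ ≤ 1 / 10) (hv : 0 < rM ξ - 10 * ξ) :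
    ξ ≤ 69321 / 1000000 := by
  by_contra h
  push Not at h
  unfold rM at hv
  nlinarith [mul_pos (sub_pos.2 h) h0, mul_nonneg (sub_nonneg.2 h1) h0.le,
    mul_nonneg (mul_nonneg (sub_nonneg.2 h1) h0.le) (mul_pos h0 h0).le,
    mul_nonneg (sub_nonneg.2 h1) (mul_pos h0 h0).le]

end Crest.Agent.R249.PxC324
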