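import Crest.Agent.R249.PxC4_324
import Crest.Agent.R249.Cd1_133
import Crest.Agent.R249.Con2_378

/-!
# Row 249, part A (helper324): contact family, first vertex, near the end: the scalar `z`
-/

set_option autoImplicit false
set_option linter.unusedVariables false

namespace Crest.Agent.R249.PxC324

open Ker254 Cd133 Con378 Brg133 Eta467

def T_PZ : TreeX :=
(.lf (.ofNat 1) (.ofNat 0) (.ofNat 1) (.ofNat 0) (.ofNat 0) (.ofNat 1))

theorem ok_PZ : okT 1 T_PZ = true := by decide +kernel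

theorem r0_PZ : runX 1033 80 4 0 34292035011365973802704546802740551399385701717901312000000000000000000000000 ⟨some (1, 15), some (1, 25)⟩ ⟨none, some (4, 1)⟩ ⟨none, none⟩ 0 T_PZ
    [zPU, [], [], [], [], []] = true := by
  decide +kernel

theorem r1_PZ : runX 138 10 1 0 23068672000 ⟨some (1, 15), some (1, 25)⟩ ⟨none, some (4, 1)⟩ ⟨none, none⟩ 1 T_PZ
    [gE, [], [], [], [], []] = true := by
  decide +kernel

theorem nn_PZ {ξ p : ℝ} (l0 : Lim.In ⟨some (1, 15), some (1, 25)⟩ ξ) (l1 : Lim.In ⟨none, some (4, 1)⟩ p) (hg : ev3 ξ p 0 gE < 0) :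
    0 ≤ ev3 ξ p 0 zPU := by
  have := psd2 (d := []) (b := []) ok_PZ r0_PZ r1_PZ l0 l1 hg 1 0
  simpa [ev3] using this

end Crest.Agent.R249.PxC324
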