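import Crest.Agent.R249.PxC1_324
import Crest.Agent.R249.PxC2_324
import Crest.Agent.R249.PxC3_324
import Crest.Agent.R249.PxC5_324

/-!
# Row 249, part A (helper324): the contact family of `cert_709`: both vertices
-/

set_option autoImplicit false

namespace Crest.Agent.R249.PxC324

open Ker254 Cd133 Con378 Brg133 Eta467

/-- the constant: `12 · 20⁸` -/
abbrev NN : ℕ := 307200000000

/-- second vertex -/
theorem lowM (ξ p : ℝ) (h0 : 0 < ξ) (h1 : ξ ≤ 1 / 10) (hv : 0 < rM ξ - 10 * ξ) (hp : 0 ≤ p)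
    (hE : 0 < rE ξ p) : Low C709 (-1) NN ξ p := by
  have hx := xi_le h0 h1 hv
  have hg := gE_neg h0 hE
  have hp4 : p ≤ 4 := p_le h0 (by linarith) hE
  have lp : Lim.In ⟨none, some (4, 1)⟩ p :=
    Lim.in_hi (α := 4) (β := 1) (by norm_num) (by norm_num) hp (by norm_num; linarith)
  rcases le_total ξ (2 / 29) with h | h
  · exact i_MP.low (psd_MP (Lim.in_hi (α := 2) (β := 29) (by norm_num) (by norm_num) h0.le
      (by norm_num; linarith)) lp hg)
  · refine i_MV.low (by linarith) hv ?_ (psd_MV (Lim.in_lohi (α := 2) (β := 29) (α' := 1)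
      (β' := 194) (by norm_num) (by norm_num) (by norm_num) (by norm_num) (by norm_num; linarith)
      (by norm_num; linarith)) lp hg)
    have h2 : 4 / 841 ≤ ξ ^ 2 := by nlinarith
    have h4 : ξ ^ 4 ≤ (69321 / 1000000) ^ 4 := pow_le_pow_left₀ h0.le hx 4
    unfold rM
    norm_num at h4 ⊢
    linarith

/-- first vertex -/
theorem lowP (ξ p : ℝ) (h0 : 0 < ξ) (h1 : ξ ≤ 1 / 10) (hv : 0 < rM ξ - 10 * ξ) (hp : 0 ≤ p)
    (hE : 0 < rE ξ p) : Low C709 1 NN ξ p := by
  have hx := xi_le h0 h1 hv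
  have hg := gE_neg h0 hE
  have hp4 : p ≤ 4 := p_le h0 (by linarith) hE
  have lp : Lim.In ⟨none, some (4, 1)⟩ p :=
    Lim.in_hi (α := 4) (β := 1) (by norm_num) (by norm_num) hp (by norm_num; linarith)
  rcases le_total ξ (1 / 15) with h | h
  · exact i_PP.low (psd_PP (Lim.in_hi (α := 1) (β := 15) (by norm_num) (by norm_num) h0.le
      (by norm_num; linarith)) lp hg)
  · have lx : Lim.In ⟨some (1, 15), some (1, 25)⟩ ξ :=
      Lim.in_lohi (α := 1) (β := 15) (α' := 1) (β' := 25) (by norm_num) (by norm_num)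
        (by norm_num) (by norm_num) (by norm_num; linarith) (by norm_num; linarith)
    exact i_PU.low h0.le hp hv (psd_PU lx lp hg) (nn_PZ lx lp hg)

end Crest.Agent.R249.PxC324
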