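import Crest.Agent.R249.Con2_378

/-!
# Row 249, part A (helper912): from helper378's `Low` to `CON`

`con_of_low` : the two families `Low C 1 N ξ p`, `Low C (-1) N ξ p` (`ξ > 0`) give the contact
inequalities `StK_912.CON C (N / (12 * 20^8)) 1` (both signs of `η`).
-/

set_option autoImplicit false
set_option linter.unusedVariables false

noncomputable section

namespace Crest.Agent.R249.StM_912

open Ker254 Eta467 Sym467 CovA621 Con378 StK_912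
open Brg133 hiding f0

/-- the form is even under `(η, X, h, σ) → -(η, X, h, σ)`. -/
def VF (C : Crt) (η m G σ X K h : ℝ) : ℝ :=
  C.e11 η (η ^ 2) m G X K + C.eh η (η ^ 2) m G X * h + C.ehh (η ^ 2) m G * h ^ 2 +
    C.ek η (η ^ 2) m G X * (σ * G) + C.ehk (η ^ 2) m G * (σ * G * h) +
    C.ekk (η ^ 2) m G * (σ ^ 2 * G)

lemma VF_neg (C : Crt) (η m G σ X K h : ℝ) :
    VF C (-η) m G (-σ) (-X) K (-h) = VF C η m G σ X K h := by
  simp only [VF, Crt.e11, Crt.eh, Crt.ek, neg_sq]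
  ring

/-- `S F3 = VF` on contact jets -/
lemma F3_eq_VF {C : Crt} {z : E3} (hm : z.2.1 ≠ 0) (hR : RR C.c z.2.1 z.2.2 ≠ 0) {q : ℝ}
    (hq : q ^ 2 = z.2.2) (σ X K h : ℝ) :
    C.S z.2.1 z.2.2 * F3 0 C.A C.B C.W z X K q h (σ * q) = VF C z.1 z.2.1 z.2.2 σ X K h := by
  rw [mul_comm, Crt.form_F3 hm hR hq]
  unfold VF
  rw [← hq]
  ring

lemma vf_eq_VF (C : Crt) (ξ p X K h : ℝ) :
    vf C ξ p X K h = VF C (20 * ξ) (rM ξ) (rG ξ p) (rSig ξ) X K h := by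
  have e : (20 * ξ) ^ 2 = 400 * ξ ^ 2 := by ring
  simp only [vf, VF, e]

/-- from `Low` to the lower bound of the form -/
lemma vf_ge {C : Crt} {s : ℤ} (hs : s = 1 ∨ s = -1) {N : ℕ} {ξ p : ℝ} (H : Low C s N ξ p)
    (h1 : |rSig ξ| ≤ 12 / 25) (huv : 0 ≤ (rM ξ + 10 * ξ) * (rM ξ - 10 * ξ)) (h : ℝ) :
    N / 12 * ξ ^ 8 * ((rM ξ + 10 * ξ) * (rM ξ - 10 * ξ)) ≤
      vf C ξ p (rD ξ + 2 * s * rE ξ p / rT ξ s) (rK ξ + rE ξ p / rT ξ s) h := by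
  have hσ := abs_le.1 h1
  have hT : 1 / 25 ≤ rT ξ s ∧ rT ξ s ≤ 49 / 25 := by
    rcases hs with rfl | rfl
    · have e : rT ξ 1 = 1 - 2 * rSig ξ := by unfold rT rSig; push_cast; ring
      rw [e]; constructor <;> linarith
    · have e : rT ξ (-1) = 1 + 2 * rSig ξ := by unfold rT rSig; push_cast; ring
      rw [e]; constructor <;> linarith
  have hT0 : rT ξ s ≠ 0 := by linarith [hT.1]
  obtain ⟨V, hV⟩ : ∃ V, V = vf C ξ p (rD ξ + 2 * s * rE ξ p / rT ξ s)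
    (rK ξ + rE ξ p / rT ξ s) h := ⟨_, rfl⟩
  have h2 := vf_eq (C := C) (ξ := ξ) (p := p) (s := s) (X := rD ξ + 2 * s * rE ξ p / rT ξ s)
    (K := rK ξ + rE ξ p / rT ξ s) (by field_simp) (by field_simp) h
  have h3 := H (rT ξ s * h)
  rw [← h2] at h3
  rw [← hV] at h3 ⊢
  have h4 : 0 ≤ N * ξ ^ 8 * ((rM ξ + 10 * ξ) * (rM ξ - 10 * ξ)) := by positivity
  have h5 : 0 < 3 * rT ξ s ^ 2 := by positivity
  have hV0 : 0 ≤ V := nonneg_of_mul_nonneg_right (h4.trans h3) h5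
  have h6 : 3 * rT ξ s ^ 2 ≤ 12 := by nlinarith [hT.1, hT.2]
  have h7 := mul_le_mul_of_nonneg_right h6 hV0
  linarith

/-- contact points with `η > 0` -/
lemma con_pos {C : Crt} {N : ℕ} {s : ℤ} (hs : s = 1 ∨ s = -1)
    (H : ∀ ξ p : ℝ, 0 < ξ → ξ ≤ 1 / 10 → 0 < rM ξ - 10 * ξ → 0 ≤ p → 0 < rE ξ p → Low C s N ξ p)
    {z : E3} (hz : OCon ACpm z) (hpos : 0 < z.1) (hE : 0 < Ec ACpm z) (h : ℝ) :
    (N : ℝ) / (12 * 20 ^ 8) * muS z ^ 1 * z.1 ^ 8 ≤ VF C z.1 z.2.1 z.2.2 (dG ACpm z.1)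
      (X0 Fs z + s * (Ec ACpm z / (1 / 2 - s * dG ACpm z.1)))
      (K0 Fs z + Ec ACpm z / (1 / 2 - s * dG ACpm z.1) / 2) h := by
  obtain ⟨η, m, G⟩ := z
  have hw := wreg_of_ocon hz
  have hd := dG_le hw hz.k0
  have hk0 := hz.k0
  have hem := hz.em
  have hG := hz.G0
  have hm0 := hz.m0
  simp only [kf_AC] at hk0
  simp only at hpos hem hG hd hm0 ⊢
  rw [abs_of_pos hpos] at hem
  obtain ⟨ξ, hξ⟩ : ∃ ξ, ξ = η / 20 := ⟨_, rfl⟩
  obtain ⟨p, hp⟩ : ∃ p, p = G / η ^ 2 := ⟨_, rfl⟩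
  have hη : η = 20 * ξ := by rw [hξ]; ring
  have hξ0 : 0 < ξ := by rw [hξ]; positivity
  have hξ1 : ξ ≤ 1 / 10 := by
    have hm1 := hz.m1
    simp only at hm1
    rw [hξ]; linarith
  have hp0 : 0 ≤ p := by rw [hp]; positivity
  have hGp : G = rG ξ p := by
    rw [hp, rG, hξ]
    field_simp
    norm_num
  have hm : m = rM ξ := by
    rw [rM, hξ]; linarith
  have hσ : dG ACpm η = rSig ξ := by
    rw [hη]; simp only [dG, ACpm, rSig]; ring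
  have hEe : Ec ACpm (η, m, G) = rE ξ p := by
    rw [hη, hm, hGp]
    simp only [Ec, dG, ddG, ACpm, Fs, rE, rSig, rD, rK, rG]
    ring
  have hX : X0 Fs ((η, m, G) : E3) = rD ξ := by
    rw [hη, hm]
    simp only [X0, Fs, rD]
    ring
  have hK : K0 Fs ((η, m, G) : E3) = rK ξ := by
    rw [hη, hm]
    simp only [K0, Fs, rK]
    ring
  have hv : 0 < rM ξ - 10 * ξ := by rw [← hm, hξ]; linarith
  have hu : 0 < rM ξ + 10 * ξ := by linarith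
  have hmu : muS ((η, m, G) : E3) = (rM ξ + 10 * ξ) * (rM ξ - 10 * ξ) := by
    simp only [muS]
    rw [hm, hη]; ring
  rw [hEe] at hE ⊢
  rw [hσ] at hd ⊢
  have h1 := vf_ge hs (H ξ p hξ0 hξ1 hv hp0 hE) hd (by positivity) h
  have hT : 2 * (1 / 2 - s * rSig ξ) = rT ξ s := by
    unfold rT rSig; ring
  have hT0 : (1 / 2 - s * rSig ξ) ≠ 0 := by
    have hσ' := abs_le.1 hd
    rcases hs with rfl | rfl
    · push_cast; linarith
    · push_cast; linarith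
  have eX : rD ξ + 2 * s * rE ξ p / rT ξ s = rD ξ + s * (rE ξ p / (1 / 2 - s * rSig ξ)) := by
    rw [← hT]
    field_simp
  have eK : rK ξ + rE ξ p / rT ξ s = rK ξ + rE ξ p / (1 / 2 - s * rSig ξ) / 2 := by
    rw [← hT]
    field_simp
  rw [eX, eK, vf_eq_VF] at h1
  rw [hX, hK, hmu, pow_one]
  have e8 : (N : ℝ) / (12 * 20 ^ 8) * ((rM ξ + 10 * ξ) * (rM ξ - 10 * ξ)) * η ^ 8 =
      N / 12 * ξ ^ 8 * ((rM ξ + 10 * ξ) * (rM ξ - 10 * ξ)) := by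
    rw [hη]; ring
  rw [e8]
  convert h1 using 2

/-- all contact points -/
lemma con_all {C : Crt} (hC : 1 ≤ C.c) {N : ℕ}
    (HP : ∀ ξ p : ℝ, 0 < ξ → ξ ≤ 1 / 10 → 0 < rM ξ - 10 * ξ → 0 ≤ p → 0 < rE ξ p → Low C 1 N ξ p)
    (HM : ∀ ξ p : ℝ, 0 < ξ → ξ ≤ 1 / 10 → 0 < rM ξ - 10 * ξ → 0 ≤ p → 0 < rE ξ p → Low C (-1) N ξ p)
    {s : ℤ} (hs : s = 1 ∨ s = -1) {z : E3} (hz : OCon ACpm z) (hE : 0 < Ec ACpm z) (h : ℝ) :
    (N : ℝ) / (12 * 20 ^ 8) * muS z ^ 1 * z.1 ^ 8 ≤ VF C z.1 z.2.1 z.2.2 (dG ACpm z.1)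
      (X0 Fs z + s * (Ec ACpm z / (1 / 2 - s * dG ACpm z.1)))
      (K0 Fs z + Ec ACpm z / (1 / 2 - s * dG ACpm z.1) / 2) h := by
  have HH : ∀ s : ℤ, s = 1 ∨ s = -1 → ∀ ξ p : ℝ, 0 < ξ → ξ ≤ 1 / 10 → 0 < rM ξ - 10 * ξ → 0 ≤ p →
      0 < rE ξ p → Low C s N ξ p := by
    intro s hs
    rcases hs with rfl | rfl
    · exact HP
    · exact HM
  rcases lt_or_gt_of_ne hz.e0 with hneg | hpos
  · -- reflection
    have hz' : OCon ACpm ((-z.1, z.2.1, z.2.2) : E3) := by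
      refine ⟨hz.m0, hz.m1, neg_ne_zero.2 hz.e0, ?_, ?_, hz.G0⟩
      · show |-z.1| < 2 * z.2.1
        rw [abs_neg]; exact hz.em
      · have := hz.k0
        rw [kf_AC] at this ⊢
        simp only
        rw [← this]; ring
    have hE' : Ec ACpm ((-z.1, z.2.1, z.2.2) : E3) = Ec ACpm z := by
      simp only [Ec, dG, ddG, ACpm, Fs]
      ring
    have hs' : -s = 1 ∨ -s = -1 := by
      rcases hs with rfl | rfl
      · right; rfl
      · left; rfl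
    have h1 := con_pos hs' (HH (-s) hs') hz' (by show 0 < -z.1; linarith) (by rw [hE']; exact hE)
      (-h)
    rw [hE'] at h1
    have e1 : muS ((-z.1, z.2.1, z.2.2) : E3) = muS z := by simp only [muS]; ring
    have e2 : dG ACpm (-z.1) = -dG ACpm z.1 := by simp only [dG, ACpm]; ring
    have e3 : X0 Fs ((-z.1, z.2.1, z.2.2) : E3) = -X0 Fs z := by simp only [X0, Fs]; ring
    have e4 : K0 Fs ((-z.1, z.2.1, z.2.2) : E3) = K0 Fs z := by simp only [K0, Fs]; ring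
    simp only at h1
    rw [e1, e2, e3, e4] at h1
    push_cast at h1
    have e5 : -X0 Fs z + -(s : ℝ) * (Ec ACpm z / (1 / 2 - -(s : ℝ) * -dG ACpm z.1)) =
        -(X0 Fs z + s * (Ec ACpm z / (1 / 2 - s * dG ACpm z.1))) := by ring
    have e6 : (1 / 2 - -(s : ℝ) * -dG ACpm z.1) = 1 / 2 - s * dG ACpm z.1 := by ring
    rw [e5, e6, VF_neg] at h1
    have e7 : (-z.1) ^ 8 = z.1 ^ 8 := by ring
    rw [e7] at h1
    exact h1
  · exact con_pos hs (HH s hs) hz hpos hE h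

/-- **the contact inequalities.** -/
theorem con_of_low {C : Crt} (hC : 1 ≤ C.c) {N : ℕ}
    (HP : ∀ ξ p : ℝ, 0 < ξ → ξ ≤ 1 / 10 → 0 < rM ξ - 10 * ξ → 0 ≤ p → 0 < rE ξ p → Low C 1 N ξ p)
    (HM : ∀ ξ p : ℝ, 0 < ξ → ξ ≤ 1 / 10 → 0 < rM ξ - 10 * ξ → 0 ≤ p → 0 < rE ξ p → Low C (-1) N ξ p) :
    CON C ((N : ℝ) / (12 * 20 ^ 8)) 1 where
  v1 := by
    intro z hz hE q hq0 hq h
    have hR := RR_pos' hC (wreg_of_ocon hz) hz.G0
    rw [F3_eq_VF hz.m0.ne' hR.ne' hq]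
    have h1 := con_all hC HP HM (s := 1) (Or.inl rfl) hz hE h
    push_cast at h1
    rw [one_mul, one_mul] at h1
    exact h1
  v2 := by
    intro z hz hE q hq0 hq h
    have hR := RR_pos' hC (wreg_of_ocon hz) hz.G0
    rw [F3_eq_VF hz.m0.ne' hR.ne' hq]
    have h1 := con_all hC HP HM (s := -1) (Or.inr rfl) hz hE h
    push_cast at h1
    rw [neg_one_mul, neg_one_mul, sub_neg_eq_add] at h1
    exact h1

end Crest.Agent.R249.StM_912
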