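import Crest.Agent.R249.PxC_324
import Crest.Agent.R249.StM_912

/-!
# Row 249, part A (helper324): the contact family of `cert_709` (second, independent proof:
23 leaves, small memory)
-/

set_option autoImplicit false

namespace Crest.Agent.R249.PxC324

theorem con : StK_912.CON Cd133.C709 ((NN : ℝ) / (12 * 20 ^ 8)) 1 :=
  StM_912.con_of_low (by decide) lowP lowM

theorem con1 : StK_912.CON Cd133.C709 1 1 := by
  have h := con
  norm_num [NN] at h
  exact h

end Crest.Agent.R249.PxC324
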