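import Crest.Agent.R249.RegEst_717

/-!
Row 249, leaf D3-REG (helper717), file 5: existence of adapted linear maps with uniform bounds.
-/

set_option autoImplicit false
open scoped ContDiff ENNReal Topology RealInnerProductSpace
open MeasureTheory Set Filter
open Crest.GeometryTopology.CoordMetric

namespace Crest.Agent.R249.RegKer_717

open Crest.Agent.R202.Ell

noncomputable section

variable {n : ℕ}

/-- ellipticity of a constant matrix -/
structure Ellc (lam Lam : ℝ) (A : Fin n → Fin n → ℝ) : Prop where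
  symm : ∀ i j, A i j = A j i
  lo : ∀ z : Fin n → ℝ, lam * ∑ i, z i ^ 2 ≤ ∑ i, ∑ j, A i j * z i * z j
  hi : ∀ z : Fin n → ℝ, ∑ i, ∑ j, A i j * z i * z j ≤ Lam * ∑ i, z i ^ 2

theorem det_le_pow (T : EE n →L[ℝ] EE n) : |T.det| ≤ ‖T‖ ^ n := by
  have h1 := Measure.addHaar_image_continuousLinearMap (volume : Measure (EE n)) T
    (Metric.closedBall 0 1)
  have h2 : T '' Metric.closedBall 0 1 ⊆ Metric.closedBall 0 ‖T‖ := by
    rintro _ ⟨x, hx, rfl⟩
    have hx1 : ‖x‖ ≤ 1 := by simpa using hx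
    have := T.le_opNorm x
    have h3 : ‖T x‖ ≤ ‖T‖ := this.trans (mul_le_of_le_one_right (norm_nonneg _) hx1)
    simpa using h3
  have h3 := measure_mono (μ := (volume : Measure (EE n))) h2
  rw [h1] at h3
  have h4 : volume (Metric.closedBall (0 : EE n) ‖T‖)
      = ENNReal.ofReal (‖T‖ ^ n) * volume (Metric.closedBall (0 : EE n) 1) := by
    have := Measure.addHaar_closedBall' (volume : Measure (EE n)) 0 (norm_nonneg T)
    rw [this]
    simp only [finrank_euclideanSpace, Fintype.card_fin]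
  rw [h4] at h3
  have h5 : volume (Metric.closedBall (0 : EE n) 1) ≠ 0 :=
    (Metric.measure_closedBall_pos volume 0 one_pos).ne'
  have h6 : volume (Metric.closedBall (0 : EE n) 1) ≠ ⊤ := measure_closedBall_lt_top.ne
  have h7 : ENNReal.ofReal |T.det| ≤ ENNReal.ofReal (‖T‖ ^ n) :=
    (ENNReal.mul_le_mul_iff_left h5 h6).1 h3
  exact (ENNReal.ofReal_le_ofReal_iff (by positivity)).1 h7

theorem exists_adapt {lam Lam : ℝ} (hlam : 0 < lam) (hLam : 1 ≤ Lam)
    {A : Fin n → Fin n → ℝ} (hA : Ellc lam Lam A) :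
    ∃ T : EE n →L[ℝ] EE n, KD A T (Real.sqrt Lam) (Real.sqrt (1 / lam))
      (Real.sqrt (1 / lam) ^ n) := by
  classical
  set M : Matrix (Fin n) (Fin n) ℝ := Matrix.of A with hM
  have hH : M.IsHermitian := by
    ext i j
    simp [hM, hA.symm j i]
  set b := hH.eigenvectorBasis with hb
  set μ := hH.eigenvalues with hμ
  have hquad : ∀ z : EE n, ∑ i, ∑ j, A i j * z i * z j = ∑ i, z i * (M.mulVec z) i := by
    intro z
    refine Finset.sum_congr rfl fun i _ => ?_
    rw [Matrix.mulVec, dotProduct, Finset.mul_sum]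
    exact Finset.sum_congr rfl fun j _ => by simp [hM]; ring
  have heig : ∀ k, M.mulVec (b k) = μ k • (b k : Fin n → ℝ) := fun k =>
    hH.mulVec_eigenvectorBasis k
  have hinner : ∀ x y : EE n, ⟪x, y⟫ = ∑ i, x i * y i := by
    intro x y
    rw [PiLp.inner_apply]
    exact Finset.sum_congr rfl fun i _ => by simp [mul_comm]
  have hnb : ∀ k, ∑ i, (b k) i ^ 2 = 1 := by
    intro k
    have := b.orthonormal.1 k
    have h2 : ‖b k‖ ^ 2 = ∑ i, (b k) i ^ 2 := by
      rw [EuclideanSpace.norm_sq_eq]; simp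
    rw [← h2, this]; norm_num
  have hμq : ∀ k, ∑ i, ∑ j, A i j * (b k) i * (b k) j = μ k := by
    intro k
    rw [hquad, heig]
    simp only [Pi.smul_apply, smul_eq_mul]
    have : ∑ i, (b k) i * (μ k * (b k) i) = μ k * ∑ i, (b k) i ^ 2 := by
      rw [Finset.mul_sum]; exact Finset.sum_congr rfl fun i _ => by ring
    rw [this, hnb, mul_one]
  have hμlo : ∀ k, lam ≤ μ k := fun k => by
    have := hA.lo (b k); rwa [hμq, hnb, mul_one] at this
  have hμhi : ∀ k, μ k ≤ Lam := fun k => by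
    have := hA.hi (b k); rwa [hμq, hnb, mul_one] at this
  have hμpos : ∀ k, 0 < μ k := fun k => lt_of_lt_of_le hlam (hμlo k)
  -- the map
  let L : EE n →ₗ[ℝ] EE n :=
    { toFun := fun x => WithLp.toLp 2 fun k => (Real.sqrt (μ k))⁻¹ * ⟪b k, x⟫
      map_add' := fun x y => by
        ext k; simp [inner_add_right, mul_add]
      map_smul' := fun r x => by
        ext k; simp [inner_smul_right]; ring }
  have hLapp : ∀ x k, L x k = (Real.sqrt (μ k))⁻¹ * ⟪b k, x⟫ := fun x k => rfl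
  set T : EE n →L[ℝ] EE n := LinearMap.toContinuousLinearMap L with hTdef
  have hTapp : ∀ x k, T x k = (Real.sqrt (μ k))⁻¹ * ⟪b k, x⟫ := fun x k => rfl
  have hTn : ∀ x, ‖T x‖ ^ 2 = ∑ k, (μ k)⁻¹ * ⟪b k, x⟫ ^ 2 := by
    intro x
    rw [EuclideanSpace.norm_sq_eq]
    refine Finset.sum_congr rfl fun k _ => ?_
    rw [hTapp, Real.norm_eq_abs, sq_abs, mul_pow, inv_pow, Real.sq_sqrt (hμpos k).le]
  have hxn : ∀ x : EE n, ‖x‖ ^ 2 = ∑ k, ⟪b k, x⟫ ^ 2 := by
    intro x
    have := b.sum_sq_norm_inner_right x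
    rw [← this]
    exact Finset.sum_congr rfl fun k _ => by simp
  have hent : ∀ k i, ent T k i = (Real.sqrt (μ k))⁻¹ * (b k) i := by
    intro k i
    rw [ent, hTapp, hinner]
    congr 1
    simp
  have hlow : ∀ x, ‖x‖ ≤ Real.sqrt Lam * ‖T x‖ := by
    intro x
    have h1 : ‖x‖ ^ 2 ≤ Lam * ‖T x‖ ^ 2 := by
      rw [hxn, hTn, Finset.mul_sum]
      refine Finset.sum_le_sum fun k _ => ?_
      have h2 : 1 ≤ Lam * (μ k)⁻¹ := by
        rw [← div_eq_mul_inv, le_div_iff₀ (hμpos k)]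
        linarith [hμhi k]
      have := mul_le_mul_of_nonneg_right h2 (sq_nonneg ⟪b k, x⟫)
      linarith
    have h3 : ‖x‖ = Real.sqrt (‖x‖ ^ 2) := (Real.sqrt_sq (norm_nonneg _)).symm
    have h4 : Real.sqrt Lam * ‖T x‖ = Real.sqrt (Lam * ‖T x‖ ^ 2) := by
      rw [Real.sqrt_mul (by linarith), Real.sqrt_sq (norm_nonneg _)]
    rw [h3, h4]
    exact Real.sqrt_le_sqrt h1
  have hup : ‖T‖ ≤ Real.sqrt (1 / lam) := by
    refine T.opNorm_le_bound (Real.sqrt_nonneg _) fun x => ?_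
    have h1 : ‖T x‖ ^ 2 ≤ 1 / lam * ‖x‖ ^ 2 := by
      rw [hTn, hxn, Finset.mul_sum]
      refine Finset.sum_le_sum fun k _ => mul_le_mul_of_nonneg_right ?_ (sq_nonneg _)
      rw [one_div]
      exact inv_anti₀ hlam (hμlo k)
    have h3 : ‖T x‖ = Real.sqrt (‖T x‖ ^ 2) := (Real.sqrt_sq (norm_nonneg _)).symm
    have h4 : Real.sqrt (1 / lam) * ‖x‖ = Real.sqrt (1 / lam * ‖x‖ ^ 2) := by
      rw [Real.sqrt_mul (by positivity), Real.sqrt_sq (norm_nonneg _)]
    rw [h3, h4]
    exact Real.sqrt_le_sqrt h1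
  have hdet : |T.det| ≤ Real.sqrt (1 / lam) ^ n :=
    (det_le_pow T).trans (pow_le_pow_left₀ (norm_nonneg _) hup n)
  have hinj : Function.Injective T := by
    rw [injective_iff_map_eq_zero]
    intro x hx
    have := hlow x
    rw [hx, norm_zero, mul_zero] at this
    exact norm_le_zero_iff.1 this
  have hdet0 : T.det ≠ 0 := by
    have h1 : LinearMap.ker (T : EE n →ₗ[ℝ] EE n) = ⊥ := LinearMap.ker_eq_bot.2 hinj
    intro h0
    have h2 : LinearMap.det (T : EE n →ₗ[ℝ] EE n) = 0 := h0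
    have := LinearMap.bot_lt_ker_of_det_eq_zero h2
    rw [h1] at this
    exact lt_irrefl _ this
  refine ⟨T, ?_, Real.one_le_sqrt.2 hLam, hlow, hup, hdet, hdet0⟩
  intro k l
  have h1 : ∑ i, ∑ j, A i j * ent T k i * ent T l j
      = (Real.sqrt (μ k))⁻¹ * (Real.sqrt (μ l))⁻¹ * (μ l * ⟪b k, b l⟫) := by
    have h2 : ∑ i, ∑ j, A i j * (b k) i * (b l) j = μ l * ⟪b k, b l⟫ := by
      have e : ∑ i, ∑ j, A i j * (b k) i * (b l) j = ∑ i, (b k) i * (M.mulVec (b l)) i := by
        refine Finset.sum_congr rfl fun i _ => ?_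
        rw [Matrix.mulVec, dotProduct, Finset.mul_sum]
        exact Finset.sum_congr rfl fun j _ => by simp [hM]; ring
      rw [e, heig, hinner, Finset.mul_sum]
      exact Finset.sum_congr rfl fun i _ => by simp; ring
    rw [← h2, Finset.mul_sum]
    refine Finset.sum_congr rfl fun i _ => ?_
    rw [Finset.mul_sum]
    refine Finset.sum_congr rfl fun j _ => ?_
    rw [hent, hent]; ring
  rw [h1]
  have h3 : ⟪b k, b l⟫ = if k = l then 1 else 0 := orthonormal_iff_ite.1 b.orthonormal k l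
  rw [h3]
  split_ifs with h
  · subst h
    have h4 : Real.sqrt (μ k) * Real.sqrt (μ k) = μ k := Real.mul_self_sqrt (hμpos k).le
    have h5 : Real.sqrt (μ k) ≠ 0 := (Real.sqrt_pos.2 (hμpos k)).ne'
    rw [mul_one, ← mul_inv, h4]
    exact inv_mul_cancel₀ (hμpos k).ne'
  · simp

end

end Crest.Agent.R249.RegKer_717
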