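import Mathlib

/-!
Row 249, leaf D3-REG (helper717), file 6: affine approximation of order `1+β` at every scale
implies `C^{1,β}`.
-/

set_option autoImplicit false
open scoped ContDiff ENNReal Topology
open Set Filter

namespace Crest.Agent.R249.RegAff_717

noncomputable section

variable {E : Type*} [NormedAddCommGroup E] [NormedSpace ℝ E]

/-- a bound on a ball bounds the operator norm -/
theorem opNorm_le_of_ball {L : E →L[ℝ] ℝ} {ρ M : ℝ} (hρ : 0 < ρ) (hM : 0 ≤ M)
    (h : ∀ z, ‖z‖ ≤ ρ → |L z| ≤ M) : ‖L‖ ≤ M / ρ := by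
  refine L.opNorm_le_bound (by positivity) fun z => ?_
  rcases eq_or_ne z 0 with rfl | hz
  · simp
  have hz0 : 0 < ‖z‖ := norm_pos_iff.2 hz
  have h1 := h ((ρ / ‖z‖) • z) (by
    rw [norm_smul, Real.norm_eq_abs, abs_of_pos (by positivity), div_mul_cancel₀ _ hz0.ne'])
  rw [map_smul, smul_eq_mul, abs_mul, abs_of_pos (by positivity : (0:ℝ) < ρ / ‖z‖)] at h1
  rw [Real.norm_eq_abs, div_mul_eq_mul_div, le_div_iff₀ hρ]
  have h2 := mul_le_mul_of_nonneg_right h1 hz0.le
  have h3 : ρ / ‖z‖ * |L z| * ‖z‖ = |L z| * ρ := by field_simp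
  linarith

/-- **C^{1,β} from affine approximation.** -/
theorem c1_of_affine {f : E → ℝ} {U : Set E} {r0 C β : ℝ} (hr0 : 0 < r0) (hC : 0 ≤ C)
    (hβ : 0 < β)
    (h : ∀ x ∈ U, ∀ ρ, 0 < ρ → ρ ≤ r0 → ∃ (c : ℝ) (L : E →L[ℝ] ℝ), ∀ y, ‖y - x‖ ≤ ρ →
      |f y - c - L (y - x)| ≤ C * ρ ^ (1 + β)) :
    ∃ (g : E → (E →L[ℝ] ℝ)) (K : ℝ), 0 ≤ K ∧
      (∀ x ∈ U, ∀ y, ‖y - x‖ ≤ r0 → |f y - f x - g x (y - x)| ≤ K * ‖y - x‖ ^ (1 + β)) ∧
      (∀ x ∈ U, HasFDerivAt f (g x) x) ∧
      ∀ x ∈ U, ∀ y ∈ U, ‖x - y‖ ≤ r0 / 2 → ‖g x - g y‖ ≤ K * ‖x - y‖ ^ β := by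
  classical
  set q : ℝ := (1 / 2 : ℝ) ^ β with hq
  have hq0 : 0 < q := Real.rpow_pos_of_pos (by norm_num) _
  have hq1 : q < 1 := Real.rpow_lt_one (by norm_num) (by norm_num) hβ
  set ρ : ℕ → ℝ := fun k => r0 * (1 / 2) ^ k with hρ
  have hρ0 : ∀ k, 0 < ρ k := fun k => by simp only [hρ]; positivity
  have hρ1 : ∀ k, ρ k ≤ r0 := fun k => by
    simp only [hρ]
    exact mul_le_of_le_one_right hr0.le (pow_le_one₀ (by norm_num) (by norm_num))
  have hρs : ∀ k, ρ (k + 1) = ρ k / 2 := fun k => by simp only [hρ, pow_succ]; ring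
  have hρβ : ∀ k, ρ k ^ β = r0 ^ β * q ^ k := by
    intro k
    simp only [hρ]
    rw [Real.mul_rpow hr0.le (by positivity), hq, ← Real.rpow_natCast, ← Real.rpow_natCast,
      ← Real.rpow_mul (by norm_num), ← Real.rpow_mul (by norm_num), mul_comm (k : ℝ) β]
  -- the limit at one point
  have key : ∀ x ∈ U, ∃ G : E →L[ℝ] ℝ, ∀ y, ‖y - x‖ ≤ r0 →
      |f y - f x - G (y - x)| ≤ (2 * C + 8 * C / (1 - q)) * (2 * ‖y - x‖) ^ (1 + β) := by
    intro x hx
    choose c L hcL using fun k => h x hx (ρ k) (hρ0 k) (hρ1 k)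
    have hc : ∀ k, |f x - c k| ≤ C * ρ k ^ (1 + β) := by
      intro k
      have := hcL k x (by simpa using (hρ0 k).le)
      simpa using this
    have hL : ∀ k, dist (L k) (L (k + 1)) ≤ (8 * C * r0 ^ β) * q ^ k := by
      intro k
      rw [dist_eq_norm]
      have hp : (0:ℝ) ≤ ρ k ^ (1 + β) := Real.rpow_nonneg (hρ0 k).le _
      have hmono : ρ (k + 1) ^ (1 + β) ≤ ρ k ^ (1 + β) := by
        refine Real.rpow_le_rpow (hρ0 _).le ?_ (by linarith)
        rw [hρs]; linarith [hρ0 k]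
      have h1 : ∀ z, ‖z‖ ≤ ρ (k + 1) → |(L k - L (k + 1)) z| ≤ 4 * C * ρ k ^ (1 + β) := by
        intro z hz
        have e1 := hcL k (x + z) (by
          simp only [add_sub_cancel_left]
          refine hz.trans ?_
          rw [hρs]; linarith [hρ0 k])
        have e2 := hcL (k + 1) (x + z) (by simpa using hz)
        have e3 := hc k
        have e4 := hc (k + 1)
        simp only [add_sub_cancel_left] at e1 e2
        rw [sub_apply]
        rw [abs_le] at e1 e2 e3 e4 ⊢
        have hm2 : C * ρ (k + 1) ^ (1 + β) ≤ C * ρ k ^ (1 + β) :=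
          mul_le_mul_of_nonneg_left hmono hC
        constructor <;> linarith [e1.1, e1.2, e2.1, e2.2, e3.1, e3.2, e4.1, e4.2]
      have h2 := opNorm_le_of_ball (hρ0 (k + 1)) (by positivity) h1
      refine h2.trans (le_of_eq ?_)
      rw [Real.rpow_add (hρ0 k), Real.rpow_one, hρβ, hρs]
      have := (hρ0 k).ne'
      field_simp
      ring
    have hcau := cauchySeq_of_le_geometric q (8 * C * r0 ^ β) hq1 hL
    obtain ⟨G, hG⟩ := cauchySeq_tendsto_of_complete hcau
    have hLG : ∀ k, ‖L k - G‖ ≤ 8 * C * ρ k ^ β / (1 - q) := by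
      intro k
      have := dist_le_of_le_geometric_of_tendsto q (8 * C * r0 ^ β) hq1 hL hG k
      rw [dist_eq_norm] at this
      rw [hρβ]
      refine this.trans (le_of_eq ?_)
      ring
    refine ⟨G, fun y hy => ?_⟩
    rcases eq_or_ne y x with rfl | hyx
    · simp only [sub_self, norm_zero, map_zero, mul_zero, abs_zero]
      rw [Real.zero_rpow (by linarith), mul_zero]
    have hd : 0 < ‖y - x‖ := norm_pos_iff.2 (sub_ne_zero.2 hyx)
    -- choose `k` with `ρ (k+1) < ‖y-x‖ ≤ ρ k`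
    have hex : ∃ k, ρ (k + 1) < ‖y - x‖ := by
      have ht : Tendsto (fun k => ρ (k + 1)) atTop (𝓝 0) := by
        have h1 : Tendsto (fun k : ℕ => (1 / 2 : ℝ) ^ k) atTop (𝓝 0) :=
          tendsto_pow_atTop_nhds_zero_of_lt_one (by norm_num) (by norm_num)
        have h2 := (h1.const_mul r0).comp (tendsto_add_atTop_nat 1)
        simpa [hρ, Function.comp_def] using h2
      exact ((tendsto_order.1 ht).2 _ hd).exists
    set k := Nat.find hex with hk
    have hk1 : ρ (k + 1) < ‖y - x‖ := Nat.find_spec hex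
    have hk2 : ‖y - x‖ ≤ ρ k := by
      rcases Nat.eq_zero_or_pos k with h0 | h0
      · rw [h0]; simpa [hρ] using hy
      · have := Nat.find_min hex (m := k - 1) (by omega)
        rw [show k - 1 + 1 = k by omega] at this
        exact not_lt.1 this
    have hk3 : ρ k ≤ 2 * ‖y - x‖ := by rw [hρs] at hk1; linarith
    have e1 := hcL k y hk2
    have e2 := hc k
    have e3 : |(L k - G) (y - x)| ≤ 8 * C / (1 - q) * ρ k ^ (1 + β) := by
      have h1 := (L k - G).le_opNorm (y - x)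
      rw [Real.norm_eq_abs] at h1
      refine h1.trans ((mul_le_mul (hLG k) hk2 (norm_nonneg _) ?_).trans (le_of_eq ?_))
      · have := Real.rpow_nonneg (hρ0 k).le β
        have : 0 < 1 - q := by linarith
        positivity
      · rw [Real.rpow_add (hρ0 k), Real.rpow_one]; ring
    have hpow : ρ k ^ (1 + β) ≤ (2 * ‖y - x‖) ^ (1 + β) :=
      Real.rpow_le_rpow (hρ0 k).le hk3 (by linarith)
    have hq2 : 0 < 1 - q := by linarith
    have hcoef : 0 ≤ 2 * C + 8 * C / (1 - q) := by positivity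
    refine le_trans ?_ (mul_le_mul_of_nonneg_left hpow hcoef)
    rw [sub_apply] at e3
    rw [add_mul]
    rw [abs_le] at e1 e2 e3 ⊢
    constructor <;> linarith [e1.1, e1.2, e2.1, e2.2, e3.1, e3.2]
  choose! g hg using key
  set K1 := (2 * C + 8 * C / (1 - q)) * 2 ^ (1 + β) with hK1
  have hq2 : 0 < 1 - q := by linarith
  have hK10 : 0 ≤ K1 := by
    have : (0:ℝ) ≤ 2 ^ (1 + β) := Real.rpow_nonneg (by norm_num) _
    positivity
  have hexp : ∀ x ∈ U, ∀ y, ‖y - x‖ ≤ r0 →
      |f y - f x - g x (y - x)| ≤ K1 * ‖y - x‖ ^ (1 + β) := by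
    intro x hx y hy
    refine (hg x hx y hy).trans (le_of_eq ?_)
    rw [Real.mul_rpow (by norm_num) (norm_nonneg _), hK1]; ring
  have h2p : (0:ℝ) ≤ 2 ^ (1 + β) := Real.rpow_nonneg (by norm_num) _
  refine ⟨g, K1 * (2 + 2 ^ (1 + β)), by positivity, fun x hx y hy => ?_, fun x hx => ?_,
    fun x hx y hy hxy => ?_⟩
  · refine (hexp x hx y hy).trans ?_
    have : (0:ℝ) ≤ ‖y - x‖ ^ (1 + β) := Real.rpow_nonneg (norm_nonneg _) _
    refine mul_le_mul_of_nonneg_right ?_ this
    nlinarith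
  · rw [hasFDerivAt_iff_isLittleO_nhds_zero]
    rw [Asymptotics.isLittleO_iff]
    intro ε hε
    have h1 : Tendsto (fun z : E => K1 * ‖z‖ ^ β) (𝓝 0) (𝓝 0) := by
      have : Tendsto (fun z : E => ‖z‖ ^ β) (𝓝 0) (𝓝 (‖(0:E)‖ ^ β)) :=
        (continuous_norm.rpow_const (fun _ => Or.inr hβ.le)).tendsto 0
      rw [norm_zero, Real.zero_rpow hβ.ne'] at this
      simpa using this.const_mul K1
    have h2 : ∀ᶠ z : E in 𝓝 0, K1 * ‖z‖ ^ β < ε := (tendsto_order.1 h1).2 _ hε
    have h3 : ∀ᶠ z : E in 𝓝 0, ‖z‖ < r0 := by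
      have : Tendsto (fun z : E => ‖z‖) (𝓝 0) (𝓝 0) := by
        simpa using (continuous_norm (E := E)).tendsto 0
      exact (tendsto_order.1 this).2 _ hr0
    filter_upwards [h2, h3] with z hz1 hz2
    have h4 := hexp x hx (x + z) (by simpa using hz2.le)
    simp only [add_sub_cancel_left] at h4
    rw [Real.norm_eq_abs]
    refine h4.trans ?_
    rcases eq_or_ne z 0 with rfl | hz
    · simp [Real.zero_rpow (by linarith : (1 + β) ≠ 0)]
    have hz0 : 0 < ‖z‖ := norm_pos_iff.2 hz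
    rw [Real.rpow_add hz0, Real.rpow_one]
    nlinarith
  · rcases eq_or_ne x y with rfl | hne
    · simp [Real.zero_rpow hβ.ne']
    set d := ‖x - y‖ with hd
    have hd0 : 0 < d := norm_pos_iff.2 (sub_ne_zero.2 hne)
    have hb : ∀ z, ‖z‖ ≤ d → |(g x - g y) z| ≤ K1 * (2 + 2 ^ (1 + β)) * d ^ (1 + β) := by
      intro z hz
      have e1 := hexp x hx (x + z) (by simp only [add_sub_cancel_left]; linarith)
      have e2 := hexp y hy (x + z) (by
        have : x + z - y = (x - y) + z := by abel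
        rw [this]
        exact (norm_add_le _ _).trans (by linarith))
      have e3 := hexp y hy x (by linarith)
      simp only [add_sub_cancel_left] at e1
      have n1 : ‖z‖ ^ (1 + β) ≤ d ^ (1 + β) := Real.rpow_le_rpow (norm_nonneg _) hz (by linarith)
      have n2 : ‖x + z - y‖ ^ (1 + β) ≤ 2 ^ (1 + β) * d ^ (1 + β) := by
        rw [← Real.mul_rpow (by norm_num) hd0.le]
        refine Real.rpow_le_rpow (norm_nonneg _) ?_ (by linarith)
        have : x + z - y = (x - y) + z := by abel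
        rw [this]
        exact (norm_add_le _ _).trans (by linarith)
      have e4 : g y (x + z - y) = g y (x - y) + g y z := by
        rw [← map_add]; congr 1; abel
      rw [e4] at e2
      have m1 := mul_le_mul_of_nonneg_left n1 hK10
      have m2 := mul_le_mul_of_nonneg_left n2 hK10
      rw [sub_apply]
      rw [← hd] at e3
      rw [abs_le] at e1 e2 e3 ⊢
      constructor <;> nlinarith [e1.1, e1.2, e2.1, e2.2, e3.1, e3.2]
    have h2 := opNorm_le_of_ball hd0 (by positivity) hb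
    refine h2.trans (le_of_eq ?_)
    rw [Real.rpow_add hd0, Real.rpow_one]
    field_simp

end

end Crest.Agent.R249.RegAff_717
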