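import Crest.Agent.R249.RegKer_717

/-!
Row 249, leaf D3-REG (helper717), file 11: local Hölder classes `C^{k,β}` on an open set and their
calculus (sums, products, composition with smooth functions).
-/

set_option autoImplicit false
open scoped ContDiff ENNReal Topology
open MeasureTheory Set Filter
open Crest.GeometryTopology.CoordMetric

namespace Crest.Agent.R249.RegKer_717

open Crest.Agent.R202.Ell

noncomputable section

variable {n : ℕ}

/-- locally `β`-Hölder on `Ω` -/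
def LH (β : ℝ) (Ω : Set (EE n)) (f : EE n → ℝ) : Prop :=
  ∀ x ∈ Ω, ∃ r > 0, ∃ C, 0 ≤ C ∧ Metric.closedBall x r ⊆ Ω ∧
    ∀ y ∈ Metric.closedBall x r, ∀ z ∈ Metric.closedBall x r, |f y - f z| ≤ C * ‖y - z‖ ^ β

/-- `C^{k,β}` on `Ω` -/
def CH (β : ℝ) (Ω : Set (EE n)) : ℕ → (EE n → ℝ) → Prop
  | 0, f => LH β Ω f
  | k + 1, f => (∀ x ∈ Ω, DifferentiableAt ℝ f x) ∧ ∀ i, CH β Ω k (pderiv i f)

variable {β : ℝ} {Ω : Set (EE n)} {f g : EE n → ℝ}

theorem LH.at {f : EE n → ℝ} (h : LH β Ω f) {x : EE n} (hx : x ∈ Ω) : ∃ r > 0, ∃ C, 0 ≤ C ∧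
    Metric.closedBall x r ⊆ Ω ∧ ∀ r' ≤ r, ∀ y ∈ Metric.closedBall x r', ∀ z ∈ Metric.closedBall x r',
      |f y - f z| ≤ C * ‖y - z‖ ^ β := by
  obtain ⟨r, hr, C, hC, h1, h2⟩ := h x hx
  exact ⟨r, hr, C, hC, h1, fun r' hr' y hy z hz => h2 y (Metric.closedBall_subset_closedBall hr' hy) z
    (Metric.closedBall_subset_closedBall hr' hz)⟩

theorem LH.congr (h : LH β Ω f) (he : EqOn f g Ω) : LH β Ω g := by
  intro x hx
  obtain ⟨r, hr, C, hC, h1, h2⟩ := h x hx
  refine ⟨r, hr, C, hC, h1, fun y hy z hz => ?_⟩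
  rw [← he (h1 hy), ← he (h1 hz)]
  exact h2 y hy z hz

theorem LH.continuousAt (hβ : 0 < β) (h : LH β Ω f) {x : EE n} (hx : x ∈ Ω) :
    ContinuousAt f x := by
  obtain ⟨r, hr, C, hC, h1, h2⟩ := h x hx
  rw [Metric.continuousAt_iff']
  intro ε hε
  have h3 : Tendsto (fun y : EE n => C * ‖y - x‖ ^ β) (𝓝 x) (𝓝 (C * ‖x - x‖ ^ β)) := by
    have : Continuous (fun y : EE n => C * ‖y - x‖ ^ β) :=
      continuous_const.mul ((continuous_id.sub continuous_const).norm.rpow_const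
        fun _ => Or.inr hβ.le)
    exact this.tendsto x
  rw [sub_self, norm_zero, Real.zero_rpow hβ.ne', mul_zero] at h3
  filter_upwards [(tendsto_order.1 h3).2 ε hε, Metric.closedBall_mem_nhds x hr] with y hy1 hy2
  rw [Real.dist_eq]
  exact (h2 y hy2 x (Metric.mem_closedBall_self hr.le)).trans_lt hy1

theorem LH.continuousOn (hβ : 0 < β) (h : LH β Ω f) : ContinuousOn f Ω := fun x hx =>
  (h.continuousAt hβ hx).continuousWithinAt

theorem LH.const (hΩ : IsOpen Ω) (c : ℝ) : LH β Ω (fun _ => c) := by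
  intro x hx
  obtain ⟨r, hr, h1⟩ := Metric.nhds_basis_closedBall.mem_iff.1 (hΩ.mem_nhds hx)
  exact ⟨r, hr, 0, le_rfl, h1, fun y _ z _ => by simp⟩

theorem LH.add (hf : LH β Ω f) (hg : LH β Ω g) : LH β Ω (fun x => f x + g x) := by
  intro x hx
  obtain ⟨r, hr, C, hC, h1, h2⟩ := hf.at hx
  obtain ⟨r', hr', C', hC', h1', h2'⟩ := hg.at hx
  refine ⟨min r r', lt_min hr hr', C + C', by positivity,
    (Metric.closedBall_subset_closedBall (min_le_left _ _)).trans h1, fun y hy z hz => ?_⟩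
  have e1 := h2 _ (min_le_left _ _) y hy z hz
  have e2 := h2' _ (min_le_right _ _) y hy z hz
  rw [add_mul]
  rw [abs_le] at e1 e2 ⊢
  constructor <;> linarith [e1.1, e1.2, e2.1, e2.2]

theorem LH.bdd (hβ : 0 < β) (h : LH β Ω f) {x : EE n} (hx : x ∈ Ω) : ∃ r > 0, ∃ M, 0 ≤ M ∧
    ∀ r' ≤ r, ∀ y ∈ Metric.closedBall x r', |f y| ≤ M := by
  obtain ⟨r, hr, C, hC, h1, h2⟩ := h x hx
  refine ⟨r, hr, |f x| + C * r ^ β, by have := Real.rpow_nonneg hr.le β; positivity,
    fun r' hr' y hy => ?_⟩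
  have hy' := Metric.closedBall_subset_closedBall hr' hy
  have e1 := h2 y hy' x (Metric.mem_closedBall_self hr.le)
  rw [Metric.mem_closedBall, dist_eq_norm] at hy'
  have e2 : C * ‖y - x‖ ^ β ≤ C * r ^ β :=
    mul_le_mul_of_nonneg_left (Real.rpow_le_rpow (norm_nonneg _) hy' hβ.le) hC
  have e3 := abs_sub_abs_le_abs_sub (f y) (f x)
  linarith

theorem LH.mul (hβ : 0 < β) (hf : LH β Ω f) (hg : LH β Ω g) : LH β Ω (fun x => f x * g x) := by
  intro x hx
  obtain ⟨r, hr, C, hC, h1, h2⟩ := hf.at hx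
  obtain ⟨r', hr', C', hC', h1', h2'⟩ := hg.at hx
  obtain ⟨s, hs, M, hM, b1⟩ := hf.bdd hβ hx
  obtain ⟨s', hs', M', hM', b1'⟩ := hg.bdd hβ hx
  set ρ := min (min r r') (min s s') with hρ
  have l1 : ρ ≤ r := (min_le_left _ _).trans (min_le_left _ _)
  have l2 : ρ ≤ r' := (min_le_left _ _).trans (min_le_right _ _)
  have l3 : ρ ≤ s := (min_le_right _ _).trans (min_le_left _ _)
  have l4 : ρ ≤ s' := (min_le_right _ _).trans (min_le_right _ _)
  refine ⟨ρ, lt_min (lt_min hr hr') (lt_min hs hs'), C * M' + M * C', by positivity,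
    (Metric.closedBall_subset_closedBall l1).trans h1, fun y hy z hz => ?_⟩
  have e1 := h2 _ l1 y hy z hz
  have e2 := h2' _ l2 y hy z hz
  have e3 := b1 _ l3 z hz
  have e4 := b1' _ l4 y hy
  have e5 : f y * g y - f z * g z = (f y - f z) * g y + f z * (g y - g z) := by ring
  have hp : 0 ≤ ‖y - z‖ ^ β := Real.rpow_nonneg (norm_nonneg _) _
  rw [e5]
  refine (abs_add_le _ _).trans ?_
  rw [abs_mul, abs_mul]
  have e6 := mul_le_mul e1 e4 (abs_nonneg _) (by positivity)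
  have e7 := mul_le_mul e3 e2 (abs_nonneg _) hM
  refine (add_le_add e6 e7).trans (le_of_eq ?_)
  ring

theorem LH.sum {ι : Type*} (hΩ : IsOpen Ω) (t : Finset ι) {f : ι → EE n → ℝ}
    (h : ∀ i ∈ t, LH β Ω (f i)) : LH β Ω (fun x => ∑ i ∈ t, f i x) := by
  classical
  induction t using Finset.induction_on with
  | empty => simpa using LH.const hΩ 0
  | insert a t ha ih =>
    simp only [Finset.sum_insert ha]
    exact (h a (Finset.mem_insert_self _ _)).add
      (ih fun i hi => h i (Finset.mem_insert_of_mem hi))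

theorem LH.pi {ι : Type*} [Fintype ι] (hΩ : IsOpen Ω) {u : ι → EE n → ℝ}
    (h : ∀ A, LH β Ω (u A)) {x : EE n} (hx : x ∈ Ω) : ∃ r > 0, ∃ C, 0 ≤ C ∧
    Metric.closedBall x r ⊆ Ω ∧ ∀ r' ≤ r, ∀ y ∈ Metric.closedBall x r', ∀ z ∈ Metric.closedBall x r',
      ∀ A, |u A y - u A z| ≤ C * ‖y - z‖ ^ β := by
  classical
  choose r hr C hC h1 h2 using fun A => (h A).at hx
  obtain ⟨r0, hr0, hr00⟩ := Metric.nhds_basis_closedBall.mem_iff.1 (hΩ.mem_nhds hx)
  have hex : ∃ ρ > 0, ρ ≤ r0 ∧ ∀ A, ρ ≤ r A := by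
    have : ∀ t : Finset ι, ∃ ρ > 0, ρ ≤ r0 ∧ ∀ A ∈ t, ρ ≤ r A := by
      intro t
      induction t using Finset.induction_on with
      | empty => exact ⟨r0, hr0, le_rfl, by simp⟩
      | insert a t ha ih =>
        obtain ⟨ρ, h1, h2, h3⟩ := ih
        refine ⟨min ρ (r a), lt_min h1 (hr a), (min_le_left _ _).trans h2, fun A hA => ?_⟩
        rcases Finset.mem_insert.1 hA with rfl | hA
        · exact min_le_right _ _
        · exact (min_le_left _ _).trans (h3 A hA)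
    obtain ⟨ρ, h1, h2, h3⟩ := this Finset.univ
    exact ⟨ρ, h1, h2, fun A => h3 A (Finset.mem_univ A)⟩
  obtain ⟨ρ, hρ, hρ0, hρ1⟩ := hex
  refine ⟨ρ, hρ, ∑ A, C A, Finset.sum_nonneg fun A _ => hC A,
    (Metric.closedBall_subset_closedBall hρ0).trans hr00, fun r' hr' y hy z hz A => ?_⟩
  refine (h2 A r' (hr'.trans (hρ1 A)) y hy z hz).trans
    (mul_le_mul_of_nonneg_right ?_ (Real.rpow_nonneg (norm_nonneg _) _))
  exact Finset.single_le_sum (f := C) (fun A _ => hC A) (Finset.mem_univ A)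

theorem LH.comp {ι : Type*} [Fintype ι] (hβ : 0 < β) (hΩ : IsOpen Ω) {u : ι → EE n → ℝ}
    (h : ∀ A, LH β Ω (u A)) {F : (ι → ℝ) → ℝ} {O : Set (ι → ℝ)} (hO : IsOpen O)
    (hF : ContDiffOn ℝ 1 F O) (hu : ∀ x ∈ Ω, (fun A => u A x) ∈ O) :
    LH β Ω (fun x => F fun A => u A x) := by
  intro x hx
  obtain ⟨r, hr, C, hC, h1, h2⟩ := LH.pi hΩ h hx
  have hFx : ContDiffAt ℝ 1 F (fun A => u A x) := hF.contDiffAt (hO.mem_nhds (hu x hx))
  obtain ⟨K, t, ht, hK⟩ := hFx.exists_lipschitzOnWith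
  have hc : ContinuousAt (fun x A => u A x) x :=
    continuousAt_pi.2 fun A => (h A).continuousAt hβ hx
  have h3 : ∀ᶠ y in 𝓝 x, (fun A => u A y) ∈ t := hc.eventually_mem ht
  obtain ⟨r2, hr2, h4⟩ := Metric.nhds_basis_closedBall.mem_iff.1 h3
  refine ⟨min r r2, lt_min hr hr2, K * C, by positivity,
    (Metric.closedBall_subset_closedBall (min_le_left _ _)).trans h1, fun y hy z hz => ?_⟩
  have e1 := h2 _ (min_le_left r r2) y hy z hz
  have hy2 := h4 (Metric.closedBall_subset_closedBall (min_le_right r r2) hy)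
  have hz2 := h4 (Metric.closedBall_subset_closedBall (min_le_right r r2) hz)
  have e2 := hK.dist_le_mul _ hy2 _ hz2
  rw [Real.dist_eq] at e2
  refine e2.trans ?_
  rw [mul_assoc]
  refine mul_le_mul_of_nonneg_left ?_ K.2
  have hp : 0 ≤ ‖y - z‖ ^ β := Real.rpow_nonneg (norm_nonneg _) _
  rw [dist_pi_le_iff (by positivity)]
  intro A
  rw [Real.dist_eq]
  exact e1 A

/-- operator norm by partial derivatives -/
theorem fderiv_sub_le (f g : EE n → ℝ) (x y : EE n) :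
    ‖fderiv ℝ f x - fderiv ℝ g y‖ ≤ ∑ i, |pderiv i f x - pderiv i g y| :=
  (fderiv ℝ f x - fderiv ℝ g y).opNorm_le_bound (Finset.sum_nonneg fun i _ => abs_nonneg _)
    fun z => by
      have hz : z = ∑ k, z k • (EuclideanSpace.single k (1 : ℝ) : EE n) := by
        ext j
        simp [Pi.single_apply]
      conv_lhs => rw [hz]
      rw [map_sum, Real.norm_eq_abs]
      refine (Finset.abs_sum_le_sum_abs _ _).trans ?_
      rw [Finset.sum_mul]
      refine Finset.sum_le_sum fun i _ => ?_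
      rw [map_smul, smul_eq_mul, abs_mul, mul_comm]
      refine mul_le_mul_of_nonneg_left ?_ (abs_nonneg _)
      simpa using PiLp.norm_apply_le z i

theorem fderiv_le (f : EE n → ℝ) (x : EE n) : ‖fderiv ℝ f x‖ ≤ ∑ i, |pderiv i f x| := by
  have := fderiv_sub_le f (fun _ => 0) x x
  simpa [Crest.GeometryTopology.CoordMetric.pderiv] using this

/-- locally Lipschitz and Taylor estimate for `C^{1,β}` functions -/
theorem CH.one_local (hβ : 0 < β) (hΩ : IsOpen Ω) (h : CH β Ω 1 f) {x : EE n} (hx : x ∈ Ω) :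
    ∃ r > 0, ∃ C, 0 ≤ C ∧ Metric.closedBall x r ⊆ Ω ∧ ∀ r' ≤ r,
      (∀ y ∈ Metric.closedBall x r', ∀ z ∈ Metric.closedBall x r', |f y - f z| ≤ C * ‖y - z‖) ∧
      (∀ i, ∀ y ∈ Metric.closedBall x r', |pderiv i f y| ≤ C) ∧
      (∀ i, ∀ y ∈ Metric.closedBall x r', ∀ z ∈ Metric.closedBall x r',
        |pderiv i f y - pderiv i f z| ≤ C * ‖y - z‖ ^ β) ∧
      (∀ y ∈ Metric.closedBall x r', ∀ z ∈ Metric.closedBall x r',
        |f z - f y - fderiv ℝ f y (z - y)| ≤ C * (‖z - y‖ * ‖z - y‖ ^ β)) := by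
  obtain ⟨r, hr, C, hC, h1, h2⟩ := LH.pi (u := fun i => pderiv i f) hΩ h.2 hx
  have hb : ∀ i, ∀ y ∈ Metric.closedBall x r, |pderiv i f y|
      ≤ (∑ i, |pderiv i f x|) + C * r ^ β := by
    intro i y hy
    have e1 := h2 r le_rfl y hy x (Metric.mem_closedBall_self hr.le) i
    rw [Metric.mem_closedBall, dist_eq_norm] at hy
    have e2 : C * ‖y - x‖ ^ β ≤ C * r ^ β :=
      mul_le_mul_of_nonneg_left (Real.rpow_le_rpow (norm_nonneg _) hy hβ.le) hC
    have e3 := abs_sub_abs_le_abs_sub (pderiv i f y) (pderiv i f x)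
    have e4 : |pderiv i f x| ≤ ∑ i, |pderiv i f x| :=
      Finset.single_le_sum (f := fun i => |pderiv i f x|) (fun i _ => abs_nonneg _)
        (Finset.mem_univ i)
    linarith
  set C1 := (∑ i, |pderiv i f x|) + C * r ^ β with hC1
  have hC10 : 0 ≤ C1 := by
    have := Real.rpow_nonneg hr.le β
    have : 0 ≤ ∑ i, |pderiv i f x| := Finset.sum_nonneg fun i _ => abs_nonneg _
    positivity
  have hcv : Convex ℝ (Metric.closedBall x r) := convex_closedBall _ _
  refine ⟨r, hr, C1 + n * C1 + C + n * C, by positivity, h1, fun r' hr' => ⟨fun y hy z hz => ?_,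
    fun i y hy => ?_, fun i y hy z hz => ?_, fun y hy z hz => ?_⟩⟩
  · have hy' := Metric.closedBall_subset_closedBall hr' hy
    have hz' := Metric.closedBall_subset_closedBall hr' hz
    have := hcv.norm_image_sub_le_of_norm_fderiv_le (f := f) (C := n * C1)
      (fun w hw => h.1 w (h1 hw)) (fun w hw => ?_) hz' hy'
    · rw [Real.norm_eq_abs] at this
      refine this.trans (mul_le_mul_of_nonneg_right ?_ (norm_nonneg _))
      have : 0 ≤ (n : ℝ) * C := by positivity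
      linarith
    · refine (fderiv_le f w).trans ((Finset.sum_le_sum (g := fun _ => C1) fun i _ =>
        hb i w hw).trans ?_)
      simp
  · refine (hb i y (Metric.closedBall_subset_closedBall hr' hy)).trans ?_
    have : 0 ≤ (n : ℝ) * C1 := by positivity
    have : 0 ≤ (n : ℝ) * C := by positivity
    linarith
  · refine (h2 r' hr' y hy z hz i).trans (mul_le_mul_of_nonneg_right ?_
      (Real.rpow_nonneg (norm_nonneg _) _))
    have : 0 ≤ (n : ℝ) * C1 := by positivity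
    have : 0 ≤ (n : ℝ) * C := by positivity
    linarith
  · have hy' := Metric.closedBall_subset_closedBall hr' hy
    have hz' := Metric.closedBall_subset_closedBall hr' hz
    have hcs : Convex ℝ (segment ℝ y z) := convex_segment y z
    have hsub : segment ℝ y z ⊆ Metric.closedBall x r := hcv.segment_subset hy' hz'
    have := hcs.norm_image_sub_le_of_norm_fderiv_le' (f := f) (φ := fderiv ℝ f y)
      (C := n * (C * ‖z - y‖ ^ β))
      (fun w hw => h.1 w (h1 (hsub hw))) (fun w hw => ?_) (left_mem_segment ℝ y z)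
      (right_mem_segment ℝ y z)
    · rw [Real.norm_eq_abs] at this
      refine this.trans ?_
      have hp : 0 ≤ ‖z - y‖ * ‖z - y‖ ^ β := by positivity
      calc n * (C * ‖z - y‖ ^ β) * ‖z - y‖ = (n * C) * (‖z - y‖ * ‖z - y‖ ^ β) := by ring
        _ ≤ _ := by
          refine mul_le_mul_of_nonneg_right ?_ hp
          have : 0 ≤ (n : ℝ) * C1 := by positivity
          linarith
    · refine (fderiv_sub_le f f w y).trans ?_
      have hwy : ‖w - y‖ ≤ ‖z - y‖ := by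
        obtain ⟨t, ht, rfl⟩ := (segment_eq_image' ℝ y z ▸ hw : w ∈ (fun t : ℝ => y + t • (z - y)) ''
          Set.Icc 0 1)
        have : y + t • (z - y) - y = t • (z - y) := by abel
        rw [this, norm_smul, Real.norm_eq_abs, abs_of_nonneg ht.1]
        exact mul_le_of_le_one_left (norm_nonneg _) ht.2
      refine (Finset.sum_le_sum (g := fun _ => C * ‖z - y‖ ^ β) fun i _ => ?_).trans (by simp)
      exact (h2 r le_rfl w (hsub hw) y hy' i).trans (mul_le_mul_of_nonneg_left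
        (Real.rpow_le_rpow (norm_nonneg _) hwy hβ.le) hC)

theorem CH.one_zero (hβ : 0 < β) (hβ1 : β ≤ 1) (hΩ : IsOpen Ω) (h : CH β Ω 1 f) : CH β Ω 0 f := by
  intro x hx
  obtain ⟨r, hr, C, hC, h1, h2⟩ := CH.one_local hβ hΩ h hx
  refine ⟨min r (1 / 2), lt_min hr (by norm_num), C, hC,
    (Metric.closedBall_subset_closedBall (min_le_left _ _)).trans h1, fun y hy z hz => ?_⟩
  refine ((h2 _ (min_le_left _ _)).1 y hy z hz).trans (mul_le_mul_of_nonneg_left ?_ hC)
  have hy' := Metric.closedBall_subset_closedBall (min_le_right _ _) hy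
  have hz' := Metric.closedBall_subset_closedBall (min_le_right _ _) hz
  rw [Metric.mem_closedBall] at hy' hz'
  have hd : ‖y - z‖ ≤ 1 := by
    rw [← dist_eq_norm]
    have := dist_triangle_right y z x
    linarith
  rcases eq_or_ne y z with rfl | hyz
  · simp; positivity
  have h0 : 0 < ‖y - z‖ := norm_pos_iff.2 (sub_ne_zero.2 hyz)
  calc ‖y - z‖ = ‖y - z‖ ^ (1 : ℝ) := (Real.rpow_one _).symm
    _ ≤ ‖y - z‖ ^ β := Real.rpow_le_rpow_of_exponent_ge h0 hd hβ1

theorem CH.of_succ (hβ : 0 < β) (hβ1 : β ≤ 1) (hΩ : IsOpen Ω) : ∀ {k : ℕ} {f : EE n → ℝ},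
    CH β Ω (k + 1) f → CH β Ω k f
  | 0, _, h => CH.one_zero hβ hβ1 hΩ h
  | _ + 1, _, h => ⟨h.1, fun i => CH.of_succ hβ hβ1 hΩ (h.2 i)⟩

theorem CH.of_le (hβ : 0 < β) (hβ1 : β ≤ 1) (hΩ : IsOpen Ω) {k l : ℕ} (hkl : k ≤ l)
    {f : EE n → ℝ} (h : CH β Ω l f) : CH β Ω k f := by
  induction l, hkl using Nat.le_induction with
  | base => exact h
  | succ l _ ih => exact ih (CH.of_succ hβ hβ1 hΩ h)

theorem pderiv_congr (hΩ : IsOpen Ω) (he : EqOn f g Ω) (i : Fin n) :
    EqOn (pderiv i f) (pderiv i g) Ω := by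
  intro x hx
  have : f =ᶠ[𝓝 x] g := by
    filter_upwards [hΩ.mem_nhds hx] with y hy using he hy
  unfold Crest.GeometryTopology.CoordMetric.pderiv
  rw [this.fderiv_eq]

theorem CH.congr (hΩ : IsOpen Ω) : ∀ {k : ℕ} {f g : EE n → ℝ}, CH β Ω k f → EqOn f g Ω →
    CH β Ω k g
  | 0, _, _, h, he => LH.congr h he
  | k + 1, f, g, h, he => ⟨fun x hx => (h.1 x hx).congr_of_eventuallyEq (by
      filter_upwards [hΩ.mem_nhds hx] with y hy using (he hy).symm),
      fun i => CH.congr hΩ (h.2 i) (pderiv_congr hΩ he i)⟩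

theorem CH.const (hΩ : IsOpen Ω) : ∀ {k : ℕ} (c : ℝ), CH β Ω k (fun _ => c)
  | 0, c => LH.const hΩ c
  | k + 1, c => ⟨fun x _ => differentiableAt_const _, fun i => by
      have : pderiv i (fun _ : EE n => c) = fun _ => 0 := by
        ext x; simp [Crest.GeometryTopology.CoordMetric.pderiv]
      rw [this]
      exact CH.const hΩ 0⟩

theorem CH.add (hΩ : IsOpen Ω) : ∀ {k : ℕ} {f g : EE n → ℝ}, CH β Ω k f → CH β Ω k g →
    CH β Ω k (fun x => f x + g x)
  | 0, _, _, hf, hg => LH.add hf hg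
  | k + 1, f, g, hf, hg => ⟨fun x hx => (hf.1 x hx).add (hg.1 x hx), fun i =>
      (CH.add hΩ (hf.2 i) (hg.2 i)).congr hΩ fun x hx =>
        (pderiv_add i x (hf.1 x hx) (hg.1 x hx)).symm⟩

theorem CH.mul (hβ : 0 < β) (hβ1 : β ≤ 1) (hΩ : IsOpen Ω) : ∀ {k : ℕ} {f g : EE n → ℝ},
    CH β Ω k f → CH β Ω k g → CH β Ω k (fun x => f x * g x)
  | 0, _, _, hf, hg => LH.mul hβ hf hg
  | k + 1, f, g, hf, hg => ⟨fun x hx => (hf.1 x hx).mul (hg.1 x hx), fun i =>
      ((CH.mul hβ hβ1 hΩ (hf.2 i) (hg.of_succ hβ hβ1 hΩ)).add hΩ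
        (CH.mul hβ hβ1 hΩ (hf.of_succ hβ hβ1 hΩ) (hg.2 i))).congr hΩ fun x hx =>
        (pderiv_mul i x (hf.1 x hx) (hg.1 x hx)).symm⟩

theorem CH.const_mul (hβ : 0 < β) (hβ1 : β ≤ 1) (hΩ : IsOpen Ω) {k : ℕ} {f : EE n → ℝ}
    (h : CH β Ω k f) (c : ℝ) : CH β Ω k (fun x => c * f x) :=
  CH.mul hβ hβ1 hΩ (CH.const hΩ c) h

theorem CH.neg (hβ : 0 < β) (hβ1 : β ≤ 1) (hΩ : IsOpen Ω) {k : ℕ} {f : EE n → ℝ}
    (h : CH β Ω k f) : CH β Ω k (fun x => - f x) :=
  (h.const_mul hβ hβ1 hΩ (-1)).congr hΩ fun x _ => by simp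

theorem CH.sub (hβ : 0 < β) (hβ1 : β ≤ 1) (hΩ : IsOpen Ω) {k : ℕ} {f g : EE n → ℝ}
    (hf : CH β Ω k f) (hg : CH β Ω k g) : CH β Ω k (fun x => f x - g x) :=
  (hf.add hΩ (hg.neg hβ hβ1 hΩ)).congr hΩ fun x _ => by simp [sub_eq_add_neg]

theorem CH.sum {ι : Type*} (hΩ : IsOpen Ω) {k : ℕ} (t : Finset ι) {f : ι → EE n → ℝ}
    (h : ∀ i ∈ t, CH β Ω k (f i)) : CH β Ω k (fun x => ∑ i ∈ t, f i x) := by
  classical
  induction t using Finset.induction_on with
  | empty => simpa using CH.const hΩ 0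
  | insert a t ha ih =>
    simp only [Finset.sum_insert ha]
    exact (h a (Finset.mem_insert_self _ _)).add hΩ
      (ih fun i hi => h i (Finset.mem_insert_of_mem hi))

/-- composition with a smooth function -/
theorem CH.comp {ι : Type*} [Fintype ι] (hβ : 0 < β) (hβ1 : β ≤ 1) (hΩ : IsOpen Ω)
    {O : Set (ι → ℝ)} (hO : IsOpen O) : ∀ {k : ℕ} {u : ι → EE n → ℝ} {F : (ι → ℝ) → ℝ},
    (∀ A, CH β Ω k (u A)) → ContDiffOn ℝ ∞ F O → (∀ x ∈ Ω, (fun A => u A x) ∈ O) →
    CH β Ω k (fun x => F fun A => u A x)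
  | 0, u, F, h, hF, hu => LH.comp hβ hΩ h hO (hF.of_le (by exact_mod_cast le_top)) hu
  | k + 1, u, F, h, hF, hu => by
    classical
    have hud : ∀ x ∈ Ω, HasFDerivAt (fun x A => u A x)
        (ContinuousLinearMap.pi fun A => fderiv ℝ (u A) x) x := fun x hx =>
      hasFDerivAt_pi.2 fun A => ((h A).1 x hx).hasFDerivAt
    have hFd : ∀ x ∈ Ω, HasFDerivAt F (fderiv ℝ F (fun A => u A x)) (fun A => u A x) := fun x hx =>
      ((hF.contDiffAt (hO.mem_nhds (hu x hx))).differentiableAt (by simp)).hasFDerivAt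
    have hcd : ∀ x ∈ Ω, HasFDerivAt (fun x => F fun A => u A x)
        ((fderiv ℝ F (fun A => u A x)).comp (ContinuousLinearMap.pi fun A => fderiv ℝ (u A) x)) x :=
      fun x hx => (hFd x hx).comp x (hud x hx)
    refine ⟨fun x hx => (hcd x hx).differentiableAt, fun i => ?_⟩
    have hFA : ∀ A : ι, ContDiffOn ℝ ∞ (fun y => fderiv ℝ F y (Pi.single A 1)) O := fun A =>
      (hF.fderiv_of_isOpen hO (m := ∞) (by simp)).clm_apply contDiffOn_const
    have hS : CH β Ω k (fun x => ∑ A, fderiv ℝ F (fun A => u A x) (Pi.single A 1) *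
        pderiv i (u A) x) :=
      CH.sum hΩ _ fun A _ => CH.mul hβ hβ1 hΩ
        (CH.comp hβ hβ1 hΩ hO (fun B => (h B).of_succ hβ hβ1 hΩ) (hFA A) hu) ((h A).2 i)
    refine hS.congr hΩ fun x hx => ?_
    show _ = fderiv ℝ (fun x => F fun A => u A x) x (EuclideanSpace.single i 1)
    rw [(hcd x hx).fderiv, ContinuousLinearMap.comp_apply]
    have e1 : (ContinuousLinearMap.pi fun A => fderiv ℝ (u A) x) (EuclideanSpace.single i 1)
        = ∑ A, pderiv i (u A) x • (Pi.single A 1 : ι → ℝ) := by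
      ext A
      simp [Finset.sum_apply, Pi.single_apply, Crest.GeometryTopology.CoordMetric.pderiv]
    rw [e1, map_sum]
    refine Finset.sum_congr rfl fun A _ => ?_
    rw [map_smul, smul_eq_mul, mul_comm]

theorem CH.contDiffOn (hβ : 0 < β) (hΩ : IsOpen Ω) : ∀ {k : ℕ} {f : EE n → ℝ}, CH β Ω k f →
    ContDiffOn ℝ k f Ω
  | 0, _, h => by
    rw [Nat.cast_zero, contDiffOn_zero]; exact LH.continuousOn hβ h
  | k + 1, f, h => by
    have h1 : ∀ i, ContDiffOn ℝ k (pderiv i f) Ω := fun i => CH.contDiffOn hβ hΩ (h.2 i)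
    have h2 : ((k + 1 : ℕ) : WithTop ℕ∞) = (k : WithTop ℕ∞) + 1 := by push_cast; rfl
    rw [h2, contDiffOn_succ_iff_fderiv_of_isOpen hΩ]
    refine ⟨fun x hx => (h.1 x hx).differentiableWithinAt, fun hw => ?_, ?_⟩
    · exact absurd hw (by simp)
    · have e : ∀ x, fderiv ℝ f x = ∑ i, pderiv i f x • (EuclideanSpace.proj (𝕜 := ℝ) i :
          EE n →L[ℝ] ℝ) := by
        intro x
        ext z
        have hz : z = ∑ k, z k • (EuclideanSpace.single k (1 : ℝ) : EE n) := by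
          ext j
          simp [Pi.single_apply]
        conv_lhs => rw [hz]
        rw [map_sum]
        simp only [FunLike.coe_sum, Finset.sum_apply,
          _root_.smul_apply, map_smul, smul_eq_mul]
        refine Finset.sum_congr rfl fun i _ => ?_
        show z i * pderiv i f x = _
        rw [mul_comm]; rfl
      have e2 : fderiv ℝ f = fun x => ∑ i, pderiv i f x • (EuclideanSpace.proj (𝕜 := ℝ) i :
          EE n →L[ℝ] ℝ) := funext e
      rw [e2]
      exact ContDiffOn.sum fun i _ => (h1 i).smul contDiffOn_const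

theorem contDiffOn_of_CH (hβ : 0 < β) (hΩ : IsOpen Ω) {f : EE n → ℝ} (h : ∀ k, CH β Ω k f) :
    ContDiffOn ℝ ∞ f Ω :=
  contDiffOn_infty.2 fun k => CH.contDiffOn hβ hΩ (h k)

/-- smooth functions are in all classes -/
theorem CH.of_contDiffOn (hβ : 0 < β) (hβ1 : β ≤ 1) (hΩ : IsOpen Ω) : ∀ {k : ℕ} {f : EE n → ℝ},
    ContDiffOn ℝ ∞ f Ω → CH β Ω k f
  | 0, f, h => by
    intro x hx
    obtain ⟨K, t, ht, hK⟩ := ((h.contDiffAt (hΩ.mem_nhds hx)).of_le
      (m := 1) (by exact_mod_cast le_top)).exists_lipschitzOnWith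
    obtain ⟨r, hr, h1⟩ := Metric.nhds_basis_closedBall.mem_iff.1 (inter_mem ht (hΩ.mem_nhds hx))
    refine ⟨min r (1 / 2), lt_min hr (by norm_num), K, K.2,
      (Metric.closedBall_subset_closedBall (min_le_left _ _)).trans
        (h1.trans inter_subset_right), fun y hy z hz => ?_⟩
    have hy' := (h1 (Metric.closedBall_subset_closedBall (min_le_left _ _) hy)).1
    have hz' := (h1 (Metric.closedBall_subset_closedBall (min_le_left _ _) hz)).1
    have e2 := hK.dist_le_mul _ hy' _ hz'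
    rw [Real.dist_eq] at e2
    refine e2.trans (mul_le_mul_of_nonneg_left ?_ K.2)
    have hy'' := Metric.closedBall_subset_closedBall (min_le_right _ _) hy
    have hz'' := Metric.closedBall_subset_closedBall (min_le_right _ _) hz
    rw [Metric.mem_closedBall] at hy'' hz''
    have hd : ‖y - z‖ ≤ 1 := by
      rw [← dist_eq_norm]
      have := dist_triangle_right y z x
      linarith
    rw [dist_eq_norm]
    rcases eq_or_ne y z with rfl | hyz
    · simp; positivity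
    have h0 : 0 < ‖y - z‖ := norm_pos_iff.2 (sub_ne_zero.2 hyz)
    calc ‖y - z‖ = ‖y - z‖ ^ (1 : ℝ) := (Real.rpow_one _).symm
      _ ≤ ‖y - z‖ ^ β := Real.rpow_le_rpow_of_exponent_ge h0 hd hβ1
  | k + 1, f, h => ⟨fun x hx => (h.contDiffAt (hΩ.mem_nhds hx)).differentiableAt (by simp),
      fun i => CH.of_contDiffOn hβ hβ1 hΩ
        ((h.fderiv_of_isOpen hΩ (m := ∞) (by simp)).clm_apply contDiffOn_const)⟩

end

end Crest.Agent.R249.RegKer_717
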