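import Crest.Agent.R249.RegKer_717

/-!
Row 249, leaf D3-REG (helper717), file 7: abstract dyadic lemma: smooth approximations `G k → g`
with controlled increments give affine approximation of order `1+β`.
-/

set_option autoImplicit false
open scoped ContDiff ENNReal Topology
open MeasureTheory Set Filter
open Crest.GeometryTopology.CoordMetric

namespace Crest.Agent.R249.RegTay_717

open Crest.Agent.R202.Ell

noncomputable section

variable {n : ℕ}

theorem norm_le_sum (L : EE n →L[ℝ] ℝ) : ‖L‖ ≤ ∑ i, |L (EuclideanSpace.single i 1)| := by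
  refine L.opNorm_le_bound (Finset.sum_nonneg fun i _ => abs_nonneg _) fun z => ?_
  have hz : z = ∑ k, z k • (EuclideanSpace.single k (1 : ℝ) : EE n) := by
    ext j
    simp [Pi.single_apply]
  conv_lhs => rw [hz]
  rw [map_sum, Real.norm_eq_abs]
  refine (Finset.abs_sum_le_sum_abs _ _).trans ?_
  rw [Finset.sum_mul]
  refine Finset.sum_le_sum fun i _ => ?_
  rw [map_smul, smul_eq_mul, abs_mul, mul_comm]
  refine mul_le_mul_of_nonneg_left ?_ (abs_nonneg _)
  simpa using PiLp.norm_apply_le z i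

/-- Taylor estimate of order one -/
theorem taylor1 {G : EE n → ℝ} (hG : ContDiff ℝ 2 G) {x0 : EE n} {r M : ℝ} (hr : 0 ≤ r)
    (hM : ∀ y ∈ Metric.closedBall x0 r, ∀ i j, |pderiv i (pderiv j G) y| ≤ M) :
    ∀ y, ‖y - x0‖ ≤ r → |G y - G x0 - fderiv ℝ G x0 (y - x0)| ≤ (n * (n * M)) * r * r := by
  intro y hy
  have hM0 : 0 ≤ n * (n * M) := by
    rcases Nat.eq_zero_or_pos n with h0 | h0
    · subst h0; simp
    · have := (abs_nonneg _).trans (hM x0 (Metric.mem_closedBall_self hr) ⟨0, h0⟩ ⟨0, h0⟩)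
      positivity
  have hd : Differentiable ℝ G := hG.differentiable (by norm_num)
  have hpc : ∀ j, ContDiff ℝ 1 (pderiv j G) := fun j => by
    have h1 : ContDiff ℝ 1 (fderiv ℝ G) := hG.fderiv_right (m := 1) (by norm_num)
    exact h1.clm_apply contDiff_const
  have hconv : Convex ℝ (Metric.closedBall x0 r) := convex_closedBall _ _
  have hx0 : x0 ∈ Metric.closedBall x0 r := Metric.mem_closedBall_self hr
  have h1 : ∀ j, ∀ x ∈ Metric.closedBall x0 r, |pderiv j G x - pderiv j G x0| ≤ (n * M) * r := by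
    intro j x hx
    have h2 : ∀ x' ∈ Metric.closedBall x0 r, ‖fderiv ℝ (pderiv j G) x'‖ ≤ n * M := by
      intro x' hx'
      refine (norm_le_sum _).trans ?_
      refine (Finset.sum_le_sum (g := fun _ => M) fun i _ => hM x' hx' i j).trans ?_
      simp
    have h3 := hconv.norm_image_sub_le_of_norm_fderiv_le
      (fun x' _ => (hpc j).differentiable one_ne_zero x') h2 hx0 hx
    rw [Real.norm_eq_abs] at h3
    refine h3.trans (mul_le_mul_of_nonneg_left ?_ ((norm_nonneg _).trans (h2 x0 hx0)))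
    rwa [Metric.mem_closedBall, dist_eq_norm] at hx
  have h2 : ∀ x ∈ Metric.closedBall x0 r, ‖fderiv ℝ G x - fderiv ℝ G x0‖ ≤ (n * (n * M)) * r := by
    intro x hx
    refine (norm_le_sum _).trans ?_
    refine (Finset.sum_le_sum (g := fun _ => (n * M) * r) fun i _ => ?_).trans ?_
    · exact h1 i x hx
    · simp; ring_nf; rfl
  have h3 := hconv.norm_image_sub_le_of_norm_fderiv_le' (fun x' _ => hd x') h2 hx0
    (show y ∈ Metric.closedBall x0 r by rwa [Metric.mem_closedBall, dist_eq_norm])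
  rw [Real.norm_eq_abs] at h3
  exact h3.trans (mul_le_mul_of_nonneg_left hy (by positivity))

/-- geometric sum from below -/
theorem sum_up {q : ℝ} (hq : 1 < q) (K : ℕ) : ∑ k ∈ Finset.range K, q ^ k ≤ q ^ K / (q - 1) := by
  rw [geom_sum_eq hq.ne']
  exact div_le_div_of_nonneg_right (by linarith) (by linarith)

/-- **Abstract dyadic lemma.** -/
theorem dyadic {g : EE n → ℝ} {G : ℕ → EE n → ℝ} {x0 : EE n} {r0 C p q β : ℝ} (hr0 : 0 < r0)
    (hr1 : r0 ≤ 1) (hC : 0 ≤ C) (hq : 0 < q) (hβ : 0 < β) (hβ1 : β < 1) (hpq : p + q = 1 + β)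
    (hG : ∀ k, ContDiff ℝ 2 (G k)) (K : ℕ)
    (h1 : ∀ k, K ≤ k → ∀ y ∈ Metric.closedBall x0 (r0 * (1 / 2) ^ K),
      |G (k + 1) y - G k y| ≤ C * (r0 * (1 / 2) ^ K) ^ p * (r0 * (1 / 2) ^ k) ^ q)
    (h2 : ∀ k, k < K → ∀ y ∈ Metric.closedBall x0 (r0 * (1 / 2) ^ K), ∀ i j,
      |pderiv i (pderiv j (G (k + 1))) y - pderiv i (pderiv j (G k)) y|
        ≤ C * (r0 * (1 / 2) ^ k) ^ (β - 1))
    (h3 : ∀ y ∈ Metric.closedBall x0 (r0 * (1 / 2) ^ K), Tendsto (fun k => G k y) atTop (𝓝 (g y)))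
    (h4 : ∀ y ∈ Metric.closedBall x0 (r0 * (1 / 2) ^ K), ∀ i j,
      |pderiv i (pderiv j (G 0)) y| ≤ C) :
    ∃ (c : ℝ) (L : EE n →L[ℝ] ℝ), ∀ y, ‖y - x0‖ ≤ r0 * (1 / 2) ^ K →
      |g y - c - L (y - x0)| ≤ (C / (1 - (1 / 2) ^ q) + n * (n * (C + C / (2 ^ (1 - β) - 1)))) *
        (r0 * (1 / 2) ^ K) ^ (1 + β) := by
  set r := r0 * (1 / 2 : ℝ) ^ K with hr
  have hrpos : 0 < r := by positivity
  have hrle : r ≤ 1 := by
    have : (1 / 2 : ℝ) ^ K ≤ 1 := pow_le_one₀ (by norm_num) (by norm_num)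
    calc r ≤ r0 * 1 := mul_le_mul_of_nonneg_left this hr0.le
      _ ≤ 1 := by linarith
  -- second derivative bound of `G K`
  set Q : ℝ := 2 ^ (1 - β) with hQ
  have hQ1 : 1 < Q := Real.one_lt_rpow (by norm_num) (by linarith)
  have hsk : ∀ k : ℕ, (r0 * (1 / 2) ^ k) ^ (β - 1) = r0 ^ (β - 1) * Q ^ k := by
    intro k
    rw [Real.mul_rpow hr0.le (by positivity), hQ, ← Real.rpow_natCast, ← Real.rpow_natCast,
      ← Real.rpow_mul (by norm_num), ← Real.rpow_mul (by norm_num), one_div,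
      Real.inv_rpow (by norm_num), ← Real.rpow_neg (by norm_num)]
    congr 2; ring
  have hD2 : ∀ y ∈ Metric.closedBall x0 r, ∀ i j, |pderiv i (pderiv j (G K)) y|
      ≤ (C + C / (Q - 1)) * r ^ (β - 1) := by
    intro y hy i j
    have htel : ∀ m, m ≤ K → |pderiv i (pderiv j (G m)) y|
        ≤ C + ∑ k ∈ Finset.range m, C * (r0 ^ (β - 1) * Q ^ k) := by
      intro m
      induction m with
      | zero => intro _; simpa using h4 y hy i j
      | succ m ih =>
        intro hm
        have e1 := ih (by omega)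
        have e2 := h2 m (by omega) y hy i j
        rw [hsk] at e2
        rw [Finset.sum_range_succ]
        have := abs_add_le (pderiv i (pderiv j (G m)) y)
          (pderiv i (pderiv j (G (m + 1))) y - pderiv i (pderiv j (G m)) y)
        rw [add_sub_cancel] at this
        linarith
    refine (htel K le_rfl).trans ?_
    rw [← Finset.mul_sum, ← Finset.mul_sum]
    have e3 := sum_up hQ1 K
    have e4 : r ^ (β - 1) = r0 ^ (β - 1) * Q ^ K := by rw [hr, hsk]
    have e5 : 1 ≤ r ^ (β - 1) :=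
      Real.one_le_rpow_of_pos_of_le_one_of_nonpos hrpos hrle (by linarith)
    have e6 : 0 ≤ r0 ^ (β - 1) := Real.rpow_nonneg hr0.le _
    have e7 : C * (r0 ^ (β - 1) * ∑ k ∈ Finset.range K, Q ^ k)
        ≤ C * (r0 ^ (β - 1) * (Q ^ K / (Q - 1))) :=
      mul_le_mul_of_nonneg_left (mul_le_mul_of_nonneg_left e3 e6) hC
    have e8 : C * (r0 ^ (β - 1) * (Q ^ K / (Q - 1))) = C / (Q - 1) * r ^ (β - 1) := by
      rw [e4]; ring
    rw [e8] at e7
    rw [add_mul]
    nlinarith
  have hT := taylor1 (hG K) hrpos.le hD2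
  refine ⟨G K x0, fderiv ℝ (G K) x0, fun y hy => ?_⟩
  have hyb : y ∈ Metric.closedBall x0 r := by rwa [Metric.mem_closedBall, dist_eq_norm]
  have e1 := hT y hy
  -- tail
  set P : ℝ := (1 / 2 : ℝ) ^ q with hP
  have hP0 : 0 < P := Real.rpow_pos_of_pos (by norm_num) _
  have hP1 : P < 1 := Real.rpow_lt_one (by norm_num) (by norm_num) hq
  have hsq : ∀ k : ℕ, (r0 * (1 / 2) ^ (K + k)) ^ q = r ^ q * P ^ k := by
    intro k
    have : r0 * (1 / 2 : ℝ) ^ (K + k) = r * (1 / 2) ^ k := by rw [hr, pow_add]; ring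
    rw [this, Real.mul_rpow hrpos.le (by positivity), hP, ← Real.rpow_natCast,
      ← Real.rpow_natCast, ← Real.rpow_mul (by norm_num), ← Real.rpow_mul (by norm_num),
      mul_comm (k : ℝ) q]
  have e2 : |g y - G K y| ≤ C / (1 - P) * r ^ (1 + β) := by
    have hdist : ∀ k : ℕ, dist (G (K + k) y) (G (K + (k + 1)) y) ≤ (C * r ^ p * r ^ q) * P ^ k := by
      intro k
      rw [dist_comm, Real.dist_eq]
      have := h1 (K + k) (by omega) y hyb
      rw [hsq] at this
      calc |G (K + (k + 1)) y - G (K + k) y| ≤ C * r ^ p * (r ^ q * P ^ k) := this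
        _ = _ := by ring
    have hlim : Tendsto (fun k => G (K + k) y) atTop (𝓝 (g y)) := by
      have := (h3 y hyb).comp (tendsto_add_atTop_nat K)
      refine this.congr fun k => ?_
      simp [add_comm]
    have := dist_le_of_le_geometric_of_tendsto₀ P (C * r ^ p * r ^ q) hP1 hdist hlim
    rw [dist_comm, Real.dist_eq] at this
    simp only [add_zero] at this
    refine this.trans (le_of_eq ?_)
    rw [← hpq, Real.rpow_add hrpos]; ring
  have e3 : (n * (n * ((C + C / (Q - 1)) * r ^ (β - 1)))) * r * r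
      = n * (n * (C + C / (Q - 1))) * r ^ (1 + β) := by
    have : r ^ (1 + β) = r ^ (β - 1) * (r * r) := by
      rw [← pow_two, ← Real.rpow_natCast r 2, ← Real.rpow_add hrpos]
      congr 1; push_cast; ring
    rw [this]; ring
  rw [e3] at e1
  rw [add_mul]
  rw [abs_le] at e1 e2 ⊢
  constructor <;> linarith [e1.1, e1.2, e2.1, e2.2]

end

end Crest.Agent.R249.RegTay_717
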