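import Crest.Agent.R249.RegAda_717
import Crest.Agent.R249.RegAff_717
import Crest.Agent.R249.RegTay_717

/-!
Row 249, leaf D3-REG (helper717), file 8: estimates of `cv (Ker T s (Δψ)) f` imply `f ∈ C^{1,β}`.
-/

set_option autoImplicit false
open scoped ContDiff ENNReal Topology
open MeasureTheory Set Filter
open Crest.GeometryTopology.CoordMetric

namespace Crest.Agent.R249.RegKer_717

open Crest.Agent.R202.Ell

noncomputable section

variable {n : ℕ}

theorem cv_ker_pderiv {T : EE n →L[ℝ] EE n} {s : ℝ} {ψ f : EE n → ℝ} (hs : 0 < s)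
    (hψ : IsTest ψ) {c : ℝ} (hT : ∀ x, ‖x‖ ≤ c * ‖T x‖) (hf : LocallyIntegrable f)
    (i : Fin n) (x : EE n) :
    pderiv i (cv (Ker T s ψ) f) x = s⁻¹ * ∑ k, ent T k i * cv (Ker T s (pderiv k ψ)) f x := by
  have hK : IsTest (Ker T s ψ) := ker_test hs hψ hT
  rw [pderiv_cv hK hf, cv_apply]
  have e1 : ∀ t, f t * pderiv i (Ker T s ψ) (x - t)
      = ∑ k, (s⁻¹ * ent T k i) * (f t * Ker T s (pderiv k ψ) (x - t)) := by
    intro t
    rw [pderiv_ker (hψ.smooth.differentiable (by simp)), Finset.mul_sum, Finset.mul_sum]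
    exact Finset.sum_congr rfl fun k _ => by ring
  simp only [e1]
  rw [integral_finsetSum]
  · rw [Finset.mul_sum]
    refine Finset.sum_congr rfl fun k _ => ?_
    rw [integral_const_mul, cv_apply]; ring
  · intro k _
    exact (cv_exists (ker_test hs (hψ.pderiv k) hT) hf x).const_mul _

theorem cv_ker_pderiv2 {T : EE n →L[ℝ] EE n} {s : ℝ} {ψ f : EE n → ℝ} (hs : 0 < s)
    (hψ : IsTest ψ) {c : ℝ} (hT : ∀ x, ‖x‖ ≤ c * ‖T x‖) (hf : LocallyIntegrable f)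
    (i j : Fin n) (x : EE n) :
    pderiv i (pderiv j (cv (Ker T s ψ) f)) x
      = s⁻¹ ^ 2 * ∑ l, ∑ k, ent T k i * ent T l j * cv (Ker T s (pderiv k (pderiv l ψ))) f x := by
  have h1 : pderiv j (cv (Ker T s ψ) f)
      = fun x => s⁻¹ * ∑ l, ent T l j * cv (Ker T s (pderiv l ψ)) f x :=
    funext fun x => cv_ker_pderiv hs hψ hT hf j x
  have hd : ∀ {φ : EE n → ℝ}, IsTest φ → Differentiable ℝ (cv (Ker T s φ) f) := fun h =>
    (cv_smooth (ker_test hs h hT) hf).differentiable (by simp)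
  rw [h1, pderiv_const_mul i x _ (DifferentiableAt.fun_sum fun l _ =>
    ((hd (hψ.pderiv l)) x).const_mul _), pderiv_sum _ i x (fun l _ =>
    ((hd (hψ.pderiv l)) x).const_mul _), Finset.mul_sum, Finset.mul_sum]
  refine Finset.sum_congr rfl fun l _ => ?_
  rw [pderiv_const_mul i x _ ((hd (hψ.pderiv l)) x), cv_ker_pderiv hs (hψ.pderiv l) hT hf,
    Finset.mul_sum, Finset.mul_sum, Finset.mul_sum, Finset.mul_sum]
  exact Finset.sum_congr rfl fun k _ => by ring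

theorem two_le : (2 : WithTop ℕ∞) ≤ ((⊤ : ℕ∞) : WithTop ℕ∞) :=
  WithTop.coe_le_coe.2 (le_top : (2 : ℕ∞) ≤ ⊤)

theorem it_cd2 {φ : EE n → ℝ} (h : IsTest φ) : ContDiff ℝ 2 φ := h.smooth.of_le two_le

theorem it_diff {φ : EE n → ℝ} (h : IsTest φ) : Differentiable ℝ φ :=
  h.smooth.differentiable (by simp)

theorem isTest_sum {ι : Type*} (t : Finset ι) {φ : ι → EE n → ℝ} (h : ∀ i ∈ t, IsTest (φ i)) :
    IsTest (fun x => ∑ i ∈ t, φ i x) := by
  classical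
  induction t using Finset.induction_on with
  | empty =>
    simp only [Finset.sum_empty]
    exact ⟨contDiff_const, HasCompactSupport.zero⟩
  | insert a t ha ih =>
    simp only [Finset.sum_insert ha]
    exact (h a (Finset.mem_insert_self _ _)).add
      (ih fun i hi => h i (Finset.mem_insert_of_mem hi))

theorem isTest_lap {φ : EE n → ℝ} (h : IsTest φ) : IsTest (lap φ) :=
  isTest_sum _ fun i _ => (h.pderiv i).pderiv i

theorem pderiv_lap {φ : EE n → ℝ} (h : IsTest φ) (k : Fin n) :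
    pderiv k (lap φ) = lap (pderiv k φ) := by
  ext x
  have h1 : lap φ = fun x => ∑ i, pderiv i (pderiv i φ) x := rfl
  rw [h1, pderiv_sum _ k x (fun i _ => it_diff ((h.pderiv i).pderiv i) x)]
  have h2 : lap (pderiv k φ) x = ∑ i, pderiv i (pderiv i (pderiv k φ)) x := rfl
  rw [h2]
  refine Finset.sum_congr rfl fun i _ => ?_
  have e1 : pderiv i (pderiv k φ) = pderiv k (pderiv i φ) :=
    funext fun y => pderiv_comm i k y (it_cd2 h).contDiffAt
  rw [e1, pderiv_comm k i x (it_cd2 (h.pderiv i)).contDiffAt]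

/-- the pair of profiles together with a common bound -/
structure Pair (η Φ : EE n → ℝ) (M : ℝ) : Prop where
  M0 : 0 ≤ M
  pη : PB η M
  pη2 : ∀ k l, PB (pderiv k (pderiv l η)) M
  pΦ : PB Φ M
  pΦ1 : ∀ k, PB (pderiv k Φ) M
  pΦ2 : ∀ k l, PB (pderiv k (pderiv l Φ)) M
  pΦ3 : ∀ m k l, PB (pderiv m (pderiv k (pderiv l Φ))) M
  int : ∫ x, η x = 1
  nonneg : ∀ x, 0 ≤ η x
  lap : ∀ x, lap Φ x = η x - 2 ^ n * η ((2 : ℝ) • x)

theorem PB.mono {ψ : EE n → ℝ} {M M' : ℝ} (h : PB ψ M) (hM : M ≤ M') : PB ψ M' :=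
  ⟨h.test, h.supp, fun x => (h.b0 x).trans hM, fun k x => (h.b1 k x).trans hM⟩

theorem exists_Pair (n : ℕ) (hn : 0 < n) : ∃ (η Φ : EE n → ℝ) (M : ℝ), Pair η Φ M := by
  obtain ⟨η, Φ, hη, hΦ, h1, h2, h3, h4, h5⟩ := exists_pair n hn
  have z1 : ∀ k x, 1 ≤ ‖x‖ → pderiv k η x = 0 := fun k => pderiv_zero_of_supp hη h1 k
  have z2 : ∀ k l x, 1 ≤ ‖x‖ → pderiv k (pderiv l η) x = 0 := fun k l =>
    pderiv_zero_of_supp (hη.pderiv l) (z1 l) k
  have w1 : ∀ k x, 1 ≤ ‖x‖ → pderiv k Φ x = 0 := fun k => pderiv_zero_of_supp hΦ h2 k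
  have w2 : ∀ k l x, 1 ≤ ‖x‖ → pderiv k (pderiv l Φ) x = 0 := fun k l =>
    pderiv_zero_of_supp (hΦ.pderiv l) (w1 l) k
  have w3 : ∀ m k l x, 1 ≤ ‖x‖ → pderiv m (pderiv k (pderiv l Φ)) x = 0 := fun m k l =>
    pderiv_zero_of_supp ((hΦ.pderiv l).pderiv k) (w2 k l) m
  obtain ⟨M1, m1, b1⟩ := exists_PB hη h1
  choose M2 m2 b2 using fun k l => exists_PB ((hη.pderiv l).pderiv k) (z2 k l)
  obtain ⟨M3, m3, b3⟩ := exists_PB hΦ h2
  choose M4 m4 b4 using fun k => exists_PB (hΦ.pderiv k) (w1 k)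
  choose M5 m5 b5 using fun k l => exists_PB ((hΦ.pderiv l).pderiv k) (w2 k l)
  choose M6 m6 b6 using fun m k l => exists_PB (((hΦ.pderiv l).pderiv k).pderiv m) (w3 m k l)
  set S2 := ∑ k, ∑ l, M2 k l with hS2
  set S4 := ∑ k, M4 k with hS4
  set S5 := ∑ k, ∑ l, M5 k l with hS5
  set S6 := ∑ m, ∑ k, ∑ l, M6 m k l with hS6
  have i2 : ∀ k l, M2 k l ≤ S2 := fun k l =>
    (Finset.single_le_sum (f := fun l => M2 k l) (fun l _ => m2 k l) (Finset.mem_univ l)).trans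
      (Finset.single_le_sum (f := fun k => ∑ l, M2 k l)
        (fun k _ => Finset.sum_nonneg fun l _ => m2 k l) (Finset.mem_univ k))
  have i4 : ∀ k, M4 k ≤ S4 := fun k =>
    Finset.single_le_sum (f := fun k => M4 k) (fun k _ => m4 k) (Finset.mem_univ k)
  have i5 : ∀ k l, M5 k l ≤ S5 := fun k l =>
    (Finset.single_le_sum (f := fun l => M5 k l) (fun l _ => m5 k l) (Finset.mem_univ l)).trans
      (Finset.single_le_sum (f := fun k => ∑ l, M5 k l)
        (fun k _ => Finset.sum_nonneg fun l _ => m5 k l) (Finset.mem_univ k))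
  have i6 : ∀ m k l, M6 m k l ≤ S6 := fun m k l =>
    ((Finset.single_le_sum (f := fun l => M6 m k l) (fun l _ => m6 m k l) (Finset.mem_univ l)).trans
      (Finset.single_le_sum (f := fun k => ∑ l, M6 m k l)
        (fun k _ => Finset.sum_nonneg fun l _ => m6 m k l) (Finset.mem_univ k))).trans
      (Finset.single_le_sum (f := fun m => ∑ k, ∑ l, M6 m k l)
        (fun m _ => Finset.sum_nonneg fun k _ => Finset.sum_nonneg fun l _ => m6 m k l)
        (Finset.mem_univ m))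
  have n2 : 0 ≤ S2 := Finset.sum_nonneg fun k _ => Finset.sum_nonneg fun l _ => m2 k l
  have n4 : 0 ≤ S4 := Finset.sum_nonneg fun k _ => m4 k
  have n5 : 0 ≤ S5 := Finset.sum_nonneg fun k _ => Finset.sum_nonneg fun l _ => m5 k l
  have n6 : 0 ≤ S6 := Finset.sum_nonneg fun m _ => Finset.sum_nonneg fun k _ =>
    Finset.sum_nonneg fun l _ => m6 m k l
  exact ⟨η, Φ, M1 + S2 + M3 + S4 + S5 + S6, by positivity, b1.mono (by linarith),
    fun k l => (b2 k l).mono (by linarith [i2 k l]), b3.mono (by linarith),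
    fun k => (b4 k).mono (by linarith [i4 k]), fun k l => (b5 k l).mono (by linarith [i5 k l]),
    fun m k l => (b6 m k l).mono (by linarith [i6 m k l]), h3, h4, h5⟩

/-- a profile bounded together with its first derivatives in `PB` -/
structure PB2 (ψ : EE n → ℝ) (M : ℝ) : Prop where
  p0 : PB ψ M
  p1 : ∀ m, PB (pderiv m ψ) M

theorem Pair.b0 {η Φ : EE n → ℝ} {M : ℝ} (h : Pair η Φ M) : PB2 Φ M := ⟨h.pΦ, h.pΦ1⟩
theorem Pair.b2 {η Φ : EE n → ℝ} {M : ℝ} (h : Pair η Φ M) (k l : Fin n) :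
    PB2 (pderiv k (pderiv l Φ)) M := ⟨h.pΦ2 k l, fun m => h.pΦ3 m k l⟩

theorem cv_ker_lap {η Φ : EE n → ℝ} {M : ℝ} (hp : Pair η Φ M) {A : Fin n → Fin n → ℝ}
    {T : EE n →L[ℝ] EE n} {c τ D : ℝ} (h : KD A T c τ D) {s : ℝ} (hs : 0 < s) {f : EE n → ℝ}
    (hf : LocallyIntegrable f) (x : EE n) :
    cv (Ker T s (lap Φ)) f x = cv (Ker T s η) f x - cv (Ker T (s / 2) η) f x := by
  simp only [cv_apply]
  rw [← integral_sub (cv_exists (ker_test hs hp.pη.test h.low) hf x)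
    (cv_exists (ker_test (by positivity) hp.pη.test h.low) hf x)]
  refine integral_congr_ae (Filter.Eventually.of_forall fun t => ?_)
  show f t * _ = f t * _ - f t * _
  rw [← ker_half (s := s), ← mul_sub]
  congr 1
  simp only [Ker]
  rw [hp.lap]; ring

/-- approximate identity -/
theorem approx {η Φ : EE n → ℝ} {M : ℝ} (hp : Pair η Φ M) {A : Fin n → Fin n → ℝ}
    {T : EE n →L[ℝ] EE n} {c τ D : ℝ} (h : KD A T c τ D) {r0 : ℝ} (hr0 : 0 < r0) {f : EE n → ℝ}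
    (hf : LocallyIntegrable f) {y : EE n} (hc : ContinuousAt f y) :
    Tendsto (fun k : ℕ => cv (Ker T (r0 * (1 / 2) ^ k) η) f y) atTop (𝓝 (f y)) := by
  rw [Metric.tendsto_atTop]
  intro ε hε
  obtain ⟨δ, hδ, hδ2⟩ := Metric.continuousAt_iff.1 hc (ε / 2) (by positivity)
  have h1 : Tendsto (fun k : ℕ => c * (r0 * (1 / 2 : ℝ) ^ k)) atTop (𝓝 0) := by
    have := (tendsto_pow_atTop_nhds_zero_of_lt_one (r := (1/2 : ℝ)) (by norm_num)
      (by norm_num)).const_mul (c * r0)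
    simpa [mul_assoc] using this
  obtain ⟨N, hN⟩ := ((tendsto_order.1 h1).2 δ hδ).exists_forall_of_atTop
  refine ⟨N, fun k hk => ?_⟩
  set s := r0 * (1 / 2 : ℝ) ^ k with hs
  have hs0 : 0 < s := by positivity
  have hcs : c * s < δ := hN k hk
  have hKt : IsTest (Ker T s η) := ker_test hs0 hp.pη.test h.low
  have hK1 : ∫ t, Ker T s η (y - t) = 1 := by
    rw [integral_sub_left_eq_self (Ker T s η) volume y, integral_ker hs0 h.det0, hp.int]
  have hi1 : Integrable (fun t => f t * Ker T s η (y - t)) := cv_exists hKt hf y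
  have hi2 : Integrable (fun t => Ker T s η (y - t)) := (hKt.comp_sub y).integrable
  have e1 : cv (Ker T s η) f y - f y = ∫ t, (f t - f y) * Ker T s η (y - t) := by
    have : ∀ t, (f t - f y) * Ker T s η (y - t)
        = f t * Ker T s η (y - t) - f y * Ker T s η (y - t) := fun t => by ring
    simp only [this]
    rw [integral_sub hi1 (hi2.const_mul _), integral_const_mul, hK1, mul_one, cv_apply]
  rw [Real.dist_eq, e1]
  have hnn : ∀ t, 0 ≤ Ker T s η (y - t) := fun t => by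
    simp only [Ker]
    have := hp.nonneg (s⁻¹ • T (y - t))
    positivity
  have hb : ∀ t, ‖(f t - f y) * Ker T s η (y - t)‖ ≤ ε / 2 * Ker T s η (y - t) := by
    intro t
    rw [norm_mul, Real.norm_eq_abs, Real.norm_eq_abs, abs_of_nonneg (hnn t)]
    by_cases ht : c * s ≤ ‖y - t‖
    · rw [ker_supp hs0 hp.pη.supp h.c0 h.low ht]; simp
    · refine mul_le_mul_of_nonneg_right ?_ (hnn t)
      have := hδ2 (x := t) (by rw [dist_comm, dist_eq_norm]; linarith)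
      rw [Real.dist_eq] at this
      exact this.le
  have h3 : |∫ t, (f t - f y) * Ker T s η (y - t)| ≤ ∫ t, ε / 2 * Ker T s η (y - t) := by
    rw [← Real.norm_eq_abs]
    exact norm_integral_le_of_norm_le (hi2.const_mul _) (Filter.Eventually.of_forall hb)
  rw [integral_const_mul, hK1] at h3
  linarith

/-- rough bound of the second derivatives of a convolution -/
theorem d2_rough {A : Fin n → Fin n → ℝ}
    {T : EE n →L[ℝ] EE n} {c τ D : ℝ} (h : KD A T c τ D) {s : ℝ} (hs : 0 < s) {f ψ : EE n → ℝ}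
    {M : ℝ} (hψ : IsTest ψ) (hM : 0 ≤ M)
    (hψ2 : ∀ k l, PB (pderiv k (pderiv l ψ)) M) (hf : LocallyIntegrable f) {y : EE n} {I : ℝ}
    (hI : ∫ t in Metric.closedBall y (c * s), |f t| ≤ I) (i j : Fin n) :
    |pderiv i (pderiv j (cv (Ker T s ψ) f)) y|
      ≤ s⁻¹ ^ 2 * (n * (n * (τ * τ * (D * (s⁻¹) ^ n * M * I)))) := by
  have hτ := h.τ0
  have hD := h.D0
  rw [cv_ker_pderiv2 hs hψ h.low hf, abs_mul, abs_of_nonneg (by positivity : (0:ℝ) ≤ s⁻¹ ^ 2)]
  refine mul_le_mul_of_nonneg_left ?_ (by positivity)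
  have h1 : ∀ l k, |ent T k i * ent T l j * cv (Ker T s (pderiv k (pderiv l ψ))) f y|
      ≤ τ * τ * (D * (s⁻¹) ^ n * M * I) := by
    intro l k
    rw [abs_mul, abs_mul]
    refine mul_le_mul (mul_le_mul ((ent_le T k i).trans h.up) ((ent_le T l j).trans h.up)
      (abs_nonneg _) hτ) ?_ (abs_nonneg _) (by positivity)
    rw [cv_apply]
    refine (int_bound hf (k := fun t => Ker T s (pderiv k (pderiv l ψ)) (y - t)) (ρ := c * s)
      (x := y) (fun t => ker_bound hs h.det (hψ2 k l).b0 _) fun t ht => ?_).trans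
      (mul_le_mul_of_nonneg_left hI (by positivity))
    apply ker_supp hs (hψ2 k l).supp h.c0 h.low
    rw [Metric.mem_closedBall, dist_comm, dist_eq_norm] at ht
    linarith
  refine (Finset.abs_sum_le_sum_abs _ _).trans ?_
  refine (Finset.sum_le_sum (g := fun _ => n * (τ * τ * (D * (s⁻¹) ^ n * M * I))) fun l _ => ?_).trans
    (by simp)
  refine (Finset.abs_sum_le_sum_abs _ _).trans ?_
  refine (Finset.sum_le_sum (g := fun _ => (τ * τ * (D * (s⁻¹) ^ n * M * I))) fun k _ => h1 l k).trans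
    (by simp)

/-- the estimate of the increments -/
def Inc (T : EE n →L[ℝ] EE n) (f : EE n → ℝ) (x0 : EE n) (r0 M C p q : ℝ) : Prop :=
  ∀ ψ : EE n → ℝ, PB2 ψ M → ∀ s, 0 < s → s ≤ r0 → ∀ y, ‖y - x0‖ ≤ r0 →
    |cv (Ker T s (lap ψ)) f y| ≤ C * (max ‖y - x0‖ s) ^ p * s ^ q

theorem affine_of_inc {η Φ : EE n → ℝ} {M : ℝ} (hp : Pair η Φ M) {A : Fin n → Fin n → ℝ}
    {T : EE n →L[ℝ] EE n} {c τ D : ℝ} (h : KD A T c τ D) {f : EE n → ℝ}
    (hf : LocallyIntegrable f) {x0 : EE n} {r0 C I p q β : ℝ} (hr0 : 0 < r0) (hr1 : r0 ≤ 1)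
    (hC : 0 ≤ C) (hI0 : 0 ≤ I) (hp0 : 0 ≤ p) (hq : 0 < q) (hβ : 0 < β) (hβ1 : β < 1)
    (hpq : p + q = 1 + β) (hinc : Inc T f x0 r0 M C p q)
    (hcont : ∀ y, ‖y - x0‖ ≤ r0 → ContinuousAt f y)
    (hI : ∀ y, ‖y - x0‖ ≤ r0 → ∫ t in Metric.closedBall y (c * r0), |f t| ≤ I) (K : ℕ) :
    ∃ (c' : ℝ) (L : EE n →L[ℝ] ℝ), ∀ y, ‖y - x0‖ ≤ r0 * (1 / 2) ^ K →
      |f y - c' - L (y - x0)| ≤ ((C + n * (n * (τ * τ * C)) +
        r0⁻¹ ^ 2 * (n * (n * (τ * τ * (D * (r0⁻¹) ^ n * M * I))))) / (1 - (1 / 2) ^ q) +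
        n * (n * ((C + n * (n * (τ * τ * C)) +
        r0⁻¹ ^ 2 * (n * (n * (τ * τ * (D * (r0⁻¹) ^ n * M * I))))) +
        (C + n * (n * (τ * τ * C)) +
        r0⁻¹ ^ 2 * (n * (n * (τ * τ * (D * (r0⁻¹) ^ n * M * I))))) / (2 ^ (1 - β) - 1)))) *
        (r0 * (1 / 2) ^ K) ^ (1 + β) := by
  have hτ := h.τ0
  have hD := h.D0
  have hM := hp.M0
  set C2 := C + n * (n * (τ * τ * C)) +
    r0⁻¹ ^ 2 * (n * (n * (τ * τ * (D * (r0⁻¹) ^ n * M * I)))) with hC2
  have hC20 : 0 ≤ C2 := by positivity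
  have hCC2 : C ≤ C2 := by
    have : 0 ≤ n * (n * (τ * τ * C)) +
      r0⁻¹ ^ 2 * (n * (n * (τ * τ * (D * (r0⁻¹) ^ n * M * I)))) := by positivity
    linarith
  have hC3 : n * (n * (τ * τ * C)) ≤ C2 := by
    have : 0 ≤ C + r0⁻¹ ^ 2 * (n * (n * (τ * τ * (D * (r0⁻¹) ^ n * M * I)))) := by positivity
    linarith
  have hC4 : r0⁻¹ ^ 2 * (n * (n * (τ * τ * (D * (r0⁻¹) ^ n * M * I)))) ≤ C2 := by
    have : 0 ≤ C + n * (n * (τ * τ * C)) := by positivity
    linarith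
  have hs0 : ∀ k : ℕ, 0 < r0 * (1 / 2 : ℝ) ^ k := fun k => by positivity
  have hs1 : ∀ k : ℕ, r0 * (1 / 2 : ℝ) ^ k ≤ r0 := fun k =>
    mul_le_of_le_one_right hr0.le (pow_le_one₀ (by norm_num) (by norm_num))
  have hsm : ∀ k l : ℕ, k ≤ l → r0 * (1 / 2 : ℝ) ^ l ≤ r0 * (1 / 2 : ℝ) ^ k := fun k l hkl =>
    mul_le_mul_of_nonneg_left (pow_le_pow_of_le_one (by norm_num) (by norm_num) hkl) hr0.le
  have hstep : ∀ (k : ℕ) (y : EE n), cv (Ker T (r0 * (1 / 2) ^ (k + 1)) η) f y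
      - cv (Ker T (r0 * (1 / 2) ^ k) η) f y
      = - cv (Ker T (r0 * (1 / 2) ^ k) (RegKer_717.lap Φ)) f y := by
    intro k y
    rw [cv_ker_lap hp h (hs0 k) hf]
    have : r0 * (1 / 2 : ℝ) ^ k / 2 = r0 * (1 / 2) ^ (k + 1) := by rw [pow_succ]; ring
    rw [this]; ring
  refine Crest.Agent.R249.RegTay_717.dyadic (g := f)
    (G := fun k => cv (Ker T (r0 * (1 / 2) ^ k) η) f) (p := p) hr0 hr1 hC20 hq
    hβ hβ1 hpq (fun k => (cv_smooth (ker_test (hs0 k) hp.pη.test h.low) hf).of_le two_le) K ?_ ?_ ?_ ?_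
  · intro k hk y hy
    rw [Metric.mem_closedBall, dist_eq_norm] at hy
    rw [hstep, abs_neg]
    have h1 := hinc Φ hp.b0 _ (hs0 k) (hs1 k) y (hy.trans (hs1 K))
    refine h1.trans ?_
    have h2 : (max ‖y - x0‖ (r0 * (1 / 2) ^ k)) ^ p ≤ (r0 * (1 / 2) ^ K) ^ p :=
      Real.rpow_le_rpow (le_max_of_le_left (norm_nonneg _)) (max_le hy (hsm K k hk)) hp0
    have h3 : 0 ≤ (r0 * (1 / 2 : ℝ) ^ k) ^ q := Real.rpow_nonneg (hs0 k).le _
    refine mul_le_mul_of_nonneg_right (mul_le_mul hCC2 h2 ?_ hC20) h3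
    exact Real.rpow_nonneg (le_max_of_le_left (norm_nonneg _)) _
  · intro k hk y hy i j
    rw [Metric.mem_closedBall, dist_eq_norm] at hy
    set s := r0 * (1 / 2 : ℝ) ^ k with hs
    have hys : ‖y - x0‖ ≤ s := hy.trans (hsm k K hk.le)
    have hsm' : ∀ m, ContDiff ℝ 2 (cv (Ker T (r0 * (1 / 2) ^ m) η) f) := fun m =>
      (cv_smooth (ker_test (hs0 m) hp.pη.test h.low) hf).of_le two_le
    have hlt : IsTest (RegKer_717.lap Φ) := isTest_lap hp.pΦ.test
    have hlsm : ContDiff ℝ 2 (cv (Ker T s (RegKer_717.lap Φ)) f) :=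
      (cv_smooth (ker_test (hs0 k) hlt h.low) hf).of_le two_le
    -- second derivative of the difference
    have e1 : pderiv i (pderiv j (cv (Ker T (r0 * (1 / 2) ^ (k + 1)) η) f)) y
        - pderiv i (pderiv j (cv (Ker T s η) f)) y
        = - pderiv i (pderiv j (cv (Ker T s (RegKer_717.lap Φ)) f)) y := by
      have hpd : ∀ {G : EE n → ℝ}, ContDiff ℝ 2 G → Differentiable ℝ (pderiv j G) := fun {G} hG =>
        ((hG.fderiv_right (m := 1) (by norm_num)).clm_apply contDiff_const).differentiable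
          one_ne_zero
      have hda : ∀ {G : EE n → ℝ}, ContDiff ℝ 2 G → Differentiable ℝ G := fun hG =>
        hG.differentiable (by norm_num)
      have a1 : cv (Ker T (r0 * (1 / 2) ^ (k + 1)) η) f
          = fun y => cv (Ker T s η) f y + (-1) * cv (Ker T s (RegKer_717.lap Φ)) f y := by
        ext y; have := hstep k y; rw [← hs] at this; linarith
      have a2 : pderiv j (cv (Ker T (r0 * (1 / 2) ^ (k + 1)) η) f)
          = fun y => pderiv j (cv (Ker T s η) f) y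
            + (-1) * pderiv j (cv (Ker T s (RegKer_717.lap Φ)) f) y := by
        ext y
        rw [a1, pderiv_add j y (hda (hsm' k) y) ((hda hlsm y).const_mul _),
          pderiv_const_mul j y _ (hda hlsm y)]
      rw [a2, pderiv_add i y (hpd (hsm' k) y) ((hpd hlsm y).const_mul _),
          pderiv_const_mul i y _ (hpd hlsm y)]
      ring
    rw [e1, abs_neg, cv_ker_pderiv2 (hs0 k) hlt h.low hf]
    have e2 : ∀ l m, |ent T m i * ent T l j *
        cv (Ker T s (pderiv m (pderiv l (RegKer_717.lap Φ)))) f y|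
        ≤ τ * τ * (C * s ^ (1 + β)) := by
      intro l m
      rw [pderiv_lap hp.pΦ.test, pderiv_lap (hp.pΦ.test.pderiv l), abs_mul, abs_mul]
      refine mul_le_mul (mul_le_mul ((ent_le T m i).trans h.up) ((ent_le T l j).trans h.up)
        (abs_nonneg _) hτ) ?_ (abs_nonneg _) (by positivity)
      have h1 := hinc _ (hp.b2 m l) s (hs0 k) (hs1 k) y (hy.trans (hs1 K))
      refine h1.trans (le_of_eq ?_)
      rw [max_eq_right hys, mul_assoc, ← Real.rpow_add (hs0 k), hpq]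
    rw [abs_mul, abs_of_nonneg (by positivity : (0:ℝ) ≤ s⁻¹ ^ 2)]
    have e3 : |∑ l, ∑ m, ent T m i * ent T l j *
        cv (Ker T s (pderiv m (pderiv l (RegKer_717.lap Φ)))) f y|
        ≤ n * (n * (τ * τ * (C * s ^ (1 + β)))) := by
      refine (Finset.abs_sum_le_sum_abs _ _).trans ?_
      refine (Finset.sum_le_sum (g := fun _ => n * (τ * τ * (C * s ^ (1 + β)))) fun l _ => ?_).trans
        (by simp)
      refine (Finset.abs_sum_le_sum_abs _ _).trans ?_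
      exact (Finset.sum_le_sum (g := fun _ => τ * τ * (C * s ^ (1 + β))) fun m _ =>
        e2 l m).trans (by simp)
    refine (mul_le_mul_of_nonneg_left e3 (by positivity)).trans ?_
    have e4 : s⁻¹ ^ 2 * (n * (n * (τ * τ * (C * s ^ (1 + β)))))
        = n * (n * (τ * τ * C)) * s ^ (β - 1) := by
      have : s ^ (1 + β) = s ^ 2 * s ^ (β - 1) := by
        rw [← Real.rpow_natCast s 2, ← Real.rpow_add (hs0 k)]
        congr 1; push_cast; ring
      rw [this]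
      have h5 : s ≠ 0 := (hs0 k).ne'
      field_simp
    rw [e4]
    exact mul_le_mul_of_nonneg_right hC3 (Real.rpow_nonneg (hs0 k).le _)
  · intro y hy
    rw [Metric.mem_closedBall, dist_eq_norm] at hy
    exact approx hp h hr0 hf (hcont y (hy.trans (hs1 K)))
  · intro y hy i j
    rw [Metric.mem_closedBall, dist_eq_norm] at hy
    simp only [pow_zero, mul_one]
    exact (d2_rough h hr0 hp.pη.test hM hp.pη2 hf (hI y (hy.trans (hs1 K))) i j).trans hC4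

/-- **`C^{1,β}` from estimates of the increments.** -/
theorem c1_of_inc {η Φ : EE n → ℝ} {M : ℝ} (hp : Pair η Φ M) {c τ D : ℝ} (hτ : 0 ≤ τ) (hD : 0 ≤ D)
    {f : EE n → ℝ} (hf : LocallyIntegrable f) {U : Set (EE n)} {r0 C I p q β : ℝ} (hr0 : 0 < r0)
    (hr1 : r0 ≤ 1) (hC : 0 ≤ C) (hI0 : 0 ≤ I) (hp0 : 0 ≤ p) (hq : 0 < q) (hβ : 0 < β) (hβ1 : β < 1)
    (hpq : p + q = 1 + β)
    (hinc : ∀ x0 ∈ U, ∃ A T, KD A T c τ D ∧ Inc T f x0 r0 M C p q)
    (hcont : ∀ x0 ∈ U, ∀ y, ‖y - x0‖ ≤ r0 → ContinuousAt f y)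
    (hI : ∀ x0 ∈ U, ∀ y, ‖y - x0‖ ≤ r0 → ∫ t in Metric.closedBall y (c * r0), |f t| ≤ I) :
    ∃ (g : EE n → (EE n →L[ℝ] ℝ)) (K : ℝ), 0 ≤ K ∧
      (∀ x ∈ U, ∀ y, ‖y - x‖ ≤ r0 → |f y - f x - g x (y - x)| ≤ K * ‖y - x‖ ^ (1 + β)) ∧
      (∀ x ∈ U, HasFDerivAt f (g x) x) ∧
      ∀ x ∈ U, ∀ y ∈ U, ‖x - y‖ ≤ r0 / 2 → ‖g x - g y‖ ≤ K * ‖x - y‖ ^ β := by
  have hM := hp.M0
  obtain ⟨C5, hC5, hC5d⟩ : ∃ C5, 0 ≤ C5 ∧ C5 = ((C + n * (n * (τ * τ * C)) +
        r0⁻¹ ^ 2 * (n * (n * (τ * τ * (D * (r0⁻¹) ^ n * M * I))))) / (1 - (1 / 2) ^ q) +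
        n * (n * ((C + n * (n * (τ * τ * C)) +
        r0⁻¹ ^ 2 * (n * (n * (τ * τ * (D * (r0⁻¹) ^ n * M * I))))) +
        (C + n * (n * (τ * τ * C)) +
        r0⁻¹ ^ 2 * (n * (n * (τ * τ * (D * (r0⁻¹) ^ n * M * I))))) / (2 ^ (1 - β) - 1)))) := by
    refine ⟨_, ?_, rfl⟩
    have h1 : (1 / 2 : ℝ) ^ q < 1 := Real.rpow_lt_one (by norm_num) (by norm_num) hq
    have h2 : (1 : ℝ) < 2 ^ (1 - β) := Real.one_lt_rpow (by norm_num) (by linarith)
    have h3 : 0 < 1 - (1 / 2 : ℝ) ^ q := by linarith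
    have h4 : 0 < (2 : ℝ) ^ (1 - β) - 1 := by linarith
    positivity
  refine Crest.Agent.R249.RegAff_717.c1_of_affine (C := C5 * 2 ^ (1 + β)) hr0 (by positivity) hβ ?_
  intro x hx ρ hρ hρ1
  obtain ⟨A, T, hKD, hI1⟩ := hinc x hx
  have hex : ∃ k : ℕ, r0 * (1 / 2 : ℝ) ^ (k + 1) < ρ := by
    have ht : Tendsto (fun k : ℕ => r0 * (1 / 2 : ℝ) ^ (k + 1)) atTop (𝓝 0) := by
      have h1 : Tendsto (fun k : ℕ => (1 / 2 : ℝ) ^ k) atTop (𝓝 0) :=
        tendsto_pow_atTop_nhds_zero_of_lt_one (by norm_num) (by norm_num)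
      have h2 := (h1.const_mul r0).comp (tendsto_add_atTop_nat 1)
      simpa [Function.comp_def] using h2
    exact ((tendsto_order.1 ht).2 _ hρ).exists
  set k := Nat.find hex with hk
  have hk1 : r0 * (1 / 2 : ℝ) ^ (k + 1) < ρ := Nat.find_spec hex
  have hk2 : ρ ≤ r0 * (1 / 2 : ℝ) ^ k := by
    rcases Nat.eq_zero_or_pos k with h0 | h0
    · rw [h0]; simpa using hρ1
    · have := Nat.find_min hex (m := k - 1) (by omega)
      rw [show k - 1 + 1 = k by omega] at this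
      exact not_lt.1 this
  have hk3 : r0 * (1 / 2 : ℝ) ^ k ≤ 2 * ρ := by
    rw [pow_succ] at hk1; linarith
  obtain ⟨c', L, hcL⟩ := affine_of_inc hp hKD hf hr0 hr1 hC hI0 hp0 hq hβ hβ1 hpq hI1
    (hcont x hx) (hI x hx) k
  refine ⟨c', L, fun y hy => ?_⟩
  have h1 := hcL y (hy.trans hk2)
  rw [← hC5d] at h1
  refine h1.trans ?_
  have h2 : (r0 * (1 / 2 : ℝ) ^ k) ^ (1 + β) ≤ (2 * ρ) ^ (1 + β) :=
    Real.rpow_le_rpow (by positivity) hk3 (by linarith)
  rw [Real.mul_rpow (by norm_num) hρ.le] at h2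
  calc C5 * (r0 * (1 / 2 : ℝ) ^ k) ^ (1 + β) ≤ C5 * (2 ^ (1 + β) * ρ ^ (1 + β)) :=
        mul_le_mul_of_nonneg_left h2 hC5
    _ = _ := by ring

end

end Crest.Agent.R249.RegKer_717
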