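import Crest.Agent.R249.Ric2_672

/-!
# R249, D3-RIC (helper672), part 3: the system in divergence form, unknown = inverse metric

For a smooth positive definite matrix field `h` on an open set `U` (the inverse metric) and a
density `J` with `J √(det h) = c`, `c ≠ 0` constant:

* `riem_inv` : `x ↦ (h x)⁻¹` is a Riemannian metric on `U`;
* `lap_inv` : its Laplacian is `J⁻¹ Σ ∂_c (J h^{cd} ∂_d f)`;
* `ricci_of_div` : `Σ_a ∂_a (J h^{ab}) = 0` and
  `Σ_c ∂_c (J Σ_d h^{cd} ∂_d h^{ab}) = J (2 Sk^{ab} + 2 lam h^{ab})` on `U` imply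
  `ricci (h⁻¹) = lam h⁻¹` on `U`;
* `ricci_of_nondiv` : the same with the second equation in the form
  `Σ h^{cd} ∂_c ∂_d h^{ab} = 2 Sk^{ab} + 2 lam h^{ab}`;
* `sys_of_ricci` : conversely an Einstein metric in harmonic coordinates satisfies the system.
-/

set_option autoImplicit false
set_option maxSynthPendingDepth 3

open scoped ContDiff Topology
open Filter Set
open Crest.GeometryTopology.CoordMetric Crest.GeometryTopology.ChartCurvature
open Crest.Agent.R202.Tens Crest.Agent.R247.Bo84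

noncomputable section

namespace Crest.Agent.R249.Ric3_672

open Crest.Agent.R249.Bia3_104 Crest.Agent.R249.Ric1_672 Crest.Agent.R249.Ric2_672

variable {n : ℕ}

local notation "𝔼" => EuclideanSpace ℝ (Fin n)

/-- `P^{ab;c} = Σ_d h^{cd} ∂_d h^{ab}` -/
def Ph (h : MetricField n) (x : EuclideanSpace ℝ (Fin n)) (a b c : Fin n) : ℝ :=
  ∑ d, h x c d * pderiv d (fun y => h y a b) x

variable {h : MetricField n} {U : Set (EuclideanSpace ℝ (Fin n))} {x : EuclideanSpace ℝ (Fin n)}

/-- the inverse of a smooth positive definite matrix field is a Riemannian metric -/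
lemma riem_inv (hh : IsRiemannianOn h U) : IsRiemannianOn (fun x => (h x)⁻¹) U where
  isOpen := hh.isOpen
  contDiffOn i j y hy := (contDiffAt_inv hh hy i j).contDiffWithinAt
  posDef y hy := (hh.posDef y hy).inv

lemma inv_field (hh : IsRiemannianOn h U) (hx : x ∈ U) :
    inverseField (fun x => (h x)⁻¹) x = h x :=
  Matrix.nonsing_inv_nonsing_inv (h x) (det_pos hh hx).ne'.isUnit

lemma inv_field_ev (hh : IsRiemannianOn h U) (hx : x ∈ U) :
    ∀ᶠ y in 𝓝 x, inverseField (fun x => (h x)⁻¹) y = h y := by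
  filter_upwards [hh.isOpen.mem_nhds hx] with y hy using inv_field hh hy

lemma inv_entry_ev (hh : IsRiemannianOn h U) (hx : x ∈ U) (a b : Fin n) :
    (fun y => inverseField (fun x => (h x)⁻¹) y a b) =ᶠ[𝓝 x] fun y => h y a b := by
  filter_upwards [inv_field_ev hh hx] with y hy
  rw [hy]

lemma Pk_inv (hh : IsRiemannianOn h U) (hx : x ∈ U) :
    Pk (fun x => (h x)⁻¹) x = Ph h x := by
  funext a b c
  rw [Pk_eq, Ph]
  refine Finset.sum_congr rfl fun d _ => ?_
  rw [inv_field hh hx, pderiv, (inv_entry_ev hh hx a b).fderiv_eq, metric_symm hh hx d c]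
  rfl

lemma sqrt_det_inv (x : 𝔼) :
    Real.sqrt ((h x)⁻¹).det = (Real.sqrt (h x).det)⁻¹ := by
  rw [Matrix.det_nonsing_inv, Ring.inverse_eq_inv', Real.sqrt_inv]

/-- the density -/
lemma dens_eq {J : EuclideanSpace ℝ (Fin n) → ℝ} {c : ℝ}
    (hh : IsRiemannianOn h U) (hJ : ∀ y ∈ U, J y * Real.sqrt (h y).det = c) (hx : x ∈ U) :
    J x = c * Real.sqrt ((h x)⁻¹).det := by
  have h0 : Real.sqrt (h x).det ≠ 0 := (Real.sqrt_pos.2 (det_pos hh hx)).ne'
  rw [sqrt_det_inv, ← hJ x hx]
  field_simp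

/-- the Laplacian of the inverse metric in terms of the density `J` -/
theorem lap_inv {J : EuclideanSpace ℝ (Fin n) → ℝ} {c : ℝ} (hc : c ≠ 0)
    (hh : IsRiemannianOn h U) (hJ : ∀ y ∈ U, J y * Real.sqrt (h y).det = c) (hx : x ∈ U)
    (f : 𝔼 → ℝ) :
    J x * laplaceBeltrami (fun x => (h x)⁻¹) f x =
      ∑ i, pderiv i (fun y => J y * ∑ j, h y i j * pderiv j f y) x := by
  have h0 : Real.sqrt ((h x)⁻¹).det ≠ 0 :=
    (Real.sqrt_pos.2 (det_pos (riem_inv hh) hx)).ne'
  have e : ∀ i, pderiv i (fun y => J y * ∑ j, h y i j * pderiv j f y) x =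
      c * pderiv i (fun y => Real.sqrt ((h y)⁻¹).det *
        ∑ j, inverseField (fun x => (h x)⁻¹) y i j * pderiv j f y) x := by
    intro i
    have e1 : (fun y => J y * ∑ j, h y i j * pderiv j f y) =ᶠ[𝓝 x]
        c • (fun y => Real.sqrt ((h y)⁻¹).det *
          ∑ j, inverseField (fun x => (h x)⁻¹) y i j * pderiv j f y) := by
      filter_upwards [hh.isOpen.mem_nhds hx, inv_field_ev hh hx] with y hy hy2
      rw [Pi.smul_apply, smul_eq_mul, hy2, dens_eq hh hJ hy]
      ring
    rw [pderiv, pderiv, e1.fderiv_eq, fderiv_const_smul_field]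
    rfl
  rw [laplaceBeltrami, dens_eq hh hJ hx]
  simp only [e, ← Finset.mul_sum]
  field_simp

lemma dens_ne {J : EuclideanSpace ℝ (Fin n) → ℝ} {c : ℝ} (hc : c ≠ 0)
    (hJ : ∀ y ∈ U, J y * Real.sqrt (h y).det = c) (hx : x ∈ U) : J x ≠ 0 := by
  intro h0
  apply hc
  rw [← hJ x hx, h0, zero_mul]

/-- harmonicity of the coordinates in divergence form -/
lemma lap_crd_inv {J : EuclideanSpace ℝ (Fin n) → ℝ} {c : ℝ} (hc : c ≠ 0)
    (hh : IsRiemannianOn h U) (hJ : ∀ y ∈ U, J y * Real.sqrt (h y).det = c) (hx : x ∈ U)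
    (b : Fin n) :
    J x * laplaceBeltrami (fun x => (h x)⁻¹) (crd b) x =
      ∑ a, pderiv a (fun y => J y * h y a b) x := by
  rw [lap_inv hc hh hJ hx]
  refine Finset.sum_congr rfl fun i _ => ?_
  congr 1
  funext y
  simp [pderiv_crd]

/-- **D3-RIC, divergence form** -/
theorem ricci_of_div {J : EuclideanSpace ℝ (Fin n) → ℝ} {c lam : ℝ} (hc : c ≠ 0)
    (hh : IsRiemannianOn h U) (hJ : ∀ y ∈ U, J y * Real.sqrt (h y).det = c)
    (hdiv : ∀ y ∈ U, ∀ b, ∑ a, pderiv a (fun z => J z * h z a b) y = 0)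
    (hsys : ∀ y ∈ U, ∀ a b,
      ∑ i, pderiv i (fun z => J z * ∑ j, h z i j * pderiv j (fun w => h w a b) z) y =
        J y * (2 * Sk (h y)⁻¹ (Ph h y) a b + 2 * lam * h y a b))
    (x : EuclideanSpace ℝ (Fin n)) (hx : x ∈ U) (i j : Fin n) :
    ricci (fun x => (h x)⁻¹) x i j = lam * (h x)⁻¹ i j := by
  refine ricci_eq (riem_inv hh) (lam := lam) ?_ ?_ x hx i j
  · intro y hy a
    have h1 := lap_crd_inv hc hh hJ hy a
    rw [hdiv y hy a] at h1
    exact (mul_eq_zero.1 h1).resolve_left (dens_ne hc hJ hy)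
  · intro y hy a b
    have h1 := lap_inv hc hh hJ hy (fun w => h w a b)
    rw [hsys y hy a b] at h1
    rw [lap_congr (inv_entry_ev hh hy a b), Pk_inv hh hy, inv_field hh hy]
    exact mul_left_cancel₀ (dens_ne hc hJ hy) h1

/-! ### the Laplacian in harmonic coordinates -/

/-- in harmonic coordinates the Laplacian has no first order part -/
theorem lap_harm {g : MetricField n} (hg : IsRiemannianOn g U) (hx : x ∈ U)
    (hharm : ∀ a, laplaceBeltrami g (crd a) x = 0) {f : 𝔼 → ℝ} (hf : ContDiffAt ℝ 2 f x) :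
    laplaceBeltrami g f x = ∑ c, ∑ d, inverseField g x c d * pderiv c (pderiv d f) x := by
  have h0 : Real.sqrt (g x).det ≠ 0 := (Real.sqrt_pos.2 (det_pos hg hx)).ne'
  have hs : DifferentiableAt ℝ (fun y => Real.sqrt (g y).det) x :=
    (contDiffAt_sqrt_det hg hx).differentiableAt (by simp)
  have hi : ∀ a b, DifferentiableAt ℝ (fun y => inverseField g y a b) x := fun a b =>
    (contDiffAt_inv hg hx a b).differentiableAt (by simp)
  have hp : ∀ d, DifferentiableAt ℝ (pderiv d f) x := fun d =>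
    (contDiffAt_pderiv hf (m := 1) (by norm_num) d).differentiableAt (by norm_num)
  have h1 : ∀ c, pderiv c (fun y => Real.sqrt (g y).det *
      ∑ d, inverseField g y c d * pderiv d f y) x =
      ∑ d, (pderiv c (fun y => Real.sqrt (g y).det * inverseField g y c d) x * pderiv d f x +
        Real.sqrt (g x).det * inverseField g x c d * pderiv c (pderiv d f) x) := by
    intro c
    have e : (fun y => Real.sqrt (g y).det * ∑ d, inverseField g y c d * pderiv d f y) =
        fun y => ∑ d, (Real.sqrt (g y).det * inverseField g y c d) * pderiv d f y := by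
      funext y
      rw [Finset.mul_sum]
      exact Finset.sum_congr rfl fun d _ => by ring
    have hq : ∀ d, DifferentiableAt ℝ (fun y => Real.sqrt (g y).det * inverseField g y c d) x :=
      fun d => hs.fun_mul (hi c d)
    rw [e, pderiv, fderiv_fun_sum fun d _ => (hq d).fun_mul (hp d), sum_apply]
    refine Finset.sum_congr rfl fun d _ => ?_
    rw [fderiv_fun_mul (hq d) (hp d), add_apply, smul_apply, smul_apply, smul_eq_mul,
      smul_eq_mul]
    simp only [pderiv]
    ring
  rw [laplaceBeltrami]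
  simp only [h1, Finset.sum_add_distrib]
  have h2 : ∑ c, ∑ d, pderiv c (fun y => Real.sqrt (g y).det * inverseField g y c d) x *
      pderiv d f x = 0 := by
    rw [Finset.sum_comm]
    refine Finset.sum_eq_zero fun d _ => ?_
    rw [← Finset.sum_mul]
    have h3 := hharm d
    rw [lap_crd] at h3
    have h4 := (mul_eq_zero.1 h3).resolve_left (by positivity)
    rw [h4, zero_mul]
  rw [h2, zero_add, Finset.mul_sum]
  refine Finset.sum_congr rfl fun c _ => ?_
  rw [Finset.mul_sum]
  refine Finset.sum_congr rfl fun d _ => ?_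
  field_simp

/-- **D3-RIC, non-divergence form** -/
theorem ricci_of_nondiv {J : EuclideanSpace ℝ (Fin n) → ℝ} {c lam : ℝ} (hc : c ≠ 0)
    (hh : IsRiemannianOn h U) (hJ : ∀ y ∈ U, J y * Real.sqrt (h y).det = c)
    (hdiv : ∀ y ∈ U, ∀ b, ∑ a, pderiv a (fun z => J z * h z a b) y = 0)
    (hsys : ∀ y ∈ U, ∀ a b,
      ∑ i, ∑ j, h y i j * pderiv i (pderiv j (fun w => h w a b)) y =
        2 * Sk (h y)⁻¹ (Ph h y) a b + 2 * lam * h y a b)
    (x : EuclideanSpace ℝ (Fin n)) (hx : x ∈ U) (i j : Fin n) :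
    ricci (fun x => (h x)⁻¹) x i j = lam * (h x)⁻¹ i j := by
  have hharm : ∀ y ∈ U, ∀ a, laplaceBeltrami (fun x => (h x)⁻¹) (crd a) y = 0 := by
    intro y hy a
    have h1 := lap_crd_inv hc hh hJ hy a
    rw [hdiv y hy a] at h1
    exact (mul_eq_zero.1 h1).resolve_left (dens_ne hc hJ hy)
  refine ricci_eq (riem_inv hh) (lam := lam) hharm ?_ x hx i j
  intro y hy a b
  rw [lap_congr (inv_entry_ev hh hy a b), Pk_inv hh hy, inv_field hh hy,
    lap_harm (riem_inv hh) hy (hharm y hy)
      ((contDiffAt_entry hh hy a b).of_le (WithTop.coe_le_coe.2 le_top)), inv_field hh hy]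
  exact hsys y hy a b

/-- conversely, an Einstein metric in harmonic coordinates satisfies the system -/
theorem sys_of_ricci {g : MetricField n} (hg : IsRiemannianOn g U) (hx : x ∈ U) {lam : ℝ}
    (hharm : ∀ y ∈ U, ∀ a, laplaceBeltrami g (crd a) y = 0)
    (hric : ∀ i j, ricci g x i j = lam * g x i j) (a b : Fin n) :
    laplaceBeltrami g (fun z => inverseField g z a b) x =
      2 * Sk (g x) (Pk g x) a b + 2 * lam * inverseField g x a b := by
  rw [lap_inverse hg hx hharm a b]
  have h1 : ricF g x (grad g (crd a) x) (grad g (crd b) x) = lam * inverseField g x a b := by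
    rw [← gam_crd, gam_eq_bil hg hx, ricF_eq hg hx, bil_symm hg hx, bil_apply, Finset.mul_sum]
    refine Finset.sum_congr rfl fun i _ => ?_
    rw [Finset.mul_sum]
    refine Finset.sum_congr rfl fun j _ => ?_
    rw [hric]; ring
  rw [h1]; ring

end Crest.Agent.R249.Ric3_672
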