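import Crest.Agent.R249.RegMain_717
import Crest.Agent.R249.Ric3_672
import Crest.Agent.R247.Frd2_657

/-!
Row 249, leaf D3-REG (helper717), file 14: a weak Hölder continuous solution of the system of the
inverse metric in harmonic coordinates is smooth and its inverse is an Einstein metric.
-/

set_option autoImplicit false
open scoped ContDiff ENNReal Topology
open MeasureTheory Set Filter
open Crest.GeometryTopology.CoordMetric

namespace Crest.Agent.R249.RegEin_717

open Crest.Agent.R202.Ell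
open Crest.Agent.R249.Ric2_672 Crest.Agent.R249.Ric3_672
open Crest.Agent.R249.RegKer_717 (QSys LEll Ellc LH CH arg dom WDOn WEqOn ibp_local test_zero)
open Crest.Agent.R247.Frd657 (L2On)

noncomputable section

variable {n : ℕ}

/-! ### ellipticity from positivity -/

theorem sum_abs_mul_le (z : Fin n → ℝ) {m : Fin n → Fin n → ℝ} {ε : ℝ} (hm : ∀ i j, |m i j| ≤ ε) :
    |∑ i, ∑ j, m i j * z i * z j| ≤ ε * n * ∑ i, z i ^ 2 := by
  have h1 : ∀ i j, |m i j * z i * z j| ≤ ε * (z i ^ 2 + z j ^ 2) / 2 := by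
    intro i j
    rw [abs_mul, abs_mul]
    have h2 : |z i| * |z j| ≤ (z i ^ 2 + z j ^ 2) / 2 := by
      have := sq_nonneg (|z i| - |z j|)
      have e1 := sq_abs (z i)
      have e2 := sq_abs (z j)
      nlinarith
    have h0 : 0 ≤ ε := (abs_nonneg _).trans (hm i j)
    have h3 : 0 ≤ |z i| * |z j| := by positivity
    calc |m i j| * |z i| * |z j| = |m i j| * (|z i| * |z j|) := by ring
      _ ≤ ε * ((z i ^ 2 + z j ^ 2) / 2) := mul_le_mul (hm i j) h2 h3 h0
      _ = _ := by ring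
  refine (Finset.abs_sum_le_sum_abs _ _).trans ?_
  refine (Finset.sum_le_sum fun i _ => (Finset.abs_sum_le_sum_abs _ _).trans
    (Finset.sum_le_sum fun j _ => h1 i j)).trans (le_of_eq ?_)
  have e1 : ∀ i, ∑ j, ε * (z i ^ 2 + z j ^ 2) / 2 = ε / 2 * (n * z i ^ 2 + ∑ j, z j ^ 2) := by
    intro i
    rw [← Finset.sum_div, ← Finset.mul_sum, Finset.sum_add_distrib]
    simp; ring
  simp only [e1]
  rw [← Finset.mul_sum, Finset.sum_add_distrib, ← Finset.mul_sum]
  simp; ring

theorem lell_of_pos {Ω : Set (EE n)} (hΩ : IsOpen Ω) {a : Fin n → Fin n → EE n → ℝ}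
    (hc : ∀ i j, ContinuousOn (a i j) Ω) (hs : ∀ x ∈ Ω, ∀ i j, a i j x = a j i x)
    (hp : ∀ x ∈ Ω, ∀ z : Fin n → ℝ, z ≠ 0 → 0 < ∑ i, ∑ j, a i j x * z i * z j) : LEll Ω a := by
  intro x hx
  obtain ⟨m0, hm0, hm⟩ : ∃ m0 > 0, ∀ z : EE n, ‖z‖ = 1 → m0 ≤ ∑ i, ∑ j, a i j x * z i * z j := by
    have hcont : Continuous (fun z : EE n => ∑ i, ∑ j, a i j x * z i * z j) := by fun_prop
    rcases (Metric.sphere (0 : EE n) 1).eq_empty_or_nonempty with h0 | h0
    · refine ⟨1, one_pos, fun z hz => ?_⟩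
      have : z ∈ Metric.sphere (0 : EE n) 1 := by simpa using hz
      rw [h0] at this; exact absurd this (Set.notMem_empty _)
    · obtain ⟨z0, hz0, hmin⟩ := (isCompact_sphere (0 : EE n) 1).exists_isMinOn h0 hcont.continuousOn
      refine ⟨∑ i, ∑ j, a i j x * z0 i * z0 j, ?_, fun z hz => ?_⟩
      · refine hp x hx z0 fun h => ?_
        have h1 : ‖z0‖ = 1 := by simpa using hz0
        have h2 : z0 = 0 := by ext i; exact congrFun h i
        rw [h2, norm_zero] at h1; norm_num at h1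
      · exact hmin (by simpa using hz)
  have hhom : ∀ z : Fin n → ℝ, m0 * ∑ i, z i ^ 2 ≤ ∑ i, ∑ j, a i j x * z i * z j := by
    intro z
    set w : EE n := WithLp.toLp 2 z with hw
    have hwi : ∀ i, w i = z i := fun i => rfl
    have hn : ‖w‖ ^ 2 = ∑ i, z i ^ 2 := by
      rw [EuclideanSpace.norm_sq_eq]; simp [hwi]
    rcases eq_or_ne w 0 with h0 | h0
    · have hz : ∀ i, z i = 0 := fun i => by rw [← hwi, h0]; rfl
      simp [hz]
    have hw0 : 0 < ‖w‖ := norm_pos_iff.2 h0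
    have h1 := hm (‖w‖⁻¹ • w) (by rw [norm_smul, norm_inv, norm_norm, inv_mul_cancel₀ hw0.ne'])
    have h2 : ∑ i, ∑ j, a i j x * (‖w‖⁻¹ • w) i * (‖w‖⁻¹ • w) j
        = (‖w‖⁻¹) ^ 2 * ∑ i, ∑ j, a i j x * z i * z j := by
      rw [Finset.mul_sum]
      refine Finset.sum_congr rfl fun i _ => ?_
      rw [Finset.mul_sum]
      refine Finset.sum_congr rfl fun j _ => ?_
      simp only [PiLp.smul_apply, smul_eq_mul, hwi]; ring
    rw [h2] at h1
    rw [← hn]
    have h3 := mul_le_mul_of_nonneg_left h1 (sq_nonneg ‖w‖)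
    have h4 : ‖w‖ ^ 2 * ((‖w‖⁻¹) ^ 2 * ∑ i, ∑ j, a i j x * z i * z j)
        = ∑ i, ∑ j, a i j x * z i * z j := by
      rw [← mul_assoc, ← mul_pow, mul_inv_cancel₀ hw0.ne', one_pow, one_mul]
    rw [h4] at h3
    linarith
  set ε := m0 / (2 * (n + 1)) with hε
  have hε0 : 0 < ε := by positivity
  have hεn : ε * n ≤ m0 / 2 := by
    rw [hε]
    have : m0 / (2 * (n + 1)) * n = m0 / 2 * (n / (n + 1)) := by field_simp
    rw [this]
    refine mul_le_of_le_one_right (by positivity) ?_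
    rw [div_le_one (by positivity)]; linarith
  have hev : ∀ᶠ y in 𝓝 x, y ∈ Ω ∧ ∀ i j, |a i j y - a i j x| ≤ ε := by
    refine (hΩ.eventually_mem hx).and (eventually_all.2 fun i => eventually_all.2 fun j => ?_)
    have h1 : ContinuousAt (a i j) x := (hc i j).continuousAt (hΩ.mem_nhds hx)
    filter_upwards [Metric.continuousAt_iff'.1 h1 ε hε0] with y hy
    rw [Real.dist_eq] at hy; exact hy.le
  obtain ⟨r, hr, hrs⟩ := Metric.nhds_basis_closedBall.mem_iff.1 hev
  set A0 := ∑ i, ∑ j, |a i j x| with hA0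
  have hA : ∀ i j, |a i j x| ≤ A0 := fun i j =>
    (Finset.single_le_sum (f := fun j => |a i j x|) (fun j _ => abs_nonneg _)
      (Finset.mem_univ j)).trans
      (Finset.single_le_sum (f := fun i => ∑ j, |a i j x|)
        (fun i _ => Finset.sum_nonneg fun j _ => abs_nonneg _) (Finset.mem_univ i))
  refine ⟨r, hr, m0 / 2, by positivity, max 1 ((A0 + ε) * n), le_max_left _ _, fun y hy => ?_⟩
  obtain ⟨hyΩ, hya⟩ := hrs hy
  refine ⟨fun i j => hs y hyΩ i j, fun z => ?_, fun z => ?_⟩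
  · have h1 := sum_abs_mul_le z hya
    have h2 : ∑ i, ∑ j, (a i j y - a i j x) * z i * z j
        = (∑ i, ∑ j, a i j y * z i * z j) - ∑ i, ∑ j, a i j x * z i * z j := by
      simp only [sub_mul, Finset.sum_sub_distrib]
    rw [h2] at h1
    have h3 := hhom z
    have h4 : 0 ≤ ∑ i, z i ^ 2 := Finset.sum_nonneg fun i _ => sq_nonneg _
    have h5 := mul_le_mul_of_nonneg_right hεn h4
    have h6 := (abs_le.1 h1).1
    linarith
  · have h1 := sum_abs_mul_le z (m := fun i j => a i j y) (ε := A0 + ε) (fun i j => by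
      have := abs_sub_abs_le_abs_sub (a i j y) (a i j x)
      have := hya i j
      have := hA i j
      linarith)
    refine (le_abs_self _).trans (h1.trans ?_)
    exact mul_le_mul_of_nonneg_right (le_max_right _ _)
      (Finset.sum_nonneg fun i _ => sq_nonneg _)

/-! ### smoothness of determinants and inverses -/

section sm
variable {V : Type*} [NormedAddCommGroup V] [NormedSpace ℝ V] {s : Set V}

theorem cd_det {m : V → Matrix (Fin n) (Fin n) ℝ} {k : WithTop ℕ∞}
    (h : ∀ i j, ContDiffOn ℝ k (fun v => m v i j) s) : ContDiffOn ℝ k (fun v => (m v).det) s := by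
  simp only [Matrix.det_apply']
  exact ContDiffOn.sum fun σ _ => contDiffOn_const.mul (contDiffOn_prod fun i _ => h _ _)

theorem cd_inv {m : V → Matrix (Fin n) (Fin n) ℝ} {k : WithTop ℕ∞}
    (h : ∀ i j, ContDiffOn ℝ k (fun v => m v i j) s) (h0 : ∀ v ∈ s, (m v).det ≠ 0) (c d : Fin n) :
    ContDiffOn ℝ k (fun v => (m v)⁻¹ c d) s := by
  have e : ∀ v, (m v)⁻¹ c d = ((m v).det)⁻¹ * ((m v).updateRow d (Pi.single c 1)).det := by
    intro v
    rw [Matrix.inv_def, Ring.inverse_eq_inv', Matrix.smul_apply, smul_eq_mul,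
      Matrix.adjugate_apply]
  simp only [e]
  refine ((cd_det h).inv h0).mul (cd_det fun i j => ?_)
  simp only [Matrix.updateRow_apply]
  split_ifs
  · exact contDiffOn_const
  · exact h i j

theorem cd_J {m : V → Matrix (Fin n) (Fin n) ℝ} {k : WithTop ℕ∞}
    (h : ∀ i j, ContDiffOn ℝ k (fun v => m v i j) s) (h0 : ∀ v ∈ s, 0 < (m v).det) :
    ContDiffOn ℝ k (fun v => (√(m v).det)⁻¹) s :=
  ((cd_det h).sqrt fun v hv => (h0 v hv).ne').inv fun v hv => (Real.sqrt_pos.2 (h0 v hv)).ne'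

theorem cd_Sk {G : V → Matrix (Fin n) (Fin n) ℝ} {P : V → Fin n → Fin n → Fin n → ℝ}
    {k : WithTop ℕ∞} (hG : ∀ i j, ContDiffOn ℝ k (fun v => G v i j) s)
    (hP : ∀ a b c, ContDiffOn ℝ k (fun v => P v a b c) s) (a b : Fin n) :
    ContDiffOn ℝ k (fun v => Sk (G v) (P v) a b) s := by
  have hT : ∀ a b c, ContDiffOn ℝ k (fun v => Tk (P v) a b c) s := fun a b c =>
    (((hP a b c).add (hP a c b)).sub (hP b c a)).div_const 2
  unfold Sk
  refine ContDiffOn.sum fun c _ => ContDiffOn.sum fun d _ => ContDiffOn.sum fun e _ =>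
    ContDiffOn.sum fun f _ => ?_
  exact (((hG c d).mul (hG e f)).mul (hT a c e)).mul (hT b d f)

end sm

theorem Sk_le {G : Matrix (Fin n) (Fin n) ℝ} {P : Fin n → Fin n → Fin n → ℝ} {g p : ℝ}
    (hG : ∀ i j, |G i j| ≤ g) (hP : ∀ a b c, |P a b c| ≤ p) (hg : 0 ≤ g) (hp : 0 ≤ p)
    (a b : Fin n) : |Sk G P a b| ≤ n * (n * (n * (n * (g * g * (2 * p) * (2 * p))))) := by
  have hT : ∀ a b c, |Tk P a b c| ≤ 2 * p := by
    intro a b c
    have h1 := hP a b c
    have h2 := hP a c b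
    have h3 := hP b c a
    unfold Tk
    rw [abs_le] at h1 h2 h3 ⊢
    constructor <;> linarith [h1.1, h1.2, h2.1, h2.2, h3.1, h3.2]
  have h1 : ∀ c d e f, |G c d * G e f * Tk P a c e * Tk P b d f| ≤ g * g * (2 * p) * (2 * p) := by
    intro c d e f
    rw [abs_mul, abs_mul, abs_mul]
    have t1 := hT a c e
    have t2 := hT b d f
    have g1 := hG c d
    have g2 := hG e f
    gcongr
  unfold Sk
  refine (Finset.abs_sum_le_sum_abs _ _).trans ?_
  refine (Finset.sum_le_sum (g := fun _ => n * (n * (n * (g * g * (2 * p) * (2 * p)))))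
    fun c _ => ?_).trans (by simp)
  refine (Finset.abs_sum_le_sum_abs _ _).trans ?_
  refine (Finset.sum_le_sum (g := fun _ => n * (n * (g * g * (2 * p) * (2 * p))))
    fun d _ => ?_).trans (by simp)
  refine (Finset.abs_sum_le_sum_abs _ _).trans ?_
  refine (Finset.sum_le_sum (g := fun _ => n * (g * g * (2 * p) * (2 * p)))
    fun e _ => ?_).trans (by simp)
  refine (Finset.abs_sum_le_sum_abs _ _).trans ?_
  exact (Finset.sum_le_sum (g := fun _ => g * g * (2 * p) * (2 * p))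
    fun f _ => h1 c d e f).trans (by simp)

/-! ### the system -/

/-- matrix of a vector -/
def Mt (w : Fin n × Fin n → ℝ) : Matrix (Fin n) (Fin n) ℝ := Matrix.of fun i j => w (i, j)

/-- domain -/
def OO (n : ℕ) : Set (Fin n × Fin n → ℝ) := {w | 0 < (Mt w).det}

/-- coefficients `J h` -/
def aE (i j : Fin n) (w : Fin n × Fin n → ℝ) : ℝ := (√(Mt w).det)⁻¹ * w (i, j)

/-- `P^{ab;c}` -/
def Pv (v : ((Fin n × Fin n) ⊕ ((Fin n × Fin n) × Fin n)) → ℝ) (a b c : Fin n) : ℝ :=
  ∑ d, v (Sum.inl (c, d)) * v (Sum.inr ((a, b), d))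

/-- right-hand side -/
def bE (lam : ℝ) (A : Fin n × Fin n) (v : ((Fin n × Fin n) ⊕ ((Fin n × Fin n) × Fin n)) → ℝ) :
    ℝ :=
  (√(Mt fun A => v (Sum.inl A)).det)⁻¹ * (2 * Sk (Mt fun A => v (Sum.inl A))⁻¹ (Pv v) A.1 A.2 +
    2 * lam * v (Sum.inl A))

theorem OO_open : IsOpen (OO n) := by
  have h : Continuous fun w : Fin n × Fin n → ℝ => (Mt w).det := by
    have := cd_det (n := n) (s := univ) (m := fun w : Fin n × Fin n → ℝ => Mt w) (k := 0)
      fun i j => (contDiff_apply ℝ ℝ (i, j)).contDiffOn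
    exact continuousOn_univ.1 this.continuousOn
  exact isOpen_lt continuous_const h

theorem smooth_aE (i j : Fin n) : ContDiffOn ℝ ∞ (aE i j) (OO n) := by
  have h : ∀ i j : Fin n, ContDiffOn ℝ ∞ (fun w : Fin n × Fin n → ℝ => Mt w i j) (OO n) :=
    fun i j => (contDiff_apply ℝ ℝ (i, j)).contDiffOn
  exact (cd_J h fun v hv => hv).mul (contDiff_apply ℝ ℝ (i, j)).contDiffOn

theorem smooth_bE (lam : ℝ) (A : Fin n × Fin n) :
    ContDiffOn ℝ ∞ (bE lam A) (dom n (OO n)) := by
  have hp : ∀ p, ContDiffOn ℝ ∞ (fun v : ((Fin n × Fin n) ⊕ ((Fin n × Fin n) × Fin n)) → ℝ => v p)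
      (dom n (OO n)) := fun p => (contDiff_apply ℝ ℝ p).contDiffOn
  have h : ∀ i j : Fin n, ContDiffOn ℝ ∞
      (fun v : ((Fin n × Fin n) ⊕ ((Fin n × Fin n) × Fin n)) → ℝ => Mt (fun A => v (Sum.inl A)) i j)
      (dom n (OO n)) := fun i j => hp _
  have h0 : ∀ v ∈ dom n (OO n), 0 < (Mt fun A => v (Sum.inl A)).det := fun v hv => hv
  refine (cd_J h h0).mul (((contDiffOn_const).mul (cd_Sk (cd_inv h fun v hv => (h0 v hv).ne')
    (fun a b c => ?_) A.1 A.2)).add ((contDiffOn_const).mul (hp _)))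
  exact ContDiffOn.sum fun d _ => (hp _).mul (hp _)

/-- **The weak Einstein system** of the inverse metric `h` in harmonic coordinates. -/
structure EinW (Ω : Set (EE n)) (α lam : ℝ) (h : MetricField n)
    (P : Fin n → Fin n → Fin n → EE n → ℝ) : Prop where
  hα : 1 / 2 < α
  hα1 : α < 1
  openΩ : IsOpen Ω
  hol : ∀ a b, LH α Ω (fun x => h x a b)
  pd : ∀ x ∈ Ω, (h x).PosDef
  l2 : ∀ a b c, L2On Ω (P a b c)
  morrey : ∀ x ∈ Ω, ∃ r > 0, ∃ C, 0 ≤ C ∧ ∀ y ∈ Metric.closedBall x r, ∀ ρ, 0 < ρ → ρ ≤ r →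
    ∀ a b c, ∫ t in Metric.closedBall y ρ, P a b c t ^ 2 ≤ C * ρ ^ ((n : ℝ) - 2 + 2 * α)
  wd : ∀ a b e, WDOn Ω e (fun x => h x a b) (fun x => ∑ c, (h x)⁻¹ e c * P a b c x)
  div : ∀ b, ∀ φ : EE n → ℝ, IsTest φ → tsupport φ ⊆ Ω →
    ∫ x, ∑ a, (√(h x).det)⁻¹ * h x a b * pderiv a φ x = 0
  sys : ∀ a b, ∀ φ : EE n → ℝ, IsTest φ → tsupport φ ⊆ Ω →
    ∫ x, ∑ c, (√(h x).det)⁻¹ * P a b c x * pderiv c φ x =
      - ∫ x, (√(h x).det)⁻¹ * (2 * Sk (h x)⁻¹ (fun a b c => P a b c x) a b + 2 * lam * h x a b)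
        * φ x

variable {Ω : Set (EE n)} {α lam : ℝ} {h : MetricField n} {P : Fin n → Fin n → Fin n → EE n → ℝ}

/-- gradients -/
def HE (h : MetricField n) (P : Fin n → Fin n → Fin n → EE n → ℝ) (A : Fin n × Fin n)
    (e : Fin n) (x : EE n) : ℝ := ∑ c, (h x)⁻¹ e c * P A.1 A.2 c x

theorem EinW.c0 (H : EinW Ω α lam h P) (a b : Fin n) : ContinuousOn (fun x => h x a b) Ω :=
  LH.continuousOn (by linarith [H.hα]) (H.hol a b)

theorem EinW.cdet (H : EinW Ω α lam h P) : ContinuousOn (fun x => (h x).det) Ω := by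
  have : ∀ x, (h x).det = ∑ σ : Equiv.Perm (Fin n), ((Equiv.Perm.sign σ : ℤ) : ℝ) *
      ∏ i, h x (σ i) i := fun x => Matrix.det_apply' _
  simp only [this]
  exact continuousOn_finsetSum _ fun σ _ => continuousOn_const.mul
    (continuousOn_finsetProd _ fun i _ => H.c0 _ _)

theorem EinW.cJ (H : EinW Ω α lam h P) : ContinuousOn (fun x => (√(h x).det)⁻¹) Ω :=
  (H.cdet.sqrt).inv₀ fun x hx => (Real.sqrt_pos.2 (H.pd x hx).det_pos).ne'

theorem EinW.cinv (H : EinW Ω α lam h P) (c d : Fin n) :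
    ContinuousOn (fun x => (h x)⁻¹ c d) Ω := by
  have e : ∀ x, (h x)⁻¹ c d = ((h x).det)⁻¹ * ∑ σ : Equiv.Perm (Fin n),
      ((Equiv.Perm.sign σ : ℤ) : ℝ) * ∏ i, (h x).updateRow d (Pi.single c 1) (σ i) i := by
    intro x
    have e2 := Matrix.det_apply' ((h x).updateRow d (Pi.single c 1))
    rw [Matrix.inv_def, Ring.inverse_eq_inv', Matrix.smul_apply, smul_eq_mul,
      Matrix.adjugate_apply, e2]
  simp only [e]
  refine (H.cdet.inv₀ fun x hx => (H.pd x hx).det_pos.ne').mul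
    (continuousOn_finsetSum _ fun σ _ => continuousOn_const.mul
    (continuousOn_finsetProd _ fun i _ => ?_))
  simp only [Matrix.updateRow_apply]
  split_ifs
  · exact continuousOn_const
  · exact H.c0 _ _

theorem l2_mul {f g : EE n → ℝ} (hg : L2On Ω g) (hf : ContinuousOn f Ω) :
    L2On Ω (fun x => f x * g x) := by
  intro K hK hc
  obtain ⟨C, hC⟩ := hc.exists_bound_of_continuousOn (hf.mono hK)
  have h1 := hg K hK hc
  refine MemLp.of_le_mul (c := C) h1
    (((hf.mono hK).aestronglyMeasurable hc.measurableSet).mul h1.1) ?_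
  rw [ae_restrict_iff' hc.measurableSet]
  refine Eventually.of_forall fun x hx => ?_
  rw [norm_mul]
  exact mul_le_mul_of_nonneg_right (hC x hx) (norm_nonneg _)

theorem l2_sum {ι : Type*} (t : Finset ι) {g : ι → EE n → ℝ} (hg : ∀ i ∈ t, L2On Ω (g i)) :
    L2On Ω (fun x => ∑ i ∈ t, g i x) := by
  intro K hK hc
  exact memLp_finsetSum _ fun i hi => hg i hi K hK hc

theorem L2On.li {g : EE n → ℝ} (hΩ : IsOpen Ω) (hg : L2On Ω g) : LocallyIntegrableOn g Ω := by
  rw [locallyIntegrableOn_iff hΩ.isLocallyClosed]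
  intro K hK hc
  have : IsFiniteMeasure (volume.restrict K : Measure (EE n)) :=
    ⟨by rw [Measure.restrict_apply_univ]; exact hc.measure_lt_top⟩
  exact (hg K hK hc).integrable (by norm_num)

theorem L2On.sq {g : EE n → ℝ} (hΩ : IsOpen Ω) (hg : L2On Ω g) :
    LocallyIntegrableOn (fun x => g x ^ 2) Ω := by
  rw [locallyIntegrableOn_iff hΩ.isLocallyClosed]
  intro K hK hc
  exact (hg K hK hc).integrable_sq

theorem EinW.l2H (H : EinW Ω α lam h P) (A : Fin n × Fin n) (e : Fin n) : L2On Ω (HE h P A e) :=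
  l2_sum _ fun c _ => l2_mul (H.l2 _ _ _) (H.cinv e c)

theorem EinW.sym (H : EinW Ω α lam h P) {x : EE n} (hx : x ∈ Ω) (a b : Fin n) :
    h x a b = h x b a := by
  have := (H.pd x hx).1
  have h1 := congrFun (congrFun this b) a
  simpa [Matrix.conjTranspose_apply] using h1

theorem EinW.contr (H : EinW Ω α lam h P) {x : EE n} (hx : x ∈ Ω) (A : Fin n × Fin n) (c : Fin n) :
    ∑ d, h x c d * HE h P A d x = P A.1 A.2 c x := by
  have h1 : h x * (h x)⁻¹ = 1 := Matrix.mul_nonsing_inv _ (H.pd x hx).det_pos.ne'.isUnit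
  have h2 : ∀ e, ∑ d, h x c d * (h x)⁻¹ d e = if c = e then 1 else 0 := by
    intro e
    have := congrFun (congrFun h1 c) e
    rw [Matrix.mul_apply, Matrix.one_apply] at this
    exact this
  unfold HE
  simp only [Finset.mul_sum]
  rw [Finset.sum_comm]
  have h3 : ∀ e, ∑ d, h x c d * ((h x)⁻¹ d e * P A.1 A.2 e x)
      = (if c = e then 1 else 0) * P A.1 A.2 e x := by
    intro e
    rw [← h2 e, Finset.sum_mul]
    exact Finset.sum_congr rfl fun d _ => by ring
  simp only [h3]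
  simp

theorem Mt_h (x : EE n) : Mt (fun A : Fin n × Fin n => h x A.1 A.2) = h x := rfl

theorem EinW.Pv_eq (H : EinW Ω α lam h P) {x : EE n} (hx : x ∈ Ω) :
    Pv (arg (fun (A : Fin n × Fin n) x => h x A.1 A.2) (HE h P) x) = fun a b c => P a b c x := by
  funext a b c
  exact H.contr hx (a, b) c

theorem EinW.bE_eq (H : EinW Ω α lam h P) {x : EE n} (hx : x ∈ Ω) (A : Fin n × Fin n) :
    bE lam A (arg (fun (A : Fin n × Fin n) x => h x A.1 A.2) (HE h P) x)
      = (√(h x).det)⁻¹ * (2 * Sk (h x)⁻¹ (fun a b c => P a b c x) A.1 A.2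
        + 2 * lam * h x A.1 A.2) := by
  unfold bE
  rw [H.Pv_eq hx]
  rfl

/-- quadratic growth of the right-hand side -/
theorem EinW.growth' (H : EinW Ω α lam h P) {x : EE n} (hx : x ∈ Ω) : ∃ r > 0, ∃ C, 0 ≤ C ∧
    ∀ y ∈ Metric.closedBall x r, ∀ A : Fin n × Fin n,
      |bE lam A (arg (fun (A : Fin n × Fin n) x => h x A.1 A.2) (HE h P) y)|
        ≤ C * (1 + ∑ B, ∑ i, HE h P B i y ^ 2) := by
  obtain ⟨r, hr, hrs⟩ := Metric.nhds_basis_closedBall.mem_iff.1 (H.openΩ.mem_nhds hx)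
  have hK : IsCompact (Metric.closedBall x r) := isCompact_closedBall _ _
  choose G hG using fun p : Fin n × Fin n =>
    hK.exists_bound_of_continuousOn ((H.cinv p.1 p.2).mono hrs)
  choose G' hG' using fun p : Fin n × Fin n =>
    hK.exists_bound_of_continuousOn ((H.c0 p.1 p.2).mono hrs)
  obtain ⟨j0, hj0⟩ := hK.exists_bound_of_continuousOn (H.cJ.mono hrs)
  set g := (∑ p, |G p|) + (∑ p, |G' p|) + |j0| with hg
  have s1 : 0 ≤ ∑ p, |G p| := Finset.sum_nonneg fun p _ => abs_nonneg _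
  have s2 : 0 ≤ ∑ p, |G' p| := Finset.sum_nonneg fun p _ => abs_nonneg _
  have hg0 : 0 ≤ g := by positivity
  have b1 : ∀ p : Fin n × Fin n, ∀ y ∈ Metric.closedBall x r, |(h y)⁻¹ p.1 p.2| ≤ g := fun p y hy => by
    have h1 := (hG p y hy).trans ((le_abs_self _).trans (Finset.single_le_sum
      (f := fun p => |G p|) (fun p _ => abs_nonneg _) (Finset.mem_univ p)))
    rw [Real.norm_eq_abs] at h1
    have := abs_nonneg j0
    linarith
  have b2 : ∀ p : Fin n × Fin n, ∀ y ∈ Metric.closedBall x r, |h y p.1 p.2| ≤ g := fun p y hy => by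
    have h1 := (hG' p y hy).trans ((le_abs_self _).trans (Finset.single_le_sum
      (f := fun p => |G' p|) (fun p _ => abs_nonneg _) (Finset.mem_univ p)))
    rw [Real.norm_eq_abs] at h1
    have := abs_nonneg j0
    linarith
  have b3 : ∀ y ∈ Metric.closedBall x r, |(√(h y).det)⁻¹| ≤ g := fun y hy => by
    have h1 := (hj0 y hy).trans (le_abs_self _)
    rw [Real.norm_eq_abs] at h1
    linarith
  set N2 : ℝ := (Fintype.card ((Fin n × Fin n) × Fin n) : ℝ) with hN2
  set C : ℝ := g * (2 * (n * (n * (n * (n * (g * g * (2 * (n * g)) * (2 * (n * g))))))) * N2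
    + 2 * |lam| * g) with hC
  refine ⟨r, hr, C, by positivity, fun y hy A => ?_⟩
  set H2 := ∑ B, ∑ i, HE h P B i y ^ 2 with hH2
  have hH20 : 0 ≤ H2 := Finset.sum_nonneg fun B _ => Finset.sum_nonneg fun i _ => sq_nonneg _
  have hH2p : H2 = ∑ q : (Fin n × Fin n) × Fin n, HE h P q.1 q.2 y ^ 2 := by
    rw [hH2]
    exact (Fintype.sum_prod_type (fun q : (Fin n × Fin n) × Fin n => HE h P q.1 q.2 y ^ 2)).symm
  set S := ∑ q : (Fin n × Fin n) × Fin n, |HE h P q.1 q.2 y| with hS
  have hS0 : 0 ≤ S := Finset.sum_nonneg fun q _ => abs_nonneg _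
  have hS2 : S ^ 2 ≤ N2 * H2 := by
    have h2 := sq_sum_le_card_mul_sum_sq (s := (Finset.univ : Finset ((Fin n × Fin n) × Fin n)))
      (f := fun q => |HE h P q.1 q.2 y|)
    rw [Finset.card_univ] at h2
    simp only [sq_abs] at h2
    rw [hH2p]; exact h2
  have hle : ∀ q : (Fin n × Fin n) × Fin n, |HE h P q.1 q.2 y| ≤ S := fun q =>
    Finset.single_le_sum (f := fun q : (Fin n × Fin n) × Fin n => |HE h P q.1 q.2 y|)
      (fun q _ => abs_nonneg _) (Finset.mem_univ q)
  have hPle : ∀ a b c, |P a b c y| ≤ n * g * S := by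
    intro a b c
    have h5 := H.contr (hrs hy) (a, b) c
    have h6 : P a b c y = ∑ d, h y c d * HE h P (a, b) d y := h5.symm
    have h7 : ∀ d, |h y c d * HE h P (a, b) d y| ≤ g * S := fun d => by
      rw [abs_mul]
      exact mul_le_mul (b2 (c, d) y hy) (hle ((a, b), d)) (abs_nonneg _) hg0
    rw [h6]
    calc |∑ d, h y c d * HE h P (a, b) d y| ≤ ∑ d, |h y c d * HE h P (a, b) d y| :=
          Finset.abs_sum_le_sum_abs _ _
      _ ≤ ∑ _d : Fin n, g * S := Finset.sum_le_sum fun d _ => h7 d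
      _ = n * g * S := by simp; ring
  rw [H.bE_eq (hrs hy), abs_mul]
  have e1 := Sk_le (G := (h y)⁻¹) (P := fun a b c => P a b c y) (fun i j => b1 (i, j) y hy) hPle
    hg0 (by positivity) A.1 A.2
  have e2 : |2 * Sk (h y)⁻¹ (fun a b c => P a b c y) A.1 A.2 + 2 * lam * h y A.1 A.2|
      ≤ 2 * (n * (n * (n * (n * (g * g * (2 * (n * g * S)) * (2 * (n * g * S)))))))
        + 2 * |lam| * g := by
    refine (abs_add_le _ _).trans (add_le_add ?_ ?_)
    · rw [abs_mul, abs_two]
      exact mul_le_mul_of_nonneg_left e1 (by norm_num)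
    · rw [abs_mul, abs_mul, abs_two]
      exact mul_le_mul_of_nonneg_left (b2 A y hy) (by positivity)
  refine (mul_le_mul (b3 y hy) e2 (abs_nonneg _) hg0).trans ?_
  have e3 : 2 * (n * (n * (n * (n * (g * g * (2 * (n * g * S)) * (2 * (n * g * S)))))))
      = 2 * (n * (n * (n * (n * (g * g * (2 * (n * g)) * (2 * (n * g))))))) * S ^ 2 := by ring
  have e4 : 2 * (n * (n * (n * (n * (g * g * (2 * (n * g)) * (2 * (n * g))))))) * S ^ 2
      ≤ 2 * (n * (n * (n * (n * (g * g * (2 * (n * g)) * (2 * (n * g))))))) * (N2 * H2) :=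
    mul_le_mul_of_nonneg_left hS2 (by positivity)
  have e5 : 0 ≤ 2 * |lam| * g * H2 := by positivity
  have e6 : 0 ≤ 2 * (n * (n * (n * (n * (g * g * (2 * (n * g)) * (2 * (n * g))))))) * N2 := by
    positivity
  rw [e3]
  have e7 : 2 * (n * (n * (n * (n * (g * g * (2 * (n * g)) * (2 * (n * g))))))) * S ^ 2
      + 2 * |lam| * g
      ≤ (2 * (n * (n * (n * (n * (g * g * (2 * (n * g)) * (2 * (n * g))))))) * N2
      + 2 * |lam| * g) * (1 + H2) := by linarith
  refine (mul_le_mul_of_nonneg_left e7 hg0).trans (le_of_eq ?_)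
  rw [hC]; ring

/-- the weak Einstein system is a quasilinear system in the sense of `QSys` -/
theorem EinW.qsys (H : EinW Ω α lam h P) :
    QSys Ω (OO n) α aE (bE lam) (fun A x => h x A.1 A.2) (HE h P) where
  hα := H.hα
  hα1 := H.hα1
  openΩ := H.openΩ
  openO := OO_open
  smooth_a := smooth_aE
  smooth_b := smooth_bE lam
  hol A := H.hol _ _
  mem x hx := (H.pd x hx).det_pos
  ell := by
    refine lell_of_pos H.openΩ (fun i j => ?_) (fun x hx i j => ?_) (fun x hx z hz => ?_)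
    · exact H.cJ.mul (H.c0 i j)
    · show (√(h x).det)⁻¹ * h x i j = (√(h x).det)⁻¹ * h x j i
      rw [H.sym hx]
    · have h1 := (H.pd x hx).dotProduct_mulVec_pos hz
      have h2 : star z ⬝ᵥ (h x).mulVec z = ∑ i, ∑ j, h x i j * z i * z j := by
        simp only [dotProduct, Matrix.mulVec, Finset.mul_sum]
        refine Finset.sum_congr rfl fun i _ => Finset.sum_congr rfl fun j _ => ?_
        simp; ring
      rw [h2] at h1
      have h3 : ∑ i, ∑ j, aE i j (fun A : Fin n × Fin n => h x A.1 A.2) * z i * z j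
          = (√(h x).det)⁻¹ * ∑ i, ∑ j, h x i j * z i * z j := by
        rw [Finset.mul_sum]
        refine Finset.sum_congr rfl fun i _ => ?_
        rw [Finset.mul_sum]
        refine Finset.sum_congr rfl fun j _ => ?_
        show (√(h x).det)⁻¹ * h x i j * z i * z j = _
        ring
      rw [h3]
      exact mul_pos (inv_pos.2 (Real.sqrt_pos.2 (H.pd x hx).det_pos)) h1
  li A i := L2On.li H.openΩ (H.l2H A i)
  sq A i := L2On.sq H.openΩ (H.l2H A i)
  morrey := by
    intro x hx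
    obtain ⟨r, hr, C, hC, hm⟩ := H.morrey x hx
    obtain ⟨r', hr', hrs⟩ := Metric.nhds_basis_closedBall.mem_iff.1 (H.openΩ.mem_nhds hx)
    -- bound of the inverse on the compact ball
    have hK : IsCompact (Metric.closedBall x r') := isCompact_closedBall _ _
    choose G hG using fun p : Fin n × Fin n =>
      hK.exists_bound_of_continuousOn ((H.cinv p.1 p.2).mono hrs)
    set g := ∑ p, |G p| with hg
    have hg0 : 0 ≤ g := Finset.sum_nonneg fun p _ => abs_nonneg _
    have hGg : ∀ p : Fin n × Fin n, ∀ y ∈ Metric.closedBall x r', |(h y)⁻¹ p.1 p.2| ≤ g := fun p y hy =>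
      (hG p y hy).trans ((le_abs_self _).trans (Finset.single_le_sum (f := fun p => |G p|)
        (fun p _ => abs_nonneg _) (Finset.mem_univ p)))
    refine ⟨min r (r' / 2), lt_min hr (by positivity), n * (g ^ 2 * (n * C)), by positivity,
      fun y hy ρ hρ hρr A i => ?_⟩
    have hyr : y ∈ Metric.closedBall x r := Metric.closedBall_subset_closedBall (min_le_left _ _) hy
    have hsub : Metric.closedBall y ρ ⊆ Metric.closedBall x r' := by
      intro t ht
      rw [Metric.mem_closedBall] at ht hy ⊢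
      have := dist_triangle t y x
      have := min_le_right r (r' / 2)
      linarith
    have hcb : IsCompact (Metric.closedBall y ρ) := isCompact_closedBall _ _
    have hP2 : ∀ c, IntegrableOn (fun t => P A.1 A.2 c t ^ 2) (Metric.closedBall y ρ) := fun c =>
      (H.l2 A.1 A.2 c _ (hsub.trans hrs) hcb).integrable_sq
    have h1 : ∫ t in Metric.closedBall y ρ, HE h P A i t ^ 2
        ≤ ∫ t in Metric.closedBall y ρ, n * (g ^ 2 * ∑ c, P A.1 A.2 c t ^ 2) := by
      refine setIntegral_mono_on (H.l2H A i _ (hsub.trans hrs) hcb).integrable_sq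
        (((integrable_finsetSum _ fun c _ => hP2 c).const_mul _).const_mul _)
        Metric.isClosed_closedBall.measurableSet fun t ht => ?_
      unfold HE
      have h2 := sq_sum_le_card_mul_sum_sq (s := (Finset.univ : Finset (Fin n)))
        (f := fun c => (h t)⁻¹ i c * P A.1 A.2 c t)
      rw [Finset.card_univ, Fintype.card_fin] at h2
      refine h2.trans (mul_le_mul_of_nonneg_left ?_ (by positivity))
      rw [Finset.mul_sum]
      refine Finset.sum_le_sum fun c _ => ?_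
      rw [mul_pow]
      refine mul_le_mul_of_nonneg_right ?_ (sq_nonneg _)
      rw [← sq_abs]
      exact pow_le_pow_left₀ (abs_nonneg _) (hGg (i, c) t (hsub ht)) 2
    refine h1.trans ?_
    rw [integral_const_mul, integral_const_mul, integral_finsetSum _ fun c _ => hP2 c]
    have h3 : ∑ c, ∫ t in Metric.closedBall y ρ, P A.1 A.2 c t ^ 2
        ≤ n * (C * ρ ^ ((n : ℝ) - 2 + 2 * α)) := by
      refine (Finset.sum_le_sum (g := fun _ => C * ρ ^ ((n : ℝ) - 2 + 2 * α)) fun c _ =>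
        hm y hyr ρ hρ (hρr.trans (min_le_left _ _)) _ _ _).trans (by simp)
    calc _ ≤ (n : ℝ) * (g ^ 2 * (n * (C * ρ ^ ((n : ℝ) - 2 + 2 * α)))) := by gcongr
      _ = _ := by ring
  growth x hx := H.growth' hx
  wd A i := H.wd _ _ _
  eq := by
    intro A φ hφ hs
    have hs' : ∀ j, tsupport (pderiv j φ) ⊆ Ω := fun j =>
      (RegKer_717.tsupport_pderiv φ j).trans hs
    have i1 : ∀ i j, Integrable (fun x => (√(h x).det)⁻¹ * h x i j * HE h P A i x *
        pderiv j φ x) := fun i j =>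
      (l2_mul (H.l2H A i) (H.cJ.mul (H.c0 i j))).int_test (hφ.pderiv j).continuous
        (hφ.pderiv j).cpt (hs' j)
    have h1 : ∑ i, ∑ j, ∫ x, (√(h x).det)⁻¹ * h x i j * HE h P A i x * pderiv j φ x
        = ∫ x, ∑ c, (√(h x).det)⁻¹ * P A.1 A.2 c x * pderiv c φ x := by
      have e1 : ∀ i, ∑ j, ∫ x, (√(h x).det)⁻¹ * h x i j * HE h P A i x * pderiv j φ x
          = ∫ x, ∑ j, (√(h x).det)⁻¹ * h x i j * HE h P A i x * pderiv j φ x := fun i =>
        (integral_finsetSum _ fun j _ => i1 i j).symm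
      simp only [e1]
      rw [← integral_finsetSum _ fun i _ => integrable_finsetSum _ fun j _ => i1 i j]
      refine integral_congr_ae (Eventually.of_forall fun x => ?_)
      show ∑ i, ∑ j, (√(h x).det)⁻¹ * h x i j * HE h P A i x * pderiv j φ x = _
      rw [Finset.sum_comm]
      refine Finset.sum_congr rfl fun c _ => ?_
      by_cases hx : x ∈ Ω
      · rw [← H.contr hx A c, Finset.mul_sum, Finset.sum_mul]
        refine Finset.sum_congr rfl fun i _ => ?_
        rw [H.sym hx i c]; ring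
      · simp only [test_zero (hs' c) hx, mul_zero, Finset.sum_const_zero]
    have h2 : ∫ x, bE lam A (arg (fun (A : Fin n × Fin n) x => h x A.1 A.2) (HE h P) x) * φ x
        = ∫ x, (√(h x).det)⁻¹ * (2 * Sk (h x)⁻¹ (fun a b c => P a b c x) A.1 A.2
          + 2 * lam * h x A.1 A.2) * φ x := by
      refine integral_congr_ae (Eventually.of_forall fun x => ?_)
      by_cases hx : x ∈ Ω
      · show bE lam A _ * φ x = _
        rw [H.bE_eq hx]
      · simp only [test_zero hs hx, mul_zero]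
    rw [h2]
    exact h1.trans (H.sys A.1 A.2 φ hφ hs)

/-- **Smoothness of the inverse metric.** -/
theorem EinW.riem (hn : 0 < n) (H : EinW Ω α lam h P) : IsRiemannianOn h Ω where
  isOpen := H.openΩ
  contDiffOn i j := H.qsys.smooth hn (i, j)
  posDef := H.pd

/-- `P` is the classical `P^{ab;c} = Σ h^{cd} ∂_d h^{ab}` -/
theorem EinW.P_eq (hn : 0 < n) (H : EinW Ω α lam h P) (a b c : Fin n) :
    ∀ᵐ x, x ∈ Ω → P a b c x = Ph h x a b c := by
  have h1 : ∀ᵐ x, ∀ d, x ∈ Ω → HE h P (a, b) d x = pderiv d (fun y => h y a b) x :=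
    ae_all_iff.2 fun d => H.qsys.grad hn (a, b) d
  filter_upwards [h1] with x hx hxΩ
  rw [← H.contr hxΩ (a, b) c, Ph]
  exact Finset.sum_congr rfl fun d _ => by rw [hx d hxΩ]

/-- **The Einstein equation.** -/
theorem EinW.ricci (hn : 0 < n) (H : EinW Ω α lam h P) :
    ∀ x ∈ Ω, ∀ i j, ricci (fun x => (h x)⁻¹) x i j = lam * (h x)⁻¹ i j := by
  have hR := H.riem hn
  have hJs : ContDiffOn ℝ ∞ (fun x => (√(h x).det)⁻¹) Ω :=
    cd_J hR.contDiffOn fun v hv => (H.pd v hv).det_pos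
  have hJh : ∀ a b, ContDiffOn ℝ ∞ (fun x => (√(h x).det)⁻¹ * h x a b) Ω := fun a b =>
    hJs.mul (hR.contDiffOn a b)
  have hdif : ∀ {f : EE n → ℝ}, ContDiffOn ℝ ∞ f Ω → ∀ x ∈ Ω, DifferentiableAt ℝ f x :=
    fun hf x hx => (hf.contDiffAt (H.openΩ.mem_nhds hx)).differentiableAt (by simp)
  have hpc : ∀ {f : EE n → ℝ}, ContDiffOn ℝ ∞ f Ω → ∀ i, ContDiffOn ℝ ∞ (pderiv i f) Ω :=
    fun hf i => (hf.fderiv_of_isOpen H.openΩ (m := ∞) (by simp)).clm_apply contDiffOn_const
  refine ricci_of_div (h := h) (U := Ω) (J := fun x => (√(h x).det)⁻¹) (c := 1) one_ne_zero hR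
    (fun y hy => ?_) ?_ ?_
  · exact inv_mul_cancel₀ (Real.sqrt_pos.2 (H.pd y hy).det_pos).ne'
  · intro y hy b
    have cS : ContinuousOn (fun x => ∑ a, pderiv a (fun z => (√(h z).det)⁻¹ * h z a b) x) Ω :=
      continuousOn_finsetSum _ fun a _ => (hpc (hJh a b) a).continuousOn
    have h2 := H.openΩ.ae_eq_zero_of_integral_contDiff_smul_eq_zero (μ := volume)
      (f := fun x => ∑ a, pderiv a (fun z => (√(h z).det)⁻¹ * h z a b) x)
      (cS.locallyIntegrableOn H.openΩ.measurableSet) fun φ hφ1 hφ2 hφ3 => by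
        have hφ : IsTest φ := ⟨hφ1, hφ2⟩
        have e1 := H.div b φ hφ hφ3
        have i1 : ∀ a, Integrable (fun x => (√(h x).det)⁻¹ * h x a b * pderiv a φ x) := fun a =>
          RegKer_717.int_mul_test H.openΩ (hJh a b).continuousOn (hφ.pderiv a)
            ((RegKer_717.tsupport_pderiv φ a).trans hφ3)
        have i2 : ∀ a, Integrable (fun x =>
            pderiv a (fun z => (√(h z).det)⁻¹ * h z a b) x * φ x) := fun a =>
          RegKer_717.int_mul_test H.openΩ (hpc (hJh a b) a).continuousOn hφ hφ3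
        rw [integral_finsetSum _ fun a _ => i1 a] at e1
        have e2 : ∀ a, ∫ x, (√(h x).det)⁻¹ * h x a b * pderiv a φ x
            = - ∫ x, pderiv a (fun z => (√(h z).det)⁻¹ * h z a b) x * φ x := fun a =>
          ibp_local H.openΩ (hdif (hJh a b)) a (hpc (hJh a b) a).continuousOn hφ hφ3
        simp only [e2, Finset.sum_neg_distrib] at e1
        have e3 : ∀ x, φ x • (∑ a, pderiv a (fun z => (√(h z).det)⁻¹ * h z a b) x)
            = ∑ a, pderiv a (fun z => (√(h z).det)⁻¹ * h z a b) x * φ x := fun x => by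
          rw [smul_eq_mul, mul_comm, Finset.sum_mul]
        simp only [e3]
        rw [integral_finsetSum _ fun a _ => i2 a]
        linarith
    have h3 : (fun x => ∑ a, pderiv a (fun z => (√(h z).det)⁻¹ * h z a b) x)
        =ᵐ[volume.restrict Ω] fun _ => 0 := by
      rw [Filter.EventuallyEq, ae_restrict_iff' H.openΩ.measurableSet]
      exact h2
    exact Measure.eqOn_open_of_ae_eq h3 H.openΩ cS continuousOn_const hy
  · intro y hy a b
    have h1 := H.qsys.strong hn (a, b) y hy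
    have h2 : bE lam (a, b) (arg (fun (A : Fin n × Fin n) x => h x A.1 A.2)
        (fun B i => pderiv i (fun x => h x B.1 B.2)) y)
        = (√(h y).det)⁻¹ * (2 * Sk (h y)⁻¹ (Ph h y) a b + 2 * lam * h y a b) := rfl
    rw [h2] at h1
    rw [← h1, Finset.sum_comm]
    refine Finset.sum_congr rfl fun i _ => ?_
    have hq : ∀ j, DifferentiableAt ℝ (fun z => (√(h z).det)⁻¹ * h z i j *
        pderiv j (fun w => h w a b) z) y := fun j =>
      (hdif (hJh i j) y hy).mul (hdif (hpc (hR.contDiffOn a b) j) y hy)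
    have e1 : (fun z => (√(h z).det)⁻¹ * ∑ j, h z i j * pderiv j (fun w => h w a b) z)
        = fun z => ∑ j, (√(h z).det)⁻¹ * h z i j * pderiv j (fun w => h w a b) z := by
      funext z
      rw [Finset.mul_sum]
      exact Finset.sum_congr rfl fun j _ => by ring
    rw [e1, pderiv_sum _ i y fun j _ => hq j]
    refine Finset.sum_congr rfl fun j _ => ?_
    refine RegKer_717.pderiv_congr H.openΩ (fun z hz => ?_) i hy
    show (√(h z).det)⁻¹ * h z i j * pderiv j (fun w => h w a b) z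
      = (√(h z).det)⁻¹ * h z j i * pderiv j (fun x => h x a b) z
    rw [H.sym hz i j]

/-- Hölder functions on an open set are locally Hölder -/
theorem LH_of_dist {Ω : Set (EE n)} (hΩ : IsOpen Ω) {α C : ℝ} {f : EE n → ℝ}
    (hf : ∀ x ∈ Ω, ∀ y ∈ Ω, |f x - f y| ≤ C * dist x y ^ α) : LH α Ω f := by
  intro x hx
  obtain ⟨r, hr, hrs⟩ := Metric.nhds_basis_closedBall.mem_iff.1 (hΩ.mem_nhds hx)
  refine ⟨r, hr, max C 0, le_max_right _ _, hrs, fun y hy z hz => ?_⟩
  have h1 := hf y (hrs hy) z (hrs hz)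
  rw [dist_eq_norm] at h1
  exact h1.trans (mul_le_mul_of_nonneg_right (le_max_left _ _)
    (Real.rpow_nonneg (norm_nonneg _) _))

end

end Crest.Agent.R249.RegEin_717
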