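import Crest.Agent.R249.RegInc_717

/-!
Row 249, leaf D3-REG (helper717), file 4: estimates of the increments.
-/

set_option autoImplicit false
open scoped ContDiff ENNReal Topology
open MeasureTheory Set Filter
open Crest.GeometryTopology.CoordMetric

namespace Crest.Agent.R249.RegKer_717

open Crest.Agent.R202.Ell

noncomputable section

variable {n : ℕ}

/-- bound for an integral against a bounded function supported in a ball -/
theorem int_bound {g k : EE n → ℝ} (hg : LocallyIntegrable g) {x : EE n} {ρ M : ℝ}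
    (hM : ∀ t, |k t| ≤ M) (h0 : ∀ t, t ∉ Metric.closedBall x ρ → k t = 0) :
    |∫ t, g t * k t| ≤ M * ∫ t in Metric.closedBall x ρ, |g t| := by
  have hM0 : 0 ≤ M := (abs_nonneg _).trans (hM x)
  have h1 : ∫ t, g t * k t = ∫ t in Metric.closedBall x ρ, g t * k t := by
    rw [setIntegral_eq_integral_of_forall_compl_eq_zero]
    intro t ht
    rw [h0 t ht, mul_zero]
  have hi : IntegrableOn g (Metric.closedBall x ρ) :=
    hg.integrableOn_isCompact (isCompact_closedBall _ _)
  have e2 : M * ∫ t in Metric.closedBall x ρ, |g t| = ∫ t in Metric.closedBall x ρ, M * |g t| :=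
    (integral_const_mul M (fun t => |g t|)).symm
  rw [h1, e2, ← Real.norm_eq_abs]
  refine (norm_integral_le_integral_norm _).trans ?_
  refine integral_mono_of_nonneg (Filter.Eventually.of_forall fun t => norm_nonneg _)
    (hi.abs.const_mul M) (Filter.Eventually.of_forall fun t => ?_)
  show ‖g t * k t‖ ≤ M * |g t|
  rw [Real.norm_eq_abs, abs_mul, mul_comm]
  exact mul_le_mul_of_nonneg_right (hM t) (abs_nonneg _)

/-- kernel data -/
structure KD (A : Fin n → Fin n → ℝ) (T : EE n →L[ℝ] EE n) (c τ D : ℝ) : Prop where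
  ad : Adapt A T
  c1 : 1 ≤ c
  low : ∀ x, ‖x‖ ≤ c * ‖T x‖
  up : ‖T‖ ≤ τ
  det : |T.det| ≤ D
  det0 : T.det ≠ 0

/-- bounds of a profile -/
structure PB (ψ : EE n → ℝ) (M : ℝ) : Prop where
  test : IsTest ψ
  supp : ∀ x, 1 ≤ ‖x‖ → ψ x = 0
  b0 : ∀ x, |ψ x| ≤ M
  b1 : ∀ k x, |pderiv k ψ x| ≤ M

theorem IsTest.bdd {ψ : EE n → ℝ} (h : IsTest ψ) : ∃ M, ∀ x, |ψ x| ≤ M := by
  obtain ⟨C, hC⟩ := h.cpt.exists_bound_of_continuous h.continuous
  exact ⟨C, fun x => by simpa using hC x⟩

theorem exists_PB {ψ : EE n → ℝ} (h : IsTest ψ) (h0 : ∀ x, 1 ≤ ‖x‖ → ψ x = 0) :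
    ∃ M, 0 ≤ M ∧ PB ψ M := by
  obtain ⟨C, hC⟩ := IsTest.bdd h
  choose D hD using fun k => IsTest.bdd (h.pderiv k)
  refine ⟨|C| + ∑ k, |D k|, by positivity, h, h0, fun x => ?_, fun k x => ?_⟩
  · have : 0 ≤ ∑ k, |D k| := Finset.sum_nonneg fun k _ => abs_nonneg _
    exact (hC x).trans ((le_abs_self C).trans (by linarith))
  · have h1 : |D k| ≤ ∑ k, |D k| := Finset.single_le_sum (f := fun k => |D k|)
      (fun k _ => abs_nonneg _) (Finset.mem_univ k)
    exact (hD k x).trans ((le_abs_self _).trans (h1.trans (by linarith [abs_nonneg C])))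

theorem pderiv_zero_of_supp {ψ : EE n → ℝ} (h : IsTest ψ) (h0 : ∀ x, 1 ≤ ‖x‖ → ψ x = 0)
    (k : Fin n) : ∀ x, 1 ≤ ‖x‖ → pderiv k ψ x = 0 := by
  -- `ψ` vanishes on the open set `‖x‖ > 1`, so the derivative vanishes on its closure
  have hopen : ∀ x : EE n, 1 < ‖x‖ → pderiv k ψ x = 0 := by
    intro x hx
    have : ψ =ᶠ[𝓝 x] fun _ => 0 := by
      have : {y : EE n | 1 < ‖y‖} ∈ 𝓝 x := (isOpen_lt continuous_const continuous_norm).mem_nhds hx
      filter_upwards [this] with y hy
      exact h0 y (le_of_lt hy)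
    unfold pderiv
    rw [this.fderiv_eq]; simp
  intro x hx
  have hcont : Continuous (pderiv k ψ) := (h.pderiv k).continuous
  have hx0 : x ≠ 0 := fun h => by rw [h, norm_zero] at hx; linarith
  have h2 : Tendsto (fun m : ℕ => pderiv k ψ ((1 + 1 / ((m : ℝ) + 1)) • x)) atTop
      (𝓝 (pderiv k ψ ((1 : ℝ) • x))) := by
    refine (hcont.tendsto _).comp ?_
    have : Tendsto (fun m : ℕ => (1 + 1 / ((m : ℝ) + 1))) atTop (𝓝 (1 + 0)) :=
      tendsto_const_nhds.add tendsto_one_div_add_atTop_nhds_zero_nat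
    rw [add_zero] at this
    exact this.smul_const x
  have h3 : ∀ m : ℕ, pderiv k ψ ((1 + 1 / ((m : ℝ) + 1)) • x) = 0 := by
    intro m
    apply hopen
    rw [norm_smul, Real.norm_eq_abs, abs_of_pos (by positivity)]
    have h4 : (0 : ℝ) < 1 / ((m : ℝ) + 1) := by positivity
    nlinarith
  simp only [h3] at h2
  have := tendsto_nhds_unique h2 tendsto_const_nhds
  rw [one_smul] at this
  exact this

variable {A : Fin n → Fin n → ℝ} {T : EE n →L[ℝ] EE n} {c τ D : ℝ}

theorem KD.D0 (h : KD A T c τ D) : 0 ≤ D := (abs_nonneg _).trans h.det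
theorem KD.τ0 (h : KD A T c τ D) : 0 ≤ τ := (norm_nonneg _).trans h.up
theorem KD.c0 (h : KD A T c τ D) : 0 < c := lt_of_lt_of_le one_pos h.c1

theorem ker_dbound (h : KD A T c τ D) {ψ : EE n → ℝ} {M : ℝ} (hψ : PB ψ M) {s : ℝ} (hs : 0 < s)
    (j : Fin n) (x : EE n) :
    |pderiv j (Ker T s ψ) x| ≤ s⁻¹ * (n * (τ * (D * (s⁻¹) ^ n * M))) := by
  rw [pderiv_ker (hψ.test.smooth.differentiable (by simp)), abs_mul, abs_inv, abs_of_pos hs]
  refine mul_le_mul_of_nonneg_left ?_ (by positivity)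
  refine (Finset.abs_sum_le_sum_abs _ _).trans ?_
  have h1 : ∀ k ∈ (Finset.univ : Finset (Fin n)), |ent T k j * Ker T s (pderiv k ψ) x|
      ≤ τ * (D * (s⁻¹) ^ n * M) := by
    intro k _
    rw [abs_mul]
    exact mul_le_mul ((ent_le T k j).trans h.up) (ker_bound hs h.det (hψ.b1 k) x) (abs_nonneg _)
      h.τ0
  refine (Finset.sum_le_sum h1).trans ?_
  simp

theorem ker_dsupp (h : KD A T c τ D) {ψ : EE n → ℝ} {M : ℝ} (hψ : PB ψ M) {s : ℝ} (hs : 0 < s)
    (j : Fin n) {x : EE n} (hx : c * s ≤ ‖x‖) : pderiv j (Ker T s ψ) x = 0 := by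
  rw [pderiv_ker (hψ.test.smooth.differentiable (by simp))]
  have h1 : ∀ k, Ker T s (pderiv k ψ) x = 0 := fun k =>
    ker_supp hs (pderiv_zero_of_supp hψ.test hψ.supp k) h.c0 h.low hx
  simp [h1]

/-- **Estimate of the increment.** -/
theorem inc_est (h : KD A T c τ D) {U : Set (EE n)}
    {w : EE n → ℝ} {H : Fin n → EE n → ℝ} {a : Fin n → Fin n → EE n → ℝ} {B : EE n → ℝ}
    (hw : LocallyIntegrable w) (hH : ∀ i, LocallyIntegrable (H i)) (hB : LocallyIntegrable B)
    (haH : ∀ i j, LocallyIntegrable (fun x => a i j x * H i x))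
    (hwd : ∀ i, WDOn U i w (H i)) (heq : WEqOn U a H B)
    {ψ : EE n → ℝ} {M : ℝ} (hψ : PB ψ M)
    {s : ℝ} (hs : 0 < s) {x : EE n} (hx : Metric.closedBall x (c * s) ⊆ U)
    {om IB IH : ℝ} (hom : ∀ i j, ∀ t ∈ Metric.closedBall x (c * s), |A i j - a i j t| ≤ om)
    (hIB : ∫ t in Metric.closedBall x (c * s), |B t| ≤ IB)
    (hIH : ∀ i, ∫ t in Metric.closedBall x (c * s), |H i t| ≤ IH) :
    |cv (Ker T s (lap ψ)) w x| ≤ s ^ 2 * ((D * (s⁻¹) ^ n * M) * IB +
      n * (n * (s⁻¹ * (n * (τ * (D * (s⁻¹) ^ n * M))) * (om * IH)))) := by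
  have hM : 0 ≤ M := (abs_nonneg _).trans (hψ.b0 x)
  have hD := h.D0
  have hτ := h.τ0
  rw [inc h.ad h.c0 h.low hw hH haH hwd heq hψ.test hψ.supp hs hx, abs_mul,
    abs_of_nonneg (by positivity : (0:ℝ) ≤ s ^ 2)]
  refine mul_le_mul_of_nonneg_left ((abs_add_le _ _).trans (add_le_add ?_ ?_)) (by positivity)
  · refine (int_bound hB (k := fun t => Ker T s ψ (x - t)) (ρ := c * s) (x := x)
      (fun t => ker_bound hs h.det hψ.b0 _) fun t ht => ?_).trans
      (mul_le_mul_of_nonneg_left hIB (by positivity))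
    apply ker_supp hs hψ.supp h.c0 h.low
    rw [Metric.mem_closedBall, dist_comm, dist_eq_norm] at ht
    linarith
  · refine (Finset.abs_sum_le_sum_abs _ _).trans ?_
    have h1 : ∀ i ∈ (Finset.univ : Finset (Fin n)), |∑ j, ∫ t, (A i j - a i j t) * H i t *
        pderiv j (Ker T s ψ) (x - t)|
        ≤ n * (s⁻¹ * (n * (τ * (D * (s⁻¹) ^ n * M))) * (om * IH)) := by
      intro i _
      refine (Finset.abs_sum_le_sum_abs _ _).trans ?_
      have h2 : ∀ j ∈ (Finset.univ : Finset (Fin n)), |∫ t, (A i j - a i j t) * H i t *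
          pderiv j (Ker T s ψ) (x - t)| ≤ s⁻¹ * (n * (τ * (D * (s⁻¹) ^ n * M))) * (om * IH) := by
        intro j _
        have hg : LocallyIntegrable (fun t => (A i j - a i j t) * H i t) := by
          have e : (fun t => (A i j - a i j t) * H i t)
              = (fun t => A i j * H i t) - fun t => a i j t * H i t := by
            ext t; simp only [Pi.sub_apply]; ring
          rw [e]
          have e2 : LocallyIntegrable (fun t => A i j * H i t) := by
            exact LocallyIntegrable.smul (hH i) (A i j)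
          exact e2.sub (haH i j)
        have hom0 : 0 ≤ om := (abs_nonneg _).trans (hom i j x (Metric.mem_closedBall_self
          (by have := h.c0; positivity)))
        refine (int_bound hg (k := fun t => pderiv j (Ker T s ψ) (x - t)) (ρ := c * s) (x := x)
          (fun t => ker_dbound h hψ hs j _) fun t ht => ?_).trans
          (mul_le_mul_of_nonneg_left ?_ (by positivity))
        · apply ker_dsupp h hψ hs
          rw [Metric.mem_closedBall, dist_comm, dist_eq_norm] at ht
          linarith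
        · refine le_trans ?_ (mul_le_mul_of_nonneg_left (hIH i) hom0)
          rw [← integral_const_mul]
          have hi : IntegrableOn (H i) (Metric.closedBall x (c * s)) :=
            (hH i).integrableOn_isCompact (isCompact_closedBall _ _)
          refine setIntegral_mono_on ?_ (hi.abs.const_mul om)
            Metric.isClosed_closedBall.measurableSet fun t ht => ?_
          · exact (hg.integrableOn_isCompact (isCompact_closedBall _ _)).abs
          · rw [abs_mul]
            exact mul_le_mul_of_nonneg_right (hom i j t ht) (abs_nonneg _)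
      refine (Finset.sum_le_sum h2).trans ?_
      simp
    refine (Finset.sum_le_sum h1).trans ?_
    simp

end

end Crest.Agent.R249.RegKer_717
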