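import Crest.Agent.R249.RegKerB_717

/-!
Row 249, leaf D3-REG (helper717), file 3: the dyadic increment identity
`cv (Ker T s (Δψ)) w x = s² (∫ B Ker(x-·) + ∑ ∫ (A - a) H ∂Ker(x-·))` for weak solutions of
`∂_j (a_ij ∂_i w) = B` on an open set.
-/

set_option autoImplicit false
open scoped ContDiff ENNReal Topology
open MeasureTheory Set Filter
open Crest.GeometryTopology.CoordMetric

namespace Crest.Agent.R249.RegKer_717

open Crest.Agent.R202.Ell

noncomputable section

variable {n : ℕ}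

/-- `g` is the weak `i`-th derivative of `v` on the open set `U`. -/
def WDOn (U : Set (EE n)) (i : Fin n) (v g : EE n → ℝ) : Prop :=
  ∀ φ : EE n → ℝ, IsTest φ → tsupport φ ⊆ U → ∫ x, v x * pderiv i φ x = - ∫ x, g x * φ x

/-- weak form of `∑ ∂_j (a_ij H_i) = B` on `U`. -/
def WEqOn (U : Set (EE n)) (a : Fin n → Fin n → EE n → ℝ) (H : Fin n → EE n → ℝ)
    (B : EE n → ℝ) : Prop :=
  ∀ φ : EE n → ℝ, IsTest φ → tsupport φ ⊆ U →
    ∑ i, ∑ j, ∫ x, a i j x * H i x * pderiv j φ x = - ∫ x, B x * φ x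

theorem WDOn.mono {U V : Set (EE n)} {i : Fin n} {v g : EE n → ℝ} (h : WDOn U i v g)
    (hV : V ⊆ U) : WDOn V i v g := fun φ hφ hs => h φ hφ (hs.trans hV)

theorem WEqOn.mono {U V : Set (EE n)} {a : Fin n → Fin n → EE n → ℝ} {H : Fin n → EE n → ℝ}
    {B : EE n → ℝ} (h : WEqOn U a H B) (hV : V ⊆ U) : WEqOn V a H B :=
  fun φ hφ hs => h φ hφ (hs.trans hV)

/-- the reflected kernel is a test function supported in `closedBall x (c s)` -/
theorem tsupport_ker {T : EE n →L[ℝ] EE n} {s : ℝ} {ψ : EE n → ℝ} (hs : 0 < s)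
    (hψ : ∀ x, 1 ≤ ‖x‖ → ψ x = 0) {c : ℝ} (hc : 0 < c) (hT : ∀ x, ‖x‖ ≤ c * ‖T x‖) (x : EE n) :
    tsupport (fun t => Ker T s ψ (x - t)) ⊆ Metric.closedBall x (c * s) := by
  refine closure_minimal (fun t ht => ?_) Metric.isClosed_closedBall
  by_contra h
  apply ht
  apply ker_supp hs hψ hc hT
  rw [Metric.mem_closedBall, dist_comm, dist_eq_norm] at h
  linarith

theorem tsupport_pderiv (φ : EE n → ℝ) (j : Fin n) : tsupport (pderiv j φ) ⊆ tsupport φ := by
  have : Function.support (pderiv j φ) ⊆ tsupport φ := by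
    intro x hx
    by_contra h
    apply hx
    have h1 : fderiv ℝ φ x = 0 := by
      have : φ =ᶠ[𝓝 x] (0 : EE n → ℝ) := notMem_tsupport_iff_eventuallyEq.1 h
      rw [this.fderiv_eq]; simp
    unfold pderiv
    rw [h1]; simp
  exact closure_minimal this (isClosed_tsupport _)

theorem ker_smooth {T : EE n →L[ℝ] EE n} {s : ℝ} {ψ : EE n → ℝ} (hψ : IsTest ψ) :
    ContDiff ℝ ∞ (Ker T s ψ) := by
  have h1 : ContDiff ℝ ∞ (fun x : EE n => s⁻¹ • T x) := (s⁻¹ • T).contDiff
  exact contDiff_const.mul (hψ.smooth.comp h1)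

theorem int_mul' {g φ : EE n → ℝ} (hg : LocallyIntegrable g) (hφ : IsTest φ) :
    Integrable (fun x => g x * φ x) := by
  have := hg.integrable_smul_right_of_hasCompactSupport (g := φ) hφ.continuous hφ.cpt
  simpa using this

/-- **The increment identity.** -/
theorem inc {A : Fin n → Fin n → ℝ} {T : EE n →L[ℝ] EE n} (hA : Adapt A T) {c : ℝ} (hc : 0 < c)
    (hT : ∀ x, ‖x‖ ≤ c * ‖T x‖) {U : Set (EE n)}
    {w : EE n → ℝ} {H : Fin n → EE n → ℝ} {a : Fin n → Fin n → EE n → ℝ} {B : EE n → ℝ}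
    (hw : LocallyIntegrable w) (hH : ∀ i, LocallyIntegrable (H i))
    (haH : ∀ i j, LocallyIntegrable (fun x => a i j x * H i x)) 
    (hwd : ∀ i, WDOn U i w (H i)) (heq : WEqOn U a H B)
    {ψ : EE n → ℝ} (hψ : IsTest ψ) (hψ0 : ∀ x, 1 ≤ ‖x‖ → ψ x = 0)
    {s : ℝ} (hs : 0 < s) {x : EE n} (hx : Metric.closedBall x (c * s) ⊆ U) :
    cv (Ker T s (lap ψ)) w x = s ^ 2 * ((∫ t, B t * Ker T s ψ (x - t)) +
      ∑ i, ∑ j, ∫ t, (A i j - a i j t) * H i t * pderiv j (Ker T s ψ) (x - t)) := by
  have hK : IsTest (Ker T s ψ) := ker_test hs hψ hT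
  set P : EE n → ℝ := fun t => Ker T s ψ (x - t) with hP
  have hPt : IsTest P := hK.comp_sub x
  have hPs : tsupport P ⊆ U := (tsupport_ker hs hψ0 hc hT x).trans hx
  have hd1 : ∀ j t, pderiv j P t = - pderiv j (Ker T s ψ) (x - t) := fun j t =>
    pderiv_comp_sub j x t (hK.smooth.differentiable (by simp) _)
  have hd2 : ∀ i j t, pderiv i (pderiv j P) t = pderiv i (pderiv j (Ker T s ψ)) (x - t) := by
    intro i j t
    have e : pderiv j P = fun t => (-1) * pderiv j (Ker T s ψ) (x - t) := by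
      ext t; rw [hd1]; ring
    rw [e, pderiv_const_mul i t (-1) (((hK.pderiv j).comp_sub x).smooth.differentiable (by simp) t),
      pderiv_comp_sub i x t ((hK.pderiv j).smooth.differentiable (by simp) _)]
    ring
  -- step 1
  have h1 : cv (Ker T s (lap ψ)) w x
      = s ^ 2 * ∑ i, ∑ j, A i j * ∫ t, w t * pderiv i (pderiv j P) t := by
    rw [cv_apply]
    have e1 : ∀ t, w t * Ker T s (lap ψ) (x - t)
        = s ^ 2 * ∑ i, ∑ j, A i j * (w t * pderiv i (pderiv j P) t) := by
      intro t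
      have := adapt_ker hA (s := s) hψ (x - t)
      have e2 : Ker T s (lap ψ) (x - t) = s ^ 2 * ∑ i, ∑ j, A i j *
          pderiv i (pderiv j (Ker T s ψ)) (x - t) := by
        rw [this, ← mul_assoc, ← mul_pow, mul_inv_cancel₀ hs.ne', one_pow, one_mul]
      rw [e2]
      simp only [hd2, Finset.mul_sum]
      refine Finset.sum_congr rfl fun i _ => Finset.sum_congr rfl fun j _ => ?_
      ring
    simp only [e1]
    rw [integral_const_mul]
    congr 1
    rw [integral_finsetSum]
    · refine Finset.sum_congr rfl fun i _ => ?_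
      rw [integral_finsetSum]
      · refine Finset.sum_congr rfl fun j _ => ?_
        rw [integral_const_mul]
      · intro j _
        exact (int_mul' hw ((hPt.pderiv j).pderiv i)).const_mul _
    · intro i _
      exact integrable_finsetSum _ fun j _ =>
        (int_mul' hw ((hPt.pderiv j).pderiv i)).const_mul _
  rw [h1]
  congr 1
  -- step 2 : weak derivative
  have h2 : ∀ i j, ∫ t, w t * pderiv i (pderiv j P) t = - ∫ t, H i t * pderiv j P t := fun i j =>
    hwd i _ (hPt.pderiv j) ((tsupport_pderiv P j).trans hPs)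
  have h3 := heq P hPt hPs
  have h4 : ∀ i j, ∫ t, (A i j - a i j t) * H i t * pderiv j (Ker T s ψ) (x - t)
      = - (A i j * ∫ t, H i t * pderiv j P t) + ∫ t, a i j t * H i t * pderiv j P t := by
    intro i j
    have e1 : ∀ t, (A i j - a i j t) * H i t * pderiv j (Ker T s ψ) (x - t)
        = - (A i j * (H i t * pderiv j P t)) + a i j t * H i t * pderiv j P t := by
      intro t; rw [hd1]; ring
    simp only [e1]
    have i1 : Integrable (fun t => - (A i j * (H i t * pderiv j P t))) :=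
      ((int_mul' (hH i) (hPt.pderiv j)).const_mul _).neg
    have i2 : Integrable (fun t => a i j t * H i t * pderiv j P t) :=
      int_mul' (haH i j) (hPt.pderiv j)
    rw [integral_add i1 i2, integral_neg, integral_const_mul]
  simp only [h2, h4, Finset.sum_add_distrib]
  rw [h3]
  simp only [mul_neg, Finset.sum_neg_distrib]
  ring

end

end Crest.Agent.R249.RegKer_717
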