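import Crest.Agent.R249.RegKer_717

/-!
Row 249, leaf D3-REG (helper717), file 2: scaled and linearly adapted kernels
`Ker T s ψ x = |det T| s^{-n} ψ (s⁻¹ T x)`.
-/

set_option autoImplicit false
open scoped ContDiff ENNReal Topology
open MeasureTheory Set Filter
open Crest.GeometryTopology.CoordMetric

namespace Crest.Agent.R249.RegKer_717

open Crest.Agent.R202.Ell

noncomputable section

variable {n : ℕ}

/-- the adapted kernel -/
def Ker (T : EE n →L[ℝ] EE n) (s : ℝ) (ψ : EE n → ℝ) (x : EE n) : ℝ :=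
  |T.det| * (s⁻¹) ^ n * ψ (s⁻¹ • T x)

/-- matrix entries of `T` -/
def ent (T : EE n →L[ℝ] EE n) (k i : Fin n) : ℝ := T (EuclideanSpace.single i 1) k

theorem abs_coord_le (x : EE n) (i : Fin n) : |x i| ≤ ‖x‖ := by
  simpa using PiLp.norm_apply_le x i

theorem ent_le (T : EE n →L[ℝ] EE n) (k i : Fin n) : |ent T k i| ≤ ‖T‖ := by
  calc |ent T k i| ≤ ‖T (EuclideanSpace.single i 1)‖ := abs_coord_le _ _
    _ ≤ ‖T‖ * ‖(EuclideanSpace.single i 1 : EE n)‖ := T.le_opNorm _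
    _ = ‖T‖ := by simp

/-- a linear functional in coordinates -/
theorem clm_eq_sum (L : EE n →L[ℝ] ℝ) (z : EE n) :
    L z = ∑ k, z k * L (EuclideanSpace.single k 1) := by
  have hz : z = ∑ k, z k • (EuclideanSpace.single k (1 : ℝ) : EE n) := by
    ext j
    simp [Pi.single_apply]
  conv_lhs => rw [hz]
  rw [map_sum]
  simp

theorem ker_test {T : EE n →L[ℝ] EE n} {s : ℝ} {ψ : EE n → ℝ} (hs : 0 < s)
    (hψ : IsTest ψ) {c : ℝ} (hT : ∀ x, ‖x‖ ≤ c * ‖T x‖) : IsTest (Ker T s ψ) := by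
  refine ⟨?_, ?_⟩
  · have h1 : ContDiff ℝ ∞ (fun x : EE n => s⁻¹ • T x) := (s⁻¹ • T).contDiff
    exact contDiff_const.mul (hψ.smooth.comp h1)
  · have hcpt : IsCompact (tsupport ψ) := hψ.cpt
    obtain ⟨R, hR⟩ := hcpt.isBounded.exists_norm_le
    refine HasCompactSupport.intro (isCompact_closedBall (0 : EE n) (|c| * (s * |R|))) fun x hx => ?_
    have h0 : ψ (s⁻¹ • T x) = 0 := by
      by_contra h
      have h1 : s⁻¹ • T x ∈ tsupport ψ := subset_tsupport _ h
      have h2 := hR _ h1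
      rw [norm_smul, norm_inv, Real.norm_eq_abs, abs_of_pos hs] at h2
      have h3 : ‖T x‖ ≤ s * |R| := by
        have := mul_le_mul_of_nonneg_left (h2.trans (le_abs_self R)) hs.le
        rwa [← mul_assoc, mul_inv_cancel₀ hs.ne', one_mul] at this
      have h4 : ‖x‖ ≤ |c| * (s * |R|) :=
        (hT x).trans ((mul_le_mul_of_nonneg_right (le_abs_self c) (norm_nonneg _)).trans
          (mul_le_mul_of_nonneg_left h3 (abs_nonneg _)))
      exact hx (by simpa using h4)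
    simp [Ker, h0]

/-- support of the kernel -/
theorem ker_supp {T : EE n →L[ℝ] EE n} {s : ℝ} {ψ : EE n → ℝ} (hs : 0 < s)
    (hψ : ∀ x, 1 ≤ ‖x‖ → ψ x = 0) {c : ℝ} (hc : 0 < c) (hT : ∀ x, ‖x‖ ≤ c * ‖T x‖) {x : EE n}
    (hx : c * s ≤ ‖x‖) : Ker T s ψ x = 0 := by
  have h1 : s ≤ ‖T x‖ := by
    have := hx.trans (hT x)
    exact le_of_mul_le_mul_left this hc
  have h2 : 1 ≤ ‖s⁻¹ • T x‖ := by
    rw [norm_smul, norm_inv, Real.norm_eq_abs, abs_of_pos hs, ← div_eq_inv_mul, le_div_iff₀ hs]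
    linarith
  simp [Ker, hψ _ h2]

theorem ker_bound {T : EE n →L[ℝ] EE n} {s : ℝ} {ψ : EE n → ℝ} (hs : 0 < s) {D M : ℝ}
    (hD : |T.det| ≤ D) (hM : ∀ x, |ψ x| ≤ M) (x : EE n) :
    |Ker T s ψ x| ≤ D * (s⁻¹) ^ n * M := by
  rw [Ker, abs_mul, abs_mul, abs_abs, abs_pow, abs_inv, abs_of_pos hs]
  have h0 : 0 ≤ D := (abs_nonneg _).trans hD
  exact mul_le_mul (mul_le_mul_of_nonneg_right hD (by positivity)) (hM _) (abs_nonneg _)
    (by positivity)

/-- partial derivatives of the kernel -/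
theorem pderiv_ker {T : EE n →L[ℝ] EE n} {s : ℝ} {ψ : EE n → ℝ} (hψ : Differentiable ℝ ψ)
    (i : Fin n) (x : EE n) :
    pderiv i (Ker T s ψ) x = s⁻¹ * ∑ k, ent T k i * Ker T s (pderiv k ψ) x := by
  have h1 : HasFDerivAt (fun x : EE n => s⁻¹ • T x) (s⁻¹ • T) x :=
    (T.hasFDerivAt (x := x)).const_smul s⁻¹
  have h2 : HasFDerivAt (fun x : EE n => ψ (s⁻¹ • T x)) ((fderiv ℝ ψ (s⁻¹ • T x)).comp (s⁻¹ • T)) x :=
    (hψ _).hasFDerivAt.comp x h1
  have h3 : HasFDerivAt (Ker T s ψ)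
      ((|T.det| * (s⁻¹) ^ n) • ((fderiv ℝ ψ (s⁻¹ • T x)).comp (s⁻¹ • T))) x :=
    h2.const_mul _
  unfold pderiv
  rw [h3.fderiv]
  have h4 : (fderiv ℝ ψ (s⁻¹ • T x)) (T (EuclideanSpace.single i 1))
      = ∑ k, ent T k i * pderiv k ψ (s⁻¹ • T x) := by
    rw [clm_eq_sum]; rfl
  simp only [_root_.smul_apply, ContinuousLinearMap.comp_apply, map_smul, smul_eq_mul,
    h4, Ker]
  rw [Finset.mul_sum, Finset.mul_sum, Finset.mul_sum]
  refine Finset.sum_congr rfl fun k _ => ?_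
  unfold pderiv
  ring

theorem ker_lin_sum {T : EE n →L[ℝ] EE n} {s : ℝ} {ι : Type*} (t : Finset ι) (c : ι → ℝ)
    (ψ : ι → EE n → ℝ) (x : EE n) :
    Ker T s (fun y => ∑ j ∈ t, c j * ψ j y) x = ∑ j ∈ t, c j * Ker T s (ψ j) x := by
  simp only [Ker, Finset.mul_sum]
  exact Finset.sum_congr rfl fun j _ => by ring

/-- `T A Tᵗ = 1` in entries -/
def Adapt (A : Fin n → Fin n → ℝ) (T : EE n →L[ℝ] EE n) : Prop :=
  ∀ k l, ∑ i, ∑ j, A i j * ent T k i * ent T l j = if k = l then 1 else 0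

/-- `tr(A D² Ker ψ) = s⁻² Ker (Δ ψ)` -/
theorem adapt_ker {A : Fin n → Fin n → ℝ} {T : EE n →L[ℝ] EE n} (hA : Adapt A T) {s : ℝ}
    {ψ : EE n → ℝ} (hψ : IsTest ψ) (x : EE n) :
    ∑ i, ∑ j, A i j * pderiv i (pderiv j (Ker T s ψ)) x = s⁻¹ ^ 2 * Ker T s (lap ψ) x := by
  have hd : ∀ {φ : EE n → ℝ}, IsTest φ → Differentiable ℝ φ :=
    fun h => h.smooth.differentiable (by simp)
  have h1 : ∀ j, pderiv j (Ker T s ψ) = fun x => s⁻¹ * ∑ k, ent T k j * Ker T s (pderiv k ψ) x :=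
    fun j => funext fun x => pderiv_ker (hd hψ) j x
  have hk : ∀ {φ : EE n → ℝ}, IsTest φ → Differentiable ℝ (Ker T s φ) := fun h => by
    have h1 : ContDiff ℝ ∞ (fun x : EE n => s⁻¹ • T x) := (s⁻¹ • T).contDiff
    have : ContDiff ℝ ∞ (Ker T s _) := contDiff_const.mul (h.smooth.comp h1)
    exact this.differentiable (by simp)
  have h2 : ∀ i j, pderiv i (pderiv j (Ker T s ψ)) x
      = s⁻¹ ^ 2 * ∑ l, ∑ k, ent T k i * ent T l j * Ker T s (pderiv k (pderiv l ψ)) x := by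
    intro i j
    rw [h1 j]
    have h3 : DifferentiableAt ℝ (fun x => ∑ k, ent T k j * Ker T s (pderiv k ψ) x) x :=
      DifferentiableAt.fun_sum fun k _ => ((hk (hψ.pderiv k)) x).const_mul _
    rw [pderiv_const_mul i x _ h3, pderiv_sum _ i x
      (fun k _ => ((hk (hψ.pderiv k)) x).const_mul _)]
    have h4 : ∀ l, pderiv i (fun x => ent T l j * Ker T s (pderiv l ψ) x) x
        = ent T l j * (s⁻¹ * ∑ k, ent T k i * Ker T s (pderiv k (pderiv l ψ)) x) := by
      intro l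
      rw [pderiv_const_mul i x _ ((hk (hψ.pderiv l)) x), pderiv_ker (hd (hψ.pderiv l))]
    simp only [h4]
    rw [Finset.mul_sum, Finset.mul_sum]
    refine Finset.sum_congr rfl fun l _ => ?_
    rw [Finset.mul_sum, Finset.mul_sum, Finset.mul_sum, Finset.mul_sum]
    refine Finset.sum_congr rfl fun k _ => ?_
    ring
  simp only [h2]
  have h5 : Ker T s (lap ψ) x = ∑ k, Ker T s (pderiv k (pderiv k ψ)) x := by
    have := ker_lin_sum (T := T) (s := s) (Finset.univ : Finset (Fin n)) (fun _ => 1)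
      (fun k => pderiv k (pderiv k ψ)) x
    simp only [one_mul] at this
    exact this
  rw [h5]
  have h6 : ∀ l k, ∑ i, ∑ j, A i j * (ent T k i * ent T l j) = if k = l then 1 else 0 := by
    intro l k
    rw [← hA k l]
    exact Finset.sum_congr rfl fun i _ => Finset.sum_congr rfl fun j _ => by ring
  calc ∑ i, ∑ j, A i j * (s⁻¹ ^ 2 * ∑ l, ∑ k, ent T k i * ent T l j *
        Ker T s (pderiv k (pderiv l ψ)) x)
      = s⁻¹ ^ 2 * ∑ l, ∑ k, (∑ i, ∑ j, A i j * (ent T k i * ent T l j)) *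
          Ker T s (pderiv k (pderiv l ψ)) x := by
        simp only [Finset.mul_sum, Finset.sum_mul]
        have e1 : ∀ i : Fin n, ∑ j, ∑ l, ∑ k, A i j * (s⁻¹ ^ 2 * (ent T k i * ent T l j *
            Ker T s (pderiv k (pderiv l ψ)) x)) = ∑ l, ∑ k, ∑ j, A i j * (s⁻¹ ^ 2 *
            (ent T k i * ent T l j * Ker T s (pderiv k (pderiv l ψ)) x)) := by
          intro i
          rw [Finset.sum_comm]
          exact Finset.sum_congr rfl fun l _ => Finset.sum_comm
        simp only [e1]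
        rw [Finset.sum_comm]
        refine Finset.sum_congr rfl fun l _ => ?_
        rw [Finset.sum_comm]
        refine Finset.sum_congr rfl fun k _ => Finset.sum_congr rfl fun i _ =>
          Finset.sum_congr rfl fun j _ => ?_
        ring
    _ = s⁻¹ ^ 2 * ∑ k, Ker T s (pderiv k (pderiv k ψ)) x := by
        congr 1
        simp only [h6]
        refine Finset.sum_congr rfl fun l _ => ?_
        simp

theorem ker_half {T : EE n →L[ℝ] EE n} {s : ℝ} {η : EE n → ℝ} (x : EE n) :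
    Ker T s (fun y => 2 ^ n * η ((2 : ℝ) • y)) x = Ker T (s / 2) η x := by
  have h1 : (s / 2)⁻¹ = 2 * s⁻¹ := by
    rw [inv_div]; ring
  simp only [Ker, h1, mul_pow, mul_smul]
  ring

/-- change of variables -/
theorem integral_ker {T : EE n →L[ℝ] EE n} {s : ℝ} (hs : 0 < s) (hT : T.det ≠ 0)
    (ψ : EE n → ℝ) : ∫ x, Ker T s ψ x = ∫ x, ψ x := by
  set S : EE n →ₗ[ℝ] EE n := s⁻¹ • (T : EE n →ₗ[ℝ] EE n) with hS
  have hdet : LinearMap.det S = (s⁻¹) ^ n * T.det := by
    rw [hS, LinearMap.det_smul]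
    simp [ContinuousLinearMap.det]
  have hdet0 : LinearMap.det S ≠ 0 := by
    rw [hdet]; positivity
  have h1 : ∫ x, ψ x = |LinearMap.det S| * ∫ x, ψ (S x) := by
    have := Measure.map_linearMap_addHaar_eq_smul_addHaar (volume : Measure (EE n)) hdet0
    have hSc : Continuous S := LinearMap.continuous_of_finiteDimensional S
    let e : EE n ≃L[ℝ] EE n := (LinearMap.equivOfDetNeZero S hdet0).toContinuousLinearEquiv
    have he : ∀ x, e x = S x := fun x => rfl
    have h2 : ∫ x, ψ (e x) = ∫ y, ψ y ∂(Measure.map e volume) :=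
      (integral_map_equiv e.toHomeomorph.toMeasurableEquiv ψ).symm
    have h3 : Measure.map e (volume : Measure (EE n)) = Measure.map S volume := by
      congr 1
    rw [h3, this, integral_smul_measure] at h2
    simp only [he] at h2
    rw [h2, ENNReal.toReal_ofReal (abs_nonneg _), smul_eq_mul, ← mul_assoc, abs_inv,
      mul_inv_cancel₀ (abs_pos.2 hdet0).ne', one_mul]
  rw [h1, hdet, ← integral_const_mul]
  refine integral_congr_ae (Filter.Eventually.of_forall fun x => ?_)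
  simp only [Ker]
  rw [abs_mul, abs_of_pos (show (0:ℝ) < (s⁻¹) ^ n by positivity)]
  have : S x = s⁻¹ • T x := rfl
  rw [this]; ring

end

end Crest.Agent.R249.RegKer_717
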