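import Crest.Agent.R202.Ell1

/-!
Row 249, leaf D3-REG (helper717), file 1: a pair of radial test functions `η`, `Φ` on `ℝⁿ`
(supported in the closed unit ball) with `∫ η = 1`, `Δ Φ (x) = η x - 2ⁿ η (2 x)`.
-/

set_option autoImplicit false
open scoped ContDiff ENNReal Topology
open MeasureTheory Set Filter
open Crest.GeometryTopology.CoordMetric

namespace Crest.Agent.R249.RegKer_717

open Crest.Agent.R202.Ell

noncomputable section

/-- smooth step: `0` for `q ≤ 1/2`, `1` for `q ≥ 1` -/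
def chi (q : ℝ) : ℝ := Real.smoothTransition (2 * q - 1)

theorem chi_smooth : ContDiff ℝ ∞ chi :=
  Real.smoothTransition.contDiff.comp ((contDiff_const.mul contDiff_id).sub contDiff_const)

theorem chi_zero {q : ℝ} (h : q ≤ 1 / 2) : chi q = 0 :=
  Real.smoothTransition.zero_of_nonpos (by linarith)

theorem chi_one {q : ℝ} (h : 1 ≤ q) : chi q = 1 :=
  Real.smoothTransition.one_of_one_le (by linarith)

theorem chi_mono : Monotone chi := fun a b h =>
  Real.smoothTransition.monotone (by linarith)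

/-- the profile `ν(q) = χ(q) q^{-n/2}` -/
def nu (n : ℕ) (q : ℝ) : ℝ := chi q * q ^ (-(n : ℝ) / 2)

theorem nu_smooth (n : ℕ) : ContDiff ℝ ∞ (nu n) := by
  rw [contDiff_iff_contDiffAt]
  intro q
  rcases lt_or_ge q (1 / 2) with h | h
  · have : nu n =ᶠ[𝓝 q] fun _ => 0 := by
      filter_upwards [Iio_mem_nhds h] with t ht
      simp [nu, chi_zero (le_of_lt ht)]
    exact contDiffAt_const.congr_of_eventuallyEq this
  · exact chi_smooth.contDiffAt.mul
      (contDiffAt_id.rpow_const_of_ne (by simp only [id]; linarith))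

theorem nu_zero {n : ℕ} {q : ℝ} (h : q ≤ 1 / 2) : nu n q = 0 := by simp [nu, chi_zero h]

theorem nu_one {n : ℕ} {q : ℝ} (h : 1 ≤ q) : nu n q = q ^ (-(n : ℝ) / 2) := by
  simp [nu, chi_one h]

/-- `θ'(q) = ν(q) - 2ⁿ ν(4 q)` -/
def tp (n : ℕ) (q : ℝ) : ℝ := nu n q - 2 ^ n * nu n (4 * q)

theorem tp_smooth (n : ℕ) : ContDiff ℝ ∞ (tp n) :=
  (nu_smooth n).sub (contDiff_const.mul ((nu_smooth n).comp (contDiff_const.mul contDiff_id)))

theorem tp_zero {n : ℕ} {q : ℝ} (h : 1 ≤ q) : tp n q = 0 := by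
  have h4 : (1 : ℝ) ≤ 4 * q := by linarith
  rw [tp, nu_one h, nu_one h4, Real.mul_rpow (by norm_num) (by linarith)]
  have : (2 : ℝ) ^ n * (4 : ℝ) ^ (-(n : ℝ) / 2) = 1 := by
    have e : (4 : ℝ) = 2 ^ (2 : ℝ) := by norm_num
    rw [e, ← Real.rpow_mul (by norm_num), ← Real.rpow_natCast, ← Real.rpow_add (by norm_num)]
    have : (n : ℝ) + 2 * (-(n : ℝ) / 2) = 0 := by ring
    rw [this, Real.rpow_zero]
  rw [← mul_assoc, this]; ring

/-- `Θ(q) = ∫_1^q θ'` -/
def Th (n : ℕ) (q : ℝ) : ℝ := ∫ t in (1 : ℝ)..q, tp n t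

theorem Th_deriv (n : ℕ) (q : ℝ) : HasDerivAt (Th n) (tp n q) q :=
  intervalIntegral.integral_hasDerivAt_right
    ((tp_smooth n).continuous.intervalIntegrable _ _)
    ((tp_smooth n).continuous.stronglyMeasurableAtFilter _ _)
    (tp_smooth n).continuous.continuousAt

theorem Th_smooth (n : ℕ) : ContDiff ℝ ∞ (Th n) := by
  rw [contDiff_infty_iff_deriv]
  refine ⟨fun q => (Th_deriv n q).differentiableAt, ?_⟩
  have : deriv (Th n) = tp n := funext fun q => (Th_deriv n q).deriv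
  rw [this]; exact tp_smooth n

theorem Th_zero {n : ℕ} {q : ℝ} (h : 1 ≤ q) : Th n q = 0 := by
  rw [Th]
  apply intervalIntegral.integral_zero_ae
  refine Filter.Eventually.of_forall fun t ht => ?_
  rw [uIoc_of_le h] at ht
  exact tp_zero ht.1.le

/-- `ρ = 4 q ν' + 2 n ν` -/
def rr (n : ℕ) (q : ℝ) : ℝ := 4 * q * deriv (nu n) q + 2 * n * nu n q

theorem dnu_smooth (n : ℕ) : ContDiff ℝ ∞ (deriv (nu n)) :=
  (contDiff_infty_iff_deriv.1 (nu_smooth n)).2

theorem rr_smooth (n : ℕ) : ContDiff ℝ ∞ (rr n) :=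
  ((contDiff_const.mul contDiff_id).mul (dnu_smooth n)).add (contDiff_const.mul (nu_smooth n))

theorem rr_eq {n : ℕ} {q : ℝ} (h : 0 < q) :
    rr n q = 4 * deriv chi q * (q * q ^ (-(n : ℝ) / 2)) := by
  have h1 : HasDerivAt chi (deriv chi q) q :=
    (chi_smooth.differentiable (by simp) q).hasDerivAt
  have h2 : HasDerivAt (fun q : ℝ => q ^ (-(n : ℝ) / 2)) (-(n : ℝ) / 2 * q ^ (-(n : ℝ) / 2 - 1)) q :=
    Real.hasDerivAt_rpow_const (Or.inl h.ne')
  have h3 := h1.mul h2
  have h4 : deriv (nu n) q = deriv chi q * q ^ (-(n : ℝ) / 2) +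
      chi q * (-(n : ℝ) / 2 * q ^ (-(n : ℝ) / 2 - 1)) := h3.deriv
  have h5 : q ^ (-(n : ℝ) / 2 - 1) = q ^ (-(n : ℝ) / 2) / q := Real.rpow_sub_one h.ne' _
  rw [rr, h4, h5, nu]
  field_simp
  ring

theorem dchi_nonneg (q : ℝ) : 0 ≤ deriv chi q := chi_mono.deriv_nonneg

theorem rr_nonneg (n : ℕ) (q : ℝ) : 0 ≤ rr n q := by
  rcases lt_or_ge 0 q with h | h
  · rw [rr_eq h]
    have := dchi_nonneg q
    positivity
  · have h1 : nu n =ᶠ[𝓝 q] fun _ => 0 := by
      filter_upwards [Iio_mem_nhds (show q < 1 / 2 by linarith)] with t ht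
      exact nu_zero (le_of_lt ht)
    rw [rr, h1.deriv_eq, nu_zero (by linarith)]
    simp

theorem rr_zero {n : ℕ} {q : ℝ} (h : 1 ≤ q) : rr n q = 0 := by
  have hc : deriv chi q = 0 := by
    rcases h.lt_or_eq with h | h
    · have : chi =ᶠ[𝓝 q] fun _ => 1 := by
        filter_upwards [Ioi_mem_nhds h] with t ht
        exact chi_one (le_of_lt ht)
      rw [this.deriv_eq]; simp
    · subst h
      -- `chi ≤ 1` with equality at `1`
      have : IsLocalMax chi 1 := by
        refine Filter.Eventually.of_forall fun t => ?_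
        rw [chi_one le_rfl]; exact Real.smoothTransition.le_one _
      exact this.deriv_eq_zero
  rw [rr_eq (by linarith), hc]; simp

theorem exists_rr_pos (n : ℕ) : ∃ q : ℝ, 0 < q ∧ 0 < rr n q := by
  by_contra hcon
  push Not at hcon
  have h0 : ∀ q : ℝ, 0 < q → deriv chi q = 0 := by
    intro q hq
    have h1 := hcon q hq
    rw [rr_eq hq] at h1
    have h2 := dchi_nonneg q
    by_contra h3
    have h4 : 0 < deriv chi q := lt_of_le_of_ne h2 (Ne.symm h3)
    have : 0 < 4 * deriv chi q * (q * q ^ (-(n : ℝ) / 2)) := by positivity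
    linarith
  have h1 : chi 1 - chi (1 / 2) = 0 := by
    have : ∀ x ∈ Icc (1 / 2 : ℝ) 1, chi x = chi (1 / 2) := by
      apply constant_of_has_deriv_right_zero
      · exact chi_smooth.continuous.continuousOn
      · intro x hx
        have := (chi_smooth.differentiable (by simp) x).hasDerivAt
        rw [h0 x (by linarith [hx.1])] at this
        exact this.hasDerivWithinAt
    rw [this 1 ⟨by norm_num, le_rfl⟩]; ring
  rw [chi_one le_rfl, chi_zero le_rfl] at h1
  norm_num at h1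

/-- the ODE `4 q Θ'' + 2 n Θ' = ρ(q) - 2ⁿ ρ(4q)` -/
theorem ode (n : ℕ) (q : ℝ) :
    4 * q * deriv (tp n) q + 2 * n * tp n q = rr n q - 2 ^ n * rr n (4 * q) := by
  have h1 : HasDerivAt (nu n) (deriv (nu n) q) q :=
    ((nu_smooth n).differentiable (by simp) q).hasDerivAt
  have h2 : HasDerivAt (fun q : ℝ => nu n (4 * q)) (deriv (nu n) (4 * q) * 4) q := by
    have ha : HasDerivAt (fun q : ℝ => 4 * q) 4 q := by simpa using (hasDerivAt_id q).const_mul 4
    have hb : HasDerivAt (nu n) (deriv (nu n) (4 * q)) (4 * q) :=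
      ((nu_smooth n).differentiable (by simp) _).hasDerivAt
    exact hb.comp q ha
  have h3 : deriv (tp n) q = deriv (nu n) q - 2 ^ n * (deriv (nu n) (4 * q) * 4) :=
    (h1.sub (h2.const_mul (2 ^ n))).deriv
  rw [h3, rr, rr, tp]
  ring

variable {n : ℕ}

/-- `|x|²` -/
def nq (x : EE n) : ℝ := ∑ i, x i ^ 2

theorem nq_eq (x : EE n) : nq x = ‖x‖ ^ 2 := by
  rw [EuclideanSpace.norm_sq_eq]; simp [nq]

theorem nq_smooth : ContDiff ℝ ∞ (nq : EE n → ℝ) := by
  have : (nq : EE n → ℝ) = fun x => ‖x‖ ^ 2 := funext nq_eq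
  rw [this]; exact contDiff_norm_sq ℝ

theorem pderiv_nq (i : Fin n) (x : EE n) : pderiv i nq x = 2 * x i := by
  have h : (nq : EE n → ℝ) = fun x => ∑ j, x j ^ 2 := rfl
  have hd : ∀ j : Fin n, HasFDerivAt (fun x : EE n => x j ^ 2)
      ((2 * x j) • (EuclideanSpace.proj j : EE n →L[ℝ] ℝ)) x := by
    intro j
    have := (EuclideanSpace.proj j : EE n →L[ℝ] ℝ).hasFDerivAt (x := x)
    simpa using this.pow 2
  have h2 : HasFDerivAt (nq : EE n → ℝ)
      (∑ j, (2 * x j) • (EuclideanSpace.proj j : EE n →L[ℝ] ℝ)) x := by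
    rw [h]; exact HasFDerivAt.fun_sum fun j _ => hd j
  unfold pderiv
  rw [h2.fderiv]
  simp [PiLp.single_apply]

/-- Laplacian -/
def lap (f : EE n → ℝ) (x : EE n) : ℝ := ∑ i, pderiv i (pderiv i f) x

theorem pderiv_comp_real {F : ℝ → ℝ} {g : EE n → ℝ} (i : Fin n) (x : EE n) {F' : ℝ}
    (hF : HasDerivAt F F' (g x)) (hg : DifferentiableAt ℝ g x) :
    pderiv i (fun y => F (g y)) x = F' * pderiv i g x := by
  unfold pderiv
  have := hF.comp_hasFDerivAt x hg.hasFDerivAt
  have e : (fun y => F (g y)) = F ∘ g := rfl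
  rw [e, this.fderiv]
  simp

theorem pderiv_coord (i j : Fin n) (x : EE n) :
    pderiv i (fun y : EE n => y j) x = if i = j then 1 else 0 := by
  unfold pderiv
  have := (EuclideanSpace.proj j : EE n →L[ℝ] ℝ).hasFDerivAt (x := x)
  have e : (fun y : EE n => y j) = (EuclideanSpace.proj j : EE n →L[ℝ] ℝ) := rfl
  rw [e, this.fderiv]
  simp [PiLp.single_apply, eq_comm]

/-- Laplacian of a radial function -/
theorem lap_radial {F f : ℝ → ℝ} (hF : ∀ q, HasDerivAt F (f q) q) (hf : Differentiable ℝ f)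
    (x : EE n) : lap (fun y => F (nq y)) x = 4 * nq x * deriv f (nq x) + 2 * n * f (nq x) := by
  have hnq : Differentiable ℝ (nq : EE n → ℝ) := nq_smooth.differentiable (by simp)
  have h1 : ∀ i : Fin n, pderiv i (fun y : EE n => F (nq y)) = fun y => f (nq y) * (2 * y i) := by
    intro i; ext y
    rw [pderiv_comp_real i y (hF _) (hnq y), pderiv_nq]
  have h2 : ∀ i : Fin n, pderiv i (fun y : EE n => f (nq y) * (2 * y i)) x
      = deriv f (nq x) * (2 * x i) * (2 * x i) + f (nq x) * 2 := by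
    intro i
    have hc : DifferentiableAt ℝ (fun y : EE n => y i) x :=
      (EuclideanSpace.proj i : EE n →L[ℝ] ℝ).differentiableAt
    have hfx : DifferentiableAt ℝ (fun y : EE n => f (nq y)) x := (hf _).comp x (hnq x)
    rw [pderiv_mul i x hfx (hc.const_mul 2),
      pderiv_comp_real i x (hf _).hasDerivAt (hnq x), pderiv_nq, pderiv_const_mul i x 2 hc,
      pderiv_coord]
    simp
  unfold lap
  simp only [h1, h2]
  rw [Finset.sum_add_distrib]
  have : ∑ i, deriv f (nq x) * (2 * x i) * (2 * x i) = 4 * nq x * deriv f (nq x) := by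
    unfold nq; rw [Finset.mul_sum, Finset.sum_mul]
    exact Finset.sum_congr rfl fun i _ => by ring
  rw [this]
  simp; ring

/-- normalising constant -/
def cc (n : ℕ) : ℝ := ∫ x : EE n, rr n (nq x)

theorem rad_test {F : ℝ → ℝ} (hF : ContDiff ℝ ∞ F) (h0 : ∀ q, 1 ≤ q → F q = 0) :
    IsTest (fun x : EE n => F (nq x)) := by
  refine ⟨hF.comp nq_smooth, ?_⟩
  refine HasCompactSupport.intro (isCompact_closedBall (0 : EE n) 1) fun x hx => ?_
  apply h0
  rw [nq_eq]
  have : 1 < ‖x‖ := by simpa using hx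
  nlinarith

theorem cc_pos (n : ℕ) (hn : 0 < n) : 0 < cc n := by
  have ht : IsTest (fun x : EE n => rr n (nq x)) := rad_test (rr_smooth n) fun q h => rr_zero h
  rw [cc, integral_pos_iff_support_of_nonneg (fun x => rr_nonneg n _) ht.integrable]
  refine ht.continuous.isOpen_support.measure_pos volume ?_
  obtain ⟨q, hq, hr⟩ := exists_rr_pos n
  refine ⟨EuclideanSpace.single ⟨0, hn⟩ (Real.sqrt q), ?_⟩
  simp only [Function.mem_support]
  rw [nq_eq]
  simp only [EuclideanSpace.norm_single, Real.norm_eq_abs, sq_abs, Real.sq_sqrt hq.le]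
  exact hr.ne'

/-- **The kernel pair.** -/
theorem exists_pair (n : ℕ) (hn : 0 < n) : ∃ η Φ : EE n → ℝ, IsTest η ∧ IsTest Φ ∧
    (∀ x, 1 ≤ ‖x‖ → η x = 0) ∧ (∀ x, 1 ≤ ‖x‖ → Φ x = 0) ∧ ∫ x, η x = 1 ∧
    (∀ x, 0 ≤ η x) ∧
    ∀ x, lap Φ x = η x - 2 ^ n * η ((2 : ℝ) • x) := by
  have hc := cc_pos n hn
  have t1 : IsTest (fun x : EE n => rr n (nq x)) := rad_test (rr_smooth n) fun q h => rr_zero h
  have t2 : IsTest (fun x : EE n => Th n (nq x)) := rad_test (Th_smooth n) fun q h => Th_zero h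
  have hq : ∀ x : EE n, 1 ≤ ‖x‖ → 1 ≤ nq x := fun x hx => by rw [nq_eq]; nlinarith
  refine ⟨fun x => (cc n)⁻¹ * rr n (nq x), fun x => (cc n)⁻¹ * Th n (nq x), t1.const_mul _,
    t2.const_mul _, fun x hx => ?_, fun x hx => ?_, ?_, fun x => ?_, fun x => ?_⟩
  · simp only [rr_zero (hq x hx)]; ring
  · simp only [Th_zero (hq x hx)]; ring
  · rw [integral_const_mul]
    exact inv_mul_cancel₀ hc.ne'
  · have := rr_nonneg n (nq x)
    positivity
  · have h1 : ∀ i : Fin n, pderiv i (fun y : EE n => (cc n)⁻¹ * Th n (nq y))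
        = fun y => (cc n)⁻¹ * pderiv i (fun y : EE n => Th n (nq y)) y := by
      intro i; ext y
      exact pderiv_const_mul i y _ (t2.smooth.differentiable (by simp) y)
    have h2 : ∀ i : Fin n, pderiv i (fun y : EE n => (cc n)⁻¹ *
        pderiv i (fun y : EE n => Th n (nq y)) y) x
        = (cc n)⁻¹ * pderiv i (pderiv i (fun y : EE n => Th n (nq y))) x := by
      intro i
      exact pderiv_const_mul i x _ ((t2.pderiv i).smooth.differentiable (by simp) x)
    have h3 : lap (fun y : EE n => (cc n)⁻¹ * Th n (nq y)) x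
        = (cc n)⁻¹ * lap (fun y : EE n => Th n (nq y)) x := by
      unfold lap
      simp only [h1, h2]
      rw [Finset.mul_sum]
    rw [h3, lap_radial (Th_deriv n) ((tp_smooth n).differentiable (by simp)), ode]
    have h4 : nq ((2 : ℝ) • x) = 4 * nq x := by
      rw [nq_eq, nq_eq, norm_smul]; norm_num; ring
    simp only [h4]; ring

end

end Crest.Agent.R249.RegKer_717
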