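import Crest.Agent.R249.RegDer_717

/-!
Row 249, leaf D3-REG (helper717), file 9: first step, `C^α` + Morrey growth ⇒ `C^{1,2α-1}`.
-/

set_option autoImplicit false
open scoped ContDiff ENNReal Topology
open MeasureTheory Set Filter
open Crest.GeometryTopology.CoordMetric

namespace Crest.Agent.R249.RegKer_717

open Crest.Agent.R202.Ell

noncomputable section

variable {n : ℕ}

theorem pw1 {s c α : ℝ} (hs : 0 < s) (hc : 0 < c) :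
    s ^ 2 * ((s⁻¹) ^ n * (c * s) ^ ((n : ℝ) - 2 + 2 * α)) = c ^ ((n : ℝ) - 2 + 2 * α) * (s ^ α * s ^ α) := by
  rw [Real.mul_rpow hc.le hs.le, ← Real.rpow_natCast s 2, ← Real.rpow_natCast (s⁻¹) n,
    Real.inv_rpow hs.le, ← Real.rpow_neg hs.le]
  have : s ^ ((2 : ℕ) : ℝ) * (s ^ (-(n : ℝ)) * (c ^ ((n : ℝ) - 2 + 2 * α) * s ^ ((n : ℝ) - 2 + 2 * α)))
      = c ^ ((n : ℝ) - 2 + 2 * α) * (s ^ ((2 : ℕ) : ℝ) * (s ^ (-(n : ℝ)) * s ^ ((n : ℝ) - 2 + 2 * α))) := by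
    ring
  rw [this, ← Real.rpow_add hs, ← Real.rpow_add hs, ← Real.rpow_add hs]
  congr 2
  push_cast; ring

theorem pw2 {s c α : ℝ} (hs : 0 < s) (hc : 0 < c) :
    s ^ 2 * (s⁻¹ * ((s⁻¹) ^ n * (c * s) ^ ((n : ℝ) - 1 + α))) = c ^ ((n : ℝ) - 1 + α) * s ^ α := by
  rw [Real.mul_rpow hc.le hs.le, ← Real.rpow_natCast s 2, ← Real.rpow_natCast (s⁻¹) n,
    Real.inv_rpow hs.le, ← Real.rpow_neg hs.le, ← Real.rpow_neg_one s]
  have : s ^ ((2 : ℕ) : ℝ) * (s ^ (-1 : ℝ) * (s ^ (-(n : ℝ)) * (c ^ ((n : ℝ) - 1 + α) * s ^ ((n : ℝ) - 1 + α))))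
      = c ^ ((n : ℝ) - 1 + α) * (s ^ ((2 : ℕ) : ℝ) * (s ^ (-1 : ℝ) * (s ^ (-(n : ℝ)) * s ^ ((n : ℝ) - 1 + α)))) := by
    ring
  rw [this, ← Real.rpow_add hs, ← Real.rpow_add hs, ← Real.rpow_add hs]
  congr 2
  push_cast; ring

/-- the constant of the first step -/
def CL1 (n : ℕ) (c τ D M α Ca CB CH : ℝ) : ℝ :=
  D * M * CB * c ^ ((n : ℝ) - 2 + 2 * α) +
      n * (n * (n * (τ * (D * M)))) * CH * c ^ ((n : ℝ) - 1 + α) * Ca * (1 + c) ^ α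

/-- **Increment estimate, first step.** -/
theorem inc_L1 {V : Set (EE n)} {w : EE n → ℝ} {H : Fin n → EE n → ℝ}
    {a : Fin n → Fin n → EE n → ℝ} {B : EE n → ℝ}
    (hw : LocallyIntegrable w) (hH : ∀ i, LocallyIntegrable (H i)) (hB : LocallyIntegrable B)
    (haH : ∀ i j, LocallyIntegrable (fun x => a i j x * H i x))
    (hwd : ∀ i, WDOn V i w (H i)) (heq : WEqOn V a H B)
    {α Ca CB CH : ℝ} (hα : 0 < α) (hCa : 0 ≤ Ca) (hCB : 0 ≤ CB)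
    (hhol : ∀ i j, ∀ x ∈ V, ∀ y ∈ V, |a i j x - a i j y| ≤ Ca * ‖x - y‖ ^ α)
    {r0 c τ D M : ℝ} {x0 : EE n} {T : EE n →L[ℝ] EE n} (hM : 0 ≤ M)
    (h : KD (fun i j => a i j x0) T c τ D)
    (hV : ∀ y, ‖y - x0‖ ≤ r0 → Metric.closedBall y (c * r0) ⊆ V)
    (hmB : ∀ y, ‖y - x0‖ ≤ r0 → ∀ ρ, 0 < ρ → ρ ≤ c * r0 →
      ∫ t in Metric.closedBall y ρ, |B t| ≤ CB * ρ ^ ((n : ℝ) - 2 + 2 * α))
    (hmH : ∀ i, ∀ y, ‖y - x0‖ ≤ r0 → ∀ ρ, 0 < ρ → ρ ≤ c * r0 →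
      ∫ t in Metric.closedBall y ρ, |H i t| ≤ CH * ρ ^ ((n : ℝ) - 1 + α)) :
    Inc T w x0 r0 M (CL1 n c τ D M α Ca CB CH) α α := by
  unfold CL1
  intro ψ hψ s hs hsr y hy
  have hc := h.c0
  have hD := h.D0
  have hτ := h.τ0
  set m := max ‖y - x0‖ s with hm
  have hm1 : ‖y - x0‖ ≤ m := le_max_left _ _
  have hm2 : s ≤ m := le_max_right _ _
  have hm0 : 0 < m := hs.trans_le hm2
  have hr0 : 0 < r0 := hs.trans_le hsr
  have hcs : c * s ≤ c * r0 := mul_le_mul_of_nonneg_left hsr hc.le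
  have hVs : Metric.closedBall y (c * s) ⊆ V := (Metric.closedBall_subset_closedBall hcs).trans (hV y hy)
  have hx0V : x0 ∈ V := hV x0 (by simpa using hr0.le) (Metric.mem_closedBall_self (by positivity))
  have hom : ∀ i j, ∀ t ∈ Metric.closedBall y (c * s), |a i j x0 - a i j t|
      ≤ Ca * ((1 + c) ^ α * m ^ α) := by
    intro i j t ht
    refine (hhol i j x0 hx0V t (hVs ht)).trans (mul_le_mul_of_nonneg_left ?_ hCa)
    rw [← Real.mul_rpow (by positivity) hm0.le]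
    refine Real.rpow_le_rpow (norm_nonneg _) ?_ hα.le
    rw [Metric.mem_closedBall, dist_eq_norm] at ht
    have : x0 - t = (x0 - y) + (y - t) := by abel
    rw [this]
    refine (norm_add_le _ _).trans ?_
    rw [norm_sub_rev x0 y, norm_sub_rev y t]
    nlinarith
  have h1 := inc_est h hw hH hB haH hwd heq hψ.p0 hs hVs hom
    (hmB y hy (c * s) (by positivity) hcs) (fun i => hmH i y hy (c * s) (by positivity) hcs)
  refine h1.trans ?_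
  have hsα : 0 ≤ s ^ α := Real.rpow_nonneg hs.le _
  have hmα : s ^ α ≤ m ^ α := Real.rpow_le_rpow hs.le hm2 hα.le
  have p1 := pw1 (n := n) (α := α) hs hc
  have p2 := pw2 (n := n) (α := α) hs hc
  have hc1 : 0 ≤ c ^ ((n : ℝ) - 2 + 2 * α) := Real.rpow_nonneg hc.le _
  calc s ^ 2 * ((D * (s⁻¹) ^ n * M) * (CB * (c * s) ^ ((n : ℝ) - 2 + 2 * α)) +
      n * (n * (s⁻¹ * (n * (τ * (D * (s⁻¹) ^ n * M))) *
        (Ca * ((1 + c) ^ α * m ^ α) * (CH * (c * s) ^ ((n : ℝ) - 1 + α))))))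
      = D * M * CB * (s ^ 2 * ((s⁻¹) ^ n * (c * s) ^ ((n : ℝ) - 2 + 2 * α))) +
        n * (n * (n * (τ * (D * M)))) * CH * Ca * (1 + c) ^ α * m ^ α *
          (s ^ 2 * (s⁻¹ * ((s⁻¹) ^ n * (c * s) ^ ((n : ℝ) - 1 + α)))) := by ring
    _ = D * M * CB * c ^ ((n : ℝ) - 2 + 2 * α) * s ^ α * s ^ α +
        n * (n * (n * (τ * (D * M)))) * CH * Ca * (1 + c) ^ α * m ^ α *
          (c ^ ((n : ℝ) - 1 + α) * s ^ α) := by rw [p1, p2]; ring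
    _ ≤ D * M * CB * c ^ ((n : ℝ) - 2 + 2 * α) * m ^ α * s ^ α +
        n * (n * (n * (τ * (D * M)))) * CH * Ca * (1 + c) ^ α * m ^ α *
          (c ^ ((n : ℝ) - 1 + α) * s ^ α) := by
        have h5 : D * M * CB * c ^ ((n : ℝ) - 2 + 2 * α) * s ^ α * s ^ α
            ≤ D * M * CB * c ^ ((n : ℝ) - 2 + 2 * α) * m ^ α * s ^ α := by
          refine mul_le_mul_of_nonneg_right (mul_le_mul_of_nonneg_left hmα ?_) hsα
          positivity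
        linarith
    _ = _ := by ring

/-- **First step.** -/
theorem L1 {η Φ : EE n → ℝ} {M : ℝ} (hp : Pair η Φ M)
    {V W : Set (EE n)} {w : EE n → ℝ} {H : Fin n → EE n → ℝ}
    {a : Fin n → Fin n → EE n → ℝ} {B : EE n → ℝ}
    (hw : LocallyIntegrable w) (hH : ∀ i, LocallyIntegrable (H i)) (hB : LocallyIntegrable B)
    (haH : ∀ i j, LocallyIntegrable (fun x => a i j x * H i x))
    (hwd : ∀ i, WDOn V i w (H i)) (heq : WEqOn V a H B)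
    {α Ca CB CH lam Lam I : ℝ} (hα : 1 / 2 < α) (hα1 : α < 1) (hCa : 0 ≤ Ca) (hCB : 0 ≤ CB)
    (hCH : 0 ≤ CH) (hlam : 0 < lam) (hLam : 1 ≤ Lam) (hI0 : 0 ≤ I)
    (hell : ∀ x ∈ W, Ellc lam Lam (fun i j => a i j x))
    (hhol : ∀ i j, ∀ x ∈ V, ∀ y ∈ V, |a i j x - a i j y| ≤ Ca * ‖x - y‖ ^ α)
    {r0 : ℝ} (hr0 : 0 < r0) (hr1 : r0 ≤ 1)
    (hV : ∀ x0 ∈ W, ∀ y, ‖y - x0‖ ≤ r0 → Metric.closedBall y (Real.sqrt Lam * r0) ⊆ V)
    (hcont : ∀ x ∈ V, ContinuousAt w x)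
    (hI : ∀ x0 ∈ W, ∀ y, ‖y - x0‖ ≤ r0 → ∫ t in Metric.closedBall y (Real.sqrt Lam * r0), |w t| ≤ I)
    (hmB : ∀ x0 ∈ W, ∀ y, ‖y - x0‖ ≤ r0 → ∀ ρ, 0 < ρ → ρ ≤ Real.sqrt Lam * r0 →
      ∫ t in Metric.closedBall y ρ, |B t| ≤ CB * ρ ^ ((n : ℝ) - 2 + 2 * α))
    (hmH : ∀ i, ∀ x0 ∈ W, ∀ y, ‖y - x0‖ ≤ r0 → ∀ ρ, 0 < ρ → ρ ≤ Real.sqrt Lam * r0 →
      ∫ t in Metric.closedBall y ρ, |H i t| ≤ CH * ρ ^ ((n : ℝ) - 1 + α)) :
    ∃ (g : EE n → (EE n →L[ℝ] ℝ)) (K : ℝ), 0 ≤ K ∧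
      (∀ x ∈ W, ∀ y, ‖y - x‖ ≤ r0 → |w y - w x - g x (y - x)| ≤ K * ‖y - x‖ ^ (1 + (2 * α - 1))) ∧
      (∀ x ∈ W, HasFDerivAt w (g x) x) ∧
      ∀ x ∈ W, ∀ y ∈ W, ‖x - y‖ ≤ r0 / 2 → ‖g x - g y‖ ≤ K * ‖x - y‖ ^ (2 * α - 1) := by
  have hM := hp.M0
  have hc0 : 0 < Real.sqrt Lam := Real.sqrt_pos.2 (by linarith)
  obtain ⟨CC, hCC0, hCC⟩ : ∃ CC, 0 ≤ CC ∧ ∀ x0 ∈ W, ∃ A T,
      KD (n := n) A T (Real.sqrt Lam) (Real.sqrt (1 / lam)) (Real.sqrt (1 / lam) ^ n) ∧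
      Inc T w x0 r0 M CC α α := by
    refine ⟨CL1 n (Real.sqrt Lam) (Real.sqrt (1 / lam)) (Real.sqrt (1 / lam) ^ n) M α Ca CB CH,
      ?_, fun x0 hx0 => ?_⟩
    rotate_left
    · obtain ⟨T, hT⟩ := exists_adapt hlam hLam (hell x0 hx0)
      exact ⟨_, T, hT, inc_L1 hw hH hB haH hwd heq (by linarith) hCa hCB hhol hM hT
        (hV x0 hx0) (hmB x0 hx0) (fun i => hmH i x0 hx0)⟩
    · unfold CL1
      have := Real.rpow_nonneg hc0.le ((n : ℝ) - 2 + 2 * α)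
      have := Real.rpow_nonneg hc0.le ((n : ℝ) - 1 + α)
      have : 0 ≤ (1 + Real.sqrt Lam) ^ α := Real.rpow_nonneg (by positivity) α
      positivity
  exact c1_of_inc hp (Real.sqrt_nonneg _) (by positivity) hw hr0 hr1 hCC0 hI0
    (by linarith) (by linarith) (by linarith) (by linarith) (by ring) hCC
    (fun x0 hx0 y hy => hcont y (hV x0 hx0 y hy (Metric.mem_closedBall_self (by positivity)))) hI

end

end Crest.Agent.R249.RegKer_717
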