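import Crest.Agent.R249.RegL1_717

/-!
Row 249, leaf D3-REG (helper717), file 10: second step (linear Schauder estimate):
`v ∈ C^{1,β}`, `a ∈ C^{1,β}`, `f ∈ C^β` ⇒ `∇ v ∈ C^{1,β}`.
-/

set_option autoImplicit false
open scoped ContDiff ENNReal Topology
open MeasureTheory Set Filter
open Crest.GeometryTopology.CoordMetric

namespace Crest.Agent.R249.RegKer_717

open Crest.Agent.R202.Ell

noncomputable section

variable {n : ℕ}

/-- moving a derivative to the kernel -/
theorem cv_wd {V : Set (EE n)} {e : Fin n} {v g : EE n → ℝ} (hwd : WDOn V e v g)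
    {K : EE n → ℝ} (hK : IsTest K) {y : EE n}
    (hs : tsupport (fun t => K (y - t)) ⊆ V) : cv K g y = cv (pderiv e K) v y := by
  have h1 := hwd _ (hK.comp_sub y) hs
  simp only [cv_apply]
  have h2 : ∀ t, pderiv e (fun t => K (y - t)) t = - pderiv e K (y - t) := fun t =>
    pderiv_comp_sub e y t (hK.smooth.differentiable (by simp) _)
  simp only [h2] at h1
  have h3 : ∀ t, v t * -pderiv e K (y - t) = - (v t * pderiv e K (y - t)) := fun t => by ring
  simp only [h3, integral_neg] at h1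
  linarith

/-- `cv (Ker T s (Δψ)) g` for a derivative `g = ∂_e v` -/
theorem cv_wd_ker {A : Fin n → Fin n → ℝ} {T : EE n →L[ℝ] EE n} {c τ D : ℝ} (h : KD A T c τ D)
    {V : Set (EE n)} {e : Fin n} {v g : EE n → ℝ} (hwd : WDOn V e v g) (hv : LocallyIntegrable v)
    {ψ : EE n → ℝ} {M : ℝ} (hψ : PB ψ M) {s : ℝ} (hs : 0 < s) {y : EE n}
    (hV : Metric.closedBall y (c * s) ⊆ V) :
    cv (Ker T s (lap ψ)) g y = s⁻¹ * ∑ m, ent T m e * cv (Ker T s (lap (pderiv m ψ))) v y := by
  have hl : IsTest (lap ψ) := isTest_lap hψ.test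
  have hK : IsTest (Ker T s (lap ψ)) := ker_test hs hl h.low
  have hl0 : ∀ x, 1 ≤ ‖x‖ → lap ψ x = 0 := by
    intro x hx
    have : ∀ k, pderiv k (pderiv k ψ) x = 0 := fun k =>
      pderiv_zero_of_supp (hψ.test.pderiv k) (pderiv_zero_of_supp hψ.test hψ.supp k) k x hx
    simp [lap, this]
  rw [cv_wd hwd hK ((tsupport_ker hs hl0 h.c0 h.low y).trans hV)]
  rw [← pderiv_cv hK hv, cv_ker_pderiv hs hl h.low hv]
  simp only [pderiv_lap hψ.test]

/-- zero mean of a derivative -/
theorem integral_pderiv_zero {φ : EE n → ℝ} (h : IsTest φ) (m : Fin n) :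
    ∫ x, pderiv m φ x = 0 := by
  have h1 := integral_parts (f := fun _ : EE n => (1 : ℝ)) (g := φ) m (differentiable_const _)
    (it_diff h) (by simpa using (h.pderiv m).integrable) (by
      have : ∀ x : EE n, pderiv m (fun _ : EE n => (1 : ℝ)) x = 0 := fun x => by
        simp [Crest.GeometryTopology.CoordMetric.pderiv]
      simp [this]) (by simpa using h.integrable)
  have h2 : ∀ x : EE n, pderiv m (fun _ : EE n => (1 : ℝ)) x = 0 := fun x => by
    simp [Crest.GeometryTopology.CoordMetric.pderiv]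
  simpa [h2] using h1

/-- first moments of a derivative -/
theorem integral_coord_pderiv {φ : EE n → ℝ} (h : IsTest φ) (h0 : ∫ x, φ x = 0) (j l : Fin n) :
    ∫ x, x l * pderiv j φ x = 0 := by
  have hsm : ContDiff ℝ ∞ (fun x : EE n => x l) :=
    (EuclideanSpace.proj (𝕜 := ℝ) l).contDiff
  have hpd : ∀ x, pderiv j (fun x : EE n => x l) x = if j = l then 1 else 0 := by
    intro x
    unfold Crest.GeometryTopology.CoordMetric.pderiv
    have : HasFDerivAt (fun x : EE n => x l) (EuclideanSpace.proj (𝕜 := ℝ) l) x :=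
      (EuclideanSpace.proj (𝕜 := ℝ) l).hasFDerivAt
    rw [this.fderiv]
    simp [eq_comm]
  have i1 : Integrable (fun x => (fun x : EE n => x l) x * pderiv j φ x) :=
    ((h.pderiv j).mul_left hsm).integrable
  have i2 : Integrable (fun x => pderiv j (fun x : EE n => x l) x * φ x) := by
    simp only [hpd]
    exact h.integrable.const_mul _
  have i3 : Integrable (fun x => (fun x : EE n => x l) x * φ x) := (h.mul_left hsm).integrable
  have h1 := integral_parts (f := fun x : EE n => x l) (g := φ) j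
    (hsm.differentiable (by simp)) (it_diff h) i1 i2 i3
  rw [h1]
  simp only [hpd]
  rw [integral_const_mul, h0, mul_zero, neg_zero]

/-- linear moments of a derivative -/
theorem integral_lin_pderiv {φ : EE n → ℝ} (h : IsTest φ) (h0 : ∫ x, φ x = 0) (j : Fin n)
    (L : EE n →L[ℝ] ℝ) (y : EE n) : ∫ t, L (t - y) * pderiv j φ (y - t) = 0 := by
  have e1 : ∀ t, L (t - y) * pderiv j φ (y - t) = - (L (y - t) * pderiv j φ (y - t)) := by
    intro t
    have : t - y = - (y - t) := by abel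
    rw [this, map_neg]; ring
  simp only [e1, integral_neg]
  rw [integral_sub_left_eq_self (fun z => L z * pderiv j φ z) volume y]
  have e2 : ∀ z, L z * pderiv j φ z
      = ∑ l, L (EuclideanSpace.single l 1) * (z l * pderiv j φ z) := by
    intro z
    rw [clm_eq_sum L z, Finset.sum_mul]
    exact Finset.sum_congr rfl fun l _ => by ring
  simp only [e2]
  rw [integral_finsetSum]
  · have : ∀ l, ∫ z, L (EuclideanSpace.single l 1) * (z l * pderiv j φ z) = 0 := by
      intro l
      rw [integral_const_mul, integral_coord_pderiv h h0, mul_zero]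
    simp [this]
  · intro l _
    have hsm : ContDiff ℝ ∞ (fun x : EE n => x l) := (EuclideanSpace.proj (𝕜 := ℝ) l).contDiff
    exact (((h.pderiv j).mul_left hsm).integrable).const_mul _

/-- volume of the unit ball -/
def vb (n : ℕ) : ℝ := (volume (Metric.closedBall (0 : EE n) 1)).toReal

theorem vb0 : 0 ≤ vb n := ENNReal.toReal_nonneg

theorem vol_ball (y : EE n) {ρ : ℝ} (hρ : 0 ≤ ρ) :
    (volume (Metric.closedBall y ρ)).toReal = ρ ^ n * vb n := by
  have := Measure.addHaar_closedBall' (volume : Measure (EE n)) y hρ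
  rw [this]
  simp only [finrank_euclideanSpace, Fintype.card_fin]
  rw [ENNReal.toReal_mul, ENNReal.toReal_ofReal (by positivity)]
  rfl

theorem int_const_bound {g : EE n → ℝ} (hg : LocallyIntegrable g) {y : EE n} {ρ m : ℝ}
    (hρ : 0 ≤ ρ) (hb : ∀ t ∈ Metric.closedBall y ρ, |g t| ≤ m) :
    ∫ t in Metric.closedBall y ρ, |g t| ≤ m * (ρ ^ n * vb n) := by
  have hi : IntegrableOn (fun t => |g t|) (Metric.closedBall y ρ) :=
    (hg.integrableOn_isCompact (isCompact_closedBall _ _)).abs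
  have h1 : ∫ t in Metric.closedBall y ρ, |g t| ≤ ∫ t in Metric.closedBall y ρ, m := by
    refine setIntegral_mono_on hi ?_ Metric.isClosed_closedBall.measurableSet hb
    exact integrableOn_const measure_closedBall_lt_top.ne
  refine h1.trans (le_of_eq ?_)
  rw [setIntegral_const, smul_eq_mul, measureReal_def, vol_ball y hρ]; ring

/-- the constant of the second step -/
def CL2 (n : ℕ) (c τ D M β Ca CB Ch CH : ℝ) : ℝ :=
  n * (τ * (D * M * CB * c ^ β * c ^ n * vb n +
    n * (n * (n * (τ * (D * M)) * (Ca * Ch * c ^ β + Ca * CH * (c * c ^ β) +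
      Ca * Ch * (c * c ^ β)) * (c ^ n * vb n)))))

/-- **Increment estimate, second step.** -/
theorem inc_L2 {V : Set (EE n)} {v : EE n → ℝ} {H : Fin n → EE n → ℝ}
    {a : Fin n → Fin n → EE n → ℝ} {ga : Fin n → Fin n → EE n → (EE n →L[ℝ] ℝ)} {B : EE n → ℝ}
    (hv : LocallyIntegrable v) (hH : ∀ i, LocallyIntegrable (H i)) (hB : LocallyIntegrable B)
    (haH : ∀ i j, LocallyIntegrable (fun x => a i j x * H i x))
    (hwd : ∀ i, WDOn V i v (H i)) (heq : WEqOn V a H B)
    {β Ca CB Ch CH : ℝ} (hβ : 0 < β) (hβ1 : β < 1) (hCa : 0 ≤ Ca) (hCB : 0 ≤ CB) (hCh : 0 ≤ Ch)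
    (hCH : 0 ≤ CH)
    (hlip : ∀ i j, ∀ x ∈ V, ∀ y ∈ V, |a i j x - a i j y| ≤ Ca * ‖x - y‖)
    (htay : ∀ i j, ∀ y ∈ V, ∀ t ∈ V, |a i j t - a i j y - ga i j y (t - y)|
      ≤ Ca * (‖t - y‖ * ‖t - y‖ ^ β))
    (hBh : ∀ x ∈ V, ∀ y ∈ V, |B x - B y| ≤ CB * ‖x - y‖ ^ β)
    (hHh : ∀ i, ∀ x ∈ V, ∀ y ∈ V, |H i x - H i y| ≤ Ch * ‖x - y‖ ^ β)
    (hHb : ∀ i, ∀ x ∈ V, |H i x| ≤ CH)
    {r0 c τ D M : ℝ} {x0 : EE n} {T : EE n →L[ℝ] EE n} (hM : 0 ≤ M)
    (h : KD (fun i j => a i j x0) T c τ D)
    (hV : ∀ y, ‖y - x0‖ ≤ r0 → Metric.closedBall y (c * r0) ⊆ V) (e : Fin n) :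
    Inc T (H e) x0 r0 M (CL2 n c τ D M β Ca CB Ch CH) 1 β := by
  intro ψ hψ s hs hsr y hy
  have hc := h.c0
  have hc1 := h.c1
  have hD := h.D0
  have hτ := h.τ0
  set m := max ‖y - x0‖ s with hm
  have hm1 : ‖y - x0‖ ≤ m := le_max_left _ _
  have hm2 : s ≤ m := le_max_right _ _
  have hm0 : 0 < m := hs.trans_le hm2
  have hr0 : 0 < r0 := hs.trans_le hsr
  have hcs : c * s ≤ c * r0 := mul_le_mul_of_nonneg_left hsr hc.le
  have hcs0 : 0 < c * s := by positivity
  have hVs : Metric.closedBall y (c * s) ⊆ V := (Metric.closedBall_subset_closedBall hcs).trans (hV y hy)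
  have hx0V : x0 ∈ V := hV x0 (by simpa using hr0.le) (Metric.mem_closedBall_self (by positivity))
  have hyV : y ∈ V := hVs (Metric.mem_closedBall_self hcs0.le)
  have hsβ : 0 ≤ s ^ β := Real.rpow_nonneg hs.le _
  have hcβ : 0 ≤ c ^ β := Real.rpow_nonneg hc.le _
  have hcsβ : (c * s) ^ β = c ^ β * s ^ β := Real.mul_rpow hc.le hs.le
  have hdist : ∀ t ∈ Metric.closedBall y (c * s), ‖t - y‖ ≤ c * s := fun t ht => by
    rwa [Metric.mem_closedBall, dist_eq_norm] at ht
  have hpow : ∀ t ∈ Metric.closedBall y (c * s), ‖t - y‖ ^ β ≤ c ^ β * s ^ β := fun t ht => by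
    rw [← hcsβ]; exact Real.rpow_le_rpow (norm_nonneg _) (hdist t ht) hβ.le
  -- the basic bound
  have key : ∀ k, |cv (Ker T s (lap (pderiv k ψ))) v y| ≤ s * m * s ^ β *
      (D * M * CB * c ^ β * c ^ n * vb n + n * (n * (n * (τ * (D * M)) *
      (Ca * Ch * c ^ β + Ca * CH * (c * c ^ β) + Ca * Ch * (c * c ^ β)) * (c ^ n * vb n)))) := by
    intro k
    have hψk := hψ.p1 k
    have hKt : IsTest (Ker T s (pderiv k ψ)) := ker_test hs hψk.test h.low
    have hK0 : ∫ x, Ker T s (pderiv k ψ) x = 0 := by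
      rw [integral_ker hs h.det0]; exact integral_pderiv_zero hψ.p0.test k
    rw [inc h.ad h.c0 h.low hv hH haH hwd heq hψk.test hψk.supp hs hVs, abs_mul,
      abs_of_nonneg (by positivity : (0:ℝ) ≤ s ^ 2)]
    -- first term
    have t1 : |∫ t, B t * Ker T s (pderiv k ψ) (y - t)|
        ≤ D * (s⁻¹) ^ n * M * (CB * (c ^ β * s ^ β) * ((c * s) ^ n * vb n)) := by
      have e1 : ∫ t, B t * Ker T s (pderiv k ψ) (y - t)
          = ∫ t, (B t - B y) * Ker T s (pderiv k ψ) (y - t) := by
        have e2 : ∀ t, (B t - B y) * Ker T s (pderiv k ψ) (y - t)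
            = B t * Ker T s (pderiv k ψ) (y - t) - B y * Ker T s (pderiv k ψ) (y - t) :=
          fun t => by ring
        simp only [e2]
        rw [integral_sub (cv_exists hKt hB y) ((hKt.comp_sub y).integrable.const_mul _),
          integral_const_mul, integral_sub_left_eq_self (Ker T s (pderiv k ψ)) volume y, hK0]
        simp
      have hg : LocallyIntegrable (fun t => B t - B y) := hB.sub (locallyIntegrable_const _)
      rw [e1]
      refine (int_bound hg (k := fun t => Ker T s (pderiv k ψ) (y - t)) (ρ := c * s) (x := y)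
        (fun t => ker_bound hs h.det hψk.b0 _) fun t ht => ?_).trans
        (mul_le_mul_of_nonneg_left (int_const_bound hg hcs0.le fun t ht => ?_) (by positivity))
      · apply ker_supp hs hψk.supp h.c0 h.low
        rw [Metric.mem_closedBall, dist_comm, dist_eq_norm] at ht
        linarith
      · exact (hBh t (hVs ht) y hyV).trans (mul_le_mul_of_nonneg_left (hpow t ht) hCB)
    -- second term
    have t2 : ∀ i j, |∫ t, (a i j x0 - a i j t) * H i t * pderiv j (Ker T s (pderiv k ψ)) (y - t)|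
        ≤ s⁻¹ * (n * (τ * (D * (s⁻¹) ^ n * M))) * ((Ca * Ch * c ^ β + Ca * CH * (c * c ^ β) +
          Ca * Ch * (c * c ^ β)) * m * s ^ β * ((c * s) ^ n * vb n)) := by
      intro i j
      have hg0 : LocallyIntegrable (fun t => (a i j x0 - a i j t) * H i t) := by
        have e : (fun t => (a i j x0 - a i j t) * H i t)
            = (fun t => a i j x0 * H i t) - fun t => a i j t * H i t := by
          ext t; simp only [Pi.sub_apply]; ring
        rw [e]
        have e2 : LocallyIntegrable (fun t => a i j x0 * H i t) :=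
          LocallyIntegrable.smul (hH i) (a i j x0)
        exact e2.sub (haH i j)
      have hgl : LocallyIntegrable (fun t => H i y * ga i j y (t - y)) := by
        have : Continuous (fun t => H i y * ga i j y (t - y)) := by fun_prop
        exact this.locallyIntegrable
      set g : EE n → ℝ := fun t => ((a i j x0 - a i j t) * H i t - (a i j x0 - a i j y) * H i y)
        + H i y * ga i j y (t - y) with hgdef
      have hg : LocallyIntegrable g := (hg0.sub (locallyIntegrable_const _)).add hgl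
      have hPd : IsTest (pderiv j (Ker T s (pderiv k ψ))) := hKt.pderiv j
      have e1 : ∫ t, (a i j x0 - a i j t) * H i t * pderiv j (Ker T s (pderiv k ψ)) (y - t)
          = ∫ t, g t * pderiv j (Ker T s (pderiv k ψ)) (y - t) := by
        have e2 : ∀ t, g t * pderiv j (Ker T s (pderiv k ψ)) (y - t)
            = ((a i j x0 - a i j t) * H i t * pderiv j (Ker T s (pderiv k ψ)) (y - t)
              - ((a i j x0 - a i j y) * H i y) * pderiv j (Ker T s (pderiv k ψ)) (y - t))
              + H i y * (ga i j y (t - y) * pderiv j (Ker T s (pderiv k ψ)) (y - t)) := by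
          intro t; simp only [hgdef]; ring
        simp only [e2]
        have i1 : Integrable (fun t => (a i j x0 - a i j t) * H i t *
            pderiv j (Ker T s (pderiv k ψ)) (y - t)) := cv_exists hPd hg0 y
        have i2 : Integrable (fun t => ((a i j x0 - a i j y) * H i y) *
            pderiv j (Ker T s (pderiv k ψ)) (y - t)) :=
          (hPd.comp_sub y).integrable.const_mul _
        have i3 : Integrable (fun t => H i y * (ga i j y (t - y) *
            pderiv j (Ker T s (pderiv k ψ)) (y - t))) := by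
          have hcon : Continuous (fun t : EE n => ga i j y (t - y)) := by fun_prop
          exact (cv_exists hPd hcon.locallyIntegrable y).const_mul _
        have i12 : Integrable (fun t => (a i j x0 - a i j t) * H i t *
            pderiv j (Ker T s (pderiv k ψ)) (y - t) - ((a i j x0 - a i j y) * H i y) *
            pderiv j (Ker T s (pderiv k ψ)) (y - t)) := i1.sub i2
        rw [integral_add i12 i3, integral_sub i1 i2, integral_const_mul,
          integral_const_mul, integral_lin_pderiv hKt hK0,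
          integral_sub_left_eq_self (pderiv j (Ker T s (pderiv k ψ))) volume y,
          integral_pderiv_zero hKt]
        simp
      rw [e1]
      refine (int_bound hg (k := fun t => pderiv j (Ker T s (pderiv k ψ)) (y - t)) (ρ := c * s)
        (x := y) (fun t => ker_dbound h hψk hs j _) fun t ht => ?_).trans
        (mul_le_mul_of_nonneg_left (int_const_bound hg hcs0.le fun t ht => ?_) (by positivity))
      · apply ker_dsupp h hψk hs
        rw [Metric.mem_closedBall, dist_comm, dist_eq_norm] at ht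
        linarith
      · have htV := hVs ht
        have d1 := hdist t ht
        have d2 := hpow t ht
        have b1 := hHh i t htV y hyV
        have b2 := htay i j y hyV t htV
        have b3 := hlip i j t htV y hyV
        have b4 := hlip i j x0 hx0V y hyV
        have b5 := hHb i y hyV
        rw [norm_sub_rev x0 y] at b4
        have e3 : g t = (a i j x0 - a i j y) * (H i t - H i y)
            - (a i j t - a i j y - ga i j y (t - y)) * H i y
            - (a i j t - a i j y) * (H i t - H i y) := by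
          simp only [hgdef]; ring
        rw [e3]
        have d3 : ‖t - y‖ * ‖t - y‖ ^ β ≤ (c * s) * (c ^ β * s ^ β) :=
          mul_le_mul d1 d2 (Real.rpow_nonneg (norm_nonneg _) _) hcs0.le
        have c1 : |(a i j x0 - a i j y) * (H i t - H i y)| ≤ (Ca * m) * (Ch * (c ^ β * s ^ β)) := by
          rw [abs_mul]
          exact mul_le_mul (b4.trans (mul_le_mul_of_nonneg_left hm1 hCa))
            (b1.trans (mul_le_mul_of_nonneg_left d2 hCh)) (abs_nonneg _) (by positivity)
        have c2 : |(a i j t - a i j y - ga i j y (t - y)) * H i y|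
            ≤ (Ca * ((c * s) * (c ^ β * s ^ β))) * CH := by
          rw [abs_mul]
          exact mul_le_mul (b2.trans (mul_le_mul_of_nonneg_left d3 hCa)) b5 (abs_nonneg _)
            (by positivity)
        have c3 : |(a i j t - a i j y) * (H i t - H i y)|
            ≤ (Ca * (c * s)) * (Ch * (c ^ β * s ^ β)) := by
          rw [abs_mul]
          exact mul_le_mul (b3.trans (mul_le_mul_of_nonneg_left d1 hCa))
            (b1.trans (mul_le_mul_of_nonneg_left d2 hCh)) (abs_nonneg _) (by positivity)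
        have c4 : |(a i j x0 - a i j y) * (H i t - H i y)
            - (a i j t - a i j y - ga i j y (t - y)) * H i y
            - (a i j t - a i j y) * (H i t - H i y)|
            ≤ (Ca * m) * (Ch * (c ^ β * s ^ β)) + (Ca * ((c * s) * (c ^ β * s ^ β))) * CH
              + (Ca * (c * s)) * (Ch * (c ^ β * s ^ β)) := by
          rw [abs_le] at c1 c2 c3 ⊢
          constructor <;> linarith [c1.1, c1.2, c2.1, c2.2, c3.1, c3.2]
        refine c4.trans ?_
        have c5 : (Ca * ((c * s) * (c ^ β * s ^ β))) * CH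
            ≤ (Ca * ((c * m) * (c ^ β * s ^ β))) * CH := by
          refine mul_le_mul_of_nonneg_right (mul_le_mul_of_nonneg_left
            (mul_le_mul_of_nonneg_right (mul_le_mul_of_nonneg_left hm2 hc.le) ?_) hCa) hCH
          positivity
        have c6 : (Ca * (c * s)) * (Ch * (c ^ β * s ^ β))
            ≤ (Ca * (c * m)) * (Ch * (c ^ β * s ^ β)) := by
          refine mul_le_mul_of_nonneg_right (mul_le_mul_of_nonneg_left
            (mul_le_mul_of_nonneg_left hm2 hc.le) hCa) ?_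
          positivity
        refine (add_le_add (add_le_add le_rfl c5) c6).trans (le_of_eq ?_)
        ring
    have hvb := vb0 (n := n)
    have t3 : |∑ i, ∑ j, ∫ t, (a i j x0 - a i j t) * H i t *
        pderiv j (Ker T s (pderiv k ψ)) (y - t)|
        ≤ n * (n * (s⁻¹ * (n * (τ * (D * (s⁻¹) ^ n * M))) * ((Ca * Ch * c ^ β +
          Ca * CH * (c * c ^ β) + Ca * Ch * (c * c ^ β)) * m * s ^ β * ((c * s) ^ n * vb n)))) := by
      refine (Finset.abs_sum_le_sum_abs _ _).trans ?_
      refine (Finset.sum_le_sum (g := fun _ => n * (s⁻¹ * (n * (τ * (D * (s⁻¹) ^ n * M))) *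
        ((Ca * Ch * c ^ β + Ca * CH * (c * c ^ β) + Ca * Ch * (c * c ^ β)) * m * s ^ β *
        ((c * s) ^ n * vb n)))) fun i _ => ?_).trans (by simp)
      refine (Finset.abs_sum_le_sum_abs _ _).trans ?_
      exact (Finset.sum_le_sum fun j _ => t2 i j).trans (by simp)
    refine (mul_le_mul_of_nonneg_left ((abs_add_le _ _).trans (add_le_add t1 t3))
      (by positivity)).trans ?_
    have hss : (s⁻¹) ^ n * s ^ n = 1 := by
      rw [← mul_pow, inv_mul_cancel₀ hs.ne', one_pow]
    have f1 : s ^ 2 * (D * (s⁻¹) ^ n * M * (CB * (c ^ β * s ^ β) * ((c * s) ^ n * vb n)))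
        = s * s * s ^ β * (D * M * CB * c ^ β * c ^ n * vb n) := by
      rw [mul_pow]
      calc _ = s ^ 2 * s ^ β * (D * M * CB * c ^ β * c ^ n * vb n) * ((s⁻¹) ^ n * s ^ n) := by ring
        _ = _ := by rw [hss]; ring
    have f2 : s ^ 2 * (n * (n * (s⁻¹ * (n * (τ * (D * (s⁻¹) ^ n * M))) * ((Ca * Ch * c ^ β +
          Ca * CH * (c * c ^ β) + Ca * Ch * (c * c ^ β)) * m * s ^ β * ((c * s) ^ n * vb n)))))
        = s * m * s ^ β * (n * (n * (n * (τ * (D * M)) *
      (Ca * Ch * c ^ β + Ca * CH * (c * c ^ β) + Ca * Ch * (c * c ^ β)) * (c ^ n * vb n)))) := by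
      rw [mul_pow]
      have hs1 : s ^ 2 * s⁻¹ = s := by field_simp
      calc _ = (s ^ 2 * s⁻¹) * m * s ^ β * (n * (n * (n * (τ * (D * M)) *
          (Ca * Ch * c ^ β + Ca * CH * (c * c ^ β) + Ca * Ch * (c * c ^ β)) * (c ^ n * vb n))))
          * ((s⁻¹) ^ n * s ^ n) := by ring
        _ = _ := by rw [hss, hs1]; ring
    rw [mul_add, f1, f2]
    have f3 : s * s * s ^ β * (D * M * CB * c ^ β * c ^ n * vb n)
        ≤ s * m * s ^ β * (D * M * CB * c ^ β * c ^ n * vb n) := by
      refine mul_le_mul_of_nonneg_right (mul_le_mul_of_nonneg_right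
        (mul_le_mul_of_nonneg_left hm2 hs.le) hsβ) (by positivity)
    refine (add_le_add f3 le_rfl).trans (le_of_eq ?_)
    ring
  rw [cv_wd_ker h (hwd e) hv hψ.p0 hs hVs, abs_mul, abs_inv, abs_of_pos hs]
  have hvb := vb0 (n := n)
  set Q := D * M * CB * c ^ β * c ^ n * vb n + n * (n * (n * (τ * (D * M)) *
      (Ca * Ch * c ^ β + Ca * CH * (c * c ^ β) + Ca * Ch * (c * c ^ β)) * (c ^ n * vb n))) with hQ
  have hsum : |∑ k, ent T k e * cv (Ker T s (lap (pderiv k ψ))) v y|
      ≤ n * (τ * (s * m * s ^ β * Q)) := by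
    refine (Finset.abs_sum_le_sum_abs _ _).trans ?_
    refine (Finset.sum_le_sum (g := fun _ => τ * (s * m * s ^ β * Q)) fun k _ => ?_).trans
      (by simp)
    rw [abs_mul]
    exact mul_le_mul ((ent_le T k e).trans h.up) (key k) (abs_nonneg _) hτ
  refine (mul_le_mul_of_nonneg_left hsum (by positivity)).trans (le_of_eq ?_)
  rw [Real.rpow_one, CL2, ← hQ]
  field_simp

/-- **Second step.** -/
theorem L2 {η Φ : EE n → ℝ} {M : ℝ} (hp : Pair η Φ M)
    {V W : Set (EE n)} {v : EE n → ℝ} {H : Fin n → EE n → ℝ}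
    {a : Fin n → Fin n → EE n → ℝ} {ga : Fin n → Fin n → EE n → (EE n →L[ℝ] ℝ)} {B : EE n → ℝ}
    (hv : LocallyIntegrable v) (hH : ∀ i, LocallyIntegrable (H i)) (hB : LocallyIntegrable B)
    (haH : ∀ i j, LocallyIntegrable (fun x => a i j x * H i x))
    (hwd : ∀ i, WDOn V i v (H i)) (heq : WEqOn V a H B)
    {β Ca CB Ch CH lam Lam I : ℝ} (hβ : 0 < β) (hβ1 : β < 1) (hCa : 0 ≤ Ca) (hCB : 0 ≤ CB)
    (hCh : 0 ≤ Ch) (hCH : 0 ≤ CH) (hlam : 0 < lam) (hLam : 1 ≤ Lam) (hI0 : 0 ≤ I)
    (hell : ∀ x ∈ W, Ellc lam Lam (fun i j => a i j x))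
    (hlip : ∀ i j, ∀ x ∈ V, ∀ y ∈ V, |a i j x - a i j y| ≤ Ca * ‖x - y‖)
    (htay : ∀ i j, ∀ y ∈ V, ∀ t ∈ V, |a i j t - a i j y - ga i j y (t - y)|
      ≤ Ca * (‖t - y‖ * ‖t - y‖ ^ β))
    (hBh : ∀ x ∈ V, ∀ y ∈ V, |B x - B y| ≤ CB * ‖x - y‖ ^ β)
    (hHh : ∀ i, ∀ x ∈ V, ∀ y ∈ V, |H i x - H i y| ≤ Ch * ‖x - y‖ ^ β)
    (hHb : ∀ i, ∀ x ∈ V, |H i x| ≤ CH)
    {r0 : ℝ} (hr0 : 0 < r0) (hr1 : r0 ≤ 1)
    (hV : ∀ x0 ∈ W, ∀ y, ‖y - x0‖ ≤ r0 → Metric.closedBall y (Real.sqrt Lam * r0) ⊆ V)
    (e : Fin n)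
    (hcont : ∀ x ∈ V, ContinuousAt (H e) x)
    (hI : ∀ x0 ∈ W, ∀ y, ‖y - x0‖ ≤ r0 →
      ∫ t in Metric.closedBall y (Real.sqrt Lam * r0), |H e t| ≤ I) :
    ∃ (g : EE n → (EE n →L[ℝ] ℝ)) (K : ℝ), 0 ≤ K ∧
      (∀ x ∈ W, ∀ y, ‖y - x‖ ≤ r0 → |H e y - H e x - g x (y - x)| ≤ K * ‖y - x‖ ^ (1 + β)) ∧
      (∀ x ∈ W, HasFDerivAt (H e) (g x) x) ∧
      ∀ x ∈ W, ∀ y ∈ W, ‖x - y‖ ≤ r0 / 2 → ‖g x - g y‖ ≤ K * ‖x - y‖ ^ β := by
  have hM := hp.M0
  have hc0 : 0 < Real.sqrt Lam := Real.sqrt_pos.2 (by linarith)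
  have hvb := vb0 (n := n)
  obtain ⟨CC, hCC0, hCC⟩ : ∃ CC, 0 ≤ CC ∧ ∀ x0 ∈ W, ∃ A T,
      KD (n := n) A T (Real.sqrt Lam) (Real.sqrt (1 / lam)) (Real.sqrt (1 / lam) ^ n) ∧
      Inc T (H e) x0 r0 M CC 1 β := by
    refine ⟨CL2 n (Real.sqrt Lam) (Real.sqrt (1 / lam)) (Real.sqrt (1 / lam) ^ n) M β Ca CB Ch CH,
      ?_, fun x0 hx0 => ?_⟩
    rotate_left
    · obtain ⟨T, hT⟩ := exists_adapt hlam hLam (hell x0 hx0)
      exact ⟨_, T, hT, inc_L2 hv hH hB haH hwd heq hβ hβ1 hCa hCB hCh hCH hlip htay hBh hHh hHb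
        hM hT (hV x0 hx0) e⟩
    · unfold CL2
      have := Real.rpow_nonneg hc0.le β
      positivity
  exact c1_of_inc hp (Real.sqrt_nonneg _) (by positivity) (hH e) hr0 hr1 hCC0 hI0
    zero_le_one hβ hβ hβ1 rfl hCC
    (fun x0 hx0 y hy => hcont y (hV x0 hx0 y hy (Metric.mem_closedBall_self (by positivity)))) hI

end

end Crest.Agent.R249.RegKer_717
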