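import Crest.Agent.R249.RegL2_717
import Crest.Agent.R249.RegCls_717

/-!
Row 249, leaf D3-REG (helper717), file 12: local integration by parts, cut-offs, and linear regularity
`a ∈ C^{k+1,β}`, `f ∈ C^{k,β}` ⇒ weak `C^{1,β}` solutions of `div (a ∇ v) = f` are `C^{k+2,β}`.
-/

set_option autoImplicit false
open scoped ContDiff ENNReal Topology
open MeasureTheory Set Filter
open Crest.GeometryTopology.CoordMetric

namespace Crest.Agent.R249.RegKer_717

open Crest.Agent.R202.Ell

noncomputable section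

variable {n : ℕ} {β : ℝ} {Ω V : Set (EE n)}

theorem cont_mul_test (hΩ : IsOpen Ω) {g φ : EE n → ℝ} (hg : ContinuousOn g Ω) (hφ : IsTest φ)
    (hs : tsupport φ ⊆ Ω) : Continuous (fun x => g x * φ x) := by
  rw [continuous_iff_continuousAt]
  intro x
  by_cases hx : x ∈ tsupport φ
  · exact (hg.continuousAt (hΩ.mem_nhds (hs hx))).mul hφ.continuous.continuousAt
  · have h1 : φ =ᶠ[𝓝 x] (0 : EE n → ℝ) := notMem_tsupport_iff_eventuallyEq.1 hx
    have h2 : (fun x => g x * φ x) =ᶠ[𝓝 x] fun _ => 0 := by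
      filter_upwards [h1] with y hy
      rw [hy]; simp
    exact (continuousAt_congr h2).2 continuousAt_const

theorem int_mul_test (hΩ : IsOpen Ω) {g φ : EE n → ℝ} (hg : ContinuousOn g Ω) (hφ : IsTest φ)
    (hs : tsupport φ ⊆ Ω) : Integrable (fun x => g x * φ x) :=
  (cont_mul_test hΩ hg hφ hs).integrable_of_hasCompactSupport hφ.cpt.mul_left

theorem test_zero {φ : EE n → ℝ} (hs : tsupport φ ⊆ V) {x : EE n} (hx : x ∉ V) : φ x = 0 :=
  image_eq_zero_of_notMem_tsupport fun h => hx (hs h)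

/-- local integration by parts -/
theorem ibp_local (hΩ : IsOpen Ω) {g : EE n → ℝ} (hg : ∀ x ∈ Ω, DifferentiableAt ℝ g x)
    (i : Fin n) (hgc : ContinuousOn (pderiv i g) Ω) {φ : EE n → ℝ} (hφ : IsTest φ)
    (hs : tsupport φ ⊆ Ω) : ∫ x, g x * pderiv i φ x = - ∫ x, pderiv i g x * φ x := by
  have hgc0 : ContinuousOn g Ω := fun x hx => (hg x hx).continuousAt.continuousWithinAt
  have hs' : tsupport (pderiv i φ) ⊆ Ω := (tsupport_pderiv φ i).trans hs
  set P : EE n → ℝ := fun x => g x * φ x with hP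
  have hev : ∀ x, x ∉ tsupport φ → P =ᶠ[𝓝 x] fun _ => 0 := by
    intro x hx
    have h1 : φ =ᶠ[𝓝 x] (0 : EE n → ℝ) := notMem_tsupport_iff_eventuallyEq.1 hx
    filter_upwards [h1] with y hy
    simp only [hP]
    rw [hy]; simp
  have hPd : Differentiable ℝ P := by
    intro x
    by_cases hx : x ∈ tsupport φ
    · exact (hg x (hs hx)).mul (it_diff hφ x)
    · exact (hev x hx).differentiableAt_iff.2 (differentiableAt_const _)
  have hPp : ∀ x, pderiv i P x = pderiv i g x * φ x + g x * pderiv i φ x := by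
    intro x
    by_cases hx : x ∈ tsupport φ
    · exact pderiv_mul i x (hg x (hs hx)) (it_diff hφ x)
    · have h1 : pderiv i P x = 0 := by
        unfold Crest.GeometryTopology.CoordMetric.pderiv
        rw [(hev x hx).fderiv_eq]; simp
      rw [h1, image_eq_zero_of_notMem_tsupport hx,
        image_eq_zero_of_notMem_tsupport fun h => hx (tsupport_pderiv φ i h)]
      simp
  have i1 : Integrable (fun x => pderiv i g x * φ x) := int_mul_test hΩ hgc hφ hs
  have i2 : Integrable (fun x => g x * pderiv i φ x) := int_mul_test hΩ hgc0 (hφ.pderiv i) hs'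
  have i3 : Integrable P := int_mul_test hΩ hgc0 hφ hs
  have hz : ∀ x : EE n, pderiv i (fun _ : EE n => (1 : ℝ)) x = 0 := fun x => by
    simp [Crest.GeometryTopology.CoordMetric.pderiv]
  have h1 := integral_parts (f := fun _ : EE n => (1 : ℝ)) (g := P) i (differentiable_const _)
    hPd (by
      simp only [one_mul]
      have : pderiv i P = fun x => pderiv i g x * φ x + g x * pderiv i φ x := funext hPp
      rw [this]; exact i1.add i2) (by simp [hz]) (by simpa using i3)
  simp only [one_mul, hz, zero_mul, integral_zero, neg_zero, hPp] at h1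
  rw [integral_add i1 i2] at h1
  linarith

theorem WDOn.of_c1 (hΩ : IsOpen Ω) {g : EE n → ℝ} (hg : ∀ x ∈ Ω, DifferentiableAt ℝ g x)
    (i : Fin n) (hgc : ContinuousOn (pderiv i g) Ω) : WDOn Ω i g (pderiv i g) :=
  fun _ hφ hs => ibp_local hΩ hg i hgc hφ hs

theorem WDOn.congr {i : Fin n} {v v' g g' : EE n → ℝ} (h : WDOn V i v g) (hv : EqOn v v' V)
    (hg : EqOn g g' V) : WDOn V i v' g' := by
  intro φ hφ hs
  have e1 : ∫ x, v' x * pderiv i φ x = ∫ x, v x * pderiv i φ x := by
    refine integral_congr_ae (Filter.Eventually.of_forall fun x => ?_)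
    by_cases hx : x ∈ V
    · simp only [hv hx]
    · simp only [test_zero ((tsupport_pderiv φ i).trans hs) hx, mul_zero]
  have e2 : ∫ x, g' x * φ x = ∫ x, g x * φ x := by
    refine integral_congr_ae (Filter.Eventually.of_forall fun x => ?_)
    by_cases hx : x ∈ V
    · simp only [hg hx]
    · simp only [test_zero hs hx, mul_zero]
  rw [e1, e2]
  exact h φ hφ hs

theorem WEqOn.congr_ae {a a' : Fin n → Fin n → EE n → ℝ} {H H' : Fin n → EE n → ℝ}
    {B B' : EE n → ℝ} (h : WEqOn V a H B)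
    (haH : ∀ i j, ∀ᵐ x, x ∈ V → a i j x * H i x = a' i j x * H' i x)
    (hB : ∀ᵐ x, x ∈ V → B x = B' x) : WEqOn V a' H' B' := by
  intro φ hφ hs
  have e1 : ∀ i j, ∫ x, a' i j x * H' i x * pderiv j φ x = ∫ x, a i j x * H i x * pderiv j φ x := by
    intro i j
    refine integral_congr_ae ?_
    filter_upwards [haH i j] with x hx'
    by_cases hx : x ∈ V
    · rw [hx' hx]
    · simp only [test_zero ((tsupport_pderiv φ j).trans hs) hx, mul_zero]
  have e2 : ∫ x, B' x * φ x = ∫ x, B x * φ x := by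
    refine integral_congr_ae ?_
    filter_upwards [hB] with x hx'
    by_cases hx : x ∈ V
    · rw [hx' hx]
    · simp only [test_zero hs hx, mul_zero]
  simp only [e1, e2]
  exact h φ hφ hs

/-- uniqueness of weak derivatives -/
theorem WDOn.unique (hΩ : IsOpen Ω) {i : Fin n} {v g g' : EE n → ℝ} (h : WDOn Ω i v g)
    (h' : WDOn Ω i v g') (hg : LocallyIntegrableOn g Ω) (hg' : LocallyIntegrableOn g' Ω) :
    ∀ᵐ x, x ∈ Ω → g x = g' x := by
  have h1 := hΩ.ae_eq_zero_of_integral_contDiff_smul_eq_zero (f := fun x => g x - g' x)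
    (hg.sub hg') fun φ hφ1 hφ2 hφ3 => by
      have hφ : IsTest φ := ⟨hφ1, hφ2⟩
      have a1 := h φ hφ hφ3
      have a2 := h' φ hφ hφ3
      rw [a1] at a2
      have key : ∀ {k : EE n → ℝ}, LocallyIntegrableOn k Ω → Integrable (fun x => k x * φ x) := by
        intro k hk
        have hk1 : IntegrableOn k (tsupport φ) := hk.integrableOn_compact_subset hφ3 hφ2
        have hk2 : IntegrableOn (fun x => k x * φ x) (tsupport φ) :=
          hk1.mul_continuousOn hφ.continuous.continuousOn hφ2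
        rw [← integrableOn_iff_integrable_of_support_subset
          (s := tsupport φ) (f := fun x => k x * φ x)]
        · exact hk2
        · intro x hx
          by_contra hxs
          exact hx (by simp [image_eq_zero_of_notMem_tsupport hxs])
      have e1 : ∀ x, φ x • (g x - g' x) = g x * φ x - g' x * φ x := fun x => by
        rw [smul_eq_mul]; ring
      simp only [e1]
      rw [integral_sub (key hg) (key hg')]
      linarith
  filter_upwards [h1] with x hx hxΩ
  linarith [hx hxΩ]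

/-- local uniform ellipticity -/
def LEll (Ω : Set (EE n)) (a : Fin n → Fin n → EE n → ℝ) : Prop :=
  ∀ x ∈ Ω, ∃ r > 0, ∃ lam > 0, ∃ Lam, 1 ≤ Lam ∧ ∀ y ∈ Metric.closedBall x r,
    Ellc lam Lam (fun i j => a i j y)

/-- uniformization over a finite family -/
theorem unif {ι : Type*} [Fintype ι] {P : ι → ℝ → ℝ → Prop}
    (hmono : ∀ A r r' C C', 0 < r' → r' ≤ r → C ≤ C' → P A r C → P A r' C')
    (h : ∀ A, ∃ r > 0, ∃ C, 0 ≤ C ∧ P A r C) {r0 : ℝ} (hr0 : 0 < r0) :
    ∃ r > 0, r ≤ r0 ∧ ∃ C, 0 ≤ C ∧ ∀ A, P A r C := by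
  classical
  have : ∀ t : Finset ι, ∃ r > 0, r ≤ r0 ∧ ∃ C, 0 ≤ C ∧ ∀ A ∈ t, P A r C := by
    intro t
    induction t using Finset.induction_on with
    | empty => exact ⟨r0, hr0, le_rfl, 0, le_rfl, by simp⟩
    | insert a t ha ih =>
      obtain ⟨r, h1, h2, C, hC, h3⟩ := ih
      obtain ⟨r', h1', C', hC', h3'⟩ := h a
      refine ⟨min r r', lt_min h1 h1', (min_le_left _ _).trans h2, max C C',
        hC.trans (le_max_left _ _), fun A hA => ?_⟩
      rcases Finset.mem_insert.1 hA with rfl | hA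
      · exact hmono _ _ _ _ _ (lt_min h1 h1') (min_le_right _ _) (le_max_right _ _) h3'
      · exact hmono _ _ _ _ _ (lt_min h1 h1') (min_le_left _ _) (le_max_left _ _) (h3 A hA)
  obtain ⟨r, h1, h2, C, hC, h3⟩ := this Finset.univ
  exact ⟨r, h1, h2, C, hC, fun A => h3 A (Finset.mem_univ A)⟩

/-- the local estimates of a `C^{1,β}` function -/
structure Loc1 (β : ℝ) (Ω : Set (EE n)) (f : EE n → ℝ) (x : EE n) (r C : ℝ) : Prop where
  sub : Metric.closedBall x r ⊆ Ω
  lip : ∀ y ∈ Metric.closedBall x r, ∀ z ∈ Metric.closedBall x r, |f y - f z| ≤ C * ‖y - z‖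
  bd : ∀ i, ∀ y ∈ Metric.closedBall x r, |pderiv i f y| ≤ C
  hol : ∀ i, ∀ y ∈ Metric.closedBall x r, ∀ z ∈ Metric.closedBall x r,
        |pderiv i f y - pderiv i f z| ≤ C * ‖y - z‖ ^ β
  tay : ∀ y ∈ Metric.closedBall x r, ∀ z ∈ Metric.closedBall x r,
        |f z - f y - fderiv ℝ f y (z - y)| ≤ C * (‖z - y‖ * ‖z - y‖ ^ β)

theorem Loc1.mono {f : EE n → ℝ} {x : EE n} {r r' C C' : ℝ} (h : Loc1 β Ω f x r C) (hr : r' ≤ r)
    (hC : C ≤ C') : Loc1 β Ω f x r' C' := by
  have hs : Metric.closedBall x r' ⊆ Metric.closedBall x r := Metric.closedBall_subset_closedBall hr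
  refine ⟨hs.trans h.sub, fun y hy z hz => ?_, fun i y hy => ?_, fun i y hy z hz => ?_,
    fun y hy z hz => ?_⟩
  · exact (h.lip y (hs hy) z (hs hz)).trans (mul_le_mul_of_nonneg_right hC (norm_nonneg _))
  · exact (h.bd i y (hs hy)).trans hC
  · exact (h.hol i y (hs hy) z (hs hz)).trans (mul_le_mul_of_nonneg_right hC
      (Real.rpow_nonneg (norm_nonneg _) _))
  · exact (h.tay y (hs hy) z (hs hz)).trans (mul_le_mul_of_nonneg_right hC (by positivity))

theorem CH.loc1 (hβ : 0 < β) (hΩ : IsOpen Ω) {f : EE n → ℝ} (h : CH β Ω 1 f) {x : EE n}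
    (hx : x ∈ Ω) : ∃ r > 0, ∃ C, 0 ≤ C ∧ Loc1 β Ω f x r C := by
  obtain ⟨r, hr, C, hC, h1, h2⟩ := CH.one_local hβ hΩ h hx
  obtain ⟨a1, a2, a3, a4⟩ := h2 r le_rfl
  exact ⟨r, hr, C, hC, h1, a1, a2, a3, a4⟩

/-- the cut-off of a function to a closed ball -/
theorem cut_eq {x1 : EE n} {R : ℝ} (f : EE n → ℝ) :
    EqOn f ((Metric.closedBall x1 R).indicator f) (Metric.ball x1 R) := fun x hx => by
  rw [indicator_of_mem (Metric.ball_subset_closedBall hx)]

theorem cut_ev {x1 : EE n} {R : ℝ} (f : EE n → ℝ) {x : EE n} (hx : x ∈ Metric.ball x1 R) :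
    (Metric.closedBall x1 R).indicator f =ᶠ[𝓝 x] f := by
  filter_upwards [Metric.isOpen_ball.mem_nhds hx] with y hy using (cut_eq f hy).symm

theorem cut_li {x1 : EE n} {R : ℝ} {f : EE n → ℝ} (h : IntegrableOn f (Metric.closedBall x1 R)) :
    LocallyIntegrable ((Metric.closedBall x1 R).indicator f) :=
  ((integrable_indicator_iff Metric.isClosed_closedBall.measurableSet).2 h).locallyIntegrable

/-- **Linear regularity, base case.** -/
theorem LR0 (hn : 0 < n) (hβ : 0 < β) (hβ1 : β < 1) (hΩ : IsOpen Ω)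
    {a : Fin n → Fin n → EE n → ℝ} {f v : EE n → ℝ} (ha : ∀ i j, CH β Ω 1 (a i j))
    (hell : LEll Ω a) (hf : CH β Ω 0 f) (hv : CH β Ω 1 v)
    (heq : WEqOn Ω a (fun i => pderiv i v) f) : CH β Ω 2 v := by
  obtain ⟨η, Φ, M, hp⟩ := exists_Pair n hn
  refine ⟨hv.1, fun e => ?_⟩
  -- local claim
  have claim : ∀ x1 ∈ Ω, ∃ ρ > 0, ∃ K, 0 ≤ K ∧ Metric.closedBall x1 ρ ⊆ Ω ∧
      (∀ x ∈ Metric.closedBall x1 ρ, DifferentiableAt ℝ (pderiv e v) x) ∧
      ∀ x ∈ Metric.closedBall x1 ρ, ∀ y ∈ Metric.closedBall x1 ρ,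
        ‖fderiv ℝ (pderiv e v) x - fderiv ℝ (pderiv e v) y‖ ≤ K * ‖x - y‖ ^ β := by
    intro x1 hx1
    obtain ⟨r1, hr1, lam, hlam, Lam, hLam, hE⟩ := hell x1 hx1
    obtain ⟨r2, hr2, Cf, hCf, hf1, hf2⟩ := hf x1 hx1
    obtain ⟨r3, hr3, Cv, hCv, hv1⟩ := CH.loc1 hβ hΩ hv hx1
    obtain ⟨R, hR, hRle, Ca, hCa, ha1⟩ := unif (ι := Fin n × Fin n)
      (P := fun p r C => Loc1 β Ω (a p.1 p.2) x1 r C)
      (fun A r r' C C' _ hr hC h => h.mono hr hC)
      (fun p => CH.loc1 hβ hΩ (ha p.1 p.2) hx1)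
      (r0 := min r1 (min r2 r3)) (lt_min hr1 (lt_min hr2 hr3))
    have l1 : R ≤ r1 := hRle.trans (min_le_left _ _)
    have l2 : R ≤ r2 := hRle.trans ((min_le_right _ _).trans (min_le_left _ _))
    have l3 : R ≤ r3 := hRle.trans ((min_le_right _ _).trans (min_le_right _ _))
    have hv2 := hv1.mono l3 le_rfl
    have hsub : Metric.closedBall x1 R ⊆ Ω := hv2.sub
    set c := Real.sqrt Lam with hc
    have hc1 : 1 ≤ c := Real.one_le_sqrt.2 hLam
    have hc0 : 0 < c := lt_of_lt_of_le one_pos hc1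
    set r0 := min 1 (R / (4 * c)) with hr0def
    have hr0 : 0 < r0 := lt_min one_pos (by positivity)
    have hr01 : r0 ≤ 1 := min_le_left _ _
    have hcr0 : c * r0 ≤ R / 4 := by
      have := mul_le_mul_of_nonneg_left (min_le_right 1 (R / (4 * c))) hc0.le
      refine this.trans (le_of_eq ?_)
      field_simp
    have hr0R : r0 ≤ R / 4 := by
      have : 1 * r0 ≤ c * r0 := mul_le_mul_of_nonneg_right hc1 hr0.le
      linarith
    set Kb := Metric.closedBall x1 R with hKb
    set V := Metric.ball x1 R with hVdef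
    have hVK : V ⊆ Kb := Metric.ball_subset_closedBall
    have hV : ∀ x0 ∈ Metric.closedBall x1 (R / 4), ∀ y, ‖y - x0‖ ≤ r0 →
        Metric.closedBall y (c * r0) ⊆ V := by
      intro x0 hx0 y hy z hz
      rw [Metric.mem_closedBall] at hx0 hz
      rw [hVdef, Metric.mem_ball]
      rw [← dist_eq_norm] at hy
      have := dist_triangle z y x1
      have := dist_triangle y x0 x1
      linarith
    have hcv : ContinuousOn v Ω := fun x hx => (hv.1 x hx).continuousAt.continuousWithinAt
    have hcp : ∀ i, ContinuousOn (pderiv i v) Ω := fun i => LH.continuousOn hβ (hv.2 i)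
    have hca : ∀ i j, ContinuousOn (a i j) Ω := fun i j x hx =>
      ((ha i j).1 x hx).continuousAt.continuousWithinAt
    have hcf : ContinuousOn f Ω := LH.continuousOn hβ hf
    have hint : ∀ {g : EE n → ℝ}, ContinuousOn g Ω → LocallyIntegrable (Kb.indicator g) :=
      fun hg => cut_li ((hg.mono hsub).integrableOn_compact (isCompact_closedBall _ _))
    have hfe := L2 (V := V) (W := Metric.closedBall x1 (R / 4)) hp (v := Kb.indicator v)
      (H := fun i => Kb.indicator (pderiv i v)) (a := a)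
      (ga := fun i j y => fderiv ℝ (a i j) y) (B := Kb.indicator f) (β := β) (Ca := Ca) (CB := Cf)
      (Ch := Cv) (CH := Cv) (lam := lam) (Lam := Lam) (I := Cv * ((c * r0) ^ n * vb n)) (r0 := r0)
      (hint hcv) (fun i => hint (hcp i)) (hint hcf)
      (fun i j => by
        have : (fun x => a i j x * Kb.indicator (pderiv i v) x)
            = Kb.indicator (fun x => a i j x * pderiv i v x) := by
          ext x; by_cases hx : x ∈ Kb <;> simp [hx]
        rw [this]; exact hint ((hca i j).mul (hcp i)))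
      (fun i => ((WDOn.of_c1 hΩ hv.1 i (hcp i)).mono (hVK.trans hsub)).congr (cut_eq _) (cut_eq _))
      ((heq.mono (hVK.trans hsub)).congr_ae
        (fun i j => Filter.Eventually.of_forall fun x hx => by rw [cut_eq (pderiv i v) hx])
        (Filter.Eventually.of_forall fun x hx => cut_eq f hx))
      hβ hβ1 hCa hCf hCv hCv hlam hLam (by have := vb0 (n := n); positivity)
      (fun x hx => hE x (Metric.closedBall_subset_closedBall (by linarith) hx))
      (fun i j x hx y hy => (ha1 (i, j)).lip x (hVK hx) y (hVK hy))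
      (fun i j y hy t ht => (ha1 (i, j)).tay y (hVK hy) t (hVK ht))
      (fun x hx y hy => by
        rw [← cut_eq f hx, ← cut_eq f hy]
        exact hf2 x (Metric.closedBall_subset_closedBall l2 (hVK hx)) y
          (Metric.closedBall_subset_closedBall l2 (hVK hy)))
      (fun i x hx y hy => by
        rw [← cut_eq (pderiv i v) hx, ← cut_eq (pderiv i v) hy]
        exact hv2.hol i x (hVK hx) y (hVK hy))
      (fun i x hx => by
        rw [← cut_eq (pderiv i v) hx]; exact hv2.bd i x (hVK hx))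
      hr0 hr01 hV e
      (fun x hx => (continuousAt_congr (cut_ev (pderiv e v) hx)).2
        (LH.continuousAt hβ (hv.2 e) (hsub (hVK hx))))
      (fun x0 hx0 y hy => int_const_bound (hint (hcp e)) (by positivity) fun t ht => by
        have htV := hV x0 hx0 y hy ht
        rw [← cut_eq (pderiv e v) htV]; exact hv2.bd e t (hVK htV))
    obtain ⟨g, K, hK, _, hg2, hg3⟩ := hfe
    have hρ : 0 < min (R / 4) (r0 / 4) := lt_min (by positivity) (by positivity)
    have hρsub : Metric.closedBall x1 (min (R / 4) (r0 / 4)) ⊆ Metric.closedBall x1 (R / 4) :=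
      Metric.closedBall_subset_closedBall (min_le_left _ _)
    have hWV : Metric.closedBall x1 (R / 4) ⊆ V := by
      intro z hz
      rw [Metric.mem_closedBall] at hz
      rw [hVdef, Metric.mem_ball]; linarith
    have hder : ∀ x ∈ Metric.closedBall x1 (R / 4), HasFDerivAt (pderiv e v) (g x) x := fun x hx =>
      (hg2 x hx).congr_of_eventuallyEq (cut_ev (pderiv e v) (hWV hx)).symm
    refine ⟨min (R / 4) (r0 / 4), hρ, K, hK, (hρsub.trans hWV).trans (hVK.trans hsub),
      fun x hx => (hder x (hρsub hx)).differentiableAt, fun x hx y hy => ?_⟩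
    rw [(hder x (hρsub hx)).fderiv, (hder y (hρsub hy)).fderiv]
    refine hg3 x (hρsub hx) y (hρsub hy) ?_
    have hx' := Metric.closedBall_subset_closedBall (min_le_right _ _) hx
    have hy' := Metric.closedBall_subset_closedBall (min_le_right _ _) hy
    rw [Metric.mem_closedBall] at hx' hy'
    rw [← dist_eq_norm]
    have := dist_triangle_right x y x1
    linarith
  refine ⟨fun x hx => ?_, fun i x1 hx1 => ?_⟩
  · obtain ⟨ρ, hρ, K, hK, h1, h2, h3⟩ := claim x hx
    exact h2 x (Metric.mem_closedBall_self hρ.le)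
  · obtain ⟨ρ, hρ, K, hK, h1, h2, h3⟩ := claim x1 hx1
    refine ⟨ρ, hρ, K, hK, h1, fun y hy z hz => ?_⟩
    have e1 : pderiv i (pderiv e v) y - pderiv i (pderiv e v) z
        = (fderiv ℝ (pderiv e v) y - fderiv ℝ (pderiv e v) z) (EuclideanSpace.single i 1) := rfl
    rw [e1, ← Real.norm_eq_abs]
    refine ((fderiv ℝ (pderiv e v) y - fderiv ℝ (pderiv e v) z).le_opNorm _).trans ?_
    rw [PiLp.norm_single, norm_one, mul_one]
    exact h3 y hy z hz

/-- **Linear regularity.** -/
theorem LR (hn : 0 < n) (hβ : 0 < β) (hβ1 : β < 1) (hΩ : IsOpen Ω)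
    {a : Fin n → Fin n → EE n → ℝ} (hell : LEll Ω a) : ∀ (k : ℕ) {f v : EE n → ℝ},
    (∀ i j, CH β Ω (k + 1) (a i j)) → CH β Ω k f → CH β Ω 1 v →
    WEqOn Ω a (fun i => pderiv i v) f → CH β Ω (k + 2) v := by
  intro k
  induction k with
  | zero => intro f v ha hf hv heq; exact LR0 hn hβ hβ1 hΩ ha hell hf hv heq
  | succ k ih =>
    intro f v ha hf hv heq
    have hβ1' := hβ1.le
    have hv2 : CH β Ω (k + 2) v := ih (fun i j => (ha i j).of_succ hβ hβ1' hΩ)
      (hf.of_succ hβ hβ1' hΩ) hv heq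
    refine ⟨hv2.1, fun e => ?_⟩
    -- the differentiated equation
    set fe : EE n → ℝ := fun x => pderiv e f x
      - ∑ i, ∑ j, pderiv j (fun x => pderiv e (a i j) x * pderiv i v x) x with hfe
    have h1 : ∀ i j, CH β Ω (k + 1) (fun x => pderiv e (a i j) x * pderiv i v x) := fun i j =>
      CH.mul hβ hβ1' hΩ ((ha i j).2 e) (hv2.2 i)
    have hfek : CH β Ω k fe := CH.sub hβ hβ1' hΩ (hf.2 e)
      (CH.sum hΩ _ fun i _ => CH.sum hΩ _ fun j _ => (h1 i j).2 j)
    refine ih (fun i j => (ha i j).of_succ hβ hβ1' hΩ) hfek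
      ((hv2.2 e).of_le hβ hβ1' hΩ (by omega)) ?_
    intro φ hφ hs
    have hs' : ∀ j, tsupport (pderiv j φ) ⊆ Ω := fun j => (tsupport_pderiv φ j).trans hs
    have c1 : ∀ {l : ℕ} {g : EE n → ℝ}, CH β Ω (l + 1) g → ∀ i, ContinuousOn (pderiv i g) Ω :=
      fun h i => LH.continuousOn hβ (CH.of_le hβ hβ1' hΩ (Nat.zero_le _) (h.2 i))
    have c0 : ∀ {l : ℕ} {g : EE n → ℝ}, CH β Ω l g → ContinuousOn g Ω :=
      fun h => LH.continuousOn hβ (CH.of_le hβ hβ1' hΩ (Nat.zero_le _) h)
    have hcd2 : ∀ x ∈ Ω, ContDiffAt ℝ 2 v x := fun x hx =>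
      ((CH.contDiffOn hβ hΩ (CH.of_le hβ hβ1' hΩ (show 2 ≤ k + 2 by omega) hv2)).contDiffAt
        (hΩ.mem_nhds hx))
    have E1 := heq (pderiv e φ) (hφ.pderiv e) (hs' e)
    have E2 : ∫ x, f x * pderiv e φ x = - ∫ x, pderiv e f x * φ x :=
      ibp_local hΩ hf.1 e (c1 hf e) hφ hs
    have hag : ∀ i j, CH β Ω (k + 1) (fun x => a i j x * pderiv i v x) := fun i j =>
      CH.mul hβ hβ1' hΩ ((ha i j).of_succ hβ hβ1' hΩ) (hv2.2 i)
    have E3 : ∀ i j, ∫ x, a i j x * pderiv i v x * pderiv j (pderiv e φ) x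
        = (∫ x, pderiv j (fun x => pderiv e (a i j) x * pderiv i v x) x * φ x)
          - ∫ x, a i j x * pderiv i (pderiv e v) x * pderiv j φ x := by
      intro i j
      have e1 : ∀ x, pderiv j (pderiv e φ) x = pderiv e (pderiv j φ) x := fun x =>
        pderiv_comm j e x (it_cd2 hφ).contDiffAt
      simp only [e1]
      have e2 := ibp_local hΩ (hag i j).1 e (c1 (hag i j) e) (hφ.pderiv j) (hs' j)
      rw [e2]
      have e3 := ibp_local hΩ (h1 i j).1 j (c1 (h1 i j) j) hφ hs
      have e4 : ∫ x, pderiv e (fun x => a i j x * pderiv i v x) x * pderiv j φ x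
          = ∫ x, (pderiv e (a i j) x * pderiv i v x * pderiv j φ x
            + a i j x * pderiv i (pderiv e v) x * pderiv j φ x) := by
        refine integral_congr_ae (Filter.Eventually.of_forall fun x => ?_)
        by_cases hx : x ∈ Ω
        · show pderiv e (fun x => a i j x * pderiv i v x) x * pderiv j φ x = _
          rw [pderiv_mul e x ((ha i j).1 x hx) ((hv2.2 i).1 x hx), pderiv_comm e i x (hcd2 x hx)]
          ring
        · simp only [test_zero (hs' j) hx, mul_zero, add_zero]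
      have i1 : Integrable (fun x => pderiv e (a i j) x * pderiv i v x * pderiv j φ x) :=
        int_mul_test hΩ ((c1 (ha i j) e).mul (c1 hv2 i)) (hφ.pderiv j) (hs' j)
      have i2 : Integrable (fun x => a i j x * pderiv i (pderiv e v) x * pderiv j φ x) :=
        int_mul_test hΩ ((c0 (ha i j)).mul (c1 (hv2.2 e) i)) (hφ.pderiv j) (hs' j)
      rw [e4, integral_add i1 i2, e3]; ring
    simp only [E3, E2, Finset.sum_sub_distrib] at E1
    have E4 : ∫ x, fe x * φ x = (∫ x, pderiv e f x * φ x)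
        - ∑ i, ∑ j, ∫ x, pderiv j (fun x => pderiv e (a i j) x * pderiv i v x) x * φ x := by
      have e1 : ∀ x, fe x * φ x = pderiv e f x * φ x
          - ∑ i, ∑ j, pderiv j (fun x => pderiv e (a i j) x * pderiv i v x) x * φ x := by
        intro x; simp only [hfe, sub_mul, Finset.sum_mul]
      simp only [e1]
      have i1 : ∀ i j, Integrable (fun x =>
          pderiv j (fun x => pderiv e (a i j) x * pderiv i v x) x * φ x) := fun i j =>
        int_mul_test hΩ (c1 (h1 i j) j) hφ hs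
      rw [integral_sub (int_mul_test hΩ (c1 hf e) hφ hs)
        (integrable_finsetSum _ fun i _ => integrable_finsetSum _ fun j _ => i1 i j),
        integral_finsetSum _ fun i _ => integrable_finsetSum _ fun j _ => i1 i j]
      congr 1
      exact Finset.sum_congr rfl fun i _ => integral_finsetSum _ fun j _ => i1 i j
    rw [E4]
    linarith

/-- the strong form of the equation -/
theorem strong_eq (hβ : 0 < β) (hβ1 : β < 1) (hΩ : IsOpen Ω)
    {a : Fin n → Fin n → EE n → ℝ} {f v : EE n → ℝ} (ha : ∀ i j, CH β Ω 1 (a i j))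
    (hf : CH β Ω 0 f) (hv : CH β Ω 2 v) (heq : WEqOn Ω a (fun i => pderiv i v) f) :
    ∀ x ∈ Ω, ∑ i, ∑ j, pderiv j (fun x => a i j x * pderiv i v x) x = f x := by
  have hβ1' := hβ1.le
  have h1 : ∀ i j, CH β Ω 1 (fun x => a i j x * pderiv i v x) := fun i j =>
    CH.mul hβ hβ1' hΩ (ha i j) (hv.2 i)
  have c1 : ∀ i j, ContinuousOn (pderiv j (fun x => a i j x * pderiv i v x)) Ω := fun i j =>
    LH.continuousOn hβ ((h1 i j).2 j)
  have cS : ContinuousOn (fun x => ∑ i, ∑ j, pderiv j (fun x => a i j x * pderiv i v x) x) Ω :=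
    continuousOn_finsetSum _ fun i _ => continuousOn_finsetSum _ fun j _ => c1 i j
  have cf : ContinuousOn f Ω := LH.continuousOn hβ hf
  have h2 := hΩ.ae_eq_zero_of_integral_contDiff_smul_eq_zero (μ := volume)
    (f := fun x => (∑ i, ∑ j, pderiv j (fun x => a i j x * pderiv i v x) x) - f x)
    ((cS.sub cf).locallyIntegrableOn hΩ.measurableSet) fun φ hφ1 hφ2 hφ3 => by
      have hφ : IsTest φ := ⟨hφ1, hφ2⟩
      have E1 := heq φ hφ hφ3
      have e1 : ∀ x, φ x • ((∑ i, ∑ j, pderiv j (fun x => a i j x * pderiv i v x) x) - f x)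
          = (∑ i, ∑ j, pderiv j (fun x => a i j x * pderiv i v x) x * φ x) - f x * φ x := by
        intro x
        rw [smul_eq_mul, mul_sub, Finset.mul_sum]
        simp only [Finset.mul_sum]
        congr 1
        · exact Finset.sum_congr rfl fun i _ => Finset.sum_congr rfl fun j _ => by ring
        · ring
      simp only [e1]
      have i1 : ∀ i j, Integrable (fun x =>
          pderiv j (fun x => a i j x * pderiv i v x) x * φ x) := fun i j =>
        int_mul_test hΩ (c1 i j) hφ hφ3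
      rw [integral_sub (integrable_finsetSum _ fun i _ => integrable_finsetSum _ fun j _ => i1 i j)
        (int_mul_test hΩ cf hφ hφ3),
        integral_finsetSum _ fun i _ => integrable_finsetSum _ fun j _ => i1 i j]
      have e2 : ∀ i, ∫ x, ∑ j, pderiv j (fun x => a i j x * pderiv i v x) x * φ x
          = ∑ j, ∫ x, pderiv j (fun x => a i j x * pderiv i v x) x * φ x := fun i =>
        integral_finsetSum _ fun j _ => i1 i j
      simp only [e2]
      have e3 : ∀ i j, ∫ x, a i j x * pderiv i v x * pderiv j φ x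
          = - ∫ x, pderiv j (fun x => a i j x * pderiv i v x) x * φ x := fun i j =>
        ibp_local hΩ (h1 i j).1 j (c1 i j) hφ hφ3
      simp only [e3, Finset.sum_neg_distrib] at E1
      linarith
  have h3 : (fun x => (∑ i, ∑ j, pderiv j (fun x => a i j x * pderiv i v x) x))
      =ᵐ[volume.restrict Ω] f := by
    rw [Filter.EventuallyEq, ae_restrict_iff' hΩ.measurableSet]
    filter_upwards [h2] with x hx hxΩ
    linarith [hx hxΩ]
  exact Measure.eqOn_open_of_ae_eq h3 hΩ cS cf

end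

end Crest.Agent.R249.RegKer_717
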