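import Crest.Agent.R249.RegLin_717

/-!
Row 249, leaf D3-REG (helper717), file 13: smoothness of Hölder continuous weak solutions with Morrey
growth of quasilinear elliptic systems in diagonal form with quadratic right-hand side.
-/

set_option autoImplicit false
open scoped ContDiff ENNReal Topology
open MeasureTheory Set Filter
open Crest.GeometryTopology.CoordMetric

namespace Crest.Agent.R249.RegKer_717

open Crest.Agent.R202.Ell

noncomputable section

variable {n : ℕ} {β : ℝ} {Ω V : Set (EE n)}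

theorem ch1_of_local {f : EE n → ℝ}
    (h : ∀ x1 ∈ Ω, ∃ ρ > 0, ∃ K, 0 ≤ K ∧ ∃ g : EE n → (EE n →L[ℝ] ℝ),
      Metric.closedBall x1 ρ ⊆ Ω ∧ (∀ x ∈ Metric.closedBall x1 ρ, HasFDerivAt f (g x) x) ∧
      ∀ x ∈ Metric.closedBall x1 ρ, ∀ y ∈ Metric.closedBall x1 ρ,
        ‖g x - g y‖ ≤ K * ‖x - y‖ ^ β) : CH β Ω 1 f := by
  refine ⟨fun x hx => ?_, fun i x1 hx1 => ?_⟩
  · obtain ⟨ρ, hρ, K, hK, g, h1, h2, h3⟩ := h x hx
    exact (h2 x (Metric.mem_closedBall_self hρ.le)).differentiableAt
  · obtain ⟨ρ, hρ, K, hK, g, h1, h2, h3⟩ := h x1 hx1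
    refine ⟨ρ, hρ, K, hK, h1, fun y hy z hz => ?_⟩
    have e1 : pderiv i f y - pderiv i f z
        = (g y - g z) (EuclideanSpace.single i 1) := by
      unfold Crest.GeometryTopology.CoordMetric.pderiv
      rw [(h2 y hy).fderiv, (h2 z hz).fderiv]; rfl
    rw [e1, ← Real.norm_eq_abs]
    refine ((g y - g z).le_opNorm _).trans ?_
    rw [PiLp.norm_single, norm_one, mul_one]
    exact h3 y hy z hz

/-- the argument of the right-hand side -/
def arg {N : Type*} (u : N → EE n → ℝ) (H : N → Fin n → EE n → ℝ) (x : EE n) :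
    (N ⊕ (N × Fin n)) → ℝ := Sum.elim (fun A => u A x) (fun q => H q.1 q.2 x)

/-- the domain of the right-hand side -/
def dom {N : Type*} (n : ℕ) (O : Set (N → ℝ)) : Set ((N ⊕ (N × Fin n)) → ℝ) :=
  {w | (fun A => w (Sum.inl A)) ∈ O}

theorem dom_open {N : Type*} {O : Set (N → ℝ)} (hO : IsOpen O) : IsOpen (dom n O) :=
  hO.preimage (continuous_pi fun A => continuous_apply (Sum.inl A))

/-- **Weak quasilinear system.** -/
structure QSys {N : Type*} [Fintype N] (Ω : Set (EE n)) (O : Set (N → ℝ)) (α : ℝ)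
    (a : Fin n → Fin n → (N → ℝ) → ℝ) (b : N → ((N ⊕ (N × Fin n)) → ℝ) → ℝ)
    (u : N → EE n → ℝ) (H : N → Fin n → EE n → ℝ) : Prop where
  hα : 1 / 2 < α
  hα1 : α < 1
  openΩ : IsOpen Ω
  openO : IsOpen O
  smooth_a : ∀ i j, ContDiffOn ℝ ∞ (a i j) O
  smooth_b : ∀ A, ContDiffOn ℝ ∞ (b A) (dom n O)
  hol : ∀ A, LH α Ω (u A)
  mem : ∀ x ∈ Ω, (fun A => u A x) ∈ O
  ell : LEll Ω (fun i j x => a i j fun A => u A x)
  li : ∀ A i, LocallyIntegrableOn (H A i) Ω
  sq : ∀ A i, LocallyIntegrableOn (fun x => H A i x ^ 2) Ω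
  morrey : ∀ x ∈ Ω, ∃ r > 0, ∃ C, 0 ≤ C ∧ ∀ y ∈ Metric.closedBall x r, ∀ ρ, 0 < ρ → ρ ≤ r →
    ∀ A i, ∫ t in Metric.closedBall y ρ, H A i t ^ 2 ≤ C * ρ ^ ((n : ℝ) - 2 + 2 * α)
  growth : ∀ x ∈ Ω, ∃ r > 0, ∃ C, 0 ≤ C ∧ ∀ y ∈ Metric.closedBall x r, ∀ A,
    |b A (arg u H y)| ≤ C * (1 + ∑ B, ∑ i, H B i y ^ 2)
  wd : ∀ A i, WDOn Ω i (u A) (H A i)
  eq : ∀ A, WEqOn Ω (fun i j x => a i j fun A => u A x) (H A) (fun x => b A (arg u H x))

variable {N : Type*} [Fintype N] {O : Set (N → ℝ)} {α : ℝ}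
  {a : Fin n → Fin n → (N → ℝ) → ℝ} {b : N → ((N ⊕ (N × Fin n)) → ℝ) → ℝ}
  {u : N → EE n → ℝ} {H : N → Fin n → EE n → ℝ}

/-- measurability of the right-hand side -/
theorem QSys.meas (h : QSys Ω O α a b u H) (A : N) {K : Set (EE n)} (hK : K ⊆ Ω)
    (hKc : IsCompact K) : AEStronglyMeasurable (fun x => b A (arg u H x)) (volume.restrict K) := by
  classical
  have hα0 : 0 < α := by linarith [h.hα]
  have h1 : AEMeasurable (fun x => arg u H x) (volume.restrict K) := by
    refine aemeasurable_pi_lambda _ fun p => ?_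
    rcases p with B | q
    · exact (((LH.continuousOn hα0 (h.hol B)).mono hK).aemeasurable hKc.measurableSet)
    · exact ((h.li q.1 q.2).integrableOn_compact_subset hK hKc).aestronglyMeasurable.aemeasurable
  have h2 : Measurable ((dom n O).piecewise (b A) fun _ => 0) :=
    (h.smooth_b A).continuousOn.measurable_piecewise continuousOn_const
      (dom_open h.openO).measurableSet
  have h3 : AEMeasurable (fun x => (dom n O).piecewise (b A) (fun _ => 0) (arg u H x))
      (volume.restrict K) := h2.comp_aemeasurable h1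
  have h4 : (fun x => (dom n O).piecewise (b A) (fun _ => 0) (arg u H x)) =ᵐ[volume.restrict K]
      fun x => b A (arg u H x) := by
    rw [Filter.EventuallyEq, ae_restrict_iff' hKc.measurableSet]
    refine Filter.Eventually.of_forall fun x hx => ?_
    exact piecewise_eq_of_mem _ _ _ (h.mem x (hK hx))
  exact (h3.congr h4).aestronglyMeasurable

/-- **First step for systems.** -/
theorem QSys.c1 (hn : 0 < n) (h : QSys Ω O α a b u H) (A : N) : CH (2 * α - 1) Ω 1 (u A) := by
  obtain ⟨η, Φ, M, hp⟩ := exists_Pair n hn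
  have hα := h.hα
  have hα1 := h.hα1
  have hα0 : 0 < α := by linarith
  have hΩ := h.openΩ
  set a' : Fin n → Fin n → EE n → ℝ := fun i j x => a i j fun A => u A x with ha'
  have ha'h : ∀ i j, LH α Ω (a' i j) := fun i j =>
    LH.comp hα0 hΩ h.hol h.openO ((h.smooth_a i j).of_le (by exact_mod_cast le_top)) h.mem
  refine ch1_of_local fun x1 hx1 => ?_
  obtain ⟨r1, hr1, lam, hlam, Lam, hLam, hE⟩ := h.ell x1 hx1
  obtain ⟨r2, hr2, Cm, hCm, hmor⟩ := h.morrey x1 hx1
  obtain ⟨r3, hr3, Cb, hCb, hgr⟩ := h.growth x1 hx1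
  obtain ⟨r4, hr4, Cu, hCu, hsub4, hu4⟩ := (h.hol A).at hx1
  obtain ⟨r5, hr5, Ca, hCa, hsub5, ha5⟩ := LH.pi (u := fun p : Fin n × Fin n => a' p.1 p.2) hΩ
    (fun p => ha'h p.1 p.2) hx1
  set R := min 1 (min (min r1 r2) (min r3 (min r4 r5))) with hRdef
  have l0 : R ≤ 1 := min_le_left _ _
  have l1 : R ≤ r1 := (min_le_right _ _).trans ((min_le_left _ _).trans (min_le_left _ _))
  have l2 : R ≤ r2 := (min_le_right _ _).trans ((min_le_left _ _).trans (min_le_right _ _))
  have l3 : R ≤ r3 := (min_le_right _ _).trans ((min_le_right _ _).trans (min_le_left _ _))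
  have l4 : R ≤ r4 := (min_le_right _ _).trans ((min_le_right _ _).trans
    ((min_le_right _ _).trans (min_le_left _ _)))
  have l5 : R ≤ r5 := (min_le_right _ _).trans ((min_le_right _ _).trans
    ((min_le_right _ _).trans (min_le_right _ _)))
  have hR : 0 < R := lt_min one_pos (lt_min (lt_min hr1 hr2) (lt_min hr3 (lt_min hr4 hr5)))
  have hsub : Metric.closedBall x1 R ⊆ Ω := (Metric.closedBall_subset_closedBall l4).trans hsub4
  set c := Real.sqrt Lam with hc
  have hc1 : 1 ≤ c := Real.one_le_sqrt.2 hLam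
  have hc0 : 0 < c := lt_of_lt_of_le one_pos hc1
  set r0 := min 1 (R / (4 * c)) with hr0def
  have hr0 : 0 < r0 := lt_min one_pos (by positivity)
  have hr01 : r0 ≤ 1 := min_le_left _ _
  have hcr0 : c * r0 ≤ R / 4 := by
    have := mul_le_mul_of_nonneg_left (min_le_right 1 (R / (4 * c))) hc0.le
    refine this.trans (le_of_eq ?_)
    field_simp
  have hr0R : r0 ≤ R / 4 := by
    have : 1 * r0 ≤ c * r0 := mul_le_mul_of_nonneg_right hc1 hr0.le
    linarith
  set Kb := Metric.closedBall x1 R with hKb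
  have hKbc : IsCompact Kb := isCompact_closedBall _ _
  set V := Metric.ball x1 R with hVdef
  have hVK : V ⊆ Kb := Metric.ball_subset_closedBall
  have hV : ∀ x0 ∈ Metric.closedBall x1 (R / 4), ∀ y, ‖y - x0‖ ≤ r0 →
      Metric.closedBall y (c * r0) ⊆ V := by
    intro x0 hx0 y hy z hz
    rw [Metric.mem_closedBall] at hx0 hz
    rw [hVdef, Metric.mem_ball]
    rw [← dist_eq_norm] at hy
    have := dist_triangle z y x1
    have := dist_triangle y x0 x1
    linarith
  have hyK : ∀ x0 ∈ Metric.closedBall x1 (R / 4), ∀ y, ‖y - x0‖ ≤ r0 → y ∈ Kb := fun x0 hx0 y hy =>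
    hVK (hV x0 hx0 y hy (Metric.mem_closedBall_self (by positivity)))
  have hcu : ContinuousOn (u A) Ω := LH.continuousOn hα0 (h.hol A)
  have hca : ∀ i j, ContinuousOn (a' i j) Ω := fun i j => LH.continuousOn hα0 (ha'h i j)
  have hsqK : ∀ B i, IntegrableOn (fun x => H B i x ^ 2) Kb := fun B i =>
    (h.sq B i).integrableOn_compact_subset hsub hKbc
  have hliK : ∀ B i, IntegrableOn (H B i) Kb := fun B i =>
    (h.li B i).integrableOn_compact_subset hsub hKbc
  have hsumK : IntegrableOn (fun x => ∑ B, ∑ i, H B i x ^ 2) Kb :=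
    integrable_finsetSum _ fun B _ => integrable_finsetSum _ fun i _ => hsqK B i
  have honeK : IntegrableOn (fun _ => (1 : ℝ)) Kb := integrableOn_const hKbc.measure_lt_top.ne
  have hBK : IntegrableOn (fun x => b A (arg u H x)) Kb := by
    refine Integrable.mono' ((honeK.add hsumK).const_mul Cb) (h.meas A hsub hKbc) ?_
    rw [ae_restrict_iff' hKbc.measurableSet]
    refine Filter.Eventually.of_forall fun x hx => ?_
    rw [Real.norm_eq_abs]
    exact hgr x (Metric.closedBall_subset_closedBall l3 hx) A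
  have hvb := vb0 (n := n)
  -- the supremum of `|u|`
  obtain ⟨Mu, hMu0, hMu⟩ : ∃ Mu, 0 ≤ Mu ∧ ∀ t ∈ Kb, |u A t| ≤ Mu := by
    obtain ⟨Mu, hMu⟩ := hKbc.exists_bound_of_continuousOn (hcu.mono hsub)
    refine ⟨Mu, (norm_nonneg _).trans (hMu x1 (Metric.mem_closedBall_self hR.le)), fun t ht => ?_⟩
    simpa using hMu t ht
  have hfe := L1 (V := V) (W := Metric.closedBall x1 (R / 4)) hp (w := Kb.indicator (u A))
    (H := fun i => Kb.indicator (H A i)) (a := a') (B := Kb.indicator fun x => b A (arg u H x))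
    (α := α) (Ca := Ca) (CB := Cb * (vb n + Fintype.card N * (n * Cm))) (CH := Cm + vb n)
    (lam := lam) (Lam := Lam) (I := Mu * ((c * r0) ^ n * vb n)) (r0 := r0)
    (cut_li ((hcu.mono hsub).integrableOn_compact hKbc)) (fun i => cut_li (hliK A i))
    (cut_li hBK)
    (fun i j => by
      have : (fun x => a' i j x * Kb.indicator (H A i) x)
          = Kb.indicator (fun x => a' i j x * H A i x) := by
        ext x; by_cases hx : x ∈ Kb <;> simp [hx]
      rw [this]
      exact cut_li ((hliK A i).continuousOn_mul ((hca i j).mono hsub) hKbc))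
    (fun i => ((h.wd A i).mono (hVK.trans hsub)).congr (cut_eq _) (cut_eq _))
    (((h.eq A).mono (hVK.trans hsub)).congr_ae
      (fun i j => Filter.Eventually.of_forall fun x hx => by rw [cut_eq (H A i) hx])
      (Filter.Eventually.of_forall fun x hx => cut_eq (fun x => b A (arg u H x)) hx))
    hα hα1 hCa (by positivity) (by positivity) hlam hLam (by positivity)
    (fun x hx => hE x (Metric.closedBall_subset_closedBall (by linarith) hx))
    (fun i j x hx y hy => ha5 R l5 x (hVK hx) y (hVK hy) (i, j))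
    hr0 hr01 hV
    (fun x hx => (continuousAt_congr (cut_ev (u A) hx)).2
      (LH.continuousAt hα0 (h.hol A) (hsub (hVK hx))))
    (fun x0 hx0 y hy => int_const_bound (cut_li ((hcu.mono hsub).integrableOn_compact hKbc))
      (by positivity) fun t ht => by
      have htV := hV x0 hx0 y hy ht
      rw [← cut_eq (u A) htV]; exact hMu t (hVK htV))
    (fun x0 hx0 y hy ρ hρ hρc => by
      have hρ1 : ρ ≤ 1 := by linarith
      have hyK' := hyK x0 hx0 y hy
      have hballV : Metric.closedBall y ρ ⊆ V :=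
        (Metric.closedBall_subset_closedBall hρc).trans (hV x0 hx0 y hy)
      have hballK : Metric.closedBall y ρ ⊆ Kb := hballV.trans hVK
      have e1 : ∫ t in Metric.closedBall y ρ, |Kb.indicator (fun x => b A (arg u H x)) t|
          ≤ ∫ t in Metric.closedBall y ρ, Cb * (1 + ∑ B, ∑ i, H B i t ^ 2) := by
        refine setIntegral_mono_on ?_ ?_ Metric.isClosed_closedBall.measurableSet fun t ht => ?_
        · exact ((cut_li hBK).integrableOn_isCompact (isCompact_closedBall _ _)).abs
        · exact ((honeK.add hsumK).const_mul Cb).mono_measure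
            (Measure.restrict_mono hballK le_rfl)
        · rw [← cut_eq _ (hballV ht)]
          exact hgr t (Metric.closedBall_subset_closedBall l3 (hballK ht)) A
      refine e1.trans ?_
      rw [integral_const_mul, mul_assoc]
      refine mul_le_mul_of_nonneg_left ?_ hCb
      have hi2 : ∀ B i, IntegrableOn (fun x => H B i x ^ 2) (Metric.closedBall y ρ) := fun B i =>
        (hsqK B i).mono_set hballK
      rw [integral_add (honeK.mono_set hballK) (hsumK.mono_set hballK), integral_finsetSum _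
        fun B _ => integrable_finsetSum _ fun i _ => hi2 B i]
      have hpn : ρ ^ n ≤ ρ ^ ((n : ℝ) - 2 + 2 * α) := by
        rw [← Real.rpow_natCast]
        exact Real.rpow_le_rpow_of_exponent_ge hρ hρ1 (by linarith)
      have t1 : ∫ t in Metric.closedBall y ρ, (1 : ℝ) ≤ vb n * ρ ^ ((n : ℝ) - 2 + 2 * α) := by
        rw [setIntegral_const, smul_eq_mul, mul_one, measureReal_def, vol_ball y hρ.le, mul_comm]
        exact mul_le_mul_of_nonneg_left hpn hvb
      have t2 : ∑ B, ∫ t in Metric.closedBall y ρ, ∑ i, H B i t ^ 2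
          ≤ Fintype.card N * (n * (Cm * ρ ^ ((n : ℝ) - 2 + 2 * α))) := by
        refine (Finset.sum_le_sum (g := fun _ => n * (Cm * ρ ^ ((n : ℝ) - 2 + 2 * α)))
          fun B _ => ?_).trans (by simp)
        rw [integral_finsetSum _ fun i _ => hi2 B i]
        refine (Finset.sum_le_sum (g := fun _ => Cm * ρ ^ ((n : ℝ) - 2 + 2 * α))
          fun i _ => ?_).trans (by simp)
        exact hmor y (Metric.closedBall_subset_closedBall l2 hyK') ρ hρ (by linarith) B i
      calc _ ≤ vb n * ρ ^ ((n : ℝ) - 2 + 2 * α)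
          + Fintype.card N * (n * (Cm * ρ ^ ((n : ℝ) - 2 + 2 * α))) := add_le_add t1 t2
        _ = _ := by ring)
    (fun i x0 hx0 y hy ρ hρ hρc => by
      have hρ1 : ρ ≤ 1 := by linarith
      have hyK' := hyK x0 hx0 y hy
      have hballV : Metric.closedBall y ρ ⊆ V :=
        (Metric.closedBall_subset_closedBall hρc).trans (hV x0 hx0 y hy)
      have hballK : Metric.closedBall y ρ ⊆ Kb := hballV.trans hVK
      have hi2 : IntegrableOn (fun x => H A i x ^ 2) (Metric.closedBall y ρ) :=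
        (hsqK A i).mono_set hballK
      have hi1 : IntegrableOn (fun _ => (1 : ℝ)) (Metric.closedBall y ρ) := honeK.mono_set hballK
      set q := ρ ^ (1 - α) with hq
      have hq0 : 0 < q := Real.rpow_pos_of_pos hρ _
      have e1 : ∫ t in Metric.closedBall y ρ, |Kb.indicator (H A i) t|
          ≤ ∫ t in Metric.closedBall y ρ, (q * H A i t ^ 2 + q⁻¹ * 1) := by
        refine setIntegral_mono_on ?_ ?_ Metric.isClosed_closedBall.measurableSet fun t ht => ?_
        · exact ((cut_li (hliK A i)).integrableOn_isCompact (isCompact_closedBall _ _)).abs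
        · exact (hi2.const_mul q).add (hi1.const_mul q⁻¹)
        · rw [← cut_eq _ (hballV ht)]
          have : 0 ≤ (q * |H A i t| - 1) ^ 2 / q := by positivity
          have e2 : (q * |H A i t| - 1) ^ 2 / q = q * H A i t ^ 2 + q⁻¹ * 1 - 2 * |H A i t| := by
            have := sq_abs (H A i t)
            field_simp
            rw [← this]; ring
          rw [e2] at this
          linarith [abs_nonneg (H A i t)]
      refine e1.trans ?_
      rw [integral_add (hi2.const_mul q) (hi1.const_mul q⁻¹), integral_const_mul,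
        integral_const_mul]
      have t1 : ∫ t in Metric.closedBall y ρ, (1 : ℝ) = vb n * ρ ^ (n : ℝ) := by
        rw [setIntegral_const, smul_eq_mul, mul_one, measureReal_def, vol_ball y hρ.le, mul_comm,
          Real.rpow_natCast]
      have t2 := hmor y (Metric.closedBall_subset_closedBall l2 hyK') ρ hρ (by linarith) A i
      have t3 := mul_le_mul_of_nonneg_left t2 hq0.le
      have t4 : q * (Cm * ρ ^ ((n : ℝ) - 2 + 2 * α)) = Cm * ρ ^ ((n : ℝ) - 1 + α) := by
        have : ρ ^ ((n : ℝ) - 1 + α) = ρ ^ (1 - α) * ρ ^ ((n : ℝ) - 2 + 2 * α) := by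
          rw [← Real.rpow_add hρ]; congr 1; ring
        rw [this, hq]; ring
      have t5 : q⁻¹ * (vb n * ρ ^ (n : ℝ)) = vb n * ρ ^ ((n : ℝ) - 1 + α) := by
        have : ρ ^ ((n : ℝ) - 1 + α) = (ρ ^ (1 - α))⁻¹ * ρ ^ (n : ℝ) := by
          rw [← Real.rpow_neg hρ.le, ← Real.rpow_add hρ]; congr 1; ring
        rw [this, hq]; ring
      rw [t1, t5]
      rw [t4] at t3
      calc _ ≤ Cm * ρ ^ ((n : ℝ) - 1 + α) + vb n * ρ ^ ((n : ℝ) - 1 + α) := add_le_add t3 le_rfl
        _ = _ := by ring)
  obtain ⟨g, K, hK, _, hg2, hg3⟩ := hfe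
  have hρ : 0 < min (R / 4) (r0 / 4) := lt_min (by positivity) (by positivity)
  have hρsub : Metric.closedBall x1 (min (R / 4) (r0 / 4)) ⊆ Metric.closedBall x1 (R / 4) :=
    Metric.closedBall_subset_closedBall (min_le_left _ _)
  have hWV : Metric.closedBall x1 (R / 4) ⊆ V := by
    intro z hz
    rw [Metric.mem_closedBall] at hz
    rw [hVdef, Metric.mem_ball]; linarith
  refine ⟨min (R / 4) (r0 / 4), hρ, K, hK, g, (hρsub.trans hWV).trans (hVK.trans hsub),
    fun x hx => (hg2 x (hρsub hx)).congr_of_eventuallyEq (cut_ev (u A) (hWV (hρsub hx))).symm,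
    fun x hx y hy => ?_⟩
  refine hg3 x (hρsub hx) y (hρsub hy) ?_
  have hx' := Metric.closedBall_subset_closedBall (min_le_right _ _) hx
  have hy' := Metric.closedBall_subset_closedBall (min_le_right _ _) hy
  rw [Metric.mem_closedBall] at hx' hy'
  rw [← dist_eq_norm]
  have := dist_triangle_right x y x1
  linarith

/-- the weak derivatives are the classical ones -/
theorem QSys.grad (hn : 0 < n) (h : QSys Ω O α a b u H) (A : N) (i : Fin n) :
    ∀ᵐ x, x ∈ Ω → H A i x = pderiv i (u A) x := by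
  have hβ : 0 < 2 * α - 1 := by linarith [h.hα]
  have h1 := h.c1 hn A
  have hcp : ContinuousOn (pderiv i (u A)) Ω := LH.continuousOn hβ (h1.2 i)
  exact (h.wd A i).unique h.openΩ (WDOn.of_c1 h.openΩ h1.1 i hcp) (h.li A i)
    (hcp.locallyIntegrableOn h.openΩ.measurableSet)

/-- the equation with the classical gradient -/
theorem QSys.weq (hn : 0 < n) (h : QSys Ω O α a b u H) (A : N) :
    WEqOn Ω (fun i j x => a i j fun A => u A x) (fun i => pderiv i (u A))
      (fun x => b A (arg u (fun B i => pderiv i (u B)) x)) := by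
  refine (h.eq A).congr_ae (fun i j => ?_) ?_
  · filter_upwards [h.grad hn A i] with x hx hxΩ
    rw [hx hxΩ]
  · have : ∀ᵐ x, ∀ B i, x ∈ Ω → H B i x = pderiv i (u B) x :=
      ae_all_iff.2 fun B => ae_all_iff.2 fun i => h.grad hn B i
    filter_upwards [this] with x hx hxΩ
    congr 1
    funext p
    rcases p with B | q
    · rfl
    · exact hx q.1 q.2 hxΩ

/-- **Bootstrapping.** -/
theorem QSys.ch (hn : 0 < n) (h : QSys Ω O α a b u H) : ∀ (k : ℕ) (A : N),
    CH (2 * α - 1) Ω (k + 1) (u A) := by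
  have hα := h.hα
  have hα1 := h.hα1
  have hβ : 0 < 2 * α - 1 := by linarith
  have hβ1 : 2 * α - 1 < 1 := by linarith
  intro k
  induction k with
  | zero => exact fun A => h.c1 hn A
  | succ k ih =>
    intro A
    refine LR hn hβ hβ1 h.openΩ h.ell k (fun i j => ?_) ?_ (h.c1 hn A) (h.weq hn A)
    · exact CH.comp hβ hβ1.le h.openΩ h.openO ih (h.smooth_a i j) h.mem
    · refine CH.comp (u := fun p x => arg u (fun B i => pderiv i (u B)) x p) hβ hβ1.le h.openΩ
        (dom_open h.openO) (fun p => ?_) (h.smooth_b A) h.mem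
      rcases p with B | q
      · exact (ih B).of_succ hβ hβ1.le h.openΩ
      · exact (ih q.1).2 q.2

/-- **Smoothness.** -/
theorem QSys.smooth (hn : 0 < n) (h : QSys Ω O α a b u H) (A : N) : ContDiffOn ℝ ∞ (u A) Ω := by
  have hα := h.hα
  have hα1 := h.hα1
  have hβ : 0 < 2 * α - 1 := by linarith
  have hβ1 : 2 * α - 1 < 1 := by linarith
  exact contDiffOn_of_CH hβ h.openΩ fun k => (h.ch hn k A).of_succ hβ hβ1.le h.openΩ

/-- **The strong equation.** -/
theorem QSys.strong (hn : 0 < n) (h : QSys Ω O α a b u H) (A : N) : ∀ x ∈ Ω,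
    ∑ i, ∑ j, pderiv j (fun x => a i j (fun A => u A x) * pderiv i (u A) x) x
      = b A (arg u (fun B i => pderiv i (u B)) x) := by
  have hα := h.hα
  have hα1 := h.hα1
  have hβ : 0 < 2 * α - 1 := by linarith
  have hβ1 : 2 * α - 1 < 1 := by linarith
  refine strong_eq hβ hβ1 h.openΩ (fun i j => ?_) ?_ (h.ch hn 1 A) (h.weq hn A)
  · exact CH.comp hβ hβ1.le h.openΩ h.openO (h.ch hn 0) (h.smooth_a i j) h.mem
  · refine CH.comp (u := fun p x => arg u (fun B i => pderiv i (u B)) x p) hβ hβ1.le h.openΩ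
      (dom_open h.openO) (fun p => ?_) (h.smooth_b A) h.mem
    rcases p with B | q
    · exact (h.ch hn 0 B).of_succ hβ hβ1.le h.openΩ
    · exact (h.ch hn 0 q.1).2 q.2

end

end Crest.Agent.R249.RegKer_717
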