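import Crest.Agent.R249.Bia3_104
import Crest.Agent.R247.Bo3_84

/-!
# R249, D3-RIC (helper672), part 1: polarised Bochner formula and Koszul formula

For `IsRiemannianOn g U`, `x ∈ U`:
* `hessE_add` ;
* `bochner_pol` : `Δ⟨df, dh⟩ = 2 tr (Hess f ∘ Hess h) + ⟨df, dΔh⟩ + ⟨dh, dΔf⟩ + 2 Ric(∇f, ∇h)`;
* `koszul` : `2 Hess f (∇h, ∇k) = ⟨d⟨df, dh⟩, dk⟩ + ⟨d⟨df, dk⟩, dh⟩ - ⟨d⟨dh, dk⟩, df⟩`.
-/

set_option autoImplicit false
set_option maxSynthPendingDepth 3

open scoped ContDiff Topology
open Filter Set
open Crest.GeometryTopology.CoordMetric Crest.GeometryTopology.ChartCurvature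
open Crest.Agent.R202.Tens Crest.Agent.R247.Bo84

noncomputable section

namespace Crest.Agent.R249.Ric1_672

open Crest.Agent.R249.Bia3_104

variable {n : ℕ}

local notation "𝔼" => EuclideanSpace ℝ (Fin n)

variable {g : MetricField n} {U : Set (EuclideanSpace ℝ (Fin n))} {x : EuclideanSpace ℝ (Fin n)}

lemma hessE_add (hg : IsRiemannianOn g U) (hx : x ∈ U) {f h : 𝔼 → ℝ}
    (hf : ContDiffAt ℝ 2 f x) (hh : ContDiffAt ℝ 2 h x) :
    hessE g (fun y => f y + h y) x = hessE g f x + hessE g h x := by
  have h1 : grad g (fun y => f y + h y) =ᶠ[𝓝 x] fun y => grad g f y + grad g h y := by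
    filter_upwards [eventually_differentiableAt hf, eventually_differentiableAt hh] with y a b
      using grad_add a b
  rw [hessE, hessE, hessE, cov, cov, cov, h1.fderiv_eq, h1.self_of_nhds,
    fderiv_fun_add (differentiableAt_grad hg hx hf) (differentiableAt_grad hg hx hh), map_add]
  abel

lemma ricF_add (hg : IsRiemannianOn g U) (hx : x ∈ U) (X Y : 𝔼) :
    ricF g x (X + Y) (X + Y) = ricF g x X X + 2 * ricF g x X Y + ricF g x Y Y := by
  have h1 : ricF g x (X + Y) (X + Y) =
      ricF g x X X + ricF g x X Y + ricF g x Y X + ricF g x Y Y := by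
    simp only [ricF_eq hg hx, PiLp.add_apply, ← Finset.sum_add_distrib]
    refine Finset.sum_congr rfl fun i _ => Finset.sum_congr rfl fun j _ => ?_
    ring
  rw [h1, ricF_symm hg hx Y X]
  ring

/-- **polarised Bochner formula** -/
theorem bochner_pol (hg : IsRiemannianOn g U) (hx : x ∈ U) {f h : 𝔼 → ℝ}
    (hf : ContDiffAt ℝ 3 f x) (hh : ContDiffAt ℝ 3 h x) :
    laplaceBeltrami g (gam g f h) x =
      2 * trL ((hessE g f x).comp (hessE g h x)) + gam g f (laplaceBeltrami g h) x +
        gam g h (laplaceBeltrami g f) x + 2 * ricF g x (grad g f x) (grad g h x) := by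
  have hf2 : ContDiffAt ℝ 2 f x := hf.of_le (by norm_num)
  have hh2 : ContDiffAt ℝ 2 h x := hh.of_le (by norm_num)
  have hev : ∀ᶠ y in 𝓝 x, y ∈ U ∧ ContDiffAt ℝ 2 f y ∧ ContDiffAt ℝ 2 h y :=
    (eventually_of_mem (hg.isOpen.mem_nhds hx) fun _ h => h).and
      ((hf2.eventually (by norm_num)).and (hh2.eventually (by norm_num)))
  have hfd : DifferentiableAt ℝ f x := hf2.differentiableAt (by norm_num)
  have hhd : DifferentiableAt ℝ h x := hh2.differentiableAt (by norm_num)
  have B1 := bochner' hg hx hf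
  have B2 := bochner' hg hx hh
  have B3 := bochner' hg hx (hf.add hh)
  change (1 / 2) * laplaceBeltrami g (gam g (fun y => f y + h y) (fun y => f y + h y)) x =
    hessSq g (fun y => f y + h y) x +
      gam g (fun y => f y + h y) (laplaceBeltrami g (fun y => f y + h y)) x +
        ∑ i, ∑ j, ricci g x i j * grad g (fun y => f y + h y) x i *
          grad g (fun y => f y + h y) x j at B3
  rw [← ricF_eq hg hx] at B1 B2 B3
  have cff : ContDiffAt ℝ 2 (gam g f f) x :=
    contDiffAt_gam hg hx (m := 2) hf hf (by norm_num) (WithTop.coe_le_coe.2 le_top)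
  have chh : ContDiffAt ℝ 2 (gam g h h) x :=
    contDiffAt_gam hg hx (m := 2) hh hh (by norm_num) (WithTop.coe_le_coe.2 le_top)
  have cfh : ContDiffAt ℝ 2 (gam g f h) x :=
    contDiffAt_gam hg hx (m := 2) hf hh (by norm_num) (WithTop.coe_le_coe.2 le_top)
  -- the left hand side
  have e1 : gam g (fun y => f y + h y) (fun y => f y + h y) =ᶠ[𝓝 x]
      fun y => (gam g f f y + gam g h h y) + 2 * gam g f h y := by
    filter_upwards [hev] with y hy
    have a := hy.2.1.differentiableAt (by norm_num : (2 : WithTop ℕ∞) ≠ 0)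
    have b := hy.2.2.differentiableAt (by norm_num : (2 : WithTop ℕ∞) ≠ 0)
    rw [gam_add_left a b, gam_add_right a b, gam_add_right a b, gam_comm hg hy.1 h f]
    ring
  have e2 : laplaceBeltrami g (gam g (fun y => f y + h y) (fun y => f y + h y)) x =
      laplaceBeltrami g (gam g f f) x + laplaceBeltrami g (gam g h h) x +
        2 * laplaceBeltrami g (gam g f h) x := by
    rw [lap_congr e1, lap_add hg hx (cff.add chh) (contDiffAt_const.mul cfh),
      lap_add hg hx cff chh, lap_const_mul hg hx 2 cfh]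
  -- the Hessian term
  have e3 : hessSq g (fun y => f y + h y) x =
      hessSq g f x + hessSq g h x + 2 * trL ((hessE g f x).comp (hessE g h x)) := by
    rw [hessSq, hessE_add hg hx hf2 hh2, hessSq, hessSq]
    rw [ContinuousLinearMap.comp_add, ContinuousLinearMap.add_comp, ContinuousLinearMap.add_comp,
      map_add, map_add, map_add, trL_comp_comm (hessE g h x) (hessE g f x)]
    ring
  -- the gradient term
  have e4 : laplaceBeltrami g (fun y => f y + h y) =ᶠ[𝓝 x]
      fun y => laplaceBeltrami g f y + laplaceBeltrami g h y := by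
    filter_upwards [hev] with y hy using lap_add hg hy.1 hy.2.1 hy.2.2
  have c1 : (1 : WithTop ℕ∞) + 1 + 1 ≤ 3 := by norm_num
  have c2 : (1 : WithTop ℕ∞) + 1 ≤ ∞ := by
    rw [one_add_one_eq_two]; exact WithTop.coe_le_coe.2 le_top
  have df : DifferentiableAt ℝ (laplaceBeltrami g f) x :=
    (contDiffAt_lap hg hx (m := 1) hf c1 c2).differentiableAt (by norm_num)
  have dh : DifferentiableAt ℝ (laplaceBeltrami g h) x :=
    (contDiffAt_lap hg hx (m := 1) hh c1 c2).differentiableAt (by norm_num)
  have e5 : gam g (fun y => f y + h y) (laplaceBeltrami g (fun y => f y + h y)) x =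
      gam g f (laplaceBeltrami g f) x + gam g f (laplaceBeltrami g h) x +
        (gam g h (laplaceBeltrami g f) x + gam g h (laplaceBeltrami g h) x) := by
    rw [gam_congr (EventuallyEq.refl _ (fun y => f y + h y)) e4, gam_add_left hfd hhd,
      gam_add_right df dh, gam_add_right df dh]
  rw [e2, e3, e5, grad_add hfd hhd, ricF_add hg hx] at B3
  linarith

/-- **Koszul formula** for the Hessian -/
theorem koszul (hg : IsRiemannianOn g U) (hx : x ∈ U) {f h k : 𝔼 → ℝ}
    (hf : ContDiffAt ℝ 2 f x) (hh : ContDiffAt ℝ 2 h x) (hk : ContDiffAt ℝ 2 k x) :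
    2 * hess g f x (grad g h x) (grad g k x) =
      gam g (gam g f h) k x + gam g (gam g f k) h x - gam g (gam g h k) f x := by
  rw [gam_eq_fderiv_grad, gam_eq_fderiv_grad, gam_eq_fderiv_grad, fderiv_gam hg hx hf hh,
    fderiv_gam hg hx hf hk, fderiv_gam hg hx hh hk,
    hess_symm hg hx hf (grad g k x) (grad g h x), hess_symm hg hx hh (grad g k x) (grad g f x),
    hess_symm hg hx hk (grad g h x) (grad g f x)]
  ring

end Crest.Agent.R249.Ric1_672
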