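import Crest.Agent.R249.Ric1_672

/-!
# R249, D3-RIC (helper672), part 2: the limit system implies `Ric = lam g`

`crd a` is the coordinate function `y ↦ y a`; `Pk g x a b c = ⟨d g^{ab}, dx^c⟩`,
`Tk P a b c = (P a b c + P a c b - P b c a)/2` (so `Tk (Pk g x) a b c = Hess x^a (∇x^b, ∇x^c)`),
`Sk G P a b = Σ G_cd G_ef T a c e * T b d f` (so `Sk (g x) (Pk g x) a b = ⟨Hess x^a, Hess x^b⟩`).

* `ricci_eq` : if the coordinates are harmonic and
  `Δ_g g^{ab} = 2 Sk^{ab} + 2 lam g^{ab}` then `ricci g x i j = lam * g x i j`.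
* `ricci_of_div` : the same with `h` (the inverse metric) as unknown and both equations in
  divergence form with the density `(det h)^{-1/2}`.
-/

set_option autoImplicit false
set_option maxSynthPendingDepth 3

open scoped ContDiff Topology
open Filter Set
open Crest.GeometryTopology.CoordMetric Crest.GeometryTopology.ChartCurvature
open Crest.Agent.R202.Tens Crest.Agent.R247.Bo84

noncomputable section

namespace Crest.Agent.R249.Ric2_672

open Crest.Agent.R249.Bia3_104 Crest.Agent.R249.Ric1_672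

variable {n : ℕ}

local notation "𝔼" => EuclideanSpace ℝ (Fin n)

/-! ### the quadratic expression -/

/-- `T^a(dx^b, dx^c)` -/
def Tk (P : Fin n → Fin n → Fin n → ℝ) (a b c : Fin n) : ℝ :=
  (P a b c + P a c b - P b c a) / 2

/-- `⟨T^a, T^b⟩` for the metric with matrix `G` -/
def Sk (G : Matrix (Fin n) (Fin n) ℝ) (P : Fin n → Fin n → Fin n → ℝ) (a b : Fin n) : ℝ :=
  ∑ c, ∑ d, ∑ e, ∑ f, G c d * G e f * Tk P a c e * Tk P b d f

/-- coordinate functions -/
def crd (a : Fin n) : EuclideanSpace ℝ (Fin n) → ℝ := fun y => y a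

/-- `P^{ab;c} = ⟨d g^{ab}, dx^c⟩` -/
def Pk (g : MetricField n) (x : EuclideanSpace ℝ (Fin n)) (a b c : Fin n) : ℝ :=
  gam g (fun y => inverseField g y a b) (crd c) x

lemma fderiv_crd (a : Fin n) (x Y : 𝔼) : fderiv ℝ (crd a) x Y = Y a := by
  have : fderiv ℝ (crd a) x = (EuclideanSpace.proj a : 𝔼 →L[ℝ] ℝ) :=
    (EuclideanSpace.proj a : 𝔼 →L[ℝ] ℝ).fderiv
  rw [this]; rfl

lemma pderiv_crd (a i : Fin n) (x : 𝔼) : pderiv i (crd a) x = if i = a then 1 else 0 := by
  rw [pderiv, fderiv_crd]
  simp [eq_comm]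

lemma contDiff_crd (a : Fin n) {k : WithTop ℕ∞} : ContDiff ℝ k (crd a : 𝔼 → ℝ) :=
  (EuclideanSpace.proj a : 𝔼 →L[ℝ] ℝ).contDiff

lemma grad_crd (g : MetricField n) (a : Fin n) (x : 𝔼) (i : Fin n) :
    grad g (crd a) x i = inverseField g x i a := by
  rw [grad_apply]
  simp [pderiv_crd]

lemma gam_crd (g : MetricField n) (a b : Fin n) (x : 𝔼) :
    gam g (crd a) (crd b) x = inverseField g x a b := by
  rw [gam_eq_fderiv_grad, fderiv_crd, grad_crd]

lemma gam_crd_fun (g : MetricField n) (a b : Fin n) :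
    gam g (crd a) (crd b) = fun y : 𝔼 => inverseField g y a b := by
  funext y; exact gam_crd g a b y

lemma Pk_eq (g : MetricField n) (x : 𝔼) (a b c : Fin n) :
    Pk g x a b c = ∑ d, inverseField g x d c * pderiv d (fun y => inverseField g y a b) x := by
  rw [Pk, gam_eq_fderiv_grad, fderiv_eq_sum]
  exact Finset.sum_congr rfl fun d _ => by rw [grad_crd]

lemma lap_crd (g : MetricField n) (x : 𝔼) (a : Fin n) :
    laplaceBeltrami g (crd a) x =
      (1 / Real.sqrt (g x).det) *
        ∑ i, pderiv i (fun y => Real.sqrt (g y).det * inverseField g y i a) x := by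
  rw [laplaceBeltrami]
  congr 1
  refine Finset.sum_congr rfl fun i _ => ?_
  congr 1
  funext y
  simp [pderiv_crd]

variable {g : MetricField n} {U : Set (EuclideanSpace ℝ (Fin n))} {x : EuclideanSpace ℝ (Fin n)}

/-- expansion of a vector in the gradients of the coordinates -/
lemma expand_crd (hg : IsRiemannianOn g U) (hx : x ∈ U) (X : 𝔼) :
    X = ∑ m, bil (g x) X (EuclideanSpace.single m 1) • grad g (crd m) x := by
  refine bil_injective hg hx fun Y => ?_
  simp only [map_sum, sum_apply, map_smul, smul_apply, smul_eq_mul, bil_grad hg hx, fderiv_crd]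
  conv_lhs => rw [eq_sum_single Y]
  simp only [map_sum, map_smul, smul_eq_mul]
  exact Finset.sum_congr rfl fun m _ => by ring

lemma bil_single (hg : IsRiemannianOn g U) (hx : x ∈ U) (i j : Fin n) :
    bil (g x) (EuclideanSpace.single i 1) (EuclideanSpace.single j 1) = g x i j := by
  rw [bil_apply]
  simp [Finset.sum_ite_eq']

/-- the Hessian of a coordinate on gradients of coordinates -/
lemma hess_crd (hg : IsRiemannianOn g U) (hx : x ∈ U) (a b c : Fin n) :
    hess g (crd a) x (grad g (crd b) x) (grad g (crd c) x) = Tk (Pk g x) a b c := by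
  have h := koszul hg hx (contDiff_crd a).contDiffAt (contDiff_crd b).contDiffAt
    (contDiff_crd c).contDiffAt
  simp only [gam_crd_fun] at h
  rw [Tk, Pk, Pk, Pk]
  linarith

/-- the trace of the product of two Hessians in terms of the coordinates -/
lemma trL_hess (hg : IsRiemannianOn g U) (hx : x ∈ U) {f h : 𝔼 → ℝ} (hf : ContDiffAt ℝ 2 f x)
    (hh : ContDiffAt ℝ 2 h x) :
    trL ((hessE g f x).comp (hessE g h x)) =
      ∑ c, ∑ d, ∑ e, ∑ k, g x c d * g x e k *
        hess g f x (grad g (crd c) x) (grad g (crd e) x) *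
        hess g h x (grad g (crd d) x) (grad g (crd k) x) := by
  rw [trL_apply]
  refine Finset.sum_congr rfl fun c _ => ?_
  have h1 : ∀ Z : 𝔼, Z c = bil (g x) Z (grad g (crd c) x) := by
    intro Z
    rw [bil_symm hg hx, bil_grad hg hx, fderiv_crd]
  rw [ContinuousLinearMap.comp_apply, h1, bil_hessE hg hx hf, hess_symm hg hx hf]
  have h2 : hessE g h x (EuclideanSpace.single c 1) = ∑ e,
      hess g h x (EuclideanSpace.single c 1) (EuclideanSpace.single e 1) •
        grad g (crd e) x := by
    conv_lhs => rw [expand_crd hg hx (hessE g h x (EuclideanSpace.single c 1))]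
    exact Finset.sum_congr rfl fun e _ => by rw [bil_hessE hg hx hh]
  rw [h2]
  simp only [map_sum, map_smul, smul_eq_mul]
  have h3 : ∀ m : Fin n, (EuclideanSpace.single m (1:ℝ) : 𝔼) =
      ∑ k, g x m k • grad g (crd k) x := by
    intro m
    conv_lhs => rw [expand_crd hg hx (EuclideanSpace.single m 1)]
    exact Finset.sum_congr rfl fun k _ => by rw [bil_single hg hx]
  have h4 : ∀ e, hess g h x (EuclideanSpace.single c 1) (EuclideanSpace.single e 1) =
      ∑ d, ∑ k, g x c d * g x e k *
        hess g h x (grad g (crd d) x) (grad g (crd k) x) := by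
    intro e
    rw [h3 c, h3 e]
    simp only [map_sum, sum_apply, map_smul, smul_apply, smul_eq_mul, Finset.mul_sum]
    rw [Finset.sum_comm]
    exact Finset.sum_congr rfl fun d _ => Finset.sum_congr rfl fun k _ => by ring
  simp only [h4, Finset.sum_mul]
  rw [Finset.sum_comm]
  exact Finset.sum_congr rfl fun d _ => Finset.sum_congr rfl fun e _ =>
    Finset.sum_congr rfl fun k _ => by ring

/-- `⟨Hess x^a, Hess x^b⟩` -/
lemma trL_hess_crd (hg : IsRiemannianOn g U) (hx : x ∈ U) (a b : Fin n) :
    trL ((hessE g (crd a) x).comp (hessE g (crd b) x)) = Sk (g x) (Pk g x) a b := by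
  rw [trL_hess hg hx (contDiff_crd a).contDiffAt (contDiff_crd b).contDiffAt]
  simp only [hess_crd hg hx, Sk]

/-- **Bochner formula for harmonic coordinates**: `Δ g^{ab} = 2 ⟨Hess x^a, Hess x^b⟩ + 2 Ric^{ab}`. -/
theorem lap_inverse (hg : IsRiemannianOn g U) (hx : x ∈ U)
    (hharm : ∀ y ∈ U, ∀ a, laplaceBeltrami g (crd a) y = 0) (a b : Fin n) :
    laplaceBeltrami g (fun y => inverseField g y a b) x =
      2 * Sk (g x) (Pk g x) a b + 2 * ricF g x (grad g (crd a) x) (grad g (crd b) x) := by
  have B := bochner_pol hg hx (contDiff_crd a).contDiffAt (contDiff_crd b).contDiffAt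
  have z : ∀ c, laplaceBeltrami g (crd c) =ᶠ[𝓝 x] fun _ => 0 := by
    intro c
    filter_upwards [hg.isOpen.mem_nhds hx] with y hy using hharm y hy c
  rw [gam_congr (EventuallyEq.refl _ _) (z b), gam_congr (EventuallyEq.refl _ _) (z a),
    gam_const_right, gam_const_right, trL_hess_crd hg hx, gam_crd_fun] at B
  linarith

/-- a symmetric matrix identity `h R h = lam h` gives `R = lam h⁻¹` -/
lemma matrix_cancel {G R : Matrix (Fin n) (Fin n) ℝ} (hG : IsUnit G.det) {lam : ℝ}
    (h : G⁻¹ * R * G⁻¹ = lam • G⁻¹) : R = lam • G := by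
  have e : R = G * (G⁻¹ * R * G⁻¹) * G := by
    rw [← Matrix.mul_assoc, ← Matrix.mul_assoc, Matrix.mul_nonsing_inv G hG, Matrix.one_mul,
      Matrix.mul_assoc, Matrix.nonsing_inv_mul G hG, Matrix.mul_one]
  rw [e, h, Matrix.mul_smul, Matrix.smul_mul, Matrix.mul_nonsing_inv G hG, Matrix.one_mul]

/-- **D3-RIC**: harmonic coordinates and the system for the inverse metric give the Einstein
equation. -/
theorem ricci_eq (hg : IsRiemannianOn g U) {lam : ℝ}
    (hharm : ∀ y ∈ U, ∀ a, laplaceBeltrami g (crd a) y = 0)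
    (hsys : ∀ y ∈ U, ∀ a b, laplaceBeltrami g (fun z => inverseField g z a b) y =
      2 * Sk (g y) (Pk g y) a b + 2 * lam * inverseField g y a b)
    (x : EuclideanSpace ℝ (Fin n)) (hx : x ∈ U) (i j : Fin n) :
    ricci g x i j = lam * g x i j := by
  have h1 : ∀ a b, ricF g x (grad g (crd a) x) (grad g (crd b) x) =
      lam * inverseField g x a b := by
    intro a b
    have := lap_inverse hg hx hharm a b
    rw [hsys x hx a b] at this
    linarith
  have hG : IsUnit (g x).det := (det_pos hg hx).ne'.isUnit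
  have h2 : (g x)⁻¹ * (Matrix.of fun i j => ricci g x i j) * (g x)⁻¹ = lam • (g x)⁻¹ := by
    ext b a
    rw [Matrix.smul_apply, smul_eq_mul]
    have h3 := h1 a b
    rw [ricF_eq hg hx] at h3
    simp only [grad_crd] at h3
    have h4 : inverseField g x a b = (g x)⁻¹ b a := inv_symm hg hx a b
    rw [← h4, ← h3, Matrix.mul_apply]
    simp only [Matrix.mul_apply, Finset.sum_mul, Matrix.of_apply]
    rw [Finset.sum_comm]
    refine Finset.sum_congr rfl fun i _ => Finset.sum_congr rfl fun j _ => ?_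
    have h5 : (g x)⁻¹ b i = inverseField g x i b := inv_symm hg hx b i
    have h6 : (g x)⁻¹ j a = inverseField g x j a := rfl
    rw [h5, h6]
    ring
  have h7 := matrix_cancel hG h2
  have h8 := congrFun (congrFun h7 i) j
  simpa using h8

end Crest.Agent.R249.Ric2_672
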