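import Crest.Agent.R249.Alg2_104

/-!
# R249 (helper104): `|Ric(v,w) - c ⟨v,w⟩| ≤ |Ric - c g| |v| |w|`

* `ric_dev_bil` : in coordinates (bilinear form of `Alg2_104.ric_dev_bound`);
* `mRic_dev` : on the manifold, `|mRic n p v w - c * ⟪v,w⟫| ≤ √(mRicDev n M c p) * (‖v‖ * ‖w‖)`;
* `mRic_grad_dev` : for gradients, `|mRic n p (∇f) (∇h) - c * mGam n f h p| ≤ √(mRicDev) * √(mGam f f) * √(mGam h h)`.
-/

set_option autoImplicit false
set_option maxSynthPendingDepth 3
set_option linter.unusedSectionVars false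

open Bundle Set MeasureTheory Manifold Filter Metric
open scoped ContDiff Topology NNReal
open Crest.GeometryTopology.CoordMetric Crest.GeometryTopology.ChartCurvature
  Crest.GeometryTopology.PointedLimit
open Crest.Agent.R202.Tens Crest.Agent.R247.Bo84
open Crest.Agent.R249.Bia1_104 Crest.Agent.R249.Bia3_104 Crest.Agent.R249.D1Def104
open Crest.Agent.R249.Alg1_104 Crest.Agent.R249.Sch1_104

noncomputable section

namespace Crest.Agent.R249.RicDev_104

section coord

variable {n : ℕ}

local notation "𝔼" => EuclideanSpace ℝ (Fin n)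

variable {g : MetricField n} {U : Set (EuclideanSpace ℝ (Fin n))} {x : EuclideanSpace ℝ (Fin n)}

theorem ric_dev_bil (hg : IsRiemannianOn g U) (hx : x ∈ U) (c : ℝ) (v w : 𝔼) :
    |ricF g x v w - c * bil (g x) v w| ≤
      √(ricDev c g x) * (√(bil (g x) v v) * √(bil (g x) w w)) := by
  obtain ⟨ξ, h⟩ := exists_frame hg hx
  set a : Fin n → ℝ := fun i => bil (g x) v (ξ i) with ha
  set b : Fin n → ℝ := fun i => bil (g x) w (ξ i) with hb
  have hv : v = ∑ i, a i • ξ i := h.expand hg hx v
  have hw : w = ∑ i, b i • ξ i := h.expand hg hx w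
  have hQv : bil (g x) v v = ∑ i, a i ^ 2 := by
    rw [h.bil_eq hg hx v v]
    exact Finset.sum_congr rfl fun i _ => by rw [sq]
  have hQw : bil (g x) w w = ∑ i, b i ^ 2 := by
    rw [h.bil_eq hg hx w w]
    exact Finset.sum_congr rfl fun i _ => by rw [sq]
  have hQ : bil (g x) v w = ∑ i, a i * b i := h.bil_eq hg hx v w
  have hsum : ∀ (v : 𝔼) (s : Finset (Fin n)) (f : Fin n → 𝔼), ricF g x v (∑ a ∈ s, f a) =
      ∑ a ∈ s, ricF g x v (f a) := by
    classical
    intro v s f
    induction s using Finset.induction_on with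
    | empty =>
      have := ricF_smul hg hx v 0 0
      simpa using this
    | insert b s hb ih => rw [Finset.sum_insert hb, ricF_add hg hx, ih, Finset.sum_insert hb]
  have hR : ricF g x v w = ∑ i, ∑ j, a i * b j * ricF g x (ξ i) (ξ j) := by
    have e2 : ∀ j, ricF g x v (ξ j) = ∑ i, a i * ricF g x (ξ i) (ξ j) := by
      intro j
      rw [ricF_symm hg hx]
      conv_lhs => rw [hv]
      rw [hsum]
      exact Finset.sum_congr rfl fun i _ => by rw [ricF_smul hg hx, ricF_symm hg hx]
    have e3 : ricF g x v w = ∑ j, b j * ricF g x v (ξ j) := by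
      conv_lhs => rw [hw, hsum]
      exact Finset.sum_congr rfl fun i _ => by rw [ricF_smul hg hx]
    rw [e3]
    simp only [e2, Finset.mul_sum]
    rw [Finset.sum_comm]
    refine Finset.sum_congr rfl fun i _ => Finset.sum_congr rfl fun j _ => by ring
  have hD : ricF g x v w - c * bil (g x) v w =
      ∑ i, ∑ j, (a i * b j) * (ricF g x (ξ i) (ξ j) - c * (if i = j then 1 else 0)) := by
    rw [hR, hQ, Finset.mul_sum, ← Finset.sum_sub_distrib]
    refine Finset.sum_congr rfl fun i _ => ?_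
    have e : ∀ j, (a i * b j) * (ricF g x (ξ i) (ξ j) - c * (if i = j then 1 else 0)) =
        a i * b j * ricF g x (ξ i) (ξ j) - (if i = j then c * (a i * b j) else 0) := by
      intro j
      split_ifs <;> ring
    simp only [e, Finset.sum_sub_distrib, Finset.sum_ite_eq, Finset.mem_univ, if_true]
  have hCS : (∑ i, ∑ j, (a i * b j) *
      (ricF g x (ξ i) (ξ j) - c * (if i = j then 1 else 0))) ^ 2 ≤
      (∑ i, ∑ j, (a i * b j) ^ 2) * ricDev c g x := by
    rw [ricDev_frame hg hx h c]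
    have h1 := Finset.sum_mul_sq_le_sq_mul_sq (Finset.univ : Finset (Fin n × Fin n))
      (fun p => a p.1 * b p.2)
      (fun p => ricF g x (ξ p.1) (ξ p.2) - c * (if p.1 = p.2 then 1 else 0))
    simpa only [Fintype.sum_prod_type] using h1
  have hQ2 : ∑ i, ∑ j, (a i * b j) ^ 2 = bil (g x) v v * bil (g x) w w := by
    rw [hQv, hQw, Finset.sum_mul_sum]
    refine Finset.sum_congr rfl fun i _ => Finset.sum_congr rfl fun j _ => by ring
  rw [hQ2, ← hD] at hCS
  have h0 := bil_nonneg hg hx v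
  have h0' := bil_nonneg hg hx w
  have h1 := Real.abs_le_sqrt hCS
  rw [Real.sqrt_mul (mul_nonneg h0 h0'), Real.sqrt_mul h0] at h1
  linarith

end coord

variable {n : ℕ} {M : Type*} [MetricSpace M] [ChartedSpace (EuclideanSpace ℝ (Fin n)) M]
  [IsManifold (𝓡 n) ∞ M]
  [RiemannianBundle (fun p : M => TangentSpace (𝓡 n) p)]
  [IsContMDiffRiemannianBundle (𝓡 n) ∞ (EuclideanSpace ℝ (Fin n))
    (fun p : M => TangentSpace (𝓡 n) p)]

local notation "𝔼" => EuclideanSpace ℝ (Fin n)

theorem mRic_dev (c : ℝ) (p : M) (v w : TangentSpace (𝓡 n) p) :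
    |mRic n p v w - c * inner ℝ v w| ≤ √(mRicDev n M c p) * (‖v‖ * ‖w‖) := by
  have hg := Crest.Agent.R247.Bo84.isRiemannianOn_chartMetric (n := n) p
  have h1 := ric_dev_bil hg (centre_mem p) c (dCh p p v) (dCh p p w)
  have e1 : ∀ v w : TangentSpace (𝓡 n) p,
      inner ℝ v w = bil (chartMetric n M p (chartCentre n M p)) (dCh p p v) (dCh p p w) :=
    fun v w => inner_eq_bil p (mem_chart_source 𝔼 p) v w
  have e2 : ∀ v : TangentSpace (𝓡 n) p,
      √(bil (chartMetric n M p (chartCentre n M p)) (dCh p p v) (dCh p p v)) = ‖v‖ := by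
    intro v
    rw [← e1, real_inner_self_eq_norm_sq, Real.sqrt_sq (norm_nonneg _)]
  rw [e2, e2, ← e1, ricF_eq' hg (centre_mem p)] at h1
  exact h1

/-- for gradients -/
theorem mRic_grad_dev (c : ℝ) (p : M) (f h : M → ℝ) :
    |mRic n p (mgrad n f p) (mgrad n h p) - c * mGam n f h p| ≤
      √(mRicDev n M c p) * (√(mGam n f f p) * √(mGam n h h p)) := by
  have h1 := mRic_dev c p (mgrad n f p) (mgrad n h p)
  have e : ∀ f : M → ℝ, ‖mgrad n f p‖ = √(mGam n f f p) := by
    intro f
    rw [mGam_eq_inner, real_inner_self_eq_norm_sq, Real.sqrt_sq (norm_nonneg _)]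
  rw [← e, ← e, mGam_eq_inner]
  exact h1

end Crest.Agent.R249.RicDev_104
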