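import Crest.Agent.R249.EVLoc_330
import Crest.Agent.R249.EVMain_330

/-!
Row 249, leaf C-REG (helper352), part 1: function spaces on an open set `U` (test functions with
support in `U`, weak derivatives on `U`, local square integrability on `U`), localisation, and the
local coefficients extended to the whole space.
-/

set_option autoImplicit false
set_option linter.unusedSectionVars false
open MeasureTheory Filter Topology Set
open scoped ENNReal NNReal ContDiff RealInnerProductSpace Manifold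

namespace Crest.Agent.R249.SReg352
open Crest.Agent.R249.EV

variable {V : Type*} [NormedAddCommGroup V] [InnerProductSpace ℝ V] [FiniteDimensional ℝ V]
variable {ι κ : Type*} [Fintype ι] [Fintype κ]

/-- test functions with support in `U` -/
def TO (U : Set V) (φ : V → ℝ) : Prop := Test φ ∧ tsupport φ ⊆ U

theorem tsupport_dd_subset (d : V) (φ : V → ℝ) : tsupport (dd d φ) ⊆ tsupport φ := by
  have h1 : Function.support (dd d φ) ⊆ Function.support (fderiv ℝ φ) := by
    intro x hx h0
    apply hx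
    unfold dd
    rw [h0]; simp
  exact (closure_mono h1).trans (tsupport_fderiv_subset ℝ)

theorem TO.dd {U : Set V} {φ : V → ℝ} (h : TO U φ) (d : V) : TO U (dd d φ) :=
  ⟨h.1.dd d, (tsupport_dd_subset d φ).trans h.2⟩

theorem TO.zero_off {U : Set V} {φ : V → ℝ} (h : TO U φ) {x : V} (hx : x ∉ U) : φ x = 0 :=
  image_eq_zero_of_notMem_tsupport fun h' => hx (h.2 h')

theorem TO.mul_on {U : Set V} (hU : IsOpen U) {φ a : V → ℝ} (h : TO U φ)
    (ha : ContDiffOn ℝ ∞ a U) : TO U (fun x => a x * φ x) := by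
  have hs : tsupport (fun x => a x * φ x) ⊆ tsupport φ := tsupport_mul_subset_right
  refine ⟨⟨?_, h.1.2.mul_left⟩, hs.trans h.2⟩
  rw [contDiff_iff_contDiffAt]
  intro x
  by_cases hx : x ∈ U
  · exact (ha.contDiffAt (hU.mem_nhds hx)).mul h.1.1.contDiffAt
  · have hx' : x ∉ tsupport φ := fun h' => hx (h.2 h')
    have : (fun x => a x * φ x) =ᶠ[nhds x] fun _ => 0 := by
      have h1 : ∀ᶠ y in nhds x, y ∉ tsupport φ :=
        (isClosed_tsupport φ).isOpen_compl.mem_nhds hx'
      filter_upwards [h1] with y hy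
      rw [image_eq_zero_of_notMem_tsupport hy, mul_zero]
    exact contDiffAt_const.congr_of_eventuallyEq this

theorem TO.mul {U : Set V} {φ a : V → ℝ} (h : TO U φ)
    (ha : ContDiff ℝ ∞ a) : TO U (fun x => a x * φ x) :=
  ⟨h.1.smooth_mul ha, (tsupport_mul_subset_right).trans h.2⟩

theorem TO.add {U : Set V} {φ ψ : V → ℝ} (h : TO U φ) (h' : TO U ψ) :
    TO U (fun x => φ x + ψ x) :=
  ⟨h.1.add h'.1, (closure_minimal (fun x hx => by
    by_contra hx'
    simp only [mem_union, not_or] at hx'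
    exact hx (by
      show φ x + ψ x = 0
      rw [image_eq_zero_of_notMem_tsupport hx'.1, image_eq_zero_of_notMem_tsupport hx'.2,
        add_zero])) ((isClosed_tsupport φ).union (isClosed_tsupport ψ))).trans
    (union_subset h.2 h'.2)⟩

theorem contDiffOn_dd {U : Set V} (hU : IsOpen U) {a : V → ℝ} (ha : ContDiffOn ℝ ∞ a U) (d : V) :
    ContDiffOn ℝ ∞ (dd d a) U := by
  have h1 : ContDiffOn ℝ ∞ (fderiv ℝ a) U := ha.fderiv_of_isOpen hU (by simp)
  exact h1.clm_apply contDiffOn_const

theorem exists_cut {U K : Set V} (hU : IsOpen U) (hK : IsCompact K) (hKU : K ⊆ U) :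
    ∃ χ : V → ℝ, TO U χ ∧ (∀ x, 0 ≤ χ x) ∧ (∀ x, χ x ≤ 1) ∧ ∀ᶠ x in 𝓝ˢ K, χ x = 1 := by
  obtain ⟨t, ht, hKt, htU⟩ := exists_compact_between hK hU hKU
  obtain ⟨f, hf1, hf0, hf2⟩ := exists_contMDiffMap_one_nhds_of_subset_interior (n := (⊤ : ℕ∞))
    (modelWithCornersSelf ℝ V) hK.isClosed hKt
  have hsup : tsupport (f : V → ℝ) ⊆ t :=
    closure_minimal (fun x hx => by
      by_contra h; exact hx (hf0 x h)) ht.isClosed
  exact ⟨f, ⟨⟨f.contMDiff.contDiff, HasCompactSupport.of_support_subset_isCompact ht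
    ((subset_tsupport _).trans hsup)⟩, hsup.trans htU⟩, fun x => (hf2 x).1, fun x => (hf2 x).2, hf1⟩

/-- uniform ellipticity on compact sets, coefficients continuous on the set only -/
theorem exists_ell_on {a : ι → ι → V → ℝ} {K : Set V} (hK : IsCompact K)
    (ha : ∀ i j, ContinuousOn (a i j) K)
    (hpos : ∀ x ∈ K, ∀ ξ : ι → ℝ, ξ ≠ 0 → 0 < ∑ i, ∑ j, a i j x * ξ j * ξ i) :
    ∃ lam : ℝ, 0 < lam ∧ ∀ x ∈ K, ∀ ξ : ι → ℝ,
      lam * ∑ i, ξ i ^ 2 ≤ ∑ i, ∑ j, a i j x * ξ j * ξ i := by
  classical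
  let S : Set (EuclideanSpace ℝ ι) := Metric.sphere 0 1
  have hS : IsCompact S := isCompact_sphere _ _
  let F : V × EuclideanSpace ℝ ι → ℝ := fun p => ∑ i, ∑ j, a i j p.1 * p.2 j * p.2 i
  have hF : ContinuousOn F (K ×ˢ S) := by
    apply continuousOn_finsetSum; intro i _
    apply continuousOn_finsetSum; intro j _
    have h1 : ContinuousOn (fun p : V × EuclideanSpace ℝ ι => a i j p.1) (K ×ˢ S) :=
      (ha i j).comp continuous_fst.continuousOn fun p hp => hp.1
    have h2 : Continuous (fun p : V × EuclideanSpace ℝ ι => p.2 j) := by fun_prop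
    have h3 : Continuous (fun p : V × EuclideanSpace ℝ ι => p.2 i) := by fun_prop
    exact (h1.mul h2.continuousOn).mul h3.continuousOn
  have main : ∃ lam : ℝ, 0 < lam ∧ ∀ x ∈ K, ∀ ξ ∈ S, lam ≤ F (x, ξ) := by
    rcases (K ×ˢ S).eq_empty_or_nonempty with h0 | hne
    · refine ⟨1, one_pos, fun x hx ξ hξ => ?_⟩
      have : (x, ξ) ∈ K ×ˢ S := ⟨hx, hξ⟩
      rw [h0] at this; exact absurd this (notMem_empty _)
    · obtain ⟨p, hp, hmin⟩ := (hK.prod hS).exists_isMinOn hne hF
      refine ⟨F p, ?_, fun x hx ξ hξ => hmin (show (x, ξ) ∈ K ×ˢ S from ⟨hx, hξ⟩)⟩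
      apply hpos p.1 hp.1 (fun i => p.2 i)
      intro h
      have h1 : p.2 = 0 := by
        ext i; exact congrFun h i
      have h2 : ‖p.2‖ = 1 := by simpa [S] using hp.2
      rw [h1, norm_zero] at h2
      exact zero_ne_one h2
  obtain ⟨lam, hlam, hl⟩ := main
  refine ⟨lam, hlam, fun x hx ξ => ?_⟩
  let ζ : EuclideanSpace ℝ ι := WithLp.toLp 2 ξ
  have hζ : ∀ i, ζ i = ξ i := fun i => rfl
  have hn : ‖ζ‖ ^ 2 = ∑ i, ξ i ^ 2 := by
    rw [EuclideanSpace.real_norm_sq_eq]
  rcases eq_or_ne ζ 0 with h0 | h0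
  · have h1 : ∀ i, ξ i = 0 := fun i => by rw [← hζ, h0]; rfl
    simp [h1]
  · have hpos' : 0 < ‖ζ‖ := norm_pos_iff.mpr h0
    have hz : ‖ζ‖⁻¹ • ζ ∈ S := by
      simp only [S, mem_sphere_iff_norm, sub_zero, norm_smul, norm_inv, norm_norm]
      exact inv_mul_cancel₀ hpos'.ne'
    have h1 := hl x hx _ hz
    have h2 : F (x, ‖ζ‖⁻¹ • ζ) = (‖ζ‖⁻¹) ^ 2 * ∑ i, ∑ j, a i j x * ξ j * ξ i := by
      simp only [F, Finset.mul_sum]
      refine Finset.sum_congr rfl fun i _ => Finset.sum_congr rfl fun j _ => ?_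
      simp only [PiLp.smul_apply, smul_eq_mul, hζ]
      ring
    rw [h2] at h1
    rw [← hn]
    have h3 := mul_le_mul_of_nonneg_right h1 (sq_nonneg ‖ζ‖)
    have h4 : (‖ζ‖⁻¹) ^ 2 * (∑ i, ∑ j, a i j x * ξ j * ξ i) * ‖ζ‖ ^ 2 =
        ∑ i, ∑ j, a i j x * ξ j * ξ i := by
      field_simp
    rw [h4] at h3
    exact h3

/-- extension of coefficients given on an open set to the whole space -/
theorem exists_coef_on [DecidableEq ι] {U K : Set V} (hU : IsOpen U) (hK : IsCompact K)
    (hKU : K ⊆ U) {a : ι → ι → V → ℝ} (ha : ∀ i j, ContDiffOn ℝ ∞ (a i j) U)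
    (hpos : ∀ x ∈ U, ∀ ξ : ι → ℝ, ξ ≠ 0 → 0 < ∑ i, ∑ j, a i j x * ξ j * ξ i) :
    ∃ (b : ι → ι → V → ℝ) (lam : ℝ), Coef b (fun i j => if i = j then 1 else 0) lam ∧
      ∀ i j, ∀ x ∈ K, b i j x = a i j x := by
  obtain ⟨χ, hχ, h0, h1, hR⟩ := exists_cut hU hK hKU
  obtain ⟨lam, hlam, hl⟩ := exists_ell_on hχ.1.2.isCompact
    (fun i j => (ha i j).continuousOn.mono hχ.2) fun x hx => hpos x (hχ.2 hx)
  refine ⟨fun i j x => χ x * a i j x + (1 - χ x) * (if i = j then 1 else 0), min lam 1,
    ⟨by positivity, ?_, ?_⟩, ?_⟩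
  · intro i j
    have : Test (fun x => (a i j x - (if i = j then (1 : ℝ) else 0)) * χ x) :=
      (hχ.mul_on hU ((ha i j).sub contDiffOn_const)).1
    convert this using 1
    ext x; ring
  · intro x ξ
    have e1 : ∑ i, ∑ j, (χ x * a i j x + (1 - χ x) * (if i = j then (1 : ℝ) else 0)) * ξ j * ξ i =
        χ x * (∑ i, ∑ j, a i j x * ξ j * ξ i) + (1 - χ x) * ∑ i, ξ i ^ 2 := by
      rw [Finset.mul_sum, Finset.mul_sum, ← Finset.sum_add_distrib]
      refine Finset.sum_congr rfl fun i _ => ?_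
      have : ∑ j, (χ x * a i j x + (1 - χ x) * (if i = j then (1 : ℝ) else 0)) * ξ j * ξ i =
          ∑ j, (χ x * (a i j x * ξ j * ξ i)) +
          ∑ j, (if i = j then (1 - χ x) * ξ j * ξ i else 0) := by
        rw [← Finset.sum_add_distrib]
        refine Finset.sum_congr rfl fun j _ => ?_
        split_ifs <;> ring
      rw [this, Finset.sum_ite_eq, ← Finset.mul_sum]
      simp; ring
    rw [e1]
    have hs : 0 ≤ ∑ i, ξ i ^ 2 := Finset.sum_nonneg fun i _ => sq_nonneg _
    by_cases hx : x ∈ tsupport χ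
    · have h2 := hl x hx ξ
      have h3 : min lam 1 * ∑ i, ξ i ^ 2 ≤ lam * ∑ i, ξ i ^ 2 := by gcongr; exact min_le_left _ _
      have h4 : min lam 1 * ∑ i, ξ i ^ 2 ≤ 1 * ∑ i, ξ i ^ 2 := by gcongr; exact min_le_right _ _
      have h5 := h0 x
      have h6 := h1 x
      nlinarith [mul_le_mul_of_nonneg_left (h3.trans h2) h5,
        mul_le_mul_of_nonneg_left h4 (sub_nonneg.mpr h6)]
    · have : χ x = 0 := image_eq_zero_of_notMem_tsupport hx
      rw [this]
      have h4 : min lam 1 * ∑ i, ξ i ^ 2 ≤ 1 * ∑ i, ξ i ^ 2 := by gcongr; exact min_le_right _ _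
      linarith
  · intro i j x hx
    have := hR.self_of_nhdsSet x hx
    simp only [this]; ring

variable [MeasurableSpace V] [BorelSpace V]

/-- locally integrable and locally square integrable on `U` -/
def L2on (U : Set V) (u : V → ℝ) : Prop :=
  LocallyIntegrableOn u U (volume : Measure V) ∧
    LocallyIntegrableOn (fun x => u x ^ 2) U (volume : Measure V)

/-- weak derivative on `U` -/
def WDon (U : Set V) (d : V) (u v : V → ℝ) : Prop :=
  ∀ φ : V → ℝ, TO U φ → ∫ x, u x * dd d φ x = - ∫ x, v x * φ x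

theorem integrable_test_mul {U : Set V} {g φ : V → ℝ}
    (hg : LocallyIntegrableOn g U (volume : Measure V)) (hφ : TO U φ) :
    Integrable (fun x => φ x * g x) (volume : Measure V) := by
  have hI : Integrable ((tsupport φ).indicator g) (volume : Measure V) := by
    rw [integrable_indicator_iff (isClosed_tsupport φ).measurableSet]
    exact hg.integrableOn_compact_subset hφ.2 hφ.1.2.isCompact
  obtain ⟨C, hC⟩ := hφ.1.2.exists_bound_of_continuous hφ.1.continuous
  refine (hI.mul_bdd hφ.1.continuous.aestronglyMeasurable (Eventually.of_forall hC)).congr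
    (Eventually.of_forall fun x => ?_)
  by_cases hx : x ∈ tsupport φ
  · simp only [Set.indicator_of_mem hx, mul_comm]
  · simp only [Set.indicator_of_notMem hx, image_eq_zero_of_notMem_tsupport hx, zero_mul]

theorem integrable_mul_test {U : Set V} {g φ : V → ℝ}
    (hg : LocallyIntegrableOn g U (volume : Measure V)) (hφ : TO U φ) :
    Integrable (fun x => g x * φ x) (volume : Measure V) :=
  (integrable_test_mul hg hφ).congr (Eventually.of_forall fun x => mul_comm _ _)

theorem L2on.test_mul {U : Set V} {u η : V → ℝ} (h : L2on U u) (hη : TO U η) :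
    MemLp (fun x => η x * u x) 2 (volume : Measure V) := by
  have hm : AEStronglyMeasurable (fun x => η x * u x) (volume : Measure V) :=
    (integrable_test_mul h.1 hη).aestronglyMeasurable
  rw [memLp_two_iff_integrable_sq hm]
  have := integrable_test_mul h.2 (hη.mul hη.1.1)
  refine this.congr (Eventually.of_forall fun x => ?_)
  simp only; ring

theorem locInt_mul_on {U : Set V} (hU : IsOpen U) {a u : V → ℝ}
    (hu : LocallyIntegrableOn u U (volume : Measure V))
    (ha : ContinuousOn a U) : LocallyIntegrableOn (fun x => a x * u x) U (volume : Measure V) := by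
  exact hu.continuousOn_mul ha hU.isLocallyClosed

theorem locInt_of_test {U : Set V} {g φ : V → ℝ}
    (hg : LocallyIntegrableOn g U (volume : Measure V)) (hφ : TO U φ) :
    LocallyIntegrable (fun x => φ x * g x) (volume : Measure V) :=
  (integrable_test_mul hg hφ).locallyIntegrable

theorem WDon.smooth_mul {U : Set V} {d : V} {u v η : V → ℝ}
    (hu : LocallyIntegrableOn u U (volume : Measure V))
    (hv : LocallyIntegrableOn v U (volume : Measure V))
    (h : WDon U d u v) (hη : TO U η) :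
    WD d (fun x => η x * u x) (fun x => dd d η x * u x + η x * v x) := by
  intro φ hφ
  have hφη : TO U (fun x => η x * φ x) := by
    have := hη.mul hφ.1
    refine ⟨hφ.smooth_mul hη.1.1, ?_⟩
    exact (tsupport_mul_subset_left).trans hη.2
  have h1 := h _ hφη
  have e1 : ∀ x, u x * dd d (fun x => η x * φ x) x =
      dd d η x * u x * φ x + η x * u x * dd d φ x := by
    intro x
    rw [dd_mul d (hη.1.1.differentiable (by simp)) (hφ.1.differentiable (by simp))]
    ring
  have hd : Integrable (fun x => dd d η x * u x * φ x) (volume : Measure V) := by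
    refine (integrable_test_mul hu (φ := fun x => φ x * dd d η x) ((hη.dd d).mul hφ.1)).congr
      (Eventually.of_forall fun x => ?_)
    simp only; ring
  have he : Integrable (fun x => η x * u x * dd d φ x) (volume : Measure V) := by
    refine (integrable_test_mul hu (φ := fun x => dd d φ x * η x)
      (hη.mul (contDiff_dd hφ.1 d))).congr
      (Eventually.of_forall fun x => ?_)
    simp only; ring
  have hf : Integrable (fun x => η x * v x * φ x) (volume : Measure V) := by
    refine (integrable_test_mul hv (φ := fun x => φ x * η x)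
      (hη.mul hφ.1)).congr
      (Eventually.of_forall fun x => ?_)
    simp only; ring
  simp only [e1] at h1
  rw [integral_add hd he] at h1
  have e2 : ∀ x, (dd d η x * u x + η x * v x) * φ x =
      dd d η x * u x * φ x + η x * v x * φ x := fun x => by ring
  have e3 : ∫ x, v x * (η x * φ x) = ∫ x, η x * v x * φ x := by
    congr 1; ext x; ring
  simp only [e2]
  rw [integral_add hd hf]
  rw [e3] at h1
  linarith

theorem WDon.mono {U W : Set V} {d : V} {u v : V → ℝ} (h : WDon U d u v) (hW : W ⊆ U) :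
    WDon W d u v := fun φ hφ => h φ ⟨hφ.1, hφ.2.trans hW⟩

end Crest.Agent.R249.SReg352
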