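import Crest.Agent.R249.SReg1_352

/-!
Row 249, leaf C-REG (helper352), part 2: the bootstrapping for systems with scalar principal part.
-/

set_option autoImplicit false
set_option linter.unusedSectionVars false
open MeasureTheory Filter Topology Set
open scoped ENNReal NNReal ContDiff RealInnerProductSpace

namespace Crest.Agent.R249.SReg352
open Crest.Agent.R249.EV

variable {V : Type*} [NormedAddCommGroup V] [InnerProductSpace ℝ V] [FiniteDimensional ℝ V]
variable [MeasurableSpace V] [BorelSpace V]
variable {ι κ : Type*} [Fintype ι] [Fintype κ]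

/-- `H^{k+1}_loc` regularity for weak solutions on `U` of
`- Σ_i d_i (Σ_j a_ij u'_{jα}) = Σ_{i,β} B^i_{αβ} u'_{iβ} + Σ_β C_{αβ} u_β + f_α`. -/
theorem sys_loc_reg {U : Set V} (hU : IsOpen U) {e : ι → V} {a : ι → ι → V → ℝ}
    (ha : ∀ i j, ContDiffOn ℝ ∞ (a i j) U)
    (hpos : ∀ x ∈ U, ∀ ξ : ι → ℝ, ξ ≠ 0 → 0 < ∑ i, ∑ j, a i j x * ξ j * ξ i)
    {B : ι → κ → κ → V → ℝ} (hB : ∀ i α β, ContDiffOn ℝ ∞ (B i α β) U)
    {C : κ → κ → V → ℝ} (hC : ∀ α β, ContDiffOn ℝ ∞ (C α β) U)
    {f : κ → V → ℝ} (hf : ∀ α, ContDiffOn ℝ ∞ (f α) U)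
    {u : κ → V → ℝ} {u' : ι → κ → V → ℝ} (hu : ∀ α, L2on U (u α)) (hu' : ∀ i α, L2on U (u' i α))
    (hW : ∀ i α, WDon U (e i) (u α) (u' i α))
    (heq : ∀ α, ∀ φ : V → ℝ, TO U φ →
      ∑ i, ∫ x, (∑ j, a i j x * u' j α x) * dd (e i) φ x =
        ∫ x, ((∑ i, ∑ β, B i α β x * u' i β x) + (∑ β, C α β x * u β x) + f α x) * φ x) (k : ℕ) :
    ∀ η : V → ℝ, TO U η → ∀ α, Sob e (k + 1) (fun x => η x * u α x) := by
  classical
  have hW' : ∀ η : V → ℝ, TO U η → ∀ i α, WD (e i) (fun x => η x * u α x)
      (fun x => dd (e i) η x * u α x + η x * u' i α x) := fun η hη i α =>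
    WDon.smooth_mul (hu α).1 (hu' i α).1 (hW i α) hη
  induction k with
  | zero =>
    intro η hη α
    refine ⟨(hu α).test_mul hη, fun i => ⟨_, hW' η hη i α, ?_⟩⟩
    exact ((hu α).test_mul (hη.dd (e i))).add ((hu' i α).test_mul hη)
  | succ k ih =>
    intro η hη α
    have hder : ∀ (θ : V → ℝ), TO U θ → ∀ j β, Sob e k (fun x => θ x * u' j β x) := by
      intro θ hθ j β
      have h1 := ih θ hθ β
      have h2 := hW' θ hθ j β
      have h3 := h1.deriv h2 ((locInt_of_test (hu β).1 (hθ.dd (e j))).add
        (locInt_of_test (hu' j β).1 hθ))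
      have h4 := (ih _ (hθ.dd (e j)) β).pred
      refine (h3.sub h4).congr (Eventually.of_forall fun x => ?_)
      simp only; ring
    obtain ⟨b, lam, hb, hba⟩ := exists_coef_on hU hη.1.2.isCompact hη.2 ha hpos
    set w' : ι → V → ℝ := fun j x => dd (e j) η x * u α x + η x * u' j α x with hw'
    set F : V → ℝ := fun x => ((∑ i, ∑ β, B i α β x * η x * u' i β x) +
        (∑ β, C α β x * η x * u β x) + f α x * η x) -
        (∑ i, ∑ j, a i j x * dd (e i) η x * u' j α x) -
      ∑ i, ∑ j, (dd (e i) (fun x => a i j x * dd (e j) η x) x * u α x +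
        a i j x * dd (e j) η x * u' i α x) with hF
    have hT1 : ∀ i j k, TO U (fun x => a i j x * dd (e k) η x) := fun i j k =>
      (hη.dd (e k)).mul_on hU (ha i j)
    have hTB : ∀ i β, TO U (fun x => B i α β x * η x) := fun i β => hη.mul_on hU (hB i α β)
    have hTC : ∀ β, TO U (fun x => C α β x * η x) := fun β => hη.mul_on hU (hC α β)
    have hFS : Sob e k F := by
      refine Sob.sub (Sob.sub (Sob.add (Sob.add ?_ ?_) ?_) ?_) ?_
      · apply Sob.sum; intro i _
        apply Sob.sum; intro β _
        exact hder _ (hTB i β) i β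
      · apply Sob.sum; intro β _
        exact (ih _ (hTC β) β).pred
      · exact Sob.of_test (hη.mul_on hU (hf α)).1 k
      · apply Sob.sum; intro i _
        apply Sob.sum; intro j _
        exact hder _ (hT1 i j i) j α
      · apply Sob.sum; intro i _
        apply Sob.sum; intro j _
        exact (ih _ ((hT1 i j j).dd (e i)) α).pred.add (hder _ (hT1 i j j) i α)
    have hsupp : ∀ x, x ∉ tsupport η → η x = 0 ∧ ∀ d, dd d η x = 0 := by
      intro x hx'
      refine ⟨image_eq_zero_of_notMem_tsupport hx', fun d => ?_⟩
      exact image_eq_zero_of_notMem_tsupport fun h => hx' (tsupport_dd_subset d η h)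
    refine reg_k (e := e) hb k (w := fun x => η x * u α x) (f := F) (w' := w')
      ((hu α).test_mul hη) hη.1.2.mul_right ?_ (fun j => hW' η hη j α) hFS ?_
    · intro j
      exact ((hu α).test_mul (hη.dd (e j))).add ((hu' j α).test_mul hη)
    · intro φ hφ
      have e0 : ∀ i, ∫ x, (∑ j, b i j x * w' j x) * dd (e i) φ x =
          ∫ x, (∑ j, a i j x * w' j x) * dd (e i) φ x := by
        intro i
        congr 1; ext x
        congr 1
        refine Finset.sum_congr rfl fun j _ => ?_
        by_cases hx : x ∈ tsupport η
        · rw [hba i j x hx]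
        · obtain ⟨h1, h2⟩ := hsupp x hx
          simp only [hw', h1, h2, zero_mul, add_zero, mul_zero]
      simp_rw [e0]
      -- integrability
      have hφm : ∀ {θ : V → ℝ}, TO U θ → TO U (fun x => φ x * θ x) := fun hθ => hθ.mul hφ.1
      have hφd : ∀ {θ : V → ℝ}, TO U θ → ∀ i, TO U (fun x => dd (e i) φ x * θ x) :=
        fun hθ i => hθ.mul (contDiff_dd hφ.1 (e i))
      have i1 : ∀ i j, Integrable (fun x => a i j x * dd (e j) η x * u α x * dd (e i) φ x)
          (volume : Measure V) := fun i j =>
        (integrable_test_mul (hu α).1 (hφd (hT1 i j j) i)).congr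
          (Eventually.of_forall fun x => by simp only; ring)
      have i2 : ∀ i j, Integrable (fun x => a i j x * (η x * u' j α x) * dd (e i) φ x)
          (volume : Measure V) := fun i j =>
        (integrable_test_mul (hu' j α).1 (hφd (hη.mul_on hU (ha i j)) i)).congr
          (Eventually.of_forall fun x => by simp only; ring)
      have i3 : ∀ i j, Integrable (fun x => (dd (e i) (fun x => a i j x * dd (e j) η x) x * u α x +
          a i j x * dd (e j) η x * u' i α x) * φ x) (volume : Measure V) := fun i j =>
        ((integrable_test_mul (hu α).1 (hφm ((hT1 i j j).dd (e i)))).add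
          (integrable_test_mul (hu' i α).1 (hφm (hT1 i j j)))).congr
          (Eventually.of_forall fun x => by simp only [Pi.add_apply]; ring)
      have i4 : ∀ i j, Integrable (fun x => a i j x * dd (e i) η x * u' j α x * φ x)
          (volume : Measure V) := fun i j =>
        (integrable_test_mul (hu' j α).1 (hφm (hT1 i j i))).congr
          (Eventually.of_forall fun x => by simp only; ring)
      have e1 : ∀ i j, ∫ x, a i j x * dd (e j) η x * u α x * dd (e i) φ x =
          - ∫ x, (dd (e i) (fun x => a i j x * dd (e j) η x) x * u α x +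
            a i j x * dd (e j) η x * u' i α x) * φ x := by
        intro i j
        exact (hW' _ (hT1 i j j) i α) _ hφ
      have e2 : ∀ i, ∫ x, (∑ j, a i j x * w' j x) * dd (e i) φ x =
          ∑ j, ((∫ x, a i j x * dd (e j) η x * u α x * dd (e i) φ x) +
            ∫ x, a i j x * (η x * u' j α x) * dd (e i) φ x) := by
        intro i
        have h1 : ∀ x, (∑ j, a i j x * w' j x) * dd (e i) φ x =
            ∑ j, (a i j x * dd (e j) η x * u α x * dd (e i) φ x +
              a i j x * (η x * u' j α x) * dd (e i) φ x) := by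
          intro x
          rw [Finset.sum_mul]
          refine Finset.sum_congr rfl fun j _ => ?_
          simp only [hw']; ring
        simp_rw [h1]
        rw [integral_finsetSum _ fun j _ => ?_]
        · refine Finset.sum_congr rfl fun j _ => ?_
          exact integral_add (i1 i j) (i2 i j)
        · exact (i1 i j).add (i2 i j)
      have e3 := heq α _ ((hη.mul hφ.1 : TO U (fun x => φ x * η x)))
      have e4 : ∀ i, ∫ x, (∑ j, a i j x * u' j α x) * dd (e i) (fun x => φ x * η x) x =
          ∑ j, ((∫ x, a i j x * dd (e i) η x * u' j α x * φ x) +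
            ∫ x, a i j x * (η x * u' j α x) * dd (e i) φ x) := by
        intro i
        have h1 : ∀ x, (∑ j, a i j x * u' j α x) * dd (e i) (fun x => φ x * η x) x =
            ∑ j, (a i j x * dd (e i) η x * u' j α x * φ x +
              a i j x * (η x * u' j α x) * dd (e i) φ x) := by
          intro x
          rw [dd_mul (e i) (hφ.1.differentiable (by simp)) (hη.1.1.differentiable (by simp)),
            Finset.sum_mul]
          refine Finset.sum_congr rfl fun j _ => ?_
          ring
        simp_rw [h1]
        rw [integral_finsetSum _ fun j _ => ?_]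
        · refine Finset.sum_congr rfl fun j _ => ?_
          exact integral_add (i4 i j) (i2 i j)
        · exact (i4 i j).add (i2 i j)
      simp_rw [e4] at e3
      simp_rw [e2, e1]
      have i5 : Integrable (fun x => ((∑ i, ∑ β, B i α β x * u' i β x) + (∑ β, C α β x * u β x)
          + f α x) * (φ x * η x)) (volume : Measure V) := by
        have j1 : ∀ i β, Integrable (fun x => φ x * (B i α β x * η x) * u' i β x)
            (volume : Measure V) := fun i β => integrable_test_mul (hu' i β).1 (hφm (hTB i β))
        have j2 : ∀ β, Integrable (fun x => φ x * (C α β x * η x) * u β x)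
            (volume : Measure V) := fun β => integrable_test_mul (hu β).1 (hφm (hTC β))
        have j3 : Integrable (fun x => φ x * (f α x * η x)) (volume : Measure V) :=
          (hφm (hη.mul_on hU (hf α))).1.integrable
        have j4 := ((integrable_finsetSum Finset.univ fun i _ =>
          integrable_finsetSum Finset.univ fun β _ => j1 i β).add
          (integrable_finsetSum Finset.univ fun β _ => j2 β)).add j3
        refine j4.congr (Eventually.of_forall fun x => ?_)
        simp only [Pi.add_apply, add_mul, Finset.sum_mul]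
        congr 1
        · congr 1
          · refine Finset.sum_congr rfl fun i _ => Finset.sum_congr rfl fun β _ => ?_
            ring
          · refine Finset.sum_congr rfl fun β _ => ?_
            ring
        · ring
      have i6 : Integrable (fun x => ∑ i, ∑ j, a i j x * dd (e i) η x * u' j α x * φ x)
          (volume : Measure V) :=
        integrable_finsetSum _ fun i _ => integrable_finsetSum _ fun j _ => i4 i j
      have i7 : Integrable (fun x => ∑ i, ∑ j,
          (dd (e i) (fun x => a i j x * dd (e j) η x) x * u α x +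
          a i j x * dd (e j) η x * u' i α x) * φ x) (volume : Measure V) :=
        integrable_finsetSum _ fun i _ => integrable_finsetSum _ fun j _ => i3 i j
      have i8 : Integrable (fun x => ((∑ i, ∑ β, B i α β x * u' i β x) + (∑ β, C α β x * u β x)
          + f α x) * (φ x * η x) -
          ∑ i, ∑ j, a i j x * dd (e i) η x * u' j α x * φ x) (volume : Measure V) := i5.sub i6
      have e5 : ∫ x, F x * φ x = (∫ x, ((∑ i, ∑ β, B i α β x * u' i β x) +
          (∑ β, C α β x * u β x) + f α x) * (φ x * η x)) -
          (∑ i, ∑ j, ∫ x, a i j x * dd (e i) η x * u' j α x * φ x) -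
          ∑ i, ∑ j, ∫ x, (dd (e i) (fun x => a i j x * dd (e j) η x) x * u α x +
            a i j x * dd (e j) η x * u' i α x) * φ x := by
        simp_rw [← fun i => integral_finsetSum (Finset.univ : Finset ι) fun j _ => i4 i j,
          ← fun i => integral_finsetSum (Finset.univ : Finset ι) fun j _ => i3 i j]
        rw [← integral_finsetSum _ fun i _ => integrable_finsetSum _ fun j _ => i4 i j,
          ← integral_finsetSum _ fun i _ => integrable_finsetSum _ fun j _ => i3 i j,
          ← integral_sub i5 i6, ← integral_sub i8 i7]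
        congr 1; ext x
        have q1 : (∑ i, ∑ β, B i α β x * η x * u' i β x) =
            (∑ i, ∑ β, B i α β x * u' i β x) * η x := by
          rw [Finset.sum_mul]
          refine Finset.sum_congr rfl fun i _ => ?_
          rw [Finset.sum_mul]
          exact Finset.sum_congr rfl fun β _ => by ring
        have q2 : (∑ β, C α β x * η x * u β x) = (∑ β, C α β x * u β x) * η x := by
          rw [Finset.sum_mul]
          exact Finset.sum_congr rfl fun β _ => by ring
        have q3 : (∑ i, ∑ j, a i j x * dd (e i) η x * u' j α x * φ x) =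
            (∑ i, ∑ j, a i j x * dd (e i) η x * u' j α x) * φ x := by
          simp only [Finset.sum_mul]
        have q4 : (∑ i, ∑ j, (dd (e i) (fun x => a i j x * dd (e j) η x) x * u α x +
            a i j x * dd (e j) η x * u' i α x) * φ x) =
            (∑ i, ∑ j, (dd (e i) (fun x => a i j x * dd (e j) η x) x * u α x +
            a i j x * dd (e j) η x * u' i α x)) * φ x := by
          simp only [Finset.sum_mul]
        rw [q3, q4]
        simp only [hF, q1, q2]
        ring
      rw [e5]
      simp only [Finset.sum_add_distrib, Finset.sum_neg_distrib] at e3 ⊢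
      linarith

/-- gluing: a function which near every point of the open set `U` is a.e. smooth is a.e. equal on
`U` to a function smooth on `U`. -/
theorem glue_smooth {U : Set V} (hU : IsOpen U) {u : V → ℝ}
    (h : ∀ c ∈ U, ∃ ρ : ℝ, 0 < ρ ∧ Metric.ball c ρ ⊆ U ∧ ∃ v : V → ℝ, ContDiff ℝ ∞ v ∧
      ∀ᵐ x ∂(volume : Measure V), x ∈ Metric.ball c ρ → v x = u x) :
    ∃ v : V → ℝ, ContDiffOn ℝ ∞ v U ∧ ∀ᵐ x ∂(volume : Measure V), x ∈ U → v x = u x := by
  choose! ρ hρ0 hρU W hW hWu using h
  have hcons : ∀ a ∈ U, ∀ b ∈ U, Set.EqOn (W a) (W b)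
      (Metric.ball a (ρ a) ∩ Metric.ball b (ρ b)) := by
    intro a ha b hb
    refine Measure.eqOn_open_of_ae_eq (μ := volume) ?_ (Metric.isOpen_ball.inter
      Metric.isOpen_ball) (hW a ha).continuous.continuousOn (hW b hb).continuous.continuousOn
    rw [EventuallyEq, ae_restrict_iff' (Metric.isOpen_ball.inter
      Metric.isOpen_ball).measurableSet]
    filter_upwards [hWu a ha, hWu b hb] with x h1 h2 hx
    rw [h1 hx.1, h2 hx.2]
  have hloc : ∀ c ∈ U, ∀ x ∈ Metric.ball c (ρ c), W x x = W c x := by
    intro c hc x hx
    have hxU := hρU c hc hx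
    exact hcons x hxU c hc ⟨Metric.mem_ball_self (hρ0 x hxU), hx⟩
  refine ⟨fun x => W x x, ?_, ?_⟩
  · intro c hc
    refine ContDiffAt.contDiffWithinAt ?_
    have he : (fun x => W x x) =ᶠ[nhds c] W c := by
      filter_upwards [Metric.ball_mem_nhds c (hρ0 c hc)] with x hx
      exact hloc c hc x hx
    exact (hW c hc).contDiffAt.congr_of_eventuallyEq he
  · rw [ae_iff]
    refine measure_null_of_locally_null _ fun c hc => ?_
    simp only [Classical.not_imp, Set.mem_ofPred_eq] at hc
    refine ⟨_, inter_mem_nhdsWithin _ (Metric.ball_mem_nhds c (hρ0 c hc.1)), ?_⟩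
    have h0 := hWu c hc.1
    rw [ae_iff] at h0
    refine measure_mono_null ?_ h0
    intro x hx
    simp only [Classical.not_imp, Set.mem_ofPred_eq, Set.mem_inter_iff] at hx ⊢
    refine ⟨hx.2, ?_⟩
    rw [← hloc c hc.1 x hx.2]
    exact hx.1.2

end Crest.Agent.R249.SReg352
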