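import Crest.Agent.R249.SReg2_352
import Crest.Prelude.Def_CoordMetric

/-!
Row 249, leaf C-REG (helper352), part 3: **elliptic regularity for systems with scalar principal
part** (`sys_reg`, general finite-dimensional `V` with an orthonormal basis; `sys_reg_euclid`, the
same for `EuclideanSpace ℝ (Fin n)` in terms of `pderiv`): weak solutions `u_α ∈ H¹_loc(U)` of
`- div (A ∇u_α) = Σ_{i,β} B^i_{αβ} ∂_i u_β + Σ_β C_{αβ} u_β + f_α`
with smooth coefficients on the open set `U` are smooth, their weak gradient is the classical one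
and the equation holds pointwise.
-/

set_option autoImplicit false
set_option linter.unusedSectionVars false
open MeasureTheory Filter Topology Set
open scoped ENNReal NNReal ContDiff RealInnerProductSpace

namespace Crest.Agent.R249.SReg352
open Crest.Agent.R249.EV Crest.GeometryTopology.CoordMetric

variable {V : Type*} [NormedAddCommGroup V] [InnerProductSpace ℝ V] [FiniteDimensional ℝ V]
variable [MeasurableSpace V] [BorelSpace V]
variable {ι κ : Type*} [Fintype ι] [Fintype κ]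

/-- integration by parts, `g` smooth on `U` only -/
theorem ibp_on {U : Set V} (hU : IsOpen U) {g φ : V → ℝ} (hg : ContDiffOn ℝ ∞ g U)
    (hφ : TO U φ) (d : V) : ∫ x, g x * dd d φ x = -∫ x, dd d g x * φ x := by
  obtain ⟨χ, hχ, -, -, hχ1⟩ := exists_cut hU hφ.1.2.isCompact hφ.2
  have hT := hχ.mul_on hU hg
  have h1 := WD.of_smooth (e := d) hT.1.1 φ hφ.1
  have e1 : ∀ x, g x * χ x * dd d φ x = g x * dd d φ x := by
    intro x
    by_cases hx : x ∈ tsupport φ
    · rw [hχ1.self_of_nhdsSet x hx, mul_one]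
    · have : dd d φ x = 0 :=
        image_eq_zero_of_notMem_tsupport fun h => hx (tsupport_dd_subset d φ h)
      rw [this, mul_zero, mul_zero]
  have e2 : ∀ x, dd d (fun x => g x * χ x) x * φ x = dd d g x * φ x := by
    intro x
    by_cases hx : x ∈ tsupport φ
    · have h2 : (fun x => g x * χ x) =ᶠ[nhds x] g := by
        have h3 : ∀ᶠ y in nhds x, χ y = 1 := (Filter.Eventually.filter_mono (nhds_le_nhdsSet hx) hχ1)
        filter_upwards [h3] with y hy
        rw [hy, mul_one]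
      unfold dd
      rw [h2.fderiv_eq]
    · rw [image_eq_zero_of_notMem_tsupport hx, mul_zero, mul_zero]
  simp only [e1, e2] at h1
  exact h1

theorem locInt_contOn {U : Set V} (hU : IsOpen U) {g : V → ℝ} (hg : ContinuousOn g U) :
    LocallyIntegrableOn g U (volume : Measure V) :=
  hg.locallyIntegrableOn hU.measurableSet

/-- the fundamental lemma on `U` -/
theorem ae_eq_of_pair {U : Set V} (hU : IsOpen U) {g h : V → ℝ}
    (hg : LocallyIntegrableOn g U (volume : Measure V))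
    (hh : LocallyIntegrableOn h U (volume : Measure V))
    (H : ∀ φ : V → ℝ, TO U φ → ∫ x, g x * φ x = ∫ x, h x * φ x) :
    ∀ᵐ x ∂(volume : Measure V), x ∈ U → g x = h x := by
  have key : ∀ᵐ x ∂(volume : Measure V), x ∈ U → g x - h x = 0 := by
    refine IsOpen.ae_eq_zero_of_integral_contDiff_smul_eq_zero hU (hg.sub hh) ?_
    intro φ hφ hφc hφs
    have hT : TO U φ := ⟨⟨hφ, hφc⟩, hφs⟩
    have e1 : ∫ x, φ x • (g x - h x) = ∫ x, (g x * φ x - h x * φ x) := by
      refine integral_congr_ae (Eventually.of_forall fun x => ?_)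
      simp only [smul_eq_mul]; ring
    rw [e1, integral_sub (integrable_mul_test hg hT) (integrable_mul_test hh hT), H φ hT,
      sub_self]
  filter_upwards [key] with x hx hxU
  exact sub_eq_zero.1 (hx hxU)

theorem eqOn_of_ae {U : Set V} (hU : IsOpen U) {g h : V → ℝ} (hg : ContinuousOn g U)
    (hh : ContinuousOn h U) (H : ∀ᵐ x ∂(volume : Measure V), x ∈ U → g x = h x) :
    ∀ x ∈ U, g x = h x := by
  refine Measure.eqOn_open_of_ae_eq (μ := volume) ?_ hU hg hh
  rw [EventuallyEq, ae_restrict_iff' hU.measurableSet]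
  exact H

/-- **Regularity for systems with scalar principal part.** -/
theorem sys_reg {U : Set V} (hU : IsOpen U) (e : OrthonormalBasis ι ℝ V) {a : ι → ι → V → ℝ}
    (ha : ∀ i j, ContDiffOn ℝ ∞ (a i j) U)
    (hpos : ∀ x ∈ U, ∀ ξ : ι → ℝ, ξ ≠ 0 → 0 < ∑ i, ∑ j, a i j x * ξ j * ξ i)
    {B : ι → κ → κ → V → ℝ} (hB : ∀ i α β, ContDiffOn ℝ ∞ (B i α β) U)
    {C : κ → κ → V → ℝ} (hC : ∀ α β, ContDiffOn ℝ ∞ (C α β) U)
    {f : κ → V → ℝ} (hf : ∀ α, ContDiffOn ℝ ∞ (f α) U)
    {u : κ → V → ℝ} {u' : ι → κ → V → ℝ} (hu : ∀ α, L2on U (u α)) (hu' : ∀ i α, L2on U (u' i α))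
    (hW : ∀ i α, WDon U (e i) (u α) (u' i α))
    (heq : ∀ α, ∀ φ : V → ℝ, TO U φ →
      ∑ i, ∫ x, (∑ j, a i j x * u' j α x) * dd (e i) φ x =
        ∫ x, ((∑ i, ∑ β, B i α β x * u' i β x) + (∑ β, C α β x * u β x) + f α x) * φ x) :
    ∃ v : κ → V → ℝ, (∀ α, ContDiffOn ℝ ∞ (v α) U) ∧
      (∀ α, ∀ᵐ x ∂(volume : Measure V), x ∈ U → v α x = u α x) ∧
      (∀ i α, ∀ᵐ x ∂(volume : Measure V), x ∈ U → dd (e i) (v α) x = u' i α x) ∧
      ∀ α, ∀ x ∈ U, - ∑ i, dd (e i) (fun y => ∑ j, a i j y * dd (e j) (v α) y) x =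
        (∑ i, ∑ β, B i α β x * dd (e i) (v β) x) + (∑ β, C α β x * v β x) + f α x := by
  classical
  have h1 : ∀ α, ∃ v : V → ℝ, ContDiffOn ℝ ∞ v U ∧
      ∀ᵐ x ∂(volume : Measure V), x ∈ U → v x = u α x := by
    intro α
    apply glue_smooth hU
    intro c hc
    obtain ⟨r, hr, hrU⟩ := Metric.isOpen_iff.1 hU c hc
    have hcb : Metric.closedBall c (r / 2) ⊆ U :=
      (Metric.closedBall_subset_ball (by linarith)).trans hrU
    obtain ⟨η, hη, -, -, hη1⟩ := exists_cut hU (isCompact_closedBall c (r / 2)) hcb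
    have hS : ∀ k, Sob e k (fun x => η x * u α x) := fun k =>
      (sys_loc_reg hU ha hpos hB hC hf hu hu' hW heq k η hη α).pred
    obtain ⟨v, hv, hvu⟩ := smooth_of_sob e (w := fun x => η x * u α x) hη.1.2.mul_right hS
    refine ⟨r / 2, by linarith, Metric.ball_subset_closedBall.trans hcb, v, hv, ?_⟩
    filter_upwards [hvu] with x hx hxb
    rw [← hx]
    show η x * u α x = u α x
    rw [hη1.self_of_nhdsSet x (Metric.ball_subset_closedBall hxb), one_mul]
  choose v hv hvu using h1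
  have h2 : ∀ i α, ∀ᵐ x ∂(volume : Measure V), x ∈ U → dd (e i) (v α) x = u' i α x := by
    intro i α
    refine ae_eq_of_pair hU (locInt_contOn hU (contDiffOn_dd hU (hv α) _).continuousOn)
      (hu' i α).1 fun φ hφ => ?_
    have q1 := ibp_on hU (hv α) hφ (e i)
    have q2 := hW i α φ hφ
    have q3 : ∫ x, v α x * dd (e i) φ x = ∫ x, u α x * dd (e i) φ x := by
      refine integral_congr_ae ?_
      filter_upwards [hvu α] with x hx
      by_cases hxU : x ∈ U
      · rw [hx hxU]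
      · rw [(hφ.dd (e i)).zero_off hxU, mul_zero, mul_zero]
    linarith
  refine ⟨v, hv, hvu, h2, fun α => ?_⟩
  -- pointwise equation
  have hG : ∀ i, ContDiffOn ℝ ∞ (fun y => ∑ j, a i j y * dd (e j) (v α) y) U := fun i =>
    ContDiffOn.sum fun j _ => (ha i j).mul (contDiffOn_dd hU (hv α) _)
  have hR : ContDiffOn ℝ ∞ (fun x => (∑ i, ∑ β, B i α β x * dd (e i) (v β) x) +
      (∑ β, C α β x * v β x) + f α x) U :=
    ((ContDiffOn.sum fun i _ => ContDiffOn.sum fun β _ =>
      (hB i α β).mul (contDiffOn_dd hU (hv β) _)).add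
      (ContDiffOn.sum fun β _ => (hC α β).mul (hv β))).add (hf α)
  have hL : ContDiffOn ℝ ∞
      (fun x => - ∑ i, dd (e i) (fun y => ∑ j, a i j y * dd (e j) (v α) y) x) U :=
    (ContDiffOn.sum fun i _ => contDiffOn_dd hU (hG i) _).neg
  refine eqOn_of_ae hU hL.continuousOn hR.continuousOn ?_
  refine ae_eq_of_pair hU (locInt_contOn hU hL.continuousOn) (locInt_contOn hU hR.continuousOn)
    fun φ hφ => ?_
  have q := heq α φ hφ
  have q1 : ∀ i, ∫ x, (∑ j, a i j x * u' j α x) * dd (e i) φ x =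
      - ∫ x, dd (e i) (fun y => ∑ j, a i j y * dd (e j) (v α) y) x * φ x := by
    intro i
    rw [← ibp_on hU (hG i) hφ (e i)]
    refine integral_congr_ae ?_
    have : ∀ᵐ x ∂(volume : Measure V), ∀ j, x ∈ U → dd (e j) (v α) x = u' j α x :=
      ae_all_iff.2 fun j => h2 j α
    filter_upwards [this] with x hx
    by_cases hxU : x ∈ U
    · congr 1
      exact Finset.sum_congr rfl fun j _ => by rw [hx j hxU]
    · rw [(hφ.dd (e i)).zero_off hxU, mul_zero, mul_zero]
  have q2 : ∫ x, ((∑ i, ∑ β, B i α β x * u' i β x) + (∑ β, C α β x * u β x) + f α x) * φ x =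
      ∫ x, ((∑ i, ∑ β, B i α β x * dd (e i) (v β) x) + (∑ β, C α β x * v β x) + f α x) * φ x := by
    refine integral_congr_ae ?_
    have t1 : ∀ᵐ x ∂(volume : Measure V), ∀ i β, x ∈ U → dd (e i) (v β) x = u' i β x :=
      ae_all_iff.2 fun i => ae_all_iff.2 fun β => h2 i β
    have t2 : ∀ᵐ x ∂(volume : Measure V), ∀ β, x ∈ U → v β x = u β x :=
      ae_all_iff.2 fun β => hvu β
    filter_upwards [t1, t2] with x hx1 hx2
    by_cases hxU : x ∈ U
    · congr 1
      congr 1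
      congr 1
      · exact Finset.sum_congr rfl fun i _ => Finset.sum_congr rfl fun β _ => by
          rw [hx1 i β hxU]
      · exact Finset.sum_congr rfl fun β _ => by rw [hx2 β hxU]
    · rw [hφ.zero_off hxU, mul_zero, mul_zero]
  rw [q2] at q
  simp only [q1] at q
  rw [← q, Finset.sum_neg_distrib, ← integral_finsetSum]
  · rw [← integral_neg]
    congr 1; ext x
    rw [← Finset.sum_mul]; ring
  · intro i _
    exact integrable_mul_test (locInt_contOn hU (contDiffOn_dd hU (hG i) _).continuousOn) hφ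

/-- **Regularity for systems with scalar principal part**, coordinates. -/
theorem sys_reg_euclid {n : ℕ} {U : Set (EuclideanSpace ℝ (Fin n))} (hU : IsOpen U)
    {A : EuclideanSpace ℝ (Fin n) → Matrix (Fin n) (Fin n) ℝ}
    (hA : ∀ i j, ContDiffOn ℝ ∞ (fun x => A x i j) U) (hpos : ∀ x ∈ U, (A x).PosDef)
    {B : Fin n → κ → κ → EuclideanSpace ℝ (Fin n) → ℝ}
    (hB : ∀ i α β, ContDiffOn ℝ ∞ (B i α β) U)
    {C : κ → κ → EuclideanSpace ℝ (Fin n) → ℝ} (hC : ∀ α β, ContDiffOn ℝ ∞ (C α β) U)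
    {f : κ → EuclideanSpace ℝ (Fin n) → ℝ} (hf : ∀ α, ContDiffOn ℝ ∞ (f α) U)
    {u : κ → EuclideanSpace ℝ (Fin n) → ℝ} {u' : Fin n → κ → EuclideanSpace ℝ (Fin n) → ℝ}
    (hu : ∀ α, L2on U (u α)) (hu' : ∀ i α, L2on U (u' i α))
    (hW : ∀ i α, ∀ φ : EuclideanSpace ℝ (Fin n) → ℝ, ContDiff ℝ ∞ φ → HasCompactSupport φ →
      tsupport φ ⊆ U → ∫ x, u α x * pderiv i φ x = - ∫ x, u' i α x * φ x)
    (heq : ∀ α, ∀ φ : EuclideanSpace ℝ (Fin n) → ℝ, ContDiff ℝ ∞ φ → HasCompactSupport φ →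
      tsupport φ ⊆ U → ∑ i, ∫ x, (∑ j, A x i j * u' j α x) * pderiv i φ x =
        ∫ x, ((∑ i, ∑ β, B i α β x * u' i β x) + (∑ β, C α β x * u β x) + f α x) * φ x) :
    ∃ v : κ → EuclideanSpace ℝ (Fin n) → ℝ, (∀ α, ContDiffOn ℝ ∞ (v α) U) ∧
      (∀ α, ∀ᵐ x, x ∈ U → v α x = u α x) ∧
      (∀ i α, ∀ᵐ x, x ∈ U → pderiv i (v α) x = u' i α x) ∧
      ∀ α, ∀ x ∈ U, - ∑ i, pderiv i (fun y => ∑ j, A y i j * pderiv j (v α) y) x =
        (∑ i, ∑ β, B i α β x * pderiv i (v β) x) + (∑ β, C α β x * v β x) + f α x := by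
  have hb : ∀ i, (EuclideanSpace.basisFun (Fin n) ℝ) i = EuclideanSpace.single i 1 := fun i => by
    simp
  have hdd : ∀ (i : Fin n) (φ : EuclideanSpace ℝ (Fin n) → ℝ),
      dd ((EuclideanSpace.basisFun (Fin n) ℝ) i) φ = pderiv i φ := by
    intro i φ
    funext x
    rw [hb i]
    rfl
  have key := sys_reg (κ := κ) hU (EuclideanSpace.basisFun (Fin n) ℝ)
    (a := fun i j x => A x i j) hA (fun x hx ξ hξ => ?_) hB hC hf hu hu'
    (fun i α φ hφ => ?_) (fun α φ hφ => ?_)
  · simp only [hdd] at key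
    exact key
  · have h1 := (hpos x hx).dotProduct_mulVec_pos hξ
    simp only [star_trivial, dotProduct, Matrix.mulVec] at h1
    refine lt_of_lt_of_eq h1 (Finset.sum_congr rfl fun i _ => ?_)
    rw [Finset.mul_sum]
    exact Finset.sum_congr rfl fun j _ => by ring
  · rw [hdd]
    exact hW i α φ hφ.1.1 hφ.1.2 hφ.2
  · simp only [hdd]
    exact heq α φ hφ.1.1 hφ.1.2 hφ.2

end Crest.Agent.R249.SReg352
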