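import Crest.Agent.R249.D1Def_104
import Crest.Agent.R247.Bo7_84

/-!
# R249, leaf D3-START (helper397): functions on the rescaled manifold

`Sc r M` is `M` with all distances divided by `r` (R247.Scal386).

* `mGam_sc`, `mLap_sc`, `mHessSq_sc` : `mGam`, `mLap`, `mHessSq` on `Sc r M`;
* `integral_sc`, `setIntegral_sc` : integrals over the rescaled manifold;
* `contMDiff_sc` : smooth functions.
-/

set_option autoImplicit false
set_option maxSynthPendingDepth 3
noncomputable section
open Set Filter Topology Bundle MeasureTheory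
open scoped ContDiff Manifold ENNReal NNReal
open Crest.GeometryTopology.CoordMetric Crest.GeometryTopology.ChartCurvature
  Crest.GeometryTopology.PointedLimit
open Crest.Agent.R247.Scal386 Crest.Agent.R247.Bo84 Crest.Agent.R202.Tens
open Crest.Agent.R249.D1Def104

namespace Crest.Agent.R249.ScF_397

section coord
variable {n : ℕ} {c : ℝ}

theorem inverseField_smul (hc : c ≠ 0) (g : MetricField n) (x : EuclideanSpace ℝ (Fin n))
    (i j : Fin n) : inverseField (fun y => c • g y) x i j = c⁻¹ * inverseField g x i j := by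
  unfold inverseField
  rw [matrix_inv_smul hc]
  rfl

theorem gam_smul (hc : c ≠ 0) (g : MetricField n) (f h : EuclideanSpace ℝ (Fin n) → ℝ)
    (x : EuclideanSpace ℝ (Fin n)) : gam (fun y => c • g y) f h x = c⁻¹ * gam g f h x := by
  unfold gam
  simp only [inverseField_smul hc, Finset.mul_sum]
  refine Finset.sum_congr rfl fun i _ => Finset.sum_congr rfl fun j _ => ?_
  ring

theorem grad_smul (hc : c ≠ 0) (g : MetricField n) (f : EuclideanSpace ℝ (Fin n) → ℝ)
    (x : EuclideanSpace ℝ (Fin n)) : grad (fun y => c • g y) f x = c⁻¹ • grad g f x := by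
  ext i
  rw [grad_apply]
  simp only [inverseField_smul hc, PiLp.smul_apply, grad_apply, smul_eq_mul, Finset.mul_sum]
  refine Finset.sum_congr rfl fun j _ => ?_
  ring

theorem Gam_smul (hc : c ≠ 0) (g : MetricField n) (x : EuclideanSpace ℝ (Fin n)) :
    Gam (fun y => c • g y) x = Gam g x := by
  unfold Gam
  simp only [christoffel_smul hc]

theorem hessE_smul (hc : c ≠ 0) (g : MetricField n) (f : EuclideanSpace ℝ (Fin n) → ℝ)
    (x : EuclideanSpace ℝ (Fin n)) : hessE (fun y => c • g y) f x = c⁻¹ • hessE g f x := by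
  have h1 : grad (fun y => c • g y) f = c⁻¹ • grad g f := by
    funext y
    exact grad_smul hc g f y
  refine ContinuousLinearMap.ext fun X => ?_
  rw [hessE_apply, Gam_smul hc, h1, fderiv_const_smul_field, ContinuousLinearMap.smul_apply,
    hessE_apply, smul_add]
  congr 1
  rw [Pi.smul_apply, map_smul]

theorem hessSq_smul (hc : c ≠ 0) (g : MetricField n) (f : EuclideanSpace ℝ (Fin n) → ℝ)
    (x : EuclideanSpace ℝ (Fin n)) :
    hessSq (fun y => c • g y) f x = c⁻¹ ^ 2 * hessSq g f x := by
  unfold hessSq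
  rw [hessE_smul hc, ContinuousLinearMap.smul_comp, ContinuousLinearMap.comp_smul, map_smul,
    map_smul, smul_smul, smul_eq_mul, sq]

theorem laplace_smul (hc : 0 < c) (g : MetricField n) (f : EuclideanSpace ℝ (Fin n) → ℝ)
    (x : EuclideanSpace ℝ (Fin n)) :
    laplaceBeltrami (fun y => c • g y) f x = c⁻¹ * laplaceBeltrami g f x := by
  unfold laplaceBeltrami
  have hd : ∀ y : EuclideanSpace ℝ (Fin n), Real.sqrt (c • g y).det =
      Real.sqrt (c ^ n) * Real.sqrt (g y).det := by
    intro y
    rw [Matrix.det_smul, Fintype.card_fin, Real.sqrt_mul (by positivity)]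
  have h0 : Real.sqrt (c ^ n) ≠ 0 := by positivity
  have h1 : ∀ i, pderiv i (fun y => Real.sqrt (c • g y).det *
      ∑ j, inverseField (fun y => c • g y) y i j * pderiv j f y) x =
      (Real.sqrt (c ^ n) * c⁻¹) * pderiv i (fun y => Real.sqrt (g y).det *
      ∑ j, inverseField g y i j * pderiv j f y) x := by
    intro i
    rw [← pderiv_mul]
    congr 1
    funext y
    rw [hd]
    have : ∑ j, inverseField (fun y => c • g y) y i j * pderiv j f y =
        c⁻¹ * ∑ j, inverseField g y i j * pderiv j f y := by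
      rw [Finset.mul_sum]
      refine Finset.sum_congr rfl fun j _ => ?_
      rw [inverseField_smul hc.ne']
      ring
    rw [this]
    ring
  simp only [h1]
  rw [hd, ← Finset.mul_sum]
  field_simp

end coord

section mfd
variable {n : ℕ} {M : Type*} [MetricSpace M] (r : {r : ℝ // 0 < r})
  [ChartedSpace (EuclideanSpace ℝ (Fin n)) M]
  [RiemannianBundle (fun x : M => TangentSpace 𝓘(ℝ, EuclideanSpace ℝ (Fin n)) x)]

theorem mGam_sc (f h : Sc r M → ℝ) (x : Sc r M) :
    mGam n f h x = r.1 ^ 2 * mGam n (M := M) (fun y : M => f (toSc r y))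
      (fun y : M => h (toSc r y)) (ofSc r x) := by
  have hr := r.2
  have hc : (r.1 ^ 2)⁻¹ ≠ 0 := by positivity
  unfold mGam
  rw [chartMetric_sc', chartCentre_sc, gam_smul hc, inv_inv]
  rfl

theorem mLap_sc (f : Sc r M → ℝ) (x : Sc r M) :
    mLap n f x = r.1 ^ 2 * mLap n (M := M) (fun y : M => f (toSc r y)) (ofSc r x) := by
  have hr := r.2
  have hc : 0 < (r.1 ^ 2)⁻¹ := by positivity
  unfold mLap
  rw [chartMetric_sc', chartCentre_sc, laplace_smul hc, inv_inv]
  rfl

theorem mHessSq_sc (f : Sc r M → ℝ) (x : Sc r M) :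
    mHessSq n f x = (r.1 ^ 2) ^ 2 * mHessSq n (M := M) (fun y : M => f (toSc r y)) (ofSc r x) := by
  have hr := r.2
  have hc : (r.1 ^ 2)⁻¹ ≠ 0 := by positivity
  unfold mHessSq
  rw [chartMetric_sc', chartCentre_sc, hessSq_smul hc, inv_inv]
  rfl

omit [RiemannianBundle (fun x : M => TangentSpace 𝓘(ℝ, EuclideanSpace ℝ (Fin n)) x)] in
theorem contMDiff_sc {f : Sc r M → ℝ}
    (hf : ContMDiff 𝓘(ℝ, EuclideanSpace ℝ (Fin n)) 𝓘(ℝ, ℝ) ∞ f) :
    ContMDiff 𝓘(ℝ, EuclideanSpace ℝ (Fin n)) 𝓘(ℝ, ℝ) ∞ (fun y : M => f (toSc r y)) := hf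

theorem compactSupport_sc {f : Sc r M → ℝ} (hf : HasCompactSupport f) :
    HasCompactSupport (fun y : M => f (toSc r y)) := hf

omit [ChartedSpace (EuclideanSpace ℝ (Fin n)) M]
  [RiemannianBundle (fun x : M => TangentSpace 𝓘(ℝ, EuclideanSpace ℝ (Fin n)) x)]

variable [MeasurableSpace M] [BorelSpace M]

/-- integrals over the rescaled space. -/
theorem integral_sc (n : ℕ) (f : Sc r M → ℝ) :
    ∫ x, f x ∂(μHE[n] : Measure (Sc r M)) =
      (r.1⁻¹) ^ n * ∫ x, f (toSc r x) ∂(μHE[n] : Measure M) := by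
  have hr := r.2
  rw [muHE_sc_map, integral_smul_measure, ENNReal.toReal_ofReal (by positivity)]
  rfl

theorem toSc_preimage_ball (q : M) (s : ℝ) :
    (toSc r ⁻¹' Metric.ball (toSc r q) s : Set M) = Metric.ball q (r.1 * s) := by
  have hr := r.2
  ext x
  rw [mem_preimage, Metric.mem_ball, Metric.mem_ball, dist_toSc, inv_mul_lt_iff₀ hr]

/-- integrals over balls of the rescaled space. -/
theorem setIntegral_sc (n : ℕ) (f : Sc r M → ℝ) (q : M) (s : ℝ) :
    ∫ x in Metric.ball (toSc r q) s, f x ∂(μHE[n] : Measure (Sc r M)) =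
      (r.1⁻¹) ^ n * ∫ x in Metric.ball q (r.1 * s), f (toSc r x) ∂(μHE[n] : Measure M) := by
  rw [← integral_indicator Metric.isOpen_ball.measurableSet, integral_sc,
    ← integral_indicator Metric.isOpen_ball.measurableSet]
  congr 2
  funext x
  have e := toSc_preimage_ball r q s
  by_cases hx : x ∈ Metric.ball q (r.1 * s)
  · have hx' : toSc r x ∈ Metric.ball (toSc r q) s := by
      rw [← e] at hx
      exact hx
    rw [indicator_of_mem hx, indicator_of_mem hx']
  · have hx' : toSc r x ∉ Metric.ball (toSc r q) s := by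
      rw [← e] at hx
      exact hx
    rw [indicator_of_notMem hx, indicator_of_notMem hx']

end mfd

end Crest.Agent.R249.ScF_397
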