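import Crest.Agent.R249.Sch1_104
import Crest.Agent.R249.Vf2_281
import Crest.Agent.R247.Bs2_84

/-!
# R249, D1 (helper104): the integrated contracted Bianchi identity

For `f` smooth with compact support,
`∫ ⟪Ric, Hess f⟫ = (1/2) ∫ s Δf` (`int_ric_hess`), from `divg_key` and the divergence theorem
`Vf281.integral_mDiv_eq_zero`.
-/

set_option autoImplicit false
set_option maxSynthPendingDepth 3
set_option linter.unusedSectionVars false

open scoped ContDiff Topology Manifold RealInnerProductSpace ENNReal NNReal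
open Filter Set Bundle MeasureTheory Metric
open Crest.GeometryTopology.CoordMetric Crest.GeometryTopology.ChartCurvature
  Crest.GeometryTopology.PointedLimit Crest.GeometryTopology.RicciEnergy
open Crest.Agent.R202.Tens Crest.Agent.R247.Bo84 Crest.Agent.R247.Ms322
open Crest.Agent.R247.Hes124 (F S mv tr idm)
open Crest.Agent.R247.Bs84
open Crest.Agent.R249.Bia3_104 Crest.Agent.R249.Bia4_104 Crest.Agent.R249.D1Def104
open Crest.Agent.R249.Sch1_104
open Crest.Agent.R249.Vf281 (vCh VSm mDiv mDiv_chart vCh_mgrad integral_mDiv_eq_zero)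

noncomputable section

namespace Crest.Agent.R249.Sch2_104

variable {n : ℕ} {M : Type*} [MetricSpace M] [ChartedSpace (EuclideanSpace ℝ (Fin n)) M]
  [IsManifold (𝓡 n) ∞ M]
  [RiemannianBundle (fun p : M => TangentSpace (𝓡 n) p)]
  [IsContMDiffRiemannianBundle (𝓡 n) ∞ (EuclideanSpace ℝ (Fin n))
    (fun p : M => TangentSpace (𝓡 n) p)]
  [SecondCountableTopology M] [Nonempty M]

local notation "𝔼" => EuclideanSpace ℝ (Fin n)

/-- the field `Ric(∇f) - (s/2) ∇f`. -/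
def XF (f : M → ℝ) (z : M) : TangentSpace (𝓡 n) z :=
  (∑ a, (∑ b, Ricf (n := n) z (a, b) * inner ℝ (fr z b) (mgrad n f z)) • fr z a) -
    ((1/2) * mScal n M z) • mgrad n f z

lemma ricE_frame {g : MetricField n} {U : Set 𝔼} {x : 𝔼} (hg : IsRiemannianOn g U) (hx : x ∈ U)
    {ξ : Fin n → 𝔼} (h : IsFrame (g x) ξ) (Y : 𝔼) :
    ricE g x Y = ∑ a, (∑ b, ricF g x (ξ a) (ξ b) * bil (g x) (ξ b) Y) • ξ a := by
  conv_lhs => rw [h.expand hg hx (ricE g x Y)]
  refine Finset.sum_congr rfl fun a _ => ?_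
  congr 1
  rw [bil_ricE hg hx, ricF_symm hg hx, ← bil_ricE hg hx]
  conv_lhs => rw [h.expand hg hx Y]
  rw [map_sum]
  refine Finset.sum_congr rfl fun b _ => ?_
  rw [map_smul, smul_eq_mul, bil_symm hg hx Y, bil_ricE hg hx]
  ring

lemma dCh_sum_fr (x₀ z : M) (c : Fin n → ℝ) :
    dCh x₀ z (∑ a, c a • fr z a) = ∑ a, c a • frc x₀ z a :=
  (map_sum (dCh x₀ z) (fun a => (c a • fr z a : TangentSpace (𝓡 n) z)) Finset.univ).trans
    (Finset.sum_congr rfl fun a _ => map_smul (dCh x₀ z) (c a) (fr z a))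

/-- the field in every chart -/
lemma vCh_XF (x₀ : M) {y : 𝔼} (hy : y ∈ (chartAt 𝔼 x₀).target) (f : M → ℝ) :
    vCh n x₀ (XF f) y = ricE (chartMetric n M x₀) y (grad (chartMetric n M x₀) (inCh n x₀ f) y)
      - ((1/2) * scalarCurv (chartMetric n M x₀) y) •
        grad (chartMetric n M x₀) (inCh n x₀ f) y := by
  have hz := (chartAt 𝔼 x₀).map_target hy
  have hgr : dCh x₀ ((chartAt 𝔼 x₀).symm y) (mgrad n f ((chartAt 𝔼 x₀).symm y)) =
      grad (chartMetric n M x₀) (inCh n x₀ f) y := vCh_mgrad hy f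
  have hin : ∀ b, inner ℝ (fr ((chartAt 𝔼 x₀).symm y) b) (mgrad n f ((chartAt 𝔼 x₀).symm y)) =
      bil (chartMetric n M x₀ y) (frc x₀ ((chartAt 𝔼 x₀).symm y) b)
        (grad (chartMetric n M x₀) (inCh n x₀ f) y) := by
    intro b
    have h1 := inner_eq_bil x₀ hz (fr ((chartAt 𝔼 x₀).symm y) b)
      (mgrad n f ((chartAt 𝔼 x₀).symm y))
    rw [(chartAt 𝔼 x₀).right_inv hy] at h1
    rw [← hgr]
    exact h1
  rw [ricE_frame (Crest.Agent.R247.Bo84.isRiemannianOn_chartMetric (n := n) x₀) hy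
    (isFrame_frc x₀ hy)]
  have h1 : vCh n x₀ (XF f) y = dCh x₀ ((chartAt 𝔼 x₀).symm y)
      (∑ a, (∑ b, Ricf (n := n) ((chartAt 𝔼 x₀).symm y) (a, b) *
        inner ℝ (fr ((chartAt 𝔼 x₀).symm y) b) (mgrad n f ((chartAt 𝔼 x₀).symm y))) •
          fr ((chartAt 𝔼 x₀).symm y) a) - ((1/2) * mScal n M ((chartAt 𝔼 x₀).symm y)) •
      dCh x₀ ((chartAt 𝔼 x₀).symm y) (mgrad n f ((chartAt 𝔼 x₀).symm y)) :=
    (map_sub (dCh x₀ ((chartAt 𝔼 x₀).symm y)) _ _).trans
      (congrArg₂ (· - ·) rfl (map_smul (dCh x₀ ((chartAt 𝔼 x₀).symm y)) _ _))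
  rw [h1, dCh_sum_fr, mScal_chart x₀ hy, hgr]
  congr 1
  refine Finset.sum_congr rfl fun a _ => ?_
  congr 1
  refine Finset.sum_congr rfl fun b _ => ?_
  rw [hin b, ricF_frc x₀ hy]

lemma eventually_vCh_XF (x₀ : M) {y : 𝔼} (hy : y ∈ (chartAt 𝔼 x₀).target) (f : M → ℝ) :
    vCh n x₀ (XF f) =ᶠ[𝓝 y] fun w =>
      ricE (chartMetric n M x₀) w (grad (chartMetric n M x₀) (inCh n x₀ f) w)
      - ((1/2) * scalarCurv (chartMetric n M x₀) w) •
        grad (chartMetric n M x₀) (inCh n x₀ f) w := by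
  filter_upwards [(chartAt 𝔼 x₀).open_target.mem_nhds hy] with w hw using vCh_XF x₀ hw f

lemma VSm_XF {f : M → ℝ} {p : M} (hf : ContMDiffAt (𝓡 n) 𝓘(ℝ, ℝ) ∞ f p) :
    VSm n 1 (XF f) p := by
  refine ContDiffAt.congr_of_eventuallyEq ?_ (eventually_vCh_XF p (centre_mem p) f)
  have hg := Crest.Agent.R247.Bo84.isRiemannianOn_chartMetric (n := n) p
  have hx := centre_mem (n := n) p
  have h1 : ContDiffAt ℝ 1 (grad (chartMetric n M p) (inCh n p f)) (chartCentre n M p) :=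
    contDiffAt_grad hg hx (contDiffAt_centre two_le_infty (hf.of_le two_le_infty))
      (by norm_num) (by simp)
  refine ContDiffAt.sub ?_ ?_
  · exact ((contDiffAt_ricE hg hx).of_le (by norm_num)).clm_apply h1
  · exact (contDiffAt_const.mul ((contDiffAt_scalarCurv hg hx).of_le (by norm_num))).smul h1

/-- `div (Ric ∇f - (s/2)∇f) = ⟪Ric, Hess f⟫ - (s/2) Δf`. -/
theorem mDiv_XF {f : M → ℝ} {p : M} (hf : ContMDiffAt (𝓡 n) 𝓘(ℝ, ℝ) ∞ f p) :
    mDiv n (XF f) p = ⟪Ricf (n := n) p, Hf (n := n) f p⟫ - (1/2) * mScal n M p * mLap n f p := by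
  have hg := Crest.Agent.R247.Bo84.isRiemannianOn_chartMetric (n := n) p
  have hx := centre_mem (n := n) p
  have hfc := contDiffAt_centre (n := n) two_le_infty (hf.of_le two_le_infty)
  have h2 : ContMDiffAt (𝓡 n) 𝓘(ℝ, ℝ) 2 f ((chartAt 𝔼 p).symm (chartCentre n M p)) := by
    rw [centre_symm]; exact hf.of_le two_le_infty
  rw [mDiv, divg_congr (eventually_vCh_XF p hx f), divg_key hg hx hfc, trL_chart p hx h2,
    centre_symm, mScal, mLap]

section integral

variable [IsRiemannianManifold (𝓡 n) M] [MeasurableSpace M] [BorelSpace M]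

theorem XF_zero_off {f : M → ℝ} {z : M} (hz : z ∉ tsupport f) : XF (n := n) f z = 0 := by
  have hev : f =ᶠ[𝓝 z] fun _ => 0 := Crest.Agent.R247.Bs84.eventually_zero hz
  have hg0 : mgrad n f z = 0 := by rw [mgrad_congr hev, mgrad_const]
  rw [XF, hg0]
  simp

/-- **the integrated contracted Bianchi identity** -/
theorem int_ric_hess {f : M → ℝ} (hf : f ∈ core n M) :
    Integrable (fun z => ⟪Ricf (n := n) z, Hf (n := n) f z⟫ - (1/2) * mScal n M z * mLap n f z)
      (μHE[n] : Measure M) ∧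
    ∫ z, (⟪Ricf (n := n) z, Hf (n := n) f z⟫ - (1/2) * mScal n M z * mLap n f z)
      ∂(μHE[n] : Measure M) = 0 := by
  have h1 := integral_mDiv_eq_zero (n := n) (X := XF (n := n) f) (K := tsupport f) (U := univ)
    isOpen_univ (fun z _ => VSm_XF (hf.1 z)) hf.2.isCompact (subset_univ _)
    (fun z hz => XF_zero_off hz)
  have e : mDiv n (XF (n := n) f) = fun z =>
      ⟪Ricf (n := n) z, Hf (n := n) f z⟫ - (1/2) * mScal n M z * mLap n f z :=
    funext fun z => mDiv_XF (hf.1 z)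
  rw [e] at h1
  exact h1

end integral

end Crest.Agent.R249.Sch2_104
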