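import Crest.Agent.R249.Sch2_104
import Crest.Agent.R249.Grn1_324

/-!
# R249, D1 (helper104): the almost Schur inequality (De Lellis--Topping), n = 4

`almost_schur` : for `M` closed with `Ric ≥ 0`, `f` smooth with `Δ f = s - m`, `∫ (s - m) = 0`,
`∫ (s - m)² ≤ 12 ∫ |Ric₀|²`.
-/

set_option autoImplicit false
set_option maxSynthPendingDepth 3
set_option linter.unusedSectionVars false

open scoped ContDiff Topology Manifold RealInnerProductSpace ENNReal NNReal
open Filter Set Bundle MeasureTheory Metric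
open Crest.GeometryTopology.CoordMetric Crest.GeometryTopology.ChartCurvature
  Crest.GeometryTopology.PointedLimit Crest.GeometryTopology.RicciEnergy
open Crest.Agent.R202.Tens Crest.Agent.R247.Bo84 Crest.Agent.R247.Ms322
open Crest.Agent.R247.Hes124 (F S mv tr idm)
open Crest.Agent.R247.Bs84
open Crest.Agent.R249.Bia3_104 Crest.Agent.R249.Bia4_104 Crest.Agent.R249.D1Def104
open Crest.Agent.R249.Sch1_104 Crest.Agent.R249.Sch2_104
open Crest.Agent.R249.Vf281 (vCh VSm mDiv mDiv_chart vCh_mgrad integral_mDiv_eq_zero)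

noncomputable section

namespace Crest.Agent.R249.Sch3_104

variable {n : ℕ} {M : Type*} [MetricSpace M] [ChartedSpace (EuclideanSpace ℝ (Fin n)) M]
  [IsManifold (𝓡 n) ∞ M]
  [RiemannianBundle (fun p : M => TangentSpace (𝓡 n) p)]
  [IsContMDiffRiemannianBundle (𝓡 n) ∞ (EuclideanSpace ℝ (Fin n))
    (fun p : M => TangentSpace (𝓡 n) p)]
  [SecondCountableTopology M] [Nonempty M]

local notation "𝔼" => EuclideanSpace ℝ (Fin n)

/-- pointwise: `⟪R - (s/n), H - (t/n)⟫ ≤ (3/2)|R - s/n|² + (1/6)|H - t/n|²`, in expanded form. -/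
lemma young_S (hn : n ≠ 0) (R H : S n) :
    ⟪R, H⟫ - tr R * tr H / n ≤ (3/2) * (‖R‖ ^ 2 - tr R ^ 2 / n) +
      (1/6) * (‖H‖ ^ 2 - tr H ^ 2 / n) := by
  have hn' : (n : ℝ) ≠ 0 := by exact_mod_cast hn
  have key : 0 ≤ ‖(3:ℝ) • (R - (tr R / n) • idm n) - (H - (tr H / n) • idm n)‖ ^ 2 := by positivity
  have e1 : ‖R - (tr R / n) • idm n‖ ^ 2 = ‖R‖ ^ 2 - tr R ^ 2 / n := by
    rw [norm_sub_sq_real, norm_smul, mul_pow, Crest.Agent.R247.Hes124.norm_idm_sq,
      inner_smul_right, Crest.Agent.R247.Hes124.inner_idm, Real.norm_eq_abs, sq_abs]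
    field_simp
    ring
  have e2 : ‖H - (tr H / n) • idm n‖ ^ 2 = ‖H‖ ^ 2 - tr H ^ 2 / n := by
    rw [norm_sub_sq_real, norm_smul, mul_pow, Crest.Agent.R247.Hes124.norm_idm_sq,
      inner_smul_right, Crest.Agent.R247.Hes124.inner_idm, Real.norm_eq_abs, sq_abs]
    field_simp
    ring
  have e3 : ⟪R - (tr R / n) • idm n, H - (tr H / n) • idm n⟫ = ⟪R, H⟫ - tr R * tr H / n := by
    rw [inner_sub_left, inner_sub_right, inner_sub_right, inner_smul_left, inner_smul_left,
      inner_smul_right, inner_smul_right, Crest.Agent.R247.Hes124.inner_idm,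
      real_inner_self_eq_norm_sq, Crest.Agent.R247.Hes124.norm_idm_sq,
      real_inner_comm H (idm n), Crest.Agent.R247.Hes124.inner_idm]
    simp only [conj_trivial]
    field_simp
    ring
  rw [norm_sub_sq_real, norm_smul, mul_pow, inner_smul_left, e1, e2, e3] at key
  simp only [conj_trivial, Real.norm_eq_abs, sq_abs] at key
  nlinarith [key]

lemma integral_comb {X : Type*} [MeasurableSpace X] {μ : Measure X} {a b c d : X → ℝ}
    (ia : Integrable a μ) (ib : Integrable b μ) (ic : Integrable c μ) (id : Integrable d μ)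
    (α β γ δ : ℝ) :
    Integrable (fun z => α * a z + (β * b z - γ * c z) - δ * d z) μ ∧
    ∫ z, (α * a z + (β * b z - γ * c z) - δ * d z) ∂μ =
      α * ∫ z, a z ∂μ + (β * ∫ z, b z ∂μ - γ * ∫ z, c z ∂μ) - δ * ∫ z, d z ∂μ := by
  have j1 : Integrable (fun z => β * b z - γ * c z) μ := (ib.const_mul β).sub (ic.const_mul γ)
  have j2 : Integrable (fun z => α * a z + (β * b z - γ * c z)) μ := (ia.const_mul α).add j1
  refine ⟨j2.sub (id.const_mul δ), ?_⟩
  rw [integral_sub j2 (id.const_mul δ), integral_add (ia.const_mul α) j1,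
    integral_sub (ib.const_mul β) (ic.const_mul γ), integral_const_mul, integral_const_mul,
    integral_const_mul, integral_const_mul]

section integral

variable [IsRiemannianManifold (𝓡 n) M] [CompactSpace M] [MeasurableSpace M] [BorelSpace M]

/-- the basic integrated inequality, for every smooth `f` on a closed manifold with `Ric ≥ 0`. -/
theorem schur_ineq (hn : n ≠ 0) (hR : HasRicciLowerBound n M 0) {f : M → ℝ}
    (hf : ContMDiff (𝓡 n) 𝓘(ℝ) ∞ f) :
    (1/2 - 1/n) * ∫ z, mScal n M z * mLap n f z ∂(μHE[n] : Measure M) ≤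
      (3/2) * ∫ z, tracefreeRicciDensity n M z ∂(μHE[n] : Measure M) +
      (1/6) * (1 - 1/n) * ∫ z, mLap n f z ^ 2 ∂(μHE[n] : Measure M) := by
  have hn' : (n : ℝ) ≠ 0 := by exact_mod_cast hn
  have hc : f ∈ core n M := ⟨hf, HasCompactSupport.of_compactSpace f⟩
  obtain ⟨i0, h0⟩ := int_ric_hess (n := n) hc
  have hf2 : ∀ z, ContMDiffAt (𝓡 n) 𝓘(ℝ, ℝ) 2 f z := fun z => (hf z).of_le two_le_infty
  have cL : Continuous (mLap n f) := (Grn324.contMDiff_mLap hf).continuous
  have cS : Continuous (mScal n M) := continuous_mScal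
  have iSL : Integrable (fun z => mScal n M z * mLap n f z) (μHE[n] : Measure M) :=
    Grn324.integrable_cont (cS.mul cL)
  have iD : Integrable (tracefreeRicciDensity n M) (μHE[n] : Measure M) :=
    Grn324.integrable_cont (continuous_density hn)
  have iL : Integrable (fun z => mLap n f z ^ 2) (μHE[n] : Measure M) :=
    Grn324.integrable_cont (cL.pow 2)
  have iH : Integrable (fun z => mHessSq n f z) (μHE[n] : Measure M) :=
    Grn324.integrable_cont (Grn324.continuous_mHessSq (hf.of_le two_le_infty))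
  have hB := Grn324.integral_mHessSq_le (n := n) hR hf
  rw [zero_mul, add_zero] at hB
  have hpt : ∀ z, (⟪Ricf (n := n) z, Hf (n := n) f z⟫ - (1/2) * mScal n M z * mLap n f z) ≤
      (3/2) * tracefreeRicciDensity n M z + ((1/6) * mHessSq n f z - (1/6) * (1/n) * mLap n f z ^ 2)
        - (1/2 - 1/n) * (mScal n M z * mLap n f z) := by
    intro z
    have h1 := young_S hn (Ricf (n := n) z) (Hf (n := n) f z)
    rw [tr_Ricf, tr_Hf (hf2 z), norm_Hf_sq (hf2 z), ← density_eq hn] at h1
    have e : mScal n M z * mLap n f z / n = (1/n) * (mScal n M z * mLap n f z) := by ring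
    have e' : mLap n f z ^ 2 / n = (1/n) * mLap n f z ^ 2 := by ring
    rw [e, e'] at h1
    linarith
  obtain ⟨j1, j2⟩ := integral_comb iD iH iL iSL (3/2) (1/6) ((1/6) * (1/n)) (1/2 - 1/n)
  have hint := integral_mono i0 j1 hpt
  rw [h0, j2] at hint
  nlinarith [hint, hB]

end integral

section four

variable {M : Type*} [MetricSpace M] [ChartedSpace (EuclideanSpace ℝ (Fin 4)) M]
  [IsManifold (𝓡 4) ∞ M]
  [RiemannianBundle (fun p : M => TangentSpace (𝓡 4) p)]
  [IsContMDiffRiemannianBundle (𝓡 4) ∞ (EuclideanSpace ℝ (Fin 4))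
    (fun p : M => TangentSpace (𝓡 4) p)]
  [IsRiemannianManifold (𝓡 4) M] [CompactSpace M] [MeasurableSpace M] [BorelSpace M]

/-- **almost Schur** (given the solution of the Poisson equation). -/
theorem almost_schur_of [Nonempty M] (hR : HasRicciLowerBound 4 M 0) {f : M → ℝ} {m : ℝ}
    (hf : ContMDiff (𝓡 4) 𝓘(ℝ) ∞ f) (hfe : ∀ z, mLap 4 f z = mScal 4 M z - m) :
    ∫ z, (mScal 4 M z - m) ^ 2 ∂(μHE[4] : Measure M) ≤
      12 * ∫ z, tracefreeRicciDensity 4 M z ∂(μHE[4] : Measure M) := by
  have h1 := schur_ineq (n := 4) (by norm_num) hR hf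
  have h2 := Grn324.integral_mLap (n := 4) (hf.of_le two_le_infty)
  have cS : Continuous (mScal 4 M) := continuous_mScal
  simp only [hfe] at h1 h2
  have iS2 : Integrable (fun z => (mScal 4 M z - m) ^ 2) (μHE[4] : Measure M) :=
    Grn324.integrable_cont ((cS.sub continuous_const).pow 2)
  have iS : Integrable (fun z => mScal 4 M z - m) (μHE[4] : Measure M) :=
    Grn324.integrable_cont (cS.sub continuous_const)
  have e : ∫ z, mScal 4 M z * (mScal 4 M z - m) ∂(μHE[4] : Measure M) =
      ∫ z, (mScal 4 M z - m) ^ 2 ∂(μHE[4] : Measure M) := by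
    have e1 : ∀ z, mScal 4 M z * (mScal 4 M z - m) =
        (mScal 4 M z - m) ^ 2 + m * (mScal 4 M z - m) := fun z => by ring
    simp only [e1]
    rw [integral_add iS2 (iS.const_mul m), integral_const_mul, h2]
    ring
  rw [e] at h1
  norm_num at h1
  linarith

end four

end Crest.Agent.R249.Sch3_104
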