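import Crest.Agent.R247.Bo6_84
import Crest.Agent.R247.Scal4_386
import Crest.Agent.R249.D1Def_104

/-!
# R249 (helper509), SCAL: rescaling of the calculus on `Sc r M` (1)

`Sc r M` has distance `r⁻¹ d` and metric `(r²)⁻¹ g`.  Hence
* `mGam_sc : mGam n (Sc r M) f h p = r ^ 2 * mGam n M f h p`;
* `mLap_sc : mLap n (Sc r M) f p = r ^ 2 * mLap n M f p`;
* `mHessSq_sc : mHessSq n (Sc r M) f p = r ^ 4 * mHessSq n M f p`;
* smoothness is unchanged (`Iff.rfl`).
-/

set_option autoImplicit false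
set_option maxSynthPendingDepth 3
set_option linter.unusedSectionVars false

noncomputable section
open Set Filter Topology Bundle MeasureTheory Manifold Metric
open scoped ContDiff ENNReal NNReal
open Crest.GeometryTopology.CoordMetric Crest.GeometryTopology.ChartCurvature
  Crest.GeometryTopology.PointedLimit
open Crest.Agent.R247.Bo84 Crest.Agent.R202.Tens Crest.Agent.R247.Scal386
open Crest.Agent.R249.D1Def104

namespace Crest.Agent.R249.Scl509

universe u

section coord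
variable {n : ℕ} {c : ℝ}

theorem gam_smul (hc : c ≠ 0) (g : MetricField n) (f h : EuclideanSpace ℝ (Fin n) → ℝ)
    (x : EuclideanSpace ℝ (Fin n)) :
    gam (fun y => c • g y) f h x = c⁻¹ * gam g f h x := by
  unfold gam
  simp only [inverseField_smul hc, Finset.mul_sum]
  refine Finset.sum_congr rfl fun _ _ => Finset.sum_congr rfl fun _ _ => ?_
  ring

theorem grad_smul (hc : c ≠ 0) (g : MetricField n) (f : EuclideanSpace ℝ (Fin n) → ℝ) :
    grad (fun y => c • g y) f = c⁻¹ • grad g f := by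
  funext x
  ext i
  rw [grad_apply, Pi.smul_apply, PiLp.smul_apply, grad_apply, smul_eq_mul, Finset.mul_sum]
  refine Finset.sum_congr rfl fun _ _ => ?_
  rw [inverseField_smul hc]
  ring

theorem Gam_smul (hc : c ≠ 0) (g : MetricField n) (x : EuclideanSpace ℝ (Fin n)) :
    Gam (fun y => c • g y) x = Gam g x := by
  unfold Gam
  simp only [christoffel_smul hc]

theorem hessE_smul (hc : c ≠ 0) (g : MetricField n) (f : EuclideanSpace ℝ (Fin n) → ℝ)
    (x : EuclideanSpace ℝ (Fin n)) :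
    hessE (fun y => c • g y) f x = c⁻¹ • hessE g f x := by
  unfold hessE cov
  rw [grad_smul hc, Gam_smul hc, fderiv_const_smul_field]
  have h1 : (Gam g x).flip ((c⁻¹ • grad g f) x) = c⁻¹ • (Gam g x).flip (grad g f x) :=
    map_smul (Gam g x).flip c⁻¹ (grad g f x)
  rw [h1, smul_add]
  rfl

theorem hessSq_smul (hc : c ≠ 0) (g : MetricField n) (f : EuclideanSpace ℝ (Fin n) → ℝ)
    (x : EuclideanSpace ℝ (Fin n)) :
    hessSq (fun y => c • g y) f x = (c ^ 2)⁻¹ * hessSq g f x := by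
  unfold hessSq
  rw [hessE_smul hc, ContinuousLinearMap.smul_comp, ContinuousLinearMap.comp_smul, map_smul,
    map_smul, smul_eq_mul, smul_eq_mul, ← mul_assoc, ← mul_inv, ← pow_two]

theorem hess_smul (hc : c ≠ 0) (g : MetricField n) (f : EuclideanSpace ℝ (Fin n) → ℝ)
    (x : EuclideanSpace ℝ (Fin n)) :
    hess (fun y => c • g y) f x = hess g f x := by
  unfold hess
  rw [Gam_smul hc]

theorem lap_smul (hc : 0 < c) (g : MetricField n) (f : EuclideanSpace ℝ (Fin n) → ℝ)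
    (x : EuclideanSpace ℝ (Fin n)) :
    laplaceBeltrami (fun y => c • g y) f x = c⁻¹ * laplaceBeltrami g f x := by
  unfold laplaceBeltrami
  have h1 : ∀ y, Real.sqrt (c • g y).det = Real.sqrt (c ^ n) * Real.sqrt (g y).det := by
    intro y
    rw [Matrix.det_smul, Real.sqrt_mul (by positivity), Fintype.card_fin]
  have h2 : ∀ i : Fin n, (fun y => Real.sqrt (c • g y).det *
      ∑ j, inverseField (fun y => c • g y) y i j * pderiv j f y) = fun y =>
      (Real.sqrt (c ^ n) * c⁻¹) * (Real.sqrt (g y).det *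
        ∑ j, inverseField g y i j * pderiv j f y) := by
    intro i
    funext y
    rw [h1 y]
    simp only [inverseField_smul hc.ne']
    rw [Finset.mul_sum, Finset.mul_sum, Finset.mul_sum]
    refine Finset.sum_congr rfl fun _ _ => ?_
    ring
  simp only [h2]
  simp only [pderiv_mul]
  rw [h1 x, ← Finset.mul_sum]
  have h3 : Real.sqrt (c ^ n) ≠ 0 := (Real.sqrt_pos.2 (by positivity)).ne'
  rw [one_div, mul_inv, one_div]
  field_simp

end coord

section mfd

variable {M : Type u} {n : ℕ} (r : {r : ℝ // 0 < r}) [MetricSpace M]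
  [ChartedSpace (EuclideanSpace ℝ (Fin n)) M]
  [IsManifold 𝓘(ℝ, EuclideanSpace ℝ (Fin n)) ∞ M]
  [RiemannianBundle (fun x : M => TangentSpace 𝓘(ℝ, EuclideanSpace ℝ (Fin n)) x)]
  [IsContMDiffRiemannianBundle 𝓘(ℝ, EuclideanSpace ℝ (Fin n)) ∞ (EuclideanSpace ℝ (Fin n))
      (fun x : M => TangentSpace 𝓘(ℝ, EuclideanSpace ℝ (Fin n)) x)]

theorem inCh_sc (x₀ : Sc r M) (f : Sc r M → ℝ) :
    inCh n x₀ f = inCh n (ofSc r x₀) (fun y : M => f (toSc r y)) := rfl

theorem mGam_sc (f h : Sc r M → ℝ) (p : Sc r M) :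
    mGam n f h p = r.1 ^ 2 * mGam n (fun y : M => f (toSc r y)) (fun y : M => h (toSc r y))
      (ofSc r p) := by
  have hr := r.2
  have hc : (r.1 ^ 2)⁻¹ ≠ 0 := by positivity
  unfold mGam
  rw [chartMetric_sc', chartCentre_sc, gam_smul hc, inv_inv]
  rfl

theorem mLap_sc (f : Sc r M → ℝ) (p : Sc r M) :
    mLap n f p = r.1 ^ 2 * mLap n (fun y : M => f (toSc r y)) (ofSc r p) := by
  have hr := r.2
  have hc : 0 < (r.1 ^ 2)⁻¹ := by positivity
  unfold mLap
  rw [chartMetric_sc', chartCentre_sc, lap_smul hc, inv_inv]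
  rfl

theorem mHessSq_sc (f : Sc r M → ℝ) (p : Sc r M) :
    mHessSq n f p = r.1 ^ 4 * mHessSq n (fun y : M => f (toSc r y)) (ofSc r p) := by
  have hr := r.2
  have hc : (r.1 ^ 2)⁻¹ ≠ 0 := by positivity
  unfold mHessSq
  rw [chartMetric_sc', chartCentre_sc, hessSq_smul hc, inv_pow, inv_inv]
  have : (r.1 ^ 2) ^ 2 = r.1 ^ 4 := by ring
  rw [this]
  rfl

theorem contMDiffAt_sc {k : WithTop ℕ∞} {f : Sc r M → ℝ} {p : Sc r M} :
    ContMDiffAt 𝓘(ℝ, EuclideanSpace ℝ (Fin n)) 𝓘(ℝ, ℝ) k f p ↔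
      ContMDiffAt 𝓘(ℝ, EuclideanSpace ℝ (Fin n)) 𝓘(ℝ, ℝ) k (fun y : M => f (toSc r y))
        (ofSc r p) := Iff.rfl

theorem contMDiffOn_sc {k : WithTop ℕ∞} {f : Sc r M → ℝ} {s : Set (Sc r M)} :
    ContMDiffOn 𝓘(ℝ, EuclideanSpace ℝ (Fin n)) 𝓘(ℝ, ℝ) k f s ↔
      ContMDiffOn 𝓘(ℝ, EuclideanSpace ℝ (Fin n)) 𝓘(ℝ, ℝ) k (fun y : M => f (toSc r y))
        (toSc r ⁻¹' s) := Iff.rfl

theorem contMDiff_sc {k : WithTop ℕ∞} {f : Sc r M → ℝ} :
    ContMDiff 𝓘(ℝ, EuclideanSpace ℝ (Fin n)) 𝓘(ℝ, ℝ) k f ↔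
      ContMDiff 𝓘(ℝ, EuclideanSpace ℝ (Fin n)) 𝓘(ℝ, ℝ) k (fun y : M => f (toSc r y)) := Iff.rfl

theorem ricciLB_sc_iff {K : ℝ} :
    HasRicciLowerBound n (Sc r M) (K * r.1 ^ 2) ↔ HasRicciLowerBound n M K := by
  have hr := r.2
  refine ⟨fun h => ?_, fun h => ricciLB_sc r h⟩
  intro x v
  have hc : (r.1 ^ 2)⁻¹ ≠ 0 := by positivity
  have h1 := h (toSc r x) v
  have h2 := chartMetric_sc (n := n) r x
  have h3 : chartCentre n (Sc r M) (toSc r x) = chartCentre n M x := rfl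
  rw [h2, h3, quadForm_smul] at h1
  simp only [ricci_smul hc] at h1
  have h5 : K * r.1 ^ 2 * ((r.1 ^ 2)⁻¹ *
      quadForm (chartMetric n M x) (chartCentre n M x) v)
      = K * quadForm (chartMetric n M x) (chartCentre n M x) v := by
    field_simp
  rw [h5] at h1
  exact h1

theorem ricciLB_sc_zero : HasRicciLowerBound n (Sc r M) 0 ↔ HasRicciLowerBound n M 0 := by
  have := ricciLB_sc_iff (n := n) (M := M) r (K := 0)
  rwa [zero_mul] at this

end mfd

section measure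
variable {M : Type u} (r : {r : ℝ // 0 < r}) [MetricSpace M]

theorem ball_sc' (x : Sc r M) (s : ℝ) :
    ball x s = (ofSc r ⁻¹' ball (ofSc r x) (r.1 * s) : Set (Sc r M)) := (ball_sc r (ofSc r x) s).symm

theorem mem_ball_sc {x y : Sc r M} {s : ℝ} : y ∈ ball x s ↔ ofSc r y ∈ ball (ofSc r x) (r.1 * s) := by
  rw [ball_sc']
  rfl

theorem mem_closedBall_sc {x y : Sc r M} {s : ℝ} :
    y ∈ closedBall x s ↔ ofSc r y ∈ closedBall (ofSc r x) (r.1 * s) := by
  have hr := r.2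
  rw [mem_closedBall, mem_closedBall, dist_sc, inv_mul_le_iff₀ hr]

theorem toSc_preimage_ball (x : Sc r M) (s : ℝ) :
    (toSc r ⁻¹' ball x s : Set M) = ball (ofSc r x) (r.1 * s) := by
  ext y
  exact mem_ball_sc r

theorem toSc_preimage_closedBall (x : Sc r M) (s : ℝ) :
    (toSc r ⁻¹' closedBall x s : Set M) = closedBall (ofSc r x) (r.1 * s) := by
  ext y
  exact mem_closedBall_sc r

variable [MeasurableSpace M] [BorelSpace M]

theorem muHE_ball_sc (n : ℕ) (x : Sc r M) (s : ℝ) :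
    (μHE[n] : Measure (Sc r M)) (ball x s) = ENNReal.ofReal ((r.1⁻¹) ^ n) *
      (μHE[n] : Measure M) (ball (ofSc r x) (r.1 * s)) := by
  rw [muHE_sc_eq, toSc_preimage_ball]

/-- Bochner integrals over the rescaled space -/
theorem integral_sc (n : ℕ) (f : Sc r M → ℝ) :
    ∫ x, f x ∂(μHE[n] : Measure (Sc r M)) =
      (r.1⁻¹) ^ n * ∫ x, f (toSc r x) ∂(μHE[n] : Measure M) := by
  have hr := r.2
  rw [muHE_sc_map, integral_smul_measure, ENNReal.toReal_ofReal (by positivity), smul_eq_mul]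
  rfl

theorem setIntegral_sc (n : ℕ) (f : Sc r M → ℝ) {s : Set (Sc r M)} :
    ∫ x in s, f x ∂(μHE[n] : Measure (Sc r M)) =
      (r.1⁻¹) ^ n * ∫ x in (toSc r ⁻¹' s : Set M), f (toSc r x) ∂(μHE[n] : Measure M) := by
  have hr := r.2
  rw [muHE_sc_map, Measure.restrict_smul, integral_smul_measure,
    ENNReal.toReal_ofReal (by positivity), smul_eq_mul]
  rfl

/-- integrals over balls -/
theorem ballIntegral_sc (n : ℕ) (f : Sc r M → ℝ) (x : Sc r M) (s : ℝ) :
    ∫ z in ball x s, f z ∂(μHE[n] : Measure (Sc r M)) =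
      (r.1⁻¹) ^ n * ∫ z in ball (ofSc r x) (r.1 * s), f (toSc r z) ∂(μHE[n] : Measure M) := by
  rw [setIntegral_sc, toSc_preimage_ball]

theorem integrable_sc (n : ℕ) (f : Sc r M → ℝ) :
    Integrable f (μHE[n] : Measure (Sc r M)) ↔
      Integrable (fun x : M => f (toSc r x)) (μHE[n] : Measure M) := by
  have hr := r.2
  have h0 : ENNReal.ofReal ((r.1⁻¹) ^ n) ≠ 0 := by
    rw [Ne, ENNReal.ofReal_eq_zero, not_le]; positivity
  rw [muHE_sc_map, integrable_smul_measure h0 ENNReal.ofReal_ne_top]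
  exact Iff.rfl

end measure

end Crest.Agent.R249.Scl509
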