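import Crest.Agent.R247.Bo4_84

/-!
R249, leaf D3-LIM/L-SEC (helper934), file 1: the sectional curvature of the plane spanned by two
gradients in terms of Hessians, in coordinates.

`X = ∇f`, `Y = ∇h`, `K1 = Hess h (Y, X)`, `K2 = Hess h (X, X)`:
`⟨R(X,Y)Y,X⟩ = ⟨∇f,∇K1⟩ - ⟨∇h,∇K2⟩ - |∇_X Y|² - ⟨∇_Y Y,∇_X X⟩ + 2⟨∇_Y X,∇_X Y⟩`.
-/

set_option autoImplicit false

open scoped ContDiff Topology
open Filter Set
open Crest.GeometryTopology.CoordMetric Crest.GeometryTopology.ChartCurvature
open Crest.Agent.R202.Tens Crest.Agent.R247.Bo84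

noncomputable section

namespace Crest.Agent.R249.Sec934

section coord
variable {n : ℕ} {g : MetricField n} {U : Set (EuclideanSpace ℝ (Fin n))}
  {x : EuclideanSpace ℝ (Fin n)}

local notation "𝔼" => EuclideanSpace ℝ (Fin n)

/-- `Hess h (∇a, ∇b)` as a function. -/
def hK (g : MetricField n) (h a b : EuclideanSpace ℝ (Fin n) → ℝ)
    (y : EuclideanSpace ℝ (Fin n)) : ℝ :=
  hess g h y (grad g a y) (grad g b y)

/-- derivative of `Hess h (∇a, ∇b)`. -/
lemma fderiv_hK (hg : IsRiemannianOn g U) (hx : x ∈ U) {h a b : 𝔼 → ℝ}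
    (hh : ContDiffAt ℝ 3 h x) (ha : ContDiffAt ℝ 2 a x) (hb : ContDiffAt ℝ 2 b x) (Z : 𝔼) :
    fderiv ℝ (hK g h a b) x Z =
      bil (g x) (fderiv ℝ (cov g (grad g h)) x Z (grad g a x) +
          cov g (grad g h) x (fderiv ℝ (grad g a) x Z) +
          Gam g x Z (cov g (grad g h) x (grad g a x))) (grad g b x) +
        bil (g x) (hessE g h x (grad g a x)) (hessE g b x Z) := by
  have hh2 : ContDiffAt ℝ 2 h x := hh.of_le (by norm_num)
  have hev : ∀ᶠ y in 𝓝 x, y ∈ U ∧ ContDiffAt ℝ 2 h y :=
    (eventually_of_mem (hg.isOpen.mem_nhds hx) fun _ h => h).and (hh2.eventually (by norm_num))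
  have hV2 : ContDiffAt ℝ 2 (grad g h) x :=
    contDiffAt_grad hg hx (m := 2) hh (by norm_num) (WithTop.coe_le_coe.2 le_top)
  have hH1 : ContDiffAt ℝ 1 (cov g (grad g h)) x :=
    contDiffAt_cov hg hx (m := 1) hV2 (by norm_num) (by simp)
  have hHd : DifferentiableAt ℝ (cov g (grad g h)) x := hH1.differentiableAt (by norm_num)
  have hA : DifferentiableAt ℝ (grad g a) x :=
    (contDiffAt_grad hg hx (m := 1) ha (by norm_num) (by simp)).differentiableAt (by norm_num)
  have hB : DifferentiableAt ℝ (grad g b) x :=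
    (contDiffAt_grad hg hx (m := 1) hb (by norm_num) (by simp)).differentiableAt (by norm_num)
  have heq : hK g h a b =ᶠ[𝓝 x]
      fun z => bil (g z) (cov g (grad g h) z (grad g a z)) (grad g b z) := by
    filter_upwards [hev] with z hz
    rw [hK, ← bil_hessE hg hz.1 hz.2]
    rfl
  have hW : DifferentiableAt ℝ (fun z => cov g (grad g h) z (grad g a z)) x := hHd.clm_apply hA
  rw [heq.fderiv_eq, fderiv_bil hg hx hW hB]
  congr 1
  congr 1
  rw [cov_apply, fderiv_clm_apply hHd hA]
  simp only [add_apply, ContinuousLinearMap.comp_apply, ContinuousLinearMap.flip_apply]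
  congr 1
  congr 1
  exact add_comm _ _

/-- **the sectional curvature of the plane of two gradients**, in coordinates. -/
theorem secNumer_grad (hg : IsRiemannianOn g U) (hx : x ∈ U) {f h : 𝔼 → ℝ}
    (hf : ContDiffAt ℝ 2 f x) (hh : ContDiffAt ℝ 3 h x) :
    secNumer g x (grad g f x) (grad g h x) =
      gam g f (hK g h h f) x - gam g h (hK g h f f) x
        - bil (g x) (hessE g h x (grad g f x)) (hessE g h x (grad g f x))
        - bil (g x) (hessE g h x (grad g h x)) (hessE g f x (grad g f x))
        + 2 * bil (g x) (hessE g f x (grad g h x)) (hessE g h x (grad g f x)) := by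
  have hh2 : ContDiffAt ℝ 2 h x := hh.of_le (by norm_num)
  have hV2 : ContDiffAt ℝ 2 (grad g h) x :=
    contDiffAt_grad hg hx (m := 2) hh (by norm_num) (WithTop.coe_le_coe.2 le_top)
  rw [gam_eq_fderiv_grad' hg hx, gam_eq_fderiv_grad' hg hx, fderiv_hK hg hx hh hh2 hf,
    fderiv_hK hg hx hh hf hf, secNumer_eq hg hx]
  have h1 := ricci_identity hg hx hV2 (grad g f x) (grad g h x)
  rw [← h1]
  have e1 : hessE g h x = cov g (grad g h) x := rfl
  have e2 : hessE g f x = cov g (grad g f) x := rfl
  have e3 : cov g (grad g f) x (grad g h x) =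
    fderiv ℝ (grad g f) x (grad g h x) + Gam g x (grad g h x) (grad g f x) := rfl
  have e4 : cov g (grad g h) x (grad g f x) =
    fderiv ℝ (grad g h) x (grad g f x) + Gam g x (grad g f x) (grad g h x) := rfl
  -- the term of `[X, Y]`
  have e5 : bil (g x) (cov g (grad g h) x (cov g (grad g h) x (grad g f x)
        - cov g (grad g f) x (grad g h x))) (grad g f x) =
      bil (g x) (cov g (grad g h) x (grad g f x)) (cov g (grad g h) x (grad g f x)) -
      bil (g x) (cov g (grad g f) x (grad g h x)) (cov g (grad g h) x (grad g f x)) := by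
    have := bil_hessE_symm hg hx hh2 (cov g (grad g h) x (grad g f x)
        - cov g (grad g f) x (grad g h x)) (grad g f x)
    rw [e1] at this
    rw [this, map_sub, sub_apply]
  have e6 : cov g (grad g h) x (cov g (grad g h) x (grad g f x)
        - cov g (grad g f) x (grad g h x)) =
      cov g (grad g h) x (fderiv ℝ (grad g h) x (grad g f x)) +
        cov g (grad g h) x (Gam g x (grad g f x) (grad g h x)) -
      (cov g (grad g h) x (fderiv ℝ (grad g f) x (grad g h x)) +
        cov g (grad g h) x (Gam g x (grad g h x) (grad g f x))) := by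
    rw [map_sub]
    conv_lhs => rw [e4, e3]
    rw [map_add, map_add]
  rw [e6] at e5
  rw [e1, e2]
  rw [bil_symm hg hx (cov g (grad g h) x (grad g f x)) (cov g (grad g f) x (grad g h x))]
  simp only [map_add, map_sub, add_apply, sub_apply] at e5 ⊢
  linarith

end coord

end Crest.Agent.R249.Sec934
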