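import Crest.Agent.R249.Sec1_934
import Crest.Agent.R247.Bo8_84
import Crest.Agent.R247.Ms11_322

/-!
R249, leaf D3-LIM/L-SEC (helper934), file 2: the sectional curvature of the plane spanned by two
gradients, on a manifold, pointwise (`mSec_grad`) and integrated (`integral_mSec`).
-/

set_option autoImplicit false
set_option maxSynthPendingDepth 3
set_option linter.unusedSectionVars false

open scoped ContDiff Topology Manifold
open Filter Set Bundle MeasureTheory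
open Crest.GeometryTopology.CoordMetric Crest.GeometryTopology.ChartCurvature
open Crest.Agent.R202.Tens
open Crest.Agent.R247.Bo84

noncomputable section

namespace Crest.Agent.R249.Sec934

section defs
variable (n : ℕ) {M : Type*} [TopologicalSpace M] [ChartedSpace (EuclideanSpace ℝ (Fin n)) M]
  [IsManifold 𝓘(ℝ, EuclideanSpace ℝ (Fin n)) ∞ M]
  [RiemannianBundle (fun x : M => TangentSpace 𝓘(ℝ, EuclideanSpace ℝ (Fin n)) x)]
  [IsContMDiffRiemannianBundle 𝓘(ℝ, EuclideanSpace ℝ (Fin n)) ∞ (EuclideanSpace ℝ (Fin n))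
      (fun x : M => TangentSpace 𝓘(ℝ, EuclideanSpace ℝ (Fin n)) x)]

local notation "𝔼" => EuclideanSpace ℝ (Fin n)
local notation "𝓘E" => 𝓘(ℝ, EuclideanSpace ℝ (Fin n))

/-- `⟨R(v,w)w,v⟩` on the manifold. -/
def mSec (p : M) (v w : TangentSpace 𝓘(ℝ, EuclideanSpace ℝ (Fin n)) p) : ℝ :=
  secNumer (chartMetric n M p) (chartCentre n M p) (dCh p p v) (dCh p p w)

/-- `Hess h (∇a, ∇b)` as a function on the manifold. -/
def mK (h a b : M → ℝ) (p : M) : ℝ := mHess n h p (mgrad n a p) (mgrad n b p)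

/-- the quadratic part of the curvature of the plane of `∇f`, `∇h`. -/
def mQ (f h : M → ℝ) (p : M) : ℝ :=
  2 * inner ℝ (mHessE n f p (mgrad n h p)) (mHessE n h p (mgrad n f p))
    - inner ℝ (mHessE n h p (mgrad n f p)) (mHessE n h p (mgrad n f p))
    - inner ℝ (mHessE n h p (mgrad n h p)) (mHessE n f p (mgrad n f p))

end defs

section mfd
variable {n : ℕ} {M : Type*} [TopologicalSpace M] [ChartedSpace (EuclideanSpace ℝ (Fin n)) M]
  [IsManifold 𝓘(ℝ, EuclideanSpace ℝ (Fin n)) ∞ M]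
  [RiemannianBundle (fun x : M => TangentSpace 𝓘(ℝ, EuclideanSpace ℝ (Fin n)) x)]
  [IsContMDiffRiemannianBundle 𝓘(ℝ, EuclideanSpace ℝ (Fin n)) ∞ (EuclideanSpace ℝ (Fin n))
      (fun x : M => TangentSpace 𝓘(ℝ, EuclideanSpace ℝ (Fin n)) x)]

local notation "𝔼" => EuclideanSpace ℝ (Fin n)
local notation "𝓘E" => 𝓘(ℝ, EuclideanSpace ℝ (Fin n))

variable {x₀ p : M} {f h a b : M → ℝ} {y : EuclideanSpace ℝ (Fin n)}

lemma mSec_nonneg (hK : HasNonnegSectionalCurvature n M) (p : M) (v w : TangentSpace 𝓘E p) :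
    0 ≤ mSec n p v w := hK p _ _

/-- `⟨R(v,w)w,v⟩` in every chart. -/
theorem mSec_chart (hy : y ∈ (chartAt 𝔼 x₀).target) (u v : 𝔼) :
    mSec n ((chartAt 𝔼 x₀).symm y) (dSy x₀ y u) (dSy x₀ y v) =
      secNumer (chartMetric n M x₀) y u v := by
  have hyd := mem_tdom_self hy
  have hP := pull_trans (n := n) x₀ ((chartAt 𝔼 x₀).symm y)
  rw [hP.secNumer_pull hyd, fderiv_trans hyd, fderiv_trans hyd]
  rfl

/-- `Hess h (∇a, ∇b)` in every chart. -/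
theorem mK_chart (hy : y ∈ (chartAt 𝔼 x₀).target)
    (hh : ContMDiffAt 𝓘E 𝓘(ℝ, ℝ) 2 h ((chartAt 𝔼 x₀).symm y)) (a b : M → ℝ) :
    mK n h a b ((chartAt 𝔼 x₀).symm y) =
      hK (chartMetric n M x₀) (inCh n x₀ h) (inCh n x₀ a) (inCh n x₀ b) y := by
  rw [mK, mgrad_chart hy, mgrad_chart hy, mHess_chart hy hh]
  rfl

lemma inCh_mK (hh : ContMDiffAt 𝓘E 𝓘(ℝ, ℝ) 2 h p) (a b : M → ℝ) :
    inCh n p (mK n h a b) =ᶠ[𝓝 (chartCentre n M p)]
      hK (chartMetric n M p) (inCh n p h) (inCh n p a) (inCh n p b) := by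
  have h1 : (chartAt 𝔼 p).symm (chartCentre n M p) = p :=
    (chartAt 𝔼 p).left_inv (mem_chart_source 𝔼 p)
  have h2 : Tendsto (chartAt 𝔼 p).symm (𝓝 (chartCentre n M p)) (𝓝 p) := by
    have := (chartAt 𝔼 p).continuousAt_symm (centre_mem (n := n) p)
    rw [ContinuousAt, h1] at this
    exact this
  have h3 : ∀ᶠ q in 𝓝 p, ContMDiffAt 𝓘E 𝓘(ℝ, ℝ) 2 h q :=
    (contMDiffAt_iff_contMDiffAt_nhds (by norm_num)).1 hh
  filter_upwards [(chartAt 𝔼 p).open_target.mem_nhds (centre_mem (n := n) p), h2.eventually h3]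
    with z hz hz' using mK_chart hz hz' a b

lemma contDiffAt_hK {g : MetricField n} {U : Set 𝔼} {x : 𝔼} (hg : IsRiemannianOn g U) (hx : x ∈ U)
    {h a b : 𝔼 → ℝ} {k m : WithTop ℕ∞} (hh : ContDiffAt ℝ k h x) (ha : ContDiffAt ℝ k a x)
    (hb : ContDiffAt ℝ k b x) (hmk : m + 1 + 1 ≤ k) (hm : m + 1 ≤ ∞) :
    ContDiffAt ℝ m (hK g h a b) x := by
  have hm' : m ≤ ∞ := le_trans (by simp) hm
  have hk2 : (2 : WithTop ℕ∞) ≤ k := le_trans (by
    have : (1 : WithTop ℕ∞) + 1 ≤ m + 1 + 1 := by gcongr; simp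
    refine le_trans ?_ this
    norm_num) hmk
  have hk1 : m + 1 ≤ k := le_trans (by simp) hmk
  have hev : ∀ᶠ y in 𝓝 x, y ∈ U ∧ ContDiffAt ℝ 2 h y :=
    (eventually_of_mem (hg.isOpen.mem_nhds hx) fun _ h => h).and
      ((hh.of_le hk2).eventually (by norm_num))
  have h1 : ContDiffAt ℝ m (fderiv ℝ (fderiv ℝ h)) x :=
    (hh.fderiv_right hmk).fderiv_right le_rfl
  have h2 : ContDiffAt ℝ m (grad g a) x := contDiffAt_grad hg hx ha hk1 hm'
  have h3 : ContDiffAt ℝ m (grad g b) x := contDiffAt_grad hg hx hb hk1 hm'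
  have h4 : ContDiffAt ℝ m (Gam g) x := (contDiffAt_Gam hg hx).of_le hm'
  have h5 : ContDiffAt ℝ m (fderiv ℝ h) x := hh.fderiv_right hk1
  have e : hK g h a b = fun y => fderiv ℝ (fderiv ℝ h) y (grad g a y) (grad g b y) -
      fderiv ℝ h y (Gam g y (grad g a y) (grad g b y)) := by
    funext y; rw [hK, hess_apply]
  rw [e]
  exact ((h1.clm_apply h2).clm_apply h3).sub (h5.clm_apply ((h4.clm_apply h2).clm_apply h3))

lemma contMDiffAt_mK {k m : WithTop ℕ∞} (hh : ContMDiffAt 𝓘E 𝓘(ℝ, ℝ) k h p)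
    (ha : ContMDiffAt 𝓘E 𝓘(ℝ, ℝ) k a p) (hb : ContMDiffAt 𝓘E 𝓘(ℝ, ℝ) k b p)
    (hmk : m + 1 + 1 ≤ k) (hk : k ≤ ∞) : ContMDiffAt 𝓘E 𝓘(ℝ, ℝ) m (mK n h a b) p := by
  have hm1 : m + 1 ≤ ∞ := (le_trans (by simp) hmk).trans hk
  have hm : m ≤ ∞ := le_trans (by simp) hm1
  have hk2 : (2 : WithTop ℕ∞) ≤ k := le_trans (by
    have : (1 : WithTop ℕ∞) + 1 ≤ m + 1 + 1 := by gcongr; simp
    refine le_trans ?_ this
    norm_num) hmk
  refine contMDiffAt_of_inCh hm (mem_chart_source 𝔼 p) ?_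
  refine ContDiffAt.congr_of_eventuallyEq ?_ (inCh_mK (hh.of_le hk2) a b)
  exact contDiffAt_hK (isRiemannianOn_chartMetric p) (centre_mem p) (contDiffAt_centre hk hh)
    (contDiffAt_centre hk ha) (contDiffAt_centre hk hb) hmk hm1

lemma inner_mHessE_eq (f h : M → ℝ) (p : M) (v w : TangentSpace 𝓘E p) :
    inner ℝ (mHessE n f p v) (mHessE n h p w) =
      bil (chartMetric n M p (chartCentre n M p))
        (hessE (chartMetric n M p) (inCh n p f) (chartCentre n M p) (dCh p p v))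
        (hessE (chartMetric n M p) (inCh n p h) (chartCentre n M p) (dCh p p w)) := by
  rw [inner_centre, dCh_mHessE, dCh_mHessE]

/-- the Hessian endomorphism in every chart. -/
theorem mHessE_chart (hy : y ∈ (chartAt 𝔼 x₀).target)
    (hf : ContMDiffAt 𝓘E 𝓘(ℝ, ℝ) 2 f ((chartAt 𝔼 x₀).symm y)) (v : 𝔼) :
    mHessE n f ((chartAt 𝔼 x₀).symm y) (dSy x₀ y v) =
      dSy x₀ y (hessE (chartMetric n M x₀) (inCh n x₀ f) y v) := by
  refine ext_inner_right ℝ fun w => ?_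
  have hps : (chartAt 𝔼 x₀).symm y ∈ (chartAt 𝔼 x₀).source := (chartAt 𝔼 x₀).map_target hy
  have hyp : chartAt 𝔼 x₀ ((chartAt 𝔼 x₀).symm y) = y := (chartAt 𝔼 x₀).right_inv hy
  have h1 : dSy x₀ y (dCh x₀ ((chartAt 𝔼 x₀).symm y) w) = w := by
    have := dSy_dCh x₀ hps w
    rwa [hyp] at this
  have h2 := inner_mHessE hf (dSy x₀ y v) (dSy x₀ y (dCh x₀ ((chartAt 𝔼 x₀).symm y) w))
  have h3 := mHess_chart hy hf v (dCh x₀ ((chartAt 𝔼 x₀).symm y) w)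
  have h4 := bil_chartMetric x₀ y (hessE (chartMetric n M x₀) (inCh n x₀ f) y v)
    (dCh x₀ ((chartAt 𝔼 x₀).symm y) w)
  have h5 := bil_hessE (isRiemannianOn_chartMetric (n := n) x₀) hy
    (contDiffAt_inCh two_le_infty hy hf) v (dCh x₀ ((chartAt 𝔼 x₀).symm y) w)
  have h6 := (h2.trans h3).trans (h5.symm.trans h4)
  rw [h1] at h6
  exact h6

/-- `⟨∇²f ∇a, ∇²h ∇b⟩` in coordinates -/
def hQ (g : MetricField n) (f a h b : EuclideanSpace ℝ (Fin n) → ℝ)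
    (y : EuclideanSpace ℝ (Fin n)) : ℝ :=
  bil (g y) (hessE g f y (grad g a y)) (hessE g h y (grad g b y))

/-- `⟨∇²f ∇a, ∇²h ∇b⟩` in every chart -/
theorem inner_mHessE_chart (hy : y ∈ (chartAt 𝔼 x₀).target)
    (hf : ContMDiffAt 𝓘E 𝓘(ℝ, ℝ) 2 f ((chartAt 𝔼 x₀).symm y))
    (hh : ContMDiffAt 𝓘E 𝓘(ℝ, ℝ) 2 h ((chartAt 𝔼 x₀).symm y)) (a b : M → ℝ) :
    inner ℝ (mHessE n f ((chartAt 𝔼 x₀).symm y) (mgrad n a ((chartAt 𝔼 x₀).symm y)))
      (mHessE n h ((chartAt 𝔼 x₀).symm y) (mgrad n b ((chartAt 𝔼 x₀).symm y))) =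
    hQ (chartMetric n M x₀) (inCh n x₀ f) (inCh n x₀ a) (inCh n x₀ h) (inCh n x₀ b) y := by
  rw [mgrad_chart hy, mgrad_chart hy, mHessE_chart hy hf, mHessE_chart hy hh, hQ, bil_chartMetric]

lemma contDiffAt_hQ {g : MetricField n} {U : Set 𝔼} {x : 𝔼} (hg : IsRiemannianOn g U) (hx : x ∈ U)
    {f a h b : 𝔼 → ℝ} {k m : WithTop ℕ∞} (hf : ContDiffAt ℝ k f x) (hh : ContDiffAt ℝ k h x)
    (ha : ContDiffAt ℝ k a x) (hb : ContDiffAt ℝ k b x) (hmk : m + 1 + 1 ≤ k) (hm : m + 1 ≤ ∞) :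
    ContDiffAt ℝ m (hQ g f a h b) x := by
  have hm' : m ≤ ∞ := le_trans (by simp) hm
  have hk1 : m + 1 ≤ k := le_trans (by simp) hmk
  have h2 : ContDiffAt ℝ m (grad g a) x := contDiffAt_grad hg hx ha hk1 hm'
  have h3 : ContDiffAt ℝ m (grad g b) x := contDiffAt_grad hg hx hb hk1 hm'
  have h4 : ContDiffAt ℝ m (hessE g f) x :=
    contDiffAt_cov hg hx (contDiffAt_grad hg hx hf hmk hm) le_rfl hm'
  have h5 : ContDiffAt ℝ m (hessE g h) x :=
    contDiffAt_cov hg hx (contDiffAt_grad hg hx hh hmk hm) le_rfl hm'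
  have h6 : ContDiffAt ℝ m (Gf g) x := by
    have : ContDiffAt ℝ ∞ (Gf g) x := by
      have e : Gf g = fun y => bil (g y) := rfl
      rw [e]
      unfold bil
      exact ContDiffAt.sum fun i _ => ContDiffAt.sum fun j _ =>
        (contDiffAt_entry hg hx i j).smul contDiffAt_const
    exact this.of_le hm'
  exact (h6.clm_apply (h4.clm_apply h2)).clm_apply (h5.clm_apply h3)

lemma contMDiffAt_inner_mHessE {k m : WithTop ℕ∞} (hf : ContMDiffAt 𝓘E 𝓘(ℝ, ℝ) k f p)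
    (hh : ContMDiffAt 𝓘E 𝓘(ℝ, ℝ) k h p)
    (ha : ContMDiffAt 𝓘E 𝓘(ℝ, ℝ) k a p) (hb : ContMDiffAt 𝓘E 𝓘(ℝ, ℝ) k b p)
    (hmk : m + 1 + 1 ≤ k) (hk : k ≤ ∞) : ContMDiffAt 𝓘E 𝓘(ℝ, ℝ) m
      (fun q => inner ℝ (mHessE n f q (mgrad n a q)) (mHessE n h q (mgrad n b q))) p := by
  have hm1 : m + 1 ≤ ∞ := (le_trans (by simp) hmk).trans hk
  have hm : m ≤ ∞ := le_trans (by simp) hm1
  have hk2 : (2 : WithTop ℕ∞) ≤ k := le_trans (by
    have : (1 : WithTop ℕ∞) + 1 ≤ m + 1 + 1 := by gcongr; simp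
    refine le_trans ?_ this
    norm_num) hmk
  refine contMDiffAt_of_inCh hm (mem_chart_source 𝔼 p) ?_
  have h1 : (chartAt 𝔼 p).symm (chartCentre n M p) = p :=
    (chartAt 𝔼 p).left_inv (mem_chart_source 𝔼 p)
  have h2 : Tendsto (chartAt 𝔼 p).symm (𝓝 (chartCentre n M p)) (𝓝 p) := by
    have := (chartAt 𝔼 p).continuousAt_symm (centre_mem (n := n) p)
    rw [ContinuousAt, h1] at this
    exact this
  have h3 : ∀ᶠ q in 𝓝 p, ContMDiffAt 𝓘E 𝓘(ℝ, ℝ) 2 f q :=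
    (contMDiffAt_iff_contMDiffAt_nhds (by norm_num)).1 (hf.of_le hk2)
  have h4 : ∀ᶠ q in 𝓝 p, ContMDiffAt 𝓘E 𝓘(ℝ, ℝ) 2 h q :=
    (contMDiffAt_iff_contMDiffAt_nhds (by norm_num)).1 (hh.of_le hk2)
  have e : inCh n p (fun q => inner ℝ (mHessE n f q (mgrad n a q)) (mHessE n h q (mgrad n b q)))
      =ᶠ[𝓝 (chartCentre n M p)] hQ (chartMetric n M p) (inCh n p f) (inCh n p a) (inCh n p h)
        (inCh n p b) := by
    filter_upwards [(chartAt 𝔼 p).open_target.mem_nhds (centre_mem (n := n) p),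
      h2.eventually h3, h2.eventually h4] with z hz hz' hz''
    exact inner_mHessE_chart hz hz' hz'' a b
  refine ContDiffAt.congr_of_eventuallyEq ?_ e
  exact contDiffAt_hQ (isRiemannianOn_chartMetric p) (centre_mem p) (contDiffAt_centre hk hf)
    (contDiffAt_centre hk hh) (contDiffAt_centre hk ha) (contDiffAt_centre hk hb) hmk hm1

lemma contMDiffAt_mQ {k m : WithTop ℕ∞} (hf : ContMDiffAt 𝓘E 𝓘(ℝ, ℝ) k f p)
    (hh : ContMDiffAt 𝓘E 𝓘(ℝ, ℝ) k h p)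
    (hmk : m + 1 + 1 ≤ k) (hk : k ≤ ∞) : ContMDiffAt 𝓘E 𝓘(ℝ, ℝ) m (mQ n f h) p :=
  ((contMDiffAt_const.mul (contMDiffAt_inner_mHessE hf hh hh hf hmk hk)).sub
    (contMDiffAt_inner_mHessE hh hh hf hf hmk hk)).sub
    (contMDiffAt_inner_mHessE hh hf hh hf hmk hk)

/-- **the sectional curvature of the plane of two gradients**, on the manifold. -/
theorem mSec_grad (hf : ContMDiffAt 𝓘E 𝓘(ℝ, ℝ) 2 f p) (hh : ContMDiffAt 𝓘E 𝓘(ℝ, ℝ) 3 h p) :
    mSec n p (mgrad n f p) (mgrad n h p) =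
      mGam n f (mK n h h f) p - mGam n h (mK n h f f) p + mQ n f h p := by
  have hh2 : ContMDiffAt 𝓘E 𝓘(ℝ, ℝ) 2 h p := hh.of_le (by norm_num)
  rw [mSec, dCh_mgrad, dCh_mgrad, secNumer_grad (isRiemannianOn_chartMetric p) (centre_mem p)
    (contDiffAt_centre two_le_infty hf) (contDiffAt_centre three_le_infty hh), mQ,
    inner_mHessE_eq, inner_mHessE_eq, inner_mHessE_eq, dCh_mgrad, dCh_mgrad, mGam, mGam,
    gam_congr (EventuallyEq.refl _ (inCh n p f)) (inCh_mK hh2 h f),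
    gam_congr (EventuallyEq.refl _ (inCh n p h)) (inCh_mK hh2 f f)]
  ring

end mfd

end Crest.Agent.R249.Sec934
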