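import Crest.Agent.R249.Sec2_934

/-!
R249, leaf D3-LIM/L-SEC (helper934), file 3: integrated curvature of the plane of two harmonic
gradients on a manifold, `integral_mSec` (test function `ψ`), `integral_mSec_comp` (`ψ = φ(u)`).
-/

set_option autoImplicit false
set_option maxSynthPendingDepth 3
set_option linter.unusedSectionVars false

open scoped ContDiff Topology Manifold
open Filter Set Bundle MeasureTheory
open Crest.GeometryTopology.CoordMetric Crest.GeometryTopology.ChartCurvature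
open Crest.Agent.R202.Tens
open Crest.Agent.R247.Bo84 Crest.Agent.R247.Ms322

noncomputable section

namespace Crest.Agent.R249.Sec934

section chain
variable {n : ℕ} {M : Type*} [TopologicalSpace M] [ChartedSpace (EuclideanSpace ℝ (Fin n)) M]
  [IsManifold 𝓘(ℝ, EuclideanSpace ℝ (Fin n)) ∞ M]
  [RiemannianBundle (fun x : M => TangentSpace 𝓘(ℝ, EuclideanSpace ℝ (Fin n)) x)]
  [IsContMDiffRiemannianBundle 𝓘(ℝ, EuclideanSpace ℝ (Fin n)) ∞ (EuclideanSpace ℝ (Fin n))
      (fun x : M => TangentSpace 𝓘(ℝ, EuclideanSpace ℝ (Fin n)) x)]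

local notation "𝔼" => EuclideanSpace ℝ (Fin n)
local notation "𝓘E" => 𝓘(ℝ, EuclideanSpace ℝ (Fin n))

/-- chain rule for `⟨dk, d(φ(u))⟩`. -/
theorem mGam_comp_vec {m : ℕ} {u : Fin m → M → ℝ} {φ : EuclideanSpace ℝ (Fin m) → ℝ} {p : M}
    (hφ : DifferentiableAt ℝ φ (WithLp.toLp 2 fun d => u d p))
    (hu : ∀ d, MDifferentiableAt 𝓘E 𝓘(ℝ, ℝ) (u d) p) (k : M → ℝ) :
    mGam n k (fun q => φ (WithLp.toLp 2 fun d => u d q)) p =
      ∑ d, pderiv d φ (WithLp.toLp 2 fun d => u d p) * mGam n k (u d) p := by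
  have hu' : ∀ d, DifferentiableAt ℝ (inCh n p (u d)) (chartCentre n M p) :=
    fun d => differentiableAt_centre (hu d)
  have e0 : (WithLp.toLp 2 fun d => inCh n p (u d) (chartCentre n M p) :
      EuclideanSpace ℝ (Fin m)) = WithLp.toLp 2 fun d => u d p := by
    congr 1; funext d; exact inCh_centre _ _
  have hU : HasFDerivAt (fun y => (WithLp.toLp 2 fun d => inCh n p (u d) y :
      EuclideanSpace ℝ (Fin m)))
      (fderiv ℝ (fun y => (WithLp.toLp 2 fun d => inCh n p (u d) y : EuclideanSpace ℝ (Fin m)))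
        (chartCentre n M p)) (chartCentre n M p) := by
    refine DifferentiableAt.hasFDerivAt ?_
    rw [differentiableAt_piLp]
    exact hu'
  have hUd : ∀ v d, fderiv ℝ (fun y => (WithLp.toLp 2 fun d => inCh n p (u d) y :
      EuclideanSpace ℝ (Fin m))) (chartCentre n M p) v d =
      fderiv ℝ (inCh n p (u d)) (chartCentre n M p) v := by
    intro v d
    have h1 := ((EuclideanSpace.proj d : EuclideanSpace ℝ (Fin m) →L[ℝ] ℝ).hasFDerivAt).comp
      (chartCentre n M p) hU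
    have h2 : HasFDerivAt (inCh n p (u d)) ((EuclideanSpace.proj d).comp
        (fderiv ℝ (fun y => (WithLp.toLp 2 fun d => inCh n p (u d) y : EuclideanSpace ℝ (Fin m)))
        (chartCentre n M p))) (chartCentre n M p) := h1
    rw [h2.fderiv]
    rfl
  have hφ' : HasFDerivAt φ (fderiv ℝ φ (WithLp.toLp 2 fun d => u d p))
      (WithLp.toLp 2 fun d => inCh n p (u d) (chartCentre n M p)) := by
    rw [e0]; exact hφ.hasFDerivAt
  have h3 := hφ'.comp (chartCentre n M p) hU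
  have h4 : fderiv ℝ (inCh n p (fun q => φ (WithLp.toLp 2 fun d => u d q)))
      (chartCentre n M p) = _ := h3.fderiv
  have hg := isRiemannianOn_chartMetric (n := n) p
  rw [mGam, gam_eq_fderiv_grad' hg (centre_mem p), h4, ContinuousLinearMap.comp_apply,
    Crest.Agent.R202.Tens.fderiv_eq_sum]
  refine Finset.sum_congr rfl fun d _ => ?_
  rw [hUd, mGam, gam_eq_fderiv_grad' hg (centre_mem p)]
  exact mul_comm _ _

end chain

variable {n : ℕ} {M : Type*} [MetricSpace M] [ChartedSpace (EuclideanSpace ℝ (Fin n)) M]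
  [IsManifold (𝓡 n) ∞ M]
  [RiemannianBundle (fun p : M => TangentSpace (𝓡 n) p)]
  [IsContMDiffRiemannianBundle (𝓡 n) ∞ (EuclideanSpace ℝ (Fin n)) (fun p : M => TangentSpace (𝓡 n) p)]
  [SecondCountableTopology M] [Nonempty M] [IsRiemannianManifold (𝓡 n) M]
  [MeasurableSpace M] [BorelSpace M]

local notation "𝔼" => EuclideanSpace ℝ (Fin n)

/-- a function continuous on a compact set and zero off it is integrable. -/
lemma integrable_of_cont {F : M → ℝ} {K : Set M} (hK : IsCompact K) (hF : ContinuousOn F K)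
    (h0 : ∀ b, b ∉ K → F b = 0) : Integrable F (μHE[n] : Measure M) := by
  obtain ⟨C, hC⟩ := hK.exists_bound_of_continuousOn hF
  exact integrable_of_compact_M hK (hF.aestronglyMeasurable hK.measurableSet) hC h0

/-- a `C¹` function on a neighbourhood of its compact support is locally Lipschitz. -/
lemma locallyLipschitz_of_supp {U : Set M} {ψ : M → ℝ}
    (hψ : ∀ z ∈ U, ContMDiffAt (𝓡 n) 𝓘(ℝ, ℝ) 1 ψ z) (hs : tsupport ψ ⊆ U) :
    LocallyLipschitz ψ := by
  intro z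
  by_cases hz : z ∈ U
  · exact LLo.of_contMDiffAt (n := n) hψ z hz
  · refine ⟨0, (tsupport ψ)ᶜ, (isClosed_tsupport _).isOpen_compl.mem_nhds fun h => hz (hs h), ?_⟩
    intro b hb c hc
    simp [image_eq_zero_of_notMem_tsupport hb, image_eq_zero_of_notMem_tsupport hc]

lemma mGam_zero_off {f ψ : M → ℝ} {z : M} (hz : z ∉ tsupport ψ) : mGam n f ψ z = 0 := by
  rw [← inner_Gr_eq_mGam, Gr_zero_off hz, inner_zero_right]

lemma continuousOn_mGam {U : Set M} {f ψ : M → ℝ}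
    (hf : ∀ z ∈ U, ContMDiffAt (𝓡 n) 𝓘(ℝ, ℝ) 1 f z)
    (hψ : ∀ z ∈ U, ContMDiffAt (𝓡 n) 𝓘(ℝ, ℝ) 1 ψ z) : ContinuousOn (mGam n f ψ) U := by
  intro z hz
  have h1 := contMDiffAt_mGam (m := 0) (hf z hz) (hψ z hz) (by norm_num) (by simp)
  exact h1.continuousAt.continuousWithinAt

/-- Green's formula with three functions: `∫ ψ ⟨∇f,∇K⟩ = - ∫ K ⟨∇f,∇ψ⟩ - ∫ ψ K Δf`. -/
theorem green3 {U : Set M} (hU : IsOpen U) {f K ψ : M → ℝ}
    (hf : ∀ z ∈ U, ContMDiffAt (𝓡 n) 𝓘(ℝ, ℝ) 2 f z)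
    (hK : ∀ z ∈ U, ContMDiffAt (𝓡 n) 𝓘(ℝ, ℝ) 1 K z)
    (hψ : ∀ z ∈ U, ContMDiffAt (𝓡 n) 𝓘(ℝ, ℝ) 1 ψ z)
    (hc : HasCompactSupport ψ) (hs : tsupport ψ ⊆ U) :
    Integrable (fun z => ψ z * mGam n f K z) (μHE[n] : Measure M) ∧
    Integrable (fun z => K z * mGam n f ψ z) (μHE[n] : Measure M) ∧
    Integrable (fun z => ψ z * K z * mLap n f z) (μHE[n] : Measure M) ∧
    ∫ z, ψ z * mGam n f K z ∂(μHE[n] : Measure M) =
      - ∫ z, K z * mGam n f ψ z ∂(μHE[n] : Measure M)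
      - ∫ z, ψ z * K z * mLap n f z ∂(μHE[n] : Measure M) := by
  have hf1 : ∀ z ∈ U, ContMDiffAt (𝓡 n) 𝓘(ℝ, ℝ) 1 f z := fun z hz => (hf z hz).of_le (by norm_num)
  have hψc : Continuous ψ := (locallyLipschitz_of_supp hψ hs).continuous
  have hKc : ContinuousOn K U := fun z hz => (hK z hz).continuousAt.continuousWithinAt
  have i1 : Integrable (fun z => ψ z * mGam n f K z) (μHE[n] : Measure M) := by
    refine integrable_of_cont hc.isCompact
      (hψc.continuousOn.mul ((continuousOn_mGam hf1 hK).mono hs)) fun b hb => ?_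
    rw [image_eq_zero_of_notMem_tsupport hb, zero_mul]
  have i2 : Integrable (fun z => K z * mGam n f ψ z) (μHE[n] : Measure M) := by
    refine integrable_of_cont hc.isCompact
      ((hKc.mono hs).mul ((continuousOn_mGam hf1 hψ).mono hs)) fun b hb => ?_
    rw [mGam_zero_off hb, mul_zero]
  have i3 : Integrable (fun z => ψ z * K z * mLap n f z) (μHE[n] : Measure M) := by
    refine integrable_of_cont hc.isCompact
      ((hψc.continuousOn.mul (hKc.mono hs)).mul ((continuousOn_mLap hf).mono hs)) fun b hb => ?_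
    rw [image_eq_zero_of_notMem_tsupport hb, zero_mul, zero_mul]
  refine ⟨i1, i2, i3, ?_⟩
  have hsub : tsupport (fun z => ψ z * K z) ⊆ tsupport ψ := tsupport_mul_subset_left
  have hcφ : HasCompactSupport (fun z => ψ z * K z) := hc.mul_right
  have hφ : ∀ z ∈ U, ContMDiffAt (𝓡 n) 𝓘(ℝ, ℝ) 1 (fun z => ψ z * K z) z :=
    fun z hz => (hψ z hz).mul (hK z hz)
  have h1 := ibp_mLap hU hf (locallyLipschitz_of_supp hφ (hsub.trans hs)) hcφ (hsub.trans hs)
  have e1 : (fun z => inner ℝ (Gr (n := n) f z) (Gr (n := n) (fun z => ψ z * K z) z)) =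
      fun z => ψ z * mGam n f K z + K z * mGam n f ψ z := by
    funext z
    rw [inner_Gr_eq_mGam]
    by_cases hz : z ∈ U
    · exact mGam_mul_right ((hψ z hz).mdifferentiableAt (by norm_num))
        ((hK z hz).mdifferentiableAt (by norm_num))
    · have hz1 : z ∉ tsupport ψ := fun h => hz (hs h)
      rw [mGam_zero_off (fun h => hz1 (hsub h)), mGam_zero_off hz1,
        image_eq_zero_of_notMem_tsupport hz1]
      ring
  rw [e1, integral_add i1 i2] at h1
  linarith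

/-- **integrated curvature** of the plane of the gradients of two harmonic functions. -/
theorem integral_mSec {U : Set M} (hU : IsOpen U) {f h ψ : M → ℝ}
    (hf : ∀ z ∈ U, ContMDiffAt (𝓡 n) 𝓘(ℝ, ℝ) 3 f z)
    (hh : ∀ z ∈ U, ContMDiffAt (𝓡 n) 𝓘(ℝ, ℝ) 3 h z)
    (hfl : ∀ z ∈ U, mLap n f z = 0) (hhl : ∀ z ∈ U, mLap n h z = 0)
    (hψ : ∀ z ∈ U, ContMDiffAt (𝓡 n) 𝓘(ℝ, ℝ) 1 ψ z)
    (hc : HasCompactSupport ψ) (hs : tsupport ψ ⊆ U) :
    Integrable (fun z => ψ z * mSec n z (mgrad n f z) (mgrad n h z)) (μHE[n] : Measure M) ∧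
    Integrable (fun z => mK n h h f z * mGam n f ψ z) (μHE[n] : Measure M) ∧
    Integrable (fun z => mK n h f f z * mGam n h ψ z) (μHE[n] : Measure M) ∧
    Integrable (fun z => ψ z * mQ n f h z) (μHE[n] : Measure M) ∧
    ∫ z, ψ z * mSec n z (mgrad n f z) (mgrad n h z) ∂(μHE[n] : Measure M) =
      - ∫ z, mK n h h f z * mGam n f ψ z ∂(μHE[n] : Measure M)
      + ∫ z, mK n h f f z * mGam n h ψ z ∂(μHE[n] : Measure M)
      + ∫ z, ψ z * mQ n f h z ∂(μHE[n] : Measure M) := by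
  have hf2 : ∀ z ∈ U, ContMDiffAt (𝓡 n) 𝓘(ℝ, ℝ) 2 f z := fun z hz => (hf z hz).of_le (by norm_num)
  have hh2 : ∀ z ∈ U, ContMDiffAt (𝓡 n) 𝓘(ℝ, ℝ) 2 h z := fun z hz => (hh z hz).of_le (by norm_num)
  have hψc : Continuous ψ := (locallyLipschitz_of_supp hψ hs).continuous
  have k1 : ∀ z ∈ U, ContMDiffAt (𝓡 n) 𝓘(ℝ, ℝ) 1 (mK n h h f) z := fun z hz =>
    contMDiffAt_mK (hh z hz) (hh z hz) (hf z hz) (by norm_num) three_le_infty
  have k2 : ∀ z ∈ U, ContMDiffAt (𝓡 n) 𝓘(ℝ, ℝ) 1 (mK n h f f) z := fun z hz =>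
    contMDiffAt_mK (hh z hz) (hf z hz) (hf z hz) (by norm_num) three_le_infty
  obtain ⟨a1, a2, a3, a4⟩ := green3 hU hf2 k1 hψ hc hs
  obtain ⟨b1, b2, b3, b4⟩ := green3 hU hh2 k2 hψ hc hs
  have z1 : (fun z => ψ z * mK n h h f z * mLap n f z) = fun _ => 0 := by
    funext z
    by_cases hz : z ∈ U
    · rw [hfl z hz, mul_zero]
    · rw [image_eq_zero_of_notMem_tsupport (fun h => hz (hs h)), zero_mul, zero_mul]
  have z2 : (fun z => ψ z * mK n h f f z * mLap n h z) = fun _ => 0 := by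
    funext z
    by_cases hz : z ∈ U
    · rw [hhl z hz, mul_zero]
    · rw [image_eq_zero_of_notMem_tsupport (fun h => hz (hs h)), zero_mul, zero_mul]
  rw [z1, integral_zero, sub_zero] at a4
  rw [z2, integral_zero, sub_zero] at b4
  -- continuity of the quadratic part
  have hQc : ContinuousOn (mQ n f h) U := fun z hz =>
    (contMDiffAt_mQ (m := 0) (hf2 z hz) (hh2 z hz) (by norm_num)
      two_le_infty).continuousAt.continuousWithinAt
  have i4 : Integrable (fun z => ψ z * mQ n f h z) (μHE[n] : Measure M) := by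
    refine integrable_of_cont hc.isCompact (hψc.continuousOn.mul (hQc.mono hs)) fun b hb => ?_
    rw [image_eq_zero_of_notMem_tsupport hb, zero_mul]
  have e : (fun z => ψ z * mSec n z (mgrad n f z) (mgrad n h z)) =
      fun z => (ψ z * mGam n f (mK n h h f) z - ψ z * mGam n h (mK n h f f) z)
        + ψ z * mQ n f h z := by
    funext z
    by_cases hz : z ∈ U
    · rw [mSec_grad (hf2 z hz) (hh z hz)]; ring
    · rw [image_eq_zero_of_notMem_tsupport (fun h => hz (hs h))]; ring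
  have i5 : Integrable (fun z => ψ z * mGam n f (mK n h h f) z - ψ z * mGam n h (mK n h f f) z)
    (μHE[n] : Measure M) := a1.sub b1
  refine ⟨?_, a2, b2, i4, ?_⟩
  · rw [e]; exact i5.add i4
  · rw [e, integral_add i5 i4, integral_sub a1 b1, a4, b4]; ring

lemma mGam_congr_right {f ψ ψ' : M → ℝ} {z : M} (h : ψ =ᶠ[𝓝 z] ψ') :
    mGam n f ψ z = mGam n f ψ' z := mGam_congr (EventuallyEq.refl _ f) h

/-- `⟨df, dψ⟩` if `ψ = φ(u)` on `U`. -/
theorem mGam_of_comp {U : Set M} (hU : IsOpen U) {m : ℕ} {u : Fin m → M → ℝ}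
    {φ : EuclideanSpace ℝ (Fin m) → ℝ} {ψ : M → ℝ} (hφ : Differentiable ℝ φ)
    (hu : ∀ d, ∀ z ∈ U, MDifferentiableAt (𝓡 n) 𝓘(ℝ, ℝ) (u d) z)
    (hψφ : ∀ z ∈ U, ψ z = φ (WithLp.toLp 2 fun d => u d z)) (f : M → ℝ) {z : M} (hz : z ∈ U) :
    mGam n f ψ z = ∑ d, pderiv d φ (WithLp.toLp 2 fun d => u d z) * mGam n f (u d) z := by
  have h1 : ψ =ᶠ[𝓝 z] fun q => φ (WithLp.toLp 2 fun d => u d q) := by
    filter_upwards [hU.mem_nhds hz] with q hq using hψφ q hq
  rw [mGam_congr_right h1]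
  exact mGam_comp_vec hφ.differentiableAt (fun d => hu d z hz) f

end Crest.Agent.R249.Sec934
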