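import Crest.Agent.R249.Sec3_934

/-!
R249, leaf D3-LIM/L-SEC (helper934), file 4: expansion of everything in terms of
`F^{ab} = ⟨∇u_a,∇u_b⟩` and `K^{a;bc} = Hess u_a (∇u_b,∇u_c)` for `f = Σ α_a u_a`, `h = Σ β_a u_a`.
-/

set_option autoImplicit false
set_option maxSynthPendingDepth 3
set_option linter.unusedSectionVars false

open scoped ContDiff Topology Manifold
open Filter Set Bundle MeasureTheory
open Crest.GeometryTopology.CoordMetric Crest.GeometryTopology.ChartCurvature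
open Crest.Agent.R202.Tens
open Crest.Agent.R247.Bo84

noncomputable section

namespace Crest.Agent.R249.Sec934

section alg
variable {n : ℕ}

/-- trilinear contraction. -/
def K3 (K : Fin n → Fin n → Fin n → ℝ) (α β γ : Fin n → ℝ) : ℝ :=
  ∑ a, ∑ b, ∑ c, α a * β b * γ c * K a b c

/-- `Σ α_a β_b F_ab`. -/
def F2 (F : Matrix (Fin n) (Fin n) ℝ) (α β : Fin n → ℝ) : ℝ := ∑ a, ∑ b, α a * β b * F a b

/-- `Σ_ij (F⁻¹)_ij K(α;β,i) K(α';β',j)`, i.e. `⟨Hess f ∇b, Hess f' ∇b'⟩`. -/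
def KK (F : Matrix (Fin n) (Fin n) ℝ) (K : Fin n → Fin n → Fin n → ℝ) (α β α' β' : Fin n → ℝ) :
    ℝ := ∑ i, ∑ j, F⁻¹ i j * K3 K α β (Pi.single i 1) * K3 K α' β' (Pi.single j 1)

/-- the quadratic part of the curvature of the plane of `Σ α_a ∇u_a`, `Σ β_a ∇u_a`. -/
def Qd (F : Matrix (Fin n) (Fin n) ℝ) (K : Fin n → Fin n → Fin n → ℝ) (α β : Fin n → ℝ) : ℝ :=
  2 * KK F K α β β α - KK F K β α β α - KK F K β β α α

/-- the integrand of the weak curvature: `t = φ(u)`, `d_e = ∂_e φ(u)`. -/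
def Sg (F : Matrix (Fin n) (Fin n) ℝ) (K : Fin n → Fin n → Fin n → ℝ) (α β : Fin n → ℝ)
    (t : ℝ) (d : Fin n → ℝ) : ℝ :=
  - K3 K β β α * F2 F α d + K3 K β α α * F2 F β d + t * Qd F K α β

end alg

section coord
variable {n : ℕ} {g : MetricField n} {U : Set (EuclideanSpace ℝ (Fin n))}
  {x : EuclideanSpace ℝ (Fin n)}

local notation "𝔼" => EuclideanSpace ℝ (Fin n)

/-- matrix form: `A = Dᵀ F⁻¹ D` if `F = D A⁻¹ Dᵀ` is invertible. -/
lemma mat_expand {A D F : Matrix (Fin n) (Fin n) ℝ} (hA : IsUnit A.det) (hF : IsUnit F.det)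
    (h : F = D * A⁻¹ * D.transpose) : A = D.transpose * F⁻¹ * D := by
  have hD : IsUnit D.det := by
    rw [h, Matrix.det_mul, Matrix.det_mul] at hF
    exact isUnit_of_mul_isUnit_left (isUnit_of_mul_isUnit_left hF)
  have hDt : IsUnit D.transpose.det := by rwa [Matrix.det_transpose]
  have hAi : IsUnit (A⁻¹).det := Matrix.isUnit_nonsing_inv_det A hA
  rw [h, Matrix.mul_inv_rev, Matrix.mul_inv_rev, Matrix.nonsing_inv_nonsing_inv A hA]
  rw [← Matrix.mul_assoc, ← Matrix.mul_assoc, Matrix.mul_nonsing_inv _ hDt, Matrix.one_mul,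
    Matrix.mul_assoc, Matrix.nonsing_inv_mul _ hD, Matrix.mul_one]

/-- expansion of the metric in the differentials of `n` functions. -/
lemma bil_expand (hg : IsRiemannianOn g U) (hx : x ∈ U) {u : Fin n → 𝔼 → ℝ}
    {F : Matrix (Fin n) (Fin n) ℝ} (hF : ∀ i j, F i j = gam g (u i) (u j) x) (hd : IsUnit F.det)
    (v w : 𝔼) :
    bil (g x) v w = ∑ i, ∑ j, F⁻¹ i j * fderiv ℝ (u i) x v * fderiv ℝ (u j) x w := by
  set D : Matrix (Fin n) (Fin n) ℝ := Matrix.of fun i k => pderiv k (u i) x with hD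
  have h1 : F = D * (g x)⁻¹ * D.transpose := by
    ext i j
    rw [hF, gam, Matrix.mul_apply]
    simp only [Matrix.mul_apply, Matrix.transpose_apply, hD, Matrix.of_apply, Finset.sum_mul]
    rw [Finset.sum_comm]
    refine Finset.sum_congr rfl fun k _ => Finset.sum_congr rfl fun l _ => ?_
    rw [inverseField]; ring
  have h2 := mat_expand (det_pos hg hx).ne'.isUnit hd h1
  have h3 : ∀ i, ∀ v : 𝔼, fderiv ℝ (u i) x v = ∑ k, D i k * v k := by
    intro i v
    rw [fderiv_eq_sum]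
    refine Finset.sum_congr rfl fun k _ => ?_
    rw [hD, Matrix.of_apply]; ring
  have h4 : ∀ k l, g x k l = ∑ j, ∑ i, D i k * F⁻¹ i j * D j l := by
    intro k l
    conv_lhs => rw [h2]
    rw [Matrix.mul_apply]
    simp only [Matrix.mul_apply, Matrix.transpose_apply, Finset.sum_mul]
  rw [bil_apply]
  simp only [h3, h4, Finset.sum_mul, Finset.mul_sum]
  -- reorder the four sums
  calc ∑ k, ∑ l, ∑ j, ∑ i, D i k * F⁻¹ i j * D j l * v k * w l
      = ∑ k, ∑ l, ∑ i, ∑ j, F⁻¹ i j * (D i k * v k) * (D j l * w l) := by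
        refine Finset.sum_congr rfl fun k _ => Finset.sum_congr rfl fun l _ => ?_
        rw [Finset.sum_comm]
        refine Finset.sum_congr rfl fun i _ => Finset.sum_congr rfl fun j _ => by ring
    _ = ∑ k, ∑ i, ∑ l, ∑ j, F⁻¹ i j * (D i k * v k) * (D j l * w l) :=
        Finset.sum_congr rfl fun k _ => Finset.sum_comm
    _ = ∑ i, ∑ k, ∑ l, ∑ j, F⁻¹ i j * (D i k * v k) * (D j l * w l) := Finset.sum_comm
    _ = ∑ i, ∑ k, ∑ j, ∑ l, F⁻¹ i j * (D i k * v k) * (D j l * w l) :=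
        Finset.sum_congr rfl fun i _ => Finset.sum_congr rfl fun k _ => Finset.sum_comm
    _ = ∑ i, ∑ j, ∑ k, ∑ l, F⁻¹ i j * (D i k * v k) * (D j l * w l) :=
        Finset.sum_congr rfl fun i _ => Finset.sum_comm
    _ = _ := by
        refine Finset.sum_congr rfl fun i _ => Finset.sum_congr rfl fun j _ => ?_
        rw [Finset.sum_comm]

end coord

section mfd
variable {n : ℕ} {M : Type*} [TopologicalSpace M] [ChartedSpace (EuclideanSpace ℝ (Fin n)) M]
  [IsManifold 𝓘(ℝ, EuclideanSpace ℝ (Fin n)) ∞ M]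
  [RiemannianBundle (fun x : M => TangentSpace 𝓘(ℝ, EuclideanSpace ℝ (Fin n)) x)]
  [IsContMDiffRiemannianBundle 𝓘(ℝ, EuclideanSpace ℝ (Fin n)) ∞ (EuclideanSpace ℝ (Fin n))
      (fun x : M => TangentSpace 𝓘(ℝ, EuclideanSpace ℝ (Fin n)) x)]

local notation "𝔼" => EuclideanSpace ℝ (Fin n)
local notation "𝓘E" => 𝓘(ℝ, EuclideanSpace ℝ (Fin n))

variable {p : M} {u : Fin n → M → ℝ}

/-- `Σ α_a u_a`. -/
def lin (α : Fin n → ℝ) (u : Fin n → M → ℝ) (z : M) : ℝ := ∑ a, α a * u a z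

/-- `K^{a;bc} = Hess u_a (∇u_b, ∇u_c)`. -/
def KM (n : ℕ) {M : Type*} [TopologicalSpace M] [ChartedSpace (EuclideanSpace ℝ (Fin n)) M]
    [IsManifold 𝓘(ℝ, EuclideanSpace ℝ (Fin n)) ∞ M]
    [RiemannianBundle (fun x : M => TangentSpace 𝓘(ℝ, EuclideanSpace ℝ (Fin n)) x)]
    [IsContMDiffRiemannianBundle 𝓘(ℝ, EuclideanSpace ℝ (Fin n)) ∞ (EuclideanSpace ℝ (Fin n))
      (fun x : M => TangentSpace 𝓘(ℝ, EuclideanSpace ℝ (Fin n)) x)]
    (u : Fin n → M → ℝ) (z : M) (a b c : Fin n) : ℝ := mK n (u a) (u b) (u c) z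

/-- `F^{ab} = ⟨∇u_a, ∇u_b⟩`. -/
def FM (n : ℕ) {M : Type*} [TopologicalSpace M] [ChartedSpace (EuclideanSpace ℝ (Fin n)) M]
    [IsManifold 𝓘(ℝ, EuclideanSpace ℝ (Fin n)) ∞ M]
    [RiemannianBundle (fun x : M => TangentSpace 𝓘(ℝ, EuclideanSpace ℝ (Fin n)) x)]
    [IsContMDiffRiemannianBundle 𝓘(ℝ, EuclideanSpace ℝ (Fin n)) ∞ (EuclideanSpace ℝ (Fin n))
      (fun x : M => TangentSpace 𝓘(ℝ, EuclideanSpace ℝ (Fin n)) x)]
    (u : Fin n → M → ℝ) (z : M) : Matrix (Fin n) (Fin n) ℝ :=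
  Matrix.of fun a b => mGam n (u a) (u b) z

lemma contMDiffAt_lin {k : WithTop ℕ∞} (hu : ∀ a, ContMDiffAt 𝓘E 𝓘(ℝ, ℝ) k (u a) p)
    (α : Fin n → ℝ) : ContMDiffAt 𝓘E 𝓘(ℝ, ℝ) k (lin α u) p := by
  unfold lin
  exact ContMDiffAt.sum fun a _ => contMDiffAt_const.mul (hu a)

lemma mdifferentiableAt_sum' (hu : ∀ a, MDifferentiableAt 𝓘E 𝓘(ℝ, ℝ) (u a) p) (α : Fin n → ℝ)
    (s : Finset (Fin n)) : MDifferentiableAt 𝓘E 𝓘(ℝ, ℝ) (fun z => ∑ a ∈ s, α a * u a z) p := by
  classical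
  induction s using Finset.induction_on with
  | empty => simpa using mdifferentiableAt_const
  | insert a s ha ih =>
    simp only [Finset.sum_insert ha]
    exact (mdifferentiableAt_const.mul (hu a)).add ih

lemma contMDiffAt_sum' {k : WithTop ℕ∞} (hu : ∀ a, ContMDiffAt 𝓘E 𝓘(ℝ, ℝ) k (u a) p)
    (α : Fin n → ℝ) (s : Finset (Fin n)) :
    ContMDiffAt 𝓘E 𝓘(ℝ, ℝ) k (fun z => ∑ a ∈ s, α a * u a z) p :=
  ContMDiffAt.sum fun a _ => contMDiffAt_const.mul (hu a)

lemma mgrad_lin (hu : ∀ a, MDifferentiableAt 𝓘E 𝓘(ℝ, ℝ) (u a) p) (α : Fin n → ℝ) :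
    mgrad n (lin α u) p = ∑ a, α a • mgrad n (u a) p := by
  classical
  have key : ∀ s : Finset (Fin n), mgrad n (fun z => ∑ a ∈ s, α a * u a z) p =
      ∑ a ∈ s, α a • mgrad n (u a) p := by
    intro s
    induction s using Finset.induction_on with
    | empty => simpa using mgrad_const (n := n) (p := p) 0
    | insert a s ha ih =>
      simp only [Finset.sum_insert ha]
      have h1 : MDifferentiableAt 𝓘E 𝓘(ℝ, ℝ) (fun z => α a * u a z) p :=
        mdifferentiableAt_const.mul (hu a)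
      rw [mgrad_add h1 (mdifferentiableAt_sum' hu α s), ih, mgrad_const_mul _ (hu a)]
  exact key Finset.univ

lemma mHess_lin (hu : ∀ a, ContMDiffAt 𝓘E 𝓘(ℝ, ℝ) 2 (u a) p) (α : Fin n → ℝ)
    (v w : TangentSpace 𝓘E p) :
    mHess n (lin α u) p v w = ∑ a, α a * mHess n (u a) p v w := by
  classical
  have key : ∀ s : Finset (Fin n), mHess n (fun z => ∑ a ∈ s, α a * u a z) p v w =
      ∑ a ∈ s, α a * mHess n (u a) p v w := by
    intro s
    induction s using Finset.induction_on with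
    | empty =>
      have h1 : (fun z : M => ∑ a ∈ (∅ : Finset (Fin n)), α a * u a z) = fun z => 0 * (0 : ℝ) := by
        funext z; simp
      rw [h1]
      have h2 := mHess_const_mul (n := n) (p := p) (f := fun _ => (0:ℝ)) 0 contMDiffAt_const v w
      rw [h2]; simp
    | insert a s ha ih =>
      simp only [Finset.sum_insert ha]
      have h1 : ContMDiffAt 𝓘E 𝓘(ℝ, ℝ) 2 (fun z => α a * u a z) p := contMDiffAt_const.mul (hu a)
      rw [mHess_add h1 (contMDiffAt_sum' hu α s), ih, mHess_const_mul _ (hu a)]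
  exact key Finset.univ

lemma mHess_sum_left (f : M → ℝ) (p : M) (s : Finset (Fin n)) (V : Fin n → TangentSpace 𝓘E p)
    (α : Fin n → ℝ) (w : TangentSpace 𝓘E p) :
    mHess n f p (∑ a ∈ s, α a • V a) w = ∑ a ∈ s, α a * mHess n f p (V a) w := by
  classical
  induction s using Finset.induction_on with
  | empty =>
    have := mHess_smul_left (n := n) f p 0 0 w
    simpa using this
  | insert a s ha ih =>
    rw [Finset.sum_insert ha, Finset.sum_insert ha, mHess_add_left, mHess_smul_left, ih]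

lemma mHess_sum_right (f : M → ℝ) (p : M) (s : Finset (Fin n)) (V : Fin n → TangentSpace 𝓘E p)
    (α : Fin n → ℝ) (v : TangentSpace 𝓘E p) :
    mHess n f p v (∑ a ∈ s, α a • V a) = ∑ a ∈ s, α a * mHess n f p v (V a) := by
  classical
  induction s using Finset.induction_on with
  | empty =>
    have := mHess_smul_right (n := n) f p 0 v 0
    simpa using this
  | insert a s ha ih =>
    rw [Finset.sum_insert ha, Finset.sum_insert ha, mHess_add_right, mHess_smul_right, ih]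

lemma mK_lin (hu : ∀ a, ContMDiffAt 𝓘E 𝓘(ℝ, ℝ) 2 (u a) p) (α β γ : Fin n → ℝ) :
    mK n (lin α u) (lin β u) (lin γ u) p = K3 (KM n u p) α β γ := by
  have hd : ∀ a, MDifferentiableAt 𝓘E 𝓘(ℝ, ℝ) (u a) p := fun a =>
    (hu a).mdifferentiableAt (by norm_num)
  rw [mK, mHess_lin hu, mgrad_lin hd, mgrad_lin hd, K3]
  refine Finset.sum_congr rfl fun a _ => ?_
  rw [mHess_sum_left, Finset.mul_sum]
  refine Finset.sum_congr rfl fun b _ => ?_
  rw [mHess_sum_right, Finset.mul_sum, Finset.mul_sum]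
  refine Finset.sum_congr rfl fun c _ => ?_
  rw [KM, mK]; ring

lemma mGam_lin_left (hu : ∀ a, MDifferentiableAt 𝓘E 𝓘(ℝ, ℝ) (u a) p) (α : Fin n → ℝ)
    (h : M → ℝ) : mGam n (lin α u) h p = ∑ a, α a * mGam n (u a) h p := by
  rw [mGam_eq_inner, mgrad_lin hu, sum_inner]
  refine Finset.sum_congr rfl fun a _ => ?_
  rw [real_inner_smul_left, mGam_eq_inner]

/-- the inner product of two tangent vectors, expanded in `n` gradients. -/
theorem inner_expand (hd : IsUnit (FM n u p).det) (v w : TangentSpace 𝓘E p) :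
    inner ℝ v w = ∑ i, ∑ j, (FM n u p)⁻¹ i j * inner ℝ (mgrad n (u i) p) v *
      inner ℝ (mgrad n (u j) p) w := by
  have h1 := bil_expand (isRiemannianOn_chartMetric (n := n) p) (centre_mem p)
    (u := fun i => inCh n p (u i)) (F := FM n u p) (fun i j => rfl) hd (dCh p p v) (dCh p p w)
  rw [inner_centre, h1]
  refine Finset.sum_congr rfl fun i _ => Finset.sum_congr rfl fun j _ => ?_
  rw [inner_mgrad, inner_mgrad, mfderiv_centre, mfderiv_centre]

lemma mgrad_single (u : Fin n → M → ℝ) (i : Fin n)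
    (hu : ∀ a, MDifferentiableAt 𝓘E 𝓘(ℝ, ℝ) (u a) p) :
    mgrad n (lin (Pi.single i 1) u) p = mgrad n (u i) p := by
  classical
  rw [mgrad_lin hu, Finset.sum_eq_single i]
  · simp
  · intro b _ hb
    simp [hb]
  · simp

/-- `⟨Hess f_α ∇f_β, Hess f_α' ∇f_β'⟩` in terms of `F`, `K`. -/
theorem inner_mHessE_lin (hu : ∀ a, ContMDiffAt 𝓘E 𝓘(ℝ, ℝ) 2 (u a) p)
    (hd : IsUnit (FM n u p).det) (α β α' β' : Fin n → ℝ) :
    inner ℝ (mHessE n (lin α u) p (mgrad n (lin β u) p))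
      (mHessE n (lin α' u) p (mgrad n (lin β' u) p)) = KK (FM n u p) (KM n u p) α β α' β' := by
  have hm : ∀ a, MDifferentiableAt 𝓘E 𝓘(ℝ, ℝ) (u a) p := fun a =>
    (hu a).mdifferentiableAt (by norm_num)
  rw [inner_expand hd, KK]
  refine Finset.sum_congr rfl fun i _ => Finset.sum_congr rfl fun j _ => ?_
  have e : ∀ (α β : Fin n → ℝ) (i : Fin n), inner ℝ (mgrad n (u i) p)
      (mHessE n (lin α u) p (mgrad n (lin β u) p)) = K3 (KM n u p) α β (Pi.single i 1) := by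
    intro α β i
    rw [real_inner_comm, inner_mHessE (contMDiffAt_lin hu α), ← mgrad_single u i hm]
    exact mK_lin hu α β (Pi.single i 1)
  rw [e, e]

/-- the quadratic part of the curvature in terms of `F`, `K`. -/
theorem mQ_lin (hu : ∀ a, ContMDiffAt 𝓘E 𝓘(ℝ, ℝ) 2 (u a) p)
    (hd : IsUnit (FM n u p).det) (α β : Fin n → ℝ) :
    mQ n (lin α u) (lin β u) p = Qd (FM n u p) (KM n u p) α β := by
  rw [mQ, inner_mHessE_lin hu hd, inner_mHessE_lin hu hd, inner_mHessE_lin hu hd, Qd]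

lemma mLap_lin (hu : ∀ a, ContMDiffAt 𝓘E 𝓘(ℝ, ℝ) 2 (u a) p) (h0 : ∀ a, mLap n (u a) p = 0)
    (α : Fin n → ℝ) : mLap n (lin α u) p = 0 := by
  classical
  have key : ∀ s : Finset (Fin n), mLap n (fun z => ∑ a ∈ s, α a * u a z) p = 0 := by
    intro s
    induction s using Finset.induction_on with
    | empty => simpa using mLap_const (n := n) (p := p) 0
    | insert a s ha ih =>
      simp only [Finset.sum_insert ha]
      have h1 : ContMDiffAt 𝓘E 𝓘(ℝ, ℝ) 2 (fun z => α a * u a z) p := contMDiffAt_const.mul (hu a)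
      rw [mLap_add h1 (contMDiffAt_sum' hu α s), ih, mLap_const_mul _ (hu a), h0, mul_zero,
        zero_add]
  exact key Finset.univ

end mfd

section main

variable {n : ℕ} {M : Type*} [MetricSpace M] [ChartedSpace (EuclideanSpace ℝ (Fin n)) M]
  [IsManifold (𝓡 n) ∞ M]
  [RiemannianBundle (fun p : M => TangentSpace (𝓡 n) p)]
  [IsContMDiffRiemannianBundle (𝓡 n) ∞ (EuclideanSpace ℝ (Fin n)) (fun p : M => TangentSpace (𝓡 n) p)]
  [SecondCountableTopology M] [Nonempty M] [IsRiemannianManifold (𝓡 n) M]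
  [MeasurableSpace M] [BorelSpace M]

local notation "𝔼" => EuclideanSpace ℝ (Fin n)

/-- **weak curvature in harmonic coordinates `u`, on `M`**: for `f = Σ α_a u_a`, `h = Σ β_a u_a`,
`ψ = φ(u)` on `U`: `∫ ψ ⟨R(∇f,∇h)∇h,∇f⟩ = ∫ Sg(F, K, α, β, φ(u), dφ(u))`. -/
theorem integral_mSec_lin {U : Set M} (hU : IsOpen U) {u : Fin n → M → ℝ} {ψ : M → ℝ} {φ : 𝔼 → ℝ}
    (hu : ∀ a, ∀ z ∈ U, ContMDiffAt (𝓡 n) 𝓘(ℝ, ℝ) 3 (u a) z)
    (hul : ∀ a, ∀ z ∈ U, mLap n (u a) z = 0) (hd : ∀ z ∈ U, IsUnit (FM n u z).det)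
    (hφ : Differentiable ℝ φ)
    (hψ : ∀ z ∈ U, ContMDiffAt (𝓡 n) 𝓘(ℝ, ℝ) 1 ψ z)
    (hc : HasCompactSupport ψ) (hs : tsupport ψ ⊆ U)
    (hψφ : ∀ z ∈ U, ψ z = φ (WithLp.toLp 2 fun d => u d z)) (α β : Fin n → ℝ) :
    Integrable (fun z => ψ z * mSec n z (mgrad n (lin α u) z) (mgrad n (lin β u) z))
      (μHE[n] : Measure M) ∧
    IntegrableOn (fun z => Sg (FM n u z) (KM n u z) α β (φ (WithLp.toLp 2 fun d => u d z))
      (fun e => pderiv e φ (WithLp.toLp 2 fun d => u d z))) U (μHE[n] : Measure M) ∧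
    ∫ z, ψ z * mSec n z (mgrad n (lin α u) z) (mgrad n (lin β u) z) ∂(μHE[n] : Measure M) =
      ∫ z in U, Sg (FM n u z) (KM n u z) α β (φ (WithLp.toLp 2 fun d => u d z))
        (fun e => pderiv e φ (WithLp.toLp 2 fun d => u d z)) ∂(μHE[n] : Measure M) := by
  have hu2 : ∀ a, ∀ z ∈ U, ContMDiffAt (𝓡 n) 𝓘(ℝ, ℝ) 2 (u a) z :=
    fun a z hz => (hu a z hz).of_le (by norm_num)
  have hud : ∀ a, ∀ z ∈ U, MDifferentiableAt (𝓡 n) 𝓘(ℝ, ℝ) (u a) z :=
    fun a z hz => (hu a z hz).mdifferentiableAt (by norm_num)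
  obtain ⟨j1, j2, j3, j4, j5⟩ := integral_mSec hU (f := lin α u) (h := lin β u)
    (fun z hz => contMDiffAt_lin (fun a => hu a z hz) α)
    (fun z hz => contMDiffAt_lin (fun a => hu a z hz) β)
    (fun z hz => mLap_lin (fun a => hu2 a z hz) (fun a => hul a z hz) α)
    (fun z hz => mLap_lin (fun a => hu2 a z hz) (fun a => hul a z hz) β) hψ hc hs
  have hG : ∀ γ : Fin n → ℝ, ∀ z ∈ U, mGam n (lin γ u) ψ z =
      F2 (FM n u z) γ (fun e => pderiv e φ (WithLp.toLp 2 fun d => u d z)) := by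
    intro γ z hz
    rw [mGam_of_comp hU hφ hud hψφ _ hz, F2]
    have e1 : ∀ d, mGam n (lin γ u) (u d) z = ∑ a, γ a * mGam n (u a) (u d) z := fun d =>
      mGam_lin_left (fun a => hud a z hz) γ (u d)
    simp only [e1, Finset.mul_sum]
    rw [Finset.sum_comm]
    refine Finset.sum_congr rfl fun a _ => Finset.sum_congr rfl fun b _ => ?_
    rw [FM, Matrix.of_apply]; ring
  -- the integrand
  set S : M → ℝ := fun z => -(mK n (lin β u) (lin β u) (lin α u) z * mGam n (lin α u) ψ z)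
    + mK n (lin β u) (lin α u) (lin α u) z * mGam n (lin β u) ψ z
    + ψ z * mQ n (lin α u) (lin β u) z with hS
  have hSI : Integrable S (μHE[n] : Measure M) := (j2.neg.add j3).add j4
  have hSU : ∀ z ∈ U, S z = Sg (FM n u z) (KM n u z) α β (φ (WithLp.toLp 2 fun d => u d z))
      (fun e => pderiv e φ (WithLp.toLp 2 fun d => u d z)) := by
    intro z hz
    simp only [hS]
    rw [mK_lin (fun a => hu2 a z hz), mK_lin (fun a => hu2 a z hz), hG α z hz, hG β z hz,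
      mQ_lin (fun a => hu2 a z hz) (hd z hz), hψφ z hz, Sg]
    ring
  have hS0 : ∀ z, z ∉ U → S z = 0 := by
    intro z hz
    have h1 : z ∉ tsupport ψ := fun h => hz (hs h)
    simp only [hS]
    rw [mGam_zero_off h1, mGam_zero_off h1, image_eq_zero_of_notMem_tsupport h1]
    ring
  refine ⟨j1, ?_, ?_⟩
  · exact (hSI.integrableOn (s := U)).congr_fun hSU hU.measurableSet
  · rw [j5, ← setIntegral_congr_fun hU.measurableSet hSU,
      setIntegral_eq_integral_of_forall_compl_eq_zero hS0]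
    have e2 : S = fun z => (-(mK n (lin β u) (lin β u) (lin α u) z * mGam n (lin α u) ψ z)
      + mK n (lin β u) (lin α u) (lin α u) z * mGam n (lin β u) ψ z)
      + ψ z * mQ n (lin α u) (lin β u) z := rfl
    have i5 : Integrable (fun z => -(mK n (lin β u) (lin β u) (lin α u) z *
      mGam n (lin α u) ψ z) + mK n (lin β u) (lin α u) (lin α u) z * mGam n (lin β u) ψ z)
      (μHE[n] : Measure M) := j2.neg.add j3
    have i6 : Integrable (fun z => -(mK n (lin β u) (lin β u) (lin α u) z *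
      mGam n (lin α u) ψ z)) (μHE[n] : Measure M) := j2.neg
    rw [e2, integral_add i5 j4, integral_add i6 j3, integral_neg]

end main

end Crest.Agent.R249.Sec934
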