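import Crest.Agent.R249.Sec4_934

/-!
R249, leaf D3-LIM/L-SEC (helper934), file 5: the Euclidean (limit) side.  For a smooth metric `g` on
an open set `Ω ⊆ ℝⁿ` whose coordinates are harmonic:
`∫ √det g · φ ⟨R(X,Y)Y,X⟩ = ∫ √det g · Sg(g⁻¹, K, α, β, φ, dφ)`, `X = g⁻¹α`, `Y = g⁻¹β`, and
nonnegativity of the right hand sides for all `φ ≥ 0` implies `sec ≥ 0` on `Ω`.
-/

set_option autoImplicit false
set_option maxSynthPendingDepth 3
set_option linter.unusedSectionVars false

open scoped ContDiff Topology Manifold NNReal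
open Filter Set MeasureTheory
open Crest.GeometryTopology.CoordMetric Crest.GeometryTopology.ChartCurvature
open Crest.Agent.R202.Tens
open Crest.Agent.R247.Bo84
open Crest.Agent.R247.Ms322 (LLo ibp_euclid integrable_mul_of_continuousOn integrable_mul_fderiv
  fderiv_zero_off integrable_of_compact)

noncomputable section

namespace Crest.Agent.R249.Sec934

variable {n : ℕ} {g : MetricField n} {U : Set (EuclideanSpace ℝ (Fin n))}
  {x : EuclideanSpace ℝ (Fin n)}

local notation "𝔼" => EuclideanSpace ℝ (Fin n)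

/-- integration by parts for a metric field. -/
theorem ibpE (hg : IsRiemannianOn g U) {F Φ : 𝔼 → ℝ} (hF : ∀ a ∈ U, ContDiffAt ℝ 2 F a)
    (hΦ : LocallyLipschitz Φ) (hc : HasCompactSupport Φ) (hs : tsupport Φ ⊆ U) :
    ∫ a, Real.sqrt (g a).det * gam g F Φ a =
      - ∫ a, Real.sqrt (g a).det * (Φ a * laplaceBeltrami g F a) := by
  have hU : IsOpen U := hg.isOpen
  set W : Fin n → 𝔼 → ℝ := fun j a => Real.sqrt (g a).det * grad g F a j with hW
  have hWd : ∀ j, ∀ a ∈ U, ContDiffAt ℝ 1 (W j) a := by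
    intro j a ha
    have h1 : ContDiffAt ℝ 1 (fun a => Real.sqrt (g a).det) a :=
      (contDiffAt_sqrt_det hg ha).of_le (by simp)
    have h2 : ContDiffAt ℝ 1 (grad g F) a :=
      contDiffAt_grad hg ha (m := 1) (hF a ha) (by norm_num) (by simp)
    have h3 : ContDiffAt ℝ 1 (fun a => grad g F a j) a :=
      (EuclideanSpace.proj j : 𝔼 →L[ℝ] ℝ).contDiff.contDiffAt.comp a h2
    exact h1.mul h3
  have hWL : ∀ j, LLo U (W j) := fun j a ha => (hWd j a ha).exists_lipschitzOnWith
  have hWc : ∀ j, ContinuousOn (W j) U := fun j a ha => (hWd j a ha).continuousAt.continuousWithinAt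
  have hWc' : ∀ j, ContinuousOn (fun a => pderiv j (W j) a) U := by
    intro j a ha
    have h1 : ContDiffAt ℝ 0 (fderiv ℝ (W j)) a := (hWd j a ha).fderiv_right (by norm_num)
    have h2 : ContinuousAt (fun a => fderiv ℝ (W j) a (EuclideanSpace.single j 1)) a :=
      h1.continuousAt.clm_apply continuousAt_const
    exact h2.continuousWithinAt
  -- left-hand side
  have e1 : (fun a => Real.sqrt (g a).det * gam g F Φ a) = fun a => ∑ j, W j a * pderiv j Φ a := by
    funext a
    by_cases ha : a ∈ U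
    · rw [gam, Finset.sum_comm, Finset.mul_sum]
      refine Finset.sum_congr rfl fun j _ => ?_
      rw [hW]
      simp only
      rw [grad_apply, mul_assoc, Finset.sum_mul]
      congr 1
      refine Finset.sum_congr rfl fun i _ => ?_
      rw [inv_symm hg ha i j]
    · have h0 : fderiv ℝ Φ a = 0 := fderiv_zero_off fun h => ha (hs h)
      have h1 : ∀ j, pderiv j Φ a = 0 := fun j => by rw [pderiv, h0]; rfl
      rw [gam]
      simp [h1]
  have e2 : (fun a => Real.sqrt (g a).det * (Φ a * laplaceBeltrami g F a)) =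
      fun a => ∑ j, pderiv j (W j) a * Φ a := by
    funext a
    by_cases ha : a ∈ U
    · have h1 : laplaceBeltrami g F a = (1 / Real.sqrt (g a).det) * ∑ j, pderiv j (W j) a := rfl
      have h2 : Real.sqrt (g a).det ≠ 0 := (Real.sqrt_pos.2 (det_pos hg ha)).ne'
      rw [h1, ← Finset.sum_mul]
      field_simp
    · have h0 : Φ a = 0 := image_eq_zero_of_notMem_tsupport fun h => ha (hs h)
      simp [h0]
  rw [e1, e2, integral_finsetSum, integral_finsetSum, ← Finset.sum_neg_distrib]
  · refine Finset.sum_congr rfl fun j _ => ?_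
    exact ibp_euclid hU (hWL j) hΦ hc hs (EuclideanSpace.single j 1)
  · intro j _
    exact integrable_mul_of_continuousOn (hWc' j) hΦ.continuous hc hs
  · intro j _
    exact integrable_mul_fderiv (hWc j) hΦ hc hs (EuclideanSpace.single j 1)

lemma integrableE_of_cont {F : 𝔼 → ℝ} {K : Set 𝔼} (hK : IsCompact K) (hF : ContinuousOn F K)
    (h0 : ∀ b, b ∉ K → F b = 0) : Integrable F := by
  obtain ⟨C, hC⟩ := hK.exists_bound_of_continuousOn hF
  exact integrable_of_compact hK (hF.aestronglyMeasurable hK.measurableSet) hC h0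

lemma continuousOn_sqrt_det (hg : IsRiemannianOn g U) :
    ContinuousOn (fun a => Real.sqrt (g a).det) U := fun _ ha =>
  (contDiffAt_sqrt_det hg ha).continuousAt.continuousWithinAt

lemma locallyLipschitzE_of_supp {ψ : 𝔼 → ℝ} (hψ : ∀ z ∈ U, ContDiffAt ℝ 1 ψ z)
    (hs : tsupport ψ ⊆ U) : LocallyLipschitz ψ := by
  intro z
  by_cases hz : z ∈ U
  · exact (hψ z hz).exists_lipschitzOnWith
  · refine ⟨0, (tsupport ψ)ᶜ, (isClosed_tsupport _).isOpen_compl.mem_nhds fun h => hz (hs h), ?_⟩
    intro b hb c hc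
    simp [image_eq_zero_of_notMem_tsupport hb, image_eq_zero_of_notMem_tsupport hc]

lemma gam_zero_off {f ψ : 𝔼 → ℝ} {z : 𝔼} (hz : z ∉ tsupport ψ) : gam g f ψ z = 0 := by
  have h0 : fderiv ℝ ψ z = 0 := fderiv_zero_off hz
  have h1 : ∀ j, pderiv j ψ z = 0 := fun j => by rw [pderiv, h0]; rfl
  rw [gam]
  simp [h1]

lemma continuousOn_gam (hg : IsRiemannianOn g U) {f ψ : 𝔼 → ℝ}
    (hf : ∀ z ∈ U, ContDiffAt ℝ 1 f z) (hψ : ∀ z ∈ U, ContDiffAt ℝ 1 ψ z) :
    ContinuousOn (gam g f ψ) U := by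
  intro z hz
  have h1 := contDiffAt_gam (m := 0) hg hz (hf z hz) (hψ z hz) (by norm_num) (by simp)
  exact h1.continuousAt.continuousWithinAt

/-- Green's formula with three functions, for a metric field; `Δf = 0`. -/
theorem green3E (hg : IsRiemannianOn g U) {f K ψ : 𝔼 → ℝ}
    (hf : ∀ z ∈ U, ContDiffAt ℝ 2 f z) (hfl : ∀ z ∈ U, laplaceBeltrami g f z = 0)
    (hK : ∀ z ∈ U, ContDiffAt ℝ 1 K z) (hψ : ∀ z ∈ U, ContDiffAt ℝ 1 ψ z)
    (hc : HasCompactSupport ψ) (hs : tsupport ψ ⊆ U) :
    Integrable (fun z => Real.sqrt (g z).det * (ψ z * gam g f K z)) ∧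
    Integrable (fun z => Real.sqrt (g z).det * (K z * gam g f ψ z)) ∧
    ∫ z, Real.sqrt (g z).det * (ψ z * gam g f K z) =
      - ∫ z, Real.sqrt (g z).det * (K z * gam g f ψ z) := by
  have hf1 : ∀ z ∈ U, ContDiffAt ℝ 1 f z := fun z hz => (hf z hz).of_le (by norm_num)
  have hψc : Continuous ψ := (locallyLipschitzE_of_supp hψ hs).continuous
  have hKc : ContinuousOn K U := fun z hz => (hK z hz).continuousAt.continuousWithinAt
  have i1 : Integrable (fun z => Real.sqrt (g z).det * (ψ z * gam g f K z)) := by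
    refine integrableE_of_cont hc.isCompact (((continuousOn_sqrt_det hg).mono hs).mul
      (hψc.continuousOn.mul ((continuousOn_gam hg hf1 hK).mono hs))) fun b hb => ?_
    rw [image_eq_zero_of_notMem_tsupport hb, zero_mul, mul_zero]
  have i2 : Integrable (fun z => Real.sqrt (g z).det * (K z * gam g f ψ z)) := by
    refine integrableE_of_cont hc.isCompact (((continuousOn_sqrt_det hg).mono hs).mul
      ((hKc.mono hs).mul ((continuousOn_gam hg hf1 hψ).mono hs))) fun b hb => ?_
    rw [gam_zero_off hb, mul_zero, mul_zero]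
  refine ⟨i1, i2, ?_⟩
  have hsub : tsupport (fun z => ψ z * K z) ⊆ tsupport ψ := tsupport_mul_subset_left
  have hcφ : HasCompactSupport (fun z => ψ z * K z) := hc.mul_right
  have hφ : ∀ z ∈ U, ContDiffAt ℝ 1 (fun z => ψ z * K z) z := fun z hz => (hψ z hz).mul (hK z hz)
  have h1 := ibpE hg hf (locallyLipschitzE_of_supp hφ (hsub.trans hs)) hcφ (hsub.trans hs)
  have e0 : (fun a => Real.sqrt (g a).det * ((fun z => ψ z * K z) a * laplaceBeltrami g f a)) =
      fun _ => 0 := by
    funext z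
    by_cases hz : z ∈ U
    · rw [hfl z hz, mul_zero, mul_zero]
    · have hz1 : z ∉ tsupport ψ := fun h => hz (hs h)
      simp only [image_eq_zero_of_notMem_tsupport hz1, zero_mul, mul_zero]
  have e1 : (fun z => Real.sqrt (g z).det * gam g f (fun z => ψ z * K z) z) =
      fun z => Real.sqrt (g z).det * (ψ z * gam g f K z) +
        Real.sqrt (g z).det * (K z * gam g f ψ z) := by
    funext z
    by_cases hz : z ∈ U
    · rw [gam_comm hg hz, gam_mul_left ((hψ z hz).differentiableAt (by norm_num))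
        ((hK z hz).differentiableAt (by norm_num)), gam_comm hg hz K f, gam_comm hg hz ψ f]
      ring
    · have hz1 : z ∉ tsupport ψ := fun h => hz (hs h)
      rw [gam_zero_off (fun h => hz1 (hsub h)), gam_zero_off hz1,
        image_eq_zero_of_notMem_tsupport hz1]
      ring
  rw [e1, e0, integral_zero, neg_zero, integral_add i1 i2] at h1
  linarith

/-- **integrated curvature**, for a metric field on an open set of `ℝⁿ`. -/
theorem integral_secNumer (hg : IsRiemannianOn g U) {f h ψ : 𝔼 → ℝ}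
    (hf : ∀ z ∈ U, ContDiffAt ℝ 3 f z) (hh : ∀ z ∈ U, ContDiffAt ℝ 3 h z)
    (hfl : ∀ z ∈ U, laplaceBeltrami g f z = 0) (hhl : ∀ z ∈ U, laplaceBeltrami g h z = 0)
    (hψ : ∀ z ∈ U, ContDiffAt ℝ 1 ψ z) (hc : HasCompactSupport ψ) (hs : tsupport ψ ⊆ U) :
    Integrable (fun z => Real.sqrt (g z).det * (ψ z * secNumer g z (grad g f z) (grad g h z))) ∧
    ∫ z, Real.sqrt (g z).det * (ψ z * secNumer g z (grad g f z) (grad g h z)) =
      ∫ z, Real.sqrt (g z).det * (- (hK g h h f z * gam g f ψ z) + hK g h f f z * gam g h ψ z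
        + ψ z * (2 * hQ g f h h f z - hQ g h f h f z - hQ g h h f f z)) := by
  have hf2 : ∀ z ∈ U, ContDiffAt ℝ 2 f z := fun z hz => (hf z hz).of_le (by norm_num)
  have hh2 : ∀ z ∈ U, ContDiffAt ℝ 2 h z := fun z hz => (hh z hz).of_le (by norm_num)
  have hψc : Continuous ψ := (locallyLipschitzE_of_supp hψ hs).continuous
  have h12 : (1 : WithTop ℕ∞) + 1 ≤ ∞ := by
    rw [one_add_one_eq_two]; exact two_le_infty
  have k1 : ∀ z ∈ U, ContDiffAt ℝ 1 (hK g h h f) z := fun z hz =>
    contDiffAt_hK hg hz (hh z hz) (hh z hz) (hf z hz) (by norm_num) h12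
  have k2 : ∀ z ∈ U, ContDiffAt ℝ 1 (hK g h f f) z := fun z hz =>
    contDiffAt_hK hg hz (hh z hz) (hf z hz) (hf z hz) (by norm_num) h12
  obtain ⟨a1, a2, a3⟩ := green3E hg hf2 hfl k1 hψ hc hs
  obtain ⟨b1, b2, b3⟩ := green3E hg hh2 hhl k2 hψ hc hs
  have hQc : ∀ {f a h b : 𝔼 → ℝ}, (∀ z ∈ U, ContDiffAt ℝ 2 f z) → (∀ z ∈ U, ContDiffAt ℝ 2 a z) →
      (∀ z ∈ U, ContDiffAt ℝ 2 h z) → (∀ z ∈ U, ContDiffAt ℝ 2 b z) →
      ContinuousOn (hQ g f a h b) U := by
    intro f a h b h1 h2 h3 h4 z hz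
    exact (contDiffAt_hQ (m := 0) hg hz (h1 z hz) (h3 z hz) (h2 z hz) (h4 z hz) (by norm_num)
      (by simp)).continuousAt.continuousWithinAt
  have i4 : Integrable (fun z => Real.sqrt (g z).det *
      (ψ z * (2 * hQ g f h h f z - hQ g h f h f z - hQ g h h f f z))) := by
    refine integrableE_of_cont hc.isCompact (((continuousOn_sqrt_det hg).mono hs).mul
      (hψc.continuousOn.mul (ContinuousOn.mono (((continuousOn_const.mul
        (hQc hf2 hh2 hh2 hf2)).sub (hQc hh2 hf2 hh2 hf2)).sub (hQc hh2 hh2 hf2 hf2)) hs)))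
      fun b hb => ?_
    rw [image_eq_zero_of_notMem_tsupport hb, zero_mul, mul_zero]
  have e : (fun z => Real.sqrt (g z).det * (ψ z * secNumer g z (grad g f z) (grad g h z))) =
      fun z => (Real.sqrt (g z).det * (ψ z * gam g f (hK g h h f) z) -
        Real.sqrt (g z).det * (ψ z * gam g h (hK g h f f) z))
        + Real.sqrt (g z).det *
          (ψ z * (2 * hQ g f h h f z - hQ g h f h f z - hQ g h h f f z)) := by
    funext z
    by_cases hz : z ∈ U
    · rw [secNumer_grad hg hz (hf2 z hz) (hh z hz), hQ, hQ, hQ]; ring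
    · rw [image_eq_zero_of_notMem_tsupport (fun h => hz (hs h))]; ring
  have i5 : Integrable (fun z => Real.sqrt (g z).det * (ψ z * gam g f (hK g h h f) z) -
        Real.sqrt (g z).det * (ψ z * gam g h (hK g h f f) z)) := a1.sub b1
  have e' : (fun z => Real.sqrt (g z).det * (- (hK g h h f z * gam g f ψ z)
        + hK g h f f z * gam g h ψ z
        + ψ z * (2 * hQ g f h h f z - hQ g h f h f z - hQ g h h f f z))) =
      fun z => (-(Real.sqrt (g z).det * (hK g h h f z * gam g f ψ z)) +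
        Real.sqrt (g z).det * (hK g h f f z * gam g h ψ z))
        + Real.sqrt (g z).det *
          (ψ z * (2 * hQ g f h h f z - hQ g h f h f z - hQ g h h f f z)) := by
    funext z; ring
  have i6 : Integrable (fun z => -(Real.sqrt (g z).det * (hK g h h f z * gam g f ψ z)) +
        Real.sqrt (g z).det * (hK g h f f z * gam g h ψ z)) := a2.neg.add b2
  have i7 : Integrable (fun z => -(Real.sqrt (g z).det * (hK g h h f z * gam g f ψ z))) := a2.neg
  refine ⟨?_, ?_⟩
  · rw [e]; exact i5.add i4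
  · rw [e, e', integral_add i5 i4, integral_sub a1 b1, a3, b3, integral_add i6 i4,
      integral_add i7 b2, integral_neg]
    ring

end Crest.Agent.R249.Sec934
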