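import Crest.Agent.R249.Sec5_934

/-!
R249, leaf D3-LIM/L-SEC (helper934), file 6: linear functions of harmonic coordinates on
`Ω ⊆ ℝⁿ`; the weak curvature in terms of `h = g⁻¹` and `K`; `K` in terms of `P^{ab;c}`; passage from
the integrated inequality to `sec ≥ 0`.
-/

set_option autoImplicit false
set_option maxSynthPendingDepth 3
set_option linter.unusedSectionVars false

open scoped ContDiff Topology Manifold NNReal
open Filter Set Bundle MeasureTheory
open Crest.GeometryTopology.CoordMetric Crest.GeometryTopology.ChartCurvature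
open Crest.Agent.R202.Tens
open Crest.Agent.R247.Bo84

noncomputable section

namespace Crest.Agent.R249.Sec934

section coord

variable {n : ℕ} {g : MetricField n} {U : Set (EuclideanSpace ℝ (Fin n))}
  {x : EuclideanSpace ℝ (Fin n)}

local notation "𝔼" => EuclideanSpace ℝ (Fin n)

/-- the coordinate functions. -/
def crd (n : ℕ) (a : Fin n) (y : EuclideanSpace ℝ (Fin n)) : ℝ := y a

/-- `Σ α_a y_a`. -/
def linE (α : Fin n → ℝ) (y : EuclideanSpace ℝ (Fin n)) : ℝ := ∑ a, α a * y a

/-- `K^{a;bc}` of the coordinate functions. -/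
def KE (g : MetricField n) (x : EuclideanSpace ℝ (Fin n)) (a b c : Fin n) : ℝ :=
  hK g (crd n a) (crd n b) (crd n c) x

/-- `P^{ab;c} = ⟨∇g^{ab}, ∇x_c⟩`. -/
def PE (g : MetricField n) (x : EuclideanSpace ℝ (Fin n)) (a b c : Fin n) : ℝ :=
  ∑ d, inverseField g x d c * pderiv d (fun y => inverseField g y a b) x

lemma linE_eq (α : Fin n → ℝ) : linE α = fun y : 𝔼 =>
    (∑ a, α a • (EuclideanSpace.proj a : 𝔼 →L[ℝ] ℝ)) y := by
  funext y
  simp only [linE, sum_apply, smul_apply, smul_eq_mul]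
  rfl

lemma hasFDerivAt_linE (α : Fin n → ℝ) (x : 𝔼) :
    HasFDerivAt (linE α) (∑ a, α a • (EuclideanSpace.proj a : 𝔼 →L[ℝ] ℝ)) x := by
  rw [linE_eq]
  exact ContinuousLinearMap.hasFDerivAt _

lemma fderiv_linE (α : Fin n → ℝ) :
    fderiv ℝ (linE α) = fun _ : 𝔼 => ∑ a, α a • (EuclideanSpace.proj a : 𝔼 →L[ℝ] ℝ) := by
  funext x; exact (hasFDerivAt_linE α x).fderiv

lemma contDiff_linE (α : Fin n → ℝ) : ContDiff ℝ ∞ (linE α : 𝔼 → ℝ) := by
  rw [linE_eq]
  exact ContinuousLinearMap.contDiff _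

lemma crd_eq_linE (a : Fin n) : crd n a = linE (Pi.single a 1) := by
  classical
  funext y
  rw [linE, crd, Finset.sum_eq_single a]
  · simp
  · intro b _ hb; simp [hb]
  · simp

lemma pderiv_linE (α : Fin n → ℝ) (i : Fin n) (x : 𝔼) : pderiv i (linE α) x = α i := by
  classical
  rw [pderiv, fderiv_linE]
  simp only [sum_apply, smul_apply, smul_eq_mul, prj_apply]
  rw [Finset.sum_eq_single i]
  · simp
  · intro b _ hb; simp [hb]
  · simp

lemma hess_linE (α : Fin n → ℝ) (x X Y : 𝔼) :
    hess g (linE α) x X Y = - ∑ a, α a * (Gam g x X Y) a := by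
  rw [hess_apply, fderiv_linE]
  have h1 : fderiv ℝ (fun _ : 𝔼 => ∑ a, α a • (EuclideanSpace.proj a : 𝔼 →L[ℝ] ℝ)) x = 0 := by
    rw [fderiv_fun_const]; rfl
  rw [h1]
  simp only [zero_apply, sum_apply, smul_apply, smul_eq_mul, prj_apply, zero_sub]

lemma hess_linE_sum (α : Fin n → ℝ) (x X Y : 𝔼) :
    hess g (linE α) x X Y = ∑ a, α a * hess g (crd n a) x X Y := by
  classical
  have h1 : ∀ a, hess g (crd n a) x X Y = - (Gam g x X Y) a := by
    intro a
    rw [crd_eq_linE, hess_linE, Finset.sum_eq_single a]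
    · simp
    · intro b _ hb; simp [hb]
    · simp
  rw [hess_linE]
  simp only [h1]
  rw [← Finset.sum_neg_distrib]
  exact Finset.sum_congr rfl fun a _ => by ring

lemma grad_linE (β : Fin n → ℝ) (x : 𝔼) : grad g (linE β) x = ∑ b, β b • grad g (crd n b) x := by
  classical
  ext i
  rw [WithLp.ofLp_sum, Finset.sum_apply, grad_apply]
  refine Finset.sum_congr rfl fun b _ => ?_
  rw [PiLp.smul_apply, grad_apply, pderiv_linE, smul_eq_mul, crd_eq_linE]
  simp only [pderiv_linE]
  rw [Finset.sum_eq_single b]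
  · simp; ring
  · intro c _ hc; simp [hc]
  · simp

lemma hK_linE (α β γ : Fin n → ℝ) (x : 𝔼) :
    hK g (linE α) (linE β) (linE γ) x = K3 (KE g x) α β γ := by
  rw [hK, hess_linE_sum, K3, grad_linE, grad_linE]
  refine Finset.sum_congr rfl fun a _ => ?_
  simp only [map_sum, sum_apply, map_smul, smul_apply, smul_eq_mul, Finset.mul_sum]
  rw [Finset.sum_comm]
  refine Finset.sum_congr rfl fun b _ => Finset.sum_congr rfl fun c _ => ?_
  rw [KE, hK]; ring

lemma gam_crd (a b : Fin n) (x : 𝔼) : gam g (crd n a) (crd n b) x = inverseField g x a b := by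
  classical
  rw [gam, crd_eq_linE, crd_eq_linE]
  simp only [pderiv_linE]
  rw [Finset.sum_eq_single a, Finset.sum_eq_single b]
  · simp
  · intro c _ hc; simp [hc]
  · simp
  · intro c _ hc; simp [hc]
  · simp

lemma gam_linE (α : Fin n → ℝ) (ψ : 𝔼 → ℝ) (x : 𝔼) :
    gam g (linE α) ψ x = F2 (inverseField g x) α (fun e => pderiv e ψ x) := by
  rw [gam, F2]
  refine Finset.sum_congr rfl fun a _ => Finset.sum_congr rfl fun b _ => ?_
  rw [pderiv_linE]; ring

lemma grad_single (i : Fin n) (x : 𝔼) :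
    grad g (linE (Pi.single i 1)) x = grad g (crd n i) x := by
  rw [← crd_eq_linE]

lemma hQ_linE (hg : IsRiemannianOn g U) (hx : x ∈ U) (α β α' β' : Fin n → ℝ) :
    hQ g (linE α) (linE β) (linE α') (linE β') x = KK (inverseField g x) (KE g x) α β α' β' := by
  have hd : IsUnit (inverseField g x).det := by
    rw [inverseField]
    exact Matrix.isUnit_nonsing_inv_det _ (det_pos hg hx).ne'.isUnit
  have h1 := bil_expand hg hx (u := crd n) (F := inverseField g x)
    (fun i j => (gam_crd i j x).symm) hd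
    (hessE g (linE α) x (grad g (linE β) x)) (hessE g (linE α') x (grad g (linE β') x))
  rw [hQ, h1, KK]
  have e : ∀ (α β : Fin n → ℝ) (i : Fin n), fderiv ℝ (crd n i) x
      (hessE g (linE α) x (grad g (linE β) x)) = K3 (KE g x) α β (Pi.single i 1) := by
    intro α β i
    rw [← hK_linE, hK, grad_single, ← bil_hessE hg hx ((contDiff_linE α).contDiffAt.of_le
      two_le_infty), bil_symm hg hx, bil_grad hg hx]
  refine Finset.sum_congr rfl fun i _ => Finset.sum_congr rfl fun j _ => ?_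
  rw [e, e]

/-- `K` in terms of `P`. -/
lemma KE_eq_PE (hg : IsRiemannianOn g U) (hx : x ∈ U) (a b c : Fin n) :
    KE g x a b c = (PE g x a b c + PE g x a c b - PE g x b c a) / 2 := by
  have hs : ∀ a, ContDiffAt ℝ 2 (crd n a) x := fun a => by
    rw [crd_eq_linE]; exact (contDiff_linE _).contDiffAt.of_le two_le_infty
  have hP : ∀ a b c, PE g x a b c = KE g x a c b + KE g x b c a := by
    intro a b c
    have e1 : gam g (crd n a) (crd n b) = fun y => inverseField g y a b := by
      funext y; exact gam_crd a b y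
    have h1 := fderiv_gam hg hx (hs a) (hs b) (grad g (crd n c) x)
    rw [e1, fderiv_eq_sum] at h1
    have h2 : ∀ d, grad g (crd n c) x d = inverseField g x d c := by
      classical
      intro d
      rw [grad_apply, crd_eq_linE]
      simp only [pderiv_linE]
      rw [Finset.sum_eq_single c]
      · simp
      · intro e _ he; simp [he]
      · simp
    simp only [h2] at h1
    rw [PE, h1]
    rfl
  have hsymm : ∀ a b c, KE g x a b c = KE g x a c b := fun a b c => hess_symm hg hx (hs a) _ _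
  rw [hP, hP, hP, hsymm a c b, hsymm b a c, hsymm c a b, hsymm c b a]
  ring_nf

/-- **weak curvature in harmonic coordinates** on `Ω ⊆ ℝⁿ`. -/
theorem integral_secE (hg : IsRiemannianOn g U)
    (hl : ∀ a, ∀ z ∈ U, laplaceBeltrami g (crd n a) z = 0) {ψ : 𝔼 → ℝ}
    (hψ : ∀ z ∈ U, ContDiffAt ℝ 1 ψ z) (hc : HasCompactSupport ψ) (hs : tsupport ψ ⊆ U)
    (α β : Fin n → ℝ) :
    Integrable (fun z => Real.sqrt (g z).det *
      (ψ z * secNumer g z (grad g (linE α) z) (grad g (linE β) z))) ∧
    ∫ z, Real.sqrt (g z).det * (ψ z * secNumer g z (grad g (linE α) z) (grad g (linE β) z)) =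
      ∫ z in U, Real.sqrt (g z).det *
        Sg (inverseField g z) (KE g z) α β (ψ z) (fun e => pderiv e ψ z) := by
  classical
  have hl' : ∀ α : Fin n → ℝ, ∀ z ∈ U, laplaceBeltrami g (linE α) z = 0 := by
    intro α z hz
    have hcd : ∀ a, ContDiffAt ℝ 2 (crd n a) z := fun a => by
      rw [crd_eq_linE]; exact (contDiff_linE _).contDiffAt.of_le two_le_infty
    have key : ∀ s : Finset (Fin n), ContDiffAt ℝ 2 (fun y : 𝔼 => ∑ a ∈ s, α a * crd n a y) z ∧
        laplaceBeltrami g (fun y => ∑ a ∈ s, α a * crd n a y) z = 0 := by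
      intro s
      induction s using Finset.induction_on with
      | empty =>
        simp only [Finset.sum_empty]
        exact ⟨contDiffAt_const, lap_const 0⟩
      | insert a s ha ih =>
        simp only [Finset.sum_insert ha]
        have h1 : ContDiffAt ℝ 2 (fun y : 𝔼 => α a * crd n a y) z := contDiffAt_const.mul (hcd a)
        refine ⟨h1.add ih.1, ?_⟩
        rw [lap_add hg hz h1 ih.1, ih.2, lap_const_mul hg hz _ (hcd a), hl a z hz]
        ring
    exact (key Finset.univ).2
  have hsm : ∀ α : Fin n → ℝ, ∀ z ∈ U, ContDiffAt ℝ 3 (linE α) z := fun α z _ =>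
    (contDiff_linE α).contDiffAt.of_le three_le_infty
  obtain ⟨h1, h2⟩ := integral_secNumer hg (hsm α) (hsm β) (hl' α) (hl' β) hψ hc hs
  refine ⟨h1, ?_⟩
  rw [h2, ← setIntegral_eq_integral_of_forall_compl_eq_zero (s := U)]
  · refine setIntegral_congr_fun hg.isOpen.measurableSet fun z hz => ?_
    rw [hK_linE, hK_linE, gam_linE, gam_linE, hQ_linE hg hz, hQ_linE hg hz,
      hQ_linE hg hz, Sg, Qd]
    ring
  · intro z hz
    have h1 : z ∉ tsupport ψ := fun h => hz (hs h)
    rw [gam_zero_off h1, gam_zero_off h1, image_eq_zero_of_notMem_tsupport h1]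
    ring

/-- a continuous function with nonnegative integrals against bumps is nonnegative. -/
lemma nonneg_of_integral {w : 𝔼 → ℝ} (hU : IsOpen U) (hw : ContinuousOn w U)
    (h : ∀ ψ : 𝔼 → ℝ, ContDiff ℝ ∞ ψ → HasCompactSupport ψ → tsupport ψ ⊆ U → (∀ z, 0 ≤ ψ z) →
      0 ≤ ∫ z, ψ z * w z) (hx : x ∈ U) : 0 ≤ w x := by
  by_contra hneg
  push Not at hneg
  have hcx : ContinuousAt w x := hw.continuousAt (hU.mem_nhds hx)
  have hev : ∀ᶠ z in 𝓝 x, w z < w x / 2 ∧ z ∈ U := by
    refine (hcx.eventually (gt_mem_nhds (show w x < w x / 2 by linarith))).and (hU.mem_nhds hx)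
  obtain ⟨r, hr0, hr⟩ := Metric.eventually_nhds_iff_ball.1 hev
  set f : ContDiffBump x := ⟨r / 4, r / 2, by positivity, by linarith⟩ with hf
  have hts : tsupport f = Metric.closedBall x (r / 2) := f.tsupport_eq
  have hsub : tsupport f ⊆ U := by
    rw [hts]
    intro z hz
    exact (hr z (Metric.mem_ball.2 (lt_of_le_of_lt (Metric.mem_closedBall.1 hz) (by linarith)))).2
  have h1 := h f f.contDiff f.hasCompactSupport hsub (fun z => f.nonneg)
  have hle : ∫ z, f z * w z ≤ ∫ z, f z * (w x / 2) := by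
    refine integral_mono ?_ ?_ ?_
    · refine integrableE_of_cont f.hasCompactSupport.isCompact
        (f.continuous.continuousOn.mul (hw.mono hsub)) fun b hb => ?_
      rw [image_eq_zero_of_notMem_tsupport hb, zero_mul]
    · exact (f.continuous.integrable_of_hasCompactSupport f.hasCompactSupport).mul_const _
    · intro z
      by_cases hz : z ∈ Metric.ball x r
      · exact mul_le_mul_of_nonneg_left (hr z hz).1.le f.nonneg
      · have : f z = 0 := by
          refine image_eq_zero_of_notMem_tsupport fun h => hz ?_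
          rw [hts] at h
          exact Metric.mem_ball.2 (lt_of_le_of_lt (Metric.mem_closedBall.1 h) (by linarith))
        simp [this]
  have hpos : 0 < ∫ z, f z := f.integral_pos
  rw [integral_mul_const] at hle
  nlinarith

/-- **`sec ≥ 0` from the weak inequality in harmonic coordinates.** -/
theorem sec_nonneg_of_weak (hg : IsRiemannianOn g U)
    (hl : ∀ a, ∀ z ∈ U, laplaceBeltrami g (crd n a) z = 0)
    (h : ∀ α β : Fin n → ℝ, ∀ ψ : 𝔼 → ℝ, ContDiff ℝ ∞ ψ → HasCompactSupport ψ → tsupport ψ ⊆ U →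
      (∀ z, 0 ≤ ψ z) → 0 ≤ ∫ z in U, Real.sqrt (g z).det *
        Sg (inverseField g z) (KE g z) α β (ψ z) (fun e => pderiv e ψ z))
    (hx : x ∈ U) (v w : 𝔼) : 0 ≤ secNumer g x v w := by
  -- every vector is a gradient of a linear function
  have hv : ∀ v : 𝔼, ∃ α : Fin n → ℝ, grad g (linE α) x = v := by
    intro v
    refine ⟨fun i => ∑ j, g x i j * v j, ?_⟩
    refine bil_injective hg hx fun Z => ?_
    rw [bil_grad hg hx, fderiv_eq_sum, bil_symm hg hx, bil_apply]
    refine Finset.sum_congr rfl fun i _ => ?_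
    rw [pderiv_linE, Finset.mul_sum]
    exact Finset.sum_congr rfl fun j _ => by ring
  obtain ⟨α, rfl⟩ := hv v
  obtain ⟨β, rfl⟩ := hv w
  have hsm : ∀ α : Fin n → ℝ, ∀ z, ContDiffAt ℝ 3 (linE α) z := fun α z =>
    (contDiff_linE α).contDiffAt.of_le three_le_infty
  set W : 𝔼 → ℝ := fun z => Real.sqrt (g z).det *
    secNumer g z (grad g (linE α) z) (grad g (linE β) z) with hW
  have hcont : ContinuousOn W U := by
    have h12 : (1 : WithTop ℕ∞) + 1 ≤ ∞ := by
      rw [one_add_one_eq_two]; exact two_le_infty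
    have h2 : ∀ α : Fin n → ℝ, ∀ z, ContDiffAt ℝ 2 (linE α) z := fun α z =>
      (hsm α z).of_le (by norm_num)
    have hQc : ∀ a b c d : Fin n → ℝ, ContinuousOn (hQ g (linE a) (linE b) (linE c) (linE d)) U := by
      intro a b c d z hz
      exact (contDiffAt_hQ (m := 0) hg hz (h2 a z) (h2 c z) (h2 b z) (h2 d z) (by norm_num)
        (by simp)).continuousAt.continuousWithinAt
    have k1 : ∀ a b c : Fin n → ℝ, ∀ z ∈ U, ContDiffAt ℝ 1 (hK g (linE a) (linE b) (linE c)) z :=
      fun a b c z hz =>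
      contDiffAt_hK hg hz (hsm a z) (hsm b z) (hsm c z) (by norm_num) h12
    have k2 : ∀ a : Fin n → ℝ, ∀ z ∈ U, ContDiffAt ℝ 1 (linE a) z := fun a z _ =>
      (hsm a z).of_le (by norm_num)
    refine (continuousOn_sqrt_det hg).mul ?_
    have e : ∀ z ∈ U, secNumer g z (grad g (linE α) z) (grad g (linE β) z) =
        gam g (linE α) (hK g (linE β) (linE β) (linE α)) z -
        gam g (linE β) (hK g (linE β) (linE α) (linE α)) z
        - hQ g (linE β) (linE α) (linE β) (linE α) z
        - hQ g (linE β) (linE β) (linE α) (linE α) z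
        + 2 * hQ g (linE α) (linE β) (linE β) (linE α) z := by
      intro z hz
      rw [secNumer_grad hg hz (h2 α z) (hsm β z), hQ, hQ, hQ]
    refine ContinuousOn.congr ?_ e
    exact (((((continuousOn_gam hg (k2 α) (k1 β β α))).sub
      (continuousOn_gam hg (k2 β) (k1 β α α))).sub (hQc β α β α)).sub (hQc β β α α)).add
      (continuousOn_const.mul (hQc α β β α))
  have key : 0 ≤ W x := by
    refine nonneg_of_integral hg.isOpen hcont ?_ hx
    intro ψ h1 h2 h3 h4
    have h5 := h α β ψ h1 h2 h3 h4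
    rw [← (integral_secE hg hl (fun z _ => h1.contDiffAt.of_le (by simp)) h2 h3 α β).2] at h5
    refine h5.trans (le_of_eq ?_)
    refine integral_congr_ae (Eventually.of_forall fun z => ?_)
    simp only [hW]
    ring
  have hpos : 0 < Real.sqrt (g x).det := Real.sqrt_pos.2 (det_pos hg hx)
  exact nonneg_of_mul_nonneg_right key hpos

end coord

section mfd
variable {n : ℕ} {M : Type*} [TopologicalSpace M] [ChartedSpace (EuclideanSpace ℝ (Fin n)) M]
  [IsManifold 𝓘(ℝ, EuclideanSpace ℝ (Fin n)) ∞ M]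
  [RiemannianBundle (fun x : M => TangentSpace 𝓘(ℝ, EuclideanSpace ℝ (Fin n)) x)]
  [IsContMDiffRiemannianBundle 𝓘(ℝ, EuclideanSpace ℝ (Fin n)) ∞ (EuclideanSpace ℝ (Fin n))
      (fun x : M => TangentSpace 𝓘(ℝ, EuclideanSpace ℝ (Fin n)) x)]

local notation "𝓘E" => 𝓘(ℝ, EuclideanSpace ℝ (Fin n))

variable {p : M} {u : Fin n → M → ℝ}

/-- `P^{ab;c} = ⟨∇F^{ab}, ∇u_c⟩ = K^{a;bc} + K^{b;ac}` on `M`. -/
lemma mGam_mGam (hu : ∀ a, ContMDiffAt 𝓘E 𝓘(ℝ, ℝ) 2 (u a) p) (a b c : Fin n) :
    mGam n (mGam n (u a) (u b)) (u c) p = KM n u p a b c + KM n u p b a c := by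
  rw [mGam_eq_mfderiv, mfderiv_mGam (hu a) (hu b), mHess_symm (hu a), mHess_symm (hu b)]
  rfl

/-- `K` in terms of `P` on `M`. -/
lemma KM_eq (hu : ∀ a, ContMDiffAt 𝓘E 𝓘(ℝ, ℝ) 2 (u a) p) (a b c : Fin n) :
    KM n u p a b c = (mGam n (mGam n (u a) (u b)) (u c) p + mGam n (mGam n (u a) (u c)) (u b) p
      - mGam n (mGam n (u b) (u c)) (u a) p) / 2 := by
  have hsymm : ∀ a b c, KM n u p a b c = KM n u p a c b := fun a b c => mHess_symm (hu a) _ _
  rw [mGam_mGam hu, mGam_mGam hu, mGam_mGam hu, hsymm a c b, hsymm b a c, hsymm c a b,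
    hsymm c b a, hsymm b c a]
  ring_nf

end mfd

end Crest.Agent.R249.Sec934
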