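import Crest.Agent.R249.FrD_129

/-!
A `Frame` (FrA_129) from commuting coordinate derivations, a symmetric metric matrix `g` with inverse
`gi`, and an orthonormal frame matrix `E` (`Eᵀ g E = 1`); its Riemann tensor is the coordinate Riemann
tensor in the frame. Purely algebraic. (row 249, helper129)
-/

set_option autoImplicit false
set_option linter.unusedSectionVars false

namespace Crest.Agent.R249.Sg129

open Finset Matrix Crest.Agent.R249.Fr129
open Crest.Agent.R249.Fr129.Frame (half two_half)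

variable {n : ℕ} {S : Type*} [CommRing S] [Algebra ℝ S]

/-- commuting independent derivations -/
structure Coord (n : ℕ) (S : Type*) [CommRing S] [Algebra ℝ S] where
  d : Fin n → Derivation ℝ S S
  comm : ∀ k l f, d k (d l f) = d l (d k f)
  indep : ∀ c : Fin n → S, (∀ f, ∑ m, c m * d m f = 0) → ∀ m, c m = 0

/-- entrywise derivative of a matrix -/
def dM {ι κ : Type*} (δ : Derivation ℝ S S) (M : Matrix ι κ S) : Matrix ι κ S := fun i j => δ (M i j)

section dM

variable {ι κ μ : Type*} [Fintype ι] [Fintype κ] [Fintype μ] (δ : Derivation ℝ S S)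

lemma dM_mul (A : Matrix ι κ S) (B : Matrix κ μ S) : dM δ (A * B) = dM δ A * B + A * dM δ B := by
  ext i j
  simp only [dM, Matrix.mul_apply, Matrix.add_apply, map_sum, Derivation.leibniz, smul_eq_mul]
  rw [← sum_add_distrib]; exact sum_congr rfl fun k _ => by ring

lemma dM_add (A B : Matrix ι κ S) : dM δ (A + B) = dM δ A + dM δ B := by
  ext i j; simp [dM]

lemma dM_sub (A B : Matrix ι κ S) : dM δ (A - B) = dM δ A - dM δ B := by
  ext i j; simp [dM]

lemma dM_transpose (A : Matrix ι κ S) : dM δ Aᵀ = (dM δ A)ᵀ := rfl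

lemma dM_one [DecidableEq ι] : dM δ (1 : Matrix ι ι S) = 0 := by
  ext i j
  simp only [dM, Matrix.one_apply, Matrix.zero_apply]
  split_ifs <;> simp

lemma dM_smul (x : S) (A : Matrix ι κ S) : dM δ (x • A) = δ x • A + x • dM δ A := by
  ext i j; simp [dM, Derivation.leibniz]; ring

lemma dM_sum {σ : Type*} (s : Finset σ) (A : σ → Matrix ι κ S) :
    dM δ (∑ x ∈ s, A x) = ∑ x ∈ s, dM δ (A x) := by
  ext i j; simp [dM, Matrix.sum_apply]

end dM

/-- The data: coordinates, metric, inverse metric, orthonormal frame. -/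
structure MF (n : ℕ) (S : Type*) [CommRing S] [Algebra ℝ S] extends Coord n S where
  g : Matrix (Fin n) (Fin n) S
  gi : Matrix (Fin n) (Fin n) S
  E : Matrix (Fin n) (Fin n) S
  g_symm : ∀ i j, g i j = g j i
  gi_g : gi * g = 1
  orth : Eᵀ * g * E = 1

namespace MF

variable (C : MF n S)

/-- Christoffel symbols `Γ l i j = Γˡᵢⱼ`. -/
noncomputable def Γ (l i j : Fin n) : S :=
  half * ∑ m, C.gi l m * (C.d i (C.g j m) + C.d j (C.g i m) - C.d m (C.g i j))

/-- the matrices `Γ_a = (Γˡₐᵦ)_{l,b}` -/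
noncomputable def Γm (a : Fin n) : Matrix (Fin n) (Fin n) S := fun l b => C.Γ l a b

lemma Γ_symm (l i j : Fin n) : C.Γ l i j = C.Γ l j i := by
  simp only [Γ, C.g_symm i j]
  congr 1
  exact sum_congr rfl fun m _ => by ring

lemma g_gi : C.g * C.gi = 1 := mul_eq_one_comm.1 C.gi_g

lemma g_transpose : C.gᵀ = C.g := by
  ext i j; exact C.g_symm j i

/-- lowering the index: `∑ g_{kl} Γˡᵢⱼ`. -/
lemma g_Γ (k i j : Fin n) : ∑ l, C.g k l * C.Γ l i j
    = half * (C.d i (C.g j k) + C.d j (C.g i k) - C.d k (C.g i j)) := by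
  have h : ∀ m, ∑ l, C.g k l * C.gi l m = if k = m then 1 else 0 := by
    intro m
    have := congrFun (congrFun C.g_gi k) m
    rw [Matrix.mul_apply, Matrix.one_apply] at this
    exact this
  simp only [Γ, mul_sum]
  rw [sum_comm]
  have : ∀ m, ∑ l, C.g k l * (half * (C.gi l m * (C.d i (C.g j m) + C.d j (C.g i m)
      - C.d m (C.g i j)))) = half * ((∑ l, C.g k l * C.gi l m) * (C.d i (C.g j m)
        + C.d j (C.g i m) - C.d m (C.g i j))) := by
    intro m
    rw [sum_mul, mul_sum]
    exact sum_congr rfl fun l _ => by ring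
  simp_rw [this, h]
  simp

/-- metric compatibility in coordinates -/
lemma compat (a : Fin n) : dM (C.d a) C.g = C.g * C.Γm a + (C.Γm a)ᵀ * C.g := by
  ext k b
  rw [Matrix.add_apply, Matrix.mul_apply, Matrix.mul_apply]
  have h1 : ∑ l, C.g k l * C.Γm a l b = ∑ l, C.g k l * C.Γ l a b := rfl
  have h2 : ∑ l, (C.Γm a)ᵀ k l * C.g l b = ∑ l, C.g b l * C.Γ l a k :=
    sum_congr rfl fun l _ => by rw [Matrix.transpose_apply, Γm, C.g_symm l b, mul_comm]
  rw [h1, h2, C.g_Γ, C.g_Γ, dM]
  have hh := two_half (S := S)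
  rw [C.g_symm b k]
  linear_combination (-C.d a (C.g k b)) * hh

/-- frame derivations -/
def Df (i : Fin n) : Derivation ℝ S S := ∑ k, C.E k i • C.d k

lemma Df_apply (i : Fin n) (f : S) : C.Df i f = ∑ k, C.E k i * C.d k f := by
  simp only [Df]
  rw [← Derivation.coeFnAddMonoidHom_apply, map_sum, Finset.sum_apply]
  rfl

/-- `a_k = ∑ E_{ak} Γ_a` -/
noncomputable def aF (k : Fin n) : Matrix (Fin n) (Fin n) S := ∑ a, C.E a k • C.Γm a

lemma dM_Df {ι κ : Type*} (i : Fin n) (M : Matrix ι κ S) :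
    dM (C.Df i) M = ∑ a, C.E a i • dM (C.d a) M := by
  ext p q; simp [dM, Df_apply, Matrix.sum_apply]

lemma compatF (k : Fin n) : dM (C.Df k) C.g = C.g * C.aF k + (C.aF k)ᵀ * C.g := by
  rw [dM_Df]
  simp_rw [C.compat, aF, Matrix.transpose_sum, Matrix.transpose_smul, Matrix.mul_sum,
    Matrix.sum_mul, Matrix.mul_smul, Matrix.smul_mul, smul_add, sum_add_distrib]

/-- `B_k = Eᵀ g (D_k E + a_k E)` -/
noncomputable def B (k : Fin n) : Matrix (Fin n) (Fin n) S :=
  C.Eᵀ * C.g * (dM (C.Df k) C.E + C.aF k * C.E)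

lemma B_skew (k : Fin n) : C.B k + (C.B k)ᵀ = 0 := by
  have h := congrArg (dM (C.Df k)) C.orth
  rw [dM_one, dM_mul, dM_mul, C.compatF, dM_transpose] at h
  rw [← h, B]
  simp only [Matrix.transpose_mul, Matrix.transpose_add, Matrix.transpose_transpose,
    C.g_transpose]
  noncomm_ring

lemma E_Et_g : C.E * (C.Eᵀ * C.g) = 1 := mul_eq_one_comm.1 C.orth

lemma E_B (k : Fin n) : C.E * C.B k = dM (C.Df k) C.E + C.aF k * C.E := by
  rw [B, ← Matrix.mul_assoc, C.E_Et_g, Matrix.one_mul]

lemma aE_symm (k l b : Fin n) : (C.aF k * C.E) b l = (C.aF l * C.E) b k := by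
  simp only [Matrix.mul_apply, aF, Matrix.sum_apply, Matrix.smul_apply, Γm, smul_eq_mul, sum_mul]
  rw [sum_comm]
  refine sum_congr rfl fun a _ => sum_congr rfl fun c _ => ?_
  rw [C.Γ_symm b c a]; ring

lemma comm_Df (k l : Fin n) (f : S) : C.Df k (C.Df l f) - C.Df l (C.Df k f)
    = ∑ b, (C.Df k (C.E b l) - C.Df l (C.E b k)) * C.d b f := by
  have h : ∀ k l : Fin n, C.Df k (C.Df l f) = ∑ b, C.Df k (C.E b l) * C.d b f
      + ∑ b, ∑ a, C.E b l * (C.E a k * C.d a (C.d b f)) := by
    intro k l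
    conv_lhs => rw [C.Df_apply l f, map_sum]
    simp_rw [Derivation.leibniz, smul_eq_mul, sum_add_distrib]
    rw [add_comm]
    congr 1
    · exact sum_congr rfl fun b _ => mul_comm _ _
    · refine sum_congr rfl fun b _ => ?_
      rw [C.Df_apply, mul_sum]
  rw [h k l, h l k]
  have : ∑ b, ∑ a, C.E b l * (C.E a k * C.d a (C.d b f))
      = ∑ b, ∑ a, C.E b k * (C.E a l * C.d a (C.d b f)) := by
    rw [sum_comm]
    refine sum_congr rfl fun a _ => sum_congr rfl fun b _ => ?_
    rw [C.comm a b]; ring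
  rw [this]; simp_rw [sub_mul, sum_sub_distrib]; ring

/-- The orthonormal frame as a `Frame`. -/
noncomputable def frame : Frame n S where
  D := C.Df
  w k i j := C.B k j i
  anti k i j := by
    have := congrFun (congrFun (C.B_skew k) j) i
    rw [Matrix.add_apply, Matrix.transpose_apply, Matrix.zero_apply] at this
    exact eq_neg_of_add_eq_zero_left this
  tors k l f := by
    have h1 : ∀ k l b, ∑ m, C.E b m * C.B k m l = C.Df k (C.E b l) + (C.aF k * C.E) b l := by
      intro k l b
      have := congrFun (congrFun (C.E_B k) b) l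
      rw [Matrix.mul_apply, Matrix.add_apply] at this
      exact this
    rw [C.comm_Df k l f]
    simp_rw [C.Df_apply _ f, mul_sum]
    rw [sum_comm]
    refine sum_congr rfl fun b _ => ?_
    have h2 : ∑ m, (C.B k m l - C.B l m k) * (C.E b m * C.d b f)
        = (∑ m, C.E b m * C.B k m l - ∑ m, C.E b m * C.B l m k) * C.d b f := by
      rw [← sum_sub_distrib, sum_mul]
      exact sum_congr rfl fun m _ => by ring
    rw [h2, h1, h1, C.aE_symm k l b]; ring
  indep c hc m := by
    have h : ∀ b, ∑ m, c m * C.E b m = 0 := by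
      refine C.indep (fun b => ∑ m, c m * C.E b m) fun f => ?_
      rw [← hc f]
      simp_rw [C.Df_apply, mul_sum, sum_mul]
      rw [sum_comm]
      exact sum_congr rfl fun m _ => sum_congr rfl fun b _ => by ring
    have h' : C.E *ᵥ c = 0 := by
      funext b
      refine Eq.trans ?_ (h b)
      simp only [Matrix.mulVec, dotProduct]
      exact sum_congr rfl fun m _ => mul_comm (C.E b m) (c m)
    have := congrArg (fun v => (C.Eᵀ * C.g) *ᵥ v) h'
    simp only [Matrix.mulVec_mulVec, Matrix.mulVec_zero, C.orth, Matrix.one_mulVec] at this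
    exact congrFun this m

/-- coordinate curvature matrices `(R_{ab})^l_k = Rˡ_{k a b}` -/
noncomputable def Rc (a b : Fin n) : Matrix (Fin n) (Fin n) S :=
  dM (C.d a) (C.Γm b) - dM (C.d b) (C.Γm a) + (C.Γm a * C.Γm b - C.Γm b * C.Γm a)

lemma frame_D (i : Fin n) (f : S) : C.frame.D i f = ∑ k, C.E k i * C.d k f := C.Df_apply i f

lemma frame_w (k i j : Fin n) : C.frame.w k i j = C.B k j i := rfl

lemma frame_tan (k : Fin n) : C.frame.tan k = C.B k := rfl

lemma curv_eq (a : Fin n → Matrix (Fin n) (Fin n) S) (F : Frame n S) (k l : Fin n) :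
    F.curv a k l = dM (F.D k) (a l) - dM (F.D l) (a k) + (a k * a l - a l * a k)
      - ∑ m, F.T k l m • a m := by
  ext i j
  simp only [Frame.curv, Matrix.sub_apply, Matrix.add_apply, dM, Matrix.mul_apply,
    Matrix.sum_apply, Matrix.smul_apply, smul_eq_mul, sum_sub_distrib]

/-- the torsion coefficients of the frame -/
lemma E_T (k l b : Fin n) : ∑ m, C.frame.T k l m * C.E b m
    = C.Df k (C.E b l) - C.Df l (C.E b k) := by
  have h1 : ∀ k l b, ∑ m, C.E b m * C.B k m l = C.Df k (C.E b l) + (C.aF k * C.E) b l := by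
    intro k l b
    have := congrFun (congrFun (C.E_B k) b) l
    rw [Matrix.mul_apply, Matrix.add_apply] at this
    exact this
  have : ∑ m, C.frame.T k l m * C.E b m = ∑ m, C.E b m * C.B k m l - ∑ m, C.E b m * C.B l m k := by
    rw [← sum_sub_distrib]
    exact sum_congr rfl fun m _ => by rw [Frame.T, frame_w, frame_w]; ring
  rw [this, h1, h1, C.aE_symm k l b]; ring

/-- curvature of the coordinate bundle frame along the frame derivations -/
lemma curv_aF (k l : Fin n) : C.frame.curv C.aF k l = ∑ a, ∑ b, (C.E a k * C.E b l) • C.Rc a b := by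
  rw [curv_eq]
  have h1 : ∀ k l, dM (C.Df k) (C.aF l) = ∑ b, C.Df k (C.E b l) • C.Γm b
      + ∑ a, ∑ b, (C.E a k * C.E b l) • dM (C.d a) (C.Γm b) := by
    intro k l
    rw [aF, dM_sum]
    simp_rw [dM_smul, sum_add_distrib]
    congr 1
    rw [sum_comm]
    refine sum_congr rfl fun b _ => ?_
    rw [C.dM_Df k (C.Γm b), smul_sum]
    exact sum_congr rfl fun a _ => by rw [smul_smul, mul_comm]
  have h2 : ∀ k l, C.aF k * C.aF l = ∑ a, ∑ b, (C.E a k * C.E b l) • (C.Γm a * C.Γm b) := by
    intro k l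
    simp_rw [aF, Matrix.sum_mul, Matrix.mul_sum, Matrix.smul_mul, Matrix.mul_smul, smul_smul]
  have h3 : ∑ m, C.frame.T k l m • C.aF m = ∑ b, (C.Df k (C.E b l) - C.Df l (C.E b k)) • C.Γm b := by
    simp_rw [aF, smul_sum, smul_smul]
    rw [sum_comm]
    refine sum_congr rfl fun b _ => ?_
    rw [← sum_smul, C.E_T]
  have h4 : ∀ X : Fin n → Fin n → Matrix (Fin n) (Fin n) S,
      ∑ a, ∑ b, (C.E a l * C.E b k) • X a b = ∑ a, ∑ b, (C.E a k * C.E b l) • X b a := by
    intro X
    rw [sum_comm]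
    exact sum_congr rfl fun a _ => sum_congr rfl fun b _ => by rw [mul_comm]
  change dM (C.Df k) (C.aF l) - dM (C.Df l) (C.aF k) + _ - _ = _
  rw [h1, h1, h2, h2, h3, h4, h4]
  simp_rw [Rc, smul_add, smul_sub, sub_smul, sum_add_distrib, sum_sub_distrib]
  abel

/-- gauge law for the curvature -/
lemma E_curv_tan (k l : Fin n) : C.E * C.frame.curv C.frame.tan k l
    = C.frame.curv C.aF k l * C.E := by
  have key : ∀ u : Fin n → S, (C.E * C.frame.curv C.frame.tan k l) *ᵥ u
      = (C.frame.curv C.aF k l * C.E) *ᵥ u := by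
    intro u
    have hc : ∀ k (u : Fin n → S), C.frame.cov C.aF k (C.E *ᵥ u)
        = C.E *ᵥ C.frame.cov C.frame.tan k u := by
      intro k u
      have hB := C.E_B k
      have e1 : C.frame.cov C.aF k (C.E *ᵥ u) = dM (C.Df k) C.E *ᵥ u
          + C.E *ᵥ (fun i => C.Df k (u i)) + (C.aF k * C.E) *ᵥ u := by
        funext i
        simp only [Frame.cov, Pi.add_apply, ← Matrix.mulVec_mulVec]
        simp only [Matrix.mulVec, dotProduct, dM]
        have : C.frame.D k = C.Df k := rfl
        rw [this, map_sum]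
        simp_rw [Derivation.leibniz, smul_eq_mul, sum_add_distrib]
        have : ∑ x, u x * C.Df k (C.E i x) = ∑ x, C.Df k (C.E i x) * u x :=
          sum_congr rfl fun x _ => mul_comm _ _
        rw [this]; ring
      have e2 : C.frame.cov C.frame.tan k u = (fun i => C.Df k (u i)) + C.B k *ᵥ u := by
        funext i; rfl
      rw [e1, e2, Matrix.mulVec_add, Matrix.mulVec_mulVec, hB, Matrix.add_mulVec]
      abel
    have h1 := C.frame.cov_comm C.aF k l (C.E *ᵥ u)
    have h2 := C.frame.cov_comm C.frame.tan k l u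
    have h3 : C.frame.curv C.aF k l *ᵥ (C.E *ᵥ u) = C.E *ᵥ (C.frame.curv C.frame.tan k l *ᵥ u) := by
      have h1' : C.frame.curv C.aF k l *ᵥ (C.E *ᵥ u) = C.frame.cov C.aF k (C.frame.cov C.aF l (C.E *ᵥ u))
          - C.frame.cov C.aF l (C.frame.cov C.aF k (C.E *ᵥ u))
          - ∑ m, C.frame.T k l m • C.frame.cov C.aF m (C.E *ᵥ u) := by rw [h1]; abel
      have h2' : C.frame.curv C.frame.tan k l *ᵥ u = C.frame.cov C.frame.tan k (C.frame.cov C.frame.tan l u)
          - C.frame.cov C.frame.tan l (C.frame.cov C.frame.tan k u)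
          - ∑ m, C.frame.T k l m • C.frame.cov C.frame.tan m u := by rw [h2]; abel
      rw [h1', h2', hc, hc, hc, hc, Matrix.mulVec_sub, Matrix.mulVec_sub]
      congr 1
      simp_rw [hc]
      rw [Matrix.mulVec_sum]
      exact sum_congr rfl fun m _ => by rw [Matrix.mulVec_smul]
    rw [← Matrix.mulVec_mulVec, ← Matrix.mulVec_mulVec, h3]
  ext i j
  have := congrFun (key (Pi.single j 1)) i
  simpa using this

/-- **The Riemann tensor in the frame** is the coordinate Riemann tensor. -/
theorem Rm_eq (i j k l : Fin n) : C.frame.Rm i j k l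
    = ∑ m, (∑ d, C.E d l * C.g d m) *
        ∑ c, (∑ a, ∑ b, (C.E a i * C.E b j) * C.Rc a b m c) * C.E c k := by
  rw [← C.frame.curv_tan i j k l]
  have h : C.frame.curv C.frame.tan i j = C.Eᵀ * C.g * (C.frame.curv C.aF i j * C.E) := by
    rw [← C.E_curv_tan, ← Matrix.mul_assoc, C.orth, Matrix.one_mul]
  rw [h, C.curv_aF]
  simp only [Matrix.mul_apply, Matrix.sum_apply, Matrix.smul_apply, smul_eq_mul,
    Matrix.transpose_apply]

end MF

end Crest.Agent.R249.Sg129
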