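import Crest.Agent.R249.SgA_129
import Crest.Agent.R247.Bo2_84

/-!
The ring `SG x` of germs at `x` of functions smooth at `x`, its coordinate derivations and the
evaluation. (row 249, helper129)
-/

set_option autoImplicit false
set_option linter.unusedSectionVars false

open scoped ContDiff Topology
open Filter Set
open Crest.GeometryTopology.CoordMetric Crest.GeometryTopology.ChartCurvature

noncomputable section

namespace Crest.Agent.R249.Sg129

variable {n : ℕ}

local notation "𝔼" => EuclideanSpace ℝ (Fin n)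

/-- functions smooth at `x` -/
def CF (x : EuclideanSpace ℝ (Fin n)) : Subalgebra ℝ (EuclideanSpace ℝ (Fin n) → ℝ) where
  carrier := {f | ContDiffAt ℝ ∞ f x}
  mul_mem' {f g} hf hg := by
    have h1 : ContDiffAt ℝ ∞ f x := hf
    have h2 : ContDiffAt ℝ ∞ g x := hg
    exact h1.mul h2
  add_mem' {f g} hf hg := by
    have h1 : ContDiffAt ℝ ∞ f x := hf
    have h2 : ContDiffAt ℝ ∞ g x := hg
    exact h1.add h2
  algebraMap_mem' c := by
    change ContDiffAt ℝ ∞ (fun _ => c) x
    exact contDiffAt_const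

/-- functions vanishing near `x` -/
def I0 (x : EuclideanSpace ℝ (Fin n)) : Ideal (CF x) where
  carrier := {f | (f : EuclideanSpace ℝ (Fin n) → ℝ) =ᶠ[𝓝 x] 0}
  add_mem' {f g} hf hg := by
    have := EventuallyEq.add hf hg
    simpa using this
  zero_mem' := EventuallyEq.rfl
  smul_mem' c f hf := by
    have := EventuallyEq.mul (EventuallyEq.refl (𝓝 x) (c : EuclideanSpace ℝ (Fin n) → ℝ)) hf
    simpa using this

/-- the ring of smooth germs -/
def SG (x : EuclideanSpace ℝ (Fin n)) : Type := CF x ⧸ I0 x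

variable {x : EuclideanSpace ℝ (Fin n)}

instance : CommRing (SG x) := inferInstanceAs (CommRing (CF x ⧸ I0 x))
instance : Algebra ℝ (SG x) := inferInstanceAs (Algebra ℝ (CF x ⧸ I0 x))

/-- germ of a smooth function -/
def gm : CF x →ₐ[ℝ] SG x := Ideal.Quotient.mkₐ ℝ (I0 x)

/-- germ of a smooth function -/
def germ (f : EuclideanSpace ℝ (Fin n) → ℝ) (hf : ContDiffAt ℝ ∞ f x) : SG x := gm ⟨f, hf⟩

lemma germ_eq_iff {f g : 𝔼 → ℝ} {hf : ContDiffAt ℝ ∞ f x} {hg : ContDiffAt ℝ ∞ g x} :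
    germ f hf = germ g hg ↔ f =ᶠ[𝓝 x] g := by
  have h1 : germ f hf = germ g hg ↔ (⟨f, hf⟩ : CF x) - ⟨g, hg⟩ ∈ I0 x := Ideal.Quotient.eq
  rw [h1]
  change (f - g) =ᶠ[𝓝 x] 0 ↔ _
  constructor
  · intro h; filter_upwards [h] with y hy
    exact sub_eq_zero.1 hy
  · intro h; filter_upwards [h] with y hy
    exact sub_eq_zero.2 hy

lemma germ_eq {f g : 𝔼 → ℝ} {hf : ContDiffAt ℝ ∞ f x} {hg : ContDiffAt ℝ ∞ g x}
    (h : f =ᶠ[𝓝 x] g) : germ f hf = germ g hg := germ_eq_iff.2 h

lemma exists_germ (φ : SG x) : ∃ f, ∃ hf : ContDiffAt ℝ ∞ f x, germ f hf = φ := by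
  obtain ⟨⟨f, hf⟩, h⟩ := Ideal.Quotient.mk_surjective φ
  exact ⟨f, hf, h⟩

lemma germ_add {f g : 𝔼 → ℝ} (hf : ContDiffAt ℝ ∞ f x) (hg : ContDiffAt ℝ ∞ g x) :
    germ f hf + germ g hg = germ (fun y => f y + g y) (hf.add hg) := (map_add gm _ _).symm

lemma germ_mul {f g : 𝔼 → ℝ} (hf : ContDiffAt ℝ ∞ f x) (hg : ContDiffAt ℝ ∞ g x) :
    germ f hf * germ g hg = germ (fun y => f y * g y) (hf.mul hg) := (map_mul gm _ _).symm

lemma germ_neg {f : 𝔼 → ℝ} (hf : ContDiffAt ℝ ∞ f x) :
    - germ f hf = germ (fun y => - f y) hf.neg := (map_neg gm _).symm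

lemma germ_sub {f g : 𝔼 → ℝ} (hf : ContDiffAt ℝ ∞ f x) (hg : ContDiffAt ℝ ∞ g x) :
    germ f hf - germ g hg = germ (fun y => f y - g y) (hf.sub hg) := (map_sub gm _ _).symm

lemma germ_zero : germ (fun _ => 0) contDiffAt_const = (0 : SG x) := map_zero (gm (x := x))

lemma germ_one : germ (fun _ => 1) contDiffAt_const = (1 : SG x) := map_one (gm (x := x))

lemma algebraMap_eq (c : ℝ) : algebraMap ℝ (SG x) c = germ (fun _ => c) contDiffAt_const :=
  (AlgHom.commutes (gm (x := x)) c).symm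

lemma smul_germ (c : ℝ) {f : 𝔼 → ℝ} (hf : ContDiffAt ℝ ∞ f x) :
    c • germ f hf = germ (fun y => c * f y) (contDiffAt_const.mul hf) := by
  rw [Algebra.smul_def, algebraMap_eq, germ_mul]

lemma germ_sum {ι : Type*} (s : Finset ι) {f : ι → 𝔼 → ℝ} (hf : ∀ i, ContDiffAt ℝ ∞ (f i) x) :
    ∑ i ∈ s, germ (f i) (hf i) = germ (fun y => ∑ i ∈ s, f i y) (ContDiffAt.sum fun i _ => hf i) := by
  classical
  induction s using Finset.induction_on with
  | empty => simpa using germ_zero.symm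
  | insert a s ha ih =>
    rw [Finset.sum_insert ha, ih, germ_add]
    refine germ_eq (Eventually.of_forall fun y => ?_)
    simp only [Finset.sum_insert ha]

/-- evaluation at the point -/
def ev : SG x →ₐ[ℝ] ℝ :=
  Ideal.Quotient.liftₐ (I0 x)
    ((Pi.evalAlgHom ℝ (fun _ : EuclideanSpace ℝ (Fin n) => ℝ) x).comp (CF x).val)
    (fun _ ha => EventuallyEq.eq_of_nhds ha)

@[simp] lemma ev_germ {f : 𝔼 → ℝ} (hf : ContDiffAt ℝ ∞ f x) : ev (germ f hf) = f x := rfl

/-! ### coordinate derivations -/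

lemma contDiffAt_pd {f : 𝔼 → ℝ} (hf : ContDiffAt ℝ ∞ f x) (k : Fin n) :
    ContDiffAt ℝ ∞ (pderiv k f) x :=
  (hf.fderiv_right (m := ∞) (by simp)).clm_apply contDiffAt_const

/-- partial derivative of a germ (auxiliary) -/
def pd0 (k : Fin n) (φ : SG x) : SG x :=
  germ (pderiv k (exists_germ φ).choose) (contDiffAt_pd (exists_germ φ).choose_spec.choose k)

lemma pderiv_congr {f g : 𝔼 → ℝ} (h : f =ᶠ[𝓝 x] g) (k : Fin n) :
    pderiv k f =ᶠ[𝓝 x] pderiv k g := by
  filter_upwards [h.eventuallyEq_nhds] with y hy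
  rw [pderiv, pderiv, hy.fderiv_eq]

lemma pd0_germ (k : Fin n) {f : 𝔼 → ℝ} (hf : ContDiffAt ℝ ∞ f x) :
    pd0 k (germ f hf) = germ (pderiv k f) (contDiffAt_pd hf k) :=
  germ_eq (pderiv_congr (germ_eq_iff.1 (exists_germ (germ f hf)).choose_spec.choose_spec) k)

lemma ev_diff {f : 𝔼 → ℝ} (hf : ContDiffAt ℝ ∞ f x) : ∀ᶠ y in 𝓝 x, DifferentiableAt ℝ f y := by
  filter_upwards [(hf.of_le (m := 1) (by exact_mod_cast le_top)).eventually (by norm_num)] with y hy
  exact hy.differentiableAt (by norm_num)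

/-- partial derivative on germs -/
def pd (k : Fin n) : Derivation ℝ (SG x) (SG x) :=
  Derivation.mk'
    { toFun := pd0 k
      map_add' := by
        intro φ ψ
        obtain ⟨f, hf, rfl⟩ := exists_germ φ
        obtain ⟨g, hg, rfl⟩ := exists_germ ψ
        rw [germ_add, pd0_germ, pd0_germ, pd0_germ, germ_add]
        refine germ_eq ?_
        filter_upwards [ev_diff hf, ev_diff hg] with y h1 h2
        rw [pderiv, fderiv_fun_add h1 h2]; rfl
      map_smul' := by
        intro c φ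
        obtain ⟨f, hf, rfl⟩ := exists_germ φ
        rw [smul_germ, pd0_germ, pd0_germ, RingHom.id_apply, smul_germ]
        refine germ_eq ?_
        filter_upwards [ev_diff hf] with y h1
        rw [pderiv, fderiv_const_mul h1]; rfl }
    (by
      intro φ ψ
      obtain ⟨f, hf, rfl⟩ := exists_germ φ
      obtain ⟨g, hg, rfl⟩ := exists_germ ψ
      simp only [LinearMap.coe_mk, AddHom.coe_mk, smul_eq_mul]
      rw [germ_mul, pd0_germ, pd0_germ, pd0_germ, germ_mul, germ_mul, germ_add]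
      refine germ_eq ?_
      filter_upwards [ev_diff hf, ev_diff hg] with y h1 h2
      rw [pderiv, fderiv_fun_mul h1 h2]; rfl)

lemma pd_germ (k : Fin n) {f : 𝔼 → ℝ} (hf : ContDiffAt ℝ ∞ f x) :
    pd k (germ f hf) = germ (pderiv k f) (contDiffAt_pd hf k) := pd0_germ k hf

lemma pderiv_comm {f : 𝔼 → ℝ} {y : 𝔼} (hf : ContDiffAt ℝ 2 f y) (k l : Fin n) :
    pderiv k (pderiv l f) y = pderiv l (pderiv k f) y := by
  have hd : DifferentiableAt ℝ (fderiv ℝ f) y :=
    (hf.fderiv_right (m := 1) (by norm_num)).differentiableAt (by norm_num)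
  have h : ∀ k l : Fin n, pderiv k (pderiv l f) y
      = fderiv ℝ (fderiv ℝ f) y (EuclideanSpace.single k 1) (EuclideanSpace.single l 1) := by
    intro k l
    change fderiv ℝ (fun z => fderiv ℝ f z (EuclideanSpace.single l 1)) y _ = _
    rw [fderiv_clm_apply hd (differentiableAt_const _)]
    simp
  rw [h, h]
  exact (hf.isSymmSndFDerivAt (by simp)).eq _ _

lemma cd_coord (x : 𝔼) (m : Fin n) :
    ContDiffAt ℝ ∞ (fun y : EuclideanSpace ℝ (Fin n) => y m) x :=
  (EuclideanSpace.proj m : EuclideanSpace ℝ (Fin n) →L[ℝ] ℝ).contDiff.contDiffAt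

/-- the coordinate germ -/
def X (m : Fin n) : SG x := germ (fun y => y m) (cd_coord x m)

lemma pderiv_coord (k m : Fin n) (y : 𝔼) : pderiv k (fun y : 𝔼 => y m) y = if k = m then 1 else 0 := by
  have : fderiv ℝ (fun y : 𝔼 => y m) y = (EuclideanSpace.proj m : EuclideanSpace ℝ (Fin n) →L[ℝ] ℝ) :=
    (EuclideanSpace.proj m : EuclideanSpace ℝ (Fin n) →L[ℝ] ℝ).fderiv
  rw [pderiv, this]
  change (EuclideanSpace.single k (1:ℝ) : 𝔼) m = _
  simp [eq_comm]

lemma pd_X (k m : Fin n) : pd k (X m : SG x) = if k = m then 1 else 0 := by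
  rw [X, pd_germ]
  split_ifs with h
  · rw [← germ_one]
    exact germ_eq (Eventually.of_forall fun y => by simp only [pderiv_coord, if_pos h])
  · rw [← germ_zero]
    exact germ_eq (Eventually.of_forall fun y => by simp only [pderiv_coord, if_neg h])

/-- the coordinate derivations of the germ ring -/
def coord (x : EuclideanSpace ℝ (Fin n)) : Coord n (SG x) where
  d := pd
  comm k l φ := by
    obtain ⟨f, hf, rfl⟩ := exists_germ φ
    rw [pd_germ, pd_germ, pd_germ, pd_germ]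
    refine germ_eq ?_
    filter_upwards [(hf.of_le (m := 2) (WithTop.coe_le_coe.2 le_top)).eventually (by norm_num)]
      with y hy
    exact pderiv_comm hy k l
  indep c hc m := by
    have := hc (X m)
    simpa [pd_X] using this

end Crest.Agent.R249.Sg129
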