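import Mathlib

/-!
Row 249, part A2, section 6 (helper780), file 1: pointwise algebra of the simplex property.

For a pair of positive numbers `u, w` (values of two functions) and numbers `P, Q ≥ 0` (squared
norms of their differentials) put `EE u w P Q = (u³ - w³)² - 6 (u P + w Q)`.  If `u³ + w³ = l`,
`u` is the obstacle given by `w` and `3 u² (Δu - f(u))` is computed by `obst_alg`.
-/

set_option autoImplicit false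

noncomputable section

namespace Crest.Agent.R249.SimA_780

/-- the nonlinearity. -/
def ff (u : ℝ) : ℝ := 2 / 3 * (u - u ^ 4)

/-- the forcing term of the constraint function. -/
def EE (u w P Q : ℝ) : ℝ := (u ^ 3 - w ^ 3) ^ 2 - 6 * (u * P + w * Q)

/-- **obstacle identity**: `u³ + w³ = l`, `Δw = f(w) + ρ`. -/
theorem obst_alg {u w l P Q Lu Lw ρ : ℝ} (hl : u ^ 3 + w ^ 3 = l)
    (hL : 3 * u ^ 2 * Lu + 6 * u * P = -(3 * w ^ 2 * Lw + 6 * w * Q))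
    (hw : Lw = ff w + ρ) :
    3 * u ^ 2 * (Lu - ff u) = EE u w P Q + l * (l - 2) - 3 * w ^ 2 * ρ := by
  subst hw
  unfold EE ff at *
  subst hl
  linear_combination hL

section Compare

variable {V : Type*} [NormedAddCommGroup V] [InnerProductSpace ℝ V]

lemma sq_norm_sub_le (X X' : V) : ‖X‖ ^ 2 ≤ ‖X'‖ ^ 2 + (2 * ‖X'‖ * ‖X - X'‖ + ‖X - X'‖ ^ 2) := by
  have h1 : ‖X‖ ≤ ‖X'‖ + ‖X - X'‖ := by
    calc ‖X‖ = ‖X' + (X - X')‖ := by congr 1; abel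
      _ ≤ _ := norm_add_le _ _
  nlinarith [norm_nonneg X, norm_nonneg X', norm_nonneg (X - X')]

lemma cube_sub_le {a b : ℝ} (ha : 0 ≤ a) (ha' : a ≤ 13 / 10) (hb : 0 ≤ b) (hb' : b ≤ 13 / 10) :
    |a ^ 3 - b ^ 3| ≤ 51 / 10 * |a - b| := by
  have h1 : a ^ 3 - b ^ 3 = (a ^ 2 + a * b + b ^ 2) * (a - b) := by ring
  rw [h1, abs_mul]
  refine mul_le_mul_of_nonneg_right ?_ (abs_nonneg _)
  rw [abs_of_nonneg (by positivity)]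
  nlinarith [mul_nonneg ha hb]

/-- comparison of the forcing terms of two pairs of jets. -/
theorem EE_compare {φ ψ h w : ℝ} {X Y X' Y' : V}
    (hφ : 0 ≤ φ) (hφ' : φ ≤ 13 / 10) (hψ : 0 ≤ ψ) (hψ' : ψ ≤ 13 / 10)
    (hh : 0 ≤ h) (hh' : h ≤ 13 / 10) (hw : 0 ≤ w) (hw' : w ≤ 13 / 10) :
    EE h w (‖X'‖ ^ 2) (‖Y'‖ ^ 2) ≤ EE φ ψ (‖X‖ ^ 2) (‖Y‖ ^ 2) +
      (23 * (|φ - h| + |ψ - w|) +
        (6 * |φ - h| * ‖X'‖ ^ 2 + 8 * (2 * ‖X'‖ * ‖X - X'‖ + ‖X - X'‖ ^ 2)) +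
        (6 * |ψ - w| * ‖Y'‖ ^ 2 + 8 * (2 * ‖Y'‖ * ‖Y - Y'‖ + ‖Y - Y'‖ ^ 2))) := by
  have key : ∀ {a b : ℝ} {A B : V}, 0 ≤ a → a ≤ 13 / 10 →
      a * ‖A‖ ^ 2 - b * ‖B‖ ^ 2 ≤ |a - b| * ‖B‖ ^ 2 +
        13 / 10 * (2 * ‖B‖ * ‖A - B‖ + ‖A - B‖ ^ 2) := by
    intro a b A B ha ha'
    have h1 := sq_norm_sub_le A B
    have h2 : a * ‖A‖ ^ 2 - b * ‖B‖ ^ 2 = a * (‖A‖ ^ 2 - ‖B‖ ^ 2) + (a - b) * ‖B‖ ^ 2 := by ring
    rw [h2]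
    have h3 : (a - b) * ‖B‖ ^ 2 ≤ |a - b| * ‖B‖ ^ 2 :=
      mul_le_mul_of_nonneg_right (le_abs_self _) (by positivity)
    have h4 : 0 ≤ 2 * ‖B‖ * ‖A - B‖ + ‖A - B‖ ^ 2 := by positivity
    have h5 : a * (‖A‖ ^ 2 - ‖B‖ ^ 2) ≤ a * (2 * ‖B‖ * ‖A - B‖ + ‖A - B‖ ^ 2) :=
      mul_le_mul_of_nonneg_left (by linarith) ha
    have h6 : a * (2 * ‖B‖ * ‖A - B‖ + ‖A - B‖ ^ 2) ≤
        13 / 10 * (2 * ‖B‖ * ‖A - B‖ + ‖A - B‖ ^ 2) := mul_le_mul_of_nonneg_right ha' h4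
    linarith
  have k1 := key (a := φ) (b := h) (A := X) (B := X') hφ hφ'
  have k2 := key (a := ψ) (b := w) (A := Y) (B := Y') hψ hψ'
  -- the square term
  have c1 := cube_sub_le hφ hφ' hh hh'
  have c2 := cube_sub_le hψ hψ' hw hw'
  have s1 : (h ^ 3 - w ^ 3) ^ 2 - (φ ^ 3 - ψ ^ 3) ^ 2 ≤ 23 * (|φ - h| + |ψ - w|) := by
    have b1 : ∀ {a : ℝ}, 0 ≤ a → a ≤ 13 / 10 → a ^ 3 ≤ 22 / 10 := by
      intro a ha ha'
      have : a ^ 3 ≤ (13 / 10) ^ 3 := pow_le_pow_left₀ ha ha' 3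
      norm_num at this ⊢; linarith
    have p1 := b1 hφ hφ'
    have p2 := b1 hψ hψ'
    have p3 := b1 hh hh'
    have p4 := b1 hw hw'
    have q1 : 0 ≤ φ ^ 3 := by positivity
    have q2 : 0 ≤ ψ ^ 3 := by positivity
    have q3 : 0 ≤ h ^ 3 := by positivity
    have q4 : 0 ≤ w ^ 3 := by positivity
    have e1 : (h ^ 3 - w ^ 3) ^ 2 - (φ ^ 3 - ψ ^ 3) ^ 2 =
        ((h ^ 3 - w ^ 3) + (φ ^ 3 - ψ ^ 3)) * (-(φ ^ 3 - h ^ 3) + (ψ ^ 3 - w ^ 3)) := by ring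
    rw [e1]
    have a1 : |(h ^ 3 - w ^ 3) + (φ ^ 3 - ψ ^ 3)| ≤ 44 / 10 := by
      rw [abs_le]; constructor <;> linarith
    have a2 : |-(φ ^ 3 - h ^ 3) + (ψ ^ 3 - w ^ 3)| ≤ 51 / 10 * |φ - h| + 51 / 10 * |ψ - w| := by
      refine (abs_add_le _ _).trans ?_
      rw [abs_neg]; linarith
    calc _ ≤ |((h ^ 3 - w ^ 3) + (φ ^ 3 - ψ ^ 3)) * (-(φ ^ 3 - h ^ 3) + (ψ ^ 3 - w ^ 3))| :=
          le_abs_self _
      _ = _ := abs_mul _ _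
      _ ≤ 44 / 10 * (51 / 10 * |φ - h| + 51 / 10 * |ψ - w|) :=
          mul_le_mul a1 a2 (abs_nonneg _) (by norm_num)
      _ ≤ _ := by nlinarith [abs_nonneg (φ - h), abs_nonneg (ψ - w)]
  have n1 : 0 ≤ 2 * ‖X'‖ * ‖X - X'‖ + ‖X - X'‖ ^ 2 := by positivity
  have n2 : 0 ≤ 2 * ‖Y'‖ * ‖Y - Y'‖ + ‖Y - Y'‖ ^ 2 := by positivity
  unfold EE
  nlinarith

end Compare

end Crest.Agent.R249.SimA_780
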