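import Crest.Agent.R249.SimA_780

/-!
Row 249, part A2, section 6 (helper780), file 2: the simplex property (P3) at one point.

All quantities are the values at one point.  `φ, ψ` the penalised pair, `h³ = l₁ - ψ₀³` and
`h₂³ = 2 - φ³` the two obstacles, `m₁, m₂` the penalties, `e₁` the error of the first equation,
`c` an upper bound of all `w³ r(w)`, `β` a lower bound of all functions, `e` the penalty width.
-/

set_option autoImplicit false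
set_option linter.unusedSectionVars false

noncomputable section

namespace Crest.Agent.R249.SimA_780

/-- the factor `φ² ≤ h² (1 + 8 e / β)`. -/
lemma sq_le_factor {φ h e β : ℝ} (hβ : 0 < β) (hβh : β ≤ h) (he : 0 ≤ e) (heβ : e ≤ β)
    (hφ : 0 ≤ φ) (hφh : φ ≤ h + 2 * e) : φ ^ 2 ≤ h ^ 2 * (1 + 8 * (e / β)) := by
  have hh : 0 < h := hβ.trans_le hβh
  have h1 : φ ^ 2 ≤ (h + 2 * e) ^ 2 := pow_le_pow_left₀ hφ hφh 2
  have h2 : e * h ≤ h ^ 2 * (e / β) := by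
    have : h ^ 2 * (e / β) = (h * e) * (h / β) := by field_simp
    rw [this]
    have : 1 ≤ h / β := by rw [le_div_iff₀ hβ]; linarith
    nlinarith [mul_nonneg hh.le he]
  have h3 : e ^ 2 ≤ h ^ 2 * (e / β) := by
    have : e ^ 2 ≤ e * h := by nlinarith
    linarith
  nlinarith

/-- one penalised step at a point: `3 φ² m` is bounded by the forcing term of the obstacle. -/
theorem step_alg {φ h w l P Q Lh Lw ρ rh m e β R : ℝ}
    (hl : h ^ 3 + w ^ 3 = l)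
    (hL : 3 * h ^ 2 * Lh + 6 * h * P = -(3 * w ^ 2 * Lw + 6 * w * Q))
    (hw : Lw = ff w + ρ)
    (hm : m ≤ max (Lh - ff h + h * rh) 0 + e)
    (hβ : 0 < β) (hβh : β ≤ h) (he : 0 ≤ e) (heβ : e ≤ β)
    (hφ : 0 ≤ φ) (hφ' : φ ≤ 13 / 10) (hφh : φ ≤ h + 2 * e)
    (hR : EE h w P Q + l * (l - 2) - 3 * w ^ 2 * ρ + 3 * h ^ 3 * rh ≤ R) (hR0 : 0 ≤ R) :
    3 * φ ^ 2 * m ≤ R + 8 * (e / β) * R + 6 * e := by
  have hh : 0 < h := hβ.trans_le hβh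
  have h1 := obst_alg hl hL hw
  have h2 : 3 * h ^ 2 * (Lh - ff h + h * rh) ≤ R := by
    have : 3 * h ^ 2 * (Lh - ff h + h * rh) = 3 * h ^ 2 * (Lh - ff h) + 3 * h ^ 3 * rh := by ring
    rw [this, h1]; exact hR
  have h3 : 3 * h ^ 2 * max (Lh - ff h + h * rh) 0 ≤ R := by
    rcases le_total (Lh - ff h + h * rh) 0 with h4 | h4
    · rw [max_eq_right h4]; simpa using hR0
    · rw [max_eq_left h4]; exact h2
  have h4 := sq_le_factor hβ hβh he heβ hφ hφh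
  set g := max (Lh - ff h + h * rh) 0 with hg
  have hg0 : 0 ≤ g := le_max_right _ _
  have hq : 0 ≤ e / β := div_nonneg he hβ.le
  have h5 : 3 * φ ^ 2 * g ≤ (1 + 8 * (e / β)) * R := by
    calc 3 * φ ^ 2 * g ≤ 3 * (h ^ 2 * (1 + 8 * (e / β))) * g := by
          apply mul_le_mul_of_nonneg_right _ hg0; linarith
      _ = (1 + 8 * (e / β)) * (3 * h ^ 2 * g) := by ring
      _ ≤ _ := mul_le_mul_of_nonneg_left h3 (by positivity)
  have h6 : φ ^ 2 ≤ 169 / 100 := by nlinarith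
  have h7 : 3 * φ ^ 2 * m ≤ 3 * φ ^ 2 * (g + e) :=
    mul_le_mul_of_nonneg_left hm (by positivity)
  nlinarith

lemma EE_le {u w P Q : ℝ} (hu : 0 ≤ u) (hu' : u ≤ 13 / 10) (hw : 0 ≤ w) (hw' : w ≤ 13 / 10)
    (hP : 0 ≤ P) (hQ : 0 ≤ Q) : EE u w P Q ≤ 5 := by
  have b1 : ∀ {a : ℝ}, 0 ≤ a → a ≤ 13 / 10 → a ^ 3 ≤ 22 / 10 := by
    intro a ha ha'
    have : a ^ 3 ≤ (13 / 10) ^ 3 := pow_le_pow_left₀ ha ha' 3
    norm_num at this ⊢; linarith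
  have p1 := b1 hu hu'
  have p2 := b1 hw hw'
  have q1 : 0 ≤ u ^ 3 := by positivity
  have q2 : 0 ≤ w ^ 3 := by positivity
  have h1 : 0 ≤ u * P := mul_nonneg hu hP
  have h2 : 0 ≤ w * Q := mul_nonneg hw hQ
  unfold EE
  nlinarith

section Simplex

variable {V : Type*} [NormedAddCommGroup V]

/-- the error on the support of the first penalty. -/
def err1 (e β : ℝ) (X X' Y Y' : V) : ℝ :=
  500 * (e / β ^ 2) + (12 * e * ‖X'‖ ^ 2 + 8 * (2 * ‖X'‖ * ‖X - X'‖ + ‖X - X'‖ ^ 2)) +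
    (108 * (e / β ^ 2) * ‖Y'‖ ^ 2 + 8 * (2 * ‖Y'‖ * ‖Y - Y'‖ + ‖Y - Y'‖ ^ 2))

/-- the error on the support of the second penalty. -/
def err2 (e : ℝ) (Y Z : V) : ℝ :=
  46 * e + (12 * e * ‖Z‖ ^ 2 + 8 * (2 * ‖Z‖ * ‖Y - Z‖ + ‖Y - Z‖ ^ 2))

lemma err1_nonneg {e β : ℝ} (he : 0 ≤ e) (X X' Y Y' : V) : 0 ≤ err1 e β X X' Y Y' := by
  unfold err1; positivity

lemma err2_nonneg {e : ℝ} (he : 0 ≤ e) (Y Z : V) : 0 ≤ err2 e Y Z := by
  unfold err2; positivity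

/-- the data of the penalised pair at one point. -/
structure Jet (β c e l : ℝ) (φ ψ h w k : ℝ) (X Y X' Y' Z : V)
    (Lφ Lw Lh Lk m₁ m₂ e₁ rφ rw rh rk : ℝ) : Prop where
  beta_pos : 0 < β
  beta_le : β ≤ 1
  e_nonneg : 0 ≤ e
  e_le : e ≤ β
  l_le : l ≤ 2
  l_ge : 2 - 40 * e ≤ l
  hφ : β ≤ φ
  hφ' : φ ≤ 13 / 10
  hw : β ≤ w
  hw' : w ≤ 13 / 10
  hh : β ≤ h
  hh' : h ≤ 13 / 10
  hk : β ≤ k
  hk' : k ≤ 13 / 10
  wψ : w ≤ ψ
  hψ' : ψ ≤ 13 / 10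
  φh : φ ≤ h + 2 * e
  ψk : ψ ≤ k + 2 * e
  cub_h : h ^ 3 + w ^ 3 = l
  cub_k : k ^ 3 + φ ^ 3 = 2
  lap_h : 3 * h ^ 2 * Lh + 6 * h * ‖X'‖ ^ 2 = -(3 * w ^ 2 * Lw + 6 * w * ‖Y'‖ ^ 2)
  lap_k : 3 * k ^ 2 * Lk + 6 * k * ‖Z‖ ^ 2 = -(3 * φ ^ 2 * Lφ + 6 * φ * ‖X‖ ^ 2)
  eq_w : ff w - w * rw ≤ Lw
  eq_φ : Lφ = ff φ - φ * rφ + m₁ + e₁
  m₁_nonneg : 0 ≤ m₁
  m₁_le : m₁ ≤ max (Lh - ff h + h * rh) 0 + e
  m₁_supp : m₁ ≠ 0 → h - φ ≤ e
  m₂_nonneg : 0 ≤ m₂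
  m₂_le : m₂ ≤ max (Lk - ff k + k * rk) 0 + e
  m₂_supp : m₂ ≠ 0 → k - ψ ≤ e
  c_nonneg : 0 ≤ c
  c_le : c ≤ 2
  c_w : w ^ 3 * rw ≤ c
  c_h : h ^ 3 * rh ≤ c
  c_φ : φ ^ 3 * rφ ≤ c
  c_k : k ^ 3 * rk ≤ c

variable {β c e l : ℝ} {φ ψ h w k : ℝ}

end Simplex

section Simplex2

variable {V : Type*} [NormedAddCommGroup V] [InnerProductSpace ℝ V]

variable {β c e l : ℝ} {φ ψ h w k : ℝ} {X Y X' Y' Z : V}
  {Lφ Lw Lh Lk m₁ m₂ e₁ rφ rw rh rk : ℝ}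

/-- on the support of the first penalty `ψ - ψ₀` is small. -/
lemma Jet.psi_sub (H : Jet β c e l φ ψ h w k X Y X' Y' Z Lφ Lw Lh Lk m₁ m₂ e₁ rφ rw rh rk)
    (hm : h - φ ≤ e) : ψ - w ≤ 18 * (e / β ^ 2) := by
  have hβ := H.beta_pos
  have he := H.e_nonneg
  have hb2 : 0 < β ^ 2 := by positivity
  -- `k³ ≤ w³ + 46 e`
  have h1 : h ^ 3 - φ ^ 3 ≤ 51 / 10 * e := by
    rcases le_total h φ with h2 | h2
    · have : h ^ 3 ≤ φ ^ 3 := pow_le_pow_left₀ (hβ.le.trans H.hh) h2 3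
      nlinarith
    · have h3 := cube_sub_le (a := h) (b := φ) (hβ.le.trans H.hh) H.hh' (hβ.le.trans H.hφ) H.hφ'
      rw [abs_of_nonneg (sub_nonneg.2 (pow_le_pow_left₀ (hβ.le.trans H.hφ) h2 3)),
        abs_of_nonneg (sub_nonneg.2 h2)] at h3
      nlinarith
  have h2 : k ^ 3 - w ^ 3 ≤ 46 * e := by
    have := H.cub_h
    have := H.cub_k
    have := H.l_ge
    linarith
  have h3 : k - w ≤ 16 * (e / β ^ 2) := by
    rcases le_total k w with h4 | h4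
    · have : 0 ≤ e / β ^ 2 := by positivity
      linarith
    · have h5 : 3 * β ^ 2 * (k - w) ≤ k ^ 3 - w ^ 3 := by
        have h6 : k ^ 3 - w ^ 3 = (k ^ 2 + k * w + w ^ 2) * (k - w) := by ring
        rw [h6]
        refine mul_le_mul_of_nonneg_right ?_ (sub_nonneg.2 h4)
        have := H.hk
        have := H.hw
        nlinarith
      rw [mul_div_assoc', le_div_iff₀ hb2]
      nlinarith
  have h4 : e ≤ e / β ^ 2 := by
    rw [le_div_iff₀ hb2]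
    have : β ^ 2 ≤ 1 := by have := H.beta_le; nlinarith
    nlinarith
  have := H.ψk
  linarith

/-- the bound of the first penalty. -/
theorem Jet.first (H : Jet β c e l φ ψ h w k X Y X' Y' Z Lφ Lw Lh Lk m₁ m₂ e₁ rφ rw rh rk)
    (hm : m₁ ≠ 0) :
    3 * φ ^ 2 * m₁ ≤ max (EE φ ψ (‖X‖ ^ 2) (‖Y‖ ^ 2)) 0 + 6 * c + 150 * (e / β) +
      err1 e β X X' Y Y' := by
  have hβ := H.beta_pos
  have he := H.e_nonneg
  have hβ1 := H.beta_le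
  have hφ0 : 0 ≤ φ := hβ.le.trans H.hφ
  have hw0 : 0 ≤ w := hβ.le.trans H.hw
  have hh0 : 0 ≤ h := hβ.le.trans H.hh
  have hψ0 : 0 ≤ ψ := hw0.trans H.wψ
  have hc0 := H.c_nonneg
  set E' := EE h w (‖X'‖ ^ 2) (‖Y'‖ ^ 2) with hE'
  have hE5 : E' ≤ 5 := EE_le hh0 H.hh' hw0 H.hw' (by positivity) (by positivity)
  -- the step bound
  have h1 : 3 * φ ^ 2 * m₁ ≤ (max E' 0 + 6 * c) + 8 * (e / β) * (max E' 0 + 6 * c) + 6 * e := by
    refine step_alg (ρ := Lw - ff w) (rh := rh) (R := max E' 0 + 6 * c) H.cub_h H.lap_h (by ring)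
      H.m₁_le hβ H.hh he H.e_le hφ0 H.hφ' H.φh ?_ (by positivity)
    have a1 : l * (l - 2) ≤ 0 := by
      have : 0 ≤ l := by rw [← H.cub_h]; positivity
      have := H.l_le
      nlinarith
    have a2 : -(3 * w ^ 2 * (Lw - ff w)) ≤ 3 * (w ^ 3 * rw) := by
      have := H.eq_w
      have h3 : 0 ≤ 3 * w ^ 2 := by positivity
      nlinarith
    have a3 := H.c_w
    have a4 := H.c_h
    have a5 : E' ≤ max E' 0 := le_max_left _ _
    have : 3 * h ^ 3 * rh = 3 * (h ^ 3 * rh) := by ring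
    rw [this]
    linarith
  -- comparison
  have hd := H.m₁_supp hm
  have c1 : |φ - h| ≤ 2 * e := by
    rw [abs_le]; constructor
    · linarith
    · have := H.φh; linarith
  have c2 : |ψ - w| ≤ 18 * (e / β ^ 2) := by
    rw [abs_of_nonneg (sub_nonneg.2 H.wψ)]
    exact H.psi_sub hd
  have c3 := EE_compare (φ := φ) (ψ := ψ) (h := h) (w := w) (X := X) (Y := Y) (X' := X') (Y' := Y')
    hφ0 H.hφ' hψ0 H.hψ' hh0 H.hh' hw0 H.hw'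
  have hb2 : 0 < β ^ 2 := by positivity
  have c4 : e ≤ e / β ^ 2 := by
    rw [le_div_iff₀ hb2]
    have : β ^ 2 ≤ 1 := by nlinarith
    nlinarith
  have c5 : 6 * |φ - h| * ‖X'‖ ^ 2 ≤ 12 * e * ‖X'‖ ^ 2 :=
    mul_le_mul_of_nonneg_right (by linarith) (by positivity)
  have c6 : 6 * |ψ - w| * ‖Y'‖ ^ 2 ≤ 108 * (e / β ^ 2) * ‖Y'‖ ^ 2 :=
    mul_le_mul_of_nonneg_right (by linarith) (by positivity)
  have c7 : E' ≤ EE φ ψ (‖X‖ ^ 2) (‖Y‖ ^ 2) + err1 e β X X' Y Y' := by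
    unfold err1
    linarith
  have hE0 := err1_nonneg (β := β) he X X' Y Y'
  have c8 : max E' 0 ≤ max (EE φ ψ (‖X‖ ^ 2) (‖Y‖ ^ 2)) 0 + err1 e β X X' Y Y' := by
    refine max_le (c7.trans ?_) ?_
    · have := le_max_left (EE φ ψ (‖X‖ ^ 2) (‖Y‖ ^ 2)) 0
      linarith
    · have := le_max_right (EE φ ψ (‖X‖ ^ 2) (‖Y‖ ^ 2)) 0
      linarith
  have c9 : max E' 0 + 6 * c ≤ 17 := by
    have : max E' 0 ≤ 5 := max_le hE5 (by norm_num)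
    have := H.c_le
    linarith
  have q0 : 0 ≤ e / β := by positivity
  have c10 : 8 * (e / β) * (max E' 0 + 6 * c) ≤ 136 * (e / β) := by nlinarith
  have c11 : e ≤ e / β := by
    rw [le_div_iff₀ hβ]; nlinarith
  linarith

/-- the bound of the second penalty. -/
theorem Jet.second (H : Jet β c e l φ ψ h w k X Y X' Y' Z Lφ Lw Lh Lk m₁ m₂ e₁ rφ rw rh rk)
    (hm : m₂ ≠ 0) :
    3 * ψ ^ 2 * m₂ ≤ max (EE φ ψ (‖X‖ ^ 2) (‖Y‖ ^ 2) + err2 e Y Z - 3 * φ ^ 2 * m₁) 0 +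
      6 * c + 150 * (e / β) + 50 * |e₁| := by
  have hβ := H.beta_pos
  have he := H.e_nonneg
  have hβ1 := H.beta_le
  have hφ0 : 0 ≤ φ := hβ.le.trans H.hφ
  have hw0 : 0 ≤ w := hβ.le.trans H.hw
  have hk0 : 0 ≤ k := hβ.le.trans H.hk
  have hψ0 : 0 ≤ ψ := hw0.trans H.wψ
  have hc0 := H.c_nonneg
  set E₂ := EE k φ (‖Z‖ ^ 2) (‖X‖ ^ 2) with hE₂
  have hE5 : E₂ ≤ 5 := EE_le hk0 H.hk' hφ0 H.hφ' (by positivity) (by positivity)
  have hm1 := H.m₁_nonneg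
  have hM : 0 ≤ 3 * φ ^ 2 * m₁ := by positivity
  have hφ2 : φ ^ 2 ≤ 169 / 100 := by have := H.hφ'; nlinarith
  set R := max (E₂ - 3 * φ ^ 2 * m₁) 0 + (6 * c + 51 / 10 * |e₁|) with hR
  have hR0 : 0 ≤ R := by positivity
  have h1 : 3 * ψ ^ 2 * m₂ ≤ R + 8 * (e / β) * R + 6 * e := by
    refine step_alg (l := 2) (ρ := Lφ - ff φ) (rh := rk) (R := R) H.cub_k H.lap_k (by ring)
      H.m₂_le hβ H.hk he H.e_le hψ0 H.hψ' H.ψk ?_ hR0
    have a2 : -(3 * φ ^ 2 * (Lφ - ff φ)) = 3 * (φ ^ 3 * rφ) - 3 * φ ^ 2 * m₁ - 3 * φ ^ 2 * e₁ := by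
      rw [H.eq_φ]; ring
    have a3 := H.c_φ
    have a4 := H.c_k
    have a5 : E₂ - 3 * φ ^ 2 * m₁ ≤ max (E₂ - 3 * φ ^ 2 * m₁) 0 := le_max_left _ _
    have a6 : -(3 * φ ^ 2 * e₁) ≤ 51 / 10 * |e₁| := by
      have b1 : -(3 * φ ^ 2 * e₁) ≤ 3 * φ ^ 2 * |e₁| := by
        have : -e₁ ≤ |e₁| := neg_le_abs e₁
        have h3 : 0 ≤ 3 * φ ^ 2 := by positivity
        nlinarith
      have b2 : 3 * φ ^ 2 * |e₁| ≤ 51 / 10 * |e₁| :=
        mul_le_mul_of_nonneg_right (by linarith) (abs_nonneg _)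
      linarith
    have : 3 * k ^ 3 * rk = 3 * (k ^ 3 * rk) := by ring
    rw [this]
    have e1 : (2:ℝ) * (2 - 2) = 0 := by norm_num
    rw [e1]
    linarith
  have hd := H.m₂_supp hm
  have c1 : |ψ - k| ≤ 2 * e := by
    rw [abs_le]; constructor
    · linarith
    · have := H.ψk; linarith
  have c3 := EE_compare (φ := ψ) (ψ := φ) (h := k) (w := φ) (X := Y) (Y := X) (X' := Z) (Y' := X)
    hψ0 H.hψ' hφ0 H.hφ' hk0 H.hk' hφ0 H.hφ'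
  have c5 : 6 * |ψ - k| * ‖Z‖ ^ 2 ≤ 12 * e * ‖Z‖ ^ 2 :=
    mul_le_mul_of_nonneg_right (by linarith) (by positivity)
  have hsymm : EE ψ φ (‖Y‖ ^ 2) (‖X‖ ^ 2) = EE φ ψ (‖X‖ ^ 2) (‖Y‖ ^ 2) := by
    unfold EE; ring
  have c7 : E₂ ≤ EE φ ψ (‖X‖ ^ 2) (‖Y‖ ^ 2) + err2 e Y Z := by
    rw [hsymm] at c3
    simp only [sub_self, abs_zero, norm_zero, mul_zero, zero_mul, add_zero] at c3
    unfold err2
    nlinarith
  have q0 : 0 ≤ e / β := by positivity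
  have q1 : e / β ≤ 1 := by rw [div_le_one hβ]; exact H.e_le
  have c11 : e ≤ e / β := by
    rw [le_div_iff₀ hβ]; nlinarith
  have c8 : max (E₂ - 3 * φ ^ 2 * m₁) 0 ≤
      max (EE φ ψ (‖X‖ ^ 2) (‖Y‖ ^ 2) + err2 e Y Z - 3 * φ ^ 2 * m₁) 0 := by
    refine max_le_max ?_ le_rfl
    linarith
  have c9 : R ≤ 17 + 51 / 10 * |e₁| := by
    have : max (E₂ - 3 * φ ^ 2 * m₁) 0 ≤ 5 := max_le (by linarith) (by norm_num)
    have := H.c_le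
    rw [hR]; linarith
  have c10 : 8 * (e / β) * R ≤ 136 * (e / β) + 41 * |e₁| := by
    have b1 : 8 * (e / β) * R ≤ 8 * (e / β) * (17 + 51 / 10 * |e₁|) :=
      mul_le_mul_of_nonneg_left c9 (by positivity)
    have b2 : (e / β) * |e₁| ≤ |e₁| := by
      have := abs_nonneg e₁
      nlinarith
    have b3 : 8 * (e / β) * (17 + 51 / 10 * |e₁|) = 136 * (e / β) + 408 / 10 * ((e / β) * |e₁|) := by
      ring
    have b4 := abs_nonneg e₁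
    rw [b3] at b1
    linarith
  have := abs_nonneg e₁
  rw [hR] at h1
  rw [hR] at c10
  linarith

open Classical in
/-- **the simplex property** at a point. -/
theorem Jet.simplex (H : Jet β c e l φ ψ h w k X Y X' Y' Z Lφ Lw Lh Lk m₁ m₂ e₁ rφ rw rh rk) :
    3 * φ ^ 2 * m₁ + 3 * ψ ^ 2 * m₂ ≤ max (EE φ ψ (‖X‖ ^ 2) (‖Y‖ ^ 2)) 0 + 12 * c +
      300 * (e / β) + 50 * |e₁| + (if m₁ = 0 then 0 else err1 e β X X' Y Y') +
      (if m₂ = 0 then 0 else err2 e Y Z) := by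
  have hβ := H.beta_pos
  have he := H.e_nonneg
  have hc0 := H.c_nonneg
  have hE0 := err1_nonneg (β := β) he X X' Y Y'
  have hE1 := err2_nonneg he Y Z
  have q0 : 0 ≤ e / β := by positivity
  have g0 := abs_nonneg e₁
  have hmax : 0 ≤ max (EE φ ψ (‖X‖ ^ 2) (‖Y‖ ^ 2)) 0 := le_max_right _ _
  have hmaxl : EE φ ψ (‖X‖ ^ 2) (‖Y‖ ^ 2) ≤ max (EE φ ψ (‖X‖ ^ 2) (‖Y‖ ^ 2)) 0 := le_max_left _ _
  have first : 3 * φ ^ 2 * m₁ ≤ max (EE φ ψ (‖X‖ ^ 2) (‖Y‖ ^ 2)) 0 + 6 * c + 150 * (e / β) +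
      (if m₁ = 0 then 0 else err1 e β X X' Y Y') := by
    by_cases h1 : m₁ = 0
    · rw [if_pos h1, h1]; simp only [mul_zero, add_zero]; positivity
    · rw [if_neg h1]; exact H.first h1
  have hm1 := H.m₁_nonneg
  have hM : 0 ≤ 3 * φ ^ 2 * m₁ := by positivity
  have i1 : 0 ≤ (if m₁ = 0 then 0 else err1 e β X X' Y Y') := by split_ifs <;> [exact le_rfl; exact hE0]
  by_cases h2 : m₂ = 0
  · rw [if_pos h2, h2]
    simp only [mul_zero, add_zero]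
    linarith
  · rw [if_neg h2]
    have h3 := H.second h2
    rcases le_total (EE φ ψ (‖X‖ ^ 2) (‖Y‖ ^ 2) + err2 e Y Z - 3 * φ ^ 2 * m₁) 0 with h4 | h4
    · rw [max_eq_right h4] at h3
      linarith
    · rw [max_eq_left h4] at h3
      linarith

/-- the size of the second penalty. -/
theorem Jet.m₂_bound (H : Jet β c e l φ ψ h w k X Y X' Y' Z Lφ Lw Lh Lk m₁ m₂ e₁ rφ rw rh rk) :
    m₂ ≤ (7 / β ^ 2) * (1 + |e₁|) := by
  have hβ := H.beta_pos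
  have he := H.e_nonneg
  have hβ1 := H.beta_le
  have hφ0 : 0 ≤ φ := hβ.le.trans H.hφ
  have hk0 : 0 < k := hβ.trans_le H.hk
  have hc0 := H.c_nonneg
  have hb2 : 0 < β ^ 2 := by positivity
  set E₂ := EE k φ (‖Z‖ ^ 2) (‖X‖ ^ 2) with hE₂
  have hE5 : E₂ ≤ 5 := EE_le hk0.le H.hk' hφ0 H.hφ' (by positivity) (by positivity)
  have hm1 := H.m₁_nonneg
  have hM : 0 ≤ 3 * φ ^ 2 * m₁ := by positivity
  have hφ2 : φ ^ 2 ≤ 169 / 100 := by have := H.hφ'; nlinarith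
  have g0 := abs_nonneg e₁
  have h1 := obst_alg (ρ := Lφ - ff φ) H.cub_k H.lap_k (by ring)
  have a2 : -(3 * φ ^ 2 * (Lφ - ff φ)) = 3 * (φ ^ 3 * rφ) - 3 * φ ^ 2 * m₁ - 3 * φ ^ 2 * e₁ := by
    rw [H.eq_φ]; ring
  have a3 := H.c_φ
  have a4 := H.c_k
  have a6 : -(3 * φ ^ 2 * e₁) ≤ 51 / 10 * |e₁| := by
    have b1 : -(3 * φ ^ 2 * e₁) ≤ 3 * φ ^ 2 * |e₁| := by
      have : -e₁ ≤ |e₁| := neg_le_abs e₁
      have h3 : 0 ≤ 3 * φ ^ 2 := by positivity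
      nlinarith
    have b2 : 3 * φ ^ 2 * |e₁| ≤ 51 / 10 * |e₁| :=
      mul_le_mul_of_nonneg_right (by linarith) (abs_nonneg _)
    linarith
  have e1 : (2:ℝ) * (2 - 2) = 0 := by norm_num
  rw [e1] at h1
  have h2 : 3 * k ^ 2 * (Lk - ff k + k * rk) ≤ 17 + 51 / 10 * |e₁| := by
    have : 3 * k ^ 2 * (Lk - ff k + k * rk) = 3 * k ^ 2 * (Lk - ff k) + 3 * (k ^ 3 * rk) := by ring
    rw [this, h1]
    have := H.c_le
    linarith
  have h3 : 3 * β ^ 2 * max (Lk - ff k + k * rk) 0 ≤ 17 + 51 / 10 * |e₁| := by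
    rcases le_total (Lk - ff k + k * rk) 0 with h4 | h4
    · rw [max_eq_right h4]; simp only [mul_zero]; positivity
    · rw [max_eq_left h4]
      refine le_trans ?_ h2
      refine mul_le_mul_of_nonneg_right ?_ h4
      have : β ^ 2 ≤ k ^ 2 := pow_le_pow_left₀ hβ.le H.hk 2
      linarith
  have h4 := H.m₂_le
  have h5 : e ≤ 1 := H.e_le.trans hβ1
  have h6 : β ^ 2 ≤ 1 := by nlinarith
  rw [div_mul_eq_mul_div, le_div_iff₀ hb2]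
  have h7 : m₂ * β ^ 2 ≤ (max (Lk - ff k + k * rk) 0 + e) * β ^ 2 :=
    mul_le_mul_of_nonneg_right h4 hb2.le
  have h8 : e * β ^ 2 ≤ 1 := by nlinarith
  nlinarith

end Simplex2

end Crest.Agent.R249.SimA_780
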