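import Crest.Agent.R247.Mcp2_688

/-!
# R249 (D3-SOB), part A: pointwise Lipschitz bounds and upper gradients along rays

`LG ψ G` : `G` is continuous, `≥ 0` and bounds the pointwise Lipschitz constant of `ψ`.

* closure properties (`comp`, `mul`, `add`, `const`);
* `LG.ray` : `|ψ z - ψ x| ≤ dist x z * ∫₀¹ G (T x t z) dt` for good pairs of a `Rad` structure;
-/

set_option autoImplicit false
set_option linter.unusedSectionVars false
open MeasureTheory Set Filter Topology
open scoped ENNReal NNReal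

noncomputable section
namespace Crest.Agent.R249.SobA_982

open Crest.Agent.R247.Mcp688

section LG
variable {X : Type*} [MetricSpace X]

/-- `G` is continuous, nonnegative, and bounds the pointwise Lipschitz constant of `ψ`. -/
structure LG (ψ G : X → ℝ) : Prop where
  contG : Continuous G
  nonneg : ∀ y, 0 ≤ G y
  lip : ∀ y, ∀ ε : ℝ, 0 < ε → ∀ᶠ z in 𝓝 y, |ψ z - ψ y| ≤ (G y + ε) * dist z y

lemma LG.continuous {ψ G : X → ℝ} (h : LG ψ G) : Continuous ψ := by
  rw [continuous_iff_continuousAt]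
  intro y
  have h1 := h.lip y 1 one_pos
  rw [ContinuousAt, tendsto_iff_dist_tendsto_zero]
  have h2 : Tendsto (fun z => (G y + 1) * dist z y) (𝓝 y) (𝓝 0) := by
    have : Tendsto (fun z => (G y + 1) * dist z y) (𝓝 y) (𝓝 ((G y + 1) * dist y y)) :=
      ((continuous_const.mul (continuous_id.dist continuous_const)).tendsto y)
    simpa using this
  refine squeeze_zero' (Eventually.of_forall fun _ => dist_nonneg) ?_ h2
  filter_upwards [h1] with z hz
  rwa [Real.dist_eq]

lemma LG.mono {ψ G G' : X → ℝ} (h : LG ψ G) (hc : Continuous G') (hle : ∀ y, G y ≤ G' y) :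
    LG ψ G' where
  contG := hc
  nonneg y := (h.nonneg y).trans (hle y)
  lip y ε hε := by
    filter_upwards [h.lip y ε hε] with z hz
    refine hz.trans ?_
    have := hle y
    gcongr

lemma LG.congr {ψ ψ' G G' : X → ℝ} (h : LG ψ G) (h1 : ∀ y, ψ' y = ψ y) (h2 : ∀ y, G' y = G y) :
    LG ψ' G' := by
  have e1 : ψ' = ψ := funext h1
  have e2 : G' = G := funext h2
  rw [e1, e2]; exact h

lemma LG.const (c : ℝ) : LG (fun _ : X => c) (fun _ => 0) where
  contG := continuous_const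
  nonneg _ := le_refl _
  lip y ε hε := by
    refine Eventually.of_forall fun z => ?_
    simp only [sub_self, abs_zero, zero_add]
    positivity

lemma LG.of_lipschitz {ψ : X → ℝ} {K : ℝ} (hK : 0 ≤ K) (h : ∀ x y, |ψ x - ψ y| ≤ K * dist x y) :
    LG ψ (fun _ => K) where
  contG := continuous_const
  nonneg _ := hK
  lip y ε hε := by
    refine Eventually.of_forall fun z => (h z y).trans ?_
    have : 0 ≤ dist z y := dist_nonneg
    nlinarith

/-- Chain rule for a `C¹` function. -/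
lemma LG.comp {ψ G : X → ℝ} (h : LG ψ G) {Φ : ℝ → ℝ} (hΦ : ContDiff ℝ 1 Φ) :
    LG (fun y => Φ (ψ y)) (fun y => |deriv Φ (ψ y)| * G y) where
  contG := ((hΦ.continuous_deriv le_rfl).comp h.continuous).abs.mul h.contG
  nonneg y := mul_nonneg (abs_nonneg _) (h.nonneg y)
  lip y ε hε := by
    have hd : HasDerivAt Φ (deriv Φ (ψ y)) (ψ y) :=
      (hΦ.differentiable (by norm_num)).differentiableAt.hasDerivAt
    -- choose `δ`
    obtain ⟨δ, hδ, hδε⟩ : ∃ δ : ℝ, 0 < δ ∧ (|deriv Φ (ψ y)| + δ) * (G y + δ) ≤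
        |deriv Φ (ψ y)| * G y + ε := by
      set a := |deriv Φ (ψ y)| with ha
      have ha0 : 0 ≤ a := abs_nonneg _
      have hg0 := h.nonneg y
      refine ⟨min 1 (ε / (a + G y + 1)), lt_min one_pos (by positivity), ?_⟩
      set δ := min 1 (ε / (a + G y + 1)) with hδ
      have h1 : δ ≤ 1 := min_le_left _ _
      have h2 : δ ≤ ε / (a + G y + 1) := min_le_right _ _
      have h0 : 0 < δ := lt_min one_pos (by positivity)
      have h3 : δ * (a + G y + 1) ≤ ε := by
        rwa [le_div_iff₀ (by positivity)] at h2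
      nlinarith
    have h1 := h.lip y δ hδ
    have h2 : ∀ᶠ s in 𝓝 (ψ y), |Φ s - Φ (ψ y)| ≤ (|deriv Φ (ψ y)| + δ) * |s - ψ y| := by
      have := hd.isLittleO.bound hδ
      filter_upwards [this] with s hs
      simp only [Real.norm_eq_abs, smul_eq_mul] at hs
      calc |Φ s - Φ (ψ y)| = |(Φ s - Φ (ψ y) - (s - ψ y) * deriv Φ (ψ y)) +
            (s - ψ y) * deriv Φ (ψ y)| := by ring_nf
        _ ≤ |Φ s - Φ (ψ y) - (s - ψ y) * deriv Φ (ψ y)| + |(s - ψ y) * deriv Φ (ψ y)| :=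
            abs_add_le _ _
        _ ≤ δ * |s - ψ y| + |(s - ψ y) * deriv Φ (ψ y)| := by gcongr
        _ = (|deriv Φ (ψ y)| + δ) * |s - ψ y| := by rw [abs_mul]; ring
    filter_upwards [h1, h.continuous.continuousAt.eventually h2] with z hz1 hz2
    calc |Φ (ψ z) - Φ (ψ y)| ≤ (|deriv Φ (ψ y)| + δ) * |ψ z - ψ y| := hz2
      _ ≤ (|deriv Φ (ψ y)| + δ) * ((G y + δ) * dist z y) := by gcongr
      _ = ((|deriv Φ (ψ y)| + δ) * (G y + δ)) * dist z y := by ring
      _ ≤ _ := by gcongr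

lemma LG.add {ψ G φ F : X → ℝ} (h : LG ψ G) (h' : LG φ F) :
    LG (fun y => ψ y + φ y) (fun y => G y + F y) where
  contG := h.contG.add h'.contG
  nonneg y := add_nonneg (h.nonneg y) (h'.nonneg y)
  lip y ε hε := by
    filter_upwards [h.lip y (ε / 2) (by positivity), h'.lip y (ε / 2) (by positivity)]
      with z h1 h2
    calc |ψ z + φ z - (ψ y + φ y)| = |(ψ z - ψ y) + (φ z - φ y)| := by ring_nf
      _ ≤ |ψ z - ψ y| + |φ z - φ y| := abs_add_le _ _
      _ ≤ (G y + ε / 2) * dist z y + (F y + ε / 2) * dist z y := add_le_add h1 h2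
      _ = _ := by ring

lemma LG.neg {ψ G : X → ℝ} (h : LG ψ G) : LG (fun y => - ψ y) G where
  contG := h.contG
  nonneg := h.nonneg
  lip y ε hε := by
    filter_upwards [h.lip y ε hε] with z hz
    rw [← abs_neg]
    convert hz using 2
    ring

lemma LG.abs {ψ G : X → ℝ} (h : LG ψ G) : LG (fun y => |ψ y|) G where
  contG := h.contG
  nonneg := h.nonneg
  lip y ε hε := by
    filter_upwards [h.lip y ε hε] with z hz
    exact (abs_abs_sub_abs_le _ _).trans hz

lemma LG.sub {ψ G φ F : X → ℝ} (h : LG ψ G) (h' : LG φ F) :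
    LG (fun y => ψ y - φ y) (fun y => G y + F y) := by
  have := h.add h'.neg
  simpa only [sub_eq_add_neg] using this

lemma LG.sub_const {ψ G : X → ℝ} (h : LG ψ G) (c : ℝ) : LG (fun y => ψ y - c) G := by
  have := h.sub (LG.const c)
  simpa using this

lemma LG.mul {ψ G φ F : X → ℝ} (h : LG ψ G) (h' : LG φ F) :
    LG (fun y => ψ y * φ y) (fun y => |ψ y| * F y + |φ y| * G y) where
  contG := (h.continuous.abs.mul h'.contG).add (h'.continuous.abs.mul h.contG)
  nonneg y := add_nonneg (mul_nonneg (abs_nonneg _) (h'.nonneg y))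
    (mul_nonneg (abs_nonneg _) (h.nonneg y))
  lip y ε hε := by
    have hg0 := h.nonneg y
    have hf0 := h'.nonneg y
    set a := |ψ y| with ha
    set b := |φ y| with hb
    have ha0 : 0 ≤ a := abs_nonneg _
    have hb0 : 0 ≤ b := abs_nonneg _
    -- `ψ z φ z - ψ y φ y = ψ z (φ z - φ y) + φ y (ψ z - ψ y)`
    obtain ⟨δ, hδ, hδε⟩ : ∃ δ : ℝ, 0 < δ ∧ (a + δ) * (F y + δ) + b * (G y + δ) ≤
        a * F y + b * G y + ε := by
      refine ⟨min 1 (ε / (a + F y + b + 1)), lt_min one_pos (by positivity), ?_⟩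
      set δ := min 1 (ε / (a + F y + b + 1)) with hδ
      have h1 : δ ≤ 1 := min_le_left _ _
      have h2 : δ ≤ ε / (a + F y + b + 1) := min_le_right _ _
      have h0 : 0 < δ := lt_min one_pos (by positivity)
      have h3 : δ * (a + F y + b + 1) ≤ ε := by
        rwa [le_div_iff₀ (by positivity)] at h2
      nlinarith
    have h3 : ∀ᶠ z in 𝓝 y, |ψ z| ≤ a + δ := by
      have : ∀ᶠ z in 𝓝 y, |ψ z| < a + δ :=
        h.continuous.abs.continuousAt.eventually_lt continuousAt_const (by simp [← ha]; exact hδ)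
      filter_upwards [this] with z hz using hz.le
    filter_upwards [h.lip y δ hδ, h'.lip y δ hδ, h3] with z h1 h2 h3
    have hd : 0 ≤ dist z y := dist_nonneg
    calc |ψ z * φ z - ψ y * φ y| = |ψ z * (φ z - φ y) + φ y * (ψ z - ψ y)| := by ring_nf
      _ ≤ |ψ z * (φ z - φ y)| + |φ y * (ψ z - ψ y)| := abs_add_le _ _
      _ = |ψ z| * |φ z - φ y| + b * |ψ z - ψ y| := by rw [abs_mul, abs_mul]
      _ ≤ (a + δ) * ((F y + δ) * dist z y) + b * ((G y + δ) * dist z y) := by gcongr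
      _ = ((a + δ) * (F y + δ) + b * (G y + δ)) * dist z y := by ring
      _ ≤ _ := by gcongr

end LG

section ray
variable {n : ℕ} {κ : ℝ} {X : Type*} [MetricSpace X] [MeasurableSpace X] [BorelSpace X]
  {μ : Measure X} (C : Rad n κ X μ)

include C

/-- along a good ray -/
lemma continuousOn_T {x z : X} (h : (x, z) ∈ C.U) :
    ContinuousOn (fun t : ℝ => C.T x t z) (Icc 0 1) := by
  refine LipschitzOnWith.continuousOn (K := Real.toNNReal (dist x z)) ?_
  refine LipschitzOnWith.of_dist_le_mul fun s hs t ht => ?_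
  rw [C.dist_T x z h s hs t ht, Real.dist_eq, Real.coe_toNNReal _ dist_nonneg, mul_comm]

/-- one-sided ray inequality -/
lemma LG.ray_aux {ψ G : X → ℝ} (hψ : LG ψ G) {x z : X} (h : (x, z) ∈ C.U) :
    ψ z - ψ x ≤ dist x z * ∫ t in (0:ℝ)..1, G (C.T x t z) := by
  set L := dist x z with hL
  have hL0 : 0 ≤ L := dist_nonneg
  set γ : ℝ → X := fun t => C.T x t z with hγ
  have hγc : ContinuousOn γ (Icc 0 1) := continuousOn_T C h
  -- extend the integrand to a continuous function on the line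
  set g : ℝ → ℝ := fun t => G (γ (max 0 (min 1 t))) with hg
  have hgc : Continuous g := by
    have h1 : Continuous fun t : ℝ => γ (max 0 (min 1 t)) := by
      refine hγc.comp_continuous (by fun_prop) fun t => ⟨le_max_left _ _, ?_⟩
      exact max_le zero_le_one (min_le_left _ _)
    exact hψ.contG.comp h1
  have hgI : ∀ t ∈ Icc (0:ℝ) 1, g t = G (γ t) := by
    intro t ht
    simp only [hg]
    rw [min_eq_right ht.2, max_eq_right ht.1]
  set B : ℝ → ℝ := fun s => ψ x + L * ∫ t in (0:ℝ)..s, g t with hB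
  have hBd : ∀ s, HasDerivAt B (L * g s) s := by
    intro s
    have := (hgc.integral_hasStrictDerivAt 0 s).hasDerivAt
    exact (this.const_mul L).const_add (ψ x)
  have key := image_le_of_liminf_slope_right_le_deriv_boundary (f := fun t => ψ (γ t)) (a := 0)
    (b := 1) (B := B) (B' := fun s => L * g s) (hψ.continuous.comp_continuousOn hγc)
    (by simp [hB, hγ, C.T_zero x z h])
    (fun s _ => (hBd s).continuousAt.continuousWithinAt)
    (fun s _ => (hBd s).hasDerivWithinAt) ?_ (right_mem_Icc.2 zero_le_one)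
  · have e1 : γ 1 = z := C.T_one x z h
    have e2 : ∫ t in (0:ℝ)..1, g t = ∫ t in (0:ℝ)..1, G (γ t) := by
      apply intervalIntegral.integral_congr
      intro t ht
      rw [uIcc_of_le zero_le_one] at ht
      exact hgI t ht
    simp only [e1, hB, e2] at key
    linarith
  · intro s hs r hr
    have hs' : s ∈ Icc (0:ℝ) 1 := ⟨hs.1, hs.2.le⟩
    simp only [hgI s hs'] at hr
    -- choose `ε`
    obtain ⟨ε, hε, hεr⟩ : ∃ ε : ℝ, 0 < ε ∧ L * (G (γ s) + ε) < r := by
      refine ⟨(r - L * G (γ s)) / (2 * (L + 1)), by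
        have : 0 < r - L * G (γ s) := by linarith
        positivity, ?_⟩
      have h0 : 0 < r - L * G (γ s) := by linarith
      have h1 : L * ((r - L * G (γ s)) / (2 * (L + 1))) ≤ (r - L * G (γ s)) / 2 := by
        rw [mul_div_assoc', div_le_div_iff₀ (by positivity) (by norm_num)]
        nlinarith
      rw [mul_add]
      linarith
    have h1 := hψ.lip (γ s) ε hε
    have hcw : Tendsto γ (𝓝[>] s) (𝓝 (γ s)) := by
      have h2 : ContinuousWithinAt γ (Icc 0 1) s := hγc s hs'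
      refine h2.tendsto.mono_left ?_
      rw [nhdsWithin_le_iff]
      filter_upwards [Ioo_mem_nhdsGT hs.2] with t ht
      exact ⟨hs.1.trans ht.1.le, ht.2.le⟩
    have h2 : ∀ᶠ t in 𝓝[>] s, |ψ (γ t) - ψ (γ s)| ≤ (G (γ s) + ε) * dist (γ t) (γ s) :=
      hcw.eventually h1
    have h3 : ∀ᶠ t in 𝓝[>] s, slope (fun t => ψ (γ t)) s t < r := by
      filter_upwards [h2, Ioo_mem_nhdsGT hs.2] with t ht hts
      have hd : dist (γ t) (γ s) = (t - s) * L := by
        rw [C.dist_T x z h t ⟨hs.1.trans hts.1.le, hts.2.le⟩ s hs', abs_of_pos (by linarith [hts.1])]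
      rw [slope_def_field]
      have hpos : 0 < t - s := by linarith [hts.1]
      rw [div_lt_iff₀ hpos]
      have h4 : ψ (γ t) - ψ (γ s) ≤ (G (γ s) + ε) * ((t - s) * L) := by
        rw [← hd]; exact (le_abs_self _).trans ht
      calc ψ (γ t) - ψ (γ s) ≤ (L * (G (γ s) + ε)) * (t - s) := by linarith
        _ < r * (t - s) := by gcongr
    exact h3.frequently

/-- **Ray inequality**: `|ψ z - ψ x| ≤ d(x,z) ∫₀¹ G (T x t z) dt`. -/
lemma LG.ray {ψ G : X → ℝ} (hψ : LG ψ G) {x z : X} (h : (x, z) ∈ C.U) :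
    |ψ z - ψ x| ≤ dist x z * ∫ t in (0:ℝ)..1, G (C.T x t z) := by
  rw [abs_le]
  refine ⟨?_, LG.ray_aux C hψ h⟩
  have := LG.ray_aux C hψ.neg h
  linarith

/-- The ray inequality in `ℝ≥0∞`. -/
lemma LG.ray' {ψ G : X → ℝ} (hψ : LG ψ G) {x z : X} (h : (x, z) ∈ C.U) :
    ENNReal.ofReal |ψ z - ψ x| ≤
      ENNReal.ofReal (dist x z) * ∫⁻ t in Icc (0:ℝ) 1, ENNReal.ofReal (G (C.T x t z)) := by
  have h1 := LG.ray C hψ h
  have hc : ContinuousOn (fun t : ℝ => G (C.T x t z)) (Icc 0 1) :=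
    hψ.contG.comp_continuousOn (continuousOn_T C h)
  have h2 : ∫ t in (0:ℝ)..1, G (C.T x t z) = ∫ t in Icc (0:ℝ) 1, G (C.T x t z) := by
    rw [intervalIntegral.integral_of_le zero_le_one, integral_Icc_eq_integral_Ioc]
  have hi : IntegrableOn (fun t : ℝ => G (C.T x t z)) (Icc 0 1) := hc.integrableOn_Icc
  calc ENNReal.ofReal |ψ z - ψ x|
      ≤ ENNReal.ofReal (dist x z * ∫ t in Icc (0:ℝ) 1, G (C.T x t z)) := by
        apply ENNReal.ofReal_le_ofReal; rw [← h2]; exact h1
    _ = ENNReal.ofReal (dist x z) * ENNReal.ofReal (∫ t in Icc (0:ℝ) 1, G (C.T x t z)) :=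
        ENNReal.ofReal_mul dist_nonneg
    _ = _ := by
        rw [ofReal_integral_eq_lintegral_ofReal hi
          (Eventually.of_forall fun t => hψ.nonneg _)]

/-- squared form (Cauchy–Schwarz). -/
lemma LG.ray_sq {ψ G : X → ℝ} (hψ : LG ψ G) {x z : X} (h : (x, z) ∈ C.U) :
    ENNReal.ofReal ((ψ z - ψ x) ^ 2) ≤
      ENNReal.ofReal (dist x z ^ 2) * ∫⁻ t in Icc (0:ℝ) 1, ENNReal.ofReal (G (C.T x t z) ^ 2) := by
  have h1 := LG.ray C hψ h
  have hc : ContinuousOn (fun t : ℝ => G (C.T x t z)) (Icc 0 1) :=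
    hψ.contG.comp_continuousOn (continuousOn_T C h)
  have h2 : ∫ t in (0:ℝ)..1, G (C.T x t z) = ∫ t in Icc (0:ℝ) 1, G (C.T x t z) := by
    rw [intervalIntegral.integral_of_le zero_le_one, integral_Icc_eq_integral_Ioc]
  rw [h2] at h1
  set I := ∫ t in Icc (0:ℝ) 1, G (C.T x t z) with hI
  have hi : IntegrableOn (fun t : ℝ => G (C.T x t z)) (Icc 0 1) := hc.integrableOn_Icc
  have hi2 : IntegrableOn (fun t : ℝ => G (C.T x t z) ^ 2) (Icc 0 1) := (hc.pow 2).integrableOn_Icc
  have hI0 : 0 ≤ I := integral_nonneg fun t => hψ.nonneg _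
  have hcs : I ^ 2 ≤ ∫ t in Icc (0:ℝ) 1, G (C.T x t z) ^ 2 := by
    have h3 : 0 ≤ ∫ t in Icc (0:ℝ) 1, (G (C.T x t z) - I) ^ 2 := integral_nonneg fun t => sq_nonneg _
    have h4 : ∫ t in Icc (0:ℝ) 1, (G (C.T x t z) - I) ^ 2 =
        (∫ t in Icc (0:ℝ) 1, G (C.T x t z) ^ 2) - 2 * I * I + I ^ 2 := by
      have e : ∀ t : ℝ, (G (C.T x t z) - I) ^ 2 =
          G (C.T x t z) ^ 2 - 2 * I * G (C.T x t z) + I ^ 2 := fun t => by ring
      have a1 : Integrable (fun t : ℝ => G (C.T x t z) ^ 2 - 2 * I * G (C.T x t z))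
          (volume.restrict (Icc (0:ℝ) 1)) := hi2.sub (hi.const_mul (2 * I))
      have a2 : Integrable (fun _ : ℝ => I ^ 2) (volume.restrict (Icc (0:ℝ) 1)) :=
        integrable_const _
      have a3 : Integrable (fun t : ℝ => 2 * I * G (C.T x t z))
          (volume.restrict (Icc (0:ℝ) 1)) := hi.const_mul (2 * I)
      calc ∫ t in Icc (0:ℝ) 1, (G (C.T x t z) - I) ^ 2
          = ∫ t in Icc (0:ℝ) 1, ((G (C.T x t z) ^ 2 - 2 * I * G (C.T x t z)) + I ^ 2) := by
            congr 1; funext t; exact e t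
        _ = (∫ t in Icc (0:ℝ) 1, (G (C.T x t z) ^ 2 - 2 * I * G (C.T x t z))) +
              ∫ _ in Icc (0:ℝ) 1, I ^ 2 := integral_add a1 a2
        _ = ((∫ t in Icc (0:ℝ) 1, G (C.T x t z) ^ 2) -
              ∫ t in Icc (0:ℝ) 1, 2 * I * G (C.T x t z)) + ∫ _ in Icc (0:ℝ) 1, I ^ 2 := by
            rw [integral_sub hi2 a3]
        _ = _ := by
            rw [integral_const_mul, ← hI]
            simp
    nlinarith
  have h5 : (ψ z - ψ x) ^ 2 ≤ dist x z ^ 2 * ∫ t in Icc (0:ℝ) 1, G (C.T x t z) ^ 2 := by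
    have hd : 0 ≤ dist x z := dist_nonneg
    calc (ψ z - ψ x) ^ 2 = |ψ z - ψ x| ^ 2 := (sq_abs _).symm
      _ ≤ (dist x z * I) ^ 2 := by gcongr
      _ = dist x z ^ 2 * I ^ 2 := by ring
      _ ≤ _ := by gcongr
  calc ENNReal.ofReal ((ψ z - ψ x) ^ 2)
      ≤ ENNReal.ofReal (dist x z ^ 2 * ∫ t in Icc (0:ℝ) 1, G (C.T x t z) ^ 2) :=
        ENNReal.ofReal_le_ofReal h5
    _ = ENNReal.ofReal (dist x z ^ 2) *
          ENNReal.ofReal (∫ t in Icc (0:ℝ) 1, G (C.T x t z) ^ 2) :=
        ENNReal.ofReal_mul (by positivity)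
    _ = _ := by
        rw [ofReal_integral_eq_lintegral_ofReal hi2
          (Eventually.of_forall fun t => sq_nonneg _)]

end ray

end Crest.Agent.R249.SobA_982
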