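import Crest.Agent.R249.SobA_982

/-!
# R249 (D3-SOB), part B: representation formula and the kernel `d(x,y)^{1-n}`

* `ker n x y = (edist x y)⁻¹ ^ (n-1)`;
* `repr` : `μ A * |ψ x| ≤ K * ∫ G(y) ker n x y dμ(y)` if `ψ = 0` on `A`;
* `ker_set` : `∫_E ker n x y dμ(x) ≤ (2ⁿ ω + 1) μ(E)^{1/n}` if `μ(ball y r) ≤ ω rⁿ` for all `r`.
-/

set_option autoImplicit false
set_option linter.unusedSectionVars false
open MeasureTheory Set Filter Topology
open scoped ENNReal NNReal

noncomputable section
namespace Crest.Agent.R249.SobB_982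

open Crest.Agent.R247.Mcp688 Crest.Agent.R249.SobA_982

/-- `∫_a^∞ t^{-n} dt`. -/
lemma lintegral_inv_pow {n : ℕ} (hn : 2 ≤ n) {a : ℝ} (ha : 0 < a) :
    ∫⁻ t in Ici a, ENNReal.ofReal ((t⁻¹) ^ n) ≤ ENNReal.ofReal ((a⁻¹) ^ (n - 1)) := by
  have hn' : (1:ℝ) < n := by exact_mod_cast hn
  have hlt : (-(n:ℝ)) < -1 := by linarith
  have h1 : IntegrableOn (fun t : ℝ => t ^ (-(n:ℝ))) (Ioi a) := integrableOn_Ioi_rpow_of_lt hlt ha
  have h2 : ∫ t in Ioi a, t ^ (-(n:ℝ)) = -a ^ (-(n:ℝ) + 1) / (-(n:ℝ) + 1) :=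
    integral_Ioi_rpow_of_lt hlt ha
  have e1 : ∀ t ∈ Ioi a, (t⁻¹) ^ n = t ^ (-(n:ℝ)) := by
    intro t ht
    have : 0 < t := ha.trans ht
    rw [Real.rpow_neg this.le, Real.rpow_natCast, inv_pow]
  rw [setLIntegral_congr Ioi_ae_eq_Ici.symm]
  rw [setLIntegral_congr_fun measurableSet_Ioi (fun t ht => by
    show ENNReal.ofReal ((t⁻¹) ^ n) = ENNReal.ofReal (t ^ (-(n:ℝ)))
    rw [e1 t ht])]
  rw [← ofReal_integral_eq_lintegral_ofReal h1 ?_, h2]
  · apply ENNReal.ofReal_le_ofReal
    have e2 : a ^ (-(n:ℝ) + 1) = (a⁻¹) ^ (n - 1) := by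
      rw [inv_pow, ← Real.rpow_natCast, ← Real.rpow_neg ha.le, Nat.cast_sub (by omega)]
      congr 1
      push_cast
      ring
    have e3 : -a ^ (-(n:ℝ) + 1) / (-(n:ℝ) + 1) = (a⁻¹) ^ (n - 1) / (n - 1) := by
      rw [e2, ← neg_div_neg_eq]
      congr 1 <;> ring
    rw [e3]
    apply div_le_self (by positivity)
    have : (2:ℝ) ≤ n := by exact_mod_cast hn
    linarith
  · filter_upwards [ae_restrict_mem measurableSet_Ioi] with t ht
    exact Real.rpow_nonneg (ha.trans ht).le _

section defs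
variable {X : Type*} [MetricSpace X]

/-- the kernel `d(x,y)^{1-n}` -/
def ker (n : ℕ) (x y : X) : ℝ≥0∞ := ((edist x y)⁻¹) ^ (n - 1)

lemma ker_symm (n : ℕ) (x y : X) : ker n x y = ker n y x := by
  unfold ker; rw [edist_comm]

lemma ker_eq {n : ℕ} {x y : X} (h : x ≠ y) :
    ker n x y = ENNReal.ofReal (((dist x y)⁻¹) ^ (n - 1)) := by
  have : 0 < dist x y := dist_pos.2 h
  rw [ker, edist_dist, ← ENNReal.ofReal_inv_of_pos this, ENNReal.ofReal_pow (by positivity)]

lemma ker_self {n : ℕ} (hn : 2 ≤ n) (x : X) : ker n x x = ⊤ := by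
  have : n - 1 ≠ 0 := by omega
  simp [ker, this]

variable [MeasurableSpace X] [BorelSpace X] [SecondCountableTopology X]

lemma measurable_ker (n : ℕ) : Measurable (fun p : X × X => ker n p.1 p.2) := by
  unfold ker
  exact (measurable_edist.inv).pow_const _

end defs

section repr
variable {n : ℕ} {κ : ℝ} {X : Type*} [MetricSpace X] [MeasurableSpace X] [BorelSpace X]
  {μ : Measure X} (C : Rad n κ X μ)

include C

/-- **Representation formula.** -/
theorem repr [SFinite μ] (hκ : 0 ≤ κ) (hn : 2 ≤ n) {ψ G : X → ℝ} (hψ : LG ψ G) {x : X} {A : Set X}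
    (hA : MeasurableSet A) (hA0 : ∀ z ∈ A, ψ z = 0) {D : ℝ} (hD : 0 < D)
    (hAD : ∀ z ∈ A, dist x z ≤ D) :
    μ A * ENNReal.ofReal |ψ x| ≤
      ENNReal.ofReal (Real.exp (κ * D ^ 2 / 2) * D ^ n) *
        ∫⁻ y, ENNReal.ofReal (G y) * ker n x y ∂μ := by
  set g : X → ℝ≥0∞ := fun y => ENNReal.ofReal (G y) with hg
  have hgm : Measurable g := ENNReal.measurable_ofReal.comp hψ.contG.measurable
  have hTm : Measurable (fun p : ℝ × X => g (C.T x p.1 p.2)) := hgm.comp (C.measT_x x)
  -- step 1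
  have h1 : μ A * ENNReal.ofReal |ψ x| ≤ ENNReal.ofReal D *
      ∫⁻ z in A, ∫⁻ t in Icc (0:ℝ) 1, g (C.T x t z) ∂volume ∂μ := by
    rw [← lintegral_const_mul']
    · rw [mul_comm, ← setLIntegral_const]
      apply lintegral_mono_ae
      filter_upwards [ae_restrict_of_ae (C.ae_U x), ae_restrict_mem hA] with z hz hzA
      have := LG.ray' C hψ hz
      rw [hA0 z hzA, zero_sub, abs_neg] at this
      refine this.trans ?_
      gcongr
      exact hAD z hzA
    · exact ENNReal.ofReal_ne_top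
  -- step 2 : swap
  have h2 : ∫⁻ z in A, ∫⁻ t in Icc (0:ℝ) 1, g (C.T x t z) ∂volume ∂μ =
      ∫⁻ t in Ioc (0:ℝ) 1, ∫⁻ z in A, g (C.T x t z) ∂μ ∂volume := by
    rw [lintegral_lintegral_swap]
    · exact setLIntegral_congr Ioc_ae_eq_Icc.symm
    · exact (hTm.comp measurable_swap).aemeasurable
  -- step 3 : contraction
  have h3 : ∀ t ∈ Ioc (0:ℝ) 1, ∫⁻ z in A, g (C.T x t z) ∂μ ≤
      ENNReal.ofReal (Real.exp (κ * D ^ 2 / 2)) *
        ∫⁻ y, g y * (ENNReal.ofReal ((t⁻¹) ^ n) *
          (Metric.closedBall x (t * D)).indicator 1 y) ∂μ := by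
    intro t ht
    have hW : MeasurableSet (Metric.closedBall x (t * D)) := Metric.isClosed_closedBall.measurableSet
    refine (C.setLIntegral_T_le hκ x ht hA hW hAD (fun z hz hU => ?_) hgm).trans ?_
    · rw [Metric.mem_closedBall, dist_comm, C.dist_left hU ⟨ht.1.le, ht.2⟩]
      exact mul_le_mul_of_nonneg_left (hAD z hz) ht.1.le
    · rw [ENNReal.ofReal_mul (Real.exp_pos _).le, mul_assoc]
      gcongr
      rw [← lintegral_indicator hW, ← lintegral_const_mul _ (hgm.indicator hW)]
      apply lintegral_mono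
      intro y
      by_cases hy : y ∈ Metric.closedBall x (t * D)
      · simp only [indicator_of_mem hy, Pi.one_apply, mul_one]
        rw [mul_comm]
      · simp only [indicator_of_notMem hy, mul_zero]; exact le_rfl
  -- step 4
  have hm4 : Measurable (fun p : X × ℝ => g p.1 * (ENNReal.ofReal ((p.2⁻¹) ^ n) *
          (Metric.closedBall x (p.2 * D)).indicator 1 p.1)) := by
    have e : (fun p : X × ℝ => (Metric.closedBall x (p.2 * D)).indicator (1 : X → ℝ≥0∞) p.1) =
        {p : X × ℝ | dist p.1 x ≤ p.2 * D}.indicator 1 := by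
      funext p
      by_cases hp : dist p.1 x ≤ p.2 * D
      · rw [indicator_of_mem (by simpa using hp), indicator_of_mem (by simpa using hp)]
        rfl
      · rw [indicator_of_notMem (by simpa using hp), indicator_of_notMem (by simpa using hp)]
    have hms : MeasurableSet {p : X × ℝ | dist p.1 x ≤ p.2 * D} := by
      apply measurableSet_le
      · exact ((continuous_id.dist continuous_const).measurable).comp measurable_fst
      · exact measurable_snd.mul_const _
    refine (hgm.comp measurable_fst).mul (Measurable.mul ?_ ?_)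
    · exact ENNReal.measurable_ofReal.comp ((measurable_snd.inv).pow_const _)
    · rw [e]
      exact measurable_one.indicator hms
  have hm5 : Measurable (Function.uncurry fun (t : ℝ) (y : X) => g y *
      (ENNReal.ofReal ((t⁻¹) ^ n) * (Metric.closedBall x (t * D)).indicator 1 y)) :=
    hm4.comp measurable_swap
  have h4 : ∫⁻ t in Ioc (0:ℝ) 1, ∫⁻ z in A, g (C.T x t z) ∂μ ∂volume ≤
      ENNReal.ofReal (Real.exp (κ * D ^ 2 / 2)) *
        ∫⁻ y, g y * (ENNReal.ofReal (D ^ (n - 1)) * ker n x y) ∂μ := by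
    calc ∫⁻ t in Ioc (0:ℝ) 1, ∫⁻ z in A, g (C.T x t z) ∂μ ∂volume
        ≤ ∫⁻ t in Ioc (0:ℝ) 1, ENNReal.ofReal (Real.exp (κ * D ^ 2 / 2)) *
        ∫⁻ y, g y * (ENNReal.ofReal ((t⁻¹) ^ n) *
          (Metric.closedBall x (t * D)).indicator 1 y) ∂μ := by
          apply setLIntegral_mono' measurableSet_Ioc
          exact h3
      _ = ENNReal.ofReal (Real.exp (κ * D ^ 2 / 2)) * ∫⁻ t in Ioc (0:ℝ) 1,
        ∫⁻ y, g y * (ENNReal.ofReal ((t⁻¹) ^ n) *
          (Metric.closedBall x (t * D)).indicator 1 y) ∂μ := by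
          rw [lintegral_const_mul' _ _ ENNReal.ofReal_ne_top]
      _ ≤ _ := by
          gcongr
          rw [lintegral_lintegral_swap hm5.aemeasurable]
          apply lintegral_mono
          intro y
          show ∫⁻ t in Ioc (0:ℝ) 1, g y * (ENNReal.ofReal ((t⁻¹) ^ n) *
            (Metric.closedBall x (t * D)).indicator 1 y) ≤ g y * (ENNReal.ofReal (D ^ (n - 1)) * ker n x y)
          rw [lintegral_const_mul' _ _ ENNReal.ofReal_ne_top]
          gcongr
          by_cases hxy : x = y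
          · subst hxy
            rw [ker_self hn, ENNReal.mul_top]
            · exact le_top
            · simp only [ne_eq, ENNReal.ofReal_eq_zero, not_le]
              positivity
          · have hd : 0 < dist x y := dist_pos.2 hxy
            have ha : 0 < dist x y / D := by positivity
            calc ∫⁻ t in Ioc (0:ℝ) 1, ENNReal.ofReal ((t⁻¹) ^ n) *
                  (Metric.closedBall x (t * D)).indicator 1 y
                ≤ ∫⁻ t, (Ici (dist x y / D)).indicator
                    (fun t : ℝ => ENNReal.ofReal ((t⁻¹) ^ n)) t := by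
                  refine (lintegral_mono' Measure.restrict_le_self ?_)
                  intro t
                  beta_reduce
                  by_cases ht : y ∈ Metric.closedBall x (t * D)
                  · rw [indicator_of_mem ht, indicator_of_mem]
                    · simp
                    · rw [Metric.mem_closedBall, dist_comm] at ht
                      rw [mem_Ici, div_le_iff₀ hD]
                      exact ht
                  · rw [indicator_of_notMem ht, mul_zero]; exact bot_le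
              _ = ∫⁻ t in Ici (dist x y / D), ENNReal.ofReal ((t⁻¹) ^ n) := by
                  rw [lintegral_indicator measurableSet_Ici]
              _ ≤ ENNReal.ofReal (((dist x y / D)⁻¹) ^ (n - 1)) := lintegral_inv_pow hn ha
              _ = ENNReal.ofReal (D ^ (n - 1)) * ker n x y := by
                  rw [ker_eq hxy, ← ENNReal.ofReal_mul (by positivity), inv_div, div_pow, inv_pow]
                  rfl
  have h5 : ∫⁻ y, g y * (ENNReal.ofReal (D ^ (n - 1)) * ker n x y) ∂μ =
      ENNReal.ofReal (D ^ (n - 1)) * ∫⁻ y, g y * ker n x y ∂μ := by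
    rw [← lintegral_const_mul' _ _ ENNReal.ofReal_ne_top]
    congr 1
    funext y
    ring
  calc μ A * ENNReal.ofReal |ψ x|
      ≤ ENNReal.ofReal D * ∫⁻ z in A, ∫⁻ t in Icc (0:ℝ) 1, g (C.T x t z) ∂volume ∂μ := h1
    _ = ENNReal.ofReal D * ∫⁻ t in Ioc (0:ℝ) 1, ∫⁻ z in A, g (C.T x t z) ∂μ ∂volume := by rw [h2]
    _ ≤ ENNReal.ofReal D * (ENNReal.ofReal (Real.exp (κ * D ^ 2 / 2)) *
        ∫⁻ y, g y * (ENNReal.ofReal (D ^ (n - 1)) * ker n x y) ∂μ) := by gcongr
    _ = (ENNReal.ofReal D * ENNReal.ofReal (Real.exp (κ * D ^ 2 / 2)) *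
          ENNReal.ofReal (D ^ (n - 1))) * ∫⁻ y, g y * ker n x y ∂μ := by rw [h5]; ring
    _ = _ := by
        rw [← ENNReal.ofReal_mul hD.le, ← ENNReal.ofReal_mul (by positivity)]
        congr 2
        have : D ^ n = D * D ^ (n - 1) := by
          rw [← pow_succ']
          congr 1
          omega
        rw [this]
        ring

end repr

section kernel
variable {X : Type*} [MetricSpace X] [MeasurableSpace X] [BorelSpace X] {μ : Measure X}

/-- the kernel over a ball -/
lemma ker_ball {n : ℕ} (hn : 2 ≤ n) {ω : ℝ} (hω : 0 ≤ ω) {y : X}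
    (hup : ∀ r : ℝ, 0 < r → μ (Metric.ball y r) ≤ ENNReal.ofReal (ω * r ^ n)) {r : ℝ} (hr : 0 < r) :
    ∫⁻ x in Metric.ball y r, ker n x y ∂μ ≤ ENNReal.ofReal (4 ^ n * ω * r) := by
  have hy0 : μ {y} = 0 := by
    by_contra hne
    have hpos : 0 < μ {y} := pos_iff_ne_zero.2 hne
    have hle : ∀ s : ℝ, 0 < s → μ {y} ≤ ENNReal.ofReal (ω * s ^ n) := fun s hs =>
      (measure_mono (by simpa using hs)).trans (hup s hs)
    have ht : Tendsto (fun s : ℝ => ENNReal.ofReal (ω * s ^ n)) (𝓝[>] 0) (𝓝 0) := by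
      have : Tendsto (fun s : ℝ => ENNReal.ofReal (ω * s ^ n)) (𝓝 0) (𝓝 (ENNReal.ofReal (ω * 0 ^ n))) :=
        (ENNReal.continuous_ofReal.comp (by fun_prop)).tendsto 0
      rw [zero_pow (by omega), mul_zero, ENNReal.ofReal_zero] at this
      exact this.mono_left nhdsWithin_le_nhds
    have h0 : μ {y} ≤ 0 := by
      refine ge_of_tendsto ht ?_
      filter_upwards [self_mem_nhdsWithin] with s hs using hle s hs
    exact absurd h0 (not_le.2 hpos)
  set S : ℕ → Set X := fun k => {x | (1/2)^(k+1) * r < dist x y ∧ dist x y ≤ (1/2)^k * r} with hS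
  have hcov : Metric.ball y r ⊆ {y} ∪ ⋃ k, S k := by
    intro x hx
    by_cases hxy : x = y
    · exact Or.inl hxy
    · right
      have hd : 0 < dist x y := dist_pos.2 hxy
      have hdr : dist x y / r < 1 := by rw [div_lt_one hr]; exact hx
      obtain ⟨k, hk1, hk2⟩ := exists_nat_pow_near_of_lt_one (x := dist x y / r) (y := 1/2)
        (by positivity) hdr.le (by norm_num) (by norm_num)
      refine mem_iUnion.2 ⟨k, ?_⟩
      rw [lt_div_iff₀ hr] at hk1
      rw [div_le_iff₀ hr] at hk2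
      exact ⟨hk1, hk2⟩
  have hSk : ∀ k, ∫⁻ x in S k, ker n x y ∂μ ≤ ENNReal.ofReal ((4 ^ n * ω * r * (1/2)) * (1/2)^k) := by
    intro k
    have hρ : 0 < (1/2 : ℝ)^(k+1) * r := by positivity
    have hm : MeasurableSet (S k) := by
      have hdm : Measurable fun x : X => dist x y :=
        (continuous_id.dist continuous_const).measurable
      exact (measurableSet_lt measurable_const hdm).inter (measurableSet_le hdm measurable_const)
    have hb : ∀ x ∈ S k, ker n x y ≤ ENNReal.ofReal ((((1/2 : ℝ)^(k+1) * r)⁻¹) ^ (n - 1)) := by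
      intro x hx
      have hxy : x ≠ y := by
        rintro rfl
        have := hx.1
        rw [dist_self] at this
        linarith
      rw [ker_eq hxy]
      apply ENNReal.ofReal_le_ofReal
      have := hx.1.le
      gcongr
    have hμ : μ (S k) ≤ ENNReal.ofReal (ω * (2 * ((1/2)^k * r)) ^ n) := by
      refine (measure_mono ?_).trans (hup (2 * ((1/2)^k * r)) (by positivity))
      intro x hx
      rw [Metric.mem_ball]
      have h1 : 0 < (1/2:ℝ)^k * r := by positivity
      linarith [hx.2]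
    calc ∫⁻ x in S k, ker n x y ∂μ
        ≤ ∫⁻ _ in S k, ENNReal.ofReal ((((1/2 : ℝ)^(k+1) * r)⁻¹) ^ (n - 1)) ∂μ :=
          setLIntegral_mono' hm hb
      _ = ENNReal.ofReal ((((1/2 : ℝ)^(k+1) * r)⁻¹) ^ (n - 1)) * μ (S k) := setLIntegral_const _ _
      _ ≤ ENNReal.ofReal ((((1/2 : ℝ)^(k+1) * r)⁻¹) ^ (n - 1)) *
            ENNReal.ofReal (ω * (2 * ((1/2)^k * r)) ^ n) := by gcongr
      _ = ENNReal.ofReal (4 ^ n * ω * ((1/2 : ℝ)^(k+1) * r)) := by
          rw [← ENNReal.ofReal_mul (by positivity)]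
          congr 1
          have e : 2 * ((1/2:ℝ)^k * r) = 4 * ((1/2 : ℝ)^(k+1) * r) := by rw [pow_succ]; ring
          rw [e]
          set a := (1/2 : ℝ)^(k+1) * r with ha
          have e2 : a ^ n = a ^ (n-1) * a := by
            rw [← pow_succ]; congr 1; omega
          have ha0 : a ≠ 0 := by positivity
          rw [mul_pow, e2, inv_pow]
          have ha1 : a ^ (n-1) ≠ 0 := pow_ne_zero _ ha0
          field_simp
      _ = _ := by
          congr 1
          rw [pow_succ]
          ring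
  calc ∫⁻ x in Metric.ball y r, ker n x y ∂μ
      ≤ ∫⁻ x in {y} ∪ ⋃ k, S k, ker n x y ∂μ := lintegral_mono_set hcov
    _ ≤ ∫⁻ x in {y}, ker n x y ∂μ + ∫⁻ x in ⋃ k, S k, ker n x y ∂μ := lintegral_union_le _ _ _
    _ ≤ 0 + ∑' k, ∫⁻ x in S k, ker n x y ∂μ := by
        gcongr
        · exact (setLIntegral_measure_zero _ _ hy0).le
        · exact lintegral_iUnion_le _ _
    _ ≤ 0 + ∑' k : ℕ, ENNReal.ofReal ((4 ^ n * ω * r * (1/2)) * (1/2)^k) := by
        gcongr with k
        exact hSk k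
    _ = ENNReal.ofReal (∑' k : ℕ, (4 ^ n * ω * r * (1/2)) * (1/2)^k) := by
        rw [zero_add, ENNReal.ofReal_tsum_of_nonneg]
        · intro k; positivity
        · exact (summable_geometric_of_lt_one (by norm_num) (by norm_num)).mul_left _
    _ = _ := by
        congr 1
        rw [tsum_mul_left, tsum_geometric_of_lt_one (by norm_num) (by norm_num)]
        ring

/-- the kernel over a set of finite measure -/
lemma ker_set {n : ℕ} (hn : 2 ≤ n) {ω : ℝ} (hω : 0 ≤ ω) {y : X}
    (hup : ∀ r : ℝ, 0 < r → μ (Metric.ball y r) ≤ ENNReal.ofReal (ω * r ^ n)) {E : Set X}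
    (hE : MeasurableSet E) (hfin : μ E ≠ ∞) :
    ∫⁻ x in E, ker n x y ∂μ ≤ ENNReal.ofReal (4 ^ n * ω + 1) * μ E ^ (1 / (n:ℝ)) := by
  have hn0 : (0:ℝ) < n := by
    have : (2:ℝ) ≤ n := by exact_mod_cast hn
    linarith
  by_cases h0 : μ E = 0
  · rw [setLIntegral_measure_zero _ _ h0]; exact bot_le
  set m := (μ E).toReal with hm
  have hm0 : 0 < m := ENNReal.toReal_pos h0 hfin
  have hmE : μ E = ENNReal.ofReal m := (ENNReal.ofReal_toReal hfin).symm
  set r := m ^ (1 / (n:ℝ)) with hr
  have hr0 : 0 < r := Real.rpow_pos_of_pos hm0 _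
  have hrn : r ^ n = m := by
    rw [hr, ← Real.rpow_natCast, ← Real.rpow_mul hm0.le, one_div_mul_cancel hn0.ne', Real.rpow_one]
  have hb : ∀ x ∈ E \ Metric.ball y r, ker n x y ≤ ENNReal.ofReal ((r⁻¹) ^ (n - 1)) := by
    intro x hx
    have hd : r ≤ dist x y := by
      have := hx.2
      rw [Metric.mem_ball, not_lt] at this
      exact this
    have hxy : x ≠ y := by
      rintro rfl
      rw [dist_self] at hd
      linarith
    rw [ker_eq hxy]
    apply ENNReal.ofReal_le_ofReal
    gcongr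
  calc ∫⁻ x in E, ker n x y ∂μ
      ≤ ∫⁻ x in Metric.ball y r ∪ (E \ Metric.ball y r), ker n x y ∂μ := by
        apply lintegral_mono_set
        intro x hx
        by_cases h : x ∈ Metric.ball y r
        · exact Or.inl h
        · exact Or.inr ⟨hx, h⟩
    _ ≤ ∫⁻ x in Metric.ball y r, ker n x y ∂μ + ∫⁻ x in E \ Metric.ball y r, ker n x y ∂μ :=
        lintegral_union_le _ _ _
    _ ≤ ENNReal.ofReal (4 ^ n * ω * r) + ENNReal.ofReal ((r⁻¹) ^ (n - 1)) * μ E := by
        gcongr
        · exact ker_ball hn hω hup hr0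
        · calc ∫⁻ x in E \ Metric.ball y r, ker n x y ∂μ
              ≤ ∫⁻ _ in E \ Metric.ball y r, ENNReal.ofReal ((r⁻¹) ^ (n - 1)) ∂μ :=
                setLIntegral_mono' (hE.diff Metric.isOpen_ball.measurableSet) hb
            _ = ENNReal.ofReal ((r⁻¹) ^ (n - 1)) * μ (E \ Metric.ball y r) := setLIntegral_const _ _
            _ ≤ _ := by gcongr; exact sdiff_subset
    _ = ENNReal.ofReal ((4 ^ n * ω + 1) * r) := by
        rw [hmE, ← ENNReal.ofReal_mul (by positivity), ← ENNReal.ofReal_add (by positivity)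
          (by positivity)]
        congr 1
        rw [← hrn]
        have e2 : r ^ n = r ^ (n-1) * r := by
          rw [← pow_succ]; congr 1; omega
        rw [e2, inv_pow]
        have ha1 : r ^ (n-1) ≠ 0 := pow_ne_zero _ hr0.ne'
        field_simp
    _ = _ := by
        rw [ENNReal.ofReal_mul (by positivity), hmE, hr, ENNReal.ofReal_rpow_of_pos hm0]

end kernel

end Crest.Agent.R249.SobB_982
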