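import Crest.Agent.R249.SobB_982

/-!
# R249 (D3-SOB), part C: weak type estimate, truncation, the `L¹` Sobolev inequality,
and the `L²` Sobolev inequality in dimension 4

`Sup n ω μ` : `μ (ball y r) ≤ ω rⁿ` for all `y`, `r > 0`.

`sobolev_one` : `∫ ψ^q ≤ (C ∫ G)^q`, `q = n/(n-1)`; `sobolev_four` : `n = 4`,
`(∫ ψ⁴)^{1/2} ≤ C ∫ G²`.
-/

set_option autoImplicit false
set_option linter.unusedSectionVars false
open MeasureTheory Set Filter Topology
open scoped ENNReal NNReal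

noncomputable section
namespace Crest.Agent.R249.SobC_982

open Crest.Agent.R247.Mcp688 Crest.Agent.R249.SobA_982 Crest.Agent.R249.SobB_982

/-! ### the cut-off `θ` -/

/-- `θ = 0` on `(-∞,1]`, `θ = 1` on `[2,∞)`, smooth. -/
def th (s : ℝ) : ℝ := Real.smoothTransition (s - 1)

lemma contDiff_th : ContDiff ℝ 1 th :=
  (Real.smoothTransition.contDiff (n := 1)).comp (contDiff_id.sub contDiff_const)

lemma th_nonneg (s : ℝ) : 0 ≤ th s := Real.smoothTransition.nonneg _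

lemma th_zero {s : ℝ} (h : s ≤ 1) : th s = 0 :=
  Real.smoothTransition.zero_of_nonpos (by linarith)

lemma th_one {s : ℝ} (h : 2 ≤ s) : th s = 1 :=
  Real.smoothTransition.one_of_one_le (by linarith)

lemma continuous_deriv_th : Continuous (deriv th) := contDiff_th.continuous_deriv le_rfl

lemma deriv_th_lo {s : ℝ} (h : s ≤ 1) : deriv th s = 0 := by
  have hcl : IsClosed {s : ℝ | deriv th s = 0} := isClosed_eq continuous_deriv_th continuous_const
  have hsub : Iio (1:ℝ) ⊆ {s : ℝ | deriv th s = 0} := by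
    intro t ht
    have : th =ᶠ[𝓝 t] fun _ => 0 := by
      filter_upwards [Iio_mem_nhds ht] with u hu
      exact th_zero (le_of_lt hu)
    show deriv th t = 0
    rw [this.deriv_eq, deriv_const]
  have := hcl.closure_subset_iff.2 hsub
  rw [closure_Iio] at this
  exact this h

lemma deriv_th_hi {s : ℝ} (h : 2 ≤ s) : deriv th s = 0 := by
  have hcl : IsClosed {s : ℝ | deriv th s = 0} := isClosed_eq continuous_deriv_th continuous_const
  have hsub : Ioi (2:ℝ) ⊆ {s : ℝ | deriv th s = 0} := by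
    intro t ht
    have : th =ᶠ[𝓝 t] fun _ => 1 := by
      filter_upwards [Ioi_mem_nhds ht] with u hu
      exact th_one (le_of_lt hu)
    show deriv th t = 0
    rw [this.deriv_eq, deriv_const]
  have := hcl.closure_subset_iff.2 hsub
  rw [closure_Ioi] at this
  exact this h

lemma exists_bound_th : ∃ K : ℝ, 0 < K ∧ ∀ s, |deriv th s| ≤ K := by
  obtain ⟨K, hK⟩ := (isCompact_Icc (a := (1:ℝ)) (b := 2)).exists_bound_of_continuousOn
    continuous_deriv_th.continuousOn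
  refine ⟨max K 1, lt_max_of_lt_right one_pos, fun s => ?_⟩
  rcases le_total s 1 with h | h
  · rw [deriv_th_lo h, abs_zero]; exact le_max_of_le_right zero_le_one
  rcases le_total 2 s with h' | h'
  · rw [deriv_th_hi h', abs_zero]; exact le_max_of_le_right zero_le_one
  · exact (hK s ⟨h, h'⟩).trans (le_max_left _ _)

/-- the constant -/
def Cth : ℝ := exists_bound_th.choose

lemma Cth_pos : 0 < Cth := exists_bound_th.choose_spec.1

lemma abs_deriv_th_le (s : ℝ) : |deriv th s| ≤ Cth := exists_bound_th.choose_spec.2 s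

/-- at most one dyadic level is active -/
lemma tsum_deriv_th (s : ℝ) : ∑' k : ℤ, ENNReal.ofReal |deriv th (s * (2:ℝ) ^ (-k))| ≤
    ENNReal.ofReal Cth := by
  rcases le_or_gt s 0 with hs | hs
  · have : ∀ k : ℤ, ENNReal.ofReal |deriv th (s * (2:ℝ) ^ (-k))| = 0 := by
      intro k
      have h1 : s * (2:ℝ) ^ (-k) ≤ 1 := by
        have : 0 < (2:ℝ) ^ (-k) := by positivity
        nlinarith
      rw [deriv_th_lo h1, abs_zero, ENNReal.ofReal_zero]
    simp only [this, tsum_zero]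
    exact bot_le
  · obtain ⟨k0, hk1, hk2⟩ := exists_mem_Ico_zpow hs (one_lt_two : (1:ℝ) < 2)
    rw [tsum_eq_single k0]
    · exact ENNReal.ofReal_le_ofReal (abs_deriv_th_le _)
    · intro k hk
      rcases lt_or_gt_of_ne hk with h | h
      · have h1 : 2 ≤ s * (2:ℝ) ^ (-k) := by
          have h2 : (2:ℝ) ^ (k + 1) ≤ (2:ℝ) ^ k0 := zpow_le_zpow_right₀ (by norm_num) (by omega)
          have h3 : (2:ℝ) ^ (k + 1) ≤ s := h2.trans hk1
          have h4 : 0 < (2:ℝ) ^ (-k) := by positivity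
          calc (2:ℝ) = (2:ℝ) ^ (k + 1) * (2:ℝ) ^ (-k) := by
                rw [← zpow_add₀ (by norm_num)]
                norm_num
            _ ≤ _ := by gcongr
        rw [deriv_th_hi h1, abs_zero, ENNReal.ofReal_zero]
      · have h1 : s * (2:ℝ) ^ (-k) ≤ 1 := by
          have h2 : (2:ℝ) ^ (k0 + 1) ≤ (2:ℝ) ^ k := zpow_le_zpow_right₀ (by norm_num) (by omega)
          have h3 : s ≤ (2:ℝ) ^ k := hk2.le.trans h2
          have h4 : 0 < (2:ℝ) ^ (-k) := by positivity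
          calc s * (2:ℝ) ^ (-k) ≤ (2:ℝ) ^ k * (2:ℝ) ^ (-k) := by gcongr
            _ = 1 := by
                rw [← zpow_add₀ (by norm_num)]
                norm_num
        rw [deriv_th_lo h1, abs_zero, ENNReal.ofReal_zero]

/-! ### measures with the upper volume bound -/

section main
variable {n : ℕ} {κ : ℝ} {X : Type*} [MetricSpace X] [MeasurableSpace X] [BorelSpace X]
  [SecondCountableTopology X] {μ : Measure X} [SFinite μ] (C : Rad n κ X μ)

include C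

/-- **weak type estimate** -/
theorem weak (hκ : 0 ≤ κ) (hn : 2 ≤ n) {ω : ℝ} (hω : 0 ≤ ω)
    (hup : ∀ (y : X) (r : ℝ), 0 < r → μ (Metric.ball y r) ≤ ENNReal.ofReal (ω * r ^ n))
    {ψ G : X → ℝ} (hψ : LG ψ G) {S A : Set X} (hA : MeasurableSet A)
    (hS0 : ∀ x ∉ S, ψ x = 0) (hA0 : ∀ z ∈ A, ψ z = 0) {D : ℝ} (hD : 0 < D)
    (hAD : ∀ x ∈ S, ∀ z ∈ A, dist x z ≤ D) {lam : ℝ} (hlam : 0 < lam)
    (hfin : μ {x | lam ≤ |ψ x|} ≠ ∞) :
    μ A * (ENNReal.ofReal lam * μ {x | lam ≤ |ψ x|} ^ (1 - 1 / (n:ℝ))) ≤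
      ENNReal.ofReal (Real.exp (κ * D ^ 2 / 2) * D ^ n) * ENNReal.ofReal (4 ^ n * ω + 1) *
        ∫⁻ y, ENNReal.ofReal (G y) ∂μ := by
  have hnr : (2:ℝ) ≤ n := by exact_mod_cast hn
  have hn0 : (0:ℝ) < n := by linarith
  have hexp : 0 < 1 - 1 / (n:ℝ) := by
    have : 1 / (n:ℝ) < 1 := by rw [div_lt_one hn0]; linarith
    linarith
  set E : Set X := {x | lam ≤ |ψ x|} with hE
  have hEm : MeasurableSet E := by
    exact (isClosed_le continuous_const hψ.continuous.abs).measurableSet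
  set K : ℝ≥0∞ := ENNReal.ofReal (Real.exp (κ * D ^ 2 / 2) * D ^ n) with hK
  set M : ℝ≥0∞ := ENNReal.ofReal (4 ^ n * ω + 1) with hM
  by_cases h0 : μ E = 0
  · rw [h0, ENNReal.zero_rpow_of_pos hexp, mul_zero, mul_zero]; exact bot_le
  have hGm : Measurable fun y => ENNReal.ofReal (G y) :=
    ENNReal.measurable_ofReal.comp hψ.contG.measurable
  have h1 : μ A * ENNReal.ofReal lam * μ E ≤ K * M * μ E ^ (1 / (n:ℝ)) *
      ∫⁻ y, ENNReal.ofReal (G y) ∂μ := by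
    calc μ A * ENNReal.ofReal lam * μ E = ∫⁻ _ in E, μ A * ENNReal.ofReal lam ∂μ :=
          (setLIntegral_const _ _).symm
      _ ≤ ∫⁻ x in E, K * ∫⁻ y, ENNReal.ofReal (G y) * ker n x y ∂μ ∂μ := by
          apply setLIntegral_mono' hEm
          intro x hx
          have hxS : x ∈ S := by
            by_contra h
            have h2 : lam ≤ |ψ x| := hx
            rw [hS0 x h, abs_zero] at h2
            linarith
          refine le_trans ?_ (SobB_982.repr C hκ hn hψ hA hA0 hD (hAD x hxS))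
          gcongr
          exact hx
      _ = K * ∫⁻ x in E, ∫⁻ y, ENNReal.ofReal (G y) * ker n x y ∂μ ∂μ :=
          lintegral_const_mul' _ _ ENNReal.ofReal_ne_top
      _ = K * ∫⁻ y, ∫⁻ x in E, ENNReal.ofReal (G y) * ker n x y ∂μ ∂μ := by
          rw [lintegral_lintegral_swap]
          exact ((hGm.comp measurable_snd).mul (measurable_ker n)).aemeasurable
      _ ≤ K * ∫⁻ y, ENNReal.ofReal (G y) * (M * μ E ^ (1 / (n:ℝ))) ∂μ := by
          gcongr with y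
          rw [lintegral_const_mul' _ _ ENNReal.ofReal_ne_top]
          gcongr
          exact ker_set hn hω (hup y) hEm hfin
      _ = K * ((∫⁻ y, ENNReal.ofReal (G y) ∂μ) * (M * μ E ^ (1 / (n:ℝ)))) := by
          rw [lintegral_mul_const _ hGm]
      _ = _ := by ring
  have hp0 : μ E ^ (1 / (n:ℝ)) ≠ 0 := by
    rw [ne_eq, ENNReal.rpow_eq_zero_iff]
    rintro (⟨h, _⟩ | ⟨h, _⟩)
    · exact h0 h
    · exact hfin h
  have hpt : μ E ^ (1 / (n:ℝ)) ≠ ∞ := ENNReal.rpow_ne_top_of_nonneg (by positivity) hfin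
  have hsplit : μ E = μ E ^ (1 - 1 / (n:ℝ)) * μ E ^ (1 / (n:ℝ)) := by
    rw [← ENNReal.rpow_add _ _ h0 hfin, sub_add_cancel, ENNReal.rpow_one]
  have h2 : (μ A * (ENNReal.ofReal lam * μ E ^ (1 - 1 / (n:ℝ)))) * μ E ^ (1 / (n:ℝ)) ≤
      (K * M * ∫⁻ y, ENNReal.ofReal (G y) ∂μ) * μ E ^ (1 / (n:ℝ)) := by
    calc (μ A * (ENNReal.ofReal lam * μ E ^ (1 - 1 / (n:ℝ)))) * μ E ^ (1 / (n:ℝ))
        = μ A * ENNReal.ofReal lam * (μ E ^ (1 - 1 / (n:ℝ)) * μ E ^ (1 / (n:ℝ))) := by ring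
      _ = μ A * ENNReal.ofReal lam * μ E := by rw [← hsplit]
      _ ≤ _ := h1
      _ = _ := by ring
  exact (ENNReal.mul_le_mul_iff_left hp0 hpt).1 h2

/-- **`L¹` Sobolev inequality** for `ψ ≥ 0` vanishing off `S` and on `A`. -/
theorem sobolev_one (hκ : 0 ≤ κ) (hn : 2 ≤ n) {ω : ℝ} (hω : 0 ≤ ω)
    (hup : ∀ (y : X) (r : ℝ), 0 < r → μ (Metric.ball y r) ≤ ENNReal.ofReal (ω * r ^ n))
    {ψ G : X → ℝ} (hψ : LG ψ G) (hψ0 : ∀ x, 0 ≤ ψ x) {S A : Set X} (hA : MeasurableSet A)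
    (hS0 : ∀ x ∉ S, ψ x = 0) (hA0 : ∀ z ∈ A, ψ z = 0) {D : ℝ} (hD : 0 < D)
    (hAD : ∀ x ∈ S, ∀ z ∈ A, dist x z ≤ D) (hSfin : μ S ≠ ∞) {v : ℝ} (hv : 0 < v)
    (hvA : ENNReal.ofReal v ≤ μ A) :
    ∫⁻ x, ENNReal.ofReal (ψ x) ^ ((n:ℝ) / (n - 1)) ∂μ ≤
      (ENNReal.ofReal (4 * (Real.exp (κ * D ^ 2 / 2) * D ^ n) * (4 ^ n * ω + 1) * Cth / v) *
        ∫⁻ y, ENNReal.ofReal (G y) ∂μ) ^ ((n:ℝ) / (n - 1)) := by
  have hnr : (2:ℝ) ≤ n := by exact_mod_cast hn
  have hn0 : (0:ℝ) < n := by linarith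
  have hn1 : (0:ℝ) < n - 1 := by linarith
  set q : ℝ := (n:ℝ) / (n - 1) with hq
  have hq0 : 0 < q := by positivity
  have hq1 : 1 ≤ q := by rw [hq, le_div_iff₀ hn1]; linarith
  have hqi : 1 - 1 / (n:ℝ) = q⁻¹ := by rw [hq]; field_simp
  set K0 : ℝ := (Real.exp (κ * D ^ 2 / 2) * D ^ n) * (4 ^ n * ω + 1) with hK0
  have hK0p : 0 < K0 := by positivity
  set B : ℤ → ℝ≥0∞ := fun k =>
    ∫⁻ y, ENNReal.ofReal (|deriv th (ψ y * (2:ℝ) ^ (-k))| * G y) ∂μ with hB
  set a : ℤ → ℝ≥0∞ := fun k => μ {x | (2:ℝ) ^ (k + 1) ≤ ψ x} with ha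
  -- weak type at level `k`
  have hak : ∀ k : ℤ, a k ≤ (ENNReal.ofReal (K0 / v * (2:ℝ) ^ (-k)) * B k) ^ q := by
    intro k
    have h2k : 0 < (2:ℝ) ^ (-k) := by positivity
    set Φ : ℝ → ℝ := fun s => th (s * (2:ℝ) ^ (-k)) with hΦ
    have hΦc : ContDiff ℝ 1 Φ := contDiff_th.comp (contDiff_id.mul contDiff_const)
    have hΦd : ∀ s, deriv Φ s = deriv th (s * (2:ℝ) ^ (-k)) * (2:ℝ) ^ (-k) := by
      intro s
      have h1 : HasDerivAt th (deriv th (s * (2:ℝ) ^ (-k))) (s * (2:ℝ) ^ (-k)) :=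
        (contDiff_th.differentiable (by norm_num)).differentiableAt.hasDerivAt
      have h2 : HasDerivAt (fun s : ℝ => s * (2:ℝ) ^ (-k)) ((2:ℝ) ^ (-k)) s := by
        simpa using (hasDerivAt_id s).mul_const ((2:ℝ) ^ (-k))
      exact (h1.comp s h2).deriv
    have hLG := hψ.comp hΦc
    have hz : ∀ x, ψ x = 0 → Φ (ψ x) = 0 := by
      intro x hx
      simp only [hΦ, hx, zero_mul]
      exact th_zero zero_le_one
    have hfin : μ {x | 1 ≤ |Φ (ψ x)|} ≠ ∞ := by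
      refine ne_top_of_le_ne_top hSfin (measure_mono fun x hx => ?_)
      by_contra h
      have h1 : 1 ≤ |Φ (ψ x)| := hx
      rw [hz x (hS0 x h), abs_zero] at h1
      linarith
    have hw := weak C hκ hn hω hup hLG (S := S) hA (fun x hx => hz x (hS0 x hx))
      (fun x hx => hz x (hA0 x hx)) hD hAD one_pos hfin
    rw [ENNReal.ofReal_one, one_mul, hqi] at hw
    have hint : ∫⁻ y, ENNReal.ofReal (|deriv Φ (ψ y)| * G y) ∂μ =
        ENNReal.ofReal ((2:ℝ) ^ (-k)) * B k := by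
      rw [hB, ← lintegral_const_mul' _ _ ENNReal.ofReal_ne_top]
      congr 1
      funext y
      rw [← ENNReal.ofReal_mul h2k.le]
      congr 1
      rw [hΦd, abs_mul, abs_of_pos h2k]
      ring
    rw [hint] at hw
    have hmono : a k ≤ μ {x | 1 ≤ |Φ (ψ x)|} := by
      apply measure_mono
      intro x hx
      have h1 : (2:ℝ) ^ (k + 1) ≤ ψ x := hx
      have h2 : 2 ≤ ψ x * (2:ℝ) ^ (-k) := by
        calc (2:ℝ) = (2:ℝ) ^ (k + 1) * (2:ℝ) ^ (-k) := by
              rw [← zpow_add₀ (by norm_num)]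
              norm_num
          _ ≤ _ := by gcongr
      show 1 ≤ |Φ (ψ x)|
      simp only [hΦ]
      rw [th_one h2, abs_one]
    have h3 : ENNReal.ofReal v * (a k) ^ q⁻¹ ≤
        ENNReal.ofReal K0 * (ENNReal.ofReal ((2:ℝ) ^ (-k)) * B k) := by
      calc ENNReal.ofReal v * (a k) ^ q⁻¹ ≤ μ A * μ {x | 1 ≤ |Φ (ψ x)|} ^ q⁻¹ := by gcongr
        _ ≤ _ := hw
        _ = _ := by rw [hK0, ← ENNReal.ofReal_mul (by positivity)]
    have hv0 : ENNReal.ofReal v ≠ 0 := by simpa using hv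
    have h4 : (a k) ^ q⁻¹ ≤ ENNReal.ofReal (K0 / v * (2:ℝ) ^ (-k)) * B k := by
      have h5 : (a k) ^ q⁻¹ ≤ (ENNReal.ofReal v)⁻¹ * (ENNReal.ofReal K0 * (ENNReal.ofReal ((2:ℝ) ^ (-k)) * B k)) := by
        calc (a k) ^ q⁻¹ = (ENNReal.ofReal v)⁻¹ * (ENNReal.ofReal v * (a k) ^ q⁻¹) := by
              rw [← mul_assoc, ENNReal.inv_mul_cancel hv0 ENNReal.ofReal_ne_top, one_mul]
          _ ≤ _ := by gcongr
      refine h5.trans (le_of_eq ?_)
      rw [← ENNReal.ofReal_inv_of_pos hv, ← mul_assoc, ← mul_assoc,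
        ← ENNReal.ofReal_mul (by positivity), ← ENNReal.ofReal_mul (by positivity)]
      congr 2
      ring
    calc a k = ((a k) ^ q⁻¹) ^ q := by
          rw [← ENNReal.rpow_mul, inv_mul_cancel₀ hq0.ne', ENNReal.rpow_one]
      _ ≤ _ := by gcongr
  -- sum of the `B k`
  have hBsum : ∑' k, B k ≤ ENNReal.ofReal Cth * ∫⁻ y, ENNReal.ofReal (G y) ∂μ := by
    have hm : ∀ k : ℤ, AEMeasurable (fun y => ENNReal.ofReal (|deriv th (ψ y * (2:ℝ) ^ (-k))| * G y)) μ := by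
      intro k
      apply Measurable.aemeasurable
      apply ENNReal.measurable_ofReal.comp
      refine (Continuous.measurable ?_).mul hψ.contG.measurable
      exact (continuous_deriv_th.comp (hψ.continuous.mul continuous_const)).abs
    rw [← lintegral_tsum hm, ← lintegral_const_mul' _ _ ENNReal.ofReal_ne_top]
    apply lintegral_mono
    intro y
    show ∑' k : ℤ, ENNReal.ofReal (|deriv th (ψ y * (2:ℝ) ^ (-k))| * G y) ≤ _
    have e : ∀ k : ℤ, ENNReal.ofReal (|deriv th (ψ y * (2:ℝ) ^ (-k))| * G y) =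
        ENNReal.ofReal |deriv th (ψ y * (2:ℝ) ^ (-k))| * ENNReal.ofReal (G y) := fun k =>
      ENNReal.ofReal_mul (abs_nonneg _)
    simp_rw [e]
    rw [ENNReal.tsum_mul_right]
    gcongr
    exact tsum_deriv_th _
  -- layer decomposition
  have hlayer : ∫⁻ x, ENNReal.ofReal (ψ x) ^ q ∂μ ≤
      ∑' k : ℤ, ENNReal.ofReal ((2:ℝ) ^ (k + 2)) ^ q * a k := by
    have hm : ∀ k : ℤ, AEMeasurable (fun x => {x | (2:ℝ) ^ (k + 1) ≤ ψ x}.indicator
        (fun _ => ENNReal.ofReal ((2:ℝ) ^ (k + 2)) ^ q) x) μ := by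
      intro k
      apply Measurable.aemeasurable
      exact measurable_const.indicator (isClosed_le continuous_const hψ.continuous).measurableSet
    calc ∫⁻ x, ENNReal.ofReal (ψ x) ^ q ∂μ
        ≤ ∫⁻ x, ∑' k : ℤ, {x | (2:ℝ) ^ (k + 1) ≤ ψ x}.indicator
          (fun _ => ENNReal.ofReal ((2:ℝ) ^ (k + 2)) ^ q) x ∂μ := by
          apply lintegral_mono
          intro x
          beta_reduce
          rcases (hψ0 x).eq_or_lt with h | h
          · rw [← h, ENNReal.ofReal_zero, ENNReal.zero_rpow_of_pos hq0]; exact bot_le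
          · obtain ⟨k0, hk1, hk2⟩ := exists_mem_Ico_zpow h (one_lt_two : (1:ℝ) < 2)
            refine le_trans ?_ (ENNReal.le_tsum (k0 - 1))
            rw [indicator_of_mem]
            · gcongr
              have : (k0 - 1 + 2 : ℤ) = k0 + 1 := by ring
              rw [this]
              exact hk2.le
            · show (2:ℝ) ^ (k0 - 1 + 1) ≤ ψ x
              rw [sub_add_cancel]
              exact hk1
      _ = ∑' k : ℤ, ∫⁻ x, {x | (2:ℝ) ^ (k + 1) ≤ ψ x}.indicator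
          (fun _ => ENNReal.ofReal ((2:ℝ) ^ (k + 2)) ^ q) x ∂μ := lintegral_tsum hm
      _ = _ := by
          congr 1
          funext k
          rw [lintegral_indicator (isClosed_le continuous_const hψ.continuous).measurableSet,
            setLIntegral_const]
  -- conclusion
  set Bs := ∑' k, B k with hBs
  have hterm : ∀ k : ℤ, ENNReal.ofReal ((2:ℝ) ^ (k + 2)) ^ q * a k ≤
      ENNReal.ofReal (4 * K0 / v) ^ q * (B k * Bs ^ (q - 1)) := by
    intro k
    calc ENNReal.ofReal ((2:ℝ) ^ (k + 2)) ^ q * a k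
        ≤ ENNReal.ofReal ((2:ℝ) ^ (k + 2)) ^ q *
            (ENNReal.ofReal (K0 / v * (2:ℝ) ^ (-k)) * B k) ^ q := by gcongr; exact hak k
      _ = (ENNReal.ofReal (4 * K0 / v) * B k) ^ q := by
          rw [← ENNReal.mul_rpow_of_nonneg _ _ hq0.le, ← mul_assoc,
            ← ENNReal.ofReal_mul (by positivity)]
          congr 3
          have : (2:ℝ) ^ (k + 2) * (2:ℝ) ^ (-k) = 4 := by
            rw [← zpow_add₀ (by norm_num)]
            norm_num
          calc (2:ℝ) ^ (k + 2) * (K0 / v * (2:ℝ) ^ (-k)) = ((2:ℝ) ^ (k + 2) * (2:ℝ) ^ (-k)) * (K0 / v) := by ring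
            _ = _ := by rw [this]; ring
      _ = ENNReal.ofReal (4 * K0 / v) ^ q * (B k) ^ q := ENNReal.mul_rpow_of_nonneg _ _ hq0.le
      _ ≤ _ := by
          gcongr
          by_cases hb0 : B k = 0
          · rw [hb0, ENNReal.zero_rpow_of_pos hq0, zero_mul]
          calc B k ^ q = B k ^ (1 + (q - 1)) := by congr 1; ring
            _ = B k ^ (1:ℝ) * B k ^ (q - 1) := ENNReal.rpow_add_of_nonneg _ _ (by norm_num) (by linarith)
            _ ≤ B k * Bs ^ (q - 1) := by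
                rw [ENNReal.rpow_one]
                exact mul_le_mul_right (ENNReal.rpow_le_rpow (ENNReal.le_tsum k) (by linarith)) _
  calc ∫⁻ x, ENNReal.ofReal (ψ x) ^ q ∂μ
      ≤ ∑' k : ℤ, ENNReal.ofReal ((2:ℝ) ^ (k + 2)) ^ q * a k := hlayer
    _ ≤ ∑' k : ℤ, ENNReal.ofReal (4 * K0 / v) ^ q * (B k * Bs ^ (q - 1)) := ENNReal.tsum_le_tsum hterm
    _ = ENNReal.ofReal (4 * K0 / v) ^ q * (Bs * Bs ^ (q - 1)) := by
        rw [ENNReal.tsum_mul_left, ENNReal.tsum_mul_right]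
    _ = ENNReal.ofReal (4 * K0 / v) ^ q * Bs ^ q := by
        congr 1
        calc Bs * Bs ^ (q - 1) = Bs ^ (1:ℝ) * Bs ^ (q - 1) := by rw [ENNReal.rpow_one]
          _ = Bs ^ (1 + (q - 1)) := (ENNReal.rpow_add_of_nonneg _ _ (by norm_num) (by linarith)).symm
          _ = _ := by congr 1; ring
    _ = (ENNReal.ofReal (4 * K0 / v) * Bs) ^ q := (ENNReal.mul_rpow_of_nonneg _ _ hq0.le).symm
    _ ≤ (ENNReal.ofReal (4 * K0 / v) * (ENNReal.ofReal Cth * ∫⁻ y, ENNReal.ofReal (G y) ∂μ)) ^ q := by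
        gcongr
    _ = _ := by
        rw [← mul_assoc, ← ENNReal.ofReal_mul (by positivity)]
        congr 3
        rw [hK0]
        ring

omit C in
/-- **`L²` Sobolev inequality in dimension 4** for `ψ` vanishing off `S` and on `A`. -/
theorem sobolev_four {κ : ℝ} (C : Rad 4 κ X μ) (hκ : 0 ≤ κ) {ω : ℝ} (hω : 0 ≤ ω)
    (hup : ∀ (y : X) (r : ℝ), 0 < r → μ (Metric.ball y r) ≤ ENNReal.ofReal (ω * r ^ 4))
    {ψ G : X → ℝ} (hψ : LG ψ G) {S A : Set X} (hA : MeasurableSet A)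
    (hS0 : ∀ x ∉ S, ψ x = 0) (hA0 : ∀ z ∈ A, ψ z = 0) {D : ℝ} (hD : 0 < D)
    (hAD : ∀ x ∈ S, ∀ z ∈ A, dist x z ≤ D) (hSfin : μ S ≠ ∞) {v : ℝ} (hv : 0 < v)
    (hvA : ENNReal.ofReal v ≤ μ A) (hb : ∃ b, ∀ x, |ψ x| ≤ b) :
    (∫⁻ x, ENNReal.ofReal (ψ x ^ 4) ∂μ) ^ (1 / 2 : ℝ) ≤
      ENNReal.ofReal ((12 * (Real.exp (κ * D ^ 2 / 2) * D ^ 4) * (4 ^ 4 * ω + 1) * Cth / v) ^ 2) *
        ∫⁻ y, ENNReal.ofReal (G y ^ 2) ∂μ := by
  set Φ : ℝ → ℝ := fun s => s ^ 3 with hΦ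
  have hΦc : ContDiff ℝ 1 Φ := by fun_prop
  have hΦd : ∀ s, deriv Φ s = 3 * s ^ 2 := by
    intro s
    simp [hΦ]
  set K1 : ℝ := 4 * (Real.exp (κ * D ^ 2 / 2) * D ^ 4) * (4 ^ 4 * ω + 1) * Cth / v with hK1
  have hK1p : 0 < K1 := by
    have := Cth_pos
    positivity
  have hLG := hψ.abs.comp hΦc
  have h1 := sobolev_one C hκ (by norm_num) hω hup hLG
    (fun x => by simp only [hΦ]; positivity) (S := S) hA
    (fun x hx => by simp [hΦ, hS0 x hx]) (fun x hx => by simp [hΦ, hA0 x hx]) hD hAD hSfin hv hvA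
  have hq : (((4:ℕ):ℝ) / (((4:ℕ):ℝ) - 1)) = 4 / 3 := by norm_num
  rw [hq, ← hK1] at h1
  set I : ℝ≥0∞ := ∫⁻ x, ENNReal.ofReal (ψ x ^ 4) ∂μ with hI
  set J : ℝ≥0∞ := ∫⁻ y, ENNReal.ofReal (G y ^ 2) ∂μ with hJ
  have hIeq : ∫⁻ x, ENNReal.ofReal (Φ |ψ x|) ^ (4 / 3 : ℝ) ∂μ = I := by
    rw [hI]
    congr 1
    funext x
    simp only [hΦ]
    rw [ENNReal.ofReal_rpow_of_nonneg (by positivity) (by norm_num)]
    congr 1
    rw [← Real.rpow_natCast, ← Real.rpow_mul (abs_nonneg _)]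
    norm_num
    rw [pow_abs]
    exact abs_of_nonneg (by positivity : (0:ℝ) ≤ ψ x ^ 4)
  -- Cauchy-Schwarz for `∫ 3 ψ² G`
  have hcs : ∫⁻ y, ENNReal.ofReal (|deriv Φ (|ψ y|)| * G y) ∂μ ≤
      3 * (I ^ (1/2:ℝ) * J ^ (1/2:ℝ)) := by
    have e : ∀ y, ENNReal.ofReal (|deriv Φ (|ψ y|)| * G y) =
        3 * (ENNReal.ofReal (ψ y ^ 2) * ENNReal.ofReal (G y)) := by
      intro y
      rw [hΦd, sq_abs, abs_of_nonneg (by positivity), ← ENNReal.ofReal_mul (by positivity),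
        show (3 : ℝ≥0∞) = ENNReal.ofReal 3 by norm_num, ← ENNReal.ofReal_mul (by norm_num)]
      congr 1
      ring
    simp_rw [e]
    rw [lintegral_const_mul' _ _ (by norm_num)]
    gcongr
    have hm1 : AEMeasurable (fun y => ENNReal.ofReal (ψ y ^ 2)) μ :=
      (ENNReal.measurable_ofReal.comp (hψ.continuous.pow 2).measurable).aemeasurable
    have hm2 : AEMeasurable (fun y => ENNReal.ofReal (G y)) μ :=
      (ENNReal.measurable_ofReal.comp hψ.contG.measurable).aemeasurable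
    have := ENNReal.lintegral_mul_le_Lp_mul_Lq μ (p := 2) (q := 2)
      (Real.holderConjugate_iff.2 ⟨by norm_num, by norm_num⟩) hm1 hm2
    refine this.trans (le_of_eq ?_)
    congr 2
    · rw [hI]
      congr 1
      funext y
      rw [ENNReal.rpow_two, ← ENNReal.ofReal_pow (by positivity)]
      congr 1
      ring
    · rw [hJ]
      congr 1
      funext y
      rw [ENNReal.rpow_two, ← ENNReal.ofReal_pow (hψ.nonneg y)]
  have hIfin : I ≠ ∞ := by
    obtain ⟨b, hb⟩ := hb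
    have h2 : I ≤ ENNReal.ofReal (b ^ 4) * μ S := by
      calc I ≤ ∫⁻ x, (toMeasurable μ S).indicator (fun _ => ENNReal.ofReal (b ^ 4)) x ∂μ := by
            rw [hI]
            apply lintegral_mono
            intro x
            beta_reduce
            by_cases hx : x ∈ S
            · rw [indicator_of_mem (subset_toMeasurable μ S hx)]
              apply ENNReal.ofReal_le_ofReal
              have h3 := hb x
              have h4 : 0 ≤ |ψ x| := abs_nonneg _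
              calc ψ x ^ 4 = |ψ x| ^ 4 := by
                    rw [pow_abs, abs_of_nonneg (by positivity)]
                _ ≤ b ^ 4 := by gcongr
            · rw [hS0 x hx]; simp
        _ = ENNReal.ofReal (b ^ 4) * μ S := by
            rw [lintegral_indicator (measurableSet_toMeasurable μ S), setLIntegral_const,
              measure_toMeasurable]
    exact ne_top_of_le_ne_top (ENNReal.mul_ne_top ENNReal.ofReal_ne_top hSfin) h2
  by_cases hI0 : I = 0
  · rw [hI0, ENNReal.zero_rpow_of_pos (by norm_num)]; exact bot_le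
  have h5 : I ≤ (ENNReal.ofReal (3 * K1)) ^ (4/3:ℝ) * J ^ (2/3:ℝ) * I ^ (2/3:ℝ) := by
    calc I = ∫⁻ x, ENNReal.ofReal (Φ |ψ x|) ^ (4 / 3 : ℝ) ∂μ := hIeq.symm
      _ ≤ (ENNReal.ofReal K1 * ∫⁻ y, ENNReal.ofReal (|deriv Φ (|ψ y|)| * G y) ∂μ) ^ (4/3:ℝ) := h1
      _ ≤ (ENNReal.ofReal K1 * (3 * (I ^ (1/2:ℝ) * J ^ (1/2:ℝ)))) ^ (4/3:ℝ) := by gcongr
      _ = (ENNReal.ofReal (3 * K1) * (I ^ (1/2:ℝ) * J ^ (1/2:ℝ))) ^ (4/3:ℝ) := by
          congr 1
          rw [ENNReal.ofReal_mul (by norm_num), show ENNReal.ofReal 3 = (3 : ℝ≥0∞) by norm_num]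
          ring
      _ = _ := by
          rw [ENNReal.mul_rpow_of_nonneg _ _ (by norm_num), ENNReal.mul_rpow_of_nonneg _ _ (by norm_num),
            ← ENNReal.rpow_mul, ← ENNReal.rpow_mul]
          norm_num
          ring
  have h6 : I ^ (1/3:ℝ) ≤ (ENNReal.ofReal (3 * K1)) ^ (4/3:ℝ) * J ^ (2/3:ℝ) := by
    have hp0 : I ^ (2/3:ℝ) ≠ 0 := by
      rw [ne_eq, ENNReal.rpow_eq_zero_iff]
      rintro (⟨h, _⟩ | ⟨h, _⟩)
      · exact hI0 h
      · exact hIfin h
    have hpt : I ^ (2/3:ℝ) ≠ ∞ := ENNReal.rpow_ne_top_of_nonneg (by norm_num) hIfin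
    refine (ENNReal.mul_le_mul_iff_left hp0 hpt).1 ?_
    rw [← ENNReal.rpow_add _ _ hI0 hIfin]
    norm_num
    convert h5 using 1
    norm_num
  calc I ^ (1/2:ℝ) = (I ^ (1/3:ℝ)) ^ (3/2:ℝ) := by rw [← ENNReal.rpow_mul]; norm_num
    _ ≤ ((ENNReal.ofReal (3 * K1)) ^ (4/3:ℝ) * J ^ (2/3:ℝ)) ^ (3/2:ℝ) := by gcongr
    _ = (ENNReal.ofReal (3 * K1)) ^ (2:ℝ) * J := by
        rw [ENNReal.mul_rpow_of_nonneg _ _ (by norm_num), ← ENNReal.rpow_mul, ← ENNReal.rpow_mul]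
        norm_num
    _ = _ := by
        rw [ENNReal.rpow_two, ← ENNReal.ofReal_pow (by positivity)]
        congr 3
        rw [hK1]
        ring

end main

end Crest.Agent.R249.SobC_982
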