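import Crest.Agent.R249.SobC_982

/-!
# R249 (D3-SOB), part D: cut-offs, Neumann–Poincaré inequalities on balls, and the local
Sobolev–Poincaré inequality in dimension 4

* `cut x0 r` : `1` on `closedBall x0 r`, `0` off `ball x0 (2r)`, in `[0,1]`, with `LG` bound
  `≤ Cth / r` supported in the annulus;
* `poinc_one`, `poinc_two` : `∫_B |f - f_B| ≤ C r ∫_{2B} G`, `∫_B (f - f_B)² ≤ C r² ∫_{2B} G²`;
* `sobpoinc` : `n = 4`, `(∫_{B_r} (f-c)⁴)^{1/2} ≤ C ∫_{B_{4r}} G²`, `c` = mean over `B_{2r}`.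
-/

set_option autoImplicit false
set_option linter.unusedSectionVars false
open MeasureTheory Set Filter Topology
open scoped ENNReal NNReal

noncomputable section
namespace Crest.Agent.R249.SobD_982

open Crest.Agent.R247.Mcp688 Crest.Agent.R249.SobA_982 Crest.Agent.R249.SobB_982
  Crest.Agent.R249.SobC_982

section cut
variable {X : Type*} [MetricSpace X]

/-- cut-off -/
def cut (x0 : X) (r : ℝ) (y : X) : ℝ := 1 - th (dist y x0 / r)

/-- its gradient bound -/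
def dcut (x0 : X) (r : ℝ) (y : X) : ℝ := |deriv th (dist y x0 / r)| / r

lemma cut_nonneg (x0 : X) (r : ℝ) (y : X) : 0 ≤ cut x0 r y := by
  unfold cut
  have : th (dist y x0 / r) ≤ 1 := Real.smoothTransition.le_one _
  linarith

lemma cut_le_one (x0 : X) (r : ℝ) (y : X) : cut x0 r y ≤ 1 := by
  unfold cut
  have := th_nonneg (dist y x0 / r)
  linarith

lemma cut_one {x0 : X} {r : ℝ} (hr : 0 < r) {y : X} (h : dist y x0 ≤ r) : cut x0 r y = 1 := by
  unfold cut
  rw [th_zero, sub_zero]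
  rwa [div_le_one hr]

lemma cut_zero {x0 : X} {r : ℝ} (hr : 0 < r) {y : X} (h : 2 * r ≤ dist y x0) :
    cut x0 r y = 0 := by
  unfold cut
  rw [th_one, sub_self]
  rwa [le_div_iff₀ hr]

lemma dcut_zero {x0 : X} {r : ℝ} (hr : 0 < r) {y : X} (h : 2 * r ≤ dist y x0) :
    dcut x0 r y = 0 := by
  unfold dcut
  rw [deriv_th_hi, abs_zero, zero_div]
  rwa [le_div_iff₀ hr]

lemma dcut_zero' {x0 : X} {r : ℝ} (hr : 0 < r) {y : X} (h : dist y x0 ≤ r) :
    dcut x0 r y = 0 := by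
  unfold dcut
  rw [deriv_th_lo, abs_zero, zero_div]
  rwa [div_le_one hr]

lemma dcut_nonneg {x0 : X} {r : ℝ} (hr : 0 < r) (y : X) : 0 ≤ dcut x0 r y := by
  unfold dcut; positivity

lemma dcut_le {x0 : X} {r : ℝ} (hr : 0 < r) (y : X) : dcut x0 r y ≤ Cth / r := by
  unfold dcut
  have := abs_deriv_th_le (dist y x0 / r)
  gcongr

lemma LG_dist (x0 : X) : LG (fun y : X => dist y x0) (fun _ => 1) :=
  LG.of_lipschitz zero_le_one fun x y => by
    rw [one_mul]; exact abs_dist_sub_le x y x0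

lemma LG_cut (x0 : X) {r : ℝ} (hr : 0 < r) : LG (cut x0 r) (dcut x0 r) := by
  set Φ : ℝ → ℝ := fun s => 1 - th (s / r) with hΦ
  have hΦc : ContDiff ℝ 1 Φ := contDiff_const.sub (contDiff_th.comp (contDiff_id.div_const r))
  have h := (LG_dist x0).comp hΦc
  refine h.congr (fun y => rfl) fun y => ?_
  have h1 : HasDerivAt Φ (-(deriv th (dist y x0 / r) * (1 / r))) (dist y x0) := by
    have h2 : HasDerivAt th (deriv th (dist y x0 / r)) (dist y x0 / r) :=
      (contDiff_th.differentiable (by norm_num)).differentiableAt.hasDerivAt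
    have h3 : HasDerivAt (fun s : ℝ => s / r) (1 / r) (dist y x0) := by
      simpa using (hasDerivAt_id (dist y x0)).div_const r
    exact (h2.comp (dist y x0) h3).const_sub 1
  rw [h1.deriv, abs_neg, abs_mul, abs_of_pos (by positivity : (0:ℝ) < 1 / r), mul_one, dcut]
  ring

end cut

section poinc
variable {n : ℕ} {κ : ℝ} {X : Type*} [MetricSpace X] [MeasurableSpace X] [BorelSpace X]
  {μ : Measure X} [SFinite μ] (C : Rad n κ X μ)

include C

lemma geo_ball {x0 x z : X} {r : ℝ} (hx : x ∈ Metric.ball x0 r) (hz : z ∈ Metric.ball x0 r)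
    (hU : (x, z) ∈ C.U) {t : ℝ} (ht : t ∈ Icc (0:ℝ) 1) : C.T x t z ∈ Metric.ball x0 (2 * r) := by
  rw [Metric.mem_ball] at *
  have h1 := C.dist_left hU ht
  have h2 := C.dist_right hU ht
  have h3 : dist x z < 2 * r := by
    have := dist_triangle_right x z x0
    linarith
  have h0 : 0 ≤ dist x z := dist_nonneg
  have h4 := dist_triangle (C.T x t z) x x0
  have h5 := dist_triangle (C.T x t z) z x0
  rw [dist_comm (C.T x t z) x, h1] at h4
  rw [h2] at h5
  rcases le_total t (1/2) with h | h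
  · nlinarith
  · nlinarith

/-- double integral form, exponent 2 -/
theorem dbl_two (hκ : 0 ≤ κ) {f G : X → ℝ} (hf : LG f G) (x0 : X) {r : ℝ} (hr : 0 < r) :
    ∫⁻ x in Metric.ball x0 r, ∫⁻ z in Metric.ball x0 r, ENNReal.ofReal ((f x - f z) ^ 2) ∂μ ∂μ ≤
      ENNReal.ofReal (8 * r ^ 2 * (Real.exp (2 * κ * r ^ 2) * 2 ^ n)) * μ (Metric.ball x0 r) *
        ∫⁻ y in Metric.ball x0 (2 * r), ENNReal.ofReal (G y ^ 2) ∂μ := by
  set B := Metric.ball x0 r with hB
  have hBm : MeasurableSet B := Metric.isOpen_ball.measurableSet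
  have hg : Measurable fun y => ENNReal.ofReal (G y ^ 2) :=
    ENNReal.measurable_ofReal.comp (hf.contG.pow 2).measurable
  have hmeas : Measurable (fun p : X × ℝ × X => ENNReal.ofReal (G (C.T p.1 p.2.1 p.2.2) ^ 2)) :=
    hg.comp C.measT
  have h1 : ∫⁻ x in B, ∫⁻ z in B, ENNReal.ofReal ((f x - f z) ^ 2) ∂μ ∂μ ≤
      ∫⁻ x in B, ∫⁻ z in B, ENNReal.ofReal ((2 * r) ^ 2) *
        ∫⁻ t in Icc (0:ℝ) 1, ENNReal.ofReal (G (C.T x t z) ^ 2) ∂volume ∂μ ∂μ := by
    apply setLIntegral_mono' hBm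
    intro x hx
    apply lintegral_mono_ae
    filter_upwards [ae_restrict_of_ae (C.ae_U x), ae_restrict_mem hBm] with z hz hzB
    have := LG.ray_sq C hf hz
    have e : (f x - f z) ^ 2 = (f z - f x) ^ 2 := by ring
    rw [e]
    refine this.trans ?_
    gcongr
    have := dist_triangle_right x z x0
    rw [hB, Metric.mem_ball] at hx hzB
    linarith
  refine h1.trans ?_
  have h2 : ∀ x, ∫⁻ z in B, ENNReal.ofReal ((2 * r) ^ 2) *
        ∫⁻ t in Icc (0:ℝ) 1, ENNReal.ofReal (G (C.T x t z) ^ 2) ∂volume ∂μ =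
      ENNReal.ofReal ((2 * r) ^ 2) * ∫⁻ z in B,
        ∫⁻ t in Icc (0:ℝ) 1, ENNReal.ofReal (G (C.T x t z) ^ 2) ∂volume ∂μ := fun x =>
    lintegral_const_mul' _ _ ENNReal.ofReal_ne_top
  simp_rw [h2]
  rw [lintegral_const_mul' _ _ ENNReal.ofReal_ne_top]
  have h3 := C.segment_le hκ (A := B) (B := B) (W := Metric.ball x0 (2 * r)) hBm hBm
    Metric.isOpen_ball.measurableSet (D := 2 * r)
    (fun x hx z hz => by
      have := dist_triangle_right x z x0
      rw [hB, Metric.mem_ball] at hx hz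
      linarith)
    (fun x hx z hz hU t ht => geo_ball C hx hz hU ht) hg
  calc ENNReal.ofReal ((2 * r) ^ 2) * ∫⁻ x in B, ∫⁻ z in B,
        ∫⁻ t in Icc (0:ℝ) 1, ENNReal.ofReal (G (C.T x t z) ^ 2) ∂volume ∂μ ∂μ
      ≤ ENNReal.ofReal ((2 * r) ^ 2) * (ENNReal.ofReal (Real.exp (κ * (2 * r) ^ 2 / 2) * 2 ^ n) *
          (μ B + μ B) * ∫⁻ y in Metric.ball x0 (2 * r), ENNReal.ofReal (G y ^ 2) ∂μ) := by gcongr
    _ = (ENNReal.ofReal ((2 * r) ^ 2) * ENNReal.ofReal (Real.exp (κ * (2 * r) ^ 2 / 2) * 2 ^ n) * 2) *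
          μ B * ∫⁻ y in Metric.ball x0 (2 * r), ENNReal.ofReal (G y ^ 2) ∂μ := by ring
    _ = _ := by
        congr 2
        rw [← ENNReal.ofReal_mul (by positivity), show (2:ℝ≥0∞) = ENNReal.ofReal 2 by norm_num,
          ← ENNReal.ofReal_mul (by positivity)]
        congr 1
        rw [show κ * (2 * r) ^ 2 / 2 = 2 * κ * r ^ 2 by ring]
        ring

/-- double integral form, exponent 1 -/
theorem dbl_one (hκ : 0 ≤ κ) {f G : X → ℝ} (hf : LG f G) (x0 : X) {r : ℝ} (hr : 0 < r) :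
    ∫⁻ x in Metric.ball x0 r, ∫⁻ z in Metric.ball x0 r, ENNReal.ofReal |f x - f z| ∂μ ∂μ ≤
      ENNReal.ofReal (4 * r * (Real.exp (2 * κ * r ^ 2) * 2 ^ n)) * μ (Metric.ball x0 r) *
        ∫⁻ y in Metric.ball x0 (2 * r), ENNReal.ofReal (G y) ∂μ := by
  set B := Metric.ball x0 r with hB
  have hBm : MeasurableSet B := Metric.isOpen_ball.measurableSet
  have hg : Measurable fun y => ENNReal.ofReal (G y) :=
    ENNReal.measurable_ofReal.comp hf.contG.measurable
  have h1 : ∫⁻ x in B, ∫⁻ z in B, ENNReal.ofReal |f x - f z| ∂μ ∂μ ≤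
      ∫⁻ x in B, ∫⁻ z in B, ENNReal.ofReal (2 * r) *
        ∫⁻ t in Icc (0:ℝ) 1, ENNReal.ofReal (G (C.T x t z)) ∂volume ∂μ ∂μ := by
    apply setLIntegral_mono' hBm
    intro x hx
    apply lintegral_mono_ae
    filter_upwards [ae_restrict_of_ae (C.ae_U x), ae_restrict_mem hBm] with z hz hzB
    have := LG.ray' C hf hz
    rw [abs_sub_comm]
    refine this.trans ?_
    gcongr
    have := dist_triangle_right x z x0
    rw [hB, Metric.mem_ball] at hx hzB
    linarith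
  refine h1.trans ?_
  have h2 : ∀ x, ∫⁻ z in B, ENNReal.ofReal (2 * r) *
        ∫⁻ t in Icc (0:ℝ) 1, ENNReal.ofReal (G (C.T x t z)) ∂volume ∂μ =
      ENNReal.ofReal (2 * r) * ∫⁻ z in B,
        ∫⁻ t in Icc (0:ℝ) 1, ENNReal.ofReal (G (C.T x t z)) ∂volume ∂μ := fun x =>
    lintegral_const_mul' _ _ ENNReal.ofReal_ne_top
  simp_rw [h2]
  rw [lintegral_const_mul' _ _ ENNReal.ofReal_ne_top]
  have h3 := C.segment_le hκ (A := B) (B := B) (W := Metric.ball x0 (2 * r)) hBm hBm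
    Metric.isOpen_ball.measurableSet (D := 2 * r)
    (fun x hx z hz => by
      have := dist_triangle_right x z x0
      rw [hB, Metric.mem_ball] at hx hz
      linarith)
    (fun x hx z hz hU t ht => geo_ball C hx hz hU ht) hg
  calc ENNReal.ofReal (2 * r) * ∫⁻ x in B, ∫⁻ z in B,
        ∫⁻ t in Icc (0:ℝ) 1, ENNReal.ofReal (G (C.T x t z)) ∂volume ∂μ ∂μ
      ≤ ENNReal.ofReal (2 * r) * (ENNReal.ofReal (Real.exp (κ * (2 * r) ^ 2 / 2) * 2 ^ n) *
          (μ B + μ B) * ∫⁻ y in Metric.ball x0 (2 * r), ENNReal.ofReal (G y) ∂μ) := by gcongr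
    _ = (ENNReal.ofReal (2 * r) * ENNReal.ofReal (Real.exp (κ * (2 * r) ^ 2 / 2) * 2 ^ n) * 2) *
          μ B * ∫⁻ y in Metric.ball x0 (2 * r), ENNReal.ofReal (G y) ∂μ := by ring
    _ = _ := by
        congr 2
        rw [← ENNReal.ofReal_mul (by positivity), show (2:ℝ≥0∞) = ENNReal.ofReal 2 by norm_num,
          ← ENNReal.ofReal_mul (by positivity)]
        congr 1
        rw [show κ * (2 * r) ^ 2 / 2 = 2 * κ * r ^ 2 by ring]
        ring

omit C

/-- variance is dominated by the double integral -/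
lemma var_le {B : Set X} (hB : MeasurableSet B) (hBf : μ B ≠ ∞) {f : X → ℝ}
    (hf : IntegrableOn f B μ) (hf2 : IntegrableOn (fun x => f x ^ 2) B μ) (a : ℝ) :
    μ B * ENNReal.ofReal ((a - ⨍ x in B, f x ∂μ) ^ 2) ≤
      ∫⁻ z in B, ENNReal.ofReal ((a - f z) ^ 2) ∂μ := by
  by_cases h0 : μ B = 0
  · rw [h0, zero_mul]; exact bot_le
  set m := ⨍ x in B, f x ∂μ with hm
  set V := μ.real B with hV
  have hVp : 0 < V := ENNReal.toReal_pos h0 hBf
  have hmV : V * m = ∫ x in B, f x ∂μ := by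
    rw [hm, setAverage_eq, smul_eq_mul, ← mul_assoc, mul_inv_cancel₀ hVp.ne', one_mul]
  have : IsFiniteMeasure (μ.restrict B) := ⟨by rw [Measure.restrict_apply_univ]; exact hBf.lt_top⟩
  have hc : ∀ c : ℝ, Integrable (fun _ : X => c) (μ.restrict B) := fun c => integrable_const c
  have hi : Integrable (fun z => (a - f z) ^ 2) (μ.restrict B) := by
    have e : (fun z => (a - f z) ^ 2) = fun z => a ^ 2 - 2 * a * f z + f z ^ 2 := by
      funext z; ring
    rw [e]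
    exact ((hc _).sub (hf.const_mul (2 * a))).add hf2
  have hint : ∫ z in B, (a - f z) ^ 2 ∂μ = V * (a - m) ^ 2 + ∫ z in B, (m - f z) ^ 2 ∂μ := by
    have e1 : ∫ z in B, (m - f z) ∂μ = 0 := by
      rw [integral_sub (hc m) hf, setIntegral_const, smul_eq_mul, ← hmV, ← hV, sub_self]
    have hi1 : Integrable (fun z => (m - f z)) (μ.restrict B) := (hc m).sub hf
    have hi2 : Integrable (fun z => (m - f z) ^ 2) (μ.restrict B) := by
      have e : (fun z => (m - f z) ^ 2) = fun z => m ^ 2 - 2 * m * f z + f z ^ 2 := by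
        funext z; ring
      rw [e]
      exact ((hc _).sub (hf.const_mul (2 * m))).add hf2
    calc ∫ z in B, (a - f z) ^ 2 ∂μ
        = ∫ z in B, (((a - m) ^ 2 + 2 * (a - m) * (m - f z)) + (m - f z) ^ 2) ∂μ := by
          congr 1; funext z; ring
      _ = (∫ z in B, ((a - m) ^ 2 + 2 * (a - m) * (m - f z)) ∂μ) + ∫ z in B, (m - f z) ^ 2 ∂μ :=
          integral_add ((hc _).add (hi1.const_mul _)) hi2
      _ = ((∫ z in B, (a - m) ^ 2 ∂μ) + ∫ z in B, 2 * (a - m) * (m - f z) ∂μ) +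
            ∫ z in B, (m - f z) ^ 2 ∂μ := by rw [integral_add (hc _) (hi1.const_mul _)]
      _ = _ := by
          rw [integral_const_mul, e1, mul_zero, add_zero, setIntegral_const, smul_eq_mul]
  have h0' : 0 ≤ ∫ z in B, (m - f z) ^ 2 ∂μ := integral_nonneg fun z => sq_nonneg _
  calc μ B * ENNReal.ofReal ((a - m) ^ 2)
      = ENNReal.ofReal (V * (a - m) ^ 2) := by
        rw [ENNReal.ofReal_mul hVp.le, hV, Measure.real, ENNReal.ofReal_toReal hBf]
    _ ≤ ENNReal.ofReal (∫ z in B, (a - f z) ^ 2 ∂μ) := ENNReal.ofReal_le_ofReal (by linarith)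
    _ = _ := ofReal_integral_eq_lintegral_ofReal hi (Eventually.of_forall fun z => sq_nonneg _)

/-- `L¹` version -/
lemma dev_le {B : Set X} (hB : MeasurableSet B) (hBf : μ B ≠ ∞) {f : X → ℝ}
    (hf : IntegrableOn f B μ) (a : ℝ) :
    μ B * ENNReal.ofReal |a - ⨍ x in B, f x ∂μ| ≤
      ∫⁻ z in B, ENNReal.ofReal |a - f z| ∂μ := by
  by_cases h0 : μ B = 0
  · rw [h0, zero_mul]; exact bot_le
  set m := ⨍ x in B, f x ∂μ with hm
  set V := μ.real B with hV
  have hVp : 0 < V := ENNReal.toReal_pos h0 hBf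
  have hmV : V * m = ∫ x in B, f x ∂μ := by
    rw [hm, setAverage_eq, smul_eq_mul, ← mul_assoc, mul_inv_cancel₀ hVp.ne', one_mul]
  have : IsFiniteMeasure (μ.restrict B) := ⟨by rw [Measure.restrict_apply_univ]; exact hBf.lt_top⟩
  have hc : ∀ c : ℝ, Integrable (fun _ : X => c) (μ.restrict B) := fun c => integrable_const c
  have hi : Integrable (fun z => a - f z) (μ.restrict B) := (hc a).sub hf
  have hint : V * (a - m) = ∫ z in B, (a - f z) ∂μ := by
    rw [integral_sub (hc a) hf, setIntegral_const, smul_eq_mul, ← hmV, ← hV]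
    ring
  calc μ B * ENNReal.ofReal |a - m|
      = ENNReal.ofReal (V * |a - m|) := by
        rw [ENNReal.ofReal_mul hVp.le, hV, Measure.real, ENNReal.ofReal_toReal hBf]
    _ ≤ ENNReal.ofReal (∫ z in B, |a - f z| ∂μ) := by
        apply ENNReal.ofReal_le_ofReal
        rw [← abs_of_pos hVp, ← abs_mul, hint]
        exact abs_integral_le_integral_abs
    _ = _ := ofReal_integral_eq_lintegral_ofReal hi.abs (Eventually.of_forall fun z => abs_nonneg _)

include C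

/-- **Neumann–Poincaré inequality**, exponent 2. -/
theorem poinc_two (hκ : 0 ≤ κ) {f G : X → ℝ} (hf : LG f G) (x0 : X) {r : ℝ} (hr : 0 < r)
    (hBf : μ (Metric.ball x0 r) ≠ ∞) (hfi : IntegrableOn f (Metric.ball x0 r) μ)
    (hfi2 : IntegrableOn (fun x => f x ^ 2) (Metric.ball x0 r) μ) :
    ∫⁻ x in Metric.ball x0 r, ENNReal.ofReal ((f x - ⨍ z in Metric.ball x0 r, f z ∂μ) ^ 2) ∂μ ≤
      ENNReal.ofReal (8 * r ^ 2 * (Real.exp (2 * κ * r ^ 2) * 2 ^ n)) *
        ∫⁻ y in Metric.ball x0 (2 * r), ENNReal.ofReal (G y ^ 2) ∂μ := by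
  set B := Metric.ball x0 r with hB
  have hBm : MeasurableSet B := Metric.isOpen_ball.measurableSet
  by_cases h0 : μ B = 0
  · rw [setLIntegral_measure_zero _ _ h0]; exact bot_le
  have h1 : μ B * ∫⁻ x in B, ENNReal.ofReal ((f x - ⨍ z in B, f z ∂μ) ^ 2) ∂μ ≤
      μ B * (ENNReal.ofReal (8 * r ^ 2 * (Real.exp (2 * κ * r ^ 2) * 2 ^ n)) *
        ∫⁻ y in Metric.ball x0 (2 * r), ENNReal.ofReal (G y ^ 2) ∂μ) := by
    rw [← lintegral_const_mul' _ _ hBf]
    calc ∫⁻ x in B, μ B * ENNReal.ofReal ((f x - ⨍ z in B, f z ∂μ) ^ 2) ∂μ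
        ≤ ∫⁻ x in B, ∫⁻ z in B, ENNReal.ofReal ((f x - f z) ^ 2) ∂μ ∂μ :=
          lintegral_mono fun x => var_le hBm hBf hfi hfi2 (f x)
      _ ≤ _ := dbl_two C hκ hf x0 hr
      _ = _ := by ring
  exact (ENNReal.mul_le_mul_iff_right h0 hBf).1 h1

/-- **Neumann–Poincaré inequality**, exponent 1. -/
theorem poinc_one (hκ : 0 ≤ κ) {f G : X → ℝ} (hf : LG f G) (x0 : X) {r : ℝ} (hr : 0 < r)
    (hBf : μ (Metric.ball x0 r) ≠ ∞) (hfi : IntegrableOn f (Metric.ball x0 r) μ) :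
    ∫⁻ x in Metric.ball x0 r, ENNReal.ofReal |f x - ⨍ z in Metric.ball x0 r, f z ∂μ| ∂μ ≤
      ENNReal.ofReal (4 * r * (Real.exp (2 * κ * r ^ 2) * 2 ^ n)) *
        ∫⁻ y in Metric.ball x0 (2 * r), ENNReal.ofReal (G y) ∂μ := by
  set B := Metric.ball x0 r with hB
  have hBm : MeasurableSet B := Metric.isOpen_ball.measurableSet
  by_cases h0 : μ B = 0
  · rw [setLIntegral_measure_zero _ _ h0]; exact bot_le
  have h1 : μ B * ∫⁻ x in B, ENNReal.ofReal |f x - ⨍ z in B, f z ∂μ| ∂μ ≤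
      μ B * (ENNReal.ofReal (4 * r * (Real.exp (2 * κ * r ^ 2) * 2 ^ n)) *
        ∫⁻ y in Metric.ball x0 (2 * r), ENNReal.ofReal (G y) ∂μ) := by
    rw [← lintegral_const_mul' _ _ hBf]
    calc ∫⁻ x in B, μ B * ENNReal.ofReal |f x - ⨍ z in B, f z ∂μ| ∂μ
        ≤ ∫⁻ x in B, ∫⁻ z in B, ENNReal.ofReal |f x - f z| ∂μ ∂μ :=
          lintegral_mono fun x => dev_le hBm hBf hfi (f x)
      _ ≤ _ := dbl_one C hκ hf x0 hr
      _ = _ := by ring
  exact (ENNReal.mul_le_mul_iff_right h0 hBf).1 h1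

end poinc

end Crest.Agent.R249.SobD_982
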