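import Crest.Agent.R249.SobD_982
import Crest.Agent.R247.Ms11_322
import Crest.Agent.R247.Bgr3_546

/-!
# R249 (D3-SOB), part E: local form of `LG`, product with a cut-off, and the instance on `M`

* `LGOn U ψ G` : the `LG` bound at the points of the open set `U`;
* `LGOn.cut` : `η w` for `η` with `tsupport ⊆ U`;
* `lgOn_of_contMDiffAt`, `lg_of_contMDiff` : `G = ‖Gr f‖ = √(mGam f f)` for `f` of class `C¹`.
-/

set_option autoImplicit false
set_option maxSynthPendingDepth 3
set_option linter.unusedSectionVars false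
open Bundle Set MeasureTheory Manifold Filter Metric
open scoped ENNReal ContDiff Topology NNReal
open Crest.GeometryTopology.CoordMetric Crest.GeometryTopology.ChartCurvature
open Crest.Agent.R249.SobA_982 Crest.Agent.R249.SobC_982 Crest.Agent.R249.SobD_982

noncomputable section
namespace Crest.Agent.R249.SobE_982

section loc
variable {X : Type*} [MetricSpace X]

/-- local form of `LG` on an open set -/
structure LGOn (U : Set X) (ψ G : X → ℝ) : Prop where
  contG : ∀ y ∈ U, ContinuousAt G y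
  nonneg : ∀ y ∈ U, 0 ≤ G y
  lip : ∀ y ∈ U, ∀ ε : ℝ, 0 < ε → ∀ᶠ z in 𝓝 y, |ψ z - ψ y| ≤ (G y + ε) * dist z y

lemma LGOn.continuousAt {U : Set X} {ψ G : X → ℝ} (h : LGOn U ψ G) {y : X} (hy : y ∈ U) :
    ContinuousAt ψ y := by
  have h1 := h.lip y hy 1 one_pos
  rw [ContinuousAt, tendsto_iff_dist_tendsto_zero]
  have h2 : Tendsto (fun z => (G y + 1) * dist z y) (𝓝 y) (𝓝 0) := by
    have : Tendsto (fun z => (G y + 1) * dist z y) (𝓝 y) (𝓝 ((G y + 1) * dist y y)) :=
      ((continuous_const.mul (continuous_id.dist continuous_const)).tendsto y)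
    simpa using this
  refine squeeze_zero' (Eventually.of_forall fun _ => dist_nonneg) ?_ h2
  filter_upwards [h1] with z hz
  rwa [Real.dist_eq]

lemma LGOn.of_lg {U : Set X} {ψ G : X → ℝ} (h : LG ψ G) : LGOn U ψ G :=
  ⟨fun _ _ => h.contG.continuousAt, fun y _ => h.nonneg y, fun y _ => h.lip y⟩

lemma LGOn.lg {ψ G : X → ℝ} (h : LGOn univ ψ G) : LG ψ G :=
  ⟨continuous_iff_continuousAt.2 fun y => h.contG y (mem_univ _), fun y => h.nonneg y (mem_univ _),
    fun y => h.lip y (mem_univ _)⟩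

lemma LGOn.mono {U V : Set X} {ψ G : X → ℝ} (h : LGOn V ψ G) (hUV : U ⊆ V) : LGOn U ψ G :=
  ⟨fun y hy => h.contG y (hUV hy), fun y hy => h.nonneg y (hUV hy), fun y hy => h.lip y (hUV hy)⟩

/-- Chain rule for a function `C¹` near the values. -/
lemma LGOn.comp {U : Set X} {ψ G : X → ℝ} (h : LGOn U ψ G) {Φ : ℝ → ℝ}
    (hΦ : ∀ y ∈ U, ContDiffAt ℝ 1 Φ (ψ y)) :
    LGOn U (fun y => Φ (ψ y)) (fun y => |deriv Φ (ψ y)| * G y) where
  contG y hy := by
    have h1 : ContinuousAt (deriv Φ) (ψ y) := by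
      have h2 := (hΦ y hy).fderiv_right (m := 0) (by norm_num)
      have h3 : deriv Φ = fun s => fderiv ℝ Φ s 1 := by funext s; simp
      rw [h3]
      exact h2.continuousAt.clm_apply continuousAt_const
    have h4 : ContinuousAt (fun y => deriv Φ (ψ y)) y :=
      ContinuousAt.comp (f := ψ) (g := deriv Φ) h1 (h.continuousAt hy)
    exact h4.abs.mul (h.contG y hy)
  nonneg y hy := mul_nonneg (abs_nonneg _) (h.nonneg y hy)
  lip y hy ε hε := by
    have hd : HasDerivAt Φ (deriv Φ (ψ y)) (ψ y) :=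
      ((hΦ y hy).differentiableAt (by norm_num)).hasDerivAt
    obtain ⟨δ, hδ, hδε⟩ : ∃ δ : ℝ, 0 < δ ∧ (|deriv Φ (ψ y)| + δ) * (G y + δ) ≤
        |deriv Φ (ψ y)| * G y + ε := by
      set a := |deriv Φ (ψ y)| with ha
      have ha0 : 0 ≤ a := abs_nonneg _
      have hg0 := h.nonneg y hy
      refine ⟨min 1 (ε / (a + G y + 1)), lt_min one_pos (by positivity), ?_⟩
      set δ := min 1 (ε / (a + G y + 1)) with hδ
      have h1 : δ ≤ 1 := min_le_left _ _
      have h2 : δ ≤ ε / (a + G y + 1) := min_le_right _ _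
      have h0 : 0 < δ := lt_min one_pos (by positivity)
      have h3 : δ * (a + G y + 1) ≤ ε := by
        rwa [le_div_iff₀ (by positivity)] at h2
      nlinarith
    have h1 := h.lip y hy δ hδ
    have h2 : ∀ᶠ s in 𝓝 (ψ y), |Φ s - Φ (ψ y)| ≤ (|deriv Φ (ψ y)| + δ) * |s - ψ y| := by
      have := hd.isLittleO.bound hδ
      filter_upwards [this] with s hs
      simp only [Real.norm_eq_abs, smul_eq_mul] at hs
      calc |Φ s - Φ (ψ y)| = |(Φ s - Φ (ψ y) - (s - ψ y) * deriv Φ (ψ y)) +
            (s - ψ y) * deriv Φ (ψ y)| := by ring_nf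
        _ ≤ |Φ s - Φ (ψ y) - (s - ψ y) * deriv Φ (ψ y)| + |(s - ψ y) * deriv Φ (ψ y)| :=
            abs_add_le _ _
        _ ≤ δ * |s - ψ y| + |(s - ψ y) * deriv Φ (ψ y)| := by gcongr
        _ = (|deriv Φ (ψ y)| + δ) * |s - ψ y| := by rw [abs_mul]; ring
    filter_upwards [h1, (h.continuousAt hy).eventually h2] with z hz1 hz2
    calc |Φ (ψ z) - Φ (ψ y)| ≤ (|deriv Φ (ψ y)| + δ) * |ψ z - ψ y| := hz2
      _ ≤ (|deriv Φ (ψ y)| + δ) * ((G y + δ) * dist z y) := by gcongr
      _ = ((|deriv Φ (ψ y)| + δ) * (G y + δ)) * dist z y := by ring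
      _ ≤ _ := by gcongr

/-- Product with a cut-off whose support lies in `U`. -/
lemma LGOn.cut {U : Set X} {w H : X → ℝ} (hw : LGOn U w H) {η F : X → ℝ} (hη : LG η F)
    (hs : tsupport η ⊆ U) (hsF : tsupport F ⊆ U) :
    LG (fun y => η y * w y) (fun y => |η y| * H y + |w y| * F y) where
  contG := by
    rw [continuous_iff_continuousAt]
    intro y
    by_cases hy : y ∈ U
    · exact ((hη.continuous.continuousAt.abs).mul (hw.contG y hy)).add
        ((hw.continuousAt hy).abs.mul hη.contG.continuousAt)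
    · have h1 : ∀ᶠ z in 𝓝 y, η z = 0 := by
        filter_upwards [(isClosed_tsupport η).isOpen_compl.mem_nhds fun h => hy (hs h)] with z hz
        exact image_eq_zero_of_notMem_tsupport hz
      have h2 : ∀ᶠ z in 𝓝 y, F z = 0 := by
        filter_upwards [(isClosed_tsupport F).isOpen_compl.mem_nhds fun h => hy (hsF h)] with z hz
        exact image_eq_zero_of_notMem_tsupport hz
      refine continuousAt_const (y := (0:ℝ)) |>.congr ?_
      filter_upwards [h1, h2] with z hz1 hz2
      rw [hz1, hz2]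
      simp
  nonneg y := by
    by_cases hy : y ∈ U
    · exact add_nonneg (mul_nonneg (abs_nonneg _) (hw.nonneg y hy))
        (mul_nonneg (abs_nonneg _) (hη.nonneg y))
    · have h1 : η y = 0 := image_eq_zero_of_notMem_tsupport fun h => hy (hs h)
      rw [h1, abs_zero, zero_mul, zero_add]
      exact mul_nonneg (abs_nonneg _) (hη.nonneg y)
  lip y ε hε := by
    by_cases hy : y ∈ U
    · have hH0 := hw.nonneg y hy
      have hF0 := hη.nonneg y
      set a := |w y| with ha
      set b := |η y| with hb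
      have ha0 : 0 ≤ a := abs_nonneg _
      have hb0 : 0 ≤ b := abs_nonneg _
      obtain ⟨δ, hδ, hδε⟩ : ∃ δ : ℝ, 0 < δ ∧ (a + δ) * (F y + δ) + b * (H y + δ) ≤
          b * H y + a * F y + ε := by
        refine ⟨min 1 (ε / (a + F y + b + 1)), lt_min one_pos (by positivity), ?_⟩
        set δ := min 1 (ε / (a + F y + b + 1)) with hδ
        have h1 : δ ≤ 1 := min_le_left _ _
        have h2 : δ ≤ ε / (a + F y + b + 1) := min_le_right _ _
        have h0 : 0 < δ := lt_min one_pos (by positivity)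
        have h3 : δ * (a + F y + b + 1) ≤ ε := by
          rwa [le_div_iff₀ (by positivity)] at h2
        nlinarith
      have h3 : ∀ᶠ z in 𝓝 y, |w z| ≤ a + δ := by
        have : ∀ᶠ z in 𝓝 y, |w z| < a + δ :=
          (hw.continuousAt hy).abs.eventually_lt continuousAt_const (by simp [← ha]; exact hδ)
        filter_upwards [this] with z hz using hz.le
      filter_upwards [hw.lip y hy δ hδ, hη.lip y δ hδ, h3] with z h1 h2 h3
      have hd : 0 ≤ dist z y := dist_nonneg
      calc |η z * w z - η y * w y| = |w z * (η z - η y) + η y * (w z - w y)| := by ring_nf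
        _ ≤ |w z * (η z - η y)| + |η y * (w z - w y)| := abs_add_le _ _
        _ = |w z| * |η z - η y| + b * |w z - w y| := by rw [abs_mul, abs_mul]
        _ ≤ (a + δ) * ((F y + δ) * dist z y) + b * ((H y + δ) * dist z y) := by gcongr
        _ = ((a + δ) * (F y + δ) + b * (H y + δ)) * dist z y := by ring
        _ ≤ _ := by gcongr
    · have h1 : ∀ᶠ z in 𝓝 y, η z = 0 := by
        filter_upwards [(isClosed_tsupport η).isOpen_compl.mem_nhds fun h => hy (hs h)] with z hz
        exact image_eq_zero_of_notMem_tsupport hz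
      have h0 : η y = 0 := image_eq_zero_of_notMem_tsupport fun h => hy (hs h)
      filter_upwards [h1] with z hz
      rw [hz, h0, zero_mul, zero_mul, sub_zero, abs_zero]
      have := mul_nonneg (abs_nonneg (w y)) (hη.nonneg y)
      have hd : 0 ≤ dist z y := dist_nonneg
      rw [zero_mul, zero_add]
      positivity

end loc

section M
variable {n : ℕ} {M : Type*} [MetricSpace M] [ChartedSpace (EuclideanSpace ℝ (Fin n)) M]
  [IsManifold (𝓡 n) ∞ M]
  [RiemannianBundle (fun p : M => TangentSpace (𝓡 n) p)]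
  [IsContMDiffRiemannianBundle (𝓡 n) ∞ (EuclideanSpace ℝ (Fin n)) (fun p : M => TangentSpace (𝓡 n) p)]
  [SecondCountableTopology M] [Nonempty M] [IsRiemannianManifold (𝓡 n) M]

open Crest.Agent.R247 Crest.Agent.R247.Ms322

lemma norm_Gr_eq_sqrt (f : M → ℝ) (z : M) :
    ‖Gr (n := n) f z‖ = √(Bo84.mGam n f f z) := by
  rw [← inner_Gr_eq_mGam, real_inner_self_eq_norm_sq, Real.sqrt_sq (norm_nonneg _)]

lemma sq_norm_Gr (f : M → ℝ) (z : M) : ‖Gr (n := n) f z‖ ^ 2 = Bo84.mGam n f f z := by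
  rw [← inner_Gr_eq_mGam, real_inner_self_eq_norm_sq]

lemma continuousAt_norm_Gr {f : M → ℝ} {z : M} (hf : ContMDiffAt (𝓡 n) 𝓘(ℝ, ℝ) 1 f z) :
    ContinuousAt (fun z => ‖Gr (n := n) f z‖) z := by
  have e : (fun z => ‖Gr (n := n) f z‖) = fun z => √(Bo84.mGam n f f z) := by
    funext z; exact norm_Gr_eq_sqrt f z
  rw [e]
  have h1 := Bo84.contMDiffAt_mGam (n := n) (m := 0) (a := 1) hf hf (by norm_num) (by simp)
  exact h1.continuousAt.sqrt

/-- a `C¹` function on an open set -/
theorem lgOn_of_contMDiffAt {U : Set M} (hU : IsOpen U) {f : M → ℝ}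
    (hf : ∀ z ∈ U, ContMDiffAt (𝓡 n) 𝓘(ℝ, ℝ) 1 f z) :
    LGOn U f (fun z => ‖Gr (n := n) f z‖) where
  contG z hz := continuousAt_norm_Gr (hf z hz)
  nonneg z _ := norm_nonneg _
  lip y hy ε hε := by
    set G : M → ℝ := fun z => ‖Gr (n := n) f z‖ with hG
    have hG0 : 0 ≤ G y := norm_nonneg _
    have h1 : ∀ᶠ z in 𝓝 y, G z < G y + ε :=
      (continuousAt_norm_Gr (hf y hy)).eventually_lt continuousAt_const (by linarith)
    obtain ⟨W, hW, hWo, hyW⟩ := _root_.eventually_nhds_iff.1 (h1.and (hU.mem_nhds hy))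
    set C : ℝ≥0 := Real.toNNReal (G y + ε) with hC
    have hCpos : 0 < C := Real.toNNReal_pos.2 (by linarith)
    obtain ⟨V, hV, hVW, hL⟩ := exists_lipschitzOnWith_of_bound' (I := 𝓡 n) (F := ℝ) (f := f)
      hCpos hWo (fun z hz => (hf z (hW z hz).2).contMDiffWithinAt) (fun z hz v w hw => by
        have h2 := abs_df_le (n := n) f z v
        have h3 : df (n := n) f z v = w := hw
        rw [h3] at h2
        have h4 : ‖Gr (n := n) f z‖ ≤ G y + ε := (hW z hz).1.le
        have h5 : |w| ≤ (G y + ε) * ‖v‖ := h2.trans (by gcongr)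
        rw [← ofReal_norm, ← ofReal_norm, Real.norm_eq_abs]
        calc ENNReal.ofReal |w| ≤ ENNReal.ofReal ((G y + ε) * ‖v‖) := ENNReal.ofReal_le_ofReal h5
          _ = ENNReal.ofReal (G y + ε) * ENNReal.ofReal ‖v‖ := ENNReal.ofReal_mul (by linarith)
          _ = _ := rfl) hyW
    filter_upwards [hV] with z hz
    have h6 := hL.dist_le_mul z hz y (mem_of_mem_nhds hV)
    rw [Real.dist_eq, hC, Real.coe_toNNReal _ (by linarith)] at h6
    exact h6

/-- a `C¹` function on `M` -/
theorem lg_of_contMDiff {f : M → ℝ} (hf : ContMDiff (𝓡 n) 𝓘(ℝ, ℝ) 1 f) :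
    LG f (fun z => ‖Gr (n := n) f z‖) :=
  (lgOn_of_contMDiffAt isOpen_univ fun z _ => hf z).lg

end M

end Crest.Agent.R249.SobE_982
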