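import Crest.Agent.R249.SobE_982

/-!
# R249 (D3-SOB), part F: local ray inequality and Poincaré inequalities on balls (`LGOn`)

Everything of part D for functions which are `C¹` (`LGOn`) only on an open set containing the ball
of radius `2r`; `G` is assumed globally measurable (`measurable_Gr`).
-/

set_option autoImplicit false
set_option linter.unusedSectionVars false
open MeasureTheory Set Filter Topology
open scoped ENNReal NNReal

noncomputable section
namespace Crest.Agent.R249.SobF_982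

open Crest.Agent.R247.Mcp688 Crest.Agent.R249.SobA_982 Crest.Agent.R249.SobB_982
  Crest.Agent.R249.SobC_982 Crest.Agent.R249.SobD_982 Crest.Agent.R249.SobE_982

section ray
variable {n : ℕ} {κ : ℝ} {X : Type*} [MetricSpace X] [MeasurableSpace X] [BorelSpace X]
  {μ : Measure X} (C : Rad n κ X μ)

lemma LGOn.neg {U : Set X} {ψ G : X → ℝ} (h : LGOn U ψ G) : LGOn U (fun y => - ψ y) G where
  contG := h.contG
  nonneg := h.nonneg
  lip y hy ε hε := by
    filter_upwards [h.lip y hy ε hε] with z hz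
    rw [← abs_neg]
    convert hz using 2
    ring

lemma LGOn.sub_const {U : Set X} {ψ G : X → ℝ} (h : LGOn U ψ G) (c : ℝ) :
    LGOn U (fun y => ψ y - c) G where
  contG := h.contG
  nonneg := h.nonneg
  lip y hy ε hε := by
    filter_upwards [h.lip y hy ε hε] with z hz
    simpa using hz

include C

lemma ray_aux {U : Set X} {ψ G : X → ℝ} (hψ : LGOn U ψ G) {x z : X} (h : (x, z) ∈ C.U)
    (hU : ∀ t ∈ Icc (0:ℝ) 1, C.T x t z ∈ U) :
    ψ z - ψ x ≤ dist x z * ∫ t in (0:ℝ)..1, G (C.T x t z) := by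
  set L := dist x z with hL
  have hL0 : 0 ≤ L := dist_nonneg
  set γ : ℝ → X := fun t => C.T x t z with hγ
  have hγc : ContinuousOn γ (Icc 0 1) := continuousOn_T C h
  set g : ℝ → ℝ := fun t => G (γ (max 0 (min 1 t))) with hg
  have hgc : Continuous g := by
    have h1 : Continuous fun t : ℝ => γ (max 0 (min 1 t)) := by
      refine hγc.comp_continuous (by fun_prop) fun t => ⟨le_max_left _ _, ?_⟩
      exact max_le zero_le_one (min_le_left _ _)
    rw [continuous_iff_continuousAt]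
    intro t
    exact ContinuousAt.comp (f := fun t : ℝ => γ (max 0 (min 1 t))) (g := G)
      (hψ.contG _ (hU _ ⟨le_max_left _ _, max_le zero_le_one (min_le_left _ _)⟩)) h1.continuousAt
  have hgI : ∀ t ∈ Icc (0:ℝ) 1, g t = G (γ t) := by
    intro t ht
    simp only [hg]
    rw [min_eq_right ht.2, max_eq_right ht.1]
  set B : ℝ → ℝ := fun s => ψ x + L * ∫ t in (0:ℝ)..s, g t with hB
  have hBd : ∀ s, HasDerivAt B (L * g s) s := by
    intro s
    have := (hgc.integral_hasStrictDerivAt 0 s).hasDerivAt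
    exact (this.const_mul L).const_add (ψ x)
  have hfc : ContinuousOn (fun t => ψ (γ t)) (Icc 0 1) := by
    intro t ht
    exact ContinuousAt.comp_continuousWithinAt (f := γ) (g := ψ) (hψ.continuousAt (hU t ht))
      (hγc t ht)
  have key := image_le_of_liminf_slope_right_le_deriv_boundary (f := fun t => ψ (γ t)) (a := 0)
    (b := 1) (B := B) (B' := fun s => L * g s) hfc
    (by simp [hB, hγ, C.T_zero x z h])
    (fun s _ => (hBd s).continuousAt.continuousWithinAt)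
    (fun s _ => (hBd s).hasDerivWithinAt) ?_ (right_mem_Icc.2 zero_le_one)
  · have e1 : γ 1 = z := C.T_one x z h
    have e2 : ∫ t in (0:ℝ)..1, g t = ∫ t in (0:ℝ)..1, G (γ t) := by
      apply intervalIntegral.integral_congr
      intro t ht
      rw [uIcc_of_le zero_le_one] at ht
      exact hgI t ht
    simp only [e1, hB, e2] at key
    linarith
  · intro s hs r hr
    have hs' : s ∈ Icc (0:ℝ) 1 := ⟨hs.1, hs.2.le⟩
    simp only [hgI s hs'] at hr
    obtain ⟨ε, hε, hεr⟩ : ∃ ε : ℝ, 0 < ε ∧ L * (G (γ s) + ε) < r := by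
      refine ⟨(r - L * G (γ s)) / (2 * (L + 1)), by
        have : 0 < r - L * G (γ s) := by linarith
        positivity, ?_⟩
      have h0 : 0 < r - L * G (γ s) := by linarith
      have h1 : L * ((r - L * G (γ s)) / (2 * (L + 1))) ≤ (r - L * G (γ s)) / 2 := by
        rw [mul_div_assoc', div_le_div_iff₀ (by positivity) (by norm_num)]
        nlinarith
      rw [mul_add]
      linarith
    have h1 := hψ.lip (γ s) (hU s hs') ε hε
    have hcw : Tendsto γ (𝓝[>] s) (𝓝 (γ s)) := by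
      have h2 : ContinuousWithinAt γ (Icc 0 1) s := hγc s hs'
      refine h2.tendsto.mono_left ?_
      rw [nhdsWithin_le_iff]
      filter_upwards [Ioo_mem_nhdsGT hs.2] with t ht
      exact ⟨hs.1.trans ht.1.le, ht.2.le⟩
    have h2 : ∀ᶠ t in 𝓝[>] s, |ψ (γ t) - ψ (γ s)| ≤ (G (γ s) + ε) * dist (γ t) (γ s) :=
      hcw.eventually h1
    have h3 : ∀ᶠ t in 𝓝[>] s, slope (fun t => ψ (γ t)) s t < r := by
      filter_upwards [h2, Ioo_mem_nhdsGT hs.2] with t ht hts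
      have hd : dist (γ t) (γ s) = (t - s) * L := by
        rw [C.dist_T x z h t ⟨hs.1.trans hts.1.le, hts.2.le⟩ s hs', abs_of_pos (by linarith [hts.1])]
      rw [slope_def_field]
      have hpos : 0 < t - s := by linarith [hts.1]
      rw [div_lt_iff₀ hpos]
      have h4 : ψ (γ t) - ψ (γ s) ≤ (G (γ s) + ε) * ((t - s) * L) := by
        rw [← hd]; exact (le_abs_self _).trans ht
      calc ψ (γ t) - ψ (γ s) ≤ (L * (G (γ s) + ε)) * (t - s) := by linarith
        _ < r * (t - s) := by gcongr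
    exact h3.frequently

/-- **Ray inequality**, local form. -/
lemma ray {U : Set X} {ψ G : X → ℝ} (hψ : LGOn U ψ G) {x z : X} (h : (x, z) ∈ C.U)
    (hU : ∀ t ∈ Icc (0:ℝ) 1, C.T x t z ∈ U) :
    |ψ z - ψ x| ≤ dist x z * ∫ t in (0:ℝ)..1, G (C.T x t z) := by
  rw [abs_le]
  refine ⟨?_, ray_aux C hψ h hU⟩
  have := ray_aux C (LGOn.neg hψ) h hU
  linarith

lemma contOn_ray {U : Set X} {ψ G : X → ℝ} (hψ : LGOn U ψ G) {x z : X} (h : (x, z) ∈ C.U)
    (hU : ∀ t ∈ Icc (0:ℝ) 1, C.T x t z ∈ U) :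
    ContinuousOn (fun t : ℝ => G (C.T x t z)) (Icc 0 1) := fun t ht =>
  ContinuousAt.comp_continuousWithinAt (f := fun t : ℝ => C.T x t z) (g := G)
    (hψ.contG _ (hU t ht)) (continuousOn_T C h t ht)

/-- The ray inequality in `ℝ≥0∞`. -/
lemma ray' {U : Set X} {ψ G : X → ℝ} (hψ : LGOn U ψ G) {x z : X} (h : (x, z) ∈ C.U)
    (hU : ∀ t ∈ Icc (0:ℝ) 1, C.T x t z ∈ U) :
    ENNReal.ofReal |ψ z - ψ x| ≤
      ENNReal.ofReal (dist x z) * ∫⁻ t in Icc (0:ℝ) 1, ENNReal.ofReal (G (C.T x t z)) := by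
  have h1 := ray C hψ h hU
  have hc := contOn_ray C hψ h hU
  have h2 : ∫ t in (0:ℝ)..1, G (C.T x t z) = ∫ t in Icc (0:ℝ) 1, G (C.T x t z) := by
    rw [intervalIntegral.integral_of_le zero_le_one, integral_Icc_eq_integral_Ioc]
  have hi : IntegrableOn (fun t : ℝ => G (C.T x t z)) (Icc 0 1) := hc.integrableOn_Icc
  calc ENNReal.ofReal |ψ z - ψ x|
      ≤ ENNReal.ofReal (dist x z * ∫ t in Icc (0:ℝ) 1, G (C.T x t z)) := by
        apply ENNReal.ofReal_le_ofReal; rw [← h2]; exact h1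
    _ = ENNReal.ofReal (dist x z) * ENNReal.ofReal (∫ t in Icc (0:ℝ) 1, G (C.T x t z)) :=
        ENNReal.ofReal_mul dist_nonneg
    _ = _ := by
        rw [ofReal_integral_eq_lintegral_ofReal hi ?_]
        filter_upwards [ae_restrict_mem measurableSet_Icc] with t ht
        exact hψ.nonneg _ (hU t ht)

/-- squared form (Cauchy–Schwarz). -/
lemma ray_sq {U : Set X} {ψ G : X → ℝ} (hψ : LGOn U ψ G) {x z : X} (h : (x, z) ∈ C.U)
    (hU : ∀ t ∈ Icc (0:ℝ) 1, C.T x t z ∈ U) :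
    ENNReal.ofReal ((ψ z - ψ x) ^ 2) ≤
      ENNReal.ofReal (dist x z ^ 2) * ∫⁻ t in Icc (0:ℝ) 1, ENNReal.ofReal (G (C.T x t z) ^ 2) := by
  have h1 := ray C hψ h hU
  have hc := contOn_ray C hψ h hU
  have h2 : ∫ t in (0:ℝ)..1, G (C.T x t z) = ∫ t in Icc (0:ℝ) 1, G (C.T x t z) := by
    rw [intervalIntegral.integral_of_le zero_le_one, integral_Icc_eq_integral_Ioc]
  rw [h2] at h1
  set I := ∫ t in Icc (0:ℝ) 1, G (C.T x t z) with hI
  have hi : IntegrableOn (fun t : ℝ => G (C.T x t z)) (Icc 0 1) := hc.integrableOn_Icc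
  have hi2 : IntegrableOn (fun t : ℝ => G (C.T x t z) ^ 2) (Icc 0 1) := (hc.pow 2).integrableOn_Icc
  have hI0 : 0 ≤ I := by
    rw [hI]
    apply setIntegral_nonneg measurableSet_Icc
    intro t ht
    exact hψ.nonneg _ (hU t ht)
  have hcs : I ^ 2 ≤ ∫ t in Icc (0:ℝ) 1, G (C.T x t z) ^ 2 := by
    have h3 : 0 ≤ ∫ t in Icc (0:ℝ) 1, (G (C.T x t z) - I) ^ 2 := integral_nonneg fun t => sq_nonneg _
    have h4 : ∫ t in Icc (0:ℝ) 1, (G (C.T x t z) - I) ^ 2 =
        (∫ t in Icc (0:ℝ) 1, G (C.T x t z) ^ 2) - 2 * I * I + I ^ 2 := by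
      have e : ∀ t : ℝ, (G (C.T x t z) - I) ^ 2 =
          G (C.T x t z) ^ 2 - 2 * I * G (C.T x t z) + I ^ 2 := fun t => by ring
      have a1 : Integrable (fun t : ℝ => G (C.T x t z) ^ 2 - 2 * I * G (C.T x t z))
          (volume.restrict (Icc (0:ℝ) 1)) := hi2.sub (hi.const_mul (2 * I))
      have a2 : Integrable (fun _ : ℝ => I ^ 2) (volume.restrict (Icc (0:ℝ) 1)) :=
        integrable_const _
      have a3 : Integrable (fun t : ℝ => 2 * I * G (C.T x t z))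
          (volume.restrict (Icc (0:ℝ) 1)) := hi.const_mul (2 * I)
      calc ∫ t in Icc (0:ℝ) 1, (G (C.T x t z) - I) ^ 2
          = ∫ t in Icc (0:ℝ) 1, ((G (C.T x t z) ^ 2 - 2 * I * G (C.T x t z)) + I ^ 2) := by
            congr 1; funext t; exact e t
        _ = (∫ t in Icc (0:ℝ) 1, (G (C.T x t z) ^ 2 - 2 * I * G (C.T x t z))) +
              ∫ _ in Icc (0:ℝ) 1, I ^ 2 := integral_add a1 a2
        _ = ((∫ t in Icc (0:ℝ) 1, G (C.T x t z) ^ 2) -
              ∫ t in Icc (0:ℝ) 1, 2 * I * G (C.T x t z)) + ∫ _ in Icc (0:ℝ) 1, I ^ 2 := by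
            rw [integral_sub hi2 a3]
        _ = _ := by
            rw [integral_const_mul, ← hI]
            simp
    nlinarith
  have h5 : (ψ z - ψ x) ^ 2 ≤ dist x z ^ 2 * ∫ t in Icc (0:ℝ) 1, G (C.T x t z) ^ 2 := by
    have hd : 0 ≤ dist x z := dist_nonneg
    calc (ψ z - ψ x) ^ 2 = |ψ z - ψ x| ^ 2 := (sq_abs _).symm
      _ ≤ (dist x z * I) ^ 2 := by gcongr
      _ = dist x z ^ 2 * I ^ 2 := by ring
      _ ≤ _ := by gcongr
  calc ENNReal.ofReal ((ψ z - ψ x) ^ 2)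
      ≤ ENNReal.ofReal (dist x z ^ 2 * ∫ t in Icc (0:ℝ) 1, G (C.T x t z) ^ 2) :=
        ENNReal.ofReal_le_ofReal h5
    _ = ENNReal.ofReal (dist x z ^ 2) *
          ENNReal.ofReal (∫ t in Icc (0:ℝ) 1, G (C.T x t z) ^ 2) :=
        ENNReal.ofReal_mul (by positivity)
    _ = _ := by
        rw [ofReal_integral_eq_lintegral_ofReal hi2
          (Eventually.of_forall fun t => sq_nonneg _)]

end ray

section poinc
variable {n : ℕ} {κ : ℝ} {X : Type*} [MetricSpace X] [MeasurableSpace X] [BorelSpace X]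
  {μ : Measure X} [SFinite μ] (C : Rad n κ X μ)

include C

theorem dbl_two (hκ : 0 ≤ κ) {U : Set X} {f G : X → ℝ} (hf : LGOn U f G) (hG : Measurable G)
    (x0 : X) {r : ℝ} (hr : 0 < r) (hU : Metric.ball x0 (2 * r) ⊆ U) :
    ∫⁻ x in Metric.ball x0 r, ∫⁻ z in Metric.ball x0 r, ENNReal.ofReal ((f x - f z) ^ 2) ∂μ ∂μ ≤
      ENNReal.ofReal (8 * r ^ 2 * (Real.exp (2 * κ * r ^ 2) * 2 ^ n)) * μ (Metric.ball x0 r) *
        ∫⁻ y in Metric.ball x0 (2 * r), ENNReal.ofReal (G y ^ 2) ∂μ := by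
  set B := Metric.ball x0 r with hB
  have hBm : MeasurableSet B := Metric.isOpen_ball.measurableSet
  have hg : Measurable fun y => ENNReal.ofReal (G y ^ 2) :=
    ENNReal.measurable_ofReal.comp (hG.pow_const 2)
  have h1 : ∫⁻ x in B, ∫⁻ z in B, ENNReal.ofReal ((f x - f z) ^ 2) ∂μ ∂μ ≤
      ∫⁻ x in B, ∫⁻ z in B, ENNReal.ofReal ((2 * r) ^ 2) *
        ∫⁻ t in Icc (0:ℝ) 1, ENNReal.ofReal (G (C.T x t z) ^ 2) ∂volume ∂μ ∂μ := by
    apply setLIntegral_mono' hBm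
    intro x hx
    apply lintegral_mono_ae
    filter_upwards [ae_restrict_of_ae (C.ae_U x), ae_restrict_mem hBm] with z hz hzB
    have := ray_sq C hf hz (fun t ht => hU (geo_ball C hx hzB hz ht))
    have e : (f x - f z) ^ 2 = (f z - f x) ^ 2 := by ring
    rw [e]
    refine this.trans ?_
    gcongr
    have := dist_triangle_right x z x0
    rw [hB, Metric.mem_ball] at hx hzB
    linarith
  refine h1.trans ?_
  have h2 : ∀ x, ∫⁻ z in B, ENNReal.ofReal ((2 * r) ^ 2) *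
        ∫⁻ t in Icc (0:ℝ) 1, ENNReal.ofReal (G (C.T x t z) ^ 2) ∂volume ∂μ =
      ENNReal.ofReal ((2 * r) ^ 2) * ∫⁻ z in B,
        ∫⁻ t in Icc (0:ℝ) 1, ENNReal.ofReal (G (C.T x t z) ^ 2) ∂volume ∂μ := fun x =>
    lintegral_const_mul' _ _ ENNReal.ofReal_ne_top
  simp_rw [h2]
  rw [lintegral_const_mul' _ _ ENNReal.ofReal_ne_top]
  have h3 := C.segment_le hκ (A := B) (B := B) (W := Metric.ball x0 (2 * r)) hBm hBm
    Metric.isOpen_ball.measurableSet (D := 2 * r)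
    (fun x hx z hz => by
      have := dist_triangle_right x z x0
      rw [hB, Metric.mem_ball] at hx hz
      linarith)
    (fun x hx z hz hU t ht => geo_ball C hx hz hU ht) hg
  calc ENNReal.ofReal ((2 * r) ^ 2) * ∫⁻ x in B, ∫⁻ z in B,
        ∫⁻ t in Icc (0:ℝ) 1, ENNReal.ofReal (G (C.T x t z) ^ 2) ∂volume ∂μ ∂μ
      ≤ ENNReal.ofReal ((2 * r) ^ 2) * (ENNReal.ofReal (Real.exp (κ * (2 * r) ^ 2 / 2) * 2 ^ n) *
          (μ B + μ B) * ∫⁻ y in Metric.ball x0 (2 * r), ENNReal.ofReal (G y ^ 2) ∂μ) := by gcongr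
    _ = (ENNReal.ofReal ((2 * r) ^ 2) * ENNReal.ofReal (Real.exp (κ * (2 * r) ^ 2 / 2) * 2 ^ n) * 2) *
          μ B * ∫⁻ y in Metric.ball x0 (2 * r), ENNReal.ofReal (G y ^ 2) ∂μ := by ring
    _ = _ := by
        congr 2
        rw [← ENNReal.ofReal_mul (by positivity), show (2:ℝ≥0∞) = ENNReal.ofReal 2 by norm_num,
          ← ENNReal.ofReal_mul (by positivity)]
        congr 1
        rw [show κ * (2 * r) ^ 2 / 2 = 2 * κ * r ^ 2 by ring]
        ring

theorem dbl_one (hκ : 0 ≤ κ) {U : Set X} {f G : X → ℝ} (hf : LGOn U f G) (hG : Measurable G)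
    (x0 : X) {r : ℝ} (hr : 0 < r) (hU : Metric.ball x0 (2 * r) ⊆ U) :
    ∫⁻ x in Metric.ball x0 r, ∫⁻ z in Metric.ball x0 r, ENNReal.ofReal |f x - f z| ∂μ ∂μ ≤
      ENNReal.ofReal (4 * r * (Real.exp (2 * κ * r ^ 2) * 2 ^ n)) * μ (Metric.ball x0 r) *
        ∫⁻ y in Metric.ball x0 (2 * r), ENNReal.ofReal (G y) ∂μ := by
  set B := Metric.ball x0 r with hB
  have hBm : MeasurableSet B := Metric.isOpen_ball.measurableSet
  have hg : Measurable fun y => ENNReal.ofReal (G y) := ENNReal.measurable_ofReal.comp hG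
  have h1 : ∫⁻ x in B, ∫⁻ z in B, ENNReal.ofReal |f x - f z| ∂μ ∂μ ≤
      ∫⁻ x in B, ∫⁻ z in B, ENNReal.ofReal (2 * r) *
        ∫⁻ t in Icc (0:ℝ) 1, ENNReal.ofReal (G (C.T x t z)) ∂volume ∂μ ∂μ := by
    apply setLIntegral_mono' hBm
    intro x hx
    apply lintegral_mono_ae
    filter_upwards [ae_restrict_of_ae (C.ae_U x), ae_restrict_mem hBm] with z hz hzB
    have := ray' C hf hz (fun t ht => hU (geo_ball C hx hzB hz ht))
    rw [abs_sub_comm]
    refine this.trans ?_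
    gcongr
    have := dist_triangle_right x z x0
    rw [hB, Metric.mem_ball] at hx hzB
    linarith
  refine h1.trans ?_
  have h2 : ∀ x, ∫⁻ z in B, ENNReal.ofReal (2 * r) *
        ∫⁻ t in Icc (0:ℝ) 1, ENNReal.ofReal (G (C.T x t z)) ∂volume ∂μ =
      ENNReal.ofReal (2 * r) * ∫⁻ z in B,
        ∫⁻ t in Icc (0:ℝ) 1, ENNReal.ofReal (G (C.T x t z)) ∂volume ∂μ := fun x =>
    lintegral_const_mul' _ _ ENNReal.ofReal_ne_top
  simp_rw [h2]
  rw [lintegral_const_mul' _ _ ENNReal.ofReal_ne_top]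
  have h3 := C.segment_le hκ (A := B) (B := B) (W := Metric.ball x0 (2 * r)) hBm hBm
    Metric.isOpen_ball.measurableSet (D := 2 * r)
    (fun x hx z hz => by
      have := dist_triangle_right x z x0
      rw [hB, Metric.mem_ball] at hx hz
      linarith)
    (fun x hx z hz hU t ht => geo_ball C hx hz hU ht) hg
  calc ENNReal.ofReal (2 * r) * ∫⁻ x in B, ∫⁻ z in B,
        ∫⁻ t in Icc (0:ℝ) 1, ENNReal.ofReal (G (C.T x t z)) ∂volume ∂μ ∂μ
      ≤ ENNReal.ofReal (2 * r) * (ENNReal.ofReal (Real.exp (κ * (2 * r) ^ 2 / 2) * 2 ^ n) *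
          (μ B + μ B) * ∫⁻ y in Metric.ball x0 (2 * r), ENNReal.ofReal (G y) ∂μ) := by gcongr
    _ = (ENNReal.ofReal (2 * r) * ENNReal.ofReal (Real.exp (κ * (2 * r) ^ 2 / 2) * 2 ^ n) * 2) *
          μ B * ∫⁻ y in Metric.ball x0 (2 * r), ENNReal.ofReal (G y) ∂μ := by ring
    _ = _ := by
        congr 2
        rw [← ENNReal.ofReal_mul (by positivity), show (2:ℝ≥0∞) = ENNReal.ofReal 2 by norm_num,
          ← ENNReal.ofReal_mul (by positivity)]
        congr 1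
        rw [show κ * (2 * r) ^ 2 / 2 = 2 * κ * r ^ 2 by ring]
        ring

/-- **Neumann–Poincaré inequality**, exponent 2, local form. -/
theorem poinc_two (hκ : 0 ≤ κ) {U : Set X} {f G : X → ℝ} (hf : LGOn U f G) (hG : Measurable G)
    (x0 : X) {r : ℝ} (hr : 0 < r) (hU : Metric.ball x0 (2 * r) ⊆ U)
    (hBf : μ (Metric.ball x0 r) ≠ ∞) (hfi : IntegrableOn f (Metric.ball x0 r) μ)
    (hfi2 : IntegrableOn (fun x => f x ^ 2) (Metric.ball x0 r) μ) :
    ∫⁻ x in Metric.ball x0 r, ENNReal.ofReal ((f x - ⨍ z in Metric.ball x0 r, f z ∂μ) ^ 2) ∂μ ≤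
      ENNReal.ofReal (8 * r ^ 2 * (Real.exp (2 * κ * r ^ 2) * 2 ^ n)) *
        ∫⁻ y in Metric.ball x0 (2 * r), ENNReal.ofReal (G y ^ 2) ∂μ := by
  set B := Metric.ball x0 r with hB
  have hBm : MeasurableSet B := Metric.isOpen_ball.measurableSet
  by_cases h0 : μ B = 0
  · rw [setLIntegral_measure_zero _ _ h0]; exact bot_le
  have h1 : μ B * ∫⁻ x in B, ENNReal.ofReal ((f x - ⨍ z in B, f z ∂μ) ^ 2) ∂μ ≤
      μ B * (ENNReal.ofReal (8 * r ^ 2 * (Real.exp (2 * κ * r ^ 2) * 2 ^ n)) *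
        ∫⁻ y in Metric.ball x0 (2 * r), ENNReal.ofReal (G y ^ 2) ∂μ) := by
    rw [← lintegral_const_mul' _ _ hBf]
    calc ∫⁻ x in B, μ B * ENNReal.ofReal ((f x - ⨍ z in B, f z ∂μ) ^ 2) ∂μ
        ≤ ∫⁻ x in B, ∫⁻ z in B, ENNReal.ofReal ((f x - f z) ^ 2) ∂μ ∂μ :=
          lintegral_mono fun x => var_le hBm hBf hfi hfi2 (f x)
      _ ≤ _ := dbl_two C hκ hf hG x0 hr hU
      _ = _ := by ring
  exact (ENNReal.mul_le_mul_iff_right h0 hBf).1 h1

/-- **Neumann–Poincaré inequality**, exponent 1, local form. -/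
theorem poinc_one (hκ : 0 ≤ κ) {U : Set X} {f G : X → ℝ} (hf : LGOn U f G) (hG : Measurable G)
    (x0 : X) {r : ℝ} (hr : 0 < r) (hU : Metric.ball x0 (2 * r) ⊆ U)
    (hBf : μ (Metric.ball x0 r) ≠ ∞) (hfi : IntegrableOn f (Metric.ball x0 r) μ) :
    ∫⁻ x in Metric.ball x0 r, ENNReal.ofReal |f x - ⨍ z in Metric.ball x0 r, f z ∂μ| ∂μ ≤
      ENNReal.ofReal (4 * r * (Real.exp (2 * κ * r ^ 2) * 2 ^ n)) *
        ∫⁻ y in Metric.ball x0 (2 * r), ENNReal.ofReal (G y) ∂μ := by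
  set B := Metric.ball x0 r with hB
  have hBm : MeasurableSet B := Metric.isOpen_ball.measurableSet
  by_cases h0 : μ B = 0
  · rw [setLIntegral_measure_zero _ _ h0]; exact bot_le
  have h1 : μ B * ∫⁻ x in B, ENNReal.ofReal |f x - ⨍ z in B, f z ∂μ| ∂μ ≤
      μ B * (ENNReal.ofReal (4 * r * (Real.exp (2 * κ * r ^ 2) * 2 ^ n)) *
        ∫⁻ y in Metric.ball x0 (2 * r), ENNReal.ofReal (G y) ∂μ) := by
    rw [← lintegral_const_mul' _ _ hBf]
    calc ∫⁻ x in B, μ B * ENNReal.ofReal |f x - ⨍ z in B, f z ∂μ| ∂μ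
        ≤ ∫⁻ x in B, ∫⁻ z in B, ENNReal.ofReal |f x - f z| ∂μ ∂μ :=
          lintegral_mono fun x => dev_le hBm hBf hfi (f x)
      _ ≤ _ := dbl_one C hκ hf hG x0 hr hU
      _ = _ := by ring
  exact (ENNReal.mul_le_mul_iff_right h0 hBf).1 h1

end poinc

end Crest.Agent.R249.SobF_982
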