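import Crest.Agent.R249.SobG_982

/-!
# R249 (D3-SOB), part H: Caccioppoli inequality for nonnegative subharmonic functions on `M`

`cacc` : `∫ η² ‖Gr f‖² ≤ 4 ∫ f² ‖Gr η‖²`;
`cut2 x0 a b` : cut-off `1` on `dist ≤ a`, `0` on `dist ≥ b`.
-/

set_option autoImplicit false
set_option maxSynthPendingDepth 3
set_option linter.unusedSectionVars false
open Bundle Set MeasureTheory Manifold Filter Metric
open scoped ENNReal ContDiff Topology NNReal
open Crest.GeometryTopology.CoordMetric Crest.GeometryTopology.ChartCurvature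
open Crest.Agent.R249.SobA_982 Crest.Agent.R249.SobC_982 Crest.Agent.R249.SobD_982
  Crest.Agent.R249.SobE_982 Crest.Agent.R249.SobG_982
open Crest.Agent.R247 Crest.Agent.R247.Ms322

noncomputable section
namespace Crest.Agent.R249.SobH_982

section cut2
variable {X : Type*} [MetricSpace X]

/-- cut-off between the radii `a < b` -/
def cut2 (x0 : X) (a b : ℝ) (y : X) : ℝ := 1 - th (1 + (dist y x0 - a) / (b - a))

/-- its gradient bound -/
def dcut2 (x0 : X) (a b : ℝ) (y : X) : ℝ := |deriv th (1 + (dist y x0 - a) / (b - a))| / (b - a)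

lemma cut2_nonneg (x0 : X) (a b : ℝ) (y : X) : 0 ≤ cut2 x0 a b y := by
  unfold cut2
  have : th (1 + (dist y x0 - a) / (b - a)) ≤ 1 := Real.smoothTransition.le_one _
  linarith

lemma cut2_le_one (x0 : X) (a b : ℝ) (y : X) : cut2 x0 a b y ≤ 1 := by
  unfold cut2
  have := th_nonneg (1 + (dist y x0 - a) / (b - a))
  linarith

variable {x0 : X} {a b : ℝ} (hab : a < b) {y : X}

include hab

lemma cut2_one (h : dist y x0 ≤ a) : cut2 x0 a b y = 1 := by
  unfold cut2
  rw [th_zero, sub_zero]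
  have h1 : (dist y x0 - a) / (b - a) ≤ 0 :=
    div_nonpos_of_nonpos_of_nonneg (by linarith) (by linarith)
  linarith

lemma arg_hi (h : b ≤ dist y x0) : 2 ≤ 1 + (dist y x0 - a) / (b - a) := by
  have h1 : 1 ≤ (dist y x0 - a) / (b - a) := by
    rw [le_div_iff₀ (by linarith)]; linarith
  linarith

lemma cut2_zero (h : b ≤ dist y x0) : cut2 x0 a b y = 0 := by
  unfold cut2
  rw [th_one (arg_hi hab h), sub_self]

lemma dcut2_zero (h : b ≤ dist y x0) : dcut2 x0 a b y = 0 := by
  unfold dcut2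
  rw [deriv_th_hi (arg_hi hab h), abs_zero, zero_div]

lemma dcut2_nonneg : 0 ≤ dcut2 x0 a b y := by
  unfold dcut2
  have : 0 < b - a := by linarith
  positivity

lemma dcut2_le : dcut2 x0 a b y ≤ Cth / (b - a) := by
  unfold dcut2
  have := abs_deriv_th_le (1 + (dist y x0 - a) / (b - a))
  have h2 : 0 < b - a := by linarith
  gcongr

omit y

lemma LG_cut2 : LG (cut2 x0 a b) (dcut2 x0 a b) := by
  have hba : 0 < b - a := by linarith
  set Φ : ℝ → ℝ := fun s => 1 - th (1 + (s - a) / (b - a)) with hΦ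
  have hΦc : ContDiff ℝ 1 Φ := by
    refine contDiff_const.sub (contDiff_th.comp ?_)
    exact contDiff_const.add ((contDiff_id.sub contDiff_const).div_const _)
  have h := (LG_dist x0).comp hΦc
  refine h.congr (fun y => rfl) fun y => ?_
  have h1 : HasDerivAt Φ (-(deriv th (1 + (dist y x0 - a) / (b - a)) * (1 / (b - a)))) (dist y x0) := by
    have h2 : HasDerivAt th (deriv th (1 + (dist y x0 - a) / (b - a)))
        (1 + (dist y x0 - a) / (b - a)) :=
      (contDiff_th.differentiable (by norm_num)).differentiableAt.hasDerivAt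
    have h3 : HasDerivAt (fun s : ℝ => 1 + (s - a) / (b - a)) (1 / (b - a)) (dist y x0) := by
      simpa using ((((hasDerivAt_id (dist y x0)).sub_const a).div_const (b - a)).const_add 1)
    exact (h2.comp (dist y x0) h3).const_sub 1
  rw [h1.deriv, abs_neg, abs_mul, abs_of_pos (by positivity : (0:ℝ) < 1 / (b - a)), mul_one, dcut2]
  ring

lemma cut2_lip (x y : X) : |cut2 x0 a b x - cut2 x0 a b y| ≤ Cth / (b - a) * dist x y := by
  have hba : 0 < b - a := by linarith
  have h1 : |th (1 + (dist x x0 - a) / (b - a)) - th (1 + (dist y x0 - a) / (b - a))| ≤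
      Cth * |(1 + (dist x x0 - a) / (b - a)) - (1 + (dist y x0 - a) / (b - a))| := by
    have := Convex.norm_image_sub_le_of_norm_deriv_le (f := th) (s := univ) (C := Cth)
      (x := 1 + (dist y x0 - a) / (b - a)) (y := 1 + (dist x x0 - a) / (b - a))
      (fun s _ => (contDiff_th.differentiable (by norm_num)).differentiableAt)
      (fun s _ => by rw [Real.norm_eq_abs]; exact abs_deriv_th_le s) convex_univ (mem_univ _)
      (mem_univ _)
    simpa [Real.norm_eq_abs] using this
  have h2 : (1 + (dist x x0 - a) / (b - a)) - (1 + (dist y x0 - a) / (b - a)) =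
      (dist x x0 - dist y x0) / (b - a) := by ring
  rw [h2, abs_div, abs_of_pos hba] at h1
  have h3 : |dist x x0 - dist y x0| ≤ dist x y := abs_dist_sub_le x y x0
  have hC := Cth_pos
  unfold cut2
  calc |1 - th (1 + (dist x x0 - a) / (b - a)) - (1 - th (1 + (dist y x0 - a) / (b - a)))|
      = |th (1 + (dist x x0 - a) / (b - a)) - th (1 + (dist y x0 - a) / (b - a))| := by
        rw [← abs_neg]; congr 1; ring
    _ ≤ Cth * (|dist x x0 - dist y x0| / (b - a)) := h1
    _ ≤ Cth * (dist x y / (b - a)) := by gcongr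
    _ = _ := by ring

lemma tsupport_cut2 : tsupport (cut2 x0 a b) ⊆ closedBall x0 b := by
  apply closure_minimal _ isClosed_closedBall
  intro x hx
  rw [mem_closedBall]
  by_contra h
  exact hx (cut2_zero hab (not_le.1 h).le)

lemma tsupport_dcut2 : tsupport (dcut2 x0 a b) ⊆ closedBall x0 b := by
  apply closure_minimal _ isClosed_closedBall
  intro x hx
  rw [mem_closedBall]
  by_contra h
  exact hx (dcut2_zero hab (not_le.1 h).le)

end cut2

section M
variable {n : ℕ} {M : Type*} [MetricSpace M] [ChartedSpace (EuclideanSpace ℝ (Fin n)) M]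
  [IsManifold (𝓡 n) ∞ M]
  [RiemannianBundle (fun p : M => TangentSpace (𝓡 n) p)]
  [IsContMDiffRiemannianBundle (𝓡 n) ∞ (EuclideanSpace ℝ (Fin n)) (fun p : M => TangentSpace (𝓡 n) p)]
  [SecondCountableTopology M] [Nonempty M] [IsRiemannianManifold (𝓡 n) M]
  [MeasurableSpace M] [BorelSpace M]

/-- **Caccioppoli inequality.** -/
theorem cacc {U : Set M} (hU : IsOpen U) {f η : M → ℝ}
    (hf : ∀ z ∈ U, ContMDiffAt (𝓡 n) 𝓘(ℝ, ℝ) 2 f z) (hf0 : ∀ z ∈ U, 0 ≤ f z)
    (hL : ∀ z ∈ U, 0 ≤ Bo84.mLap n f z) (hη : LocallyLipschitz η) (hc : HasCompactSupport η)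
    (hs : tsupport η ⊆ U) :
    ∫ z, η z ^ 2 * ‖Gr (n := n) f z‖ ^ 2 ∂(μHE[n] : Measure M) ≤
      4 * ∫ z, f z ^ 2 * ‖Gr (n := n) η z‖ ^ 2 ∂(μHE[n] : Measure M) := by
  have hfL : LLo U f := LLo.of_contMDiffAt fun z hz => (hf z hz).of_le (by norm_num)
  have hfc : ContinuousOn f U := hfL.continuousOn
  have hηc : Continuous η := hη.continuous
  -- test function `φ = η (η f)`
  have h1 : LocallyLipschitz (fun z => η z * f z) := LLo.mul_supp hη hfL hs
  have hs1 : tsupport (fun z => η z * f z) ⊆ U := (closure_mono (fun z hz => by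
    intro h; apply hz; show η z * f z = 0; rw [h, zero_mul])).trans hs
  have hφL : LocallyLipschitz (fun z => η z * (η z * f z)) :=
    LLo.mul_supp hη (LLo.of_loc h1 (U := U)) hs
  have hsub : Function.support (fun z => η z * (η z * f z)) ⊆ Function.support η := by
    intro z hz h
    apply hz
    show η z * (η z * f z) = 0
    rw [h, zero_mul]
  have hφs : tsupport (fun z => η z * (η z * f z)) ⊆ U := (closure_mono hsub).trans hs
  have hφc : HasCompactSupport (fun z => η z * (η z * f z)) := hc.mono hsub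
  have hibp := ibp_mLap hU hf hφL hφc hφs
  -- the gradient of the test function
  have hgr : ∀ᵐ z ∂(μHE[n] : Measure M),
      inner ℝ (Gr (n := n) f z) (Gr (n := n) (fun z => η z * (η z * f z)) z) =
        η z ^ 2 * ‖Gr (n := n) f z‖ ^ 2 + 2 * (η z * f z) * inner ℝ (Gr (n := n) f z) (Gr (n := n) η z) := by
    filter_upwards [ae_mdifferentiableAt (n := n) hη] with z hz
    by_cases hzU : z ∈ U
    · have hfz : MDifferentiableAt (𝓡 n) 𝓘(ℝ) f z := (hf z hzU).mdifferentiableAt (by norm_num)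
      have e1 : Gr (n := n) (fun z => η z * f z) z = η z • Gr f z + f z • Gr η z := Gr_mul hz hfz
      have hηf : MDifferentiableAt (𝓡 n) 𝓘(ℝ) (fun z => η z * f z) z := hz.mul hfz
      rw [Gr_mul hz hηf, e1, inner_add_right, inner_smul_right, inner_smul_right, inner_add_right,
        inner_smul_right, inner_smul_right, real_inner_self_eq_norm_sq]
      ring
    · have h0 : η z = 0 := image_eq_zero_of_notMem_tsupport fun h => hzU (hs h)
      have h2 : Gr (n := n) (fun z => η z * (η z * f z)) z = 0 :=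
        Gr_zero_off fun h => hzU (hφs h)
      rw [h2, inner_zero_right, h0]
      ring
  rw [integral_congr_ae hgr] at hibp
  -- integrability
  obtain ⟨Cf, hCf0, hCf⟩ := hfL.exists_bound_Gr (n := n) hc.isCompact hs
  obtain ⟨Cη, hCη0, hCη⟩ := exists_bound_Gr (n := n) hη hc
  obtain ⟨Bf, hBf⟩ := hc.isCompact.exists_bound_of_continuousOn (hfc.mono hs)
  obtain ⟨Bη, hBη⟩ := hc.isCompact.exists_bound_of_continuousOn hηc.continuousOn
  have hfm : AEStronglyMeasurable f ((μHE[n] : Measure M).restrict (tsupport η)) :=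
    (hfc.mono hs).aestronglyMeasurable hc.isCompact.measurableSet
  have hηm : AEStronglyMeasurable η ((μHE[n] : Measure M).restrict (tsupport η)) :=
    hηc.aestronglyMeasurable
  have hGf : AEStronglyMeasurable (Gr (n := n) f) ((μHE[n] : Measure M).restrict (tsupport η)) :=
    (measurable_Gr f).aestronglyMeasurable
  have hGη : AEStronglyMeasurable (Gr (n := n) η) ((μHE[n] : Measure M).restrict (tsupport η)) :=
    (measurable_Gr η).aestronglyMeasurable
  have i1 : Integrable (fun z => η z ^ 2 * ‖Gr (n := n) f z‖ ^ 2) (μHE[n] : Measure M) := by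
    refine integrable_of_compact_M hc.isCompact (C := Bη ^ 2 * Cf ^ 2) ?_ ?_ ?_
    · exact (hηm.pow 2).mul (hGf.norm.pow 2)
    · intro z hz
      have a1 := hBη z hz
      have a2 := hCf z hz
      rw [norm_mul, norm_pow, norm_pow, norm_norm]
      gcongr
    · intro z hz
      rw [image_eq_zero_of_notMem_tsupport hz]
      ring
  have i2 : Integrable (fun z => 2 * (η z * f z) * inner ℝ (Gr (n := n) f z) (Gr (n := n) η z))
      (μHE[n] : Measure M) := by
    refine integrable_of_compact_M hc.isCompact (C := 2 * (Bη * Bf) * (Cf * Cη)) ?_ ?_ ?_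
    · exact ((hηm.mul hfm).const_mul 2).mul (hGf.inner hGη)
    · intro z hz
      have a1 := hBη z hz
      have a2 := hCf z hz
      have a3 := hBf z hz
      have a4 := hCη z
      have a5 : ‖(inner ℝ (Gr (n := n) f z) (Gr (n := n) η z) : ℝ)‖ ≤ Cf * Cη :=
        (norm_inner_le_norm _ _).trans (mul_le_mul a2 a4 (norm_nonneg _) hCf0)
      rw [norm_mul, norm_mul, norm_mul]
      have e2 : ‖(2:ℝ)‖ = 2 := by norm_num
      rw [e2]
      have a6 : 0 ≤ Bη := (norm_nonneg _).trans a1
      have a7 : 0 ≤ Bf := (norm_nonneg _).trans a3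
      have a8 : ‖η z‖ * ‖f z‖ ≤ Bη * Bf := mul_le_mul a1 a3 (norm_nonneg _) a6
      exact mul_le_mul (mul_le_mul_of_nonneg_left a8 (by norm_num)) a5 (norm_nonneg _) (by positivity)
    · intro z hz
      rw [image_eq_zero_of_notMem_tsupport hz]
      ring
  have i3 : Integrable (fun z => f z ^ 2 * ‖Gr (n := n) η z‖ ^ 2) (μHE[n] : Measure M) := by
    refine integrable_of_compact_M hc.isCompact (C := Bf ^ 2 * Cη ^ 2) ?_ ?_ ?_
    · exact (hfm.pow 2).mul (hGη.norm.pow 2)
    · intro z hz
      have a3 := hBf z hz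
      have a4 := hCη z
      rw [norm_mul, norm_pow, norm_pow, norm_norm]
      gcongr
    · intro z hz
      rw [Gr_zero_off hz, norm_zero]
      ring
  have hneg : 0 ≤ ∫ z, (η z * (η z * f z)) * Bo84.mLap n f z ∂(μHE[n] : Measure M) := by
    apply integral_nonneg
    intro z
    show 0 ≤ (η z * (η z * f z)) * Bo84.mLap n f z
    by_cases hzU : z ∈ U
    · have := hf0 z hzU
      have := hL z hzU
      have : 0 ≤ η z * η z := mul_self_nonneg _
      rw [← mul_assoc]
      positivity
    · rw [image_eq_zero_of_notMem_tsupport (f := η) fun h => hzU (hs h)]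
      simp
  rw [integral_add i1 i2] at hibp
  -- `2 η f ⟨Gr f, Gr η⟩ ≥ - (η² |Gr f|²/2 + 2 f² |Gr η|²)`
  have hlow : -((1/2) * (∫ z, η z ^ 2 * ‖Gr (n := n) f z‖ ^ 2 ∂(μHE[n] : Measure M)) +
      2 * ∫ z, f z ^ 2 * ‖Gr (n := n) η z‖ ^ 2 ∂(μHE[n] : Measure M)) ≤
      ∫ z, 2 * (η z * f z) * inner ℝ (Gr (n := n) f z) (Gr (n := n) η z) ∂(μHE[n] : Measure M) := by
    rw [← integral_const_mul, ← integral_const_mul, ← integral_add (i1.const_mul _) (i3.const_mul _),
      ← integral_neg]
    apply integral_mono ((i1.const_mul _).add (i3.const_mul _)).neg i2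
    intro z
    show -((1/2) * (η z ^ 2 * ‖Gr (n := n) f z‖ ^ 2) + 2 * (f z ^ 2 * ‖Gr (n := n) η z‖ ^ 2)) ≤
      2 * (η z * f z) * inner ℝ (Gr (n := n) f z) (Gr (n := n) η z)
    have h3 : |(inner ℝ (Gr (n := n) f z) (Gr (n := n) η z) : ℝ)| ≤
        ‖Gr (n := n) f z‖ * ‖Gr (n := n) η z‖ := abs_real_inner_le_norm _ _
    have h4 : |2 * (η z * f z) * (inner ℝ (Gr (n := n) f z) (Gr (n := n) η z) : ℝ)| ≤
        2 * (|η z| * |f z|) * (‖Gr (n := n) f z‖ * ‖Gr (n := n) η z‖) := by
      rw [abs_mul, abs_mul, abs_mul, abs_two]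
      gcongr
    have h5 : 2 * (|η z| * |f z|) * (‖Gr (n := n) f z‖ * ‖Gr (n := n) η z‖) ≤
        (1/2) * (η z ^ 2 * ‖Gr (n := n) f z‖ ^ 2) + 2 * (f z ^ 2 * ‖Gr (n := n) η z‖ ^ 2) := by
      rw [← sq_abs (η z), ← sq_abs (f z)]
      nlinarith [sq_nonneg (|η z| * ‖Gr (n := n) f z‖ - 2 * (|f z| * ‖Gr (n := n) η z‖))]
    have h6 := neg_abs_le (2 * (η z * f z) * (inner ℝ (Gr (n := n) f z) (Gr (n := n) η z) : ℝ))
    linarith
  linarith

end M

end Crest.Agent.R249.SobH_982
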