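import Crest.Agent.R249.StKb_912

/-!
# Row 249, part A (helper912): the scaled certificate, part 3

* `f2_of_f3` : the `2 × 2` form follows from the `3 × 3` form and `0 ≤ W`;
* `W_nonneg` : `0 ≤ W` follows from the `3 × 3` form;
* `certS_of` : `CertS ACpm C.A C.B C.W c N` from `INT` and `CON`.
-/

set_option autoImplicit false
set_option linter.unusedVariables false
set_option linter.unusedSectionVars false

open Set Filter Topology
open scoped ContDiff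

noncomputable section

namespace Crest.Agent.R249.StK_912

open DivC467 hiding X0 K0
open Eta467 Sym467 Ker254 CovA621
open Brg133 hiding f0

/-- the quadratic part of the `3 × 3` form -/
def Qd (B W : E3 → ℝ) (z : E3) (q h k : ℝ) : ℝ :=
  (4 / 3 * W z + 2 * pd3 W z * q ^ 2) * h ^ 2 + (pd2 W z - 2 * pd3 B z) * q * (h * k) -
    pd2 B z * k ^ 2

lemma F3_add_neg (A B W : E3 → ℝ) (z : E3) (X K q h k : ℝ) :
    F3 0 A B W z X K q h k + F3 0 A B W z X K q (-h) (-k) =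
      2 * F3 0 A B W z X K q 0 0 + 2 * Qd B W z q h k := by
  simp only [F3, Q3, Qd]
  ring

lemma Qd_smul (B W : E3 → ℝ) (z : E3) (q h k t : ℝ) :
    Qd B W z q (t * h) (t * k) = t ^ 2 * Qd B W z q h k := by
  simp only [Qd]
  ring

/-- the quadratic part dominates -/
lemma Qd_ge {A B W : E3 → ℝ} {z : E3} {X K q a0 a2 : ℝ}
    (H : ∀ h k, a0 + a2 * k ^ 2 ≤ F3 0 A B W z X K q h k) (h k : ℝ) :
    a2 * k ^ 2 ≤ Qd B W z q h k := by
  obtain ⟨c, hc⟩ : ∃ c, c = F3 0 A B W z X K q 0 0 := ⟨_, rfl⟩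
  have key : ∀ t : ℝ, a0 + t ^ 2 * (a2 * k ^ 2) ≤ c + t ^ 2 * Qd B W z q h k := by
    intro t
    have h1 := H (t * h) (t * k)
    have h2 := H (-(t * h)) (-(t * k))
    have h3 := F3_add_neg A B W z X K q (t * h) (t * k)
    rw [Qd_smul, ← hc] at h3
    rw [neg_sq] at h2
    nlinarith
  by_contra hcon
  push Not at hcon
  obtain ⟨δ, hδ⟩ : ∃ δ, δ = a2 * k ^ 2 - Qd B W z q h k := ⟨_, rfl⟩
  have hδ0 : 0 < δ := by rw [hδ]; linarith
  have h0 := key 0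
  have h1 : a0 ≤ c := by simpa using h0
  have h2 := key (√((c - a0 + 1) / δ))
  have h3 : √((c - a0 + 1) / δ) ^ 2 = (c - a0 + 1) / δ :=
    Real.sq_sqrt (div_nonneg (by linarith) hδ0.le)
  rw [h3] at h2
  have h4 : (c - a0 + 1) / δ * δ = c - a0 + 1 := by field_simp
  have h5 : (c - a0 + 1) / δ * (a2 * k ^ 2) - (c - a0 + 1) / δ * Qd B W z q h k =
      (c - a0 + 1) / δ * δ := by rw [hδ]; ring
  linarith

/-- **the `2 × 2` form.** -/
theorem f2_of_f3 {A B W : E3 → ℝ} {z : E3} {X K q a0 a2 : ℝ} (hW : 0 ≤ W z)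
    (H : ∀ h k, a0 + a2 * k ^ 2 ≤ F3 0 A B W z X K q h k) {ss sw ww : ℝ} (hs : 0 ≤ ss)
    (hw : 0 ≤ ww) (hsw : sw ^ 2 ≤ ss * ww) : a2 * ww ≤ F2 0 B W z q ss sw ww := by
  have hs1 : √ss ^ 2 = ss := Real.sq_sqrt hs
  have hw1 : √ww ^ 2 = ww := Real.sq_sqrt hw
  have hs0 := Real.sqrt_nonneg ss
  have hw0 := Real.sqrt_nonneg ww
  have habs : |sw| ≤ √ss * √ww := by
    apply abs_le_of_sq_le_sq _ (by positivity)
    rw [mul_pow, hs1, hw1]; exact hsw
  obtain ⟨x, hx⟩ : ∃ x, x = (pd2 W z - 2 * pd3 B z) * q := ⟨_, rfl⟩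
  have e1 : F2 0 B W z q ss sw ww = (2 * W z + 2 * pd3 W z * q ^ 2) * ss + x * sw - pd2 B z * ww := by
    simp only [F2, Q2, hx]
    ring
  -- the two signs
  have g1 := Qd_ge H (√ss) (√ww)
  have g2 := Qd_ge H (√ss) (-√ww)
  simp only [Qd] at g1 g2
  rw [← hx] at g1 g2
  rw [neg_sq] at g2
  rw [hs1, hw1] at g1 g2
  rw [e1]
  have hWs : 0 ≤ W z * ss := mul_nonneg hW hs
  have h1 := abs_le.1 habs
  rcases le_total 0 x with hx0 | hx0
  · have h2 : x * (-(√ss * √ww)) ≤ x * sw := mul_le_mul_of_nonneg_left h1.1 hx0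
    nlinarith
  · have h2 : x * (√ss * √ww) ≤ x * sw := mul_le_mul_of_nonpos_left h1.2 hx0
    nlinarith

/-! ### the sign of `W` -/

lemma reg_G {z : E3} (hz : z ∈ Reg ACpm) {G : ℝ} (hG : 0 < G) :
    ((z.1, z.2.1, G) : E3) ∈ Reg ACpm := by
  have hk : kf ACpm (z.1, z.2.1, G) = kf ACpm z := rfl
  refine ⟨hz.m0, hz.em, hz.bx, hz.k0, hG.le, ?_⟩
  rw [hk]
  have := hz.k0
  show 0 < z.1 ^ 2 + kf ACpm z + G
  positivity

lemma contDiffAt_W {C : Crt} (hC : 1 ≤ C.c) {z : E3} (hm : 0 < z.2.1) (hR : 0 < RR C.c z.2.1 z.2.2) :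
    ContDiffAt ℝ ∞ C.W z := contDiffAt_cE hm.ne' hR.ne'

/-- `W ≥ 0` where `m < 1` -/
lemma W_nonneg_lt {C : Crt} (hC : 1 ≤ C.c) {z : E3} (hz : z ∈ Reg ACpm) (hm : z.2.1 < 1)
    (H : ∀ z' ∈ Reg ACpm, ∀ q, 0 ≤ q → q ^ 2 = z'.2.2 → ∀ h, 0 ≤ Qd C.B C.W z' q h 0) :
    0 ≤ C.W z := by
  have hm0 := hz.m0
  have hc : (1:ℝ) ≤ C.c := by exact_mod_cast hC
  have hRG : ∀ G : ℝ, 0 ≤ G → 0 < RR C.c z.2.1 G := by
    intro G hG
    unfold RR
    have : 0 < (C.c : ℝ) * (1 - z.2.1) * z.2.1 ^ 2 := by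
      have : 0 < 1 - z.2.1 := by linarith
      positivity
    linarith
  have hder : ∀ s : ℝ, 0 ≤ s → HasDerivAt (fun s : ℝ => s ^ 2 * C.W (z.1, z.2.1, s ^ 3))
      (2 * s * C.W (z.1, z.2.1, s ^ 3) + s ^ 2 * (3 * s ^ 2 * pd3 C.W (z.1, z.2.1, s ^ 3))) s := by
    intro s hs
    have hd : DifferentiableAt ℝ C.W (z.1, z.2.1, s ^ 3) :=
      (contDiffAt_W hC (z := (z.1, z.2.1, s ^ 3)) hm0 (hRG _ (by positivity))).differentiableAt
        (by simp)
    have h1 : HasDerivAt (fun s : ℝ => ((z.1, z.2.1, s ^ 3) : E3)) ((0, 0, 3 * s ^ 2) : E3) s := by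
      have h2 : HasDerivAt (fun s : ℝ => s ^ 3) (3 * s ^ 2) s := by
        have := hasDerivAt_pow 3 s
        refine this.congr_deriv ?_
        push_cast
        ring
      exact (hasDerivAt_const s z.1).prodMk ((hasDerivAt_const s z.2.1).prodMk h2)
    have h3 := hd.hasFDerivAt.comp_hasDerivAt s h1
    have e : fderiv ℝ C.W (z.1, z.2.1, s ^ 3) ((0, 0, 3 * s ^ 2) : E3) =
        3 * s ^ 2 * pd3 C.W (z.1, z.2.1, s ^ 3) := by
      have : ((0, 0, 3 * s ^ 2) : E3) = (3 * s ^ 2) • ((0, 0, 1) : E3) := by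
        ext <;> simp
      rw [this, map_smul, smul_eq_mul]
      rfl
    rw [e] at h3
    have h4 := (hasDerivAt_pow 2 s).mul h3
    refine h4.congr_deriv ?_
    push_cast
    simp only [Function.comp]
    ring
  have hmono : MonotoneOn (fun s : ℝ => s ^ 2 * C.W (z.1, z.2.1, s ^ 3)) (Ici 0) := by
    refine monotoneOn_of_deriv_nonneg (convex_Ici 0)
      (fun s hs => (hder s hs).continuousAt.continuousWithinAt) ?_ ?_
    · intro s hs
      rw [interior_Ici] at hs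
      exact (hder s (le_of_lt hs)).differentiableAt.differentiableWithinAt
    · intro s hs
      rw [interior_Ici] at hs
      have hs0 : 0 < s := hs
      rw [(hder s hs0.le).deriv]
      have hG : 0 < s ^ 3 := by positivity
      have h1 := H _ (reg_G hz hG) (√(s ^ 3)) (Real.sqrt_nonneg _) (Real.sq_sqrt hG.le) 1
      simp only [Qd] at h1
      rw [Real.sq_sqrt hG.le] at h1
      have h2 : 0 ≤ 4 / 3 * C.W (z.1, z.2.1, s ^ 3) + 2 * pd3 C.W (z.1, z.2.1, s ^ 3) * s ^ 3 := by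
        simpa using h1
      have h3 : 0 ≤ (3 / 2 * s) *
          (4 / 3 * C.W (z.1, z.2.1, s ^ 3) + 2 * pd3 C.W (z.1, z.2.1, s ^ 3) * s ^ 3) := by
        positivity
      refine h3.trans (le_of_eq ?_)
      ring
  have hpos : ∀ G : ℝ, 0 < G → 0 ≤ C.W (z.1, z.2.1, G) := by
    intro G hG
    obtain ⟨s, hs0, hs⟩ : ∃ s : ℝ, 0 < s ∧ s ^ 3 = G := by
      refine ⟨G ^ (((3:ℕ):ℝ)⁻¹), Real.rpow_pos_of_pos hG _, ?_⟩
      exact Real.rpow_inv_natCast_pow hG.le (by norm_num)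
    have h1 := hmono (mem_Ici.2 le_rfl) (mem_Ici.2 hs0.le) hs0.le
    have h2 : 0 ≤ s ^ 2 * C.W (z.1, z.2.1, s ^ 3) := by simpa using h1
    rw [hs] at h2
    exact nonneg_of_mul_nonneg_right h2 (by positivity)
  rcases hz.G0.lt_or_eq with hG | hG
  · exact hpos _ hG
  · -- limit `G → 0`
    have hcont : ContinuousAt (fun G : ℝ => C.W (z.1, z.2.1, G)) 0 := by
      have h1 : ContinuousAt C.W (z.1, z.2.1, 0) :=
        (contDiffAt_W hC (z := (z.1, z.2.1, 0)) hm0 (hRG _ le_rfl)).continuousAt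
      have h2 : ContinuousAt (fun G : ℝ => ((z.1, z.2.1, G) : E3)) 0 := by fun_prop
      exact ContinuousAt.comp (f := fun G : ℝ => ((z.1, z.2.1, G) : E3)) (g := C.W) h1 h2
    have e : C.W z = C.W (z.1, z.2.1, 0) := by
      conv_lhs => rw [show z = (z.1, z.2.1, z.2.2) from rfl, ← hG]
    rw [e]
    refine ge_of_tendsto (x := 𝓝[>] (0:ℝ)) (hcont.tendsto.mono_left nhdsWithin_le_nhds) ?_
    filter_upwards [self_mem_nhdsWithin] with G hG
    exact hpos G hG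

/-- **`W ≥ 0` on the region.** -/
theorem W_nonneg {C : Crt} (hC : 1 ≤ C.c) {z : E3} (hz : z ∈ Reg ACpm)
    (H : ∀ z' ∈ Reg ACpm, ∀ q, 0 ≤ q → q ^ 2 = z'.2.2 → ∀ h, 0 ≤ Qd C.B C.W z' q h 0) :
    0 ≤ C.W z := by
  rcases (m_le hz).lt_or_eq with h1 | h1
  · exact W_nonneg_lt hC hz h1 H
  · -- `m = 1`, `η = 0`
    have hη : z.1 = 0 := by
      by_contra h0
      exact absurd h1 (m_lt_one' hz h0).ne
    have hk := hz.k0
    have hG : 0 < z.2.2 := by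
      have h2 := hz.ns
      rw [kf_AC, hη, h1] at h2
      norm_num at h2
      exact h2
    have e : z = (0, 1, z.2.2) := by
      ext
      · exact hη
      · exact h1
      · rfl
    have hcont : ContinuousAt (fun m : ℝ => C.W (0, m, z.2.2)) 1 := by
      have h3 : ContinuousAt C.W ((0, 1, z.2.2) : E3) := by
        rw [← e]
        exact (contDiffAt_W hC hz.m0 (RR_pos hC hz)).continuousAt
      have h2 : ContinuousAt (fun m : ℝ => ((0, m, z.2.2) : E3)) 1 := by fun_prop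
      exact ContinuousAt.comp (f := fun m : ℝ => ((0, m, z.2.2) : E3)) (g := C.W) h3 h2
    rw [e]
    refine ge_of_tendsto (x := 𝓝[<] (1:ℝ)) (hcont.tendsto.mono_left nhdsWithin_le_nhds) ?_
    have h4 : ∀ᶠ m in 𝓝[<] (1:ℝ), 0 < m := nhdsWithin_le_nhds (lt_mem_nhds (by norm_num))
    filter_upwards [self_mem_nhdsWithin, h4] with m hm hm0
    have hm1 : m < 1 := hm
    apply W_nonneg_lt hC (z := (0, m, z.2.2)) _ hm1 H
    refine ⟨hm0, ?_, ?_, ?_, hG.le, ?_⟩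
    · show |(0:ℝ)| ≤ 2 * m
      rw [abs_zero]; linarith
    · show m + |(0:ℝ)| / 2 ≤ 10 / 7
      rw [abs_zero]; linarith
    · rw [kf_AC]
      show 0 ≤ 1 - 7 / 40 * (0:ℝ) ^ 2 + 1 / 125 * (0:ℝ) ^ 4 - m
      norm_num
      exact hm1.le
    · rw [kf_AC]
      show 0 < (0:ℝ) ^ 2 + (1 - 7 / 40 * (0:ℝ) ^ 2 + 1 / 125 * (0:ℝ) ^ 4 - m) + z.2.2
      norm_num
      linarith

/-! ### the certificate -/

theorem pmX_AC : PmX ACpm where
  sl := by
    intro η hη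
    have h0 := abs_nonneg η
    have e : dG ACpm η = -(η * (7 / 20 - 4 / 125 * η ^ 2)) := by
      simp only [dG, ACpm]; ring
    have hs : |η| ^ 2 = η ^ 2 := sq_abs η
    have hy : |η| ^ 2 ≤ (10 / 7) ^ 2 := pow_le_pow_left₀ h0 hη 2
    rw [e, abs_neg, abs_mul]
    have h2 : 0 ≤ 7 / 20 - 4 / 125 * η ^ 2 := by rw [← hs]; nlinarith
    rw [abs_of_nonneg h2, ← hs]
    nlinarith [mul_nonneg h0 h0]
  cr := by
    intro η hη
    have h0 := abs_nonneg η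
    have hs : |η| ^ 2 = η ^ 2 := sq_abs η
    have hs4 : |η| ^ 4 = η ^ 4 := by
      rw [show |η| ^ 4 = (|η| ^ 2) ^ 2 by ring, hs]; ring
    show 1 - 7 / 40 * η ^ 2 + 1 / 125 * η ^ 4 + |η| / 2 ≤ 10 / 7
    rw [← hs, ← hs4]
    obtain ⟨x, hx⟩ : ∃ x, x = |η| := ⟨_, rfl⟩
    rw [← hx] at hη h0 ⊢
    nlinarith [mul_nonneg h0 (sub_nonneg.2 hη), mul_nonneg (mul_nonneg h0 h0) (sub_nonneg.2 hη),
      mul_nonneg (mul_nonneg (mul_nonneg h0 h0) h0) (sub_nonneg.2 hη), sq_nonneg (x - 10 / 7)]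

/-- **the certificate of the contract AC\*, scaled unknowns.** -/
theorem certS_of {C : Crt} (hC : 1 ≤ C.c) {e1 e3 e : ℝ} {a : ℕ} (he1 : 0 < e1) (he3 : 0 < e3)
    (he : 0 < e) (hI : INT ACpm C e1 e3) (hV : CON C e a) :
    ∃ (c : ℝ) (N : ℕ), 0 < c ∧ CertS ACpm C.A C.B C.W c N := by
  have hg := ACpm.h1
  have hCc : (0:ℝ) ≤ C.c := Nat.cast_nonneg _
  obtain ⟨c, hc⟩ : ∃ c, c = min (ACpm.g1 * e1 / 1152) (min (e3 / 384) (e / (48 * (10 + C.c) ^ 3))) :=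
    ⟨_, rfl⟩
  have hc0 : 0 < c := by rw [hc]; positivity
  have hc1 : 1152 * c ≤ ACpm.g1 * e1 := by
    have : c ≤ ACpm.g1 * e1 / 1152 := by rw [hc]; exact min_le_left _ _
    linarith
  have hc3 : 384 * c ≤ e3 := by
    have : c ≤ e3 / 384 := by rw [hc]; exact (min_le_right _ _).trans (min_le_left _ _)
    linarith
  have hc4 : c * (48 * (10 + C.c) ^ 3) ≤ e := by
    have : c ≤ e / (48 * (10 + C.c) ^ 3) := by
      rw [hc]; exact (min_le_right _ _).trans (min_le_right _ _)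
    rwa [le_div_iff₀ (by positivity)] at this
  have hN : 1 ≤ a + 1 := by omega
  have f3 : ∀ z ∈ Reg ACpm, ∀ q, 0 ≤ q → q ^ 2 = z.2.2 → ∀ h k,
      c * o0 (a + 1) z + c * o2 (a + 1) z * k ^ 2 ≤
        F3 0 C.A C.B C.W z (X0 Fs z) (K0 Fs z) q h k :=
    fun z hz q hq0 hq h k => f3_of_INT hC he1 he3 hI hc0 hc1 hc3 hN hz hq0 hq h k
  have hQ : ∀ z ∈ Reg ACpm, ∀ q, 0 ≤ q → q ^ 2 = z.2.2 → ∀ h, 0 ≤ Qd C.B C.W z q h 0 := by
    intro z hz q hq0 hq h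
    have := Qd_ge (f3 z hz q hq0 hq) h 0
    simpa using this
  have hW : ∀ z ∈ Reg ACpm, 0 ≤ C.W z := fun z hz => W_nonneg hC hz hQ
  have hne : ∀ z ∈ Reg ACpm, kf ACpm z = 0 → 1 / 2 - dG ACpm z.1 ≠ 0 ∧ 1 / 2 + dG ACpm z.1 ≠ 0 := by
    intro z hz hk
    have := abs_le.1 (dG_le (wreg_of_reg hz) hk)
    exact ⟨by linarith, by linarith⟩
  have cd : Continuous (fun z : E3 => dG ACpm z.1) := continuous_dG
  have ce : Continuous (fun z : E3 => Ec ACpm z) := continuous_Ec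
  refine ⟨c, a + 1, hc0, ⟨hc0, fun z hz _ => hW z hz, ?_, ?_, ?_⟩⟩
  · intro z hz _ q hq0 hq
    refine ⟨f3 z hz q hq0 hq, ?_⟩
    intro ss sw ww hs hw hsw
    exact f2_of_f3 (hW z hz) (f3 z hz q hq0 hq) hs hw hsw
  · intro z hz _ hk hE q hq0 hq
    obtain ⟨n1, n2⟩ := hne z hz hk
    have cx : ContinuousAt (fun z : E3 => Ec ACpm z / (1 / 2 - dG ACpm z.1)) z :=
      ce.continuousAt.div (continuous_const.sub cd).continuousAt n1
    exact vtx_of_open (x := fun z => Ec ACpm z / (1 / 2 - dG ACpm z.1))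
      (y := fun z => Ec ACpm z / (1 / 2 - dG ACpm z.1) / 2) hC hc0 hc4 le_rfl hV.v1 cx
      (cx.div_const 2) hz hk hE hq0 hq
  · intro z hz _ hk hE q hq0 hq
    obtain ⟨n1, n2⟩ := hne z hz hk
    have cx : ContinuousAt (fun z : E3 => Ec ACpm z / (1 / 2 + dG ACpm z.1)) z :=
      ce.continuousAt.div (continuous_const.add cd).continuousAt n2
    exact vtx_of_open (x := fun z => -(Ec ACpm z / (1 / 2 + dG ACpm z.1)))
      (y := fun z => Ec ACpm z / (1 / 2 + dG ACpm z.1) / 2) hC hc0 hc4 le_rfl hV.v2 cx.neg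
      (cx.div_const 2) hz hk hE hq0 hq

end Crest.Agent.R249.StK_912
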