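import Crest.Agent.R249.Sym10_467
import Crest.Agent.R249.Cd2_133

/-!
# R249 (helper467), A2-ETA part 16: `SyAll` for the certificate `cert_709` (`Cd133.C709`)
-/

set_option autoImplicit false

noncomputable section

namespace Crest.Agent.R249.Sym467

open DivC467 Eta467 CovA621 Brg133
open Cd133 (C709 idcA idcA_sound)
open Ker254 (P3 ev1 ev2 ev3 Ex h3_eq)

/-- `nA` in the variables `(η², 1 - m, G)`. -/
def tA : P3 := [[[0,0,-20892,-324],[0,942400,173860,972],[16264000,-9111840,-618772,-972],[-208228800,37706720,1217180,324],[1236321600,-83700160,-1426980],[-4492817600,94403200,996412],[11111510400,-6484800,-383660],[-19678377600,-146601280,62852],[25572816000,236625280],[-24576508800,-197135040],[17363649600,96834400],[-8832990400,-26679200],[3103233600,3200320],[-695947200],[84627200],[-3552000]],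
  [[0,-126168,5428,-22],[-1302880,892640,-36764,22],[12203520,-2022200,92248],[-51490720,206392,-110440],[124988480,6342376,64052],[-179685120,-9818312,-14524],[121642240,2308840],[59541440,8278120],[-228401280,-9810032],[251631520,4548424],[-155546880,-800080],[56732640],[-11200960],[888000]],
  [[-6088,31542,-103],[437728,-221046,309],[-3597096,501796,-309],[15479640,-297260,103],[-43129464,-511970],[81522168,954818],[-104534808,-588184],[89118216,130304],[-48263520],[15018184],[-2044960]],
  [[1522],[-24958],[-11324],[377720],[-951750],[1044578],[-549072],[113284]]]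

/-- `nB` in the variables `(η², 1 - m, G)`. -/
def tB : P3 := [[[0,0,-173936,2704],[0,-6155520,1461152,-10816],[-3884800,74478720,-5271712,16224],[35059200,-406490880,10686496,-10816],[-141900800,1322737280,-13321600,2704],[349248000,-2854351360,10455776],[-623328000,4292368640,-5040992],[952857600,-4593057280,1362272],[-1366118400,3499086080,-157456],[1730073600,-1860686080],[-1732128000,658002560],[1271488000,-139313920],[-650572800,13381760],[218739200],[-43372800],[3840000]],
  [[0,468704,107528,-616],[-1920,-4623904,-691656,1232],[5651200,14430368,1831464,-616],[-21510400,-2963520,-2559856],[-103283200,-96342528,1994424],[973868800,299887296,-822024],[-3358434560,-479717376,140120],[6828160000,477833472],[-9157068800,-308579040],[8407811200,126575968],[-5293740800,-30169760],[2220468480,3200320],[-577523200],[79155200],[-3552000]],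
  [[-1440,-108184,-15804,88],[-748960,1772896,73204],[-4522080,-8287368,-122584],[62930240,18028096,88772],[-247347840,-19525800,-23588],[505775360,6776464],[-604367680,7453384],[413916480,-9894112],[-123559840,4584704],[-27825760,-800080],[34936480],[-10072960],[888000]],
  [[6808,-2248],[596080,-119064],[-1801784,629040],[-4133184,-1280560],[28398280,1291800],[-59514608,-649272],[65849400,130304],[-41543456],[14187424],[-2044960]],
  [[-1612],[-105224],[550300],[-1116720],[1124780],[-564808],[113284]]]

/-- `nW` in the variables `(η², 1 - m, G)`. -/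
def tW : P3 := [[[0,0,2320],[0,71040,-11600],[7129600,-410240,23200],[-88972800,752000,-23200],[517132800,342400,11600],[-1851609600,-3932800,-2320],[4551072000,8104320],[-8098387200,-9403520],[10719897600,7088000],[-10675353600,-3590400],[7989811200,1196800],[-4435072000,-239360],[1773657600,21760],[-483724800],[80620800],[-6201600]],
  [[0,-10032,-748],[-555520,71248,2244],[2710720,-309472,-2244],[5649600,935168,748],[-85166400,-1878752],[338782400,2485312],[-777085760,-2183648],[1182202560,1275072],[-1251342400,-481968],[931902400,107952],[-481078400,-10880],[164433280],[-33553280],[3100800]],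
  [[4944,5016,42],[233264,-34792,-42],[-1917456,109816],[6011664,-199080],[-8587296,221480],[1648416,-152936],[14339136,63672],[-25700544,-14536],[22603536,1360],[-11458704],[3210640],[-387600]],
  [[-2472,-627],[-17416,3135],[191128,-6270],[-642600,6270],[1128680,-3135],[-1163288,627],[711816],[-240568],[34720]],
  [[309],[-1545],[3090],[-3090],[1545],[-309]]]

/-- the tame part of `nB` near the corner. -/
def gB : P3 := [[[],[],[],[],[],[],[0,0,86144],[0,0,-102624],[0,200960,-157456],[0,-1061120],[-8806400,8745600],[19827200,-21267200],[-6688000,13381760],[-14720000],[14227200],[-3840000]],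
  [[],[],[],[],[0,0,-13896],[0,0,-18696],[0,183360,140120],[0,-1670400],[4297600,1018272],[-25929600,-895968],[97716480,5033760],[-171367680,-3200320],[128262400],[-29427200],[-3552000]],
  [[],[],[0,0,2204],[0,0,5580],[0,-17440,-23588],[0,346240],[-526400,-640408],[4692800,2019360],[-24328480,-2616016],[37113760,800080],[-17258080],[-583040],[888000]],
  [[],[],[],[],[],[0,-132552],[516440,130304],[1662624],[-4217216],[2044960]],
  [[],[],[],[],[],[-114896],[113284]]]

/-- the other part of `nB`. -/
def bB : P3 := [[[],[],[],[],[0,0,0,2704]],
  [[],[],[0,0,0,-616],[],[]],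
  [[0,0,0,88],[],[],[],[]]]

lemma shift_of {N N' : P3} (h : idcA (.pc N .vx (.sub (.cst 1) .vy) .vz) (.pc N' .vx .vy .vz) = true)
    (y m G : ℝ) : ev3 y m G N = ev3 y (1 - m) G N' := by
  have h1 := idcA_sound h y (1 - m) G
  simp only [Ex.ev, h3_eq] at h1
  have e : (((1 : ℤ) : ℝ)) - (1 - m) = m := by push_cast; ring
  rwa [e] at h1

lemma split_of (y m G : ℝ) : ev3 y m G Cd133.nB = ev3 y m G bB + ev3 y m G gB := by
  have h : idcA (.pc Cd133.nB .vx .vy .vz) (.add (.pc bB .vx .vy .vz) (.pc gB .vx .vy .vz)) = true := by
    decide +kernel
  have h1 := idcA_sound h y m G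
  simpa only [Ex.ev, h3_eq] using h1

lemma bB_nonneg {y m G : ℝ} (hG : 0 ≤ G) : 0 ≤ ev3 y m G bB := by
  have e : ev3 y m G bB = G ^ 3 * (88 * (y - 7 / 2 * m ^ 2) ^ 2 + 1626 * (m ^ 2) ^ 2) := by
    simp only [bB, ev3, ev2, ev1]; push_cast; ring
  rw [e]; positivity

/-- **the regularity hypothesis for the certificate.** -/
theorem syAll_709 : SyAll (rdC (C709.c : ℝ) (by norm_num [C709])) C709.A C709.B C709.W :=
  syAll_of (C := C709) (by norm_num [C709]) (nA' := tA) (nB' := tB) (nW' := tW) (good := gB)
    (shift_of (by decide +kernel)) (shift_of (by decide +kernel)) (shift_of (by decide +kernel))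
    (by decide +kernel) (by decide +kernel) (by decide +kernel) (by decide +kernel)
    (fun y m G _ _ _ hG => by
      have h1 := split_of y m G
      have h2 := bB_nonneg (y := y) (m := m) hG
      show _ ≤ ev3 y m G Cd133.nB
      linarith)

end Crest.Agent.R249.Sym467
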