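import Crest.Agent.R249.Sym9_467
import Crest.Agent.R249.Sym11_467
import Crest.Agent.R249.StKc_912
import Crest.Agent.R249.Cd9_133

/-!
# R249 (helper467), A2-ETA part 17: part A from the seven PSD statements and the contact family
-/

set_option autoImplicit false

namespace Crest.Agent.R249.Sym467

/-- **part A from the exact checks.** -/
theorem st_of_psd.{u} (hP : Cd133.PsdAll) {e : ℝ} {a : ℕ} (he : 0 < e)
    (hV : StK_912.CON Cd133.C709 e a) : Crest.Agent.R249.Top49.ST.{u} := by
  obtain ⟨c, N, hc, hS⟩ := StK_912.certS_of (C := Cd133.C709) (by norm_num [Cd133.C709])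
    (by norm_num) (by norm_num) he (Cd133.int_of_psd hP) hV
  exact st_of_certS syAll_709 hS

end Crest.Agent.R249.Sym467
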