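import Crest.Agent.R249.PxAll_324
import Crest.Agent.R249.Sym12_467
import Crest.Agent.R249.PxCon_324

/-!
# Row 249, part A (helper324): `ST` with the small-memory contact certificate
-/

set_option autoImplicit false

namespace Crest.Agent.R249.StC324

/-- **part A of row 249.** -/
theorem st : Crest.Agent.R249.Top49.ST.{0} :=
  Crest.Agent.R249.Sym467.st_of_psd Crest.Agent.R249.Px324.psdAll (by norm_num)
    Crest.Agent.R249.PxC324.con1

end Crest.Agent.R249.StC324
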