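import Crest.Agent.R249.Top1_49
import Crest.Agent.R247.Ms11_322
import Crest.Agent.R247.Bs2_84
import Crest.Agent.R247.Bs6_342

/-!
Row 249 (helper912), leaf A2-FIN, file 1: Green's formula, the integrated Bochner inequality and the
Lichnerowicz-Poincare inequality on a closed manifold (template classes), the Poisson equation being
an input (`PoissonStmt`, provided by helper324).
-/

set_option autoImplicit false
set_option maxSynthPendingDepth 3
set_option linter.unusedSectionVars false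
set_option linter.unusedVariables false

open Bundle Bornology Set MeasureTheory Manifold Filter Metric
open scoped ENNReal ContDiff Topology NNReal
open Crest.GeometryTopology.CoordMetric Crest.GeometryTopology.ChartCurvature
  Crest.GeometryTopology.PointedLimit
open Crest.Agent.R247.Bo84 Crest.Agent.R247.Bs84

noncomputable section

namespace Crest.Agent.R249.StF_912

section Gen

variable (n : ℕ) (M : Type*) [MetricSpace M] [ChartedSpace (EuclideanSpace ℝ (Fin n)) M]
  [IsManifold (𝓡 n) ∞ M]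
  [RiemannianBundle (fun p : M => TangentSpace (𝓡 n) p)]
  [IsContMDiffRiemannianBundle (𝓡 n) ∞ (EuclideanSpace ℝ (Fin n)) (fun p : M => TangentSpace (𝓡 n) p)]
  [IsRiemannianManifold (𝓡 n) M] [CompactSpace M] [Nonempty M] [MeasurableSpace M] [BorelSpace M]

/-- solvability of the Poisson equation (helper324). -/
def PoissonStmt : Prop :=
  ∀ g : M → ℝ, ContMDiff (𝓡 n) 𝓘(ℝ, ℝ) ∞ g → ∫ z, g z ∂(μHE[n] : Measure M) = 0 →
    ∃ u : M → ℝ, ContMDiff (𝓡 n) 𝓘(ℝ, ℝ) ∞ u ∧ ∀ p, mLap n u p = g p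

variable {n M}

local notation "μ" => (μHE[n] : Measure M)

theorem finMeas : IsFiniteMeasure μ := by
  have := Crest.Agent.R247.Ms322.isLocallyFiniteMeasure n M
  exact ⟨isCompact_univ.measure_lt_top⟩

theorem integrable_of_continuous {f : M → ℝ} (hf : Continuous f) : Integrable f μ := by
  have := Crest.Agent.R247.Ms322.isLocallyFiniteMeasure n M
  exact hf.integrable_of_hasCompactSupport (HasCompactSupport.of_compactSpace f)

theorem locLip {f : M → ℝ} (hf : ContMDiff (𝓡 n) 𝓘(ℝ, ℝ) ∞ f) : LocallyLipschitz f := by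
  have h := Crest.Agent.R247.Ms322.LLo.of_contMDiffAt (n := n) (U := univ) (f := f)
    (fun z _ => (hf z).of_le (by simp))
  intro z
  exact h z (mem_univ z)

/-- Green's formula. -/
theorem green {f φ : M → ℝ} (hf : ContMDiff (𝓡 n) 𝓘(ℝ, ℝ) ∞ f)
    (hφ : ContMDiff (𝓡 n) 𝓘(ℝ, ℝ) ∞ φ) :
    ∫ z, φ z * mLap n f z ∂μ = - ∫ z, mGam n f φ z ∂μ := by
  have h := Crest.Agent.R247.Ms322.ibp_mLap (n := n) (M := M) isOpen_univ
    (fun z _ => (hf z).of_le two_le_infty) (locLip hφ)
    (HasCompactSupport.of_compactSpace φ) (subset_univ _)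
  have h2 : ∀ z, inner ℝ (Crest.Agent.R247.Ms322.Gr (n := n) f z)
      (Crest.Agent.R247.Ms322.Gr (n := n) φ z) = mGam n f φ z :=
    fun z => Crest.Agent.R247.Ms322.inner_Gr_eq_mGam f φ z
  simp only [h2] at h
  rw [h, neg_neg]

theorem int_mLap {f : M → ℝ} (hf : ContMDiff (𝓡 n) 𝓘(ℝ, ℝ) ∞ f) :
    ∫ z, mLap n f z ∂μ = 0 := by
  have h := green (n := n) (M := M) hf (contMDiff_const (c := (1:ℝ)))
  have h2 : ∀ z, mGam n f (fun _ : M => (1:ℝ)) z = 0 := fun z => mGam_const_right 1
  simp only [h2, one_mul, integral_zero, neg_zero] at h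
  exact h

theorem contG {f h : M → ℝ} (hf : ContMDiff (𝓡 n) 𝓘(ℝ, ℝ) ∞ f)
    (hh : ContMDiff (𝓡 n) 𝓘(ℝ, ℝ) ∞ h) : Continuous (mGam n f h) :=
  (contMDiff_mGam hf hh).continuous

theorem contL {f : M → ℝ} (hf : ContMDiff (𝓡 n) 𝓘(ℝ, ℝ) ∞ f) : Continuous (mLap n f) :=
  (contMDiff_mLap hf).continuous

/-- integrated Bochner inequality, Lichnerowicz form. -/
theorem lich {K : ℝ} (hK : HasRicciLowerBound n M K) (hn : 0 < n) {f : M → ℝ}
    (hf : ContMDiff (𝓡 n) 𝓘(ℝ, ℝ) ∞ f) :
    K * ∫ z, mGam n f f z ∂μ ≤ (1 - 1 / n) * ∫ z, mLap n f z ^ 2 ∂μ := by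
  have hn' : (0:ℝ) < n := by exact_mod_cast hn
  have hpt : ∀ p, (1 / n) * mLap n f p ^ 2 + mGam n f (mLap n f) p + K * mGam n f f p ≤
      (1 / 2) * mLap n (mGam n f f) p := by
    intro p
    have h1 := mBochner_ineq hK ((hf p).of_le three_le_infty)
    have h2 := mLap_sq_le (n := n) ((hf p).of_le two_le_infty)
    have h3 : (1 / n) * mLap n f p ^ 2 ≤ mHessSq n f p := by
      rw [div_mul_eq_mul_div, one_mul, div_le_iff₀ hn']
      linarith
    linarith
  have cL := contL hf
  have cG := contG hf hf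
  have cGL := contG hf (contMDiff_mLap hf)
  have cLG := contL (contMDiff_mGam hf hf)
  have h4 : ∫ p, ((1 / n) * mLap n f p ^ 2 + mGam n f (mLap n f) p + K * mGam n f f p) ∂μ ≤
      ∫ p, (1 / 2) * mLap n (mGam n f f) p ∂μ := integral_mono
    (((integrable_of_continuous (n := n) (continuous_const.mul (cL.pow 2))).add
      (integrable_of_continuous (n := n) cGL)).add
      (integrable_of_continuous (n := n) (continuous_const.mul cG)))
    (integrable_of_continuous (n := n) (continuous_const.mul cLG)) hpt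
  have e1 : ∫ p, ((1 / n) * mLap n f p ^ 2 + mGam n f (mLap n f) p + K * mGam n f f p) ∂μ =
      (1 / n) * ∫ z, mLap n f z ^ 2 ∂μ + ∫ z, mGam n f (mLap n f) z ∂μ + K * ∫ z, mGam n f f z ∂μ := by
    rw [integral_add, integral_add, integral_const_mul, integral_const_mul]
    · exact integrable_of_continuous (n := n) (continuous_const.mul (cL.pow 2))
    · exact integrable_of_continuous (n := n) cGL
    · exact (integrable_of_continuous (n := n) (continuous_const.mul (cL.pow 2))).add
        (integrable_of_continuous (n := n) cGL)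
    · exact integrable_of_continuous (n := n) (continuous_const.mul cG)
  have e2 : ∫ p, (1 / 2 : ℝ) * mLap n (mGam n f f) p ∂μ = 0 := by
    rw [integral_const_mul, int_mLap (contMDiff_mGam hf hf), mul_zero]
  have e3 : ∫ z, mGam n f (mLap n f) z ∂μ = - ∫ z, mLap n f z ^ 2 ∂μ := by
    have h5 := green (n := n) (M := M) hf (contMDiff_mLap hf)
    have h6 : ∀ z, mLap n f z * mLap n f z = mLap n f z ^ 2 := fun z => by ring
    simp only [h6] at h5
    linarith
  rw [e1, e2, e3] at h4
  linarith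

/-- Lichnerowicz-Poincare inequality. -/
theorem poincare {K : ℝ} (hK : HasRicciLowerBound n M K) (hn : 0 < n) (hK0 : 0 < K)
    (hP : PoissonStmt n M) {F : M → ℝ} (hF : ContMDiff (𝓡 n) 𝓘(ℝ, ℝ) ∞ F)
    (h0 : ∫ z, F z ∂μ = 0) :
    K * ∫ z, F z ^ 2 ∂μ ≤ (1 - 1 / n) * ∫ z, mGam n F F z ∂μ := by
  obtain ⟨u, hu, hux⟩ := hP F hF h0
  have hn' : (1:ℝ) ≤ n := by exact_mod_cast hn
  have hn0 : (0:ℝ) < n := by linarith
  have hc : 0 ≤ 1 - 1 / (n:ℝ) := by
    rw [sub_nonneg, div_le_iff₀ hn0]; linarith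
  have e1 : ∫ z, F z ^ 2 ∂μ = - ∫ z, mGam n u F z ∂μ := by
    rw [← green hu hF]
    refine integral_congr_ae (Eventually.of_forall fun z => ?_)
    simp only [hux z]; ring
  have e2 := lich (n := n) (M := M) hK hn hu
  have e3 : ∫ z, mLap n u z ^ 2 ∂μ = ∫ z, F z ^ 2 ∂μ := by simp only [hux]
  rw [e3] at e2
  set c : ℝ := 1 - 1 / (n:ℝ) with hcdef
  -- pointwise: -2 K <du,dF> ≤ K^2 /t |du|^2 + t |dF|^2 with t = c
  have cG := contG hF hF
  have cu := contG hu hu
  have cuF := contG hu hF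
  rcases eq_or_lt_of_le hc with h0' | hpos
  · -- c = 0 : |du|² = 0, hence F = 0
    have h1 : ∫ z, mGam n u u z ∂μ ≤ 0 := by
      rw [← h0', zero_mul] at e2
      by_contra hcon
      rw [not_le] at hcon
      have := mul_pos hK0 hcon
      linarith
    have hnn : 0 ≤ ∫ z, mGam n u u z ∂μ := integral_nonneg fun z => mGam_self_nonneg u z
    have h2 : ∫ z, mGam n u u z ∂μ = 0 := le_antisymm h1 hnn
    have h3 : mGam n u u =ᵐ[μ] 0 :=
      (integral_eq_zero_iff_of_nonneg (fun z => mGam_self_nonneg u z)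
        (integrable_of_continuous (n := n) cu)).1 h2
    have h4 : ∫ z, mGam n u F z ∂μ = 0 := by
      rw [show (0:ℝ) = ∫ z, (0:ℝ) ∂μ by simp]
      refine integral_congr_ae ?_
      filter_upwards [h3] with z hz
      have := mGam_sq_le (n := n) u F z
      rw [hz] at this
      simp only [Pi.zero_apply, zero_mul] at this
      exact pow_eq_zero_iff (two_ne_zero) |>.1 (le_antisymm this (sq_nonneg _))
    rw [e1, h4, ← h0']
    simp
  · have hpt : ∀ z, -(2 * (K * c)) * mGam n u F z ≤ K ^ 2 * mGam n u u z + c ^ 2 * mGam n F F z := by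
      intro z
      have h1 := mGam_sq_le (n := n) u F z
      have h2 := mGam_self_nonneg (n := n) u z
      have h3 := mGam_self_nonneg (n := n) F z
      set a := mGam n u u z
      set b := mGam n F F z
      set m := mGam n u F z
      by_contra hcon
      rw [not_le] at hcon
      have hA : 0 ≤ K ^ 2 * a + c ^ 2 * b := by positivity
      have h4 : (K ^ 2 * a + c ^ 2 * b) ^ 2 < (-(2 * (K * c)) * m) ^ 2 := by
        apply pow_lt_pow_left₀ hcon hA two_ne_zero
      nlinarith [sq_nonneg (K ^ 2 * a - c ^ 2 * b), mul_nonneg (sq_nonneg (K * c)) (sub_nonneg.2 h1)]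
    have h5 : ∫ z, -(2 * (K * c)) * mGam n u F z ∂μ ≤
        ∫ z, (K ^ 2 * mGam n u u z + c ^ 2 * mGam n F F z) ∂μ := integral_mono
      (integrable_of_continuous (n := n) (continuous_const.mul cuF))
      ((integrable_of_continuous (n := n) (continuous_const.mul cu)).add
        (integrable_of_continuous (n := n) (continuous_const.mul cG))) hpt
    have e5 : ∫ z, -(2 * (K * c)) * mGam n u F z ∂μ = 2 * (K * c) * ∫ z, F z ^ 2 ∂μ := by
      rw [integral_const_mul, e1]; ring
    have e6 : ∫ z, (K ^ 2 * mGam n u u z + c ^ 2 * mGam n F F z) ∂μ =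
        K ^ 2 * ∫ z, mGam n u u z ∂μ + c ^ 2 * ∫ z, mGam n F F z ∂μ := by
      rw [integral_add, integral_const_mul, integral_const_mul]
      · exact integrable_of_continuous (n := n) (continuous_const.mul cu)
      · exact integrable_of_continuous (n := n) (continuous_const.mul cG)
    have h6 : 2 * (K * c) * ∫ z, F z ^ 2 ∂μ ≤
        K ^ 2 * ∫ z, mGam n u u z ∂μ + c ^ 2 * ∫ z, mGam n F F z ∂μ := by
      rw [← e5, ← e6]; exact h5
    have h7 : K ^ 2 * ∫ z, mGam n u u z ∂μ ≤ K * (c * ∫ z, F z ^ 2 ∂μ) := by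
      calc K ^ 2 * ∫ z, mGam n u u z ∂μ = K * (K * ∫ z, mGam n u u z ∂μ) := by ring
        _ ≤ _ := mul_le_mul_of_nonneg_left e2 hK0.le
    have h8 : c * (K * ∫ z, F z ^ 2 ∂μ) ≤ c * (c * ∫ z, mGam n F F z ∂μ) := by nlinarith
    exact le_of_mul_le_mul_left h8 hpos

end Gen

end Crest.Agent.R249.StF_912

end
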