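import Crest.Agent.R249.StFa_912

/-!
Row 249 (helper912), leaf A2-FIN, file 2:
* `const_of_le` : a solution of `STHyp` with `√f ≤ k0` is `0` or `k0²`;
* `disjoint` : two solutions with `f₁ f₂ = 0` : one of them vanishes identically.
-/

set_option autoImplicit false
set_option maxSynthPendingDepth 3
set_option linter.unusedSectionVars false
set_option linter.unusedVariables false

open Bundle Bornology Set MeasureTheory Manifold Filter Metric
open scoped ENNReal ContDiff Topology NNReal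
open Crest.GeometryTopology.CoordMetric Crest.GeometryTopology.ChartCurvature
  Crest.GeometryTopology.PointedLimit
open Crest.Agent.R247.Bo84 Crest.Agent.R247.Bs84
open Crest.Agent.R249.Top49

noncomputable section

namespace Crest.Agent.R249.StF_912

/-- `k0 = lam √(2/3)` -/
def k0 (lam : ℝ) : ℝ := lam * Real.sqrt (2 / 3)

theorem k0_pos {lam : ℝ} (h : 0 < lam) : 0 < k0 lam := by unfold k0; positivity

theorem k0_sq (lam : ℝ) : k0 lam ^ 2 = 2 / 3 * lam ^ 2 := by
  unfold k0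
  rw [mul_pow, Real.sq_sqrt (by norm_num)]; ring

theorem sqrt6_k0 (lam : ℝ) : Real.sqrt 6 * k0 lam = 2 * lam := by
  unfold k0
  have h : Real.sqrt 6 * Real.sqrt (2 / 3) = 2 := by
    rw [← Real.sqrt_mul (by norm_num)]
    rw [show (6:ℝ) * (2 / 3) = 2 ^ 2 by norm_num]
    exact Real.sqrt_sq (by norm_num)
  calc Real.sqrt 6 * (lam * Real.sqrt (2 / 3)) = lam * (Real.sqrt 6 * Real.sqrt (2 / 3)) := by ring
    _ = 2 * lam := by rw [h]; ring

/-! ### the one variable function -/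

/-- `G δ s = (s + δ)^{1/6} - δ^{1/6}` -/
def G (δ s : ℝ) : ℝ := (s + δ) ^ (1 / 6 : ℝ) - δ ^ (1 / 6 : ℝ)

def G1 (δ s : ℝ) : ℝ := (1 / 6) * (s + δ) ^ (-(5 / 6) : ℝ)

theorem G_nonneg {δ s : ℝ} (hδ : 0 < δ) (hs : 0 ≤ s) : 0 ≤ G δ s := by
  unfold G
  rw [sub_nonneg]
  exact Real.rpow_le_rpow hδ.le (by linarith) (by norm_num)

theorem G_zero (δ : ℝ) : G δ 0 = 0 := by simp [G]

theorem hasDerivAt_G {δ s : ℝ} (hs : 0 < s + δ) : HasDerivAt (G δ) (G1 δ s) s := by
  have h1 : HasDerivAt (fun s : ℝ => s + δ) 1 s := (hasDerivAt_id s).add_const δ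
  have h2 := (h1.rpow_const (p := (1 / 6 : ℝ)) (Or.inl hs.ne')).sub_const (δ ^ (1 / 6 : ℝ))
  have e : (1:ℝ) * (1 / 6 : ℝ) * (s + δ) ^ ((1 / 6 : ℝ) - 1) = G1 δ s := by
    rw [G1, show ((1:ℝ) / 6 - 1) = -(5 / 6) by norm_num]; ring
  rw [e] at h2
  exact h2

theorem hasDerivAt_G1 {δ s : ℝ} (hs : 0 < s + δ) :
    HasDerivAt (G1 δ) (-(5 / 6) * (G1 δ s / (s + δ))) s := by
  have h1 : HasDerivAt (fun s : ℝ => s + δ) 1 s := (hasDerivAt_id s).add_const δ
  have h2 := (h1.rpow_const (p := (-(5 / 6) : ℝ)) (Or.inl hs.ne')).const_mul (1 / 6 : ℝ)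
  have e : (1 / 6 : ℝ) * (1 * -(5 / 6 : ℝ) * (s + δ) ^ ((-(5 / 6) : ℝ) - 1)) =
      -(5 / 6) * (G1 δ s / (s + δ)) := by
    rw [G1, Real.rpow_sub_one hs.ne']; ring
  rw [e] at h2
  exact h2

theorem G1_pos {δ s : ℝ} (hs : 0 < s + δ) : 0 < G1 δ s := by
  unfold G1; positivity

theorem deriv_G {δ s : ℝ} (hs : 0 < s + δ) : deriv (G δ) s = G1 δ s := (hasDerivAt_G hs).deriv

theorem deriv2_G {δ s : ℝ} (hs : 0 < s + δ) :
    deriv (deriv (G δ)) s = -(5 / 6) * (G1 δ s / (s + δ)) := by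
  have h : deriv (G δ) =ᶠ[𝓝 s] G1 δ := by
    have : ∀ᶠ t in 𝓝 s, 0 < t + δ :=
      (continuousAt_id.add continuousAt_const).eventually (lt_mem_nhds hs)
    filter_upwards [this] with t ht using deriv_G ht
  rw [h.deriv_eq]
  exact (hasDerivAt_G1 hs).deriv

theorem contDiffAt_G {δ s : ℝ} (hs : 0 < s + δ) {k : WithTop ℕ∞} : ContDiffAt ℝ k (G δ) s := by
  unfold G
  exact ((contDiffAt_id.add contDiffAt_const).rpow_const_of_ne hs.ne').sub contDiffAt_const

theorem G1_mul_le {δ s : ℝ} (hδ : 0 < δ) (hs : 0 ≤ s) :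
    G1 δ s * s ≤ (1 / 6) * (G δ s + δ ^ (1 / 6 : ℝ)) := by
  have h0 : 0 < s + δ := by linarith
  have e : (s + δ) ^ (-(5 / 6) : ℝ) * (s + δ) = (s + δ) ^ (1 / 6 : ℝ) := by
    nth_rewrite 2 [← Real.rpow_one (s + δ)]
    rw [← Real.rpow_add h0]; norm_num
  have h1 : G1 δ s * s ≤ G1 δ s * (s + δ) :=
    mul_le_mul_of_nonneg_left (by linarith) (G1_pos h0).le
  refine h1.trans (le_of_eq ?_)
  rw [G1, mul_assoc, e, G]; ring

theorem G_le {δ s : ℝ} (hδ : 0 < δ) (hs : 0 ≤ s) : G δ s ≤ s ^ (1 / 6 : ℝ) := by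
  unfold G
  have := Real.rpow_add_le_add_rpow hs hδ.le (p := (1 / 6 : ℝ)) (by norm_num) (by norm_num)
  linarith

theorem le_G {δ s : ℝ} (hδ : 0 < δ) (hs : 0 ≤ s) : s ^ (1 / 6 : ℝ) - δ ^ (1 / 6 : ℝ) ≤ G δ s := by
  unfold G
  have : s ^ (1 / 6 : ℝ) ≤ (s + δ) ^ (1 / 6 : ℝ) :=
    Real.rpow_le_rpow hs (by linarith) (by norm_num)
  linarith

section Four

variable {M : Type*} [MetricSpace M] [ChartedSpace (EuclideanSpace ℝ (Fin 4)) M]
  [IsManifold (𝓡 4) ∞ M]
  [RiemannianBundle (fun p : M => TangentSpace (𝓡 4) p)]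
  [IsContMDiffRiemannianBundle (𝓡 4) ∞ (EuclideanSpace ℝ (Fin 4)) (fun p : M => TangentSpace (𝓡 4) p)]
  [IsRiemannianManifold (𝓡 4) M]

/-- the gradient vanishes at a zero of a nonnegative function -/
theorem mGam_zero_of_min {f : M → ℝ} {x : M} (hf : ContMDiffAt (𝓡 4) 𝓘(ℝ, ℝ) 1 f x)
    (hmin : IsLocalMin f x) (h : M → ℝ) : mGam 4 f h x = 0 := by
  have hc : chartCentre 4 M x ∈ (chartAt (EuclideanSpace ℝ (Fin 4)) x).target :=
    mem_chart_target _ x
  have h2 : IsLocalMin (inCh 4 x f) (chartCentre 4 M x) := by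
    have h3 : Tendsto (chartAt (EuclideanSpace ℝ (Fin 4)) x).symm (𝓝 (chartCentre 4 M x)) (𝓝 x) := by
      have := (chartAt (EuclideanSpace ℝ (Fin 4)) x).continuousAt_symm hc
      have e : (chartAt (EuclideanSpace ℝ (Fin 4)) x).symm (chartCentre 4 M x) = x :=
        (chartAt _ x).left_inv (mem_chart_source _ x)
      rwa [ContinuousAt, e] at this
    have h4 := h3.eventually hmin
    filter_upwards [h4] with a ha
    have e : inCh 4 x f (chartCentre 4 M x) = f x := inCh_centre f x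
    rw [e]
    exact ha
  rw [mGam, gam_eq_fderiv_grad, h2.fderiv_eq_zero]
  simp

theorem STHyp.isMin {lam : ℝ} {f : M → ℝ} (h : STHyp M lam f) {x : M} (hx : f x = 0) :
    IsLocalMin f x := by
  have : IsMinOn f univ x := fun y _ => by simp only [mem_setOf_eq, hx]; exact h.nonneg y
  exact this.isLocalMin univ_mem

theorem STHyp.lap_zero {lam : ℝ} {f : M → ℝ} (h : STHyp M lam f) {x : M} (hx : f x = 0) :
    0 ≤ mLap 4 f x :=
  Crest.Agent.R247.Bs342.mLap_nonneg_of_min ((h.smooth x).of_le two_le_infty) (STHyp.isMin h hx)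

theorem STHyp.gam_zero {lam : ℝ} {f : M → ℝ} (h : STHyp M lam f) {x : M} (hx : f x = 0)
    (k : M → ℝ) : mGam 4 f k x = 0 :=
  mGam_zero_of_min ((h.smooth x).of_le (by simp)) (STHyp.isMin h hx) k

/-- the pointwise inequality, solved -/
theorem STHyp.lap_ge {lam : ℝ} {f : M → ℝ} (h : STHyp M lam f) {x : M} (hx : 0 < f x) :
    (5 / 6) * (mGam 4 f f x / f x) + 2 * Real.sqrt 6 * f x * (k0 lam - Real.sqrt (f x)) ≤
      mLap 4 f x := by
  have h1 := h.ineq x hx
  have h2 := sqrt6_k0 lam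
  have h3 : 2 * Real.sqrt 6 * f x * (k0 lam - Real.sqrt (f x)) =
      4 * lam * f x - 2 * Real.sqrt 6 * (f x * Real.sqrt (f x)) := by
    calc 2 * Real.sqrt 6 * f x * (k0 lam - Real.sqrt (f x)) =
        2 * f x * (Real.sqrt 6 * k0 lam) - 2 * Real.sqrt 6 * (f x * Real.sqrt (f x)) := by ring
      _ = _ := by rw [h2]; ring
  rw [h3]; linarith

variable [CompactSpace M] [ConnectedSpace M] [MeasurableSpace M]
  [BorelSpace M]

local notation "μ" => (μHE[4] : Measure M)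

/-- Lemma E. -/
theorem const_of_le {lam : ℝ} (hlam : 0 < lam) {f : M → ℝ} (h : STHyp M lam f)
    (hle : ∀ x, Real.sqrt (f x) ≤ k0 lam) :
    (∀ x, f x = 0) ∨ (∀ x, f x = 2 / 3 * lam ^ 2) := by
  have : (μ).IsOpenPosMeasure := Crest.Agent.R247.Ms322.isOpenPosMeasure 4 M
  have hnn : ∀ x, 0 ≤ mLap 4 f x := by
    intro x
    rcases eq_or_lt_of_le (h.nonneg x) with h0 | h0
    · exact STHyp.lap_zero h h0.symm
    · refine le_trans ?_ (STHyp.lap_ge h h0)
      have h1 : 0 ≤ mGam 4 f f x / f x := div_nonneg (mGam_self_nonneg f x) h0.le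
      have h2 : 0 ≤ k0 lam - Real.sqrt (f x) := sub_nonneg.2 (hle x)
      positivity
  have hc : Continuous (mLap 4 f) := contL (n := 4) h.smooth
  have h0 : ∫ x, mLap 4 f x ∂μ = 0 := int_mLap (n := 4) h.smooth
  have h1 : mLap 4 f =ᵐ[μ] 0 :=
    (integral_eq_zero_iff_of_nonneg hnn (integrable_of_continuous (n := 4) hc)).1 h0
  have h2 : mLap 4 f = 0 := (Continuous.ae_eq_iff_eq μ hc continuous_zero).1 h1
  have h3 : ∀ x, 0 < f x → f x = 2 / 3 * lam ^ 2 := by
    intro x hx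
    have h4 := STHyp.lap_ge h hx
    rw [h2] at h4
    have h5 : 0 ≤ mGam 4 f f x / f x := div_nonneg (mGam_self_nonneg f x) hx.le
    have h6 : 2 * Real.sqrt 6 * f x * (k0 lam - Real.sqrt (f x)) ≤ 0 := by
      simp only [Pi.zero_apply] at h4; linarith
    have h7 : 0 < 2 * Real.sqrt 6 * f x := by positivity
    have h8 : k0 lam - Real.sqrt (f x) ≤ 0 := by
      by_contra hcon
      rw [not_le] at hcon
      have := mul_pos h7 hcon
      linarith
    have h9 : Real.sqrt (f x) = k0 lam := le_antisymm (hle x) (by linarith)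
    rw [← k0_sq, ← h9, Real.sq_sqrt hx.le]
  have hfc : Continuous f := h.smooth.continuous
  have hcl : IsClopen {x | f x = 0} := by
    refine ⟨isClosed_eq hfc continuous_const, ?_⟩
    have e : {x | f x = 0} = {x | f x = 2 / 3 * lam ^ 2}ᶜ := by
      ext x
      simp only [mem_setOf_eq, mem_compl_iff]
      constructor
      · intro h0 h1
        rw [h0] at h1
        have : 0 < 2 / 3 * lam ^ 2 := by positivity
        linarith
      · intro h0
        by_contra h1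
        exact h0 (h3 x (lt_of_le_of_ne (h.nonneg x) (Ne.symm h1)))
    rw [e]
    exact (isClosed_eq hfc continuous_const).isOpen_compl
  rcases isClopen_iff.1 hcl with h4 | h4
  · right
    intro x
    have : x ∉ {x | f x = 0} := by rw [h4]; exact notMem_empty x
    exact h3 x (lt_of_le_of_ne (h.nonneg x) (Ne.symm this))
  · left
    intro x
    have : x ∈ {x | f x = 0} := by rw [h4]; exact mem_univ x
    exact this

/-! ### disjoint supports -/

variable {lam δ : ℝ} {f : M → ℝ}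

theorem smooth_G (hδ : 0 < δ) (h : STHyp M lam f) :
    ContMDiff (𝓡 4) 𝓘(ℝ, ℝ) ∞ (fun x => G δ (f x)) := by
  intro x
  have h0 : 0 < f x + δ := by linarith [h.nonneg x]
  exact (contDiffAt_G h0).contMDiffAt.comp x (h.smooth x)

theorem lap_G (hδ : 0 < δ) (hlam : 0 < lam) (h : STHyp M lam f)
    (hle : ∀ x, Real.sqrt (f x) ≤ 2 * k0 lam) (x : M) :
    -(4 * lam) * (G1 δ (f x) * f x) ≤ mLap 4 (fun x => G δ (f x)) x := by
  have h0 : 0 < f x + δ := by linarith [h.nonneg x]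
  rw [mLap_comp (contDiffAt_G h0) ((h.smooth x).of_le two_le_infty), deriv_G h0, deriv2_G h0]
  have hG := G1_pos h0
  rcases eq_or_lt_of_le (h.nonneg x) with h1 | h1
  · have h1' : f x = 0 := h1.symm
    have h2 : 0 ≤ G1 δ (f x) * mLap 4 f x := mul_nonneg hG.le (STHyp.lap_zero h h1')
    have h3 : -(4 * lam) * (G1 δ (f x) * f x) = 0 := by rw [h1']; ring
    rw [STHyp.gam_zero h h1', h3, mul_zero, add_zero]
    exact h2
  · have h2 := STHyp.lap_ge h h1
    have h3 : 0 ≤ mGam 4 f f x := mGam_self_nonneg f x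
    have h4 : mGam 4 f f x / (f x + δ) ≤ mGam 4 f f x / f x :=
      div_le_div_of_nonneg_left h3 h1 (by linarith)
    have h5 : -(4 * lam) * f x ≤ 2 * Real.sqrt 6 * f x * (k0 lam - Real.sqrt (f x)) := by
      have h6 := sqrt6_k0 lam
      have h7 : 0 ≤ 2 * Real.sqrt 6 * f x := by positivity
      have h8 := mul_le_mul_of_nonneg_left (hle x) h7
      have h9 : 2 * Real.sqrt 6 * f x * (2 * k0 lam) = 8 * lam * f x := by
        calc 2 * Real.sqrt 6 * f x * (2 * k0 lam) = 4 * f x * (Real.sqrt 6 * k0 lam) := by ring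
          _ = _ := by rw [h6]; ring
      have h10 : 2 * Real.sqrt 6 * f x * k0 lam = 4 * lam * f x := by
        calc 2 * Real.sqrt 6 * f x * k0 lam = 2 * f x * (Real.sqrt 6 * k0 lam) := by ring
          _ = _ := by rw [h6]; ring
      rw [mul_sub]
      rw [h9] at h8
      rw [h10]
      linarith
    have h6 : G1 δ (f x) * ((5 / 6) * (mGam 4 f f x / (f x + δ)) + -(4 * lam) * f x) ≤
        G1 δ (f x) * mLap 4 f x := by
      apply mul_le_mul_of_nonneg_left _ hG.le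
      linarith
    calc -(4 * lam) * (G1 δ (f x) * f x) =
        G1 δ (f x) * ((5 / 6) * (mGam 4 f f x / (f x + δ)) + -(4 * lam) * f x) +
          -(5 / 6) * (G1 δ (f x) / (f x + δ)) * mGam 4 f f x := by ring
      _ ≤ _ := by linarith

/-- the Rayleigh quotient. -/
theorem rayleigh (hδ : 0 < δ) (hlam : 0 < lam) (h : STHyp M lam f)
    (hle : ∀ x, Real.sqrt (f x) ≤ 2 * k0 lam) :
    ∫ x, mGam 4 (fun x => G δ (f x)) (fun x => G δ (f x)) x ∂μ ≤
      (2 / 3) * lam * (∫ x, G δ (f x) ^ 2 ∂μ + δ ^ (1 / 6 : ℝ) * ∫ x, G δ (f x) ∂μ) := by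
  have hs := smooth_G hδ h
  have hc := hs.continuous
  have h1 := green (n := 4) hs hs
  have h2 : ∀ x, -(G δ (f x) * mLap 4 (fun x => G δ (f x)) x) ≤
      (2 / 3) * lam * (G δ (f x) ^ 2 + δ ^ (1 / 6 : ℝ) * G δ (f x)) := by
    intro x
    have h3 := lap_G hδ hlam h hle x
    have h4 := G1_mul_le hδ (h.nonneg x)
    have h5 := G_nonneg hδ (h.nonneg x)
    have h6 : -mLap 4 (fun x => G δ (f x)) x ≤ 4 * lam * ((1 / 6) * (G δ (f x) + δ ^ (1 / 6 : ℝ))) := by
      have : 4 * lam * (G1 δ (f x) * f x) ≤ 4 * lam * ((1 / 6) * (G δ (f x) + δ ^ (1 / 6 : ℝ))) :=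
        mul_le_mul_of_nonneg_left h4 (by linarith)
      linarith
    have h7 := mul_le_mul_of_nonneg_left h6 h5
    calc -(G δ (f x) * mLap 4 (fun x => G δ (f x)) x) =
        G δ (f x) * -mLap 4 (fun x => G δ (f x)) x := by ring
      _ ≤ _ := h7
      _ = _ := by ring
  have c1 : Continuous (mLap 4 (fun x => G δ (f x))) := contL (n := 4) hs
  have h3 : ∫ x, -(G δ (f x) * mLap 4 (fun x => G δ (f x)) x) ∂μ ≤
      ∫ x, (2 / 3) * lam * (G δ (f x) ^ 2 + δ ^ (1 / 6 : ℝ) * G δ (f x)) ∂μ :=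
    integral_mono (integrable_of_continuous (n := 4) (hc.mul c1).neg)
      (integrable_of_continuous (n := 4)
        (continuous_const.mul ((hc.pow 2).add (continuous_const.mul hc)))) h2
  rw [integral_neg, h1, neg_neg, integral_const_mul, integral_add, integral_const_mul] at h3
  · exact h3
  · exact integrable_of_continuous (n := 4) (hc.pow 2)
  · exact integrable_of_continuous (n := 4) (continuous_const.mul hc)

end Four

end Crest.Agent.R249.StF_912

end
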