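import Crest.Agent.R249.StFb_912

/-!
Row 249 (helper912), leaf A2-FIN, file 3: two solutions of `STHyp` with `f₁ f₂ = 0`
(no strong maximum principle: Rayleigh quotients and the Lichnerowicz inequality).
-/

set_option autoImplicit false
set_option maxSynthPendingDepth 3
set_option linter.unusedSectionVars false
set_option linter.unusedVariables false

open Bundle Bornology Set MeasureTheory Manifold Filter Metric
open scoped ENNReal ContDiff Topology NNReal
open Crest.GeometryTopology.CoordMetric Crest.GeometryTopology.ChartCurvature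
  Crest.GeometryTopology.PointedLimit
open Crest.Agent.R247.Bo84 Crest.Agent.R247.Bs84
open Crest.Agent.R249.Top49

noncomputable section

namespace Crest.Agent.R249.StF_912

section Four

variable {M : Type*} [MetricSpace M] [ChartedSpace (EuclideanSpace ℝ (Fin 4)) M]
  [IsManifold (𝓡 4) ∞ M]
  [RiemannianBundle (fun p : M => TangentSpace (𝓡 4) p)]
  [IsContMDiffRiemannianBundle (𝓡 4) ∞ (EuclideanSpace ℝ (Fin 4)) (fun p : M => TangentSpace (𝓡 4) p)]
  [IsRiemannianManifold (𝓡 4) M] [CompactSpace M] [ConnectedSpace M] [MeasurableSpace M]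
  [BorelSpace M]

local notation "μ" => (μHE[4] : Measure M)

/-- Cauchy-Schwarz for the mean. -/
theorem sq_integral_le {u : M → ℝ} (hu : Continuous u) :
    (∫ x, u x ∂μ) ^ 2 ≤ (μ).real univ * ∫ x, u x ^ 2 ∂μ := by
  have hf : IsFiniteMeasure μ := finMeas (n := 4)
  have i1 := integrable_of_continuous (n := 4) hu
  have i2 := integrable_of_continuous (n := 4) (hu.pow 2)
  set V := (μ).real univ with hV
  have hV0 : 0 ≤ V := measureReal_nonneg
  set I := ∫ x, u x ∂μ with hI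
  set S := ∫ x, u x ^ 2 ∂μ with hS
  -- ∫ (V u - I)^2 ≥ 0
  have h1 : 0 ≤ ∫ x, (V * u x - I) ^ 2 ∂μ := integral_nonneg fun x => sq_nonneg _
  have h2 : ∫ x, (V * u x - I) ^ 2 ∂μ = V ^ 2 * S - 2 * V * I * I + I ^ 2 * V := by
    have e : ∀ x, (V * u x - I) ^ 2 = V ^ 2 * u x ^ 2 - 2 * V * I * u x + I ^ 2 := fun x => by ring
    simp only [e]
    rw [integral_add, integral_sub, integral_const_mul, integral_const_mul, integral_const]
    · simp only [smul_eq_mul, ← hV, ← hI, ← hS]; ring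
    · exact i2.const_mul _
    · exact i1.const_mul _
    · exact (i2.const_mul _).sub (i1.const_mul _)
    · exact integrable_const _
  rw [h2] at h1
  have h3 : 0 ≤ V * (V * S - I ^ 2) := by nlinarith
  rcases eq_or_lt_of_le hV0 with h4 | h4
  · -- V = 0
    have h5 : (μ) = 0 := by
      rw [← Measure.measure_univ_eq_zero]
      have := (measureReal_eq_zero_iff (measure_ne_top (μ) univ)).1 h4.symm
      exact this
    have h6 : I = 0 := by rw [hI, h5]; simp
    rw [h6, ← h4]; simp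
  · have := (mul_nonneg_iff_of_pos_left h4).1 h3
    linarith

variable {lam : ℝ} {f₁ f₂ : M → ℝ}

/-- the main estimate at scale `e`. -/
theorem est (hlam : 0 < lam) (hR : HasRicciLowerBound 4 M lam) (hP : PoissonStmt 4 M)
    (h₁ : STHyp M lam f₁) (h₂ : STHyp M lam f₂)
    (hb₁ : ∀ x, Real.sqrt (f₁ x) ≤ 2 * k0 lam) (hb₂ : ∀ x, Real.sqrt (f₂ x) ≤ 2 * k0 lam)
    (h0 : ∀ x, f₁ x * f₂ x = 0) {δ : ℝ} (hδ : 0 < δ) :
    2 * ((∫ x, G δ (f₁ x) ∂μ) * ∫ x, G δ (f₂ x) ∂μ) ≤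
      (μ).real univ * δ ^ (1 / 6 : ℝ) * ((∫ x, G δ (f₁ x) ∂μ) + ∫ x, G δ (f₂ x) ∂μ) := by
  set e := δ ^ (1 / 6 : ℝ) with he
  have he0 : 0 < e := by positivity
  set u₁ : M → ℝ := fun x => G δ (f₁ x) with hu₁
  set u₂ : M → ℝ := fun x => G δ (f₂ x) with hu₂
  have s₁ : ContMDiff (𝓡 4) 𝓘(ℝ, ℝ) ∞ u₁ := smooth_G hδ h₁
  have s₂ : ContMDiff (𝓡 4) 𝓘(ℝ, ℝ) ∞ u₂ := smooth_G hδ h₂
  have c₁ := s₁.continuous
  have c₂ := s₂.continuous
  have n₁ : ∀ x, 0 ≤ u₁ x := fun x => G_nonneg hδ (h₁.nonneg x)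
  have n₂ : ∀ x, 0 ≤ u₂ x := fun x => G_nonneg hδ (h₂.nonneg x)
  have z12 : ∀ x, u₁ x * u₂ x = 0 := by
    intro x
    rcases mul_eq_zero.1 (h0 x) with h | h
    · simp [hu₁, h, G_zero]
    · simp [hu₂, h, G_zero]
  set b := ∫ x, u₁ x ∂μ with hb
  set a := ∫ x, u₂ x ∂μ with ha
  have hb0 : 0 ≤ b := integral_nonneg n₁
  have ha0 : 0 ≤ a := integral_nonneg n₂
  set S₁ := ∫ x, u₁ x ^ 2 ∂μ with hS₁
  set S₂ := ∫ x, u₂ x ^ 2 ∂μ with hS₂
  set V := (μ).real univ with hV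
  have hV0 : 0 ≤ V := measureReal_nonneg
  have r₁ := rayleigh hδ hlam h₁ hb₁
  have r₂ := rayleigh hδ hlam h₂ hb₂
  rw [← he] at r₁ r₂
  set T₁ := ∫ x, mGam 4 u₁ u₁ x ∂μ with hT₁
  set T₂ := ∫ x, mGam 4 u₂ u₂ x ∂μ with hT₂
  have r₁' : T₁ ≤ (2 / 3) * lam * (S₁ + e * b) := r₁
  have r₂' : T₂ ≤ (2 / 3) * lam * (S₂ + e * a) := r₂
  -- the test function
  set h : M → ℝ := fun x => a * u₁ x - b * u₂ x with hh
  have sa₁ : ContMDiff (𝓡 4) 𝓘(ℝ, ℝ) ∞ (fun x => a * u₁ x) := contMDiff_const.mul s₁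
  have sb₂ : ContMDiff (𝓡 4) 𝓘(ℝ, ℝ) ∞ (fun x => b * u₂ x) := contMDiff_const.mul s₂
  have sh : ContMDiff (𝓡 4) 𝓘(ℝ, ℝ) ∞ h := sa₁.sub sb₂
  have hmean : ∫ x, h x ∂μ = 0 := by
    rw [hh]
    rw [integral_sub, integral_const_mul, integral_const_mul]
    · ring
    · exact integrable_of_continuous (n := 4) (continuous_const.mul c₁)
    · exact integrable_of_continuous (n := 4) (continuous_const.mul c₂)
  have hp := poincare (n := 4) (M := M) hR (by norm_num) hlam hP sh hmean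
  have e1 : ∫ x, h x ^ 2 ∂μ = a ^ 2 * S₁ + b ^ 2 * S₂ := by
    have e : ∀ x, h x ^ 2 = a ^ 2 * u₁ x ^ 2 + b ^ 2 * u₂ x ^ 2 := by
      intro x
      have := z12 x
      simp only [hh]
      calc (a * u₁ x - b * u₂ x) ^ 2 =
          a ^ 2 * u₁ x ^ 2 + b ^ 2 * u₂ x ^ 2 - 2 * a * b * (u₁ x * u₂ x) := by ring
        _ = _ := by rw [this]; ring
    simp only [e]
    rw [integral_add, integral_const_mul, integral_const_mul]
    · exact integrable_of_continuous (n := 4) (continuous_const.mul (c₁.pow 2))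
    · exact integrable_of_continuous (n := 4) (continuous_const.mul (c₂.pow 2))
  have gz : ∀ x, mGam 4 u₁ u₂ x = 0 := by
    intro x
    rcases mul_eq_zero.1 (h0 x) with h | h
    · refine mGam_zero_of_min ((s₁ x).of_le (by simp)) ?_ u₂
      have : IsMinOn u₁ univ x := fun y _ => by
        simp only [mem_setOf_eq]
        rw [show u₁ x = 0 by simp [hu₁, h, G_zero]]
        exact n₁ y
      exact this.isLocalMin univ_mem
    · rw [mGam_comm]
      refine mGam_zero_of_min ((s₂ x).of_le (by simp)) ?_ u₁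
      have : IsMinOn u₂ univ x := fun y _ => by
        simp only [mem_setOf_eq]
        rw [show u₂ x = 0 by simp [hu₂, h, G_zero]]
        exact n₂ y
      exact this.isLocalMin univ_mem
  have md₁ : ∀ x, MDifferentiableAt (𝓡 4) 𝓘(ℝ, ℝ) u₁ x := fun x =>
    (s₁ x).mdifferentiableAt (by simp)
  have md₂ : ∀ x, MDifferentiableAt (𝓡 4) 𝓘(ℝ, ℝ) u₂ x := fun x =>
    (s₂ x).mdifferentiableAt (by simp)
  have mda : ∀ x, MDifferentiableAt (𝓡 4) 𝓘(ℝ, ℝ) (fun x => a * u₁ x) x := fun x =>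
    (sa₁ x).mdifferentiableAt (by simp)
  have mdb : ∀ x, MDifferentiableAt (𝓡 4) 𝓘(ℝ, ℝ) (fun x => b * u₂ x) x := fun x =>
    (sb₂ x).mdifferentiableAt (by simp)
  have e2 : ∫ x, mGam 4 h h x ∂μ = a ^ 2 * T₁ + b ^ 2 * T₂ := by
    have e : ∀ x, mGam 4 h h x = a ^ 2 * mGam 4 u₁ u₁ x + b ^ 2 * mGam 4 u₂ u₂ x := by
      intro x
      have g12 := gz x
      have g21 : mGam 4 u₂ u₁ x = 0 := by rw [mGam_comm]; exact g12
      simp only [hh]
      rw [mGam_sub_left (mda x) (mdb x), mGam_sub_right (mda x) (mdb x),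
        mGam_sub_right (mda x) (mdb x), mGam_const_mul_left a (md₁ x),
        mGam_const_mul_left a (md₁ x), mGam_const_mul_left b (md₂ x),
        mGam_const_mul_left b (md₂ x), mGam_const_mul_right a (md₁ x),
        mGam_const_mul_right b (md₂ x), mGam_const_mul_right a (md₁ x),
        mGam_const_mul_right b (md₂ x), g12, g21]
      ring
    simp only [e]
    rw [integral_add, integral_const_mul, integral_const_mul]
    · exact integrable_of_continuous (n := 4) (continuous_const.mul (contG s₁ s₁))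
    · exact integrable_of_continuous (n := 4) (continuous_const.mul (contG s₂ s₂))
  rw [e1, e2] at hp
  -- combine
  have k1 : (1 - 1 / ((4:ℕ):ℝ)) * (a ^ 2 * T₁ + b ^ 2 * T₂) ≤
      (1 / 2) * lam * (a ^ 2 * (S₁ + e * b) + b ^ 2 * (S₂ + e * a)) := by
    have q1 := mul_le_mul_of_nonneg_left r₁' (sq_nonneg a)
    have q2 := mul_le_mul_of_nonneg_left r₂' (sq_nonneg b)
    have : (1 - 1 / ((4:ℕ):ℝ)) = 3 / 4 := by norm_num
    rw [this]
    nlinarith
  have k2 : lam * (a ^ 2 * S₁ + b ^ 2 * S₂) ≤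
      lam * ((1 / 2) * (a ^ 2 * (S₁ + e * b) + b ^ 2 * (S₂ + e * a))) := by
    refine hp.trans (k1.trans (le_of_eq ?_)); ring
  have k3 := le_of_mul_le_mul_left k2 hlam
  have k4 : a ^ 2 * S₁ + b ^ 2 * S₂ ≤ e * (a * b) * (a + b) := by nlinarith
  have c1 : b ^ 2 ≤ V * S₁ := sq_integral_le c₁
  have c2 : a ^ 2 ≤ V * S₂ := sq_integral_le c₂
  have k5 : 2 * (a * b) * (a * b) ≤ V * e * (a + b) * (a * b) := by
    have q1 := mul_le_mul_of_nonneg_left c1 (sq_nonneg a)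
    have q2 := mul_le_mul_of_nonneg_left c2 (sq_nonneg b)
    have q3 := mul_le_mul_of_nonneg_left k4 hV0
    nlinarith
  have hab : 0 ≤ a * b := mul_nonneg ha0 hb0
  rcases eq_or_lt_of_le hab with h5 | h5
  · have : 2 * (b * a) = 0 := by rw [mul_comm b a, ← h5]; ring
    rw [this]; positivity
  · have := le_of_mul_le_mul_right k5 h5
    linarith

theorem cont_pow (h : STHyp M lam f₁) : Continuous fun x => f₁ x ^ (1 / 6 : ℝ) :=
  h.smooth.continuous.rpow_const fun _ => Or.inr (by norm_num)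

theorem int_G_le (h : STHyp M lam f₁) {δ : ℝ} (hδ : 0 < δ) :
    ∫ x, G δ (f₁ x) ∂μ ≤ ∫ x, f₁ x ^ (1 / 6 : ℝ) ∂μ :=
  integral_mono (integrable_of_continuous (n := 4) (smooth_G hδ h).continuous)
    (integrable_of_continuous (n := 4) (cont_pow h)) fun x => G_le hδ (h.nonneg x)

theorem le_int_G (h : STHyp M lam f₁) {δ : ℝ} (hδ : 0 < δ) :
    (∫ x, f₁ x ^ (1 / 6 : ℝ) ∂μ) - (μ).real univ * δ ^ (1 / 6 : ℝ) ≤ ∫ x, G δ (f₁ x) ∂μ := by
  have hf : IsFiniteMeasure μ := finMeas (n := 4)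
  have h1 : ∫ x, (f₁ x ^ (1 / 6 : ℝ) - δ ^ (1 / 6 : ℝ)) ∂μ ≤ ∫ x, G δ (f₁ x) ∂μ :=
    integral_mono ((integrable_of_continuous (n := 4) (cont_pow h)).sub (integrable_const _))
      (integrable_of_continuous (n := 4) (smooth_G hδ h).continuous)
      fun x => le_G hδ (h.nonneg x)
  rw [integral_sub (integrable_of_continuous (n := 4) (cont_pow h)) (integrable_const _),
    integral_const, smul_eq_mul] at h1
  exact h1

theorem zero_of_int (h : STHyp M lam f₁) (h0 : ∫ x, f₁ x ^ (1 / 6 : ℝ) ∂μ = 0) (x : M) :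
    f₁ x = 0 := by
  have : (μ).IsOpenPosMeasure := Crest.Agent.R247.Ms322.isOpenPosMeasure 4 M
  have hn : ∀ x, 0 ≤ f₁ x ^ (1 / 6 : ℝ) := fun x => Real.rpow_nonneg (h.nonneg x) _
  have h1 : (fun x => f₁ x ^ (1 / 6 : ℝ)) =ᵐ[μ] 0 :=
    (integral_eq_zero_iff_of_nonneg hn (integrable_of_continuous (n := 4) (cont_pow h))).1 h0
  have h2 := (Continuous.ae_eq_iff_eq μ (cont_pow h) continuous_zero).1 h1
  have h3 := congrFun h2 x
  simp only [Pi.zero_apply] at h3
  exact ((Real.rpow_eq_zero (h.nonneg x) (by norm_num)).1 h3)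

/-- Lemma D. -/
theorem disjoint_zero (hlam : 0 < lam) (hR : HasRicciLowerBound 4 M lam) (hP : PoissonStmt 4 M)
    (h₁ : STHyp M lam f₁) (h₂ : STHyp M lam f₂)
    (hb₁ : ∀ x, Real.sqrt (f₁ x) ≤ 2 * k0 lam) (hb₂ : ∀ x, Real.sqrt (f₂ x) ≤ 2 * k0 lam)
    (h0 : ∀ x, f₁ x * f₂ x = 0) : (∀ x, f₁ x = 0) ∨ (∀ x, f₂ x = 0) := by
  set B := ∫ x, f₁ x ^ (1 / 6 : ℝ) ∂μ with hB
  set A := ∫ x, f₂ x ^ (1 / 6 : ℝ) ∂μ with hA
  have hB0 : 0 ≤ B := integral_nonneg fun x => Real.rpow_nonneg (h₁.nonneg x) _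
  have hA0 : 0 ≤ A := integral_nonneg fun x => Real.rpow_nonneg (h₂.nonneg x) _
  by_cases hBz : B = 0
  · exact Or.inl (zero_of_int h₁ hBz)
  by_cases hAz : A = 0
  · exact Or.inr (zero_of_int h₂ hAz)
  exfalso
  have hBp : 0 < B := lt_of_le_of_ne hB0 (Ne.symm hBz)
  have hAp : 0 < A := lt_of_le_of_ne hA0 (Ne.symm hAz)
  set V := (μ).real univ with hV
  have hV0 : 0 ≤ V := measureReal_nonneg
  -- choose e
  set W := V + 1 with hW
  have hW0 : 0 < W := by linarith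
  obtain ⟨e, he0, he1, he2, he3⟩ : ∃ e : ℝ, 0 < e ∧ W * e ≤ A / 2 ∧ W * e ≤ B / 2 ∧
      W * e * (A + B) < A * B / 2 := by
    refine ⟨min (min (A / 2 / W) (B / 2 / W)) (A * B / (4 * (W * (A + B)))), ?_, ?_, ?_, ?_⟩
    · positivity
    · have : min (min (A / 2 / W) (B / 2 / W)) (A * B / (4 * (W * (A + B)))) ≤ A / 2 / W :=
        (min_le_left _ _).trans (min_le_left _ _)
      calc _ ≤ W * (A / 2 / W) := mul_le_mul_of_nonneg_left this hW0.le
        _ = A / 2 := by field_simp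
    · have : min (min (A / 2 / W) (B / 2 / W)) (A * B / (4 * (W * (A + B)))) ≤ B / 2 / W :=
        (min_le_left _ _).trans (min_le_right _ _)
      calc _ ≤ W * (B / 2 / W) := mul_le_mul_of_nonneg_left this hW0.le
        _ = B / 2 := by field_simp
    · have h1 : min (min (A / 2 / W) (B / 2 / W)) (A * B / (4 * (W * (A + B)))) ≤
        A * B / (4 * (W * (A + B))) := min_le_right _ _
      have h2 : W * min (min (A / 2 / W) (B / 2 / W)) (A * B / (4 * (W * (A + B)))) * (A + B) ≤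
          W * (A * B / (4 * (W * (A + B)))) * (A + B) := by
        apply mul_le_mul_of_nonneg_right _ (by linarith)
        exact mul_le_mul_of_nonneg_left h1 hW0.le
      have h3 : W * (A * B / (4 * (W * (A + B)))) * (A + B) = A * B / 4 := by field_simp
      have h4 : 0 < A * B := mul_pos hAp hBp
      linarith
  set δ : ℝ := e ^ 6 with hδ
  have hδ0 : 0 < δ := by positivity
  have hde : δ ^ (1 / 6 : ℝ) = e := by
    rw [hδ, ← Real.rpow_natCast, ← Real.rpow_mul he0.le]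
    norm_num
  have m := est hlam hR hP h₁ h₂ hb₁ hb₂ h0 hδ0
  have l1 := int_G_le h₁ hδ0
  have l2 := int_G_le h₂ hδ0
  have l3 := le_int_G h₁ hδ0
  have l4 := le_int_G h₂ hδ0
  rw [hde] at m l3 l4
  set b := ∫ x, G δ (f₁ x) ∂μ with hb
  set a := ∫ x, G δ (f₂ x) ∂μ with ha
  have hVe : V * e ≤ W * e := mul_le_mul_of_nonneg_right (by linarith) he0.le
  have hb2 : B / 2 ≤ b := by linarith
  have ha2 : A / 2 ≤ a := by linarith
  have q1 : A / 2 * (B / 2) ≤ a * b := mul_le_mul ha2 hb2 (by linarith) (by linarith)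
  have q2 : V * e * (b + a) ≤ W * e * (A + B) := by
    apply mul_le_mul hVe (by linarith) (by linarith) (by positivity)
  nlinarith

end Four

end Crest.Agent.R249.StF_912

end
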