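import Crest.Agent.R249.Pen2_806
import Crest.Agent.R249.IntA_780

/-!
Row 249, part A2 (helper912), task A2-ASM, file 1: bounds which are UNIFORM in the regularisation
parameter `d` (only the subsolution property is used), in the abstract calculus `Calc X μ`:

* `sub_trunc` : `∫_{u ≤ b} |du|² ≤ 3 b ∫ (7 + |g|)` if `L u ≥ fd d u - |g|`;
* `Rem` : the admissible remainder
    `Rem d u v P Q = d^(1/3) (1 + P + Q) + P min(1, d/u³) + Q min(1, d/v³)`;
* `int_Rem_le` : `∫ Rem ≤ eta d * ∫ (7 + |g₁| + |g₂|)`;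
* `PenSol.int_Rem_le` : the same for a penalised pair.
-/

set_option autoImplicit false
set_option linter.unusedVariables false
set_option linter.unusedSectionVars false

open MeasureTheory Set Filter Topology Matrix
open scoped ContDiff

noncomputable section

namespace Crest.Agent.R249.StG_912

open Calc_806 Calc_806.Calc Pen_806 IntA_780

variable {X : Type*} [TopologicalSpace X] [CompactSpace X] [MeasurableSpace X]
  [OpensMeasurableSpace X] {μ : Measure X} [IsFiniteMeasure μ] {C : Calc X μ}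

/-- the nonlinearity is bounded below, uniformly in `d` -/
theorem neg_seven_le_fd {d u : ℝ} (hd : 0 < d) (hd8 : d ≤ 1 / 8) (hu : 0 < u) (hu2 : u ≤ 13 / 10)
    (hlow : d / 2 ≤ u ^ 3) : -7 ≤ fd d u := by
  unfold fd
  have h6 : 0 < u ^ 6 := by positivity
  have h3 : u ^ 3 ≤ (13 / 10) ^ 3 := pow_le_pow_left₀ hu.le hu2 3
  have h1 : d ^ 2 / u ^ 6 ≤ 4 := by
    rw [div_le_iff₀ h6]
    have e : u ^ 6 = u ^ 3 * u ^ 3 := by ring
    rw [e]
    have h4 : 0 < u ^ 3 := by positivity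
    nlinarith [mul_le_mul hlow hlow (by positivity) h4.le]
  have h5 : (2 / 3) * d ^ 2 / u ^ 6 ≤ 8 / 3 := by
    rw [mul_div_assoc]; linarith
  have h7 : (2 / 3) * (1 - u ^ 3) - (6 * d + (2 / 3) * d ^ 2 / u ^ 6) ≥ -5 := by
    norm_num at h3
    linarith
  nlinarith

/-- **truncated energy of a subsolution**. -/
theorem sub_trunc {u g : X → ℝ} (su : C.Sm u) (sg : Continuous g) {d : ℝ} (hd : 0 < d)
    (hd8 : d ≤ 1 / 8) (hu : ∀ x, 0 < u x) (hu2 : ∀ x, u x ≤ 13 / 10) (hlow : ∀ x, d / 2 ≤ u x ^ 3)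
    (hL : ∀ x, fd d (u x) - |g x| ≤ C.L u x) {b : ℝ} (hb : 0 < b) (s : Set X)
    (hs : MeasurableSet s) (hsb : ∀ x ∈ s, u x ≤ b) :
    ∫ x in s, C.G u u x ∂μ ≤ 3 * b * ∫ x, (7 + |g x|) ∂μ := by
  have hc : 0 < (0:ℝ) + b := by linarith
  have hd' : ContDiff ℝ ∞ (deriv (th 0 (0 + b))) := (contDiff_infty_iff_deriv.1 (contDiff_th _ _)).2
  have hP := C.sm_G su su
  have i1 : Integrable (fun x => deriv (th 0 (0 + b)) (u x) * C.G u u x) μ :=
    integrable_sm (sm_mul (sm_comp' hd' su) hP)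
  have h1 : ∫ x in s, C.G u u x ∂μ ≤ ∫ x in s, deriv (th 0 (0 + b)) (u x) * C.G u u x ∂μ := by
    refine setIntegral_mono_on (integrable_sm hP).integrableOn i1.integrableOn hs fun x hx => ?_
    have := one_le_deriv_th hc (hsb x hx)
    have := G_self_nonneg (C := C) u x
    nlinarith
  have h2 : ∫ x in s, deriv (th 0 (0 + b)) (u x) * C.G u u x ∂μ ≤
      ∫ x, deriv (th 0 (0 + b)) (u x) * C.G u u x ∂μ :=
    setIntegral_le_integral i1 (Eventually.of_forall fun x =>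
      mul_nonneg (deriv_th_nonneg 0 hc _) (G_self_nonneg u x))
  have h3 := int_two (C := C) (contDiff_th 0 (0 + b)) su
  have ig : Integrable (fun x => 7 + |g x|) μ :=
    integrable_cont (continuous_const.add sg.abs)
  have h4 : - ∫ x, th 0 (0 + b) (u x) * C.L u x ∂μ ≤ ∫ x, 3 * b * (7 + |g x|) ∂μ := by
    rw [← integral_neg]
    refine integral_mono
      (integrable_sm (sm_mul (sm_comp' (contDiff_th 0 (0 + b)) su) (C.sm_L su))).neg
      (ig.const_mul _) fun x => ?_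
    have h5 : th 0 (0 + b) (u x) ≤ 3 * (0 + b) := th_le hc
    have h6 : 0 ≤ th 0 (0 + b) (u x) := th_nonneg hc (by rw [neg_zero]; exact (hu x).le)
    have h7 := hL x
    have h8 := neg_seven_le_fd hd hd8 (hu x) (hu2 x) (hlow x)
    have h9 : - C.L u x ≤ 7 + |g x| := by linarith
    have h10 : 0 ≤ 7 + |g x| := by positivity
    calc -(th 0 (0 + b) (u x) * C.L u x) = th 0 (0 + b) (u x) * (- C.L u x) := by ring
      _ ≤ th 0 (0 + b) (u x) * (7 + |g x|) := mul_le_mul_of_nonneg_left h9 h6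
      _ ≤ 3 * (0 + b) * (7 + |g x|) := mul_le_mul_of_nonneg_right h5 h10
      _ = 3 * b * (7 + |g x|) := by ring
  rw [integral_const_mul] at h4
  linarith

/-- **total energy of a subsolution**. -/
theorem sub_energy {u g : X → ℝ} (su : C.Sm u) (sg : Continuous g) {d : ℝ} (hd : 0 < d)
    (hd8 : d ≤ 1 / 8) (hu : ∀ x, 0 < u x) (hu2 : ∀ x, u x ≤ 13 / 10) (hlow : ∀ x, d / 2 ≤ u x ^ 3)
    (hL : ∀ x, fd d (u x) - |g x| ≤ C.L u x) :
    ∫ x, C.G u u x ∂μ ≤ 4 * ∫ x, (7 + |g x|) ∂μ := by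
  have h1 := sub_trunc (μ := μ) su sg hd hd8 hu hu2 hlow hL (b := 13 / 10) (by norm_num) univ
    MeasurableSet.univ (fun x _ => hu2 x)
  rw [setIntegral_univ] at h1
  have h2 : 0 ≤ ∫ x, (7 + |g x|) ∂μ := integral_nonneg fun x => by positivity
  linarith

/-- the admissible remainder -/
def Rem (d u v P Q : ℝ) : ℝ :=
  d ^ (1 / 3 : ℝ) * (1 + P + Q) + P * min 1 (d / u ^ 3) + Q * min 1 (d / v ^ 3)

theorem Rem_nonneg {d u v P Q : ℝ} (hd : 0 < d) (hu : 0 < u) (hv : 0 < v) (hP : 0 ≤ P)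
    (hQ : 0 ≤ Q) : 0 ≤ Rem d u v P Q := by
  unfold Rem
  have h1 : 0 ≤ min 1 (d / u ^ 3) := le_min zero_le_one (by positivity)
  have h2 : 0 ≤ min 1 (d / v ^ 3) := le_min zero_le_one (by positivity)
  positivity

/-- the weighted energy of a subsolution -/
theorem sub_weight {u g : X → ℝ} (su : C.Sm u) (sg : Continuous g) {d : ℝ} (hd : 0 < d)
    (hd8 : d ≤ 1 / 8) (hu : ∀ x, 0 < u x) (hu2 : ∀ x, u x ≤ 13 / 10) (hlow : ∀ x, d / 2 ≤ u x ^ 3)
    (hL : ∀ x, fd d (u x) - |g x| ≤ C.L u x) :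
    ∫ x, C.G u u x * min 1 (d / u x ^ 3) ∂μ ≤ 7 * d ^ (1 / 4 : ℝ) * ∫ x, (7 + |g x|) ∂μ := by
  set b : ℝ := d ^ (1 / 4 : ℝ) with hb
  have hb0 : 0 < b := Real.rpow_pos_of_pos hd _
  have hb4 : b ^ 4 = d := by
    rw [hb, ← Real.rpow_natCast, ← Real.rpow_mul hd.le]; norm_num
  have hP := C.sm_G su su
  have cu : Continuous u := C.sm_cont su
  have cG : Continuous (C.G u u) := C.sm_cont hP
  have cm : Continuous fun x => min 1 (d / u x ^ 3) :=
    continuous_const.min (continuous_const.div (cu.pow 3) fun x => (pow_pos (hu x) 3).ne')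
  have hm0 : ∀ x, 0 ≤ min 1 (d / u x ^ 3) := fun x =>
    le_min zero_le_one (div_nonneg hd.le (pow_pos (hu x) 3).le)
  have ii : Integrable (fun x => C.G u u x * min 1 (d / u x ^ 3)) μ := integrable_cont (cG.mul cm)
  have iG : Integrable (C.G u u) μ := integrable_cont cG
  set s : Set X := {x | u x ≤ b} with hs
  have ms : MeasurableSet s := (isClosed_le cu continuous_const).measurableSet
  have h1 := sub_trunc (μ := μ) su sg hd hd8 hu hu2 hlow hL hb0 s ms (fun x hx => hx)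
  have h2 := sub_energy (μ := μ) su sg hd hd8 hu hu2 hlow hL
  have h3 : ∫ x in s, C.G u u x * min 1 (d / u x ^ 3) ∂μ ≤ ∫ x in s, C.G u u x ∂μ := by
    refine setIntegral_mono_on ii.integrableOn iG.integrableOn ms fun x hx => ?_
    exact mul_le_of_le_one_right (G_self_nonneg u x) (min_le_left _ _)
  have h4 : ∫ x in sᶜ, C.G u u x * min 1 (d / u x ^ 3) ∂μ ≤ ∫ x in sᶜ, b * C.G u u x ∂μ := by
    refine setIntegral_mono_on ii.integrableOn (iG.const_mul b).integrableOn ms.compl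
      fun x hx => ?_
    have hx' : b < u x := by
      have : ¬ (u x ≤ b) := hx
      exact not_le.1 this
    have h5 : min 1 (d / u x ^ 3) ≤ b := by
      refine (min_le_right _ _).trans ?_
      rw [div_le_iff₀ (pow_pos (hu x) 3)]
      have h6 : b ^ 3 ≤ u x ^ 3 := pow_le_pow_left₀ hb0.le hx'.le 3
      calc d = b * b ^ 3 := by rw [← hb4]; ring
        _ ≤ b * u x ^ 3 := mul_le_mul_of_nonneg_left h6 hb0.le
    calc C.G u u x * min 1 (d / u x ^ 3) ≤ C.G u u x * b :=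
          mul_le_mul_of_nonneg_left h5 (G_self_nonneg u x)
      _ = b * C.G u u x := by ring
  have h5 : ∫ x in sᶜ, b * C.G u u x ∂μ ≤ ∫ x, b * C.G u u x ∂μ :=
    setIntegral_le_integral (iG.const_mul b) (Eventually.of_forall fun x =>
      mul_nonneg hb0.le (G_self_nonneg u x))
  have h8 : ∫ x, b * C.G u u x ∂μ = b * ∫ x, C.G u u x ∂μ := integral_const_mul _ _
  rw [h8] at h5
  rw [← integral_add_compl ms ii]
  have h6 : 0 ≤ ∫ x, (7 + |g x|) ∂μ := integral_nonneg fun x => by positivity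
  have h7 : b * ∫ x, C.G u u x ∂μ ≤ b * (4 * ∫ x, (7 + |g x|) ∂μ) :=
    mul_le_mul_of_nonneg_left h2 hb0.le
  nlinarith

/-- the modulus -/
def eta (d : ℝ) : ℝ := 24 * d ^ (1 / 4 : ℝ)

theorem tendsto_eta : Tendsto eta (𝓝[>] 0) (𝓝 0) := by
  have h1 : ContinuousAt (fun d : ℝ => 24 * d ^ (1 / 4 : ℝ)) 0 :=
    continuousAt_const.mul (Real.continuousAt_rpow_const 0 (1 / 4) (Or.inr (by norm_num)))
  have h2 := h1.tendsto
  rw [Real.zero_rpow (by norm_num), mul_zero] at h2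
  exact h2.mono_left nhdsWithin_le_nhds

theorem eta_pos {d : ℝ} (hd : 0 < d) : 0 < eta d := by unfold eta; positivity

/-- **the remainder of a pair of subsolutions**. -/
theorem int_Rem_le {u v g h : X → ℝ} (su : C.Sm u) (sv : C.Sm v) (sg : Continuous g)
    (sh : Continuous h) {d : ℝ} (hd : 0 < d) (hd8 : d ≤ 1 / 8)
    (hu : ∀ x, 0 < u x) (hu2 : ∀ x, u x ≤ 13 / 10) (hul : ∀ x, d / 2 ≤ u x ^ 3)
    (hv : ∀ x, 0 < v x) (hv2 : ∀ x, v x ≤ 13 / 10) (hvl : ∀ x, d / 2 ≤ v x ^ 3)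
    (hLu : ∀ x, fd d (u x) - |g x| ≤ C.L u x) (hLv : ∀ x, fd d (v x) - |h x| ≤ C.L v x) :
    ∫ x, Rem d (u x) (v x) (C.G u u x) (C.G v v x) ∂μ ≤
      eta d * ∫ x, (7 + |g x| + |h x|) ∂μ := by
  have a1 := sub_weight (μ := μ) su sg hd hd8 hu hu2 hul hLu
  have a2 := sub_weight (μ := μ) sv sh hd hd8 hv hv2 hvl hLv
  have a3 := sub_energy (μ := μ) su sg hd hd8 hu hu2 hul hLu
  have a4 := sub_energy (μ := μ) sv sh hd hd8 hv hv2 hvl hLv
  have cu : Continuous u := C.sm_cont su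
  have cv : Continuous v := C.sm_cont sv
  have cG : Continuous (C.G u u) := C.sm_cont (C.sm_G su su)
  have cH : Continuous (C.G v v) := C.sm_cont (C.sm_G sv sv)
  have cm : Continuous fun x => min 1 (d / u x ^ 3) :=
    continuous_const.min (continuous_const.div (cu.pow 3) fun x => (pow_pos (hu x) 3).ne')
  have cn : Continuous fun x => min 1 (d / v x ^ 3) :=
    continuous_const.min (continuous_const.div (cv.pow 3) fun x => (pow_pos (hv x) 3).ne')
  have iG : Integrable (C.G u u) μ := integrable_cont cG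
  have iH : Integrable (C.G v v) μ := integrable_cont cH
  have i1 : Integrable (fun x => d ^ (1 / 3 : ℝ) * (1 + C.G u u x + C.G v v x)) μ :=
    integrable_cont (continuous_const.mul ((continuous_const.add cG).add cH))
  have i2 : Integrable (fun x => C.G u u x * min 1 (d / u x ^ 3)) μ := integrable_cont (cG.mul cm)
  have i3 : Integrable (fun x => C.G v v x * min 1 (d / v x ^ 3)) μ := integrable_cont (cH.mul cn)
  have ig : Integrable (fun x => 7 + |g x|) μ := integrable_cont (continuous_const.add sg.abs)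
  have ih : Integrable (fun x => 7 + |h x|) μ := integrable_cont (continuous_const.add sh.abs)
  have igh : Integrable (fun x => 7 + |g x| + |h x|) μ :=
    integrable_cont ((continuous_const.add sg.abs).add sh.abs)
  set A := ∫ x, (7 + |g x| + |h x|) ∂μ with hA
  have b1 : ∫ x, (7 + |g x|) ∂μ ≤ A :=
    integral_mono ig igh fun x => by have := abs_nonneg (h x); simp only; linarith
  have b2 : ∫ x, (7 + |h x|) ∂μ ≤ A :=
    integral_mono ih igh fun x => by have := abs_nonneg (g x); simp only; linarith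
  have b3 : ∫ x, (7:ℝ) ∂μ ≤ A :=
    integral_mono (integrable_const _) igh fun x => by
      have := abs_nonneg (g x); have := abs_nonneg (h x); simp only; linarith
  have A0 : 0 ≤ A := integral_nonneg fun x => by positivity
  have b4 : ∫ x, (1:ℝ) ∂μ ≤ A / 7 := by
    rw [integral_const, smul_eq_mul] at b3 ⊢
    linarith
  have h1 : ∫ x, Rem d (u x) (v x) (C.G u u x) (C.G v v x) ∂μ =
      d ^ (1 / 3 : ℝ) * (∫ x, (1:ℝ) ∂μ + ∫ x, C.G u u x ∂μ + ∫ x, C.G v v x ∂μ) +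
        ∫ x, C.G u u x * min 1 (d / u x ^ 3) ∂μ + ∫ x, C.G v v x * min 1 (d / v x ^ 3) ∂μ := by
    simp only [Rem]
    have j1 : Integrable (fun x => d ^ (1 / 3 : ℝ) * (1 + C.G u u x + C.G v v x) +
        C.G u u x * min 1 (d / u x ^ 3)) μ := i1.add i2
    rw [integral_add j1 i3, integral_add i1 i2, integral_const_mul]
    have j2 : Integrable (fun x => 1 + C.G u u x) μ := (integrable_const (1:ℝ)).add iG
    rw [integral_add j2 iH, integral_add (integrable_const (1:ℝ)) iG]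
  have hr : d ^ (1 / 3 : ℝ) ≤ d ^ (1 / 4 : ℝ) :=
    Real.rpow_le_rpow_of_exponent_ge hd (by linarith) (by norm_num)
  have hr0 : 0 ≤ d ^ (1 / 3 : ℝ) := by positivity
  have hr1 : 0 ≤ d ^ (1 / 4 : ℝ) := by positivity
  rw [h1]
  have c1 : ∫ x, (1:ℝ) ∂μ + ∫ x, C.G u u x ∂μ + ∫ x, C.G v v x ∂μ ≤ 9 * A := by linarith
  have c0 : 0 ≤ ∫ x, (1:ℝ) ∂μ + ∫ x, C.G u u x ∂μ + ∫ x, C.G v v x ∂μ := by
    have e1 : 0 ≤ ∫ x, (1:ℝ) ∂μ := integral_nonneg fun x => zero_le_one
    have e2 : 0 ≤ ∫ x, C.G u u x ∂μ := integral_nonneg fun x => G_self_nonneg u x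
    have e3 : 0 ≤ ∫ x, C.G v v x ∂μ := integral_nonneg fun x => G_self_nonneg v x
    linarith
  have c2 : d ^ (1 / 3 : ℝ) * (∫ x, (1:ℝ) ∂μ + ∫ x, C.G u u x ∂μ + ∫ x, C.G v v x ∂μ) ≤
      d ^ (1 / 4 : ℝ) * (9 * A) := mul_le_mul hr c1 c0 hr1
  have c3 : 7 * d ^ (1 / 4 : ℝ) * ∫ x, (7 + |g x|) ∂μ ≤ 7 * d ^ (1 / 4 : ℝ) * A :=
    mul_le_mul_of_nonneg_left b1 (by positivity)
  have c4 : 7 * d ^ (1 / 4 : ℝ) * ∫ x, (7 + |h x|) ∂μ ≤ 7 * d ^ (1 / 4 : ℝ) * A :=
    mul_le_mul_of_nonneg_left b2 (by positivity)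
  have c5 : 0 ≤ d ^ (1 / 4 : ℝ) * A := mul_nonneg hr1 A0
  unfold eta
  nlinarith

section Pen

variable {d K e ε : ℝ} {φ₀ ψ₀ : X → ℝ}

/-- **the remainder of a penalised pair** is small with `d`, uniformly in the other parameters. -/
theorem PenSol_int_Rem_le (S : PenSol C φ₀ ψ₀ d K e ε) (D : Dat C d φ₀ ψ₀) (hd : 0 < d)
    (hd8 : d ≤ 1 / 8) (he : 0 < e) (he1 : e ≤ 1 / 320) (hKe : K * e ≤ 1) (hε : ε ≤ 1) :
    ∫ x, Rem d (S.φ x) (S.ψ x) (C.G S.φ S.φ x) (C.G S.ψ S.ψ x) ∂μ ≤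
      eta d * (11 * μ.real univ + 2) := by
  have h1 := int_Rem_le (μ := μ) S.sφ S.sψ (C.sm_cont S.sg₁) (C.sm_cont S.sg₂) hd hd8
    (S.φpos D) (S.φu D he he1) (S.φlow D) (S.ψpos D) (S.ψu D he he1) (S.ψlow D)
    (fun x => by
      have := S.eqφ x; have := S.m₁nn x; have := neg_abs_le (S.g₁ x); linarith)
    (fun x => by
      have := S.eqψ x; have := S.m₂nn x; have := neg_abs_le (S.g₂ x); linarith)
  refine h1.trans (mul_le_mul_of_nonneg_left ?_ (eta_pos hd).le)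
  have k1 : ∀ r : ℝ, |r| ≤ 1 + r ^ 4 := by
    intro r
    have h2 : r ^ 4 = |r| ^ 4 := by rw [← abs_pow, abs_of_nonneg (by positivity)]
    rw [h2]
    have h3 := abs_nonneg r
    nlinarith [sq_nonneg (|r| ^ 2 - 1 / 2), sq_nonneg (|r| - 1)]
  have i1 : Integrable (fun x => S.r₁ x ^ 4) μ := integrable_sm (sm_pow S.sr₁ 4)
  have i2 : Integrable (fun x => S.r₂ x ^ 4) μ := integrable_sm (sm_pow S.sr₂ 4)
  have i3 : Integrable (fun x => 7 + |S.g₁ x| + |S.g₂ x|) μ :=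
    integrable_cont ((continuous_const.add (C.sm_cont S.sg₁).abs).add (C.sm_cont S.sg₂).abs)
  have i4 : Integrable (fun x => 11 + S.r₁ x ^ 4) μ := (integrable_const (11:ℝ)).add i1
  have i5 : Integrable (fun x => 11 + S.r₁ x ^ 4 + S.r₂ x ^ 4) μ := i4.add i2
  calc ∫ x, (7 + |S.g₁ x| + |S.g₂ x|) ∂μ ≤ ∫ x, (11 + S.r₁ x ^ 4 + S.r₂ x ^ 4) ∂μ := by
        refine integral_mono i3 i5 fun x => ?_
        have a1 := S.g₁le x
        have a2 := S.g₂le x
        have a3 := k1 (S.r₁ x)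
        have a4 := k1 (S.r₂ x)
        simp only
        linarith
    _ = 11 * μ.real univ + ∫ x, S.r₁ x ^ 4 ∂μ + ∫ x, S.r₂ x ^ 4 ∂μ := by
        rw [integral_add i4 i2, integral_add (integrable_const (11:ℝ)) i1, integral_const,
          smul_eq_mul, mul_comm]
    _ ≤ 11 * μ.real univ + 2 := by
        have := S.r₁int; have := S.r₂int; linarith

end Pen

end Crest.Agent.R249.StG_912
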