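import Crest.Agent.R249.StGa_912
import Crest.Agent.R249.StFd_912
import Crest.Agent.R249.CalM_255

/-!
Row 249, part A2 (helper912), task A2-ASM, file 2: the assembly.

* `LimStmt C a` : the output of the limit passage (BP-A2, section 9) with the certificate, in the
  abstract calculus;
* `stc_of` : `STHyp M lam f` gives the normalised hypothesis `STC` for `F = f / k0²`;
* `app_of` : approximate pairs;
* `st_of_lim` : `PoissonAll → (LimStmt on all closed 4-manifolds) → ST`.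
-/

set_option autoImplicit false
set_option maxSynthPendingDepth 3
set_option linter.unusedSectionVars false
set_option linter.unusedVariables false

open Bundle Bornology Set MeasureTheory Manifold Filter Metric
open scoped ENNReal ContDiff Topology NNReal
open Crest.GeometryTopology.CoordMetric Crest.GeometryTopology.ChartCurvature
  Crest.GeometryTopology.PointedLimit
open Crest.Agent.R247.Bo84 Crest.Agent.R247.Bs84
open Crest.Agent.R249.Top49

noncomputable section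

namespace Crest.Agent.R249.StG_912

open Crest.Agent.R249.StF_912
open Calc_806 Calc_806.Calc Pen_806

section Abs

variable {X : Type*} [TopologicalSpace X] [MeasurableSpace X] {μ : Measure X}

/-- `F = (φ ψ)^a` -/
def Fp (a : ℕ) (φ ψ : X → ℝ) (x : X) : ℝ := (φ x * ψ x) ^ a

/-- **Input of the assembly** = output of the limit passage (section 9) combined with the
certificate: for all small `d` and all data there are penalised pairs, as accurate as we like, with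
`∫ |dF|² + (F (1 - F))² ≤ K₀ ∫ Rem + t`. -/
def LimStmt (C : Calc X μ) (a : ℕ) : Prop :=
  ∃ K₀ d₀ : ℝ, 0 < K₀ ∧ 0 < d₀ ∧ ∀ d : ℝ, 0 < d → d ≤ d₀ → ∀ φ₀ ψ₀ : X → ℝ, Dat C d φ₀ ψ₀ →
    ∀ t : ℝ, 0 < t → ∃ K e ε : ℝ, 0 < e ∧ e ≤ t ∧ K * e ≤ 1 ∧ ε ≤ 1 ∧
      ∃ S : PenSol C φ₀ ψ₀ d K e ε,
        ∫ x, (C.G (Fp a S.φ S.ψ) (Fp a S.φ S.ψ) x +
          (Fp a S.φ S.ψ x * (1 - Fp a S.φ S.ψ x)) ^ 2) ∂μ ≤
        K₀ * ∫ x, Rem d (S.φ x) (S.ψ x) (C.G S.φ S.φ x) (C.G S.ψ S.ψ x) ∂μ + t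

end Abs

section Four

variable {M : Type*} [MetricSpace M] [ChartedSpace (EuclideanSpace ℝ (Fin 4)) M]
  [IsManifold (𝓡 4) ∞ M]
  [RiemannianBundle (fun p : M => TangentSpace (𝓡 4) p)]
  [IsContMDiffRiemannianBundle (𝓡 4) ∞ (EuclideanSpace ℝ (Fin 4)) (fun p : M => TangentSpace (𝓡 4) p)]
  [IsRiemannianManifold (𝓡 4) M] [CompactSpace M] [ConnectedSpace M] [MeasurableSpace M]
  [BorelSpace M]

variable {lam : ℝ} {f f₁ f₂ : M → ℝ} {a : ℕ}

/-- the normalised function -/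
def nf (lam : ℝ) (f : M → ℝ) (x : M) : ℝ := (k0 lam ^ 2)⁻¹ * f x

theorem sqrt_nf (hlam : 0 < lam) {f : M → ℝ} (x : M) :
    Real.sqrt (nf lam f x) = Real.sqrt (f x) / k0 lam := by
  have hk := k0_pos hlam
  unfold nf
  rw [Real.sqrt_mul (by positivity), Real.sqrt_inv, Real.sqrt_sq hk.le]
  rw [div_eq_inv_mul]

theorem nf_nonneg (hlam : 0 < lam) (h : STHyp M lam f) (x : M) : 0 ≤ nf lam f x := by
  have hk := k0_pos hlam
  have := h.nonneg x
  unfold nf
  positivity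

/-- **the normalised hypothesis**. -/
theorem stc_of (hlam : 0 < lam) (hR : HasRicciLowerBound 4 M lam) (hP : CalM_255.PoissonStmt M)
    (h : STHyp M lam f) : STC (CalM_255.calcOf lam hlam hR hP) (nf lam f) := by
  have hk := k0_pos hlam
  have sf : ContMDiff (𝓡 4) 𝓘(ℝ, ℝ) ∞ f := h.smooth
  have snf : ContMDiff (𝓡 4) 𝓘(ℝ, ℝ) ∞ (nf lam f) := contMDiff_const.mul sf
  set C := CalM_255.calcOf lam hlam hR hP with hC
  have eG : ∀ x, C.G (nf lam f) (nf lam f) x = lam⁻¹ * ((k0 lam ^ 2)⁻¹ ^ 2 * mGam 4 f f x) := by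
    intro x
    have h1 : C.G (nf lam f) (nf lam f) x = lam⁻¹ * mGam 4 (nf lam f) (nf lam f) x :=
      CalM_255.calc0_G hlam _ _ x
    rw [h1]
    congr 1
    have hm : MDifferentiableAt (𝓡 4) 𝓘(ℝ, ℝ) f x := (sf x).mdifferentiableAt (by simp)
    have hm' : MDifferentiableAt (𝓡 4) 𝓘(ℝ, ℝ) (nf lam f) x := (snf x).mdifferentiableAt (by simp)
    have e1 : nf lam f = fun y => (k0 lam ^ 2)⁻¹ * f y := rfl
    rw [e1, mGam_const_mul_left _ hm, mGam_const_mul_right _ hm]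
    ring
  have eL : ∀ x, C.L (nf lam f) x = lam⁻¹ * ((k0 lam ^ 2)⁻¹ * mLap 4 f x) := by
    intro x
    have h1 : C.L (nf lam f) x = lam⁻¹ * mLap 4 (nf lam f) x := CalM_255.calc0_L snf x
    rw [h1]
    congr 1
    exact mLap_const_mul _ ((sf x).of_le two_le_infty)
  refine ⟨snf, nf_nonneg hlam h, fun x hx => ?_, fun x hx => ?_⟩
  · have hfx : 0 < f x := by
      unfold nf at hx
      exact pos_of_mul_pos_right hx (by positivity)
    have h1 := h.ineq x hfx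
    rw [eG x, eL x, sqrt_nf hlam]
    have h2 : 0 < lam⁻¹ * (k0 lam ^ 2)⁻¹ := by positivity
    have h3 := mul_le_mul_of_nonneg_left h1 h2.le
    have h4 := sqrt6_k0 lam
    have e1 : lam⁻¹ * (k0 lam ^ 2)⁻¹ * ((5 / 6) * (mGam 4 f f x / f x) + 4 * lam * f x -
        2 * Real.sqrt 6 * (f x * Real.sqrt (f x))) =
        5 / 6 * (lam⁻¹ * ((k0 lam ^ 2)⁻¹ ^ 2 * mGam 4 f f x) / nf lam f x) +
        4 * nf lam f x * (1 - Real.sqrt (f x) / k0 lam) := by
      have h6 : Real.sqrt 6 = 2 * lam / k0 lam := by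
        rw [eq_div_iff hk.ne']; exact h4
      rw [h6]
      unfold nf
      field_simp
      ring
    rw [← e1]
    refine h3.trans (le_of_eq ?_)
    ring
  · have hfx : f x = 0 := by
      unfold nf at hx
      have : (k0 lam ^ 2)⁻¹ ≠ 0 := by positivity
      exact (mul_eq_zero.1 hx).resolve_left this
    rw [eG x, eL x]
    have g0 : mGam 4 f f x = 0 := StF_912.STHyp.gam_zero h hfx f
    have l0 : 0 ≤ mLap 4 f x := StF_912.STHyp.lap_zero h hfx
    rw [g0]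
    refine ⟨by ring, by positivity⟩

/-- **approximate pairs from the limit passage**. -/
theorem app_of (hlam : 0 < lam) (hR : HasRicciLowerBound 4 M lam) (hP : CalM_255.PoissonStmt M)
    (h₁ : STHyp M lam f₁) (h₂ : STHyp M lam f₂)
    (hs : ∀ x, Real.sqrt (f₁ x) + Real.sqrt (f₂ x) ≤ 2 * lam * Real.sqrt (2 / 3))
    (hL : LimStmt (CalM_255.calcOf lam hlam hR hP) a) {ε : ℝ} (hε : 0 < ε) :
    ∃ φ ψ : M → ℝ, Approx lam f₁ f₂ a ε φ ψ := by
  have hfin : IsFiniteMeasure (μHE[4] : Measure M) := finMeas (n := 4)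
  have hk := k0_pos hlam
  have c₁ := stc_of hlam hR hP h₁
  have c₂ := stc_of hlam hR hP h₂
  have eG : ∀ f g x, (CalM_255.calcOf (M := M) lam hlam hR hP).G f g x = lam⁻¹ * mGam 4 f g x :=
    fun f g x => CalM_255.calc0_G hlam _ _ x
  set C := CalM_255.calcOf (M := M) lam hlam hR hP with hC
  have hs2 : ∀ x, Real.sqrt (nf lam f₁ x) + Real.sqrt (nf lam f₂ x) ≤ 2 := by
    intro x
    rw [sqrt_nf hlam, sqrt_nf hlam, ← add_div, div_le_iff₀ hk]
    refine (hs x).trans (le_of_eq ?_)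
    unfold k0; ring
  obtain ⟨K₀, d₀, hK₀, hd₀, hLim⟩ := hL
  set V := (μHE[4] : Measure M).real univ with hV
  have V0 : 0 ≤ V := measureReal_nonneg
  -- choice of `d`
  set t : ℝ := min (ε / 11) (min (ε / 2) (ε / (2 * lam))) with ht
  have ht0 : 0 < t := by positivity
  have ht1 : 11 * t ≤ ε := by
    have : t ≤ ε / 11 := min_le_left _ _
    linarith
  have ht2 : t ≤ ε / 2 := (min_le_right _ _).trans (min_le_left _ _)
  have ht3 : t ≤ ε / (2 * lam) := (min_le_right _ _).trans (min_le_right _ _)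
  have hη : Tendsto (fun d => K₀ * (eta d * (11 * V + 2))) (𝓝[>] 0) (𝓝 0) := by
    have := (tendsto_eta.mul_const (11 * V + 2)).const_mul K₀
    simpa using this
  have ev1 : ∀ᶠ d in 𝓝[>] (0:ℝ), K₀ * (eta d * (11 * V + 2)) < t := (tendsto_order.1 hη).2 t ht0
  have ev2 : ∀ᶠ d in 𝓝[>] (0:ℝ), d < min d₀ (min (1 / 8) (ε / 6)) :=
    nhdsWithin_le_nhds (Iio_mem_nhds (by positivity))
  have ev3 : ∀ᶠ d in 𝓝[>] (0:ℝ), 0 < d := self_mem_nhdsWithin
  obtain ⟨d, hd1, hd2, hd⟩ := (ev1.and (ev2.and ev3)).exists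
  have hdd : d ≤ d₀ := (hd2.le).trans (min_le_left _ _)
  have hd8 : d ≤ 1 / 8 := (hd2.le).trans ((min_le_right _ _).trans (min_le_left _ _))
  have hd6 : d ≤ ε / 6 := (hd2.le).trans ((min_le_right _ _).trans (min_le_right _ _))
  have D := dat_of_STC hd hd8 c₁ c₂ hs2
  obtain ⟨K, e, ε', he, het, hKe, hε', S, hI⟩ := hLim d hd hdd _ _ D (min t (1 / 320))
    (by positivity)
  have he1 : e ≤ 1 / 320 := het.trans (min_le_right _ _)
  have het' : e ≤ t := het.trans (min_le_left _ _)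
  have hRem := PenSol_int_Rem_le S D hd hd8 he he1 hKe hε'
  have sφ : ContMDiff (𝓡 4) 𝓘(ℝ, ℝ) ∞ S.φ := S.sφ
  have sψ : ContMDiff (𝓡 4) 𝓘(ℝ, ℝ) ∞ S.ψ := S.sψ
  have sF : ContMDiff (𝓡 4) 𝓘(ℝ, ℝ) ∞ (Fp a S.φ S.ψ) := (sφ.mul sψ).pow a
  set I₁ := ∫ x, C.G (Fp a S.φ S.ψ) (Fp a S.φ S.ψ) x ∂(μHE[4] : Measure M) with hI₁
  set I₂ := ∫ x, (Fp a S.φ S.ψ x * (1 - Fp a S.φ S.ψ x)) ^ 2 ∂(μHE[4] : Measure M) with hI₂
  have sFC : C.Sm (Fp a S.φ S.ψ) := sF
  have j1 : Integrable (fun x => C.G (Fp a S.φ S.ψ) (Fp a S.φ S.ψ) x) (μHE[4] : Measure M) :=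
    integrable_sm (C.sm_G sFC sFC)
  have j2 : Integrable (fun x => (Fp a S.φ S.ψ x * (1 - Fp a S.φ S.ψ x)) ^ 2)
      (μHE[4] : Measure M) :=
    integrable_sm (sm_pow (sm_mul sFC (sm_sub (sm_const 1) sFC)) 2)
  have hsum : I₁ + I₂ ≤ 2 * t := by
    have e1 : ∫ x, (C.G (Fp a S.φ S.ψ) (Fp a S.φ S.ψ) x +
          (Fp a S.φ S.ψ x * (1 - Fp a S.φ S.ψ x)) ^ 2) ∂(μHE[4] : Measure M) = I₁ + I₂ :=
      integral_add j1 j2
    rw [e1] at hI
    have e2 := mul_le_mul_of_nonneg_left hRem hK₀.le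
    have e3 : min t (1 / 320) ≤ t := min_le_left _ _
    linarith
  have I₁0 : 0 ≤ I₁ := integral_nonneg fun x => G_self_nonneg _ x
  have I₂0 : 0 ≤ I₂ := integral_nonneg fun x => sq_nonneg _
  -- the lower bounds
  have low : ∀ (f : M → ℝ) (u : M → ℝ), STHyp M lam f → (∀ x, Real.sqrt (nf lam f x) ≤ 2) →
      (∀ x, reg d (nf lam f) x ≤ u x) → ∀ x, Real.sqrt (f x) ≤ k0 lam * (u x ^ 3 + ε) := by
    intro f u hf hf2 hu x
    have hn := nf_nonneg hlam hf
    have r1 := reg_cube hd hd8 hn x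
    have r2 : reg d (nf lam f) x ^ 3 ≤ u x ^ 3 :=
      pow_le_pow_left₀ (reg_pos hd hd8 hn x).le (hu x) 3
    have r3 : Real.sqrt (nf lam f x) ≤ Real.sqrt (nf lam f x + d ^ 2) :=
      Real.sqrt_le_sqrt (by nlinarith [sq_nonneg d])
    have r4 := one_sub_th3 hd
    have r5 := th3_ge hd hd8
    have r6 := hf2 x
    have r7 := Real.sqrt_nonneg (nf lam f x)
    have r8 : th3 d * Real.sqrt (nf lam f x) ≤ u x ^ 3 := by
      refine le_trans ?_ r2
      rw [r1]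
      exact mul_le_mul_of_nonneg_left r3 (by linarith)
    have r9 : Real.sqrt (nf lam f x) ≤ u x ^ 3 + 6 * d := by
      have : (1 - th3 d) * Real.sqrt (nf lam f x) ≤ 3 * d * 2 :=
        mul_le_mul r4 r6 r7 (by positivity)
      linarith
    rw [sqrt_nf hlam, div_le_iff₀ hk] at r9
    have r10 : u x ^ 3 + 6 * d ≤ u x ^ 3 + ε := by linarith
    calc Real.sqrt (f x) ≤ (u x ^ 3 + 6 * d) * k0 lam := r9
      _ ≤ (u x ^ 3 + ε) * k0 lam := mul_le_mul_of_nonneg_right r10 hk.le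
      _ = k0 lam * (u x ^ 3 + ε) := mul_comm _ _
  refine ⟨S.φ, S.ψ, sφ, sψ, fun x => (S.φpos D x).le, fun x => (S.ψpos D x).le, fun x => ?_,
    low f₁ S.φ h₁ (fun x => ?_) S.φge, low f₂ S.ψ h₂ (fun x => ?_) S.ψge, ?_, ?_⟩
  · have := S.kap_ge D he he1 x
    linarith
  · have := hs2 x; have := Real.sqrt_nonneg (nf lam f₂ x); linarith
  · have := hs2 x; have := Real.sqrt_nonneg (nf lam f₁ x); linarith
  · have e1 : I₁ = lam⁻¹ * ∫ x, mGam 4 (Fp a S.φ S.ψ) (Fp a S.φ S.ψ) x ∂(μHE[4] : Measure M) := by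
      rw [hI₁]
      simp only [eG]
      exact integral_const_mul _ _
    have e2 : ∫ x, mGam 4 (Fp a S.φ S.ψ) (Fp a S.φ S.ψ) x ∂(μHE[4] : Measure M) = lam * I₁ := by
      rw [e1]; field_simp
    have e3 : ∫ x, mGam 4 (fun y => (S.φ y * S.ψ y) ^ a) (fun y => (S.φ y * S.ψ y) ^ a) x
        ∂(μHE[4] : Measure M) = lam * I₁ := e2
    rw [e3]
    have e4 : I₁ ≤ 2 * (ε / (2 * lam)) := by linarith
    calc lam * I₁ ≤ lam * (2 * (ε / (2 * lam))) := mul_le_mul_of_nonneg_left e4 hlam.le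
      _ = ε := by field_simp
  · have e3 : ∫ x, ((S.φ x * S.ψ x) ^ a * (1 - (S.φ x * S.ψ x) ^ a)) ^ 2
        ∂(μHE[4] : Measure M) = I₂ := rfl
    rw [e3]
    linarith

end Four

/-- the limit passage on all closed 4-manifolds. -/
def LimAll.{u} : Prop :=
  ∃ a : ℕ, 1 ≤ a ∧ ∀ (M : Type u) [MetricSpace M] [ChartedSpace (EuclideanSpace ℝ (Fin 4)) M]
    [IsManifold (𝓡 4) ∞ M] [CompactSpace M] [ConnectedSpace M]
    [RiemannianBundle (fun x : M => TangentSpace (𝓡 4) x)]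
    [IsContMDiffRiemannianBundle (𝓡 4) ∞ (EuclideanSpace ℝ (Fin 4))
      (fun x : M => TangentSpace (𝓡 4) x)]
    [IsRiemannianManifold (𝓡 4) M] [MeasurableSpace M] [BorelSpace M]
    (lam : ℝ) (hlam : 0 < lam) (hR : HasRicciLowerBound 4 M lam) (hP : CalM_255.PoissonStmt M),
    LimStmt (CalM_255.calcOf lam hlam hR hP) a

/-- the same, for abstract calculi: the form which the limit passage proves. -/
def LimAbs.{u} : Prop :=
  ∃ a : ℕ, 1 ≤ a ∧ ∀ (X : Type u) [TopologicalSpace X] [CompactSpace X] [MeasurableSpace X]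
    [OpensMeasurableSpace X] (μ : Measure X) [IsFiniteMeasure μ] (C : Calc X μ), LimStmt C a

theorem limAll_of_limAbs.{u} (h : LimAbs.{u}) : LimAll.{u} := by
  obtain ⟨a, ha, h⟩ := h
  refine ⟨a, ha, ?_⟩
  intro M _ _ _ _ _ _ _ _ _ _ lam hlam hR hP
  have hfin : IsFiniteMeasure (μHE[4] : Measure M) := finMeas (n := 4)
  exact h M _ _

/-- **ST from the Poisson equation and the limit passage with the certificate.** -/
theorem st_of_lim.{u} (hP : PoissonAll.{u}) (hL : LimAll.{u}) :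
    Crest.Agent.R249.Top49.ST.{u} := by
  refine st_of hP ?_
  intro M _ _ _ _ _ _ _ _ _ _ lam hlam hR f₁ f₂ h₁ h₂ hs
  obtain ⟨a, ha, hL⟩ := hL
  have hP' : CalM_255.PoissonStmt M := hP M
  exact ⟨a, ha, fun ε hε => app_of hlam hR hP' h₁ h₂ hs (hL M lam hlam hR hP') hε⟩

end Crest.Agent.R249.StG_912

end
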