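import Crest.Agent.R249.Pen2_806

/-!
Row 249, part A2 (helper912), task A2-FIN3, file 1: the smooth convex threshold function
`chi u = κ y E(y)`, `y = (u - g₁)/κ`, `E = expNegInvGlue`, `g₁ = 11/20`, `κ = 1/100`, and the
one-variable inequality `chi' (-fd d) ≤ (13/10) chi`.
-/

set_option autoImplicit false
set_option linter.unusedVariables false
set_option linter.unusedSectionVars false

open Set Filter Topology Polynomial
open scoped ContDiff

noncomputable section

namespace Crest.Agent.R249.StH_912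

open Pen_806

/-- the rescaled variable -/
def yy (u : ℝ) : ℝ := 100 * (u - 11 / 20)

/-- the threshold function -/
def chi (u : ℝ) : ℝ := (1 / 100) * (yy u * expNegInvGlue (yy u))

/-- its derivative -/
def chi1 (u : ℝ) : ℝ := (1 + (yy u)⁻¹) * expNegInvGlue (yy u)

/-- its second derivative -/
def chi2 (u : ℝ) : ℝ := 100 * (((yy u)⁻¹) ^ 3 * expNegInvGlue (yy u))

theorem hasDerivAt_yy (u : ℝ) : HasDerivAt yy 100 u := by
  have := ((hasDerivAt_id u).sub_const (11 / 20)).const_mul 100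
  rw [mul_one] at this
  exact this

theorem hasDerivAt_E (x : ℝ) :
    HasDerivAt expNegInvGlue ((x⁻¹) ^ 2 * expNegInvGlue x) x := by
  have := expNegInvGlue.hasDerivAt_polynomial_eval_inv_mul 1 x
  simpa using this

theorem hasDerivAt_E1 (x : ℝ) :
    HasDerivAt (fun x => (1 + x⁻¹) * expNegInvGlue x) ((x⁻¹) ^ 3 * expNegInvGlue x) x := by
  have := expNegInvGlue.hasDerivAt_polynomial_eval_inv_mul (1 + X) x
  have e1 : (fun x : ℝ => (1 + X : ℝ[X]).eval x⁻¹ * expNegInvGlue x) =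
      fun x => (1 + x⁻¹) * expNegInvGlue x := by
    funext y; simp
  have e2 : (X ^ 2 * ((1 + X : ℝ[X]) - derivative (R := ℝ) (1 + X))).eval x⁻¹ =
      (x⁻¹) ^ 3 := by
    simp; ring
  rw [e1, e2] at this
  exact this

theorem mul_inv_sq (x : ℝ) : x * (x⁻¹) ^ 2 = x⁻¹ := by
  rcases eq_or_ne x 0 with h | h
  · simp [h]
  · field_simp

theorem hasDerivAt_chi (u : ℝ) : HasDerivAt chi (chi1 u) u := by
  have h1 : HasDerivAt (fun x => x * expNegInvGlue x)
      (1 * expNegInvGlue (yy u) + yy u * (((yy u)⁻¹) ^ 2 * expNegInvGlue (yy u))) (yy u) :=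
    (hasDerivAt_id (yy u)).mul (hasDerivAt_E (yy u))
  have h2 := (h1.comp u (hasDerivAt_yy u)).const_mul (1 / 100)
  have e : 1 / 100 * ((1 * expNegInvGlue (yy u) +
      yy u * (((yy u)⁻¹) ^ 2 * expNegInvGlue (yy u))) * 100) = chi1 u := by
    rw [chi1, ← mul_assoc (yy u), mul_inv_sq]; ring
  rw [e] at h2
  exact h2

theorem hasDerivAt_chi1 (u : ℝ) : HasDerivAt chi1 (chi2 u) u := by
  have h2 := (hasDerivAt_E1 (yy u)).comp u (hasDerivAt_yy u)
  have e : (((yy u)⁻¹) ^ 3 * expNegInvGlue (yy u)) * 100 = chi2 u := by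
    rw [chi2]; ring
  rw [e] at h2
  exact h2

theorem deriv_chi : deriv chi = chi1 := funext fun u => (hasDerivAt_chi u).deriv

theorem deriv_chi1 : deriv chi1 = chi2 := funext fun u => (hasDerivAt_chi1 u).deriv

theorem contDiff_chi : ContDiff ℝ ∞ chi := by
  have h1 : ContDiff ℝ ∞ yy := by
    unfold yy
    exact contDiff_const.mul (contDiff_id.sub contDiff_const)
  unfold chi
  exact contDiff_const.mul (h1.mul (expNegInvGlue.contDiff.comp h1))

theorem yy_nonpos {u : ℝ} (h : u ≤ 11 / 20) : yy u ≤ 0 := by unfold yy; linarith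

theorem yy_pos {u : ℝ} (h : 11 / 20 < u) : 0 < yy u := by unfold yy; linarith

theorem chi_zero {u : ℝ} (h : u ≤ 11 / 20) : chi u = 0 := by
  rw [chi, expNegInvGlue.zero_of_nonpos (yy_nonpos h)]; simp

theorem chi1_zero {u : ℝ} (h : u ≤ 11 / 20) : chi1 u = 0 := by
  rw [chi1, expNegInvGlue.zero_of_nonpos (yy_nonpos h)]; simp

theorem chi2_zero {u : ℝ} (h : u ≤ 11 / 20) : chi2 u = 0 := by
  rw [chi2, expNegInvGlue.zero_of_nonpos (yy_nonpos h)]; simp

theorem chi_pos {u : ℝ} (h : 11 / 20 < u) : 0 < chi u := by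
  have h1 := yy_pos h
  have h2 := expNegInvGlue.pos_of_pos h1
  unfold chi; positivity

theorem chi_nonneg (u : ℝ) : 0 ≤ chi u := by
  rcases le_or_gt u (11 / 20) with h | h
  · rw [chi_zero h]
  · exact (chi_pos h).le

theorem chi1_nonneg (u : ℝ) : 0 ≤ chi1 u := by
  rcases le_or_gt u (11 / 20) with h | h
  · rw [chi1_zero h]
  · have h1 := yy_pos h
    have h2 := expNegInvGlue.pos_of_pos h1
    unfold chi1; positivity

theorem chi2_nonneg (u : ℝ) : 0 ≤ chi2 u := by
  rcases le_or_gt u (11 / 20) with h | h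
  · rw [chi2_zero h]
  · have h1 := yy_pos h
    have h2 := expNegInvGlue.pos_of_pos h1
    unfold chi2; positivity

/-- the one-variable inequality -/
theorem key_aux {u e : ℝ} (hu : 11 / 20 < u) (hu2 : u ≤ 63 / 50) (he : 0 ≤ e) (he2 : e ≤ 1 / 100) :
    (1 + (yy u)⁻¹) * (u * ((2 / 3) * (u ^ 3 - 1) + e)) ≤ (13 / 10) * (u - 11 / 20) := by
  have hw : 0 < u - 11 / 20 := by linarith
  have hy := yy_pos hu
  rcases le_or_gt ((2 / 3) * (u ^ 3 - 1) + e) 0 with h0 | h0
  · have h1 : 0 < 1 + (yy u)⁻¹ := by positivity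
    have h2 : u * ((2 / 3) * (u ^ 3 - 1) + e) ≤ 0 :=
      mul_nonpos_of_nonneg_of_nonpos (by linarith) h0
    have h3 := mul_nonpos_of_nonneg_of_nonpos h1.le h2
    linarith
  · have hu9 : 9 / 10 ≤ u := by
      by_contra hcon
      rw [not_le] at hcon
      have h3 : u ^ 3 < (9 / 10) ^ 3 := pow_lt_pow_left₀ hcon (by linarith) (by norm_num)
      norm_num at h3
      linarith
    have h1 : (yy u)⁻¹ ≤ 3 / 100 := by
      rw [inv_le_comm₀ hy (by norm_num)]
      unfold yy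
      norm_num
      linarith
    have h2 : u * ((2 / 3) * (u ^ 3 - 1)) ≤ (6 / 5) * (u - 11 / 20) := by
      have a1 : 0 ≤ (u - 9 / 10) * (63 / 50 - u) := mul_nonneg (by linarith) (by linarith)
      have a2 : 0 ≤ (u - 9 / 10) * (63 / 50 - u) * (u ^ 2 + (9 / 10 + 63 / 50) * u +
          ((9 / 10) ^ 2 + (9 / 10) * (63 / 50) + (63 / 50) ^ 2)) :=
        mul_nonneg a1 (by positivity)
      have e1 : u ^ 4 + (u - 9 / 10) * (63 / 50 - u) * (u ^ 2 + (9 / 10 + 63 / 50) * u +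
          ((9 / 10) ^ 2 + (9 / 10) * (63 / 50) + (63 / 50) ^ 2)) =
          ((63 / 50) ^ 4 - (9 / 10) ^ 4) / (63 / 50 - 9 / 10) * (u - 9 / 10) + (9 / 10) ^ 4 := by
        ring
      have e2 : u * ((2 / 3) * (u ^ 3 - 1)) = (2 / 3) * (u ^ 4 - u) := by ring
      rw [e2]
      norm_num at e1 ⊢
      nlinarith
    have h3 : u * ((2 / 3) * (u ^ 3 - 1) + e) ≤ (6 / 5) * (u - 11 / 20) + (63 / 50) * e := by
      nlinarith
    have h4 : u * ((2 / 3) * (u ^ 3 - 1) + e) ≤ (31 / 25) * (u - 11 / 20) := by nlinarith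
    have h5 : 0 ≤ u * ((2 / 3) * (u ^ 3 - 1) + e) := mul_nonneg (by linarith) h0.le
    calc (1 + (yy u)⁻¹) * (u * ((2 / 3) * (u ^ 3 - 1) + e))
        ≤ (1 + 3 / 100) * (u * ((2 / 3) * (u ^ 3 - 1) + e)) :=
          mul_le_mul_of_nonneg_right (by linarith) h5
      _ ≤ (1 + 3 / 100) * ((31 / 25) * (u - 11 / 20)) :=
          mul_le_mul_of_nonneg_left h4 (by norm_num)
      _ ≤ (13 / 10) * (u - 11 / 20) := by nlinarith

/-- `chi' (- fd d) ≤ (13/10) chi` -/
theorem key {u d : ℝ} (hd : 0 < d) (hd2 : d ≤ 1 / 1000) (hu2 : u ≤ 63 / 50) :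
    chi1 u * (- fd d u) ≤ (13 / 10) * chi u := by
  rcases le_or_gt u (11 / 20) with h | h
  · rw [chi_zero h, chi1_zero h]; simp
  · have hu6 : (11 / 20 : ℝ) ^ 6 ≤ u ^ 6 := pow_le_pow_left₀ (by norm_num) h.le 6
    have hu6' : 0 < u ^ 6 := by positivity
    have he : 6 * d + (2 / 3) * d ^ 2 / u ^ 6 ≤ 1 / 100 := by
      have h1 : (2 / 3) * d ^ 2 / u ^ 6 ≤ d := by
        rw [div_le_iff₀ hu6']
        norm_num at hu6
        nlinarith
      linarith
    have he0 : 0 ≤ 6 * d + (2 / 3) * d ^ 2 / u ^ 6 := by positivity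
    have h1 := key_aux h hu2 he0 he
    have e1 : - fd d u = u * ((2 / 3) * (u ^ 3 - 1) + (6 * d + (2 / 3) * d ^ 2 / u ^ 6)) := by
      unfold fd; ring
    have hE := expNegInvGlue.nonneg (yy u)
    rw [e1, chi1, chi]
    have h2 := mul_le_mul_of_nonneg_right h1 hE
    have e2 : (1 / 100) * (yy u * expNegInvGlue (yy u)) =
        (u - 11 / 20) * expNegInvGlue (yy u) := by unfold yy; ring
    rw [e2]
    linarith

end Crest.Agent.R249.StH_912
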