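import Crest.Agent.R249.StHa_912
import Crest.Agent.R249.IntA_780

/-!
Row 249, part A2 (helper912), task A2-FIN3, file 2 (abstract calculus `C : Calc X μ`):
* `poinc` : Lichnerowicz/Poincaré `∫ g² ≤ (3/4) ∫ |dg|²` for `∫ g = 0`;
* `dich` : `∫ |dF|² ≤ ε`, `∫ (F (1 - F))² ≤ ε` ⇒ `∫ F² ≤ K ε` or `∫ (1 - F)² ≤ K ε`;
* `disjoint3` : if at every point one of the two normalised functions is `≤ 1/64` then one of them
  is `< 1` everywhere.
-/

set_option autoImplicit false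
set_option linter.unusedVariables false
set_option linter.unusedSectionVars false

open MeasureTheory Set Filter Topology Matrix
open scoped ContDiff

noncomputable section

namespace Crest.Agent.R249.StH_912

open Calc_806 Calc_806.Calc Pen_806 IntA_780

variable {X : Type*} [TopologicalSpace X] [CompactSpace X] [MeasurableSpace X]
  [OpensMeasurableSpace X] {μ : Measure X} [IsFiniteMeasure μ] {C : Calc X μ}

/-- `∫ |du|² ≤ (3/4) ∫ (Lu)²` -/
theorem energy_le {u : X → ℝ} (hu : C.Sm u) :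
    ∫ x, C.G u u x ∂μ ≤ (3 / 4) * ∫ x, C.L u x ^ 2 ∂μ := by
  have h1 := int_Rb (μ := μ) hu
  have i1 : Integrable (fun x => C.L u x ^ 2) μ := integrable_sm (sm_pow (C.sm_L hu) 2)
  have i2 : Integrable (C.Rb u) μ := integrable_sm (sm_Rb hu)
  have h2 : ∫ x, (1 / 4) * C.L u x ^ 2 ∂μ ≤ ∫ x, C.Rb u x ∂μ :=
    integral_mono (i1.const_mul _) i2 fun x => by
      have a1 := L_sq_le (C := C) u x
      have a2 := Q_le_Rb hu x
      simp only
      linarith
  rw [integral_const_mul] at h2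
  linarith

/-- **Lichnerowicz**. -/
theorem poinc {g : X → ℝ} (hg : C.Sm g) (h0 : ∫ x, g x ∂μ = 0) :
    ∫ x, g x ^ 2 ∂μ ≤ (3 / 4) * ∫ x, C.G g g x ∂μ := by
  obtain ⟨u, hu, hL⟩ := C.poisson hg h0
  have h1 := energy_le hu
  have e1 : (fun x => C.L u x ^ 2) = fun x => g x ^ 2 := by funext x; rw [hL x]
  have e2 : ∫ x, C.L u x ^ 2 ∂μ = ∫ x, g x ^ 2 ∂μ := by rw [e1]
  rw [e2] at h1
  have h2 := C.int_parts hg hu
  have e3 : ∫ x, g x * C.L u x ∂μ = ∫ x, g x ^ 2 ∂μ := by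
    congr 1; funext x; rw [hL x]; ring
  rw [e3] at h2
  have iG : Integrable (fun x => C.G g u x) μ := integrable_sm (C.sm_G hg hu)
  have i1 : Integrable (fun x => C.G g g x) μ := integrable_sm (C.sm_G hg hg)
  have i2 : Integrable (fun x => C.G u u x) μ := integrable_sm (C.sm_G hu hu)
  have h3 : - ∫ x, C.G g u x ∂μ ≤ ∫ x, ((3 / 8) * C.G g g x + (2 / 3) * C.G u u x) ∂μ := by
    rw [← integral_neg]
    refine integral_mono iG.neg ((i1.const_mul _).add (i2.const_mul _)) fun x => ?_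
    have a1 := two_G_le (C := C) g u x (c := 3 / 4) (by norm_num)
    have a2 := neg_abs_le (C.G g u x)
    norm_num at a1
    simp only
    linarith
  have e4 : C.toCalc0.G g u = fun x => C.G g u x := rfl
  rw [integral_add (i1.const_mul _) (i2.const_mul _), integral_const_mul, integral_const_mul] at h3
  linarith

/-- the key dichotomy at accuracy `ε`. -/
theorem dich {F : X → ℝ} (sF : C.Sm F) (F0 : ∀ x, 0 ≤ F x) {B : ℝ} (hB : 0 ≤ B)
    (FB : ∀ x, F x ≤ B) {ε : ℝ} (V0 : 0 < μ.real univ)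
    (h1 : ∫ x, C.G F F x ∂μ ≤ ε) (h2 : ∫ x, (F x * (1 - F x)) ^ 2 ∂μ ≤ ε) :
    ∫ x, F x ^ 2 ∂μ ≤ (2 + 8 * (2 + 2 * (1 + 2 * B) ^ 2)) * ε ∨
    ∫ x, (1 - F x) ^ 2 ∂μ ≤ (2 + 8 * (2 + 2 * (1 + 2 * B) ^ 2)) * ε := by
  have cF : Continuous F := C.sm_cont sF
  set V := μ.real univ with hV
  set m := (∫ x, F x ∂μ) / V with hm
  have iF : Integrable F μ := integrable_cont cF
  have m0 : 0 ≤ m := div_nonneg (integral_nonneg F0) V0.le
  have mC : m ≤ B := by
    rw [hm, div_le_iff₀ V0]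
    calc ∫ x, F x ∂μ ≤ ∫ x, B ∂μ := integral_mono iF (integrable_const _) FB
      _ = B * V := by rw [integral_const, smul_eq_mul, mul_comm]
  set H : X → ℝ := fun x => F x - m with hH
  have sH : C.Sm H := sm_sub sF (sm_const m)
  have cH : Continuous H := C.sm_cont sH
  have iH : ∫ x, H x ∂μ = 0 := by
    rw [hH, integral_sub iF (integrable_const _), integral_const, smul_eq_mul, ← hV, hm]
    field_simp
    ring
  have hp := poinc sH iH
  have e1 : ∀ x, C.G H H x = C.G F F x := by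
    intro x
    simp only [hH]
    rw [G_sub_left sF (sm_const m), G_const_left, G_sub_right sF (sm_const m),
      G_symm F (fun _ => m), G_const_left]
    ring
  simp only [e1] at hp
  set Q := ∫ x, H x ^ 2 ∂μ with hQ
  have hQε : Q ≤ ε := by
    have : 0 ≤ ∫ x, C.G F F x ∂μ := integral_nonneg fun x => G_self_nonneg F x
    linarith
  have hε : 0 ≤ ε := le_trans (integral_nonneg fun x => sq_nonneg _) h2
  have q1 : V * (m * (1 - m)) ^ 2 ≤ 2 * ε + 2 * (1 + 2 * B) ^ 2 * ε := by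
    have k1 : ∀ x, (m * (1 - m)) ^ 2 ≤ 2 * (F x * (1 - F x)) ^ 2 + 2 * (1 + 2 * B) ^ 2 * H x ^ 2 := by
      intro x
      have a1 := F0 x
      have a2 := FB x
      have a3 : (F x * (1 - F x) - m * (1 - m)) ^ 2 ≤ (1 + 2 * B) ^ 2 * H x ^ 2 := by
        have e : F x * (1 - F x) - m * (1 - m) = (1 - F x - m) * H x := by
          simp only [hH]; ring
        rw [e, mul_pow]
        apply mul_le_mul_of_nonneg_right _ (sq_nonneg _)
        apply sq_le_sq'
        · linarith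
        · linarith
      nlinarith [sq_nonneg (2 * (F x * (1 - F x)) - m * (1 - m))]
    have k2 : ∫ x, (m * (1 - m)) ^ 2 ∂μ ≤
        ∫ x, (2 * (F x * (1 - F x)) ^ 2 + 2 * (1 + 2 * B) ^ 2 * H x ^ 2) ∂μ := by
      refine integral_mono (integrable_const _) (integrable_cont ?_) k1
      exact (continuous_const.mul ((cF.mul (continuous_const.sub cF)).pow 2)).add
        (continuous_const.mul (cH.pow 2))
    rw [integral_const, smul_eq_mul, integral_add, integral_const_mul, integral_const_mul] at k2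
    · have k3 : 2 * (1 + 2 * B) ^ 2 * Q ≤ 2 * (1 + 2 * B) ^ 2 * ε :=
        mul_le_mul_of_nonneg_left hQε (by positivity)
      linarith
    · exact integrable_cont (continuous_const.mul ((cF.mul (continuous_const.sub cF)).pow 2))
    · exact integrable_cont (continuous_const.mul (cH.pow 2))
  set D := 2 + 2 * (1 + 2 * B) ^ 2 with hD
  have q2 : V * (m * (1 - m)) ^ 2 ≤ D * ε := by
    refine q1.trans (le_of_eq ?_)
    rw [hD]; ring
  rcases le_total m (1 / 2) with hm2 | hm2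
  · left
    have k1 : ∀ x, F x ^ 2 ≤ 2 * H x ^ 2 + 2 * m ^ 2 := by
      intro x
      simp only [hH]
      nlinarith [sq_nonneg (F x - 2 * m)]
    have k2 : ∫ x, F x ^ 2 ∂μ ≤ ∫ x, (2 * H x ^ 2 + 2 * m ^ 2) ∂μ :=
      integral_mono (integrable_cont (cF.pow 2))
        (integrable_cont ((continuous_const.mul (cH.pow 2)).add continuous_const)) k1
    rw [integral_add, integral_const_mul, integral_const, smul_eq_mul] at k2
    · have k3 : V * m ^ 2 ≤ 4 * (V * (m * (1 - m)) ^ 2) := by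
        have : m ^ 2 ≤ 4 * (m * (1 - m)) ^ 2 := by
          rw [mul_pow]
          nlinarith [mul_nonneg (sq_nonneg m) (by nlinarith : (0:ℝ) ≤ 4 * (1 - m) ^ 2 - 1)]
        nlinarith
      linarith
    · exact integrable_cont (continuous_const.mul (cH.pow 2))
    · exact integrable_const _
  · right
    have k1 : ∀ x, (1 - F x) ^ 2 ≤ 2 * H x ^ 2 + 2 * (1 - m) ^ 2 := by
      intro x
      simp only [hH]
      nlinarith [sq_nonneg ((1 - F x) - 2 * (1 - m))]
    have k2 : ∫ x, (1 - F x) ^ 2 ∂μ ≤ ∫ x, (2 * H x ^ 2 + 2 * (1 - m) ^ 2) ∂μ :=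
      integral_mono (integrable_cont ((continuous_const.sub cF).pow 2))
        (integrable_cont ((continuous_const.mul (cH.pow 2)).add continuous_const)) k1
    rw [integral_add, integral_const_mul, integral_const, smul_eq_mul] at k2
    · have k3 : V * (1 - m) ^ 2 ≤ 4 * (V * (m * (1 - m)) ^ 2) := by
        have : (1 - m) ^ 2 ≤ 4 * (m * (1 - m)) ^ 2 := by
          rw [mul_pow]
          nlinarith [mul_nonneg (sq_nonneg (1 - m)) (by nlinarith : (0:ℝ) ≤ 4 * m ^ 2 - 1)]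
        nlinarith
      linarith
    · exact integrable_cont (continuous_const.mul (cH.pow 2))
    · exact integrable_const _

/-- two smooth functions `≥ 0` with `h₁ L h₂ = 0 = h₁ h₂` and Rayleigh quotients `≤ 13/10 < 4/3`:
one of them has integral zero. -/
theorem disj_aux {h₁ h₂ : X → ℝ} (s₁ : C.Sm h₁) (s₂ : C.Sm h₂) (n₁ : ∀ x, 0 ≤ h₁ x)
    (n₂ : ∀ x, 0 ≤ h₂ x) (hL : ∀ x, h₁ x * C.L h₂ x = 0) (hh : ∀ x, h₁ x * h₂ x = 0)
    (r₁ : ∫ x, C.G h₁ h₁ x ∂μ ≤ (13 / 10) * ∫ x, h₁ x ^ 2 ∂μ)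
    (r₂ : ∫ x, C.G h₂ h₂ x ∂μ ≤ (13 / 10) * ∫ x, h₂ x ^ 2 ∂μ) :
    (∫ x, h₁ x ^ 2 ∂μ = 0) ∨ (∫ x, h₂ x ∂μ = 0) := by
  set a := ∫ x, h₁ x ∂μ with ha
  set b := ∫ x, h₂ x ∂μ with hb
  have i₁ : Integrable h₁ μ := integrable_sm s₁
  have i₂ : Integrable h₂ μ := integrable_sm s₂
  by_cases hb0 : b = 0
  · exact Or.inr hb0
  left
  set w : X → ℝ := fun x => b * h₁ x - a * h₂ x with hw
  have sw : C.Sm w := sm_sub (sm_smul b s₁) (sm_smul a s₂)
  have w0 : ∫ x, w x ∂μ = 0 := by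
    rw [hw, integral_sub (i₁.const_mul _) (i₂.const_mul _), integral_const_mul,
      integral_const_mul, ← ha, ← hb]
    ring
  have hp := poinc sw w0
  have eG : ∀ x, C.G w w x = b ^ 2 * C.G h₁ h₁ x + a ^ 2 * C.G h₂ h₂ x -
      (2 * a * b) * C.G h₁ h₂ x := by
    intro x
    simp only [hw]
    rw [G_sub_left (sm_smul b s₁) (sm_smul a s₂), G_smul_left b s₁, G_smul_left a s₂,
      G_sub_right (sm_smul b s₁) (sm_smul a s₂), G_sub_right (sm_smul b s₁) (sm_smul a s₂),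
      G_smul_right b s₁, G_smul_right a s₂, G_smul_right b s₁, G_smul_right a s₂, G_symm h₂ h₁]
    ring
  have j1 : Integrable (fun x => C.G h₁ h₁ x) μ := integrable_sm (C.sm_G s₁ s₁)
  have j2 : Integrable (fun x => C.G h₂ h₂ x) μ := integrable_sm (C.sm_G s₂ s₂)
  have j3 : Integrable (fun x => C.G h₁ h₂ x) μ := integrable_sm (C.sm_G s₁ s₂)
  have k1 : Integrable (fun x => h₁ x ^ 2) μ := integrable_sm (sm_pow s₁ 2)
  have k2 : Integrable (fun x => h₂ x ^ 2) μ := integrable_sm (sm_pow s₂ 2)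
  have z3 : ∫ x, C.G h₁ h₂ x ∂μ = 0 := by
    have h1 := int_G (μ := μ) s₁ s₂
    rw [h1]
    simp only [hL]
    simp
  have iGw : ∫ x, C.G w w x ∂μ = b ^ 2 * ∫ x, C.G h₁ h₁ x ∂μ + a ^ 2 * ∫ x, C.G h₂ h₂ x ∂μ := by
    simp only [eG]
    have j4 : Integrable (fun x => b ^ 2 * C.G h₁ h₁ x + a ^ 2 * C.G h₂ h₂ x) μ :=
      (j1.const_mul _).add (j2.const_mul _)
    rw [integral_sub j4 (j3.const_mul _), integral_add (j1.const_mul _) (j2.const_mul _),
      integral_const_mul, integral_const_mul, integral_const_mul, z3]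
    ring
  have ew : ∀ x, w x ^ 2 = b ^ 2 * h₁ x ^ 2 + a ^ 2 * h₂ x ^ 2 := by
    intro x
    have := hh x
    simp only [hw]
    have e : (b * h₁ x - a * h₂ x) ^ 2 = b ^ 2 * h₁ x ^ 2 + a ^ 2 * h₂ x ^ 2 -
        2 * a * b * (h₁ x * h₂ x) := by ring
    rw [e, this]; ring
  have iw : ∫ x, w x ^ 2 ∂μ = b ^ 2 * ∫ x, h₁ x ^ 2 ∂μ + a ^ 2 * ∫ x, h₂ x ^ 2 ∂μ := by
    simp only [ew]
    rw [integral_add (k1.const_mul _) (k2.const_mul _), integral_const_mul, integral_const_mul]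
  rw [iw, iGw] at hp
  have p1 : 0 ≤ ∫ x, h₁ x ^ 2 ∂μ := integral_nonneg fun x => sq_nonneg _
  have p2 : 0 ≤ ∫ x, h₂ x ^ 2 ∂μ := integral_nonneg fun x => sq_nonneg _
  have hb2 : 0 < b ^ 2 := by positivity
  have q1 := mul_le_mul_of_nonneg_left r₁ hb2.le
  have q2 := mul_le_mul_of_nonneg_left r₂ (sq_nonneg a)
  have q3 : 0 ≤ b ^ 2 * ∫ x, h₁ x ^ 2 ∂μ := mul_nonneg hb2.le p1
  have q4 : 0 ≤ a ^ 2 * ∫ x, h₂ x ^ 2 ∂μ := mul_nonneg (sq_nonneg a) p2
  have q5 : b ^ 2 * ∫ x, h₁ x ^ 2 ∂μ = 0 := by linarith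
  exact (mul_eq_zero.1 q5).resolve_left hb2.ne'

/-- the Rayleigh quotient of the truncated function -/
theorem rayleigh3 {d : ℝ} (hd : 0 < d) (hd2 : d ≤ 1 / 1000) {F : X → ℝ} (H : STC C F)
    (h2 : ∀ x, Real.sqrt (F x) ≤ 2) (hu : ∀ x, reg d F x ≤ 63 / 50) :
    ∫ x, C.G (fun y => chi (reg d F y)) (fun y => chi (reg d F y)) x ∂μ ≤
      (13 / 10) * ∫ x, chi (reg d F x) ^ 2 ∂μ := by
  have hd8 : d ≤ 1 / 8 := by linarith
  have sR := sm_reg (C := C) hd H.nonneg H.smooth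
  have sh : C.Sm (fun y => chi (reg d F y)) := sm_comp' contDiff_chi sR
  have hL := fun x => L_comp' (C := C) contDiff_chi sR x
  rw [deriv_chi, deriv_chi1] at hL
  rw [int_G sh sh, ← integral_neg, ← integral_const_mul]
  refine integral_mono (integrable_sm (sm_mul sh (C.sm_L sh))).neg
    ((integrable_sm (sm_pow sh 2)).const_mul _) fun x => ?_
  have hsub := reg_sub hd hd8 H h2 x
  have hk := key hd hd2 (hu x)
  have c0 := chi_nonneg (reg d F x)
  have c1 := chi1_nonneg (reg d F x)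
  have c2 := chi2_nonneg (reg d F x)
  have hG := G_self_nonneg (C := C) (reg d F) x
  have e1 : C.L (fun y => chi (reg d F y)) x = chi1 (reg d F x) * C.L (reg d F) x +
      chi2 (reg d F x) * C.G (reg d F) (reg d F) x := hL x
  simp only
  rw [e1]
  have a1 : - (chi1 (reg d F x) * C.L (reg d F) x + chi2 (reg d F x) * C.G (reg d F) (reg d F) x) ≤
      (13 / 10) * chi (reg d F x) := by
    have b1 : chi1 (reg d F x) * fd d (reg d F x) ≤ chi1 (reg d F x) * C.L (reg d F) x :=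
      mul_le_mul_of_nonneg_left hsub c1
    have b2 := mul_nonneg c2 hG
    linarith
  nlinarith

/-- a continuous nonnegative function with zero integral vanishes -/
theorem zero_of_int [μ.IsOpenPosMeasure] {g : X → ℝ} (hg : Continuous g) (h0 : ∀ x, 0 ≤ g x)
    (hi : ∫ x, g x ∂μ = 0) (x : X) : g x = 0 := by
  have h1 := (integral_eq_zero_iff_of_nonneg h0 (integrable_cont hg)).1 hi
  have h2 := Continuous.ae_eq_iff_eq μ hg (continuous_const (y := (0:ℝ)))
  have h3 := h2.1 h1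
  exact congrFun h3 x

/-- **the disjoint case**. -/
theorem disjoint3 [μ.IsOpenPosMeasure] {F₁ F₂ : X → ℝ} (H₁ : STC C F₁) (H₂ : STC C F₂)
    (hs : ∀ x, Real.sqrt (F₁ x) + Real.sqrt (F₂ x) ≤ 2)
    (hmin : ∀ x, F₁ x ≤ 1 / 64 ∨ F₂ x ≤ 1 / 64) :
    (∀ x, F₁ x < 1) ∨ (∀ x, F₂ x < 1) := by
  set d : ℝ := 1 / 1000 with hd
  have hd0 : 0 < d := by norm_num [hd]
  have hd2 : d ≤ 1 / 1000 := le_rfl
  have hd8 : d ≤ 1 / 8 := by norm_num [hd]
  have b₁ : ∀ x, Real.sqrt (F₁ x) ≤ 2 := fun x => by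
    have := hs x; have := Real.sqrt_nonneg (F₂ x); linarith
  have b₂ : ∀ x, Real.sqrt (F₂ x) ≤ 2 := fun x => by
    have := hs x; have := Real.sqrt_nonneg (F₁ x); linarith
  have D := dat_of_STC hd0 hd8 H₁ H₂ hs
  have u₁ : ∀ x, reg d F₁ x ≤ 63 / 50 := fun x => cube_le_63 (D.φpos x).le (by
    have := D.sum_le x; have := pow_pos (D.ψpos x) 3; linarith)
  have u₂ : ∀ x, reg d F₂ x ≤ 63 / 50 := fun x => cube_le_63 (D.ψpos x).le (by
    have := D.sum_le x; have := pow_pos (D.φpos x) 3; linarith)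
  have t1 := th3_le hd0
  have t2 := th3_ge hd0 hd8
  have small : ∀ F : X → ℝ, (∀ x, 0 ≤ F x) → ∀ x, F x ≤ 1 / 64 → reg d F x ≤ 11 / 20 := by
    intro F hF x hx
    refine le_of_cube_le (by norm_num) ?_
    rw [reg_cube hd0 hd8 hF]
    have h1 : Real.sqrt (F x + d ^ 2) ≤ 13 / 100 := by
      rw [Real.sqrt_le_left (by norm_num)]
      norm_num [hd]
      linarith
    have h2 : 0 ≤ Real.sqrt (F x + d ^ 2) := Real.sqrt_nonneg _
    calc th3 d * Real.sqrt (F x + d ^ 2) ≤ 1 * (13 / 100) :=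
          mul_le_mul t1 h1 h2 (by norm_num)
      _ ≤ (11 / 20) ^ 3 := by norm_num
  have s₁ : C.Sm (fun y => chi (reg d F₁ y)) :=
    sm_comp' contDiff_chi (sm_reg hd0 H₁.nonneg H₁.smooth)
  have sR₂ := sm_reg (C := C) hd0 H₂.nonneg H₂.smooth
  have s₂ : C.Sm (fun y => chi (reg d F₂ y)) := sm_comp' contDiff_chi sR₂
  have hL : ∀ x, chi (reg d F₁ x) * C.L (fun y => chi (reg d F₂ y)) x = 0 := by
    intro x
    rcases hmin x with h | h
    · rw [chi_zero (small F₁ H₁.nonneg x h), zero_mul]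
    · have e1 := L_comp' (C := C) contDiff_chi sR₂ x
      rw [deriv_chi, deriv_chi1] at e1
      have hz := small F₂ H₂.nonneg x h
      rw [e1, chi1_zero hz, chi2_zero hz]
      ring
  have hh : ∀ x, chi (reg d F₁ x) * chi (reg d F₂ x) = 0 := by
    intro x
    rcases hmin x with h | h
    · rw [chi_zero (small F₁ H₁.nonneg x h), zero_mul]
    · rw [chi_zero (small F₂ H₂.nonneg x h), mul_zero]
  have fin : ∀ F : X → ℝ, (∀ x, 0 ≤ F x) → (∀ x, chi (reg d F x) = 0) → ∀ x, F x < 1 := by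
    intro F hF h x
    have h1 : reg d F x ≤ 11 / 20 := by
      by_contra hcon
      rw [not_le] at hcon
      exact (chi_pos hcon).ne' (h x)
    have h2 : reg d F x ^ 3 ≤ (11 / 20) ^ 3 :=
      pow_le_pow_left₀ (reg_pos hd0 hd8 hF x).le h1 3
    rw [reg_cube hd0 hd8 hF] at h2
    by_contra hcon
    rw [not_lt] at hcon
    have h3 : 1 ≤ Real.sqrt (F x + d ^ 2) := by
      rw [Real.one_le_sqrt]
      have := sq_nonneg d
      linarith
    have h4 : (11 / 20 : ℝ) ^ 3 ≤ 1 / 5 := by norm_num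
    have h5 : (1 / 2) * 1 ≤ th3 d * Real.sqrt (F x + d ^ 2) :=
      mul_le_mul t2 h3 zero_le_one (by linarith)
    linarith
  rcases disj_aux s₁ s₂ (fun x => chi_nonneg _) (fun x => chi_nonneg _) hL hh
    (rayleigh3 hd0 hd2 H₁ b₁ u₁) (rayleigh3 hd0 hd2 H₂ b₂ u₂) with h | h
  · left
    refine fin F₁ H₁.nonneg fun x => ?_
    have := zero_of_int (μ := μ) ((C.sm_cont s₁).pow 2) (fun x => sq_nonneg _) h x
    exact pow_eq_zero_iff (two_ne_zero) |>.1 this
  · right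
    refine fin F₂ H₂.nonneg fun x => ?_
    exact zero_of_int (μ := μ) (C.sm_cont s₂) (fun x => chi_nonneg _) h x

end Crest.Agent.R249.StH_912
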