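import Crest.Agent.R249.StHb_912

/-!
Row 249, part A2 (helper912), task A2-FIN3, file 3 (abstract calculus): the final deduction for the
truncated / relaxed pair.

`Appr C g F₁ F₂ a ε φ ψ` : `φ, ψ ≥ g`, `φ + ψ ≤ 2 + ε`, `F₁^(1/6) ≤ φ + ε`, `F₂^(1/6) ≤ ψ + ε`,
`∫ |dF|² + (F (1 - F))² ≤ ε`, `F = ((φ - g)(ψ - g)/(1 - g)²)^a`.
`final3` : if such pairs exist for every `ε > 0`, then `F₁ < 1` or `F₂ < 1` or `F₁, F₂ ≤ 1`.
-/

set_option autoImplicit false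
set_option linter.unusedVariables false
set_option linter.unusedSectionVars false

open MeasureTheory Set Filter Topology Matrix
open scoped ContDiff

noncomputable section

namespace Crest.Agent.R249.StH_912

open Calc_806 Calc_806.Calc Pen_806 IntA_780

section Def

variable {X : Type*} [TopologicalSpace X] [MeasurableSpace X] {μ : Measure X}

/-- `F = ((φ - g)(ψ - g)/(1 - g)²)^a` -/
def Fq (g : ℝ) (a : ℕ) (φ ψ : X → ℝ) (x : X) : ℝ := ((φ x - g) * (ψ x - g) / (1 - g) ^ 2) ^ a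

/-- **Input of the final deduction** (abstract calculus). -/
structure Appr (C : Calc X μ) (g : ℝ) (F₁ F₂ : X → ℝ) (a : ℕ) (ε : ℝ) (φ ψ : X → ℝ) : Prop where
  sφ : C.Sm φ
  sψ : C.Sm ψ
  gφ : ∀ x, g ≤ φ x
  gψ : ∀ x, g ≤ ψ x
  sum : ∀ x, φ x + ψ x ≤ 2 + ε
  lφ : ∀ x, F₁ x ^ (1 / 6 : ℝ) ≤ φ x + ε
  lψ : ∀ x, F₂ x ^ (1 / 6 : ℝ) ≤ ψ x + ε
  int : ∫ x, (C.G (Fq g a φ ψ) (Fq g a φ ψ) x +
    (Fq g a φ ψ x * (1 - Fq g a φ ψ x)) ^ 2) ∂μ ≤ ε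

end Def

variable {X : Type*} [TopologicalSpace X] [CompactSpace X] [MeasurableSpace X]
  [OpensMeasurableSpace X] {μ : Measure X} [IsFiniteMeasure μ] {C : Calc X μ}
  {g : ℝ} {F₁ F₂ : X → ℝ} {a : ℕ} {ε : ℝ} {φ ψ : X → ℝ}

theorem Appr.mono (h : Appr C g F₁ F₂ a ε φ ψ) {ε' : ℝ} (he : ε ≤ ε') :
    Appr C g F₁ F₂ a ε' φ ψ where
  sφ := h.sφ
  sψ := h.sψ
  gφ := h.gφ
  gψ := h.gψ
  sum := fun x => (h.sum x).trans (by linarith)
  lφ := fun x => (h.lφ x).trans (by linarith)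
  lψ := fun x => (h.lψ x).trans (by linarith)
  int := h.int.trans he

theorem Fq_symm (g : ℝ) (a : ℕ) (φ ψ : X → ℝ) : Fq g a ψ φ = Fq g a φ ψ := by
  funext x; simp only [Fq, mul_comm]

theorem Appr.symm (h : Appr C g F₁ F₂ a ε φ ψ) : Appr C g F₂ F₁ a ε ψ φ where
  sφ := h.sψ
  sψ := h.sφ
  gφ := h.gψ
  gψ := h.gφ
  sum := fun x => by rw [add_comm]; exact h.sum x
  lφ := h.lψ
  lψ := h.lφ
  int := by rw [Fq_symm]; exact h.int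

/-- the base of `Fq` -/
theorem Appr.base (h : Appr C g F₁ F₂ a ε φ ψ) (x : X) :
    0 ≤ (φ x - g) * (ψ x - g) / (1 - g) ^ 2 := by
  have h1 := h.gφ x
  have h2 := h.gψ x
  exact div_nonneg (mul_nonneg (by linarith) (by linarith)) (sq_nonneg _)

theorem Appr.sF (h : Appr C g F₁ F₂ a ε φ ψ) : C.Sm (Fq g a φ ψ) := by
  have h1 := sm_pow (C := C) (sm_smul (((1 - g) ^ 2)⁻¹)
    (sm_mul (sm_sub h.sφ (sm_const g)) (sm_sub h.sψ (sm_const g)))) a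
  have e : Fq g a φ ψ = fun x => (((1 - g) ^ 2)⁻¹ * ((φ x - g) * (ψ x - g))) ^ a := by
    funext x; rw [Fq, div_eq_inv_mul]
  rw [e]; exact h1

theorem Appr.F0 (h : Appr C g F₁ F₂ a ε φ ψ) (x : X) : 0 ≤ Fq g a φ ψ x :=
  pow_nonneg (h.base x) a

theorem Appr.F4 (h : Appr C g F₁ F₂ a ε φ ψ) (hg : g ≤ 1 / 2) (hε : ε ≤ 1)
    (x : X) : Fq g a φ ψ x ≤ 4 ^ a := by
  refine pow_le_pow_left₀ (h.base x) ?_ a
  have h1 := h.gφ x
  have h2 := h.gψ x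
  have h3 := h.sum x
  rw [div_le_iff₀ (by nlinarith)]
  nlinarith [sq_nonneg (φ x - ψ x)]

theorem Appr.ints (h : Appr C g F₁ F₂ a ε φ ψ) :
    ∫ x, C.G (Fq g a φ ψ) (Fq g a φ ψ) x ∂μ ≤ ε ∧
      ∫ x, (Fq g a φ ψ x * (1 - Fq g a φ ψ x)) ^ 2 ∂μ ≤ ε := by
  have sF := h.sF
  have i1 : Integrable (fun x => C.G (Fq g a φ ψ) (Fq g a φ ψ) x) μ :=
    integrable_sm (C.sm_G sF sF)
  have i2 : Integrable (fun x => (Fq g a φ ψ x * (1 - Fq g a φ ψ x)) ^ 2) μ :=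
    integrable_sm (sm_pow (sm_mul sF (sm_sub (sm_const 1) sF)) 2)
  have h1 := h.int
  rw [integral_add i1 i2] at h1
  have p1 : 0 ≤ ∫ x, C.G (Fq g a φ ψ) (Fq g a φ ψ) x ∂μ :=
    integral_nonneg fun x => G_self_nonneg _ x
  have p2 : 0 ≤ ∫ x, (Fq g a φ ψ x * (1 - Fq g a φ ψ x)) ^ 2 ∂μ :=
    integral_nonneg fun x => sq_nonneg _
  exact ⟨by linarith, by linarith⟩

theorem real_pos [μ.IsOpenPosMeasure] {U : Set X} (hU : IsOpen U) (hne : U.Nonempty) :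
    0 < μ.real U := by
  rw [measureReal_def]
  exact ENNReal.toReal_pos (hU.measure_pos μ hne).ne' (measure_ne_top _ _)

theorem lower {G : X → ℝ} (hg : Continuous G) (hn : ∀ x, 0 ≤ G x) {U : Set X} (hU : IsOpen U)
    {c : ℝ} (hc : ∀ x ∈ U, c ≤ G x) : c * μ.real U ≤ ∫ x, G x ∂μ := by
  have hgi : Integrable G μ := integrable_cont hg
  calc c * μ.real U = ∫ x in U, c ∂μ := by
        rw [setIntegral_const, smul_eq_mul, mul_comm]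
    _ ≤ ∫ x in U, G x ∂μ :=
        setIntegral_mono_on (integrable_const _).integrableOn hgi.integrableOn hU.measurableSet hc
    _ ≤ ∫ x, G x ∂μ := setIntegral_le_integral hgi (Eventually.of_forall hn)

theorem continuous_root (hF : Continuous F₁) : Continuous fun x => F₁ x ^ (1 / 6 : ℝ) :=
  hF.rpow_const fun x => Or.inr (by norm_num)

theorem alg_one {u v g t η : ℝ} {a : ℕ} (ha : 1 ≤ a) (hg0 : 0 ≤ g) (hg : g ≤ 1 / 2) (ht0 : 0 < t)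
    (ht1 : t ≤ 1 / 2) (hη0 : 0 < η) (hη1 : η ≤ t ^ 2 / 16) (hu : 1 + 2 * t < u + η) (hug : g ≤ u)
    (hv : g ≤ v) (hs : u + v ≤ 2 + η) :
    t ^ 2 / 8 ≤ 1 - ((u - g) * (v - g) / (1 - g) ^ 2) ^ a := by
  have h1g : 0 < 1 - g := by linarith
  have hg2 : 0 < (1 - g) ^ 2 := by positivity
  have ht2 : t ^ 2 ≤ t / 2 := by nlinarith
  have hηt : η ≤ t := by linarith
  have hu1 : 1 + t ≤ u := by linarith
  have h6 : t ≤ u - v := by linarith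
  have hs0 : 0 ≤ u + v - 2 * g := by linarith
  have hs1 : u + v - 2 * g ≤ 2 * (1 - g) + η := by linarith
  have e : (u - g) * (v - g) = ((u + v - 2 * g) ^ 2 - (u - v) ^ 2) / 4 := by ring
  have h7 : (u + v - 2 * g) ^ 2 ≤ (2 * (1 - g) + η) ^ 2 := pow_le_pow_left₀ hs0 hs1 2
  have h8 : t ^ 2 ≤ (u - v) ^ 2 := pow_le_pow_left₀ ht0.le h6 2
  have e7 : (2 * (1 - g) + η) ^ 2 = 4 * (1 - g) ^ 2 + 4 * η - 4 * (g * η) + η ^ 2 := by ring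
  have h71 : 0 ≤ g * η := mul_nonneg hg0 hη0.le
  have h72 : η ^ 2 ≤ η := by nlinarith
  have h9 : (u - g) * (v - g) ≤ (1 - g) ^ 2 - t ^ 2 / 8 := by
    rw [e]
    rw [e7] at h7
    linarith [sq_nonneg t]
  have hb : 0 ≤ (u - g) * (v - g) / (1 - g) ^ 2 :=
    div_nonneg (mul_nonneg (by linarith) (by linarith)) hg2.le
  have hb1 : (u - g) * (v - g) / (1 - g) ^ 2 ≤ 1 - t ^ 2 / 8 := by
    rw [div_le_iff₀ hg2]
    have h10 : (1 - g) ^ 2 ≤ 1 := by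
      rw [sq]
      exact mul_le_one₀ (by linarith) h1g.le (by linarith)
    have h11 : t ^ 2 * (1 - g) ^ 2 ≤ t ^ 2 * 1 := mul_le_mul_of_nonneg_left h10 (sq_nonneg t)
    linarith
  have hra : ((u - g) * (v - g) / (1 - g) ^ 2) ^ a ≤ (u - g) * (v - g) / (1 - g) ^ 2 := by
    calc ((u - g) * (v - g) / (1 - g) ^ 2) ^ a ≤ ((u - g) * (v - g) / (1 - g) ^ 2) ^ 1 :=
          pow_le_pow_of_le_one hb (by linarith [sq_nonneg t]) ha
      _ = _ := pow_one _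
  linarith

/-- case `F → 1` -/
theorem le_one_of [μ.IsOpenPosMeasure] (hg0 : 0 ≤ g) (hg : g ≤ 1 / 2) (ha : 1 ≤ a)
    (H₁ : STC C F₁)
    (hQ : ∀ η : ℝ, 0 < η → ∃ φ ψ : X → ℝ, Appr C g F₁ F₂ a η φ ψ ∧
      ∫ x, (1 - Fq g a φ ψ x) ^ 2 ∂μ ≤ η) (x : X) : F₁ x ≤ 1 := by
  by_contra hcon
  rw [not_le] at hcon
  have hF := C.sm_cont H₁.smooth
  have hroot := continuous_root hF
  have h1 : 1 < F₁ x ^ (1 / 6 : ℝ) := Real.one_lt_rpow hcon (by norm_num)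
  obtain ⟨t, ht0, ht1, ht2⟩ : ∃ t : ℝ, 0 < t ∧ t ≤ 1 / 2 ∧ 1 + 2 * t < F₁ x ^ (1 / 6 : ℝ) := by
    refine ⟨min (1 / 2) ((F₁ x ^ (1 / 6 : ℝ) - 1) / 4), lt_min (by norm_num) (by linarith),
      min_le_left _ _, ?_⟩
    have := min_le_right (1 / 2 : ℝ) ((F₁ x ^ (1 / 6 : ℝ) - 1) / 4)
    linarith
  set U : Set X := {y | 1 + 2 * t < F₁ y ^ (1 / 6 : ℝ)} with hU
  have hUo : IsOpen U := isOpen_lt continuous_const hroot
  have hUp : 0 < μ.real U := real_pos hUo ⟨x, ht2⟩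
  obtain ⟨φ, ψ, hA, hI⟩ := hQ (min (t ^ 2 / 16) ((t ^ 2 / 8) ^ 2 * μ.real U / 2)) (by positivity)
  set η := min (t ^ 2 / 16) ((t ^ 2 / 8) ^ 2 * μ.real U / 2) with hη
  have hη1 : η ≤ t ^ 2 / 16 := min_le_left _ _
  have hη2 : η ≤ (t ^ 2 / 8) ^ 2 * μ.real U / 2 := min_le_right _ _
  have hη0 : 0 < η := by positivity
  have key : ∀ y ∈ U, (t ^ 2 / 8) ^ 2 ≤ (1 - Fq g a φ ψ y) ^ 2 := by
    intro y hy
    have hy' : 1 + 2 * t < F₁ y ^ (1 / 6 : ℝ) := hy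
    have h10 : t ^ 2 / 8 ≤ 1 - ((φ y - g) * (ψ y - g) / (1 - g) ^ 2) ^ a :=
      alg_one ha hg0 hg ht0 ht1 hη0 hη1 (lt_of_lt_of_le hy' (hA.lφ y)) (hA.gφ y) (hA.gψ y)
        (hA.sum y)
    exact pow_le_pow_left₀ (by positivity) h10 2
  have hc : Continuous fun y => (1 - Fq g a φ ψ y) ^ 2 :=
    (continuous_const.sub (C.sm_cont hA.sF)).pow 2
  have h7 := lower (μ := μ) hc (fun y => sq_nonneg _) hUo key
  have h8 : 0 < (t ^ 2 / 8) ^ 2 * μ.real U := by positivity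
  linarith

/-- case `F → 0` -/
theorem min_of [μ.IsOpenPosMeasure] (hg0 : 0 ≤ g) (hg : g ≤ 1 / 2)
    (H₁ : STC C F₁) (H₂ : STC C F₂)
    (hQ : ∀ η : ℝ, 0 < η → ∃ φ ψ : X → ℝ, Appr C g F₁ F₂ a η φ ψ ∧
      ∫ x, Fq g a φ ψ x ^ 2 ∂μ ≤ η) (x : X) : F₁ x ≤ 1 / 64 ∨ F₂ x ≤ 1 / 64 := by
  by_contra hcon
  rw [not_or, not_le, not_le] at hcon
  have r₁ := continuous_root (C.sm_cont H₁.smooth)
  have r₂ := continuous_root (C.sm_cont H₂.smooth)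
  have e64 : ((1 / 64 : ℝ)) ^ (1 / 6 : ℝ) = 1 / 2 := by
    have : (1 / 64 : ℝ) = (1 / 2) ^ (6 : ℝ) := by norm_num
    rw [this, ← Real.rpow_mul (by norm_num)]
    norm_num
  have q₁ : 1 / 2 < F₁ x ^ (1 / 6 : ℝ) := by
    rw [← e64]; exact Real.rpow_lt_rpow (by norm_num) hcon.1 (by norm_num)
  have q₂ : 1 / 2 < F₂ x ^ (1 / 6 : ℝ) := by
    rw [← e64]; exact Real.rpow_lt_rpow (by norm_num) hcon.2 (by norm_num)
  obtain ⟨c, hc0, hc1, hc2⟩ : ∃ c : ℝ, 0 < c ∧ 1 / 2 + 2 * c < F₁ x ^ (1 / 6 : ℝ) ∧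
      1 / 2 + 2 * c < F₂ x ^ (1 / 6 : ℝ) := by
    refine ⟨min (F₁ x ^ (1 / 6 : ℝ) - 1 / 2) (F₂ x ^ (1 / 6 : ℝ) - 1 / 2) / 3, ?_, ?_, ?_⟩
    · have : 0 < min (F₁ x ^ (1 / 6 : ℝ) - 1 / 2) (F₂ x ^ (1 / 6 : ℝ) - 1 / 2) :=
        lt_min (by linarith) (by linarith)
      linarith
    · have := min_le_left (F₁ x ^ (1 / 6 : ℝ) - 1 / 2) (F₂ x ^ (1 / 6 : ℝ) - 1 / 2)
      linarith
    · have := min_le_right (F₁ x ^ (1 / 6 : ℝ) - 1 / 2) (F₂ x ^ (1 / 6 : ℝ) - 1 / 2)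
      linarith
  set U : Set X := {y | 1 / 2 + 2 * c < F₁ y ^ (1 / 6 : ℝ)} ∩
    {y | 1 / 2 + 2 * c < F₂ y ^ (1 / 6 : ℝ)} with hU
  have hUo : IsOpen U := (isOpen_lt continuous_const r₁).inter (isOpen_lt continuous_const r₂)
  have hUp : 0 < μ.real U := real_pos hUo ⟨x, hc1, hc2⟩
  set κ : ℝ := ((c ^ 2) ^ a) ^ 2 with hκ
  have hκ0 : 0 < κ := by positivity
  obtain ⟨φ, ψ, hA, hI⟩ := hQ (min c (κ * μ.real U / 2)) (by positivity)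
  set η := min c (κ * μ.real U / 2) with hη
  have hη1 : η ≤ c := min_le_left _ _
  have hη2 : η ≤ κ * μ.real U / 2 := min_le_right _ _
  have key : ∀ y ∈ U, κ ≤ Fq g a φ ψ y ^ 2 := by
    intro y hy
    have y1 : 1 / 2 + 2 * c < F₁ y ^ (1 / 6 : ℝ) := hy.1
    have y2 : 1 / 2 + 2 * c < F₂ y ^ (1 / 6 : ℝ) := hy.2
    have h1 := hA.lφ y
    have h2 := hA.lψ y
    have h4 : c ≤ φ y - g := by linarith
    have h5 : c ≤ ψ y - g := by linarith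
    have h6 : c ^ 2 ≤ (φ y - g) * (ψ y - g) / (1 - g) ^ 2 := by
      rw [le_div_iff₀ (by nlinarith)]
      have a1 : c ^ 2 ≤ (φ y - g) * (ψ y - g) := by
        rw [sq]; exact mul_le_mul h4 h5 hc0.le (by linarith)
      have a2 : (1 - g) ^ 2 ≤ 1 := by nlinarith
      nlinarith [sq_nonneg c]
    have h7 : (c ^ 2) ^ a ≤ Fq g a φ ψ y := pow_le_pow_left₀ (by positivity) h6 a
    exact pow_le_pow_left₀ (by positivity) h7 2
  have hc : Continuous fun y => Fq g a φ ψ y ^ 2 := (C.sm_cont hA.sF).pow 2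
  have h7 := lower (μ := μ) hc (fun y => sq_nonneg _) hUo key
  have h8 : 0 < κ * μ.real U := by positivity
  linarith

/-- **the final deduction** (abstract calculus). -/
theorem final3 [μ.IsOpenPosMeasure] [Nonempty X] (hg0 : 0 ≤ g) (hg : g ≤ 1 / 2) (ha : 1 ≤ a)
    (H₁ : STC C F₁) (H₂ : STC C F₂)
    (hs : ∀ x, Real.sqrt (F₁ x) + Real.sqrt (F₂ x) ≤ 2)
    (happ : ∀ ε : ℝ, 0 < ε → ∃ φ ψ : X → ℝ, Appr C g F₁ F₂ a ε φ ψ) :
    (∀ x, F₁ x < 1) ∨ (∀ x, F₂ x < 1) ∨ (∀ x, F₁ x ≤ 1 ∧ F₂ x ≤ 1) := by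
  have V0 : 0 < μ.real univ := real_pos isOpen_univ univ_nonempty
  by_cases hZ : ∀ η : ℝ, 0 < η → ∃ φ ψ : X → ℝ, Appr C g F₁ F₂ a η φ ψ ∧
      ∫ x, Fq g a φ ψ x ^ 2 ∂μ ≤ η
  · rcases disjoint3 H₁ H₂ hs (min_of hg0 hg H₁ H₂ hZ) with h | h
    · exact Or.inl h
    · exact Or.inr (Or.inl h)
  · have hO : ∀ η : ℝ, 0 < η → ∃ φ ψ : X → ℝ, Appr C g F₁ F₂ a η φ ψ ∧
        ∫ x, (1 - Fq g a φ ψ x) ^ 2 ∂μ ≤ η := by
      intro η hη
      rw [not_forall] at hZ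
      obtain ⟨η', hZ⟩ := hZ
      rw [Classical.not_imp] at hZ
      obtain ⟨hη', hZ⟩ := hZ
      set K : ℝ := 2 + 8 * (2 + 2 * (1 + 2 * 4 ^ a) ^ 2) with hK
      have hK0 : 0 < K := by positivity
      set m := min η η' with hm
      have hm0 : 0 < m := lt_min hη hη'
      obtain ⟨φ, ψ, hA⟩ := happ (min 1 (min m (m / K))) (by positivity)
      set ε := min 1 (min m (m / K)) with hε
      have e1 : ε ≤ 1 := min_le_left _ _
      have e2 : ε ≤ m := (min_le_right _ _).trans (min_le_left _ _)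
      have e3 : K * ε ≤ m := by
        have : ε ≤ m / K := (min_le_right _ _).trans (min_le_right _ _)
        calc K * ε ≤ K * (m / K) := mul_le_mul_of_nonneg_left this hK0.le
          _ = m := by field_simp
      obtain ⟨j1, j2⟩ := hA.ints
      rcases dich (μ := μ) hA.sF hA.F0 (B := 4 ^ a) (by positivity) (hA.F4 hg e1) V0 j1 j2
        with h | h
      · exfalso
        exact hZ ⟨φ, ψ, hA.mono (e2.trans (min_le_right _ _)),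
          h.trans (e3.trans (min_le_right _ _))⟩
      · exact ⟨φ, ψ, hA.mono (e2.trans (min_le_left _ _)),
          h.trans (e3.trans (min_le_left _ _))⟩
    refine Or.inr (Or.inr fun x => ⟨le_one_of hg0 hg ha H₁ hO x, ?_⟩)
    refine le_one_of (F₂ := F₁) hg0 hg ha H₂ ?_ x
    intro η hη
    obtain ⟨φ, ψ, hA, hI⟩ := hO η hη
    refine ⟨ψ, φ, hA.symm, ?_⟩
    rw [Fq_symm]
    exact hI

end Crest.Agent.R249.StH_912
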