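import Crest.Agent.R249.StHc_912
import Crest.Agent.R249.StGb_912

/-!
Row 249, part A2 (helper912), task A2-FIN3, file 4: (ST) from the limit passage for the truncated /
relaxed pair.

* `LimAbs3` : for fixed `g ∈ [0, 1/2]`, `a ≥ 1`, all abstract calculi, all data and every `ε > 0`
  there is a pair with `Appr C g F₁ F₂ a ε φ ψ`;
* `st_of_lim3 : PoissonAll → LimAbs3 → Top49.ST`.
-/

set_option autoImplicit false
set_option maxSynthPendingDepth 3
set_option linter.unusedSectionVars false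
set_option linter.unusedVariables false

open Bundle Bornology Set MeasureTheory Manifold Filter Metric
open scoped ENNReal ContDiff Topology NNReal
open Crest.GeometryTopology.CoordMetric Crest.GeometryTopology.ChartCurvature
  Crest.GeometryTopology.PointedLimit
open Crest.Agent.R247.Bo84 Crest.Agent.R247.Bs84
open Crest.Agent.R249.Top49

noncomputable section

namespace Crest.Agent.R249.StH_912

open Crest.Agent.R249.StF_912 (k0 k0_pos k0_sq PoissonAll const_of_le finMeas)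
open Crest.Agent.R249.StG_912 (nf sqrt_nf nf_nonneg stc_of)
open Calc_806 Pen_806

/-- **Frozen input of the assembly**: the limit passage with the certificate, for all abstract
calculi. -/
def LimAbs3.{u} : Prop :=
  ∃ (g : ℝ) (a : ℕ), 0 ≤ g ∧ g ≤ 1 / 2 ∧ 1 ≤ a ∧
    ∀ (X : Type u) [TopologicalSpace X] [CompactSpace X] [Nonempty X] [MeasurableSpace X]
      [OpensMeasurableSpace X] (μ : Measure X) [IsFiniteMeasure μ] [μ.IsOpenPosMeasure]
      (C : Calc X μ) (F₁ F₂ : X → ℝ), STC C F₁ → STC C F₂ →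
      (∀ x, Real.sqrt (F₁ x) + Real.sqrt (F₂ x) ≤ 2) →
      ∀ ε : ℝ, 0 < ε → ∃ φ ψ : X → ℝ, Appr C g F₁ F₂ a ε φ ψ

section Four

variable {M : Type*} [MetricSpace M] [ChartedSpace (EuclideanSpace ℝ (Fin 4)) M]
  [IsManifold (𝓡 4) ∞ M]
  [RiemannianBundle (fun p : M => TangentSpace (𝓡 4) p)]
  [IsContMDiffRiemannianBundle (𝓡 4) ∞ (EuclideanSpace ℝ (Fin 4)) (fun p : M => TangentSpace (𝓡 4) p)]
  [IsRiemannianManifold (𝓡 4) M] [CompactSpace M] [ConnectedSpace M] [MeasurableSpace M]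
  [BorelSpace M]

variable {lam : ℝ} {f f₁ f₂ : M → ℝ} {a : ℕ} {g : ℝ}

theorem sqrt_le_of_nf (hlam : 0 < lam) {x : M} (h : nf lam f x ≤ 1) :
    Real.sqrt (f x) ≤ k0 lam := by
  have hk := k0_pos hlam
  have h1 : Real.sqrt (nf lam f x) ≤ 1 := by
    rw [Real.sqrt_le_left zero_le_one]; simpa using h
  rw [sqrt_nf hlam, div_le_iff₀ hk] at h1
  linarith

theorem zero_of_lt (hlam : 0 < lam) (h : STHyp M lam f) (hn : ∀ x, nf lam f x < 1) :
    ∀ x, f x = 0 := by
  have hk := k0_pos hlam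
  rcases const_of_le hlam h (fun x => sqrt_le_of_nf hlam (hn x).le) with h' | h'
  · exact h'
  · exfalso
    obtain ⟨x⟩ : Nonempty M := inferInstance
    have h1 := hn x
    unfold nf at h1
    rw [h' x, k0_sq] at h1
    have : (2 / 3 * lam ^ 2)⁻¹ * (2 / 3 * lam ^ 2) = 1 := by field_simp
    linarith

/-- **the conclusion of (ST) from approximate pairs** -/
theorem st3 (hlam : 0 < lam) (hR : HasRicciLowerBound 4 M lam) (hP : CalM_255.PoissonStmt M)
    (h₁ : STHyp M lam f₁) (h₂ : STHyp M lam f₂)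
    (hs : ∀ x, Real.sqrt (f₁ x) + Real.sqrt (f₂ x) ≤ 2 * lam * Real.sqrt (2 / 3))
    (hg0 : 0 ≤ g) (hg : g ≤ 1 / 2) (ha : 1 ≤ a)
    (happ : (∀ x, Real.sqrt (nf lam f₁ x) + Real.sqrt (nf lam f₂ x) ≤ 2) →
      ∀ ε : ℝ, 0 < ε → ∃ φ ψ : M → ℝ,
      Appr (CalM_255.calcOf lam hlam hR hP) g (nf lam f₁) (nf lam f₂) a ε φ ψ) :
    (∀ x, f₁ x = 0) ∨ (∀ x, f₂ x = 0) ∨
        (∀ x, f₁ x = 2 / 3 * lam ^ 2 ∧ f₂ x = 2 / 3 * lam ^ 2) := by
  have hfin : IsFiniteMeasure (μHE[4] : Measure M) := finMeas (n := 4)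
  have hopen : (μHE[4] : Measure M).IsOpenPosMeasure := Crest.Agent.R247.Ms322.isOpenPosMeasure 4 M
  have hk := k0_pos hlam
  have c₁ := stc_of hlam hR hP h₁
  have c₂ := stc_of hlam hR hP h₂
  have hs2 : ∀ x, Real.sqrt (nf lam f₁ x) + Real.sqrt (nf lam f₂ x) ≤ 2 := by
    intro x
    rw [sqrt_nf hlam, sqrt_nf hlam, ← add_div, div_le_iff₀ hk]
    refine (hs x).trans (le_of_eq ?_)
    unfold k0; ring
  rcases final3 hg0 hg ha c₁ c₂ hs2 (happ hs2) with h | h | h
  · exact Or.inl (zero_of_lt hlam h₁ h)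
  · exact Or.inr (Or.inl (zero_of_lt hlam h₂ h))
  · rcases const_of_le hlam h₁ (fun x => sqrt_le_of_nf hlam (h x).1) with h' | h'
    · exact Or.inl h'
    · rcases const_of_le hlam h₂ (fun x => sqrt_le_of_nf hlam (h x).2) with h'' | h''
      · exact Or.inr (Or.inl h'')
      · exact Or.inr (Or.inr fun x => ⟨h' x, h'' x⟩)

end Four

/-- **ST from the Poisson equation and the limit passage for the truncated/relaxed pair.** -/
theorem st_of_lim3.{u} (hP : PoissonAll.{u}) (hL : LimAbs3.{u}) :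
    Crest.Agent.R249.Top49.ST.{u} := by
  intro M _ _ _ _ _ _ _ _ lam hlam hR f₁ f₂ h₁ h₂ hs
  let _ : MeasurableSpace M := borel M
  have hb : BorelSpace M := ⟨rfl⟩
  have hfin : IsFiniteMeasure (μHE[4] : Measure M) := finMeas (n := 4)
  have hopen : (μHE[4] : Measure M).IsOpenPosMeasure := Crest.Agent.R247.Ms322.isOpenPosMeasure 4 M
  have hP' : CalM_255.PoissonStmt M := hP M
  obtain ⟨g, a, hg0, hg, ha, hL⟩ := hL
  refine st3 hlam hR hP' h₁ h₂ hs hg0 hg ha fun hs2 ε hε => ?_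
  exact hL M (μHE[4] : Measure M) (CalM_255.calcOf lam hlam hR hP') (nf lam f₁) (nf lam f₂)
    (stc_of hlam hR hP' h₁) (stc_of hlam hR hP' h₂) hs2 ε hε

end Crest.Agent.R249.StH_912

end
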