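import Crest.Agent.R249.StHd_912

/-!
Row 249, part A2 (helper912), task A2-FIN3, file 5: the ansatz-independent target for the
certificate:

`OmS g N u v P Q = ((u - g)(v - g))^N (P + Q + (u - 1)² + (v - 1)²)`  (`P = |dφ|²`, `Q = |dψ|²`).

* `Fq_le` : pointwise `|dF|² + (F (1 - F))² ≤ KS N * OmS`, `F = Fq g (N + 1) φ ψ`;
* `LimOm` : approximate pairs with `∫ OmS → 0`, for all abstract calculi;
* `st_of_limOm : PoissonAll → LimOm → Top49.ST`.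
-/

set_option autoImplicit false
set_option linter.unusedVariables false
set_option linter.unusedSectionVars false

open MeasureTheory Set Filter Topology Matrix
open scoped ContDiff

noncomputable section

namespace Crest.Agent.R249.StH_912

open Calc_806 Calc_806.Calc Pen_806

/-- the target of the certificate -/
def OmS (g : ℝ) (N : ℕ) (u v P Q : ℝ) : ℝ :=
  ((u - g) * (v - g)) ^ N * (P + Q + (u - 1) ^ 2 + (v - 1) ^ 2)

/-- the constant -/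
def KS (N : ℕ) : ℝ := ((N : ℝ) + 1) ^ 2 * 64 ^ N * 128 + 256 * 64 ^ N * (((N : ℝ) + 1) * 16 ^ N) ^ 2 * 128

theorem KS_pos (N : ℕ) : 0 < KS N := by unfold KS; positivity

theorem OmS_nonneg {g : ℝ} {N : ℕ} {u v P Q : ℝ} (hu : g ≤ u) (hv : g ≤ v) (hP : 0 ≤ P)
    (hQ : 0 ≤ Q) : 0 ≤ OmS g N u v P Q := by
  unfold OmS
  have h1 : 0 ≤ (u - g) * (v - g) := mul_nonneg (by linarith) (by linarith)
  positivity

/-- `|1 - b^(n+1)| ≤ (n+1) 16^n |1 - b|` for `0 ≤ b ≤ 16` -/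
theorem one_sub_pow_le {b : ℝ} (hb : 0 ≤ b) (hb2 : b ≤ 16) (n : ℕ) :
    |1 - b ^ (n + 1)| ≤ ((n : ℝ) + 1) * 16 ^ n * |1 - b| := by
  have h1 : 1 - b ^ (n + 1) = (1 - b) * ∑ i ∈ Finset.range (n + 1), b ^ i := by
    have := mul_neg_geom_sum b (n + 1)
    linarith
  rw [h1, abs_mul, mul_comm]
  refine mul_le_mul_of_nonneg_right ?_ (abs_nonneg _)
  rw [abs_of_nonneg (Finset.sum_nonneg fun i _ => pow_nonneg hb i)]
  calc ∑ i ∈ Finset.range (n + 1), b ^ i ≤ ∑ _i ∈ Finset.range (n + 1), (16:ℝ) ^ n := by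
        refine Finset.sum_le_sum fun i hi => ?_
        have hi' : i ≤ n := Nat.lt_succ_iff.1 (Finset.mem_range.1 hi)
        calc b ^ i ≤ 16 ^ i := pow_le_pow_left₀ hb hb2 i
          _ ≤ 16 ^ n := pow_le_pow_right₀ (by norm_num) hi'
    _ = ((n : ℝ) + 1) * 16 ^ n := by
        rw [Finset.sum_const, Finset.card_range, nsmul_eq_mul]
        push_cast; ring

/-- the scalar part -/
theorem scal_le {g u v : ℝ} (hg0 : 0 ≤ g) (hg : g ≤ 1 / 2) (hu : g ≤ u) (hv : g ≤ v) (hu2 : u ≤ 2)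
    (hv2 : v ≤ 2) (N : ℕ) :
    (((u - g) * (v - g) / (1 - g) ^ 2) ^ (N + 1) *
      (1 - ((u - g) * (v - g) / (1 - g) ^ 2) ^ (N + 1))) ^ 2 ≤
      256 * 64 ^ N * (((N : ℝ) + 1) * 16 ^ N) ^ 2 * 128 *
        (((u - g) * (v - g)) ^ N * ((u - 1) ^ 2 + (v - 1) ^ 2)) := by
  set w := (u - g) * (v - g) with hw
  have hw0 : 0 ≤ w := mul_nonneg (by linarith) (by linarith)
  have hw4 : w ≤ 4 := by
    have h1 : u - g ≤ 2 := by linarith
    have h2 : v - g ≤ 2 := by linarith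
    calc w ≤ 2 * 2 := mul_le_mul h1 h2 (by linarith) (by norm_num)
      _ = 4 := by norm_num
  have h1g : (1 / 2 : ℝ) ≤ 1 - g := by linarith
  have hg2 : (1 / 4 : ℝ) ≤ (1 - g) ^ 2 := by nlinarith
  have hg2' : 0 < (1 - g) ^ 2 := by positivity
  set b := w / (1 - g) ^ 2 with hb
  have hb0 : 0 ≤ b := div_nonneg hw0 hg2'.le
  have hb4 : b ≤ 4 * w := by
    rw [hb, div_le_iff₀ hg2']; nlinarith
  have hb16 : b ≤ 16 := by linarith
  have e1 : |1 - b| ≤ 4 * |w - (1 - g) ^ 2| := by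
    have : 1 - b = -((w - (1 - g) ^ 2) / (1 - g) ^ 2) := by
      rw [hb]; field_simp; ring
    rw [this, abs_neg, abs_div, abs_of_pos hg2', div_le_iff₀ hg2']
    nlinarith [abs_nonneg (w - (1 - g) ^ 2)]
  have e2 : (w - (1 - g) ^ 2) ^ 2 ≤ 8 * ((u - 1) ^ 2 + (v - 1) ^ 2) := by
    have e : w - (1 - g) ^ 2 = (u - 1) * (v - g) + (1 - g) * (v - 1) := by rw [hw]; ring
    rw [e]
    have h1 : (v - g) ^ 2 ≤ 4 := by nlinarith
    have h2 : (1 - g) ^ 2 ≤ 1 := by nlinarith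
    nlinarith [sq_nonneg ((u - 1) * (v - g) - (1 - g) * (v - 1)),
      mul_le_mul_of_nonneg_left h1 (sq_nonneg (u - 1)),
      mul_le_mul_of_nonneg_left h2 (sq_nonneg (v - 1)), sq_nonneg (u - 1), sq_nonneg (v - 1)]
  have e3 := one_sub_pow_le hb0 hb16 N
  set A : ℝ := ((N : ℝ) + 1) * 16 ^ N with hA
  have hA0 : 0 ≤ A := by positivity
  have e4 : (1 - b ^ (N + 1)) ^ 2 ≤ A ^ 2 * (128 * ((u - 1) ^ 2 + (v - 1) ^ 2)) := by
    have h1 : (1 - b ^ (N + 1)) ^ 2 ≤ (A * |1 - b|) ^ 2 := by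
      rw [← sq_abs (1 - b ^ (N + 1))]
      exact pow_le_pow_left₀ (abs_nonneg _) e3 2
    have h2 : |1 - b| ^ 2 ≤ 16 * (w - (1 - g) ^ 2) ^ 2 := by
      calc |1 - b| ^ 2 ≤ (4 * |w - (1 - g) ^ 2|) ^ 2 := pow_le_pow_left₀ (abs_nonneg _) e1 2
        _ = 16 * (w - (1 - g) ^ 2) ^ 2 := by rw [mul_pow, sq_abs]; norm_num
    have h3 : (A * |1 - b|) ^ 2 ≤ A ^ 2 * (128 * ((u - 1) ^ 2 + (v - 1) ^ 2)) := by
      rw [mul_pow]
      exact mul_le_mul_of_nonneg_left (by linarith) (sq_nonneg A)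
    exact h1.trans h3
  have e5 : (b ^ (N + 1)) ^ 2 ≤ 256 * 64 ^ N * w ^ N := by
    have h1 : (b ^ (N + 1)) ^ 2 = b ^ 2 * (b ^ N * b ^ N) := by ring
    have h2 : b ^ N ≤ 16 ^ N := pow_le_pow_left₀ hb0 hb16 N
    have h3 : b ^ N ≤ 4 ^ N * w ^ N := by
      rw [← mul_pow]; exact pow_le_pow_left₀ hb0 hb4 N
    have h4 : b ^ 2 ≤ 256 := by nlinarith
    rw [h1]
    calc b ^ 2 * (b ^ N * b ^ N) ≤ 256 * (16 ^ N * (4 ^ N * w ^ N)) :=
          mul_le_mul h4 (mul_le_mul h2 h3 (pow_nonneg hb0 N) (by positivity)) (by positivity)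
            (by norm_num)
      _ = 256 * 64 ^ N * w ^ N := by
          have : (64:ℝ) ^ N = 16 ^ N * 4 ^ N := by rw [← mul_pow]; norm_num
          rw [this]; ring
  rw [mul_pow]
  calc (b ^ (N + 1)) ^ 2 * (1 - b ^ (N + 1)) ^ 2
      ≤ (256 * 64 ^ N * w ^ N) * (A ^ 2 * (128 * ((u - 1) ^ 2 + (v - 1) ^ 2))) :=
        mul_le_mul e5 e4 (sq_nonneg _) (by positivity)
    _ = _ := by ring

variable {X : Type*} [TopologicalSpace X] [MeasurableSpace X] {μ : Measure X} {C : Calc X μ}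

/-- the gradient part -/
theorem grad_le {g : ℝ} {φ ψ : X → ℝ} (sφ : C.Sm φ) (sψ : C.Sm ψ) (hg0 : 0 ≤ g) (hg : g ≤ 1 / 2)
    (hu : ∀ x, g ≤ φ x) (hv : ∀ x, g ≤ ψ x) (hu2 : ∀ x, φ x ≤ 2) (hv2 : ∀ x, ψ x ≤ 2) (N : ℕ)
    (x : X) : C.G (Fq g (N + 1) φ ψ) (Fq g (N + 1) φ ψ) x ≤
      ((N : ℝ) + 1) ^ 2 * 64 ^ N * 128 *
        (((φ x - g) * (ψ x - g)) ^ N * (C.G φ φ x + C.G ψ ψ x)) := by
  set w : X → ℝ := fun y => (φ y - g) * (ψ y - g) with hw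
  set cg : ℝ := ((1 - g) ^ 2)⁻¹ with hcg
  have su : C.Sm (fun y => φ y - g) := sm_sub sφ (sm_const g)
  have sv : C.Sm (fun y => ψ y - g) := sm_sub sψ (sm_const g)
  have sw : C.Sm w := sm_mul su sv
  have sb : C.Sm (fun y => cg * w y) := sm_smul cg sw
  have eF : Fq g (N + 1) φ ψ = fun y => (cg * w y) ^ (N + 1) := by
    funext y; simp only [Fq, hw, hcg, div_eq_inv_mul]
  have h1g : (1 / 2 : ℝ) ≤ 1 - g := by linarith
  have hg2 : (1 / 4 : ℝ) ≤ (1 - g) ^ 2 := by nlinarith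
  have hg2' : 0 < (1 - g) ^ 2 := by positivity
  have hcg0 : 0 < cg := by positivity
  have hcg4 : cg ≤ 4 := by
    rw [hcg, inv_le_comm₀ hg2' (by norm_num)]; linarith
  have hw0 : 0 ≤ w x := mul_nonneg (by linarith [hu x]) (by linarith [hv x])
  have hw4 : w x ≤ 4 := by
    have h1 : φ x - g ≤ 2 := by linarith [hu2 x]
    have h2 : ψ x - g ≤ 2 := by linarith [hv2 x]
    calc w x ≤ 2 * 2 := mul_le_mul h1 h2 (by linarith [hv x]) (by norm_num)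
      _ = 4 := by norm_num
  have hG : C.G (Fq g (N + 1) φ ψ) (Fq g (N + 1) φ ψ) x =
      (((N:ℝ) + 1) * (cg * w x) ^ N) ^ 2 * (cg ^ 2 * C.G w w x) := by
    have hD : C.D (Fq g (N + 1) φ ψ) x =
        (((N:ℝ) + 1) * (cg * w x) ^ N * cg) • C.D w x := by
      rw [eF, D_pow sb, D_smul cg sw, smul_smul]
      congr 1
      push_cast
      simp
    show C.D (Fq g (N + 1) φ ψ) x ⬝ᵥ C.D (Fq g (N + 1) φ ψ) x = _
    rw [hD, smul_dotProduct, dotProduct_smul]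
    show _ = (((N:ℝ) + 1) * (cg * w x) ^ N) ^ 2 * (cg ^ 2 * (C.D w x ⬝ᵥ C.D w x))
    simp only [smul_eq_mul]
    ring
  have hGw : C.G w w x ≤ 8 * (C.G φ φ x + C.G ψ ψ x) := by
    have e1 : C.G w w x = (ψ x - g) ^ 2 * C.G φ φ x + 2 * ((φ x - g) * (ψ x - g)) * C.G φ ψ x +
        (φ x - g) ^ 2 * C.G ψ ψ x := by
      have hDu : C.D (fun y => φ y - g) x = C.D φ x := by
        rw [D_sub sφ (sm_const g), D_const, sub_zero]
      have hDv : C.D (fun y => ψ y - g) x = C.D ψ x := by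
        rw [D_sub sψ (sm_const g), D_const, sub_zero]
      have hDw : C.D w x = (ψ x - g) • C.D φ x + (φ x - g) • C.D ψ x := by
        rw [hw, D_mul su sv, hDu, hDv]
      show C.D w x ⬝ᵥ C.D w x = (ψ x - g) ^ 2 * (C.D φ x ⬝ᵥ C.D φ x) +
        2 * ((φ x - g) * (ψ x - g)) * (C.D φ x ⬝ᵥ C.D ψ x) + (φ x - g) ^ 2 * (C.D ψ x ⬝ᵥ C.D ψ x)
      rw [hDw]
      simp only [add_dotProduct, dotProduct_add, smul_dotProduct, dotProduct_smul, smul_eq_mul,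
        dotProduct_comm (C.D ψ x) (C.D φ x)]
      ring
    have h2 := two_G_le (C := C) φ ψ x one_pos
    have h3 := le_abs_self (C.G φ ψ x)
    have p1 := G_self_nonneg (C := C) φ x
    have p2 := G_self_nonneg (C := C) ψ x
    have q1 : (φ x - g) ^ 2 ≤ 4 := by nlinarith [hu x, hu2 x]
    have q2 : (ψ x - g) ^ 2 ≤ 4 := by nlinarith [hv x, hv2 x]
    have q3 : (φ x - g) * (ψ x - g) ≤ 4 := hw4
    have q4 : 0 ≤ (φ x - g) * (ψ x - g) := hw0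
    rw [e1]
    have r1 : 2 * ((φ x - g) * (ψ x - g)) * C.G φ ψ x ≤
        ((φ x - g) * (ψ x - g)) * (C.G φ φ x + C.G ψ ψ x) := by
      have : 2 * C.G φ ψ x ≤ C.G φ φ x + C.G ψ ψ x := by
        norm_num at h2; linarith
      calc 2 * ((φ x - g) * (ψ x - g)) * C.G φ ψ x =
            ((φ x - g) * (ψ x - g)) * (2 * C.G φ ψ x) := by ring
        _ ≤ _ := mul_le_mul_of_nonneg_left this q4
    have r2 : ((φ x - g) * (ψ x - g)) * (C.G φ φ x + C.G ψ ψ x) ≤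
        4 * (C.G φ φ x + C.G ψ ψ x) := mul_le_mul_of_nonneg_right q3 (by linarith)
    have r3 : (ψ x - g) ^ 2 * C.G φ φ x ≤ 4 * C.G φ φ x := mul_le_mul_of_nonneg_right q2 p1
    have r4 : (φ x - g) ^ 2 * C.G ψ ψ x ≤ 4 * C.G ψ ψ x := mul_le_mul_of_nonneg_right q1 p2
    linarith
  have hb : ((cg * w x) ^ N) ^ 2 ≤ 64 ^ N * w x ^ N := by
    have h0 : 0 ≤ cg * w x := mul_nonneg hcg0.le hw0
    have h1 : cg * w x ≤ 16 := by
      calc cg * w x ≤ 4 * 4 := mul_le_mul hcg4 hw4 hw0 (by norm_num)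
        _ = 16 := by norm_num
    have h2 : cg * w x ≤ 4 * w x := mul_le_mul_of_nonneg_right hcg4 hw0
    have h3 : (cg * w x) ^ N ≤ 16 ^ N := pow_le_pow_left₀ h0 h1 N
    have h4 : (cg * w x) ^ N ≤ 4 ^ N * w x ^ N := by
      rw [← mul_pow 4]; exact pow_le_pow_left₀ h0 h2 N
    calc ((cg * w x) ^ N) ^ 2 = (cg * w x) ^ N * (cg * w x) ^ N := sq _
      _ ≤ 16 ^ N * (4 ^ N * w x ^ N) := mul_le_mul h3 h4 (pow_nonneg h0 N) (by positivity)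
      _ = 64 ^ N * w x ^ N := by
          have : (64:ℝ) ^ N = 16 ^ N * 4 ^ N := by rw [← mul_pow]; norm_num
          rw [this]; ring
  have hc2 : cg ^ 2 ≤ 16 := by nlinarith
  have hS : 0 ≤ C.G φ φ x + C.G ψ ψ x := by
    have p1 := G_self_nonneg (C := C) φ x
    have p2 := G_self_nonneg (C := C) ψ x
    linarith
  have hGw0 := G_self_nonneg (C := C) w x
  rw [hG, mul_pow]
  calc ((N:ℝ) + 1) ^ 2 * ((cg * w x) ^ N) ^ 2 * (cg ^ 2 * C.G w w x)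
      ≤ ((N:ℝ) + 1) ^ 2 * (64 ^ N * w x ^ N) * (16 * (8 * (C.G φ φ x + C.G ψ ψ x))) := by
        refine mul_le_mul (mul_le_mul_of_nonneg_left hb (by positivity)) ?_ ?_ ?_
        · exact mul_le_mul hc2 hGw hGw0 (by norm_num)
        · exact mul_nonneg (sq_nonneg _) hGw0
        · exact mul_nonneg (by positivity) (mul_nonneg (by positivity) (pow_nonneg hw0 N))
    _ = _ := by ring

/-- **pointwise bound by the target** -/
theorem Fq_le {g : ℝ} {φ ψ : X → ℝ} (sφ : C.Sm φ) (sψ : C.Sm ψ) (hg0 : 0 ≤ g) (hg : g ≤ 1 / 2)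
    (hu : ∀ x, g ≤ φ x) (hv : ∀ x, g ≤ ψ x) (hu2 : ∀ x, φ x ≤ 2) (hv2 : ∀ x, ψ x ≤ 2) (N : ℕ)
    (x : X) : C.G (Fq g (N + 1) φ ψ) (Fq g (N + 1) φ ψ) x +
      (Fq g (N + 1) φ ψ x * (1 - Fq g (N + 1) φ ψ x)) ^ 2 ≤
      KS N * OmS g N (φ x) (ψ x) (C.G φ φ x) (C.G ψ ψ x) := by
  have h1 := grad_le sφ sψ hg0 hg hu hv hu2 hv2 N x
  have h2 := scal_le hg0 hg (hu x) (hv x) (hu2 x) (hv2 x) N
  have hw0 : 0 ≤ ((φ x - g) * (ψ x - g)) ^ N :=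
    pow_nonneg (mul_nonneg (by linarith [hu x]) (by linarith [hv x])) N
  have p1 := G_self_nonneg (C := C) φ x
  have p2 := G_self_nonneg (C := C) ψ x
  have e : (Fq g (N + 1) φ ψ x * (1 - Fq g (N + 1) φ ψ x)) ^ 2 =
    (((φ x - g) * (ψ x - g) / (1 - g) ^ 2) ^ (N + 1) *
      (1 - ((φ x - g) * (ψ x - g) / (1 - g) ^ 2) ^ (N + 1))) ^ 2 := rfl
  rw [e]
  set W := ((φ x - g) * (ψ x - g)) ^ N with hW
  set a1 : ℝ := ((N : ℝ) + 1) ^ 2 * 64 ^ N * 128 with ha1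
  set a2 : ℝ := 256 * 64 ^ N * (((N : ℝ) + 1) * 16 ^ N) ^ 2 * 128 with ha2
  have a10 : 0 ≤ a1 := by positivity
  have a20 : 0 ≤ a2 := by positivity
  have s0 : 0 ≤ (φ x - 1) ^ 2 + (ψ x - 1) ^ 2 := by positivity
  have t0 : 0 ≤ C.G φ φ x + C.G ψ ψ x := by linarith
  have eK : KS N * OmS g N (φ x) (ψ x) (C.G φ φ x) (C.G ψ ψ x) =
      a1 * (W * (C.G φ φ x + C.G ψ ψ x)) + a2 * (W * ((φ x - 1) ^ 2 + (ψ x - 1) ^ 2)) +
      (a1 * (W * ((φ x - 1) ^ 2 + (ψ x - 1) ^ 2)) + a2 * (W * (C.G φ φ x + C.G ψ ψ x))) := by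
    rw [KS, OmS, ← ha1, ← ha2, ← hW]; ring
  have r : 0 ≤ a1 * (W * ((φ x - 1) ^ 2 + (ψ x - 1) ^ 2)) + a2 * (W * (C.G φ φ x + C.G ψ ψ x)) :=
    add_nonneg (mul_nonneg a10 (mul_nonneg hw0 s0)) (mul_nonneg a20 (mul_nonneg hw0 t0))
  rw [eK]
  linarith

/-- **Frozen input of the assembly, target form**: approximate pairs with `∫ OmS → 0`. -/
def LimOm.{u} : Prop :=
  ∃ (g : ℝ) (N : ℕ), 0 ≤ g ∧ g ≤ 1 / 2 ∧
    ∀ (X : Type u) [TopologicalSpace X] [CompactSpace X] [Nonempty X] [MeasurableSpace X]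
      [OpensMeasurableSpace X] (μ : Measure X) [IsFiniteMeasure μ] [μ.IsOpenPosMeasure]
      (C : Calc X μ) (F₁ F₂ : X → ℝ), STC C F₁ → STC C F₂ →
      (∀ x, Real.sqrt (F₁ x) + Real.sqrt (F₂ x) ≤ 2) →
      ∀ ε : ℝ, 0 < ε → ∃ φ ψ : X → ℝ, C.Sm φ ∧ C.Sm ψ ∧ (∀ x, g ≤ φ x) ∧ (∀ x, g ≤ ψ x) ∧
        (∀ x, φ x ≤ 2) ∧ (∀ x, ψ x ≤ 2) ∧ (∀ x, φ x + ψ x ≤ 2 + ε) ∧
        (∀ x, F₁ x ^ (1 / 6 : ℝ) ≤ φ x + ε) ∧ (∀ x, F₂ x ^ (1 / 6 : ℝ) ≤ ψ x + ε) ∧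
        ∫ x, OmS g N (φ x) (ψ x) (C.G φ φ x) (C.G ψ ψ x) ∂μ ≤ ε

theorem limAbs3_of_limOm.{u} (h : LimOm.{u}) : LimAbs3.{u} := by
  obtain ⟨g, N, hg0, hg, h⟩ := h
  refine ⟨g, N + 1, hg0, hg, Nat.le_add_left 1 N, ?_⟩
  intro X _ _ _ _ _ μ _ _ C F₁ F₂ H₁ H₂ hs ε hε
  have hK := KS_pos N
  obtain ⟨φ, ψ, sφ, sψ, gφ, gψ, uφ, uψ, hsum, l1, l2, hI⟩ :=
    h X μ C F₁ F₂ H₁ H₂ hs (min ε (ε / KS N)) (by positivity)
  have e1 : min ε (ε / KS N) ≤ ε := min_le_left _ _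
  have e2 : KS N * min ε (ε / KS N) ≤ ε := by
    calc KS N * min ε (ε / KS N) ≤ KS N * (ε / KS N) :=
          mul_le_mul_of_nonneg_left (min_le_right _ _) hK.le
      _ = ε := by field_simp
  refine ⟨φ, ψ, sφ, sψ, gφ, gψ, fun x => (hsum x).trans (by linarith),
    fun x => (l1 x).trans (by linarith), fun x => (l2 x).trans (by linarith), ?_⟩
  have c1 : Continuous φ := C.sm_cont sφ
  have c2 : Continuous ψ := C.sm_cont sψ
  have c3 : Continuous (C.G φ φ) := C.sm_cont (C.sm_G sφ sφ)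
  have c4 : Continuous (C.G ψ ψ) := C.sm_cont (C.sm_G sψ sψ)
  have i1 : Integrable (fun x => OmS g N (φ x) (ψ x) (C.G φ φ x) (C.G ψ ψ x)) μ := by
    refine integrable_cont ?_
    unfold OmS
    exact (((c1.sub continuous_const).mul (c2.sub continuous_const)).pow N).mul
      (((c3.add c4).add ((c1.sub continuous_const).pow 2)).add ((c2.sub continuous_const).pow 2))
  have sF : C.Sm (Fq g (N + 1) φ ψ) := by
    have h1 := sm_pow (C := C) (sm_smul (((1 - g) ^ 2)⁻¹)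
      (sm_mul (sm_sub sφ (sm_const g)) (sm_sub sψ (sm_const g)))) (N + 1)
    have e : Fq g (N + 1) φ ψ = fun x => (((1 - g) ^ 2)⁻¹ * ((φ x - g) * (ψ x - g))) ^ (N + 1) := by
      funext x; rw [Fq, div_eq_inv_mul]
    rw [e]; exact h1
  have i2 : Integrable (fun x => C.G (Fq g (N + 1) φ ψ) (Fq g (N + 1) φ ψ) x +
      (Fq g (N + 1) φ ψ x * (1 - Fq g (N + 1) φ ψ x)) ^ 2) μ :=
    integrable_sm (sm_add (C.sm_G sF sF) (sm_pow (sm_mul sF (sm_sub (sm_const 1) sF)) 2))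
  calc ∫ x, (C.G (Fq g (N + 1) φ ψ) (Fq g (N + 1) φ ψ) x +
      (Fq g (N + 1) φ ψ x * (1 - Fq g (N + 1) φ ψ x)) ^ 2) ∂μ
      ≤ ∫ x, KS N * OmS g N (φ x) (ψ x) (C.G φ φ x) (C.G ψ ψ x) ∂μ :=
        integral_mono i2 (i1.const_mul _) fun x => Fq_le sφ sψ hg0 hg gφ gψ uφ uψ N x
    _ = KS N * ∫ x, OmS g N (φ x) (ψ x) (C.G φ φ x) (C.G ψ ψ x) ∂μ := integral_const_mul _ _
    _ ≤ KS N * min ε (ε / KS N) := mul_le_mul_of_nonneg_left hI hK.le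
    _ ≤ ε := e2

/-- **ST from the Poisson equation and the limit passage in target form.** -/
theorem st_of_limOm.{u} (hP : StF_912.PoissonAll.{u}) (hL : LimOm.{u}) :
    Crest.Agent.R249.Top49.ST.{u} := st_of_lim3 hP (limAbs3_of_limOm hL)

end Crest.Agent.R249.StH_912

end
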