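import Crest.Agent.R249.PenJ_806

/-!
Row 249, part A2 (helper912), task A2-ASM3, file 1: the contract "AC*" (helper133's decision,
cubic nonlinearity of helper369): `g = 3/10`, `B = 13/10`, `Γ η = 1 - η²/4 + (8/343) η⁴`,
`f u = (7/10) U (1 - U²)`, `U = (u - 3/10) / (7/10)`.
(Scaled unknowns: `Γ η = 1 - (7/40) η² + (1/125) η⁴`.)

* `OA : Ob gA BA`, `adm_A : Adm OA fA`.
* `fA_eq` : `f u = 7/10 * (U - U^3)`; `OA_k_eq`, `OA_E_eq` : formulas in the scaled unknowns.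
-/

set_option autoImplicit false
set_option linter.unusedVariables false
set_option linter.unusedSectionVars false

open MeasureTheory Set Filter Topology Matrix
open scoped ContDiff

noncomputable section

namespace Crest.Agent.R249.StJ_912

open PenH_806

/-- lower end of the box -/
def gA : ℝ := 3 / 10

/-- upper end of the box -/
def BA : ℝ := 13 / 10

/-- the curve -/
def ΓA (η : ℝ) : ℝ := 1 - 1 / 4 * η ^ 2 + 8 / 343 * η ^ 4

/-- the nonlinearity -/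
def fA (u : ℝ) : ℝ := 7 / 10 * ((u - 3 / 10) / (7 / 10) * (1 - ((u - 3 / 10) / (7 / 10)) ^ 2))

theorem hasDerivAt_ΓA (η : ℝ) : HasDerivAt ΓA (-(1 / 2) * η + 32 / 343 * η ^ 3) η := by
  have h := (((hasDerivAt_pow 2 η).const_mul (1 / 4 : ℝ)).const_sub 1).add
    ((hasDerivAt_pow 4 η).const_mul (8 / 343 : ℝ))
  refine h.congr_deriv ?_
  norm_num
  ring

theorem deriv_ΓA : deriv ΓA = fun η => -(1 / 2) * η + 32 / 343 * η ^ 3 := by
  funext η; exact (hasDerivAt_ΓA η).deriv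

theorem deriv2_ΓA : deriv (deriv ΓA) = fun η => -(1 / 2) + 96 / 343 * η ^ 2 := by
  rw [deriv_ΓA]
  funext η
  have h := ((hasDerivAt_id η).const_mul (-(1 / 2) : ℝ)).add
    ((hasDerivAt_pow 3 η).const_mul (32 / 343 : ℝ))
  refine HasDerivAt.deriv (h.congr_deriv ?_)
  norm_num
  ring

theorem smooth_ΓA : ContDiff ℝ ∞ ΓA := by unfold ΓA; fun_prop

theorem smooth_fA : ContDiff ℝ ∞ fA := by unfold fA; fun_prop

theorem abs_slope {η : ℝ} (h1 : |η| ≤ 1) : |-(1 / 2) * η + 32 / 343 * η ^ 3| ≤ 41 / 100 := by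
  have h2 := abs_le.1 h1
  have h3 : 0 ≤ 1 - η ^ 2 := by nlinarith [h2.1, h2.2]
  rw [abs_le]
  constructor
  · nlinarith [mul_nonneg h3 (by linarith [h2.2] : 0 ≤ 1 - η), mul_nonneg h3 (by linarith [h2.1] : 0 ≤ 1 + η),
      h2.1, h2.2]
  · nlinarith [mul_nonneg h3 (by linarith [h2.2] : 0 ≤ 1 - η), mul_nonneg h3 (by linarith [h2.1] : 0 ≤ 1 + η),
      h2.1, h2.2]

/-- the obstacle region of the contract AC* -/
def OA : Ob gA BA where
  Γ := ΓA
  c := 9 / 100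
  g_pos := by norm_num [gA]
  g_lt := by norm_num [gA, BA]
  smooth := smooth_ΓA
  even := fun η => by simp only [ΓA]; ring
  c_pos := by norm_num
  slope := fun η hη => by
    rw [deriv_ΓA]
    have h1 : |η| ≤ 1 := hη.trans (by norm_num [gA, BA])
    exact (abs_slope h1).trans (by norm_num)
  corner := by norm_num [ΓA, gA, BA]

theorem OA_Γ : OA.Γ = ΓA := rfl

theorem OA_c : OA.c = 9 / 100 := rfl

theorem OA_k (u v : ℝ) : OA.k u v = 1 - 1 / 4 * (u - v) ^ 2 + 8 / 343 * (u - v) ^ 4 - (u + v) / 2 :=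
  rfl

theorem OA_k1 (u v : ℝ) :
    OA.k1 u v = -(1 / 2) * (u - v) + 32 / 343 * (u - v) ^ 3 - 1 / 2 := by
  show deriv ΓA (u - v) - 1 / 2 = _
  rw [deriv_ΓA]

theorem OA_k2 (u v : ℝ) :
    OA.k2 u v = 1 / 2 * (u - v) - 32 / 343 * (u - v) ^ 3 - 1 / 2 := by
  show - deriv ΓA (u - v) - 1 / 2 = _
  rw [deriv_ΓA]; ring

theorem OA_E (f : ℝ → ℝ) (u v P : ℝ) : OA.E f u v P =
    (-(1 / 2) * (u - v) + 32 / 343 * (u - v) ^ 3 - 1 / 2) * f u +
      (1 / 2 * (u - v) - 32 / 343 * (u - v) ^ 3 - 1 / 2) * f v +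
      (-(1 / 2) + 96 / 343 * (u - v) ^ 2) * P := by
  show OA.k1 u v * f u + OA.k2 u v * f v + deriv (deriv ΓA) (u - v) * P = _
  rw [deriv2_ΓA, OA_k1, OA_k2]

theorem fA_eq (u : ℝ) : fA u = 7 / 10 * ((u - 3 / 10) / (7 / 10) - ((u - 3 / 10) / (7 / 10)) ^ 3) := by
  unfold fA; ring

/-- `F - f = (u-1)² (2/7 - (92/147)(u-1) - (2/3)(u-1)²)` -/
theorem sub_fA (u : ℝ) : (2 / 3) * (u * (1 - u ^ 3)) - fA u =
    (u - 1) ^ 2 * (2 / 7 - 92 / 147 * (u - 1) - 2 / 3 * (u - 1) ^ 2) := by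
  unfold fA; ring

theorem fA_le {u : ℝ} (h1 : gA ≤ u) (h2 : u ≤ BA) : fA u ≤ (2 / 3) * (u * (1 - u ^ 3)) := by
  have h := sub_fA u
  unfold gA at h1
  unfold BA at h2
  have h3 : 0 ≤ 2 / 7 - 92 / 147 * (u - 1) - 2 / 3 * (u - 1) ^ 2 := by nlinarith
  have h4 := mul_nonneg (sq_nonneg (u - 1)) h3
  linarith

/-- the region, both unknowns above `g` -/
theorem region_both {u v : ℝ} (hu : 3 / 10 ≤ u) (hv : 3 / 10 ≤ v) (h : u ^ 3 + v ^ 3 < 2) :
    0 < 1 - 1 / 4 * (u - v) ^ 2 + 8 / 343 * (u - v) ^ 4 - (u + v) / 2 := by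
  obtain ⟨m, hm⟩ : ∃ m, m = (u + v) / 2 := ⟨_, rfl⟩
  obtain ⟨s, hs⟩ : ∃ s, s = (u - v) ^ 2 := ⟨_, rfl⟩
  have hs4 : (u - v) ^ 4 = s ^ 2 := by rw [hs]; ring
  have hs0 : 0 ≤ s := by rw [hs]; positivity
  have hm0 : 3 / 10 ≤ m := by rw [hm]; linarith
  have e1 : u ^ 3 + v ^ 3 = 2 * m ^ 3 + 3 / 2 * m * s := by rw [hm, hs]; ring
  have hm1 : m < 1 := by
    by_contra hcon
    push Not at hcon
    have h1 : 1 ≤ m ^ 3 := one_le_pow₀ hcon
    have h2 : 0 ≤ 3 / 2 * m * s := by positivity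
    linarith
  have hsm : s ≤ 4 * (m - 3 / 10) ^ 2 := by
    have h1 : 0 ≤ (u - 3 / 10) * (v - 3 / 10) := mul_nonneg (by linarith) (by linarith)
    have h2 : 4 * (m - 3 / 10) ^ 2 - s = 4 * ((u - 3 / 10) * (v - 3 / 10)) := by
      rw [hm, hs]; ring
    linarith
  rw [hs4, ← hm, ← hs]
  rcases le_or_gt m (1 / 2) with hc | hc
  · have h1 : (m - 3 / 10) ^ 2 ≤ (1 / 5) ^ 2 := by
      apply pow_le_pow_left₀ (by linarith); linarith
    nlinarith [sq_nonneg s]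
  · obtain ⟨y, hy⟩ : ∃ y, y = m * s := ⟨_, rfl⟩
    obtain ⟨z, hz⟩ : ∃ z, z = 4 / 3 * (1 - m ^ 3) := ⟨_, rfl⟩
    have hyz : y < z := by
      have : 3 / 2 * y = 3 / 2 * m * s := by rw [hy]; ring
      rw [hz]; linarith
    have hy0 : 0 ≤ y := by rw [hy]; positivity
    have hz1 : z ≤ 7 / 6 := by
      have : (1 / 8 : ℝ) ≤ m ^ 3 := by
        have := pow_le_pow_left₀ (by norm_num : (0:ℝ) ≤ 1 / 2) hc.le 3
        norm_num at this ⊢
        linarith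
      rw [hz]; linarith
    have e2 : m ^ 2 * (1 - 1 / 4 * s + 8 / 343 * s ^ 2 - m) =
        (1 - m) ^ 2 * (128 / 3087 * (1 + m + m ^ 2) ^ 2 - m * (1 - m) / 3) +
        (z - y) * (m / 4 - 8 / 343 * (y + z)) := by
      rw [hy, hz]; ring
    have h3 : 0 ≤ 128 / 3087 * (1 + m + m ^ 2) ^ 2 - m * (1 - m) / 3 := by
      have a1 : (7 / 4 : ℝ) ≤ 1 + m + m ^ 2 := by nlinarith
      have a2 : (7 / 4 : ℝ) ^ 2 ≤ (1 + m + m ^ 2) ^ 2 := pow_le_pow_left₀ (by norm_num) a1 2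
      nlinarith [sq_nonneg (m - 1 / 2)]
    have h4 : 0 < (z - y) * (m / 4 - 8 / 343 * (y + z)) := mul_pos (by linarith) (by linarith)
    have h5 : 0 < m ^ 2 * (1 - 1 / 4 * s + 8 / 343 * s ^ 2 - m) := by
      rw [e2]
      have := mul_nonneg (sq_nonneg (1 - m)) h3
      linarith
    have hm' : 0 < m ^ 2 := by positivity
    exact (mul_pos_iff_of_pos_left hm').1 h5

theorem lt_of_cube_lt {u : ℝ} (hu : 0 ≤ u) (h : u ^ 3 < 2) : u < 63 / 50 := by
  by_contra hcon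
  push Not at hcon
  have h1 : (63 / 50 : ℝ) ^ 3 ≤ u ^ 3 := pow_le_pow_left₀ (by norm_num) hcon 3
  norm_num at h1
  linarith

/-- the region, one unknown truncated -/
theorem region_one {u : ℝ} (hu : 3 / 10 ≤ u) (h : u < 63 / 50) :
    0 < 1 - 1 / 4 * (u - 3 / 10) ^ 2 + 8 / 343 * (u - 3 / 10) ^ 4 - (u + 3 / 10) / 2 := by
  obtain ⟨t, ht⟩ : ∃ t, t = u - 3 / 10 := ⟨_, rfl⟩
  have h1 : 0 ≤ t := by rw [ht]; linarith
  have h2 : t < 24 / 25 := by rw [ht]; linarith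
  have h3 : u + 3 / 10 = t + 3 / 5 := by rw [ht]; ring
  rw [h3, ← ht]
  have h4 := sq_nonneg (t ^ 2 - (24 / 25) ^ 2)
  nlinarith

theorem adm_A : Adm OA fA where
  smooth := smooth_fA
  g_lt := by norm_num [gA]
  B_ge := by norm_num [BA]
  fg := by norm_num [fA, gA]
  fle := fun u h1 h2 => fA_le h1 h2
  region := fun u v hu hv h => by
    rw [OA_k]
    unfold gA
    have hu3 := pow_nonneg hu 3
    have hv3 := pow_nonneg hv 3
    rcases le_total (3 / 10) u with h1 | h1 <;> rcases le_total (3 / 10) v with h2 | h2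
    · rw [max_eq_left h1, max_eq_left h2]; exact region_both h1 h2 h
    · rw [max_eq_left h1, max_eq_right h2]
      exact region_one h1 (lt_of_cube_lt hu (by linarith))
    · rw [max_eq_right h1, max_eq_left h2]
      have := region_one h2 (lt_of_cube_lt hv (by linarith))
      have e : (3 / 10 - v) ^ 2 = (v - 3 / 10) ^ 2 := by ring
      have e4 : (3 / 10 - v) ^ 4 = (v - 3 / 10) ^ 4 := by ring
      rw [e, e4]
      linarith
    · rw [max_eq_right h1, max_eq_right h2]; norm_num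

/-- `g < Γ 0` -/
theorem g_lt_Γ : gA < OA.Γ 0 := by rw [OA_Γ]; norm_num [gA, ΓA]

/-- concavity -/
theorem conc_A (η : ℝ) (hη : |η| ≤ BA - gA) : deriv (deriv OA.Γ) η ≤ 0 := by
  rw [OA_Γ, deriv2_ΓA]
  have h1 : |η| ≤ 1 := hη.trans (by norm_num [gA, BA])
  have h2 : η ^ 2 ≤ 1 := by rw [← sq_abs]; exact pow_le_one₀ (abs_nonneg η) h1
  linarith

end Crest.Agent.R249.StJ_912

end
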