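import Crest.Agent.R249.LimF4_621
import Crest.Agent.R249.StHe_912
import Crest.Agent.R249.StJa_912

/-!
Row 249, part A2 (helper912), task A2-ASM3, file 2: the target `OmS` on jets:
`OmJ c N j = c * OmS gA N j.f j.g ‖j.p‖² ‖j.q‖²` satisfies helper621's Lipschitz condition `LipD`
on every domain inside the box, and is integrable along smooth pairs.
-/

set_option autoImplicit false
set_option linter.unusedVariables false
set_option linter.unusedSectionVars false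

open MeasureTheory Set Filter Topology Matrix
open scoped ContDiff

noncomputable section

namespace Crest.Agent.R249.StJ_912

open Calc_806 Calc_806.Calc Lim621 LimE621 LimF621 PenH_806

attribute [local instance] Matrix.frobeniusNormedAddCommGroup Matrix.frobeniusNormedSpace

section Jets

variable {E H : Type*} [NormedAddCommGroup E] [InnerProductSpace ℝ E]
  [NormedAddCommGroup H] [NormedSpace ℝ H]

/-- the target on jets -/
def OmJ (c : ℝ) (N : ℕ) (j : Jet E H) : ℝ :=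
  c * StH_912.OmS gA N j.f j.g (‖j.p‖ ^ 2) (‖j.q‖ ^ 2)

theorem pow_lip {w w' : ℝ} (h0 : 0 ≤ w) (h1 : w ≤ 1) (h0' : 0 ≤ w') (h1' : w' ≤ 1) (N : ℕ) :
    |w ^ N - w' ^ N| ≤ N * |w - w'| := by
  induction N with
  | zero => simp
  | succ n ih =>
    have e : w ^ (n + 1) - w' ^ (n + 1) = w * (w ^ n - w' ^ n) + (w - w') * w' ^ n := by ring
    rw [e]
    refine (abs_add_le _ _).trans ?_
    rw [abs_mul, abs_mul, abs_of_nonneg h0, abs_of_nonneg (pow_nonneg h0' n)]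
    have a1 : w * |w ^ n - w' ^ n| ≤ 1 * (n * |w - w'|) :=
      mul_le_mul h1 ih (abs_nonneg _) zero_le_one
    have a2 : |w - w'| * w' ^ n ≤ |w - w'| * 1 :=
      mul_le_mul_of_nonneg_left (pow_le_one₀ h0' h1') (abs_nonneg _)
    push_cast
    linarith

theorem sq_norm_sub_le (a b : E) : |‖a‖ ^ 2 - ‖b‖ ^ 2| ≤ ‖a - b‖ * (‖a‖ + ‖b‖) := by
  have h1 : ‖a‖ ^ 2 - ‖b‖ ^ 2 = (‖a‖ - ‖b‖) * (‖a‖ + ‖b‖) := by ring
  have h2 : 0 ≤ ‖a‖ + ‖b‖ := by positivity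
  rw [h1, abs_mul, abs_of_nonneg h2]
  exact mul_le_mul_of_nonneg_right (abs_norm_sub_norm_le a b) h2

theorem sq_half {x : ℝ} (h1 : 3 / 10 ≤ x) (h2 : x ≤ 13 / 10) : (x - 1) ^ 2 ≤ 1 / 2 := by nlinarith

theorem le_mul_sq {e V : ℝ} (he : 0 ≤ e) (hV : 2 ≤ V) : e * V ≤ e * V ^ 2 ∧ e ≤ e * V ^ 2 := by
  constructor
  · exact mul_le_mul_of_nonneg_left (by nlinarith) he
  · calc e = e * 1 := (mul_one e).symm
      _ ≤ _ := mul_le_mul_of_nonneg_left (by nlinarith) he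

theorem lipD_OmJ {D : Set (ℝ × ℝ)} (hD : ∀ p ∈ D, gA ≤ p.1 ∧ p.1 ≤ BA ∧ gA ≤ p.2 ∧ p.2 ≤ BA)
    (c : ℝ) (N : ℕ) : LipD (E := E) (H := H) D (|c| * (4 * N + 4)) (OmJ c N) := by
  intro ε j j' hε hε1 hj hj' hr
  obtain ⟨-, hf, hg⟩ := hr
  obtain ⟨f1, f2, g1, g2⟩ := hD _ hj
  obtain ⟨f1', f2', g1', g2'⟩ := hD _ hj'
  simp only [gA, BA] at f1 f2 g1 g2 f1' f2' g1' g2'
  set W := j.W with hW
  set W' := j'.W with hW'
  have hW1 : 1 ≤ W := j.one_le_W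
  have hW1' : 1 ≤ W' := j'.one_le_W
  have eW : W = 1 + ‖j.p‖ ^ 2 + ‖j.q‖ ^ 2 + ‖j.P‖ + ‖j.Q‖ := rfl
  have eW' : W' = 1 + ‖j'.p‖ ^ 2 + ‖j'.q‖ ^ 2 + ‖j'.P‖ + ‖j'.Q‖ := rfl
  set Z := Real.sqrt (W + W') with hZ
  have hZ2 : Z ^ 2 = W + W' := Real.sq_sqrt (by linarith)
  have hZ1 : 1 ≤ Z := by rw [hZ, Real.one_le_sqrt]; linarith
  -- bounds by `Z`
  have n1 := norm_nonneg j.P
  have n2 := norm_nonneg j.Q
  have n3 := norm_nonneg j'.P
  have n4 := norm_nonneg j'.Q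
  have n5 := norm_nonneg j.p
  have n6 := norm_nonneg j.q
  have n7 := norm_nonneg j'.p
  have n8 := norm_nonneg j'.q
  have s5 := sq_nonneg ‖j.p‖
  have s6 := sq_nonneg ‖j.q‖
  have s7 := sq_nonneg ‖j'.p‖
  have s8 := sq_nonneg ‖j'.q‖
  have b5 : ‖j.p‖ ≤ Z := Real.le_sqrt_of_sq_le (by linarith)
  have b6 : ‖j.q‖ ≤ Z := Real.le_sqrt_of_sq_le (by linarith)
  have b7 : ‖j'.p‖ ≤ Z := Real.le_sqrt_of_sq_le (by linarith)
  have b8 : ‖j'.q‖ ≤ Z := Real.le_sqrt_of_sq_le (by linarith)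
  -- the weights
  set w := (j.f - 3 / 10) * (j.g - 3 / 10) with hw
  set w' := (j'.f - 3 / 10) * (j'.g - 3 / 10) with hw'
  have w0 : 0 ≤ w := mul_nonneg (by linarith) (by linarith)
  have w1 : w ≤ 1 := by
    calc w ≤ 1 * 1 := mul_le_mul (by linarith) (by linarith) (by linarith) zero_le_one
      _ = 1 := one_mul 1
  have w0' : 0 ≤ w' := mul_nonneg (by linarith) (by linarith)
  have w1' : w' ≤ 1 := by
    calc w' ≤ 1 * 1 := mul_le_mul (by linarith) (by linarith) (by linarith) zero_le_one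
      _ = 1 := one_mul 1
  have wd : |w - w'| ≤ 2 * ε := by
    have e : w - w' = (j.f - j'.f) * (j.g - 3 / 10) + (j'.f - 3 / 10) * (j.g - j'.g) := by
      rw [hw, hw']; ring
    rw [e]
    refine (abs_add_le _ _).trans ?_
    rw [abs_mul, abs_mul, abs_of_nonneg (by linarith : 0 ≤ j.g - 3 / 10),
      abs_of_nonneg (by linarith : 0 ≤ j'.f - 3 / 10)]
    have a1 : |j.f - j'.f| * (j.g - 3 / 10) ≤ ε * 1 :=
      mul_le_mul hf (by linarith) (by linarith) hε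
    have a2 : (j'.f - 3 / 10) * |j.g - j'.g| ≤ 1 * ε :=
      mul_le_mul (by linarith) hg (abs_nonneg _) zero_le_one
    linarith
  have wN := pow_lip w0 w1 w0' w1' N
  -- the scalar parts
  set S := ‖j.p‖ ^ 2 + ‖j.q‖ ^ 2 + (j.f - 1) ^ 2 + (j.g - 1) ^ 2 with hS
  set S' := ‖j'.p‖ ^ 2 + ‖j'.q‖ ^ 2 + (j'.f - 1) ^ 2 + (j'.g - 1) ^ 2 with hS'
  have q1 : (j.f - 1) ^ 2 ≤ 1 / 2 := sq_half f1 f2
  have q2 : (j.g - 1) ^ 2 ≤ 1 / 2 := sq_half g1 g2
  have q3 : (j'.f - 1) ^ 2 ≤ 1 / 2 := sq_half f1' f2'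
  have q4 : (j'.g - 1) ^ 2 ≤ 1 / 2 := sq_half g1' g2'
  have S0 : 0 ≤ S := by rw [hS]; positivity
  have S0' : 0 ≤ S' := by rw [hS']; positivity
  have SW : S ≤ W + W' := by rw [hS]; linarith
  have Sd : |S - S'| ≤ 2 * (‖j.p - j'.p‖ + ‖j.q - j'.q‖) * Z + 4 * ε := by
    have e : S - S' = (‖j.p‖ ^ 2 - ‖j'.p‖ ^ 2) + (‖j.q‖ ^ 2 - ‖j'.q‖ ^ 2) +
        ((j.f - j'.f) * (j.f + j'.f - 2) + (j.g - j'.g) * (j.g + j'.g - 2)) := by
      rw [hS, hS']; ring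
    have a1 := sq_norm_sub_le j.p j'.p
    have a2 := sq_norm_sub_le j.q j'.q
    have d1 := norm_nonneg (j.p - j'.p)
    have d2 := norm_nonneg (j.q - j'.q)
    have a3 : ‖j.p - j'.p‖ * (‖j.p‖ + ‖j'.p‖) ≤ ‖j.p - j'.p‖ * (2 * Z) :=
      mul_le_mul_of_nonneg_left (by linarith) d1
    have a4 : ‖j.q - j'.q‖ * (‖j.q‖ + ‖j'.q‖) ≤ ‖j.q - j'.q‖ * (2 * Z) :=
      mul_le_mul_of_nonneg_left (by linarith) d2
    have a5 : |(j.f - j'.f) * (j.f + j'.f - 2)| ≤ ε * 2 := by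
      rw [abs_mul]
      exact mul_le_mul hf (abs_le.2 ⟨by linarith, by linarith⟩) (abs_nonneg _) hε
    have a6 : |(j.g - j'.g) * (j.g + j'.g - 2)| ≤ ε * 2 := by
      rw [abs_mul]
      exact mul_le_mul hg (abs_le.2 ⟨by linarith, by linarith⟩) (abs_nonneg _) hε
    rw [e]
    refine (abs_add_le _ _).trans ?_
    refine (add_le_add (abs_add_le _ _) (abs_add_le _ _)).trans ?_
    linarith
  have key : |w ^ N * S - w' ^ N * S'| ≤ (4 * N + 4) * Mod ε j j' := by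
    have e : w ^ N * S - w' ^ N * S' = (w ^ N - w' ^ N) * S + w' ^ N * (S - S') := by ring
    have p0 : 0 ≤ w' ^ N := pow_nonneg w0' N
    have p1 : w' ^ N ≤ 1 := pow_le_one₀ w0' w1'
    have d1 := norm_nonneg (j.p - j'.p)
    have d2 := norm_nonneg (j.q - j'.q)
    have d3 := norm_nonneg (j.P - j'.P)
    have d4 := norm_nonneg (j.Q - j'.Q)
    have hN : (0:ℝ) ≤ N := Nat.cast_nonneg N
    have c1 : |(w ^ N - w' ^ N) * S| ≤ (N * (2 * ε)) * (W + W') := by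
      rw [abs_mul, abs_of_nonneg S0]
      refine mul_le_mul (wN.trans (mul_le_mul_of_nonneg_left wd hN)) SW S0 (by positivity)
    have c2 : |w' ^ N * (S - S')| ≤ 2 * (‖j.p - j'.p‖ + ‖j.q - j'.q‖) * Z + 4 * ε := by
      rw [abs_mul, abs_of_nonneg p0]
      calc w' ^ N * |S - S'| ≤ 1 * |S - S'| := mul_le_mul_of_nonneg_right p1 (abs_nonneg _)
        _ ≤ _ := by rw [one_mul]; exact Sd
    have hMod : Mod ε j j' = ε * (W + W') ^ 2 +
        (‖j.p - j'.p‖ + ‖j.q - j'.q‖) * ((W + W') * Z) +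
        (‖j.P - j'.P‖ + ‖j.Q - j'.Q‖) * (W + W') := rfl
    have hWW : 2 ≤ W + W' := by linarith
    obtain ⟨m1, m2⟩ := le_mul_sq hε hWW
    have m3 : (‖j.p - j'.p‖ + ‖j.q - j'.q‖) * Z ≤
        (‖j.p - j'.p‖ + ‖j.q - j'.q‖) * ((W + W') * Z) := by
      refine mul_le_mul_of_nonneg_left ?_ (by positivity)
      exact le_mul_of_one_le_left (by linarith) (by linarith)
    have m4 : 0 ≤ (‖j.P - j'.P‖ + ‖j.Q - j'.Q‖) * (W + W') := by positivity
    have m5 : 0 ≤ (‖j.p - j'.p‖ + ‖j.q - j'.q‖) * ((W + W') * Z) := by positivity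
    have m6 : 0 ≤ ε * (W + W') ^ 2 := by positivity
    have m7 : (N:ℝ) * (2 * ε) * (W + W') ≤ (2 * N) * (ε * (W + W') ^ 2) := by
      calc (N:ℝ) * (2 * ε) * (W + W') = (2 * N) * (ε * (W + W')) := by ring
        _ ≤ _ := mul_le_mul_of_nonneg_left m1 (by positivity)
    rw [e]
    refine (abs_add_le _ _).trans ?_
    rw [hMod]
    have m8 : 0 ≤ (N:ℝ) * (ε * (W + W') ^ 2) := by positivity
    have m9 : 0 ≤ (N:ℝ) * ((‖j.p - j'.p‖ + ‖j.q - j'.q‖) * ((W + W') * Z)) := by positivity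
    have m10 : 0 ≤ (N:ℝ) * ((‖j.P - j'.P‖ + ‖j.Q - j'.Q‖) * (W + W')) := by positivity
    linarith
  have e1 : OmJ c N j - OmJ c N j' = c * (w ^ N * S - w' ^ N * S') := by
    simp only [OmJ, StH_912.OmS, gA, hw, hw', hS, hS']; ring
  rw [e1, abs_mul, mul_assoc]
  exact mul_le_mul_of_nonneg_left key (abs_nonneg c)

end Jets

section Calculus

variable {X : Type*} [TopologicalSpace X] [CompactSpace X] [MeasurableSpace X]
  [OpensMeasurableSpace X] {μ : Measure X} [IsFiniteMeasure μ] {C : Calc X μ}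

theorem OmJ_jt (c : ℝ) (N : ℕ) (φ ψ θ : X → ℝ) (x : X) :
    OmJ c N (jt C φ ψ θ x) = c * StH_912.OmS gA N (φ x) (ψ x) (C.G φ φ x) (C.G ψ ψ x) := by
  have key : ∀ u : Fin 4 → ℝ, ‖(WithLp.toLp 2 u : E4)‖ ^ 2 = u ⬝ᵥ u := by
    intro u
    rw [EuclideanSpace.norm_sq_eq]
    simp only [dotProduct, Real.norm_eq_abs, sq_abs]
    exact Finset.sum_congr rfl fun i _ => by ring
  have h1 : ‖(jt C φ ψ θ x).p‖ ^ 2 = C.G φ φ x := key _
  have h2 : ‖(jt C φ ψ θ x).q‖ ^ 2 = C.G ψ ψ x := key _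
  rw [OmJ, h1, h2]
  rfl

theorem int_OmJ {φ ψ : X → ℝ} (sφ : C.Sm φ) (sψ : C.Sm ψ) (c : ℝ) (N : ℕ) (θ : X → ℝ) :
    Integrable (fun x => OmJ c N (jt C φ ψ θ x)) μ := by
  have c1 : Continuous φ := C.sm_cont sφ
  have c2 : Continuous ψ := C.sm_cont sψ
  have c3 : Continuous (C.G φ φ) := C.sm_cont (C.sm_G sφ sφ)
  have c4 : Continuous (C.G ψ ψ) := C.sm_cont (C.sm_G sψ sψ)
  simp only [OmJ_jt]
  refine integrable_cont ?_
  unfold StH_912.OmS
  exact continuous_const.mul ((((c1.sub continuous_const).mul (c2.sub continuous_const)).pow N).mul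
    (((c3.add c4).add ((c1.sub continuous_const).pow 2)).add ((c2.sub continuous_const).pow 2)))

end Calculus

end Crest.Agent.R249.StJ_912

end
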