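import Crest.Agent.R249.LimF6_621
import Crest.Agent.R249.StJb_912
import Crest.Agent.R249.PoisB_324

/-!
Row 249, part A2 (helper912), task A2-ASM3, file 3: the final assembly of part A.

* `CertAC` : what the certificate must deliver for the contract AC* (helper467, helper254, ...);
* `certL_mk` : helper621's `CertL` from the certificate, the Lipschitz condition and the divergence
  identity (the target is `OmJ c N`, its regularity is supplied here);
* `limOm_of_cert : CertAC → StH_912.LimOm`;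
* `st_of_cert : CertAC → Top49.ST`.
-/

set_option autoImplicit false
set_option linter.unusedVariables false
set_option linter.unusedSectionVars false

open MeasureTheory Set Filter Topology Matrix
open scoped ContDiff

noncomputable section

namespace Crest.Agent.R249.StJ_912

open Calc_806 Calc_806.Calc Lim621 LimE621 LimF621 PenH_806 Pen_806

attribute [local instance] Matrix.frobeniusNormedAddCommGroup Matrix.frobeniusNormedSpace

/-- the pointwise certificate at all levels, contract AC* -/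
def CertPt (c : ℝ) (N : ℕ) (I : ℝ → Jet E4 H4 → ℝ) : Prop :=
  ∀ κ : ℝ, 0 < κ → ∀ C1 : ℝ, ∃ t1 : ℝ, 0 < t1 ∧
    ∀ (t : ℝ) (ht : 0 < t) (htB : t < BA - gA), t < t1 → ∀ ε : ℝ, 0 ≤ ε → ε ≤ C1 * t →
    CertE trH SyH (OA.lvl t ht.le htB) (fun u => fA u - ε) 0 (I t) (OmJ c N)
      (fun j => κ * j.W ^ 2)

/-- the Lipschitz condition at small levels -/
def CertLip (I : ℝ → Jet E4 H4 → ℝ) : Prop :=
  ∃ t2 : ℝ, 0 < t2 ∧ ∀ (t : ℝ) (ht : 0 < t) (htB : t < BA - gA), t < t2 →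
    ∃ CI : ℝ, 0 ≤ CI ∧ LipD (DomO (OA.lvl t ht.le htB) (t / 2)) CI (I t)

/-- the divergence inequality at small levels, one calculus -/
def CertDiv {X : Type*} [TopologicalSpace X] [CompactSpace X] [MeasurableSpace X]
    [OpensMeasurableSpace X] {μ : Measure X} [IsFiniteMeasure μ] (C : Calc X μ) (b Cθ : ℝ)
    (I : ℝ → Jet E4 H4 → ℝ) : Prop :=
  ∃ t2 : ℝ, 0 < t2 ∧ ∀ (t : ℝ) (ht : 0 < t) (htB : t < BA - gA), t < t2 →
    ∀ φ ψ : X → ℝ, C.Sm φ → C.Sm ψ →
      (∀ x, (φ x, ψ x) ∈ DomO (OA.lvl t ht.le htB) (t / 2)) →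
      ∃ θ V : X → ℝ, DivCert C b Cθ (I t) φ ψ θ V

/-- **the input of the final assembly.** -/
def CertAC.{u} : Prop :=
  ∃ (c : ℝ) (N : ℕ) (b Cθ : ℝ) (I : ℝ → Jet E4 H4 → ℝ), 0 < c ∧ CertPt c N I ∧ CertLip I ∧
    ∀ (X : Type u) [TopologicalSpace X] [CompactSpace X] [Nonempty X] [MeasurableSpace X]
      [OpensMeasurableSpace X] (μ : Measure X) [IsFiniteMeasure μ] [μ.IsOpenPosMeasure]
      (C : Calc X μ), CertDiv C b Cθ I

theorem certL_mk {X : Type*} [TopologicalSpace X] [CompactSpace X] [MeasurableSpace X]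
    [OpensMeasurableSpace X] {μ : Measure X} [IsFiniteMeasure μ] (C : Calc X μ) {c : ℝ} {N : ℕ}
    {b Cθ : ℝ} {I : ℝ → Jet E4 H4 → ℝ} (h1 : CertPt c N I) (h2 : CertLip I)
    (h3 : CertDiv C b Cθ I) : CertL C OA fA b Cθ I (OmJ c N) where
  cert := h1
  reg := by
    obtain ⟨t2, ht2, h2⟩ := h2
    obtain ⟨t3, ht3, h3⟩ := h3
    refine ⟨min t2 t3, lt_min ht2 ht3, fun t ht htB htt => ⟨h2 t ht htB (lt_min_iff.1 htt).1, ?_, ?_⟩⟩
    · refine ⟨|c| * (4 * N + 4), by positivity, lipD_OmJ ?_ c N⟩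
      rintro ⟨p, q⟩ ⟨a1, a2, a3, a4, -⟩
      simp only at a1 a2 a3 a4 ⊢
      exact ⟨by linarith, a2, by linarith, a4⟩
    · intro φ ψ sφ sψ hx
      obtain ⟨θ, V, D⟩ := h3 t ht htB (lt_min_iff.1 htt).2 φ ψ sφ sψ hx
      exact ⟨θ, V, D, int_OmJ sφ sψ c N θ⟩

theorem ΓA_le {η : ℝ} (hη : |η| ≤ 1) : ΓA η ≤ 1 := by
  have h2 : η ^ 2 ≤ 1 := by rw [← sq_abs]; exact pow_le_one₀ (abs_nonneg η) hη
  have h4 : η ^ 4 ≤ η ^ 2 := by nlinarith [sq_nonneg η]
  unfold ΓA
  nlinarith [sq_nonneg η]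

/-- **limit passage, contract AC*.** -/
theorem limOm_of_cert.{u} (H : CertAC.{u}) : StH_912.LimOm.{u} := by
  obtain ⟨c, N, b, Cθ, I, hc, h1, h2, h3⟩ := H
  refine ⟨gA, N, by norm_num [gA], by norm_num [gA], ?_⟩
  intro X _ _ _ _ _ μ _ _ C F₁ F₂ H₁ H₂ hs ε hε
  have hδ : 0 < min ε (c * ε) := lt_min hε (by positivity)
  obtain ⟨t, ht, htδ, φ, ψ, θ, sφ, sψ, sθ, mφ, mψ, hk, l1, l2, hi, hI⟩ :=
    exists_limL C adm_A conc_A (certL_mk C h1 h2 (h3 X μ C)) H₁ H₂ hs hδ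
  have e1 : min ε (c * ε) ≤ ε := min_le_left _ _
  have e2 : min ε (c * ε) ≤ c * ε := min_le_right _ _
  refine ⟨φ, ψ, sφ, sψ, fun x => by linarith [(mφ x).1], fun x => by linarith [(mψ x).1],
    fun x => (mφ x).2.trans (by norm_num [BA]), fun x => (mψ x).2.trans (by norm_num [BA]), ?_,
    fun x => (l1 x).trans (by linarith), fun x => (l2 x).trans (by linarith), ?_⟩
  · intro x
    have a1 := (mφ x).1
    have a2 := (mφ x).2
    have a3 := (mψ x).1
    have a4 := (mψ x).2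
    simp only [gA, BA] at a1 a2 a3 a4
    have h5 : ΓA (φ x - ψ x) ≤ 1 := ΓA_le (abs_le.2 ⟨by linarith, by linarith⟩)
    have h6 : t / 2 ≤ ΓA (φ x - ψ x) - (φ x + ψ x) / 2 := hk x
    linarith
  · simp only [OmJ_jt] at hI
    rw [integral_const_mul] at hI
    have h7 := hI.trans e2
    exact le_of_mul_le_mul_left h7 hc

/-- **part A from the certificate.** -/
theorem st_of_cert.{u} (H : CertAC.{u}) : Crest.Agent.R249.Top49.ST.{u} :=
  StH_912.st_of_limOm Grn324.poissonAll (limOm_of_cert H)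

end Crest.Agent.R249.StJ_912

end
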