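import Crest.Agent.R249.Sym5_467

/-!
# R249 (helper467), A2-ETA part 11: the certificate at all levels, scaled unknowns

`CertS γ A B W c N` : what the exact checks deliver (interior and the two contact vertices at level
`0`, scaled unknowns, contract AC*); `cert_core` : the inequality for exact jets at level `t`,
nonlinearity `F - ε`, with the error `κ W²`.
-/

set_option autoImplicit false
set_option linter.unusedVariables false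
set_option linter.unusedSectionVars false

open MeasureTheory Set Filter Topology Matrix
open scoped ContDiff

noncomputable section

namespace Crest.Agent.R249.Sym467

open DivC467 Eta467 Lim621

attribute [local instance] Matrix.frobeniusNormedAddCommGroup Matrix.frobeniusNormedSpace

variable {γ : Pm} {ρ : Rd γ}

/-- the scaled nonlinearity. -/
def Fs (u : ℝ) : ℝ := u - u ^ 3

/-- `Γ'`. -/
def dG (γ : Pm) (η : ℝ) : ℝ := -2 * γ.g1 * η + 4 * γ.g2 * η ^ 3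

/-- `Γ''`. -/
def ddG (γ : Pm) (η : ℝ) : ℝ := -2 * γ.g1 + 12 * γ.g2 * η ^ 2

/-- `E` at `z = (η, m, G)`. -/
def Ec (γ : Pm) (z : E3) : ℝ :=
  -(1 / 2 - dG γ z.1) * Fs (z.2.1 + z.1 / 2) - (1 / 2 + dG γ z.1) * Fs (z.2.1 - z.1 / 2) +
    ddG γ z.1 * z.2.2

/-- target, part without `dm`. -/
def o0 (N : ℕ) (z : E3) : ℝ :=
  (z.2.1 ^ 2 - z.1 ^ 2 / 4) ^ N * (z.2.2 / 2 + 2 * (z.2.1 - 1) ^ 2 + z.1 ^ 2 / 2)

/-- target, coefficient of `|dm|²`. -/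
def o2 (N : ℕ) (z : E3) : ℝ := 2 * (z.2.1 ^ 2 - z.1 ^ 2 / 4) ^ N

/-- target on jets. -/
def OmZ (N : ℕ) (j : Jet E4 H4) : ℝ :=
  (j.f * j.g) ^ N * (‖j.p‖ ^ 2 + ‖j.q‖ ^ 2 + (j.f - 1) ^ 2 + (j.g - 1) ^ 2)

lemma OmZ_eq (N : ℕ) (j : Jet E4 H4) :
    OmZ N j = o0 N (bJ j) + o2 N (bJ j) * (vJ j ⬝ᵥ vJ j) := by
  have e1 : ‖j.p‖ ^ 2 + ‖j.q‖ ^ 2 = (uJ j ⬝ᵥ uJ j) / 2 + 2 * (vJ j ⬝ᵥ vJ j) := by
    rw [EuclideanSpace.norm_sq_eq, EuclideanSpace.norm_sq_eq, uJ, vJ]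
    simp only [dotProduct, Real.norm_eq_abs, sq_abs, Pi.smul_apply, smul_eq_mul,
      WithLp.ofLp_add, WithLp.ofLp_sub, Pi.add_apply, Pi.sub_apply, Fin.sum_univ_four]
    ring
  have e2 : (bJ j).2.1 ^ 2 - (bJ j).1 ^ 2 / 4 = j.f * j.g := by
    simp only [bJ]; ring
  have e3 : 2 * ((bJ j).2.1 - 1) ^ 2 + (bJ j).1 ^ 2 / 2 = (j.f - 1) ^ 2 + (j.g - 1) ^ 2 := by
    simp only [bJ]; ring
  have e4 : (bJ j).2.2 = uJ j ⬝ᵥ uJ j := rfl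
  rw [OmZ, o0, o2, e1, e2, add_assoc ((bJ j).2.2 / 2), e3, e4]
  ring

/-- further conditions on the curve. -/
structure PmX (γ : Pm) : Prop where
  sl : ∀ η : ℝ, |η| ≤ 10 / 7 → |dG γ η| ≤ 12 / 25
  cr : ∀ η : ℝ, |η| ≤ 10 / 7 → 1 - γ.g1 * η ^ 2 + γ.g2 * η ^ 4 + |η| / 2 ≤ 10 / 7

/-- **the certificate** (what the exact checks deliver). -/
structure CertS (γ : Pm) (A B W : E3 → ℝ) (c : ℝ) (N : ℕ) : Prop where
  c0 : 0 < c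
  Wnn : ∀ z ∈ Reg γ, |z.1| < 2 * z.2.1 → 0 ≤ W z
  int : ∀ z ∈ Reg γ, |z.1| < 2 * z.2.1 → ∀ q, 0 ≤ q → q ^ 2 = z.2.2 →
    IntAt Fs 0 A B W (fun z => c * o0 N z) (fun z => c * o2 N z) z q
  v1 : ∀ z ∈ Reg γ, |z.1| < 2 * z.2.1 → kf γ z = 0 → 0 < Ec γ z → ∀ q, 0 ≤ q → q ^ 2 = z.2.2 →
    VtxAt Fs 0 A B W (fun z => c * o0 N z) (fun z => c * o2 N z) z q (dG γ z.1)
      (Ec γ z / (1 / 2 - dG γ z.1)) (Ec γ z / (1 / 2 - dG γ z.1) / 2)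
  v2 : ∀ z ∈ Reg γ, |z.1| < 2 * z.2.1 → kf γ z = 0 → 0 < Ec γ z → ∀ q, 0 ≤ q → q ^ 2 = z.2.2 →
    VtxAt Fs 0 A B W (fun z => c * o0 N z) (fun z => c * o2 N z) z q (dG γ z.1)
      (-(Ec γ z / (1 / 2 + dG γ z.1))) (Ec γ z / (1 / 2 + dG γ z.1) / 2)

/-- exact jets at level `t`. -/
structure ExJ (γ : Pm) (t ε : ℝ) (j : Jet E4 H4) (m₁ m₂ : ℝ) : Prop where
  P : j.P ∈ SyH
  f0 : t ≤ j.f
  f1 : j.f ≤ 10 / 7
  g0 : t ≤ j.g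
  g1 : j.g ≤ 10 / 7
  k : t ≤ kf γ (bJ j)
  eP : j.P.1 = Fs j.f - ε + m₁
  eQ : j.Q.1 = Fs j.g - ε + m₂
  alt : (m₁ = 0 ∧ m₂ = 0) ∨ (kf γ (bJ j) = t ∧ vJ j = dG γ (bJ j).1 • uJ j ∧ 0 ≤ m₁ ∧ 0 ≤ m₂ ∧
    (1 / 2 - dG γ (bJ j).1) * m₁ + (1 / 2 + dG γ (bJ j).1) * m₂ ≤ max (Ec γ (bJ j) + ε) 0)

/-! ### elementary bounds -/

lemma Fs_lip {a b : ℝ} (ha : 0 ≤ a) (ha2 : a ≤ 2) (hb : 0 ≤ b) (hb2 : b ≤ 2) :
    |Fs a - Fs b| ≤ 13 * |a - b| := by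
  have e : Fs a - Fs b = (1 - (a ^ 2 + a * b + b ^ 2)) * (a - b) := by unfold Fs; ring
  rw [e, abs_mul]
  apply mul_le_mul_of_nonneg_right _ (abs_nonneg _)
  rw [abs_le]
  constructor <;> nlinarith [mul_nonneg ha hb]

lemma abs_dG_le {z : E3} (hz : z ∈ Reg γ) : |dG γ z.1| ≤ |z.1| := by
  have h1 := eta_sq_le hz
  have h2 := γ.h1
  have h3 := γ.h2
  have h4 := γ.h3
  have h5 := γ.h4
  have e : dG γ z.1 = z.1 * (-2 * γ.g1 + 4 * γ.g2 * z.1 ^ 2) := by unfold dG; ring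
  rw [e, abs_mul]
  have h6 : |-2 * γ.g1 + 4 * γ.g2 * z.1 ^ 2| ≤ 1 := by
    have : γ.g2 * z.1 ^ 2 ≤ γ.g1 / 2 := by nlinarith
    have : 0 ≤ γ.g2 * z.1 ^ 2 := by positivity
    rw [abs_le]; constructor <;> nlinarith
  nlinarith [abs_nonneg z.1]

lemma Ec_le {z : E3} (hz : z ∈ Reg γ) : Ec γ z ≤ 20 * (z.1 ^ 2 + kf γ z + z.2.2) := by
  have h1 := eta_sq_le hz
  have h2 := γ.h1
  have h3 := γ.h2
  have h4 := γ.h3
  have h5 := γ.h4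
  have hm0 := hz.m0
  have hm1 := m_le hz
  have hd := abs_dG_le hz
  have hG := hz.G0
  have hk := hz.k0
  have e : Ec γ z = -(z.2.1 * (1 - z.2.1 ^ 2)) + 3 / 4 * z.2.1 * z.1 ^ 2 +
      dG γ z.1 * (z.1 * (1 - 3 * z.2.1 ^ 2 - z.1 ^ 2 / 4)) + ddG γ z.1 * z.2.2 := by
    unfold Ec Fs; ring
  have a1 : 0 ≤ z.2.1 * (1 - z.2.1 ^ 2) := mul_nonneg hm0.le (by nlinarith)
  have a2 : 3 / 4 * z.2.1 * z.1 ^ 2 ≤ z.1 ^ 2 := by
    nlinarith [sq_nonneg z.1]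
  have a3 : dG γ z.1 * (z.1 * (1 - 3 * z.2.1 ^ 2 - z.1 ^ 2 / 4)) ≤ 5 * z.1 ^ 2 := by
    refine (le_abs_self _).trans ?_
    rw [abs_mul, abs_mul]
    have b1 : |1 - 3 * z.2.1 ^ 2 - z.1 ^ 2 / 4| ≤ 5 := by
      rw [abs_le]; constructor <;> nlinarith
    calc |dG γ z.1| * (|z.1| * |1 - 3 * z.2.1 ^ 2 - z.1 ^ 2 / 4|) ≤ |z.1| * (|z.1| * 5) := by
          apply mul_le_mul hd _ (by positivity) (abs_nonneg _)
          exact mul_le_mul_of_nonneg_left b1 (abs_nonneg _)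
      _ = 5 * z.1 ^ 2 := by rw [← sq_abs z.1]; ring
  have a4 : ddG γ z.1 * z.2.2 ≤ 2 * z.2.2 := by
    apply mul_le_mul_of_nonneg_right _ hG
    unfold ddG
    have : γ.g2 * z.1 ^ 2 ≤ γ.g1 / 2 := by nlinarith
    linarith
  rw [e]
  linarith [sq_nonneg z.1]

lemma bJ_mem {t : ℝ} (ht : 0 < t) {ε m₁ m₂ : ℝ} {j : Jet E4 H4} (h : ExJ γ t ε j m₁ m₂) :
    bJ j ∈ Reg γ ∧ |(bJ j).1| < 2 * (bJ j).2.1 := by
  have f0 := h.f0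
  have f1 := h.f1
  have g0 := h.g0
  have g1 := h.g1
  have hk := h.k
  have e1 : (bJ j).1 = j.f - j.g := rfl
  have e2 : (bJ j).2.1 = 1 / 2 * (j.f + j.g) := rfl
  have hlt : |(bJ j).1| < 2 * (bJ j).2.1 := by
    rw [e1, e2, abs_lt]; constructor <;> linarith
  refine ⟨⟨?_, hlt.le, ?_, by linarith, uu_nonneg j, ?_⟩, hlt⟩
  · rw [e2]; linarith
  · rw [e1, e2]
    have : |j.f - j.g| ≤ 20 / 7 - (j.f + j.g) := by rw [abs_le]; constructor <;> linarith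
    linarith
  · have : 0 ≤ (bJ j).2.2 := uu_nonneg j
    have := sq_nonneg (bJ j).1
    linarith

/-- the interior inequality for exact jets. -/
lemma int_ge {A B W : E3 → ℝ} {c : ℝ} {N : ℕ} (hC : CertS γ A B W c N) {j : Jet E4 H4}
    (hP : j.P ∈ SyH) (hz : bJ j ∈ Reg γ) (hlt : |(bJ j).1| < 2 * (bJ j).2.1)
    (h1 : j.P.1 = Fs j.f) (h2 : j.Q.1 = Fs j.g) : c * OmZ N j ≤ IE A B W j := by
  have := IE_ge_int (f := Fs) (θ := 0) (A := A) (B := B) (W := W) (o0 := fun z => c * o0 N z)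
    (o2 := fun z => c * o2 N z) (j := j) zero_le_one (hC.Wnn _ hz hlt) hP h1 h2
    (fun q hq hq2 => hC.int _ hz hlt q hq hq2)
  rw [OmZ_eq]
  linarith

/-- **free jets.** -/
lemma free_core {A B W : E3 → ℝ} {c K : ℝ} {N : ℕ} (hC : CertS γ A B W c N)
    (hK : 0 ≤ K) (hB : ∀ z ∈ Reg γ, |z.1| < 2 * z.2.1 →
      -(K * ((√(om γ z))⁻¹ * (1 + z.2.2))) ≤ B z) {t ε κ : ℝ} (ht : 0 < t) (ht1 : t ≤ 1)
    (hε : 0 ≤ ε) (hκ : 2 * K * (ε * (√t)⁻¹) ≤ κ) {j : Jet E4 H4} (h : ExJ γ t ε j 0 0) :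
    c * OmZ N j ≤ IE A B W j + κ * j.W ^ 2 := by
  obtain ⟨hz, hlt⟩ := bJ_mem ht h
  have hb := free_bd (A := A) (W := W) (hB _ hz hlt) hK hε
  have e1 : (shT ε ε j).P.1 = Fs j.f := by
    show j.P.1 + ε = _
    rw [h.eP]; ring
  have e2 : (shT ε ε j).Q.1 = Fs j.g := by
    show j.Q.1 + ε = _
    rw [h.eQ]; ring
  have h1 := int_ge hC (j := shT ε ε j) h.P hz hlt e1 e2
  have e3 : OmZ N (shT ε ε j) = OmZ N j := rfl
  rw [e3] at h1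
  have h2 : (√(om γ (bJ j)))⁻¹ ≤ (√t)⁻¹ := by
    apply inv_anti₀ (Real.sqrt_pos.2 ht)
    exact Real.sqrt_le_sqrt (h.k.trans (k_le_om hz))
  have h3 : 2 * K * (ε * (√(om γ (bJ j)))⁻¹ * j.W ^ 2) ≤ κ * j.W ^ 2 := by
    have h4 : ε * (√(om γ (bJ j)))⁻¹ ≤ ε * (√t)⁻¹ := mul_le_mul_of_nonneg_left h2 hε
    calc 2 * K * (ε * (√(om γ (bJ j)))⁻¹ * j.W ^ 2) =
          (2 * K * (ε * (√(om γ (bJ j)))⁻¹)) * j.W ^ 2 := by ring
      _ ≤ (2 * K * (ε * (√t)⁻¹)) * j.W ^ 2 := by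
          apply mul_le_mul_of_nonneg_right _ (sq_nonneg _)
          exact mul_le_mul_of_nonneg_left h4 (by linarith)
      _ ≤ κ * j.W ^ 2 := mul_le_mul_of_nonneg_right hκ (sq_nonneg _)
  linarith

/-- the multipliers are small near `(1,1)`. -/
lemma mult_le {t ε : ℝ} (hX : PmX γ) (ht : 0 < t) (hε : 0 ≤ ε) {j : Jet E4 H4} {m₁ m₂ : ℝ}
    (hz : bJ j ∈ Reg γ) (hη : |(bJ j).1| ≤ 10 / 7) (h1 : 0 ≤ m₁) (h2 : 0 ≤ m₂) {M : ℝ}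
    (h : (1 / 2 - dG γ (bJ j).1) * m₁ + (1 / 2 + dG γ (bJ j).1) * m₂ ≤ M) :
    m₁ ≤ 50 * M ∧ m₂ ≤ 50 * M := by
  have hs := abs_le.1 (hX.sl _ hη)
  have a1 : 1 / 50 * m₁ ≤ (1 / 2 - dG γ (bJ j).1) * m₁ :=
    mul_le_mul_of_nonneg_right (by linarith) h1
  have a2 : 1 / 50 * m₂ ≤ (1 / 2 + dG γ (bJ j).1) * m₂ :=
    mul_le_mul_of_nonneg_right (by linarith) h2
  have a3 : 0 ≤ 1 / 50 * m₁ := by positivity
  have a4 : 0 ≤ 1 / 50 * m₂ := by positivity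
  constructor <;> linarith

/-- **contact jets near `(1, 1)`.** -/
lemma near_core {A B W : E3 → ℝ} {c K : ℝ} {N : ℕ} (hX : PmX γ) (hC : CertS γ A B W c N)
    (hK : 0 ≤ K) (hB : ∀ z ∈ Reg γ, 1 / 4 ≤ z.2.1 → Bds1 γ A B W K z) {t ε κ r0 C1 : ℝ} (ht : 0 < t)
    (ht1 : t < 1 / 2) (hε : 0 ≤ ε) (hε1 : ε ≤ C1 * t) (hC1 : 0 ≤ C1) (hr0 : 0 < r0)
    (hr1 : r0 ≤ 1 / 4) (hr2 : 2 * (1000 + 51 * C1) * r0 ≤ 1)
    (hκ : 120 * K * (1000 + 51 * C1) * √r0 ≤ κ) {j : Jet E4 H4} {m₁ m₂ : ℝ}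
    (h : ExJ γ t ε j m₁ m₂) (hk : kf γ (bJ j) = t) (hv : vJ j = dG γ (bJ j).1 • uJ j)
    (h1 : 0 ≤ m₁) (h2 : 0 ≤ m₂)
    (hS : (1 / 2 - dG γ (bJ j).1) * m₁ + (1 / 2 + dG γ (bJ j).1) * m₂ ≤
      max (Ec γ (bJ j) + ε) 0) (ho : om γ (bJ j) ≤ r0) :
    c * OmZ N j ≤ IE A B W j + κ * j.W ^ 2 := by
  obtain ⟨hz, hlt⟩ := bJ_mem ht h
  have hη : |(bJ j).1| ≤ 10 / 7 := by
    have := h.f0
    have := h.f1
    have := h.g0
    have := h.g1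
    have e1 : (bJ j).1 = j.f - j.g := rfl
    rw [e1, abs_le]; constructor <;> linarith
  obtain ⟨s, hs⟩ : ∃ s, s = (bJ j).1 ^ 2 + kf γ (bJ j) + (bJ j).2.2 := ⟨_, rfl⟩
  have hG0 : 0 ≤ (bJ j).2.2 := uu_nonneg j
  have hg := gg_pos hz
  have hom : om γ (bJ j) * (1 + (bJ j).2.2) = s := by
    rw [om, ← hs]; field_simp
  have hop := om_pos hz
  -- `G ≤ 1/3`
  have hG1 : (bJ j).2.2 ≤ 1 := by
    have : (bJ j).2.2 ≤ s := by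
      rw [hs]
      have := sq_nonneg (bJ j).1
      have := hz.k0
      linarith
    rw [← hom] at this
    nlinarith
  have hts : t ≤ s := by
    rw [hs, hk]
    have := sq_nonneg (bJ j).1
    linarith
  have hEs : Ec γ (bJ j) ≤ 20 * s := by rw [hs]; exact Ec_le hz
  have hs0 : 0 < s := ht.trans_le hts
  have hεs : ε ≤ C1 * s := hε1.trans (mul_le_mul_of_nonneg_left hts hC1)
  have hM : max (Ec γ (bJ j) + ε) 0 ≤ (20 + C1) * s := by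
    apply max_le
    · linarith
    · positivity
  obtain ⟨b1, b2⟩ := mult_le hX ht hε hz hη h1 h2 (hS.trans hM)
  obtain ⟨a, ha⟩ : ∃ a, a = (1000 + 51 * C1) * s := ⟨_, rfl⟩
  have hCs : 0 ≤ C1 * s := mul_nonneg hC1 hs0.le
  have c1 : |ε - m₁| ≤ a := by
    rw [ha, abs_le]; constructor <;> linarith
  have c2 : |ε - m₂| ≤ a := by
    rw [ha, abs_le]; constructor <;> linarith
  have hs2 : s ≤ 2 * om γ (bJ j) := by rw [← hom]; nlinarith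
  have ha1 : a ≤ 1 := by
    rw [ha]
    have : (1000 + 51 * C1) * s ≤ (1000 + 51 * C1) * (2 * r0) :=
      mul_le_mul_of_nonneg_left (by linarith) (by linarith)
    linarith
  have hm : 1 / 4 ≤ (bJ j).2.1 := by
    by_contra hcon
    have := k_ge_of_small hz (by linarith)
    linarith
  have hb := tr_bd (hB _ hz hm) hK hm hv (abs_dG_le hz) c1 c2 ha1
  have e1 : (shT (ε - m₁) (ε - m₂) j).P.1 = Fs j.f := by
    show j.P.1 + (ε - m₁) = _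
    rw [h.eP]; ring
  have e2 : (shT (ε - m₁) (ε - m₂) j).Q.1 = Fs j.g := by
    show j.Q.1 + (ε - m₂) = _
    rw [h.eQ]; ring
  have h3 := int_ge hC (j := shT (ε - m₁) (ε - m₂) j) h.P hz hlt e1 e2
  have e3 : OmZ N (shT (ε - m₁) (ε - m₂) j) = OmZ N j := rfl
  rw [e3] at h3
  have h4 := (abs_le.1 hb).2
  -- the size of the error
  have h5 : a * (√(om γ (bJ j)))⁻¹ ≤ 2 * (1000 + 51 * C1) * √r0 := by
    have hq := Real.sqrt_pos.2 hop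
    have h6 : om γ (bJ j) * (√(om γ (bJ j)))⁻¹ = √(om γ (bJ j)) := by
      rw [← div_eq_mul_inv]; exact Real.div_sqrt
    have h7 : √(om γ (bJ j)) ≤ √r0 := Real.sqrt_le_sqrt ho
    calc a * (√(om γ (bJ j)))⁻¹ ≤ ((1000 + 51 * C1) * (2 * om γ (bJ j))) * (√(om γ (bJ j)))⁻¹ := by
          apply mul_le_mul_of_nonneg_right _ (inv_pos.2 hq).le
          rw [ha]; exact mul_le_mul_of_nonneg_left hs2 (by linarith)
      _ = 2 * (1000 + 51 * C1) * (om γ (bJ j) * (√(om γ (bJ j)))⁻¹) := by ring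
      _ = 2 * (1000 + 51 * C1) * √(om γ (bJ j)) := by rw [h6]
      _ ≤ _ := mul_le_mul_of_nonneg_left h7 (by linarith)
  have h8 : 60 * K * (a * (√(om γ (bJ j)))⁻¹ * j.W ^ 2) ≤ κ * j.W ^ 2 := by
    calc 60 * K * (a * (√(om γ (bJ j)))⁻¹ * j.W ^ 2) =
          60 * K * (a * (√(om γ (bJ j)))⁻¹) * j.W ^ 2 := by ring
      _ ≤ 60 * K * (2 * (1000 + 51 * C1) * √r0) * j.W ^ 2 := by
          apply mul_le_mul_of_nonneg_right _ (sq_nonneg _)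
          exact mul_le_mul_of_nonneg_left h5 (by linarith)
      _ = (120 * K * (1000 + 51 * C1) * √r0) * j.W ^ 2 := by ring
      _ ≤ _ := mul_le_mul_of_nonneg_right hκ (sq_nonneg _)
  linarith

end Crest.Agent.R249.Sym467
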