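import Crest.Agent.R249.Brg2_133
import Crest.Agent.R249.Sym6_467

/-!
# Row 249, part A (helper912): the scaled certificate, part 1

Approximation of the points of `Reg` (of the contact curve) by points of the open region:
`le_of_open`, `le_of_con`.
-/

set_option autoImplicit false
set_option linter.unusedVariables false
set_option linter.unusedSectionVars false

open Set Filter Topology
open scoped ContDiff

noncomputable section

namespace Crest.Agent.R249.StK_912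

open DivC467 hiding X0 K0
open Eta467 Sym467

/-- `φ ψ` -/
def muS (z : E3) : ℝ := z.2.1 ^ 2 - z.1 ^ 2 / 4

/-! ### the open region -/

/-- the open region -/
structure OReg (γ : Pm) (z : E3) : Prop where
  m0 : 0 < z.2.1
  m1 : z.2.1 < 1
  e0 : z.1 ≠ 0
  em : |z.1| < 2 * z.2.1
  k0 : 0 < kf γ z
  G0 : 0 < z.2.2

/-- the open part of the contact curve -/
structure OCon (γ : Pm) (z : E3) : Prop where
  m0 : 0 < z.2.1
  m1 : z.2.1 < 1
  e0 : z.1 ≠ 0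
  em : |z.1| < 2 * z.2.1
  k0 : kf γ z = 0
  G0 : 0 < z.2.2

lemma kf_scale {γ : Pm} {m s x y : ℝ} (hs0 : 0 < s) (hs1 : s < 1) (hy0 : 0 ≤ y) (hy4 : y ≤ 4)
    (hx0 : 0 ≤ x) (hx : x ≤ s ^ 2 * y) (hk : 0 ≤ 1 - γ.g1 * y + γ.g2 * y ^ 2 - m) :
    0 < 1 - γ.g1 * x + γ.g2 * x ^ 2 - s * m := by
  have h1 := γ.h1
  have h2 := γ.h2
  have h3 := γ.h3
  have h4 := γ.h4
  have hs2 : s ^ 2 ≤ s := by nlinarith
  have hs3 : s ^ 2 * y ≤ s * y := mul_le_mul_of_nonneg_right hs2 hy0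
  have hxy : x ≤ y := by nlinarith
  have hmul : s * m ≤ s * (1 - γ.g1 * y + γ.g2 * y ^ 2) := mul_le_mul_of_nonneg_left (by linarith) hs0.le
  -- `g1 x - g2 x² ≤ g1 (s² y) - g2 (s² y)²`
  have a1 : γ.g2 * (s ^ 2 * y + x) ≤ γ.g1 := by
    have : s ^ 2 * y + x ≤ 8 := by nlinarith
    nlinarith
  have a2 : 0 ≤ (s ^ 2 * y - x) * (γ.g1 - γ.g2 * (s ^ 2 * y + x)) :=
    mul_nonneg (by linarith) (by linarith)
  -- the difference at `s² y`
  have b1 : γ.g2 * y ≤ γ.g1 / 2 := by nlinarith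
  have b2 : γ.g2 * y ^ 2 ≤ γ.g1 / 2 * y := by nlinarith
  have b3 : 0 ≤ γ.g2 * y ^ 2 := by positivity
  have b4 : γ.g1 * y ≤ 1 := by nlinarith
  have c1 : 0 < (1 - s) * (1 + γ.g1 * y * s - γ.g2 * y ^ 2 * (s * (1 + s + s ^ 2))) := by
    apply mul_pos (by linarith)
    have d1 : s * (1 + s + s ^ 2) ≤ 3 * s := by nlinarith
    have d2 : γ.g2 * y ^ 2 * (s * (1 + s + s ^ 2)) ≤ (γ.g1 / 2 * y) * (3 * s) :=
      mul_le_mul b2 d1 (by positivity) (by positivity)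
    nlinarith
  nlinarith

lemma gam_mono {γ : Pm} {x y : ℝ} (hx0 : 0 ≤ x) (hxy : x ≤ y) (hy : y ≤ 4) :
    1 - γ.g1 * y + γ.g2 * y ^ 2 ≤ 1 - γ.g1 * x + γ.g2 * x ^ 2 := by
  have h1 := γ.h1
  have h3 := γ.h3
  have h4 := γ.h4
  have a1 : γ.g2 * (y + x) ≤ γ.g1 := by nlinarith
  have a2 : 0 ≤ (y - x) * (γ.g1 - γ.g2 * (y + x)) := mul_nonneg (by linarith) (by linarith)
  nlinarith

lemma gam_lt_one {γ : Pm} {x : ℝ} (hx0 : 0 < x) (hx : x ≤ 4) :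
    1 - γ.g1 * x + γ.g2 * x ^ 2 < 1 := by
  have h1 := γ.h1
  have h3 := γ.h3
  have h4 := γ.h4
  have a1 : γ.g2 * x ≤ γ.g1 / 2 := by nlinarith
  nlinarith

section path

variable {γ : Pm} {z : E3} {q : ℝ}

/-- the approximating path, interior -/
def pInt (z : E3) (q t : ℝ) : E3 × ℝ :=
  (((1 - t) ^ 2 * z.1 + (if z.1 = 0 then t * z.2.1 else 0), (1 - t) * z.2.1, (q + t) ^ 2), q + t)

lemma tendsto_pInt (hq : q ^ 2 = z.2.2) : Tendsto (pInt z q) (𝓝[>] 0) (𝓝 (z, q)) := by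
  have hc : Continuous (pInt z q) := by
    unfold pInt
    split_ifs <;> fun_prop
  have h := hc.tendsto 0
  have e : pInt z q 0 = (z, q) := by
    unfold pInt
    split_ifs with h0
    · ext <;> simp [hq]
    · ext <;> simp [hq]
  rw [e] at h
  exact h.mono_left nhdsWithin_le_nhds

lemma pInt_mem (hz : z ∈ Reg γ) (hq0 : 0 ≤ q) (hq : q ^ 2 = z.2.2) :
    ∀ᶠ t in 𝓝[>] (0:ℝ), OReg γ (pInt z q t).1 ∧ 0 < (pInt z q t).2 ∧
      (pInt z q t).2 ^ 2 = (pInt z q t).1.2.2 := by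
  have h1 : ∀ᶠ t in 𝓝[>] (0:ℝ), t < 1 / 2 := nhdsWithin_le_nhds (gt_mem_nhds (by norm_num))
  filter_upwards [h1, self_mem_nhdsWithin] with t ht ht0
  have ht0 : 0 < t := ht0
  have hm0 := hz.m0
  have hm1 := m_le hz
  have hem := hz.em
  have hy4 := eta_sq_le hz
  have hy := eta_sq_le_m hz
  have hk := hz.k0
  have hs0 : (0:ℝ) < 1 - t := by linarith
  have hs1 : 1 - t < 1 := by linarith
  have hsm : 0 < (1 - t) * z.2.1 := mul_pos hs0 hm0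
  have hqt : 0 < q + t := by linarith
  refine ⟨?_, hqt, rfl⟩
  by_cases h0 : z.1 = 0
  · have e : (pInt z q t).1 = (t * z.2.1, (1 - t) * z.2.1, (q + t) ^ 2) := by
      simp [pInt, h0]
    rw [e]
    have htm : 0 < t * z.2.1 := mul_pos ht0 hm0
    refine ⟨hsm, ?_, htm.ne', ?_, ?_, by positivity⟩
    · show (1 - t) * z.2.1 < 1
      nlinarith
    · show |t * z.2.1| < 2 * ((1 - t) * z.2.1)
      rw [abs_of_pos htm]
      nlinarith
    · show 0 < 1 - γ.g1 * (t * z.2.1) ^ 2 + γ.g2 * (t * z.2.1) ^ 4 - (1 - t) * z.2.1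
      have h3 := γ.h3
      have h2 := γ.h2
      have h5 : 0 ≤ γ.g2 * (t * z.2.1) ^ 4 := by positivity
      have h6 : γ.g1 * (t * z.2.1) ^ 2 ≤ 1 / 4 * (t * z.2.1) ^ 2 :=
        mul_le_mul_of_nonneg_right h2 (sq_nonneg _)
      have h7 : (t * z.2.1) ^ 2 ≤ t * z.2.1 := by nlinarith
      nlinarith
  · have e : (pInt z q t).1 = ((1 - t) ^ 2 * z.1, (1 - t) * z.2.1, (q + t) ^ 2) := by
      simp [pInt, h0]
    rw [e]
    have ha : 0 < |z.1| := abs_pos.2 h0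
    refine ⟨hsm, ?_, mul_ne_zero (by positivity) h0, ?_, ?_, by positivity⟩
    · show (1 - t) * z.2.1 < 1
      nlinarith
    · show |(1 - t) ^ 2 * z.1| < 2 * ((1 - t) * z.2.1)
      rw [abs_mul, abs_of_pos (by positivity : (0:ℝ) < (1 - t) ^ 2)]
      have h8 : (1 - t) ^ 2 * |z.1| ≤ (1 - t) ^ 2 * (2 * z.2.1) :=
        mul_le_mul_of_nonneg_left hem (by positivity)
      have h9 : (1 - t) ^ 2 * (2 * z.2.1) < (1 - t) * (2 * z.2.1) := by
        apply mul_lt_mul_of_pos_right _ (by positivity)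
        nlinarith
      linarith
    · show 0 < 1 - γ.g1 * ((1 - t) ^ 2 * z.1) ^ 2 + γ.g2 * ((1 - t) ^ 2 * z.1) ^ 4 - (1 - t) * z.2.1
      have hk' : 0 ≤ 1 - γ.g1 * z.1 ^ 2 + γ.g2 * (z.1 ^ 2) ^ 2 - z.2.1 := by
        have : kf γ z = 1 - γ.g1 * z.1 ^ 2 + γ.g2 * (z.1 ^ 2) ^ 2 - z.2.1 := by unfold kf; ring
        rw [← this]; exact hk
      have hx : ((1 - t) ^ 2 * z.1) ^ 2 ≤ (1 - t) ^ 2 * z.1 ^ 2 := by
        have : ((1 - t) ^ 2 * z.1) ^ 2 = (1 - t) ^ 2 * ((1 - t) ^ 2 * z.1 ^ 2) := by ring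
        rw [this]
        apply mul_le_mul_of_nonneg_left _ (by positivity)
        have : (1 - t) ^ 2 ≤ 1 := by nlinarith
        nlinarith [sq_nonneg z.1]
      have := kf_scale (γ := γ) hs0 hs1 (sq_nonneg z.1) hy4 (sq_nonneg _) hx hk'
      have e4 : ((1 - t) ^ 2 * z.1) ^ 4 = (((1 - t) ^ 2 * z.1) ^ 2) ^ 2 := by ring
      rw [e4]
      exact this

/-- **closure, interior.** -/
theorem le_of_open {L R : E3 × ℝ → ℝ} (hz : z ∈ Reg γ) (hq0 : 0 ≤ q) (hq : q ^ 2 = z.2.2)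
    (hL : ContinuousAt L (z, q)) (hR : ContinuousAt R (z, q))
    (H : ∀ z' q', OReg γ z' → 0 < q' → q' ^ 2 = z'.2.2 → L (z', q') ≤ R (z', q')) :
    L (z, q) ≤ R (z, q) := by
  have ht := tendsto_pInt (z := z) hq
  refine le_of_tendsto_of_tendsto (hL.tendsto.comp ht) (hR.tendsto.comp ht) ?_
  filter_upwards [pInt_mem hz hq0 hq] with t ht
  exact H _ _ ht.1 ht.2.1 ht.2.2

/-- the approximating path, contact -/
def pCon (γ : Pm) (z : E3) (q t : ℝ) : E3 × ℝ :=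
  (((1 - t) * z.1, 1 - γ.g1 * ((1 - t) * z.1) ^ 2 + γ.g2 * ((1 - t) * z.1) ^ 4, (q + t) ^ 2), q + t)

lemma tendsto_pCon (hk : kf γ z = 0) (hq : q ^ 2 = z.2.2) :
    Tendsto (pCon γ z q) (𝓝[>] 0) (𝓝 (z, q)) := by
  have hc : Continuous (pCon γ z q) := by
    unfold pCon
    fun_prop
  have h := hc.tendsto 0
  have e : pCon γ z q 0 = (z, q) := by
    unfold kf at hk
    have : 1 - γ.g1 * z.1 ^ 2 + γ.g2 * z.1 ^ 4 = z.2.1 := by linarith
    unfold pCon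
    ext <;> simp [hq, this]
  rw [e] at h
  exact h.mono_left nhdsWithin_le_nhds

lemma pCon_mem (hz : z ∈ Reg γ) (h0 : z.1 ≠ 0) (hk : kf γ z = 0) (hq0 : 0 ≤ q)
    (hq : q ^ 2 = z.2.2) :
    ∀ᶠ t in 𝓝[>] (0:ℝ), OCon γ (pCon γ z q t).1 ∧ 0 < (pCon γ z q t).2 ∧
      (pCon γ z q t).2 ^ 2 = (pCon γ z q t).1.2.2 := by
  have h1 : ∀ᶠ t in 𝓝[>] (0:ℝ), t < 1 / 2 := nhdsWithin_le_nhds (gt_mem_nhds (by norm_num))
  filter_upwards [h1, self_mem_nhdsWithin] with t ht ht0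
  have ht0 : 0 < t := ht0
  have hm0 := hz.m0
  have hem := hz.em
  have hy4 := eta_sq_le hz
  have hs0 : (0:ℝ) < 1 - t := by linarith
  have hqt : 0 < q + t := by linarith
  have ha : 0 < |z.1| := abs_pos.2 h0
  have hy0 : 0 < z.1 ^ 2 := by positivity
  have hx0 : 0 < ((1 - t) * z.1) ^ 2 := by positivity
  have hxy : ((1 - t) * z.1) ^ 2 ≤ z.1 ^ 2 := by
    rw [mul_pow]
    have : (1 - t) ^ 2 ≤ 1 := by nlinarith
    nlinarith
  have hk' : 1 - γ.g1 * z.1 ^ 2 + γ.g2 * (z.1 ^ 2) ^ 2 = z.2.1 := by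
    have : kf γ z = 1 - γ.g1 * z.1 ^ 2 + γ.g2 * (z.1 ^ 2) ^ 2 - z.2.1 := by unfold kf; ring
    linarith
  have e4 : 1 - γ.g1 * ((1 - t) * z.1) ^ 2 + γ.g2 * ((1 - t) * z.1) ^ 4 =
    1 - γ.g1 * ((1 - t) * z.1) ^ 2 + γ.g2 * (((1 - t) * z.1) ^ 2) ^ 2 := by ring
  have hmono := gam_mono (γ := γ) hx0.le hxy hy4
  rw [hk', ← e4] at hmono
  have hlt := gam_lt_one (γ := γ) hx0 (hxy.trans hy4)
  rw [← e4] at hlt
  refine ⟨⟨lt_of_lt_of_le hm0 hmono, hlt, mul_ne_zero hs0.ne' h0, ?_, ?_, by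
    show 0 < (q + t) ^ 2
    positivity⟩, hqt, rfl⟩
  · show |(1 - t) * z.1| < 2 * (1 - γ.g1 * ((1 - t) * z.1) ^ 2 + γ.g2 * ((1 - t) * z.1) ^ 4)
    rw [abs_mul, abs_of_pos hs0]
    nlinarith
  · show 1 - γ.g1 * ((1 - t) * z.1) ^ 2 + γ.g2 * ((1 - t) * z.1) ^ 4 -
      (1 - γ.g1 * ((1 - t) * z.1) ^ 2 + γ.g2 * ((1 - t) * z.1) ^ 4) = 0
    ring

lemma continuous_X0 : Continuous (fun z : E3 => X0 Fs z) := by unfold X0 Fs; fun_prop
lemma continuous_K0 : Continuous (fun z : E3 => K0 Fs z) := by unfold K0 Fs; fun_prop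
lemma continuous_dG : Continuous (fun z : E3 => dG γ z.1) := by unfold dG; fun_prop
lemma continuous_Ec : Continuous (fun z : E3 => Ec γ z) := by
  unfold Ec dG ddG Fs
  fun_prop

/-- at contact the sources vanish unless `η ≠ 0` -/
lemma eta_ne (hk : kf γ z = 0) (hG : 0 ≤ z.2.2) (hE : 0 < Ec γ z) : z.1 ≠ 0 := by
  intro h0
  have hm : z.2.1 = 1 := by
    unfold kf at hk
    rw [h0] at hk
    linarith
  have h1 := γ.h1
  unfold Ec dG ddG Fs at hE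
  rw [h0, hm] at hE
  nlinarith

/-- **closure, contact.** -/
theorem le_of_con {L R : E3 × ℝ → ℝ} (hz : z ∈ Reg γ) (hk : kf γ z = 0) (hE : 0 < Ec γ z)
    (hq0 : 0 ≤ q) (hq : q ^ 2 = z.2.2)
    (hL : ContinuousAt L (z, q)) (hR : ContinuousAt R (z, q))
    (H : ∀ z' q', OCon γ z' → 0 < Ec γ z' → 0 < q' → q' ^ 2 = z'.2.2 → L (z', q') ≤ R (z', q')) :
    L (z, q) ≤ R (z, q) := by
  have h0 := eta_ne hk hz.G0 hE
  have ht := tendsto_pCon (z := z) hk hq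
  have hE' : ∀ᶠ t in 𝓝[>] (0:ℝ), 0 < Ec γ (pCon γ z q t).1 := by
    have h1 : Tendsto (fun t => (pCon γ z q t).1) (𝓝[>] 0) (𝓝 z) :=
      (continuous_fst.tendsto (z, q)).comp ht
    exact (((continuous_Ec (γ := γ)).tendsto z).comp h1).eventually (lt_mem_nhds hE)
  refine le_of_tendsto_of_tendsto (hL.tendsto.comp ht) (hR.tendsto.comp ht) ?_
  filter_upwards [pCon_mem hz h0 hk hq0 hq, hE'] with t ht hEt
  exact H _ _ ht.1 hEt ht.2.1 ht.2.2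

end path

end Crest.Agent.R249.StK_912
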