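import Crest.Agent.R249.PxAll_324
import Crest.Agent.R249.Sym12_467
import Crest.Agent.R249.Con8_378

/-!
# Row 249, part A (helper912): the two-function lemma `ST`

Assembly of the exact certificate (helper709), its kernel checks in the interior (helper324,
helper254, helper133) and at contact (helper378), the limit passage (helper621, helper806,
helper467) and the final deduction.
-/

set_option autoImplicit false

namespace Crest.Agent.R249.StL_912

/-- **part A of row 249.** -/
theorem st : Crest.Agent.R249.Top49.ST.{0} :=
  Crest.Agent.R249.Sym467.st_of_psd Crest.Agent.R249.Px324.psdAll (by norm_num)
    Crest.Agent.R249.Con378.con_709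

end Crest.Agent.R249.StL_912
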