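import Crest.Agent.R249.Near_274

/-!
# R249, leaf D3-START (helper397), file 1: Hessian and Pythagoras data on a pinched manifold

From `Ric ≥ -δ` and volume pinching (scales `≤ 40` on `ball q 50`):

* `hf2` : for every centre `x` with `dist x q < 1` and every scale `dy k`, `k ≥ 4`, there is a smooth
  compactly supported function `w` with `∇w` close to `∇(d_x²/2)` and `Hess w` close to `g` in `L²`
  of `ball x (6 dy k)`;
* `pyd` : for two centres `⟨∇f_x, ∇f_y⟩ - f_x - f_y` is `L¹` close to a constant on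
  `ball x (dy k)`;
* `pyd_zero` : the constant is `-f_x(y)` up to a small error.
-/

set_option autoImplicit false
set_option maxSynthPendingDepth 3
set_option linter.unusedSectionVars false
set_option linter.unusedVariables false

open Bundle Bornology Set MeasureTheory Manifold Filter Metric Topology
open scoped ENNReal ContDiff Topology NNReal RealInnerProductSpace
open Crest.GeometryTopology.CoordMetric Crest.GeometryTopology.ChartCurvature
open Crest.GeometryTopology.PointedLimit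

noncomputable section

namespace Crest.Agent.R249.Sta1_397

universe u

open Crest.Agent.R242 Crest.Agent.R247 Crest.Agent.R247.Dir593 Crest.Agent.R247.Dir593.GradS
open Crest.Agent.R247.Smv126 Crest.Agent.R247.Obj554 Crest.Agent.R247.Hes124
open Crest.Agent.R247.Far553 Crest.Agent.R247.Mcp688 Crest.Agent.R247.Max193
open Crest.Agent.R247.Num824 Crest.Agent.R247.Fd656 Crest.Agent.R247.Loc710

section block
variable {n : ℕ} {M : Type u} [MetricSpace M] [CompleteSpace M] [ConnectedSpace M]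
    [ChartedSpace (EuclideanSpace ℝ (Fin n)) M]
    [IsManifold 𝓘(ℝ, EuclideanSpace ℝ (Fin n)) ∞ M]
    [RiemannianBundle (fun x : M => TangentSpace 𝓘(ℝ, EuclideanSpace ℝ (Fin n)) x)]
    [IsContMDiffRiemannianBundle 𝓘(ℝ, EuclideanSpace ℝ (Fin n)) ∞ (EuclideanSpace ℝ (Fin n))
      (fun x : M => TangentSpace 𝓘(ℝ, EuclideanSpace ℝ (Fin n)) x)]
    [IsRiemannianManifold 𝓘(ℝ, EuclideanSpace ℝ (Fin n)) M]
    [MeasurableSpace M] [BorelSpace M] [ProperSpace M] [SecondCountableTopology M] [Nonempty M]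
    [IsFiniteMeasureOnCompacts (Measure.euclideanHausdorffMeasure n : Measure M)]

/-- volume pinching at the point `q` -/
def Pin (n : ℕ) {M : Type u} [MetricSpace M] [MeasurableSpace M] [BorelSpace M] (δ : ℝ) (q : M)
    (R T : ℝ) : Prop :=
  ∀ x ∈ ball q R, ∀ r : ℝ, 0 < r → r ≤ T →
    ENNReal.ofReal (1 - δ) * volume (ball (0 : EuclideanSpace ℝ (Fin n)) r) ≤
      (Measure.euclideanHausdorffMeasure n : Measure M) (ball x r)

variable (n) in
/-- the constant of the tail estimate -/
def CT : ℝ := 1024 * Ct n (c3 n / 64) (om n)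

lemma CT_nonneg (n : ℕ) : 0 ≤ CT n := by
  have ha : 0 < c3 n / 64 := div_pos (c3_pos n) (by norm_num)
  have := Ct_nonneg n ha (om_pos n).le
  unfold CT
  positivity

/-- the far defects are small -/
theorem phx_le (hn : 1 ≤ n) {δ : ℝ} (hδ0 : 0 < δ) (hδ : 4096 * δ ≤ 1) {q : M}
    (hk : HasRicciLowerBound n M (-δ)) (hp : Pin n δ q 50 40)
    (C : Rad n δ M (Measure.euclideanHausdorffMeasure n : Measure M)) {x : M} (hx : dist x q < 1)
    (k : ℕ) : 0 ≤ phx n δ (μHE[n] : Measure M) x k ∧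
      phx n δ (μHE[n] : Measure M) x k ≤ CT n * (δ + dy k ^ 2) := by
  have hom := om_pos n
  have ha : 0 < c3 n / 64 := div_pos (c3_pos n) (by norm_num)
  have hCt := Ct_nonneg n ha hom.le
  set a : ℝ := c3 n / 64 with hadef
  have hph : ∀ (x : M) (j : ℕ), 0 ≤ phx n δ (μHE[n] : Measure M) x j :=
    fun x j => phat_nonneg' C hδ0.le x _ j
  have htail : Summable (phat n δ (μHE[n] : Measure M) x a) ∧
      ∀ i, ∑' j, phat n δ (μHE[n] : Measure M) x a (i + j) ≤
        Ct n a (om n) * (1024 * δ + dy i ^ 2) := by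
    refine phat_tail C hδ0.le x ha (by linarith) hom.le (by nlinarith) ?_ ?_
    · refine le_vr_pinch (by norm_num) ?_
      have h1 := hp x (by rw [mem_ball]; linarith) (2 * 16) (by norm_num) (by norm_num)
      rw [vol_ball n (by norm_num), ← ENNReal.ofReal_mul (by linarith)] at h1
      refine (ENNReal.ofReal_le_ofReal ?_).trans h1
      have h2 : 0 ≤ om n * (2 * 16) ^ n := by positivity
      nlinarith
    · intro s hs0 hs
      exact vr_le_pinch C hδ0.le (by linarith) x hs0 hs
  refine ⟨hph x k, ?_⟩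
  have hs : Summable fun j => phat n δ (μHE[n] : Measure M) x a (k + j) := by
    have := (summable_nat_add_iff k).2 htail.1
    simpa [add_comm] using this
  have h1 : phx n δ (μHE[n] : Measure M) x k ≤
      ∑' j, phat n δ (μHE[n] : Measure M) x a (k + j) := by
    have := hs.le_tsum 0 (fun j _ => hph x (k + j))
    simp only [add_zero] at this
    exact this
  refine h1.trans ((htail.2 k).trans ?_)
  have h3 : 0 ≤ dy k ^ 2 := by positivity
  unfold CT
  nlinarith

/-- **Hessian data at every centre and scale.** -/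
theorem hf2 (hn : 1 ≤ n) : ∃ A : ℝ, 0 < A ∧ ∀ {M : Type u} [MetricSpace M] [CompleteSpace M]
    [ConnectedSpace M] [ChartedSpace (EuclideanSpace ℝ (Fin n)) M]
    [IsManifold 𝓘(ℝ, EuclideanSpace ℝ (Fin n)) ∞ M]
    [RiemannianBundle (fun x : M => TangentSpace 𝓘(ℝ, EuclideanSpace ℝ (Fin n)) x)]
    [IsContMDiffRiemannianBundle 𝓘(ℝ, EuclideanSpace ℝ (Fin n)) ∞ (EuclideanSpace ℝ (Fin n))
      (fun x : M => TangentSpace 𝓘(ℝ, EuclideanSpace ℝ (Fin n)) x)]
    [IsRiemannianManifold 𝓘(ℝ, EuclideanSpace ℝ (Fin n)) M]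
    [MeasurableSpace M] [BorelSpace M] [ProperSpace M] [SecondCountableTopology M] [Nonempty M]
    [IsFiniteMeasureOnCompacts (Measure.euclideanHausdorffMeasure n : Measure M)]
    {δ : ℝ} (hδ0 : 0 < δ) (hδ : 4096 * δ ≤ 1) {q : M}
    (hk : HasRicciLowerBound n M (-δ)) (hp : Pin n δ q 50 40)
    {x : M} (hx : dist x q < 1) {k : ℕ} (hk4 : 4 ≤ k),
    HF2 (Gs939.boch hk) x (6 * dy k) (A * (δ + dy k ^ 2)) := by
  obtain ⟨b, hb0, hb⟩ := Sv436.d2bP.{u} n
  refine ⟨2 * (b * (CT n + 1)) + 1, by have := CT_nonneg n; positivity, ?_⟩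
  intro M _ _ _ _ _ _ _ _ _ _ _ _ _ _ δ hδ0 hδ q hk hp x hx k hk4
  obtain ⟨C⟩ := Bgr546.rad_all n δ hδ0.le M hk
  have E : EnvF (Gs939.boch hk) C x (1024 * δ) := Env879.envP hn δ hδ0 hδ M q hk hp C x hx
  obtain ⟨O⟩ := exists_HObj x E.hA hδ0.le
  have hph := phx_le hn hδ0 hδ hk hp C hx k
  refine hf2_of_obj (Gs939.boch hk) O hk4 (b := b * phx n δ (μHE[n] : Measure M) x k)
    (mul_nonneg hb0.le hph.1) ?_ ?_
  · exact hb δ M μHE[n] (Gs939.boch hk) C x (1024 * δ) E O k hk4
  · have h1 : 0 < δ + dy k ^ 2 := by positivity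
    have h2 : b * phx n δ (μHE[n] : Measure M) x k ≤ b * (CT n * (δ + dy k ^ 2)) :=
      mul_le_mul_of_nonneg_left hph.2 hb0.le
    nlinarith

end block

end Crest.Agent.R249.Sta1_397
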