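import Crest.Agent.R249.Sta1_397

/-!
# R249, leaf D3-START (helper397), file 2: Pythagoras for every pair of centres

* `pyd_const` : abstract passage from "close to a constant" to "small";
* `pyd_small` : on a pinched manifold `⟨∇f_x, ∇f_y⟩ - f_x - f_y + f_x(y)` is small in `L¹` of
  `ball x (dy k)` for ALL centres `x, y` with `dist x y ≤ dy k / 2`.
-/

set_option autoImplicit false
set_option maxSynthPendingDepth 3
set_option linter.unusedSectionVars false
set_option linter.unusedVariables false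

open Bundle Bornology Set MeasureTheory Manifold Filter Metric Topology
open scoped ENNReal ContDiff Topology NNReal RealInnerProductSpace
open Crest.GeometryTopology.CoordMetric Crest.GeometryTopology.ChartCurvature
open Crest.GeometryTopology.PointedLimit

noncomputable section

namespace Crest.Agent.R249.Sta2_397

universe u

open Crest.Agent.R242 Crest.Agent.R247 Crest.Agent.R247.Dir593 Crest.Agent.R247.Dir593.GradS
open Crest.Agent.R247.Smv126 Crest.Agent.R247.Obj554 Crest.Agent.R247.Hes124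
open Crest.Agent.R247.Far553 Crest.Agent.R247.Mcp688 Crest.Agent.R247.Max193
open Crest.Agent.R247.Num824 Crest.Agent.R247.Fd656 Crest.Agent.R247.Loc710
open Crest.Agent.R249.Sta1_397

section abs
variable {n : ℕ} {X : Type*} [MetricSpace X] [MeasurableSpace X] [BorelSpace X]
  {μ : Measure X}

/-- near `y` the Pythagoras function is small -/
lemma abs_Pyd_near (S : GradS X (F n) μ) {x y u : X} {R τ : ℝ} (hR : 0 < R) (hτ : 0 < τ)
    (hτ1 : τ ≤ 1 / 2) (hx : ‖S.G (fx x) u‖ = dist x u)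
    (hy : ‖S.G (fx y) u‖ = dist y u) (hxy : dist x y ≤ R / 2) (hu : u ∈ ball y (τ * R)) :
    |Pyd S x y u| ≤ 3 * τ * R ^ 2 := by
  rw [mem_ball, dist_comm] at hu
  have hxu : dist x u ≤ R := by
    have h1 := dist_triangle x y u
    have h2 : τ * R ≤ 1 / 2 * R := by gcongr
    linarith
  have h1 : |⟪S.G (fx x) u, S.G (fx y) u⟫| ≤ R * (τ * R) := by
    refine (abs_real_inner_le_norm _ _).trans ?_
    rw [hx, hy]
    gcongr
  have hd1 : |dist x u - dist x y| ≤ dist y u := by
    rw [abs_le]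
    have h1 := dist_triangle x y u
    have h2 := dist_triangle x u y
    rw [dist_comm u y] at h2
    constructor <;> linarith
  have h2 : |fx x u - fx x y| ≤ (τ * R) * R := by
    unfold fx
    have e : dist x u ^ 2 / 2 - dist x y ^ 2 / 2 = (dist x u - dist x y) *
        ((dist x u + dist x y) / 2) := by ring
    rw [e, abs_mul]
    have h3 : |(dist x u + dist x y) / 2| ≤ R := by
      rw [abs_of_nonneg (by positivity)]
      linarith
    exact mul_le_mul (hd1.trans hu.le) h3 (abs_nonneg _) (by positivity)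
  have h3 : |fx y u| ≤ (τ * R) * R := by
    unfold fx
    rw [abs_of_nonneg (by positivity)]
    have h4 : dist y u ^ 2 ≤ (τ * R) ^ 2 := by gcongr
    have h5 : τ * R ≤ R := by nlinarith
    have h6 : (τ * R) ^ 2 ≤ (τ * R) * R := by
      rw [sq]
      exact mul_le_mul_of_nonneg_left h5 (by positivity)
    have h7 : 0 ≤ (τ * R) * R := by positivity
    linarith
  have e : Pyd S x y u = ⟪S.G (fx x) u, S.G (fx y) u⟫ + -(fx x u - fx x y) + -(fx y u) := by
    unfold Pyd; ring
  rw [e]
  refine (abs_add_le _ _).trans ?_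
  refine (add_le_add (abs_add_le _ _) le_rfl).trans ?_
  rw [abs_neg, abs_neg]
  nlinarith

/-- **from a constant to zero.** -/
theorem pyd_const (S : GradS X (F n) μ) (hU : UnitA S) {x y : X} {R τ c K v V : ℝ} (hR : 0 < R)
    (hτ : 0 < τ) (hτ1 : τ ≤ 1 / 2) (hxy : dist x y ≤ R / 2) (hK : 0 ≤ K) (hv : 0 < v) (hV : 0 ≤ V)
    (h : ∫⁻ u in ball x R, ENNReal.ofReal |Pyd S x y u - c| ∂μ ≤ ENNReal.ofReal K)
    (hvol : ENNReal.ofReal (v * (τ * R) ^ n) ≤ μ (ball y (τ * R)))
    (hvol' : μ (ball x R) ≤ ENNReal.ofReal (V * R ^ n)) :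
    ∫⁻ u in ball x R, ENNReal.ofReal |Pyd S x y u| ∂μ ≤
      ENNReal.ofReal (K * (1 + V / (v * τ ^ n)) + 3 * V * τ * R ^ (n + 2)) := by
  have hsub : ball y (τ * R) ⊆ ball x R := by
    refine ball_subset_ball' ?_
    rw [dist_comm]
    nlinarith
  have hfin : μ (ball y (τ * R)) ≠ ⊤ :=
    ne_top_of_le_ne_top ENNReal.ofReal_ne_top ((measure_mono hsub).trans hvol')
  have hpos : 0 < v * (τ * R) ^ n := by positivity
  have hm : v * (τ * R) ^ n ≤ μ.real (ball y (τ * R)) := by
    rw [Measure.real, ← ENNReal.ofReal_le_iff_le_toReal hfin]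
    exact hvol
  -- the bound of the constant
  have hc : |c| ≤ K / (v * (τ * R) ^ n) + 3 * τ * R ^ 2 := by
    have h1 : ∫⁻ u in ball y (τ * R), ENNReal.ofReal |c| ∂μ ≤
        ∫⁻ u in ball y (τ * R), (ENNReal.ofReal |Pyd S x y u - c| +
          ENNReal.ofReal (3 * τ * R ^ 2)) ∂μ := by
      apply lintegral_mono_ae
      refine (ae_restrict_iff' measurableSet_ball).2 ?_
      filter_upwards [hU x, hU y] with u h1 h2 hu
      rw [← ENNReal.ofReal_add (abs_nonneg _) (by positivity)]
      apply ENNReal.ofReal_le_ofReal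
      have h3 := abs_Pyd_near S hR hτ hτ1 h1 h2 hxy hu
      have h4 : c = Pyd S x y u - (Pyd S x y u - c) := by ring
      calc |c| = |Pyd S x y u - (Pyd S x y u - c)| := by rw [← h4]
        _ ≤ |Pyd S x y u| + |Pyd S x y u - c| := abs_sub _ _
        _ ≤ _ := by linarith
    rw [lintegral_add_right' _ aemeasurable_const, lintegral_const, lintegral_const,
      Measure.restrict_apply_univ] at h1
    have h2 : ENNReal.ofReal |c| * μ (ball y (τ * R)) ≤
        ENNReal.ofReal K + ENNReal.ofReal (3 * τ * R ^ 2) * μ (ball y (τ * R)) :=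
      h1.trans (add_le_add_left ((lintegral_mono_set hsub).trans h) _)
    have e : μ (ball y (τ * R)) = ENNReal.ofReal (μ.real (ball y (τ * R))) := by
      rw [Measure.real, ENNReal.ofReal_toReal hfin]
    rw [e, ← ENNReal.ofReal_mul (abs_nonneg _), ← ENNReal.ofReal_mul (by positivity),
      ← ENNReal.ofReal_add hK (by positivity), ENNReal.ofReal_le_ofReal_iff (by positivity)] at h2
    have hmpos : 0 < μ.real (ball y (τ * R)) := hpos.trans_le hm
    have h5 : |c| ≤ K / μ.real (ball y (τ * R)) + 3 * τ * R ^ 2 := by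
      rw [div_add' _ _ _ hmpos.ne', le_div_iff₀ hmpos]
      exact h2
    refine h5.trans ?_
    gcongr
  calc ∫⁻ u in ball x R, ENNReal.ofReal |Pyd S x y u| ∂μ
      ≤ ∫⁻ u in ball x R, (ENNReal.ofReal |Pyd S x y u - c| + ENNReal.ofReal |c|) ∂μ := by
        apply lintegral_mono
        intro u
        show ENNReal.ofReal |Pyd S x y u| ≤ ENNReal.ofReal |Pyd S x y u - c| + ENNReal.ofReal |c|
        rw [← ENNReal.ofReal_add (abs_nonneg _) (abs_nonneg _)]
        apply ENNReal.ofReal_le_ofReal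
        have h4 : Pyd S x y u = (Pyd S x y u - c) + c := by ring
        calc |Pyd S x y u| = |(Pyd S x y u - c) + c| := by rw [← h4]
          _ ≤ _ := abs_add_le _ _
    _ = ∫⁻ u in ball x R, ENNReal.ofReal |Pyd S x y u - c| ∂μ + ENNReal.ofReal |c| * μ (ball x R) := by
        rw [lintegral_add_right' _ aemeasurable_const, lintegral_const,
          Measure.restrict_apply_univ]
    _ ≤ ENNReal.ofReal K + ENNReal.ofReal |c| * ENNReal.ofReal (V * R ^ n) := by gcongr
    _ = ENNReal.ofReal (K + |c| * (V * R ^ n)) := by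
        rw [← ENNReal.ofReal_mul (abs_nonneg _), ← ENNReal.ofReal_add hK (by positivity)]
    _ ≤ _ := by
        apply ENNReal.ofReal_le_ofReal
        have h6 : |c| * (V * R ^ n) ≤ (K / (v * (τ * R) ^ n) + 3 * τ * R ^ 2) * (V * R ^ n) := by
          gcongr
        have h7 : (K / (v * (τ * R) ^ n) + 3 * τ * R ^ 2) * (V * R ^ n) =
            K * (V / (v * τ ^ n)) + 3 * V * τ * R ^ (n + 2) := by
          rw [mul_pow]
          field_simp
          ring
        rw [h7] at h6
        linarith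

end abs

section mfd

/-- **Pythagoras on a pinched manifold, all pairs.** -/
theorem pyd_small {n : ℕ} (hn : 1 ≤ n) {ε : ℝ} (hε : 0 < ε) : ∃ θ : ℝ, 0 < θ ∧
    ∀ {M : Type u} [MetricSpace M] [CompleteSpace M]
    [ConnectedSpace M] [ChartedSpace (EuclideanSpace ℝ (Fin n)) M]
    [IsManifold 𝓘(ℝ, EuclideanSpace ℝ (Fin n)) ∞ M]
    [RiemannianBundle (fun x : M => TangentSpace 𝓘(ℝ, EuclideanSpace ℝ (Fin n)) x)]
    [IsContMDiffRiemannianBundle 𝓘(ℝ, EuclideanSpace ℝ (Fin n)) ∞ (EuclideanSpace ℝ (Fin n))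
      (fun x : M => TangentSpace 𝓘(ℝ, EuclideanSpace ℝ (Fin n)) x)]
    [IsRiemannianManifold 𝓘(ℝ, EuclideanSpace ℝ (Fin n)) M]
    [MeasurableSpace M] [BorelSpace M] [ProperSpace M] [SecondCountableTopology M] [Nonempty M]
    [IsFiniteMeasureOnCompacts (Measure.euclideanHausdorffMeasure n : Measure M)]
    {δ : ℝ} (hδ0 : 0 < δ) (hδ : 4096 * δ ≤ 1) {q : M}
    (hk : HasRicciLowerBound n M (-δ)) (hp : Pin n δ q 50 40)
    {x y : M} (hx : dist x q < 1) (hy : dist y q < 1) {k : ℕ} (hk4 : 4 ≤ k)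
    (hθ : δ + dy k ^ 2 ≤ θ) (hxy : dist x y ≤ dy k / 2),
    ∫⁻ u in ball x (dy k), ENNReal.ofReal |Pyd (Ms322.gradS n M) x y u| ∂(μHE[n] : Measure M) ≤
      ENNReal.ofReal (ε * dy k ^ (n + 2)) := by
  obtain ⟨A, hA0, hA⟩ := hf2.{u} hn
  have hom := om_pos n
  set V : ℝ := 2 * om n * 3 ^ n with hV
  set v : ℝ := om n / 2 with hv
  have hV0 : 0 < V := by positivity
  have hv0 : 0 < v := by positivity
  set τ : ℝ := min (1 / 2) (ε / (6 * V)) with hτ
  have hτ0 : 0 < τ := lt_min (by norm_num) (by positivity)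
  have hτ1 : τ ≤ 1 / 2 := min_le_left _ _
  have hτ2 : 3 * V * τ ≤ ε / 2 := by
    have h1 : τ ≤ ε / (6 * V) := min_le_right _ _
    have h2 : 3 * V * τ ≤ 3 * V * (ε / (6 * V)) := by gcongr
    have h3 : 3 * V * (ε / (6 * V)) = ε / 2 := by field_simp; ring
    linarith
  set Q : ℝ := 2000 * 6 ^ n * (1 + V) * 2 ^ (n + 2) * (1 + V / (v * τ ^ n)) with hQ
  have hQ0 : 0 < Q := by positivity
  set θ : ℝ := (ε / (2 * Q)) ^ 2 / (2 * A) with hθdef
  have hθ0 : 0 < θ := by positivity
  refine ⟨θ, hθ0, ?_⟩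
  intro M _ _ _ _ _ _ _ _ _ _ _ _ _ _ δ hδ0 hδ q hk hp x y hx hy k hk4 hθ hxy
  obtain ⟨C⟩ := Bgr546.rad_all n δ hδ0.le M hk
  have E : EnvF (Gs939.boch hk) C x (1024 * δ) := Env879.envP hn δ hδ0 hδ M q hk hp C x hx
  have hRDG : Loc710.RDG (Gs939.boch hk).toGradS C := fun x φ hφ =>
    Sli554.LK.locLip E.hL x hφ
  have hU : UnitA (Gs939.boch hk).toGradS := unitA_of_rdg hRDG
  set R := dy k with hRdef
  have hR0 : 0 < R := dy_pos k
  have hk16 : R ≤ 1 / 16 := by
    have h1 := dy_anti hk4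
    have h2 : dy 4 = 1 / 16 := by unfold dy; norm_num
    linarith
  set D : ℝ := A * (δ + dy k ^ 2) with hD
  have hD0 : 0 ≤ D := by positivity
  have hAx : ∀ a ∈ ball x R, dist x a < 2 * R := fun a ha => by
    rw [mem_ball, dist_comm] at ha
    linarith
  have hAy : ∀ a ∈ ball x R, dist y a < 2 * R := fun a ha => by
    rw [mem_ball, dist_comm] at ha
    have := dist_triangle y x a
    rw [dist_comm y x] at this
    linarith
  have e6 : 3 * (2 * R) = 6 * R := by ring
  have hx2 : HF2 (Gs939.boch hk) x (3 * (2 * R)) D := by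
    rw [e6]
    exact hA hδ0 hδ hk hp hx hk4
  have hy2 : HF2 (Gs939.boch hk) y (3 * (2 * R)) D := by
    rw [e6]
    exact hA hδ0 hδ hk hp hy hk4
  have hvx : ∀ z : M, dist x z < 20 → ∀ r, 0 < r → r ≤ 20 →
      (μHE[n] : Measure M) (ball z r) ≤ ENNReal.ofReal (2 * om n * r ^ n) := by
    intro z hz r hr hr1
    refine (E.vol_le z r hz hr hr1).trans (ENNReal.ofReal_le_ofReal ?_)
    have : 0 ≤ om n * r ^ n := by positivity
    nlinarith
  have hvy : ∀ z : M, dist x z < 20 → ∀ r, 0 < r → r ≤ 20 →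
      ENNReal.ofReal (v * r ^ n) ≤ (μHE[n] : Measure M) (ball z r) := by
    intro z hz r hr hr1
    refine (ENNReal.ofReal_le_ofReal ?_).trans (E.vol_ge z r hz hr hr1)
    have : 0 ≤ om n * r ^ n := by positivity
    rw [hv]
    nlinarith
  have hmain := L2_gen (Gs939.boch hk) C hδ0.le (by linarith) hRDG hU (x := x) (y := y)
    (r := 2 * R) (V := V) (A := ball x R) (by positivity) (by linarith) hD0 hD0 hV0.le
    (fun D' hD' => hx2.mono (by positivity) hD'.le) (fun D' hD' => hy2.mono (by positivity) hD'.le)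
    (by
      rw [e6]
      refine (hvx x (by simp) (6 * R) (by positivity) (by linarith)).trans (le_of_eq ?_)
      congr 1
      rw [hV, show 6 * R = 3 * (2 * R) by ring, mul_pow 3 (2 * R)]
      ring) measurableSet_ball hAx hAy
  set K : ℝ := 2000 * 6 ^ n * (1 + V) * Real.sqrt (D + D) * (2 * R) ^ (n + 2) with hKdef
  have hK0 : 0 ≤ K := by positivity
  have hfin := pyd_const (Gs939.boch hk).toGradS hU (x := x) (y := y) (R := R) (τ := τ)
    (K := K) (v := v) (V := V) hR0 hτ0 hτ1 hxy hK0 hv0 hV0.le hmain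
    (by
      refine hvy y ?_ (τ * R) (by positivity) (by nlinarith)
      linarith)
    (by
      refine (hvx x (by simp) R hR0 (by linarith)).trans (ENNReal.ofReal_le_ofReal ?_)
      rw [hV]
      have h3 : (1:ℝ) ≤ 3 ^ n := one_le_pow₀ (by norm_num)
      have h4 : 0 ≤ 2 * om n * R ^ n := by positivity
      nlinarith)
  refine (le_of_eq ?_).trans (hfin.trans (ENNReal.ofReal_le_ofReal ?_))
  · rfl
  · have hsq : Real.sqrt (D + D) ≤ ε / (2 * Q) := by
      rw [Real.sqrt_le_left (by positivity)]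
      have h1 : D + D ≤ 2 * A * θ := by
        have : A * (δ + dy k ^ 2) ≤ A * θ := mul_le_mul_of_nonneg_left hθ hA0.le
        rw [hD]
        linarith
      have h2 : 2 * A * θ = (ε / (2 * Q)) ^ 2 := by
        rw [hθdef]
        field_simp
      linarith
    have h5 : K * (1 + V / (v * τ ^ n)) = Q * Real.sqrt (D + D) * R ^ (n + 2) := by
      rw [hKdef, hQ, mul_pow]
      ring
    have h6 : Q * Real.sqrt (D + D) * R ^ (n + 2) ≤ Q * (ε / (2 * Q)) * R ^ (n + 2) := by
      gcongr
    have h7 : Q * (ε / (2 * Q)) = ε / 2 := by field_simp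
    rw [h7] at h6
    have h8 : 3 * V * τ * R ^ (n + 2) ≤ ε / 2 * R ^ (n + 2) := by gcongr
    rw [h5]
    linarith

end mfd

end Crest.Agent.R249.Sta2_397
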