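import Crest.Agent.R249.Sta2_397
import Crest.Agent.R247.Opn_79
import Crest.Agent.R247.Asm2_951

/-!
# R249, leaf D3-START (helper397), file 3: almost orthonormal points

* `exists_points` : on a pinched manifold, for every small `t` there are points `v a`, `a : Fin n`,
  with `d(q, v a) ≈ t` and `d(v a, v b)² ≈ 2 t²` for `a ≠ b` (from 274's unconditional near isometry
  and 79's quantitative surjectivity).
-/

set_option autoImplicit false
set_option maxSynthPendingDepth 3
set_option linter.unusedSectionVars false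
set_option linter.unusedVariables false

open Bundle Bornology Set MeasureTheory Manifold Filter Metric Topology
open scoped ENNReal ContDiff Topology NNReal RealInnerProductSpace
open Crest.GeometryTopology.CoordMetric Crest.GeometryTopology.ChartCurvature
open Crest.GeometryTopology.PointedLimit

noncomputable section

namespace Crest.Agent.R249.Sta3_397

universe u

open Crest.Agent.R247 Crest.Agent.R249.Sta1_397

/-- `(1 + ε)^n < (1 - ε) (1 - ε)^n + (1/4)^n` for small `ε`, and pointwise algebra of the points -/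
lemma sq_close {d t η : ℝ} (ht : 0 ≤ t) (hη : 0 ≤ η) (hη1 : η ≤ 1 / 2) (hd : 0 ≤ d)
    (h : |t - d| ≤ η * d) : |d ^ 2 - t ^ 2| ≤ 6 * η * t ^ 2 := by
  have h1 := abs_le.1 h
  have h2 : d ≤ 2 * t := by nlinarith
  have h3 : |d ^ 2 - t ^ 2| = |t - d| * (d + t) := by
    rw [show d ^ 2 - t ^ 2 = -((t - d) * (d + t)) by ring, abs_neg, abs_mul,
      abs_of_nonneg (by linarith : 0 ≤ d + t)]
  rw [h3]
  calc |t - d| * (d + t) ≤ (η * d) * (d + t) := by gcongr
    _ ≤ (η * (2 * t)) * (2 * t + t) := by gcongr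
    _ = 6 * η * t ^ 2 := by ring

/-- **Almost orthonormal points.** -/
theorem exists_points {n : ℕ} (hn : 1 ≤ n) {η : ℝ} (hη : 0 < η) : ∃ ρ : ℝ, 0 < ρ ∧ ρ ≤ 1 / 4 ∧ ∃ R₁ : ℝ, 50 ≤ R₁ ∧
    ∃ δ₀ : ℝ, 0 < δ₀ ∧ δ₀ ≤ 1 / 4096 ∧
    ∀ {M : Type u} [MetricSpace M] [CompleteSpace M]
    [ConnectedSpace M] [ChartedSpace (EuclideanSpace ℝ (Fin n)) M]
    [IsManifold 𝓘(ℝ, EuclideanSpace ℝ (Fin n)) ∞ M]
    [RiemannianBundle (fun x : M => TangentSpace 𝓘(ℝ, EuclideanSpace ℝ (Fin n)) x)]
    [IsContMDiffRiemannianBundle 𝓘(ℝ, EuclideanSpace ℝ (Fin n)) ∞ (EuclideanSpace ℝ (Fin n))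
      (fun x : M => TangentSpace 𝓘(ℝ, EuclideanSpace ℝ (Fin n)) x)]
    [IsRiemannianManifold 𝓘(ℝ, EuclideanSpace ℝ (Fin n)) M]
    [MeasurableSpace M] [BorelSpace M] {δ : ℝ} (hδ0 : 0 < δ) (hδ : δ ≤ δ₀) {q : M}
    (hk : HasRicciLowerBound n M (-δ)) (hp : Pin n δ q R₁ 40) {t : ℝ} (ht : 0 < t)
    (htρ : t ≤ ρ / 2),
    ∃ v : Fin n → M, (∀ a, |dist q (v a) ^ 2 - t ^ 2| ≤ η * t ^ 2) ∧
      ∀ a b, a ≠ b → |dist (v a) (v b) ^ 2 - 2 * t ^ 2| ≤ η * t ^ 2 := by
  obtain ⟨c, hc, hN⟩ := Near_274.nearIso40.{u} n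
  obtain ⟨ε₀, hε₀, hε₀1, hnum⟩ := Opn79.num n
  set ε : ℝ := min ε₀ (η / 12) with hε
  have hεp : 0 < ε := lt_min hε₀ (by positivity)
  have hε1 : ε ≤ 1 / 2 := (min_le_left _ _).trans hε₀1
  have hε2 : 12 * ε ≤ η := by
    have := min_le_right ε₀ (η / 12)
    rw [← hε] at this
    linarith
  obtain ⟨ρ', hρ', hρ1', R₀, hR₀, δ', hδ', H⟩ := hN ε hεp
  set ρ : ℝ := min ρ' (1 / 24) with hρdef
  have hρ : 0 < ρ := lt_min hρ' (by norm_num)
  have hρ1 : ρ ≤ 1 / 24 := min_le_right _ _
  have hρ2 : ρ ≤ ρ' := min_le_left _ _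
  refine ⟨ρ, hρ, by linarith, max R₀ 50, le_max_right _ _, min δ' (min ε (1 / 4096)), by positivity,
    (min_le_right _ _).trans (min_le_right _ _), ?_⟩
  intro M _ _ _ _ _ _ _ _ _ _ δ hδ0 hδ q hk hp t ht htρ
  have hδa : δ ≤ δ' := hδ.trans (min_le_left _ _)
  have hδb : δ ≤ ε := hδ.trans ((min_le_right _ _).trans (min_le_left _ _))
  have hpin : ∀ x ∈ ball q R₀, ∀ r : ℝ, 0 < r → r ≤ 40 →
      ENNReal.ofReal (1 - δ') * volume (ball (0 : EuclideanSpace ℝ (Fin n)) r) ≤
        Measure.euclideanHausdorffMeasure n (ball x r) := by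
    intro x hx r hr hr1
    refine le_trans ?_ (hp x (ball_subset_ball (le_max_left _ _) hx) r hr hr1)
    gcongr
  obtain ⟨F, hF⟩ := H M q (Asm951.ricci_mono (by linarith) hk) hpin
  set G : M → EuclideanSpace ℝ (Fin n) := fun x => c • F x with hG
  have hGd : ∀ x z, dist (G x) (G z) = c * dist (F x) (F z) := by
    intro x z
    simp only [hG, dist_smul₀, Real.norm_eq_abs, abs_of_pos hc]
  have hG' : ∀ x z : M, dist q x < 4 * ρ → dist q z < 4 * ρ →
      |dist (G x) (G z) - dist x z| ≤ ε * dist x z := by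
    intro x z hx hz
    rw [hGd]
    exact hF x (by rw [mem_ball, dist_comm]; linarith) z (by rw [mem_ball, dist_comm]; linarith)
  have hvol : ∀ z s, 0 < s → (∀ x, dist z x < s → dist q x < 4 * ρ) →
      ENNReal.ofReal (1 - ε) * volume (ball (0 : EuclideanSpace ℝ (Fin n)) s) ≤
        μHE[n] (ball z s) := by
    intro z s hs hzs
    have hzq : dist q z < 4 * ρ := hzs z (by rw [dist_self]; exact hs)
    have hz1 : z ∈ ball q (max R₀ 50) := by
      rw [mem_ball, dist_comm]
      have := le_max_right R₀ (50:ℝ)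
      linarith
    rcases le_or_gt s 40 with h40 | h40
    · refine le_trans ?_ (hp z hz1 s hs h40)
      gcongr
    · exfalso
      refine Asm951.radius_le_one (n := n) (by omega) (F := F) (q := q) (R := 4 * ρ) (ε := ε)
        (c := c) hc hεp.le hε1 (by positivity) (by linarith)
        (fun x z hx hz => by rw [← hGd]; exact hG' x z hx hz) (z := z)
        (fun x hx => hzs x (by linarith)) ?_
      refine le_trans ?_ (hp z hz1 1 one_pos (by norm_num))
      gcongr
      have := min_le_right ε (1 / 4096 : ℝ)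
      have := min_le_right δ' (min ε (1 / 4096 : ℝ))
      linarith
  have hpts : ∀ a : Fin n, ∃ z, dist q z ≤ 4 * t ∧ G z = G q + EuclideanSpace.single a t := by
    intro a
    refine Opn79.surj (G := G) (q := q) (R := 4 * ρ) (ε := ε) hεp.le (by linarith)
      (hnum ε hεp.le (min_le_left _ _)) hG' hvol (x := q) (y := G q + EuclideanSpace.single a t)
      (t := t) ht (by rw [dist_self]; linarith) ?_
    rw [dist_self_add_right]
    simp [abs_of_pos ht]
  choose v hv hvG using hpts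
  have hvR : ∀ a, dist q (v a) < 4 * ρ := fun a => by
    have := hv a
    linarith
  refine ⟨v, fun a => ?_, fun a b hab => ?_⟩
  · have h1 := hG' q (v a) (by rw [dist_self]; positivity) (hvR a)
    have h2 : dist (G q) (G (v a)) = t := by
      rw [hvG a, dist_self_add_right]
      simp [abs_of_pos ht]
    rw [h2] at h1
    refine (sq_close ht.le hεp.le hε1 dist_nonneg h1).trans ?_
    have : 6 * ε ≤ η := by linarith
    gcongr
  · have h1 := hG' (v a) (v b) (hvR a) (hvR b)
    have h2 : dist (G (v a)) (G (v b)) ^ 2 = 2 * t ^ 2 := by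
      rw [hvG a, hvG b, dist_add_left, EuclideanSpace.dist_eq, Real.sq_sqrt (by positivity)]
      rw [← Finset.add_sum_erase _ _ (Finset.mem_univ a),
        ← Finset.add_sum_erase _ _ (Finset.mem_erase.2 ⟨Ne.symm hab, Finset.mem_univ b⟩)]
      rw [Finset.sum_eq_zero]
      · simp [hab, Ne.symm hab, Real.dist_eq]
        ring
      · intro i hi
        simp only [Finset.mem_erase, Finset.mem_univ, and_true] at hi
        simp [hi.1, hi.2]
    set T := dist (G (v a)) (G (v b)) with hT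
    have h3 := sq_close (t := T) dist_nonneg hεp.le hε1 dist_nonneg h1
    rw [h2] at h3
    refine h3.trans ?_
    nlinarith [sq_nonneg t]

end Crest.Agent.R249.Sta3_397
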