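import Crest.Agent.R249.Sta3_397

/-!
# R249, leaf D3-START (helper397), file 4: the almost splitting functions

Abstract part: `gram_pt`, `gram_le`, `hess_le` (over a `BochS`).
-/

set_option autoImplicit false
set_option maxSynthPendingDepth 3
set_option linter.unusedSectionVars false
set_option linter.unusedVariables false

open Bundle Bornology Set MeasureTheory Manifold Filter Metric Topology
open scoped ENNReal ContDiff Topology NNReal RealInnerProductSpace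
open Crest.GeometryTopology.CoordMetric Crest.GeometryTopology.ChartCurvature
open Crest.GeometryTopology.PointedLimit

noncomputable section

namespace Crest.Agent.R249.Sta4_397

universe u

open Crest.Agent.R247 Crest.Agent.R247.Dir593 Crest.Agent.R247.Dir593.GradS
open Crest.Agent.R247.Hes124 Crest.Agent.R247.Loc710
open Crest.Agent.R249.Sta1_397

section pt
variable {n : ℕ}

/-- pointwise comparison of Gram entries -/
lemma gram_vec {Gq Ga Gb Wq Wa Wb : F n} {R σ : ℝ} (hR : 0 ≤ R) (hσ : 0 < σ) (hσ1 : σ ≤ 1)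
    (ha : ‖Gq - Ga‖ ≤ 2 * R) (hb : ‖Gq - Gb‖ ≤ 2 * R) :
    |⟪Wq - Wa, Wq - Wb⟫ - ⟪Gq - Ga, Gq - Gb⟫| ≤
      2 * σ * R ^ 2 + 8 / σ * (‖Wq - Gq‖ ^ 2 + ‖Wa - Ga‖ ^ 2 + ‖Wb - Gb‖ ^ 2) := by
  set eq := Wq - Gq with heq
  set ea := Wa - Ga with hea
  set eb := Wb - Gb with heb
  set ma := Gq - Ga with hma
  set mb := Gq - Gb with hmb
  have e1 : Wq - Wa = ma + (eq - ea) := by rw [heq, hea, hma]; abel
  have e2 : Wq - Wb = mb + (eq - eb) := by rw [heq, heb, hmb]; abel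
  rw [e1, e2]
  have e3 : ⟪ma + (eq - ea), mb + (eq - eb)⟫ - ⟪ma, mb⟫ =
      ⟪ma, eq - eb⟫ + ⟪eq - ea, mb⟫ + ⟪eq - ea, eq - eb⟫ := by
    rw [inner_add_left, inner_add_right, inner_add_right]
    ring
  rw [e3]
  set da := ‖eq - ea‖ with hda
  set db := ‖eq - eb‖ with hdb
  have hda0 : 0 ≤ da := norm_nonneg _
  have hdb0 : 0 ≤ db := norm_nonneg _
  have h1 : |⟪ma, eq - eb⟫| ≤ 2 * R * db :=
    (abs_real_inner_le_norm _ _).trans (by gcongr)
  have h2 : |⟪eq - ea, mb⟫| ≤ da * (2 * R) :=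
    (abs_real_inner_le_norm _ _).trans (by gcongr)
  have h3 : |⟪eq - ea, eq - eb⟫| ≤ da * db := abs_real_inner_le_norm _ _
  have h4 : |⟪ma, eq - eb⟫ + ⟪eq - ea, mb⟫ + ⟪eq - ea, eq - eb⟫| ≤
      2 * R * db + da * (2 * R) + da * db :=
    (abs_add_le _ _).trans (add_le_add ((abs_add_le _ _).trans (add_le_add h1 h2)) h3)
  refine h4.trans ?_
  have k1 : ∀ d : ℝ, 2 * R * d ≤ σ * R ^ 2 + d ^ 2 / σ := by
    intro d
    have : σ * R ^ 2 + d ^ 2 / σ - 2 * R * d = 1 / σ * (σ * R - d) ^ 2 := by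
      field_simp
      ring
    have h5 : 0 ≤ 1 / σ * (σ * R - d) ^ 2 := by positivity
    linarith
  have k2 : da ^ 2 ≤ 2 * ‖eq‖ ^ 2 + 2 * ‖ea‖ ^ 2 := by
    have h5 : da ≤ ‖eq‖ + ‖ea‖ := norm_sub_le _ _
    have h6 : da ^ 2 ≤ (‖eq‖ + ‖ea‖) ^ 2 := by gcongr
    nlinarith [sq_nonneg (‖eq‖ - ‖ea‖)]
  have k3 : db ^ 2 ≤ 2 * ‖eq‖ ^ 2 + 2 * ‖eb‖ ^ 2 := by
    have h5 : db ≤ ‖eq‖ + ‖eb‖ := norm_sub_le _ _
    have h6 : db ^ 2 ≤ (‖eq‖ + ‖eb‖) ^ 2 := by gcongr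
    nlinarith [sq_nonneg (‖eq‖ - ‖eb‖)]
  have k4 : da * db ≤ (da ^ 2 + db ^ 2) / σ := by
    rw [le_div_iff₀ hσ]
    have : da * db * σ ≤ da * db * 1 := by gcongr
    nlinarith [sq_nonneg (da - db), sq_nonneg (da + db)]
  have k5 := k1 da
  have k6 := k1 db
  have k7 : (da ^ 2 + db ^ 2) / σ ≤ (4 * ‖eq‖ ^ 2 + 2 * ‖ea‖ ^ 2 + 2 * ‖eb‖ ^ 2) / σ :=
    div_le_div_of_nonneg_right (by linarith) hσ.le
  have k8 : (4 * ‖eq‖ ^ 2 + 2 * ‖ea‖ ^ 2 + 2 * ‖eb‖ ^ 2) / σ ≤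
      4 / σ * (‖eq‖ ^ 2 + ‖ea‖ ^ 2 + ‖eb‖ ^ 2) := by
    rw [div_mul_eq_mul_div]
    exact div_le_div_of_nonneg_right (by nlinarith [sq_nonneg ‖ea‖, sq_nonneg ‖eb‖]) hσ.le
  have k9 : da ^ 2 / σ + db ^ 2 / σ = (da ^ 2 + db ^ 2) / σ := by ring
  have k10 : 8 / σ * (‖eq‖ ^ 2 + ‖ea‖ ^ 2 + ‖eb‖ ^ 2) =
      4 / σ * (‖eq‖ ^ 2 + ‖ea‖ ^ 2 + ‖eb‖ ^ 2) + 4 / σ * (‖eq‖ ^ 2 + ‖ea‖ ^ 2 + ‖eb‖ ^ 2) := by
    ring
  rw [k10]
  linarith

end pt

section abs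
variable {n : ℕ} {κ : ℝ} {X : Type*} [MetricSpace X] [MeasurableSpace X] [BorelSpace X]
  {μ : Measure X} [IsFiniteMeasureOnCompacts μ]

/-- the exact expansion of the Gram entries of `f_q - f_a`, `f_q - f_b` -/
lemma gram_exact (S : GradS X (F n) μ) {q a b u : X} (hq : ‖S.G (fx q) u‖ = dist q u) :
    ⟪S.G (fx q) u - S.G (fx a) u, S.G (fx q) u - S.G (fx b) u⟫ =
      (fx q a + fx q b - fx a b) + (Pyd S a b u - Pyd S q b u - Pyd S q a u) := by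
  unfold Pyd
  rw [inner_sub_left, inner_sub_right, inner_sub_right, real_inner_self_eq_norm_sq, hq,
    real_inner_comm (S.G (fx q) u) (S.G (fx a) u)]
  have h1 : dist q u ^ 2 = 2 * fx q u := by unfold fx; ring
  rw [h1]
  ring

/-- pointwise bound of the Gram entries of `w_q - w_a`, `w_q - w_b` -/
lemma gram_pt (S : GradS X (F n) μ) {q a b u : X} {Wq Wa Wb : F n} {R σ : ℝ} (hR : 0 ≤ R)
    (hσ : 0 < σ) (hσ1 : σ ≤ 1) (hq : ‖S.G (fx q) u‖ = dist q u)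
    (ha : ‖S.G (fx a) u‖ = dist a u) (hb : ‖S.G (fx b) u‖ = dist b u) (hqu : dist q u ≤ R)
    (hau : dist a u ≤ R) (hbu : dist b u ≤ R) :
    |⟪Wq - Wa, Wq - Wb⟫ - (fx q a + fx q b - fx a b)| ≤
      2 * σ * R ^ 2 + (|Pyd S a b u| + |Pyd S q b u| + |Pyd S q a u|) +
      8 / σ * (‖Wq - S.G (fx q) u‖ ^ 2 + ‖Wa - S.G (fx a) u‖ ^ 2 + ‖Wb - S.G (fx b) u‖ ^ 2) := by
  have h1 := gram_vec (Gq := S.G (fx q) u) (Ga := S.G (fx a) u) (Gb := S.G (fx b) u)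
    (Wq := Wq) (Wa := Wa) (Wb := Wb) hR hσ hσ1
    ((norm_sub_le _ _).trans (by rw [hq, ha]; linarith))
    ((norm_sub_le _ _).trans (by rw [hq, hb]; linarith))
  have h2 := gram_exact S (a := a) (b := b) hq
  set T := ⟪Wq - Wa, Wq - Wb⟫ with hT
  set T' := ⟪S.G (fx q) u - S.G (fx a) u, S.G (fx q) u - S.G (fx b) u⟫ with hT'
  have h3 : T - (fx q a + fx q b - fx a b) =
      (T - T') + (Pyd S a b u + (-Pyd S q b u) + (-Pyd S q a u)) := by
    rw [h2]; ring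
  rw [h3]
  have h4 : |Pyd S a b u + (-Pyd S q b u) + (-Pyd S q a u)| ≤
      |Pyd S a b u| + |Pyd S q b u| + |Pyd S q a u| := by
    refine (abs_add_le _ _).trans ?_
    rw [abs_neg]
    gcongr
    refine (abs_add_le _ _).trans ?_
    rw [abs_neg]
  refine (abs_add_le _ _).trans ?_
  linarith

/-- integration of a bound with three plus three terms -/
lemma lint_le {S : Set X} (hS : MeasurableSet S) {f : X → ℝ} {c0 Q m K1 K2 : ℝ} (hc : 0 ≤ c0)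
    (hQ : 0 ≤ Q) (hm : 0 ≤ m) (hK1 : 0 ≤ K1) (hK2 : 0 ≤ K2) {p E : Fin 3 → X → ℝ}
    (hp : ∀ i, AEMeasurable (p i) μ) (hE : ∀ i, AEMeasurable (E i) μ)
    (hp0 : ∀ i x, 0 ≤ p i x) (hE0 : ∀ i x, 0 ≤ E i x)
    (hf : ∀ᵐ u ∂μ, u ∈ S → f u ≤ c0 + ∑ i, p i u + Q * ∑ i, E i u)
    (hmS : μ S ≤ ENNReal.ofReal m)
    (hpS : ∀ i, ∫⁻ u in S, ENNReal.ofReal (p i u) ∂μ ≤ ENNReal.ofReal K1)
    (hES : ∀ i, ∫⁻ u in S, ENNReal.ofReal (E i u) ∂μ ≤ ENNReal.ofReal K2) :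
    ∫⁻ u in S, ENNReal.ofReal (f u) ∂μ ≤ ENNReal.ofReal (c0 * m + 3 * K1 + Q * (3 * K2)) := by
  have mp : ∀ i, AEMeasurable (fun u => ENNReal.ofReal (p i u)) (μ.restrict S) :=
    fun i => (hp i).restrict.ennreal_ofReal
  have mE : ∀ i, AEMeasurable (fun u => ENNReal.ofReal (E i u)) (μ.restrict S) :=
    fun i => (hE i).restrict.ennreal_ofReal
  calc ∫⁻ u in S, ENNReal.ofReal (f u) ∂μ
      ≤ ∫⁻ u in S, ((ENNReal.ofReal c0 + ∑ i, ENNReal.ofReal (p i u)) +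
          ENNReal.ofReal Q * ∑ i, ENNReal.ofReal (E i u)) ∂μ := by
        apply lintegral_mono_ae
        refine (ae_restrict_iff' hS).2 ?_
        filter_upwards [hf] with u hu huS
        have h1 : 0 ≤ ∑ i, p i u := Finset.sum_nonneg fun i _ => hp0 i u
        have h2 : 0 ≤ ∑ i, E i u := Finset.sum_nonneg fun i _ => hE0 i u
        refine (ENNReal.ofReal_le_ofReal (hu huS)).trans (le_of_eq ?_)
        rw [ENNReal.ofReal_add (by positivity) (by positivity), ENNReal.ofReal_add hc h1,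
          ENNReal.ofReal_mul hQ, ENNReal.ofReal_sum_of_nonneg (fun i _ => hp0 i u),
          ENNReal.ofReal_sum_of_nonneg (fun i _ => hE0 i u)]
    _ = ENNReal.ofReal c0 * μ S + ∑ i, ∫⁻ u in S, ENNReal.ofReal (p i u) ∂μ +
          ENNReal.ofReal Q * ∑ i, ∫⁻ u in S, ENNReal.ofReal (E i u) ∂μ := by
        rw [lintegral_add_right' _ ((Finset.aemeasurable_fun_sum _ fun i _ => mE i).const_mul _),
          lintegral_add_left' aemeasurable_const, lintegral_const, Measure.restrict_apply_univ,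
          lintegral_finsetSum' _ (fun i _ => mp i),
          lintegral_const_mul' _ _ ENNReal.ofReal_ne_top,
          lintegral_finsetSum' _ (fun i _ => mE i)]
    _ ≤ ENNReal.ofReal c0 * ENNReal.ofReal m + ∑ _i : Fin 3, ENNReal.ofReal K1 +
          ENNReal.ofReal Q * ∑ _i : Fin 3, ENNReal.ofReal K2 := by
        gcongr with i _ i _
        · exact hpS i
        · exact hES i
    _ = _ := by
        rw [Finset.sum_const, Finset.sum_const, Finset.card_univ, Fintype.card_fin,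
          nsmul_eq_mul, nsmul_eq_mul, ENNReal.ofReal_add (by positivity) (by positivity),
          ENNReal.ofReal_add (by positivity) (by positivity), ENNReal.ofReal_mul hc,
          ENNReal.ofReal_mul hQ, ENNReal.ofReal_mul (by norm_num), ENNReal.ofReal_mul (by norm_num)]
        norm_num

/-- the Hessian of a difference -/
theorem hess_int (B : BochS n κ X μ) {wq wa : X → ℝ} (hq : wq ∈ B.core) (ha : wa ∈ B.core)
    {S : Set X} {K : ℝ} (hK : 0 ≤ K)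
    (h1 : ∫⁻ z in S, ENNReal.ofReal (‖B.H wq z - idm n‖ ^ 2) ∂μ ≤ ENNReal.ofReal K)
    (h2 : ∫⁻ z in S, ENNReal.ofReal (‖B.H wa z - idm n‖ ^ 2) ∂μ ≤ ENNReal.ofReal K) :
    ∫⁻ z in S, ENNReal.ofReal (‖B.H (fun x => wq x - wa x) z‖ ^ 2) ∂μ ≤ ENNReal.ofReal (4 * K) := by
  have m1 : AEMeasurable (fun z => ENNReal.ofReal (‖B.H wq z - idm n‖ ^ 2)) (μ.restrict S) :=
    (((B.H_meas hq).sub aestronglyMeasurable_const).norm.aemeasurable.pow_const
      2).ennreal_ofReal.restrict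
  calc ∫⁻ z in S, ENNReal.ofReal (‖B.H (fun x => wq x - wa x) z‖ ^ 2) ∂μ
      ≤ ∫⁻ z in S, ENNReal.ofReal 2 *
          (ENNReal.ofReal (‖B.H wq z - idm n‖ ^ 2) + ENNReal.ofReal (‖B.H wa z - idm n‖ ^ 2)) ∂μ := by
        apply lintegral_mono_ae
        filter_upwards [ae_restrict_of_ae (B.H_sub hq ha)] with z hz
        rw [← ENNReal.ofReal_add (by positivity) (by positivity),
          ← ENNReal.ofReal_mul (by positivity)]
        apply ENNReal.ofReal_le_ofReal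
        have e1 : B.H (fun x => wq x - wa x) z = (B.H wq z - idm n) - (B.H wa z - idm n) := by
          rw [hz]
          abel
        rw [e1]
        have h1 := norm_sub_le (B.H wq z - idm n) (B.H wa z - idm n)
        have h2 : ‖(B.H wq z - idm n) - (B.H wa z - idm n)‖ ^ 2 ≤
          (‖B.H wq z - idm n‖ + ‖B.H wa z - idm n‖) ^ 2 := by gcongr
        nlinarith [sq_nonneg (‖B.H wq z - idm n‖ - ‖B.H wa z - idm n‖)]
    _ = ENNReal.ofReal 2 * (∫⁻ z in S, ENNReal.ofReal (‖B.H wq z - idm n‖ ^ 2) ∂μ +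
            ∫⁻ z in S, ENNReal.ofReal (‖B.H wa z - idm n‖ ^ 2) ∂μ) := by
        rw [lintegral_const_mul' _ _ ENNReal.ofReal_ne_top, lintegral_add_left' m1]
    _ ≤ ENNReal.ofReal 2 * (ENNReal.ofReal K + ENNReal.ofReal K) := by gcongr
    _ = ENNReal.ofReal (4 * K) := by
        rw [← ENNReal.ofReal_add hK hK, ← ENNReal.ofReal_mul (by positivity)]
        congr 1
        ring

/-- the Gram entry of two differences, integrated -/
theorem gram_int [SFinite μ] (B : BochS n κ X μ) (hU : UnitA B.toGradS) {wq wa wb : X → ℝ}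
    (hwq : wq ∈ B.core)
    (hwa : wa ∈ B.core) (hwb : wb ∈ B.core) {q a b : X} {S : Set X} (hS : MeasurableSet S)
    {R σ T τ m K1 K2 : ℝ} (hR : 0 ≤ R) (hσ : 0 < σ) (hσ1 : σ ≤ 1) (hτ : 0 ≤ τ) (hm : 0 ≤ m)
    (hK1 : 0 ≤ K1) (hK2 : 0 ≤ K2) (hT : |fx q a + fx q b - fx a b - T| ≤ τ)
    (hSq : ∀ u ∈ S, dist q u ≤ R) (hSa : ∀ u ∈ S, dist a u ≤ R) (hSb : ∀ u ∈ S, dist b u ≤ R)
    (hmS : μ S ≤ ENNReal.ofReal m)
    (hp1 : ∫⁻ u in S, ENNReal.ofReal |Pyd B.toGradS a b u| ∂μ ≤ ENNReal.ofReal K1)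
    (hp2 : ∫⁻ u in S, ENNReal.ofReal |Pyd B.toGradS q b u| ∂μ ≤ ENNReal.ofReal K1)
    (hp3 : ∫⁻ u in S, ENNReal.ofReal |Pyd B.toGradS q a u| ∂μ ≤ ENNReal.ofReal K1)
    (hE1 : ∫⁻ u in S, ENNReal.ofReal (‖B.G wq u - B.G (fx q) u‖ ^ 2) ∂μ ≤ ENNReal.ofReal K2)
    (hE2 : ∫⁻ u in S, ENNReal.ofReal (‖B.G wa u - B.G (fx a) u‖ ^ 2) ∂μ ≤ ENNReal.ofReal K2)
    (hE3 : ∫⁻ u in S, ENNReal.ofReal (‖B.G wb u - B.G (fx b) u‖ ^ 2) ∂μ ≤ ENNReal.ofReal K2) :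
    ∫⁻ u in S, ENNReal.ofReal |⟪B.G (fun x => wq x - wa x) u, B.G (fun x => wq x - wb x) u⟫ - T| ∂μ ≤
      ENNReal.ofReal ((2 * σ * R ^ 2 + τ) * m + 3 * K1 + 8 / σ * (3 * K2)) := by
  have hGa : ∀ᵐ z ∂μ, B.G (fun x => wq x - wa x) z = B.G wq z - B.G wa z :=
    B.toGradS.sub (B.core_test hwq).1 (B.core_test hwa).1
  have hGb : ∀ᵐ z ∂μ, B.G (fun x => wq x - wb x) z = B.G wq z - B.G wb z :=
    B.toGradS.sub (B.core_test hwq).1 (B.core_test hwb).1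
  set p : Fin 3 → X → ℝ := ![fun u => |Pyd B.toGradS a b u|,
    fun u => |Pyd B.toGradS q b u|, fun u => |Pyd B.toGradS q a u|] with hpdef
  set Ef : Fin 3 → X → ℝ := ![fun u => ‖B.G wq u - B.G (fx q) u‖ ^ 2,
    fun u => ‖B.G wa u - B.G (fx a) u‖ ^ 2,
    fun u => ‖B.G wb u - B.G (fx b) u‖ ^ 2] with hEfdef
  have mG : ∀ {f : X → ℝ} (x : X), f ∈ B.core →
      AEMeasurable (fun u => ‖B.G f u - B.G (fx x) u‖ ^ 2) μ := fun x hf =>
    ((B.meas (B.core_test hf).1).sub (B.meas (locLip_fx x))).norm.aemeasurable.pow_const 2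
  have mP : ∀ x y : X, AEMeasurable (fun u => |Pyd B.toGradS x y u|) μ :=
    fun x y => (aesm_Pyd B.toGradS x y).norm.aemeasurable
  refine lint_le (μ := μ) (S := S) hS (c0 := 2 * σ * R ^ 2 + τ) (Q := 8 / σ) (m := m)
    (K1 := K1) (K2 := K2) (p := p) (E := Ef) (by positivity) (by positivity) hm hK1 hK2
    ?_ ?_ ?_ ?_ ?_ hmS ?_ ?_
  · intro i
    fin_cases i
    · exact mP _ _
    · exact mP _ _
    · exact mP _ _
  · intro i
    fin_cases i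
    · exact mG _ hwq
    · exact mG _ hwa
    · exact mG _ hwb
  · intro i x
    fin_cases i <;> exact abs_nonneg _
  · intro i x
    fin_cases i <;> exact sq_nonneg _
  · filter_upwards [hU q, hU a, hU b, hGa, hGb] with u h1 h2 h3 h4 h5 hu
    have h6 := gram_pt B.toGradS (Wq := B.G wq u) (Wa := B.G wa u) (Wb := B.G wb u)
      hR hσ hσ1 h1 h2 h3 (hSq u hu) (hSa u hu) (hSb u hu)
    rw [Fin.sum_univ_three, Fin.sum_univ_three, h4, h5]
    set T' := ⟪B.G wq u - B.G wa u, B.G wq u - B.G wb u⟫ with hT'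
    have h8 : T' - T = (T' - (fx q a + fx q b - fx a b)) + (fx q a + fx q b - fx a b - T) := by
      ring
    rw [h8]
    refine (abs_add_le _ _).trans ?_
    have h9 : p 0 u + p 1 u + p 2 u = |Pyd B.toGradS a b u| +
      |Pyd B.toGradS q b u| + |Pyd B.toGradS q a u| := rfl
    have h10 : Ef 0 u + Ef 1 u + Ef 2 u = ‖B.G wq u - B.G (fx q) u‖ ^ 2 +
      ‖B.G wa u - B.G (fx a) u‖ ^ 2 + ‖B.G wb u - B.G (fx b) u‖ ^ 2 := rfl
    rw [h9, h10]
    linarith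
  · intro i
    fin_cases i
    · exact hp1
    · exact hp2
    · exact hp3
  · intro i
    fin_cases i
    · exact hE1
    · exact hE2
    · exact hE3

end abs

end Crest.Agent.R249.Sta4_397
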