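import Crest.Agent.R249.Sta4_397

/-!
# R249, leaf D3-START (helper397), file 5: the almost splitting functions on a pinched manifold

* `exists_split` : smooth compactly supported `b : Fin n → M → ℝ` with small Hessian in `L²` and
  Gram matrix close to the identity in `L¹` on a ball.
-/

set_option autoImplicit false
set_option maxSynthPendingDepth 3
set_option linter.unusedSectionVars false
set_option linter.unusedVariables false

open Bundle Bornology Set MeasureTheory Manifold Filter Metric Topology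
open scoped ENNReal ContDiff Topology NNReal RealInnerProductSpace
open Crest.GeometryTopology.CoordMetric Crest.GeometryTopology.ChartCurvature
open Crest.GeometryTopology.PointedLimit

noncomputable section

namespace Crest.Agent.R249.Sta5_397

universe u

open Crest.Agent.R247 Crest.Agent.R247.Dir593 Crest.Agent.R247.Dir593.GradS
open Crest.Agent.R247.Hes124 Crest.Agent.R247.Loc710 Crest.Agent.R247.Far553
open Crest.Agent.R247.Fd656 Crest.Agent.R247.Bo84
open Crest.Agent.R249.Sta1_397 Crest.Agent.R249.Sta2_397 Crest.Agent.R249.Sta3_397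
  Crest.Agent.R249.Sta4_397

/-- small scales exist -/
lemma exists_dy {θ ρ : ℝ} (hθ : 0 < θ) (hρ : 0 < ρ) : ∃ k : ℕ, 4 ≤ k ∧ 2 * dy k ^ 2 ≤ θ ∧
    dy k ≤ ρ := by
  have h1 : Tendsto (fun k : ℕ => dy k) atTop (𝓝 0) := by
    have := tendsto_pow_atTop_nhds_zero_of_lt_one (r := (1 / 2 : ℝ)) (by norm_num) (by norm_num)
    refine this.congr fun k => ?_
    unfold dy
    rfl
  have h2 : Tendsto (fun k : ℕ => 2 * dy k ^ 2) atTop (𝓝 0) := by
    simpa using (h1.pow 2).const_mul 2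
  obtain ⟨k, h3, h4, h5⟩ := ((eventually_ge_atTop 4).and ((h2.eventually (gt_mem_nhds hθ)).and
    (h1.eventually (gt_mem_nhds hρ)))).exists
  exact ⟨k, h3, h4.le, h5.le⟩

section mfd0
variable {n : ℕ} {M : Type*} [MetricSpace M] [ChartedSpace (EuclideanSpace ℝ (Fin n)) M]
  [IsManifold (𝓡 n) ∞ M]
  [RiemannianBundle (fun p : M => TangentSpace (𝓡 n) p)]
  [IsContMDiffRiemannianBundle (𝓡 n) ∞ (EuclideanSpace ℝ (Fin n)) (fun p : M => TangentSpace (𝓡 n) p)]
  [IsRiemannianManifold (𝓡 n) M] [SecondCountableTopology M] [Nonempty M]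

lemma Hf_const_mul {u : M → ℝ} {z : M} (c : ℝ) (hu : ContMDiffAt (𝓡 n) 𝓘(ℝ, ℝ) 2 u z) :
    Bs84.Hf (n := n) (fun y => c * u y) z = c • Bs84.Hf u z := by
  ext ij
  exact mHess_const_mul c hu _ _

lemma mHessSq_const_mul {u : M → ℝ} {z : M} (c : ℝ) (hu : ContMDiffAt (𝓡 n) 𝓘(ℝ, ℝ) 2 u z) :
    mHessSq n (fun y => c * u y) z = c ^ 2 * mHessSq n u z := by
  have h : ContMDiffAt (𝓡 n) 𝓘(ℝ, ℝ) 2 (fun y => c * u y) z := contMDiffAt_const.mul hu
  rw [← Bs84.norm_Hf_sq h, ← Bs84.norm_Hf_sq hu, Hf_const_mul c hu,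
    norm_smul, mul_pow, Real.norm_eq_abs, sq_abs]

end mfd0

section mfd

set_option maxHeartbeats 2000000 in
/-- **Almost splitting functions on a pinched manifold.** -/
theorem exists_split {n : ℕ} (hn : 1 ≤ n) {ε : ℝ} (hε : 0 < ε) : ∃ s : ℝ, 0 < s ∧ s ≤ 1 / 32 ∧
    ∃ R₁ : ℝ, 50 ≤ R₁ ∧ ∃ δ₀ : ℝ, 0 < δ₀ ∧ δ₀ ≤ 1 / 4096 ∧
    ∀ {M : Type u} [MetricSpace M] [CompleteSpace M]
    [ConnectedSpace M] [ChartedSpace (EuclideanSpace ℝ (Fin n)) M]
    [IsManifold 𝓘(ℝ, EuclideanSpace ℝ (Fin n)) ∞ M]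
    [RiemannianBundle (fun x : M => TangentSpace 𝓘(ℝ, EuclideanSpace ℝ (Fin n)) x)]
    [IsContMDiffRiemannianBundle 𝓘(ℝ, EuclideanSpace ℝ (Fin n)) ∞ (EuclideanSpace ℝ (Fin n))
      (fun x : M => TangentSpace 𝓘(ℝ, EuclideanSpace ℝ (Fin n)) x)]
    [IsRiemannianManifold 𝓘(ℝ, EuclideanSpace ℝ (Fin n)) M]
    [MeasurableSpace M] [BorelSpace M] {δ : ℝ} (hδ0 : 0 < δ) (hδ : δ ≤ δ₀) {q : M}
    (hk : HasRicciLowerBound n M (-δ)) (hp : Pin n δ q R₁ 40),
    (∃ y : M, 5 / 2 * s ≤ dist q y ∧ dist q y ≤ 3 * s) ∧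
    ∃ b : Fin n → M → ℝ, (∀ a, ContMDiff (𝓡 n) 𝓘(ℝ) ∞ (b a)) ∧ (∀ a, HasCompactSupport (b a)) ∧
      (∀ a, ∫⁻ z in ball q s, ENNReal.ofReal (mHessSq n (b a) z) ∂(μHE[n] : Measure M) ≤
        ENNReal.ofReal (ε * s ^ n / s ^ 2)) ∧
      ∀ a c, ∫⁻ z in ball q s, ENNReal.ofReal |mGam n (b a) (b c) z - if a = c then 1 else 0|
        ∂(μHE[n] : Measure M) ≤ ENNReal.ofReal (ε * s ^ n) := by
  obtain ⟨A, hA0, hA⟩ := hf2.{u} hn
  have hom := om_pos n
  set σ : ℝ := min 1 (ε / (1024 * om n)) with hσdef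
  have hσ0 : 0 < σ := lt_min one_pos (by positivity)
  have hσ1 : σ ≤ 1 := min_le_left _ _
  have hσ2 : 256 * om n * σ ≤ ε / 4 := by
    have h1 : σ ≤ ε / (1024 * om n) := min_le_right _ _
    have h2 : 256 * om n * σ ≤ 256 * om n * (ε / (1024 * om n)) := by gcongr
    have h3 : 256 * om n * (ε / (1024 * om n)) = ε / 4 := by field_simp; norm_num
    linarith
  set η : ℝ := min 1 (ε / (16 * om n)) with hηdef
  have hη0 : 0 < η := lt_min one_pos (by positivity)
  have hη1 : η ≤ 1 := min_le_left _ _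
  have hη2 : 4 * om n * η ≤ ε / 4 := by
    have h1 : η ≤ ε / (16 * om n) := min_le_right _ _
    have h2 : 4 * om n * η ≤ 4 * om n * (ε / (16 * om n)) := by gcongr
    have h3 : 4 * om n * (ε / (16 * om n)) = ε / 4 := by field_simp; norm_num
    linarith
  set ε₁ : ℝ := ε / (192 * 2 ^ (n + 2)) with hε₁def
  have hε₁0 : 0 < ε₁ := by positivity
  set D₀ : ℝ := min (ε * σ / (1536 * 12 ^ (n + 2))) (ε / (64 * 12 ^ n)) with hD₀def
  have hD₀0 : 0 < D₀ := lt_min (by positivity) (by positivity)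
  obtain ⟨θ₁, hθ₁0, hθ₁⟩ := pyd_small.{u} hn hε₁0
  obtain ⟨ρ, hρ0, hρ1, R₁, hR₁, δ₁, hδ₁0, hδ₁1, hpts⟩ := exists_points.{u} hn (η := min (η / 2) (1 / 10)) (by positivity)
  obtain ⟨k, hk4, hk1, hk2⟩ := exists_dy (θ := min θ₁ (D₀ / A)) (ρ := ρ / 4) (by positivity)
    (by positivity)
  set R := dy k with hRdef
  have hR0 : 0 < R := dy_pos k
  have hR16 : R ≤ 1 / 16 := by
    have h1 := dy_anti hk4
    have h2 : dy 4 = 1 / 16 := by unfold dy; norm_num
    linarith
  refine ⟨R / 2, by positivity, by linarith, R₁, hR₁, min δ₁ (R ^ 2), by positivity,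
    (min_le_left _ _).trans hδ₁1, ?_⟩
  intro M _ _ _ _ _ _ _ _ _ _ δ hδ0 hδ q hk hp
  have := HR216.properSpace_of_riemannian n M
  have := HR216.secondCountable_of_riemannian n M
  have : Nonempty M := ⟨q⟩
  have := Gs939.finOnCompacts (n := n) (M := M)
  have hδa : δ ≤ δ₁ := hδ.trans (min_le_left _ _)
  have hδb : δ ≤ R ^ 2 := hδ.trans (min_le_right _ _)
  have hδc : 4096 * δ ≤ 1 := by linarith
  have hp50 : Pin n δ q 50 40 := fun x hx r hr hr1 => hp x (ball_subset_ball hR₁ hx) r hr hr1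
  have hθ : δ + dy k ^ 2 ≤ min θ₁ (D₀ / A) := by linarith
  have hθa : δ + dy k ^ 2 ≤ θ₁ := hθ.trans (min_le_left _ _)
  have hθb : A * (δ + dy k ^ 2) ≤ D₀ := by
    have := hθ.trans (min_le_right _ _)
    rw [le_div_iff₀ hA0] at this
    linarith
  set t : ℝ := R / 8 with htdef
  have ht0 : 0 < t := by positivity
  obtain ⟨v, hv1', hv2'⟩ := hpts hδ0 hδa hk hp ht0 (by linarith)
  have hmin : min (η / 2) (1 / 10) * t ^ 2 ≤ η / 2 * t ^ 2 :=
    mul_le_mul_of_nonneg_right (min_le_left _ _) (by positivity)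
  have hv1 : ∀ a, |dist q (v a) ^ 2 - t ^ 2| ≤ η / 2 * t ^ 2 := fun a => (hv1' a).trans hmin
  have hv2 : ∀ a b, a ≠ b → |dist (v a) (v b) ^ 2 - 2 * t ^ 2| ≤ η / 2 * t ^ 2 :=
    fun a b hab => (hv2' a b hab).trans hmin
  obtain ⟨C⟩ := Bgr546.rad_all n δ hδ0.le M hk
  have hqq : dist q q < 1 := by rw [dist_self]; norm_num
  have E : EnvF (Gs939.boch hk) C q (1024 * δ) := Env879.envP hn δ hδ0 hδc M q hk hp50 C q hqq
  have hRDG : Loc710.RDG (Gs939.boch hk).toGradS C := fun x φ hφ =>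
    Sli554.LK.locLip E.hL x hφ
  have hU : UnitA (Gs939.boch hk).toGradS := unitA_of_rdg hRDG
  set B := Gs939.boch hk with hB
  -- distances
  have hdv : ∀ a, dist q (v a) ≤ R / 4 := by
    intro a
    have h1 := (abs_le.1 (hv1 a)).2
    have h2 : dist q (v a) ^ 2 ≤ (R / 4) ^ 2 := by
      have : η / 2 * t ^ 2 ≤ 1 * t ^ 2 := by gcongr; linarith
      rw [htdef] at h1 this
      nlinarith
    exact (abs_le_of_sq_le_sq' h2 (by positivity)).2
  have hdvv : ∀ a c, dist (v a) (v c) ≤ R / 2 := by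
    intro a c
    have := dist_triangle (v a) q (v c)
    rw [dist_comm (v a) q] at this
    linarith [hdv a, hdv c]
  have hvq : ∀ a, dist (v a) q < 1 := fun a => by
    rw [dist_comm]
    linarith [hdv a]
  -- Hessian data
  obtain ⟨wq, hwq, hwq1, hwq2⟩ := hA hδ0 hδc hk hp50 hqq hk4
  have hw : ∀ a, ∃ w ∈ B.core,
      ∫⁻ z in ball (v a) (6 * R), ENNReal.ofReal (‖B.G w z - B.G (fx (v a)) z‖ ^ 2) ∂μHE[n] ≤
        ENNReal.ofReal (A * (δ + R ^ 2) * (6 * R) ^ (n + 2)) ∧
      ∫⁻ z in ball (v a) (6 * R), ENNReal.ofReal (‖B.H w z - idm n‖ ^ 2) ∂μHE[n] ≤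
        ENNReal.ofReal (A * (δ + R ^ 2) * (6 * R) ^ n) := fun a => hA hδ0 hδc hk hp50 (hvq a) hk4
  choose w hwc hw1 hw2 using hw
  have hDle : A * (δ + R ^ 2) ≤ D₀ := hθb
  set s : ℝ := R / 2 with hsdef
  have hs0 : 0 < s := by positivity
  have hRs : R = 2 * s := by rw [hsdef]; ring
  have hts : t = s / 4 := by rw [htdef, hsdef]; ring
  have hsub1 : ball q s ⊆ ball q R := ball_subset_ball (by linarith)
  have hsub2 : ∀ a, ball q s ⊆ ball (v a) R := fun a => ball_subset_ball' (by linarith [hdv a])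
  have hsub3 : ball q s ⊆ ball q (6 * R) := ball_subset_ball (by linarith)
  have hsub4 : ∀ a, ball q s ⊆ ball (v a) (6 * R) := fun a =>
    ball_subset_ball' (by linarith [hdv a])
  have hvol : (μHE[n] : Measure M) (ball q s) ≤ ENNReal.ofReal (2 * om n * s ^ n) := by
    refine (E.vol_le q s (by simp) hs0 (by linarith)).trans (ENNReal.ofReal_le_ofReal ?_)
    have : 0 ≤ om n * s ^ n := by positivity
    nlinarith
  have hcore : ∀ {f : M → ℝ}, f ∈ B.core → ContMDiff (𝓡 n) 𝓘(ℝ) ∞ f ∧ HasCompactSupport f :=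
    fun hf => hf
  have hsm : ∀ {f : M → ℝ}, f ∈ B.core → ∀ z, ContMDiffAt (𝓡 n) 𝓘(ℝ) 2 f z :=
    fun hf z => ((hcore hf).1 z).of_le two_le_infty
  set W : Fin n → M → ℝ := fun a x => wq x - w a x with hW
  have hWc : ∀ a, W a ∈ B.core := fun a => B.core_sub hwq (hwc a)
  have hy : ∃ y : M, 5 / 2 * s ≤ dist q y ∧ dist q y ≤ 3 * s := by
    obtain ⟨y, hy1, -⟩ := hpts hδ0 hδa hk hp (t := 11 / 4 * s) (by positivity) (by linarith)
    have h1 := abs_le.1 (hy1 ⟨0, hn⟩)
    have h2 : min (η / 2) (1 / 10) * (11 / 4 * s) ^ 2 ≤ 1 / 10 * (11 / 4 * s) ^ 2 :=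
      mul_le_mul_of_nonneg_right (min_le_right _ _) (by positivity)
    refine ⟨y ⟨0, hn⟩, ?_, ?_⟩
    · refine abs_le_of_sq_le_sq' (?_ : (5 / 2 * s) ^ 2 ≤ dist q (y ⟨0, hn⟩) ^ 2) dist_nonneg |>.2
      nlinarith [h1.1, sq_nonneg s]
    · refine abs_le_of_sq_le_sq' (?_ : dist q (y ⟨0, hn⟩) ^ 2 ≤ (3 * s) ^ 2) (by positivity) |>.2
      nlinarith [h1.2, sq_nonneg s]
  refine ⟨hy, fun a x => t⁻¹ * W a x, fun a => ?_, fun a => ?_, fun a => ?_, fun a c => ?_⟩
  · exact contMDiff_const.mul (hcore (hWc a)).1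
  · exact (hcore (hWc a)).2.mul_left
  · -- the Hessian
    have h0 := hess_int B hwq (hwc a) (S := ball q s) (K := A * (δ + R ^ 2) * (6 * R) ^ n)
      (by positivity) ((lintegral_mono_set hsub3).trans hwq2)
      ((lintegral_mono_set (hsub4 a)).trans (hw2 a))
    calc ∫⁻ z in ball q s, ENNReal.ofReal (mHessSq n (fun x => t⁻¹ * W a x) z) ∂(μHE[n] : Measure M)
        = ∫⁻ z in ball q s, ENNReal.ofReal (t⁻¹ ^ 2) *
            ENNReal.ofReal (‖B.H (fun x => wq x - w a x) z‖ ^ 2) ∂(μHE[n] : Measure M) := by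
          apply lintegral_congr
          intro z
          rw [mHessSq_const_mul _ (hsm (hWc a) z), ← Bs84.norm_Hf_sq (hsm (hWc a) z),
            ENNReal.ofReal_mul (by positivity)]
          rfl
      _ = ENNReal.ofReal (t⁻¹ ^ 2) * ∫⁻ z in ball q s,
            ENNReal.ofReal (‖B.H (fun x => wq x - w a x) z‖ ^ 2) ∂(μHE[n] : Measure M) := by
          rw [lintegral_const_mul' _ _ ENNReal.ofReal_ne_top]
      _ ≤ ENNReal.ofReal (t⁻¹ ^ 2) *
            ENNReal.ofReal (4 * (A * (δ + R ^ 2) * (6 * R) ^ n)) := by gcongr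
      _ = ENNReal.ofReal (64 * 12 ^ n * (A * (δ + R ^ 2)) * s ^ n / s ^ 2) := by
          rw [← ENNReal.ofReal_mul (by positivity)]
          congr 1
          generalize A * (δ + R ^ 2) = D
          rw [hts, hRs, show 6 * (2 * s) = 12 * s by ring, mul_pow]
          field_simp
          ring_nf
      _ ≤ ENNReal.ofReal (ε * s ^ n / s ^ 2) := by
          apply ENNReal.ofReal_le_ofReal
          have h1 : 64 * 12 ^ n * (A * (δ + R ^ 2)) ≤ ε := by
            have h2 : A * (δ + R ^ 2) ≤ ε / (64 * 12 ^ n) := hDle.trans (min_le_right _ _)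
            rw [le_div_iff₀ (by positivity)] at h2
            linarith
          gcongr
  · -- the Gram matrix
    have hccle : |fx q (v a) + fx q (v c) - fx (v a) (v c) - t ^ 2 * (if a = c then 1 else 0)| ≤
        η * t ^ 2 := by
      have t2 : 0 ≤ η * t ^ 2 := by positivity
      by_cases hac : a = c
      · subst hac
        rw [if_pos rfl]
        unfold fx
        rw [dist_self]
        have h1 := abs_le.1 (hv1 a)
        rw [abs_le]
        constructor <;> nlinarith [h1.1, h1.2]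
      · rw [if_neg hac]
        unfold fx
        have h1 := abs_le.1 (hv1 a)
        have h2 := abs_le.1 (hv1 c)
        have h3 := abs_le.1 (hv2 a c hac)
        rw [abs_le]
        constructor <;> nlinarith [h1.1, h1.2, h2.1, h2.2, h3.1, h3.2]
    have hmain := gram_int B hU hwq (hwc a) (hwc c) (q := q) (a := v a) (b := v c) (S := ball q s)
      measurableSet_ball (R := R) (σ := σ) (T := t ^ 2 * (if a = c then 1 else 0))
      (τ := η * t ^ 2) (m := 2 * om n * s ^ n) (K1 := ε₁ * R ^ (n + 2))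
      (K2 := A * (δ + R ^ 2) * (6 * R) ^ (n + 2)) hR0.le hσ0 hσ1 (by positivity) (by positivity)
      (by positivity) (by positivity) hccle
      (fun u hu => by
        have := hsub1 hu
        rw [mem_ball, dist_comm] at this
        exact this.le)
      (fun u hu => by
        have := hsub2 a hu
        rw [mem_ball, dist_comm] at this
        exact this.le)
      (fun u hu => by
        have := hsub2 c hu
        rw [mem_ball, dist_comm] at this
        exact this.le) hvol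
      ((lintegral_mono_set (hsub2 a)).trans
            (hθ₁ hδ0 hδc hk hp50 (hvq a) (hvq c) hk4 hθa (hdvv a c)))
      ((lintegral_mono_set hsub1).trans
            (hθ₁ hδ0 hδc hk hp50 hqq (hvq c) hk4 hθa (by linarith [hdv c])))
      ((lintegral_mono_set hsub1).trans
            (hθ₁ hδ0 hδc hk hp50 hqq (hvq a) hk4 hθa (by linarith [hdv a])))
      ((lintegral_mono_set hsub3).trans hwq1)
      ((lintegral_mono_set (hsub4 a)).trans (hw1 a))
      ((lintegral_mono_set (hsub4 c)).trans (hw1 c))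
    calc ∫⁻ z in ball q s, ENNReal.ofReal |mGam n (fun x => t⁻¹ * W a x) (fun x => t⁻¹ * W c x) z -
            if a = c then 1 else 0| ∂(μHE[n] : Measure M)
        = ∫⁻ z in ball q s, ENNReal.ofReal (t⁻¹ ^ 2) * ENNReal.ofReal
            |⟪B.G (fun x => wq x - w a x) z, B.G (fun x => wq x - w c x) z⟫ -
              t ^ 2 * (if a = c then 1 else 0)| ∂(μHE[n] : Measure M) := by
          apply lintegral_congr
          intro z
          rw [← ENNReal.ofReal_mul (by positivity)]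
          congr 1
          have hda : MDifferentiableAt (𝓡 n) 𝓘(ℝ) (W a) z := (hsm (hWc a) z).mdifferentiableAt
            (by norm_num)
          have hdc : MDifferentiableAt (𝓡 n) 𝓘(ℝ) (W c) z := (hsm (hWc c) z).mdifferentiableAt
            (by norm_num)
          have e0 : ⟪B.G (fun x => wq x - w a x) z, B.G (fun x => wq x - w c x) z⟫ =
              mGam n (W a) (W c) z := Bs84.inner_Gr_eq (W a) (W c) z
          rw [e0, mGam_const_mul_left _ hda, mGam_const_mul_right _ hdc]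
          have e1 : t⁻¹ * (t⁻¹ * mGam n (W a) (W c) z) - (if a = c then 1 else 0) =
              t⁻¹ ^ 2 * (mGam n (W a) (W c) z - t ^ 2 * (if a = c then 1 else 0)) := by
            field_simp
          rw [e1, abs_mul, abs_of_nonneg (by positivity : 0 ≤ t⁻¹ ^ 2)]
      _ = ENNReal.ofReal (t⁻¹ ^ 2) * ∫⁻ z in ball q s, ENNReal.ofReal
            |⟪B.G (fun x => wq x - w a x) z, B.G (fun x => wq x - w c x) z⟫ -
              t ^ 2 * (if a = c then 1 else 0)| ∂(μHE[n] : Measure M) := by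
          rw [lintegral_const_mul' _ _ ENNReal.ofReal_ne_top]
      _ ≤ ENNReal.ofReal (t⁻¹ ^ 2) * ENNReal.ofReal ((2 * σ * R ^ 2 + η * t ^ 2) *
            (2 * om n * s ^ n) + 3 * (ε₁ * R ^ (n + 2)) +
            8 / σ * (3 * (A * (δ + R ^ 2) * (6 * R) ^ (n + 2)))) := by gcongr
      _ ≤ ENNReal.ofReal (ε * s ^ n) := by
          rw [← ENNReal.ofReal_mul (by positivity)]
          apply ENNReal.ofReal_le_ofReal
          have h1 : 384 / σ * 12 ^ (n + 2) * (A * (δ + R ^ 2)) ≤ ε / 4 := by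
            have h2 : A * (δ + R ^ 2) ≤ ε * σ / (1536 * 12 ^ (n + 2)) :=
              hDle.trans (min_le_left _ _)
            calc 384 / σ * 12 ^ (n + 2) * (A * (δ + R ^ 2))
                ≤ 384 / σ * 12 ^ (n + 2) * (ε * σ / (1536 * 12 ^ (n + 2))) := by gcongr
              _ = ε / 4 := by field_simp; norm_num
          have h2 : 48 * 2 ^ (n + 2) * ε₁ = ε / 4 := by
            rw [hε₁def]
            field_simp
            norm_num
          have h3 : t⁻¹ ^ 2 * ((2 * σ * R ^ 2 + η * t ^ 2) *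
              (2 * om n * s ^ n) + 3 * (ε₁ * R ^ (n + 2)) +
              8 / σ * (3 * (A * (δ + R ^ 2) * (6 * R) ^ (n + 2)))) =
              (256 * om n * σ + 2 * om n * η + 48 * 2 ^ (n + 2) * ε₁ +
                384 / σ * 12 ^ (n + 2) * (A * (δ + R ^ 2))) * s ^ n := by
            rw [hts]
            generalize A * (δ + R ^ 2) = D
            rw [hRs, show 6 * (2 * s) = 12 * s by ring, mul_pow 12 s, mul_pow 2 s]
            field_simp
            ring
          rw [h3]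
          have h4 : 256 * om n * σ + 2 * om n * η + 48 * 2 ^ (n + 2) * ε₁ +
                384 / σ * 12 ^ (n + 2) * (A * (δ + R ^ 2)) ≤ ε := by
            have : 0 ≤ om n * η := by positivity
            linarith
          gcongr

end mfd

end Crest.Agent.R249.Sta5_397
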