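import Crest.Agent.R249.Sta5_397
import Crest.Agent.R249.HRep3_308
import Crest.Agent.R249.StaD_509

/-!
# R249, leaf D3-START (helper397), file 6: smooth cut-offs, local integrals, interior Hessian estimate

* `exists_cut` : smooth cut-off functions on balls;
* `glue_smooth` : a function which is smooth on an open set, cut off, is smooth on `M`;
* `hess_local` : Caccioppoli for the Hessian of a function which is smooth on a ball only.
-/

set_option autoImplicit false
set_option maxSynthPendingDepth 3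
set_option linter.unusedSectionVars false
set_option linter.unusedVariables false

open Bundle Bornology Set MeasureTheory Manifold Filter Metric Topology
open scoped ENNReal ContDiff Topology NNReal RealInnerProductSpace
open Crest.GeometryTopology.CoordMetric Crest.GeometryTopology.ChartCurvature
open Crest.GeometryTopology.PointedLimit

noncomputable section

namespace Crest.Agent.R249.Sta6_397

universe u

open Crest.Agent.R247 Crest.Agent.R247.Dir593 Crest.Agent.R247.Dir593.GradS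
open Crest.Agent.R247.Hes124 Crest.Agent.R247.Bo84 Crest.Agent.R247.Ms322

variable {n : ℕ} {M : Type u} [MetricSpace M]
    [ChartedSpace (EuclideanSpace ℝ (Fin n)) M]
    [IsManifold 𝓘(ℝ, EuclideanSpace ℝ (Fin n)) ∞ M]
    [RiemannianBundle (fun x : M => TangentSpace 𝓘(ℝ, EuclideanSpace ℝ (Fin n)) x)]
    [IsContMDiffRiemannianBundle 𝓘(ℝ, EuclideanSpace ℝ (Fin n)) ∞ (EuclideanSpace ℝ (Fin n))
      (fun x : M => TangentSpace 𝓘(ℝ, EuclideanSpace ℝ (Fin n)) x)]
    [IsRiemannianManifold 𝓘(ℝ, EuclideanSpace ℝ (Fin n)) M]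
    [MeasurableSpace M] [BorelSpace M] [ProperSpace M] [SecondCountableTopology M] [Nonempty M]

local notation "μM" => (μHE[n] : Measure M)

variable (n) in
/-- smooth cut-off functions on balls -/
theorem exists_cut (q : M) {r₁ r₂ : ℝ} (h : r₁ < r₂) : ∃ χ : M → ℝ,
    ContMDiff (𝓡 n) 𝓘(ℝ) ∞ χ ∧ HasCompactSupport χ ∧ tsupport χ ⊆ closedBall q r₂ ∧
      ∀ x ∈ closedBall q r₁, χ x = 1 := by
  obtain ⟨f, h0, h1, h2⟩ := exists_contMDiffMap_zero_one_of_isClosed (n := (⊤ : ℕ∞)) (𝓡 n)
    (s := (ball q r₂)ᶜ) (t := closedBall q r₁) isOpen_ball.isClosed_compl isClosed_closedBall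
    (by
      rw [Set.disjoint_compl_left_iff_subset]
      exact closedBall_subset_ball h)
  have hs : tsupport f ⊆ closedBall q r₂ := by
    refine closure_minimal ?_ isClosed_closedBall
    intro x hx
    by_contra hx'
    apply hx
    exact h0 (fun hh => hx' (ball_subset_closedBall hh))
  exact ⟨f, f.contMDiff, (isCompact_closedBall q r₂).of_isClosed_subset (isClosed_tsupport _) hs,
    hs, fun x hx => h1 hx⟩

/-- a function smooth on an open set, cut off, is smooth -/
theorem glue_smooth {O : Set M} (hO : IsOpen O) {F χ : M → ℝ} (hF : ContMDiffOn (𝓡 n) 𝓘(ℝ) ∞ F O)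
    (hχ : ContMDiff (𝓡 n) 𝓘(ℝ) ∞ χ) (hs : tsupport χ ⊆ O) :
    ContMDiff (𝓡 n) 𝓘(ℝ) ∞ (fun x => χ x * F x) := by
  refine contMDiff_of_tsupport fun x hx => ?_
  have hx' : x ∈ O := hs (tsupport_mul_subset_left hx)
  exact (hχ x).mul (hF.contMDiffAt (hO.mem_nhds hx'))

lemma smAt {O : Set M} (hO : IsOpen O) {F : M → ℝ} (hF : ContMDiffOn (𝓡 n) 𝓘(ℝ) ∞ F O) {z : M}
    (hz : z ∈ O) : ContMDiffAt (𝓡 n) 𝓘(ℝ) ∞ F z := hF.contMDiffAt (hO.mem_nhds hz)

lemma cont_mLap {O : Set M} (hO : IsOpen O) {F : M → ℝ} (hF : ContMDiffOn (𝓡 n) 𝓘(ℝ) ∞ F O) :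
    ContinuousOn (mLap n F) O := fun z hz =>
  (contMDiffAt_mLap (m := ∞) (smAt hO hF hz) (by simp) le_rfl).continuousAt.continuousWithinAt

lemma cont_mGam {O : Set M} (hO : IsOpen O) {F G : M → ℝ} (hF : ContMDiffOn (𝓡 n) 𝓘(ℝ) ∞ F O)
    (hG : ContMDiffOn (𝓡 n) 𝓘(ℝ) ∞ G O) : ContinuousOn (mGam n F G) O := fun z hz =>
  (contMDiffAt_mGam (m := ∞) (smAt hO hF hz) (smAt hO hG hz) (by simp)
    le_rfl).continuousAt.continuousWithinAt

lemma cont_mHessSq {O : Set M} (hO : IsOpen O) {F : M → ℝ} (hF : ContMDiffOn (𝓡 n) 𝓘(ℝ) ∞ F O) :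
    ContinuousOn (mHessSq n F) O := fun z hz =>
  (Bs84.continuousAt_mHessSq ((smAt hO hF hz).of_le two_le_infty)).continuousWithinAt

/-- **Interior Hessian estimate** for a function which is smooth on a ball. -/
theorem hess_local {κ : ℝ} (hκ : 0 ≤ κ) (hk : HasRicciLowerBound n M (-κ)) (q : M) {r : ℝ}
    (hr : 0 < r) {v : M → ℝ} (hv : ContMDiffOn (𝓡 n) 𝓘(ℝ) ∞ v (ball q (3 * r))) :
    ∫ z in ball q r, mHessSq n v z ∂μM ≤
      4 * ∫ z in closedBall q (2 * r), mLap n v z ^ 2 ∂μM +
        (2 * κ + 6 * r⁻¹ ^ 2) * ∫ z in closedBall q (2 * r), mGam n v v z ∂μM := by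
  have := Gs939.finOnCompacts (n := n) (M := M)
  obtain ⟨χ, hχ, hχc, hχs, hχ1⟩ := exists_cut n q (r₁ := 9 / 4 * r) (r₂ := 5 / 2 * r) (by linarith)
  have hsub : closedBall q (5 / 2 * r) ⊆ ball q (3 * r) := closedBall_subset_ball (by linarith)
  set w : M → ℝ := fun x => χ x * v x with hw
  have hwsm : ContMDiff (𝓡 n) 𝓘(ℝ) ∞ w := glue_smooth isOpen_ball hv hχ (hχs.trans hsub)
  have hwc : HasCompactSupport w := hχc.mul_right
  set B := Gs939.boch hk with hB
  have hwB : w ∈ B.core := ⟨hwsm, hwc⟩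
  -- near the closed ball of radius `2 r` the functions agree
  have hev : ∀ z ∈ closedBall q (2 * r), w =ᶠ[𝓝 z] v := by
    intro z hz
    have hz' : ball q (9 / 4 * r) ∈ 𝓝 z := isOpen_ball.mem_nhds
      (closedBall_subset_ball (by linarith) hz)
    filter_upwards [hz'] with y hy
    rw [hw]
    show χ y * v y = v y
    rw [hχ1 y (ball_subset_closedBall hy), one_mul]
  have hsub2 : closedBall q (2 * r) ⊆ ball q (3 * r) := closedBall_subset_ball (by linarith)
  -- the Lipschitz cut-off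
  set ψ : M → ℝ := fun z => Mcp688.cut r (dist q z) with hψ
  have hψT : IsT ψ := Max193.isT_cut q hr
  have hψs : tsupport ψ ⊆ closedBall q (2 * r) := by
    refine closure_minimal ?_ isClosed_closedBall
    intro z hz
    rw [mem_closedBall, dist_comm]
    by_contra h
    push Not at h
    exact hz (Mcp688.cut_eq_zero hr h.le)
  have hG : ∀ᵐ x ∂μM, ‖B.G ψ x‖ ≤ r⁻¹ := by
    have hl : LipschitzWith (r⁻¹).toNNReal ψ := by
      refine LipschitzWith.of_dist_le_mul fun y z => ?_
      rw [Real.coe_toNNReal _ (inv_nonneg.2 hr.le), Real.dist_eq]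
      refine (Mcp688.abs_cut_sub hr _ _).trans ?_
      have : |dist q y - dist q z| ≤ dist y z := by
        rw [dist_comm q y, dist_comm q z]
        exact abs_dist_sub_le y z q
      gcongr
    filter_upwards [B.norm_le hψT.1 isOpen_univ hl.lipschitzOnWith] with x hx
    have := hx (mem_univ x)
    rwa [Real.coe_toNNReal _ (inv_nonneg.2 hr.le)] at this
  have hc := B.cacc hκ hwB hψT (fun x => Mcp688.cut_nonneg _ _) (fun x => Mcp688.cut_le_one _ _)
    (c := r⁻¹) hG
  have hcomp : IsCompact (closedBall q (2 * r)) := isCompact_closedBall _ _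
  have hwsm2 : ∀ z, ContMDiffAt (𝓡 n) 𝓘(ℝ) 2 w z := fun z => (hwsm z).of_le two_le_infty
  have iL : IntegrableOn (fun z => mLap n v z ^ 2) (closedBall q (2 * r)) μM :=
    (((cont_mLap isOpen_ball hv).mono hsub2).pow 2).integrableOn_compact hcomp
  have iG : IntegrableOn (fun z => mGam n v v z) (closedBall q (2 * r)) μM :=
    ((cont_mGam isOpen_ball hv hv).mono hsub2).integrableOn_compact hcomp
  have h1 : ∫ x in tsupport ψ, tr (B.H w x) ^ 2 ∂μM ≤
      ∫ z in closedBall q (2 * r), mLap n v z ^ 2 ∂μM := by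
    have e : ∀ x ∈ closedBall q (2 * r), tr (B.H w x) ^ 2 = mLap n v x ^ 2 := by
      intro x hx
      have e1 : tr (B.H w x) = mLap n w x := Bs84.tr_Hf (hwsm2 x)
      rw [e1, mLap_congr (hev x hx)]
    have i1 : IntegrableOn (fun x => tr (B.H w x) ^ 2) (closedBall q (2 * r)) μM :=
      iL.congr_fun (fun x hx => (e x hx).symm) isClosed_closedBall.measurableSet
    rw [← setIntegral_congr_fun isClosed_closedBall.measurableSet e]
    exact setIntegral_mono_set i1 (Eventually.of_forall fun x => sq_nonneg _)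
      hψs.eventuallyLE
  have h2 : ∫ x in tsupport ψ, ‖B.G w x‖ ^ 2 ∂μM ≤
      ∫ z in closedBall q (2 * r), mGam n v v z ∂μM := by
    have e : ∀ x ∈ closedBall q (2 * r), ‖B.G w x‖ ^ 2 = mGam n v v x := by
      intro x hx
      have e1 : ‖B.G w x‖ ^ 2 = mGam n w w x := Bs84.norm_Gr_sq_eq w x
      rw [e1, mGam_congr (hev x hx) (hev x hx)]
    have i1 : IntegrableOn (fun x => ‖B.G w x‖ ^ 2) (closedBall q (2 * r)) μM :=
      iG.congr_fun (fun x hx => (e x hx).symm) isClosed_closedBall.measurableSet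
    rw [← setIntegral_congr_fun isClosed_closedBall.measurableSet e]
    exact setIntegral_mono_set i1 (Eventually.of_forall fun x => sq_nonneg _)
      hψs.eventuallyLE
  have h3 : ∫ z in ball q r, mHessSq n v z ∂μM ≤ ∫ x, ψ x ^ 2 * ‖B.H w x‖ ^ 2 ∂μM := by
    have hHi : Integrable (fun x => ‖B.H w x‖ ^ 2) μM := (B.H_memLp hwB).integrable_norm_pow
      (by norm_num)
    have i1 : Integrable (fun x => ψ x ^ 2 * ‖B.H w x‖ ^ 2) μM := by
      refine hHi.bdd_mul (c := 1) (hψT.1.continuous.pow 2).aestronglyMeasurable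
        (Eventually.of_forall fun x => ?_)
      rw [Real.norm_eq_abs, abs_of_nonneg (sq_nonneg _)]
      exact pow_le_one₀ (Mcp688.cut_nonneg _ _) (Mcp688.cut_le_one _ _)
    have e : ∀ x ∈ ball q r, mHessSq n v x = ψ x ^ 2 * ‖B.H w x‖ ^ 2 := by
      intro x hx
      have hx' : x ∈ closedBall q (2 * r) := ball_subset_closedBall
        (ball_subset_ball (by linarith) hx)
      have e1 : ‖B.H w x‖ ^ 2 = mHessSq n w x := Bs84.norm_Hf_sq (hwsm2 x)
      have e2 : ψ x = 1 := by
        rw [mem_ball, dist_comm] at hx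
        exact Mcp688.cut_eq_one hr hx.le
      rw [e1, e2, mHessSq_congr (hev x hx')]
      ring
    rw [setIntegral_congr_fun isOpen_ball.measurableSet e]
    exact setIntegral_le_integral i1 (Eventually.of_forall fun x => by positivity)
  refine h3.trans (hc.trans ?_)
  have h4 : 0 ≤ 2 * κ + 6 * r⁻¹ ^ 2 := by positivity
  gcongr

end Crest.Agent.R249.Sta6_397
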