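import Crest.Agent.R249.Sta6_397

/-!
# R249, leaf D3-START (helper397), file 7: harmonic replacement of one function

* `harm_rep` : the harmonic replacement of a compactly supported smooth function on a ball, with
  its energy and Hessian estimates.
* `gram_rep` : the Gram matrix changes little.
-/

set_option autoImplicit false
set_option maxSynthPendingDepth 3
set_option linter.unusedSectionVars false
set_option linter.unusedVariables false

open Bundle Bornology Set MeasureTheory Manifold Filter Metric Topology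
open scoped ENNReal ContDiff Topology NNReal RealInnerProductSpace
open Crest.GeometryTopology.CoordMetric Crest.GeometryTopology.ChartCurvature
open Crest.GeometryTopology.PointedLimit

noncomputable section

namespace Crest.Agent.R249.Sta7_397

universe u

open Crest.Agent.R247 Crest.Agent.R247.Dir593 Crest.Agent.R247.Dir593.GradS
open Crest.Agent.R247.Hes124 Crest.Agent.R247.Bo84 Crest.Agent.R247.Ms322
open Crest.Agent.R249.Sta6_397

variable {n : ℕ} {M : Type u} [MetricSpace M] [CompleteSpace M] [ConnectedSpace M]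
    [ChartedSpace (EuclideanSpace ℝ (Fin n)) M]
    [IsManifold 𝓘(ℝ, EuclideanSpace ℝ (Fin n)) ∞ M]
    [RiemannianBundle (fun x : M => TangentSpace 𝓘(ℝ, EuclideanSpace ℝ (Fin n)) x)]
    [IsContMDiffRiemannianBundle 𝓘(ℝ, EuclideanSpace ℝ (Fin n)) ∞ (EuclideanSpace ℝ (Fin n))
      (fun x : M => TangentSpace 𝓘(ℝ, EuclideanSpace ℝ (Fin n)) x)]
    [IsRiemannianManifold 𝓘(ℝ, EuclideanSpace ℝ (Fin n)) M]
    [MeasurableSpace M] [BorelSpace M] [ProperSpace M] [SecondCountableTopology M] [Nonempty M]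

local notation "μM" => (μHE[n] : Measure M)

lemma hess_le_two {b H : M → ℝ} {z : M} (hb : ContMDiffAt (𝓡 n) 𝓘(ℝ, ℝ) 2 b z)
    (hH : ContMDiffAt (𝓡 n) 𝓘(ℝ, ℝ) 2 H z) :
    mHessSq n H z ≤ 2 * mHessSq n b z + 2 * mHessSq n (fun y => b y - H y) z := by
  have hV : ContMDiffAt (𝓡 n) 𝓘(ℝ, ℝ) 2 (fun y => b y - H y) z := hb.sub hH
  rw [← Bs84.norm_Hf_sq hb, ← Bs84.norm_Hf_sq hH, ← Bs84.norm_Hf_sq hV,
    Bs84.Hf_sub hb hH]
  have h1 : ‖Bs84.Hf (n := n) H z‖ ≤ ‖Bs84.Hf (n := n) b z‖ +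
      ‖Bs84.Hf (n := n) b z - Bs84.Hf (n := n) H z‖ := by
    have := norm_sub_le (Bs84.Hf (n := n) b z) (Bs84.Hf (n := n) b z - Bs84.Hf (n := n) H z)
    rwa [sub_sub_cancel] at this
  have h2 : ‖Bs84.Hf (n := n) H z‖ ^ 2 ≤ (‖Bs84.Hf (n := n) b z‖ +
      ‖Bs84.Hf (n := n) b z - Bs84.Hf (n := n) H z‖) ^ 2 := by gcongr
  nlinarith [sq_nonneg (‖Bs84.Hf (n := n) b z‖ - ‖Bs84.Hf (n := n) b z - Bs84.Hf (n := n) H z‖)]

variable (n) in
/-- the constant of the Hessian estimate of the harmonic replacement -/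
def KH : ℝ := 2 + 8 * n + 110 * (64 * 4 ^ (n + 2)) * n

lemma KH_pos (n : ℕ) : 0 < KH n := by unfold KH; positivity

/-- **Harmonic replacement** of a smooth compactly supported function on a ball. -/
theorem harm_rep {δ : ℝ} (hδ0 : 0 ≤ δ) (hδ1 : δ ≤ 1)
    (hk : HasRicciLowerBound n M (-δ)) (q y : M) {S : ℝ} (hS : 0 < S) (hS1 : S ≤ 1 / 4)
    (hy1 : 5 / 2 * S ≤ dist q y) (hy2 : dist q y ≤ 3 * S)
    {b : M → ℝ} (hb : ContMDiff (𝓡 n) 𝓘(ℝ) ∞ b) (hbc : HasCompactSupport b) :
    ∃ H : M → ℝ, ContMDiffOn (𝓡 n) 𝓘(ℝ, ℝ) ∞ H (ball q S) ∧ (∀ z ∈ ball q S, mLap n H z = 0) ∧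
      MemLp ((ball q S).indicator (Gr (n := n) H)) 2 μM ∧
      ∫ z in ball q S, ‖Gr (n := n) b z - Gr (n := n) H z‖ ^ 2 ∂μM ≤
        64 * 4 ^ (n + 2) * S ^ 2 * n * ∫ z in ball q S, mHessSq n b z ∂μM ∧
      ∫ z in ball q (S / 3), mHessSq n H z ∂μM ≤ KH n * ∫ z in ball q S, mHessSq n b z ∂μM := by
  have := Gs939.finOnCompacts (n := n) (M := M)
  set B := Gs939.boch hk with hB
  have hbB : b ∈ B.core := ⟨hb, hbc⟩
  have hb2 : ∀ z, ContMDiffAt (𝓡 n) 𝓘(ℝ) 2 b z := fun z => (hb z).of_le two_le_infty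
  set O : Set M := ball q S with hO
  have hOo : IsOpen O := isOpen_ball
  have hcO : IsCompact (closedBall q S) := isCompact_closedBall _ _
  set P : ℝ := 64 * 4 ^ (n + 2) * S ^ 2 with hP
  have hP0 : 0 ≤ P := by positivity
  have hFG : MemLp (O.indicator (Gr (n := n) b)) 2 μM := by
    have : MemLp (Gr (n := n) b) 2 μM := B.G_memLp hbB
    exact this.indicator hOo.measurableSet
  have hLcont : Continuous (mLap n b) := by
    rw [← continuousOn_univ]
    exact cont_mLap isOpen_univ hb.contMDiffOn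
  have hHcont : Continuous (mHessSq n b) := by
    rw [← continuousOn_univ]
    exact cont_mHessSq isOpen_univ hb.contMDiffOn
  have hFL : MemLp (O.indicator (mLap n b)) 2 μM := by
    have h1 : MemLp (fun x => tr (B.H b x)) 2 μM := BochS.memLp_tr (B.H_memLp hbB)
    have h2 : (fun x => tr (B.H b x)) = mLap n b := by
      funext x
      exact Bs84.tr_Hf (hb2 x)
    rw [h2] at h1
    exact h1.indicator hOo.measurableSet
  obtain ⟨H, hHs, hH0, hHG, -, hHd⟩ := HRep308.hrep (n := n) hOo hP0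
    (fun f hf hs => StaD_509.dp hδ0 hk q y hS hy1 hy2 (by nlinarith) hf hs)
    hb.contMDiffOn hFG hFL
  have iHb : IntegrableOn (mHessSq n b) O μM :=
    (hHcont.continuousOn.integrableOn_compact hcO).mono_set ball_subset_closedBall
  have iLb : IntegrableOn (fun z => mLap n b z ^ 2) O μM :=
    ((hLcont.pow 2).continuousOn.integrableOn_compact hcO).mono_set ball_subset_closedBall
  have hLle : ∫ z in O, mLap n b z ^ 2 ∂μM ≤ n * ∫ z in O, mHessSq n b z ∂μM := by
    rw [← integral_const_mul]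
    exact integral_mono iLb (iHb.const_mul _) fun z => mLap_sq_le (hb2 z)
  have hD : ∫ z in O, ‖Gr (n := n) b z - Gr (n := n) H z‖ ^ 2 ∂μM ≤
      P * n * ∫ z in O, mHessSq n b z ∂μM := by
    exact (hHd.trans (mul_le_mul_of_nonneg_left hLle hP0)).trans_eq (by ring)
  refine ⟨H, hHs, hH0, hHG, hD, ?_⟩
  -- the Hessian
  have hr : 0 < S / 3 := by positivity
  set V : M → ℝ := fun z => b z - H z with hV
  have hVs : ContMDiffOn (𝓡 n) 𝓘(ℝ) ∞ V (ball q (3 * (S / 3))) := by
    rw [show 3 * (S / 3) = S by ring]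
    exact hb.contMDiffOn.sub hHs
  have hVs' : ContMDiffOn (𝓡 n) 𝓘(ℝ) ∞ V O := hb.contMDiffOn.sub hHs
  have hloc := hess_local hδ0 hk q hr hVs
  have hsub : closedBall q (2 * (S / 3)) ⊆ O := closedBall_subset_ball (by linarith)
  have hHat : ∀ z ∈ O, ContMDiffAt (𝓡 n) 𝓘(ℝ) 2 H z := fun z hz =>
    (smAt hOo hHs hz).of_le two_le_infty
  have e1 : ∫ z in closedBall q (2 * (S / 3)), mLap n V z ^ 2 ∂μM ≤
      n * ∫ z in O, mHessSq n b z ∂μM := by
    have : ∫ z in closedBall q (2 * (S / 3)), mLap n V z ^ 2 ∂μM =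
        ∫ z in closedBall q (2 * (S / 3)), mLap n b z ^ 2 ∂μM := by
      refine setIntegral_congr_fun isClosed_closedBall.measurableSet fun z hz => ?_
      show mLap n V z ^ 2 = mLap n b z ^ 2
      rw [hV, mLap_sub (hb2 z) (hHat z (hsub hz)), hH0 z (hsub hz), sub_zero]
    rw [this]
    refine (setIntegral_mono_set iLb (Eventually.of_forall fun z => sq_nonneg _)
      hsub.eventuallyLE).trans hLle
  have hGV : ∀ z ∈ O, mGam n V V z = ‖Gr (n := n) b z - Gr (n := n) H z‖ ^ 2 := by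
    intro z hz
    rw [← Bs84.norm_Gr_sq_eq, hV, HRep308.Gr_sub_of ((hb2 z).mdifferentiableAt (by norm_num))
      ((hHat z hz).mdifferentiableAt (by norm_num))]
  have iGV : IntegrableOn (fun z => ‖Gr (n := n) b z - Gr (n := n) H z‖ ^ 2) O μM := by
    have h1 : MemLp (fun z => O.indicator (Gr (n := n) b) z - O.indicator (Gr (n := n) H) z) 2 μM :=
      hFG.sub hHG
    have h2 : Integrable (fun z => ‖O.indicator (Gr (n := n) b) z -
      O.indicator (Gr (n := n) H) z‖ ^ 2) μM := h1.integrable_norm_pow (by norm_num)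
    refine (h2.integrableOn (s := O)).congr_fun (fun z hz => ?_) hOo.measurableSet
    simp only [indicator_of_mem hz]
  have e2 : ∫ z in closedBall q (2 * (S / 3)), mGam n V V z ∂μM ≤
      P * n * ∫ z in O, mHessSq n b z ∂μM := by
    rw [setIntegral_congr_fun isClosed_closedBall.measurableSet (fun z hz => hGV z (hsub hz))]
    exact (setIntegral_mono_set iGV (Eventually.of_forall fun z => sq_nonneg _)
      hsub.eventuallyLE).trans hD
  have hHb0 : 0 ≤ ∫ z in O, mHessSq n b z ∂μM := integral_nonneg fun z => by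
    show 0 ≤ mHessSq n b z
    rw [← Bs84.norm_Hf_sq (hb2 z)]
    positivity
  have e3 : ∫ z in ball q (S / 3), mHessSq n V z ∂μM ≤
      (4 * n + 55 * (64 * 4 ^ (n + 2)) * n) * ∫ z in O, mHessSq n b z ∂μM := by
    refine hloc.trans ?_
    have h1 : 2 * δ + 6 * (S / 3)⁻¹ ^ 2 ≤ 55 * S⁻¹ ^ 2 := by
      have h2 : (S / 3)⁻¹ = 3 * S⁻¹ := by field_simp
      rw [h2]
      have h3 : 4 ≤ S⁻¹ := by
        rw [le_inv_comm₀ (by norm_num) hS]
        linarith
      nlinarith
    have h2 : 0 ≤ 2 * δ + 6 * (S / 3)⁻¹ ^ 2 := by positivity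
    have h3 : 0 ≤ P * n * ∫ z in O, mHessSq n b z ∂μM := by positivity
    calc 4 * ∫ z in closedBall q (2 * (S / 3)), mLap n V z ^ 2 ∂μM +
          (2 * δ + 6 * (S / 3)⁻¹ ^ 2) * ∫ z in closedBall q (2 * (S / 3)), mGam n V V z ∂μM
        ≤ 4 * (n * ∫ z in O, mHessSq n b z ∂μM) + (2 * δ + 6 * (S / 3)⁻¹ ^ 2) *
          (P * n * ∫ z in O, mHessSq n b z ∂μM) := by gcongr
      _ ≤ 4 * (n * ∫ z in O, mHessSq n b z ∂μM) + 55 * S⁻¹ ^ 2 *
          (P * n * ∫ z in O, mHessSq n b z ∂μM) := by gcongr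
      _ = _ := by
          rw [hP]
          field_simp
  have iHV : IntegrableOn (mHessSq n V) (ball q (S / 3)) μM := by
    have h1 : ContinuousOn (mHessSq n V) (closedBall q (2 * (S / 3))) :=
      (cont_mHessSq hOo hVs').mono hsub
    exact (h1.integrableOn_compact (isCompact_closedBall _ _)).mono_set
      (ball_subset_closedBall.trans (closedBall_subset_closedBall (by linarith)))
  have iHH : IntegrableOn (mHessSq n H) (ball q (S / 3)) μM := by
    have h1 : ContinuousOn (mHessSq n H) (closedBall q (2 * (S / 3))) :=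
      (cont_mHessSq hOo hHs).mono hsub
    exact (h1.integrableOn_compact (isCompact_closedBall _ _)).mono_set
      (ball_subset_closedBall.trans (closedBall_subset_closedBall (by linarith)))
  have hsb : ball q (S / 3) ⊆ O := ball_subset_ball (by linarith)
  have iHb' : IntegrableOn (mHessSq n b) (ball q (S / 3)) μM := iHb.mono_set hsb
  calc ∫ z in ball q (S / 3), mHessSq n H z ∂μM
      ≤ ∫ z in ball q (S / 3), (2 * mHessSq n b z + 2 * mHessSq n V z) ∂μM := by
        refine setIntegral_mono_on iHH ((iHb'.const_mul _).add (iHV.const_mul _))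
          measurableSet_ball fun z hz => ?_
        exact hess_le_two (hb2 z) (hHat z (hsb hz))
    _ = 2 * ∫ z in ball q (S / 3), mHessSq n b z ∂μM +
          2 * ∫ z in ball q (S / 3), mHessSq n V z ∂μM := by
        rw [integral_add (iHb'.const_mul _) (iHV.const_mul _), integral_const_mul,
          integral_const_mul]
    _ ≤ 2 * ∫ z in O, mHessSq n b z ∂μM + 2 * ((4 * n + 55 * (64 * 4 ^ (n + 2)) * n) *
          ∫ z in O, mHessSq n b z ∂μM) := by
        have h4 : ∫ z in ball q (S / 3), mHessSq n b z ∂μM ≤ ∫ z in O, mHessSq n b z ∂μM := by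
          refine setIntegral_mono_set iHb (Eventually.of_forall fun z => ?_) hsb.eventuallyLE
          show 0 ≤ mHessSq n b z
          rw [← Bs84.norm_Hf_sq (hb2 z)]
          positivity
        linarith
    _ = KH n * ∫ z in O, mHessSq n b z ∂μM := by
        unfold KH
        ring

end Crest.Agent.R249.Sta7_397
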