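import Crest.Agent.R249.Sta7_397

/-!
# R249, leaf D3-START (helper397), file 8: almost splitting harmonic functions

* `gram_rep` : the Gram matrix changes little under harmonic replacement.
* `exists_harm` : on a volume-pinched manifold with `Ric ≥ -δ` there are `n` harmonic functions with
  Hessian small in `L²` and Gram matrix close to the identity in `L¹`.
-/

set_option autoImplicit false
set_option maxSynthPendingDepth 3
set_option linter.unusedSectionVars false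
set_option linter.unusedVariables false

open Bundle Bornology Set MeasureTheory Manifold Filter Metric Topology
open scoped ENNReal ContDiff Topology NNReal RealInnerProductSpace
open Crest.GeometryTopology.CoordMetric Crest.GeometryTopology.ChartCurvature
open Crest.GeometryTopology.PointedLimit

noncomputable section

namespace Crest.Agent.R249.Sta8_397

universe u

open Crest.Agent.R247 Crest.Agent.R247.Dir593 Crest.Agent.R247.Dir593.GradS
open Crest.Agent.R247.Hes124 Crest.Agent.R247.Bo84 Crest.Agent.R247.Ms322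
open Crest.Agent.R249.Sta1_397 Crest.Agent.R249.Sta6_397 Crest.Agent.R249.Sta7_397
open Crest.Agent.R247.Fd656

lemma inner_diff_le {E : Type*} [NormedAddCommGroup E] [InnerProductSpace ℝ E] (g k h l : E)
    {σ : ℝ} (hσ : 0 < σ) : |⟪h, l⟫ - ⟪g, k⟫| ≤ σ / 2 * (‖g‖ ^ 2 + ‖k‖ ^ 2) +
      (1 / (2 * σ) + 1 / 2) * (‖g - h‖ ^ 2 + ‖k - l‖ ^ 2) := by
  have e : ⟪h, l⟫ - ⟪g, k⟫ = -⟪g - h, k⟫ - ⟪g, k - l⟫ + ⟪g - h, k - l⟫ := by
    simp only [inner_sub_left, inner_sub_right]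
    ring
  have h1 := abs_real_inner_le_norm (g - h) k
  have h2 := abs_real_inner_le_norm g (k - l)
  have h3 := abs_real_inner_le_norm (g - h) (k - l)
  have h4 : |⟪h, l⟫ - ⟪g, k⟫| ≤ ‖g - h‖ * ‖k‖ + ‖g‖ * ‖k - l‖ + ‖g - h‖ * ‖k - l‖ := by
    rw [e]
    rw [abs_le] at h1 h2 h3 ⊢
    constructor <;> linarith [h1.1, h1.2, h2.1, h2.2, h3.1, h3.2]
  refine h4.trans ?_
  have y1 : ∀ a b : ℝ, a * b ≤ σ / 2 * b ^ 2 + 1 / (2 * σ) * a ^ 2 := by
    intro a b
    have h5 : 0 ≤ (σ * b - a) ^ 2 / (2 * σ) := by positivity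
    have h6 : (σ * b - a) ^ 2 / (2 * σ) = σ / 2 * b ^ 2 + 1 / (2 * σ) * a ^ 2 - a * b := by
      field_simp
      ring
    linarith
  have h5 := y1 ‖g - h‖ ‖k‖
  have h6 := y1 ‖k - l‖ ‖g‖
  nlinarith [sq_nonneg (‖g - h‖ - ‖k - l‖)]

section blk
variable {n : ℕ} {M : Type u} [MetricSpace M] [CompleteSpace M] [ConnectedSpace M]
    [ChartedSpace (EuclideanSpace ℝ (Fin n)) M]
    [IsManifold 𝓘(ℝ, EuclideanSpace ℝ (Fin n)) ∞ M]
    [RiemannianBundle (fun x : M => TangentSpace 𝓘(ℝ, EuclideanSpace ℝ (Fin n)) x)]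
    [IsContMDiffRiemannianBundle 𝓘(ℝ, EuclideanSpace ℝ (Fin n)) ∞ (EuclideanSpace ℝ (Fin n))
      (fun x : M => TangentSpace 𝓘(ℝ, EuclideanSpace ℝ (Fin n)) x)]
    [IsRiemannianManifold 𝓘(ℝ, EuclideanSpace ℝ (Fin n)) M]
    [MeasurableSpace M] [BorelSpace M] [ProperSpace M] [SecondCountableTopology M] [Nonempty M]

local notation "μM" => (μHE[n] : Measure M)

/-- the Gram matrix changes little -/
theorem gram_rep {O : Set M} (hO : IsOpen O) {b c H K : M → ℝ}
    (hb : MemLp (O.indicator (Gr (n := n) b)) 2 μM)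
    (hc : MemLp (O.indicator (Gr (n := n) c)) 2 μM)
    (hH : MemLp (O.indicator (Gr (n := n) H)) 2 μM)
    (hK : MemLp (O.indicator (Gr (n := n) K)) 2 μM) {σ m d : ℝ} (hσ : 0 < σ)
    (hbm : ∫ z in O, ‖Gr (n := n) b z‖ ^ 2 ∂μM ≤ m) (hcm : ∫ z in O, ‖Gr (n := n) c z‖ ^ 2 ∂μM ≤ m)
    (hbd : ∫ z in O, ‖Gr (n := n) b z - Gr (n := n) H z‖ ^ 2 ∂μM ≤ d)
    (hcd : ∫ z in O, ‖Gr (n := n) c z - Gr (n := n) K z‖ ^ 2 ∂μM ≤ d) :
    IntegrableOn (fun z => ⟪Gr (n := n) H z, Gr (n := n) K z⟫ -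
      ⟪Gr (n := n) b z, Gr (n := n) c z⟫) O μM ∧
    ∫ z in O, |⟪Gr (n := n) H z, Gr (n := n) K z⟫ - ⟪Gr (n := n) b z, Gr (n := n) c z⟫| ∂μM ≤
      σ * m + (1 / σ + 1) * d := by
  have hOm := hO.measurableSet
  have hsq : ∀ {f : M → EuclideanSpace ℝ (Fin n)}, MemLp (O.indicator f) 2 μM →
      IntegrableOn (fun z => ‖f z‖ ^ 2) O μM := by
    intro f hf
    refine ((hf.integrable_norm_pow (by norm_num)).integrableOn (s := O)).congr_fun
      (fun z hz => ?_) hOm
    simp only [indicator_of_mem hz]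
  have hin : ∀ {f g : M → EuclideanSpace ℝ (Fin n)}, MemLp (O.indicator f) 2 μM →
      MemLp (O.indicator g) 2 μM → IntegrableOn (fun z => ⟪f z, g z⟫) O μM := by
    intro f g hf hg
    refine ((int_inner hf hg).integrableOn (s := O)).congr_fun (fun z hz => ?_) hOm
    simp only [indicator_of_mem hz]
  have hsb : ∀ {f g : M → EuclideanSpace ℝ (Fin n)}, MemLp (O.indicator f) 2 μM →
      MemLp (O.indicator g) 2 μM → IntegrableOn (fun z => ‖f z - g z‖ ^ 2) O μM := by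
    intro f g hf hg
    have h1 : MemLp (fun z => O.indicator f z - O.indicator g z) 2 μM := hf.sub hg
    refine ((h1.integrable_norm_pow (by norm_num)).integrableOn (s := O)).congr_fun
      (fun z hz => ?_) hOm
    simp only [indicator_of_mem hz]
  have i1 : IntegrableOn (fun z => ⟪Gr (n := n) H z, Gr (n := n) K z⟫ -
      ⟪Gr (n := n) b z, Gr (n := n) c z⟫) O μM := (hin hH hK).sub (hin hb hc)
  refine ⟨i1, ?_⟩
  have i2 : IntegrableOn (fun z => σ / 2 * (‖Gr (n := n) b z‖ ^ 2 + ‖Gr (n := n) c z‖ ^ 2)) O μM :=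
    ((hsq hb).add (hsq hc)).const_mul (σ / 2)
  have i3 : IntegrableOn (fun z => (1 / (2 * σ) + 1 / 2) *
      (‖Gr (n := n) b z - Gr (n := n) H z‖ ^ 2 + ‖Gr (n := n) c z - Gr (n := n) K z‖ ^ 2)) O μM :=
    ((hsb hb hH).add (hsb hc hK)).const_mul (1 / (2 * σ) + 1 / 2)
  calc ∫ z in O, |⟪Gr (n := n) H z, Gr (n := n) K z⟫ - ⟪Gr (n := n) b z, Gr (n := n) c z⟫| ∂μM
      ≤ ∫ z in O, (σ / 2 * (‖Gr (n := n) b z‖ ^ 2 + ‖Gr (n := n) c z‖ ^ 2) +
        (1 / (2 * σ) + 1 / 2) * (‖Gr (n := n) b z - Gr (n := n) H z‖ ^ 2 +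
          ‖Gr (n := n) c z - Gr (n := n) K z‖ ^ 2)) ∂μM := by
        refine integral_mono i1.abs (i2.add i3) fun z => ?_
        exact inner_diff_le _ _ _ _ hσ
    _ = σ / 2 * (∫ z in O, ‖Gr (n := n) b z‖ ^ 2 ∂μM + ∫ z in O, ‖Gr (n := n) c z‖ ^ 2 ∂μM) +
        (1 / (2 * σ) + 1 / 2) * (∫ z in O, ‖Gr (n := n) b z - Gr (n := n) H z‖ ^ 2 ∂μM +
          ∫ z in O, ‖Gr (n := n) c z - Gr (n := n) K z‖ ^ 2 ∂μM) := by
        rw [integral_add i2 i3, integral_const_mul, integral_const_mul,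
          integral_add (hsq hb) (hsq hc), integral_add (hsb hb hH) (hsb hc hK)]
    _ ≤ σ / 2 * (m + m) + (1 / (2 * σ) + 1 / 2) * (d + d) := by gcongr
    _ = σ * m + (1 / σ + 1) * d := by
        field_simp
        ring

end blk

/-- a lintegral bound gives an integral bound -/
lemma integral_le_of_lint {X : Type*} [MeasurableSpace X] {μ : Measure X} {f : X → ℝ}
    (hf0 : ∀ z, 0 ≤ f z) (hf : AEStronglyMeasurable f μ) {K : ℝ} (hK : 0 ≤ K)
    (h : ∫⁻ z, ENNReal.ofReal (f z) ∂μ ≤ ENNReal.ofReal K) : ∫ z, f z ∂μ ≤ K := by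
  rw [integral_eq_lintegral_of_nonneg_ae (Eventually.of_forall hf0) hf]
  exact ENNReal.toReal_le_of_le_ofReal hK h

set_option maxHeartbeats 1000000 in
/-- **Almost splitting harmonic functions.** -/
theorem exists_harm {n : ℕ} (hn : 1 ≤ n) {ε : ℝ} (hε : 0 < ε) : ∃ s : ℝ, 0 < s ∧ s ≤ 1 / 96 ∧
    ∃ R₁ : ℝ, 50 ≤ R₁ ∧ ∃ δ₀ : ℝ, 0 < δ₀ ∧ δ₀ ≤ 1 / 4096 ∧
    ∀ {M : Type u} [MetricSpace M] [CompleteSpace M]
    [ConnectedSpace M] [ChartedSpace (EuclideanSpace ℝ (Fin n)) M]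
    [IsManifold 𝓘(ℝ, EuclideanSpace ℝ (Fin n)) ∞ M]
    [RiemannianBundle (fun x : M => TangentSpace 𝓘(ℝ, EuclideanSpace ℝ (Fin n)) x)]
    [IsContMDiffRiemannianBundle 𝓘(ℝ, EuclideanSpace ℝ (Fin n)) ∞ (EuclideanSpace ℝ (Fin n))
      (fun x : M => TangentSpace 𝓘(ℝ, EuclideanSpace ℝ (Fin n)) x)]
    [IsRiemannianManifold 𝓘(ℝ, EuclideanSpace ℝ (Fin n)) M]
    [MeasurableSpace M] [BorelSpace M] {δ : ℝ} (hδ0 : 0 < δ) (hδ : δ ≤ δ₀) {q : M}
    (hk : HasRicciLowerBound n M (-δ)) (hp : Pin n δ q R₁ 40),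
    ∃ u : Fin n → M → ℝ, (∀ a, ContMDiff (𝓡 n) 𝓘(ℝ) ∞ (u a)) ∧ (∀ a, HasCompactSupport (u a)) ∧
      (∀ a, ∀ z ∈ ball q (3 / 2 * s), mLap n (u a) z = 0) ∧
      (∀ a, ∫ z in ball q s, mHessSq n (u a) z ∂(μHE[n] : Measure M) ≤ ε * s ^ n / s ^ 2) ∧
      ∀ a c, ∫ z in ball q s, |mGam n (u a) (u c) z - if a = c then 1 else 0|
        ∂(μHE[n] : Measure M) ≤ ε * s ^ n := by
  have hom := om_pos n
  have hK := KH_pos n
  set P₁ : ℝ := 64 * 4 ^ (n + 2) * n with hP₁
  have hn0 : (0:ℝ) < n := by exact_mod_cast hn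
  have hP₁0 : 0 < P₁ := by positivity
  set ε₂ : ℝ := ε / 3 ^ n with hε₂
  have hε₂0 : 0 < ε₂ := by positivity
  set σ : ℝ := min 1 (ε₂ / (6 * om n)) with hσdef
  have hσ0 : 0 < σ := lt_min one_pos (by positivity)
  have hσ1 : σ ≤ 1 := min_le_left _ _
  have hσ2 : 2 * om n * σ ≤ ε₂ / 3 := by
    have h1 : σ ≤ ε₂ / (6 * om n) := min_le_right _ _
    have h2 : 2 * om n * σ ≤ 2 * om n * (ε₂ / (6 * om n)) := by gcongr
    have h3 : 2 * om n * (ε₂ / (6 * om n)) = ε₂ / 3 := by field_simp; norm_num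
    linarith
  set ε' : ℝ := min (ε₂ / 6) (min (ε₂ / (3 * ((1 / σ + 1) * P₁))) (ε₂ / KH n)) with hε'
  have hε'0 : 0 < ε' := by positivity
  have hε'1 : ε' ≤ ε₂ / 6 := min_le_left _ _
  have hε'2 : (1 / σ + 1) * P₁ * ε' ≤ ε₂ / 3 := by
    have h1 : ε' ≤ ε₂ / (3 * ((1 / σ + 1) * P₁)) := (min_le_right _ _).trans (min_le_left _ _)
    calc (1 / σ + 1) * P₁ * ε' ≤ (1 / σ + 1) * P₁ * (ε₂ / (3 * ((1 / σ + 1) * P₁))) := by gcongr
      _ = ε₂ / 3 := by
          have h2 : (1 / σ + 1) * P₁ ≠ 0 := by positivity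
          generalize (1 / σ + 1) * P₁ = Q at h2 ⊢
          field_simp
  have hε'3 : KH n * ε' ≤ ε₂ := by
    have h1 : ε' ≤ ε₂ / KH n := (min_le_right _ _).trans (min_le_right _ _)
    rw [le_div_iff₀ hK] at h1
    linarith
  obtain ⟨S, hS0, hS1, R₁, hR₁, δ₀, hδ₀0, hδ₀1, hsp⟩ := Sta5_397.exists_split.{u} hn hε'0
  refine ⟨S / 3, by positivity, by linarith, R₁, hR₁, δ₀, hδ₀0, hδ₀1, ?_⟩
  intro M _ _ _ _ _ _ _ _ _ _ δ hδ0 hδ q hk hp
  have := HR216.properSpace_of_riemannian n M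
  have := HR216.secondCountable_of_riemannian n M
  have : Nonempty M := ⟨q⟩
  have := Gs939.finOnCompacts (n := n) (M := M)
  obtain ⟨⟨y, hy1, hy2⟩, b, hb, hbc, hbH, hbG⟩ := hsp hδ0 hδ hk hp
  obtain ⟨C⟩ := Bgr546.rad_all n δ hδ0.le M hk
  set O : Set M := ball q S with hO
  have hOo : IsOpen O := isOpen_ball
  have hOm : MeasurableSet O := hOo.measurableSet
  set B := Gs939.boch hk with hB
  have hb2 : ∀ a z, ContMDiffAt (𝓡 n) 𝓘(ℝ) 2 (b a) z := fun a z => (hb a z).of_le two_le_infty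
  have hbI : ∀ a, MemLp (O.indicator (Gr (n := n) (b a))) 2 (μHE[n] : Measure M) := fun a => by
    have : MemLp (Gr (n := n) (b a)) 2 (μHE[n] : Measure M) := B.G_memLp (⟨hb a, hbc a⟩ : b a ∈ B.core)
    exact this.indicator hOm
  have hcG : ∀ a c, Continuous (mGam n (b a) (b c)) := fun a c => by
    rw [← continuousOn_univ]
    exact cont_mGam isOpen_univ (hb a).contMDiffOn (hb c).contMDiffOn
  have hcH : ∀ a, Continuous (mHessSq n (b a)) := fun a => by
    rw [← continuousOn_univ]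
    exact cont_mHessSq isOpen_univ (hb a).contMDiffOn
  have hH0 : ∀ a z, 0 ≤ mHessSq n (b a) z := fun a z => by
    rw [← Bs84.norm_Hf_sq (hb2 a z)]
    positivity
  -- real valued integrals
  have hbH' : ∀ a, ∫ z in O, mHessSq n (b a) z ∂(μHE[n] : Measure M) ≤ ε' * S ^ n / S ^ 2 :=
    fun a => integral_le_of_lint (hH0 a) (hcH a).aestronglyMeasurable (by positivity) (hbH a)
  have hbG' : ∀ a c, ∫ z in O, |mGam n (b a) (b c) z - if a = c then 1 else 0|
      ∂(μHE[n] : Measure M) ≤ ε' * S ^ n := fun a c =>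
    integral_le_of_lint (fun z => abs_nonneg _)
      ((hcG a c).sub continuous_const).abs.aestronglyMeasurable (by positivity) (hbG a c)
  have hvol : (μHE[n] : Measure M) O ≤ ENNReal.ofReal (2 * om n * S ^ n) := by
    refine (measure_mono ball_subset_closedBall).trans
      ((closedBall_le_pinch C hδ0.le (by linarith) q hS0.le (by linarith)).trans ?_)
    apply ENNReal.ofReal_le_ofReal
    have h1 : 1 + 1024 * δ ≤ 2 := by linarith
    gcongr
  have hvol' : (μHE[n] : Measure M).real O ≤ 2 * om n * S ^ n :=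
    ENNReal.toReal_le_of_le_ofReal (by positivity) hvol
  have hfin : (μHE[n] : Measure M) O ≠ ⊤ := (hvol.trans_lt ENNReal.ofReal_lt_top).ne
  have hiO : ∀ {f : M → ℝ}, Continuous f → IntegrableOn f O (μHE[n] : Measure M) := fun hf =>
    (hf.continuousOn.integrableOn_compact (isCompact_closedBall q S)).mono_set
      ball_subset_closedBall
  -- the energy
  have hbm : ∀ a, ∫ z in O, ‖Gr (n := n) (b a) z‖ ^ 2 ∂(μHE[n] : Measure M) ≤
      (2 * om n + ε') * S ^ n := by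
    intro a
    have i1 := hiO (hcG a a)
    have i2 : IntegrableOn (fun z => |mGam n (b a) (b a) z - if a = a then 1 else 0| + 1) O
        (μHE[n] : Measure M) := hiO (((hcG a a).sub continuous_const).abs.add continuous_const)
    calc ∫ z in O, ‖Gr (n := n) (b a) z‖ ^ 2 ∂(μHE[n] : Measure M)
        = ∫ z in O, mGam n (b a) (b a) z ∂(μHE[n] : Measure M) := by
          simp only [Bs84.norm_Gr_sq_eq]
      _ ≤ ∫ z in O, (|mGam n (b a) (b a) z - if a = a then 1 else 0| + 1)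
            ∂(μHE[n] : Measure M) := by
          refine integral_mono i1 i2 fun z => ?_
          show mGam n (b a) (b a) z ≤ |mGam n (b a) (b a) z - if a = a then 1 else 0| + 1
          rw [if_pos rfl]
          linarith [le_abs_self (mGam n (b a) (b a) z - 1)]
      _ = ∫ z in O, |mGam n (b a) (b a) z - if a = a then 1 else 0| ∂(μHE[n] : Measure M) +
            (μHE[n] : Measure M).real O := by
          have j1 : IntegrableOn (fun z => |mGam n (b a) (b a) z - if a = a then (1:ℝ) else 0|) O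
              (μHE[n] : Measure M) := hiO ((hcG a a).sub continuous_const).abs
          have j2 : IntegrableOn (fun _ : M => (1:ℝ)) O (μHE[n] : Measure M) :=
            hiO continuous_const
          rw [integral_add j1 j2]
          simp
      _ ≤ (2 * om n + ε') * S ^ n := by linarith [hbG' a a]
  -- harmonic replacements
  choose H hHs hHL hHI hHd hHH using fun a => harm_rep (n := n) hδ0.le (by linarith) hk q y hS0
    (by linarith) hy1 hy2 (hb a) (hbc a)
  have hd : ∀ a, ∫ z in O, ‖Gr (n := n) (b a) z - Gr (n := n) (H a) z‖ ^ 2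
      ∂(μHE[n] : Measure M) ≤ P₁ * ε' * S ^ n := by
    intro a
    refine (hHd a).trans ?_
    calc 64 * 4 ^ (n + 2) * S ^ 2 * n * ∫ z in O, mHessSq n (b a) z ∂(μHE[n] : Measure M)
        ≤ 64 * 4 ^ (n + 2) * S ^ 2 * n * (ε' * S ^ n / S ^ 2) := by
          gcongr
          exact hbH' a
      _ = P₁ * ε' * S ^ n := by
          rw [hP₁]
          field_simp
  obtain ⟨χ, hχ, hχc, hχs, hχ1⟩ := exists_cut n q (r₁ := 3 / 2 * (S / 3)) (r₂ := 2 * (S / 3))
    (by linarith)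
  have hsub : closedBall q (2 * (S / 3)) ⊆ O := closedBall_subset_ball (by linarith)
  have hev : ∀ a, ∀ z ∈ ball q (3 / 2 * (S / 3)), (fun x => χ x * H a x) =ᶠ[𝓝 z] H a := by
    intro a z hz
    filter_upwards [isOpen_ball.mem_nhds hz] with x hx
    rw [hχ1 x (ball_subset_closedBall hx), one_mul]
  have hss : ball q (S / 3) ⊆ ball q (3 / 2 * (S / 3)) := ball_subset_ball (by linarith)
  have hsO : ball q (S / 3) ⊆ O := ball_subset_ball (by linarith)
  refine ⟨fun a x => χ x * H a x, fun a => glue_smooth hOo (hHs a) hχ (hχs.trans hsub),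
    fun a => hχc.mul_right, fun a z hz => ?_, fun a => ?_, fun a c => ?_⟩
  · rw [mLap_congr (hev a z hz)]
    exact hHL a z (ball_subset_ball (by linarith) hz)
  · have e : ∫ z in ball q (S / 3), mHessSq n (fun x => χ x * H a x) z ∂(μHE[n] : Measure M) =
        ∫ z in ball q (S / 3), mHessSq n (H a) z ∂(μHE[n] : Measure M) :=
      setIntegral_congr_fun measurableSet_ball fun z hz => mHessSq_congr (hev a z (hss hz))
    rw [e]
    refine (hHH a).trans ?_
    have h1 : KH n * ∫ z in O, mHessSq n (b a) z ∂(μHE[n] : Measure M) ≤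
        KH n * (ε' * S ^ n / S ^ 2) := mul_le_mul_of_nonneg_left (hbH' a) hK.le
    refine h1.trans ?_
    have h2 : KH n * (ε' * S ^ n / S ^ 2) ≤ ε₂ * (S ^ n / S ^ 2) := by
      have : 0 ≤ S ^ n / S ^ 2 := by positivity
      calc KH n * (ε' * S ^ n / S ^ 2) = (KH n * ε') * (S ^ n / S ^ 2) := by ring
        _ ≤ _ := by gcongr
    refine h2.trans ?_
    have h3 : ε * (S / 3) ^ n / (S / 3) ^ 2 = 9 * (ε₂ * (S ^ n / S ^ 2)) := by
      rw [hε₂, div_pow]
      field_simp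
      norm_num
    rw [h3]
    have : 0 ≤ ε₂ * (S ^ n / S ^ 2) := by positivity
    linarith
  · obtain ⟨i1, hg⟩ := gram_rep (n := n) hOo (hbI a) (hbI c) (hHI a) (hHI c) hσ0 (hbm a) (hbm c)
      (hd a) (hd c)
    have e : ∫ z in ball q (S / 3), |mGam n (fun x => χ x * H a x) (fun x => χ x * H c x) z -
          if a = c then 1 else 0| ∂(μHE[n] : Measure M) =
        ∫ z in ball q (S / 3), |⟪Gr (n := n) (H a) z, Gr (n := n) (H c) z⟫ -
          if a = c then 1 else 0| ∂(μHE[n] : Measure M) := by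
      refine setIntegral_congr_fun measurableSet_ball fun z hz => ?_
      show |mGam n (fun x => χ x * H a x) (fun x => χ x * H c x) z - if a = c then 1 else 0| = _
      rw [mGam_congr (hev a z (hss hz)) (hev c z (hss hz)), Bs84.inner_Gr_eq]
    rw [e]
    have i2 : IntegrableOn (fun z => ⟪Gr (n := n) (b a) z, Gr (n := n) (b c) z⟫ -
        if a = c then (1:ℝ) else 0) O (μHE[n] : Measure M) := by
      have := hiO ((hcG a c).sub (continuous_const (y := if a = c then (1:ℝ) else 0)))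
      refine this.congr_fun (fun z hz => ?_) hOm
      show mGam n (b a) (b c) z - (if a = c then (1:ℝ) else 0) = _
      rw [Bs84.inner_Gr_eq]
    have i3 : IntegrableOn (fun z => |⟪Gr (n := n) (H a) z, Gr (n := n) (H c) z⟫ -
        if a = c then (1:ℝ) else 0|) O (μHE[n] : Measure M) := by
      have h1 : IntegrableOn (fun z => |(⟪Gr (n := n) (H a) z, Gr (n := n) (H c) z⟫ -
        ⟪Gr (n := n) (b a) z, Gr (n := n) (b c) z⟫) + (⟪Gr (n := n) (b a) z, Gr (n := n) (b c) z⟫ -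
        if a = c then (1:ℝ) else 0)|) O (μHE[n] : Measure M) := (i1.add i2).abs
      refine h1.congr_fun (fun z hz => ?_) hOm
      simp only [sub_add_sub_cancel]
    calc ∫ z in ball q (S / 3), |⟪Gr (n := n) (H a) z, Gr (n := n) (H c) z⟫ -
          if a = c then 1 else 0| ∂(μHE[n] : Measure M)
        ≤ ∫ z in O, |⟪Gr (n := n) (H a) z, Gr (n := n) (H c) z⟫ -
          if a = c then 1 else 0| ∂(μHE[n] : Measure M) :=
          setIntegral_mono_set i3 (Eventually.of_forall fun z => abs_nonneg _) hsO.eventuallyLE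
      _ ≤ ∫ z in O, (|⟪Gr (n := n) (H a) z, Gr (n := n) (H c) z⟫ -
            ⟪Gr (n := n) (b a) z, Gr (n := n) (b c) z⟫| +
            |⟪Gr (n := n) (b a) z, Gr (n := n) (b c) z⟫ - if a = c then 1 else 0|)
            ∂(μHE[n] : Measure M) := by
          refine integral_mono i3 (i1.abs.add i2.abs) fun z => ?_
          exact abs_sub_le _ _ _
      _ = ∫ z in O, |⟪Gr (n := n) (H a) z, Gr (n := n) (H c) z⟫ -
            ⟪Gr (n := n) (b a) z, Gr (n := n) (b c) z⟫| ∂(μHE[n] : Measure M) +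
            ∫ z in O, |mGam n (b a) (b c) z - if a = c then 1 else 0|
            ∂(μHE[n] : Measure M) := by
          rw [integral_add i1.abs i2.abs]
          simp only [Bs84.inner_Gr_eq]
      _ ≤ (σ * ((2 * om n + ε') * S ^ n) + (1 / σ + 1) * (P₁ * ε' * S ^ n)) + ε' * S ^ n :=
          add_le_add hg (hbG' a c)
      _ = (2 * om n * σ + (1 / σ + 1) * P₁ * ε' + (1 + σ) * ε') * S ^ n := by ring
      _ ≤ ε₂ * S ^ n := by
          have : (1 + σ) * ε' ≤ ε₂ / 3 := by nlinarith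
          gcongr
          linarith
      _ = ε * (S / 3) ^ n := by
          rw [hε₂, div_pow]
          field_simp

end Crest.Agent.R249.Sta8_397
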