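import Crest.Agent.R247.Bo8_84
import Crest.Agent.R249.StaD_509

/-!
# R249, D3-START (4) SUP (helper509): one sided gradient bound for harmonic functions

`subharmonic` : `Ric ≥ 0`, `u` smooth with `Δu = 0` on the open set `U` ⇒ `|∇u|² - 1` is subharmonic on `U`.
`sup_le` : from the `L¹` mean value inequality `MV1+` (helper982): if
`∫_{ball q s} |mGam u u - 1| ≤ ε s^n` then `mGam u u ≤ 1 + C ε` on `ball q (s/2)`.
Matrix form (`mat_le`, `abs_mGam_le`) for `u : Fin m → M → ℝ`.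
-/

set_option autoImplicit false
set_option maxSynthPendingDepth 3
set_option linter.unusedSectionVars false

open Bundle Set MeasureTheory Manifold Filter Metric Topology
open scoped ENNReal ContDiff Topology NNReal RealInnerProductSpace
open Crest.GeometryTopology.CoordMetric Crest.GeometryTopology.ChartCurvature
open Crest.GeometryTopology.PointedLimit
open Crest.Agent.R247 Crest.Agent.R247.Ms322 Crest.Agent.R247.Mcp688 Crest.Agent.R247.Bo84
open Crest.Agent.R247.Dir593.GradS (IsT)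

noncomputable section
namespace Crest.Agent.R249.StaS_509

universe u
variable {n : ℕ} {M : Type u} [MetricSpace M] [CompleteSpace M] [ConnectedSpace M]
  [ChartedSpace (EuclideanSpace ℝ (Fin n)) M]
  [IsManifold 𝓘(ℝ, EuclideanSpace ℝ (Fin n)) ∞ M]
  [RiemannianBundle (fun x : M => TangentSpace 𝓘(ℝ, EuclideanSpace ℝ (Fin n)) x)]
  [IsContMDiffRiemannianBundle 𝓘(ℝ, EuclideanSpace ℝ (Fin n)) ∞ (EuclideanSpace ℝ (Fin n))
    (fun x : M => TangentSpace 𝓘(ℝ, EuclideanSpace ℝ (Fin n)) x)]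
  [IsRiemannianManifold 𝓘(ℝ, EuclideanSpace ℝ (Fin n)) M]
  [MeasurableSpace M] [BorelSpace M] [SecondCountableTopology M] [Nonempty M]

local notation "μM" => (μHE[n] : Measure M)
local notation "𝓘E" => 𝓘(ℝ, EuclideanSpace ℝ (Fin n))

variable {U : Set M} {u : M → ℝ} {p : M}

/-- The Bochner inequality for harmonic functions with `Ric ≥ 0`. -/
theorem lap_mGam_ge (hRic : HasRicciLowerBound n M 0) (hU : IsOpen U)
    (hu : ∀ z ∈ U, ContMDiffAt 𝓘E 𝓘(ℝ, ℝ) 3 u z) (hL : ∀ z ∈ U, mLap n u z = 0) (hp : p ∈ U) :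
    2 * mHessSq n u p ≤ mLap n (mGam n u u) p := by
  have h1 := mBochner_ineq hRic (hu p hp)
  have h2 : mGam n u (mLap n u) p = 0 := by
    have h3 : mLap n u =ᶠ[𝓝 p] fun _ => (0:ℝ) := by
      filter_upwards [hU.mem_nhds hp] with z hz using hL z hz
    rw [mGam_congr (n := n) (EventuallyEq.refl _ u) h3, mGam_const_right]
  rw [h2] at h1
  linarith

/-- `|∇u|² - 1` is subharmonic. -/
theorem subharmonic (hRic : HasRicciLowerBound n M 0) (hU : IsOpen U)
    (hu : ∀ z ∈ U, ContMDiffAt 𝓘E 𝓘(ℝ, ℝ) 3 u z) (hL : ∀ z ∈ U, mLap n u z = 0) (c : ℝ)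
    (hp : p ∈ U) :
    ContMDiffAt 𝓘E 𝓘(ℝ, ℝ) 2 (fun z => mGam n u u z - c) p ∧
      2 * mHessSq n u p ≤ mLap n (fun z => mGam n u u z - c) p := by
  have h1 : ContMDiffAt 𝓘E 𝓘(ℝ, ℝ) 2 (mGam n u u) p :=
    contMDiffAt_mGam (hu p hp) (hu p hp) (by norm_num) three_le_infty
  have h2 : ContMDiffAt 𝓘E 𝓘(ℝ, ℝ) 2 (fun _ : M => c) p := contMDiffAt_const
  refine ⟨h1.sub h2, ?_⟩
  rw [mLap_sub h1 h2, mLap_const, sub_zero]
  exact lap_mGam_ge hRic hU hu hL hp

/-- the abstract `L¹` mean value inequality on `ball q s ⊆ ball q (s/2)` with open set `U`. -/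
def MV (n : ℕ) {M : Type u} [MetricSpace M] [ChartedSpace (EuclideanSpace ℝ (Fin n)) M]
    [IsManifold 𝓘(ℝ, EuclideanSpace ℝ (Fin n)) ∞ M]
    [RiemannianBundle (fun x : M => TangentSpace 𝓘(ℝ, EuclideanSpace ℝ (Fin n)) x)]
    [MeasurableSpace M] [BorelSpace M]
    (U : Set M) (q : M) (s C : ℝ) : Prop :=
  ∀ f : M → ℝ, (∀ z ∈ U, ContMDiffAt 𝓘(ℝ, EuclideanSpace ℝ (Fin n)) 𝓘(ℝ, ℝ) 2 f z) →
    (∀ z ∈ U, 0 ≤ mLap n f z) → ∀ x ∈ ball q (s / 2),
      f x ≤ C * ((s ^ n)⁻¹ * ∫ z in ball q s, max (f z) 0 ∂(μHE[n] : Measure M))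

/-- **SUP** : `|∇u|² ≤ 1 + C ε` on the half ball. -/
theorem sup_le (hRic : HasRicciLowerBound n M 0) {q : M} {s C ε : ℝ} (hs : 0 < s) (hC : 0 ≤ C)
    (hU : IsOpen U) (hmv : MV n U q s C)
    (hu : ∀ z ∈ U, ContMDiffAt 𝓘E 𝓘(ℝ, ℝ) 3 u z) (hL : ∀ z ∈ U, mLap n u z = 0)
    (hi : IntegrableOn (fun z => |mGam n u u z - 1|) (ball q s) μM)
    (hε : ∫ z in ball q s, |mGam n u u z - 1| ∂μM ≤ ε * s ^ n) {x : M} (hx : x ∈ ball q (s / 2)) :
    mGam n u u x ≤ 1 + C * ε := by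
  have h1 := hmv (fun z => mGam n u u z - 1) (fun z hz => (subharmonic hRic hU hu hL 1 hz).1)
    (fun z hz => by
      have h2 := (subharmonic hRic hU hu hL 1 hz).2
      have h3 := mHessSq_nonneg ((hu z hz).of_le (show (2 : WithTop ℕ∞) ≤ 3 by norm_num))
      linarith) x hx
  have h2 : ∫ z in ball q s, max (mGam n u u z - 1) 0 ∂μM ≤
      ∫ z in ball q s, |mGam n u u z - 1| ∂μM := by
    refine integral_mono_of_nonneg (Eventually.of_forall fun z => le_max_right _ _) hi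
      (Eventually.of_forall fun z => ?_)
    exact max_le (le_abs_self _) (abs_nonneg _)
  have h3 : (s ^ n)⁻¹ * ∫ z in ball q s, max (mGam n u u z - 1) 0 ∂μM ≤ ε := by
    have hsn : 0 < s ^ n := pow_pos hs n
    rw [inv_mul_le_iff₀ hsn]
    linarith [h2.trans hε]
  have h4 : C * ((s ^ n)⁻¹ * ∫ z in ball q s, max (mGam n u u z - 1) 0 ∂μM) ≤ C * ε := by gcongr
  linarith

/-! ### linear combinations -/

section lin
variable {ι : Type*} {v : ι → M → ℝ}

theorem contMDiffAt_lin {k : WithTop ℕ∞} (t : Finset ι) (ξ : ι → ℝ)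
    (hv : ∀ a ∈ t, ContMDiffAt 𝓘E 𝓘(ℝ, ℝ) k (v a) p) :
    ContMDiffAt 𝓘E 𝓘(ℝ, ℝ) k (fun z => ∑ a ∈ t, ξ a * v a z) p := by
  refine ContMDiffAt.sum fun a ha => ?_
  have h1 : ContMDiffAt 𝓘E 𝓘(ℝ, ℝ) k (fun _ : M => ξ a) p := contMDiffAt_const
  exact h1.mul (hv a ha)

theorem mGam_lin_left (t : Finset ι) (ξ : ι → ℝ) (h : M → ℝ)
    (hv : ∀ a ∈ t, ContMDiffAt 𝓘E 𝓘(ℝ, ℝ) 1 (v a) p) :
    mGam n (fun z => ∑ a ∈ t, ξ a * v a z) h p = ∑ a ∈ t, ξ a * mGam n (v a) h p := by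
  classical
  induction t using Finset.induction_on with
  | empty => simp [mGam_const_left]
  | insert a t ha ih =>
    have h1 : ContMDiffAt 𝓘E 𝓘(ℝ, ℝ) 1 (fun z => ξ a * v a z) p := by
      have h1 : ContMDiffAt 𝓘E 𝓘(ℝ, ℝ) 1 (fun _ : M => ξ a) p := contMDiffAt_const
      exact h1.mul (hv a (Finset.mem_insert_self a t))
    have h2 := contMDiffAt_lin (p := p) t ξ fun b hb => hv b (Finset.mem_insert_of_mem hb)
    have e : (fun z => ∑ b ∈ insert a t, ξ b * v b z) =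
        fun z => ξ a * v a z + ∑ b ∈ t, ξ b * v b z := by
      ext z; rw [Finset.sum_insert ha]
    rw [e, mGam_add_left (h1.mdifferentiableAt one_ne_zero) (h2.mdifferentiableAt one_ne_zero),
      mGam_const_mul_left _ ((hv a (Finset.mem_insert_self a t)).mdifferentiableAt one_ne_zero),
      ih fun b hb => hv b (Finset.mem_insert_of_mem hb), Finset.sum_insert ha]

theorem mLap_lin (t : Finset ι) (ξ : ι → ℝ)
    (hv : ∀ a ∈ t, ContMDiffAt 𝓘E 𝓘(ℝ, ℝ) 2 (v a) p) :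
    mLap n (fun z => ∑ a ∈ t, ξ a * v a z) p = ∑ a ∈ t, ξ a * mLap n (v a) p := by
  classical
  induction t using Finset.induction_on with
  | empty => simp [mLap_const]
  | insert a t ha ih =>
    have h1 : ContMDiffAt 𝓘E 𝓘(ℝ, ℝ) 2 (fun z => ξ a * v a z) p := by
      have h1 : ContMDiffAt 𝓘E 𝓘(ℝ, ℝ) 2 (fun _ : M => ξ a) p := contMDiffAt_const
      exact h1.mul (hv a (Finset.mem_insert_self a t))
    have h2 := contMDiffAt_lin (p := p) t ξ fun b hb => hv b (Finset.mem_insert_of_mem hb)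
    have e : (fun z => ∑ b ∈ insert a t, ξ b * v b z) =
        fun z => ξ a * v a z + ∑ b ∈ t, ξ b * v b z := by
      ext z; rw [Finset.sum_insert ha]
    rw [e, mLap_add h1 h2, mLap_const_mul _ (hv a (Finset.mem_insert_self a t)),
      ih fun b hb => hv b (Finset.mem_insert_of_mem hb), Finset.sum_insert ha]

theorem mGam_lin_self (t : Finset ι) (ξ : ι → ℝ)
    (hv : ∀ a ∈ t, ContMDiffAt 𝓘E 𝓘(ℝ, ℝ) 1 (v a) p) :
    mGam n (fun z => ∑ a ∈ t, ξ a * v a z) (fun z => ∑ a ∈ t, ξ a * v a z) p =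
      ∑ a ∈ t, ∑ b ∈ t, ξ a * ξ b * mGam n (v a) (v b) p := by
  rw [mGam_lin_left t ξ _ hv]
  refine Finset.sum_congr rfl fun a ha => ?_
  rw [mGam_comm, mGam_lin_left t ξ _ hv, Finset.mul_sum]
  refine Finset.sum_congr rfl fun b hb => ?_
  rw [mGam_comm (v b) (v a)]
  ring

end lin

/-! ### matrix form -/

section mat
variable {m : ℕ} {v : Fin m → M → ℝ}

/-- **SUP, matrix form** : the Gram matrix is `≤ (1 + C ε) Id` on the half ball. -/
theorem mat_le (hRic : HasRicciLowerBound n M 0) {q : M} {s C ε : ℝ} (hs : 0 < s) (hC : 0 ≤ C)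
    (hU : IsOpen U) (hsU : ball q s ⊆ U) (hmv : MV n U q s C)
    (hv : ∀ a, ∀ z ∈ U, ContMDiffAt 𝓘E 𝓘(ℝ, ℝ) 3 (v a) z)
    (hL : ∀ a, ∀ z ∈ U, mLap n (v a) z = 0)
    (hi : ∀ a b, IntegrableOn (fun z => |mGam n (v a) (v b) z - if a = b then 1 else 0|)
      (ball q s) μM)
    (hε : ∑ a, ∑ b, ∫ z in ball q s, |mGam n (v a) (v b) z - if a = b then 1 else 0| ∂μM ≤
      ε * s ^ n) {x : M} (hx : x ∈ ball q (s / 2)) (ξ : Fin m → ℝ) (hξ : ∑ a, ξ a ^ 2 = 1) :
    ∑ a, ∑ b, ξ a * ξ b * mGam n (v a) (v b) x ≤ 1 + C * ε := by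
  have hξ1 : ∀ a, |ξ a| ≤ 1 := by
    intro a
    have h1 : ξ a ^ 2 ≤ 1 := by
      rw [← hξ]
      exact Finset.single_le_sum (f := fun a => ξ a ^ 2) (fun b _ => sq_nonneg _)
        (Finset.mem_univ a)
    exact abs_le_one_iff_mul_self_le_one.2 (by nlinarith)
  have hone : (1 : WithTop ℕ∞) ≤ 3 := by norm_num
  have hpt : ∀ z ∈ U, |mGam n (fun z => ∑ a, ξ a * v a z) (fun z => ∑ a, ξ a * v a z) z - 1| ≤
      ∑ a, ∑ b, |mGam n (v a) (v b) z - if a = b then 1 else 0| := by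
    intro z hz
    rw [mGam_lin_self Finset.univ ξ fun a _ => (hv a z hz).of_le hone]
    have e1 : (∑ a, ∑ b, ξ a * ξ b * (if a = b then (1:ℝ) else 0)) = 1 := by
      have h0 : ∀ a, ∑ b, ξ a * ξ b * (if a = b then (1:ℝ) else 0) = ξ a ^ 2 := by
        intro a
        simp [sq]
      simp only [h0]
      exact hξ
    have e2 : (∑ a, ∑ b, ξ a * ξ b * mGam n (v a) (v b) z) - 1 =
        ∑ a, ∑ b, ξ a * ξ b * (mGam n (v a) (v b) z - if a = b then (1:ℝ) else 0) := by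
      rw [← e1]
      simp only [mul_sub, Finset.sum_sub_distrib, e1]
    rw [e2]
    refine (Finset.abs_sum_le_sum_abs _ _).trans (Finset.sum_le_sum fun a _ => ?_)
    refine (Finset.abs_sum_le_sum_abs _ _).trans (Finset.sum_le_sum fun b _ => ?_)
    rw [abs_mul, abs_mul]
    exact mul_le_of_le_one_left (abs_nonneg _) (mul_le_one₀ (hξ1 a) (abs_nonneg _) (hξ1 b))
  have hi' : IntegrableOn (fun z => ∑ a, ∑ b, |mGam n (v a) (v b) z - if a = b then 1 else 0|)
      (ball q s) μM :=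
    integrable_finsetSum _ fun a _ => integrable_finsetSum _ fun b _ => hi a b
  have hv' : ∀ z ∈ U, ContMDiffAt 𝓘E 𝓘(ℝ, ℝ) 3 (fun z => ∑ a, ξ a * v a z) z := fun z hz =>
    contMDiffAt_lin Finset.univ ξ fun a _ => hv a z hz
  have hm : AEStronglyMeasurable (fun z => |mGam n (fun z => ∑ a, ξ a * v a z)
      (fun z => ∑ a, ξ a * v a z) z - 1|) (Measure.restrict μM (ball q s)) := by
    refine ContinuousOn.aestronglyMeasurable (fun z hz => ?_) isOpen_ball.measurableSet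
    refine ContinuousAt.continuousWithinAt ?_
    have h1 : ContMDiffAt 𝓘E 𝓘(ℝ, ℝ) 2 (mGam n (fun z => ∑ a, ξ a * v a z)
        (fun z => ∑ a, ξ a * v a z)) z :=
      contMDiffAt_mGam (hv' z (hsU hz)) (hv' z (hsU hz)) (by norm_num) three_le_infty
    exact (h1.continuousAt.sub continuousAt_const).abs
  have hi2 : IntegrableOn (fun z => |mGam n (fun z => ∑ a, ξ a * v a z)
      (fun z => ∑ a, ξ a * v a z) z - 1|) (ball q s) μM := by
    refine Integrable.mono' hi' hm ?_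
    refine (ae_restrict_mem isOpen_ball.measurableSet).mono fun z hz => ?_
    rw [Real.norm_eq_abs, abs_abs]
    exact hpt z (hsU hz)
  have h1 := sup_le (u := fun z => ∑ a, ξ a * v a z) hRic hs hC hU hmv hv' (fun z hz => by
    rw [mLap_lin Finset.univ ξ fun a _ => (hv a z hz).of_le (by norm_num)]
    exact Finset.sum_eq_zero fun a _ => by rw [hL a z hz, mul_zero]) hi2 (by
      refine le_trans ?_ hε
      refine (setIntegral_mono_on hi2 hi' isOpen_ball.measurableSet fun z hz =>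
        hpt z (hsU hz)).trans ?_
      rw [integral_finsetSum _ fun a _ => integrable_finsetSum _ fun b _ => hi a b]
      refine Finset.sum_le_sum fun a _ => ?_
      rw [integral_finsetSum _ fun b _ => hi a b]) hx
  have hxU : x ∈ U := hsU (ball_subset_ball (by linarith) hx)
  rwa [mGam_lin_self Finset.univ ξ fun a _ => (hv a x hxU).of_le hone] at h1

/-- entries of the Gram matrix are bounded by `1 + C ε` on the half ball. -/
theorem abs_mGam_le (hRic : HasRicciLowerBound n M 0) {q : M} {s C ε : ℝ} (hs : 0 < s) (hC : 0 ≤ C)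
    (hU : IsOpen U) (hsU : ball q s ⊆ U) (hmv : MV n U q s C)
    (hv : ∀ a, ∀ z ∈ U, ContMDiffAt 𝓘E 𝓘(ℝ, ℝ) 3 (v a) z)
    (hL : ∀ a, ∀ z ∈ U, mLap n (v a) z = 0)
    (hi : ∀ a b, IntegrableOn (fun z => |mGam n (v a) (v b) z - if a = b then 1 else 0|)
      (ball q s) μM)
    (hε : ∑ a, ∑ b, ∫ z in ball q s, |mGam n (v a) (v b) z - if a = b then 1 else 0| ∂μM ≤
      ε * s ^ n) {x : M} (hx : x ∈ ball q (s / 2)) (a b : Fin m) :
    |mGam n (v a) (v b) x| ≤ 1 + C * ε := by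
  have hd : ∀ c, mGam n (v c) (v c) x ≤ 1 + C * ε := by
    intro c
    have h1 := mat_le hRic hs hC hU hsU hmv hv hL hi hε hx (fun d => if d = c then 1 else 0)
      (by simp)
    simpa using h1
  have h2 : |mGam n (v a) (v b) x| ≤ ‖mgrad n (v a) x‖ * ‖mgrad n (v b) x‖ := by
    rw [mGam_eq_inner]
    exact abs_real_inner_le_norm _ _
  have h3 := hd a
  have h4 := hd b
  rw [mGam_self] at h3 h4
  nlinarith [sq_nonneg (‖mgrad n (v a) x‖ - ‖mgrad n (v b) x‖)]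

end mat

end Crest.Agent.R249.StaS_509
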