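import Crest.Agent.R249.Sta8_397
import Crest.Agent.R249.StaS_509
import Crest.Agent.R249.SobJ_982
import Crest.Agent.R249.ScF_397

/-!
# R249, leaf D3-START (helper397), file 9: **START**

* `mv_of_pin` : the `L¹` mean value inequality (982's `mv1_pos`) on a pinched manifold, `n = 4`;
* `start1` : START at unit scale, with the one-sided gradient bound;
* `start` : START at every scale.
-/

set_option autoImplicit false
set_option maxSynthPendingDepth 3
set_option linter.unusedSectionVars false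
set_option linter.unusedVariables false

open Bundle Bornology Set MeasureTheory Manifold Filter Metric Topology
open scoped ENNReal ContDiff Topology NNReal RealInnerProductSpace
open Crest.GeometryTopology.CoordMetric Crest.GeometryTopology.ChartCurvature
open Crest.GeometryTopology.PointedLimit

noncomputable section

namespace Crest.Agent.R249.Sta9_397

universe u

open Crest.Agent.R247 Crest.Agent.R247.Dir593 Crest.Agent.R247.Dir593.GradS
open Crest.Agent.R247.Hes124 Crest.Agent.R247.Bo84 Crest.Agent.R247.Ms322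
open Crest.Agent.R249.Sta1_397 Crest.Agent.R249.Sta6_397 Crest.Agent.R249.Sta7_397
open Crest.Agent.R247.Fd656

/-- `Λ` of the lower volume bounds -/
def Lam : ℝ := 2 + 2 * (16 * om 4 + 1) / om 4

lemma two_le_Lam : 2 ≤ Lam := by
  have := om_pos 4
  unfold Lam
  have : 0 ≤ 2 * (16 * om 4 + 1) / om 4 := by positivity
  linarith

lemma Lam_spec : 16 * om 4 + 1 ≤ om 4 / 2 * Lam ^ 4 := by
  have h0 := om_pos 4
  have h1 : 2 * (16 * om 4 + 1) / om 4 ≤ Lam := by
    unfold Lam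
    linarith
  have h2 : Lam ≤ Lam ^ 4 := by
    have := two_le_Lam
    calc Lam = Lam ^ 1 := (pow_one _).symm
      _ ≤ Lam ^ 4 := pow_le_pow_right₀ (by linarith) (by norm_num)
  have h3 : 2 * (16 * om 4 + 1) / om 4 ≤ Lam ^ 4 := h1.trans h2
  rw [div_le_iff₀ h0] at h3
  linarith

/-- the constant of the mean value inequality -/
def Cmv : ℝ := 4096 * SobI_982.CM 0 (om 4) Lam 1 ^ 2

lemma Cmv_nonneg : 0 ≤ Cmv := by unfold Cmv; positivity

lemma CM_zero (om Λ r : ℝ) : SobI_982.CM 0 om Λ r = SobI_982.CM 0 om Λ 1 := by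
  simp [SobI_982.CM, SobG_982.KS]

section blk
variable {M : Type u} [MetricSpace M] [CompleteSpace M] [ConnectedSpace M]
    [ChartedSpace (EuclideanSpace ℝ (Fin 4)) M]
    [IsManifold 𝓘(ℝ, EuclideanSpace ℝ (Fin 4)) ∞ M]
    [RiemannianBundle (fun x : M => TangentSpace 𝓘(ℝ, EuclideanSpace ℝ (Fin 4)) x)]
    [IsContMDiffRiemannianBundle 𝓘(ℝ, EuclideanSpace ℝ (Fin 4)) ∞ (EuclideanSpace ℝ (Fin 4))
      (fun x : M => TangentSpace 𝓘(ℝ, EuclideanSpace ℝ (Fin 4)) x)]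
    [IsRiemannianManifold 𝓘(ℝ, EuclideanSpace ℝ (Fin 4)) M]
    [MeasurableSpace M] [BorelSpace M]

/-- upper volume bound, `Ric ≥ 0` -/
theorem vol_up (hk : HasRicciLowerBound 4 M 0) (y : M) (s : ℝ) :
    (μHE[4] : Measure M) (ball y s) ≤ ENNReal.ofReal (om 4 * s ^ 4) := by
  have hk' : HasRicciLowerBound 4 M (-0) := by rwa [neg_zero]
  obtain ⟨C⟩ := Bgr546.rad_all 4 0 le_rfl M hk'
  have := HR216.properSpace_of_riemannian 4 M
  have := HR216.secondCountable_of_riemannian 4 M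
  have := Gs939.finOnCompacts (n := 4) (M := M)
  refine (measure_mono ball_subset_closedBall).trans ((closedBall_le_om C le_rfl y s).trans ?_)
  apply ENNReal.ofReal_le_ofReal
  rw [zero_mul, zero_div, Real.exp_zero, one_mul, mul_comm]

/-- the mean value inequality on a pinched manifold -/
theorem mv_of_pin (hk : HasRicciLowerBound 4 M 0) {q : M} {R : ℝ}
    (hp : ∀ x ∈ ball q R, ∀ r : ℝ, 0 < r → r ≤ R →
      ENNReal.ofReal (1 / 2) * volume (ball (0 : EuclideanSpace ℝ (Fin 4)) r) ≤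
        (μHE[4] : Measure M) (ball x r)) {U : Set M} (hU : IsOpen U) {s : ℝ} (hs : 0 < s)
    (hsR : Lam * s ≤ R) (hsU : closedBall q s ⊆ U) : StaS_509.MV 4 U q s Cmv := by
  have hk' : HasRicciLowerBound 4 M (-0) := by rwa [neg_zero]
  obtain ⟨C⟩ := Bgr546.rad_all 4 0 le_rfl M hk'
  have hL := two_le_Lam
  have hsR' : s ≤ R := by nlinarith
  intro f hf hfL x hx
  have h := SobJ_982.mv1_pos C le_rfl (om_pos 4).le (fun y s _ => vol_up hk y s) (x0 := q)
    (r := s) (Λ := Lam) (v := om 4 / 2) hs hL Lam_spec (fun y hy t ht hts => by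
      have h1 : Lam * t ≤ R := by nlinarith
      have h2 := hp y (ball_subset_ball hsR' hy) (Lam * t) (by positivity) h1
      refine le_trans (le_of_eq ?_) h2
      rw [vol_ball 4 (by positivity), ← ENNReal.ofReal_mul (by norm_num)]
      congr 1
      ring) hU hsU hf hfL hx
  rw [CM_zero] at h
  refine h.trans (le_of_eq ?_)
  unfold Cmv
  rw [div_eq_inv_mul]

end blk

set_option maxHeartbeats 1000000 in
/-- **START at unit scale**, with the one-sided gradient bound (`n = 4`, `Ric ≥ 0`). -/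
theorem start1 {ε : ℝ} (hε : 0 < ε) : ∃ s : ℝ, 0 < s ∧ s ≤ 1 / 192 ∧
    ∃ T : ℝ, 50 ≤ T ∧ ∃ δ₀ : ℝ, 0 < δ₀ ∧ δ₀ ≤ 1 / 4096 ∧
    ∀ {M : Type u} [MetricSpace M] [CompleteSpace M]
    [ConnectedSpace M] [ChartedSpace (EuclideanSpace ℝ (Fin 4)) M]
    [IsManifold 𝓘(ℝ, EuclideanSpace ℝ (Fin 4)) ∞ M]
    [RiemannianBundle (fun x : M => TangentSpace 𝓘(ℝ, EuclideanSpace ℝ (Fin 4)) x)]
    [IsContMDiffRiemannianBundle 𝓘(ℝ, EuclideanSpace ℝ (Fin 4)) ∞ (EuclideanSpace ℝ (Fin 4))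
      (fun x : M => TangentSpace 𝓘(ℝ, EuclideanSpace ℝ (Fin 4)) x)]
    [IsRiemannianManifold 𝓘(ℝ, EuclideanSpace ℝ (Fin 4)) M]
    [MeasurableSpace M] [BorelSpace M] {q : M}
    (hk : HasRicciLowerBound 4 M 0)
    (hp : ∀ x ∈ ball q T, ∀ r : ℝ, 0 < r → r ≤ T →
      ENNReal.ofReal (1 - δ₀) * volume (ball (0 : EuclideanSpace ℝ (Fin 4)) r) ≤
        (μHE[4] : Measure M) (ball x r)),
    ∃ u : Fin 4 → M → ℝ, (∀ a, ContMDiff (𝓡 4) 𝓘(ℝ) ∞ (u a)) ∧ (∀ a, HasCompactSupport (u a)) ∧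
      (∀ a, ∀ z ∈ ball q (2 * s), mLap 4 (u a) z = 0) ∧
      (∀ a, ∫ z in ball q s, mHessSq 4 (u a) z ∂(μHE[4] : Measure M) ≤ ε * s ^ 2) ∧
      (∀ a c, ∫ z in ball q s, |mGam 4 (u a) (u c) z - if a = c then 1 else 0|
        ∂(μHE[4] : Measure M) ≤ ε * s ^ 4) ∧
      ∀ z ∈ ball q s, ∀ ξ : Fin 4 → ℝ, ∑ a, ξ a ^ 2 = 1 →
        ∑ a, ∑ c, ξ a * ξ c * mGam 4 (u a) (u c) z ≤ 1 + ε := by
  have hC := Cmv_nonneg
  set ε' : ℝ := min (ε / 16) (ε / (16 * (Cmv + 1))) with hε'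
  have hε'0 : 0 < ε' := by positivity
  have hε'1 : 16 * ε' ≤ ε := by
    have : ε' ≤ ε / 16 := min_le_left _ _
    linarith
  have hε'2 : Cmv * (16 * ε') ≤ ε := by
    have h1 : ε' ≤ ε / (16 * (Cmv + 1)) := min_le_right _ _
    rw [le_div_iff₀ (by positivity)] at h1
    nlinarith
  obtain ⟨S, hS0, hS1, R₁, hR₁, δ₀, hδ₀0, hδ₀1, hsp⟩ := Sta8_397.exists_harm.{u} (n := 4)
    (by norm_num) hε'0
  have hL := two_le_Lam
  refine ⟨S / 2, by positivity, by linarith, max R₁ Lam, hR₁.trans (le_max_left _ _), δ₀, hδ₀0,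
    hδ₀1, ?_⟩
  intro M _ _ _ _ _ _ _ _ _ _ q hk hp
  have := HR216.properSpace_of_riemannian 4 M
  have := HR216.secondCountable_of_riemannian 4 M
  have : Nonempty M := ⟨q⟩
  have := Gs939.finOnCompacts (n := 4) (M := M)
  have hk' : HasRicciLowerBound 4 M (-δ₀) := Asm951.ricci_mono (by linarith) hk
  have hp1 : Pin 4 δ₀ q R₁ 40 := fun x hx r hr hr1 =>
    hp x (ball_subset_ball (le_max_left _ _) hx) r hr (by
      have := le_max_left R₁ Lam
      linarith)
  obtain ⟨u, hus, huc, huL, huH, huG⟩ := hsp hδ₀0 le_rfl hk' hp1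
  set U : Set M := ball q (3 / 2 * S) with hU
  have hUo : IsOpen U := isOpen_ball
  have hSU : closedBall q S ⊆ U := closedBall_subset_ball (by linarith)
  have hmv : StaS_509.MV 4 U q S Cmv := by
    refine mv_of_pin hk (R := max R₁ Lam) (fun x hx r hr hr1 => ?_) hUo hS0 ?_ hSU
    · refine le_trans ?_ (hp x hx r hr hr1)
      gcongr
      linarith
    · have := le_max_right R₁ Lam
      nlinarith
  have hcG : ∀ a c, Continuous (mGam 4 (u a) (u c)) := fun a c => by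
    rw [← continuousOn_univ]
    exact cont_mGam isOpen_univ (hus a).contMDiffOn (hus c).contMDiffOn
  have hcH : ∀ a, Continuous (mHessSq 4 (u a)) := fun a => by
    rw [← continuousOn_univ]
    exact cont_mHessSq isOpen_univ (hus a).contMDiffOn
  have hiO : ∀ {f : M → ℝ}, Continuous f → IntegrableOn f (ball q S) (μHE[4] : Measure M) :=
    fun hf => (hf.continuousOn.integrableOn_compact (isCompact_closedBall q S)).mono_set
      ball_subset_closedBall
  have hsub : ball q (S / 2) ⊆ ball q S := ball_subset_ball (by linarith)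
  have hi : ∀ a c, IntegrableOn (fun z => |mGam 4 (u a) (u c) z - if a = c then (1:ℝ) else 0|)
      (ball q S) (μHE[4] : Measure M) := fun a c => hiO ((hcG a c).sub continuous_const).abs
  refine ⟨u, hus, huc, fun a z hz => huL a z (ball_subset_ball (by linarith) hz), fun a => ?_,
    fun a c => ?_, fun z hz ξ hξ => ?_⟩
  · calc ∫ z in ball q (S / 2), mHessSq 4 (u a) z ∂(μHE[4] : Measure M)
        ≤ ∫ z in ball q S, mHessSq 4 (u a) z ∂(μHE[4] : Measure M) :=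
          setIntegral_mono_set (hiO (hcH a)) (Eventually.of_forall fun z => by
            show 0 ≤ mHessSq 4 (u a) z
            rw [← Bs84.norm_Hf_sq ((hus a z).of_le two_le_infty)]
            positivity) hsub.eventuallyLE
      _ ≤ ε' * S ^ 4 / S ^ 2 := huH a
      _ = 4 * ε' * (S / 2) ^ 2 := by field_simp; ring
      _ ≤ ε * (S / 2) ^ 2 := by
          gcongr
          linarith
  · calc ∫ z in ball q (S / 2), |mGam 4 (u a) (u c) z - if a = c then (1:ℝ) else 0|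
          ∂(μHE[4] : Measure M)
        ≤ ∫ z in ball q S, |mGam 4 (u a) (u c) z - if a = c then (1:ℝ) else 0|
          ∂(μHE[4] : Measure M) :=
          setIntegral_mono_set (hi a c) (Eventually.of_forall fun z => abs_nonneg _)
            hsub.eventuallyLE
      _ ≤ ε' * S ^ 4 := huG a c
      _ = 16 * ε' * (S / 2) ^ 4 := by ring
      _ ≤ ε * (S / 2) ^ 4 := by gcongr
  · have h := StaS_509.mat_le hk hS0 hC hUo (ball_subset_closedBall.trans hSU) hmv
      (v := u) (ε := 16 * ε')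
      (fun a z _ => (hus a z).of_le three_le_infty) huL hi (by
        calc ∑ a, ∑ c, ∫ z in ball q S, |mGam 4 (u a) (u c) z - if a = c then (1:ℝ) else 0|
              ∂(μHE[4] : Measure M)
            ≤ ∑ a : Fin 4, ∑ c : Fin 4, ε' * S ^ 4 :=
              Finset.sum_le_sum fun a _ => Finset.sum_le_sum fun c _ => huG a c
          _ = 16 * ε' * S ^ 4 := by
              simp only [Finset.sum_const, Finset.card_univ, Fintype.card_fin, nsmul_eq_mul]
              push_cast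
              ring) hz ξ hξ
    linarith

set_option maxHeartbeats 1000000 in
/-- **START** at every scale (`n = 4`, `Ric ≥ 0`): almost splitting harmonic functions on
`ball q (s R)` from volume pinching on `ball q R` at the scales `≤ R`. -/
theorem start {ε : ℝ} (hε : 0 < ε) : ∃ s : ℝ, 0 < s ∧ s ≤ 1 / 192 ∧
    ∃ δ₀ : ℝ, 0 < δ₀ ∧ δ₀ ≤ 1 / 4096 ∧
    ∀ {M : Type u} [MetricSpace M] [CompleteSpace M]
    [ConnectedSpace M] [ChartedSpace (EuclideanSpace ℝ (Fin 4)) M]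
    [IsManifold 𝓘(ℝ, EuclideanSpace ℝ (Fin 4)) ∞ M]
    [RiemannianBundle (fun x : M => TangentSpace 𝓘(ℝ, EuclideanSpace ℝ (Fin 4)) x)]
    [IsContMDiffRiemannianBundle 𝓘(ℝ, EuclideanSpace ℝ (Fin 4)) ∞ (EuclideanSpace ℝ (Fin 4))
      (fun x : M => TangentSpace 𝓘(ℝ, EuclideanSpace ℝ (Fin 4)) x)]
    [IsRiemannianManifold 𝓘(ℝ, EuclideanSpace ℝ (Fin 4)) M]
    [MeasurableSpace M] [BorelSpace M] {q : M} {R : ℝ} (hR : 0 < R)
    (hk : HasRicciLowerBound 4 M 0)
    (hp : ∀ x ∈ ball q R, ∀ r : ℝ, 0 < r → r ≤ R →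
      ENNReal.ofReal (1 - δ₀) * volume (ball (0 : EuclideanSpace ℝ (Fin 4)) r) ≤
        (μHE[4] : Measure M) (ball x r)),
    ∃ u : Fin 4 → M → ℝ, (∀ a, ContMDiff (𝓡 4) 𝓘(ℝ) ∞ (u a)) ∧ (∀ a, HasCompactSupport (u a)) ∧
      (∀ a, ∀ z ∈ ball q (2 * (s * R)), mLap 4 (u a) z = 0) ∧
      (∀ a, ∫ z in ball q (s * R), mHessSq 4 (u a) z ∂(μHE[4] : Measure M) ≤ ε * (s * R) ^ 2) ∧
      (∀ a c, ∫ z in ball q (s * R), |mGam 4 (u a) (u c) z - if a = c then 1 else 0|
        ∂(μHE[4] : Measure M) ≤ ε * (s * R) ^ 4) ∧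
      ∀ z ∈ ball q (s * R), ∀ ξ : Fin 4 → ℝ, ∑ a, ξ a ^ 2 = 1 →
        ∑ a, ∑ c, ξ a * ξ c * mGam 4 (u a) (u c) z ≤ 1 + ε := by
  obtain ⟨s, hs0, hs1, T, hT, δ₀, hδ₀0, hδ₀1, hst⟩ := start1.{u} hε
  have hT0 : 0 < T := by linarith
  refine ⟨s / T, by positivity, ?_, δ₀, hδ₀0, hδ₀1, ?_⟩
  · rw [div_le_iff₀ hT0]
    nlinarith
  intro M _ _ _ _ _ _ _ _ _ _ q R hR hk hp
  set ρ : {r : ℝ // 0 < r} := ⟨R / T, by positivity⟩ with hρ
  have hρ0 : 0 < ρ.1 := ρ.2
  have hρT : ρ.1 * T = R := by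
    rw [hρ]
    field_simp
  have hsT : s / T * R = ρ.1 * s := by
    rw [hρ]
    field_simp
  have hkS : HasRicciLowerBound 4 (Scal386.Sc ρ M) 0 := by
    have := Scal386.ricciLB_sc ρ hk
    rwa [zero_mul] at this
  have hpS : ∀ x ∈ ball (Scal386.toSc ρ q) T, ∀ r : ℝ, 0 < r → r ≤ T →
      ENNReal.ofReal (1 - δ₀) * volume (ball (0 : EuclideanSpace ℝ (Fin 4)) r) ≤
        (μHE[4] : Measure (Scal386.Sc ρ M)) (ball x r) := by
    intro x hx r hr hrT
    have hx' : Scal386.ofSc ρ x ∈ ball q R := by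
      have : x ∈ ball (Scal386.toSc ρ q) T := hx
      rw [mem_ball, Scal386.dist_sc, inv_mul_lt_iff₀ hρ0, hρT] at this
      exact this
    have h1 := hp (Scal386.ofSc ρ x) hx' (ρ.1 * r) (by positivity) (by
      rw [← hρT]
      gcongr)
    rw [D1Def104.muHE_sc_eq]
    have e1 : (Scal386.toSc ρ ⁻¹' ball x r : Set M) = ball (Scal386.ofSc ρ x) (ρ.1 * r) :=
      ScF_397.toSc_preimage_ball ρ (Scal386.ofSc ρ x) r
    rw [e1]
    refine le_trans (le_of_eq ?_) (mul_le_mul_right h1 (ENNReal.ofReal (ρ.1⁻¹ ^ 4)))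
    have e2 : volume (ball (0 : EuclideanSpace ℝ (Fin 4)) r) = ENNReal.ofReal (ρ.1⁻¹ ^ 4) *
        volume (ball (0 : EuclideanSpace ℝ (Fin 4)) (ρ.1 * r)) := by
      rw [vol_ball 4 hr, vol_ball 4 (mul_pos hρ0 hr), ← ENNReal.ofReal_mul (by positivity)]
      congr 1
      field_simp
    rw [e2, mul_left_comm]
  obtain ⟨v, hvs, hvc, hvL, hvH, hvG, hvM⟩ := hst hkS hpS
  have hvs' : ∀ a, ContMDiff (𝓡 4) 𝓘(ℝ) ∞ (fun y : M => v a (Scal386.toSc ρ y)) :=
    fun a => ScF_397.contMDiff_sc ρ (hvs a)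
  have hv1 : ∀ a z, MDifferentiableAt (𝓡 4) 𝓘(ℝ) (fun y : M => v a (Scal386.toSc ρ y)) z :=
    fun a z => (hvs' a z).mdifferentiableAt (by simp)
  have hv2 : ∀ a z, ContMDiffAt (𝓡 4) 𝓘(ℝ) 2 (fun y : M => v a (Scal386.toSc ρ y)) z :=
    fun a z => (hvs' a z).of_le two_le_infty
  -- the functions
  have eG : ∀ a c z, mGam 4 (fun y : M => ρ.1 * v a (Scal386.toSc ρ y))
      (fun y : M => ρ.1 * v c (Scal386.toSc ρ y)) z = mGam 4 (v a) (v c) (Scal386.toSc ρ z) := by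
    intro a c z
    rw [mGam_const_mul_left _ (hv1 a z), mGam_const_mul_right _ (hv1 c z), ScF_397.mGam_sc]
    have : Scal386.ofSc ρ (Scal386.toSc ρ z) = z := rfl
    rw [this]
    ring
  have eH : ∀ a z, mHessSq 4 (fun y : M => ρ.1 * v a (Scal386.toSc ρ y)) z =
      (ρ.1⁻¹) ^ 2 * mHessSq 4 (v a) (Scal386.toSc ρ z) := by
    intro a z
    have hne : Nonempty M := ⟨z⟩
    have := HR216.secondCountable_of_riemannian 4 M
    rw [Sta5_397.mHessSq_const_mul _ (hv2 a z), ScF_397.mHessSq_sc]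
    have : Scal386.ofSc ρ (Scal386.toSc ρ z) = z := rfl
    rw [this]
    field_simp
  have eL : ∀ a z, mLap 4 (fun y : M => ρ.1 * v a (Scal386.toSc ρ y)) z =
      ρ.1⁻¹ * mLap 4 (v a) (Scal386.toSc ρ z) := by
    intro a z
    rw [mLap_const_mul _ (hv2 a z), ScF_397.mLap_sc]
    have : Scal386.ofSc ρ (Scal386.toSc ρ z) = z := rfl
    rw [this]
    field_simp
  have hmem : ∀ t : ℝ, ∀ z ∈ ball q (ρ.1 * t), Scal386.toSc ρ z ∈ ball (Scal386.toSc ρ q) t := by
    intro t z hz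
    rw [← ScF_397.toSc_preimage_ball] at hz
    exact hz
  rw [hsT]
  refine ⟨fun a y => ρ.1 * v a (Scal386.toSc ρ y), fun a => contMDiff_const.mul (hvs' a),
    fun a => ?_, fun a z hz => ?_, fun a => ?_, fun a c => ?_, fun z hz ξ hξ => ?_⟩
  · have : HasCompactSupport (fun y : M => v a (Scal386.toSc ρ y)) :=
      ScF_397.compactSupport_sc ρ (hvc a)
    exact this.mul_left
  · rw [eL, hvL a _ (hmem (2 * s) z (by rwa [mul_left_comm])), mul_zero]
  · simp only [eH]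
    have h1 := hvH a
    rw [ScF_397.setIntegral_sc] at h1
    rw [integral_const_mul]
    have h2 : ∫ z in ball q (ρ.1 * s), mHessSq 4 (v a) (Scal386.toSc ρ z)
        ∂(μHE[4] : Measure M) ≤ ρ.1 ^ 4 * (ε * s ^ 2) := by
      rw [inv_pow, inv_mul_le_iff₀ (by positivity)] at h1
      exact h1
    calc ρ.1⁻¹ ^ 2 * ∫ z in ball q (ρ.1 * s), mHessSq 4 (v a) (Scal386.toSc ρ z)
          ∂(μHE[4] : Measure M) ≤ ρ.1⁻¹ ^ 2 * (ρ.1 ^ 4 * (ε * s ^ 2)) := by gcongr
      _ = ε * (ρ.1 * s) ^ 2 := by field_simp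
  · simp only [eG]
    have h1 := hvG a c
    rw [ScF_397.setIntegral_sc, inv_pow, inv_mul_le_iff₀ (by positivity)] at h1
    refine h1.trans (le_of_eq ?_)
    ring
  · simp only [eG]
    exact hvM _ (hmem s z hz) ξ hξ

end Crest.Agent.R249.Sta9_397
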