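import Crest.Agent.R247.Ms3_322

/-!
# R249, leaf D3-START (2a) (helper509): the image of a near isometry with almost maximal volume

`X` any metric space with its Borel structure, `F : X → ℝⁿ` a near isometry on `ball q R`
(`|dist (F x) (F z) - dist x z| ≤ η * dist x z`) and
`(1 - δ) ω_n Rⁿ ≤ μHE[n] (ball q R)`.

* `mass` : lower bound of `μHE[n] {x ∈ ball q R | F x ∈ ball y s}` for every ball
  `ball y s ⊆ ball (F q) ((1 + η) R)`;
* `mass_near` : for every `τ ∈ (0, 1]` there is `κ > 0` such that for `η, δ ≤ κ` and all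
  `y ∈ closedBall (F q) R` the set `{x ∈ ball q R | dist (F x) y < τ R}` has measure at least
  `¼ (τ/4)ⁿ ω_n Rⁿ`; `exists_near` : it is not empty;
* `mass_dir` : `{x ∈ ball q R | R/2 < ⟪F x - F q, ξ⟫}` has measure `≥ ¼ 16⁻ⁿ ω_n Rⁿ` for `‖ξ‖ = 1`;
* the same with `c * dist (F x) (F z)` instead of `dist (F x) (F z)` (`c > 0`).
-/

set_option autoImplicit false
set_option linter.unusedSectionVars false
set_option linter.unusedVariables false
open MeasureTheory Set Metric Filter Topology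
open scoped ENNReal NNReal RealInnerProductSpace

noncomputable section
namespace Crest.Agent.R249.StaP_509

section euclid
variable {n : ℕ}
local notation "𝔼" => EuclideanSpace ℝ (Fin n)

theorem vol_ball (y : 𝔼) {s : ℝ} (hs : 0 < s) :
    volume (ball y s) = ENNReal.ofReal (s ^ n) * volume (ball (0 : 𝔼) 1) := by
  rw [Measure.addHaar_ball_of_pos _ y hs, finrank_euclideanSpace_fin]

theorem om_ne_zero : volume (ball (0 : 𝔼) 1) ≠ 0 := (measure_ball_pos _ _ one_pos).ne'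

theorem om_ne_top : volume (ball (0 : 𝔼) 1) ≠ ⊤ := measure_ball_lt_top.ne

end euclid

section main
variable {n : ℕ} {X : Type*} [MetricSpace X] [MeasurableSpace X] [BorelSpace X]
local notation "𝔼" => EuclideanSpace ℝ (Fin n)

theorem lip_up {F : X → 𝔼} {B : Set X} {η : ℝ} (hη : 0 ≤ η)
    (hF : ∀ x ∈ B, ∀ z ∈ B, |dist (F x) (F z) - dist x z| ≤ η * dist x z) :
    LipschitzOnWith (Real.toNNReal (1 + η)) F B := by
  refine LipschitzOnWith.of_dist_le_mul fun x hx z hz => ?_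
  have := (abs_le.1 (hF x hx z hz)).2
  rw [Real.coe_toNNReal _ (by linarith)]
  linarith

theorem le_image {F : X → 𝔼} {B : Set X} {η : ℝ} (hη0 : 0 ≤ η) (hη : η < 1)
    (hF : ∀ x ∈ B, ∀ z ∈ B, |dist (F x) (F z) - dist x z| ≤ η * dist x z) :
    ENNReal.ofReal ((1 - η) ^ n) * μHE[n] B ≤ volume (F '' B) := by
  classical
  have h1 : 0 < 1 - η := by linarith
  have hexp : ∀ x ∈ B, ∀ z ∈ B, (1 - η) * dist x z ≤ dist (F x) (F z) := by
    intro x hx z hz
    have := (abs_le.1 (hF x hx z hz)).1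
    linarith
  have hinj : InjOn F B := by
    intro x hx z hz h
    have := hexp x hx z hz
    rw [h, dist_self] at this
    have h2 : dist x z ≤ 0 := by
      by_contra h3
      push Not at h3
      have := mul_pos h1 h3
      linarith
    exact dist_le_zero.1 h2
  rcases B.eq_empty_or_nonempty with hB | ⟨b, hb⟩
  · subst hB; simp
  have : Nonempty X := ⟨b⟩
  let g : 𝔼 → X := Function.invFunOn F B
  have hg : ∀ x ∈ B, g (F x) = x := fun x hx => hinj.leftInvOn_invFunOn hx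
  have hlip : LipschitzOnWith (Real.toNNReal (1 - η)⁻¹) g (F '' B) := by
    refine LipschitzOnWith.of_dist_le_mul ?_
    rintro _ ⟨x, hx, rfl⟩ _ ⟨z, hz, rfl⟩
    rw [hg x hx, hg z hz, Real.coe_toNNReal _ (inv_nonneg.2 h1.le)]
    have := hexp x hx z hz
    rw [inv_mul_eq_div, le_div_iff₀ h1]
    linarith
  have himg : g '' (F '' B) = B := by
    rw [image_image]
    ext z
    constructor
    · rintro ⟨x, hx, rfl⟩
      show g (F x) ∈ B
      rw [hg x hx]; exact hx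
    · intro hz
      exact ⟨z, hz, hg z hz⟩
  have h2 := R247.Ms322.muHE_image_le (n := n) hlip
  rw [himg, EuclideanSpace.euclideanHausdorffMeasure_eq_volume] at h2
  calc ENNReal.ofReal ((1 - η) ^ n) * μHE[n] B
      ≤ ENNReal.ofReal ((1 - η) ^ n) *
        (((Real.toNNReal (1 - η)⁻¹ : ℝ≥0) : ℝ≥0∞) ^ n * volume (F '' B)) := by gcongr
    _ = volume (F '' B) := by
      rw [← mul_assoc]
      have e : ((Real.toNNReal (1 - η)⁻¹ : ℝ≥0) : ℝ≥0∞) = ENNReal.ofReal (1 - η)⁻¹ := rfl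
      rw [e, ← ENNReal.ofReal_pow (inv_nonneg.2 h1.le), ← ENNReal.ofReal_mul (by positivity),
        inv_pow, mul_inv_cancel₀ (by positivity), ENNReal.ofReal_one, one_mul]

theorem mass {F : X → 𝔼} {q : X} {R η δ : ℝ} (hR : 0 < R) (hη0 : 0 ≤ η) (hη : η < 1)
    (hδ0 : 0 ≤ δ) (hδ : δ ≤ 1)
    (hF : ∀ x ∈ ball q R, ∀ z ∈ ball q R, |dist (F x) (F z) - dist x z| ≤ η * dist x z)
    (hvol : ENNReal.ofReal (1 - δ) * volume (ball (0 : 𝔼) R) ≤ μHE[n] (ball q R))
    {y : 𝔼} {s : ℝ} (hs : 0 < s) (hy : dist y (F q) + s ≤ (1 + η) * R) :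
    ENNReal.ofReal (s ^ n) * volume (ball (0 : 𝔼) 1) ≤
      ENNReal.ofReal (((1 + η) ^ n - (1 - η) ^ n * (1 - δ)) * R ^ n) * volume (ball (0 : 𝔼) 1) +
      ENNReal.ofReal ((1 + η) ^ n) * μHE[n] {x ∈ ball q R | F x ∈ ball y s} := by
  set ω := volume (ball (0 : 𝔼) 1) with hω
  set B := ball q R with hB
  set S := {x ∈ B | F x ∈ ball y s} with hS
  have hq : q ∈ B := mem_ball_self hR
  have hlip := lip_up hη0 hF
  have h1η : 0 < 1 - η := by linarith
  -- (1)
  have s1 : ENNReal.ofReal ((1 - η) ^ n * (1 - δ) * R ^ n) * ω ≤ volume (F '' B) := by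
    refine le_trans ?_ (le_image hη0 hη hF)
    calc ENNReal.ofReal ((1 - η) ^ n * (1 - δ) * R ^ n) * ω
        = ENNReal.ofReal ((1 - η) ^ n) * (ENNReal.ofReal (1 - δ) * volume (ball (0 : 𝔼) R)) := by
          rw [vol_ball _ hR, ENNReal.ofReal_mul (by
            have : 0 ≤ 1 - δ := by linarith
            positivity), ENNReal.ofReal_mul (by positivity)]
          ring
      _ ≤ _ := by gcongr
  -- (2)
  have s2 : volume (F '' B) ≤ volume (F '' S) + volume (F '' (B \ S)) := by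
    have : F '' B ⊆ F '' S ∪ F '' (B \ S) := by
      rw [← image_union]
      exact image_mono (by rw [union_sdiff_self]; exact subset_union_right)
    exact (measure_mono this).trans (measure_union_le _ _)
  -- (3)
  have s3 : volume (F '' (B \ S)) + ENNReal.ofReal (s ^ n) * ω ≤
      ENNReal.ofReal ((1 + η) ^ n * R ^ n) * ω := by
    have h1 : F '' (B \ S) ⊆ ball (F q) ((1 + η) * R) \ ball y s := by
      rintro _ ⟨x, ⟨hx, hxS⟩, rfl⟩
      refine ⟨?_, fun h => hxS ⟨hx, h⟩⟩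
      rw [mem_ball]
      have h2 := (abs_le.1 (hF x hx q hq)).2
      have h3 : dist x q < R := hx
      nlinarith [dist_nonneg (x := x) (y := q)]
    have h2 : ball y s ⊆ ball (F q) ((1 + η) * R) := ball_subset_ball' (by linarith)
    have hpos : 0 < (1 + η) * R := by positivity
    calc volume (F '' (B \ S)) + ENNReal.ofReal (s ^ n) * ω
        ≤ volume (ball (F q) ((1 + η) * R) \ ball y s) + volume (ball y s) := by
          rw [vol_ball y hs]
          gcongr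
      _ = volume (ball (F q) ((1 + η) * R)) := by
          rw [← measure_union disjoint_sdiff_left measurableSet_ball, sdiff_union_of_subset h2]
      _ = _ := by rw [vol_ball _ hpos, mul_pow]
  -- (4)
  have s4 : volume (F '' S) ≤ ENNReal.ofReal ((1 + η) ^ n) * μHE[n] S := by
    have h1 := R247.Ms322.muHE_image_le (n := n) (hlip.mono (show S ⊆ B from fun x hx => hx.1))
    rw [EuclideanSpace.euclideanHausdorffMeasure_eq_volume] at h1
    refine h1.trans (le_of_eq ?_)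
    congr 1
    rw [ENNReal.ofReal_pow (by linarith)]
    rfl
  set A := (1 - η) ^ n * (1 - δ) * R ^ n with hA
  set E := ((1 + η) ^ n - (1 - η) ^ n * (1 - δ)) * R ^ n with hE
  have hA0 : 0 ≤ A := by
    have : 0 ≤ 1 - δ := by linarith
    positivity
  have hE0 : 0 ≤ E := by
    have h1 : (1 - η) ^ n * (1 - δ) ≤ (1 + η) ^ n * 1 := by
      have h2 : 1 - η ≤ 1 + η := by linarith
      have h3 : 1 - δ ≤ 1 := by linarith
      have h4 : 0 ≤ 1 - δ := by linarith
      have h5 : (1 - η) ^ n ≤ (1 + η) ^ n := by gcongr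
      have h6 : 0 ≤ (1 + η) ^ n := by positivity
      exact mul_le_mul h5 h3 h4 h6
    have : 0 ≤ (1 + η) ^ n - (1 - η) ^ n * (1 - δ) := by linarith
    positivity
  have hAE : (1 + η) ^ n * R ^ n = A + E := by rw [hA, hE]; ring
  have hfin : ENNReal.ofReal A * ω ≠ ⊤ := ENNReal.mul_ne_top ENNReal.ofReal_ne_top om_ne_top
  have key : ENNReal.ofReal A * ω + ENNReal.ofReal (s ^ n) * ω ≤
      ENNReal.ofReal A * ω + (ENNReal.ofReal E * ω + ENNReal.ofReal ((1 + η) ^ n) * μHE[n] S) := by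
    calc ENNReal.ofReal A * ω + ENNReal.ofReal (s ^ n) * ω
        ≤ (volume (F '' S) + volume (F '' (B \ S))) + ENNReal.ofReal (s ^ n) * ω := by
          gcongr; exact s1.trans s2
      _ = volume (F '' S) + (volume (F '' (B \ S)) + ENNReal.ofReal (s ^ n) * ω) := by ring
      _ ≤ ENNReal.ofReal ((1 + η) ^ n) * μHE[n] S + ENNReal.ofReal ((1 + η) ^ n * R ^ n) * ω := by
          gcongr
      _ = _ := by
          rw [hAE, ENNReal.ofReal_add hA0 hE0]
          ring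
  exact (ENNReal.add_le_add_iff_left hfin).1 key

/-- choice of the small parameter -/
theorem exists_kappa (n : ℕ) {e : ℝ} (he : 0 < e) :
    ∃ κ : ℝ, 0 < κ ∧ κ ≤ 1 / 2 ∧ ∀ η δ : ℝ, 0 ≤ η → η ≤ κ → 0 ≤ δ → δ ≤ κ →
      (1 + η) ^ n - (1 - η) ^ n * (1 - δ) ≤ e ∧ (1 + η) ^ n ≤ 2 := by
  have hc : Continuous fun t : ℝ => (1 + t) ^ n - (1 - t) ^ n * (1 - t) := by fun_prop
  have hc2 : Continuous fun t : ℝ => (1 + t) ^ n := by fun_prop
  have h1 : ∀ᶠ t : ℝ in 𝓝 0, (1 + t) ^ n - (1 - t) ^ n * (1 - t) < e := by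
    have := hc.tendsto 0
    simp only [add_zero, one_pow, sub_zero, mul_one, sub_self] at this
    exact this.eventually (gt_mem_nhds he)
  have h2 : ∀ᶠ t : ℝ in 𝓝 0, (1 + t) ^ n < 2 := by
    have := hc2.tendsto 0
    simp only [add_zero, one_pow] at this
    exact this.eventually (gt_mem_nhds (by norm_num))
  obtain ⟨ε, hε, h3⟩ := Metric.eventually_nhds_iff.1 (h1.and h2)
  refine ⟨min (ε / 2) (1 / 2), by positivity, min_le_right _ _, ?_⟩
  intro η δ hη0 hη hδ0 hδ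
  set κ := min (ε / 2) (1 / 2) with hκ
  have hκ1 : κ ≤ ε / 2 := min_le_left _ _
  have hκ2 : κ ≤ 1 / 2 := min_le_right _ _
  have hκ0 : 0 ≤ κ := hη0.trans hη
  obtain ⟨h4, h5⟩ := h3 (y := κ) (by
    rw [Real.dist_eq, sub_zero, abs_of_nonneg hκ0]; linarith)
  constructor
  · have a1 : (1 + η) ^ n ≤ (1 + κ) ^ n := by gcongr
    have a2 : (1 - κ) ^ n * (1 - κ) ≤ (1 - η) ^ n * (1 - δ) := by
      have h6 : 0 ≤ 1 - κ := by linarith
      have h7 : (1 - κ) ^ n ≤ (1 - η) ^ n := by gcongr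
      have h8 : 0 ≤ (1 - η) ^ n := by
        have : 0 ≤ 1 - η := by linarith
        positivity
      exact mul_le_mul h7 (by linarith) h6 h8
    linarith
  · have a1 : (1 + η) ^ n ≤ (1 + κ) ^ n := by gcongr
    linarith

/-- **density of the image, with mass** -/
theorem mass_near (n : ℕ) {τ : ℝ} (hτ0 : 0 < τ) (hτ1 : τ ≤ 1) :
    ∃ κ : ℝ, 0 < κ ∧ κ ≤ 1 / 2 ∧ ∀ {X : Type*} [MetricSpace X] [MeasurableSpace X] [BorelSpace X]
      (F : X → EuclideanSpace ℝ (Fin n)) (q : X) (R η δ : ℝ), 0 < R → 0 ≤ η → η ≤ κ → 0 ≤ δ →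
      δ ≤ κ →
      (∀ x ∈ ball q R, ∀ z ∈ ball q R, |dist (F x) (F z) - dist x z| ≤ η * dist x z) →
      ENNReal.ofReal (1 - δ) * volume (ball (0 : EuclideanSpace ℝ (Fin n)) R) ≤
        μHE[n] (ball q R) →
      ∀ y : EuclideanSpace ℝ (Fin n), dist y (F q) ≤ R →
      ENNReal.ofReal ((τ / 4) ^ n * R ^ n / 4) * volume (ball (0 : EuclideanSpace ℝ (Fin n)) 1) ≤
        μHE[n] {x ∈ ball q R | dist (F x) y < τ * R} := by
  obtain ⟨κ, hκ0, hκ2, hκ⟩ := exists_kappa n (e := (τ / 2) ^ n / 4) (by positivity)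
  refine ⟨κ, hκ0, hκ2, ?_⟩
  intro X _ _ _ F q R η δ hR hη0 hη hδ0 hδ hF hvol y hy
  obtain ⟨h1, h2⟩ := hκ η δ hη0 hη hδ0 hδ
  set y' : EuclideanSpace ℝ (Fin n) := F q + (1 - τ / 2) • (y - F q) with hy'
  have hn : ‖y - F q‖ ≤ R := by rwa [← dist_eq_norm]
  have e1 : dist y' (F q) ≤ (1 - τ / 2) * R := by
    rw [dist_eq_norm, hy', add_sub_cancel_left, norm_smul, Real.norm_of_nonneg (by linarith)]
    have : 0 ≤ 1 - τ / 2 := by linarith
    gcongr
  have e2 : dist y' y ≤ τ / 2 * R := by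
    have : y' - y = (-(τ / 2)) • (y - F q) := by
      rw [hy', sub_smul, one_smul, neg_smul]; abel
    rw [dist_eq_norm, this, norm_smul, norm_neg, Real.norm_of_nonneg (by linarith)]
    gcongr
  have hs : 0 < τ / 2 * R := by positivity
  have h3 := mass hR hη0 (by linarith) hδ0 (by linarith) hF hvol hs (y := y') (by
    nlinarith [mul_nonneg hη0 hR.le])
  set ω := volume (ball (0 : EuclideanSpace ℝ (Fin n)) 1) with hω
  set S := {x ∈ ball q R | F x ∈ ball y' (τ / 2 * R)} with hS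
  have hsub : S ⊆ {x ∈ ball q R | dist (F x) y < τ * R} := by
    rintro x ⟨hx, hx2⟩
    refine ⟨hx, ?_⟩
    rw [mem_ball] at hx2
    calc dist (F x) y ≤ dist (F x) y' + dist y' y := dist_triangle _ _ _
      _ < τ * R := by linarith
  refine le_trans ?_ (measure_mono hsub)
  -- absorb
  have h4 : ENNReal.ofReal (((1 + η) ^ n - (1 - η) ^ n * (1 - δ)) * R ^ n) * ω ≤
      ENNReal.ofReal ((τ / 2) ^ n / 4 * R ^ n) * ω := by
    gcongr
  have h5 : ENNReal.ofReal ((1 + η) ^ n) * μHE[n] S ≤ 2 * μHE[n] S := by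
    gcongr
    rw [← ENNReal.ofReal_ofNat]
    exact ENNReal.ofReal_le_ofReal h2
  have h6 : ENNReal.ofReal ((τ / 2) ^ n / 4 * R ^ n) * ω +
      ENNReal.ofReal ((τ / 2) ^ n * 3 / 4 * R ^ n) * ω ≤
      ENNReal.ofReal ((τ / 2) ^ n / 4 * R ^ n) * ω + 2 * μHE[n] S := by
    calc _ = ENNReal.ofReal ((τ / 2 * R) ^ n) * ω := by
          rw [← add_mul, ← ENNReal.ofReal_add (by positivity) (by positivity)]
          congr 2
          rw [mul_pow]; ring
      _ ≤ _ := h3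
      _ ≤ _ := by gcongr
  have h7 := (ENNReal.add_le_add_iff_left
    (ENNReal.mul_ne_top ENNReal.ofReal_ne_top om_ne_top)).1 h6
  have h8 : ENNReal.ofReal ((τ / 4) ^ n * R ^ n / 4) * ω * 2 ≤
      ENNReal.ofReal ((τ / 2) ^ n * 3 / 4 * R ^ n) * ω := by
    have e : (2 : ℝ≥0∞) = ENNReal.ofReal 2 := by rw [ENNReal.ofReal_ofNat]
    rw [mul_right_comm, e, ← ENNReal.ofReal_mul (by positivity)]
    have h9 : (τ / 4) ^ n ≤ (τ / 2) ^ n := by
      have : τ / 4 ≤ τ / 2 := by linarith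
      gcongr
    have h10 : (τ / 4) ^ n * R ^ n / 4 * 2 ≤ (τ / 2) ^ n * 3 / 4 * R ^ n := by
      have h11 : 0 < R ^ n := by positivity
      have h12 : 0 < (τ / 2) ^ n := by positivity
      nlinarith [mul_pos h11 h12, mul_le_mul_of_nonneg_right h9 h11.le]
    gcongr
  have h13 : ENNReal.ofReal ((τ / 4) ^ n * R ^ n / 4) * ω * 2 ≤ μHE[n] S * 2 := by
    rw [mul_comm (μHE[n] S)]
    exact h8.trans h7
  exact (ENNReal.mul_le_mul_iff_left (by norm_num) (by norm_num)).1 h13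

/-- density of the image -/
theorem exists_near (n : ℕ) {τ : ℝ} (hτ0 : 0 < τ) (hτ1 : τ ≤ 1) :
    ∃ κ : ℝ, 0 < κ ∧ κ ≤ 1 / 2 ∧ ∀ {X : Type*} [MetricSpace X] [MeasurableSpace X] [BorelSpace X]
      (F : X → EuclideanSpace ℝ (Fin n)) (q : X) (R η δ : ℝ), 0 < R → 0 ≤ η → η ≤ κ → 0 ≤ δ →
      δ ≤ κ →
      (∀ x ∈ ball q R, ∀ z ∈ ball q R, |dist (F x) (F z) - dist x z| ≤ η * dist x z) →
      ENNReal.ofReal (1 - δ) * volume (ball (0 : EuclideanSpace ℝ (Fin n)) R) ≤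
        μHE[n] (ball q R) →
      ∀ y : EuclideanSpace ℝ (Fin n), dist y (F q) ≤ R → ∃ x ∈ ball q R, dist (F x) y < τ * R := by
  obtain ⟨κ, hκ0, hκ2, hκ⟩ := mass_near n hτ0 hτ1
  refine ⟨κ, hκ0, hκ2, ?_⟩
  intro X _ _ _ F q R η δ hR hη0 hη hδ0 hδ hF hvol y hy
  have h1 := hκ F q R η δ hR hη0 hη hδ0 hδ hF hvol y hy
  by_contra h
  push Not at h
  have h2 : {x ∈ ball q R | dist (F x) y < τ * R} = ∅ := by
    ext x
    simp only [mem_ofPred_eq, mem_empty_iff_false, iff_false, not_and, not_lt]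
    exact fun hx => h x hx
  rw [h2, measure_empty] at h1
  have h3 : 0 < ENNReal.ofReal ((τ / 4) ^ n * R ^ n / 4) *
      volume (ball (0 : EuclideanSpace ℝ (Fin n)) 1) :=
    ENNReal.mul_pos (ENNReal.ofReal_pos.2 (by positivity)).ne' om_ne_zero
  exact absurd h1 (not_le.2 h3)

/-- the mass in every direction -/
theorem mass_dir (n : ℕ) :
    ∃ κ : ℝ, 0 < κ ∧ κ ≤ 1 / 2 ∧ ∀ {X : Type*} [MetricSpace X] [MeasurableSpace X] [BorelSpace X]
      (F : X → EuclideanSpace ℝ (Fin n)) (q : X) (R η δ : ℝ), 0 < R → 0 ≤ η → η ≤ κ → 0 ≤ δ →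
      δ ≤ κ →
      (∀ x ∈ ball q R, ∀ z ∈ ball q R, |dist (F x) (F z) - dist x z| ≤ η * dist x z) →
      ENNReal.ofReal (1 - δ) * volume (ball (0 : EuclideanSpace ℝ (Fin n)) R) ≤
        μHE[n] (ball q R) →
      ∀ ξ : EuclideanSpace ℝ (Fin n), ‖ξ‖ = 1 →
      ENNReal.ofReal ((1 / 16) ^ n * R ^ n / 4) * volume (ball (0 : EuclideanSpace ℝ (Fin n)) 1) ≤
        μHE[n] {x ∈ ball q R | R / 2 < ⟪F x - F q, ξ⟫} := by
  obtain ⟨κ, hκ0, hκ2, hκ⟩ := mass_near n (τ := 1 / 4) (by norm_num) (by norm_num)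
  refine ⟨κ, hκ0, hκ2, ?_⟩
  intro X _ _ _ F q R η δ hR hη0 hη hδ0 hδ hF hvol ξ hξ
  have h1 := hκ F q R η δ hR hη0 hη hδ0 hδ hF hvol (F q + (3 / 4 * R) • ξ) (by
    rw [dist_eq_norm, add_sub_cancel_left, norm_smul, hξ, mul_one, Real.norm_of_nonneg
      (by positivity)]
    linarith)
  have e : (1 / 4 / 4 : ℝ) = 1 / 16 := by norm_num
  rw [e] at h1
  refine h1.trans (measure_mono ?_)
  rintro x ⟨hx, hx2⟩
  refine ⟨hx, ?_⟩
  have h2 : ⟪F x - F q, ξ⟫ = ⟪F x - (F q + (3 / 4 * R) • ξ), ξ⟫ + 3 / 4 * R := by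
    have : F x - F q = (F x - (F q + (3 / 4 * R) • ξ)) + (3 / 4 * R) • ξ := by abel
    rw [this, inner_add_left, inner_smul_left]
    simp [hξ]
  have h3 : -‖F x - (F q + (3 / 4 * R) • ξ)‖ ≤ ⟪F x - (F q + (3 / 4 * R) • ξ), ξ⟫ := by
    have := abs_real_inner_le_norm (F x - (F q + (3 / 4 * R) • ξ)) ξ
    rw [hξ, mul_one] at this
    exact (abs_le.1 this).1
  rw [dist_eq_norm] at hx2
  rw [h2]
  linarith

end main

/-! ### the form of `NearIso`: `|c * dist (F x) (F z) - dist x z| ≤ η * dist x z` -/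
section scaled
variable {n : ℕ} {X : Type*} [MetricSpace X] [MeasurableSpace X] [BorelSpace X]
local notation "𝔼" => EuclideanSpace ℝ (Fin n)

theorem dist_smul_eq {c : ℝ} (hc : 0 < c) (a b : 𝔼) : dist (c • a) (c • b) = c * dist a b := by
  rw [dist_smul₀, Real.norm_of_nonneg hc.le]

theorem near_smul {F : X → 𝔼} {B : Set X} {c η : ℝ} (hc : 0 < c)
    (hF : ∀ x ∈ B, ∀ z ∈ B, |c * dist (F x) (F z) - dist x z| ≤ η * dist x z) :
    ∀ x ∈ B, ∀ z ∈ B, |dist (c • F x) (c • F z) - dist x z| ≤ η * dist x z := by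
  intro x hx z hz
  rw [dist_smul_eq hc]
  exact hF x hx z hz

end scaled

end Crest.Agent.R249.StaP_509
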