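import Crest.Agent.R249.Eta4_467

/-!
# R249 (helper467), A2-ETA part 5: affine change of the unknowns

`homJ r a j` : the jet of `(a + r φ, a + r ψ)`; `hm r a` : the base map;
`IE_hom` : the integrand of the pulled back field is the pulled back integrand.
-/

set_option autoImplicit false
set_option linter.unusedVariables false
set_option linter.unusedSectionVars false

open MeasureTheory Set Filter Topology Matrix
open scoped ContDiff

noncomputable section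

namespace Crest.Agent.R249.Eta467

open Calc_806 Calc_806.Calc DivC467 Lim621 PenH_806

attribute [local instance] Matrix.frobeniusNormedAddCommGroup Matrix.frobeniusNormedSpace

/-- the jet of `(a + r φ, a + r ψ)`. -/
def homJ (r a : ℝ) (j : Jet E4 H4) : Jet E4 H4 where
  f := a + r * j.f
  g := a + r * j.g
  p := r • j.p
  q := r • j.q
  P := r • j.P
  Q := r • j.Q

/-- the base map. -/
def hm (r a : ℝ) (z : ℝ × ℝ × ℝ) : ℝ × ℝ × ℝ := (r * z.1, a + r * z.2.1, r ^ 2 * z.2.2)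

/-- the coefficients `A`, `B` of the pulled back field. -/
def pb (r a : ℝ) (A : ℝ × ℝ × ℝ → ℝ) (z : ℝ × ℝ × ℝ) : ℝ := r * A (hm r a z)

/-- the coefficient `W` of the pulled back field. -/
def pbW (r a : ℝ) (W : ℝ × ℝ × ℝ → ℝ) (z : ℝ × ℝ × ℝ) : ℝ := r ^ 2 * W (hm r a z)

/-- the linear part of the base map. -/
def hmL (r : ℝ) (hr : r ≠ 0) : (ℝ × ℝ × ℝ) ≃L[ℝ] (ℝ × ℝ × ℝ) :=
  (ContinuousLinearEquiv.smulLeft (Units.mk0 r hr)).prodCongr
    ((ContinuousLinearEquiv.smulLeft (Units.mk0 r hr)).prodCongr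
      (ContinuousLinearEquiv.smulLeft (Units.mk0 (r ^ 2) (pow_ne_zero 2 hr))))

lemma hmL_apply (r : ℝ) (hr : r ≠ 0) (z : ℝ × ℝ × ℝ) :
    hmL r hr z = (r * z.1, r * z.2.1, r ^ 2 * z.2.2) := rfl

lemma hm_eq {r : ℝ} (hr : r ≠ 0) (a : ℝ) (z : ℝ × ℝ × ℝ) : hm r a z = hmL r hr z + (0, a, 0) := by
  rw [hmL_apply, hm]
  ext <;> simp [add_comm]

lemma fderiv_hm {r : ℝ} (hr : r ≠ 0) (a : ℝ) (A : ℝ × ℝ × ℝ → ℝ) (z v : ℝ × ℝ × ℝ) :
    fderiv ℝ (fun z => A (hm r a z)) z v = fderiv ℝ A (hm r a z) (hmL r hr v) := by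
  have h1 : (fun z => A (hm r a z)) = (fun y => A (y + (0, a, 0))) ∘ hmL r hr := by
    funext z; rw [Function.comp_apply, hm_eq hr]
  rw [h1, ContinuousLinearEquiv.comp_right_fderiv, ContinuousLinearMap.comp_apply,
    fderiv_comp_add_right, ← hm_eq hr]
  rfl

lemma fderiv_smul_hm {r : ℝ} (hr : r ≠ 0) (a c : ℝ) (hc : c ≠ 0) (A : ℝ × ℝ × ℝ → ℝ)
    (z v : ℝ × ℝ × ℝ) :
    fderiv ℝ (fun z => c * A (hm r a z)) z v = c * fderiv ℝ A (hm r a z) (hmL r hr v) := by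
  rw [← fderiv_hm hr]
  have h2 := (ContinuousLinearEquiv.smulLeft (R₁ := ℝ) (M₁ := ℝ) (Units.mk0 c hc)).comp_fderiv
    (f := fun z => A (hm r a z)) (x := z)
  have h3 : (fun z => c * A (hm r a z)) =
      (ContinuousLinearEquiv.smulLeft (R₁ := ℝ) (M₁ := ℝ) (Units.mk0 c hc)) ∘
        (fun z => A (hm r a z)) := by
    funext z; rfl
  rw [h3, h2]
  rfl

lemma hmL_1 (r : ℝ) (hr : r ≠ 0) : hmL r hr (1, 0, 0) = r • ((1, 0, 0) : ℝ × ℝ × ℝ) := by
  rw [hmL_apply]; ext <;> simp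

lemma hmL_2 (r : ℝ) (hr : r ≠ 0) : hmL r hr (0, 1, 0) = r • ((0, 1, 0) : ℝ × ℝ × ℝ) := by
  rw [hmL_apply]; ext <;> simp

lemma hmL_3 (r : ℝ) (hr : r ≠ 0) : hmL r hr (0, 0, 1) = r ^ 2 • ((0, 0, 1) : ℝ × ℝ × ℝ) := by
  rw [hmL_apply]; ext <;> simp

section

variable {r : ℝ} (hr : r ≠ 0) (a : ℝ) (A : ℝ × ℝ × ℝ → ℝ) (z : ℝ × ℝ × ℝ)

include hr

lemma pd1_pb : pd1 (pb r a A) z = r ^ 2 * pd1 A (hm r a z) := by
  have := fderiv_smul_hm hr a r hr A z (1, 0, 0)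
  rw [hmL_1, map_smul, smul_eq_mul] at this
  exact this.trans (by rw [pd1]; ring)

lemma pd2_pb : pd2 (pb r a A) z = r ^ 2 * pd2 A (hm r a z) := by
  have := fderiv_smul_hm hr a r hr A z (0, 1, 0)
  rw [hmL_2, map_smul, smul_eq_mul] at this
  exact this.trans (by rw [pd2]; ring)

lemma pd3_pb : pd3 (pb r a A) z = r ^ 3 * pd3 A (hm r a z) := by
  have := fderiv_smul_hm hr a r hr A z (0, 0, 1)
  rw [hmL_3, map_smul, smul_eq_mul] at this
  exact this.trans (by rw [pd3]; ring)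

lemma pd1_pbW : pd1 (pbW r a A) z = r ^ 3 * pd1 A (hm r a z) := by
  have := fderiv_smul_hm hr a (r ^ 2) (pow_ne_zero 2 hr) A z (1, 0, 0)
  rw [hmL_1, map_smul, smul_eq_mul] at this
  exact this.trans (by rw [pd1]; ring)

lemma pd2_pbW : pd2 (pbW r a A) z = r ^ 3 * pd2 A (hm r a z) := by
  have := fderiv_smul_hm hr a (r ^ 2) (pow_ne_zero 2 hr) A z (0, 1, 0)
  rw [hmL_2, map_smul, smul_eq_mul] at this
  exact this.trans (by rw [pd2]; ring)

lemma pd3_pbW : pd3 (pbW r a A) z = r ^ 4 * pd3 A (hm r a z) := by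
  have := fderiv_smul_hm hr a (r ^ 2) (pow_ne_zero 2 hr) A z (0, 0, 1)
  rw [hmL_3, map_smul, smul_eq_mul] at this
  exact this.trans (by rw [pd3]; ring)

end

/-! ### jets -/

lemma uJ_hom (r a : ℝ) (j : Jet E4 H4) : uJ (homJ r a j) = r • uJ j := by
  simp only [uJ, homJ, ← smul_sub, WithLp.ofLp_smul]

lemma vJ_hom (r a : ℝ) (j : Jet E4 H4) : vJ (homJ r a j) = r • vJ j := by
  simp only [vJ, homJ, ← smul_add, WithLp.ofLp_smul, smul_comm r]

lemma xJ_hom (r a : ℝ) (j : Jet E4 H4) : xJ (homJ r a j) = r * xJ j := by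
  simp only [xJ, homJ, Prod.smul_fst, smul_eq_mul]; ring

lemma kJ_hom (r a : ℝ) (j : Jet E4 H4) : kJ (homJ r a j) = r * kJ j := by
  simp only [kJ, homJ, Prod.smul_fst, smul_eq_mul]; ring

lemma sJ_hom (r a : ℝ) (j : Jet E4 H4) : sJ (homJ r a j) = r • sJ j := by
  have h : (homJ r a j).P.2 = r • j.P.2 := rfl
  rw [sJ, sJ, xJ_hom, h, Matrix.trace_smul, smul_add, smul_smul, smul_eq_mul]
  congr 2
  ring

lemma bJ_hom (r a : ℝ) (j : Jet E4 H4) : bJ (homJ r a j) = hm r a (bJ j) := by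
  have hf : (homJ r a j).f = a + r * j.f := rfl
  have hg : (homJ r a j).g = a + r * j.g := rfl
  rw [bJ, hm, bJ, uJ_hom, hf, hg]
  simp only [smul_dotProduct, dotProduct_smul, smul_eq_mul]
  ext
  · show _ = _
    simp only; ring
  · show _ = _
    simp only; ring
  · show _ = _
    simp only; ring

/-- **the integrand of the pulled back field.** -/
theorem IE_hom {r : ℝ} (hr : r ≠ 0) (a : ℝ) (A B W : ℝ × ℝ × ℝ → ℝ) (j : Jet E4 H4) :
    IE (pb r a A) (pb r a B) (pbW r a W) j = IE A B W (homJ r a j) := by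
  have e : ∑ i, ∑ b, (r • sJ j) i b ^ 2 = r ^ 2 * ∑ i, ∑ b, sJ j i b ^ 2 := by
    simp only [Finset.mul_sum, Matrix.smul_apply, smul_eq_mul]
    exact Finset.sum_congr rfl fun i _ => Finset.sum_congr rfl fun b _ => by ring
  rw [IE_eq, IE_eq, pd1_pb hr, pd2_pb hr, pd3_pb hr, pd1_pb hr, pd2_pb hr, pd3_pb hr,
    pd1_pbW hr, pd2_pbW hr, pd3_pbW hr, uJ_hom, vJ_hom, xJ_hom, kJ_hom, sJ_hom, bJ_hom, e]
  simp only [smul_dotProduct, dotProduct_smul, Matrix.smul_mulVec, Matrix.mulVec_smul, smul_eq_mul,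
    pb, pbW]
  ring

lemma homJ_mem {r a : ℝ} {j : Jet E4 H4} (hP : j.P ∈ SyH) : (homJ r a j).P ∈ SyH :=
  SyH.smul_mem r hP

lemma homJ_mem' {r a : ℝ} {j : Jet E4 H4} (hQ : j.Q ∈ SyH) : (homJ r a j).Q ∈ SyH :=
  SyH.smul_mem r hQ

end Crest.Agent.R249.Eta467
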