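import Crest.Agent.R249.Sym5_467
import Crest.Agent.R249.CovA_621
import Crest.Agent.R249.Brg2_133

/-!
# R249 (helper467), A2-ETA part 15: the rational class of the certificate satisfies `SyAll`

`rdC c` : the radicand `R = G + c (1 - m) m²`; `ok3`, `lo3` : decidable conditions on coefficient
lists; `syAll_of` : `SyAll` for `Brg133.Crt`.
-/

set_option autoImplicit false
set_option linter.unusedVariables false
set_option linter.unusedSectionVars false

open MeasureTheory Set Filter Topology Matrix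
open scoped ContDiff

noncomputable section

namespace Crest.Agent.R249.Sym467

open DivC467 Eta467 CovA621 Brg133
open Ker254 (P3 ev1 ev2 ev3)

/-! ### the radicand -/

lemma n_geA {z : E3} (hz : z ∈ Reg ACpm) : kf ACpm z + 7 / 80 * z.1 ^ 2 ≤ 1 - z.2.1 := by
  have h := n_ge hz
  have e : ACpm.g1 = 7 / 40 := rfl
  rw [e] at h
  linarith

lemma RR_low {c : ℝ} (hc : 2 ≤ c) {z : E3} (hz : z ∈ Reg ACpm) :
    1 / 6 * (om ACpm z * ss z) ≤ RR c z.2.1 z.2.2 := by
  have h1 := wt_le hz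
  have h2 := n_geA hz
  have hk := hz.k0
  have hm := hz.m0
  have hG := hz.G0
  have h3 : z.1 ^ 2 + kf ACpm z ≤ 12 * (1 - z.2.1) := by
    have := sq_nonneg z.1
    linarith
  have h4 : (z.1 ^ 2 + kf ACpm z) * z.2.1 ^ 2 ≤ 12 * (1 - z.2.1) * z.2.1 ^ 2 :=
    mul_le_mul_of_nonneg_right h3 (sq_nonneg _)
  have h5 : 0 ≤ (1 - z.2.1) * z.2.1 ^ 2 := by
    have : 0 ≤ 1 - z.2.1 := by linarith [m_le hz]
    positivity
  have h6 := mul_le_mul_of_nonneg_right hc h5
  unfold RR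
  linarith

lemma RR_pos {c : ℝ} (hc : 2 ≤ c) {z : E3} (hz : z ∈ Reg ACpm) : 0 < RR c z.2.1 z.2.2 :=
  lt_of_lt_of_le (by have := om_pos hz; have := ss_pos hz; positivity) (RR_low hc hz)

/-- the radicand. -/
def rdC (c : ℝ) (hc : 2 ≤ c) : Rd ACpm where
  R := fun z => RR c z.2.1 z.2.2
  smooth := contDiff_RR
  pos := fun z hz => RR_pos hc hz

variable {c : ℝ} {hc : 2 ≤ c} {n : ℕ}

lemma sy_m2n (n : ℕ) : SY (rdC c hc) n 0 2 2 0 (fun z => c * (1 - z.2.1) * z.2.1 ^ 2) := by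
  have h := (((sy_n (ρ := rdC c hc) n).mul ((sy_m (ρ := rdC c hc) n).pow 2)).smul c)
  refine (h.dom (a' := 0) (b' := 2) (c' := 2) (e' := 0) (by norm_num) (by norm_num)
    (by norm_num)).congr' fun z => by ring

theorem sy_RR (n : ℕ) : SY (rdC c hc) n 0 2 2 0 (fun z => RR c z.2.1 z.2.2) :=
  ((sy_G (ρ := rdC c hc) n).add (sy_m2n n)).congr' fun z => rfl

theorem sy_RRinv (n : ℕ) : SY (rdC c hc) n 0 (-2) (-2) 0 (fun z => (RR c z.2.1 z.2.2)⁻¹) := by
  have h := Sy.inv (sy_RR (c := c) (hc := hc) n) (fun z hz => wm_pos hz _ _ _ _)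
    (fun z hz => hz.2.2) (ε := 1 / 6) (by norm_num) (fun z hz => by
      have ho := om_pos hz
      have hs := ss_pos hz
      have e : wm ACpm 0 2 2 0 z = om ACpm z * ss z := by
        have e1 : √(om ACpm z) ^ (2:ℤ) = om ACpm z := by
          rw [show (2:ℤ) = ((2:ℕ):ℤ) from rfl, zpow_natCast, Real.sq_sqrt ho.le]
        have e2 : √(ss z) ^ (2:ℤ) = ss z := by
          rw [show (2:ℤ) = ((2:ℕ):ℤ) from rfl, zpow_natCast, Real.sq_sqrt hs.le]
        rw [wm, e1, e2]; simp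
      rw [e]; exact RR_low hc hz)
  exact h.weq fun z hz => (wm_inv hz _ _ _ _).trans (by simp)

/-! ### coefficient lists in `(η², 1 - m, G)` -/

/-- all entries zero. -/
def zr1 : List ℤ → Bool
  | [] => true
  | a :: l => decide (a = 0) && zr1 l

lemma zr1_ev {l : List ℤ} (h : zr1 l = true) (t : ℝ) : ev1 t l = 0 := by
  induction l with
  | nil => rfl
  | cons a l ih =>
    simp only [zr1, Bool.and_eq_true, decide_eq_true_eq] at h
    rw [ev1, ih h.2, h.1]; simp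

/-- total degree `≥ d`, degree in `G` at most `K`. -/
def ok1 : ℕ → ℕ → List ℤ → Bool
  | _, _, [] => true
  | d, K, a :: l => (Nat.ble d 0 || decide (a = 0)) && ((Nat.ble 1 K && ok1 (d - 1) (K - 1) l) || zr1 l)

/-- total degree `≥ d`, degree in `G` at most `K`. -/
def ok2 : ℕ → ℕ → List (List ℤ) → Bool
  | _, _, [] => true
  | d, K, a :: l => ok1 d K a && ok2 (d - 1) K l

/-- total degree `≥ d`, degree in `G` at most `K`. -/
def ok3 : ℕ → ℕ → P3 → Bool
  | _, _, [] => true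
  | d, K, a :: l => ok2 d K a && ok3 (d - 1) K l

lemma sy_ok1 {l : List ℤ} : ∀ {d K : ℕ}, ok1 d K l = true →
    SY (rdC c hc) n 0 (2 * d) 0 (2 * K) (fun z => ev1 z.2.2 l) := by
  induction l with
  | nil => intro d K _; exact SY.zero
  | cons a l ih =>
    intro d K h
    simp only [ok1, Bool.and_eq_true, Bool.or_eq_true, decide_eq_true_eq, Nat.ble_eq] at h
    obtain ⟨h1, h2⟩ := h
    have t1 : SY (rdC c hc) n 0 (2 * d) 0 (2 * K) (fun _ => (a : ℝ)) := by
      rcases h1 with h1 | h1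
      · have hd : d = 0 := by omega
        subst hd
        exact (SY.const (a : ℝ)).dom (by simp) (by simp) (by simp)
      · subst h1
        exact SY.zero.congr' fun z => by simp
    have t2 : SY (rdC c hc) n 0 (2 * d) 0 (2 * K) (fun z => z.2.2 * ev1 z.2.2 l) := by
      rcases h2 with ⟨h3, h4⟩ | h3
      · exact ((sy_G n).mul (ih h4)).dom (by omega) (by omega) (by omega)
      · exact SY.zero.congr' fun z => by rw [zr1_ev h3]; simp
    exact (t1.add t2).congr' fun z => rfl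

lemma sy_ok2 {l : List (List ℤ)} : ∀ {d K : ℕ}, ok2 d K l = true →
    SY (rdC c hc) n 0 (2 * d) 0 (2 * K) (fun z => ev2 (1 - z.2.1) z.2.2 l) := by
  induction l with
  | nil => intro d K _; exact SY.zero
  | cons a l ih =>
    intro d K h
    simp only [ok2, Bool.and_eq_true] at h
    have t2 : SY (rdC c hc) n 0 (2 * d) 0 (2 * K) (fun z => (1 - z.2.1) * ev2 (1 - z.2.1) z.2.2 l) :=
      ((sy_n n).mul (ih h.2)).dom (by omega) (by omega) (by omega)
    exact ((sy_ok1 h.1).add t2).congr' fun z => rfl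

lemma sy_ok3 {l : P3} : ∀ {d K : ℕ}, ok3 d K l = true →
    SY (rdC c hc) n 0 (2 * d) 0 (2 * K) (fun z => ev3 (z.1 ^ 2) (1 - z.2.1) z.2.2 l) := by
  induction l with
  | nil => intro d K _; exact SY.zero
  | cons a l ih =>
    intro d K h
    simp only [ok3, Bool.and_eq_true] at h
    have t2 : SY (rdC c hc) n 0 (2 * d) 0 (2 * K)
        (fun z => z.1 ^ 2 * ev3 (z.1 ^ 2) (1 - z.2.1) z.2.2 l) :=
      ((sy_eta2 n).mul (ih h.2)).dom (by omega) (by omega) (by omega)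
    exact ((sy_ok2 h.1).add t2).congr' fun z => rfl

/-- the rational functions. -/
lemma sy_cE {N N' : P3} {p d K : ℕ} (hN : ∀ y m G : ℝ, ev3 y m G N = ev3 y (1 - m) G N')
    (h : ok3 d K N' = true) : SY (rdC c hc) n (-(p : ℤ)) (2 * d - 4) (-4) (2 * K) (cE N p c) := by
  have h1 := (sy_ok3 (c := c) (hc := hc) (n := n) h)
  have h2 := (sy_minv (ρ := rdC c hc) n).pow p
  have h3 := (sy_RRinv (c := c) (hc := hc) n).pow 2
  refine ((h1.mul (h2.mul h3)).cast (by ring) (by push_cast; ring) (by push_cast; ring)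
    (by ring)).congr' fun z => ?_
  rw [cE, qf2, hN, div_eq_mul_inv, mul_inv, inv_pow, inv_pow]

/-! ### the one sided bound near the corner -/

/-- a point near the corner. -/
structure CoP (y m G R : ℝ) : Prop where
  m0 : 0 < m
  m1 : m ≤ 1
  G0 : 0 ≤ G
  GR : G ≤ R
  mR : m ^ 2 ≤ R
  y0 : 0 ≤ y
  y4 : y ≤ 4 * m ^ 2

/-- conditions on the coefficients of `m^(p-t) G^k`. -/
def lo1 : ℤ → ℕ → List ℤ → Bool
  | _, _, [] => true
  | t, k, a :: l => ((Nat.ble k 3 && decide (t + (4 - 2 * (k : ℤ)) ≤ 0) && decide (t ≤ 0)) ||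
      decide (a = 0)) && lo1 t (k + 1) l

/-- conditions on the coefficients. -/
def lo2 : ℤ → List (List ℤ) → Bool
  | _, [] => true
  | t, a :: l => lo1 t 0 a && lo2 (t - 1) l

/-- conditions on the coefficients. -/
def lo3 : ℤ → P3 → Bool
  | _, [] => true
  | t, a :: l => lo2 t a && lo3 (t - 2) l

lemma lo_mono {y m G R : ℝ} (h : CoP y m G R) {t : ℤ} {k : ℕ} (hk : k ≤ 3)
    (h1 : t + (4 - 2 * (k : ℤ)) ≤ 0) (h2 : t ≤ 0) : G ^ k ≤ m ^ t * (R ^ 2 * (1 + G)) := by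
  obtain ⟨m0, m1, G0, GR, mR, y0, y4⟩ := h
  have hm2 : 0 < m ^ 2 := by positivity
  have hR0 : 0 < R := hm2.trans_le mR
  have hG1 : 1 ≤ 1 + G := by linarith
  have hR2 : R ^ 2 ≤ R ^ 2 * (1 + G) := le_mul_of_one_le_right (by positivity) hG1
  have hz : ∀ s : ℤ, t ≤ s → m ^ s ≤ m ^ t := fun s hs => zpow_le_zpow_right_of_le_one₀ m0 m1 hs
  have hmt : 0 < m ^ t := by positivity
  interval_cases k
  · have h3 := hz (-4) (by norm_num at h1; omega)
    have h4 : m ^ (-4 : ℤ) * R ^ 2 ≤ m ^ t * (R ^ 2 * (1 + G)) :=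
      mul_le_mul h3 hR2 (by positivity) hmt.le
    have h5 : 1 ≤ m ^ (-4 : ℤ) * R ^ 2 := by
      have e : m ^ (-4 : ℤ) = (m ^ 4)⁻¹ := by
        rw [_root_.zpow_neg]; norm_cast
      rw [e, inv_mul_eq_div, le_div_iff₀ (by positivity), one_mul]
      calc m ^ 4 = (m ^ 2) ^ 2 := by ring
        _ ≤ _ := pow_le_pow_left₀ hm2.le mR 2
    rw [pow_zero]; exact h5.trans h4
  · have h3 := hz (-2) (by norm_num at h1; omega)
    have h4 : m ^ (-2 : ℤ) * R ^ 2 ≤ m ^ t * (R ^ 2 * (1 + G)) :=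
      mul_le_mul h3 hR2 (by positivity) hmt.le
    have h5 : G ≤ m ^ (-2 : ℤ) * R ^ 2 := by
      have e : m ^ (-2 : ℤ) = (m ^ 2)⁻¹ := by
        rw [_root_.zpow_neg]; norm_cast
      rw [e, inv_mul_eq_div, le_div_iff₀ (by positivity)]
      calc G * m ^ 2 ≤ R * R := mul_le_mul GR mR hm2.le hR0.le
        _ = _ := by ring
    rw [pow_one]; exact h5.trans h4
  · have h3 := hz 0 h2
    rw [zpow_zero] at h3
    calc G ^ 2 ≤ R ^ 2 := pow_le_pow_left₀ G0 GR 2
      _ ≤ 1 * (R ^ 2 * (1 + G)) := by rw [one_mul]; exact hR2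
      _ ≤ _ := mul_le_mul_of_nonneg_right h3 (by positivity)
  · have h3 := hz 0 h2
    rw [zpow_zero] at h3
    calc G ^ 3 = G ^ 2 * G := by ring
      _ ≤ R ^ 2 * (1 + G) := mul_le_mul (pow_le_pow_left₀ G0 GR 2) (by linarith) G0 (by positivity)
      _ = 1 * (R ^ 2 * (1 + G)) := (one_mul _).symm
      _ ≤ _ := mul_le_mul_of_nonneg_right h3 (by positivity)

lemma lo1_bd {l : List ℤ} : ∀ {t : ℤ} {k : ℕ}, lo1 t k l = true → ∃ C : ℝ, 0 ≤ C ∧
    ∀ y m G R : ℝ, CoP y m G R → |G ^ k * ev1 G l| ≤ C * (m ^ t * (R ^ 2 * (1 + G))) := by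
  induction l with
  | nil => intro t k _; exact ⟨0, le_rfl, fun y m G R h => by simp [ev1]⟩
  | cons a l ih =>
    intro t k h
    simp only [lo1, Bool.and_eq_true, Bool.or_eq_true, decide_eq_true_eq, Nat.ble_eq] at h
    obtain ⟨h1, h2⟩ := h
    obtain ⟨C, hC, hb⟩ := ih h2
    refine ⟨|(a : ℝ)| + C, by positivity, fun y m G R hp => ?_⟩
    have e : G ^ k * ev1 G (a :: l) = a * G ^ k + G ^ (k + 1) * ev1 G l := by
      rw [ev1]; ring
    have hGk : 0 ≤ G ^ k := pow_nonneg hp.G0 k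
    have b1 : |(a : ℝ) * G ^ k| ≤ |(a : ℝ)| * (m ^ t * (R ^ 2 * (1 + G))) := by
      rcases h1 with ⟨⟨h3, h4⟩, h5⟩ | h3
      · rw [abs_mul, abs_of_nonneg hGk]
        exact mul_le_mul_of_nonneg_left (lo_mono hp h3 h4 h5) (abs_nonneg _)
      · subst h3; simp
    rw [e, add_mul]
    exact (abs_add_le _ _).trans (add_le_add b1 (hb y m G R hp))

lemma lo2_bd {l : List (List ℤ)} : ∀ {t : ℤ}, lo2 t l = true → ∃ C : ℝ, 0 ≤ C ∧
    ∀ y m G R : ℝ, CoP y m G R → |ev2 m G l| ≤ C * (m ^ t * (R ^ 2 * (1 + G))) := by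
  induction l with
  | nil => intro t _; exact ⟨0, le_rfl, fun y m G R h => by simp [ev2]⟩
  | cons a l ih =>
    intro t h
    simp only [lo2, Bool.and_eq_true] at h
    obtain ⟨h1, h2⟩ := h
    obtain ⟨C1, hC1, hb1⟩ := lo1_bd h1
    obtain ⟨C, hC, hb⟩ := ih h2
    refine ⟨C1 + C, by positivity, fun y m G R hp => ?_⟩
    have b1 := hb1 y m G R hp
    rw [pow_zero, one_mul] at b1
    have b2 : |m * ev2 m G l| ≤ C * (m ^ t * (R ^ 2 * (1 + G))) := by
      rw [abs_mul, abs_of_pos hp.m0]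
      refine (mul_le_mul_of_nonneg_left (hb y m G R hp) hp.m0.le).trans (le_of_eq ?_)
      have e : m ^ t = m * m ^ (t - 1) := by
        rw [← zpow_one_add₀ hp.m0.ne']; congr 1; ring
      rw [e]; ring
    rw [ev2, add_mul]
    exact (abs_add_le _ _).trans (add_le_add b1 b2)

lemma lo3_bd {l : P3} : ∀ {t : ℤ}, lo3 t l = true → ∃ C : ℝ, 0 ≤ C ∧
    ∀ y m G R : ℝ, CoP y m G R → |ev3 y m G l| ≤ C * (m ^ t * (R ^ 2 * (1 + G))) := by
  induction l with
  | nil => intro t _; exact ⟨0, le_rfl, fun y m G R h => by simp [ev3]⟩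
  | cons a l ih =>
    intro t h
    simp only [lo3, Bool.and_eq_true] at h
    obtain ⟨h1, h2⟩ := h
    obtain ⟨C1, hC1, hb1⟩ := lo2_bd h1
    obtain ⟨C, hC, hb⟩ := ih h2
    refine ⟨C1 + 4 * C, by positivity, fun y m G R hp => ?_⟩
    have b1 := hb1 y m G R hp
    have b2 : |y * ev3 y m G l| ≤ 4 * C * (m ^ t * (R ^ 2 * (1 + G))) := by
      rw [abs_mul, abs_of_nonneg hp.y0]
      refine (mul_le_mul hp.y4 (hb y m G R hp) (abs_nonneg _)
        (by have := hp.m0; positivity)).trans (le_of_eq ?_)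
      have e : m ^ t = m ^ 2 * m ^ (t - 2) := by
        have : m ^ (2 : ℕ) = m ^ (2 : ℤ) := by norm_cast
        rw [this, ← zpow_add₀ hp.m0.ne']; congr 1; ring
      rw [e]; ring
    rw [ev3, add_mul]
    exact (abs_add_le _ _).trans (add_le_add b1 b2)

/-- **the one sided bound.** -/
theorem low_of {NB good : P3} {p : ℕ} (hc : 2 ≤ c) (hlo : lo3 p good = true)
    (hbad : ∀ y m G : ℝ, 0 < m → 0 ≤ y → y ≤ 4 * m ^ 2 → 0 ≤ G → ev3 y m G good ≤ ev3 y m G NB) :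
    ∃ C : ℝ, 0 ≤ C ∧ ∀ z ∈ Reg ACpm, z.2.1 < 1 / 4 → -(C * (1 + z.2.2)) ≤ cE NB p c z := by
  obtain ⟨C, hC, hb⟩ := lo3_bd hlo
  refine ⟨C, hC, fun z hz hm => ?_⟩
  have h0 := hz.m0
  have hG := hz.G0
  have hy4 := eta_sq_le_m hz
  have hRm : z.2.1 ^ 2 ≤ c * (1 - z.2.1) * z.2.1 ^ 2 := by
    have : 1 ≤ c * (1 - z.2.1) := by nlinarith
    exact le_mul_of_one_le_left (sq_nonneg _) this
  have hcop : CoP (z.1 ^ 2) z.2.1 z.2.2 (RR c z.2.1 z.2.2) := by
    refine ⟨h0, by linarith, hG, ?_, ?_, sq_nonneg _, hy4⟩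
    · unfold RR; have := sq_nonneg z.2.1; linarith
    · unfold RR; linarith
  have b1 := (abs_le.1 (hb _ _ _ _ hcop)).1
  have b2 := hbad _ _ _ h0 (sq_nonneg z.1) hy4 hG
  have hR := RR_pos hc hz
  have hS : 0 < z.2.1 ^ p * RR c z.2.1 z.2.2 ^ 2 := by positivity
  rw [cE, qf2, le_div_iff₀ hS]
  refine le_trans (le_of_eq ?_) (b1.trans b2)
  rw [zpow_natCast]; ring

/-- **the rational class.** -/
theorem syAll_of {C : Crt} (hc : (2:ℝ) ≤ (C.c : ℝ)) {nA' nB' nW' good : P3}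
    (hA : ∀ y m G : ℝ, ev3 y m G C.nA = ev3 y (1 - m) G nA')
    (hB : ∀ y m G : ℝ, ev3 y m G C.nB = ev3 y (1 - m) G nB')
    (hW : ∀ y m G : ℝ, ev3 y m G C.nW = ev3 y (1 - m) G nW')
    (okA : ok3 1 3 nA' = true) (okB : ok3 2 3 nB' = true) (okW : ok3 2 2 nW' = true)
    (hlo : lo3 C.p good = true)
    (hbad : ∀ y m G : ℝ, 0 < m → 0 ≤ y → y ≤ 4 * m ^ 2 → 0 ≤ G →
      ev3 y m G good ≤ ev3 y m G C.nB) : SyAll (rdC C.c hc) C.A C.B C.W := by
  have sB : SY (rdC C.c hc) 2 (-((C.p + 4 : ℕ) : ℤ)) (-1) 0 2 C.B :=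
    (sy_cE (c := C.c) (hc := hc) (n := 2) (p := C.p) hB okB).dom (by norm_num) (by norm_num)
      (by push_cast; norm_num)
  refine ⟨⟨C.p + 4, ?_, sB, ?_⟩, ?_⟩
  · have h := (sy_eta (ρ := rdC C.c hc) 2).mul (sy_cE (c := C.c) (hc := hc) (n := 2) (p := C.p) hA okA)
    exact h.dom (by norm_num) (by norm_num) (by push_cast; norm_num)
  · exact (sy_cE (c := C.c) (hc := hc) (n := 2) (p := C.p) hW okW).dom (by norm_num) (by norm_num)
      (by push_cast; norm_num)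
  · obtain ⟨C1, hC1, h1⟩ := SY.bdm sB
    obtain ⟨C2, hC2, h2⟩ := low_of (c := C.c) hc hlo hbad
    refine ⟨C1 + 3 * C2, by positivity, fun z hz hlt => ?_⟩
    have hg := gg_pos hz
    have hs := Real.sqrt_pos.2 (om_pos hz)
    have hsg : 0 ≤ (√(om ACpm z))⁻¹ * (1 + z.2.2) := by positivity
    rcases lt_or_ge z.2.1 (1 / 4) with hm | hm
    · have h3 := h2 z hz hm
      have h4 : 1 ≤ 3 * (√(om ACpm z))⁻¹ := by
        rw [← div_eq_mul_inv, le_div_iff₀ hs, one_mul, Real.sqrt_le_left (by norm_num)]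
        have := om_le hz
        linarith
      have h5 : 1 + z.2.2 ≤ 3 * ((√(om ACpm z))⁻¹ * (1 + z.2.2)) := by
        have := mul_le_mul_of_nonneg_right h4 hg.le
        linarith
      have h6 := mul_le_mul_of_nonneg_left h5 hC2
      have h7 := mul_nonneg hC1 hsg
      refine le_trans ?_ h3
      linarith
    · have h3 := (abs_le.1 (h1 z hz hm)).1
      rw [wm_B hz] at h3
      have h7 := mul_nonneg hC2 hsg
      refine le_trans ?_ h3
      linarith

end Crest.Agent.R249.Sym467
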