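import Crest.Agent.R249.Sym0_467

/-!
# R249 (helper467), A2-ETA part 6: a symbol class

`Geo` : an open set `U`, a subset `Dm`, weights `wt i` for the three partial derivatives;
`Sy Γ n w c` : `c` smooth on `U`, `|∂^α c| ≤ C w / wt^α` on `Dm` for `|α| ≤ n`.
Closed under sums, products, inverses, square roots.
-/

set_option autoImplicit false
set_option linter.unusedVariables false
set_option linter.unusedSectionVars false

open MeasureTheory Set Filter Topology Matrix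
open scoped ContDiff

noncomputable section

namespace Crest.Agent.R249.Sym467

open DivC467 Eta467

/-- `ℝ³`. -/
abbrev E3 := ℝ × ℝ × ℝ

/-- basis vectors. -/
def bv : Fin 3 → E3 := ![(1, 0, 0), (0, 1, 0), (0, 0, 1)]

/-- partial derivatives. -/
def pdi (i : Fin 3) (F : E3 → ℝ) (x : E3) : ℝ := fderiv ℝ F x (bv i)

lemma pdi_0 (F : E3 → ℝ) : pdi 0 F = pd1 F := rfl
lemma pdi_1 (F : E3 → ℝ) : pdi 1 F = pd2 F := rfl
lemma pdi_2 (F : E3 → ℝ) : pdi 2 F = pd3 F := rfl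

/-- the geometry: open set, domain, weights of the derivatives. -/
structure Geo where
  U : Set E3
  Dm : Set E3
  wt : Fin 3 → E3 → ℝ
  hU : IsOpen U
  sub : Dm ⊆ U
  wt_pos : ∀ i, ∀ z ∈ Dm, 0 < wt i z

variable {Γ : Geo}

/-- order zero. -/
def Sy0 (Γ : Geo) (w c : E3 → ℝ) : Prop :=
  ContDiffOn ℝ ∞ c Γ.U ∧ ∃ C : ℝ, 0 ≤ C ∧ ∀ z ∈ Γ.Dm, |c z| ≤ C * w z

/-- the symbol class. -/
def Sy (Γ : Geo) : ℕ → (E3 → ℝ) → (E3 → ℝ) → Prop
  | 0, w, c => Sy0 Γ w c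
  | n + 1, w, c => Sy0 Γ w c ∧ ∀ i, Sy Γ n (fun z => w z / Γ.wt i z) (pdi i c)

lemma Sy.zero' {n : ℕ} {w c : E3 → ℝ} (h : Sy Γ n w c) : Sy0 Γ w c := by
  cases n with
  | zero => exact h
  | succ n => exact h.1

lemma Sy.smooth {n : ℕ} {w c : E3 → ℝ} (h : Sy Γ n w c) : ContDiffOn ℝ ∞ c Γ.U := h.zero'.1

lemma Sy.bd {n : ℕ} {w c : E3 → ℝ} (h : Sy Γ n w c) :
    ∃ C : ℝ, 0 ≤ C ∧ ∀ z ∈ Γ.Dm, |c z| ≤ C * w z := h.zero'.2

lemma Sy.diffAt {n : ℕ} {w c : E3 → ℝ} (h : Sy Γ n w c) {z : E3} (hz : z ∈ Γ.U) :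
    DifferentiableAt ℝ c z :=
  (h.smooth.contDiffAt (Γ.hU.mem_nhds hz)).differentiableAt (by simp)

/-- derivatives of smooth functions are smooth. -/
lemma smooth_pdi {c : E3 → ℝ} (h : ContDiffOn ℝ ∞ c Γ.U) (i : Fin 3) :
    ContDiffOn ℝ ∞ (pdi i c) Γ.U := by
  have h1 : ContDiffOn ℝ ∞ (fun x => fderiv ℝ c x) Γ.U :=
    h.fderiv_of_isOpen Γ.hU (by simp)
  exact h1.clm_apply contDiffOn_const

lemma pdi_congr {c d : E3 → ℝ} (h : ∀ z ∈ Γ.U, c z = d z) (i : Fin 3) :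
    ∀ z ∈ Γ.U, pdi i c z = pdi i d z := by
  intro z hz
  have : c =ᶠ[𝓝 z] d := by
    filter_upwards [Γ.hU.mem_nhds hz] with y hy using h y hy
  rw [pdi, pdi, this.fderiv_eq]

lemma Sy.congr {n : ℕ} {w c d : E3 → ℝ} (h : Sy Γ n w c) (hcd : ∀ z ∈ Γ.U, c z = d z) :
    Sy Γ n w d := by
  induction n generalizing w c d with
  | zero =>
    refine ⟨h.smooth.congr fun z hz => (hcd z hz).symm, ?_⟩
    obtain ⟨C, hC, hb⟩ := h.bd
    exact ⟨C, hC, fun z hz => by rw [← hcd z (Γ.sub hz)]; exact hb z hz⟩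
  | succ n ih =>
    refine ⟨⟨h.smooth.congr fun z hz => (hcd z hz).symm, ?_⟩, fun i => ?_⟩
    · obtain ⟨C, hC, hb⟩ := h.bd
      exact ⟨C, hC, fun z hz => by rw [← hcd z (Γ.sub hz)]; exact hb z hz⟩
    · exact ih (h.2 i) (pdi_congr hcd i)

lemma Sy.mono {n : ℕ} {w w' c : E3 → ℝ} (h : Sy Γ n w c) {K : ℝ} (hK : 0 ≤ K)
    (hw : ∀ z ∈ Γ.Dm, w z ≤ K * w' z) : Sy Γ n w' c := by
  induction n generalizing w w' c with
  | zero =>
    obtain ⟨C, hC, hb⟩ := h.bd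
    refine ⟨h.smooth, C * K, mul_nonneg hC hK, fun z hz => (hb z hz).trans ?_⟩
    rw [mul_assoc]
    exact mul_le_mul_of_nonneg_left (hw z hz) hC
  | succ n ih =>
    refine ⟨?_, fun i => ?_⟩
    · obtain ⟨C, hC, hb⟩ := h.bd
      refine ⟨h.smooth, C * K, mul_nonneg hC hK, fun z hz => (hb z hz).trans ?_⟩
      rw [mul_assoc]
      exact mul_le_mul_of_nonneg_left (hw z hz) hC
    · refine ih (h.2 i) (fun z hz => ?_)
      have := Γ.wt_pos i z hz
      rw [← mul_div_assoc]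
      exact div_le_div_of_nonneg_right (hw z hz) this.le

lemma Sy.of_le {m n : ℕ} {w c : E3 → ℝ} (h : Sy Γ n w c) (hmn : m ≤ n) : Sy Γ m w c := by
  induction m generalizing n w c with
  | zero => exact h.zero'
  | succ m ih =>
    obtain ⟨n, rfl⟩ : ∃ k, n = k + 1 := ⟨n - 1, by omega⟩
    exact ⟨h.zero', fun i => ih (h.2 i) (by omega)⟩

/-- equal weights on `Dm`. -/
lemma Sy.weq {n : ℕ} {w w' c : E3 → ℝ} (h : Sy Γ n w c) (hw : ∀ z ∈ Γ.Dm, w z = w' z) :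
    Sy Γ n w' c :=
  h.mono (K := 1) zero_le_one fun z hz => by rw [hw z hz, one_mul]

lemma Sy0.add {w c d : E3 → ℝ} (h : Sy0 Γ w c) (g : Sy0 Γ w d) :
    Sy0 Γ w (fun z => c z + d z) := by
  obtain ⟨C, hC, hb⟩ := h.2
  obtain ⟨C', hC', hb'⟩ := g.2
  refine ⟨h.1.add g.1, C + C', add_nonneg hC hC', fun z hz => ?_⟩
  rw [add_mul]
  exact (abs_add_le _ _).trans (add_le_add (hb z hz) (hb' z hz))

lemma Sy.add {n : ℕ} {w c d : E3 → ℝ} (h : Sy Γ n w c) (g : Sy Γ n w d) :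
    Sy Γ n w (fun z => c z + d z) := by
  induction n generalizing w c d with
  | zero => exact Sy0.add h g
  | succ n ih =>
    refine ⟨Sy0.add h.1 g.1, fun i => ?_⟩
    refine (ih (h.2 i) (g.2 i)).congr fun z hz => ?_
    have h1 := h.diffAt hz
    have h2 := g.diffAt hz
    show fderiv ℝ c z (bv i) + fderiv ℝ d z (bv i) = fderiv ℝ (fun z => c z + d z) z (bv i)
    rw [fderiv_fun_add h1 h2]
    rfl

lemma Sy0.mul {w w' c d : E3 → ℝ} (h : Sy0 Γ w c) (g : Sy0 Γ w' d) (hw : ∀ z ∈ Γ.Dm, 0 ≤ w z) :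
    Sy0 Γ (fun z => w z * w' z) (fun z => c z * d z) := by
  obtain ⟨C, hC, hb⟩ := h.2
  obtain ⟨C', hC', hb'⟩ := g.2
  refine ⟨h.1.mul g.1, C * C', mul_nonneg hC hC', fun z hz => ?_⟩
  rw [abs_mul]
  refine (mul_le_mul (hb z hz) (hb' z hz) (abs_nonneg _) (mul_nonneg hC (hw z hz))).trans
    (le_of_eq ?_)
  ring

lemma Sy.mul {n : ℕ} {w w' c d : E3 → ℝ} (h : Sy Γ n w c) (g : Sy Γ n w' d)
    (hw : ∀ z ∈ Γ.Dm, 0 ≤ w z) : Sy Γ n (fun z => w z * w' z) (fun z => c z * d z) := by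
  induction n generalizing w w' c d with
  | zero => exact Sy0.mul h g hw
  | succ n ih =>
    refine ⟨Sy0.mul h.1 g.1 hw, fun i => ?_⟩
    have hw1 : ∀ z ∈ Γ.Dm, 0 ≤ w z / Γ.wt i z := fun z hz =>
      div_nonneg (hw z hz) (Γ.wt_pos i z hz).le
    have a1 := ih (h.2 i) (g.of_le (Nat.le_succ n)) hw1
    have a2 := ih (h.of_le (Nat.le_succ n)) (g.2 i) hw
    have a1' := a1.weq (w' := fun z => w z * w' z / Γ.wt i z) fun z hz => by ring
    have a2' := a2.weq (w' := fun z => w z * w' z / Γ.wt i z) fun z hz => by ring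
    refine (a2'.add a1').congr fun z hz => ?_
    have h1 := h.diffAt hz
    have h2 := g.diffAt hz
    show c z * fderiv ℝ d z (bv i) + fderiv ℝ c z (bv i) * d z =
      fderiv ℝ (fun z => c z * d z) z (bv i)
    rw [fderiv_fun_mul h1 h2]
    simp only [_root_.add_apply, _root_.smul_apply, smul_eq_mul]
    ring

lemma pdi_const (i : Fin 3) (a : ℝ) (z : E3) : pdi i (fun _ => a) z = 0 := by
  rw [pdi, fderiv_fun_const]; rfl

lemma Sy.zero_fun (n : ℕ) {w : E3 → ℝ} (hw : ∀ z ∈ Γ.Dm, 0 ≤ w z) : Sy Γ n w (fun _ => 0) := by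
  induction n generalizing w with
  | zero => exact ⟨contDiffOn_const, 0, le_rfl, fun z hz => by simp⟩
  | succ n ih =>
    refine ⟨⟨contDiffOn_const, 0, le_rfl, fun z hz => by simp⟩, fun i => ?_⟩
    have := ih (w := fun z => w z / Γ.wt i z) fun z hz => div_nonneg (hw z hz) (Γ.wt_pos i z hz).le
    exact this.congr fun z hz => (pdi_const i 0 z).symm

lemma Sy.const (n : ℕ) (a : ℝ) : Sy Γ n (fun _ => 1) (fun _ => a) := by
  cases n with
  | zero => exact ⟨contDiffOn_const, |a|, abs_nonneg a, fun z hz => by simp⟩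
  | succ n =>
    refine ⟨⟨contDiffOn_const, |a|, abs_nonneg a, fun z hz => by simp⟩, fun i => ?_⟩
    have := Sy.zero_fun (Γ := Γ) n (w := fun z => 1 / Γ.wt i z)
      fun z hz => div_nonneg zero_le_one (Γ.wt_pos i z hz).le
    exact this.congr fun z hz => (pdi_const i a z).symm

lemma Sy.smul {n : ℕ} {w c : E3 → ℝ} (a : ℝ) (h : Sy Γ n w c) :
    Sy Γ n w (fun z => a * c z) := by
  have := (Sy.const (Γ := Γ) n a).mul h fun z hz => zero_le_one
  exact this.weq fun z hz => by ring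

lemma Sy.neg {n : ℕ} {w c : E3 → ℝ} (h : Sy Γ n w c) : Sy Γ n w (fun z => - c z) :=
  (h.smul (-1)).congr fun z hz => by ring

lemma Sy.sub {n : ℕ} {w c d : E3 → ℝ} (h : Sy Γ n w c) (g : Sy Γ n w d) :
    Sy Γ n w (fun z => c z - d z) :=
  (h.add g.neg).congr fun z hz => by ring

/-- inverse. -/
lemma Sy.inv {n : ℕ} {w c : E3 → ℝ} (h : Sy Γ n w c) (hw : ∀ z ∈ Γ.Dm, 0 < w z)
    (hc : ∀ z ∈ Γ.U, 0 < c z) {ε : ℝ} (hε : 0 < ε) (hlow : ∀ z ∈ Γ.Dm, ε * w z ≤ c z) :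
    Sy Γ n (fun z => (w z)⁻¹) (fun z => (c z)⁻¹) := by
  induction n with
  | zero =>
    refine ⟨h.smooth.inv fun z hz => (hc z hz).ne', ε⁻¹, by positivity, fun z hz => ?_⟩
    have h1 := hw z hz
    have h2 := hc z (Γ.sub hz)
    rw [abs_of_pos (inv_pos.2 h2), ← mul_inv]
    exact inv_anti₀ (mul_pos hε h1) (hlow z hz)
  | succ n ih =>
    refine ⟨⟨h.smooth.inv fun z hz => (hc z hz).ne', ε⁻¹, by positivity, fun z hz => ?_⟩,
      fun i => ?_⟩
    · have h1 := hw z hz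
      have h2 := hc z (Γ.sub hz)
      rw [abs_of_pos (inv_pos.2 h2), ← mul_inv]
      exact inv_anti₀ (mul_pos hε h1) (hlow z hz)
    · have a := ih (h.of_le (Nat.le_succ n))
      have hwi : ∀ z ∈ Γ.Dm, 0 ≤ (w z)⁻¹ := fun z hz => (inv_pos.2 (hw z hz)).le
      have b := ((a.mul a hwi).mul (h.2 i) fun z hz => mul_nonneg (hwi z hz) (hwi z hz)).neg
      refine (b.weq (w' := fun z => (w z)⁻¹ / Γ.wt i z) fun z hz => ?_).congr fun z hz => ?_
      · have := (hw z hz).ne'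
        have := (Γ.wt_pos i z hz).ne'
        field_simp
      · have h1 := h.diffAt hz
        have h2 : HasFDerivAt (fun z => (c z)⁻¹) (-((c z) ^ 2)⁻¹ • fderiv ℝ c z) z := by
          have := (hasDerivAt_inv (hc z hz).ne').comp_hasFDerivAt z h1.hasFDerivAt
          exact this
        rw [pdi, pdi, h2.fderiv]
        simp only [_root_.smul_apply, smul_eq_mul]
        have := (hc z hz).ne'
        field_simp

/-- square root. -/
lemma Sy.sqrt {n : ℕ} {w c : E3 → ℝ} (h : Sy Γ n w c) (hw : ∀ z ∈ Γ.Dm, 0 < w z)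
    (hc : ∀ z ∈ Γ.U, 0 < c z) {ε : ℝ} (hε : 0 < ε) (hlow : ∀ z ∈ Γ.Dm, ε * w z ≤ c z) :
    Sy Γ n (fun z => √(w z)) (fun z => √(c z)) := by
  have h0 : Sy0 Γ (fun z => √(w z)) (fun z => √(c z)) := by
    obtain ⟨C, hC, hb⟩ := h.bd
    refine ⟨h.smooth.sqrt fun z hz => (hc z hz).ne', √C, Real.sqrt_nonneg _, fun z hz => ?_⟩
    rw [abs_of_nonneg (Real.sqrt_nonneg _), ← Real.sqrt_mul hC]
    exact Real.sqrt_le_sqrt ((le_abs_self _).trans (hb z hz))
  induction n with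
  | zero => exact h0
  | succ n ih =>
    refine ⟨h0, fun i => ?_⟩
    have a := ih (h.of_le (Nat.le_succ n))
    have b := a.inv (fun z hz => Real.sqrt_pos.2 (hw z hz)) (fun z hz => Real.sqrt_pos.2 (hc z hz))
      (ε := √ε) (Real.sqrt_pos.2 hε) fun z hz => by
        rw [← Real.sqrt_mul hε.le]
        exact Real.sqrt_le_sqrt (hlow z hz)
    have d := (b.mul (h.2 i) fun z hz => (inv_pos.2 (Real.sqrt_pos.2 (hw z hz))).le).smul (1 / 2)
    refine (d.weq (w' := fun z => √(w z) / Γ.wt i z) fun z hz => ?_).congr fun z hz => ?_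
    · have h1 := (hw z hz)
      have h2 := (Real.sqrt_pos.2 h1).ne'
      have h3 := (Γ.wt_pos i z hz).ne'
      have h4 := Real.mul_self_sqrt h1.le
      field_simp
      nlinarith
    · have h1 := h.diffAt hz
      have h2 := h1.hasFDerivAt.sqrt (hc z hz).ne'
      rw [pdi, pdi, h2.fderiv]
      simp only [_root_.smul_apply, smul_eq_mul]
      have := (Real.sqrt_pos.2 (hc z hz)).ne'
      field_simp

end Crest.Agent.R249.Sym467
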