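import Crest.Agent.R249.Sym1_467

/-!
# R249 (helper467), A2-ETA part 7: the weights on the region `k = 1 - g₁ η² + g₂ η⁴ - m ≥ 0`

`Pm` : the parameters `g₁, g₂`; `Reg γ` : the region in `(η, m, G)`; `om`, `ss` : the basic weights;
`wm a b c e = m^a √ω^b √(m²+G)^c √(1+G)^e`; `wm_dom` : domination by three integer inequalities;
`geo γ R` : the geometry, atoms `sy_eta`, `sy_m`, `sy_k`, `sy_G`.
-/

set_option autoImplicit false
set_option linter.unusedVariables false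
set_option linter.unusedSectionVars false

open MeasureTheory Set Filter Topology Matrix
open scoped ContDiff

noncomputable section

namespace Crest.Agent.R249.Sym467

open DivC467 Eta467

/-- the parameters of the obstacle curve. -/
structure Pm where
  g1 : ℝ
  g2 : ℝ
  h1 : 0 < g1
  h2 : g1 ≤ 1 / 4
  h3 : 0 ≤ g2
  h4 : 8 * g2 ≤ g1

/-- `k = 1 - g₁ η² + g₂ η⁴ - m`. -/
def kf (γ : Pm) (z : E3) : ℝ := 1 - γ.g1 * z.1 ^ 2 + γ.g2 * z.1 ^ 4 - z.2.1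

/-- the region (scaled unknowns `0 ≤ u, v ≤ 10/7`). -/
structure InReg (γ : Pm) (z : E3) : Prop where
  m0 : 0 < z.2.1
  em : |z.1| ≤ 2 * z.2.1
  bx : z.2.1 + |z.1| / 2 ≤ 10 / 7
  k0 : 0 ≤ kf γ z
  G0 : 0 ≤ z.2.2
  ns : 0 < z.1 ^ 2 + kf γ z + z.2.2

/-- the region. -/
def Reg (γ : Pm) : Set E3 := {z | InReg γ z}

/-- `ω`, the distance to `(1, 1)` with zero gradient. -/
def om (γ : Pm) (z : E3) : ℝ := (z.1 ^ 2 + kf γ z + z.2.2) / (1 + z.2.2)

/-- `m² + G`. -/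
def ss (z : E3) : ℝ := z.2.1 ^ 2 + z.2.2

section ineq

variable {γ : Pm} {z : E3} (hz : z ∈ Reg γ)

include hz

lemma eta_sq_le : z.1 ^ 2 ≤ 4 := by
  have h1 := hz.em
  have h2 := hz.bx
  have h3 := abs_nonneg z.1
  rw [← sq_abs]
  nlinarith

lemma kf_le : kf γ z ≤ 1 - γ.g1 / 2 * z.1 ^ 2 - z.2.1 := by
  have h1 := eta_sq_le hz
  have h2 := γ.h1
  have h3 := γ.h3
  have h4 := γ.h4
  have h5 : γ.g2 * z.1 ^ 2 ≤ γ.g1 / 2 := by nlinarith
  have h6 : γ.g2 * z.1 ^ 4 ≤ γ.g1 / 2 * z.1 ^ 2 := by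
    have : γ.g2 * z.1 ^ 4 = γ.g2 * z.1 ^ 2 * z.1 ^ 2 := by ring
    rw [this]
    exact mul_le_mul_of_nonneg_right h5 (sq_nonneg _)
  unfold kf
  linarith

lemma m_le : z.2.1 ≤ 1 := by
  have h1 := kf_le hz
  have h2 := hz.k0
  have h3 := γ.h1
  nlinarith [sq_nonneg z.1]

lemma gg_pos : 0 < 1 + z.2.2 := by
  have := hz.G0
  linarith

lemma om_pos : 0 < om γ z := div_pos hz.ns (gg_pos hz)

lemma ss_pos : 0 < ss z := by
  have := hz.m0
  have := hz.G0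
  unfold ss
  positivity

lemma eta_sq_le_m : z.1 ^ 2 ≤ 4 * z.2.1 ^ 2 := by
  have := abs_le.1 hz.em
  nlinarith

lemma kf_le_one : kf γ z ≤ 1 := by
  have h1 := kf_le hz
  have h2 := hz.m0
  have h3 := γ.h1
  nlinarith [sq_nonneg z.1]

/-- `1 - m ≤ k + g₁ η²`, `k + g₁/2 η² ≤ 1 - m`. -/
lemma n_ge : kf γ z + γ.g1 / 2 * z.1 ^ 2 ≤ 1 - z.2.1 := by
  have h1 := kf_le hz
  linarith

lemma om_le : om γ z ≤ 5 := by
  rw [om, div_le_iff₀ (gg_pos hz)]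
  have h1 := eta_sq_le hz
  have h2 := kf_le_one hz
  have h4 := hz.G0
  linarith

lemma k_le_om : kf γ z ≤ om γ z := by
  rw [om, le_div_iff₀ (gg_pos hz)]
  have h2 := kf_le_one hz
  have h4 := hz.G0
  nlinarith [sq_nonneg z.1]

lemma eta_le_om : z.1 ^ 2 / 4 ≤ om γ z := by
  rw [om, le_div_iff₀ (gg_pos hz)]
  have h1 := eta_sq_le hz
  have h3 := hz.k0
  have h4 := hz.G0
  nlinarith [sq_nonneg z.1]

lemma k_ge_of_small (hm : z.2.1 < 1 / 4) : 1 / 2 ≤ kf γ z := by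
  have h1 := eta_sq_le_m hz
  have h0 := hz.m0
  have h2 := γ.h1
  have h3 := γ.h2
  have h4 := γ.h3
  have h5 : z.1 ^ 2 ≤ 1 / 4 := by nlinarith
  have h6 : 0 ≤ γ.g2 * z.1 ^ 4 := by positivity
  have h7 : γ.g1 * z.1 ^ 2 ≤ 1 / 4 * (1 / 4) := mul_le_mul h3 h5 (sq_nonneg _) (by norm_num)
  unfold kf
  linarith

lemma om_ge_of_small (hm : z.2.1 < 1 / 4) : 1 / 2 ≤ om γ z := by
  rw [om, le_div_iff₀ (gg_pos hz)]
  have h1 := k_ge_of_small hz hm
  have h4 := hz.G0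
  nlinarith [sq_nonneg z.1]

/-- `η² ≤ 64 m² ω`. -/
lemma eta_sq_le_wt : z.1 ^ 2 ≤ 64 * (z.2.1 ^ 2 * om γ z) := by
  have h0 := hz.m0
  have ho := om_pos hz
  rcases lt_or_ge z.2.1 (1 / 4) with hm | hm
  · have h1 := om_ge_of_small hz hm
    have h2 := eta_sq_le_m hz
    have h3 : z.2.1 ^ 2 * (1 / 2) ≤ z.2.1 ^ 2 * om γ z := mul_le_mul_of_nonneg_left h1 (sq_nonneg _)
    nlinarith [sq_nonneg z.2.1]
  · have h1 := eta_le_om hz
    have h2 : (1 / 16 : ℝ) ≤ z.2.1 ^ 2 := by nlinarith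
    have h3 : 1 / 16 * (z.1 ^ 2 / 4) ≤ z.2.1 ^ 2 * om γ z :=
      mul_le_mul h2 h1 (by positivity) (sq_nonneg _)
    linarith

/-- `G ≤ 16 ω (m² + G)`. -/
lemma G_le_wt : z.2.2 ≤ 16 * (om γ z * ss z) := by
  have h0 := hz.m0
  have h4 := hz.G0
  have ho := om_pos hz
  rcases lt_or_ge z.2.1 (1 / 4) with hm | hm
  · have h1 := om_ge_of_small hz hm
    have h2 : z.2.2 ≤ ss z := by unfold ss; nlinarith
    have h3 : 1 / 2 * z.2.2 ≤ om γ z * ss z := mul_le_mul h1 h2 h4 ho.le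
    linarith
  · have hg := gg_pos hz
    have h1 : z.2.2 / (1 + z.2.2) ≤ om γ z := by
      rw [om]
      apply div_le_div_of_nonneg_right _ hg.le
      have := hz.k0
      nlinarith [sq_nonneg z.1]
    have h2 : 1 / 16 * (1 + z.2.2) ≤ ss z := by unfold ss; nlinarith
    have h3 : z.2.2 / (1 + z.2.2) * (1 / 16 * (1 + z.2.2)) ≤ om γ z * ss z :=
      mul_le_mul h1 h2 (by positivity) ho.le
    have h5 : z.2.2 / (1 + z.2.2) * (1 / 16 * (1 + z.2.2)) = z.2.2 / 16 := by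
      field_simp
    linarith

/-- `ω (m² + G) ≤ (η² + k) m² + 6 G`. -/
lemma wt_le : om γ z * ss z ≤ (z.1 ^ 2 + kf γ z) * z.2.1 ^ 2 + 6 * z.2.2 := by
  have hg := gg_pos hz
  have h1 := eta_sq_le hz
  have h2 := kf_le_one hz
  have h3 := hz.k0
  have h4 := hz.G0
  have hm := m_le hz
  have h0 := hz.m0
  rw [om, ss, div_mul_eq_mul_div, div_le_iff₀ hg]
  have hm2 : z.2.1 ^ 2 ≤ 1 := by nlinarith
  have a : 0 ≤ z.1 ^ 2 + kf γ z := by positivity
  have b : z.1 ^ 2 + kf γ z ≤ 5 := by linarith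
  have e1 : (z.1 ^ 2 + kf γ z) * z.2.2 ≤ 5 * z.2.2 := mul_le_mul_of_nonneg_right b h4
  have e2 : z.2.2 * z.2.1 ^ 2 ≤ z.2.2 := by nlinarith
  have e3 : 0 ≤ (z.1 ^ 2 + kf γ z) * z.2.1 ^ 2 * z.2.2 := by positivity
  nlinarith [sq_nonneg z.2.2]

lemma ss_le_gg : ss z ≤ 1 + z.2.2 := by
  have hm := m_le hz
  have h0 := hz.m0
  unfold ss
  nlinarith

lemma m_gg_le_ss : z.2.1 ^ 2 * (1 + z.2.2) ≤ ss z := by
  have hm := m_le hz
  have h0 := hz.m0
  have h4 := hz.G0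
  have hm2 : z.2.1 ^ 2 ≤ 1 := by nlinarith
  unfold ss
  nlinarith

end ineq

/-! ### monomial weights -/

/-- monomial weights. -/
def wm (γ : Pm) (a b c e : ℤ) (z : E3) : ℝ :=
  z.2.1 ^ a * √(om γ z) ^ b * √(ss z) ^ c * √(1 + z.2.2) ^ e

section wm

variable {γ : Pm} {z : E3} (hz : z ∈ Reg γ)

include hz

lemma wm_pos (a b c e : ℤ) : 0 < wm γ a b c e z := by
  have h1 := hz.m0
  have h2 := Real.sqrt_pos.2 (om_pos hz)
  have h3 := Real.sqrt_pos.2 (ss_pos hz)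
  have h4 := Real.sqrt_pos.2 (gg_pos hz)
  unfold wm
  positivity

lemma wm_mul (a b c e a' b' c' e' : ℤ) :
    wm γ a b c e z * wm γ a' b' c' e' z = wm γ (a + a') (b + b') (c + c') (e + e') z := by
  have h1 := hz.m0.ne'
  have h2 := (Real.sqrt_pos.2 (om_pos hz)).ne'
  have h3 := (Real.sqrt_pos.2 (ss_pos hz)).ne'
  have h4 := (Real.sqrt_pos.2 (gg_pos hz)).ne'
  unfold wm
  rw [zpow_add₀ h1, zpow_add₀ h2, zpow_add₀ h3, zpow_add₀ h4]
  ring

lemma wm_div (a b c e a' b' c' e' : ℤ) :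
    wm γ a b c e z / wm γ a' b' c' e' z = wm γ (a - a') (b - b') (c - c') (e - e') z := by
  rw [div_eq_iff (wm_pos hz _ _ _ _).ne', wm_mul hz]
  congr 1 <;> ring

lemma wm_inv (a b c e : ℤ) : (wm γ a b c e z)⁻¹ = wm γ (-a) (-b) (-c) (-e) z := by
  rw [inv_eq_one_div, div_eq_iff (wm_pos hz _ _ _ _).ne', wm_mul hz]
  simp [wm]

lemma wm_sqrt (a b c e : ℤ) : √(wm γ (2 * a) (2 * b) (2 * c) (2 * e) z) = wm γ a b c e z := by
  have h : wm γ (2 * a) (2 * b) (2 * c) (2 * e) z = wm γ a b c e z ^ 2 := by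
    rw [sq, wm_mul hz]; congr 1 <;> ring
  rw [h, Real.sqrt_sq (wm_pos hz _ _ _ _).le]

/-- boundedness. -/
lemma wm_le (a b c e : ℤ) (hb : 0 ≤ b) (h1 : c + e ≤ 0) (h2 : 0 ≤ a + min 0 c) :
    wm γ a b c e z ≤ 3 ^ b.toNat := by
  have hm0 := hz.m0
  have hm1 := m_le hz
  have ho := Real.sqrt_pos.2 (om_pos hz)
  have hs := Real.sqrt_pos.2 (ss_pos hz)
  have hg := Real.sqrt_pos.2 (gg_pos hz)
  have hg1 : 1 ≤ √(1 + z.2.2) := by
    rw [Real.one_le_sqrt]; have := hz.G0; linarith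
  have ho3 : √(om γ z) ≤ 3 := by
    rw [Real.sqrt_le_left (by norm_num)]
    have := om_le hz
    linarith
  have e1 : √(om γ z) ^ b ≤ 3 ^ b.toNat := by
    obtain ⟨n, rfl⟩ := Int.eq_ofNat_of_zero_le hb
    simp only [Int.toNat_natCast, zpow_natCast]
    exact pow_le_pow_left₀ ho.le ho3 n
  have key : z.2.1 ^ a * √(ss z) ^ c * √(1 + z.2.2) ^ e ≤ 1 := by
    rcases le_or_gt 0 c with hc | hc
    · rw [min_eq_left hc, add_zero] at h2
      have k1 : z.2.1 ^ a ≤ 1 := by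
        obtain ⟨n, rfl⟩ := Int.eq_ofNat_of_zero_le h2
        rw [zpow_natCast]; exact pow_le_one₀ hm0.le hm1
      have k2 : √(ss z) ^ c ≤ √(1 + z.2.2) ^ c := by
        obtain ⟨n, rfl⟩ := Int.eq_ofNat_of_zero_le hc
        rw [zpow_natCast, zpow_natCast]
        exact pow_le_pow_left₀ hs.le (Real.sqrt_le_sqrt (ss_le_gg hz)) n
      have k3 : √(1 + z.2.2) ^ c * √(1 + z.2.2) ^ e ≤ 1 := by
        rw [← zpow_add₀ hg.ne']
        exact zpow_le_one_of_nonpos₀ hg1 h1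
      calc z.2.1 ^ a * √(ss z) ^ c * √(1 + z.2.2) ^ e
          = z.2.1 ^ a * (√(ss z) ^ c * √(1 + z.2.2) ^ e) := by ring
        _ ≤ 1 * (√(1 + z.2.2) ^ c * √(1 + z.2.2) ^ e) := by
            apply mul_le_mul k1 _ (by positivity) zero_le_one
            exact mul_le_mul_of_nonneg_right k2 (by positivity)
        _ ≤ 1 := by rw [one_mul]; exact k3
    · rw [min_eq_right hc.le] at h2
      obtain ⟨n, hn⟩ := Int.eq_ofNat_of_zero_le (show 0 ≤ -c by omega)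
      have hc' : c = -(n : ℤ) := by omega
      subst hc'
      have k2 : √(ss z) ^ (-(n : ℤ)) ≤ (z.2.1 * √(1 + z.2.2)) ^ (-(n : ℤ)) := by
        rw [_root_.zpow_neg, _root_.zpow_neg, zpow_natCast, zpow_natCast]
        apply inv_anti₀ (by positivity)
        apply pow_le_pow_left₀ (by positivity)
        rw [Real.le_sqrt (by positivity) (ss_pos hz).le, mul_pow, Real.sq_sqrt (gg_pos hz).le]
        exact m_gg_le_ss hz
      have k3 : √(1 + z.2.2) ^ (-(n : ℤ)) * √(1 + z.2.2) ^ e ≤ 1 := by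
        rw [← zpow_add₀ hg.ne']
        exact zpow_le_one_of_nonpos₀ hg1 h1
      have k1 : z.2.1 ^ a * z.2.1 ^ (-(n : ℤ)) ≤ 1 := by
        rw [← zpow_add₀ hm0.ne']
        obtain ⟨l, hl⟩ := Int.eq_ofNat_of_zero_le h2
        rw [hl, zpow_natCast]; exact pow_le_one₀ hm0.le hm1
      calc z.2.1 ^ a * √(ss z) ^ (-(n : ℤ)) * √(1 + z.2.2) ^ e
          ≤ z.2.1 ^ a * (z.2.1 * √(1 + z.2.2)) ^ (-(n : ℤ)) * √(1 + z.2.2) ^ e := by
            apply mul_le_mul_of_nonneg_right _ (by positivity)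
            exact mul_le_mul_of_nonneg_left k2 (by positivity)
        _ = (z.2.1 ^ a * z.2.1 ^ (-(n : ℤ))) *
              (√(1 + z.2.2) ^ (-(n : ℤ)) * √(1 + z.2.2) ^ e) := by
            rw [mul_zpow]; ring
        _ ≤ 1 * 1 := mul_le_mul k1 k3 (by positivity) zero_le_one
        _ = 1 := one_mul 1
  calc wm γ a b c e z = √(om γ z) ^ b * (z.2.1 ^ a * √(ss z) ^ c * √(1 + z.2.2) ^ e) := by
        unfold wm; ring
    _ ≤ 3 ^ b.toNat * 1 := mul_le_mul e1 key (by positivity) (by positivity)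
    _ = _ := mul_one _

/-- **domination.** -/
lemma wm_dom {a b c e a' b' c' e' : ℤ} (hb : b' ≤ b) (h1 : c + e ≤ c' + e')
    (h2 : 0 ≤ a - a' + min 0 (c - c')) :
    wm γ a b c e z ≤ 3 ^ (b - b').toNat * wm γ a' b' c' e' z := by
  have h3 := wm_le hz (a - a') (b - b') (c - c') (e - e') (by omega) (by omega) h2
  have h4 := wm_div hz a b c e a' b' c' e'
  rw [← h4, div_le_iff₀ (wm_pos hz _ _ _ _)] at h3
  exact h3

end wm

end Crest.Agent.R249.Sym467
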