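import Crest.Agent.R249.Sym2_467

/-!
# R249 (helper467), A2-ETA part 8: the atoms of the symbol class

`geo γ R` : open set `{m > 0, G > -1, R > 0}`, domain `Reg γ`;
`SY n a b c e f` : `f` is a symbol of weight `m^a √ω^b √(m²+G)^c √(1+G)^e` (order `n`).
Atoms: `η (1,1,0,0)`, `m (1,0,0,0)`, `m⁻¹ (-1,0,0,0)`, `k (0,2,0,0)`, `1 - m (0,2,0,0)`, `G (0,2,2,0)`,
`√R (0,1,1,0)`, `1/√R (0,-1,-1,0)` if `R ≥ ε ω (m²+G)`.
-/

set_option autoImplicit false
set_option linter.unusedVariables false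
set_option linter.unusedSectionVars false

open MeasureTheory Set Filter Topology Matrix
open scoped ContDiff

noncomputable section

namespace Crest.Agent.R249.Sym467

open DivC467 Eta467

/-- a radicand. -/
structure Rd (γ : Pm) where
  R : E3 → ℝ
  smooth : ContDiff ℝ ∞ R
  pos : ∀ z ∈ Reg γ, 0 < R z

variable {γ : Pm}

/-- the geometry. -/
def geo (ρ : Rd γ) : Geo where
  U := {z | 0 < z.2.1 ∧ 0 < 1 + z.2.2 ∧ 0 < ρ.R z}
  Dm := Reg γ
  wt := ![wm γ 1 1 0 0, wm γ 1 2 0 0, wm γ 0 2 2 0]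
  hU := by
    have h1 : IsOpen {z : E3 | 0 < z.2.1} := isOpen_lt continuous_const (by fun_prop)
    have h2 : IsOpen {z : E3 | 0 < 1 + z.2.2} := isOpen_lt continuous_const (by fun_prop)
    have h3 : IsOpen {z : E3 | 0 < ρ.R z} := isOpen_lt continuous_const ρ.smooth.continuous
    exact h1.inter (h2.inter h3)
  sub := fun z hz => ⟨hz.m0, gg_pos hz, ρ.pos z hz⟩
  wt_pos := fun i z hz => by
    fin_cases i <;> exact wm_pos hz _ _ _ _

/-- symbols of monomial weight. -/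
def SY (ρ : Rd γ) (n : ℕ) (a b c e : ℤ) (f : E3 → ℝ) : Prop := Sy (geo ρ) n (wm γ a b c e) f

variable {ρ : Rd γ} {n : ℕ} {a b c e a' b' c' e' : ℤ} {f g : E3 → ℝ}

lemma mem_Dm {z : E3} : z ∈ (geo ρ).Dm ↔ z ∈ Reg γ := Iff.rfl

lemma SY.congr (h : SY ρ n a b c e f) (hfg : ∀ z ∈ (geo ρ).U, f z = g z) : SY ρ n a b c e g :=
  Sy.congr h hfg

lemma SY.congr' (h : SY ρ n a b c e f) (hfg : ∀ z, f z = g z) : SY ρ n a b c e g :=
  Sy.congr h fun z _ => hfg z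

lemma SY.add (h : SY ρ n a b c e f) (h' : SY ρ n a b c e g) :
    SY ρ n a b c e (fun z => f z + g z) := Sy.add h h'

lemma SY.sub (h : SY ρ n a b c e f) (h' : SY ρ n a b c e g) :
    SY ρ n a b c e (fun z => f z - g z) := Sy.sub h h'

lemma SY.neg (h : SY ρ n a b c e f) : SY ρ n a b c e (fun z => - f z) := Sy.neg h

lemma SY.smul (t : ℝ) (h : SY ρ n a b c e f) : SY ρ n a b c e (fun z => t * f z) := Sy.smul t h

lemma SY.mul (h : SY ρ n a b c e f) (h' : SY ρ n a' b' c' e' g) :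
    SY ρ n (a + a') (b + b') (c + c') (e + e') (fun z => f z * g z) :=
  (Sy.mul h h' fun z hz => (wm_pos hz _ _ _ _).le).weq fun z hz => wm_mul hz _ _ _ _ _ _ _ _

/-- domination. -/
lemma SY.dom (h : SY ρ n a b c e f) (hb : b' ≤ b) (h1 : c + e ≤ c' + e')
    (h2 : 0 ≤ a - a' + min 0 (c - c')) : SY ρ n a' b' c' e' f :=
  Sy.mono h (K := 3 ^ (b - b').toNat) (by positivity) fun z hz => wm_dom hz hb h1 h2

lemma SY.cast (h : SY ρ n a b c e f) (ha : a = a') (hb : b = b') (hc : c = c') (he : e = e') :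
    SY ρ n a' b' c' e' f := by
  subst ha hb hc he; exact h

lemma wm_zero {z : E3} : wm γ 0 0 0 0 z = 1 := by simp [wm]

lemma SY.const (t : ℝ) : SY ρ n 0 0 0 0 (fun _ => t) :=
  (Sy.const (Γ := geo ρ) n t).weq fun z _ => wm_zero.symm

lemma SY.zero : SY ρ n a b c e (fun _ => 0) :=
  Sy.zero_fun n fun z hz => (wm_pos hz _ _ _ _).le

/-- recursion for atoms. -/
lemma SY.succ (h0 : ContDiff ℝ ∞ f) {C : ℝ} (hC : 0 ≤ C) (hb : ∀ z ∈ Reg γ, |f z| ≤ C * wm γ a b c e z)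
    (h1 : SY ρ n (a - 1) (b - 1) c e (pdi 0 f)) (h2 : SY ρ n (a - 1) (b - 2) c e (pdi 1 f))
    (h3 : SY ρ n a (b - 2) (c - 2) e (pdi 2 f)) : SY ρ (n + 1) a b c e f := by
  refine ⟨⟨h0.contDiffOn, C, hC, hb⟩, fun i => ?_⟩
  fin_cases i
  · exact (Sy.weq h1 fun z hz => ((wm_div hz a b c e 1 1 0 0).trans (by simp)).symm)
  · exact (Sy.weq h2 fun z hz => ((wm_div hz a b c e 1 2 0 0).trans (by simp)).symm)
  · exact (Sy.weq h3 fun z hz => ((wm_div hz a b c e 0 2 2 0).trans (by simp)).symm)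

lemma SY.all {f : E3 → ℝ} (h0 : ContDiff ℝ ∞ f) {C : ℝ} (hC : 0 ≤ C)
    (hb : ∀ z ∈ Reg γ, |f z| ≤ C * wm γ a b c e z)
    (h1 : ∀ n, SY ρ n (a - 1) (b - 1) c e (pdi 0 f)) (h2 : ∀ n, SY ρ n (a - 1) (b - 2) c e (pdi 1 f))
    (h3 : ∀ n, SY ρ n a (b - 2) (c - 2) e (pdi 2 f)) (n : ℕ) : SY ρ n a b c e f := by
  cases n with
  | zero => exact ⟨h0.contDiffOn, C, hC, hb⟩
  | succ n => exact SY.succ h0 hC hb (h1 n) (h2 n) (h3 n)

/-! ### the atoms -/

lemma fderiv_fst (z v : E3) : fderiv ℝ (fun z : E3 => z.1) z v = v.1 := by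
  have : fderiv ℝ (fun z : E3 => z.1) z = ContinuousLinearMap.fst ℝ ℝ (ℝ × ℝ) :=
    (ContinuousLinearMap.fst ℝ ℝ (ℝ × ℝ)).fderiv
  rw [this]; rfl

lemma fderiv_snd1 (z v : E3) : fderiv ℝ (fun z : E3 => z.2.1) z v = v.2.1 := by
  have : fderiv ℝ (fun z : E3 => z.2.1) z =
      (ContinuousLinearMap.fst ℝ ℝ ℝ).comp (ContinuousLinearMap.snd ℝ ℝ (ℝ × ℝ)) :=
    ((ContinuousLinearMap.fst ℝ ℝ ℝ).comp (ContinuousLinearMap.snd ℝ ℝ (ℝ × ℝ))).fderiv
  rw [this]; rfl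

lemma fderiv_snd2 (z v : E3) : fderiv ℝ (fun z : E3 => z.2.2) z v = v.2.2 := by
  have : fderiv ℝ (fun z : E3 => z.2.2) z =
      (ContinuousLinearMap.snd ℝ ℝ ℝ).comp (ContinuousLinearMap.snd ℝ ℝ (ℝ × ℝ)) :=
    ((ContinuousLinearMap.snd ℝ ℝ ℝ).comp (ContinuousLinearMap.snd ℝ ℝ (ℝ × ℝ))).fderiv
  rw [this]; rfl

lemma abs_eta_le {z : E3} (hz : z ∈ Reg γ) : |z.1| ≤ 8 * wm γ 1 1 0 0 z := by
  have h := eta_sq_le_wt hz
  have hm := hz.m0
  have ho := om_pos hz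
  have e : wm γ 1 1 0 0 z = z.2.1 * √(om γ z) := by simp [wm]
  rw [e]
  apply abs_le_of_sq_le_sq _ (by positivity)
  rw [mul_pow, mul_pow, Real.sq_sqrt ho.le]
  linarith

/-- `η`. -/
theorem sy_eta (n : ℕ) : SY ρ n 1 1 0 0 (fun z => z.1) := by
  refine SY.all contDiff_fst (C := 8) (by norm_num) (fun z hz => abs_eta_le hz) ?_ ?_ ?_ n
  · intro n
    exact (SY.const (ρ := ρ) (n := n) 1).congr' fun z => by rw [pdi, fderiv_fst]; simp [bv]
  · intro n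
    exact SY.zero.congr' fun z => by rw [pdi, fderiv_fst]; simp [bv]
  · intro n
    exact SY.zero.congr' fun z => by rw [pdi, fderiv_fst]; simp [bv]

/-- `m`. -/
theorem sy_m (n : ℕ) : SY ρ n 1 0 0 0 (fun z => z.2.1) := by
  refine SY.all (by fun_prop) (C := 1) (by norm_num) (fun z hz => ?_) ?_ ?_ ?_ n
  · rw [abs_of_pos hz.m0]; simp [wm]
  · intro n
    exact SY.zero.congr' fun z => by rw [pdi, fderiv_snd1]; simp [bv]
  · intro n
    have h1 : SY ρ n 0 0 0 0 (fun _ => (1:ℝ)) := SY.const 1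
    have h2 : SY ρ n (1 - 1) (0 - 2) 0 0 (fun _ => (1:ℝ)) :=
      h1.dom (by norm_num) (by norm_num) (by norm_num)
    exact h2.congr' fun z => by rw [pdi, fderiv_snd1]; simp [bv]
  · intro n
    exact SY.zero.congr' fun z => by rw [pdi, fderiv_snd1]; simp [bv]

/-- `G`. -/
theorem sy_G (n : ℕ) : SY ρ n 0 2 2 0 (fun z => z.2.2) := by
  refine SY.all (by fun_prop) (C := 16) (by norm_num) (fun z hz => ?_) ?_ ?_ ?_ n
  · rw [abs_of_nonneg hz.G0]
    have h1 := G_le_wt hz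
    have ho := om_pos hz
    have hs := ss_pos hz
    have e : wm γ 0 2 2 0 z = om γ z * ss z := by
      have e1 : √(om γ z) ^ (2:ℤ) = om γ z := by
        rw [show (2:ℤ) = ((2:ℕ):ℤ) from rfl, zpow_natCast, Real.sq_sqrt ho.le]
      have e2 : √(ss z) ^ (2:ℤ) = ss z := by
        rw [show (2:ℤ) = ((2:ℕ):ℤ) from rfl, zpow_natCast, Real.sq_sqrt hs.le]
      rw [wm, e1, e2]; simp
    rw [e]; exact h1
  · intro n
    exact SY.zero.congr' fun z => by rw [pdi, fderiv_snd2]; simp [bv]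
  · intro n
    exact SY.zero.congr' fun z => by rw [pdi, fderiv_snd2]; simp [bv]
  · intro n
    have h1 : SY ρ n 0 0 0 0 (fun _ => (1:ℝ)) := SY.const 1
    exact (h1.cast rfl (by norm_num) (by norm_num) rfl).congr' fun z => by
      rw [pdi, fderiv_snd2]; simp [bv]

/-- `1/m`. -/
theorem sy_minv (n : ℕ) : SY ρ n (-1) 0 0 0 (fun z => (z.2.1)⁻¹) := by
  have h := Sy.inv (sy_m (ρ := ρ) n) (fun z hz => wm_pos hz _ _ _ _) (fun z hz => hz.1)
    (ε := 1) zero_lt_one (fun z hz => by simp [wm])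
  exact h.weq fun z hz => (wm_inv hz _ _ _ _).trans (by simp)

/-- powers. -/
theorem SY.pow (h : SY ρ n a b c e f) (N : ℕ) :
    SY ρ n (N * a) (N * b) (N * c) (N * e) (fun z => f z ^ N) := by
  induction N with
  | zero =>
    refine ((SY.const (ρ := ρ) (n := n) 1).cast ?_ ?_ ?_ ?_).congr' fun z => by simp
    all_goals simp
  | succ N ih =>
    refine ((ih.mul h).cast ?_ ?_ ?_ ?_).congr' fun z => by ring
    all_goals push_cast; ring

/-- `η²`. -/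
theorem sy_eta2 (n : ℕ) : SY ρ n 2 2 0 0 (fun z => z.1 ^ 2) :=
  ((sy_eta n).pow 2).cast (by norm_num) (by norm_num) (by norm_num) (by norm_num)

/-- `k`. -/
theorem sy_k (n : ℕ) : SY ρ n 0 2 0 0 (kf γ) := by
  have hsm : ContDiff ℝ ∞ (kf γ) := by unfold kf; fun_prop
  have hd : ∀ z v : E3, fderiv ℝ (kf γ) z v =
      (-2 * γ.g1 * z.1 + 4 * γ.g2 * z.1 ^ 3) * v.1 - v.2.1 := by
    intro z v
    have h1 : HasFDerivAt (fun z : E3 => z.1) (ContinuousLinearMap.fst ℝ ℝ (ℝ × ℝ)) z :=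
      (ContinuousLinearMap.fst ℝ ℝ (ℝ × ℝ)).hasFDerivAt
    have h2 : HasFDerivAt (fun z : E3 => z.2.1)
        ((ContinuousLinearMap.fst ℝ ℝ ℝ).comp (ContinuousLinearMap.snd ℝ ℝ (ℝ × ℝ))) z :=
      ((ContinuousLinearMap.fst ℝ ℝ ℝ).comp (ContinuousLinearMap.snd ℝ ℝ (ℝ × ℝ))).hasFDerivAt
    have h3 := ((((h1.pow 2).const_mul γ.g1).const_sub 1).add ((h1.pow 4).const_mul γ.g2)).sub h2
    have h4 : HasFDerivAt (kf γ) _ z := h3
    rw [h4.fderiv]
    simp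
    ring
  refine SY.all hsm (C := 1) (by norm_num) (fun z hz => ?_) ?_ ?_ ?_ n
  · rw [abs_of_nonneg hz.k0, one_mul]
    have h1 := k_le_om hz
    have ho := om_pos hz
    have e : wm γ 0 2 0 0 z = om γ z := by
      have e1 : √(om γ z) ^ (2:ℤ) = om γ z := by
        rw [show (2:ℤ) = ((2:ℕ):ℤ) from rfl, zpow_natCast, Real.sq_sqrt ho.le]
      rw [wm, e1]; simp
    rw [e]; exact h1
  · intro n
    have h1 := ((sy_eta (ρ := ρ) n).smul (-2 * γ.g1))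
    have h2 := (((sy_eta (ρ := ρ) n).pow 3).smul (4 * γ.g2))
    have h1' : SY ρ n (-1) 1 0 0 _ := h1.dom (by norm_num) (by norm_num) (by norm_num)
    have h2' : SY ρ n (-1) 1 0 0 _ := h2.dom (by norm_num) (by norm_num) (by norm_num)
    refine ((h1'.add h2').cast (by norm_num) (by norm_num) rfl rfl).congr' fun z => ?_
    rw [pdi, hd]; simp [bv]
  · intro n
    have h1 : SY ρ n 0 0 0 0 (fun _ => (-1:ℝ)) := SY.const (-1)
    have h2 : SY ρ n (0 - 1) (2 - 2) 0 0 (fun _ => (-1:ℝ)) :=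
      h1.dom (by norm_num) (by norm_num) (by norm_num)
    exact h2.congr' fun z => by rw [pdi, hd]; simp [bv]
  · intro n
    exact SY.zero.congr' fun z => by rw [pdi, hd]; simp [bv]

/-- `1 - m`. -/
theorem sy_n (n : ℕ) : SY ρ n 0 2 0 0 (fun z => 1 - z.2.1) := by
  have h1 := sy_k (ρ := ρ) n
  have h2 := ((sy_eta (ρ := ρ) n).pow 2).smul γ.g1
  have h3 := ((sy_eta (ρ := ρ) n).pow 4).smul γ.g2
  have h2' : SY ρ n 0 2 0 0 _ := h2.dom (by norm_num) (by norm_num) (by norm_num)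
  have h3' : SY ρ n 0 2 0 0 _ := h3.dom (by norm_num) (by norm_num) (by norm_num)
  refine ((h1.add h2').sub h3').congr' fun z => ?_
  unfold kf
  ring

/-- `√R`. -/
theorem sy_rho {ε : ℝ} (hR : ∀ n, SY ρ n 0 2 2 0 ρ.R) (hε : 0 < ε)
    (hlow : ∀ z ∈ Reg γ, ε * (om γ z * ss z) ≤ ρ.R z) (n : ℕ) :
    SY ρ n 0 1 1 0 (fun z => √(ρ.R z)) := by
  have h := Sy.sqrt (hR n) (fun z hz => wm_pos hz _ _ _ _) (fun z hz => hz.2.2) hε
    (fun z hz => by
      have ho := om_pos hz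
      have hs := ss_pos hz
      have e : wm γ 0 2 2 0 z = om γ z * ss z := by
        have e1 : √(om γ z) ^ (2:ℤ) = om γ z := by
          rw [show (2:ℤ) = ((2:ℕ):ℤ) from rfl, zpow_natCast, Real.sq_sqrt ho.le]
        have e2 : √(ss z) ^ (2:ℤ) = ss z := by
          rw [show (2:ℤ) = ((2:ℕ):ℤ) from rfl, zpow_natCast, Real.sq_sqrt hs.le]
        rw [wm, e1, e2]; simp
      rw [e]; exact hlow z hz)
  exact h.weq fun z hz => by
    have := wm_sqrt hz 0 1 1 0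
    simpa using this

/-- `1/√R`. -/
theorem sy_rhoinv {ε : ℝ} (hR : ∀ n, SY ρ n 0 2 2 0 ρ.R) (hε : 0 < ε)
    (hlow : ∀ z ∈ Reg γ, ε * (om γ z * ss z) ≤ ρ.R z) (n : ℕ) :
    SY ρ n 0 (-1) (-1) 0 (fun z => (√(ρ.R z))⁻¹) := by
  have h := Sy.inv (sy_rho hR hε hlow n) (fun z hz => wm_pos hz _ _ _ _)
    (fun z hz => Real.sqrt_pos.2 hz.2.2) (ε := √ε) (Real.sqrt_pos.2 hε) (fun z hz => by
      have ho := om_pos hz
      have hs := ss_pos hz
      have e : wm γ 0 1 1 0 z = √(om γ z) * √(ss z) := by simp [wm]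
      rw [e, ← Real.sqrt_mul ho.le, ← Real.sqrt_mul hε.le]
      exact Real.sqrt_le_sqrt (hlow z hz))
  exact h.weq fun z hz => (wm_inv hz _ _ _ _).trans (by simp)

end Crest.Agent.R249.Sym467
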