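import Crest.Agent.R249.Sym3_467

/-!
# R249 (helper467), A2-ETA part 9: bounds away from the singular points

`SyAll ρ A B W` : the regularity hypothesis on the field;
`cfAllP_of_seg` : the weight bounds (`CfAllP`) for pairs of points joined by a segment on which
`m ≥ r`, `ω ≥ r²`.
-/

set_option autoImplicit false
set_option linter.unusedVariables false
set_option linter.unusedSectionVars false

open MeasureTheory Set Filter Topology Matrix
open scoped ContDiff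

noncomputable section

namespace Crest.Agent.R249.Sym467

open DivC467 Eta467

variable {γ : Pm} {ρ : Rd γ} {n : ℕ} {a b c e : ℤ} {f g : E3 → ℝ}

/-- the regularity hypothesis on the field. (Near the corner `m → 0` any loss `m^{-L}` is allowed,
plus the one sided bound of `B`.) -/
structure SyAll (ρ : Rd γ) (A B W : E3 → ℝ) : Prop where
  reg : ∃ L : ℕ, SY ρ 2 (-(L : ℤ)) (-1) 0 2 A ∧ SY ρ 2 (-(L : ℤ)) (-1) 0 2 B ∧
    SY ρ 2 (-(L : ℤ)) (-1) 0 0 W
  low : ∃ C : ℝ, 0 ≤ C ∧ ∀ z ∈ Reg γ, |z.1| < 2 * z.2.1 →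
    -(C * ((√(om γ z))⁻¹ * (1 + z.2.2))) ≤ B z

lemma SY.d0 (h : SY ρ (n + 1) a b c e f) : SY ρ n (a - 1) (b - 1) c e (pd1 f) :=
  (h.2 0).weq fun z hz => (wm_div hz a b c e 1 1 0 0).trans (by simp)

lemma SY.d1 (h : SY ρ (n + 1) a b c e f) : SY ρ n (a - 1) (b - 2) c e (pd2 f) :=
  (h.2 1).weq fun z hz => (wm_div hz a b c e 1 2 0 0).trans (by simp)

lemma SY.d2 (h : SY ρ (n + 1) a b c e f) : SY ρ n a (b - 2) (c - 2) e (pd3 f) :=
  (h.2 2).weq fun z hz => (wm_div hz a b c e 0 2 2 0).trans (by simp)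

lemma zpow_bd {x r : ℝ} (hr : 0 < r) (hr1 : r ≤ 1) (hrx : r ≤ x) (hx : x ≤ 3) (a : ℤ) :
    x ^ a ≤ (3 / r) ^ a.natAbs := by
  have hx0 : 0 < x := hr.trans_le hrx
  rcases le_total 0 a with ha | ha
  · obtain ⟨n, rfl⟩ := Int.eq_ofNat_of_zero_le ha
    rw [zpow_natCast, Int.natAbs_natCast]
    apply pow_le_pow_left₀ hx0.le
    rw [le_div_iff₀ hr]
    nlinarith
  · obtain ⟨n, hn⟩ := Int.eq_ofNat_of_zero_le (show 0 ≤ -a by omega)
    have ha' : a = -(n : ℤ) := by omega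
    subst ha'
    rw [_root_.zpow_neg, zpow_natCast, Int.natAbs_neg, Int.natAbs_natCast, ← inv_pow]
    apply pow_le_pow_left₀ (inv_pos.2 hx0).le
    rw [inv_eq_one_div]
    exact div_le_div₀ (by norm_num) (by norm_num) hr hrx

lemma one_le_3r {r : ℝ} (hr : 0 < r) (hr1 : r ≤ 1) : 1 ≤ 3 / r := by
  rw [le_div_iff₀ hr]; linarith

/-- weights away from the singular points. -/
lemma wm_bd {r : ℝ} (hr : 0 < r) (hr1 : r ≤ 1) {z : E3} (hz : z ∈ Reg γ) (hm : r ≤ z.2.1)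
    (ho : r ^ 2 ≤ om γ z) (a b c e : ℤ) :
    wm γ a b c e z ≤ (3 / r) ^ (a.natAbs + b.natAbs + c.natAbs) * √(1 + z.2.2) ^ (c + e) := by
  have hg := Real.sqrt_pos.2 (gg_pos hz)
  have hs := Real.sqrt_pos.2 (ss_pos hz)
  have hop := Real.sqrt_pos.2 (om_pos hz)
  have e1 := zpow_bd hr hr1 hm ((m_le hz).trans (by norm_num)) a
  have e2 : √(om γ z) ^ b ≤ (3 / r) ^ b.natAbs := by
    refine zpow_bd hr hr1 (Real.le_sqrt_of_sq_le ho) ?_ b
    rw [Real.sqrt_le_left (by norm_num)]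
    have := om_le hz
    linarith
  have e3 : √(ss z) ^ c ≤ (3 / r) ^ c.natAbs * √(1 + z.2.2) ^ c := by
    have h1 : (√(ss z) / √(1 + z.2.2)) ^ c ≤ (3 / r) ^ c.natAbs := by
      refine zpow_bd hr hr1 ?_ ?_ c
      · rw [le_div_iff₀ hg, Real.le_sqrt (by positivity) (ss_pos hz).le, mul_pow,
          Real.sq_sqrt (gg_pos hz).le]
        refine le_trans ?_ (m_gg_le_ss hz)
        exact mul_le_mul_of_nonneg_right (pow_le_pow_left₀ hr.le hm 2) (gg_pos hz).le
      · rw [div_le_iff₀ hg]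
        have := Real.sqrt_le_sqrt (ss_le_gg hz)
        linarith
    rw [div_zpow, div_le_iff₀ (by positivity)] at h1
    exact h1
  have hr3 : 0 < 3 / r := by positivity
  have hm0 := hz.m0
  calc wm γ a b c e z = (z.2.1 ^ a * √(om γ z) ^ b) * (√(ss z) ^ c * √(1 + z.2.2) ^ e) := by
        unfold wm; ring
    _ ≤ ((3 / r) ^ a.natAbs * (3 / r) ^ b.natAbs) *
        ((3 / r) ^ c.natAbs * √(1 + z.2.2) ^ c * √(1 + z.2.2) ^ e) := by
        apply mul_le_mul
        · exact mul_le_mul e1 e2 (by positivity) (by positivity)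
        · exact mul_le_mul_of_nonneg_right e3 (by positivity)
        · positivity
        · positivity
    _ = _ := by rw [zpow_add₀ hg.ne', pow_add, pow_add]; ring

/-- bound of a symbol away from the singular points. -/
lemma SY.bdd (h : SY ρ n a b c e f) {r : ℝ} (hr : 0 < r) (hr1 : r ≤ 1) {i k : ℕ}
    (hl : c + e + 2 * i = 2 * k) : ∃ C : ℝ, 0 ≤ C ∧ ∀ z ∈ Reg γ, r ≤ z.2.1 → r ^ 2 ≤ om γ z →
      |f z| * (1 + z.2.2) ^ i ≤ C * (1 + z.2.2) ^ k := by
  obtain ⟨C, hC, hb⟩ := h.bd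
  refine ⟨C * (3 / r) ^ (a.natAbs + b.natAbs + c.natAbs), by positivity, fun z hz hm ho => ?_⟩
  have h1 := hb z hz
  have h2 := wm_bd hr hr1 hz hm ho a b c e
  have hg := gg_pos hz
  have hgs := Real.sqrt_pos.2 hg
  have e1 : ∀ N : ℕ, (1 + z.2.2) ^ N = √(1 + z.2.2) ^ (2 * (N : ℤ)) := by
    intro N
    have e2 : √(1 + z.2.2) ^ (2:ℤ) = 1 + z.2.2 := by
      rw [show (2:ℤ) = ((2:ℕ):ℤ) from rfl, zpow_natCast, Real.sq_sqrt hg.le]
    rw [_root_.zpow_mul, e2, zpow_natCast]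
  calc |f z| * (1 + z.2.2) ^ i ≤ (C * wm γ a b c e z) * (1 + z.2.2) ^ i :=
        mul_le_mul_of_nonneg_right h1 (by positivity)
    _ ≤ (C * ((3 / r) ^ (a.natAbs + b.natAbs + c.natAbs) * √(1 + z.2.2) ^ (c + e))) *
          (1 + z.2.2) ^ i := by
        apply mul_le_mul_of_nonneg_right _ (by positivity)
        exact mul_le_mul_of_nonneg_left h2 hC
    _ = C * (3 / r) ^ (a.natAbs + b.natAbs + c.natAbs) *
          (√(1 + z.2.2) ^ (c + e) * √(1 + z.2.2) ^ (2 * (i : ℤ))) := by rw [e1 i]; ring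
    _ = _ := by
        rw [← zpow_add₀ hgs.ne', hl, ← e1 k]

/-- the two points are joined by a horizontal segment in the region, away from the singularities. -/
structure Seg (γ : Pm) (r : ℝ) (z z' : E3) : Prop where
  G : z'.2.2 = z.2.2
  mem : ∀ s ∈ Icc (0:ℝ) 1, z + s • (z' - z) ∈ Reg γ
  m : ∀ s ∈ Icc (0:ℝ) 1, r ≤ (z + s • (z' - z)).2.1
  o : ∀ s ∈ Icc (0:ℝ) 1, r ^ 2 ≤ om γ (z + s • (z' - z))

lemma SY.cfp (h : SY ρ (n + 1) a b c e f) {r : ℝ} (hr : 0 < r) (hr1 : r ≤ 1) {i k : ℕ}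
    (hl : c + e + 2 * i = 2 * k) :
    ∃ C : ℝ, 0 ≤ C ∧ ∀ z z', Seg γ r z z' → ∀ C', C ≤ C' → CfP C' i k f z z' := by
  obtain ⟨C0, hC0, hb0⟩ := h.bdd hr hr1 hl
  obtain ⟨C1, hC1, hb1⟩ := h.d0.bdd hr hr1 hl
  obtain ⟨C2, hC2, hb2⟩ := h.d1.bdd hr hr1 hl
  refine ⟨C0 + C1 + C2, by positivity, fun z z' hS C' hC' => ?_⟩
  have hz : z ∈ Reg γ := by simpa using hS.mem 0 (by simp)
  have hz' : z' ∈ Reg γ := by simpa using hS.mem 1 (by simp)
  have hg := gg_pos hz
  have hgk : 0 ≤ (1 + z.2.2) ^ k := by positivity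
  have hmz : r ≤ z.2.1 := by simpa using hS.m 0 (by simp)
  have hmz' : r ≤ z'.2.1 := by simpa using hS.m 1 (by simp)
  have hoz : r ^ 2 ≤ om γ z := by simpa using hS.o 0 (by simp)
  have hoz' : r ^ 2 ≤ om γ z' := by simpa using hS.o 1 (by simp)
  have h0 := hb0 z hz hmz hoz
  have h0' := hb0 z' hz' hmz' hoz'
  rw [hS.G] at h0'
  refine ⟨by linarith, h0.trans ?_, h0'.trans ?_, ?_⟩
  · exact mul_le_mul_of_nonneg_right (by linarith) hgk
  · exact mul_le_mul_of_nonneg_right (by linarith) hgk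
  · -- mean value inequality
    set M : ℝ := (C1 + C2) * (1 + z.2.2) ^ k / (1 + z.2.2) ^ i with hM
    have hgi : 0 < (1 + z.2.2) ^ i := by positivity
    have key : |f z' - f z| ≤ M * (|z.1 - z'.1| + |z.2.1 - z'.2.1|) := by
      have hder : ∀ s ∈ Icc (0:ℝ) 1, HasDerivWithinAt (fun s : ℝ => f (z + s • (z' - z)))
          (fderiv ℝ f (z + s • (z' - z)) (z' - z)) (Icc 0 1) s := by
        intro s hs
        have h1 := (Sy.diffAt h ((geo ρ).sub (hS.mem s hs))).hasFDerivAt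
        have h2 : HasDerivAt (fun s : ℝ => z + s • (z' - z)) (z' - z) s := by
          have := ((hasDerivAt_id s).smul_const (z' - z)).const_add z
          simpa using this
        exact (h1.comp_hasDerivAt s h2).hasDerivWithinAt
      have hbd : ∀ s ∈ Ico (0:ℝ) 1, ‖fderiv ℝ f (z + s • (z' - z)) (z' - z)‖ ≤
          M * (|z.1 - z'.1| + |z.2.1 - z'.2.1|) := by
        intro s hs
        have hs' : s ∈ Icc (0:ℝ) 1 := ⟨hs.1, hs.2.le⟩
        have hm := hS.mem s hs'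
        have hG : (z + s • (z' - z)).2.2 = z.2.2 := by
          simp [hS.G]
        have b1 := hb1 _ hm (hS.m s hs') (hS.o s hs')
        have b2 := hb2 _ hm (hS.m s hs') (hS.o s hs')
        rw [hG, ← le_div_iff₀ hgi] at b1 b2
        have ev : z' - z = (z'.1 - z.1) • bv 0 + (z'.2.1 - z.2.1) • bv 1 := by
          ext <;> simp [bv, hS.G]
        rw [Real.norm_eq_abs]
        have e2 : fderiv ℝ f (z + s • (z' - z)) (z' - z) =
            (z'.1 - z.1) * pd1 f (z + s • (z' - z)) + (z'.2.1 - z.2.1) * pd2 f (z + s • (z' - z)) := by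
          conv_lhs => rw [show (fderiv ℝ f (z + s • (z' - z))) (z' - z) =
            (fderiv ℝ f (z + s • (z' - z))) ((z'.1 - z.1) • bv 0 + (z'.2.1 - z.2.1) • bv 1) by
              rw [← ev]]
          rw [map_add, map_smul, map_smul]
          rfl
        rw [e2]
        have t1 : |(z'.1 - z.1) * pd1 f (z + s • (z' - z))| ≤
            |z.1 - z'.1| * (C1 * (1 + z.2.2) ^ k / (1 + z.2.2) ^ i) := by
          rw [abs_mul, abs_sub_comm]
          exact mul_le_mul_of_nonneg_left b1 (abs_nonneg _)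
        have t2 : |(z'.2.1 - z.2.1) * pd2 f (z + s • (z' - z))| ≤
            |z.2.1 - z'.2.1| * (C2 * (1 + z.2.2) ^ k / (1 + z.2.2) ^ i) := by
          rw [abs_mul, abs_sub_comm]
          exact mul_le_mul_of_nonneg_left b2 (abs_nonneg _)
        have p1 : C1 * (1 + z.2.2) ^ k / (1 + z.2.2) ^ i ≤ M := by
          rw [hM]
          apply div_le_div_of_nonneg_right _ hgi.le
          exact mul_le_mul_of_nonneg_right (by linarith) hgk
        have p2 : C2 * (1 + z.2.2) ^ k / (1 + z.2.2) ^ i ≤ M := by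
          rw [hM]
          apply div_le_div_of_nonneg_right _ hgi.le
          exact mul_le_mul_of_nonneg_right (by linarith) hgk
        have q1 := mul_le_mul_of_nonneg_left p1 (abs_nonneg (z.1 - z'.1))
        have q2 := mul_le_mul_of_nonneg_left p2 (abs_nonneg (z.2.1 - z'.2.1))
        refine (abs_add_le _ _).trans ?_
        linarith
      have := norm_image_sub_le_of_norm_deriv_le_segment_01' hder hbd
      simpa using this
    rw [abs_sub_comm] at key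
    have h5 : |f z - f z'| * (1 + z.2.2) ^ i ≤
        (M * (|z.1 - z'.1| + |z.2.1 - z'.2.1|)) * (1 + z.2.2) ^ i :=
      mul_le_mul_of_nonneg_right key hgi.le
    refine h5.trans ?_
    have h6 : M * (|z.1 - z'.1| + |z.2.1 - z'.2.1|) * (1 + z.2.2) ^ i =
        (C1 + C2) * (|z.1 - z'.1| + |z.2.1 - z'.2.1|) * (1 + z.2.2) ^ k := by
      rw [hM]; field_simp
    rw [h6]
    apply mul_le_mul_of_nonneg_right _ hgk
    apply mul_le_mul_of_nonneg_right (by linarith) (by positivity)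

/-- **weight bounds on segments.** -/
theorem cfAllP_of_seg {A B W : E3 → ℝ} (h : SyAll ρ A B W) {r : ℝ} (hr : 0 < r) (hr1 : r ≤ 1) :
    ∃ C : ℝ, 0 ≤ C ∧ ∀ z z', Seg γ r z z' → CfAllP C A B W z z' := by
  obtain ⟨L, hA, hB, hW⟩ := h.reg
  obtain ⟨c1, p1, q1⟩ := hA.cfp hr hr1 (i := 0) (k := 1) (by norm_num)
  obtain ⟨c2, p2, q2⟩ := hA.d0.cfp hr hr1 (i := 0) (k := 1) (by norm_num)
  obtain ⟨c3, p3, q3⟩ := hA.d1.cfp hr hr1 (i := 0) (k := 1) (by norm_num)
  obtain ⟨c4, p4, q4⟩ := hA.d2.cfp hr hr1 (i := 0) (k := 0) (by norm_num)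
  obtain ⟨c5, p5, q5⟩ := hB.cfp hr hr1 (i := 0) (k := 1) (by norm_num)
  obtain ⟨c6, p6, q6⟩ := hB.d0.cfp hr hr1 (i := 0) (k := 1) (by norm_num)
  obtain ⟨c7, p7, q7⟩ := hB.d1.cfp hr hr1 (i := 0) (k := 1) (by norm_num)
  obtain ⟨c8, p8, q8⟩ := hB.d2.cfp hr hr1 (i := 0) (k := 0) (by norm_num)
  obtain ⟨c9, p9, q9⟩ := hW.cfp hr hr1 (i := 0) (k := 0) (by norm_num)
  obtain ⟨c10, p10, q10⟩ := hW.d0.cfp hr hr1 (i := 0) (k := 0) (by norm_num)
  obtain ⟨c11, p11, q11⟩ := hW.d1.cfp hr hr1 (i := 0) (k := 0) (by norm_num)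
  obtain ⟨c12, p12, q12⟩ := hW.d2.cfp hr hr1 (i := 1) (k := 0) (by norm_num)
  refine ⟨c1 + c2 + c3 + c4 + c5 + c6 + c7 + c8 + c9 + c10 + c11 + c12, by positivity,
    fun z z' hS => ?_⟩
  exact ⟨q1 z z' hS _ (by linarith), q2 z z' hS _ (by linarith), q3 z z' hS _ (by linarith),
    q4 z z' hS _ (by linarith), q5 z z' hS _ (by linarith), q6 z z' hS _ (by linarith),
    q7 z z' hS _ (by linarith), q8 z z' hS _ (by linarith), q9 z z' hS _ (by linarith),
    q10 z z' hS _ (by linarith), q11 z z' hS _ (by linarith), q12 z z' hS _ (by linarith)⟩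

end Crest.Agent.R249.Sym467
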