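import Crest.Agent.R249.Sym4_467

/-!
# R249 (helper467), A2-ETA part 10: change of the traces near the singular points

`free_bd` : equal change of both traces, any jet over the region;
`tr_bd` : arbitrary small change of the traces, jets with `dm = σ dη`, `|σ| ≤ |η|`.
-/

set_option autoImplicit false
set_option linter.unusedVariables false
set_option linter.unusedSectionVars false

open MeasureTheory Set Filter Topology Matrix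
open scoped ContDiff

noncomputable section

namespace Crest.Agent.R249.Sym467

open DivC467 Eta467 Lim621

attribute [local instance] Matrix.frobeniusNormedAddCommGroup Matrix.frobeniusNormedSpace

variable {γ : Pm} {ρ : Rd γ} {n : ℕ} {a b c e : ℤ} {f g : E3 → ℝ}

lemma wm_B {z : E3} (hz : z ∈ Reg γ) : wm γ 0 (-1) 0 2 z = (√(om γ z))⁻¹ * (1 + z.2.2) := by
  have e2 : √(1 + z.2.2) ^ (2:ℤ) = 1 + z.2.2 := by
    rw [show (2:ℤ) = ((2:ℕ):ℤ) from rfl, zpow_natCast, Real.sq_sqrt (gg_pos hz).le]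
  rw [wm, e2]; simp

lemma wm_W {z : E3} : wm γ 0 (-1) 0 0 z = (√(om γ z))⁻¹ := by simp [wm]

lemma Nj_le_W (j : Jet E4 H4) : Nj j ≤ j.W := by
  have h1 := fst_le j.P
  have h2 := fst_le j.Q
  unfold Nj Jet.W
  linarith

lemma G_le_W (j : Jet E4 H4) : 1 + uJ j ⬝ᵥ uJ j ≤ 2 * j.W :=
  (uu_le_Nj j).trans (by linarith [Nj_le_W j])

lemma abs_uSu_le (j : Jet E4 H4) :
    |uJ j ⬝ᵥ (sJ j *ᵥ uJ j)| ≤ 12 * (‖j.P‖ + ‖j.Q‖) * (uJ j ⬝ᵥ uJ j) := by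
  have e : uJ j ⬝ᵥ (sJ j *ᵥ uJ j) = ∑ a, ∑ b, uJ j a * (sJ j a b * uJ j b) := by
    simp only [dotProduct, Matrix.mulVec, Finset.mul_sum]
  have hs : ∀ a b, |sJ j a b| ≤ 3 * (‖j.P‖ + ‖j.Q‖) := by
    intro a b
    have e : sJ j a b =
        j.P.2 a b + ((j.P.1 - j.Q.1 - j.P.2.trace) / 4) * (1 : Matrix (Fin 4) (Fin 4) ℝ) a b := by
      rw [sJ, Matrix.add_apply, Matrix.smul_apply, smul_eq_mul]; rfl
    rw [e]; exact sJ_bound _ _ a b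
  have hN : 0 ≤ ‖j.P‖ + ‖j.Q‖ := by positivity
  have h1 : ∀ a b, |uJ j a * (sJ j a b * uJ j b)| ≤
      3 * (‖j.P‖ + ‖j.Q‖) * ((uJ j a * uJ j a + uJ j b * uJ j b) / 2) := by
    intro a b
    have h2 : |uJ j a * (sJ j a b * uJ j b)| = |sJ j a b| * |uJ j a * uJ j b| := by
      rw [← abs_mul]; congr 1; ring
    rw [h2]
    apply mul_le_mul (hs a b) _ (abs_nonneg _) (by positivity)
    rw [abs_le]
    constructor <;> nlinarith [sq_nonneg (uJ j a + uJ j b), sq_nonneg (uJ j a - uJ j b)]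
  rw [e]
  refine (Finset.abs_sum_le_sum_abs _ _).trans ?_
  have h3 : ∑ a, |∑ b, uJ j a * (sJ j a b * uJ j b)| ≤
      ∑ a : Fin 4, ∑ b : Fin 4, 3 * (‖j.P‖ + ‖j.Q‖) * ((uJ j a * uJ j a + uJ j b * uJ j b) / 2) :=
    Finset.sum_le_sum fun a _ => (Finset.abs_sum_le_sum_abs _ _).trans
      (Finset.sum_le_sum fun b _ => h1 a b)
  refine h3.trans (le_of_eq ?_)
  simp only [dotProduct, Fin.sum_univ_four]
  ring

/-- the first order bounds. -/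
structure Bds1 (γ : Pm) (A B W : E3 → ℝ) (K : ℝ) (z : E3) : Prop where
  bA : |A z| ≤ K * ((√(om γ z))⁻¹ * (1 + z.2.2))
  bAG : |pd3 A z * z.2.2| ≤ K * ((√(om γ z))⁻¹ * (1 + z.2.2))
  bB : |B z| ≤ K * ((√(om γ z))⁻¹ * (1 + z.2.2))
  bBG : |pd3 B z * (z.1 * z.2.2)| ≤ K * ((√(om γ z))⁻¹ * (1 + z.2.2))
  bW : |W z| ≤ K * (√(om γ z))⁻¹
  bW1 : |pd1 W z * (z.2.1 * z.2.2)| ≤ K * ((√(om γ z))⁻¹ * (1 + z.2.2))
  bW2 : |pd2 W z * (z.1 * z.2.2)| ≤ K * ((√(om γ z))⁻¹ * (1 + z.2.2))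
  bW3 : |pd3 W z * z.2.2| ≤ K * (√(om γ z))⁻¹

lemma Bds1.mono {A B W : E3 → ℝ} {K K' : ℝ} {z : E3} (h : Bds1 γ A B W K z) (hz : z ∈ Reg γ)
    (hK : K ≤ K') : Bds1 γ A B W K' z := by
  have hs : 0 ≤ (√(om γ z))⁻¹ := by positivity
  have hsg : 0 ≤ (√(om γ z))⁻¹ * (1 + z.2.2) := mul_nonneg hs (gg_pos hz).le
  have m1 := mul_le_mul_of_nonneg_right hK hs
  have m2 := mul_le_mul_of_nonneg_right hK hsg
  exact ⟨h.bA.trans m2, h.bAG.trans m2, h.bB.trans m2, h.bBG.trans m2, h.bW.trans m1,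
    h.bW1.trans m2, h.bW2.trans m2, h.bW3.trans m1⟩

/-- bounds with loss `m^{-L}` where `m ≥ 1/4`. -/
lemma SY.bdm {L : ℕ} (h : SY ρ n (-(L : ℤ)) b c e f) : ∃ C : ℝ, 0 ≤ C ∧ ∀ z ∈ Reg γ,
    1 / 4 ≤ z.2.1 → |f z| ≤ C * wm γ 0 b c e z := by
  obtain ⟨C, hC, hb⟩ := Sy.bd h
  refine ⟨C * 4 ^ L, by positivity, fun z hz hm => (hb z hz).trans ?_⟩
  have h1 : z.2.1 ^ (-(L : ℤ)) ≤ 4 ^ L := by
    rw [_root_.zpow_neg, zpow_natCast, ← inv_pow]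
    apply pow_le_pow_left₀ (inv_pos.2 hz.m0).le
    rw [inv_le_comm₀ hz.m0 (by norm_num)]
    linarith
  have h2 : wm γ (-(L : ℤ)) b c e z ≤ 4 ^ L * wm γ 0 b c e z := by
    have e1 : wm γ (-(L : ℤ)) b c e z = z.2.1 ^ (-(L : ℤ)) * wm γ 0 b c e z := by
      simp only [wm, zpow_zero, one_mul]; ring
    rw [e1]
    exact mul_le_mul_of_nonneg_right h1 (wm_pos hz _ _ _ _).le
  rw [mul_assoc]
  exact mul_le_mul_of_nonneg_left h2 hC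

theorem exists_bds1 {A B W : E3 → ℝ} (h : SyAll ρ A B W) :
    ∃ K : ℝ, 0 ≤ K ∧ ∀ z ∈ Reg γ, 1 / 4 ≤ z.2.1 → Bds1 γ A B W K z := by
  obtain ⟨L, hA, hB, hW⟩ := h.reg
  obtain ⟨c1, p1, q1⟩ := SY.bdm hA
  obtain ⟨c2, p2, q2⟩ := SY.bdm (((hA.d2.mul (sy_G 1)).dom (a' := -(L : ℤ)) (b' := -1) (c' := 0)
    (e' := 2) (by norm_num) (by norm_num) (by simp)) :
      SY ρ 1 (-(L : ℤ)) (-1) 0 2 (fun z => pd3 A z * z.2.2))
  obtain ⟨c3, p3, q3⟩ := SY.bdm hB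
  obtain ⟨c4, p4, q4⟩ := SY.bdm (((hB.d2.mul ((sy_eta 1).mul (sy_G 1))).dom (a' := -(L : ℤ))
    (b' := -1) (c' := 0) (e' := 2) (by norm_num) (by norm_num) (by simp)) :
      SY ρ 1 (-(L : ℤ)) (-1) 0 2 (fun z => pd3 B z * (z.1 * z.2.2)))
  obtain ⟨c5, p5, q5⟩ := SY.bdm hW
  obtain ⟨c6, p6, q6⟩ := SY.bdm (((hW.d0.mul ((sy_m 1).mul (sy_G 1))).dom (a' := -(L : ℤ))
    (b' := -1) (c' := 0) (e' := 2) (by norm_num) (by norm_num) (by simp)) :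
      SY ρ 1 (-(L : ℤ)) (-1) 0 2 (fun z => pd1 W z * (z.2.1 * z.2.2)))
  obtain ⟨c7, p7, q7⟩ := SY.bdm (((hW.d1.mul ((sy_eta 1).mul (sy_G 1))).dom (a' := -(L : ℤ))
    (b' := -1) (c' := 0) (e' := 2) (by norm_num) (by norm_num) (by simp)) :
      SY ρ 1 (-(L : ℤ)) (-1) 0 2 (fun z => pd2 W z * (z.1 * z.2.2)))
  obtain ⟨c8, p8, q8⟩ := SY.bdm (((hW.d2.mul (sy_G 1)).dom (a' := -(L : ℤ)) (b' := -1) (c' := 0)
    (e' := 0) (by norm_num) (by norm_num) (by simp)) :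
      SY ρ 1 (-(L : ℤ)) (-1) 0 0 (fun z => pd3 W z * z.2.2))
  refine ⟨c1 + c2 + c3 + c4 + c5 + c6 + c7 + c8, by positivity, fun z hz hm => ?_⟩
  have hs : 0 ≤ (√(om γ z))⁻¹ := by positivity
  have hsg : 0 ≤ (√(om γ z))⁻¹ * (1 + z.2.2) := mul_nonneg hs (gg_pos hz).le
  have q1 := q1 z hz hm
  have q2 := q2 z hz hm
  have q3 := q3 z hz hm
  have q4 := q4 z hz hm
  have q5 := q5 z hz hm
  have q6 := q6 z hz hm
  have q7 := q7 z hz hm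
  have q8 := q8 z hz hm
  rw [wm_B hz] at q1 q2 q3 q4 q6 q7
  rw [wm_W] at q5 q8
  obtain ⟨S, hS⟩ : ∃ S, S = c1 + c2 + c3 + c4 + c5 + c6 + c7 + c8 := ⟨_, rfl⟩
  rw [← hS]
  have r1 : c1 ≤ S := by linarith
  have r2 : c2 ≤ S := by linarith
  have r3 : c3 ≤ S := by linarith
  have r4 : c4 ≤ S := by linarith
  have r5 : c5 ≤ S := by linarith
  have r6 : c6 ≤ S := by linarith
  have r7 : c7 ≤ S := by linarith
  have r8 : c8 ≤ S := by linarith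
  exact ⟨q1.trans (mul_le_mul_of_nonneg_right r1 hsg),
    q2.trans (mul_le_mul_of_nonneg_right r2 hsg),
    q3.trans (mul_le_mul_of_nonneg_right r3 hsg),
    q4.trans (mul_le_mul_of_nonneg_right r4 hsg),
    q5.trans (mul_le_mul_of_nonneg_right r5 hs),
    q6.trans (mul_le_mul_of_nonneg_right r6 hsg),
    q7.trans (mul_le_mul_of_nonneg_right r7 hsg),
    q8.trans (mul_le_mul_of_nonneg_right r8 hs)⟩

/-- **equal change of both traces** (one sided). -/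
theorem free_bd {A B W : E3 → ℝ} {C : ℝ} {j : Jet E4 H4}
    (hB : -(C * ((√(om γ (bJ j)))⁻¹ * (1 + (bJ j).2.2))) ≤ B (bJ j)) (hC : 0 ≤ C)
    {ε : ℝ} (hε : 0 ≤ ε) :
    IE A B W (shT ε ε j) ≤ IE A B W j + 2 * C * (ε * (√(om γ (bJ j)))⁻¹ * j.W ^ 2) := by
  rw [IE_shT, sub_self, zero_div, zero_mul, add_zero]
  have hG : 1 + (bJ j).2.2 ≤ 2 * j.W := G_le_W j
  have hs : 0 ≤ (√(om γ (bJ j)))⁻¹ := by positivity
  have hW := j.one_le_W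
  have h2 : (√(om γ (bJ j)))⁻¹ * (1 + (bJ j).2.2) ≤ (√(om γ (bJ j)))⁻¹ * (2 * j.W ^ 2) :=
    mul_le_mul_of_nonneg_left (hG.trans (by nlinarith)) hs
  have h3 := mul_le_mul_of_nonneg_left h2 hC
  have h4 : -(C * ((√(om γ (bJ j)))⁻¹ * (2 * j.W ^ 2))) * ε ≤ B (bJ j) * ε :=
    mul_le_mul_of_nonneg_right (by linarith) hε
  have e : (ε + ε) / 2 = ε := by ring
  rw [e]
  have e2 : 2 * C * (ε * (√(om γ (bJ j)))⁻¹ * j.W ^ 2) =
      C * ((√(om γ (bJ j)))⁻¹ * (2 * j.W ^ 2)) * ε := by ring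
  rw [e2]
  linarith

/-- **small change of the traces at jets with `dm = σ dη`.** -/
theorem tr_bd {A B W : E3 → ℝ} {K : ℝ} {j : Jet E4 H4} (hB : Bds1 γ A B W K (bJ j)) (hK : 0 ≤ K)
    (hm : 1 / 4 ≤ (bJ j).2.1) {σ α β a : ℝ} (hv : vJ j = σ • uJ j) (hσ : |σ| ≤ |(bJ j).1|)
    (hα : |α| ≤ a) (hβ : |β| ≤ a) (ha : a ≤ 1) :
    |IE A B W (shT α β j) - IE A B W j| ≤ 60 * K * (a * (√(om γ (bJ j)))⁻¹ * j.W ^ 2) := by
  have ha0 : 0 ≤ a := (abs_nonneg α).trans hα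
  obtain ⟨D, hD⟩ : ∃ D, D = j.W := ⟨_, rfl⟩
  obtain ⟨s, hs⟩ : ∃ s, s = (√(om γ (bJ j)))⁻¹ := ⟨_, rfl⟩
  have hs0 : 0 ≤ s := by rw [hs]; positivity
  have hD1 : 1 ≤ D := by rw [hD]; exact j.one_le_W
  have hG0 : 0 ≤ uJ j ⬝ᵥ uJ j := uu_nonneg j
  have hG : 1 + uJ j ⬝ᵥ uJ j ≤ 2 * D := by rw [hD]; exact G_le_W j
  have hx : |xJ j| ≤ D := by rw [hD]; exact (abs_xJ_le_Nj j).trans (Nj_le_W j)
  have hPQ : ‖j.P‖ + ‖j.Q‖ ≤ D := by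
    rw [hD, Jet.W]; nlinarith [sq_nonneg ‖j.p‖, sq_nonneg ‖j.q‖]
  have huSu := abs_uSu_le j
  have hvu : vJ j ⬝ᵥ uJ j = σ * (uJ j ⬝ᵥ uJ j) := by
    rw [hv, smul_dotProduct, smul_eq_mul]
  have ht : |(α - β) / 4| ≤ a / 2 := by
    rw [abs_div, abs_of_pos (by norm_num : (0:ℝ) < 4)]
    have := abs_sub α β
    linarith
  have hab : |(α + β) / 2| ≤ a := by
    rw [abs_div, abs_of_pos (by norm_num : (0:ℝ) < 2)]
    have := abs_add_le α β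
    linarith
  have hsG : s * (1 + uJ j ⬝ᵥ uJ j) ≤ s * (2 * D) := mul_le_mul_of_nonneg_left hG hs0
  have bA : |A (bJ j)| ≤ K * (s * (2 * D)) := by
    have := hB.bA
    rw [← hs] at this
    exact this.trans (mul_le_mul_of_nonneg_left hsG hK)
  have bAG : |pd3 A (bJ j) * (uJ j ⬝ᵥ uJ j)| ≤ K * (s * (2 * D)) := by
    have := hB.bAG
    rw [← hs] at this
    exact this.trans (mul_le_mul_of_nonneg_left hsG hK)
  have bB : |B (bJ j)| ≤ K * (s * (2 * D)) := by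
    have := hB.bB
    rw [← hs] at this
    exact this.trans (mul_le_mul_of_nonneg_left hsG hK)
  have bW : |W (bJ j)| ≤ K * s := by
    have := hB.bW
    rwa [← hs] at this
  have bWG : |pd3 W (bJ j) * (uJ j ⬝ᵥ uJ j)| ≤ K * s := by
    have := hB.bW3
    rwa [← hs] at this
  have small : ∀ y : ℝ, |y * ((bJ j).1 * (uJ j ⬝ᵥ uJ j))| ≤ K * (s * (2 * D)) →
      |y * (vJ j ⬝ᵥ uJ j)| ≤ K * (s * (2 * D)) := by
    intro y hy
    rw [hvu]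
    refine le_trans ?_ hy
    rw [abs_mul, abs_mul, abs_mul, abs_mul]
    exact mul_le_mul_of_nonneg_left (mul_le_mul_of_nonneg_right hσ (abs_nonneg _)) (abs_nonneg _)
  have bBG : |pd3 B (bJ j) * (vJ j ⬝ᵥ uJ j)| ≤ K * (s * (2 * D)) := by
    apply small
    have := hB.bBG
    rw [← hs] at this
    exact this.trans (mul_le_mul_of_nonneg_left hsG hK)
  have bW2 : |pd2 W (bJ j) * (vJ j ⬝ᵥ uJ j)| ≤ K * (s * (2 * D)) := by
    apply small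
    have := hB.bW2
    rw [← hs] at this
    exact this.trans (mul_le_mul_of_nonneg_left hsG hK)
  have bW1 : |pd1 W (bJ j) * (uJ j ⬝ᵥ uJ j)| ≤ 4 * (K * (s * (2 * D))) := by
    have h1 := hB.bW1
    rw [← hs] at h1
    have h2 : |pd1 W (bJ j) * ((bJ j).2.1 * (uJ j ⬝ᵥ uJ j))| ≤ K * (s * (2 * D)) :=
      h1.trans (mul_le_mul_of_nonneg_left hsG hK)
    have e : |pd1 W (bJ j) * ((bJ j).2.1 * (uJ j ⬝ᵥ uJ j))| =
        (bJ j).2.1 * |pd1 W (bJ j) * (uJ j ⬝ᵥ uJ j)| := by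
      rw [show pd1 W (bJ j) * ((bJ j).2.1 * (uJ j ⬝ᵥ uJ j)) =
        (bJ j).2.1 * (pd1 W (bJ j) * (uJ j ⬝ᵥ uJ j)) by ring, abs_mul, abs_of_pos (by linarith)]
    rw [e] at h2
    nlinarith [abs_nonneg (pd1 W (bJ j) * (uJ j ⬝ᵥ uJ j))]
  have bWS : |pd3 W (bJ j) * (uJ j ⬝ᵥ (sJ j *ᵥ uJ j))| ≤ 12 * (K * s * D) := by
    have h1 : |pd3 W (bJ j) * (uJ j ⬝ᵥ (sJ j *ᵥ uJ j))| ≤
        12 * (‖j.P‖ + ‖j.Q‖) * |pd3 W (bJ j) * (uJ j ⬝ᵥ uJ j)| := by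
      rw [abs_mul, abs_mul, abs_of_nonneg hG0]
      calc |pd3 W (bJ j)| * |uJ j ⬝ᵥ (sJ j *ᵥ uJ j)| ≤
            |pd3 W (bJ j)| * (12 * (‖j.P‖ + ‖j.Q‖) * (uJ j ⬝ᵥ uJ j)) :=
            mul_le_mul_of_nonneg_left huSu (abs_nonneg _)
        _ = _ := by ring
    have h2 : 12 * (‖j.P‖ + ‖j.Q‖) * |pd3 W (bJ j) * (uJ j ⬝ᵥ uJ j)| ≤ 12 * D * (K * s) :=
      mul_le_mul (by linarith) bWG (abs_nonneg _) (by positivity)
    linarith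
  rw [IE_shT, ← hs, ← hD]
  have prod : ∀ {x y p q : ℝ}, |x| ≤ p → |y| ≤ q → |x * y| ≤ p * q := by
    intro x y p q hx hy
    rw [abs_mul]
    exact mul_le_mul hx hy (abs_nonneg _) ((abs_nonneg _).trans hx)
  obtain ⟨t, htd⟩ : ∃ t, t = (α - β) / 4 := ⟨_, rfl⟩
  rw [← htd] at ht ⊢
  have p1 := prod bB hab
  have p2 := prod bW hx
  have p3 := prod bW ht
  have p4 : |xJ j + 3 * t| ≤ D + 3 * (a / 2) := by
    have := abs_add_le (xJ j) (3 * t)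
    rw [abs_mul, abs_of_pos (by norm_num : (0:ℝ) < 3)] at this
    linarith
  have p5 := prod bWG p4
  have hKs : 0 ≤ K * s := mul_nonneg hK hs0
  have hKsD : 0 ≤ K * s * D := mul_nonneg hKs (by linarith)
  have hKsa : K * s * a ≤ K * s * D := mul_le_mul_of_nonneg_left (by linarith) hKs
  have q : |4 * A (bJ j) + 2 * (pd3 A (bJ j) * (uJ j ⬝ᵥ uJ j)) + 2 * (pd3 B (bJ j) * (vJ j ⬝ᵥ uJ j)) +
        6 * (W (bJ j) * xJ j) + 12 * (W (bJ j) * t) +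
        3 * (pd1 W (bJ j) * (uJ j ⬝ᵥ uJ j) + pd2 W (bJ j) * (vJ j ⬝ᵥ uJ j)) +
        2 * (pd3 W (bJ j) * (uJ j ⬝ᵥ uJ j) * (xJ j + 3 * t)) +
        4 * (pd3 W (bJ j) * (uJ j ⬝ᵥ (sJ j *ᵥ uJ j)))| ≤ 114 * (K * s * D) := by
    rw [abs_le] at bA bAG bBG p2 p3 bW1 bW2 p5 bWS ⊢
    obtain ⟨x1, y1⟩ := bA
    obtain ⟨x2, y2⟩ := bAG
    obtain ⟨x3, y3⟩ := bBG
    obtain ⟨x4, y4⟩ := p2
    obtain ⟨x5, y5⟩ := p3
    obtain ⟨x6, y6⟩ := bW1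
    obtain ⟨x7, y7⟩ := bW2
    obtain ⟨x8, y8⟩ := p5
    obtain ⟨x9, y9⟩ := bWS
    clear bB bW bWG p1 p4 prod small huSu hσ hα hβ hx hab hv hvu hsG
    constructor <;> linarith
  have p6 := prod ht q
  generalize (4 * A (bJ j) + 2 * (pd3 A (bJ j) * (uJ j ⬝ᵥ uJ j)) +
        2 * (pd3 B (bJ j) * (vJ j ⬝ᵥ uJ j)) +
        6 * (W (bJ j) * xJ j) + 12 * (W (bJ j) * t) +
        3 * (pd1 W (bJ j) * (uJ j ⬝ᵥ uJ j) + pd2 W (bJ j) * (vJ j ⬝ᵥ uJ j)) +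
        2 * (pd3 W (bJ j) * (uJ j ⬝ᵥ uJ j) * (xJ j + 3 * t)) +
        4 * (pd3 W (bJ j) * (uJ j ⬝ᵥ (sJ j *ᵥ uJ j)))) = Y at *
  have e1 : IE A B W j - (B (bJ j) * ((α + β) / 2) + t * Y) - IE A B W j =
      -(B (bJ j) * ((α + β) / 2) + t * Y) := by ring
  rw [e1, abs_neg]
  refine (abs_add_le _ _).trans ?_
  have hKsDa : K * s * D * a ≤ K * s * D ^ 2 * a := by
    have : K * s * D ≤ K * s * D ^ 2 := by nlinarith
    exact mul_le_mul_of_nonneg_right this ha0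
  clear bA bAG bBG bB bW bWG bW1 bW2 bWS p2 p3 p4 p5 prod small huSu hv hvu hsG q
  nlinarith

end Crest.Agent.R249.Sym467
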