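import Crest.Agent.R249.Sym6_467

/-!
# R249 (helper467), A2-ETA part 12: `cert_core`
-/

set_option autoImplicit false
set_option linter.unusedVariables false
set_option linter.unusedSectionVars false

open MeasureTheory Set Filter Topology Matrix
open scoped ContDiff

noncomputable section

namespace Crest.Agent.R249.Sym467

open DivC467 Eta467 Lim621

attribute [local instance] Matrix.frobeniusNormedAddCommGroup Matrix.frobeniusNormedSpace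

variable {γ : Pm} {ρ : Rd γ}

/-- scaling of the multipliers. -/
lemma exists_scale {S S0 M : ℝ} (hS : 0 ≤ S) (hS0 : 0 ≤ S0) (hM : 0 ≤ M) (h : S ≤ S0 + M) :
    ∃ θ : ℝ, 0 ≤ θ ∧ θ ≤ 1 ∧ θ * S ≤ S0 ∧ (1 - θ) * S ≤ M := by
  rcases le_or_gt S S0 with h1 | h1
  · exact ⟨1, zero_le_one, le_rfl, by linarith, by simpa using hM⟩
  · have hSp : 0 < S := lt_of_le_of_lt hS0 h1
    refine ⟨S0 / S, by positivity, (div_le_one hSp).2 h1.le, ?_, ?_⟩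
    · rw [div_mul_cancel₀ _ hSp.ne']
    · have : (1 - S0 / S) * S = S - S0 := by field_simp
      rw [this]; linarith

/-- the shifted jet. -/
def shJ (t m₁ m₂ : ℝ) (j : Jet E4 H4) : Jet E4 H4 where
  f := j.f + t
  g := j.g + t
  p := j.p
  q := j.q
  P := (Fs (j.f + t) + m₁, j.P.2)
  Q := (Fs (j.g + t) + m₂, j.Q.2)

lemma bJ_shJ (t m₁ m₂ : ℝ) (j : Jet E4 H4) :
    bJ (shJ t m₁ m₂ j) = ((bJ j).1, (bJ j).2.1 + t, (bJ j).2.2) := by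
  have hu : uJ (shJ t m₁ m₂ j) = uJ j := rfl
  rw [bJ, hu]
  simp only [shJ, bJ]
  ext
  · simp
  · simp only; ring
  · rfl

/-- points at the curve: the vertical segment. -/
lemma seg_up (hX : PmX γ) {t r0 : ℝ} (ht : 0 < t) (ht1 : t < 1 / 2) (hr0 : 0 < r0) (hr1 : r0 ≤ 1)
    (htr : t ≤ r0 / 2) {z : E3} (hz : z ∈ Reg γ) (hη : |z.1| ≤ 10 / 7) (hk : kf γ z = t)
    (ho : r0 ≤ om γ z) : Seg γ (r0 / 4) z (z.1, z.2.1 + t, z.2.2) := by
  have hm : 1 / 4 ≤ z.2.1 := by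
    by_contra hcon
    have := k_ge_of_small hz (by linarith)
    linarith
  have hg := gg_pos hz
  have hkd : 1 - γ.g1 * z.1 ^ 2 + γ.g2 * z.1 ^ 4 - z.2.1 = t := hk
  have hpt : ∀ s : ℝ, z + s • ((z.1, z.2.1 + t, z.2.2) - z) = (z.1, z.2.1 + s * t, z.2.2) := by
    intro s
    ext
    · simp
    · simp
    · simp
  have hks : ∀ s : ℝ, kf γ (z.1, z.2.1 + s * t, z.2.2) = (1 - s) * t := by
    intro s
    show 1 - γ.g1 * z.1 ^ 2 + γ.g2 * z.1 ^ 4 - (z.2.1 + s * t) = _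
    linarith
  have hsum : r0 * (1 + z.2.2) ≤ z.1 ^ 2 + t + z.2.2 := by
    have := (le_div_iff₀ hg).1 ho
    rwa [hk] at this
  have hG := hz.G0
  have hos : ∀ s ∈ Icc (0:ℝ) 1, r0 / 2 * (1 + z.2.2) ≤ z.1 ^ 2 + (1 - s) * t + z.2.2 := by
    intro s hs
    have : s * t ≤ 1 * t := mul_le_mul_of_nonneg_right hs.2 ht.le
    nlinarith
  refine ⟨rfl, fun s hs => ?_, fun s hs => ?_, fun s hs => ?_⟩
  · rw [hpt s]
    have hst : 0 ≤ s * t := mul_nonneg hs.1 ht.le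
    have h1st : 0 ≤ (1 - s) * t := mul_nonneg (by linarith [hs.2]) ht.le
    refine ⟨?_, ?_, ?_, ?_, hG, ?_⟩
    · show 0 < z.2.1 + s * t
      linarith
    · show |z.1| ≤ 2 * (z.2.1 + s * t)
      have := hz.em
      linarith
    · show z.2.1 + s * t + |z.1| / 2 ≤ 10 / 7
      have h1 := hX.cr z.1 hη
      have : s * t ≤ 1 * t := mul_le_mul_of_nonneg_right hs.2 ht.le
      linarith
    · rw [hks s]; exact h1st
    · rw [hks s]
      show 0 < z.1 ^ 2 + (1 - s) * t + z.2.2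
      have := hos s hs
      have : 0 < r0 / 2 * (1 + z.2.2) := by positivity
      linarith
  · rw [hpt s]
    show r0 / 4 ≤ z.2.1 + s * t
    have : 0 ≤ s * t := mul_nonneg hs.1 ht.le
    linarith
  · rw [hpt s, om, hks s, le_div_iff₀ (show 0 < 1 + z.2.2 from hg)]
    refine le_trans ?_ (hos s hs)
    show (r0 / 4) ^ 2 * (1 + z.2.2) ≤ r0 / 2 * (1 + z.2.2)
    apply mul_le_mul_of_nonneg_right _ hg.le
    nlinarith

lemma norm_fst_only (x : ℝ) : ‖((x, 0) : H4)‖ = |x| := by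
  rw [Prod.norm_def]
  simp

/-- `OmZ` increases under the shift, up to `O(t)`. -/
lemma OmZ_shift (N : ℕ) {t m₁ m₂ : ℝ} (ht : 0 ≤ t) (ht1 : t ≤ 1 / 2) {j : Jet E4 H4} (hf : 0 ≤ j.f)
    (hf1 : j.f ≤ 10 / 7) (hg : 0 ≤ j.g) (hg1 : j.g ≤ 10 / 7) :
    OmZ N j ≤ OmZ N (shJ t m₁ m₂ j) + 4 * 4 ^ N * t := by
  have h0 : 0 ≤ j.f * j.g := mul_nonneg hf hg
  have h1 : j.f * j.g ≤ (j.f + t) * (j.g + t) := mul_le_mul (by linarith) (by linarith) hg (by linarith)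
  have h2 : (j.f + t) * (j.g + t) ≤ 4 := by nlinarith
  have h3 : (j.f * j.g) ^ N ≤ ((j.f + t) * (j.g + t)) ^ N := pow_le_pow_left₀ h0 h1 N
  have h4 : ((j.f + t) * (j.g + t)) ^ N ≤ 4 ^ N := pow_le_pow_left₀ (h0.trans h1) h2 N
  have h5 : ‖j.p‖ ^ 2 + ‖j.q‖ ^ 2 + (j.f - 1) ^ 2 + (j.g - 1) ^ 2 ≤
      ‖j.p‖ ^ 2 + ‖j.q‖ ^ 2 + (j.f + t - 1) ^ 2 + (j.g + t - 1) ^ 2 + 4 * t := by nlinarith
  have h6 : 0 ≤ ‖j.p‖ ^ 2 + ‖j.q‖ ^ 2 + (j.f - 1) ^ 2 + (j.g - 1) ^ 2 := by positivity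
  have h7 : 0 ≤ ((j.f + t) * (j.g + t)) ^ N := pow_nonneg (h0.trans h1) N
  have e : OmZ N (shJ t m₁ m₂ j) = ((j.f + t) * (j.g + t)) ^ N *
      (‖j.p‖ ^ 2 + ‖j.q‖ ^ 2 + (j.f + t - 1) ^ 2 + (j.g + t - 1) ^ 2) := rfl
  rw [e, OmZ]
  calc (j.f * j.g) ^ N * (‖j.p‖ ^ 2 + ‖j.q‖ ^ 2 + (j.f - 1) ^ 2 + (j.g - 1) ^ 2) ≤
        ((j.f + t) * (j.g + t)) ^ N *
          (‖j.p‖ ^ 2 + ‖j.q‖ ^ 2 + (j.f + t - 1) ^ 2 + (j.g + t - 1) ^ 2 + 4 * t) :=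
        mul_le_mul h3 h5 h6 h7
    _ = ((j.f + t) * (j.g + t)) ^ N *
          (‖j.p‖ ^ 2 + ‖j.q‖ ^ 2 + (j.f + t - 1) ^ 2 + (j.g + t - 1) ^ 2) +
          ((j.f + t) * (j.g + t)) ^ N * (4 * t) := by ring
    _ ≤ _ := by
        have : ((j.f + t) * (j.g + t)) ^ N * (4 * t) ≤ 4 ^ N * (4 * t) :=
          mul_le_mul_of_nonneg_right h4 (by linarith)
        linarith

set_option maxHeartbeats 1600000 in
/-- **contact jets away from `(1, 1)`.** -/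
lemma far_core {A B W : E3 → ℝ} {c : ℝ} {N : ℕ} (hX : PmX γ) (hC : CertS γ A B W c N)
    {C0 : ℝ} (hC0 : 0 ≤ C0) {t ε κ r0 C1 : ℝ}
    (hseg : ∀ z z', Seg γ (r0 / 4) z z' → CfAllP C0 A B W z z') (ht : 0 < t)
    (ht1 : t < 1 / 2) (hε : 0 ≤ ε) (hε1 : ε ≤ C1 * t) (hC1 : 0 ≤ C1) (hr0 : 0 < r0)
    (hr1 : r0 ≤ 1) (htr : t ≤ r0 / 2) (htC : 102 * (13 + C1) * t ≤ 1)
    (hκ : (10 ^ 5 * C0 * (9 + 306 * (13 + C1)) + 4 * 4 ^ N * c) * t ≤ κ)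
    {j : Jet E4 H4} {m₁ m₂ : ℝ}
    (h : ExJ γ t ε j m₁ m₂) (hk : kf γ (bJ j) = t) (hv : vJ j = dG γ (bJ j).1 • uJ j)
    (h1 : 0 ≤ m₁) (h2 : 0 ≤ m₂)
    (hS : (1 / 2 - dG γ (bJ j).1) * m₁ + (1 / 2 + dG γ (bJ j).1) * m₂ ≤
      max (Ec γ (bJ j) + ε) 0) (ho : r0 ≤ om γ (bJ j)) :
    c * OmZ N j ≤ IE A B W j + κ * j.W ^ 2 := by
  obtain ⟨hz, hlt⟩ := bJ_mem ht h
  have hf0 := h.f0
  have hf1 := h.f1
  have hg0 := h.g0
  have hg1 := h.g1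
  have hη : |(bJ j).1| ≤ 10 / 7 := by
    have e1 : (bJ j).1 = j.f - j.g := rfl
    rw [e1, abs_le]; constructor <;> linarith
  have hs := abs_le.1 (hX.sl _ hη)
  obtain ⟨d, hd⟩ : ∃ d, d = dG γ (bJ j).1 := ⟨_, rfl⟩
  rw [← hd] at hs hv hS
  obtain ⟨κ₁, hκ₁⟩ : ∃ κ₁, κ₁ = 1 / 2 - d := ⟨_, rfl⟩
  obtain ⟨κ₂, hκ₂⟩ : ∃ κ₂, κ₂ = 1 / 2 + d := ⟨_, rfl⟩
  rw [← hκ₁, ← hκ₂] at hS
  have hκ₁p : 1 / 50 ≤ κ₁ := by rw [hκ₁]; linarith
  have hκ₂p : 1 / 50 ≤ κ₂ := by rw [hκ₂]; linarith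
  have hκs : κ₁ + κ₂ = 1 := by rw [hκ₁, hκ₂]; ring
  have hSeg := seg_up hX ht ht1 hr0 hr1 htr hz hη hk ho
  have hz0 : ((bJ j).1, (bJ j).2.1 + t, (bJ j).2.2) ∈ Reg γ := by
    have := hSeg.mem 1 (by simp)
    simpa using this
  obtain ⟨z0, hz0d⟩ : ∃ z0, z0 = ((bJ j).1, (bJ j).2.1 + t, (bJ j).2.2) := ⟨_, rfl⟩
  rw [← hz0d] at hz0 hSeg
  have hk0 : kf γ z0 = 0 := by
    have h3 : 1 - γ.g1 * (bJ j).1 ^ 2 + γ.g2 * (bJ j).1 ^ 4 - (bJ j).2.1 = t := hk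
    rw [hz0d]
    show 1 - γ.g1 * (bJ j).1 ^ 2 + γ.g2 * (bJ j).1 ^ 4 - ((bJ j).2.1 + t) = 0
    linarith
  -- difference of `E`
  have hf2 : 0 ≤ j.f := ht.le.trans hf0
  have hg2 : 0 ≤ j.g := ht.le.trans hg0
  have Lf : |Fs (j.f + t) - Fs j.f| ≤ 13 * t := by
    have := Fs_lip (a := j.f + t) (b := j.f) (by linarith) (by linarith) hf2 (by linarith)
    rwa [add_sub_cancel_left, abs_of_pos ht] at this
  have Lg : |Fs (j.g + t) - Fs j.g| ≤ 13 * t := by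
    have := Fs_lip (a := j.g + t) (b := j.g) (by linarith) (by linarith) hg2 (by linarith)
    rwa [add_sub_cancel_left, abs_of_pos ht] at this
  have hE : Ec γ (bJ j) ≤ Ec γ z0 + 13 * t := by
    have e1 : Ec γ (bJ j) = -κ₁ * Fs j.f - κ₂ * Fs j.g + ddG γ (bJ j).1 * (bJ j).2.2 := by
      rw [Ec, bJ_phi, bJ_psi, ← hd, hκ₁, hκ₂]
    have e2 : Ec γ z0 = -κ₁ * Fs (j.f + t) - κ₂ * Fs (j.g + t) + ddG γ (bJ j).1 * (bJ j).2.2 := by
      have a1 : z0.2.1 + z0.1 / 2 = j.f + t := by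
        rw [hz0d, ← bJ_phi j]; simp only; ring
      have a2 : z0.2.1 - z0.1 / 2 = j.g + t := by
        rw [hz0d, ← bJ_psi j]; simp only; ring
      have a3 : z0.1 = (bJ j).1 := by rw [hz0d]
      have a4 : z0.2.2 = (bJ j).2.2 := by rw [hz0d]
      rw [Ec, a1, a2, a3, a4, ← hd, hκ₁, hκ₂]
    rw [e1, e2]
    have := abs_le.1 Lf
    have := abs_le.1 Lg
    have q1 : κ₁ * (Fs (j.f + t) - Fs j.f) ≤ κ₁ * (13 * t) :=
      mul_le_mul_of_nonneg_left (by linarith) (by linarith)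
    have q2 : κ₂ * (Fs (j.g + t) - Fs j.g) ≤ κ₂ * (13 * t) :=
      mul_le_mul_of_nonneg_left (by linarith) (by linarith)
    have q3 : κ₁ * (13 * t) + κ₂ * (13 * t) = 13 * t := by rw [← add_mul, hκs, one_mul]
    linarith
  -- multipliers
  obtain ⟨S, hSd⟩ : ∃ S, S = κ₁ * m₁ + κ₂ * m₂ := ⟨_, rfl⟩
  rw [← hSd] at hS
  have p1 : 0 ≤ κ₁ * m₁ := mul_nonneg (by linarith) h1
  have p2 : 0 ≤ κ₂ * m₂ := mul_nonneg (by linarith) h2
  have hS0 : 0 ≤ S := by rw [hSd]; linarith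
  have hct : 0 ≤ C1 * t := mul_nonneg hC1 ht.le
  have h13 : (13 + C1) * t = 13 * t + C1 * t := by ring
  have hSle : S ≤ max (Ec γ z0) 0 + (13 + C1) * t := by
    refine hS.trans (max_le ?_ ?_)
    · have := le_max_left (Ec γ z0) 0
      rw [h13]; linarith
    · have := le_max_right (Ec γ z0) 0
      rw [h13]; linarith
  obtain ⟨θ, hθ0, hθ1, hθS, hθM⟩ := exists_scale hS0 (le_max_right (Ec γ z0) 0)
    (show 0 ≤ (13 + C1) * t by positivity) hSle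
  have q1 : (1 - θ) * m₁ ≤ 50 * ((13 + C1) * t) := by
    have : (1 - θ) * (1 / 50 * m₁) ≤ (1 - θ) * S := by
      apply mul_le_mul_of_nonneg_left _ (by linarith)
      have : 1 / 50 * m₁ ≤ κ₁ * m₁ := mul_le_mul_of_nonneg_right hκ₁p h1
      rw [hSd]; linarith
    have e : (1 - θ) * m₁ = 50 * ((1 - θ) * (1 / 50 * m₁)) := by ring
    rw [e]; linarith
  have q2 : (1 - θ) * m₂ ≤ 50 * ((13 + C1) * t) := by
    have : (1 - θ) * (1 / 50 * m₂) ≤ (1 - θ) * S := by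
      apply mul_le_mul_of_nonneg_left _ (by linarith)
      have : 1 / 50 * m₂ ≤ κ₂ * m₂ := mul_le_mul_of_nonneg_right hκ₂p h2
      rw [hSd]; linarith
    have e : (1 - θ) * m₂ = 50 * ((1 - θ) * (1 / 50 * m₂)) := by ring
    rw [e]; linarith
  have q1' : 0 ≤ (1 - θ) * m₁ := mul_nonneg (by linarith) h1
  have q2' : 0 ≤ (1 - θ) * m₂ := mul_nonneg (by linarith) h2
  -- the shifted jet
  obtain ⟨j0, hj0⟩ : ∃ j0, j0 = shJ t (θ * m₁) (θ * m₂) j := ⟨_, rfl⟩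
  have hb0 : bJ j0 = z0 := by rw [hj0, bJ_shJ, hz0d]
  have hu0 : uJ j0 = uJ j := by rw [hj0]; rfl
  have hv0 : vJ j0 = d • uJ j0 := by
    rw [hu0, ← hv, hj0]; rfl
  have hlt0 : |z0.1| < 2 * z0.2.1 := by
    rw [hz0d]
    show |(bJ j).1| < 2 * ((bJ j).2.1 + t)
    linarith
  have hd0 : dG γ z0.1 = d := by rw [hd, hz0d]
  have hcert : c * OmZ N j0 ≤ IE A B W j0 := by
    have := IE_ge_con (f := Fs) (θ := 0) (A := A) (B := B) (W := W) (o0 := fun z => c * o0 N z)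
      (o2 := fun z => c * o2 N z) (j := j0) (m₁ := θ * m₁) (m₂ := θ * m₂) (σ := d) (κ₁ := κ₁)
      (κ₂ := κ₂) (E := Ec γ z0) le_rfl zero_le_one (by rw [hb0]; exact hC.Wnn _ hz0 hlt0)
      (by rw [hj0]; exact h.P) (by rw [hj0]; rfl) (by rw [hj0]; rfl) hv0 (mul_nonneg hθ0 h1)
      (mul_nonneg hθ0 h2) (by linarith) (by linarith)
      (by
        refine le_trans (le_of_eq ?_) hθS
        rw [hSd]; ring)
      (fun q hq hq2 => by
        rw [hb0]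
        exact (hC.int z0 hz0 hlt0 q hq (by rw [hq2, ← hb0]; rfl)).vtx d)
      (fun hE q hq hq2 => by
        have := hC.v1 z0 hz0 hlt0 hk0 hE q hq (by rw [hq2, ← hb0]; rfl)
        rw [hd0, ← hκ₁] at this
        rw [hb0]; exact this)
      (fun hE q hq hq2 => by
        have := hC.v2 z0 hz0 hlt0 hk0 hE q hq (by rw [hq2, ← hb0]; rfl)
        rw [hd0, ← hκ₂] at this
        rw [hb0]; exact this)
      (fun q hq hq2 ss hss => by
        have := (hC.int z0 hz0 hlt0 q hq (by rw [hq2, ← hb0]; rfl)).f2 ss 0 0 hss le_rfl (by simp)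
        rw [hb0]; simpa using this)
    rw [OmZ_eq]
    linarith
  -- comparison
  have hr : RelE t j j0 := by
    rw [hj0]
    refine ⟨rfl, ?_, ?_⟩
    · show |j.f - (j.f + t)| ≤ t
      rw [sub_add_cancel_left, abs_neg, abs_of_pos ht]
    · show |j.g - (j.g + t)| ≤ t
      rw [sub_add_cancel_left, abs_neg, abs_of_pos ht]
  have hcf : CfAllP C0 A B W (bJ j) (bJ j0) := by
    rw [hb0]; exact hseg _ _ hSeg
  have hlip := (est_IE_P ht.le hr hcf).lip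
  obtain ⟨D, hD⟩ : ∃ D, D = 51 * (13 + C1) * t := ⟨_, rfl⟩
  have hD0 : 0 ≤ D := by rw [hD]; positivity
  have nP : ‖j.P - j0.P‖ ≤ D := by
    have e : j.P - j0.P = ((j.P.1 - (Fs (j.f + t) + θ * m₁), 0) : H4) := by
      rw [hj0]; ext
      · rfl
      · simp [shJ]
    rw [e, norm_fst_only, h.eP, hD, abs_le]
    obtain ⟨x1, x2⟩ := abs_le.1 Lf
    have e5 : 51 * (13 + C1) * t = 50 * ((13 + C1) * t) + (13 * t + C1 * t) := by ring
    have e6 : (1 - θ) * m₁ = m₁ - θ * m₁ := by ring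
    rw [e6] at q1 q1'
    rw [e5]
    constructor <;> linarith
  have nQ : ‖j.Q - j0.Q‖ ≤ D := by
    have e : j.Q - j0.Q = ((j.Q.1 - (Fs (j.g + t) + θ * m₂), 0) : H4) := by
      rw [hj0]; ext
      · rfl
      · simp [shJ]
    rw [e, norm_fst_only, h.eQ, hD, abs_le]
    obtain ⟨x1, x2⟩ := abs_le.1 Lg
    have e5 : 51 * (13 + C1) * t = 50 * ((13 + C1) * t) + (13 * t + C1 * t) := by ring
    have e6 : (1 - θ) * m₂ = m₂ - θ * m₂ := by ring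
    rw [e6] at q2 q2'
    rw [e5]
    constructor <;> linarith
  have hW1 := j.one_le_W
  have hW0 : j0.W ≤ 2 * j.W := by
    have n1 : ‖j0.P‖ ≤ ‖j.P‖ + D := by
      have := norm_sub_norm_le j0.P j.P
      rw [norm_sub_rev] at this
      linarith
    have n2 : ‖j0.Q‖ ≤ ‖j.Q‖ + D := by
      have := norm_sub_norm_le j0.Q j.Q
      rw [norm_sub_rev] at this
      linarith
    have e1 : j0.p = j.p := by rw [hj0]; rfl
    have e2 : j0.q = j.q := by rw [hj0]; rfl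
    have e3 : j0.W = 1 + ‖j.p‖ ^ 2 + ‖j.q‖ ^ 2 + ‖j0.P‖ + ‖j0.Q‖ := by rw [Jet.W, e1, e2]
    have e4 : j.W = 1 + ‖j.p‖ ^ 2 + ‖j.q‖ ^ 2 + ‖j.P‖ + ‖j.Q‖ := rfl
    have : 2 * D ≤ 1 := by rw [hD]; linarith
    linarith
  have hW00 := j0.W_nonneg
  have hmod : Lim621.Mod t j j0 ≤ (9 + 306 * (13 + C1)) * t * j.W ^ 2 := by
    have e1 : j.p - j0.p = 0 := by rw [hj0]; exact sub_self _
    have e2 : j.q - j0.q = 0 := by rw [hj0]; exact sub_self _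
    rw [Lim621.Mod, e1, e2, norm_zero, add_zero, zero_mul, add_zero]
    have a1 : (j.W + j0.W) ^ 2 ≤ 9 * j.W ^ 2 := by
      have h3 : j.W + j0.W ≤ 3 * j.W := by linarith
      calc (j.W + j0.W) ^ 2 ≤ (3 * j.W) ^ 2 := pow_le_pow_left₀ (by linarith) h3 2
        _ = _ := by ring
    have a2 : (‖j.P - j0.P‖ + ‖j.Q - j0.Q‖) * (j.W + j0.W) ≤ (2 * D) * (3 * j.W) :=
      mul_le_mul (by linarith) (by linarith) (by positivity) (by positivity)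
    have a3 : (2 * D) * (3 * j.W) ≤ 306 * (13 + C1) * t * j.W ^ 2 := by
      rw [hD]
      have h3 : 0 ≤ 306 * ((13 + C1) * t) := by positivity
      have hWW : j.W ≤ j.W ^ 2 := le_self_pow₀ hW1 two_ne_zero
      have h4 := mul_le_mul_of_nonneg_left hWW h3
      have e7 : 2 * (51 * (13 + C1) * t) * (3 * j.W) = 306 * ((13 + C1) * t) * j.W := by ring
      have e8 : 306 * (13 + C1) * t * j.W ^ 2 = 306 * ((13 + C1) * t) * j.W ^ 2 := by ring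
      rw [e7, e8]; exact h4
    have a4 := mul_le_mul_of_nonneg_left a1 ht.le
    have e9 : (9 + 306 * (13 + C1)) * t * j.W ^ 2 =
        t * (9 * j.W ^ 2) + 306 * (13 + C1) * t * j.W ^ 2 := by ring
    rw [e9]
    linarith
  have h5 : |IE A B W j - IE A B W j0| ≤
      10 ^ 5 * C0 * ((9 + 306 * (13 + C1)) * t * j.W ^ 2) :=
    hlip.trans (mul_le_mul_of_nonneg_left hmod (by positivity))
  have h6 := (abs_le.1 h5).1
  have h7 := OmZ_shift N (m₁ := θ * m₁) (m₂ := θ * m₂) ht.le ht1.le hf2 hf1 hg2 hg1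
  rw [← hj0] at h7
  have h8 := mul_le_mul_of_nonneg_left h7 hC.c0.le
  have hWW : 1 ≤ j.W ^ 2 := one_le_pow₀ hW1
  have h9 : c * (4 * 4 ^ N * t) ≤ 4 * 4 ^ N * c * t * j.W ^ 2 := by
    have h3 : 0 ≤ 4 * 4 ^ N * c * t := by
      have := hC.c0
      positivity
    have e : c * (4 * 4 ^ N * t) = 4 * 4 ^ N * c * t * 1 := by ring
    rw [e]
    exact mul_le_mul_of_nonneg_left hWW h3
  have h10 := mul_le_mul_of_nonneg_right hκ (sq_nonneg j.W)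
  have e10 : (10 ^ 5 * C0 * (9 + 306 * (13 + C1)) + 4 * 4 ^ N * c) * t * j.W ^ 2 =
      10 ^ 5 * C0 * ((9 + 306 * (13 + C1)) * t * j.W ^ 2) + 4 * 4 ^ N * c * t * j.W ^ 2 := by ring
  rw [e10] at h10
  rw [mul_add] at h8
  linarith

end Crest.Agent.R249.Sym467
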