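import Crest.Agent.R249.Sym7_467

/-!
# R249 (helper467), A2-ETA part 13: `cert_core`
-/

set_option autoImplicit false
set_option linter.unusedVariables false
set_option linter.unusedSectionVars false

open MeasureTheory Set Filter Topology Matrix
open scoped ContDiff

noncomputable section

namespace Crest.Agent.R249.Sym467

open DivC467 Eta467 Lim621

attribute [local instance] Matrix.frobeniusNormedAddCommGroup Matrix.frobeniusNormedSpace

variable {γ : Pm} {ρ : Rd γ}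

lemma sqrt_small {K κ r : ℝ} (hK : 0 ≤ K) (hκ : 0 < κ) (hr : r ≤ (κ / (K + 1)) ^ 2) :
    K * √r ≤ κ := by
  have h1 : √r ≤ κ / (K + 1) := Real.sqrt_le_iff.2 ⟨by positivity, hr⟩
  have h2 : K * √r ≤ K * (κ / (K + 1)) := mul_le_mul_of_nonneg_left h1 hK
  refine h2.trans ?_
  rw [← mul_div_assoc, div_le_iff₀ (by linarith)]
  nlinarith

lemma lin_small {K κ r : ℝ} (hK : 0 ≤ K) (hκ : 0 < κ) (hr0 : 0 ≤ r) (hr : r ≤ κ / (K + 1)) :
    K * r ≤ κ := by
  have h2 : K * r ≤ K * (κ / (K + 1)) := mul_le_mul_of_nonneg_left hr hK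
  refine h2.trans ?_
  rw [← mul_div_assoc, div_le_iff₀ (by linarith)]
  nlinarith

/-- **the certificate at all small levels** (scaled unknowns). -/
theorem cert_core {A B W : E3 → ℝ} {c : ℝ} {N : ℕ} (hX : PmX γ) (h : SyAll ρ A B W)
    (hC : CertS γ A B W c N) (κ : ℝ) (hκ : 0 < κ) (C1 : ℝ) :
    ∃ t1 : ℝ, 0 < t1 ∧ ∀ t : ℝ, 0 < t → t < t1 → ∀ ε : ℝ, 0 ≤ ε → ε ≤ C1 * t →
      ∀ (j : Jet E4 H4) (m₁ m₂ : ℝ), ExJ γ t ε j m₁ m₂ →
        c * OmZ N j ≤ IE A B W j + κ * j.W ^ 2 := by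
  obtain ⟨K1, hK1, hB1⟩ := exists_bds1 h
  obtain ⟨K2, hK2, hB2⟩ := h.low
  obtain ⟨K, hKd⟩ : ∃ K, K = K1 + K2 := ⟨_, rfl⟩
  have hK : 0 ≤ K := by rw [hKd]; exact add_nonneg hK1 hK2
  have hB : ∀ z ∈ Reg γ, 1 / 4 ≤ z.2.1 → Bds1 γ A B W K z := fun z hz hm =>
    (hB1 z hz hm).mono hz (by rw [hKd]; linarith)
  have hBl : ∀ z ∈ Reg γ, |z.1| < 2 * z.2.1 → -(K * ((√(om γ z))⁻¹ * (1 + z.2.2))) ≤ B z := by
    intro z hz hlt
    have h1 := hB2 z hz hlt
    have h2 : 0 ≤ (√(om γ z))⁻¹ * (1 + z.2.2) :=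
      mul_nonneg (by positivity) (gg_pos hz).le
    have h3 : K2 * ((√(om γ z))⁻¹ * (1 + z.2.2)) ≤ K * ((√(om γ z))⁻¹ * (1 + z.2.2)) :=
      mul_le_mul_of_nonneg_right (by rw [hKd]; linarith) h2
    linarith
  obtain ⟨C, hCd⟩ : ∃ C, C = max C1 0 := ⟨_, rfl⟩
  have hC0 : 0 ≤ C := by rw [hCd]; exact le_max_right _ _
  have hC1 : C1 ≤ C := by rw [hCd]; exact le_max_left _ _
  obtain ⟨M, hM⟩ : ∃ M, M = 1000 + 51 * C := ⟨_, rfl⟩
  have hM0 : 0 < M := by rw [hM]; linarith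
  obtain ⟨r0, hr0d⟩ : ∃ r0, r0 = min (1 / 4) (min (1 / (2 * M)) ((κ / (120 * K * M + 1)) ^ 2)) :=
    ⟨_, rfl⟩
  have hr0 : 0 < r0 := by
    rw [hr0d]; refine lt_min (by norm_num) (lt_min (by positivity) (by positivity))
  have hr1 : r0 ≤ 1 / 4 := by rw [hr0d]; exact min_le_left _ _
  have hr2 : r0 ≤ 1 / (2 * M) := by
    rw [hr0d]; exact (min_le_right _ _).trans (min_le_left _ _)
  have hr3 : r0 ≤ (κ / (120 * K * M + 1)) ^ 2 := by
    rw [hr0d]; exact (min_le_right _ _).trans (min_le_right _ _)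
  have hr2' : 2 * M * r0 ≤ 1 := by
    have := (le_div_iff₀ (by positivity : 0 < 2 * M)).1 hr2
    linarith
  have hr3' : 120 * K * M * √r0 ≤ κ := sqrt_small (by positivity) hκ hr3
  obtain ⟨C0, hC00, hseg⟩ := cfAllP_of_seg h (r := r0 / 4) (by linarith) (by linarith)
  obtain ⟨L, hL⟩ : ∃ L, L = 10 ^ 5 * C0 * (9 + 306 * (13 + C)) + 4 * 4 ^ N * c := ⟨_, rfl⟩
  have hc0 := hC.c0
  have hL0 : 0 ≤ L := by rw [hL]; positivity
  refine ⟨min (1 / 2) (min (r0 / 2) (min (1 / (102 * (13 + C))) (min (κ / (L + 1))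
    ((κ / (2 * K * C + 1)) ^ 2)))), ?_, ?_⟩
  · refine lt_min (by norm_num) (lt_min (by linarith) (lt_min (by positivity)
      (lt_min (by positivity) (by positivity))))
  · intro t ht htt ε hε hε1 j m₁ m₂ hj
    have t1 : t < 1 / 2 := htt.trans_le (min_le_left _ _)
    have t2 : t < r0 / 2 := htt.trans_le ((min_le_right _ _).trans (min_le_left _ _))
    have t3 : t < 1 / (102 * (13 + C)) :=
      htt.trans_le ((min_le_right _ _).trans ((min_le_right _ _).trans (min_le_left _ _)))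
    have t4 : t < κ / (L + 1) :=
      htt.trans_le ((min_le_right _ _).trans ((min_le_right _ _).trans
        ((min_le_right _ _).trans (min_le_left _ _))))
    have t5 : t < (κ / (2 * K * C + 1)) ^ 2 :=
      htt.trans_le ((min_le_right _ _).trans ((min_le_right _ _).trans
        ((min_le_right _ _).trans (min_le_right _ _))))
    have hεC : ε ≤ C * t := hε1.trans (mul_le_mul_of_nonneg_right hC1 ht.le)
    rcases hj.alt with ⟨e1, e2⟩ | ⟨hk, hv, h1, h2, hS⟩
    · subst e1 e2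
      refine free_core hC hK hBl ht (by linarith) hε ?_ hj
      have q1 : 2 * K * C * √t ≤ κ := sqrt_small (by positivity) hκ t5.le
      have q2 : ε * (√t)⁻¹ ≤ C * √t := by
        have q3 : t * (√t)⁻¹ = √t := by rw [← div_eq_mul_inv]; exact Real.div_sqrt
        calc ε * (√t)⁻¹ ≤ (C * t) * (√t)⁻¹ :=
              mul_le_mul_of_nonneg_right hεC (by positivity)
          _ = C * (t * (√t)⁻¹) := by ring
          _ = C * √t := by rw [q3]
      have q4 := mul_le_mul_of_nonneg_left q2 (by positivity : 0 ≤ 2 * K)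
      linarith
    · rcases le_total (om γ (bJ j)) r0 with ho | ho
      · exact near_core hX hC hK hB ht t1 hε hεC hC0 hr0 hr1 (by rw [hM] at hr2'; linarith)
          (by rw [hM] at hr3'; linarith) hj hk hv h1 h2 hS ho
      · refine far_core hX hC hC00 hseg ht t1 hε hεC hC0 hr0 (by linarith) t2.le ?_ ?_ hj hk hv
          h1 h2 hS ho
        · have := (lt_div_iff₀ (by positivity : 0 < 102 * (13 + C))).1 t3
          linarith
        · have := lin_small hL0 hκ ht.le t4.le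
          rw [hL] at this
          linarith

end Crest.Agent.R249.Sym467
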