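import Crest.Agent.R249.Sym8_467
import Crest.Agent.R249.CovA_621
import Crest.Agent.R249.StJc_912

/-!
# R249 (helper467), A2-ETA part 14: transfer to the original unknowns

`IAC A B W` : the integrand of the pulled back field (`u = (10/7) φ - 3/7`);
`certPt_of`, `certLip_of`, `certDiv_of` : the three parts of `StJ_912.CertAC`.
-/

set_option autoImplicit false
set_option linter.unusedVariables false
set_option linter.unusedSectionVars false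

open MeasureTheory Set Filter Topology Matrix
open scoped ContDiff

noncomputable section

namespace Crest.Agent.R249.Sym467

open Calc_806 Calc_806.Calc
open DivC467 Eta467 Lim621 LimE621 LimF621 PenH_806 StJ_912 CovA621

attribute [local instance] Matrix.frobeniusNormedAddCommGroup Matrix.frobeniusNormedSpace

/-- the integrand in the original unknowns. -/
def IAC (A B W : E3 → ℝ) : Jet E4 H4 → ℝ :=
  IE (pb (10 / 7) (-3 / 7) A) (pb (10 / 7) (-3 / 7) B) (pbW (10 / 7) (-3 / 7) W)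

/-- the scaled jet. -/
abbrev sJt (j : Jet E4 H4) : Jet E4 H4 := homJ (10 / 7) (-3 / 7) j

lemma IAC_eq (A B W : E3 → ℝ) (j : Jet E4 H4) : IAC A B W j = IE A B W (sJt j) :=
  IE_hom (by norm_num) _ _ _ _ _

/-! ### the parameters -/

lemma dG_AC (η : ℝ) : dG ACpm η = -(7 / 20) * η + 4 / 125 * η ^ 3 := by
  simp only [dG, ACpm]; ring

lemma ddG_AC (η : ℝ) : ddG ACpm η = -(7 / 20) + 12 / 125 * η ^ 2 := by
  simp only [ddG, ACpm]; ring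

/-- the further conditions for the contract AC*. -/
theorem pmX_AC : PmX ACpm where
  sl := fun η hη => by
    rw [dG_AC]
    have h2 := abs_le.1 hη
    have h3 : η ^ 2 ≤ 100 / 49 := by nlinarith [h2.1, h2.2]
    have e : -(7 / 20) * η + 4 / 125 * η ^ 3 = η * (-(7 / 20) + 4 / 125 * η ^ 2) := by ring
    rw [e, abs_mul]
    have h4 : |-(7 / 20) + 4 / 125 * η ^ 2| ≤ 84 / 250 + 1 / 70 := by
      rw [abs_le]; constructor <;> nlinarith [sq_nonneg η]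
    have h5 : |η| * |-(7 / 20) + 4 / 125 * η ^ 2| ≤ |η| * (7 / 20 - 4 / 125 * η ^ 2) := by
      apply mul_le_mul_of_nonneg_left _ (abs_nonneg _)
      rw [abs_le]; constructor <;> nlinarith [sq_nonneg η]
    refine h5.trans ?_
    have h6 : η ^ 2 = |η| ^ 2 := (sq_abs η).symm
    rw [h6]
    nlinarith [abs_nonneg η, sq_nonneg (|η| - 10 / 7)]
  cr := fun η hη => by
    have h6 : η ^ 2 = |η| ^ 2 := (sq_abs η).symm
    have h7 : η ^ 4 = |η| ^ 4 := by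
      calc η ^ 4 = (η ^ 2) ^ 2 := by ring
        _ = _ := by rw [h6]; ring
    simp only [ACpm]
    rw [h6, h7]
    obtain ⟨x, hx⟩ : ∃ x, x = |η| := ⟨_, rfl⟩
    rw [← hx] at hη ⊢
    have hx0 : 0 ≤ x := by rw [hx]; exact abs_nonneg _
    have h8 : x ^ 2 ≤ 100 / 49 := by nlinarith
    have h9 : x ^ 4 ≤ (100 / 49) * x ^ 2 := by nlinarith [sq_nonneg x]
    nlinarith [sq_nonneg (x - 10 / 7)]

/-! ### scaled jets -/

lemma sJt_f (j : Jet E4 H4) : (sJt j).f = -3 / 7 + 10 / 7 * j.f := rfl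

lemma sJt_g (j : Jet E4 H4) : (sJt j).g = -3 / 7 + 10 / 7 * j.g := rfl

lemma norm_sq_uJ (j : Jet E4 H4) : ‖j.p - j.q‖ ^ 2 = uJ j ⬝ᵥ uJ j := by
  rw [EuclideanSpace.norm_sq_eq, uJ]
  simp only [dotProduct, Real.norm_eq_abs, sq_abs]
  exact Finset.sum_congr rfl fun i _ => by ring

lemma norm_smul_sJt {F : Type*} [NormedAddCommGroup F] [NormedSpace ℝ F] (x : F) :
    ‖(10 / 7 : ℝ) • x‖ = 10 / 7 * ‖x‖ := by
  rw [norm_smul, Real.norm_eq_abs, abs_of_pos (by norm_num)]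

lemma sJt_W_le (j : Jet E4 H4) : (sJt j).W ≤ 100 / 49 * j.W := by
  have e : (sJt j).W = 1 + ‖(10 / 7 : ℝ) • j.p‖ ^ 2 + ‖(10 / 7 : ℝ) • j.q‖ ^ 2 +
      ‖(10 / 7 : ℝ) • j.P‖ + ‖(10 / 7 : ℝ) • j.Q‖ := rfl
  have e2 : j.W = 1 + ‖j.p‖ ^ 2 + ‖j.q‖ ^ 2 + ‖j.P‖ + ‖j.Q‖ := rfl
  rw [e, e2, norm_smul_sJt, norm_smul_sJt, norm_smul_sJt, norm_smul_sJt]
  have := norm_nonneg j.P
  have := norm_nonneg j.Q
  nlinarith

lemma bJ_sJt (j : Jet E4 H4) : bJ (sJt j) =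
    (10 / 7 * (bJ j).1, -3 / 7 + 10 / 7 * (bJ j).2.1, (10 / 7) ^ 2 * (bJ j).2.2) :=
  bJ_hom _ _ _

lemma kf_sJt (j : Jet E4 H4) : kf ACpm (bJ (sJt j)) = 10 / 7 * OA.k j.f j.g := by
  rw [bJ_sJt, kf_AC, OA_k]
  simp only [bJ]
  ring

lemma OmJ_eq (c : ℝ) (N : ℕ) (j : Jet E4 H4) :
    OmJ (c * (10 / 7) ^ (2 * N + 2)) N j = c * OmZ N (sJt j) := by
  have e1 : ‖(sJt j).p‖ = 10 / 7 * ‖j.p‖ := norm_smul_sJt j.p
  have e2 : ‖(sJt j).q‖ = 10 / 7 * ‖j.q‖ := norm_smul_sJt j.q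
  have e3 : (sJt j).f * (sJt j).g = (10 / 7) ^ 2 * ((j.f - 3 / 10) * (j.g - 3 / 10)) := by
    rw [sJt_f, sJt_g]; ring
  rw [OmJ, OmZ, StH_912.OmS, e1, e2, e3, mul_pow ((10 / 7 : ℝ) ^ 2) _ N, ← pow_mul, sJt_f, sJt_g, gA,
    pow_add]
  ring

/-- exact jets. -/
lemma exJ_of {t ε : ℝ} (ht : 0 < t) (htB : t < BA - gA) {j : Jet E4 H4} {m m' : ℝ}
    (hf1 : gA + t ≤ j.f) (hf2 : j.f ≤ BA) (hg1 : gA + t ≤ j.g) (hg2 : j.g ≤ BA)
    (hP : j.P ∈ SyH) (hk : 0 ≤ (OA.lvl t ht.le htB).k j.f j.g)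
    (hm : j.P.1 = fA j.f - ε + m) (hm' : j.Q.1 = fA j.g - ε + m')
    (halt : (m = 0 ∧ m' = 0) ∨ ((OA.lvl t ht.le htB).k j.f j.g = 0 ∧
      LvE (OA.lvl t ht.le htB) j = 0 ∧ 0 ≤ m ∧ 0 ≤ m' ∧
      -(OA.lvl t ht.le htB).k1 j.f j.g * m + -(OA.lvl t ht.le htB).k2 j.f j.g * m' ≤
        max (EkE (OA.lvl t ht.le htB) (fun u => fA u - ε) j) 0 + 0)) :
    ExJ ACpm (10 / 7 * t) (10 / 7 * ε) (sJt j) (10 / 7 * m) (10 / 7 * m') := by
  rw [lvl_k] at hk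
  simp only [gA, BA] at hf1 hf2 hg1 hg2
  refine ⟨homJ_mem hP, ?_, ?_, ?_, ?_, ?_, ?_, ?_, ?_⟩
  · rw [sJt_f]; linarith
  · rw [sJt_f]; linarith
  · rw [sJt_g]; linarith
  · rw [sJt_g]; linarith
  · rw [kf_sJt]; linarith
  · have e : (sJt j).P.1 = 10 / 7 * j.P.1 := rfl
    rw [e, hm, sJt_f, fA_eq, Fs]; ring
  · have e : (sJt j).Q.1 = 10 / 7 * j.Q.1 := rfl
    rw [e, hm', sJt_g, fA_eq, Fs]; ring
  · rcases halt with ⟨h1, h2⟩ | ⟨h1, h2, h3, h4, h5⟩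
    · left; rw [h1, h2]; simp
    · right
      rw [lvl_k] at h1
      have eη : (bJ (sJt j)).1 = 10 / 7 * (j.f - j.g) := by rw [bJ_sJt]; rfl
      have eG : (bJ (sJt j)).2.2 = (10 / 7) ^ 2 * ‖j.p - j.q‖ ^ 2 := by
        rw [bJ_sJt, norm_sq_uJ]; rfl
      obtain ⟨d, hd⟩ : ∃ d, d = -(1 / 2) * (j.f - j.g) + 32 / 343 * (j.f - j.g) ^ 3 := ⟨_, rfl⟩
      have ed : dG ACpm (bJ (sJt j)).1 = d := by rw [dG_AC, eη, hd]; ring
      have ek1 : OA.k1 j.f j.g = d - 1 / 2 := by rw [OA_k1, hd]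
      have ek2 : OA.k2 j.f j.g = -d - 1 / 2 := by rw [OA_k2, hd]; ring
      refine ⟨by rw [kf_sJt]; linarith, ?_, by positivity, by positivity, ?_⟩
      · rw [LvE, lvl_k1, lvl_k2, ek1, ek2] at h2
        have h6 : (1 / 2 : ℝ) • (j.p + j.q) = d • (j.p - j.q) := by
          have : (1 / 2 : ℝ) • (j.p + j.q) =
              d • (j.p - j.q) - ((d - 1 / 2) • j.p + (-d - 1 / 2) • j.q) := by module
          rw [this, h2, sub_zero]
        have h7 : vJ j = d • uJ j := congrArg WithLp.ofLp h6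
        rw [vJ_hom, uJ_hom, ed, h7, smul_comm]
      · rw [lvl_k1, lvl_k2, ek1, ek2, EkE, lvl_E, OA_E, add_zero] at h5
        have e6 : Ec ACpm (bJ (sJt j)) + 10 / 7 * ε = 10 / 7 *
            ((-(1 / 2) * (j.f - j.g) + 32 / 343 * (j.f - j.g) ^ 3 - 1 / 2) * (fA j.f - ε) +
            (1 / 2 * (j.f - j.g) - 32 / 343 * (j.f - j.g) ^ 3 - 1 / 2) * (fA j.g - ε) +
            (-(1 / 2) + 96 / 343 * (j.f - j.g) ^ 2) * ‖j.p - j.q‖ ^ 2) := by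
          rw [Ec, bJ_phi, bJ_psi, ed, eη, eG, ddG_AC, sJt_f, sJt_g, hd, fA_eq, fA_eq, Fs, Fs]
          ring
        rw [ed, e6]
        have h7 := mul_le_mul_of_nonneg_left h5 (by norm_num : (0:ℝ) ≤ 10 / 7)
        rw [mul_max_of_nonneg _ _ (by norm_num : (0:ℝ) ≤ 10 / 7), mul_zero] at h7
        refine le_trans (le_of_eq ?_) h7
        ring

/-- **the pointwise certificate.** -/
theorem certPt_of {ρ : Rd ACpm} {A B W : E3 → ℝ} {c : ℝ} {N : ℕ} (h : SyAll ρ A B W)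
    (hC : CertS ACpm A B W c N) :
    CertPt (c * (10 / 7) ^ (2 * N + 2)) N (fun _ => IAC A B W) := by
  intro κ hκ C1
  obtain ⟨t1, ht1, H⟩ := cert_core pmX_AC h hC (κ / 5) (by positivity) C1
  refine ⟨7 / 10 * t1, by positivity, fun t ht htB htt ε hε hεC => ?_⟩
  intro j m m' hf1 hf2 hg1 hg2 hP hQ hk hm hm' halt
  have hx := exJ_of (ε := ε) ht htB hf1 hf2 hg1 hg2 hP hk hm hm' halt
  have hH := H (10 / 7 * t) (by positivity) (by linarith) (10 / 7 * ε) (by positivity)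
    (by nlinarith) (sJt j) _ _ hx
  rw [OmJ_eq]
  show _ ≤ IAC A B W j + κ * j.W ^ 2
  rw [IAC_eq]
  have h1 := sJt_W_le j
  have h2 := (sJt j).W_nonneg
  have h3 : (sJt j).W ^ 2 ≤ 5 * j.W ^ 2 := by
    have h4 := pow_le_pow_left₀ h2 h1 2
    nlinarith [sq_nonneg j.W]
  have h5 := mul_le_mul_of_nonneg_left h3 (by positivity : 0 ≤ κ / 5)
  linarith

/-! ### the Lipschitz condition -/

/-- base points in the region. -/
lemma reg_of {γ : Pm} {z : E3} (hu : 0 < z.2.1 + z.1 / 2) (hu1 : z.2.1 + z.1 / 2 ≤ 10 / 7)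
    (hv : 0 < z.2.1 - z.1 / 2) (hv1 : z.2.1 - z.1 / 2 ≤ 10 / 7) (hk : 0 < kf γ z)
    (hG : 0 ≤ z.2.2) : z ∈ Reg γ ∧ |z.1| < 2 * z.2.1 := by
  have h : |z.1| < 2 * z.2.1 := abs_lt.2 ⟨by linarith, by linarith⟩
  refine ⟨⟨by linarith, h.le, ?_, hk.le, hG, by positivity⟩, h⟩
  have : |z.1| ≤ 2 * (10 / 7 - z.2.1) := abs_le.2 ⟨by linarith, by linarith⟩
  linarith

lemma conc_seg {x y s : ℝ} (hx : |x| ≤ 10 / 7) (hy : |y| ≤ 10 / 7) (hs0 : 0 ≤ s) (hs1 : s ≤ 1) :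
    (1 - s) * (-(7 / 40) * x ^ 2 + 1 / 125 * x ^ 4) + s * (-(7 / 40) * y ^ 2 + 1 / 125 * y ^ 4) ≤
      -(7 / 40) * (x + s * (y - x)) ^ 2 + 1 / 125 * (x + s * (y - x)) ^ 4 := by
  have hx2 : x ^ 2 ≤ 100 / 49 := by
    have := pow_le_pow_left₀ (abs_nonneg x) hx 2
    rw [sq_abs] at this; linarith
  have hy2 : y ^ 2 ≤ 100 / 49 := by
    have := pow_le_pow_left₀ (abs_nonneg y) hy 2
    rw [sq_abs] at this; linarith
  have hxy : x * y ≤ 100 / 49 := by nlinarith [sq_nonneg (x - y)]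
  have q1 : 0 ≤ 3 - 3 * s + s ^ 2 := by nlinarith [sq_nonneg (s - 3 / 2)]
  have q2 : 0 ≤ 2 + 2 * s - 2 * s ^ 2 := by nlinarith
  have q3 : 0 ≤ 1 + s + s ^ 2 := by positivity
  have hQ : x ^ 2 * (3 - 3 * s + s ^ 2) + x * y * (2 + 2 * s - 2 * s ^ 2) +
      y ^ 2 * (1 + s + s ^ 2) ≤ 600 / 49 := by
    have a1 := mul_le_mul_of_nonneg_right hx2 q1
    have a2 := mul_le_mul_of_nonneg_right hxy q2
    have a3 := mul_le_mul_of_nonneg_right hy2 q3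
    linarith
  have key : -(7 / 40) * (x + s * (y - x)) ^ 2 + 1 / 125 * (x + s * (y - x)) ^ 4 -
      ((1 - s) * (-(7 / 40) * x ^ 2 + 1 / 125 * x ^ 4) +
        s * (-(7 / 40) * y ^ 2 + 1 / 125 * y ^ 4)) =
      s * (1 - s) * (x - y) ^ 2 * (7 / 40 - 1 / 125 * (x ^ 2 * (3 - 3 * s + s ^ 2) +
        x * y * (2 + 2 * s - 2 * s ^ 2) + y ^ 2 * (1 + s + s ^ 2))) := by ring
  have h1 : 0 ≤ s * (1 - s) * (x - y) ^ 2 := by
    have : 0 ≤ 1 - s := by linarith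
    positivity
  have h2 := mul_nonneg h1 (by linarith : 0 ≤ 7 / 40 - 1 / 125 * (x ^ 2 * (3 - 3 * s + s ^ 2) +
        x * y * (2 + 2 * s - 2 * s ^ 2) + y ^ 2 * (1 + s + s ^ 2)))
  linarith

/-- points of the box at level `≥ t/2`. -/
structure InBx (t : ℝ) (z : E3) : Prop where
  u0 : t ≤ z.2.1 + z.1 / 2
  u1 : z.2.1 + z.1 / 2 ≤ 10 / 7
  v0 : t ≤ z.2.1 - z.1 / 2
  v1 : z.2.1 - z.1 / 2 ≤ 10 / 7
  k0 : t / 2 ≤ kf ACpm z
  G0 : 0 ≤ z.2.2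

lemma InBx.seg {t : ℝ} (ht : 0 < t) (ht1 : t ≤ 1) {z z' : E3} (h : InBx t z) (h' : InBx t z')
    (hG : z'.2.2 = z.2.2) : Seg ACpm (t / 2) z z' := by
  have key : ∀ s ∈ Icc (0:ℝ) 1, InBx t (z + s • (z' - z)) := by
    rintro s ⟨hs0, hs1⟩
    have e1 : (z + s • (z' - z)).1 = z.1 + s * (z'.1 - z.1) := rfl
    have e2 : (z + s • (z' - z)).2.1 = z.2.1 + s * (z'.2.1 - z.2.1) := rfl
    have e3 : (z + s • (z' - z)).2.2 = z.2.2 := by
      show z.2.2 + s * (z'.2.2 - z.2.2) = _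
      rw [hG]; ring
    have hs1' : 0 ≤ 1 - s := by linarith
    have hx : |z.1| ≤ 10 / 7 := by
      have := h.u0; have := h.u1; have := h.v0; have := h.v1
      rw [abs_le]; constructor <;> linarith
    have hy : |z'.1| ≤ 10 / 7 := by
      have := h'.u0; have := h'.u1; have := h'.v0; have := h'.v1
      rw [abs_le]; constructor <;> linarith
    have hc := conc_seg hx hy hs0 hs1
    have c0 := h.k0
    have c0' := h'.k0
    rw [kf_AC] at c0 c0'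
    refine ⟨?_, ?_, ?_, ?_, ?_, by rw [e3]; exact h.G0⟩
    · rw [e1, e2]
      have a := mul_le_mul_of_nonneg_left h.u0 hs1'
      have b := mul_le_mul_of_nonneg_left h'.u0 hs0
      linarith
    · rw [e1, e2]
      have a := mul_le_mul_of_nonneg_left h.u1 hs1'
      have b := mul_le_mul_of_nonneg_left h'.u1 hs0
      linarith
    · rw [e1, e2]
      have a := mul_le_mul_of_nonneg_left h.v0 hs1'
      have b := mul_le_mul_of_nonneg_left h'.v0 hs0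
      linarith
    · rw [e1, e2]
      have a := mul_le_mul_of_nonneg_left h.v1 hs1'
      have b := mul_le_mul_of_nonneg_left h'.v1 hs0
      linarith
    · rw [kf_AC, e1, e2]
      have a := mul_le_mul_of_nonneg_left c0 hs1'
      have b := mul_le_mul_of_nonneg_left c0' hs0
      linarith
  have reg : ∀ s ∈ Icc (0:ℝ) 1, z + s • (z' - z) ∈ Reg ACpm := by
    intro s hs
    obtain ⟨a1, a2, a3, a4, a5, a6⟩ := key s hs
    exact (reg_of (by linarith) a2 (by linarith) a4 (by linarith) a6).1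
  refine ⟨hG, reg, ?_, ?_⟩
  · intro s hs
    obtain ⟨a1, a2, a3, a4, a5, a6⟩ := key s hs
    linarith
  · intro s hs
    refine le_trans ?_ ((key s hs).k0.trans (k_le_om (reg s hs)))
    nlinarith

lemma inBx_of {t : ℝ} (ht : 0 < t) (htB : t < BA - gA) {u v : ℝ} {z : E3}
    (h : (u, v) ∈ DomO (OA.lvl t ht.le htB) (t / 2)) (h1 : z.1 = 10 / 7 * (u - v))
    (h2 : z.2.1 = -3 / 7 + 10 / 7 * (1 / 2 * (u + v))) (h3 : 0 ≤ z.2.2) :
    InBx (10 / 7 * t) z := by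
  obtain ⟨a1, a2, a3, a4, a5'⟩ := h
  have a5 : -(t / 2) ≤ (OA.lvl t ht.le htB).k u v := a5'
  rw [lvl_k, OA_k] at a5
  simp only [gA, BA] at a1 a2 a3 a4
  refine ⟨?_, ?_, ?_, ?_, ?_, h3⟩
  · rw [h1, h2]; linarith
  · rw [h1, h2]; linarith
  · rw [h1, h2]; linarith
  · rw [h1, h2]; linarith
  · rw [kf_AC, h1, h2]
    have e : 1 - 7 / 40 * (10 / 7 * (u - v)) ^ 2 + 1 / 125 * (10 / 7 * (u - v)) ^ 4 -
        (-3 / 7 + 10 / 7 * (1 / 2 * (u + v))) = 10 / 7 * (1 - 1 / 4 * (u - v) ^ 2 +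
          8 / 343 * (u - v) ^ 4 - (u + v) / 2) := by ring
    rw [e]; linarith

lemma mod_sJt {ε : ℝ} (hε : 0 ≤ ε) (j j' : Jet E4 H4) :
    Lim621.Mod (10 / 7 * ε) (sJt j) (sJt j') ≤ 6 * Lim621.Mod ε j j' := by
  have hV : (sJt j).W + (sJt j').W ≤ 100 / 49 * (j.W + j'.W) := by
    have := sJt_W_le j
    have := sJt_W_le j'
    linarith
  have hV0 : 0 ≤ (sJt j).W + (sJt j').W := add_nonneg (sJt j).W_nonneg (sJt j').W_nonneg
  have hV1 : 0 ≤ j.W + j'.W := add_nonneg j.W_nonneg j'.W_nonneg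
  obtain ⟨V, hVd⟩ : ∃ V, V = j.W + j'.W := ⟨_, rfl⟩
  obtain ⟨Vs, hVsd⟩ : ∃ Vs, Vs = (sJt j).W + (sJt j').W := ⟨_, rfl⟩
  have np : ‖(sJt j).p - (sJt j').p‖ = 10 / 7 * ‖j.p - j'.p‖ := by
    rw [← norm_smul_sJt, smul_sub]; rfl
  have nq : ‖(sJt j).q - (sJt j').q‖ = 10 / 7 * ‖j.q - j'.q‖ := by
    rw [← norm_smul_sJt, smul_sub]; rfl
  have nP : ‖(sJt j).P - (sJt j').P‖ = 10 / 7 * ‖j.P - j'.P‖ := by
    rw [← norm_smul_sJt, smul_sub]; rfl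
  have nQ : ‖(sJt j).Q - (sJt j').Q‖ = 10 / 7 * ‖j.Q - j'.Q‖ := by
    rw [← norm_smul_sJt, smul_sub]; rfl
  rw [Lim621.Mod, Lim621.Mod, np, nq, nP, nQ, ← hVd, ← hVsd]
  rw [← hVd, ← hVsd] at hV
  rw [← hVsd] at hV0
  rw [← hVd] at hV1
  have hs : √Vs ≤ 10 / 7 * √V := by
    rw [Real.sqrt_le_left (by positivity), mul_pow, Real.sq_sqrt hV1]
    linarith
  have hsq := Real.sqrt_nonneg V
  have hsq' := Real.sqrt_nonneg Vs
  have d1 : 0 ≤ ‖j.p - j'.p‖ + ‖j.q - j'.q‖ := by positivity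
  have d2 : 0 ≤ ‖j.P - j'.P‖ + ‖j.Q - j'.Q‖ := by positivity
  have a1 : Vs ^ 2 ≤ 21 / 5 * V ^ 2 := by
    have := pow_le_pow_left₀ hV0 hV 2
    nlinarith [sq_nonneg V]
  have a2 : Vs * √Vs ≤ 100 / 49 * V * (10 / 7 * √V) := mul_le_mul hV hs hsq' (by positivity)
  have b1 : 10 / 7 * ε * Vs ^ 2 ≤ 10 / 7 * ε * (21 / 5 * V ^ 2) :=
    mul_le_mul_of_nonneg_left a1 (by positivity)
  have b2 : (10 / 7 * ‖j.p - j'.p‖ + 10 / 7 * ‖j.q - j'.q‖) * (Vs * √Vs) ≤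
      (10 / 7 * ‖j.p - j'.p‖ + 10 / 7 * ‖j.q - j'.q‖) * (100 / 49 * V * (10 / 7 * √V)) :=
    mul_le_mul_of_nonneg_left a2 (by positivity)
  have b3 : (10 / 7 * ‖j.P - j'.P‖ + 10 / 7 * ‖j.Q - j'.Q‖) * Vs ≤
      (10 / 7 * ‖j.P - j'.P‖ + 10 / 7 * ‖j.Q - j'.Q‖) * (100 / 49 * V) :=
    mul_le_mul_of_nonneg_left hV (by positivity)
  have c1 : 0 ≤ ε * V ^ 2 := by positivity
  have c2 : 0 ≤ (‖j.p - j'.p‖ + ‖j.q - j'.q‖) * (V * √V) := by positivity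
  have c3 : 0 ≤ (‖j.P - j'.P‖ + ‖j.Q - j'.Q‖) * V := by positivity
  nlinarith

/-- **the Lipschitz condition.** -/
theorem certLip_of {ρ : Rd ACpm} {A B W : E3 → ℝ} (h : SyAll ρ A B W) :
    CertLip (fun _ => IAC A B W) := by
  refine ⟨1 / 2, by norm_num, fun t ht htB htt => ?_⟩
  obtain ⟨C0, hC0, hseg⟩ := cfAllP_of_seg h (r := 10 / 7 * t / 2) (by positivity) (by linarith)
  refine ⟨6 * (10 ^ 5 * C0), by positivity, ?_⟩
  intro ε j j' hε hε1 hj hj' hr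
  show |IAC A B W j - IAC A B W j'| ≤ _
  rw [IAC_eq, IAC_eq]
  obtain ⟨r1, r2, r3⟩ := hr
  have hG : uJ j' = uJ j := congrArg WithLp.ofLp r1
  have hb : InBx (10 / 7 * t) (bJ (sJt j)) := by
    refine inBx_of ht htB hj (by rw [bJ_sJt]; rfl) (by rw [bJ_sJt]; rfl) ?_
    rw [bJ_sJt]
    have : 0 ≤ uJ j ⬝ᵥ uJ j := uu_nonneg j
    show 0 ≤ (10 / 7 : ℝ) ^ 2 * (uJ j ⬝ᵥ uJ j)
    positivity
  have hb' : InBx (10 / 7 * t) (bJ (sJt j')) := by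
    refine inBx_of ht htB hj' (by rw [bJ_sJt]; rfl) (by rw [bJ_sJt]; rfl) ?_
    rw [bJ_sJt]
    have : 0 ≤ uJ j' ⬝ᵥ uJ j' := uu_nonneg j'
    show 0 ≤ (10 / 7 : ℝ) ^ 2 * (uJ j' ⬝ᵥ uJ j')
    positivity
  have hS := hb.seg (by positivity) (by linarith) hb' (by
    rw [bJ_sJt, bJ_sJt]
    show (10 / 7 : ℝ) ^ 2 * (uJ j' ⬝ᵥ uJ j') = (10 / 7 : ℝ) ^ 2 * (uJ j ⬝ᵥ uJ j)
    rw [hG])
  have hrel : Eta467.RelE (10 / 7 * ε) (sJt j) (sJt j') := by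
    refine ⟨?_, ?_, ?_⟩
    · show (10 / 7 : ℝ) • j'.p - (10 / 7 : ℝ) • j'.q = (10 / 7 : ℝ) • j.p - (10 / 7 : ℝ) • j.q
      rw [← smul_sub, ← smul_sub, r1]
    · rw [sJt_f, sJt_f]
      have e : -3 / 7 + 10 / 7 * j.f - (-3 / 7 + 10 / 7 * j'.f) = 10 / 7 * (j.f - j'.f) := by ring
      rw [e, abs_mul, abs_of_pos (by norm_num)]
      linarith
    · rw [sJt_g, sJt_g]
      have e : -3 / 7 + 10 / 7 * j.g - (-3 / 7 + 10 / 7 * j'.g) = 10 / 7 * (j.g - j'.g) := by ring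
      rw [e, abs_mul, abs_of_pos (by norm_num)]
      linarith
  have hlip := (est_IE_P (by positivity) hrel (hseg _ _ hS)).lip
  refine hlip.trans ?_
  have := mul_le_mul_of_nonneg_left (mod_sJt hε j j') (by positivity : 0 ≤ 10 ^ 5 * C0)
  linarith

/-! ### the divergence certificate -/

lemma smooth_hm (r a : ℝ) : ContDiff ℝ ∞ (hm r a) := by
  unfold hm; fun_prop

/-- **the divergence certificate.** -/
theorem certDiv_of {ρ : Rd ACpm} {A B W : E3 → ℝ} {c : ℝ} {N : ℕ} (h : SyAll ρ A B W)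
    (hC : CertS ACpm A B W c N) {X : Type*} [TopologicalSpace X] [CompactSpace X]
    [MeasurableSpace X] [OpensMeasurableSpace X] {μ : Measure X} [IsFiniteMeasure μ]
    (C : Calc X μ) (b : ℝ) : CertDiv C b 1 (fun _ => IAC A B W) := by
  refine ⟨1, one_pos, fun t ht htB htt φ ψ sφ sψ hx => ?_⟩
  obtain ⟨L, hA, hB, hW⟩ := h.reg
  have hz : ∀ x, InBx (10 / 7 * t)
      (hm (10 / 7) (-3 / 7) (eta φ ψ x, mm φ ψ x, C.G (eta φ ψ) (eta φ ψ) x)) := by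
    intro x
    refine inBx_of ht htB (hx x) rfl rfl ?_
    have : 0 ≤ C.G (eta φ ψ) (eta φ ψ) x := G_self_nonneg _ x
    show 0 ≤ (10 / 7 : ℝ) ^ 2 * _
    positivity
  have hreg : ∀ x, hm (10 / 7) (-3 / 7) (eta φ ψ x, mm φ ψ x, C.G (eta φ ψ) (eta φ ψ) x) ∈
      Reg ACpm ∧ _ := fun x => by
    obtain ⟨a1, a2, a3, a4, a5, a6⟩ := hz x
    exact reg_of (by linarith) a2 (by linarith) a4 (by linarith) a6
  have hmap : MapsTo (hm (10 / 7) (-3 / 7)) (hm (10 / 7) (-3 / 7) ⁻¹' (geo ρ).U) (geo ρ).U :=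
    fun z hz => hz
  have sm : ContDiffOn ℝ ∞ (hm (10 / 7) (-3 / 7)) (hm (10 / 7) (-3 / 7) ⁻¹' (geo ρ).U) :=
    (smooth_hm _ _).contDiffOn
  refine ⟨_, _, divCert_eta (U := hm (10 / 7) (-3 / 7) ⁻¹' (geo ρ).U)
    ((geo ρ).hU.preimage (smooth_hm _ _).continuous) ?_ ?_ ?_ sφ sψ
    (fun x => (geo ρ).sub (hreg x).1) (fun x => ?_)⟩
  · exact contDiffOn_const.mul ((Sy.smooth hA).comp sm hmap)
  · exact contDiffOn_const.mul ((Sy.smooth hB).comp sm hmap)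
  · exact contDiffOn_const.mul ((Sy.smooth hW).comp sm hmap)
  · have := hC.Wnn _ (hreg x).1 (hreg x).2
    show 0 ≤ (10 / 7 : ℝ) ^ 2 * W _
    positivity

/-- **the input of the final assembly.** -/
theorem certAC_of.{u} {ρ : Rd ACpm} {A B W : E3 → ℝ} {c : ℝ} {N : ℕ} (h : SyAll ρ A B W)
    (hC : CertS ACpm A B W c N) : CertAC.{u} :=
  ⟨c * (10 / 7) ^ (2 * N + 2), N, 1, 1, fun _ => IAC A B W, mul_pos hC.c0 (by positivity),
    certPt_of h hC, certLip_of h, fun X _ _ _ _ _ μ _ _ C => certDiv_of h hC C 1⟩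

/-- **part A.** -/
theorem st_of_certS.{u} {ρ : Rd ACpm} {A B W : E3 → ℝ} {c : ℝ} {N : ℕ} (h : SyAll ρ A B W)
    (hC : CertS ACpm A B W c N) : Crest.Agent.R249.Top49.ST.{u} :=
  st_of_cert (certAC_of h hC)

end Crest.Agent.R249.Sym467
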