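import Crest.Agent.R249.Tof_352
import Crest.Agent.R249.TzM_805

/-!
Row 249, leaf [TOF] (helper352): `tof : ToF n M`, the interface form of `Tof_352` for `TzM_805`.
-/

set_option autoImplicit false
set_option maxSynthPendingDepth 3
set_option linter.unusedSectionVars false

open Filter Topology Set Bundle Manifold MeasureTheory
open scoped ContDiff ENNReal NNReal
open Crest.Agent.R247.Dir593 Crest.Agent.R249.Vf281 Crest.Agent.R249.Tv57

noncomputable section

namespace Crest.Agent.R249.Tof352

variable {n : ℕ} {M : Type*} [MetricSpace M] [ChartedSpace (EuclideanSpace ℝ (Fin n)) M]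
  [IsManifold (𝓡 n) ∞ M]
  [RiemannianBundle (fun p : M => TangentSpace (𝓡 n) p)]
  [IsContMDiffRiemannianBundle (𝓡 n) ∞ (EuclideanSpace ℝ (Fin n)) (fun p : M => TangentSpace (𝓡 n) p)]
  [IsRiemannianManifold (𝓡 n) M] [MeasurableSpace M] [BorelSpace M]
  [SecondCountableTopology M] [Nonempty M]

variable (n M) in
/-- the isometries of the measurable frame, as 805's structure -/
def tof : Tz805.ToF n M where
  toF z := (toF n z).toLinearEquiv.toLinearMap
  inner_toF z v w := inner_toF z v w
  grad f z _ := toF_mgrad f z
  smooth _ hW := smF_toF hW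

theorem tof_apply (z : M) (v : TangentSpace (𝓡 n) z) : (tof n M).toF z v = toF n z v := rfl

end Crest.Agent.R249.Tof352
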