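import Crest.Agent.R249.Tv0_57
import Crest.Agent.R249.Vf1_281

/-!
Row 249, part C, leaf TOF (helper352): from tangent vectors to the measurable orthonormal frame of `Ms322`.

* `toF z : T_zM ≃ₗᵢ[ℝ] 𝔼`      : components in the frame `fr z j`;
* `toF_mgrad`                   : `toF z (mgrad n f z) = Gr f z` (every `f`, both sides are junk together);
* `inner_Ef_toF`                : `⟪∂_i, toF v⟫ = Σ_j g_ij (dCh x₀ z v)_j`;
* `cf_toF`                      : coordinates of `toF ∘ W` in the chart at `x₀`;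
* `smF_toF`                     : `toF ∘ W` is `SmF` for a smooth vector field `W` (`∀ z, VSm n ∞ W z`);
* `toF_Ef`                      : `toF z ∂_i = Ef x₀ i z`.
-/

set_option autoImplicit false
set_option maxSynthPendingDepth 3
set_option linter.unusedSectionVars false
open scoped ContDiff ENNReal NNReal Topology Manifold Bundle RealInnerProductSpace
open MeasureTheory Set Filter Metric Bundle
open Crest.GeometryTopology.CoordMetric Crest.GeometryTopology.ChartCurvature
open Crest.Agent.R247.Ms322 hiding Ef inner_Ef isRiemannianOn_chartMetric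
open Crest.Agent.R247.Frd657 Crest.Agent.R247.Bo84
open Crest.Agent.R226.ChartMet842
open Crest.Agent.R249.Vf281 Crest.Agent.R249.Tv57

namespace Crest.Agent.R249.Tof352

noncomputable section

variable {n : ℕ} {M : Type*} [MetricSpace M] [ChartedSpace (EuclideanSpace ℝ (Fin n)) M]
  [IsManifold (𝓡 n) ∞ M]
  [RiemannianBundle (fun p : M => TangentSpace (𝓡 n) p)]
  [IsContMDiffRiemannianBundle (𝓡 n) ∞ (EuclideanSpace ℝ (Fin n)) (fun p : M => TangentSpace (𝓡 n) p)]
  [SecondCountableTopology M] [Nonempty M]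

local notation "𝔼" => EuclideanSpace ℝ (Fin n)

variable (n) in
/-- components of a tangent vector in the measurable orthonormal frame -/
def toF (z : M) : TangentSpace (𝓡 n) z ≃ₗᵢ[ℝ] EuclideanSpace ℝ (Fin n) := (frB z).repr

theorem toF_apply (z : M) (v : TangentSpace (𝓡 n) z) (j : Fin n) :
    toF n z v j = inner ℝ (fr z j : TangentSpace (𝓡 n) z) v := by
  unfold toF
  rw [OrthonormalBasis.repr_apply_apply, frB_apply]

theorem inner_toF (z : M) (v w : TangentSpace (𝓡 n) z) :
    (inner ℝ (toF n z v) (toF n z w) : ℝ) = inner ℝ v w :=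
  (toF n z).inner_map_map v w

theorem norm_toF (z : M) (v : TangentSpace (𝓡 n) z) : ‖toF n z v‖ = ‖v‖ :=
  (toF n z).norm_map v

/-- expansion of a tangent vector -/
theorem sum_toF (z : M) (v : TangentSpace (𝓡 n) z) :
    ∑ j, toF n z v j • (fr z j : TangentSpace (𝓡 n) z) = v := by
  have h := (frB z).sum_repr v
  simp only [frB_apply] at h
  exact h

theorem toF_mgrad (f : M → ℝ) (z : M) : toF n z (mgrad n f z) = Gr (n := n) f z := by
  ext j
  rw [toF_apply, real_inner_comm, Gr_apply]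
  exact inner_mgrad f z (fr z j)

theorem inner_dxf_toF (x₀ : M) {z : M} (hz : z ∈ (chartAt 𝔼 x₀).source)
    (v : TangentSpace (𝓡 n) z) (i : Fin n) :
    (inner ℝ (dxf x₀ i z) (toF n z v) : ℝ) = (dCh x₀ z v) i := by
  have h1 : dCh x₀ z v = ∑ j, toF n z v j • (dC x₀ z (fr z j) : 𝔼) := by
    conv_lhs => rw [← sum_toF z v]
    exact (map_sum (dC x₀ z) _ _).trans (Finset.sum_congr rfl fun j _ => map_smul (dC x₀ z) _ _)
  rw [h1, PiLp.inner_apply]
  simp only [WithLp.ofLp_sum, WithLp.ofLp_smul, Finset.sum_apply, Pi.smul_apply, smul_eq_mul]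
  refine Finset.sum_congr rfl fun j _ => ?_
  rw [dxf_apply x₀ hz]
  simp [mul_comm]

theorem inner_Ef_toF (x₀ : M) {z : M} (hz : z ∈ (chartAt 𝔼 x₀).source)
    (v : TangentSpace (𝓡 n) z) (i : Fin n) :
    (inner ℝ (Ef x₀ i z) (toF n z v) : ℝ) =
      ∑ j, chartMetric n M x₀ (chartAt 𝔼 x₀ z) i j * (dCh x₀ z v) j := by
  rw [Ef, sum_inner]
  refine Finset.sum_congr rfl fun j _ => ?_
  rw [inner_smul_left, inner_dxf_toF x₀ hz, conj_trivial]

/-- coordinates of a vector field in a chart -/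
theorem cf_toF (W : (z : M) → TangentSpace (𝓡 n) z) (x₀ : M) (i : Fin n) {b : 𝔼}
    (hb : b ∈ (chartAt 𝔼 x₀).target) :
    cf x₀ i (fun z => toF n z (W z)) b = ∑ j, chartMetric n M x₀ b i j * vCh n x₀ W b j := by
  unfold cf
  rw [inner_Ef_toF x₀ ((chartAt 𝔼 x₀).map_target hb), (chartAt 𝔼 x₀).right_inv hb]
  rfl

/-- smooth vector fields are smooth frame fields -/
theorem smF_toF {W : (z : M) → TangentSpace (𝓡 n) z} (hW : ∀ z, VSm n ∞ W z) :
    SmF (fun z => toF n z (W z)) := by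
  intro x₀ i
  have h1 : ContDiffOn ℝ ∞ (fun b => ∑ j, chartMetric n M x₀ b i j * vCh n x₀ W b j)
      (chartAt 𝔼 x₀).target := by
    refine ContDiffOn.sum fun j _ => ?_
    refine ((isRiemannianOn_chartMetric (n := n) x₀).contDiffOn i j).mul fun b hb => ?_
    have h2 : ContDiffAt ℝ ∞ (vCh n x₀ W) b := VSm.chart le_rfl hb (hW _)
    have h3 : ContDiffAt ℝ ∞ (fun b => vCh n x₀ W b j) b :=
      ((EuclideanSpace.proj (𝕜 := ℝ) j).contDiff.contDiffAt).comp b h2
    exact h3.contDiffWithinAt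
  exact h1.congr fun b hb => cf_toF W x₀ i hb

/-- the coordinate field `∂_i` at `z` -/
def co (x₀ : M) (i : Fin n) (z : M) : TangentSpace (𝓡 n) z :=
  dSy x₀ (chartAt 𝔼 x₀ z) (EuclideanSpace.single i (1 : ℝ))

theorem dCh_co (x₀ : M) {z : M} (hz : z ∈ (chartAt 𝔼 x₀).source) (i : Fin n) :
    dCh x₀ z (co x₀ i z) = EuclideanSpace.single i (1 : ℝ) := by
  have h := dCh_dSy x₀ ((chartAt 𝔼 x₀).map_source hz) (EuclideanSpace.single i (1 : ℝ))
  rw [(chartAt 𝔼 x₀).left_inv hz] at h
  exact h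

theorem toF_co (x₀ : M) {z : M} (hz : z ∈ (chartAt 𝔼 x₀).source) (i : Fin n) :
    toF n z (co x₀ i z) = Ef x₀ i z := by
  rw [expand_dxf x₀ hz (toF n z (co x₀ i z)), expand_dxf x₀ hz (Ef x₀ i z)]
  refine Finset.sum_congr rfl fun j _ => ?_
  congr 1
  rw [inner_Ef_toF x₀ hz, dCh_co x₀ hz, inner_Ef x₀ hz]
  simp

end

end Crest.Agent.R249.Tof352
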