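import Crest.Agent.R247.Ray5_97

/-!
R249, leaf TOP (helper330), file 1: matrix Riccati equation for `f = d²/2` in coordinates.

If `|∇f|² = 2 f` near `x` (metric field `g`), `T = Hess f` (endomorphism), `v = ∇f`:
`(∇_v T) X = T X - T (T X) - R(X,v)v`.  For a field `W` with `W x = w`, `∇W x = 0`:
`D_v ⟨T W, W⟩ = ⟨T w, w⟩ - |T w|² - ⟨R(w,v)v, w⟩`.
-/

set_option autoImplicit false

open scoped ContDiff Topology
open Filter Set
open Crest.GeometryTopology.CoordMetric Crest.GeometryTopology.ChartCurvature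
open Crest.Agent.R202.Tens Crest.Agent.R247.Bo84

noncomputable section

namespace Crest.Agent.R249.Top330

section coord
variable {n : ℕ} {g : MetricField n} {U : Set (EuclideanSpace ℝ (Fin n))}
  {x : EuclideanSpace ℝ (Fin n)}

local notation "𝔼" => EuclideanSpace ℝ (Fin n)

/-- **matrix Riccati equation** for a solution of `|∇f|² = 2f`. -/
theorem riccati (hg : IsRiemannianOn g U) (hx : x ∈ U) {f : 𝔼 → ℝ}
    (hf : ContDiffAt ℝ 3 f x) (heik : ∀ᶠ y in 𝓝 x, gam g f f y = 2 * f y) (X : 𝔼) :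
    fderiv ℝ (hessE g f) x (grad g f x) X + Gam g x (grad g f x) (hessE g f x X)
        - hessE g f x (Gam g x (grad g f x) X) =
      hessE g f x X - hessE g f x (hessE g f x X)
        - curv (Gam g) x X (grad g f x) (grad g f x) := by
  have hf2 : ContDiffAt ℝ 2 f x := hf.of_le (by norm_num)
  have hev : ∀ᶠ y in 𝓝 x, y ∈ U ∧ ContDiffAt ℝ 2 f y :=
    (eventually_of_mem (hg.isOpen.mem_nhds hx) fun _ h => h).and (hf2.eventually (by norm_num))
  set V := grad g f with hV
  have hV2 : ContDiffAt ℝ 2 V x :=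
    contDiffAt_grad hg hx (m := 2) hf (by norm_num) (WithTop.coe_le_coe.2 le_top)
  have hH1 : ContDiffAt ℝ 1 (cov g V) x :=
    contDiffAt_cov hg hx (m := 1) hV2 (by norm_num) (by simp)
  have hHd : DifferentiableAt ℝ (cov g V) x := hH1.differentiableAt (by norm_num)
  have hVd : DifferentiableAt ℝ V x := hV2.differentiableAt (by norm_num)
  -- `T V = V` near `x`
  have hTV : (fun y => cov g V y (V y)) =ᶠ[𝓝 x] V := by
    filter_upwards [hev, heik.eventually_nhds] with y hy1 hy2
    exact Crest.Agent.R247.Ray97.hessE_eikonal hg hy1.1 hy1.2 hy2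
  have h1 : fderiv ℝ (fun y => cov g V y (V y)) x X = fderiv ℝ V x X := by
    rw [hTV.fderiv_eq]
  rw [fderiv_clm_apply hHd hVd] at h1
  simp only [add_apply, ContinuousLinearMap.comp_apply, ContinuousLinearMap.flip_apply] at h1
  have hTVx : cov g V x (V x) = V x := hTV.self_of_nhds
  have h2 := ricci_identity hg hx hV2 X (V x)
  have h3 : cov g V x X = fderiv ℝ V x X + Gam g x X (V x) := rfl
  change fderiv ℝ (cov g V) x (V x) X + Gam g x (V x) (cov g V x X)
        - cov g V x (Gam g x (V x) X) =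
      cov g V x X - cov g V x (cov g V x X)
        - curv (Gam g) x X (V x) (V x)
  rw [← h2, hTVx]
  have h4 : cov g V x (cov g V x X) = cov g V x (fderiv ℝ V x X) + cov g V x (Gam g x X (V x)) := by
    conv_lhs => rw [h3]
    rw [map_add]
  rw [h4]
  have h6 : fderiv ℝ (cov g V) x X (V x) = fderiv ℝ V x X - cov g V x (fderiv ℝ V x X) := by
    rw [eq_sub_iff_add_eq, add_comm]; exact h1
  rw [h6]
  generalize Gam g x (V x) (cov g V x X) = a1 at *
  generalize cov g V x (fderiv ℝ V x X) = a2 at *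
  generalize cov g V x (Gam g x (V x) X) = a3 at *
  generalize fderiv ℝ (cov g V) x (V x) X = a4 at *
  generalize cov g V x (Gam g x X (V x)) = a5 at *
  rw [h3]
  abel

/-- a vector field with value `w` and vanishing covariant derivative at `x`. -/
def ext0 (g : MetricField n) (x w : EuclideanSpace ℝ (Fin n)) (z : EuclideanSpace ℝ (Fin n)) :
    EuclideanSpace ℝ (Fin n) := w - Gam g x (z - x) w

lemma ext0_self (w : 𝔼) : ext0 g x w x = w := by simp [ext0]

lemma hasFDerivAt_ext0 (w z : 𝔼) :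
    HasFDerivAt (ext0 g x w) (-((Gam g x).flip w)) z := by
  have h1 : HasFDerivAt (fun z : 𝔼 => (Gam g x).flip w (z - x)) ((Gam g x).flip w) z :=
    ((Gam g x).flip w).hasFDerivAt.comp z ((hasFDerivAt_id z).sub_const x)
  have h2 := h1.const_sub w
  exact h2

lemma cov_ext0 (w : 𝔼) : cov g (ext0 g x w) x = 0 := by
  ext X
  rw [cov_apply, (hasFDerivAt_ext0 (g := g) (x := x) w x).fderiv, ext0_self]
  simp

/-- derivative of `⟨T W, W⟩` in the direction of `∇f`. -/
theorem fderiv_hess_ext0 (hg : IsRiemannianOn g U) (hx : x ∈ U) {f : 𝔼 → ℝ}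
    (hf : ContDiffAt ℝ 3 f x) (heik : ∀ᶠ y in 𝓝 x, gam g f f y = 2 * f y) (w : 𝔼) :
    DifferentiableAt ℝ (fun z => hess g f z (ext0 g x w z) (ext0 g x w z)) x ∧
    fderiv ℝ (fun z => hess g f z (ext0 g x w z) (ext0 g x w z)) x (grad g f x) =
      hess g f x w w - bil (g x) (hessE g f x w) (hessE g f x w)
        - secNumer g x w (grad g f x) := by
  have hf2 : ContDiffAt ℝ 2 f x := hf.of_le (by norm_num)
  have hev : ∀ᶠ y in 𝓝 x, y ∈ U ∧ ContDiffAt ℝ 2 f y :=
    (eventually_of_mem (hg.isOpen.mem_nhds hx) fun _ h => h).and (hf2.eventually (by norm_num))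
  have hV2 : ContDiffAt ℝ 2 (grad g f) x :=
    contDiffAt_grad hg hx (m := 2) hf (by norm_num) (WithTop.coe_le_coe.2 le_top)
  have hH1 : ContDiffAt ℝ 1 (hessE g f) x :=
    contDiffAt_cov hg hx (m := 1) hV2 (by norm_num) (by simp)
  have hHd : DifferentiableAt ℝ (hessE g f) x := hH1.differentiableAt (by norm_num)
  set W := ext0 g x w with hW
  have hWd : DifferentiableAt ℝ W x := (hasFDerivAt_ext0 w x).differentiableAt
  have hTW : DifferentiableAt ℝ (fun z => hessE g f z (W z)) x := hHd.clm_apply hWd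
  have heq : (fun z => hess g f z (W z) (W z)) =ᶠ[𝓝 x]
      fun z => bil (g z) (hessE g f z (W z)) (W z) := by
    filter_upwards [hev] with z hz
    rw [bil_hessE hg hz.1 hz.2]
  have hdiff : DifferentiableAt ℝ (fun z => bil (g z) (hessE g f z (W z)) (W z)) x :=
    ((differentiableAt_Gf hg hx).clm_apply hTW).clm_apply hWd
  refine ⟨hdiff.congr_of_eventuallyEq heq, ?_⟩
  rw [heq.fderiv_eq, fderiv_bil hg hx hTW hWd, cov_ext0, zero_apply, map_zero, add_zero]
  have h0 : W x = w := ext0_self w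
  have h1 : cov g (fun z => hessE g f z (W z)) x (grad g f x) =
      fderiv ℝ (hessE g f) x (grad g f x) w + Gam g x (grad g f x) (hessE g f x w)
        - hessE g f x (Gam g x (grad g f x) w) := by
    rw [cov_apply, fderiv_clm_apply hHd hWd]
    simp only [add_apply, ContinuousLinearMap.comp_apply, ContinuousLinearMap.flip_apply]
    rw [h0, (hasFDerivAt_ext0 w x).fderiv]
    simp only [neg_apply, ContinuousLinearMap.flip_apply, map_neg]
    abel
  rw [h1, riccati hg hx hf heik, h0, map_sub, map_sub, sub_apply, sub_apply, bil_hessE hg hx hf2,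
    secNumer_eq hg hx, bil_hessE_symm hg hx hf2]

/-- derivative of `|W|²`. -/
theorem fderiv_metric_ext0 (hg : IsRiemannianOn g U) (hx : x ∈ U) (w X : 𝔼) :
    DifferentiableAt ℝ (fun z => bil (g z) (ext0 g x w z) (ext0 g x w z)) x ∧
    fderiv ℝ (fun z => bil (g z) (ext0 g x w z) (ext0 g x w z)) x X = 0 := by
  have hWd : DifferentiableAt ℝ (ext0 g x w) x := (hasFDerivAt_ext0 w x).differentiableAt
  refine ⟨((differentiableAt_Gf hg hx).clm_apply hWd).clm_apply hWd, ?_⟩
  rw [fderiv_bil hg hx hWd hWd, cov_ext0]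
  simp

/-- **the one-sided derivative estimate**, in coordinates. Along a curve with velocity
`s⁻¹ ∇f`, for a vector `w`: the function `t (⟨T W,W⟩/|W|² - 1)` has derivative
`-(|Tw - w|² + ⟨R(w,v)v,w⟩ )/|w|²` at `s` plus a nonpositive square term. -/
theorem hasDerivAt_quot (hg : IsRiemannianOn g U) {f : 𝔼 → ℝ} {c : ℝ → 𝔼} {s : ℝ} (hs : s ≠ 0)
    (hx : c s ∈ U) (hf : ContDiffAt ℝ 3 f (c s))
    (heik : ∀ᶠ y in 𝓝 (c s), gam g f f y = 2 * f y)
    (hc : HasDerivAt c (s⁻¹ • grad g f (c s)) s) {w : 𝔼} (hw : w ≠ 0) :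
    HasDerivAt (fun t => t * (hess g f (c t) (ext0 g (c s) w (c t)) (ext0 g (c s) w (c t)) /
        bil (g (c t)) (ext0 g (c s) w (c t)) (ext0 g (c s) w (c t)) - 1))
      (-(bil (g (c s)) (hessE g f (c s) w - w) (hessE g f (c s) w - w) +
        secNumer g (c s) w (grad g f (c s))) / bil (g (c s)) w w) s := by
  obtain ⟨d1, e1⟩ := fderiv_hess_ext0 hg hx hf heik w
  obtain ⟨d2, e2⟩ := fderiv_metric_ext0 hg hx w (grad g f (c s))
  have hpos := bil_pos hg hx hw
  set x := c s with hxs
  have k1 := d1.hasFDerivAt.comp_hasDerivAt s hc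
  have k2 := d2.hasFDerivAt.comp_hasDerivAt s hc
  rw [map_smul, e1] at k1
  rw [map_smul, e2, smul_zero] at k2
  have h0 : ext0 g x w (c s) = w := by rw [← hxs]; exact ext0_self w
  have hne : ((fun z => bil (g z) (ext0 g x w z) (ext0 g x w z)) ∘ c) s ≠ 0 := by
    simp only [Function.comp_apply]
    rw [h0, ← hxs]
    exact hpos.ne'
  have k3 := (hasDerivAt_id s).mul ((k1.div k2 hne).sub_const 1)
  refine k3.congr_deriv ?_
  simp only [Function.comp_apply, id_eq, Pi.div_apply, smul_eq_mul]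
  rw [h0, ← hxs]
  have hf2 : ContDiffAt ℝ 2 f x := hf.of_le (by norm_num)
  have e3 : bil (g x) (hessE g f x w - w) (hessE g f x w - w) =
      bil (g x) (hessE g f x w) (hessE g f x w) - 2 * hess g f x w w + bil (g x) w w := by
    rw [map_sub, map_sub, sub_apply, sub_apply, bil_hessE hg hx hf2,
      bil_symm hg hx w, bil_hessE hg hx hf2]
    ring
  rw [e3]
  field_simp
  ring

end coord

end Crest.Agent.R249.Top330
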