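import Crest.Agent.R247.Bo8_84

/-!
Row 249 (helper49): frozen target of part A, the two-function lemma (ST) (Blueprint_49, B8-B9).

`STHyp M lam f` says that the smooth function `f ≥ 0` (in the application `f = |W⁺|²` or `|W⁻|²`)
satisfies `½ Δf ≥ (5/12) |∇f|²/f + 2 lam f - √6 f^{3/2}` where `f > 0`.
`ST` : two such functions with `√f₁ + √f₂ ≤ 2 lam √(2/3)` on a closed connected Riemannian
4-manifold with `Ric ≥ lam > 0` are trivial.
-/

set_option autoImplicit false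

open scoped ContDiff Manifold
open Bundle Crest.GeometryTopology.CoordMetric Crest.GeometryTopology.ChartCurvature
  Crest.GeometryTopology.PointedLimit
open Crest.Agent.R247.Bo84

noncomputable section

namespace Crest.Agent.R249.Top49

section Def

variable (M : Type*) [TopologicalSpace M] [ChartedSpace (EuclideanSpace ℝ (Fin 4)) M]
  [IsManifold 𝓘(ℝ, EuclideanSpace ℝ (Fin 4)) ∞ M]
  [RiemannianBundle (fun x : M => TangentSpace 𝓘(ℝ, EuclideanSpace ℝ (Fin 4)) x)]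
  [IsContMDiffRiemannianBundle 𝓘(ℝ, EuclideanSpace ℝ (Fin 4)) ∞ (EuclideanSpace ℝ (Fin 4))
      (fun x : M => TangentSpace 𝓘(ℝ, EuclideanSpace ℝ (Fin 4)) x)]

/-- the differential inequality of `|W⁺|²` on an Einstein manifold with `Ric = lam g`. -/
structure STHyp (lam : ℝ) (f : M → ℝ) : Prop where
  smooth : ContMDiff 𝓘(ℝ, EuclideanSpace ℝ (Fin 4)) 𝓘(ℝ, ℝ) ∞ f
  nonneg : ∀ x, 0 ≤ f x
  ineq : ∀ x, 0 < f x →
    (5 / 6) * (mGam 4 f f x / f x) + 4 * lam * f x - 2 * Real.sqrt 6 * (f x * Real.sqrt (f x)) ≤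
      mLap 4 f x

end Def

/-- **Frozen target of part A.** -/
def ST.{u} : Prop :=
  ∀ (M : Type u) [MetricSpace M] [ChartedSpace (EuclideanSpace ℝ (Fin 4)) M]
    [IsManifold 𝓘(ℝ, EuclideanSpace ℝ (Fin 4)) ∞ M] [CompactSpace M] [ConnectedSpace M]
    [RiemannianBundle (fun x : M => TangentSpace 𝓘(ℝ, EuclideanSpace ℝ (Fin 4)) x)]
    [IsContMDiffRiemannianBundle 𝓘(ℝ, EuclideanSpace ℝ (Fin 4)) ∞ (EuclideanSpace ℝ (Fin 4))
      (fun x : M => TangentSpace 𝓘(ℝ, EuclideanSpace ℝ (Fin 4)) x)]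
    [IsRiemannianManifold 𝓘(ℝ, EuclideanSpace ℝ (Fin 4)) M]
    (lam : ℝ), 0 < lam → HasRicciLowerBound 4 M lam →
    ∀ f₁ f₂ : M → ℝ, STHyp M lam f₁ → STHyp M lam f₂ →
      (∀ x, Real.sqrt (f₁ x) + Real.sqrt (f₂ x) ≤ 2 * lam * Real.sqrt (2 / 3)) →
      (∀ x, f₁ x = 0) ∨ (∀ x, f₂ x = 0) ∨
        (∀ x, f₁ x = 2 / 3 * lam ^ 2 ∧ f₂ x = 2 / 3 * lam ^ 2)

end Crest.Agent.R249.Top49

end
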