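import Mathlib

/-!
R249, leaf TOP (helper330), file 2: abstract pieces.

* `eF H G = inf {c ≥ 0 | H ≤ (1+c) G}` for bilinear forms, `G` positive definite: attained,
  continuous, invariant;
* `antitone_of_dini`: a continuous function whose left Dini slopes are `≤ 0` decreases;
* `concave_barrier`: a continuous function with `C²` upper barriers of second derivative
  `≤ k + ε` at every point satisfies the chord inequality of `k t²/2`.
-/

set_option autoImplicit false
set_option linter.unusedSectionVars false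
set_option maxSynthPendingDepth 3

open Filter Set Topology

noncomputable section

namespace Crest.Agent.R249.Top330

section forms
variable {E : Type*} [NormedAddCommGroup E] [NormedSpace ℝ E]

/-- the set of `c ≥ 0` with `H ≤ (1+c) G`. -/
def eS (H G : E → E → ℝ) : Set ℝ := {c | 0 ≤ c ∧ ∀ u, H u u ≤ (1 + c) * G u u}

/-- the excess of `H` over `G`. -/
def eF (H G : E → E → ℝ) : ℝ := sInf (eS H G)

lemma eS_bddBelow (H G : E → E → ℝ) : BddBelow (eS H G) := ⟨0, fun _ h => h.1⟩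

lemma eF_nonneg (H G : E → E → ℝ) : 0 ≤ eF H G := Real.sInf_nonneg fun _ h => h.1

lemma eF_le {H G : E → E → ℝ} {c : ℝ} (hc : 0 ≤ c) (h : ∀ u, H u u ≤ (1 + c) * G u u) :
    eF H G ≤ c := csInf_le (eS_bddBelow H G) ⟨hc, h⟩

/-- the infimum is attained -/
lemma eF_mem {H G : E → E → ℝ} (hne : (eS H G).Nonempty) (u : E) :
    H u u ≤ (1 + eF H G) * G u u := by
  refine le_of_forall_pos_le_add fun ε hε => ?_
  obtain ⟨c, hc, hlt⟩ := exists_lt_of_csInf_lt hne
    (lt_add_of_pos_right (sInf (eS H G)) (show 0 < ε / (|G u u| + 1) by positivity))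
  have h1 := hc.2 u
  have h2 : eF H G ≤ c := csInf_le (eS_bddBelow H G) hc
  have h3 : c - eF H G ≤ ε / (|G u u| + 1) := by
    change c < eF H G + _ at hlt
    linarith
  have h4 : (c - eF H G) * G u u ≤ ε := by
    calc (c - eF H G) * G u u ≤ (c - eF H G) * |G u u| := by
          apply mul_le_mul_of_nonneg_left (le_abs_self _) (by linarith)
      _ ≤ ε / (|G u u| + 1) * |G u u| := by
          apply mul_le_mul_of_nonneg_right h3 (abs_nonneg _)
      _ = ε * (|G u u| / (|G u u| + 1)) := by ring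
      _ ≤ ε * 1 := by
          apply mul_le_mul_of_nonneg_left _ hε.le
          rw [div_le_one (by positivity)]; linarith
      _ = ε := mul_one ε
  nlinarith

/-- invariance under surjections -/
lemma eF_comp {E' : Type*} {H G : E → E → ℝ} {L : E' → E} (hL : Function.Surjective L)
    {H' G' : E' → E' → ℝ} (hH : ∀ u, H' u u = H (L u) (L u)) (hG : ∀ u, G' u u = G (L u) (L u)) :
    sInf {c | 0 ≤ c ∧ ∀ u, H' u u ≤ (1 + c) * G' u u} = eF H G := by
  unfold eF eS
  congr 1
  ext c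
  simp only [mem_ofPred_eq]
  refine and_congr_right fun _ => ⟨fun h u => ?_, fun h u => ?_⟩
  · obtain ⟨v, rfl⟩ := hL u
    rw [← hH, ← hG]; exact h v
  · rw [hH, hG]; exact h _

variable [FiniteDimensional ℝ E]

/-- a positive definite form dominates the norm. -/
lemma exists_kappa {G : E →L[ℝ] E →L[ℝ] ℝ} (hG : ∀ u, u ≠ 0 → 0 < G u u) :
    ∃ κ : ℝ, 0 < κ ∧ ∀ u, ‖u‖ ^ 2 ≤ κ * G u u := by
  rcases (Metric.sphere (0 : E) 1).eq_empty_or_nonempty with h | hne
  · refine ⟨1, one_pos, fun u => ?_⟩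
    rcases eq_or_ne u 0 with rfl | hu
    · simp
    · exfalso
      have : ‖u‖⁻¹ • u ∈ Metric.sphere (0 : E) 1 := by
        rw [mem_sphere_zero_iff_norm, norm_smul, norm_inv, norm_norm,
          inv_mul_cancel₀ (norm_ne_zero_iff.2 hu)]
      rw [h] at this
      exact this
  · have hc : Continuous fun u : E => G u u := by fun_prop
    obtain ⟨u₀, hu₀, hmin⟩ := (isCompact_sphere (0 : E) 1).exists_isMinOn hne hc.continuousOn
    have hu₀n : ‖u₀‖ = 1 := mem_sphere_zero_iff_norm.1 hu₀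
    have hu₀' : u₀ ≠ 0 := by
      intro h; rw [h, norm_zero] at hu₀n; exact zero_ne_one hu₀n
    have hp := hG u₀ hu₀'
    refine ⟨(G u₀ u₀)⁻¹, inv_pos.2 hp, fun u => ?_⟩
    rcases eq_or_ne u 0 with rfl | hu
    · simp
    · have hn : ‖u‖ ≠ 0 := norm_ne_zero_iff.2 hu
      have hm : ‖u‖⁻¹ • u ∈ Metric.sphere (0 : E) 1 := by
        rw [mem_sphere_zero_iff_norm, norm_smul, norm_inv, norm_norm, inv_mul_cancel₀ hn]
      have h1 := hmin hm
      simp only [mem_ofPred_eq, map_smul, smul_apply, smul_eq_mul] at h1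
      rw [inv_mul_eq_div, le_div_iff₀ hp]
      calc ‖u‖ ^ 2 * G u₀ u₀ ≤ ‖u‖ ^ 2 * (‖u‖⁻¹ * (‖u‖⁻¹ * G u u)) :=
            mul_le_mul_of_nonneg_left h1 (sq_nonneg _)
        _ = G u u := by field_simp

lemma abs_form_le (H : E →L[ℝ] E →L[ℝ] ℝ) (u : E) : |H u u| ≤ ‖H‖ * ‖u‖ ^ 2 := by
  have := H.le_opNorm₂ u u
  rw [Real.norm_eq_abs] at this
  calc |H u u| ≤ ‖H‖ * ‖u‖ * ‖u‖ := this
    _ = _ := by ring

lemma eS_nonempty {H G : E →L[ℝ] E →L[ℝ] ℝ} (hG : ∀ u, u ≠ 0 → 0 < G u u) :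
    (eS (fun u v => H u v) (fun u v => G u v)).Nonempty := by
  obtain ⟨κ, hκ, h⟩ := exists_kappa hG
  refine ⟨‖H‖ * κ, by positivity, fun u => ?_⟩
  have h1 := (le_abs_self _).trans (abs_form_le H u)
  have h2 : ‖H‖ * ‖u‖ ^ 2 ≤ ‖H‖ * (κ * G u u) := mul_le_mul_of_nonneg_left (h u) (by positivity)
  have h3 : 0 ≤ G u u := by
    rcases eq_or_ne u 0 with rfl | hu
    · simp
    · exact (hG u hu).le
  change H u u ≤ (1 + ‖H‖ * κ) * G u u
  nlinarith

/-- if the excess is positive it is attained by a nonzero vector. -/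
lemma eF_attained {H G : E →L[ℝ] E →L[ℝ] ℝ} (hG : ∀ u, u ≠ 0 → 0 < G u u)
    (hpos : 0 < eF (fun u v => H u v) (fun u v => G u v)) :
    ∃ w : E, w ≠ 0 ∧ H w w = (1 + eF (fun u v => H u v) (fun u v => G u v)) * G w w := by
  set e := eF (fun u v => H u v) (fun u v => G u v) with he
  have hmem : ∀ u, H u u ≤ (1 + e) * G u u := eF_mem (eS_nonempty hG)
  by_contra hcon
  push Not at hcon
  have hlt : ∀ u, u ≠ 0 → 0 < (1 + e) * G u u - H u u := fun u hu =>
    sub_pos.2 (lt_of_le_of_ne (hmem u) (hcon u hu))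
  obtain ⟨κ, hκ, h⟩ := exists_kappa (G := (1 + e) • G - H) (fun u hu => by
    simpa using hlt u hu)
  -- `H ≤ (1+e) G - ‖u‖²/κ ≤ (1 + e - δ) G`
  set δ : ℝ := min e (1 / (κ * (‖G‖ + 1))) with hδ
  have hδ0 : 0 < δ := lt_min hpos (by positivity)
  have hδe : δ ≤ e := min_le_left _ _
  have key : e ≤ e - δ := by
    refine eF_le (by linarith) fun u => ?_
    have h1 := h u
    simp only [sub_apply, smul_apply, smul_eq_mul] at h1
    have h2 := (le_abs_self _).trans (abs_form_le G u)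
    have h3 : δ * (κ * (‖G‖ + 1)) ≤ 1 := by
      have := min_le_right e (1 / (κ * (‖G‖ + 1)))
      rw [← hδ, le_div_iff₀ (by positivity)] at this
      exact this
    have h4 : δ * κ * G u u ≤ ‖u‖ ^ 2 := by
      calc δ * κ * G u u ≤ δ * κ * (‖G‖ * ‖u‖ ^ 2) :=
            mul_le_mul_of_nonneg_left h2 (by positivity)
        _ ≤ δ * κ * ((‖G‖ + 1) * ‖u‖ ^ 2) := by
            apply mul_le_mul_of_nonneg_left _ (by positivity)
            nlinarith [sq_nonneg ‖u‖]
        _ = δ * (κ * (‖G‖ + 1)) * ‖u‖ ^ 2 := by ring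
        _ ≤ 1 * ‖u‖ ^ 2 := mul_le_mul_of_nonneg_right h3 (sq_nonneg _)
        _ = _ := one_mul _
    have h5 : κ * (δ * G u u) ≤ κ * ((1 + e) * G u u - H u u) := by
      calc κ * (δ * G u u) = δ * κ * G u u := by ring
        _ ≤ ‖u‖ ^ 2 := h4
        _ ≤ _ := h1
    have h6 := le_of_mul_le_mul_left h5 hκ
    change H u u ≤ (1 + (e - δ)) * G u u
    linarith
  linarith

/-- continuity of the excess at a positive definite form. -/
lemma continuousAt_eF {Z : Type*} [TopologicalSpace Z] {H G : Z → E →L[ℝ] E →L[ℝ] ℝ} {z : Z}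
    (hH : ContinuousAt H z) (hGc : ContinuousAt G z) (hG : ∀ u, u ≠ 0 → 0 < G z u u)
    (hGn : ∀ᶠ y in 𝓝 z, ∀ u, u ≠ 0 → 0 < G y u u) :
    ContinuousAt (fun y => eF (fun u v => H y u v) (fun u v => G y u v)) z := by
  obtain ⟨κ, hκ, hk⟩ := exists_kappa hG
  set e0 := eF (fun u v => H z u v) (fun u v => G z u v) with he0
  have he0n : 0 ≤ e0 := eF_nonneg _ _
  rw [ContinuousAt, tendsto_order]
  -- distances
  have hd : ∀ δ > 0, ∀ᶠ y in 𝓝 z, ‖H y - H z‖ < δ ∧ ‖G y - G z‖ < δ := by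
    intro δ hδ
    have h1 : ∀ᶠ y in 𝓝 z, dist (H y) (H z) < δ := Metric.tendsto_nhds.1 hH δ hδ
    have h2 : ∀ᶠ y in 𝓝 z, dist (G y) (G z) < δ := Metric.tendsto_nhds.1 hGc δ hδ
    filter_upwards [h1, h2] with y hy1 hy2
    rw [dist_eq_norm] at hy1 hy2
    exact ⟨hy1, hy2⟩
  have hcmp : ∀ (A B : E →L[ℝ] E →L[ℝ] ℝ) (δ : ℝ) (u : E), ‖A - B‖ < δ →
      |A u u - B u u| ≤ δ * (κ * G z u u) := by
    intro A B δ u h
    have h1 := abs_form_le (A - B) u
    simp only [sub_apply] at h1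
    calc |A u u - B u u| ≤ ‖A - B‖ * ‖u‖ ^ 2 := h1
      _ ≤ δ * ‖u‖ ^ 2 := mul_le_mul_of_nonneg_right h.le (sq_nonneg _)
      _ ≤ δ * (κ * G z u u) :=
          mul_le_mul_of_nonneg_left (hk u) (le_trans (by positivity) h.le)
  have hG0 : ∀ u, 0 ≤ G z u u := by
    intro u
    rcases eq_or_ne u 0 with rfl | hu
    · simp
    · exact (hG u hu).le
  constructor
  · -- lower bound
    intro a ha
    have hex : ∃ δ : ℝ, 0 < δ ∧ a * (1 + δ * κ) + 2 * (δ * κ) < e0 := by
      have ht : Tendsto (fun δ : ℝ => a * (1 + δ * κ) + 2 * (δ * κ)) (𝓝[>] 0)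
          (𝓝 (a * (1 + 0 * κ) + 2 * (0 * κ))) := by
        have : Continuous fun δ : ℝ => a * (1 + δ * κ) + 2 * (δ * κ) := by fun_prop
        exact (this.tendsto 0).mono_left nhdsWithin_le_nhds
      have h1 : a * (1 + 0 * κ) + 2 * (0 * κ) < e0 := by simpa using ha
      obtain ⟨δ, h2, h3⟩ := ((ht.eventually (gt_mem_nhds h1)).and self_mem_nhdsWithin).exists
      exact ⟨δ, h3, h2⟩
    obtain ⟨δ, hδ, hlt⟩ := hex
    filter_upwards [hd δ hδ, hGn] with y hy hyG
    by_contra hcon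
    push Not at hcon
    change eF (fun u v => H y u v) (fun u v => G y u v) ≤ a at hcon
    set e := eF (fun u v => H y u v) (fun u v => G y u v) with he
    have hen : 0 ≤ e := eF_nonneg _ _
    have hmem : ∀ u, H y u u ≤ (1 + e) * G y u u := eF_mem (eS_nonempty hyG)
    have : e0 ≤ e * (1 + δ * κ) + 2 * (δ * κ) := by
      refine eF_le (by positivity) fun u => ?_
      have h1 := abs_le.1 (hcmp (H y) (H z) δ u hy.1)
      have h2 := abs_le.1 (hcmp (G y) (G z) δ u hy.2)
      have h3 := hmem u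
      have h4 : (1 + e) * G y u u ≤ (1 + e) * (G z u u + δ * (κ * G z u u)) :=
        mul_le_mul_of_nonneg_left (by linarith [h2.2]) (by linarith)
      change H z u u ≤ (1 + (e * (1 + δ * κ) + 2 * (δ * κ))) * G z u u
      nlinarith [h1.1]
    have h5 : e * (1 + δ * κ) ≤ a * (1 + δ * κ) :=
      mul_le_mul_of_nonneg_right hcon (by positivity)
    linarith
  · -- upper bound
    intro a ha
    have hex : ∃ δ : ℝ, 0 < δ ∧ δ * κ < 1 ∧ (1 + e0 + δ * κ) / (1 - δ * κ) - 1 < a := by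
      have ht : Tendsto (fun δ : ℝ => (1 + e0 + δ * κ) / (1 - δ * κ) - 1) (𝓝[>] 0)
          (𝓝 ((1 + e0 + 0 * κ) / (1 - 0 * κ) - 1)) := by
        have : ContinuousAt (fun δ : ℝ => (1 + e0 + δ * κ) / (1 - δ * κ) - 1) 0 := by
          refine ContinuousAt.sub ?_ continuousAt_const
          refine ContinuousAt.div (by fun_prop) (by fun_prop) (by simp)
        exact this.tendsto.mono_left nhdsWithin_le_nhds
      have ht2 : Tendsto (fun δ : ℝ => δ * κ) (𝓝[>] 0) (𝓝 (0 * κ)) := by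
        have : Continuous fun δ : ℝ => δ * κ := by fun_prop
        exact (this.tendsto 0).mono_left nhdsWithin_le_nhds
      have h1 : (1 + e0 + 0 * κ) / (1 - 0 * κ) - 1 < a := by simpa using ha
      have h1' : 0 * κ < 1 := by simp
      obtain ⟨δ, h2, h3, h4⟩ := ((ht.eventually (gt_mem_nhds h1)).and
        ((ht2.eventually (gt_mem_nhds h1')).and self_mem_nhdsWithin)).exists
      exact ⟨δ, h4, h3, h2⟩
    obtain ⟨δ, hδ, hδ1, hlt⟩ := hex
    filter_upwards [hd δ hδ] with y hy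
    refine lt_of_le_of_lt ?_ hlt
    have hmem : ∀ u, H z u u ≤ (1 + e0) * G z u u := eF_mem (eS_nonempty hG)
    have hp : 0 < 1 - δ * κ := by linarith
    refine eF_le ?_ fun u => ?_
    · rw [sub_nonneg, le_div_iff₀ hp]
      nlinarith [mul_pos hδ hκ]
    · have h1 := abs_le.1 (hcmp (H y) (H z) δ u hy.1)
      have h2 := abs_le.1 (hcmp (G y) (G z) δ u hy.2)
      have h3 := hmem u
      have h5 : (1 - δ * κ) * G z u u ≤ G y u u := by linarith [h2.1]
      have h6 : H y u u ≤ (1 + e0 + δ * κ) * G z u u := by linarith [h1.2]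
      have h7 : (1 + e0 + δ * κ) * G z u u ≤
          (1 + e0 + δ * κ) / (1 - δ * κ) * G y u u := by
        rw [div_mul_eq_mul_div, le_div_iff₀ hp]
        calc (1 + e0 + δ * κ) * G z u u * (1 - δ * κ) =
              (1 + e0 + δ * κ) * ((1 - δ * κ) * G z u u) := by ring
          _ ≤ (1 + e0 + δ * κ) * G y u u :=
              mul_le_mul_of_nonneg_left h5 (by positivity)
      change H y u u ≤ (1 + ((1 + e0 + δ * κ) / (1 - δ * κ) - 1)) * G y u u
      calc H y u u ≤ (1 + e0 + δ * κ) * G z u u := h6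
        _ ≤ _ := h7
        _ = _ := by ring

end forms

/-! ### one-dimensional lemmas -/

/-- a continuous function on `[a,b]` with nonpositive left Dini slopes decreases. -/
theorem antitone_of_dini {m : ℝ → ℝ} {a b : ℝ} (hab : a ≤ b) (hc : ContinuousOn m (Icc a b))
    (h : ∀ s ∈ Ioc a b, ∀ ε > 0, ∀ᶠ t in 𝓝[<] s, m s - ε * (s - t) ≤ m t) : m b ≤ m a := by
  -- reverse time
  have hneg : ∀ x ∈ Icc (-b) (-a), -m (-x) ≤ -m b := by
    intro x hx
    have hcN : ContinuousOn (fun t => -m (-t)) (Icc (-b) (-a)) := by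
      refine (hc.comp continuous_neg.continuousOn fun t ht => ?_).neg
      exact ⟨by linarith [ht.2], by linarith [ht.1]⟩
    refine image_le_of_liminf_slope_right_le_deriv_boundary (f := fun t => -m (-t))
      (B := fun _ => -m b) (B' := fun _ => 0) hcN (by simp) continuousOn_const
      (fun t _ => hasDerivWithinAt_const t _ _) ?_ hx
    intro t ht r hr
    have hts : -t ∈ Ioc a b := ⟨by linarith [ht.2], by linarith [ht.1]⟩
    have h1 := h (-t) hts (r / 2) (by linarith)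
    have hmap : Tendsto (fun z : ℝ => -z) (𝓝[>] t) (𝓝[<] (-t)) := by
      refine tendsto_nhdsWithin_iff.2 ⟨?_, ?_⟩
      · exact (continuous_neg.tendsto t).mono_left nhdsWithin_le_nhds
      · filter_upwards [self_mem_nhdsWithin] with z hz
        have : t < z := hz
        simp only [mem_Iio]; linarith
    have h2 := hmap.eventually h1
    refine ((h2.and self_mem_nhdsWithin).mono fun z hz => ?_).frequently
    have hz2 : t < z := hz.2
    have hz1 := hz.1
    rw [slope_def_field, div_lt_iff₀ (by linarith)]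
    nlinarith
  have := hneg (-a) ⟨by linarith, le_rfl⟩
  rw [neg_neg] at this
  linarith

/-- **barrier lemma**: `h` continuous on `[a,b]`; at every interior point and every `ε > 0` there is
an upper barrier, twice differentiable, with second derivative `≤ k + ε`.  Then the chord
inequality of `k t²/2` holds. -/
theorem concave_barrier {h : ℝ → ℝ} {a b k : ℝ} (hab : a < b) (hc : ContinuousOn h (Icc a b))
    (hb : ∀ s ∈ Ioo a b, ∀ ε > 0, ∃ φ φ' : ℝ → ℝ, ∃ D : ℝ, (∀ᶠ t in 𝓝 s, h t ≤ φ t) ∧ φ s = h s ∧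
      (∀ᶠ t in 𝓝 s, HasDerivAt φ (φ' t) t) ∧ HasDerivAt φ' D s ∧ D ≤ k + ε)
    {t : ℝ} (ht : t ∈ Icc a b) :
    (b - t) / (b - a) * h a + (t - a) / (b - a) * h b - k / 2 * ((t - a) * (b - t)) ≤ h t := by
  by_contra hcon
  push Not at hcon
  have hba : 0 < b - a := sub_pos.2 hab
  -- the chord-corrected function
  set L : ℝ → ℝ := fun t => (b - t) / (b - a) * h a + (t - a) / (b - a) * h b with hL
  set δ0 : ℝ := L t - k / 2 * ((t - a) * (b - t)) - h t with hδ0
  have hδ0p : 0 < δ0 := by rw [hδ0, hL]; simp only; linarith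
  obtain ⟨δ, hδ, hδ2⟩ : ∃ δ : ℝ, 0 < δ ∧ δ * ((t - a) * (b - t)) < δ0 := by
    refine ⟨δ0 / (2 * ((b - a) * (b - a))), by positivity, ?_⟩
    have h1 : (t - a) * (b - t) ≤ (b - a) * (b - a) := by
      apply mul_le_mul (by linarith [ht.2]) (by linarith [ht.1]) (by linarith [ht.2]) hba.le
    calc δ0 / (2 * ((b - a) * (b - a))) * ((t - a) * (b - t)) ≤
          δ0 / (2 * ((b - a) * (b - a))) * ((b - a) * (b - a)) :=
          mul_le_mul_of_nonneg_left h1 (by positivity)
      _ = δ0 / 2 := by field_simp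
      _ < δ0 := by linarith
  -- `q t = h t - L t + (k/2 + δ) (t-a)(b-t)`
  set q : ℝ → ℝ := fun t => h t - L t + (k / 2 + δ) * ((t - a) * (b - t)) with hq
  have hqc : ContinuousOn q (Icc a b) := by
    refine (hc.sub ?_).add ?_
    · exact (by fun_prop : Continuous L).continuousOn
    · exact (by fun_prop : Continuous fun t => (k / 2 + δ) * ((t - a) * (b - t))).continuousOn
  obtain ⟨s, hs, hmin⟩ := isCompact_Icc.exists_isMinOn ⟨t, ht⟩ hqc
  have hqt : q t < 0 := by
    rw [hq]; simp only; rw [hδ0] at hδ2; linarith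
  have hqs : q s < 0 := lt_of_le_of_lt (hmin ht) hqt
  have hqa : q a = 0 := by
    rw [hq, hL]; simp only; field_simp; ring
  have hqb : q b = 0 := by
    rw [hq, hL]; simp only; field_simp; ring
  have hsa : s ≠ a := fun h => by rw [h, hqa] at hqs; exact lt_irrefl _ hqs
  have hsb : s ≠ b := fun h => by rw [h, hqb] at hqs; exact lt_irrefl _ hqs
  have hsI : s ∈ Ioo a b := ⟨lt_of_le_of_ne hs.1 hsa.symm, lt_of_le_of_ne hs.2 hsb⟩
  obtain ⟨φ, φ', D, h1, h2, h3, h4, h5⟩ := hb s hsI δ hδ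
  -- `ψ = φ - L + (k/2+δ)(t-a)(b-t)` has a local minimum at `s`
  set ψ : ℝ → ℝ := fun t => φ t - L t + (k / 2 + δ) * ((t - a) * (b - t)) with hψ
  set ψ' : ℝ → ℝ := fun t => φ' t - ((h b - h a) / (b - a)) +
    (k / 2 + δ) * ((b - t) - (t - a)) with hψ'
  have hmin2 : IsLocalMin ψ s := by
    filter_upwards [h1, Icc_mem_nhds hsI.1 hsI.2] with y hy1 hy2
    have := hmin hy2
    simp only [mem_ofPred_eq] at this
    rw [hq] at this
    rw [hψ]
    simp only at this ⊢
    rw [h2]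
    linarith
  have hd1 : ∀ᶠ y in 𝓝 s, HasDerivAt ψ (ψ' y) y := by
    filter_upwards [h3] with y hy
    have hl : HasDerivAt L ((h b - h a) / (b - a)) y := by
      have e1 := ((((hasDerivAt_id y).const_sub b).div_const (b - a)).mul_const (h a)).add
        ((((hasDerivAt_id y).sub_const a).div_const (b - a)).mul_const (h b))
      refine e1.congr_deriv ?_
      field_simp
      ring
    have hp : HasDerivAt (fun t => (k / 2 + δ) * ((t - a) * (b - t)))
        ((k / 2 + δ) * ((b - y) - (y - a))) y := by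
      have e2 := (((hasDerivAt_id y).sub_const a).mul ((hasDerivAt_id y).const_sub b)).const_mul
        (k / 2 + δ)
      refine e2.congr_deriv ?_
      simp only [id_eq]
      ring
    exact (hy.sub hl).add hp
  have hd2 : HasDerivAt ψ' (D + (k / 2 + δ) * (-2)) s := by
    have e1 : HasDerivAt (fun t : ℝ => (k / 2 + δ) * ((b - t) - (t - a))) ((k / 2 + δ) * (-2)) s := by
      have := (((hasDerivAt_id s).const_sub b).sub ((hasDerivAt_id s).sub_const a)).const_mul
        (k / 2 + δ)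
      refine this.congr_deriv ?_
      ring
    exact (h4.sub_const _).add e1
  have hψ's : ψ' s = 0 := hmin2.hasDerivAt_eq_zero hd1.self_of_nhds
  -- second derivative is negative: strict local maximum, contradiction
  have hneg : D + (k / 2 + δ) * (-2) < 0 := by linarith
  have hev : ∀ᶠ y in 𝓝[>] s, ψ' y < 0 := by
    have h6 := hasDerivAt_iff_tendsto_slope.1 hd2
    have h7 : ∀ᶠ y in 𝓝[≠] s, slope ψ' s y < 0 := h6.eventually (gt_mem_nhds hneg)
    have h8 : ∀ᶠ y in 𝓝[>] s, slope ψ' s y < 0 :=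
      h7.filter_mono (nhdsWithin_mono s fun y hy => ne_of_gt hy)
    filter_upwards [h8, self_mem_nhdsWithin] with y hy1 hy2
    have hy3 : s < y := hy2
    rw [slope_def_field, hψ's, sub_zero, div_neg_iff] at hy1
    rcases hy1 with h9 | h9
    · linarith [h9.2]
    · exact h9.1
  obtain ⟨r, hr, hr1⟩ : ∃ r > s, ∀ y ∈ Ioo s r, ψ' y < 0 := by
    obtain ⟨r, hr, h9⟩ := (mem_nhdsGT_iff_exists_Ioo_subset).1 hev
    exact ⟨r, hr, h9⟩
  obtain ⟨r2, hr2, hr3⟩ : ∃ r2 > s, ∀ y ∈ Ico s r2, HasDerivAt ψ (ψ' y) y ∧ ψ s ≤ ψ y := by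
    have h9 : ∀ᶠ y in 𝓝[≥] s, HasDerivAt ψ (ψ' y) y ∧ ψ s ≤ ψ y :=
      (hd1.and hmin2).filter_mono nhdsWithin_le_nhds
    obtain ⟨r, hr, h10⟩ := (mem_nhdsGE_iff_exists_Ico_subset).1 h9
    exact ⟨r, hr, h10⟩
  set r4 : ℝ := (s + min r r2) / 2 with hr4
  have hmn : s < min r r2 := lt_min hr hr2
  have hr41 : s < r4 := by rw [hr4]; linarith
  have hr42 : r4 < r := by rw [hr4]; have := min_le_left r r2; linarith
  have hr43 : r4 < r2 := by rw [hr4]; have := min_le_right r r2; linarith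
  obtain ⟨ξ, hξ, hξ2⟩ := exists_hasDerivAt_eq_slope ψ ψ' hr41
    (fun y hy => ((hr3 y ⟨hy.1, lt_of_le_of_lt hy.2 hr43⟩).1).continuousAt.continuousWithinAt)
    (fun y hy => (hr3 y ⟨hy.1.le, hy.2.trans hr43⟩).1)
  have h11 := hr1 ξ ⟨hξ.1, hξ.2.trans hr42⟩
  have h12 := (hr3 r4 ⟨hr41.le, hr43⟩).2
  rw [hξ2, div_neg_iff] at h11
  rcases h11 with h13 | h13
  · linarith [h13.2]
  · linarith [h13.1]

end Crest.Agent.R249.Top330
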