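import Crest.Agent.R249.Top3_330
import Crest.Agent.R247.Bo8_84

/-!
R249, leaf TOP (helper330), file 4: **Toponogov's theorem in concavity form** for nonnegative
sectional curvature.  For every `p` and every locally minimising curve `γ` of constant speed `ℓ`,
`t ↦ dist p (γ t)² - ℓ² t²` is concave.
-/

set_option autoImplicit false
set_option maxSynthPendingDepth 3
set_option linter.unusedSectionVars false

open Bundle Set Filter Topology Metric
open scoped Manifold ContDiff NNReal
open Crest.GeometryTopology.CoordMetric Crest.GeometryTopology.ChartCurvature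
open Crest.GeometryTopology.MTW
open Crest.Agent.R226.CutSmooth77 (SC)
open Crest.Agent.R247.Bo84 (mHess mGam mgrad mHess_comp dM two_le_infty mHess_smul_left
  mHess_smul_right)
open Crest.Agent.R247.Sm879 Crest.Agent.R247.Ray97

noncomputable section

namespace Crest.Agent.R249.Top330

variable {n : ℕ} {M : Type*} [MetricSpace M] [ChartedSpace (EuclideanSpace ℝ (Fin n)) M]
  [IsManifold (𝓡 n) ∞ M]
  [RiemannianBundle (fun p : M => TangentSpace (𝓡 n) p)]
  [IsContMDiffRiemannianBundle (𝓡 n) ∞ (EuclideanSpace ℝ (Fin n)) (fun p : M => TangentSpace (𝓡 n) p)]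
  [IsRiemannianManifold (𝓡 n) M]

local notation "𝔼" => EuclideanSpace ℝ (Fin n)

/-- `γ` is, near every interior time, a minimiser of constant speed `ℓ`. -/
def LocMin {M : Type*} [MetricSpace M] (γ : ℝ → M) (ℓ a b : ℝ) : Prop :=
  ∀ s ∈ Ioo a b, ∃ δ > 0, ∀ u ∈ Icc (s - δ) (s + δ), ∀ v ∈ Icc (s - δ) (s + δ),
    dist (γ u) (γ v) = ℓ * |u - v|

/-- the barrier function `(ε + √(2y))²/2`, its derivative and second derivative. -/
lemma barrier_deriv {ε y : ℝ} (hy : 0 < y) :
    HasDerivAt (fun y => (ε + √(2 * y)) ^ 2 / 2) (1 + ε / √(2 * y)) y := by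
  have h1 : HasDerivAt (fun y : ℝ => 2 * y) 2 y := by
    simpa using (hasDerivAt_id y).const_mul (2:ℝ)
  have h2 := h1.sqrt (by positivity)
  have h3 := ((h2.const_add ε).fun_pow 2).div_const 2
  refine h3.congr_deriv ?_
  have hs : √(2 * y) ≠ 0 := (Real.sqrt_pos.2 (by positivity)).ne'
  field_simp
  norm_num
  ring

lemma barrier_deriv2 {ε y : ℝ} (hε : 0 ≤ ε) (hy : 0 < y) :
    deriv (deriv (fun y => (ε + √(2 * y)) ^ 2 / 2)) y ≤ 0 := by
  have h1 : deriv (fun y => (ε + √(2 * y)) ^ 2 / 2) =ᶠ[𝓝 y] fun y => 1 + ε / √(2 * y) := by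
    filter_upwards [lt_mem_nhds hy] with z hz using (barrier_deriv hz).deriv
  rw [h1.deriv_eq]
  have hs : 0 < √(2 * y) := Real.sqrt_pos.2 (by positivity)
  have h2 : HasDerivAt (fun y : ℝ => 2 * y) 2 y := by
    simpa using (hasDerivAt_id y).const_mul (2:ℝ)
  have h3 := h2.sqrt (by positivity)
  have h4 := ((hasDerivAt_const y ε).div h3 hs.ne').const_add 1
  have h5 : deriv (fun y => 1 + ε / √(2 * y)) y = (0 * √(2 * y) - ε * (2 / (2 * √(2 * y)))) /
      √(2 * y) ^ 2 := h4.deriv
  rw [h5, zero_mul, zero_sub, neg_div, neg_nonpos]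
  positivity

lemma barrier_contDiffAt {ε y : ℝ} (hy : 0 < y) :
    ContDiffAt ℝ 2 (fun y => (ε + √(2 * y)) ^ 2 / 2) y := by
  have h1 : ContDiffAt ℝ 2 (fun y : ℝ => √(2 * y)) y :=
    (contDiffAt_const.mul contDiffAt_id).sqrt (by positivity)
  exact ((contDiffAt_const.add h1).pow 2).div_const 2

variable [ProperSpace M]

/-- Hessian of the upper barrier `(ε + d_x)²/2`. -/
theorem mHess_barrier_le (hm : ExM M) (hK : HasNonnegSectionalCurvature n M) {x p : M}
    (h : SC n x p) (hxp : x ≠ p) {ε : ℝ} (hε : 0 ≤ ε) (v : TangentSpace (𝓡 n) p) :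
    mHess n (fun q => (ε + √(2 * halfDistSq x q)) ^ 2 / 2) p v v ≤
      (1 + ε / dist x p) * ‖v‖ ^ 2 := by
  have hpos : 0 < halfDistSq x p := by
    unfold halfDistSq
    have := dist_pos.2 hxp
    positivity
  have hsm : ContMDiffAt (𝓡 n) 𝓘(ℝ, ℝ) 2 (halfDistSq x) p :=
    (Crest.Agent.R247.Lc582.contMDiffAt_cost h).of_le Crest.Agent.R247.Bo84.two_le_infty
  rw [mHess_comp (φ := fun y => (ε + √(2 * y)) ^ 2 / 2) (barrier_contDiffAt hpos) hsm,
    (barrier_deriv hpos).deriv]
  have h1 := barrier_deriv2 hε hpos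
  have h2 := mHess_halfDistSq_le hm hK h v
  have h3 : √(2 * halfDistSq x p) = dist x p := by
    unfold halfDistSq
    rw [mul_div_cancel₀ _ (two_ne_zero), Real.sqrt_sq dist_nonneg]
  rw [h3]
  have h4 : 0 ≤ 1 + ε / dist x p := by positivity
  have h5 : deriv (deriv fun y => (ε + √(2 * y)) ^ 2 / 2) (halfDistSq x p) *
      (dM n (halfDistSq x) p v * dM n (halfDistSq x) p v) ≤ 0 :=
    mul_nonpos_of_nonpos_of_nonneg h1 (mul_self_nonneg _)
  nlinarith [mul_le_mul_of_nonneg_left h2 h4]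

/-- the barriers at an interior time of a locally minimising curve -/
theorem barrier_exists (hm : ExM M) (hK : HasNonnegSectionalCurvature n M) (p : M) {γ : ℝ → M}
    {ℓ s δ : ℝ} (hℓ : 0 < ℓ) (hδ : 0 < δ)
    (hloc : ∀ u ∈ Icc (s - δ) (s + δ), ∀ v ∈ Icc (s - δ) (s + δ), dist (γ u) (γ v) = ℓ * |u - v|)
    {ε : ℝ} (hε : 0 < ε) :
    ∃ φ φ' : ℝ → ℝ, ∃ D : ℝ, (∀ᶠ t in 𝓝 s, halfDistSq p (γ t) ≤ φ t) ∧ φ s = halfDistSq p (γ s) ∧
      (∀ᶠ t in 𝓝 s, HasDerivAt φ (φ' t) t) ∧ HasDerivAt φ' D s ∧ D ≤ ℓ ^ 2 + ε := by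
  have hmf : IsManifold (𝓡 n) (2 : WithTop ℕ∞) M :=
    IsManifold.of_le (n := ∞) Crest.Agent.R247.Bo84.two_le_infty
  -- the ray around `s`
  set γ' : ℝ → M := fun t => γ (s - δ + t) with hγ'
  have hray : IsRay (γ (s - δ)) γ' ℓ (2 * δ) := by
    refine ⟨hℓ, by linarith, by simp [hγ'], fun u hu v hv => ?_⟩
    rw [hγ']
    simp only
    rw [hloc _ ⟨by linarith [hu.1], by linarith [hu.2]⟩ _ ⟨by linarith [hv.1], by linarith [hv.2]⟩]
    congr 2
    ring
  have hsI : δ ∈ Ioo 0 (2 * δ) := ⟨hδ, by linarith⟩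
  have hγs : γ' δ = γ s := by rw [hγ']; simp
  have hcont : ContinuousAt γ s := by
    have h1 := hray.continuousAt hsI
    have h2 : γ = fun t => γ' (t - (s - δ)) := by
      ext t; rw [hγ']; simp
    rw [h2]
    have h3 : ContinuousAt (fun t : ℝ => t - (s - δ)) s := by fun_prop
    have h4 : ContinuousAt γ' ((fun t : ℝ => t - (s - δ)) s) := by
      have : (fun t : ℝ => t - (s - δ)) s = δ := by simp
      rw [this]; exact h1
    exact ContinuousAt.comp (g := γ') h4 h3
  -- a general barrier from a `C²` function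
  have key : ∀ w : M → ℝ, ContMDiffAt (𝓡 n) 𝓘(ℝ, ℝ) 2 w (γ s) →
      (∀ᶠ q in 𝓝 (γ s), halfDistSq p q ≤ w q) → w (γ s) = halfDistSq p (γ s) →
      (∀ v : TangentSpace (𝓡 n) (γ s), mHess n w (γ s) v v ≤ (1 + ε / ℓ ^ 2) * ‖v‖ ^ 2) →
      ∃ φ φ' : ℝ → ℝ, ∃ D : ℝ, (∀ᶠ t in 𝓝 s, halfDistSq p (γ t) ≤ φ t) ∧
        φ s = halfDistSq p (γ s) ∧ (∀ᶠ t in 𝓝 s, HasDerivAt φ (φ' t) t) ∧ HasDerivAt φ' D s ∧
        D ≤ ℓ ^ 2 + ε := by
    intro w hw hle heq hH
    have hw' : ContMDiffAt (𝓡 n) 𝓘(ℝ, ℝ) 2 w (γ' δ) := by rw [hγs]; exact hw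
    have hd2 := hray.hasDerivAt_deriv hm hsI hw'
    have hnv := hray.norm_vel (n := n) hm hsI
    have hshift : ∀ t, HasDerivAt (fun t : ℝ => t - (s - δ)) 1 t := fun t =>
      (hasDerivAt_id t).sub_const _
    refine ⟨fun t => w (γ t), fun t => deriv (fun t => w (γ' t)) (t - (s - δ)),
      δ⁻¹ ^ 2 * mHess n w (γ' δ) (mgrad n (halfDistSq (γ (s - δ))) (γ' δ))
        (mgrad n (halfDistSq (γ (s - δ))) (γ' δ)), hcont.eventually hle, heq, ?_, ?_, ?_⟩
    · -- first derivative near `s`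
      have h1 : ∀ᶠ q in 𝓝 (γ s), MDifferentiableAt (𝓡 n) 𝓘(ℝ, ℝ) w q := by
        have h2 := (contMDiffAt_iff_contMDiffAt_nhds (n := 2) (by decide)).1 hw
        filter_upwards [h2] with q hq using hq.mdifferentiableAt (by norm_num)
      have h3 : ∀ᶠ t in 𝓝 s, t - (s - δ) ∈ Ioo 0 (2 * δ) := by
        have : ContinuousAt (fun t : ℝ => t - (s - δ)) s := by fun_prop
        refine this.eventually (Ioo_mem_nhds ?_ ?_) <;> simp <;> linarith
      filter_upwards [hcont.eventually h1, h3] with t ht1 ht2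
      have e1 : γ' (t - (s - δ)) = γ t := by rw [hγ']; simp
      have h4 := (hray.hasDerivAt_comp hm ht2 (w := w) (by rw [e1]; exact ht1))
      have h5 := (h4.differentiableAt.hasDerivAt).comp t (hshift t)
      have h6 : (fun t => w (γ' t)) ∘ (fun t : ℝ => t - (s - δ)) = fun t => w (γ t) := by
        ext t; simp [hγ']
      rw [h6, mul_one] at h5
      exact h5
    · have e0 : (fun t : ℝ => t - (s - δ)) s = δ := by simp
      have h7 : HasDerivAt (deriv (fun t => w (γ' t))) (δ⁻¹ ^ 2 * mHess n w (γ' δ)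
          (mgrad n (halfDistSq (γ (s - δ))) (γ' δ))
          (mgrad n (halfDistSq (γ (s - δ))) (γ' δ))) ((fun t : ℝ => t - (s - δ)) s) := by
        rw [e0]; exact hd2
      have h8 := h7.comp s (hshift s)
      rw [mul_one] at h8
      exact h8
    · have h9 : ∀ (q : M) (hq : q = γ s) (v : TangentSpace (𝓡 n) q),
          mHess n w q v v ≤ (1 + ε / ℓ ^ 2) * ‖v‖ ^ 2 := by
        intro q hq v
        subst hq
        exact hH v
      have h10 := h9 (γ' δ) hγs (δ⁻¹ • mgrad n (halfDistSq (γ (s - δ))) (γ' δ))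
      rw [hnv, mHess_smul_left, mHess_smul_right] at h10
      calc δ⁻¹ ^ 2 * mHess n w (γ' δ) (mgrad n (halfDistSq (γ (s - δ))) (γ' δ))
            (mgrad n (halfDistSq (γ (s - δ))) (γ' δ)) =
            δ⁻¹ * (δ⁻¹ * mHess n w (γ' δ) (mgrad n (halfDistSq (γ (s - δ))) (γ' δ))
              (mgrad n (halfDistSq (γ (s - δ))) (γ' δ))) := by ring
        _ ≤ (1 + ε / ℓ ^ 2) * ℓ ^ 2 := h10
        _ = ℓ ^ 2 + ε := by field_simp
  rcases eq_or_ne p (γ s) with hps | hps
  · -- the centre
    have hsc : SC n p (γ s) := by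
      rw [← hps]
      obtain ⟨L⟩ := nonempty_localNear (n := n) p
      exact LN_sc L L.mem_W (by rw [dist_self]; exact L.r_pos)
    refine key (halfDistSq p) ((Crest.Agent.R247.Lc582.contMDiffAt_cost hsc).of_le
      Crest.Agent.R247.Bo84.two_le_infty) (Eventually.of_forall fun q => le_rfl) rfl fun v => ?_
    have h1 := mHess_halfDistSq_le hm hK hsc v
    have h2 : 0 ≤ ε / ℓ ^ 2 := by positivity
    nlinarith [sq_nonneg ‖v‖]
  · -- away from the centre: shift the base point
    have hD : 0 < dist p (γ s) := dist_pos.2 hps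
    set D := dist p (γ s) with hDdef
    -- choose `ε'`
    obtain ⟨ε', hε'0, hε'D, hε'⟩ : ∃ ε' : ℝ, 0 < ε' ∧ ε' < D ∧ ε' / (D - ε') ≤ ε / ℓ ^ 2 := by
      have ht : Tendsto (fun e : ℝ => e / (D - e)) (𝓝[>] 0) (𝓝 (0 / (D - 0))) := by
        have : ContinuousAt (fun e : ℝ => e / (D - e)) 0 :=
          ContinuousAt.div (by fun_prop) (by fun_prop) (by simpa using hD.ne')
        exact this.tendsto.mono_left nhdsWithin_le_nhds
      have h1 : (0:ℝ) / (D - 0) < ε / ℓ ^ 2 := by rw [zero_div]; positivity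
      obtain ⟨e, he1, he2⟩ := ((ht.eventually (gt_mem_nhds h1)).and
        (Ioo_mem_nhdsGT hD)).exists
      exact ⟨e, he2.1, he2.2, he1.le⟩
    obtain ⟨p', hp'1, hp'2⟩ := hm.pt p (γ s) hε'0.le hε'D.le
    have hpp' : p ≠ p' := by
      intro h
      rw [h, dist_self] at hp'1
      exact hε'0.ne hp'1
    have hp'q : p' ≠ γ s := by
      intro h
      rw [← h, dist_self, h, ← hDdef] at hp'2
      linarith
    have hsc : SC n p' (γ s) :=
      sc_of_btw' (n := n) hm (x' := p) (x := p') (y := γ s) (by rw [hp'1, hp'2, ← hDdef]; ring) hpp'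
    have hpos : 0 < halfDistSq p' (γ s) := by
      unfold halfDistSq
      have := dist_pos.2 hp'q
      positivity
    have hsm : ContMDiffAt (𝓡 n) 𝓘(ℝ, ℝ) 2 (halfDistSq p') (γ s) :=
      (Crest.Agent.R247.Lc582.contMDiffAt_cost hsc).of_le Crest.Agent.R247.Bo84.two_le_infty
    have hroot : ∀ q, √(2 * halfDistSq p' q) = dist p' q := by
      intro q
      unfold halfDistSq
      rw [mul_div_cancel₀ _ (two_ne_zero), Real.sqrt_sq dist_nonneg]
    refine key (fun q => (ε' + √(2 * halfDistSq p' q)) ^ 2 / 2) ?_ ?_ ?_ ?_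
    · have h1 := (barrier_contDiffAt (ε := ε') hpos).contMDiffAt
      exact ContMDiffAt.comp (γ s) (g := fun y : ℝ => (ε' + √(2 * y)) ^ 2 / 2) h1 hsm
    · refine Eventually.of_forall fun q => ?_
      rw [hroot]
      unfold halfDistSq
      have h1 : dist p q ≤ ε' + dist p' q := by
        rw [← hp'1]; exact dist_triangle _ _ _
      have h2 : 0 ≤ dist p q := dist_nonneg
      gcongr
    · rw [hroot, hp'2]
      unfold halfDistSq
      rw [← hDdef]
      ring
    · intro v
      have h1 := mHess_barrier_le hm hK hsc hp'q hε'0.le v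
      refine h1.trans ?_
      rw [hp'2, ← hDdef]
      gcongr

/-- **Toponogov, chord form**, on a compact interval. -/
theorem toponogov_chord (hm : ExM M) (hK : HasNonnegSectionalCurvature n M) (p : M) {γ : ℝ → M}
    {ℓ a b : ℝ} (hℓ : 0 < ℓ) (hab : a < b) (hc : ContinuousOn γ (Icc a b)) (hloc : LocMin γ ℓ a b)
    {t : ℝ} (ht : t ∈ Icc a b) :
    (b - t) / (b - a) * dist p (γ a) ^ 2 + (t - a) / (b - a) * dist p (γ b) ^ 2
      - ℓ ^ 2 * ((t - a) * (b - t)) ≤ dist p (γ t) ^ 2 := by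
  have hcont : ContinuousOn (fun t => halfDistSq p (γ t)) (Icc a b) := by
    unfold halfDistSq
    have h1 : Continuous fun q : M => dist p q := continuous_const.dist continuous_id
    exact ((h1.comp_continuousOn hc).pow 2).div_const 2
  have h1 := concave_barrier (h := fun t => halfDistSq p (γ t)) (k := ℓ ^ 2) hab hcont
    (fun s hs ε hε => by
      obtain ⟨δ, hδ, h⟩ := hloc s hs
      exact barrier_exists hm hK p hℓ hδ h hε) ht
  unfold halfDistSq at h1
  have e : (b - t) / (b - a) * (dist p (γ a) ^ 2 / 2) + (t - a) / (b - a) * (dist p (γ b) ^ 2 / 2)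
      - ℓ ^ 2 / 2 * ((t - a) * (b - t)) = ((b - t) / (b - a) * dist p (γ a) ^ 2 +
      (t - a) / (b - a) * dist p (γ b) ^ 2 - ℓ ^ 2 * ((t - a) * (b - t))) / 2 := by ring
  rw [e] at h1
  linarith

/-- **Toponogov, concavity form**: for a curve locally minimising with constant speed `ℓ` on the
open interval of a convex set. -/
theorem toponogov_concaveOn (hm : ExM M) (hK : HasNonnegSectionalCurvature n M) (p : M) {γ : ℝ → M}
    {ℓ : ℝ} (hℓ : 0 < ℓ) {I : Set ℝ} (hI : Convex ℝ I) (hc : ContinuousOn γ I)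
    (hloc : ∀ a b, a < b → Icc a b ⊆ I → LocMin γ ℓ a b) :
    ConcaveOn ℝ I (fun t => dist p (γ t) ^ 2 - ℓ ^ 2 * t ^ 2) := by
  refine ⟨hI, ?_⟩
  -- reduce to `x < y`
  have main : ∀ x ∈ I, ∀ y ∈ I, x < y → ∀ a b : ℝ, 0 ≤ a → 0 ≤ b → a + b = 1 →
      a • (dist p (γ x) ^ 2 - ℓ ^ 2 * x ^ 2) + b • (dist p (γ y) ^ 2 - ℓ ^ 2 * y ^ 2) ≤
        dist p (γ (a • x + b • y)) ^ 2 - ℓ ^ 2 * (a • x + b • y) ^ 2 := by
    intro x hx y hy hxy a b ha hb hab
    have hsub : Icc x y ⊆ I := by
      rw [← segment_eq_Icc hxy.le]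
      exact hI.segment_subset hx hy
    have hyx : 0 < y - x := sub_pos.2 hxy
    have e1 : y - (a • x + b • y) = a * (y - x) := by
      simp only [smul_eq_mul]
      have : b = 1 - a := by linarith
      rw [this]; ring
    have e2 : (a • x + b • y) - x = b * (y - x) := by
      simp only [smul_eq_mul]
      have : a = 1 - b := by linarith
      rw [this]; ring
    have ht : a • x + b • y ∈ Icc x y :=
      ⟨by have := mul_nonneg hb hyx.le; linarith, by have := mul_nonneg ha hyx.le; linarith⟩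
    have h1 := toponogov_chord hm hK p hℓ hxy (hc.mono hsub) (hloc x y hxy hsub) ht
    rw [e1, e2, mul_div_assoc, div_self hyx.ne', mul_div_assoc, div_self hyx.ne', mul_one,
      mul_one] at h1
    simp only [smul_eq_mul] at h1 ⊢
    have e3 : a * (dist p (γ x) ^ 2 - ℓ ^ 2 * x ^ 2) + b * (dist p (γ y) ^ 2 - ℓ ^ 2 * y ^ 2) +
        ℓ ^ 2 * (a * x + b * y) ^ 2 = a * dist p (γ x) ^ 2 + b * dist p (γ y) ^ 2
        - ℓ ^ 2 * (b * (y - x) * (a * (y - x))) := by
      have : b = 1 - a := by linarith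
      rw [this]; ring
    linarith
  intro x hx y hy a b ha hb hab
  rcases lt_trichotomy x y with h | h | h
  · exact main x hx y hy h a b ha hb hab
  · subst h
    rw [← add_smul, ← add_smul, hab, one_smul, one_smul]
  · have h1 := main y hy x hx h b a hb ha (by linarith)
    rw [add_comm (b • y), add_comm (b • _)] at h1
    exact h1

/-- a minimiser on `[0, b]` -/
theorem toponogov_ray (hm : ExM M) (hK : HasNonnegSectionalCurvature n M) (p : M) {x : M}
    {γ : ℝ → M} {ℓ b : ℝ} (h : IsRay x γ ℓ b) {t : ℝ} (ht : t ∈ Icc 0 b) :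
    (b - t) / b * dist p x ^ 2 + t / b * dist p (γ b) ^ 2 - ℓ ^ 2 * (t * (b - t)) ≤
      dist p (γ t) ^ 2 := by
  have hloc : LocMin γ ℓ 0 b := by
    intro s hs
    refine ⟨min s (b - s), lt_min hs.1 (by linarith [hs.2]), fun u hu v hv => ?_⟩
    have h1 := min_le_left s (b - s)
    have h2 := min_le_right s (b - s)
    exact h.dist' u ⟨by linarith [hu.1], by linarith [hu.2]⟩ v
      ⟨by linarith [hv.1], by linarith [hv.2]⟩
  have h1 := toponogov_chord hm hK p h.pos h.bpos h.continuousOn hloc ht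
  simpa [h.zero] using h1

/-- **point-on-side inequality**: `z` between `y` and `w`. -/
theorem toponogov_btw (hm : ExM M) (hK : HasNonnegSectionalCurvature n M) (p : M) {y z w : M}
    (h : dist y z + dist z w = dist y w) :
    dist z w * dist p y ^ 2 + dist y z * dist p w ^ 2 - dist y z * dist z w * dist y w ≤
      dist y w * dist p z ^ 2 := by
  rcases eq_or_ne y w with rfl | hyw
  · have h1 : dist y z = 0 := by
      rw [dist_self] at h
      have := dist_nonneg (x := y) (y := z)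
      have := dist_nonneg (x := z) (y := y)
      linarith
    have h2 : dist z y = 0 := by rw [dist_comm]; exact h1
    rw [h1, h2, dist_self]
    simp
  rcases eq_or_ne y z with rfl | hyz
  · rw [dist_self]; simp
  -- a minimiser through `z`: glue
  obtain ⟨γ, g0, g1, g2⟩ := Crest.Agent.R247.Lc582.exists_unit hm y z
  obtain ⟨σ, s0, s1, s2⟩ := Crest.Agent.R247.Lc582.exists_unit hm z w
  set A := dist y z with hA
  set B := dist z w with hB
  have hA0 : 0 < A := dist_pos.2 hyz
  have hB0 : 0 ≤ B := dist_nonneg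
  set c : ℝ → M := fun t => if t ≤ A then γ t else σ (t - A) with hc
  have hray : IsRay y c 1 (A + B) := by
    refine ⟨one_pos, by linarith, by rw [hc]; simp [hA0.le, g0], ?_⟩
    -- distances
    have key : ∀ u ∈ Icc 0 A, ∀ v ∈ Icc 0 B, dist (γ u) (σ v) = (A + v) - u := by
      intro u hu v hv
      have d1 : dist (γ u) z = A - u := by
        have := g2 u hu A ⟨hA0.le, le_rfl⟩
        rw [g1, abs_sub_comm, abs_of_nonneg (by linarith [hu.2])] at this
        exact this
      have d2 : dist z (σ v) = v := by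
        have := s2 0 ⟨le_rfl, hB0⟩ v hv
        rw [s0, zero_sub, abs_neg, abs_of_nonneg hv.1] at this
        exact this
      have d3 : dist y (γ u) = u := by
        have := g2 0 ⟨le_rfl, hA0.le⟩ u hu
        rw [g0, zero_sub, abs_neg, abs_of_nonneg hu.1] at this
        exact this
      have d4 : dist (σ v) w = B - v := by
        have := s2 v hv B ⟨hB0, le_rfl⟩
        rw [s1, abs_sub_comm, abs_of_nonneg (by linarith [hv.2])] at this
        exact this
      apply le_antisymm
      · have := dist_triangle (γ u) z (σ v)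
        linarith
      · have t1 := dist_triangle y (γ u) w
        have t2 := dist_triangle (γ u) (σ v) w
        linarith
    have main : ∀ u ∈ Icc 0 (A + B), ∀ v ∈ Icc 0 (A + B), u ≤ v → dist (c u) (c v) = v - u := by
      intro u hu v hv huv
      rw [hc]
      simp only
      rcases le_or_gt v A with h1 | h1
      · rw [if_pos (huv.trans h1), if_pos h1, g2 u ⟨hu.1, huv.trans h1⟩ v ⟨hv.1, h1⟩,
          abs_sub_comm, abs_of_nonneg (by linarith)]
      · rw [if_neg (not_le.2 h1)]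
        rcases le_or_gt u A with h2 | h2
        · rw [if_pos h2, key u ⟨hu.1, h2⟩ (v - A) ⟨by linarith, by linarith [hv.2]⟩]
          ring
        · rw [if_neg (not_le.2 h2), s2 (u - A) ⟨by linarith, by linarith [hu.2]⟩ (v - A)
            ⟨by linarith, by linarith [hv.2]⟩, abs_sub_comm, abs_of_nonneg (by linarith)]
          ring
    intro u hu v hv
    rw [one_mul]
    rcases le_total u v with h1 | h1
    · rw [main u hu v hv h1, abs_sub_comm, abs_of_nonneg (by linarith)]
    · rw [dist_comm, main v hv u hu h1, abs_of_nonneg (by linarith)]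
  have hcA : c A = z := by rw [hc]; simp [g1]
  have hcB : c (A + B) = w := by
    rcases hB0.eq_or_lt with h0 | h0
    · rw [← h0, add_zero, hcA]
      exact dist_eq_zero.1 (by rw [← hB, ← h0])
    · rw [hc]
      simp only
      rw [if_neg (by linarith), add_sub_cancel_left, s1]
  have h1 := toponogov_ray hm hK p hray (t := A) ⟨hA0.le, by linarith⟩
  rw [hcA, hcB] at h1
  have hAB : 0 < A + B := by linarith
  have h2 := mul_le_mul_of_nonneg_left h1 hAB.le
  have e1 : (A + B) * ((A + B - A) / (A + B) * dist p y ^ 2 + A / (A + B) * dist p w ^ 2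
      - 1 ^ 2 * (A * (A + B - A))) = B * dist p y ^ 2 + A * dist p w ^ 2 - A * B * (A + B) := by
    field_simp
    ring
  rw [e1, h] at h2
  exact h2

end Crest.Agent.R249.Top330
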