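import Crest.Agent.R202.EllFinal

/-!
R249, D3-TRANS (helper920; F3 of post 1503, L-TR of post 1495): the very weak Weyl lemma on an open
subset of `ℝⁿ`, in the form in which transition maps of two limit charts are weakly harmonic.

* `div_eq_zero` : `∫ ∑ i, ∂ᵢφ Aᵢⱼ = 0` for all tests (the coordinates are harmonic) gives
  `∑ i, ∂ᵢ Aᵢⱼ = 0` pointwise.
* `divA_eq_of_div` : then `div (A ∇φ) = ∑ Aᵢⱼ ∂ᵢ∂ⱼφ`.
* `weyl_ae`, `weyl` : `∫ v ∑ Aᵢⱼ ∂ᵢ∂ⱼφ = ∫ f φ` for all tests gives a smooth representative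
  (locally integrable `v`), resp. `v` itself smooth (continuous `v`), and `div (A ∇v) = f`.
* `weyl_J` : the version with `A = J h`, `f = 0`; `weyl_map` : vector valued `v`.
-/

set_option autoImplicit false

open scoped BigOperators ContDiff Topology
open MeasureTheory Set Filter Crest.GeometryTopology.CoordMetric
open Crest.Agent.R202.Ell

namespace Crest.Agent.R249.Trans920

noncomputable section

variable {n : ℕ}

local notation "𝔼" => EuclideanSpace ℝ (Fin n)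

/-- The weak form of `∑ i, ∂ᵢ Aᵢⱼ = 0` implies the pointwise one. -/
theorem div_eq_zero {Ω : Set 𝔼} (hΩ : IsOpen Ω) {A : 𝔼 → Matrix (Fin n) (Fin n) ℝ}
    (hA : ∀ i j, ContDiffOn ℝ ∞ (fun x => A x i j) Ω) (j : Fin n)
    (hdiv : ∀ φ : 𝔼 → ℝ, ContDiff ℝ ∞ φ → HasCompactSupport φ → tsupport φ ⊆ Ω →
      ∫ x, ∑ i, pderiv i φ x * A x i j = 0) :
    ∀ x ∈ Ω, ∑ i, pderiv i (fun y => A y i j) x = 0 := by
  have hcd : ContDiffOn ℝ ∞ (fun x => ∑ i, pderiv i (fun y => A y i j) x) Ω :=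
    ContDiffOn.sum fun i _ => contDiffOn_pd hΩ (hA i j) i
  have key : ∀ᵐ x, x ∈ Ω → (∑ i, pderiv i (fun y => A y i j) x) = 0 := by
    refine IsOpen.ae_eq_zero_of_integral_contDiff_smul_eq_zero hΩ
      (hcd.continuousOn.locallyIntegrableOn hΩ.measurableSet) ?_
    intro φ hφ hφc hφs
    have h1 : ∀ i, ∫ x, A x i j * pderiv i φ x = -∫ x, pderiv i (fun y => A y i j) x * φ x :=
      fun i => ibpU hΩ (hA i j) hφ hφc hφs i
    have i1 : ∀ i, Integrable fun x => pderiv i φ x * A x i j := fun i =>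
      (contDiff_mul_of_tsupport hΩ (contDiff_pderiv hφ i)
        ((tsupport_pderiv_subset φ i).trans hφs)
        (hA i j)).continuous.integrable_of_hasCompactSupport
          (hasCompactSupport_pderiv hφc i).mul_right
    have i2 : ∀ i, Integrable fun x => φ x * pderiv i (fun y => A y i j) x := fun i =>
      (contDiff_mul_of_tsupport hΩ hφ hφs
        (contDiffOn_pd hΩ (hA i j) i)).continuous.integrable_of_hasCompactSupport hφc.mul_right
    have h2 := hdiv φ hφ hφc hφs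
    rw [integral_finsetSum _ fun i _ => i1 i] at h2
    have h3 : ∫ x, φ x • ∑ i, pderiv i (fun y => A y i j) x
        = ∑ i, ∫ x, φ x * pderiv i (fun y => A y i j) x := by
      rw [← integral_finsetSum _ fun i _ => i2 i]
      refine integral_congr_ae (Eventually.of_forall fun x => ?_)
      simp only [smul_eq_mul, Finset.mul_sum]
    rw [h3]
    have h4 : ∀ i, ∫ x, φ x * pderiv i (fun y => A y i j) x = -∫ x, pderiv i φ x * A x i j := by
      intro i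
      have e1 : ∫ x, φ x * pderiv i (fun y => A y i j) x
          = ∫ x, pderiv i (fun y => A y i j) x * φ x :=
        integral_congr_ae (Eventually.of_forall fun x => mul_comm _ _)
      have e2 : ∫ x, pderiv i φ x * A x i j = ∫ x, A x i j * pderiv i φ x :=
        integral_congr_ae (Eventually.of_forall fun x => mul_comm _ _)
      rw [e1, e2, h1 i, neg_neg]
    simp only [h4, Finset.sum_neg_distrib, h2, neg_zero]
  have hcont : EqOn (fun x => ∑ i, pderiv i (fun y => A y i j) x) (fun _ => 0) Ω := by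
    refine Measure.eqOn_open_of_ae_eq (μ := volume) ?_ hΩ hcd.continuousOn continuousOn_const
    rw [EventuallyEq, ae_restrict_iff' hΩ.measurableSet]
    exact key
  exact fun x hx => hcont hx

theorem pd_sum {m : ℕ} {f : Fin m → 𝔼 → ℝ} {x : 𝔼} (h : ∀ j, DifferentiableAt ℝ (f j) x)
    (i : Fin n) : pderiv i (fun y => ∑ j, f j y) x = ∑ j, pderiv i (f j) x := by
  unfold pderiv
  rw [fderiv_fun_sum fun j _ => h j, _root_.sum_apply]

theorem pd_mul {f g : 𝔼 → ℝ} {x : 𝔼} (hf : DifferentiableAt ℝ f x) (hg : DifferentiableAt ℝ g x)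
    (i : Fin n) : pderiv i (fun y => f y * g y) x = f x * pderiv i g x + g x * pderiv i f x := by
  unfold pderiv
  rw [fderiv_fun_mul hf hg]
  simp

/-- If the columns of `A` are divergence free, `div (A ∇φ) = ∑ Aᵢⱼ ∂ᵢ∂ⱼφ`. -/
theorem divA_eq_of_div {Ω : Set 𝔼} (hΩ : IsOpen Ω) {A : 𝔼 → Matrix (Fin n) (Fin n) ℝ}
    (hA : ∀ i j, ContDiffOn ℝ ∞ (fun x => A x i j) Ω)
    (hdiv : ∀ j, ∀ x ∈ Ω, ∑ i, pderiv i (fun y => A y i j) x = 0)
    {φ : 𝔼 → ℝ} (hφ : ContDiffOn ℝ ∞ φ Ω) {x : 𝔼} (hx : x ∈ Ω) :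
    divA A φ x = ∑ i, ∑ j, A x i j * pderiv i (pderiv j φ) x := by
  unfold divA
  have h1 : ∀ i, pderiv i (fun y => ∑ j, A y i j * pderiv j φ y) x
      = ∑ j, (A x i j * pderiv i (pderiv j φ) x + pderiv j φ x * pderiv i (fun y => A y i j) x) := by
    intro i
    have d1 : ∀ j, DifferentiableAt ℝ (fun y => A y i j) x := fun j =>
      ((hA i j).contDiffAt (hΩ.mem_nhds hx)).differentiableAt (by simp)
    have d2 : ∀ j, DifferentiableAt ℝ (pderiv j φ) x := fun j =>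
      ((contDiffOn_pd hΩ hφ j).contDiffAt (hΩ.mem_nhds hx)).differentiableAt (by simp)
    exact (pd_sum (f := fun j y => A y i j * pderiv j φ y) (fun j => (d1 j).mul (d2 j)) i).trans
      (Finset.sum_congr rfl fun j _ => pd_mul (d1 j) (d2 j) i)
  simp only [h1, Finset.sum_add_distrib]
  have h2 : ∑ i, ∑ j, pderiv j φ x * pderiv i (fun y => A y i j) x = 0 := by
    rw [Finset.sum_comm]
    refine Finset.sum_eq_zero fun j _ => ?_
    rw [← Finset.mul_sum, hdiv j x hx, mul_zero]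
  rw [h2, add_zero]

/-- **Very weak Weyl lemma**, locally integrable solutions. -/
theorem weyl_ae {Ω : Set 𝔼} (hΩ : IsOpen Ω) {A : 𝔼 → Matrix (Fin n) (Fin n) ℝ}
    (hA : ∀ i j, ContDiffOn ℝ ∞ (fun x => A x i j) Ω) (hpos : ∀ x ∈ Ω, (A x).PosDef)
    (hdiv : ∀ j, ∀ x ∈ Ω, ∑ i, pderiv i (fun y => A y i j) x = 0)
    {f : 𝔼 → ℝ} (hf : ContDiffOn ℝ ∞ f Ω) {v : 𝔼 → ℝ} (hv : LocallyIntegrableOn v Ω)
    (hw : ∀ φ : 𝔼 → ℝ, ContDiff ℝ ∞ φ → HasCompactSupport φ → tsupport φ ⊆ Ω →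
      ∫ x, v x * (∑ i, ∑ j, A x i j * pderiv i (pderiv j φ) x) = ∫ x, f x * φ x) :
    ∃ w : 𝔼 → ℝ, ContDiffOn ℝ ∞ w Ω ∧ (∀ᵐ x, x ∈ Ω → w x = v x) ∧
      ∀ x ∈ Ω, divA A w x = f x := by
  refine ell_regularity n Ω hΩ A hA hpos f hf v hv fun φ hφ hφc hφs => ?_
  rw [← hw φ hφ hφc hφs]
  refine integral_congr_ae (Eventually.of_forall fun x => ?_)
  simp only
  by_cases hx : x ∈ Ω
  · rw [divA_eq_of_div hΩ hA hdiv hφ.contDiffOn hx]
  · have hx' : x ∉ tsupport φ := fun h => hx (hφs h)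
    have h1 : divA A φ x = 0 :=
      image_eq_zero_of_notMem_tsupport fun h => hx' (tsupport_divA_subset A φ h)
    have h2 : ∀ i j, pderiv i (pderiv j φ) x = 0 := fun i j =>
      pderiv_eq_zero_of_notMem (fun h => hx' (tsupport_pderiv_subset φ j h)) i
    rw [h1]
    simp [h2]

/-- **Very weak Weyl lemma**, continuous solutions. -/
theorem weyl {Ω : Set 𝔼} (hΩ : IsOpen Ω) {A : 𝔼 → Matrix (Fin n) (Fin n) ℝ}
    (hA : ∀ i j, ContDiffOn ℝ ∞ (fun x => A x i j) Ω) (hpos : ∀ x ∈ Ω, (A x).PosDef)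
    (hdiv : ∀ j, ∀ x ∈ Ω, ∑ i, pderiv i (fun y => A y i j) x = 0)
    {f : 𝔼 → ℝ} (hf : ContDiffOn ℝ ∞ f Ω) {v : 𝔼 → ℝ} (hv : ContinuousOn v Ω)
    (hw : ∀ φ : 𝔼 → ℝ, ContDiff ℝ ∞ φ → HasCompactSupport φ → tsupport φ ⊆ Ω →
      ∫ x, v x * (∑ i, ∑ j, A x i j * pderiv i (pderiv j φ) x) = ∫ x, f x * φ x) :
    ContDiffOn ℝ ∞ v Ω ∧ (∀ x ∈ Ω, divA A v x = f x) ∧
      ∀ x ∈ Ω, ∑ i, ∑ j, A x i j * pderiv i (pderiv j v) x = f x := by
  obtain ⟨w, hw1, hw2, hw3⟩ := weyl_ae hΩ hA hpos hdiv hf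
    (hv.locallyIntegrableOn hΩ.measurableSet) hw
  have he : EqOn w v Ω := by
    refine Measure.eqOn_open_of_ae_eq (μ := volume) ?_ hΩ hw1.continuousOn hv
    rw [EventuallyEq, ae_restrict_iff' hΩ.measurableSet]
    exact hw2
  have hvs : ContDiffOn ℝ ∞ v Ω := hw1.congr fun x hx => (he hx).symm
  have hd : ∀ x ∈ Ω, divA A v x = f x := fun x hx => by
    rw [← hw3 x hx]
    exact divA_congr_of_open hΩ (fun _ _ _ _ => rfl) (fun y hy => (he hy).symm) hx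
  exact ⟨hvs, hd, fun x hx => by rw [← divA_eq_of_div hΩ hA hdiv hvs hx, hd x hx]⟩

/-- Version with `A = J h` (`h` = inverse metric, `J` = density), all conditions in weak form:
the coordinates are weakly harmonic, `v` is continuous and very weakly harmonic. -/
theorem weyl_J {Ω : Set 𝔼} (hΩ : IsOpen Ω) {h : 𝔼 → Matrix (Fin n) (Fin n) ℝ} {J : 𝔼 → ℝ}
    (hh : ∀ i j, ContDiffOn ℝ ∞ (fun x => h x i j) Ω) (hpos : ∀ x ∈ Ω, (h x).PosDef)
    (hJ : ContDiffOn ℝ ∞ J Ω) (hJpos : ∀ x ∈ Ω, 0 < J x)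
    (hdiv : ∀ j, ∀ φ : 𝔼 → ℝ, ContDiff ℝ ∞ φ → HasCompactSupport φ → tsupport φ ⊆ Ω →
      ∫ x, (∑ i, pderiv i φ x * h x i j) * J x = 0)
    {v : 𝔼 → ℝ} (hv : ContinuousOn v Ω)
    (hw : ∀ φ : 𝔼 → ℝ, ContDiff ℝ ∞ φ → HasCompactSupport φ → tsupport φ ⊆ Ω →
      ∫ x, v x * (∑ i, ∑ j, h x i j * pderiv i (pderiv j φ) x) * J x = 0) :
    ContDiffOn ℝ ∞ v Ω ∧ (∀ x ∈ Ω, divA (fun y => J y • h y) v x = 0) ∧
      ∀ x ∈ Ω, ∑ i, ∑ j, h x i j * pderiv i (pderiv j v) x = 0 := by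
  have hA : ∀ i j, ContDiffOn ℝ ∞ (fun x => (J x • h x) i j) Ω := fun i j => by
    simp only [Matrix.smul_apply, smul_eq_mul]
    exact hJ.mul (hh i j)
  have hp : ∀ x ∈ Ω, (J x • h x).PosDef := fun x hx => (hpos x hx).smul (hJpos x hx)
  have hd : ∀ j, ∀ x ∈ Ω, ∑ i, pderiv i (fun y => (J y • h y) i j) x = 0 := by
    intro j
    refine div_eq_zero hΩ (A := fun y => J y • h y) hA j fun φ hφ hφc hφs => ?_
    rw [← hdiv j φ hφ hφc hφs]
    refine integral_congr_ae (Eventually.of_forall fun x => ?_)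
    simp only [Matrix.smul_apply, smul_eq_mul, Finset.sum_mul]
    exact Finset.sum_congr rfl fun i _ => by ring
  obtain ⟨h1, h2, h3⟩ := weyl hΩ (A := fun y => J y • h y) hA hp hd
    (f := fun _ => (0 : ℝ)) contDiffOn_const hv (fun φ hφ hφc hφs => by
      have h0 := hw φ hφ hφc hφs
      simp only [zero_mul, integral_zero]
      rw [← h0]
      refine integral_congr_ae (Eventually.of_forall fun x => ?_)
      simp only [Matrix.smul_apply, smul_eq_mul, Finset.mul_sum, Finset.sum_mul]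
      exact Finset.sum_congr rfl fun i _ => Finset.sum_congr rfl fun j _ => by ring)
  refine ⟨h1, h2, fun x hx => ?_⟩
  have h4 := h3 x hx
  simp only [Matrix.smul_apply, smul_eq_mul, mul_assoc, ← Finset.mul_sum] at h4
  exact (mul_eq_zero.1 h4).resolve_left (hJpos x hx).ne'

/-- Vector valued version: a continuous map whose components are very weakly harmonic is smooth. -/
theorem weyl_map {m : ℕ} {Ω : Set 𝔼} (hΩ : IsOpen Ω) {h : 𝔼 → Matrix (Fin n) (Fin n) ℝ}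
    {J : 𝔼 → ℝ} (hh : ∀ i j, ContDiffOn ℝ ∞ (fun x => h x i j) Ω)
    (hpos : ∀ x ∈ Ω, (h x).PosDef) (hJ : ContDiffOn ℝ ∞ J Ω) (hJpos : ∀ x ∈ Ω, 0 < J x)
    (hdiv : ∀ j, ∀ φ : 𝔼 → ℝ, ContDiff ℝ ∞ φ → HasCompactSupport φ → tsupport φ ⊆ Ω →
      ∫ x, (∑ i, pderiv i φ x * h x i j) * J x = 0)
    {v : 𝔼 → EuclideanSpace ℝ (Fin m)} (hv : ContinuousOn v Ω)
    (hw : ∀ a, ∀ φ : 𝔼 → ℝ, ContDiff ℝ ∞ φ → HasCompactSupport φ → tsupport φ ⊆ Ω →
      ∫ x, v x a * (∑ i, ∑ j, h x i j * pderiv i (pderiv j φ) x) * J x = 0) :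
    ContDiffOn ℝ ∞ v Ω := by
  rw [contDiffOn_euclidean]
  intro a
  refine (weyl_J hΩ hh hpos hJ hJpos hdiv (v := fun x => v x a) ?_ (hw a)).1
  exact (EuclideanSpace.proj (𝕜 := ℝ) a).continuous.comp_continuousOn hv

end

end Crest.Agent.R249.Trans920
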