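/-
Row 249 (helper716): entire functions `cosF`, `sinF` with `cosF (x^2) = cos x`, `x * sinF (x^2) = sin x`
and the smooth function `atF` on `(-1, ∞)` with `x * atF (x^2) = arctan x`.
-/
import Mathlib

set_option autoImplicit false

open scoped ContDiff Topology
open Filter Set FormalMultilinearSeries

noncomputable section

namespace Crest.Agent.R249.Trig716

theorem contDiffAt_ofScalarsSum {c : ℕ → ℝ} {s : ℝ}
    (h : ‖s‖ₑ < (ofScalars ℝ c).radius) :
    ContDiffAt ℝ ∞ (ofScalarsSum (E := ℝ) c) s := by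
  have h0 : 0 < (ofScalars ℝ c).radius := lt_of_le_of_lt bot_le h
  have h1 := (ofScalars ℝ c).hasFPowerSeriesOnBall h0
  have h2 : AnalyticAt ℝ (ofScalars ℝ c).sum s := h1.analyticAt_of_mem (by
    simpa [Metric.mem_eball, edist_zero_right] using h)
  exact h2.contDiffAt

/-- coefficients -/
def cc (n : ℕ) : ℝ := (-1) ^ n / ((2 * n).factorial : ℝ)
def cs (n : ℕ) : ℝ := (-1) ^ n / ((2 * n + 1).factorial : ℝ)
def ca (n : ℕ) : ℝ := (-1) ^ n / (2 * n + 1 : ℝ)

def cosF : ℝ → ℝ := ofScalarsSum (E := ℝ) cc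
def sinF : ℝ → ℝ := ofScalarsSum (E := ℝ) cs

theorem cosF_eq (s : ℝ) : cosF s = ∑' n, cc n * s ^ n := by
  unfold cosF
  rw [ofScalars_sum_eq]
  rfl

theorem sinF_eq (s : ℝ) : sinF s = ∑' n, cs n * s ^ n := by
  unfold sinF
  rw [ofScalars_sum_eq]
  rfl

theorem cosF_sq (x : ℝ) : cosF (x ^ 2) = Real.cos x := by
  rw [cosF_eq, Real.cos_eq_tsum]
  congr 1
  ext n
  unfold cc
  rw [← pow_mul]
  ring

theorem sinF_sq (x : ℝ) : x * sinF (x ^ 2) = Real.sin x := by
  rw [sinF_eq, Real.sin_eq_tsum, ← tsum_mul_left]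
  congr 1
  ext n
  unfold cs
  rw [← pow_mul]
  ring

theorem radius_cc : (ofScalars ℝ cc).radius = ⊤ := by
  apply ofScalars_radius_eq_top_of_tendsto
  · filter_upwards with n
    unfold cc
    positivity
  · have e : (fun n : ℕ => ‖cc n.succ‖ / ‖cc n‖) = fun n : ℕ => 1 / ((2 * n + 1 : ℝ) * (2 * n + 2)) := by
      ext n
      unfold cc
      rw [norm_div, norm_div, norm_pow, norm_pow]
      simp only [norm_neg, norm_one, one_pow, RCLike.norm_natCast]
      rw [show 2 * n.succ = (2 * n + 1) + 1 by simp; ring, Nat.factorial_succ, Nat.factorial_succ]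
      have : ((2 * n).factorial : ℝ) ≠ 0 := by positivity
      push_cast
      field_simp
      ring
    rw [e]
    have h1 : Tendsto (fun n : ℕ => (2 * n + 1 : ℝ) * (2 * n + 2)) atTop atTop := by
      apply tendsto_atTop_mono (fun n => ?_) (tendsto_natCast_atTop_atTop (R := ℝ))
      have : (0 : ℝ) ≤ n := by positivity
      nlinarith
    simp only [one_div]
    exact h1.inv_tendsto_atTop

theorem radius_cs : (ofScalars ℝ cs).radius = ⊤ := by
  apply ofScalars_radius_eq_top_of_tendsto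
  · filter_upwards with n
    unfold cs
    positivity
  · have e : (fun n : ℕ => ‖cs n.succ‖ / ‖cs n‖) = fun n : ℕ => 1 / ((2 * n + 2 : ℝ) * (2 * n + 3)) := by
      ext n
      unfold cs
      rw [norm_div, norm_div, norm_pow, norm_pow]
      simp only [norm_neg, norm_one, one_pow, RCLike.norm_natCast]
      rw [show 2 * n.succ + 1 = (2 * n + 1) + 1 + 1 by simp; ring, Nat.factorial_succ,
        Nat.factorial_succ]
      have : ((2 * n + 1).factorial : ℝ) ≠ 0 := by positivity
      push_cast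
      field_simp
      ring
    rw [e]
    have h1 : Tendsto (fun n : ℕ => (2 * n + 2 : ℝ) * (2 * n + 3)) atTop atTop := by
      apply tendsto_atTop_mono (fun n => ?_) (tendsto_natCast_atTop_atTop (R := ℝ))
      have : (0 : ℝ) ≤ n := by positivity
      nlinarith
    simp only [one_div]
    exact h1.inv_tendsto_atTop

theorem contDiff_cosF : ContDiff ℝ ∞ cosF :=
  contDiff_iff_contDiffAt.2 fun s => contDiffAt_ofScalarsSum (by rw [radius_cc]; exact enorm_lt_top)

theorem contDiff_sinF : ContDiff ℝ ∞ sinF :=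
  contDiff_iff_contDiffAt.2 fun s => contDiffAt_ofScalarsSum (by rw [radius_cs]; exact enorm_lt_top)

theorem radius_ca : (ofScalars ℝ ca).radius = 1 := by
  have h : Tendsto (fun n : ℕ => ‖ca n.succ‖ / ‖ca n‖) atTop (𝓝 ((1 : NNReal) : ℝ)) := by
    have e : (fun n : ℕ => ‖ca n.succ‖ / ‖ca n‖) = fun n : ℕ => 1 - 2 / (2 * n + 3 : ℝ) := by
      ext n
      unfold ca
      rw [norm_div, norm_div, norm_pow, norm_pow]
      have h1 : (0 : ℝ) < 2 * (n.succ : ℝ) + 1 := by positivity
      have h2 : (0 : ℝ) < 2 * (n : ℝ) + 1 := by positivity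
      simp only [norm_neg, norm_one, one_pow, Real.norm_eq_abs, abs_of_pos h1, abs_of_pos h2]
      have h3 : (0 : ℝ) < 2 * (n : ℝ) + 3 := by positivity
      push_cast
      push_cast at h1
      field_simp
      ring
    rw [e]
    have h1 : Tendsto (fun n : ℕ => (2 * n + 3 : ℝ)) atTop atTop := by
      apply tendsto_atTop_mono (fun n => ?_) (tendsto_natCast_atTop_atTop (R := ℝ))
      have : (0 : ℝ) ≤ n := by positivity
      nlinarith
    have h2 : Tendsto (fun n : ℕ => 2 / (2 * n + 3 : ℝ)) atTop (𝓝 0) := by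
      simpa [div_eq_mul_inv] using h1.inv_tendsto_atTop.const_mul 2
    simpa using h2.const_sub 1
  have := ofScalars_radius_eq_inv_of_tendsto (E := ℝ) (r := 1) ca one_ne_zero h
  simpa using this

theorem deriv_cosF {x : ℝ} (hx : x ≠ 0) : 2 * deriv cosF (x ^ 2) = -sinF (x ^ 2) := by
  have h1 : HasDerivAt cosF (deriv cosF (x ^ 2)) (x ^ 2) :=
    (contDiff_cosF.differentiable (by simp)).differentiableAt.hasDerivAt
  have h2 : HasDerivAt (fun x : ℝ => cosF (x ^ 2)) (deriv cosF (x ^ 2) * (2 * x)) x := by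
    have := HasDerivAt.comp (h := fun x : ℝ => x ^ 2) x h1 (hasDerivAt_pow 2 x)
    simpa [Function.comp_def] using this
  have h3 : (fun x : ℝ => cosF (x ^ 2)) = Real.cos := funext cosF_sq
  rw [h3] at h2
  have h4 := h2.unique (Real.hasDerivAt_cos x)
  rw [← sinF_sq x] at h4
  apply mul_right_cancel₀ hx
  linarith

theorem deriv_sinF (x : ℝ) : sinF (x ^ 2) + 2 * x ^ 2 * deriv sinF (x ^ 2) = cosF (x ^ 2) := by
  have h1 : HasDerivAt sinF (deriv sinF (x ^ 2)) (x ^ 2) :=
    (contDiff_sinF.differentiable (by simp)).differentiableAt.hasDerivAt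
  have h2 : HasDerivAt (fun x : ℝ => sinF (x ^ 2)) (deriv sinF (x ^ 2) * (2 * x)) x := by
    have := HasDerivAt.comp (h := fun x : ℝ => x ^ 2) x h1 (hasDerivAt_pow 2 x)
    simpa [Function.comp_def] using this
  have h5 : HasDerivAt (fun x : ℝ => x * sinF (x ^ 2))
      (1 * sinF (x ^ 2) + x * (deriv sinF (x ^ 2) * (2 * x))) x := (hasDerivAt_id' x).mul h2
  have h3 : (fun x : ℝ => x * sinF (x ^ 2)) = Real.sin := funext sinF_sq
  rw [h3] at h5
  rw [cosF_sq, ← h5.unique (Real.hasDerivAt_sin x)]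
  ring

/-- `atF (x^2) = arctan x / x` -/
def atF (s : ℝ) : ℝ := if s ≤ 1 / 4 then ofScalarsSum (E := ℝ) ca s
  else Real.arctan (Real.sqrt s) / Real.sqrt s

theorem ofScalarsSum_ca {x : ℝ} (hx : |x| < 1) :
    x * ofScalarsSum (E := ℝ) ca (x ^ 2) = Real.arctan x := by
  rw [ofScalars_sum_eq, ← (Real.hasSum_arctan (by simpa using hx)).tsum_eq, ← tsum_mul_left]
  congr 1
  ext n
  unfold ca
  simp only [smul_eq_mul]
  rw [← pow_mul]
  push_cast
  ring

theorem atF_sq (x : ℝ) : x * atF (x ^ 2) = Real.arctan x := by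
  unfold atF
  split_ifs with h
  · apply ofScalarsSum_ca
    have h1 : |x| ^ 2 ≤ 1 / 4 := by simpa using h
    nlinarith [abs_nonneg x]
  · push Not at h
    rw [Real.sqrt_sq_eq_abs]
    have hx : x ≠ 0 := by
      rintro rfl
      norm_num at h
    rcases le_total 0 x with h0 | h0
    · rw [abs_of_nonneg h0]
      field_simp
    · rw [abs_of_nonpos h0, Real.arctan_neg]
      field_simp

theorem contDiffAt_atF {s : ℝ} (hs : -1 < s) : ContDiffAt ℝ ∞ atF s := by
  rcases lt_or_ge s (1 / 4) with h | h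
  · have h1 : ContDiffAt ℝ ∞ (ofScalarsSum (E := ℝ) ca) s := by
      apply contDiffAt_ofScalarsSum
      rw [radius_ca]
      have : |s| < 1 := by rw [abs_lt]; constructor <;> linarith
      rw [enorm_eq_nnnorm]
      exact_mod_cast this
    refine h1.congr_of_eventuallyEq ?_
    filter_upwards [Iio_mem_nhds h] with t ht
    unfold atF
    rw [if_pos (le_of_lt ht)]
  · have hs0 : 0 < s := by linarith
    have h1 : ContDiffAt ℝ ∞ (fun s => Real.arctan (Real.sqrt s) / Real.sqrt s) s := by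
      have h2 : ContDiffAt ℝ ∞ Real.sqrt s := Real.contDiffAt_sqrt hs0.ne'
      exact (Real.contDiff_arctan.contDiffAt.comp s h2).div h2 (Real.sqrt_pos.2 hs0).ne'
    refine h1.congr_of_eventuallyEq ?_
    filter_upwards [Ioo_mem_nhds (show (1 / 5 : ℝ) < s by linarith) (show s < s + 1 by linarith)]
      with t ht
    unfold atF
    split_ifs with h3
    · have ht0 : 0 < t := by linarith [ht.1]
      have h4 : Real.sqrt t ^ 2 = t := Real.sq_sqrt ht0.le
      have h5 : |Real.sqrt t| < 1 := by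
        rw [abs_of_nonneg (Real.sqrt_nonneg t)]
        rw [Real.sqrt_lt' one_pos]
        linarith
      have := ofScalarsSum_ca h5
      rw [h4] at this
      rw [← this]
      have : Real.sqrt t ≠ 0 := (Real.sqrt_pos.2 ht0).ne'
      field_simp
    · rfl

end Crest.Agent.R249.Trig716
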