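import Crest.Agent.R249.Tz0_805
import Crest.Agent.R249.DicC_129

/-!
# Row 249, PART C, leaf T0 (helper286): tensor products and sums with the trivial line of `Bun`s, their local frames.

* `Bun.tens D D'`, `LF.tens` ;
* `CLoc.tw` : the twisted symbol ;
* `Bun.opt D` (`ℝ ⊕ D`), `LF.opt` for a frame indexed by `Fin 3`, connection `e0`.
-/

set_option autoImplicit false
set_option maxSynthPendingDepth 3
set_option linter.unusedSectionVars false

open Filter Topology Set Bundle Manifold Matrix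
open scoped ContDiff Kronecker
open Crest.GeometryTopology.CoordMetric Crest.GeometryTopology.ChartCurvature
  Crest.GeometryTopology.PointedLimit
open Crest.Agent.R202.Tens Crest.Agent.R247.Bo84 Crest.Agent.R249.FrmB_285 Crest.Agent.R249.Vf281
  Crest.Agent.R249.Tz1_805 Crest.Agent.R249.Tz2_805
open Crest.Agent.R249.Fr129 Crest.Agent.R249.Sg129 Crest.Agent.R249.C2_198 Crest.Agent.R249.Tz805

noncomputable section

namespace Crest.Agent.R249.Tt286

variable {n : ℕ} {M : Type*} [TopologicalSpace M] [ChartedSpace (EuclideanSpace ℝ (Fin n)) M]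
  [IsManifold 𝓘(ℝ, EuclideanSpace ℝ (Fin n)) ∞ M]
  [RiemannianBundle (fun x : M => TangentSpace 𝓘(ℝ, EuclideanSpace ℝ (Fin n)) x)]
  [IsContMDiffRiemannianBundle 𝓘(ℝ, EuclideanSpace ℝ (Fin n)) ∞ (EuclideanSpace ℝ (Fin n))
      (fun x : M => TangentSpace 𝓘(ℝ, EuclideanSpace ℝ (Fin n)) x)]

local notation "𝔼" => EuclideanSpace ℝ (Fin n)
local notation "𝓘E" => 𝓘(ℝ, EuclideanSpace ℝ (Fin n))

section tens
variable {κ κ' : Type} [Fintype κ] [Fintype κ']

open Classical in
/-- tensor product -/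
def btens (D : Bun n M κ) (D' : Bun n M κ') : Bun n M (κ × κ') where
  W x y z := (if x.2 = y.2 then D.W x.1 y.1 z else 0) + (if x.1 = y.1 then D'.W x.2 y.2 z else 0)
  p x y z := D.p x.1 y.1 z * D'.p x.2 y.2 z
  smW x y z := by
    refine VSm.add ?_ ?_
    · by_cases h : x.2 = y.2
      · simp only [h, if_true]; exact D.smW _ _ z
      · simp only [h, if_false]; exact VSm_zero z
    · by_cases h : x.1 = y.1
      · simp only [h, if_true]; exact D'.smW _ _ z
      · simp only [h, if_false]; exact VSm_zero z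
  skew x y z := by
    rw [neg_add]
    congr 1
    · by_cases h : x.2 = y.2
      · rw [if_pos h, if_pos h.symm]; exact D.skew _ _ z
      · rw [if_neg h, if_neg (fun h' => h h'.symm), neg_zero]
    · by_cases h : x.1 = y.1
      · rw [if_pos h, if_pos h.symm]; exact D'.skew _ _ z
      · rw [if_neg h, if_neg (fun h' => h h'.symm), neg_zero]
  smp x y := (D.smp x.1 y.1).mul (D'.smp x.2 y.2)
  symmp x y z := by rw [D.symmp x.1 y.1 z, D'.symmp x.2 y.2 z]
  idem x y z := by
    rw [Fintype.sum_prod_type, ← D.idem x.1 y.1 z, ← D'.idem x.2 y.2 z, Finset.sum_mul_sum]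
    refine Finset.sum_congr rfl fun c _ => Finset.sum_congr rfl fun c' _ => ?_
    ring
  par x y z := by
    have hf : MDifferentiableAt 𝓘E 𝓘(ℝ, ℝ) (D.p x.1 y.1) z := ((D.smp x.1 y.1).mdifferentiable (by simp)) z
    have hf' : MDifferentiableAt 𝓘E 𝓘(ℝ, ℝ) (D'.p x.2 y.2) z := ((D'.smp x.2 y.2).mdifferentiable (by simp)) z
    have h1 := D.par x.1 y.1 z
    have h2 := D'.par x.2 y.2 z
    have h1' : mgrad n (D.p x.1 y.1) z = -∑ c, (D.p c y.1 z • D.W x.1 c z - D.p x.1 c z • D.W c y.1 z) :=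
      eq_neg_of_add_eq_zero_left h1
    have h2' : mgrad n (D'.p x.2 y.2) z = -∑ c, (D'.p c y.2 z • D'.W x.2 c z - D'.p x.2 c z • D'.W c y.2 z) :=
      eq_neg_of_add_eq_zero_left h2
    rw [mgrad_mul hf hf', h1', h2', Fintype.sum_prod_type]
    have e1 : ∑ c, ∑ c', ((D.p c y.1 z * D'.p c' y.2 z) •
          ((if x.2 = c' then D.W x.1 c z else 0) + (if x.1 = c then D'.W x.2 c' z else 0))
        - (D.p x.1 c z * D'.p x.2 c' z) •
          ((if c' = y.2 then D.W c y.1 z else 0) + (if c = y.1 then D'.W c' y.2 z else 0)))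
        = D'.p x.2 y.2 z • ∑ c, (D.p c y.1 z • D.W x.1 c z - D.p x.1 c z • D.W c y.1 z)
          + D.p x.1 y.1 z • ∑ c, (D'.p c y.2 z • D'.W x.2 c z - D'.p x.2 c z • D'.W c y.2 z) := by
      simp only [smul_add, smul_ite, smul_zero, Finset.sum_sub_distrib, Finset.sum_add_distrib,
        Finset.sum_ite_eq, Finset.sum_ite_eq', Finset.mem_univ, if_true, smul_sub, Finset.smul_sum, smul_smul]
      have k1 : ∑ c, ∑ c', (if x.1 = c then (D.p c y.1 z * D'.p c' y.2 z) • D'.W x.2 c' z else 0)
          = ∑ c', (D.p x.1 y.1 z * D'.p c' y.2 z) • D'.W x.2 c' z := by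
        rw [Finset.sum_comm]
        refine Finset.sum_congr rfl fun c' _ => ?_
        rw [Finset.sum_ite_eq, if_pos (Finset.mem_univ _)]
      have k2 : ∑ c, ∑ c', (if c = y.1 then (D.p x.1 c z * D'.p x.2 c' z) • D'.W c' y.2 z else 0)
          = ∑ c', (D.p x.1 y.1 z * D'.p x.2 c' z) • D'.W c' y.2 z := by
        rw [Finset.sum_comm]
        refine Finset.sum_congr rfl fun c' _ => ?_
        rw [Finset.sum_ite_eq', if_pos (Finset.mem_univ _)]
      rw [k1, k2]
      have k3 : ∀ c, D.p c y.1 z * D'.p x.2 y.2 z = D'.p x.2 y.2 z * D.p c y.1 z := fun c => mul_comm _ _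
      have k4 : ∀ c, D.p x.1 c z * D'.p x.2 y.2 z = D'.p x.2 y.2 z * D.p x.1 c z := fun c => mul_comm _ _
      simp only [k3, k4]
      abel
    exact (congrArg₂ (· + ·) rfl e1).trans (by
      rw [smul_neg, smul_neg]
      abel)

end tens

section local_
variable {κ κ' : Type} [Fintype κ] [Fintype κ']
variable {z : M} {e : Fin n → EuclideanSpace ℝ (Fin n) → EuclideanSpace ℝ (Fin n)}
  {h : ONF (chartMetric n M z) (chartAt (EuclideanSpace ℝ (Fin n)) z).target (chartCentre n M z) e}

/-- germs of the projection of the tensor product -/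
lemma fg_tens (z : M) (D : Bun n M κ) (D' : Bun n M κ') :
    (Matrix.of fun x y => Tz805.fg (n := n) z ((btens D D').p x y))
      = (Matrix.of fun x y => Tz805.fg (n := n) z (D.p x y)) ⊗ₖ
        (Matrix.of fun x y => Tz805.fg (n := n) z (D'.p x y)) := by
  ext ⟨x, x'⟩ ⟨y, y'⟩
  simp only [Matrix.of_apply, Matrix.kroneckerMap_apply]
  exact Tz805.fg_mul (D.smp x y) (D'.smp x' y')

lemma vg_ite (h : ONF (chartMetric n M z) (chartAt (EuclideanSpace ℝ (Fin n)) z).target (chartCentre n M z) e)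
    (c : Prop) [Decidable c] (X : (p : M) → TangentSpace 𝓘(ℝ, EuclideanSpace ℝ (Fin n)) p) (hX : ∀ q, VSm n ∞ X q)
    (k : Fin n) :
    Tz805.vg z e (fun q => if c then X q else 0) k = if c then Tz805.vg z e X k else 0 := by
  by_cases hc : c
  · simp only [hc, if_true]
  · simp only [hc, if_false]
    exact Tz805.vg_zero h k

lemma VSm_ite (c : Prop) [Decidable c] (X : (p : M) → TangentSpace 𝓘(ℝ, EuclideanSpace ℝ (Fin n)) p)
    (hX : ∀ q, VSm n ∞ X q) (q : M) : VSm n ∞ (fun q => if c then X q else 0) q := by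
  by_cases hc : c
  · simp only [hc, if_true]; exact hX q
  · simp only [hc, if_false]; exact VSm_zero q

/-- germs of the connection form of the tensor product -/
lemma vg_tens (h : ONF (chartMetric n M z) (chartAt (EuclideanSpace ℝ (Fin n)) z).target (chartCentre n M z) e)
    (D : Bun n M κ) (D' : Bun n M κ') [DecidableEq κ] [DecidableEq κ'] (k : Fin n) :
    (Matrix.of fun x y => Tz805.vg z e ((btens D D').W x y) k)
      = (Matrix.of fun x y => Tz805.vg z e (D.W x y) k) ⊗ₖ (1 : Matrix κ' κ' (SG (chartCentre n M z)))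
        + (1 : Matrix κ κ (SG (chartCentre n M z))) ⊗ₖ (Matrix.of fun x y => Tz805.vg z e (D'.W x y) k) := by
  ext ⟨x, x'⟩ ⟨y, y'⟩
  simp only [Matrix.of_apply, Matrix.kroneckerMap_apply, Matrix.add_apply, Matrix.one_apply]
  have h4 : Tz805.vg z e ((btens D D').W (x, x') (y, y')) k
      = Tz805.vg z e (fun q : M => (if x' = y' then D.W x y q else 0) + (if x = y then D'.W x' y' q else 0)) k := by
    congr 1
    funext q
    show (@ite _ (x' = y') (Classical.propDecidable _) _ _) + (@ite _ (x = y) (Classical.propDecidable _) _ _) = _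
    congr
  rw [h4, Tz805.vg_add h (VSm_ite _ _ fun q => D.smW x y q) (VSm_ite _ _ fun q => D'.smW x' y' q),
    vg_ite h _ _ (fun q => D.smW x y q), vg_ite h _ _ (fun q => D'.smW x' y' q)]
  simp only [mul_ite, mul_one, mul_zero, ite_mul, one_mul, zero_mul]

variable {ι ι' : Type} [Fintype ι] [DecidableEq ι] [Fintype ι'] [DecidableEq ι']

omit [Fintype κ] [Fintype κ'] [Fintype ι] [DecidableEq ι] [Fintype ι'] [DecidableEq ι'] in
lemma dM_kron {S : Type*} [CommRing S] [Algebra ℝ S] (δ : Derivation ℝ S S) (A : Matrix κ ι S) (B : Matrix κ' ι' S) :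
    Sg129.dM δ (A ⊗ₖ B) = Sg129.dM δ A ⊗ₖ B + A ⊗ₖ Sg129.dM δ B := by
  ext ⟨x, x'⟩ ⟨y, y'⟩
  simp only [Sg129.dM, Matrix.kroneckerMap_apply, Matrix.add_apply, Derivation.leibniz, smul_eq_mul]
  ring

/-- local frame of the tensor product -/
theorem lf_tens {D : Bun n M κ} {D' : Bun n M κ'} {a : Fin n → Matrix ι ι (SG (chartCentre n M z))}
    {a' : Fin n → Matrix ι' ι' (SG (chartCentre n M z))} {j : Matrix κ ι (SG (chartCentre n M z))}
    {j' : Matrix κ' ι' (SG (chartCentre n M z))} (L : LF D h a j) (L' : LF D' h a' j') :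
    LF (btens D D') h (Frame.tens a a') (j ⊗ₖ j') := by
  classical
  refine ⟨?_, ?_, fun k => ?_⟩
  · rw [← Matrix.kroneckerMap_transpose, ← Matrix.mul_kronecker_mul, L.jtj, L'.jtj, Matrix.one_kronecker_one]
  · rw [← Matrix.kroneckerMap_transpose, ← Matrix.mul_kronecker_mul, L.jjt, L'.jjt, fg_tens]
  · have h1 := L.dj k
    have h2 := L'.dj k
    rw [dM_kron, vg_tens h, Matrix.add_mul, ← Matrix.mul_kronecker_mul, ← Matrix.mul_kronecker_mul, Matrix.one_mul,
      Matrix.one_mul, tens_eq, Matrix.mul_add, ← Matrix.mul_kronecker_mul, ← Matrix.mul_kronecker_mul, Matrix.mul_one,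
      Matrix.mul_one, ← h1, ← h2, Matrix.add_kronecker, Matrix.kronecker_add]
    abel

section tw
variable {κ0 κ1 κ2 : Type} [Fintype κ0] [Fintype κ1] [Fintype κ2]
variable {ι0 ι1 ι2 : Type} [Fintype ι0] [DecidableEq ι0] [Fintype ι1] [DecidableEq ι1] [Fintype ι2] [DecidableEq ι2]

lemma clif_tw1 {S : Type*} [CommRing S] [Algebra ℝ S] {c : Fin n → Matrix ι1 ι0 S}
    (hcl : ∀ i j, c i * (c j)ᵀ + c j * (c i)ᵀ = if i = j then 2 else 0) (i j : Fin n) :
    tw (ι := ι2) c i * (tw (ι := ι2) c j)ᵀ + tw (ι := ι2) c j * (tw (ι := ι2) c i)ᵀ = if i = j then 2 else 0 := by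
  have h1 : ∀ i, (tw (ι := ι2) c i)ᵀ = tw (ι := ι2) (fun i => (c i)ᵀ) i := fun i =>
    congrFun (tw_transpose (ι := ι2) c) i
  rw [h1, h1]
  have := clif_tw (ι := ι2) (c := fun i => (c i)ᵀ) (fun i j => by simpa using hcl i j) i j
  have h2 : ∀ i, (tw (ι := ι2) (fun i => (c i)ᵀ) i)ᵀ = tw (ι := ι2) c i := fun i => by
    rw [← h1, Matrix.transpose_transpose]
  rw [h2, h2] at this
  exact this

/-- the twisted symbol -/
def ccT' (cc : κ1 → κ0 → (p : M) → TangentSpace 𝓘(ℝ, EuclideanSpace ℝ (Fin n)) p) (q : κ2 → κ2 → M → ℝ)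
    (x : κ1 × κ2) (y : κ0 × κ2) (z : M) : TangentSpace 𝓘(ℝ, EuclideanSpace ℝ (Fin n)) z :=
  q x.2 y.2 z • cc x.1 y.1 z

theorem cloc_tw {D0 : Bun n M κ0} {D1 : Bun n M κ1} {D2 : Bun n M κ2}
    {cc : κ1 → κ0 → (p : M) → TangentSpace 𝓘(ℝ, EuclideanSpace ℝ (Fin n)) p}
    (smc : ∀ x y z, VSm n ∞ (cc x y) z)
    {a0 : Fin n → Matrix ι0 ι0 (SG (chartCentre n M z))}
    {a1 : Fin n → Matrix ι1 ι1 (SG (chartCentre n M z))}
    {a2 : Fin n → Matrix ι2 ι2 (SG (chartCentre n M z))}
    {c : Fin n → Matrix ι1 ι0 (SG (chartCentre n M z))}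
    {j0 : Matrix κ0 ι0 (SG (chartCentre n M z))} {j1 : Matrix κ1 ι1 (SG (chartCentre n M z))}
    {j2 : Matrix κ2 ι2 (SG (chartCentre n M z))}
    (C : CLoc D0 D1 cc h a0 a1 c j0 j1) (L : LF D2 h a2 j2) :
    CLoc (btens D0 D2) (btens D1 D2) (ccT' cc D2.p) h (Frame.tens a0 a2) (Frame.tens a1 a2) (tw c)
      (j0 ⊗ₖ j2) (j1 ⊗ₖ j2) where
  l0 := lf_tens C.l0 L
  l1 := lf_tens C.l1 L
  par := C.par.tw a2
  cl0 := clif_tw C.cl0
  cl1 := clif_tw1 C.cl1
  sym := by
    rintro ⟨x, x'⟩ ⟨y, y'⟩ k
    have h1 : Tz805.vg z e (ccT' cc D2.p (x, x') (y, y')) k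
        = Tz805.fg (n := n) z (D2.p x' y') * Tz805.vg z e (cc x y) k :=
      Tz805.vg_smul h (D2.smp x' y') (fun q => smc x y q) k
    have h2 : Tz805.fg (n := n) z (D2.p x' y') = (j2 * j2ᵀ) x' y' := by rw [L.jjt, Matrix.of_apply]
    rw [h1, h2, C.sym x y k, tw, ← Matrix.kroneckerMap_transpose, ← Matrix.mul_kronecker_mul,
      ← Matrix.mul_kronecker_mul, Matrix.mul_one, Matrix.kroneckerMap_apply, mul_comm]

end tw

end local_


section opt
variable {κ : Type} [Fintype κ]

/-- the trivial line plus `D` -/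
def bopt (D : Bun n M κ) : Bun n M (Option κ) where
  W x y z := match x, y with
    | some a, some b => D.W a b z
    | _, _ => 0
  p x y z := match x, y with
    | none, none => 1
    | some a, some b => D.p a b z
    | _, _ => 0
  smW x y z := by
    rcases x with _ | a <;> rcases y with _ | b
    · exact VSm_zero z
    · exact VSm_zero z
    · exact VSm_zero z
    · exact D.smW a b z
  skew x y z := by
    rcases x with _ | a <;> rcases y with _ | b
    · exact neg_zero.symm
    · exact neg_zero.symm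
    · exact neg_zero.symm
    · exact D.skew a b z
  smp x y := by
    rcases x with _ | a <;> rcases y with _ | b
    · exact contMDiff_const
    · exact contMDiff_const
    · exact contMDiff_const
    · exact D.smp a b
  symmp x y z := by
    rcases x with _ | a <;> rcases y with _ | b
    · rfl
    · rfl
    · rfl
    · exact D.symmp a b z
  idem x y z := by
    rw [Fintype.sum_option]
    rcases x with _ | a <;> rcases y with _ | b
    · simp
    · simp
    · simp
    · simp only [mul_zero, zero_add]; exact D.idem a b z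
  par x y z := by
    rw [Fintype.sum_option]
    rcases x with _ | a <;> rcases y with _ | b
    · simp only [smul_zero, sub_zero, Finset.sum_const_zero, add_zero]
      exact mgrad_const (1:ℝ)
    · simp only [smul_zero, sub_zero, zero_smul, Finset.sum_const_zero, add_zero]
      exact mgrad_const (0:ℝ)
    · simp only [smul_zero, sub_zero, zero_smul, Finset.sum_const_zero, add_zero]
      exact mgrad_const (0:ℝ)
    · simp only [smul_zero, sub_zero, zero_add]
      exact D.par a b z

@[simp] lemma bopt_p_nn (D : Bun n M κ) (z : M) : (bopt D).p none none z = 1 := rfl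
@[simp] lemma bopt_p_ns (D : Bun n M κ) (b : κ) (z : M) : (bopt D).p none (some b) z = 0 := rfl
@[simp] lemma bopt_p_sn (D : Bun n M κ) (a : κ) (z : M) : (bopt D).p (some a) none z = 0 := rfl
@[simp] lemma bopt_p_ss (D : Bun n M κ) (a b : κ) (z : M) : (bopt D).p (some a) (some b) z = D.p a b z := rfl
@[simp] lemma bopt_W_n (D : Bun n M κ) (y : Option κ) (z : M) : (bopt D).W none y z = 0 := by
  cases y <;> rfl
@[simp] lemma bopt_W_n' (D : Bun n M κ) (y : Option κ) (z : M) : (bopt D).W y none z = 0 := by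
  cases y <;> rfl
@[simp] lemma bopt_W_ss (D : Bun n M κ) (a b : κ) (z : M) : (bopt D).W (some a) (some b) z = D.W a b z := rfl

end opt

section opt4
variable {M4 : Type*} [TopologicalSpace M4] [ChartedSpace (EuclideanSpace ℝ (Fin 4)) M4]
  [IsManifold 𝓘(ℝ, EuclideanSpace ℝ (Fin 4)) ∞ M4]
  [RiemannianBundle (fun x : M4 => TangentSpace 𝓘(ℝ, EuclideanSpace ℝ (Fin 4)) x)]
  [IsContMDiffRiemannianBundle 𝓘(ℝ, EuclideanSpace ℝ (Fin 4)) ∞ (EuclideanSpace ℝ (Fin 4))
      (fun x : M4 => TangentSpace 𝓘(ℝ, EuclideanSpace ℝ (Fin 4)) x)]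
  {κ : Type} [Fintype κ] {z : M4} {e : Fin 4 → EuclideanSpace ℝ (Fin 4) → EuclideanSpace ℝ (Fin 4)}
  {h : ONF (chartMetric 4 M4 z) (chartAt (EuclideanSpace ℝ (Fin 4)) z).target (chartCentre 4 M4 z) e}

/-- the frame of `ℝ ⊕ D` -/
def jopt {S : Type*} [CommRing S] (j : Matrix κ (Fin 3) S) : Matrix (Option κ) (Fin 4) S := fun x i =>
  match x with
  | none => if i = 0 then 1 else 0
  | some x => Fin.cases 0 (fun i => j x i) i

omit [Fintype κ] in
@[simp] lemma jopt_none {S : Type*} [CommRing S] (j : Matrix κ (Fin 3) S) (i : Fin 4) :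
    jopt j none i = if i = 0 then 1 else 0 := rfl
omit [Fintype κ] in
@[simp] lemma jopt_zero {S : Type*} [CommRing S] (j : Matrix κ (Fin 3) S) (x : κ) : jopt j (some x) 0 = 0 := rfl
omit [Fintype κ] in
@[simp] lemma jopt_succ {S : Type*} [CommRing S] (j : Matrix κ (Fin 3) S) (x : κ) (i : Fin 3) :
    jopt j (some x) i.succ = j x i := rfl

lemma e0_zero {S : Type*} [CommRing S] [Algebra ℝ S] (F : Frame 4 S) (k : Fin 4) (i : Fin 4) : e0 F k 0 i = 0 := by
  fin_cases i <;> simp [e0]
lemma e0_zero' {S : Type*} [CommRing S] [Algebra ℝ S] (F : Frame 4 S) (k : Fin 4) (i : Fin 4) : e0 F k i 0 = 0 := by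
  fin_cases i <;> simp [e0]
lemma e0_succ {S : Type*} [CommRing S] [Algebra ℝ S] (F : Frame 4 S) (k : Fin 4) (a b : Fin 3) :
    e0 F k a.succ b.succ = asc F k a b := by
  fin_cases a <;> fin_cases b <;> simp [e0, asc, cr]

theorem lf_opt {D : Bun 4 M4 κ} {j : Matrix κ (Fin 3) (SG (chartCentre 4 M4 z))}
    (L : LF D h (asc h.frameOf) j) : LF (bopt D) h (e0 h.frameOf) (jopt j) := by
  refine ⟨?_, ?_, fun k => ?_⟩
  · ext i l
    rw [Matrix.mul_apply, Fintype.sum_option]
    simp only [Matrix.transpose_apply, jopt_none]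
    refine Fin.cases ?_ (fun i => ?_) i <;> refine Fin.cases ?_ (fun l => ?_) l
    · simp
    · simp [(Fin.succ_ne_zero l).symm, Matrix.one_apply]
    · simp [(Fin.succ_ne_zero i), Matrix.one_apply]
    · have := congrFun (congrFun L.jtj i) l
      rw [Matrix.mul_apply] at this
      simp only [Matrix.transpose_apply] at this
      simp only [jopt_succ, this, Fin.succ_ne_zero, if_false, mul_zero, zero_add, Matrix.one_apply, Fin.succ_inj]
  · ext x y
    rw [Matrix.mul_apply, Fin.sum_univ_succ, Matrix.of_apply]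
    simp only [Matrix.transpose_apply]
    rcases x with _ | x <;> rcases y with _ | y
    · simp only [jopt_none, if_true, mul_one, Fin.succ_ne_zero, if_false, mul_zero, Finset.sum_const_zero, add_zero]
      exact (Tz805.fg_one z).symm
    · simp only [jopt_none, jopt_zero, Fin.succ_ne_zero, if_false, zero_mul, mul_zero, Finset.sum_const_zero, add_zero]
      exact (Tz805.fg_zero z).symm
    · simp only [jopt_none, jopt_zero, Fin.succ_ne_zero, if_false, zero_mul, mul_zero, Finset.sum_const_zero, add_zero]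
      exact (Tz805.fg_zero z).symm
    · have := congrFun (congrFun L.jjt x) y
      rw [Matrix.mul_apply] at this
      simp only [Matrix.transpose_apply, Matrix.of_apply] at this
      simp only [jopt_zero, jopt_succ, mul_zero, zero_add, this]
      rfl
  · ext x l
    rw [Matrix.add_apply, Matrix.mul_apply, Matrix.mul_apply, Fintype.sum_option, Fin.sum_univ_succ]
    simp only [Matrix.of_apply]
    have w0 : ∀ y, Tz805.vg z e ((bopt D).W none y) k = 0 := fun y => by
      have : (bopt D).W none y = fun q => 0 := funext fun q => bopt_W_n D y q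
      rw [this]; exact Tz805.vg_zero h k
    have w0' : ∀ y, Tz805.vg z e ((bopt D).W y none) k = 0 := fun y => by
      have : (bopt D).W y none = fun q => 0 := funext fun q => bopt_W_n' D y q
      rw [this]; exact Tz805.vg_zero h k
    have D0 : h.frameOf.D k 0 = 0 := (h.frameOf.D k).map_zero
    have D1 : h.frameOf.D k 1 = 0 := (h.frameOf.D k).map_one_eq_zero
    rcases x with _ | x
    · have e1 : Sg129.dM (h.frameOf.D k) (jopt j) none l = h.frameOf.D k (if l = 0 then 1 else 0) := rfl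
      have e2 : h.frameOf.D k (if l = 0 then 1 else 0) = 0 := by
        by_cases hl : l = 0
        · rw [if_pos hl]; exact D1
        · rw [if_neg hl]; exact D0
      simp only [w0, zero_mul, Finset.sum_const_zero, add_zero, jopt_none, if_true, e0_zero, mul_zero,
        Fin.succ_ne_zero, if_false, e1, e2]
    · have hd := congrFun (congrFun (L.dj k) x)
      simp only [w0', zero_mul, zero_add, jopt_zero]
      refine Fin.cases ?_ (fun l => ?_) l
      · have e1 : Sg129.dM (h.frameOf.D k) (jopt j) (some x) 0 = h.frameOf.D k 0 := rfl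
        simp only [e1, D0, jopt_zero, mul_zero, Finset.sum_const_zero, e0_zero', add_zero]
      · have := hd l
        rw [Matrix.add_apply, Matrix.mul_apply, Matrix.mul_apply] at this
        simp only [Matrix.of_apply, Sg129.dM] at this
        simp only [Sg129.dM, jopt_succ, e0_succ]
        exact this

/-- the twisted symbol of `Tz0` -/
lemma ccT_eq {κ0 κ1 κ2 : Type}
    (cc : κ1 → κ0 → (p : M4) → TangentSpace 𝓘(ℝ, EuclideanSpace ℝ (Fin 4)) p) (q : κ2 → κ2 → M4 → ℝ) :
    ccT cc q = ccT' cc q := rfl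

end opt4

end Crest.Agent.R249.Tt286
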