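import Crest.Agent.R249.Tv9_57

/-!
# R249 (C-TV), part 10: **McKean–Singer**, exact form. (helper57)

`OpPair D0 D1` : first order operators `A : Γ(E0) → Γ(E1)`, `B` back, adjoint on smooth sections, with
`∫ ed0 u v = ⟨A u, A v⟩`, `∫ ed1 w w' = ⟨B w, B w'⟩`.
* `OpPair.trace_eq` : `∑ e^{-tμ} - ∑ e^{-tν} = #{μ = 0} - #{ν = 0}`;
* `OpPair.A_eq_zero`, `OpPair.B_eq_zero`, `OpPair.eq_sum_ker` (`ker A` = span of the `φ_k`, `μ_k = 0`),
  `OpPair.card_le` (independent elements of `ker A`).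
-/

set_option autoImplicit false
set_option linter.unusedSectionVars false
set_option maxSynthPendingDepth 3
open scoped ContDiff ENNReal NNReal Topology Manifold Bundle RealInnerProductSpace
open MeasureTheory Set Filter Metric Bundle

noncomputable section
namespace Crest.Agent.R249.Tv57

open Crest.Agent.R247.Dir593 Crest.Agent.R247.Ms322 Crest.Agent.R247.Frd657

/-! ### the abstract double sum -/

/-- double sum argument -/
theorem tsum_pair {a : ℕ → ℕ → ℝ} {μ ν g : ℕ → ℝ} {h : ℕ → ℝ} (ha : ∀ k l, 0 ≤ a k l)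
    (hμ : ∀ k, HasSum (fun l => a k l) (μ k)) (hν : ∀ l, HasSum (fun k => a k l) (ν l))
    (hg : ∀ k, 0 ≤ g k) (hgh : ∀ k l, a k l * g k = a k l * h l)
    (hs : Summable fun k => μ k * g k) : ∑' k, μ k * g k = ∑' l, ν l * h l := by
  have h1 : ∀ k, HasSum (fun l => a k l * g k) (μ k * g k) := fun k => (hμ k).mul_right (g k)
  have h2 : ∀ l, HasSum (fun k => a k l * g k) (ν l * h l) := fun l => by
    have := (hν l).mul_right (h l)
    exact this.congr_fun (fun k => hgh k l) |> fun h => h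
  have h3 : Summable (fun p : ℕ × ℕ => a p.1 p.2 * g p.1) := by
    rw [summable_prod_of_nonneg (fun p => mul_nonneg (ha _ _) (hg _))]
    refine ⟨fun k => (h1 k).summable, ?_⟩
    have : (fun k => ∑' l, a k l * g k) = fun k => μ k * g k := by
      funext k
      exact (h1 k).tsum_eq
    rw [this]
    exact hs
  calc ∑' k, μ k * g k = ∑' k, ∑' l, a k l * g k := by
        refine tsum_congr fun k => ?_
        exact (h1 k).tsum_eq.symm
    _ = ∑' l, ∑' k, a k l * g k := by
        rw [← h3.tsum_comm]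
    _ = ∑' l, ν l * h l := by
        refine tsum_congr fun l => ?_
        exact (h2 l).tsum_eq

variable {n : ℕ} {M : Type*} [MetricSpace M] [ChartedSpace (EuclideanSpace ℝ (Fin n)) M]
  [IsManifold (𝓡 n) ∞ M]
  [RiemannianBundle (fun p : M => TangentSpace (𝓡 n) p)]
  [IsContMDiffRiemannianBundle (𝓡 n) ∞ (EuclideanSpace ℝ (Fin n)) (fun p : M => TangentSpace (𝓡 n) p)]
  [IsRiemannianManifold (𝓡 n) M] [MeasurableSpace M] [BorelSpace M]
  [SecondCountableTopology M] [Nonempty M]

local notation "𝔼" => EuclideanSpace ℝ (Fin n)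

variable (n) in
/-- the `L²` product -/
def ip {κ : Type} [Fintype κ] (u v : κ → M → ℝ) : ℝ :=
  ∫ z, ∑ a, u a z * v a z ∂(μHE[n] : Measure M)

/-- an adjoint pair of first order operators whose squares are `D0* D0 + Q0`, `D1* D1 + Q1` -/
structure OpPair {κ κ' : Type} [Fintype κ] [Fintype κ'] (D0 : Dat n M κ) (D1 : Dat n M κ') where
  A : (κ → M → ℝ) → κ' → M → ℝ
  B : (κ' → M → ℝ) → κ → M → ℝ
  smA : ∀ u, SmV (n := n) u → D0.Sec u → SmV (n := n) (A u)
  smB : ∀ w, SmV (n := n) w → D1.Sec w → SmV (n := n) (B w)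
  secA : ∀ u, SmV (n := n) u → D0.Sec u → D1.Sec (A u)
  secB : ∀ w, SmV (n := n) w → D1.Sec w → D0.Sec (B w)
  adj : ∀ u w, SmV (n := n) u → D0.Sec u → SmV (n := n) w → D1.Sec w → ip n (A u) w = ip n u (B w)
  enA : ∀ u v, SmV (n := n) u → D0.Sec u → SmV (n := n) v → D0.Sec v →
    ∫ z, D0.ed u v z ∂(μHE[n] : Measure M) = ip n (A u) (A v)
  enB : ∀ w v, SmV (n := n) w → D1.Sec w → SmV (n := n) v → D1.Sec v →
    ∫ z, D1.ed w v z ∂(μHE[n] : Measure M) = ip n (B w) (B v)

section basic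
variable {κ κ' : Type} [Fintype κ] [Fintype κ'] {D0 : Dat n M κ} {D1 : Dat n M κ'}

/-- exchanging the roles -/
def OpPair.swap (P : OpPair D0 D1) : OpPair D1 D0 where
  A := P.B
  B := P.A
  smA := P.smB
  smB := P.smA
  secA := P.secB
  secB := P.secA
  adj := fun w u hw hsw hu hsu => by
    have h := P.adj u w hu hsu hw hsw
    have e1 : ip n (P.B w) u = ip n u (P.B w) := by
      unfold ip
      simp only [mul_comm]
    have e2 : ip n w (P.A u) = ip n (P.A u) w := by
      unfold ip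
      simp only [mul_comm]
    rw [e1, e2, h]
  enA := P.enB
  enB := P.enA

theorem ip_comm {κ : Type} [Fintype κ] (u v : κ → M → ℝ) : ip n u v = ip n v u := by
  unfold ip
  simp only [mul_comm]

theorem ed_comm (D : Dat n M κ) (u v : κ → M → ℝ) (z : M) : D.ed u v z = D.ed v u z := by
  rw [Dat.ed, Dat.ed]
  congr 1
  · exact Finset.sum_congr rfl fun a _ => real_inner_comm _ _
  · rw [Finset.sum_comm]
    refine Finset.sum_congr rfl fun b _ => Finset.sum_congr rfl fun a _ => ?_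
    rw [D.symmQ a b]
    ring

/-- the eigenvalue zero -/
def Spec.ker {D : Dat n M κ} (S : Spec D) : Finset ℕ :=
  (show {k | S.μ k = 0}.Finite from by
    have h1 : ∀ᶠ k in atTop, (1:ℝ) ≤ S.μ k := S.lim.eventually_ge_atTop 1
    obtain ⟨N, hN⟩ := eventually_atTop.1 h1
    refine (Set.finite_lt_nat N).subset fun k hk => ?_
    by_contra h
    have h2 := hN k (not_lt.1 h)
    rw [show S.μ k = 0 from hk] at h2
    linarith).toFinset

theorem Spec.mem_ker {D : Dat n M κ} (S : Spec D) {k : ℕ} : k ∈ S.ker ↔ S.μ k = 0 := by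
  simp [Spec.ker]

theorem Spec.smV {D : Dat n M κ} (S : Spec D) (k : ℕ) : SmV (n := n) (S.φ k) := S.smooth k

end basic

variable [CompactSpace M] [IsFiniteMeasureOnCompacts (μHE[n] : Measure M)]
variable {κ κ' : Type} [Fintype κ] [Fintype κ'] {D0 : Dat n M κ} {D1 : Dat n M κ'}

theorem memLp_smooth {f : M → ℝ} (hf : ContMDiff (𝓡 n) 𝓘(ℝ, ℝ) ∞ f) :
    MemLp f 2 (μHE[n] : Measure M) := (isT_smooth hf).memLp

theorem integrable_ip {u v : κ → M → ℝ} (hu : SmV (n := n) u) (hv : SmV (n := n) v) :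
    Integrable (fun z => ∑ a, u a z * v a z) (μHE[n] : Measure M) :=
  integrable_finsetSum _ fun a _ => (memLp_smooth (hu a)).integrable_mul (memLp_smooth (hv a))

/-- a smooth section of norm zero vanishes -/
theorem eq_zero_of_ip {u : κ → M → ℝ} (hu : SmV (n := n) u) (h : ip n u u = 0) (a : κ) (z : M) :
    u a z = 0 := by
  have := isOpenPosMeasure n M
  have hc : Continuous fun z => ∑ a, u a z * u a z :=
    continuous_finsetSum _ fun a _ => (hu a).continuous.mul (hu a).continuous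
  have h0 : 0 ≤ fun z => ∑ a, u a z * u a z := fun z =>
    Finset.sum_nonneg fun a _ => mul_self_nonneg _
  have h1 := (integral_eq_zero_iff_of_nonneg h0 (integrable_ip hu hu)).1 h
  have h2 : (fun z => ∑ a, u a z * u a z) = fun _ => (0:ℝ) :=
    (hc.ae_eq_iff_eq (μHE[n] : Measure M) continuous_const).1 h1
  have h3 := congrFun h2 z
  have h4 := (Finset.sum_eq_zero_iff_of_nonneg fun a _ => mul_self_nonneg _).1 h3 a
    (Finset.mem_univ a)
  exact mul_self_eq_zero.1 h4

/-- Parseval for smooth sections -/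
theorem Spec.pars_sm {D : Dat n M κ} (S : Spec D) {u : κ → M → ℝ} (hu : SmV (n := n) u)
    (hs : D.Sec u) : HasSum (fun k => ip n u (S.φ k) ^ 2) (ip n u u) := by
  have h := S.pars u (fun a => memLp_smooth (hu a)) (Eventually.of_forall fun z a => hs a z)
  have e : ip n u u = ∫ z, ∑ a, u a z ^ 2 ∂(μHE[n] : Measure M) := by
    unfold ip
    simp only [sq]
  rw [e]
  exact h

namespace OpPair

variable (P : OpPair D0 D1) (S0 : Spec D0) (S1 : Spec D1)

/-- the matrix entries of `A` -/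
def cf (k l : ℕ) : ℝ := ip n (P.A (S0.φ k)) (S1.φ l)

theorem cf_eq (k l : ℕ) : P.cf S0 S1 k l = ip n (S0.φ k) (P.B (S1.φ l)) :=
  P.adj _ _ (S0.smV k) (S0.sec k) (S1.smV l) (S1.sec l)

/-- `A` preserves eigenspaces -/
theorem cf_mul (k l : ℕ) : (S1.μ l - S0.μ k) * P.cf S0 S1 k l = 0 := by
  have a1 := P.smA _ (S0.smV k) (S0.sec k)
  have a2 := P.secA _ (S0.smV k) (S0.sec k)
  have b1 := P.smB _ (S1.smV l) (S1.sec l)
  have b2 := P.secB _ (S1.smV l) (S1.sec l)
  -- `ν ⟨Aφ, ψ⟩ = ∫ ed1 ψ (Aφ) = ⟨Bψ, BAφ⟩`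
  have h1 : S1.μ l * P.cf S0 S1 k l = ip n (P.B (S1.φ l)) (P.B (P.A (S0.φ k))) := by
    rw [← P.enB _ _ (S1.smV l) (S1.sec l) a1 a2, S1.eig l _ a1, OpPair.cf, ip_comm]
    rfl
  have h2 : S0.μ k * P.cf S0 S1 k l = ip n (P.A (S0.φ k)) (P.A (P.B (S1.φ l))) := by
    rw [← P.enA _ _ (S0.smV k) (S0.sec k) b1 b2, S0.eig k _ b1, cf_eq]
    rfl
  have h3 : ip n (P.A (P.B (S1.φ l))) (P.A (S0.φ k)) = ip n (P.B (S1.φ l)) (P.B (P.A (S0.φ k))) :=
    P.adj _ _ b1 b2 a1 a2
  rw [sub_mul, h1, h2, ip_comm (P.A (S0.φ k)), h3, sub_self]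

/-- norm of `A φ_k` -/
theorem norm_A (k : ℕ) : ip n (P.A (S0.φ k)) (P.A (S0.φ k)) = S0.μ k := by
  rw [← P.enA _ _ (S0.smV k) (S0.sec k) (S0.smV k) (S0.sec k), S0.eig k _ (S0.smV k)]
  have := S0.ortho k k
  rw [this, if_pos rfl, mul_one]

include P in
theorem mu_nonneg (k : ℕ) : 0 ≤ S0.μ k := by
  rw [← P.norm_A S0 k]
  exact integral_nonneg fun z => Finset.sum_nonneg fun a _ => mul_self_nonneg _

theorem hasSum_row (k : ℕ) : HasSum (fun l => P.cf S0 S1 k l ^ 2) (S0.μ k) := by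
  rw [← P.norm_A S0 k]
  exact S1.pars_sm (P.smA _ (S0.smV k) (S0.sec k)) (P.secA _ (S0.smV k) (S0.sec k))

theorem cf_swap (k l : ℕ) : P.swap.cf S1 S0 l k = P.cf S0 S1 k l := by
  rw [P.cf_eq]
  exact ip_comm _ _

theorem hasSum_col (l : ℕ) : HasSum (fun k => P.cf S0 S1 k l ^ 2) (S1.μ l) := by
  have h := P.swap.hasSum_row S1 S0 l
  simp only [P.cf_swap S0 S1] at h
  exact h

include P in
/-- **McKean–Singer** -/
theorem trace_eq {t : ℝ} (h0 : Summable fun k => Real.exp (-(t * S0.μ k)))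
    (h1 : Summable fun l => Real.exp (-(t * S1.μ l))) :
    ∑' k, Real.exp (-(t * S0.μ k)) - ∑' l, Real.exp (-(t * S1.μ l)) =
      (S0.ker.card : ℝ) - S1.ker.card := by
  classical
  -- the weight
  set G : ℝ → ℝ := fun x => if x = 0 then 0 else Real.exp (-(t * x)) / x with hG
  have hGx : ∀ x, x * G x = if x = 0 then 0 else Real.exp (-(t * x)) := by
    intro x
    by_cases hx : x = 0
    · simp [hG, hx]
    · simp only [hG, if_neg hx]
      field_simp
  have hG0 : ∀ x, 0 ≤ x → 0 ≤ G x := by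
    intro x hx
    simp only [hG]
    split_ifs
    · exact le_rfl
    · positivity
  -- splitting the sums
  have hsplit : ∀ {κ : Type} [Fintype κ] {D : Dat n M κ} (S : Spec D),
      Summable (fun k => Real.exp (-(t * S.μ k))) →
      Summable (fun k => S.μ k * G (S.μ k)) ∧
      ∑' k, Real.exp (-(t * S.μ k)) = S.ker.card + ∑' k, S.μ k * G (S.μ k) := by
    intro κ _ D S hS
    have e1 : ∀ k, Real.exp (-(t * S.μ k)) = (if k ∈ S.ker then (1:ℝ) else 0) + S.μ k * G (S.μ k) := by
      intro k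
      rw [hGx]
      by_cases hk : S.μ k = 0
      · rw [if_pos (S.mem_ker.2 hk), if_pos hk, hk]
        simp
      · rw [if_neg (fun h => hk (S.mem_ker.1 h)), if_neg hk, zero_add]
    have s1 : HasSum (fun k => if k ∈ S.ker then (1:ℝ) else 0) S.ker.card := by
      have e : (S.ker.card : ℝ) = ∑ k ∈ S.ker, if k ∈ S.ker then (1:ℝ) else 0 := by
        rw [Finset.sum_congr rfl fun k hk => if_pos hk]
        simp
      rw [e]
      exact hasSum_sum_of_ne_finset_zero fun k hk => if_neg hk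
    have s2 : Summable (fun k => S.μ k * G (S.μ k)) := by
      have := hS.sub s1.summable
      refine this.congr fun k => ?_
      rw [e1 k]
      ring
    refine ⟨s2, ?_⟩
    rw [← s1.tsum_eq, ← s1.summable.tsum_add s2]
    exact tsum_congr e1
  obtain ⟨s0, e0⟩ := hsplit S0 h0
  obtain ⟨s1, e1⟩ := hsplit S1 h1
  have key := tsum_pair (a := fun k l => P.cf S0 S1 k l ^ 2) (μ := S0.μ) (ν := S1.μ)
    (g := fun k => G (S0.μ k)) (h := fun l => G (S1.μ l)) (fun k l => sq_nonneg _)
    (P.hasSum_row S0 S1) (P.hasSum_col S0 S1) (fun k => hG0 _ (P.mu_nonneg S0 k))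
    (fun k l => by
      by_cases h : P.cf S0 S1 k l = 0
      · simp [h]
      · have := P.cf_mul S0 S1 k l
        rcases mul_eq_zero.1 this with h' | h'
        · rw [sub_eq_zero.1 h']
        · exact absurd h' h) s0
  rw [e0, e1, key]
  ring

theorem A_eq_zero {k : ℕ} (hk : S0.μ k = 0) (b : κ') (z : M) : P.A (S0.φ k) b z = 0 :=
  eq_zero_of_ip (P.smA _ (S0.smV k) (S0.sec k)) (by rw [P.norm_A, hk]) b z

theorem B_eq_zero {l : ℕ} (hl : S1.μ l = 0) (a : κ) (z : M) : P.B (S1.φ l) a z = 0 :=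
  P.swap.A_eq_zero S1 hl a z

/-- **the kernel of `A`** -/
theorem eq_sum_ker {u : κ → M → ℝ} (hu : SmV (n := n) u) (hs : D0.Sec u)
    (hA : ∀ b z, P.A u b z = 0) (a : κ) (z : M) :
    u a z = ∑ k ∈ S0.ker, ip n u (S0.φ k) * S0.φ k a z := by
  classical
  -- coefficients outside the kernel vanish
  have h1 : ∀ k, k ∉ S0.ker → ip n u (S0.φ k) = 0 := by
    intro k hk
    have e1 : S0.μ k * ip n (S0.φ k) u = ip n (P.A (S0.φ k)) (P.A u) := by
      rw [← P.enA _ _ (S0.smV k) (S0.sec k) hu hs, S0.eig k _ hu]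
      rfl
    have e2 : ip n (P.A (S0.φ k)) (P.A u) = 0 := by
      unfold ip
      simp only [hA, mul_zero, Finset.sum_const_zero, integral_zero]
    rw [e2] at e1
    rw [ip_comm]
    rcases mul_eq_zero.1 e1 with h | h
    · exact absurd (S0.mem_ker.2 h) hk
    · exact h
  set c : ℕ → ℝ := fun k => ip n u (S0.φ k) with hc
  set v : κ → M → ℝ := fun a z => u a z - ∑ k ∈ S0.ker, c k * S0.φ k a z with hv
  have hvs : SmV (n := n) v := fun a =>
    (hu a).sub (contMDiff_finsetSum fun k _ => contMDiff_const.mul (S0.smooth k a))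
  have hvS : D0.Sec v := by
    intro a z
    simp only [hv, mul_sub, Finset.sum_sub_distrib, hs a z]
    congr 1
    simp only [Finset.mul_sum]
    rw [Finset.sum_comm]
    refine Finset.sum_congr rfl fun k _ => ?_
    rw [← S0.sec k a z, Finset.mul_sum]
    exact Finset.sum_congr rfl fun b _ => by ring
  have hvk : ∀ l, ip n v (S0.φ l) = 0 := by
    intro l
    have e1 : ip n v (S0.φ l) = ip n u (S0.φ l) - ∑ k ∈ S0.ker, c k * ip n (S0.φ k) (S0.φ l) := by
      unfold ip
      simp only [hv]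
      simp only [← integral_const_mul]
      rw [← integral_finsetSum, ← integral_sub (integrable_ip hu (S0.smV l))]
      · refine integral_congr_ae (Eventually.of_forall fun z => ?_)
        simp only
        simp only [sub_mul, Finset.sum_sub_distrib, Finset.sum_mul, Finset.mul_sum]
        congr 1
        rw [Finset.sum_comm]
        exact Finset.sum_congr rfl fun k _ => Finset.sum_congr rfl fun a _ => by ring
      · exact integrable_finsetSum _ fun k _ => (integrable_ip (S0.smV k) (S0.smV l)).const_mul _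
      · intro k _
        exact (integrable_ip (S0.smV k) (S0.smV l)).const_mul _
    rw [e1]
    have e2 : ∀ k, ip n (S0.φ k) (S0.φ l) = if k = l then 1 else 0 := fun k => S0.ortho k l
    simp only [e2, mul_ite, mul_one, mul_zero]
    rw [Finset.sum_ite_eq']
    by_cases hl : l ∈ S0.ker
    · rw [if_pos hl, sub_self]
    · rw [if_neg hl, h1 l hl, sub_zero]
  have h2 := S0.pars_sm hvs hvS
  simp only [hvk] at h2
  have h3 : ip n v v = 0 := by
    have := h2.tsum_eq
    simpa using this.symm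
  have h4 := eq_zero_of_ip hvs h3 a z
  simp only [hv] at h4
  linarith

end OpPair

end Crest.Agent.R249.Tv57
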