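import Crest.Agent.R249.Tv10_57
import Crest.Agent.R249.HK9f_714

/-!
# R249 (C-TV), part 11: **the index formula** `#ker A - #ker B = ∫ (dn D0 - dn D1)` from HK9, and
counting. (helper57)
-/

set_option autoImplicit false
set_option linter.unusedSectionVars false
set_option maxSynthPendingDepth 3
open scoped ContDiff ENNReal NNReal Topology Manifold Bundle RealInnerProductSpace
open MeasureTheory Set Filter Metric Bundle

noncomputable section
namespace Crest.Agent.R249.Tv57

open Crest.Agent.R247.Dir593 Crest.Agent.R247.Ms322 Crest.Agent.R247.Frd657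

variable {n : ℕ} {M : Type*} [MetricSpace M] [ChartedSpace (EuclideanSpace ℝ (Fin n)) M]
  [IsManifold (𝓡 n) ∞ M]
  [RiemannianBundle (fun p : M => TangentSpace (𝓡 n) p)]
  [IsContMDiffRiemannianBundle (𝓡 n) ∞ (EuclideanSpace ℝ (Fin n)) (fun p : M => TangentSpace (𝓡 n) p)]
  [IsRiemannianManifold (𝓡 n) M] [MeasurableSpace M] [BorelSpace M]
  [SecondCountableTopology M] [Nonempty M]
  [CompactSpace M] [IsFiniteMeasureOnCompacts (μHE[n] : Measure M)]
variable {κ κ' : Type} [Fintype κ] [Fintype κ'] {D0 : Dat n M κ} {D1 : Dat n M κ'}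

namespace OpPair

variable (P : OpPair D0 D1) (S0 : Spec D0)

/-- independent smooth sections in the kernel of `A` -/
theorem card_le {ι : Type*} [Fintype ι] (u : ι → κ → M → ℝ) (hli : LinearIndependent ℝ u)
    (hu : ∀ i, SmV (n := n) (u i)) (hs : ∀ i, D0.Sec (u i)) (hA : ∀ i b z, P.A (u i) b z = 0) :
    Fintype.card ι ≤ S0.ker.card := by
  classical
  set W : Submodule ℝ (κ → M → ℝ) := Submodule.span ℝ ((S0.ker.image S0.φ : Finset _) : Set _)
    with hW
  have hmem : ∀ i, u i ∈ W := by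
    intro i
    have h1 : u i = ∑ k ∈ S0.ker, ip n (u i) (S0.φ k) • S0.φ k := by
      funext a z
      rw [P.eq_sum_ker S0 (hu i) (hs i) (hA i) a z]
      simp only [Finset.sum_apply, Pi.smul_apply, smul_eq_mul]
    rw [h1]
    refine Submodule.sum_mem _ fun k hk => Submodule.smul_mem _ _ (Submodule.subset_span ?_)
    exact Finset.mem_coe.2 (Finset.mem_image_of_mem _ hk)
  have hW' : Module.finrank ℝ W ≤ S0.ker.card :=
    (finrank_span_finset_le_card _).trans Finset.card_image_le
  set u' : ι → W := fun i => ⟨u i, hmem i⟩ with hu'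
  have hli' : LinearIndependent ℝ u' := by
    refine LinearIndependent.of_comp W.subtype ?_
    exact hli
  have : FiniteDimensional ℝ W := FiniteDimensional.span_finset ℝ _
  exact hli'.fintype_card_le_finrank.trans hW'

/-- the `φ_k`, `μ_k = 0` -/
theorem exists_indep : ∃ u : Fin S0.ker.card → κ → M → ℝ, LinearIndependent ℝ u ∧
    (∀ i, SmV (n := n) (u i)) ∧ (∀ i, D0.Sec (u i)) ∧ (∀ i b z, P.A (u i) b z = 0) ∧
    ∀ i j, ip n (u i) (u j) = if i = j then 1 else 0 := by
  classical
  set e := S0.ker.orderIsoOfFin rfl with he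
  set u : Fin S0.ker.card → κ → M → ℝ := fun i => S0.φ (e i) with hu
  have hsm : ∀ i, SmV (n := n) (u i) := fun i => S0.smV _
  have horth : ∀ i j, ip n (u i) (u j) = if i = j then 1 else 0 := by
    intro i j
    have h1 : ip n (u i) (u j) = if (e i : ℕ) = e j then 1 else 0 := S0.ortho _ _
    rw [h1]
    by_cases h : i = j
    · rw [if_pos h, h, if_pos rfl]
    · rw [if_neg h, if_neg fun h' => h (e.injective (Subtype.ext h'))]
  refine ⟨u, ?_, hsm, fun i => S0.sec _, fun i b z => P.A_eq_zero S0 (S0.mem_ker.1 (e i).2) b z,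
    horth⟩
  rw [Fintype.linearIndependent_iff]
  intro g hg i
  have h1 : ip n (fun a z => ∑ j, g j * u j a z) (u i) = ∑ j, g j * ip n (u j) (u i) := by
    unfold ip
    simp only [← integral_const_mul]
    rw [← integral_finsetSum]
    · refine integral_congr_ae (Eventually.of_forall fun z => ?_)
      simp only [Finset.sum_mul, Finset.mul_sum]
      rw [Finset.sum_comm]
      exact Finset.sum_congr rfl fun k _ => Finset.sum_congr rfl fun a _ => by ring
    · intro k _
      exact (integrable_ip (hsm k) (hsm i)).const_mul _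
  have h2 : (fun a z => ∑ j, g j * u j a z) = 0 := by
    rw [← hg]
    funext a z
    simp only [Finset.sum_apply, Pi.smul_apply, smul_eq_mul]
  rw [h2] at h1
  simp only [horth, mul_ite, mul_one, mul_zero, Finset.sum_ite_eq', Finset.mem_univ, if_true] at h1
  rw [← h1]
  unfold ip
  simp

end OpPair

section four
variable {N : Type*} [MetricSpace N] [ChartedSpace (EuclideanSpace ℝ (Fin 4)) N]
  [IsManifold (𝓡 4) ∞ N]
  [RiemannianBundle (fun p : N => TangentSpace (𝓡 4) p)]
  [IsContMDiffRiemannianBundle (𝓡 4) ∞ (EuclideanSpace ℝ (Fin 4)) (fun p : N => TangentSpace (𝓡 4) p)]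
  [IsRiemannianManifold (𝓡 4) N] [MeasurableSpace N] [BorelSpace N]
  [SecondCountableTopology N] [Nonempty N] [CompactSpace N]
variable {D0 : Dat 4 N κ} {D1 : Dat 4 N κ'}

open Crest.Agent.R249.HK9_714

/-- **the index formula** -/
theorem index_formula (HK8 : ChartStmt) (P : OpPair D0 D1) (S0 : Spec D0) (S1 : Spec D1)
    (hr : ∀ z, ∑ a, D0.p a a z = ∑ a, D1.p a a z)
    (hq : ∀ z, ∑ a, ∑ b, D0.Q a b z * D0.p a b z = ∑ a, ∑ b, D1.Q a b z * D1.p a b z) :
    Integrable (fun z => dn D0 z - dn D1 z) (μHE[4] : Measure N) ∧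
    ((S0.ker.card : ℝ) - S1.ker.card) = ∫ z, (dn D0 z - dn D1 z) ∂(μHE[4] : Measure N) := by
  have := isLocallyFiniteMeasure 4 N
  obtain ⟨h1, h2, h3, h4⟩ := heat_trace_of HK8 D0 D1 S0 S1 hr hq
  refine ⟨h3, ?_⟩
  have h5 : Tendsto (fun _ : ℝ => ((S0.ker.card : ℝ) - S1.ker.card)) (𝓝[>] 0)
      (𝓝 (∫ z, (dn D0 z - dn D1 z) ∂(μHE[4] : Measure N))) := by
    refine h4.congr' ?_
    filter_upwards [self_mem_nhdsWithin] with t ht
    exact P.trace_eq S0 S1 (h1 t ht) (h2 t ht)
  exact tendsto_nhds_unique tendsto_const_nhds h5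

end four

end Crest.Agent.R249.Tv57
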