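import Crest.Agent.R247.Loc3_710
import Crest.Agent.R249.SobD_982

/-!
# R249 (C-TV), part 1: Rellich's theorem for the form domain `V` of a gradient structure on a
compact space carrying a radial contraction structure.

* `pair_sq`    : `(P u - P v)² ≤ d(u,v)² ∫₀¹ |∇P|²` along almost every segment, `P` locally Lipschitz;
* `dbl_V`      : the double integral over a ball;
* `poinc_V`    : Neumann–Poincaré inequality on balls for locally Lipschitz functions;
* `exists_net` : maximal separated nets, `overlap_le` : bounded overlap;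
* `friedrichs` : for every `ε` a finite rank operator `T` of `L²` with
  `‖u - T u‖ ≤ ε ‖S.D u‖` for all `u ∈ S.V`.
(helper57)
-/

set_option autoImplicit false
set_option linter.unusedSectionVars false
open MeasureTheory Set Filter Topology
open scoped ENNReal NNReal RealInnerProductSpace

noncomputable section
namespace Crest.Agent.R249.Tv57

open Crest.Agent.R247.Mcp688 Crest.Agent.R247.Dir593 Crest.Agent.R247.Loc710
  Crest.Agent.R247.Hes124 Crest.Agent.R249.SobD_982 Crest.Agent.R247.Pyt710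

section pair

variable {n : ℕ} {κ : ℝ} {X : Type*} [MetricSpace X] [MeasurableSpace X] [BorelSpace X]
  {μ : Measure X} [IsFiniteMeasureOnCompacts μ] [SFinite μ]

/-- squared pair inequality -/
lemma pair_sq [ProperSpace X] (S : GradS X (F n) μ) (C : Rad n κ X μ) (hR : RDG S C)
    {P : X → ℝ} (hP : LocallyLipschitz P) (u : X) :
    ∀ᵐ v ∂μ, ENNReal.ofReal ((P u - P v) ^ 2) ≤ ENNReal.ofReal (dist u v ^ 2) *
      ∫⁻ t in Icc (0 : ℝ) 1, ENNReal.ofReal (‖(S.meas hP).mk _ (C.T u t v)‖ ^ 2) := by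
  set g : X → F n := (S.meas hP).mk _ with hg
  have hgm : StronglyMeasurable g := (S.meas hP).stronglyMeasurable_mk
  have hcong : (fun x => ENNReal.ofReal ‖S.G P x‖) =ᵐ[μ] fun x => ENNReal.ofReal ‖g x‖ := by
    filter_upwards [(S.meas hP).ae_eq_mk] with x hx
    rw [hx]
  filter_upwards [pair_le S C hR (unitA_of_rdg hR) hP u, seg_congr C hcong u] with v h1 h2
  rw [h2] at h1
  have hm : Measurable fun t : ℝ => ENNReal.ofReal ‖g (C.T u t v)‖ := by
    have : Measurable fun t : ℝ => C.T u t v :=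
      C.measT.comp (measurable_const.prodMk (measurable_id.prodMk measurable_const))
    exact ENNReal.measurable_ofReal.comp ((hgm.measurable.comp this).norm)
  have h3 := sq_lintegral_le (volume.restrict (Icc (0:ℝ) 1)) hm.aemeasurable
  rw [Measure.restrict_apply_univ, Real.volume_Icc, sub_zero, ENNReal.ofReal_one, one_mul] at h3
  have e1 : ENNReal.ofReal ((P u - P v) ^ 2) = ENNReal.ofReal |P u - P v| ^ 2 := by
    rw [← sq_abs, ENNReal.ofReal_pow (abs_nonneg _)]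
  have e2 : ENNReal.ofReal (dist u v ^ 2) = ENNReal.ofReal (dist u v) ^ 2 :=
    ENNReal.ofReal_pow dist_nonneg 2
  have e3 : ∀ t : ℝ, ENNReal.ofReal (‖g (C.T u t v)‖ ^ 2) =
      ENNReal.ofReal ‖g (C.T u t v)‖ ^ 2 := fun t => ENNReal.ofReal_pow (norm_nonneg _) 2
  rw [e1, e2]
  simp_rw [e3]
  calc ENNReal.ofReal |P u - P v| ^ 2
      ≤ (ENNReal.ofReal (dist u v) * ∫⁻ t in Icc (0 : ℝ) 1, ENNReal.ofReal ‖g (C.T u t v)‖) ^ 2 := by
        gcongr
    _ = ENNReal.ofReal (dist u v) ^ 2 *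
          (∫⁻ t in Icc (0 : ℝ) 1, ENNReal.ofReal ‖g (C.T u t v)‖) ^ 2 := by ring
    _ ≤ _ := by gcongr

/-- double integral over a ball -/
theorem dbl_V [ProperSpace X] (S : GradS X (F n) μ) (C : Rad n κ X μ) (hR : RDG S C)
    (hκ : 0 ≤ κ) {P : X → ℝ} (hP : LocallyLipschitz P) (x0 : X) {r : ℝ} (hr : 0 < r) :
    ∫⁻ x in Metric.ball x0 r, ∫⁻ z in Metric.ball x0 r, ENNReal.ofReal ((P x - P z) ^ 2) ∂μ ∂μ ≤
      ENNReal.ofReal (8 * r ^ 2 * (Real.exp (2 * κ * r ^ 2) * 2 ^ n)) * μ (Metric.ball x0 r) *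
        ∫⁻ y in Metric.ball x0 (2 * r), ENNReal.ofReal (‖S.G P y‖ ^ 2) ∂μ := by
  set B := Metric.ball x0 r with hB
  have hBm : MeasurableSet B := Metric.isOpen_ball.measurableSet
  set g : X → F n := (S.meas hP).mk _ with hgdef
  have hgm : StronglyMeasurable g := (S.meas hP).stronglyMeasurable_mk
  have hg : Measurable fun y => ENNReal.ofReal (‖g y‖ ^ 2) :=
    ENNReal.measurable_ofReal.comp ((hgm.measurable.norm).pow_const 2)
  have hmeas : Measurable (fun p : X × ℝ × X => ENNReal.ofReal (‖g (C.T p.1 p.2.1 p.2.2)‖ ^ 2)) :=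
    hg.comp C.measT
  have h1 : ∫⁻ x in B, ∫⁻ z in B, ENNReal.ofReal ((P x - P z) ^ 2) ∂μ ∂μ ≤
      ∫⁻ x in B, ∫⁻ z in B, ENNReal.ofReal ((2 * r) ^ 2) *
        ∫⁻ t in Icc (0:ℝ) 1, ENNReal.ofReal (‖g (C.T x t z)‖ ^ 2) ∂volume ∂μ ∂μ := by
    apply setLIntegral_mono' hBm
    intro x hx
    apply lintegral_mono_ae
    filter_upwards [ae_restrict_of_ae (pair_sq S C hR hP x), ae_restrict_mem hBm] with z hz hzB
    refine hz.trans ?_
    gcongr
    have := dist_triangle_right x z x0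
    rw [hB, Metric.mem_ball] at hx hzB
    linarith
  refine h1.trans ?_
  have h2 : ∀ x, ∫⁻ z in B, ENNReal.ofReal ((2 * r) ^ 2) *
        ∫⁻ t in Icc (0:ℝ) 1, ENNReal.ofReal (‖g (C.T x t z)‖ ^ 2) ∂volume ∂μ =
      ENNReal.ofReal ((2 * r) ^ 2) * ∫⁻ z in B,
        ∫⁻ t in Icc (0:ℝ) 1, ENNReal.ofReal (‖g (C.T x t z)‖ ^ 2) ∂volume ∂μ := fun x =>
    lintegral_const_mul' _ _ ENNReal.ofReal_ne_top
  simp_rw [h2]
  rw [lintegral_const_mul' _ _ ENNReal.ofReal_ne_top]
  have h3 := C.segment_le hκ (A := B) (B := B) (W := Metric.ball x0 (2 * r)) hBm hBm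
    Metric.isOpen_ball.measurableSet (D := 2 * r)
    (fun x hx z hz => by
      have := dist_triangle_right x z x0
      rw [hB, Metric.mem_ball] at hx hz
      linarith)
    (fun x hx z hz hU t ht => geo_ball C hx hz hU ht) hg
  have h4 : ∫⁻ y in Metric.ball x0 (2 * r), ENNReal.ofReal (‖S.G P y‖ ^ 2) ∂μ =
      ∫⁻ y in Metric.ball x0 (2 * r), ENNReal.ofReal (‖g y‖ ^ 2) ∂μ := by
    apply lintegral_congr_ae
    filter_upwards [ae_restrict_of_ae (S.meas hP).ae_eq_mk] with y hy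
    rw [hy]
  rw [h4]
  calc ENNReal.ofReal ((2 * r) ^ 2) * ∫⁻ x in B, ∫⁻ z in B,
        ∫⁻ t in Icc (0:ℝ) 1, ENNReal.ofReal (‖g (C.T x t z)‖ ^ 2) ∂volume ∂μ ∂μ
      ≤ ENNReal.ofReal ((2 * r) ^ 2) * (ENNReal.ofReal (Real.exp (κ * (2 * r) ^ 2 / 2) * 2 ^ n) *
          (μ B + μ B) * ∫⁻ y in Metric.ball x0 (2 * r), ENNReal.ofReal (‖g y‖ ^ 2) ∂μ) := by gcongr
    _ = (ENNReal.ofReal ((2 * r) ^ 2) * ENNReal.ofReal (Real.exp (κ * (2 * r) ^ 2 / 2) * 2 ^ n) * 2) *
          μ B * ∫⁻ y in Metric.ball x0 (2 * r), ENNReal.ofReal (‖g y‖ ^ 2) ∂μ := by ring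
    _ = _ := by
        congr 2
        rw [← ENNReal.ofReal_mul (by positivity), show (2:ℝ≥0∞) = ENNReal.ofReal 2 by norm_num,
          ← ENNReal.ofReal_mul (by positivity)]
        congr 1
        rw [show κ * (2 * r) ^ 2 / 2 = 2 * κ * r ^ 2 by ring]
        ring

/-- **Neumann–Poincaré inequality** for locally Lipschitz functions, exponent 2 -/
theorem poinc_V [ProperSpace X] (S : GradS X (F n) μ) (C : Rad n κ X μ) (hR : RDG S C)
    (hκ : 0 ≤ κ) {P : X → ℝ} (hP : LocallyLipschitz P) (x0 : X) {r : ℝ} (hr : 0 < r)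
    (hBf : μ (Metric.ball x0 r) ≠ ∞) (hfi : IntegrableOn P (Metric.ball x0 r) μ)
    (hfi2 : IntegrableOn (fun x => P x ^ 2) (Metric.ball x0 r) μ) :
    ∫⁻ x in Metric.ball x0 r, ENNReal.ofReal ((P x - ⨍ z in Metric.ball x0 r, P z ∂μ) ^ 2) ∂μ ≤
      ENNReal.ofReal (8 * r ^ 2 * (Real.exp (2 * κ * r ^ 2) * 2 ^ n)) *
        ∫⁻ y in Metric.ball x0 (2 * r), ENNReal.ofReal (‖S.G P y‖ ^ 2) ∂μ := by
  set B := Metric.ball x0 r with hB
  have hBm : MeasurableSet B := Metric.isOpen_ball.measurableSet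
  by_cases h0 : μ B = 0
  · rw [setLIntegral_measure_zero _ _ h0]; exact bot_le
  have h1 : μ B * ∫⁻ x in B, ENNReal.ofReal ((P x - ⨍ z in B, P z ∂μ) ^ 2) ∂μ ≤
      μ B * (ENNReal.ofReal (8 * r ^ 2 * (Real.exp (2 * κ * r ^ 2) * 2 ^ n)) *
        ∫⁻ y in Metric.ball x0 (2 * r), ENNReal.ofReal (‖S.G P y‖ ^ 2) ∂μ) := by
    rw [← lintegral_const_mul' _ _ hBf]
    calc ∫⁻ x in B, μ B * ENNReal.ofReal ((P x - ⨍ z in B, P z ∂μ) ^ 2) ∂μ
        ≤ ∫⁻ x in B, ∫⁻ z in B, ENNReal.ofReal ((P x - P z) ^ 2) ∂μ ∂μ :=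
          lintegral_mono fun x => var_le hBm hBf hfi hfi2 (P x)
      _ ≤ _ := dbl_V S C hR hκ hP x0 hr
      _ = _ := by ring
  exact (ENNReal.mul_le_mul_iff_right h0 hBf).1 h1

end pair

section net

variable {n : ℕ} {κ : ℝ} {X : Type*} [MetricSpace X] [MeasurableSpace X] [BorelSpace X]
  {μ : Measure X} [IsFiniteMeasureOnCompacts μ] [SFinite μ]

/-- `s` is `r`-separated -/
def Sep (r : ℝ) (s : Finset X) : Prop := ∀ y ∈ s, ∀ z ∈ s, y ≠ z → r ≤ dist y z

/-- bounded overlap of the balls of radius `2 r` with centres in an `r`-separated set -/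
lemma overlap_le [ProperSpace X] [μ.IsOpenPosMeasure] (C : Rad n κ X μ) (hκ : 0 ≤ κ) {r : ℝ}
    (hr : 0 < r) (hr1 : r ≤ 1) {s : Finset X} (hs : Sep r s) (x : X) :
    (((s.filter fun c => dist x c < 2 * r)).card : ℝ) ≤ Real.exp (18 * κ) * 12 ^ n := by
  classical
  have h := C.packing hκ x (r := r / 2) (R := 2 * r) (by linarith) (by linarith)
    (Metric.isOpen_ball.measure_pos μ ⟨x, Metric.mem_ball_self (by linarith)⟩).ne'
    (Metric.isBounded_ball.measure_lt_top.ne) (s.filter fun c => dist x c < 2 * r)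
    (fun y hy => (Finset.mem_filter.1 hy).2)
    (fun y hy z hz hyz => by
      have := hs y (Finset.mem_filter.1 hy).1 z (Finset.mem_filter.1 hz).1 hyz
      linarith)
  refine h.trans ?_
  have e : 3 * (2 * r) / (r / 2) = 12 := by field_simp; norm_num
  rw [e]
  gcongr
  have h2 : r ^ 2 ≤ 1 := by nlinarith
  nlinarith

/-- maximal separated nets -/
lemma exists_net [CompactSpace X] [Nonempty X] [μ.IsOpenPosMeasure] (C : Rad n κ X μ)
    (hκ : 0 ≤ κ) {r : ℝ} (hr : 0 < r) :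
    ∃ s : Finset X, Sep r s ∧ ∀ x, ∃ c ∈ s, dist x c < r := by
  classical
  obtain ⟨x0⟩ := ‹Nonempty X›
  obtain ⟨R0, hR0⟩ := (isCompact_univ (X := X)).isBounded.subset_ball x0
  set R := max R0 (r / 2) with hR
  have hall : ∀ x : X, dist x0 x < R := fun x => by
    have := hR0 (mem_univ x)
    rw [Metric.mem_ball, dist_comm] at this
    exact lt_of_lt_of_le this (le_max_left _ _)
  have hRpos : 0 < R := lt_of_lt_of_le (by linarith : 0 < r / 2) (le_max_right _ _)
  set K : ℝ := Real.exp (κ * (3 * R) ^ 2 / 2) * (3 * R / (r / 2)) ^ n with hK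
  have hcard : ∀ s : Finset X, Sep r s → s.card ≤ ⌊K⌋₊ := by
    intro s hs
    apply Nat.le_floor
    exact C.packing hκ x0 (r := r / 2) (R := R) (by linarith) (le_max_right _ _)
      (Metric.isOpen_ball.measure_pos μ ⟨x0, Metric.mem_ball_self (by linarith)⟩).ne'
      (Metric.isBounded_ball.measure_lt_top.ne) s (fun y _ => hall y)
      (fun y hy z hz hyz => by have := hs y hy z hz hyz; linarith)
  have hex : ∃ k, ∃ s : Finset X, Sep r s ∧ s.card = k := ⟨0, ∅, by simp [Sep], rfl⟩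
  obtain ⟨s, hs, hsm⟩ : ∃ s : Finset X, Sep r s ∧ ∀ t : Finset X, Sep r t → t.card ≤ s.card := by
    set k := Nat.findGreatest (fun k => ∃ s : Finset X, Sep r s ∧ s.card = k) ⌊K⌋₊ with hk
    obtain ⟨s, hs, hsk⟩ := Nat.findGreatest_spec (P := fun k => ∃ s : Finset X, Sep r s ∧ s.card = k)
      (Nat.zero_le ⌊K⌋₊) ⟨∅, by simp [Sep], rfl⟩
    refine ⟨s, hs, fun t ht => ?_⟩
    rw [hsk]
    exact Nat.le_findGreatest (hcard t ht) ⟨t, ht, rfl⟩
  refine ⟨s, hs, fun x => ?_⟩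
  by_contra hcon
  push Not at hcon
  have hx : x ∉ s := fun h => by have := hcon x h; rw [dist_self] at this; linarith
  have h1 : Sep r (insert x s) := by
    intro y hy z hz hyz
    rw [Finset.mem_insert] at hy hz
    rcases hy with rfl | hy <;> rcases hz with rfl | hz
    · exact absurd rfl hyz
    · exact hcon z hz
    · rw [dist_comm]; exact hcon y hy
    · exact hs y hy z hz hyz
  have h2 := hsm _ h1
  rw [Finset.card_insert_of_notMem hx] at h2
  omega

end net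

end Crest.Agent.R249.Tv57
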