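import Crest.Agent.R249.Tv1_57
import Mathlib.Analysis.Normed.Operator.Compact.Basic

/-!
# R249 (C-TV), part 2: the Friedrichs inequality and Rellich's theorem for `S.V`.

* `friedrichs`  : finite rank operators `T_r` of `L²` with `‖u - T_r u‖ ≤ K r ‖S.D u‖` on `S.V`;
(helper57)
-/

set_option autoImplicit false
set_option linter.unusedSectionVars false
open MeasureTheory Set Filter Topology
open scoped ENNReal NNReal RealInnerProductSpace

noncomputable section
namespace Crest.Agent.R249.Tv57

open Crest.Agent.R247.Mcp688 Crest.Agent.R247.Dir593 Crest.Agent.R247.Loc710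
  Crest.Agent.R247.Hes124 Crest.Agent.R249.SobD_982 Crest.Agent.R247.Pyt710

section L2
variable {X : Type*} [MeasurableSpace X] {μ : Measure X} {G : Type*} [NormedAddCommGroup G]
  [InnerProductSpace ℝ G]

lemma ofReal_norm_sq (w : Lp G 2 μ) :
    ENNReal.ofReal (‖w‖ ^ 2) = ∫⁻ x, ENNReal.ofReal (‖w x‖ ^ 2) ∂μ := by
  have h1 : ‖w‖ ^ 2 = ∫ x, ‖w x‖ ^ 2 ∂μ := by
    rw [← real_inner_self_eq_norm_sq, L2.inner_def]
    exact integral_congr_ae (Eventually.of_forall fun x => real_inner_self_eq_norm_sq _)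
  rw [h1]
  apply ofReal_integral_eq_lintegral_ofReal
  · exact (Lp.memLp w).integrable_norm_pow (by norm_num)
  · exact Eventually.of_forall fun x => sq_nonneg _

end L2

section sel
variable {X : Type*} [MetricSpace X] [MeasurableSpace X] [BorelSpace X]

/-- measurable choice of a nearby point of a finite net -/
lemma exists_sel (x0 : X) (r : ℝ) (s : Finset X) : ∃ c : X → X, Measurable c ∧
    ∀ x, (∃ a ∈ s, dist x a < r) → c x ∈ s ∧ dist x (c x) < r := by
  classical
  induction s using Finset.induction_on with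
  | empty => exact ⟨fun _ => x0, measurable_const, fun x ⟨a, ha, _⟩ => absurd ha (by simp)⟩
  | insert a s _ ih =>
    obtain ⟨c, hc, hcs⟩ := ih
    refine ⟨fun x => if dist x a < r then a else c x, ?_, fun x hx => ?_⟩
    · exact Measurable.ite (measurableSet_lt (by fun_prop) measurable_const) measurable_const hc
    · by_cases h : dist x a < r
      · simp only [if_pos h]
        exact ⟨Finset.mem_insert_self _ _, h⟩
      · simp only [if_neg h]
        obtain ⟨b, hb, hbx⟩ := hx
        rw [Finset.mem_insert] at hb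
        rcases hb with rfl | hb
        · exact absurd hbx h
        · obtain ⟨h1, h2⟩ := hcs x ⟨b, hb, hbx⟩
          exact ⟨Finset.mem_insert_of_mem h1, h2⟩

end sel

section T
variable {n : ℕ} {κ : ℝ} {X : Type*} [MetricSpace X] [MeasurableSpace X] [BorelSpace X]
  {μ : Measure X} [IsFiniteMeasureOnCompacts μ] [SFinite μ]

/-- the constant of the Friedrichs inequality -/
def KF (n : ℕ) (κ : ℝ) : ℝ := √(8 * Real.exp (20 * κ) * 24 ^ n)

lemma KF_nonneg (n : ℕ) (κ : ℝ) : 0 ≤ KF n κ := Real.sqrt_nonneg _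

lemma KF_sq (n : ℕ) (κ : ℝ) : KF n κ ^ 2 = 8 * Real.exp (20 * κ) * 24 ^ n :=
  Real.sq_sqrt (by positivity)

/-- **Friedrichs inequality** -/
theorem friedrichs [CompactSpace X] [Nonempty X] [μ.IsOpenPosMeasure] (S : GradS X (F n) μ)
    (C : Rad n κ X μ) (hR : RDG S C) (hκ : 0 ≤ κ) {r : ℝ} (hr : 0 < r) (hr1 : r ≤ 1) :
    ∃ T : Lp ℝ 2 μ →L[ℝ] Lp ℝ 2 μ, IsCompactOperator T ∧
      ∀ u ∈ S.V, ‖u - T u‖ ≤ KF n κ * r * ‖S.D u‖ := by
  classical
  obtain ⟨x0⟩ := id ‹Nonempty X›
  obtain ⟨s, hsep, hcov⟩ := exists_net C hκ hr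
  obtain ⟨c, hcm, hc⟩ := exists_sel x0 r s
  have hc' : ∀ x, c x ∈ s ∧ dist x (c x) < r := fun x => hc x (hcov x)
  have hfin : ∀ A : Set X, μ A ≠ ∞ := fun A =>
    (lt_of_le_of_lt (measure_mono (subset_univ A)) (isCompact_univ.measure_lt_top)).ne
  have : IsFiniteMeasure μ := ⟨isCompact_univ.measure_lt_top⟩
  have hBm : ∀ a : X, MeasurableSet (Metric.ball a r) := fun a => Metric.isOpen_ball.measurableSet
  have hAm : ∀ a : X, MeasurableSet (c ⁻¹' {a}) := fun a => hcm (measurableSet_singleton a)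
  -- averages
  set m : X → Lp ℝ 2 μ → ℝ := fun a u => (μ.real (Metric.ball a r))⁻¹ *
    ⟪(ind (hBm a) (hfin _) : Lp ℝ 2 μ), u⟫ with hm
  have hmavg : ∀ (a : X) (u : Lp ℝ 2 μ), m a u = ⨍ z in Metric.ball a r, u z ∂μ := by
    intro a u
    rw [hm, setAverage_eq, smul_eq_mul]
    simp only
    rw [real_inner_comm, inner_ind]
  set T : Lp ℝ 2 μ →L[ℝ] Lp ℝ 2 μ := ∑ a ∈ s, ((μ.real (Metric.ball a r))⁻¹ •
    innerSL ℝ (ind (hBm a) (hfin _) : Lp ℝ 2 μ)).smulRight (ind (hAm a) (hfin _)) with hT
  have hTapp : ∀ u, T u = ∑ a ∈ s, m a u • ind (hAm a) (hfin _) := by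
    intro u
    rw [hT]
    simp [hm]
  have hTcoe : ∀ u : Lp ℝ 2 μ, ∀ᵐ x ∂μ, (T u : Lp ℝ 2 μ) x = m (c x) u := by
    intro u
    have h1 : ∀ᵐ x ∂μ, ∀ a ∈ s, (m a u • (ind (hAm a) (hfin _) : Lp ℝ 2 μ) : Lp ℝ 2 μ) x =
        m a u * (if c x = a then 1 else 0) := by
      rw [Filter.eventually_all_finset]
      intro a _
      filter_upwards [Lp.coeFn_smul (m a u) (ind (hAm a) (hfin _) : Lp ℝ 2 μ),
        coe_ind (hAm a) (hfin _)] with x e1 e2
      rw [e1, Pi.smul_apply, e2, smul_eq_mul]
      by_cases h : c x = a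
      · rw [if_pos h, indicator_of_mem (by simpa using h)]
      · rw [if_neg h, indicator_of_notMem (by simpa using h)]
    have h2 : (T u : Lp ℝ 2 μ) =ᵐ[μ] fun x => ∑ a ∈ s,
        (m a u • (ind (hAm a) (hfin _) : Lp ℝ 2 μ) : Lp ℝ 2 μ) x := by
      rw [hTapp]
      exact Lp.coeFn_fun_finsetSum s (fun a => m a u • (ind (hAm a) (hfin _) : Lp ℝ 2 μ))
    filter_upwards [h1, h2] with x e1 e2
    rw [e2, Finset.sum_congr rfl e1]
    simp [(hc' x).1]
  refine ⟨T, ?_, ?_⟩
  · -- finite rank
    rw [hT]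
    have : ∀ (t : Finset X), IsCompactOperator (∑ a ∈ t, ((μ.real (Metric.ball a r))⁻¹ •
        innerSL ℝ (ind (hBm a) (hfin _) : Lp ℝ 2 μ)).smulRight
          (ind (hAm a) (hfin _) : Lp ℝ 2 μ) : Lp ℝ 2 μ →L[ℝ] Lp ℝ 2 μ) := by
      intro t
      induction t using Finset.induction_on with
      | empty => simpa using isCompactOperator_zero
      | insert a t ha ih =>
        rw [Finset.sum_insert ha]
        refine IsCompactOperator.add ?_ ih
        have h1 : IsCompactOperator (((μ.real (Metric.ball a r))⁻¹ •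
          innerSL ℝ (ind (hBm a) (hfin _) : Lp ℝ 2 μ)) : Lp ℝ 2 μ →L[ℝ] ℝ) :=
          isCompactOperator_of_locallyCompactSpace_dom _
        have h2 := h1.clm_comp ((ContinuousLinearMap.id ℝ ℝ).smulRight
          (ind (hAm a) (hfin _) : Lp ℝ 2 μ))
        convert h2 using 1
        ext u
        simp
    exact this s
  · -- the estimate for test functions
    have key : ∀ f : X → ℝ, ∀ hf : GradS.IsT f,
        ‖(GradS.tL hf : Lp ℝ 2 μ) - T (GradS.tL hf)‖ ≤
          KF n κ * r * ‖S.D (GradS.tL hf : Lp ℝ 2 μ)‖ := by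
      intro f hf
      set u : Lp ℝ 2 μ := GradS.tL hf with hu
      have hcoe : (u : X → ℝ) =ᵐ[μ] f := GradS.coe_tL hf
      have hfc : Continuous f := hf.1.continuous
      have hint : Integrable f μ := hf.memLp.integrable (by norm_num)
      have hint2 : Integrable (fun x => f x ^ 2) μ := hf.memLp.integrable_sq
      have hmf : ∀ a, m a u = ⨍ z in Metric.ball a r, f z ∂μ := by
        intro a
        rw [hmavg]
        exact setAverage_congr_fun (hBm a) (by filter_upwards [hcoe] with x hx _ using hx)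
      have h1 : ENNReal.ofReal (‖u - T u‖ ^ 2) ≤
          ∑ a ∈ s, ∫⁻ x in Metric.ball a r, ENNReal.ofReal ((f x - m a u) ^ 2) ∂μ := by
        rw [ofReal_norm_sq]
        calc ∫⁻ x, ENNReal.ofReal (‖(u - T u : Lp ℝ 2 μ) x‖ ^ 2) ∂μ
            ≤ ∫⁻ x, ∑ a ∈ s, (Metric.ball a r).indicator
                (fun x => ENNReal.ofReal ((f x - m a u) ^ 2)) x ∂μ := by
              apply lintegral_mono_ae
              filter_upwards [Lp.coeFn_sub u (T u), hcoe, hTcoe u] with x e1 e2 e3
              rw [e1, Pi.sub_apply, e2, e3, Real.norm_eq_abs, sq_abs]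
              refine le_trans (le_of_eq ?_) (Finset.single_le_sum
                (f := fun a => (Metric.ball a r).indicator
                  (fun x => ENNReal.ofReal ((f x - m a u) ^ 2)) x)
                (fun _ _ => bot_le) (hc' x).1)
              rw [indicator_of_mem]
              exact (hc' x).2
          _ = _ := by
              rw [lintegral_finsetSum']
              · refine Finset.sum_congr rfl fun a _ => ?_
                rw [lintegral_indicator (hBm a)]
              · intro a _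
                exact ((by fun_prop : Measurable fun x => ENNReal.ofReal ((f x - m a u) ^ 2)).indicator
                  (hBm a)).aemeasurable
      have h2 : ∀ a ∈ s, ∫⁻ x in Metric.ball a r, ENNReal.ofReal ((f x - m a u) ^ 2) ∂μ ≤
          ENNReal.ofReal (8 * r ^ 2 * (Real.exp (2 * κ * r ^ 2) * 2 ^ n)) *
            ∫⁻ y in Metric.ball a (2 * r), ENNReal.ofReal (‖S.G f y‖ ^ 2) ∂μ := by
        intro a _
        rw [hmf]
        exact poinc_V S C hR hκ hf.1 a hr (hfin _) hint.integrableOn hint2.integrableOn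
      have hGm : AEMeasurable (fun y => ENNReal.ofReal (‖S.G f y‖ ^ 2)) μ :=
        (((S.meas hf.1).norm.aemeasurable).pow_const 2).ennreal_ofReal
      have h3 : ∑ a ∈ s, ∫⁻ y in Metric.ball a (2 * r), ENNReal.ofReal (‖S.G f y‖ ^ 2) ∂μ ≤
          ENNReal.ofReal (Real.exp (18 * κ) * 12 ^ n) *
            ∫⁻ y, ENNReal.ofReal (‖S.G f y‖ ^ 2) ∂μ := by
        calc ∑ a ∈ s, ∫⁻ y in Metric.ball a (2 * r), ENNReal.ofReal (‖S.G f y‖ ^ 2) ∂μ
            = ∫⁻ y, ∑ a ∈ s, (Metric.ball a (2 * r)).indicator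
                (fun y => ENNReal.ofReal (‖S.G f y‖ ^ 2)) y ∂μ := by
              rw [lintegral_finsetSum']
              · refine Finset.sum_congr rfl fun a _ => ?_
                rw [lintegral_indicator Metric.isOpen_ball.measurableSet]
              · intro a _
                exact hGm.indicator Metric.isOpen_ball.measurableSet
          _ ≤ ∫⁻ y, ENNReal.ofReal (Real.exp (18 * κ) * 12 ^ n) *
                ENNReal.ofReal (‖S.G f y‖ ^ 2) ∂μ := by
              apply lintegral_mono
              intro y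
              simp only
              have e : ∑ a ∈ s, (Metric.ball a (2 * r)).indicator
                  (fun y => ENNReal.ofReal (‖S.G f y‖ ^ 2)) y =
                  ((s.filter fun a => dist y a < 2 * r).card : ℝ≥0∞) *
                    ENNReal.ofReal (‖S.G f y‖ ^ 2) := by
                rw [← nsmul_eq_mul, ← Finset.sum_const, Finset.sum_filter]
                refine Finset.sum_congr rfl fun a _ => ?_
                by_cases h : dist y a < 2 * r
                · rw [if_pos h, indicator_of_mem (by simpa using h)]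
                · rw [if_neg h, indicator_of_notMem (by simpa using h)]
              rw [e]
              gcongr
              have := overlap_le (μ := μ) C hκ hr hr1 hsep y
              rw [← ENNReal.ofReal_natCast]
              exact ENNReal.ofReal_le_ofReal this
          _ = _ := lintegral_const_mul' _ _ ENNReal.ofReal_ne_top
      have h4 : ∫⁻ y, ENNReal.ofReal (‖S.G f y‖ ^ 2) ∂μ = ENNReal.ofReal (‖S.D u‖ ^ 2) := by
        rw [ofReal_norm_sq]
        apply lintegral_congr_ae
        filter_upwards [S.D_tL hf] with x hx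
        rw [hx]
      have h5 : ENNReal.ofReal (‖u - T u‖ ^ 2) ≤
          ENNReal.ofReal ((KF n κ * r * ‖S.D u‖) ^ 2) := by
        calc ENNReal.ofReal (‖u - T u‖ ^ 2)
            ≤ ∑ a ∈ s, ENNReal.ofReal (8 * r ^ 2 * (Real.exp (2 * κ * r ^ 2) * 2 ^ n)) *
                ∫⁻ y in Metric.ball a (2 * r), ENNReal.ofReal (‖S.G f y‖ ^ 2) ∂μ :=
              h1.trans (Finset.sum_le_sum h2)
          _ = ENNReal.ofReal (8 * r ^ 2 * (Real.exp (2 * κ * r ^ 2) * 2 ^ n)) *
                ∑ a ∈ s, ∫⁻ y in Metric.ball a (2 * r), ENNReal.ofReal (‖S.G f y‖ ^ 2) ∂μ := by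
              rw [Finset.mul_sum]
          _ ≤ ENNReal.ofReal (8 * r ^ 2 * (Real.exp (2 * κ) * 2 ^ n)) *
                (ENNReal.ofReal (Real.exp (18 * κ) * 12 ^ n) * ENNReal.ofReal (‖S.D u‖ ^ 2)) := by
              rw [← h4]
              have hexp : Real.exp (2 * κ * r ^ 2) ≤ Real.exp (2 * κ) := by
                apply Real.exp_le_exp.2
                have : r ^ 2 ≤ 1 := by nlinarith
                nlinarith
              gcongr
          _ = ENNReal.ofReal ((KF n κ * r * ‖S.D u‖) ^ 2) := by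
              rw [← ENNReal.ofReal_mul (by positivity), ← ENNReal.ofReal_mul (by positivity)]
              congr 1
              rw [mul_pow, mul_pow, KF_sq, show (20:ℝ) * κ = 2 * κ + 18 * κ by ring, Real.exp_add,
                show (24:ℝ) = 2 * 12 by norm_num, mul_pow]
              ring
      have h6 := (ENNReal.ofReal_le_ofReal_iff (sq_nonneg _)).1 h5
      have h7 : 0 ≤ KF n κ * r * ‖S.D u‖ := by have := KF_nonneg n κ; positivity
      exact (pow_le_pow_iff_left₀ (norm_nonneg _) h7 two_ne_zero).1 h6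
    intro u hu
    obtain ⟨f, hf, t1, t2⟩ := S.exists_seq hu
    have t3 : Tendsto (fun k => ‖(GradS.tL (hf k) : Lp ℝ 2 μ) - T (GradS.tL (hf k))‖) atTop
        (𝓝 ‖u - T u‖) := (t1.sub ((T.continuous.tendsto _).comp t1)).norm
    have t4 : Tendsto (fun k => KF n κ * r * ‖S.D (GradS.tL (hf k) : Lp ℝ 2 μ)‖) atTop
        (𝓝 (KF n κ * r * ‖S.D u‖)) := t2.norm.const_mul _
    exact le_of_tendsto_of_tendsto' t3 t4 fun k => key (f k) (hf k)

end T

end Crest.Agent.R249.Tv57
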