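import Crest.Agent.R247.Dir5_593
import Crest.Agent.R202.SpForm

/-!
# R249 (C-TV), part 3: the abstract quadratic form of `D* D + Q` on sections.

`S : GradS X F μ` a gradient structure, `κ` a finite index type,
`AD S κ` : bounded measurable connection `w`, potential `q`, projection `p` by test functions.
* `mulF hw : Lp ℝ 2 μ →L Lp G 2 μ`, `u ↦ u • w`;
* `HE`, `WE` : the Hilbert spaces `L²(E)`, `W^{1,2}(E)` (graph norm);
* `jj : WE →L HE`, compact if the scalar embedding is approximated by compact operators;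
* `form` : `CForm jj`.
(helper57)
-/

set_option autoImplicit false
set_option linter.unusedSectionVars false
open MeasureTheory Set Filter Topology
open scoped ENNReal NNReal RealInnerProductSpace

noncomputable section
namespace Crest.Agent.R249.Tv57

open Crest.Agent.R247.Dir593

section mul
variable {X : Type*} [MeasurableSpace X] {μ : Measure X} {G : Type*} [NormedAddCommGroup G]
  [InnerProductSpace ℝ G]

/-- bounded measurable functions -/
structure BM (μ : Measure X) (w : X → G) : Prop where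
  meas : AEStronglyMeasurable w μ
  bd : ∃ C : ℝ, 0 ≤ C ∧ ∀ᵐ x ∂μ, ‖w x‖ ≤ C

lemma BM.memLp {w : X → G} (hw : BM μ w) (u : Lp ℝ 2 μ) : MemLp (fun x => u x • w x) 2 μ := by
  obtain ⟨C, hC0, hC⟩ := hw.bd
  refine (Lp.memLp u).of_le_mul (c := C) ((Lp.aestronglyMeasurable u).smul hw.meas) ?_
  filter_upwards [hC] with x hx
  rw [norm_smul, mul_comm]
  exact mul_le_mul_of_nonneg_right hx (norm_nonneg _)

/-- multiplication `u ↦ u • w` -/
def mulF {w : X → G} (hw : BM μ w) : Lp ℝ 2 μ →L[ℝ] Lp G 2 μ :=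
  LinearMap.mkContinuousOfExistsBound
    { toFun := fun u => (hw.memLp u).toLp _
      map_add' := fun u v => by
        ext1
        filter_upwards [(hw.memLp (u + v)).coeFn_toLp, (hw.memLp u).coeFn_toLp,
          (hw.memLp v).coeFn_toLp, Lp.coeFn_add u v,
          Lp.coeFn_add ((hw.memLp u).toLp _) ((hw.memLp v).toLp _)] with x e1 e2 e3 e4 e5
        rw [e1, e5, Pi.add_apply, e2, e3, e4, Pi.add_apply, add_smul]
      map_smul' := fun c u => by
        ext1
        filter_upwards [(hw.memLp (c • u)).coeFn_toLp, (hw.memLp u).coeFn_toLp,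
          Lp.coeFn_smul c u, Lp.coeFn_smul c ((hw.memLp u).toLp _)] with x e1 e2 e3 e4
        simp only [RingHom.id_apply]
        rw [e1, e4, Pi.smul_apply, e2, e3, Pi.smul_apply, smul_eq_mul, mul_smul] }
    (by
      obtain ⟨C, hC0, hC⟩ := hw.bd
      refine ⟨C, fun u => ?_⟩
      refine norm_le_of_ae hC0 ?_
      filter_upwards [(hw.memLp u).coeFn_toLp, hC] with x e1 e2
      simp only [LinearMap.coe_mk, AddHom.coe_mk]
      rw [e1, norm_smul, mul_comm]
      exact mul_le_mul_of_nonneg_right e2 (norm_nonneg _))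

lemma coe_mulF {w : X → G} (hw : BM μ w) (u : Lp ℝ 2 μ) :
    (mulF hw u : X → G) =ᵐ[μ] fun x => u x • w x := (hw.memLp u).coeFn_toLp

end mul

section gram
variable {V H : Type*} [NormedAddCommGroup V] [InnerProductSpace ℝ V] [NormedAddCommGroup H]
  [InnerProductSpace ℝ H]

/-- the form `⟪A u, B v⟫` -/
def gram2 (A B : V →L[ℝ] H) : V →L[ℝ] V →L[ℝ] ℝ :=
  LinearMap.mkContinuous₂ (LinearMap.mk₂ ℝ (fun u v => ⟪A u, B v⟫)
    (fun u u' v => by simp [inner_add_left]) (fun c u v => by simp [inner_smul_left])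
    (fun u v v' => by simp [inner_add_right]) (fun c u v => by simp [inner_smul_right]))
    (‖A‖ * ‖B‖) (fun u v => by
      simp only [LinearMap.mk₂_apply]
      calc ‖⟪A u, B v⟫‖ ≤ ‖A u‖ * ‖B v‖ := norm_inner_le_norm _ _
        _ ≤ (‖A‖ * ‖u‖) * (‖B‖ * ‖v‖) := by gcongr <;> exact ContinuousLinearMap.le_opNorm _ _
        _ = ‖A‖ * ‖B‖ * ‖u‖ * ‖v‖ := by ring)

lemma gram2_apply (A B : V →L[ℝ] H) (u v : V) : gram2 A B u v = ⟪A u, B v⟫ := rfl

end gram

/-! ### the spaces -/

section spaces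
variable {X : Type*} [MetricSpace X] [MeasurableSpace X] [BorelSpace X] {F : Type*}
  [NormedAddCommGroup F] [InnerProductSpace ℝ F] {μ : Measure X} [IsFiniteMeasureOnCompacts μ]

/-- abstract data of a trivialised bundle with connection -/
structure AD (S : GradS X F μ) (κ : Type) [Fintype κ] where
  w : κ → κ → X → F
  q : κ → κ → X → ℝ
  p : κ → κ → X → ℝ
  hw : ∀ a b, BM μ (w a b)
  hq : ∀ a b, BM μ (q a b)
  hp : ∀ a b, BM μ (p a b)
  hT : ∀ a b, GradS.IsT (p a b)
  skew : ∀ a b x, w a b x = - w b a x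
  symmq : ∀ a b x, q a b x = q b a x
  symmp : ∀ a b x, p a b x = p b a x
  idem : ∀ a b x, ∑ c, p a c x * p c b x = p a b x
  par : ∀ a b, ∀ᵐ x ∂μ, S.G (p a b) x + ∑ c, (p c b x • w a c x - p a c x • w c b x) = 0
  comm : ∀ a b x, ∑ c, q a c x * p c b x = ∑ c, p a c x * q c b x

variable (μ F) in
/-- the ambient spaces -/
abbrev HH (κ : Type) [Fintype κ] := PiLp 2 (fun _ : κ => Lp ℝ 2 μ)
variable (μ F) in
abbrev GG (κ : Type) [Fintype κ] := PiLp 2 (fun _ : κ => Lp F 2 μ)

section mat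
variable {κ : Type} [Fintype κ] {G : Type*} [NormedAddCommGroup G] [InnerProductSpace ℝ G]

/-- matrix multiplier `(m u)_a = ∑_b u_b • m_ab` -/
def matF {m : κ → κ → X → G} (hm : ∀ a b, BM μ (m a b)) :
    HH μ κ →L[ℝ] PiLp 2 (fun _ : κ => Lp G 2 μ) :=
  ((PiLp.continuousLinearEquiv 2 ℝ (fun _ : κ => Lp G 2 μ)).symm :
      (∀ _ : κ, Lp G 2 μ) →L[ℝ] PiLp 2 (fun _ : κ => Lp G 2 μ)).comp
    (ContinuousLinearMap.pi fun a => ∑ b, (mulF (hm a b)).comp (PiLp.proj 2 _ b))

lemma matF_apply {m : κ → κ → X → G} (hm : ∀ a b, BM μ (m a b)) (u : HH μ κ) (a : κ) :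
    matF hm u a = ∑ b, mulF (hm a b) (u b) := by
  simp [matF]

lemma coe_matF {m : κ → κ → X → G} (hm : ∀ a b, BM μ (m a b)) (u : HH μ κ) :
    ∀ᵐ x ∂μ, ∀ a, (matF hm u a : Lp G 2 μ) x = ∑ b, u b x • m a b x := by
  rw [ae_all_iff]
  intro a
  have h1 : ∀ᵐ x ∂μ, ∀ b, (mulF (hm a b) (u b) : Lp G 2 μ) x = u b x • m a b x :=
    ae_all_iff.2 fun b => coe_mulF (hm a b) (u b)
  filter_upwards [h1, Lp.coeFn_fun_finsetSum Finset.univ (fun b => mulF (hm a b) (u b))]
    with x e1 e2
  rw [matF_apply, e2]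
  exact Finset.sum_congr rfl fun b _ => e1 b

end mat

namespace AD

variable {S : GradS X F μ} {κ : Type} [Fintype κ] (A : AD S κ)

/-- the projection on `L²` -/
def P : HH μ κ →L[ℝ] HH μ κ := matF A.hp

lemma coe_P (u : HH μ κ) : ∀ᵐ x ∂μ, ∀ a, (A.P u a : Lp ℝ 2 μ) x = ∑ b, A.p a b x * u b x := by
  filter_upwards [coe_matF A.hp u] with x hx a
  rw [P, hx a]
  exact Finset.sum_congr rfl fun b _ => by rw [smul_eq_mul, mul_comm]

lemma P_P (u : HH μ κ) : A.P (A.P u) = A.P u := by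
  ext a
  filter_upwards [A.coe_P (A.P u), A.coe_P u] with x e1 e2
  rw [e1 a, e2 a]
  simp only [e2]
  simp only [Finset.mul_sum]
  rw [Finset.sum_comm]
  refine Finset.sum_congr rfl fun b _ => ?_
  rw [← A.idem a b x, Finset.sum_mul]
  exact Finset.sum_congr rfl fun c _ => by ring

lemma inner_P (u v : HH μ κ) : ⟪A.P u, v⟫ = ⟪u, A.P v⟫ := by
  have h : ∀ u v : HH μ κ, ⟪A.P u, v⟫ = ∫ x, ∑ a, ∑ b, A.p a b x * u b x * v a x ∂μ := by
    intro u v
    rw [PiLp.inner_apply]
    simp only [L2.inner_def]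
    rw [← integral_finsetSum]
    · refine integral_congr_ae ?_
      filter_upwards [A.coe_P u] with x e1
      refine Finset.sum_congr rfl fun a _ => ?_
      rw [e1 a]
      simp only [Real.inner_apply]
      rw [Finset.sum_mul]
    · intro a _
      exact L2.integrable_inner _ _
  rw [h u v, real_inner_comm, h v u]
  refine integral_congr_ae (Filter.Eventually.of_forall fun x => ?_)
  simp only
  rw [Finset.sum_comm]
  refine Finset.sum_congr rfl fun a _ => Finset.sum_congr rfl fun b _ => ?_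
  rw [A.symmp b a x]
  ring

/-- `L²(E)` -/
def HE : Submodule ℝ (HH μ κ) where
  carrier := {u | A.P u = u}
  zero_mem' := map_zero _
  add_mem' := fun {u v} hu hv => by
    rw [mem_ofPred_eq] at *
    rw [map_add, hu, hv]
  smul_mem' := fun c u hu => by
    rw [mem_ofPred_eq] at *
    rw [map_smul, hu]

lemma mem_HE {u : HH μ κ} : u ∈ A.HE ↔ A.P u = u := Iff.rfl

lemma isClosed_HE : IsClosed (A.HE : Set (HH μ κ)) :=
  isClosed_eq A.P.continuous continuous_id

instance : CompleteSpace A.HE := A.isClosed_HE.completeSpace_coe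

/-- the graph space -/
abbrev Amb (_A : AD S κ) := WithLp 2 (HH μ κ × GG F μ κ)

/-- `W^{1,2}(E)` -/
def WE : Submodule ℝ A.Amb where
  carrier := {w | (∀ a, (w.fst a, w.snd a) ∈ S.graphC) ∧ A.P w.fst = w.fst}
  zero_mem' := ⟨fun _ => S.graphC.zero_mem, map_zero _⟩
  add_mem' := fun {u v} hu hv =>
    ⟨fun a => S.graphC.add_mem (hu.1 a) (hv.1 a), by
      have : (u + v).fst = u.fst + v.fst := rfl
      rw [this, map_add, hu.2, hv.2]⟩
  smul_mem' := fun c u hu =>
    ⟨fun a => S.graphC.smul_mem c (hu.1 a), by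
      have : (c • u).fst = c • u.fst := rfl
      rw [this, map_smul, hu.2]⟩

lemma mem_WE {w : A.Amb} : w ∈ A.WE ↔ (∀ a, (w.fst a, w.snd a) ∈ S.graphC) ∧ A.P w.fst = w.fst :=
  Iff.rfl

/-- the first component -/
def f1 : A.Amb →L[ℝ] HH μ κ := WithLp.fstL 2 ℝ _ _
/-- the second component -/
def f2 : A.Amb →L[ℝ] GG F μ κ := WithLp.sndL 2 ℝ _ _

@[simp] lemma f1_apply (w : A.Amb) : A.f1 w = w.fst := rfl
@[simp] lemma f2_apply (w : A.Amb) : A.f2 w = w.snd := rfl

lemma isClosed_WE : IsClosed (A.WE : Set A.Amb) := by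
  have h1 : ∀ a, Continuous fun w : A.Amb => (w.fst a, w.snd a) := fun a =>
    ((PiLp.proj (𝕜 := ℝ) 2 (fun _ : κ => Lp ℝ 2 μ) a).continuous.comp A.f1.continuous).prodMk
      ((PiLp.proj (𝕜 := ℝ) 2 (fun _ : κ => Lp F 2 μ) a).continuous.comp A.f2.continuous)
  have h2 : IsClosed {w : A.Amb | ∀ a, (w.fst a, w.snd a) ∈ S.graphC} := by
    simp only [ofPred_forall]
    exact isClosed_iInter fun a => S.isClosed_graphC.preimage (h1 a)
  have h3 : IsClosed {w : A.Amb | A.P w.fst = w.fst} :=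
    isClosed_eq (A.P.continuous.comp A.f1.continuous) A.f1.continuous
  exact h2.inter h3

instance [CompleteSpace F] : CompleteSpace A.WE := A.isClosed_WE.completeSpace_coe

/-- the embedding -/
def jj : A.WE →L[ℝ] A.HE :=
  (A.f1.comp A.WE.subtypeL).codRestrict A.HE fun w => w.2.2

lemma coe_jj (w : A.WE) : (A.jj w : HH μ κ) = (w : A.Amb).fst := rfl

lemma jj_injective : Function.Injective A.jj := by
  intro w w' h
  have h1 : (w : A.Amb).fst = (w' : A.Amb).fst := congrArg Subtype.val h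
  have h2 : (w : A.Amb).snd = (w' : A.Amb).snd := by
    ext1 a
    have e1 := S.D_eq (w.2.1 a)
    have e2 := S.D_eq (w'.2.1 a)
    rw [← e1, ← e2, h1]
  apply Subtype.ext
  have h3 : ((w : A.Amb).fst, (w : A.Amb).snd) = ((w' : A.Amb).fst, (w' : A.Amb).snd) := by
    rw [h1, h2]
  exact WithLp.ofLp_injective 2 h3

/-- the covariant derivative on the graph space -/
def cvL : A.Amb →L[ℝ] GG F μ κ := A.f2 + (matF A.hw).comp A.f1

/-- the potential -/
def qL : HH μ κ →L[ℝ] HH μ κ := matF A.hq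

lemma cvL_apply (w : A.Amb) : A.cvL w = w.snd + matF A.hw w.fst := rfl

end AD

end spaces

end Crest.Agent.R249.Tv57
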