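import Crest.Agent.R249.Tv3_57
import Mathlib.Analysis.Normed.Operator.Compact.Basic

/-!
# R249 (C-TV), part 4: the form `⟪D u, D v⟫ + ⟪Q u, v⟫ + c ⟪u, v⟫` on `W^{1,2}(E)`, compactness and
density of the embedding, the weak eigen-equation against all `v`.
(helper57)
-/

set_option autoImplicit false
set_option linter.unusedSectionVars false
open MeasureTheory Set Filter Topology
open scoped ENNReal NNReal RealInnerProductSpace

noncomputable section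
namespace Crest.Agent.R249.Tv57

open Crest.Agent.R247.Dir593 Crest.Agent.R202.Sp

section absform
variable {V H H' G : Type*} [NormedAddCommGroup V] [InnerProductSpace ℝ V] [NormedAddCommGroup H]
  [InnerProductSpace ℝ H] [NormedAddCommGroup H'] [InnerProductSpace ℝ H'] [NormedAddCommGroup G]
  [InnerProductSpace ℝ G]

/-- the abstract form `⟪c u, c v⟫ + ⟪q i u, i v⟫ + s ⟪i u, i v⟫` -/
def cformOf (j : V →L[ℝ] H) (i : V →L[ℝ] H') (c : V →L[ℝ] G) (q : H' →L[ℝ] H') (m : ℝ)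
    (hj : ∀ v, ‖j v‖ = ‖i v‖) (hq : ∀ u v, ⟪q u, v⟫ = ⟪u, q v⟫)
    (hc : ∀ v, ‖v‖ ^ 2 ≤ ‖i v‖ ^ 2 + (2 * ‖c v‖ ^ 2 + 2 * (m ^ 2 * ‖i v‖ ^ 2))) : CForm j where
  a := gram2 c c + gram2 (q.comp i) i + (‖q‖ + m ^ 2) • gram2 i i
  symm u v := by
    show ⟪c u, c v⟫ + ⟪q (i u), i v⟫ + (‖q‖ + m ^ 2) * ⟪i u, i v⟫ =
      ⟪c v, c u⟫ + ⟪q (i v), i u⟫ + (‖q‖ + m ^ 2) * ⟪i v, i u⟫
    rw [real_inner_comm (c v), real_inner_comm (i v) (i u), hq, real_inner_comm (q (i v))]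
  nonneg v := by
    show 0 ≤ ⟪c v, c v⟫ + ⟪q (i v), i v⟫ + (‖q‖ + m ^ 2) * ⟪i v, i v⟫
    rw [real_inner_self_eq_norm_sq, real_inner_self_eq_norm_sq]
    have h1 : |⟪q (i v), i v⟫| ≤ ‖q‖ * ‖i v‖ ^ 2 := by
      refine (abs_real_inner_le_norm _ _).trans ?_
      rw [sq, ← mul_assoc]
      gcongr
      exact q.le_opNorm _
    have h2 := (abs_le.1 h1).1
    have h3 : 0 ≤ m ^ 2 * ‖i v‖ ^ 2 := by positivity
    have h4 : 0 ≤ ‖c v‖ ^ 2 := by positivity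
    nlinarith
  c := 1 / 2
  c_pos := by norm_num
  coer v := by
    show 1 / 2 * ‖v‖ ^ 2 ≤ ⟪c v, c v⟫ + ⟪q (i v), i v⟫ + (‖q‖ + m ^ 2) * ⟪i v, i v⟫ + ‖j v‖ ^ 2
    rw [real_inner_self_eq_norm_sq, real_inner_self_eq_norm_sq, hj]
    have h1 : |⟪q (i v), i v⟫| ≤ ‖q‖ * ‖i v‖ ^ 2 := by
      refine (abs_real_inner_le_norm _ _).trans ?_
      rw [sq, ← mul_assoc]
      gcongr
      exact q.le_opNorm _
    have h2 := (abs_le.1 h1).1
    have h3 : 0 ≤ ‖i v‖ ^ 2 := by positivity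
    have h4 := hc v
    nlinarith

lemma cformOf_apply (j : V →L[ℝ] H) (i : V →L[ℝ] H') (c : V →L[ℝ] G) (q : H' →L[ℝ] H') (m : ℝ)
    (hj : ∀ v, ‖j v‖ = ‖i v‖) (hq : ∀ u v, ⟪q u, v⟫ = ⟪u, q v⟫)
    (hc : ∀ v, ‖v‖ ^ 2 ≤ ‖i v‖ ^ 2 + (2 * ‖c v‖ ^ 2 + 2 * (m ^ 2 * ‖i v‖ ^ 2))) (u v : V) :
    (cformOf j i c q m hj hq hc).a u v = ⟪c u, c v⟫ + ⟪q (i u), i v⟫ + (‖q‖ + m ^ 2) * ⟪i u, i v⟫ :=
  rfl

lemma sq_bound {s t u : G} {m a : ℝ} (h : s = t - u) (hu : ‖u‖ ≤ m * a) :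
    ‖s‖ ^ 2 ≤ 2 * ‖t‖ ^ 2 + 2 * (m ^ 2 * a ^ 2) := by
  rw [h]
  have e1 := norm_sub_le t u
  have e4 : 0 ≤ ‖t - u‖ := norm_nonneg _
  have e5 : 0 ≤ ‖t‖ := norm_nonneg _
  have e6 : 0 ≤ ‖u‖ := norm_nonneg _
  nlinarith [sq_nonneg (‖t‖ - m * a)]

end absform

section
variable {X : Type*} [MetricSpace X] [MeasurableSpace X] [BorelSpace X] {F : Type*}
  [NormedAddCommGroup F] [InnerProductSpace ℝ F] {μ : Measure X} [IsFiniteMeasureOnCompacts μ]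

/-- symmetric matrix multipliers are symmetric operators -/
lemma inner_matF_symm {κ : Type} [Fintype κ] {m : κ → κ → X → ℝ} (hm : ∀ a b, BM μ (m a b))
    (hs : ∀ a b x, m a b x = m b a x) (u v : HH μ κ) : ⟪matF hm u, v⟫ = ⟪u, matF hm v⟫ := by
  have h : ∀ u v : HH μ κ, ⟪matF hm u, v⟫ = ∫ x, ∑ a, ∑ b, m a b x * u b x * v a x ∂μ := by
    intro u v
    rw [PiLp.inner_apply]
    simp only [L2.inner_def]
    rw [← integral_finsetSum]
    · refine integral_congr_ae ?_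
      filter_upwards [coe_matF hm u] with x e1
      refine Finset.sum_congr rfl fun a _ => ?_
      rw [e1 a]
      simp only [Real.inner_apply, smul_eq_mul]
      rw [Finset.sum_mul]
      exact Finset.sum_congr rfl fun b _ => by ring
    · intro a _
      exact L2.integrable_inner _ _
  rw [h u v, real_inner_comm, h v u]
  refine integral_congr_ae (Filter.Eventually.of_forall fun x => ?_)
  simp only
  rw [Finset.sum_comm]
  refine Finset.sum_congr rfl fun a _ => Finset.sum_congr rfl fun b _ => ?_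
  rw [hs a b x]
  ring

namespace AD

variable {S : GradS X F μ} {κ : Type} [Fintype κ] (A : AD S κ)

/-! ### the form -/

/-- the shift -/
def shift : ℝ := ‖A.qL‖ + ‖matF A.hw‖ ^ 2

lemma shift_nonneg : 0 ≤ A.shift := by unfold shift; positivity

/-- the inclusion `W^{1,2}(E) → L²` -/
def i1 : A.WE →L[ℝ] HH μ κ := A.f1.comp A.WE.subtypeL
/-- the covariant derivative on `W^{1,2}(E)` -/
def c1 : A.WE →L[ℝ] GG F μ κ := A.cvL.comp A.WE.subtypeL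

lemma norm_sq_eq (w : A.Amb) : ‖w‖ ^ 2 = ‖w.fst‖ ^ 2 + ‖w.snd‖ ^ 2 :=
  WithLp.prod_norm_sq_eq_of_L2 w

lemma norm_WE_le (v : A.WE) : ‖v‖ ^ 2 ≤ ‖A.i1 v‖ ^ 2 +
    (2 * ‖A.c1 v‖ ^ 2 + 2 * (‖matF A.hw‖ ^ 2 * ‖A.i1 v‖ ^ 2)) := by
  have hv : ‖v‖ ^ 2 = ‖A.i1 v‖ ^ 2 + ‖(v : A.Amb).snd‖ ^ 2 := A.norm_sq_eq (v : A.Amb)
  have hs : (v : A.Amb).snd = A.c1 v - matF A.hw (A.i1 v) :=
    (add_sub_cancel_right _ _).symm
  rw [hv]
  gcongr
  exact sq_bound hs ((matF A.hw).le_opNorm _)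

/-- the form -/
def form : CForm (V := A.WE) (H := A.HE) A.jj := by
  refine cformOf (V := A.WE) (H := A.HE) (H' := HH μ κ) (G := GG F μ κ) A.jj A.i1 A.c1 A.qL
    ‖matF A.hw‖ ?_ ?_ ?_
  · intro v; rfl
  · exact inner_matF_symm A.hq A.symmq
  · intro v
    exact A.norm_WE_le v

lemma form_apply (u v : A.WE) : A.form.a u v =
    ⟪A.c1 u, A.c1 v⟫ + ⟪A.qL (A.i1 u), A.i1 v⟫ + A.shift * ⟪A.i1 u, A.i1 v⟫ := rfl

end AD

/-! ### compactness -/

section cpt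
variable {V H : Type*} [NormedAddCommGroup V] [NormedSpace ℝ V] [NormedAddCommGroup H]
  [NormedSpace ℝ H] [CompleteSpace H]

theorem compact_of_approx {j : V →L[ℝ] H}
    (h : ∀ ε > 0, ∃ T : V →L[ℝ] H, IsCompactOperator T ∧ ∀ v, ‖j v - T v‖ ≤ ε * ‖v‖) :
    IsCompactOperator j := by
  choose! T hT using h
  have h1 : Tendsto (fun k : ℕ => T (1 / ((k : ℝ) + 1))) atTop (𝓝 j) := by
    rw [tendsto_iff_norm_sub_tendsto_zero]
    refine squeeze_zero (fun _ => norm_nonneg _) (fun k => ?_)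
      tendsto_one_div_add_atTop_nhds_zero_nat
    have hk : (0:ℝ) < 1 / ((k : ℝ) + 1) := by positivity
    refine ContinuousLinearMap.opNorm_le_bound _ hk.le fun v => ?_
    rw [sub_apply, norm_sub_rev]
    exact (hT _ hk).2 v
  exact isCompactOperator_of_tendsto h1 (Filter.Eventually.of_forall fun k =>
    (hT _ (by positivity)).1)

end cpt

section cw
variable {κ : Type} [Fintype κ]

open Classical in
/-- componentwise operator -/
def cw (κ : Type) [Fintype κ] (T : Lp ℝ 2 μ →L[ℝ] Lp ℝ 2 μ) : HH μ κ →L[ℝ] HH μ κ :=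
  ∑ a, ((((PiLp.continuousLinearEquiv 2 ℝ (fun _ : κ => Lp ℝ 2 μ)).symm :
      (∀ _ : κ, Lp ℝ 2 μ) →L[ℝ] HH μ κ).comp (ContinuousLinearMap.single ℝ (fun _ : κ => Lp ℝ 2 μ) a)).comp
        (T.comp (PiLp.proj 2 _ a)))

lemma cw_apply (T : Lp ℝ 2 μ →L[ℝ] Lp ℝ 2 μ) (u : HH μ κ) (a : κ) : cw κ T u a = T (u a) := by
  classical
  simp [cw, Pi.single_apply]

lemma compact_cw {T : Lp ℝ 2 μ →L[ℝ] Lp ℝ 2 μ} (hT : IsCompactOperator T) :
    IsCompactOperator (cw κ T : HH μ κ →L[ℝ] HH μ κ) := by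
  classical
  unfold cw
  have h : ∀ s : Finset κ, IsCompactOperator (∑ a ∈ s,
      ((((PiLp.continuousLinearEquiv 2 ℝ (fun _ : κ => Lp ℝ 2 μ)).symm :
      (∀ _ : κ, Lp ℝ 2 μ) →L[ℝ] HH μ κ).comp (ContinuousLinearMap.single ℝ (fun _ : κ => Lp ℝ 2 μ) a)).comp
        (T.comp (PiLp.proj 2 _ a))) : HH μ κ →L[ℝ] HH μ κ) := by
    intro s
    induction s using Finset.induction_on with
    | empty => simpa using isCompactOperator_zero
    | insert a t ha ih =>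
      rw [Finset.sum_insert ha]
      refine IsCompactOperator.add ?_ ih
      have h1 : IsCompactOperator (T.comp (PiLp.proj 2 (fun _ : κ => Lp ℝ 2 μ) a) :
          HH μ κ →L[ℝ] Lp ℝ 2 μ) := hT.comp_clm _
      exact h1.clm_comp ((((PiLp.continuousLinearEquiv 2 ℝ (fun _ : κ => Lp ℝ 2 μ)).symm :
        (∀ _ : κ, Lp ℝ 2 μ) →L[ℝ] HH μ κ).comp
          (ContinuousLinearMap.single ℝ (fun _ : κ => Lp ℝ 2 μ) a)))
  exact h Finset.univ

end cw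

namespace AD

variable {S : GradS X F μ} {κ : Type} [Fintype κ] (A : AD S κ)

/-- the Friedrichs property of the scalar form domain -/
def Fried (S : GradS X F μ) : Prop := ∀ ε > 0, ∃ T : Lp ℝ 2 μ →L[ℝ] Lp ℝ 2 μ, IsCompactOperator T ∧
  ∀ u ∈ S.V, ‖u - T u‖ ≤ ε * ‖S.D u‖

theorem compact_i1 (hS : Fried S) : IsCompactOperator A.i1 := by
  refine compact_of_approx fun ε hε => ?_
  obtain ⟨T, hT, hTe⟩ := hS ε hε
  refine ⟨(cw κ T).comp A.i1, (compact_cw hT).comp_clm A.i1, fun v => ?_⟩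
  have h1 : ‖A.i1 v - cw κ T (A.i1 v)‖ ^ 2 ≤ (ε * ‖v‖) ^ 2 := by
    rw [PiLp.norm_sq_eq_of_L2]
    have hv : ‖v‖ ^ 2 = ‖A.i1 v‖ ^ 2 + ‖(v : A.Amb).snd‖ ^ 2 := A.norm_sq_eq (v : A.Amb)
    have hsn : ‖(v : A.Amb).snd‖ ^ 2 = ∑ a, ‖(v : A.Amb).snd a‖ ^ 2 := PiLp.norm_sq_eq_of_L2 _ _
    calc ∑ a, ‖(A.i1 v - cw κ T (A.i1 v)) a‖ ^ 2 ≤ ∑ a, ε ^ 2 * ‖(v : A.Amb).snd a‖ ^ 2 := by
          refine Finset.sum_le_sum fun a _ => ?_
          have e1 : (A.i1 v - cw κ T (A.i1 v)) a = (A.i1 v) a - T ((A.i1 v) a) := by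
            rw [← cw_apply T (A.i1 v) a]; rfl
          have hg : ((A.i1 v) a, (v : A.Amb).snd a) ∈ S.graphC := v.2.1 a
          have hV : (A.i1 v) a ∈ S.V := S.mem_V.2 ⟨_, hg⟩
          have e2 := hTe _ hV
          rw [S.D_eq hg] at e2
          rw [e1, ← mul_pow]
          exact pow_le_pow_left₀ (norm_nonneg _) e2 2
      _ = ε ^ 2 * ‖(v : A.Amb).snd‖ ^ 2 := by rw [hsn, Finset.mul_sum]
      _ ≤ (ε * ‖v‖) ^ 2 := by
          rw [mul_pow, hv]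
          have := sq_nonneg ‖A.i1 v‖
          gcongr
          linarith
  exact (pow_le_pow_iff_left₀ (norm_nonneg _) (by positivity) two_ne_zero).1 h1

theorem compact_jj (hS : Fried S) : IsCompactOperator A.jj :=
  (A.compact_i1 hS).codRestrict (V := A.HE) (fun w => (A.jj w).2) A.isClosed_HE

/-! ### density -/

/-- an element of `W^{1,2}(E)` -/
def mkW (u : HH μ κ) (hu : ∀ a, u a ∈ S.V) (hP : A.P u = u) : A.WE :=
  ⟨WithLp.toLp 2 (u, WithLp.toLp 2 fun a => S.D (u a)), fun a => S.D_mem (hu a), hP⟩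

lemma P_mem {u : HH μ κ} (hu : ∀ a, u a ∈ S.V) (a : κ) :
    A.P u a ∈ S.V ∧ ∀ᵐ x ∂μ, (S.D (A.P u a) : X → F) x =
      ∑ b, (A.p a b x • S.D (u b) x + u b x • S.G (A.p a b) x) := by
  have h1 : ∀ b, mulF (A.hp a b) (u b) ∈ S.V ∧ (S.D (mulF (A.hp a b) (u b)) : X → F) =ᵐ[μ]
      fun x => A.p a b x • S.D (u b) x + u b x • S.G (A.p a b) x := fun b =>
    S.D_mul_test (hu b) (A.hT a b) (by
      filter_upwards [coe_mulF (A.hp a b) (u b)] with x hx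
      rw [hx, smul_eq_mul, mul_comm])
  have h2 : A.P u a = ∑ b, mulF (A.hp a b) (u b) := matF_apply A.hp u a
  have h3 : ∀ s : Finset κ, (∑ b ∈ s, mulF (A.hp a b) (u b)) ∈ S.V ∧
      S.D (∑ b ∈ s, mulF (A.hp a b) (u b)) = ∑ b ∈ s, S.D (mulF (A.hp a b) (u b)) := by
    classical
    intro s
    induction s using Finset.induction_on with
    | empty => exact ⟨by simp, by simpa using S.D_zero⟩
    | insert b t hb ih =>
      rw [Finset.sum_insert hb, Finset.sum_insert hb]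
      exact ⟨S.V.add_mem (h1 b).1 ih.1, by rw [S.D_add (h1 b).1 ih.1, ih.2]⟩
  rw [h2]
  refine ⟨(h3 Finset.univ).1, ?_⟩
  rw [(h3 Finset.univ).2]
  have h4 : ∀ᵐ x ∂μ, ∀ b, (S.D (mulF (A.hp a b) (u b)) : X → F) x =
      A.p a b x • S.D (u b) x + u b x • S.G (A.p a b) x := ae_all_iff.2 fun b => (h1 b).2
  filter_upwards [h4, Lp.coeFn_fun_finsetSum Finset.univ (fun b => S.D (mulF (A.hp a b) (u b)))]
    with x e1 e2
  rw [e2]
  exact Finset.sum_congr rfl fun b _ => e1 b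

theorem dense_jj (hd : Dense (S.V : Set (Lp ℝ 2 μ))) : DenseRange A.jj := by
  intro u
  have h1 : ∀ a, ∃ v : ℕ → Lp ℝ 2 μ, (∀ k, v k ∈ S.V) ∧ Tendsto v atTop (𝓝 ((u : HH μ κ) a)) := by
    intro a
    obtain ⟨v, hv, ht⟩ := mem_closure_iff_seq_limit.1 (hd ((u : HH μ κ) a))
    exact ⟨v, hv, ht⟩
  choose v hv ht using h1
  have h2 : Tendsto (fun k => (WithLp.toLp 2 (fun a => v a k) : HH μ κ)) atTop (𝓝 (u : HH μ κ)) := by
    have h3 : Tendsto (fun k => (fun a => v a k : κ → Lp ℝ 2 μ)) atTop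
        (𝓝 (fun a => (u : HH μ κ) a)) := tendsto_pi_nhds.2 ht
    exact ((PiLp.continuous_toLp 2 (fun _ : κ => Lp ℝ 2 μ)).tendsto _).comp h3
  have h4 : Tendsto (fun k => A.P (WithLp.toLp 2 (fun a => v a k) : HH μ κ)) atTop
      (𝓝 (u : HH μ κ)) := by
    have := (A.P.continuous.tendsto _).comp h2
    rwa [show A.P (u : HH μ κ) = u from u.2] at this
  have h5 : ∀ k, A.P (WithLp.toLp 2 (fun a => v a k) : HH μ κ) ∈ A.HE := fun k => A.P_P _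
  refine mem_closure_of_tendsto (f := fun k => (⟨_, h5 k⟩ : A.HE)) (tendsto_subtype_rng.2 h4)
    (Filter.Eventually.of_forall fun k => ?_)
  exact ⟨A.mkW _ (fun a => (A.P_mem (u := (WithLp.toLp 2 (fun a => v a k) : HH μ κ))
    (fun a => hv a k) a).1) (A.P_P _), rfl⟩

end AD
end

end Crest.Agent.R249.Tv57
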