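import Crest.Agent.R249.Tv4_57

/-!
# R249 (C-TV), part 5: weak eigenfunctions.

* `not_finiteDimensional` : `L²(E)` is infinite dimensional;
* `exists_weak` : the spectral theorem of the form `∫ en u v`, in plain terms.
(helper57)
-/

set_option autoImplicit false
set_option linter.unusedSectionVars false
open MeasureTheory Set Filter Topology
open scoped ENNReal NNReal RealInnerProductSpace

noncomputable section
namespace Crest.Agent.R249.Tv57

open Crest.Agent.R247.Dir593 Crest.Agent.R202.Sp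

variable {X : Type*} [MetricSpace X] [MeasurableSpace X] [BorelSpace X] {F : Type*}
  [NormedAddCommGroup F] [InnerProductSpace ℝ F] {μ : Measure X} [IsFiniteMeasureOnCompacts μ]

lemma rin (a b : ℝ) : (inner ℝ a b : ℝ) = a * b := by simp [mul_comm]

namespace AD

variable {S : GradS X F μ} {κ : Type} [Fintype κ] (A : AD S κ)

/-! ### infinite dimension -/

lemma p_self (a : κ) (x : X) : A.p a a x = ∑ c, A.p a c x ^ 2 := by
  rw [← A.idem a a x]
  refine Finset.sum_congr rfl fun c _ => ?_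
  rw [A.symmp c a x, sq]

theorem not_finiteDimensional [IsFiniteMeasure μ] [μ.IsOpenPosMeasure] (hat : ∀ x : X, μ {x} = 0)
    {x0 : X} {a : κ} (h : A.p a a x0 ≠ 0) : ¬ FiniteDimensional ℝ A.HE := by
  classical
  have hcont : Continuous (A.p a a) := (A.hT a a).1.continuous
  set W : Set X := {x | A.p a a x ≠ 0} with hW
  have hWo : IsOpen W := isOpen_ne_fun hcont continuous_const
  have hinf : Infinite W := by
    rw [infinite_coe_iff]
    intro hfin
    have h0 : μ (⋃ x ∈ W, ({x} : Set X)) = 0 :=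
      (measure_biUnion_null_iff hfin.countable).2 fun x _ => hat x
    have h1 : μ W = 0 := measure_mono_null (fun x hx => mem_biUnion hx (mem_singleton x)) h0
    exact (hWo.measure_pos μ ⟨x0, h⟩).ne' h1
  obtain ⟨U, hUi, hUo, hUd⟩ := exists_seq_infinite_isOpen_pairwise_disjoint W
  set U' : ℕ → Set X := fun k => Subtype.val '' U k with hU'
  have hU'o : ∀ k, IsOpen (U' k) := fun k => hWo.isOpenMap_subtype_val _ (hUo k)
  have hU'm : ∀ k, MeasurableSet (U' k) := fun k => (hU'o k).measurableSet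
  have hU'd : ∀ k l, k ≠ l → Disjoint (U' k) (U' l) := fun k l hkl =>
    (disjoint_image_iff Subtype.val_injective).2 (hUd hkl)
  have hU'p : ∀ k, 0 < μ (U' k) := fun k => (hU'o k).measure_pos μ ((hUi k).nonempty.image _)
  have hU'f : ∀ k, μ (U' k) ≠ ∞ := fun k => measure_ne_top _ _
  -- the family
  set g : ℕ → HH μ κ := fun k => WithLp.toLp 2 fun b =>
    if b = a then (ind (hU'm k) (hU'f k) : Lp ℝ 2 μ) else 0 with hg
  have hgP : ∀ k l, ⟪A.P (g k), g l⟫ = ∫ x in U' l, A.p a a x * (U' k).indicator (fun _ => 1) x ∂μ := by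
    intro k l
    rw [PiLp.inner_apply, Finset.sum_eq_single a]
    · have e1 : (g l) a = (ind (hU'm l) (hU'f l) : Lp ℝ 2 μ) := if_pos rfl
      rw [e1, inner_ind]
      refine setIntegral_congr_ae (hU'm l) ?_
      have e2 : ∀ᵐ x ∂μ, ∀ b, (g k b : Lp ℝ 2 μ) x =
          if b = a then (U' k).indicator (fun _ => (1:ℝ)) x else 0 := by
        rw [ae_all_iff]
        intro b
        by_cases hb : b = a
        · subst hb
          have : (g k) b = (ind (hU'm k) (hU'f k) : Lp ℝ 2 μ) := if_pos rfl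
          rw [this]
          filter_upwards [coe_ind (hU'm k) (hU'f k)] with x hx
          rw [if_pos rfl, hx]
        · have : (g k) b = 0 := if_neg hb
          rw [this]
          filter_upwards [Lp.coeFn_zero ℝ 2 μ] with x hx
          rw [if_neg hb, hx]; rfl
      filter_upwards [A.coe_P (g k), e2] with x h1 h2 _
      rw [h1 a]
      simp [h2]
    · intro b _ hb
      have : (g l) b = 0 := if_neg hb
      rw [this, inner_zero_right]
    · intro h; exact absurd (Finset.mem_univ a) h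
  have hpnn : ∀ x, 0 ≤ A.p a a x := fun x => by
    rw [A.p_self]; exact Finset.sum_nonneg fun c _ => sq_nonneg _
  have hin : ∀ k l, ⟪A.P (g k), A.P (g l)⟫ = ⟪A.P (g k), g l⟫ := fun k l => by
    rw [← A.inner_P, A.P_P]
  have hdis : ∀ k l, k ≠ l → ⟪A.P (g k), A.P (g l)⟫ = 0 := by
    intro k l hkl
    rw [hin, hgP]
    have : ∀ x ∈ U' l, A.p a a x * (U' k).indicator (fun _ => (1:ℝ)) x = 0 := by
      intro x hx
      rw [indicator_of_notMem (disjoint_left.1 (hU'd l k hkl.symm) hx), mul_zero]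
    rw [setIntegral_congr_fun (hU'm l) this, integral_zero]
  have hne : ∀ k, A.P (g k) ≠ 0 := by
    intro k h0
    have h1 := hgP k k
    rw [h0, inner_zero_left] at h1
    have h2 : ∫ x in U' k, A.p a a x * (U' k).indicator (fun _ => (1:ℝ)) x ∂μ =
        ∫ x in U' k, A.p a a x ∂μ := setIntegral_congr_fun (hU'm k) fun x hx => by
      rw [indicator_of_mem hx, mul_one]
    rw [h2] at h1
    have h3 : 0 < ∫ x in U' k, A.p a a x ∂μ := by
      rw [setIntegral_pos_iff_support_of_nonneg_ae (Filter.Eventually.of_forall hpnn)]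
      · have : U' k ⊆ Function.support (A.p a a) ∩ U' k := by
          rintro x hx
          refine ⟨?_, hx⟩
          obtain ⟨y, _, rfl⟩ := hx
          exact y.2
        exact lt_of_lt_of_le (hU'p k) (measure_mono this)
      · exact ((A.hT a a).memLp.integrable (by norm_num)).integrableOn
    rw [← h1] at h3
    exact lt_irrefl _ h3
  intro hfd
  have hli : LinearIndependent ℝ (fun k => (⟨A.P (g k), A.P_P _⟩ : A.HE)) := by
    refine linearIndependent_of_ne_zero_of_inner_eq_zero (𝕜 := ℝ) (fun k h0 => ?_) fun k l hkl => ?_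
    · exact hne k (congrArg Subtype.val h0)
    · exact hdis k l hkl
  have := hli.finite_of_isNoetherian
  exact not_finite ℕ

/-! ### the energy density -/

/-- the covariant derivative, as a function -/
def cvf (u : HH μ κ) (a : κ) (x : X) : F := S.D (u a) x + ∑ b, u b x • A.w a b x

/-- the energy density -/
def en (u v : HH μ κ) (x : X) : ℝ :=
  ∑ a, ⟪A.cvf u a x, A.cvf v a x⟫ + ∑ a, ∑ b, A.q a b x * u b x * v a x

lemma coe_c1 (u : A.WE) : ∀ᵐ x ∂μ, ∀ a, (A.c1 u a : Lp F 2 μ) x = A.cvf (A.i1 u) a x := by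
  rw [ae_all_iff]
  intro a
  have h1 : A.c1 u a = (u : A.Amb).snd a + matF A.hw (A.i1 u) a := rfl
  have h2 : (u : A.Amb).snd a = S.D ((A.i1 u) a) := (S.D_eq (u.2.1 a)).symm
  rw [h1, h2]
  filter_upwards [Lp.coeFn_add (S.D ((A.i1 u) a)) (matF A.hw (A.i1 u) a), coe_matF A.hw (A.i1 u)]
    with x e1 e2
  rw [e1, Pi.add_apply, e2 a]
  rfl

lemma form_eq (u v : A.WE) :
    ⟪A.c1 u, A.c1 v⟫ + ⟪A.qL (A.i1 u), A.i1 v⟫ = ∫ x, A.en (A.i1 u) (A.i1 v) x ∂μ := by
  have h1 : ⟪A.c1 u, A.c1 v⟫ = ∫ x, ∑ a, ⟪(A.c1 u a : Lp F 2 μ) x, (A.c1 v a : Lp F 2 μ) x⟫ ∂μ := by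
    rw [PiLp.inner_apply]
    simp only [L2.inner_def]
    rw [integral_finsetSum]
    intro a _
    exact L2.integrable_inner _ _
  have h2 : ⟪A.qL (A.i1 u), A.i1 v⟫ =
      ∫ x, ∑ a, (A.qL (A.i1 u) a : Lp ℝ 2 μ) x * (A.i1 v a : Lp ℝ 2 μ) x ∂μ := by
    rw [PiLp.inner_apply]
    simp only [L2.inner_def]
    rw [← integral_finsetSum]
    · refine integral_congr_ae (Filter.Eventually.of_forall fun x => ?_)
      exact Finset.sum_congr rfl fun a _ => rin _ _
    · intro a _
      exact L2.integrable_inner _ _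
  rw [h1, h2, ← integral_add]
  · refine integral_congr_ae ?_
    filter_upwards [A.coe_c1 u, A.coe_c1 v, coe_matF A.hq (A.i1 u)] with x e1 e2 e3
    rw [en]
    congr 1
    · exact Finset.sum_congr rfl fun a _ => by rw [e1 a, e2 a]
    · refine Finset.sum_congr rfl fun a _ => ?_
      rw [show A.qL = matF A.hq from rfl, e3 a, Finset.sum_mul]
      refine Finset.sum_congr rfl fun b _ => ?_
      rw [smul_eq_mul]
      ring
  · exact integrable_finsetSum _ fun a _ => L2.integrable_inner _ _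
  · refine integrable_finsetSum _ fun a _ => ?_
    have := L2.integrable_inner (𝕜 := ℝ) (A.qL (A.i1 u) a : Lp ℝ 2 μ) (A.i1 v a)
    exact this.congr (Filter.Eventually.of_forall fun x => rin _ _)

/-- the covariant derivative commutes with the projection -/
lemma cvf_P {u : HH μ κ} (hu : ∀ a, u a ∈ S.V) :
    ∀ᵐ x ∂μ, ∀ a, A.cvf (A.P u) a x = ∑ b, A.p a b x • A.cvf u b x := by
  have h1 : ∀ᵐ x ∂μ, ∀ a, (S.D (A.P u a) : X → F) x =
      ∑ b, (A.p a b x • S.D (u b) x + u b x • S.G (A.p a b) x) :=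
    ae_all_iff.2 fun a => (A.P_mem hu a).2
  have h2 : ∀ᵐ x ∂μ, ∀ a b, S.G (A.p a b) x +
      ∑ c, (A.p c b x • A.w a c x - A.p a c x • A.w c b x) = 0 :=
    ae_all_iff.2 fun a => ae_all_iff.2 fun b => A.par a b
  filter_upwards [h1, h2, A.coe_P u] with x e1 e2 e3 a
  have e4 : ∀ b, S.G (A.p a b) x = ∑ c, (A.p a c x • A.w c b x - A.p c b x • A.w a c x) := by
    intro b
    have := e2 a b
    rw [add_eq_zero_iff_eq_neg] at this
    rw [this, ← Finset.sum_neg_distrib]
    exact Finset.sum_congr rfl fun c _ => by rw [neg_sub]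
  rw [cvf, e1 a]
  simp only [e3, e4, cvf]
  simp only [smul_add, Finset.smul_sum, Finset.sum_add_distrib, smul_sub, Finset.sum_sub_distrib,
    Finset.sum_smul, smul_smul]
  rw [add_assoc]
  congr 1
  have e5 : ∑ b, ∑ c, (A.p b c x * u c x) • A.w a b x = ∑ b, ∑ c, (u b x * A.p c b x) • A.w a c x := by
    rw [Finset.sum_comm]
    exact Finset.sum_congr rfl fun b _ => Finset.sum_congr rfl fun c _ => by rw [mul_comm]
  rw [e5, sub_add_cancel, Finset.sum_comm]
  exact Finset.sum_congr rfl fun b _ => Finset.sum_congr rfl fun c _ => by rw [mul_comm]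

lemma en_P {u v : HH μ κ} (hu : ∀ a, u a ∈ S.V) (hv : ∀ a, v a ∈ S.V) (hP : A.P u = u) :
    ∀ᵐ x ∂μ, A.en u (A.P v) x = A.en u v x := by
  have h0 := A.cvf_P hu
  rw [hP] at h0
  have h1 := A.coe_P u
  rw [hP] at h1
  filter_upwards [h0, A.cvf_P hv, A.coe_P v, h1] with x e1 e2 e3 e4
  rw [en, en]
  congr 1
  · calc ∑ a, ⟪A.cvf u a x, A.cvf (A.P v) a x⟫
        = ∑ a, ∑ b, A.p a b x * ⟪A.cvf u a x, A.cvf v b x⟫ := by
          refine Finset.sum_congr rfl fun a _ => ?_
          rw [e2 a, inner_sum]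
          exact Finset.sum_congr rfl fun b _ => by rw [real_inner_smul_right]
      _ = ∑ b, ∑ a, A.p b a x * ⟪A.cvf u a x, A.cvf v b x⟫ := by
          rw [Finset.sum_comm]
          exact Finset.sum_congr rfl fun b _ => Finset.sum_congr rfl fun a _ => by rw [A.symmp]
      _ = ∑ b, ⟪A.cvf u b x, A.cvf v b x⟫ := by
          refine Finset.sum_congr rfl fun b _ => ?_
          conv_rhs => rw [e1 b]
          rw [sum_inner]
          exact Finset.sum_congr rfl fun a _ => by rw [real_inner_smul_left]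
  · simp only [e3]
    calc ∑ a, ∑ b, A.q a b x * u b x * ∑ c, A.p a c x * v c x
        = ∑ c, ∑ b, (∑ a, A.p c a x * A.q a b x) * u b x * v c x := by
          simp only [Finset.mul_sum, Finset.sum_mul]
          rw [Finset.sum_comm]
          have : ∀ b : κ, ∑ a, ∑ c, A.q a b x * u b x * (A.p a c x * v c x) =
              ∑ c, ∑ a, A.p c a x * A.q a b x * u b x * v c x := by
            intro b
            rw [Finset.sum_comm]
            refine Finset.sum_congr rfl fun c _ => Finset.sum_congr rfl fun a _ => ?_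
            rw [A.symmp a c]
            ring
          rw [Finset.sum_congr rfl fun b _ => this b, Finset.sum_comm]
      _ = ∑ c, ∑ b, (∑ a, A.q c a x * A.p a b x) * u b x * v c x := by
          refine Finset.sum_congr rfl fun c _ => Finset.sum_congr rfl fun b _ => ?_
          rw [A.comm c b x]
      _ = ∑ c, ∑ a, A.q c a x * u a x * v c x := by
          refine Finset.sum_congr rfl fun c _ => ?_
          simp only [Finset.sum_mul]
          rw [Finset.sum_comm]
          refine Finset.sum_congr rfl fun a _ => ?_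
          conv_rhs => rw [e4 a]
          rw [Finset.mul_sum, Finset.sum_mul]
          exact Finset.sum_congr rfl fun b _ => by ring

/-- **the spectral theorem for `∫ en u v`** -/
theorem exists_weak [CompleteSpace F] (hS : Fried S) (hd : Dense (S.V : Set (Lp ℝ 2 μ)))
    (hinf : ¬ FiniteDimensional ℝ A.HE) :
    ∃ (u : ℕ → HH μ κ) (lam : ℕ → ℝ), (∀ k a, u k a ∈ S.V) ∧ (∀ k, A.P (u k) = u k) ∧
      Monotone lam ∧ Tendsto lam atTop atTop ∧ (∀ k l, ⟪u k, u l⟫ = if k = l then (1:ℝ) else 0) ∧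
      (∀ f : HH μ κ, A.P f = f → HasSum (fun k => ⟪f, u k⟫ ^ 2) (‖f‖ ^ 2)) ∧
      ∀ k (v : HH μ κ), (∀ a, v a ∈ S.V) → ∫ x, A.en (u k) v x ∂μ = lam k * ⟪u k, v⟫ := by
  obtain ⟨Sq⟩ := A.form.exists_formSeq (A.compact_jj hS) (A.dense_jj hd) hinf
  have hju : ∀ k, A.i1 (Sq.ev k) = (Sq.e k : HH μ κ) := fun k => congrArg Subtype.val (Sq.j_ev k)
  have hV : ∀ k a, (Sq.e k : HH μ κ) a ∈ S.V := by
    intro k a
    rw [← hju]
    exact S.mem_V.2 ⟨_, (Sq.ev k).2.1 a⟩
  have hP : ∀ k, A.P (Sq.e k : HH μ κ) = (Sq.e k : HH μ κ) := fun k => (Sq.e k).2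
  refine ⟨fun k => (Sq.e k : HH μ κ), fun k => Sq.lam k - A.shift, hV, hP, ?_, ?_, ?_, ?_, ?_⟩
  · intro k l hkl
    have := Sq.mono hkl
    simp only
    linarith
  · exact tendsto_atTop_add_const_right _ _ Sq.lim
  · intro k l
    have := Sq.e.orthonormal
    rw [orthonormal_iff_ite] at this
    exact this k l
  · intro f hf
    have h1 := hasSum_sq_repr Sq.e (⟨f, hf⟩ : A.HE)
    refine h1.congr_fun ?_ |> fun h => h
    intro k
    show ⟪f, (Sq.e k : HH μ κ)⟫ ^ 2 = ⟪(Sq.e k : HH μ κ), f⟫ ^ 2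
    rw [real_inner_comm]
  · intro k v hv
    have hv' : ∀ a, A.P v a ∈ S.V := fun a => (A.P_mem hv a).1
    have h1 := Sq.eig k (A.mkW (A.P v) hv' (A.P_P v))
    rw [form_apply, form_eq, hju] at h1
    have h2 : A.i1 (A.mkW (A.P v) hv' (A.P_P v)) = A.P v := rfl
    rw [h2] at h1
    have h3 : ⟪(Sq.e k : HH μ κ), A.P v⟫ = ⟪(Sq.e k : HH μ κ), v⟫ := by
      rw [← A.inner_P, hP]
    have h4 : ⟪Sq.e k, A.jj (A.mkW (A.P v) hv' (A.P_P v))⟫ = ⟪(Sq.e k : HH μ κ), v⟫ := h3
    rw [h4, h3, integral_congr_ae (A.en_P (hV k) hv (hP k))] at h1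
    simp only
    linarith

end AD

end Crest.Agent.R249.Tv57
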