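import Crest.Agent.R249.SReg3_352

/-!
# R249 (C-TV), part 6: `sys_reg_euclid` for systems in the form that comes out of `D* D + Q`
(weak form with a zeroth order term under the divergence). (helper57)
-/

set_option autoImplicit false
set_option linter.unusedSectionVars false
open MeasureTheory Filter Topology Set
open scoped ENNReal NNReal ContDiff RealInnerProductSpace

namespace Crest.Agent.R249.Tv57
open Crest.GeometryTopology.CoordMetric Crest.Agent.R249.SReg352

noncomputable section

variable {n : ℕ} {κ : Type*} [Fintype κ]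

local notation "𝔼" => EuclideanSpace ℝ (Fin n)

lemma pderiv_eq_dd (i : Fin n) (φ : EuclideanSpace ℝ (Fin n) → ℝ) :
    pderiv i φ = Crest.Agent.R249.EV.dd (EuclideanSpace.single i (1:ℝ)) φ := rfl

lemma TO.pd {U : Set (EuclideanSpace ℝ (Fin n))} {φ : EuclideanSpace ℝ (Fin n) → ℝ} (h : TO U φ)
    (i : Fin n) : TO U (pderiv i φ) := h.dd _

/-- integration by parts with a smooth coefficient -/
theorem ibp_coef {U : Set (EuclideanSpace ℝ (Fin n))} (hU : IsOpen U)
    {g u v φ : EuclideanSpace ℝ (Fin n) → ℝ} {i : Fin n} (hg : ContDiffOn ℝ ∞ g U)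
    (hu : LocallyIntegrableOn u U) (hv : LocallyIntegrableOn v U)
    (hW : ∀ φ : EuclideanSpace ℝ (Fin n) → ℝ, ContDiff ℝ ∞ φ → HasCompactSupport φ →
      tsupport φ ⊆ U → ∫ x, u x * pderiv i φ x = - ∫ x, v x * φ x) (hφ : TO U φ) :
    ∫ x, (g x * u x) * pderiv i φ x = - ∫ x, (g x * v x + pderiv i g x * u x) * φ x := by
  have h1 := hφ.mul_on hU hg
  have h2 := hW _ h1.1.1 h1.1.2 h1.2
  have h3 : ∀ x, u x * pderiv i (fun x => g x * φ x) x =
      (g x * u x) * pderiv i φ x + u x * (pderiv i g x * φ x) := by
    intro x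
    by_cases hx : x ∈ U
    · have e : pderiv i (fun x => g x * φ x) x = g x * pderiv i φ x + pderiv i g x * φ x := by
        unfold pderiv
        have d1 : DifferentiableAt ℝ g x :=
          ((hg.contDiffAt (hU.mem_nhds hx)).differentiableAt (by simp))
        have d2 : DifferentiableAt ℝ φ x := hφ.1.1.differentiable (by simp) x
        have := (d1.hasFDerivAt.mul d2.hasFDerivAt).fderiv
        rw [show (fun x => g x * φ x) = g * φ from rfl, this]
        simp
        ring
      rw [e]; ring
    · have e1 : pderiv i (fun x => g x * φ x) x = 0 := (TO.pd h1 i).zero_off hx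
      have e2 : pderiv i φ x = 0 := (TO.pd hφ i).zero_off hx
      rw [e1, e2, hφ.zero_off hx]; ring
  have hgi : ContDiffOn ℝ ∞ (pderiv i g) U := by
    have := Crest.Agent.R249.SReg352.contDiffOn_dd hU hg (EuclideanSpace.single i (1:ℝ))
    exact this
  have i1 : Integrable (fun x => (g x * u x) * pderiv i φ x) := by
    have := integrable_mul_test hu ((TO.pd hφ i).mul_on hU hg)
    exact this.congr (Eventually.of_forall fun x => by simp only; ring)
  have i2 : Integrable (fun x => u x * (pderiv i g x * φ x)) :=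
    integrable_mul_test hu (hφ.mul_on hU hgi)
  have i3 : Integrable (fun x => v x * (g x * φ x)) := integrable_mul_test hv (hφ.mul_on hU hg)
  simp only [h3] at h2
  rw [integral_add i1 i2] at h2
  have h4 : ∫ x, (g x * v x + pderiv i g x * u x) * φ x =
      (∫ x, v x * (g x * φ x)) + ∫ x, u x * (pderiv i g x * φ x) := by
    rw [← integral_add i3 i2]
    refine integral_congr_ae (Eventually.of_forall fun x => ?_)
    simp only; ring
  rw [h4]
  linarith

/-- **regularity**, divergence form with lower order terms on both sides -/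
theorem sys_reg_div {U : Set (EuclideanSpace ℝ (Fin n))} (hU : IsOpen U)
    {A : Fin n → Fin n → EuclideanSpace ℝ (Fin n) → ℝ} (hA : ∀ i j, ContDiffOn ℝ ∞ (A i j) U)
    (hpos : ∀ x ∈ U, (Matrix.of fun i j => A i j x).PosDef)
    {W : κ → κ → Fin n → EuclideanSpace ℝ (Fin n) → ℝ} (hW : ∀ a b j, ContDiffOn ℝ ∞ (W a b j) U)
    {q : κ → κ → EuclideanSpace ℝ (Fin n) → ℝ} (hq : ∀ a b, ContDiffOn ℝ ∞ (q a b) U)
    {u : κ → EuclideanSpace ℝ (Fin n) → ℝ} {u' : Fin n → κ → EuclideanSpace ℝ (Fin n) → ℝ}
    (hu : ∀ a, L2on U (u a)) (hu' : ∀ i a, L2on U (u' i a))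
    (hWD : ∀ i a, ∀ φ : EuclideanSpace ℝ (Fin n) → ℝ, ContDiff ℝ ∞ φ → HasCompactSupport φ →
      tsupport φ ⊆ U → ∫ x, u a x * pderiv i φ x = - ∫ x, u' i a x * φ x)
    (heq : ∀ a, ∀ φ : EuclideanSpace ℝ (Fin n) → ℝ, ContDiff ℝ ∞ φ → HasCompactSupport φ →
      tsupport φ ⊆ U → ∫ x, ∑ i, ∑ j, A i j x * (u' j a x + ∑ b, u b x * W a b j x) * pderiv i φ x =
        - ∫ x, (∑ c, ∑ i, ∑ j, A i j x * (u' j c x + ∑ b, u b x * W c b j x) * W c a i x
          + ∑ b, q a b x * u b x) * φ x) :
    ∃ v : κ → EuclideanSpace ℝ (Fin n) → ℝ, (∀ a, ContDiffOn ℝ ∞ (v a) U) ∧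
      (∀ a, ∀ᵐ x, x ∈ U → v a x = u a x) ∧
      (∀ i a, ∀ᵐ x, x ∈ U → pderiv i (v a) x = u' i a x) := by
  classical
  set G : Fin n → κ → κ → EuclideanSpace ℝ (Fin n) → ℝ := fun i a b x => ∑ j, A i j x * W a b j x
    with hG
  have hGs : ∀ i a b, ContDiffOn ℝ ∞ (G i a b) U := fun i a b =>
    ContDiffOn.sum fun j _ => (hA i j).mul (hW a b j)
  have hGd : ∀ i a b, ContDiffOn ℝ ∞ (pderiv i (G i a b)) U := fun i a b =>
    Crest.Agent.R249.SReg352.contDiffOn_dd hU (hGs i a b) (EuclideanSpace.single i (1:ℝ))
  set B : Fin n → κ → κ → EuclideanSpace ℝ (Fin n) → ℝ := fun i a β x =>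
    G i a β x - ∑ l, A l i x * W β a l x with hB
  set Cc : κ → κ → EuclideanSpace ℝ (Fin n) → ℝ := fun a β x =>
    (∑ i, pderiv i (G i a β) x) - (∑ c, ∑ i, ∑ j, A i j x * W c β j x * W c a i x) - q a β x with hC
  have hBs : ∀ i a β, ContDiffOn ℝ ∞ (B i a β) U := fun i a β =>
    (hGs i a β).sub (ContDiffOn.sum fun l _ => (hA l i).mul (hW β a l))
  have hCs : ∀ a β, ContDiffOn ℝ ∞ (Cc a β) U := fun a β =>
    ((ContDiffOn.sum fun i _ => hGd i a β).sub (ContDiffOn.sum fun c _ => ContDiffOn.sum fun i _ =>
      ContDiffOn.sum fun j _ => ((hA i j).mul (hW c β j)).mul (hW c a i))).sub (hq a β)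
  have hf0 : ∀ a : κ, ContDiffOn ℝ ∞ (fun _ : EuclideanSpace ℝ (Fin n) => (0:ℝ)) U := fun _ =>
    contDiffOn_const
  obtain ⟨v, h1, h2, h3, -⟩ := sys_reg_euclid (κ := κ) hU (A := fun x => Matrix.of fun i j => A i j x)
    hA hpos hBs hCs (f := fun _ _ => 0) hf0 hu hu' hWD (fun a φ hφ1 hφ2 hφ3 => by
      have hφ : TO U φ := ⟨⟨hφ1, hφ2⟩, hφ3⟩
      have h0 := heq a φ hφ1 hφ2 hφ3
      -- integrability of elementary terms
      have I1 : ∀ i j, Integrable (fun x => (A i j x * u' j a x) * pderiv i φ x) := fun i j =>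
        (integrable_mul_test (hu' j a).1 ((TO.pd hφ i).mul_on hU (hA i j))).congr
          (Eventually.of_forall fun x => by simp only; ring)
      have I2 : ∀ i b, Integrable (fun x => (G i a b x * u b x) * pderiv i φ x) := fun i b =>
        (integrable_mul_test (hu b).1 ((TO.pd hφ i).mul_on hU (hGs i a b))).congr
          (Eventually.of_forall fun x => by simp only; ring)
      have I3 : ∀ i b, Integrable (fun x => (G i a b x * u' i b x + pderiv i (G i a b) x * u b x) * φ x) :=
        fun i b => ((integrable_mul_test (hu' i b).1 (hφ.mul_on hU (hGs i a b))).add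
          (integrable_mul_test (hu b).1 (hφ.mul_on hU (hGd i a b)))).congr
          (Eventually.of_forall fun x => by simp only [Pi.add_apply]; ring)
      have I4 : ∀ (g : EuclideanSpace ℝ (Fin n) → ℝ) (w : EuclideanSpace ℝ (Fin n) → ℝ),
          ContDiffOn ℝ ∞ g U → LocallyIntegrableOn w U → Integrable (fun x => (g x * w x) * φ x) :=
        fun g w hg hw => (integrable_mul_test hw (hφ.mul_on hU hg)).congr
          (Eventually.of_forall fun x => by simp only; ring)
      -- split the left side
      have e1 : ∫ x, ∑ i, ∑ j, A i j x * (u' j a x + ∑ b, u b x * W a b j x) * pderiv i φ x =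
          (∑ i, ∫ x, (∑ j, A i j x * u' j a x) * pderiv i φ x) +
            ∑ i, ∑ b, ∫ x, (G i a b x * u b x) * pderiv i φ x := by
        have p1 : ∀ x, ∑ i, ∑ j, A i j x * (u' j a x + ∑ b, u b x * W a b j x) * pderiv i φ x =
            (∑ i, (∑ j, A i j x * u' j a x) * pderiv i φ x) +
              ∑ i, ∑ b, (G i a b x * u b x) * pderiv i φ x := by
          intro x
          rw [← Finset.sum_add_distrib]
          refine Finset.sum_congr rfl fun i _ => ?_
          rw [← Finset.sum_mul, ← Finset.sum_mul, ← add_mul]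
          congr 1
          simp only [mul_add, Finset.sum_add_distrib, hG, Finset.mul_sum, Finset.sum_mul]
          congr 1
          rw [Finset.sum_comm]
          exact Finset.sum_congr rfl fun b _ => Finset.sum_congr rfl fun j _ => by ring
        simp only [p1]
        have J1 : ∀ i, Integrable (fun x => (∑ j, A i j x * u' j a x) * pderiv i φ x) := fun i =>
          (integrable_finsetSum Finset.univ fun j _ => I1 i j).congr
            (Eventually.of_forall fun x => by simp only [Finset.sum_mul])
        rw [integral_add (integrable_finsetSum _ fun i _ => J1 i)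
          (integrable_finsetSum _ fun i _ => integrable_finsetSum _ fun b _ => I2 i b),
          integral_finsetSum _ fun i _ => J1 i,
          integral_finsetSum _ fun i _ => integrable_finsetSum _ fun b _ => I2 i b]
        congr 1
        exact Finset.sum_congr rfl fun i _ => integral_finsetSum _ fun b _ => I2 i b
      have e2 : ∀ i b, ∫ x, (G i a b x * u b x) * pderiv i φ x =
          - ∫ x, (G i a b x * u' i b x + pderiv i (G i a b) x * u b x) * φ x := fun i b =>
        ibp_coef hU (hGs i a b) (hu b).1 (hu' i b).1 (hWD i b) hφ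
      have e3 : ∑ i, ∑ b, ∫ x, (G i a b x * u b x) * pderiv i φ x =
          - ∫ x, (∑ i, ∑ b, (G i a b x * u' i b x + pderiv i (G i a b) x * u b x)) * φ x := by
        simp only [e2, Finset.sum_neg_distrib]
        congr 1
        rw [← Finset.sum_congr rfl fun i _ => integral_finsetSum _ fun b _ => I3 i b,
          ← integral_finsetSum _ fun i _ => integrable_finsetSum _ fun b _ => I3 i b]
        refine integral_congr_ae (Eventually.of_forall fun x => ?_)
        simp only [Finset.sum_mul]
      have J2 : Integrable (fun x => (∑ i, ∑ b, (G i a b x * u' i b x + pderiv i (G i a b) x * u b x)) * φ x) :=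
        (integrable_finsetSum Finset.univ fun i _ => integrable_finsetSum Finset.univ fun b _ => I3 i b).congr
          (Eventually.of_forall fun x => by simp only [Finset.sum_mul])
      have J3 : Integrable (fun x => (∑ c, ∑ i, ∑ j, A i j x * (u' j c x + ∑ b, u b x * W c b j x) * W c a i x
          + ∑ b, q a b x * u b x) * φ x) := by
        have K1 : Integrable (fun x => ((∑ c, ∑ i, ∑ j, ((A i j x * W c a i x) * u' j c x) * φ x) +
            ∑ c, ∑ i, ∑ j, ∑ b, ((A i j x * W c b j x * W c a i x) * u b x) * φ x) +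
            ∑ b, (q a b x * u b x) * φ x) := by
          refine ((integrable_finsetSum _ fun c _ => integrable_finsetSum _ fun i _ =>
            integrable_finsetSum _ fun j _ => I4 _ _ ((hA i j).mul (hW c a i)) (hu' j c).1).add
            (integrable_finsetSum _ fun c _ => integrable_finsetSum _ fun i _ =>
            integrable_finsetSum _ fun j _ => integrable_finsetSum _ fun b _ =>
              I4 _ _ (((hA i j).mul (hW c b j)).mul (hW c a i)) (hu b).1)).add
            (integrable_finsetSum _ fun b _ => I4 _ _ (hq a b) (hu b).1)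
        refine K1.congr (Eventually.of_forall fun x => ?_)
        simp only [add_mul, Finset.sum_mul, mul_add, Finset.mul_sum, Finset.sum_add_distrib]
        congr 1
        congr 1
        · exact Finset.sum_congr rfl fun c _ => Finset.sum_congr rfl fun i _ =>
            Finset.sum_congr rfl fun j _ => by ring
        · exact Finset.sum_congr rfl fun c _ => Finset.sum_congr rfl fun i _ =>
            Finset.sum_congr rfl fun j _ => Finset.sum_congr rfl fun b _ => by ring
      rw [e1, e3] at h0
      have e4 : ∑ i, ∫ x, (∑ j, A i j x * u' j a x) * pderiv i φ x =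
          (∫ x, (∑ i, ∑ b, (G i a b x * u' i b x + pderiv i (G i a b) x * u b x)) * φ x) -
            ∫ x, (∑ c, ∑ i, ∑ j, A i j x * (u' j c x + ∑ b, u b x * W c b j x) * W c a i x
              + ∑ b, q a b x * u b x) * φ x := by linarith
      simp only [Matrix.of_apply]
      rw [e4, ← integral_sub J2 J3]
      refine integral_congr_ae (Eventually.of_forall fun x => ?_)
      simp only
      rw [← sub_mul]
      congr 1
      -- pure algebra
      have a1 : ∑ c, ∑ i, ∑ j, A i j x * (u' j c x + ∑ b, u b x * W c b j x) * W c a i x =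
          (∑ i, ∑ β, (∑ l, A l i x * W β a l x) * u' i β x) +
            ∑ β, (∑ c, ∑ i, ∑ j, A i j x * W c β j x * W c a i x) * u β x := by
        simp only [mul_add, add_mul, Finset.sum_add_distrib, Finset.mul_sum, Finset.sum_mul]
        congr 1
        · calc ∑ c, ∑ i, ∑ j, A i j x * u' j c x * W c a i x
              = ∑ c, ∑ j, ∑ i, A i j x * u' j c x * W c a i x :=
                Finset.sum_congr rfl fun c _ => Finset.sum_comm
            _ = ∑ j, ∑ c, ∑ i, A i j x * u' j c x * W c a i x := Finset.sum_comm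
            _ = _ := Finset.sum_congr rfl fun j _ => Finset.sum_congr rfl fun c _ =>
                Finset.sum_congr rfl fun i _ => by ring
        · calc ∑ c, ∑ i, ∑ j, ∑ b, A i j x * (u b x * W c b j x) * W c a i x
              = ∑ c, ∑ i, ∑ b, ∑ j, A i j x * (u b x * W c b j x) * W c a i x :=
                Finset.sum_congr rfl fun c _ => Finset.sum_congr rfl fun i _ => Finset.sum_comm
            _ = ∑ c, ∑ b, ∑ i, ∑ j, A i j x * (u b x * W c b j x) * W c a i x :=
                Finset.sum_congr rfl fun c _ => Finset.sum_comm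
            _ = ∑ b, ∑ c, ∑ i, ∑ j, A i j x * (u b x * W c b j x) * W c a i x := Finset.sum_comm
            _ = _ := Finset.sum_congr rfl fun b _ => Finset.sum_congr rfl fun c _ =>
                Finset.sum_congr rfl fun i _ => Finset.sum_congr rfl fun j _ => by ring
      have a2 : ∑ i, ∑ b, (G i a b x * u' i b x + pderiv i (G i a b) x * u b x) =
          (∑ i, ∑ b, G i a b x * u' i b x) + ∑ b, (∑ i, pderiv i (G i a b) x) * u b x := by
        simp only [Finset.sum_add_distrib, Finset.sum_mul]
        congr 1
        exact Finset.sum_comm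
      rw [a1, a2]
      simp only [hB, hC, sub_mul, Finset.sum_sub_distrib, add_zero]
      ring)
  exact ⟨v, h1, h2, h3⟩

end

end Crest.Agent.R249.Tv57
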