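import Crest.Agent.R249.Tv0_57
import Crest.Agent.R249.Tv5_57
import Crest.Agent.R249.Tv6_57

/-!
# R249 (C-TV), part 7: weak eigenfunctions in divergence form; smooth frame fields; `Dat.toAD`.
(helper57)
-/

set_option autoImplicit false
set_option linter.unusedSectionVars false
set_option maxSynthPendingDepth 3
open MeasureTheory Set Filter Topology
open scoped ENNReal NNReal RealInnerProductSpace

noncomputable section
namespace Crest.Agent.R249.Tv57

open Crest.Agent.R247.Dir593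

lemma integrable_inner' {X : Type*} [MeasurableSpace X] {μ : Measure X} {F : Type*}
    [NormedAddCommGroup F] [InnerProductSpace ℝ F] {f g : X → F} (hf : MemLp f 2 μ)
    (hg : MemLp g 2 μ) : Integrable (fun x => (⟪f x, g x⟫ : ℝ)) μ := by
  refine (L2.integrable_inner (𝕜 := ℝ) (hf.toLp f) (hg.toLp g)).congr ?_
  filter_upwards [hf.coeFn_toLp, hg.coeFn_toLp] with x e1 e2
  rw [e1, e2]

section abs
variable {X : Type*} [MetricSpace X] [MeasurableSpace X] [BorelSpace X] {F : Type*}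
  [NormedAddCommGroup F] [InnerProductSpace ℝ F] {μ : Measure X} [IsFiniteMeasureOnCompacts μ]

namespace AD

variable {S : GradS X F μ} {κ : Type} [Fintype κ] (A : AD S κ)

lemma memLp_cvf (u : HH μ κ) (a : κ) : MemLp (A.cvf u a) 2 μ :=
  (Lp.memLp (S.D (u a))).add (memLp_finsetSum _ fun b _ => (A.hw a b).memLp (u b))

/-- the zeroth order term -/
def low (u : HH μ κ) (lam : ℝ) (a : κ) (x : X) : ℝ :=
  ∑ c, ⟪A.cvf u c x, A.w c a x⟫ + ∑ b, A.q a b x * u b x - lam * u a x

open Classical in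
/-- **the weak eigen-equation, component by component** -/
theorem weak_div {u : HH μ κ} {lam : ℝ}
    (h : ∀ v : HH μ κ, (∀ a, v a ∈ S.V) → ∫ x, A.en u v x ∂μ = lam * ⟪u, v⟫) (a : κ) {p : X → ℝ}
    (hp : GradS.IsT p) :
    ∫ x, ⟪A.cvf u a x, S.G p x⟫ ∂μ = - ∫ x, A.low u lam a x * p x ∂μ := by
  set v : HH μ κ := WithLp.toLp 2 (fun c => if c = a then GradS.tL hp else 0) with hv
  have hva : ∀ c, v c = if c = a then GradS.tL hp else 0 := fun c => rfl
  have hvV : ∀ c, v c ∈ S.V := by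
    intro c
    rw [hva]
    split_ifs
    · exact S.tL_mem hp
    · exact S.V.zero_mem
  have h1 := h v hvV
  -- values of `v`
  have hvx : ∀ᵐ x ∂μ, ∀ c, (v c : Lp ℝ 2 μ) x = if c = a then p x else 0 := by
    rw [ae_all_iff]
    intro c
    rw [hva]
    split_ifs with hc
    · filter_upwards [GradS.coe_tL (μ := μ) hp] with x e1
      rw [e1]
    · filter_upwards [Lp.coeFn_zero ℝ 2 μ] with x e1
      rw [e1, Pi.zero_apply]
  have hDx : ∀ᵐ x ∂μ, ∀ c, (S.D (v c) : Lp F 2 μ) x = if c = a then S.G p x else 0 := by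
    rw [ae_all_iff]
    intro c
    rw [hva]
    split_ifs with hc
    · filter_upwards [S.D_tL hp] with x e1
      rw [e1]
    · rw [S.D_zero]
      filter_upwards [Lp.coeFn_zero F 2 μ] with x e1
      rw [e1, Pi.zero_apply]
  have hen : ∀ᵐ x ∂μ, A.en u v x = ⟪A.cvf u a x, S.G p x⟫ +
      (∑ c, ⟪A.cvf u c x, A.w c a x⟫ + ∑ b, A.q a b x * u b x) * p x := by
    filter_upwards [hvx, hDx] with x e1 e2
    rw [en]
    have e3 : ∀ c, A.cvf v c x = (if c = a then S.G p x else 0) + p x • A.w c a x := by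
      intro c
      rw [cvf, e2 c]
      congr 1
      simp only [e1, ite_smul, zero_smul, Finset.sum_ite_eq', Finset.mem_univ, if_true]
    simp only [e3, inner_add_right, Finset.sum_add_distrib, real_inner_smul_right, e1]
    have e4 : ∑ c, ⟪A.cvf u c x, if c = a then S.G p x else 0⟫ = ⟪A.cvf u a x, S.G p x⟫ := by
      rw [Finset.sum_eq_single a]
      · rw [if_pos rfl]
      · intro b _ hb
        rw [if_neg hb, inner_zero_right]
      · intro h; exact absurd (Finset.mem_univ a) h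
    have e5 : ∑ c, ∑ b, A.q c b x * u b x * (if c = a then p x else 0) =
        (∑ b, A.q a b x * u b x) * p x := by
      rw [Finset.sum_eq_single a]
      · simp only [if_pos]
        rw [Finset.sum_mul]
      · intro b _ hb
        simp only [if_neg hb, mul_zero, Finset.sum_const_zero]
      · intro h; exact absurd (Finset.mem_univ a) h
    have e6 : ∑ c, p x * ⟪A.cvf u c x, A.w c a x⟫ = (∑ c, ⟪A.cvf u c x, A.w c a x⟫) * p x := by
      rw [Finset.sum_mul]
      exact Finset.sum_congr rfl fun c _ => mul_comm _ _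
    rw [e4, e5, e6]
    ring
  have hin : ⟪u, v⟫ = ∫ x, u a x * p x ∂μ := by
    rw [PiLp.inner_apply]
    simp only [L2.inner_def]
    rw [Finset.sum_eq_single a]
    · refine integral_congr_ae ?_
      filter_upwards [hvx] with x e1
      rw [e1 a, if_pos rfl, rin]
    · intro b _ hb
      rw [← integral_zero X ℝ (μ := μ)]
      refine integral_congr_ae ?_
      filter_upwards [hvx] with x e1
      rw [e1 b, if_neg hb, inner_zero_right]
    · intro h; exact absurd (Finset.mem_univ a) h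
  have i1 : Integrable (fun x => (⟪A.cvf u a x, S.G p x⟫ : ℝ)) μ :=
    integrable_inner' (A.memLp_cvf u a) (hp.memLpG S)
  have ip : ∀ c, MemLp (fun x => p x • A.w c a x) 2 μ := by
    intro c
    refine (memLp_congr_ae ?_).1 ((A.hw c a).memLp (GradS.tL hp))
    filter_upwards [GradS.coe_tL (μ := μ) hp] with x e1
    rw [e1]
  have iq : ∀ b, MemLp (fun x => A.q a b x * u b x) 2 μ := by
    intro b
    refine (memLp_congr_ae ?_).1 ((A.hq a b).memLp (u b))
    refine Eventually.of_forall fun x => ?_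
    simp only [smul_eq_mul]
    ring
  have i2 : Integrable (fun x => (∑ c, ⟪A.cvf u c x, A.w c a x⟫ + ∑ b, A.q a b x * u b x) * p x) μ := by
    have j1 : Integrable (fun x => ∑ c, (⟪A.cvf u c x, p x • A.w c a x⟫ : ℝ)) μ :=
      integrable_finsetSum _ fun c _ => integrable_inner' (A.memLp_cvf u c) (ip c)
    have j2 : Integrable (fun x => ∑ b, (⟪A.q a b x * u b x, p x⟫ : ℝ)) μ :=
      integrable_finsetSum _ fun b _ => integrable_inner' (iq b) hp.memLp
    refine (j1.add j2).congr (Eventually.of_forall fun x => ?_)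
    simp only [Pi.add_apply, real_inner_smul_right, rin]
    have e6 : ∑ c, p x * ⟪A.cvf u c x, A.w c a x⟫ = (∑ c, ⟪A.cvf u c x, A.w c a x⟫) * p x := by
      rw [Finset.sum_mul]
      exact Finset.sum_congr rfl fun c _ => mul_comm _ _
    rw [e6, add_mul, Finset.sum_mul, Finset.sum_mul]
  have i3 : Integrable (fun x => u a x * p x) μ :=
    (integrable_inner' (Lp.memLp (u a)) hp.memLp).congr (Eventually.of_forall fun x => rin _ _)
  rw [integral_congr_ae hen, integral_add i1 i2, hin] at h1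
  have h2 : ∫ x, A.low u lam a x * p x ∂μ =
      (∫ x, (∑ c, ⟪A.cvf u c x, A.w c a x⟫ + ∑ b, A.q a b x * u b x) * p x ∂μ) -
        lam * ∫ x, u a x * p x ∂μ := by
    rw [← integral_const_mul, ← integral_sub i2 (i3.const_mul lam)]
    refine integral_congr_ae (Eventually.of_forall fun x => ?_)
    simp only [low]
    ring
  rw [h2]
  linarith

end AD
end abs

/-! ### smooth frame fields -/

section mfd
open scoped ContDiff Manifold Bundle
open Metric Bundle
open Crest.Agent.R247.Ms322 Crest.Agent.R247.Frd657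
open Crest.GeometryTopology.CoordMetric Crest.GeometryTopology.ChartCurvature

variable {n : ℕ} {M : Type*} [MetricSpace M] [ChartedSpace (EuclideanSpace ℝ (Fin n)) M]
  [IsManifold (𝓡 n) ∞ M]
  [RiemannianBundle (fun p : M => TangentSpace (𝓡 n) p)]
  [IsContMDiffRiemannianBundle (𝓡 n) ∞ (EuclideanSpace ℝ (Fin n)) (fun p : M => TangentSpace (𝓡 n) p)]
  [IsRiemannianManifold (𝓡 n) M] [MeasurableSpace M] [BorelSpace M]
  [SecondCountableTopology M] [Nonempty M]

local notation "𝔼" => EuclideanSpace ℝ (Fin n)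

omit [RiemannianBundle (fun p : M => TangentSpace (𝓡 n) p)]
  [IsContMDiffRiemannianBundle (𝓡 n) ∞ (EuclideanSpace ℝ (Fin n)) (fun p : M => TangentSpace (𝓡 n) p)]
  [IsRiemannianManifold (𝓡 n) M] [MeasurableSpace M] [BorelSpace M]
  [SecondCountableTopology M] [Nonempty M] in
theorem contMDiff_of_charts {f : M → ℝ} (h : ∀ x₀ : M,
    ContDiffOn ℝ ∞ (fun b => f ((chartAt 𝔼 x₀).symm b)) (chartAt 𝔼 x₀).target) :
    ContMDiff (𝓡 n) 𝓘(ℝ, ℝ) ∞ f := by
  intro z
  have hz := mem_chart_source 𝔼 z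
  have hb := (chartAt 𝔼 z).map_source hz
  have h1 : ContDiffAt ℝ ∞ (fun b => f ((chartAt 𝔼 z).symm b)) (chartAt 𝔼 z z) :=
    (h z).contDiffAt ((chartAt 𝔼 z).open_target.mem_nhds hb)
  have h2 : ContMDiffAt (𝓡 n) (𝓡 n) ∞ (chartAt 𝔼 z) z :=
    (contMDiffOn_chart (I := 𝓡 n) (n := ∞) (x := z)).contMDiffAt
      ((chartAt 𝔼 z).open_source.mem_nhds hz)
  have h3 := h1.contMDiffAt.comp z h2
  refine h3.congr_of_eventuallyEq ?_
  filter_upwards [(chartAt 𝔼 z).open_source.mem_nhds hz] with y hy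
  simp only [Function.comp_apply, (chartAt 𝔼 z).left_inv hy]

omit [RiemannianBundle (fun p : M => TangentSpace (𝓡 n) p)]
  [IsContMDiffRiemannianBundle (𝓡 n) ∞ (EuclideanSpace ℝ (Fin n)) (fun p : M => TangentSpace (𝓡 n) p)]
  [IsRiemannianManifold (𝓡 n) M] [MeasurableSpace M] [BorelSpace M]
  [SecondCountableTopology M] [Nonempty M] in
theorem chart_smooth {f : M → ℝ} (hf : ContMDiff (𝓡 n) 𝓘(ℝ, ℝ) ∞ f) (x₀ : M) :
    ContDiffOn ℝ ∞ (fun b => f ((chartAt 𝔼 x₀).symm b)) (chartAt 𝔼 x₀).target := by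
  intro b hb
  have h1 : ContMDiffAt (𝓡 n) (𝓡 n) ∞ (chartAt 𝔼 x₀).symm b :=
    (contMDiffOn_chart_symm (I := 𝓡 n) (n := ∞) (x := x₀)).contMDiffAt
      ((chartAt 𝔼 x₀).open_target.mem_nhds hb)
  exact ((hf.contMDiffAt.comp _ h1).contDiffAt).contDiffWithinAt

theorem SmF.congr {X Y : M → EuclideanSpace ℝ (Fin n)} (hX : SmF X) (h : ∀ z, Y z = X z) : SmF Y := by
  have : Y = X := funext h
  rwa [this]

theorem SmF.add {X Y : M → EuclideanSpace ℝ (Fin n)} (hX : SmF X) (hY : SmF Y) :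
    SmF (fun z => X z + Y z) := by
  intro x₀ i
  refine ((hX x₀ i).add (hY x₀ i)).congr fun b _ => ?_
  simp only [cf, inner_add_right]

theorem SmF.smul {f : M → ℝ} (hf : ContMDiff (𝓡 n) 𝓘(ℝ, ℝ) ∞ f) {X : M → EuclideanSpace ℝ (Fin n)}
    (hX : SmF X) : SmF (fun z => f z • X z) := by
  intro x₀ i
  refine ((chart_smooth hf x₀).mul (hX x₀ i)).congr fun b _ => ?_
  simp only [cf, real_inner_smul_right]

theorem SmF.neg {X : M → EuclideanSpace ℝ (Fin n)} (hX : SmF X) : SmF (fun z => - X z) := by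
  intro x₀ i
  refine (hX x₀ i).neg.congr fun b _ => ?_
  simp only [cf, inner_neg_right]

theorem SmF.sub {X Y : M → EuclideanSpace ℝ (Fin n)} (hX : SmF X) (hY : SmF Y) :
    SmF (fun z => X z - Y z) := (hX.add hY.neg).congr fun z => sub_eq_add_neg _ _

theorem SmF.zero : SmF (fun _ : M => (0 : EuclideanSpace ℝ (Fin n))) := by
  intro x₀ i
  refine (contDiffOn_const (c := (0:ℝ))).congr fun b _ => ?_
  simp only [cf, inner_zero_right]

theorem SmF.sum {ι : Type*} (s : Finset ι) {X : ι → M → EuclideanSpace ℝ (Fin n)}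
    (hX : ∀ a ∈ s, SmF (X a)) : SmF (fun z => ∑ a ∈ s, X a z) := by
  classical
  induction s using Finset.induction_on with
  | empty => exact SmF.zero.congr fun z => by simp
  | insert a s ha ih =>
    refine ((hX a (Finset.mem_insert_self a s)).add
      (ih fun b hb => hX b (Finset.mem_insert_of_mem hb))).congr fun z => ?_
    rw [Finset.sum_insert ha]

theorem smF_Gr {f : M → ℝ} (hf : ContMDiff (𝓡 n) 𝓘(ℝ, ℝ) ∞ f) : SmF (Gr (n := n) f) := by
  intro x₀ i
  have h1 := Crest.Agent.R249.SReg352.contDiffOn_dd (chartAt 𝔼 x₀).open_target (chart_smooth hf x₀)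
    (EuclideanSpace.single i (1:ℝ))
  exact h1.congr fun b hb => cf_Gr x₀ i f hb

/-- inner products of smooth frame fields are smooth -/
theorem SmF.inner {X Y : M → EuclideanSpace ℝ (Fin n)} (hX : SmF X) (hY : SmF Y) :
    ContMDiff (𝓡 n) 𝓘(ℝ, ℝ) ∞ (fun z => (⟪X z, Y z⟫ : ℝ)) := by
  refine contMDiff_of_charts fun x₀ => ?_
  have hg := isRiemannianOn_chartMetric (n := n) x₀
  have h1 : ContDiffOn ℝ ∞ (fun b => ∑ i, ∑ j, inverseField (chartMetric n M x₀) b i j *
      cf x₀ j X b * cf x₀ i Y b) (chartAt 𝔼 x₀).target :=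
    ContDiffOn.sum fun i _ => ContDiffOn.sum fun j _ =>
      ((Crest.Agent.R202.Tens.contDiffOn_inv_entry hg i j).mul (hX x₀ j)).mul (hY x₀ i)
  exact h1.congr fun b hb => inner_cf x₀ X Y hb

/-- smooth frame fields are measurable -/
theorem SmF.aesm {X : M → EuclideanSpace ℝ (Fin n)} (hX : SmF X) :
    AEStronglyMeasurable X (μHE[n] : Measure M) := by
  have hU : (⋃ k : ℕ, (chartAt 𝔼 (cen n M k)).source) = univ := by
    refine eq_univ_of_forall fun z => mem_iUnion.2 ⟨idx n z, ?_⟩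
    exact mem_sel z
  have h1 : AEStronglyMeasurable X ((μHE[n] : Measure M).restrict
      (⋃ k : ℕ, (chartAt 𝔼 (cen n M k)).source)) := by
    rw [aestronglyMeasurable_iUnion_iff]
    intro k
    set x₀ := cen n M k
    have hm : MeasurableSet (chartAt 𝔼 x₀).source := (chartAt 𝔼 x₀).open_source.measurableSet
    have h2 : AEStronglyMeasurable (fun z => ∑ i, cf x₀ i X (chartAt 𝔼 x₀ z) • dxf x₀ i z)
        ((μHE[n] : Measure M).restrict (chartAt 𝔼 x₀).source) := by
      refine Finset.aestronglyMeasurable_fun_sum _ fun i _ => ?_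
      have h3 : ContinuousOn (fun z => cf x₀ i X (chartAt 𝔼 x₀ z)) (chartAt 𝔼 x₀).source :=
        (hX x₀ i).continuousOn.comp (chartAt 𝔼 x₀).continuousOn
          (fun z hz => (chartAt 𝔼 x₀).map_source hz)
      exact (h3.aestronglyMeasurable hm).smul (measurable_Gr _).aestronglyMeasurable
    refine h2.congr ?_
    filter_upwards [self_mem_ae_restrict hm] with z hz
    have h4 := expand_cf x₀ X ((chartAt 𝔼 x₀).map_source hz)
    rw [(chartAt 𝔼 x₀).left_inv hz] at h4
    exact h4.symm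
  rwa [hU, Measure.restrict_univ] at h1

variable [CompactSpace M]

theorem SmF.bm {X : M → EuclideanSpace ℝ (Fin n)} (hX : SmF X) : BM (μHE[n] : Measure M) X := by
  refine ⟨hX.aesm, ?_⟩
  obtain ⟨C, hC⟩ := isCompact_univ.exists_bound_of_continuousOn (hX.inner hX).continuous.continuousOn
  refine ⟨√(max C 0), Real.sqrt_nonneg _, Eventually.of_forall fun z => ?_⟩
  refine Real.le_sqrt_of_sq_le ?_
  have := hC z (mem_univ z)
  rw [real_inner_self_eq_norm_sq, Real.norm_of_nonneg (sq_nonneg _)] at this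
  exact this.trans (le_max_left _ _)

theorem bm_smooth {f : M → ℝ} (hf : ContMDiff (𝓡 n) 𝓘(ℝ, ℝ) ∞ f) : BM (μHE[n] : Measure M) f := by
  refine ⟨hf.continuous.aestronglyMeasurable, ?_⟩
  obtain ⟨C, hC⟩ := isCompact_univ.exists_bound_of_continuousOn hf.continuous.continuousOn
  exact ⟨max C 0, le_max_right _ _, Eventually.of_forall fun z => (hC z (mem_univ z)).trans
    (le_max_left _ _)⟩

theorem isT_smooth {f : M → ℝ} (hf : ContMDiff (𝓡 n) 𝓘(ℝ, ℝ) ∞ f) : GradS.IsT f :=
  ⟨locLip_of_contMDiff (n := n) (hf.of_le (by simp)), HasCompactSupport.of_compactSpace f⟩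

variable {κ : Type} [Fintype κ]

section
variable (D : Dat n M κ) {u v : κ → M → ℝ}

theorem smF_cv (hu : SmV (n := n) u) (a : κ) : SmF (D.cv u a) :=
  (smF_Gr (hu a)).add (SmF.sum _ fun b _ => SmF.smul (hu b) (D.smX a b))

theorem smooth_ed (hu : SmV (n := n) u) (hv : SmV (n := n) v) :
    ContMDiff (𝓡 n) 𝓘(ℝ, ℝ) ∞ (D.ed u v) := by
  have h1 : ContMDiff (𝓡 n) 𝓘(ℝ, ℝ) ∞ fun z => ∑ a, (⟪D.cv u a z, D.cv v a z⟫ : ℝ) :=
    contMDiff_finsetSum fun a _ => (smF_cv D hu a).inner (smF_cv D hv a)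
  have h2 : ContMDiff (𝓡 n) 𝓘(ℝ, ℝ) ∞ fun z => ∑ a, ∑ b, D.Q a b z * u b z * v a z :=
    contMDiff_finsetSum fun a _ => contMDiff_finsetSum fun b _ =>
      ((D.smQ a b).mul (hu b)).mul (hv a)
  exact h1.add h2
end

variable [IsFiniteMeasureOnCompacts (μHE[n] : Measure M)]

/-- the abstract data -/
def Dat.toAD (D : Dat n M κ) : AD (gradS n M) κ where
  w := D.X
  q := D.Q
  p := D.p
  hw := fun a b => (D.smX a b).bm
  hq := fun a b => bm_smooth (D.smQ a b)
  hp := fun a b => bm_smooth (D.smp a b)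
  hT := fun a b => isT_smooth (D.smp a b)
  skew := D.skew
  symmq := D.symmQ
  symmp := D.symmp
  idem := D.idem
  par := fun a b => Eventually.of_forall (D.par a b)
  comm := D.comm

end mfd

end Crest.Agent.R249.Tv57
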