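import Crest.Agent.R249.Tv7_57

/-!
# R249 (C-TV), part 8: weak eigensections are smooth; gluing. (helper57)
-/

set_option autoImplicit false
set_option linter.unusedSectionVars false
set_option maxSynthPendingDepth 3
open scoped ContDiff ENNReal NNReal Topology Manifold Bundle RealInnerProductSpace
open MeasureTheory Set Filter Metric Bundle

noncomputable section
namespace Crest.Agent.R249.Tv57

open Crest.Agent.R247.Dir593 Crest.Agent.R247.Ms322 Crest.Agent.R247.Frd657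
open Crest.GeometryTopology.CoordMetric Crest.GeometryTopology.ChartCurvature
open Crest.Agent.R202.Ell

theorem l2on_of_L2On {n : ℕ} {U : Set (EuclideanSpace ℝ (Fin n))} (hU : IsOpen U)
    {g : EuclideanSpace ℝ (Fin n) → ℝ} (h : L2On U g) : Crest.Agent.R249.SReg352.L2on U g := by
  refine ⟨?_, ?_⟩
  · rw [locallyIntegrableOn_iff hU.isLocallyClosed]
    intro K hKU hK
    have hfin : IsFiniteMeasure ((volume : Measure (EuclideanSpace ℝ (Fin n))).restrict K) :=
      ⟨by rw [Measure.restrict_apply_univ]; exact hK.measure_lt_top⟩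
    exact (h K hKU hK).integrable (by norm_num)
  · rw [locallyIntegrableOn_iff hU.isLocallyClosed]
    intro K hKU hK
    exact (h K hKU hK).integrable_sq

variable {n : ℕ} {M : Type*} [MetricSpace M] [ChartedSpace (EuclideanSpace ℝ (Fin n)) M]
  [IsManifold (𝓡 n) ∞ M]
  [RiemannianBundle (fun p : M => TangentSpace (𝓡 n) p)]
  [IsContMDiffRiemannianBundle (𝓡 n) ∞ (EuclideanSpace ℝ (Fin n)) (fun p : M => TangentSpace (𝓡 n) p)]
  [IsRiemannianManifold (𝓡 n) M] [MeasurableSpace M] [BorelSpace M]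
  [SecondCountableTopology M] [Nonempty M]

local notation "𝔼" => EuclideanSpace ℝ (Fin n)

/-- gluing of smooth representatives -/
theorem glue {f : M → ℝ} (h : ∀ x₀ : M, ∃ v : EuclideanSpace ℝ (Fin n) → ℝ,
    ContDiffOn ℝ ∞ v (chartAt 𝔼 x₀).target ∧
      ∀ᵐ b : 𝔼, b ∈ (chartAt 𝔼 x₀).target → v b = f ((chartAt 𝔼 x₀).symm b)) :
    ∃ φ : M → ℝ, ContMDiff (𝓡 n) 𝓘(ℝ, ℝ) ∞ φ ∧ φ =ᵐ[(μHE[n] : Measure M)] f := by
  have := isOpenPosMeasure n M
  choose v hv hve using h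
  set w : M → M → ℝ := fun x₀ z => v x₀ (chartAt 𝔼 x₀ z) with hw
  have hwc : ∀ x₀, ContinuousOn (w x₀) (chartAt 𝔼 x₀).source := fun x₀ =>
    (hv x₀).continuousOn.comp (chartAt 𝔼 x₀).continuousOn fun z hz => (chartAt 𝔼 x₀).map_source hz
  have hwe : ∀ x₀, ∀ᵐ z ∂(μHE[n] : Measure M), z ∈ (chartAt 𝔼 x₀).source → w x₀ z = f z := by
    intro x₀
    filter_upwards [ae_manifold x₀ (hve x₀)] with z hz hzs
    have := hz hzs
    rwa [(chartAt 𝔼 x₀).left_inv hzs] at this
  have hcmp : ∀ x₀ x₁, EqOn (w x₀) (w x₁) ((chartAt 𝔼 x₀).source ∩ (chartAt 𝔼 x₁).source) := by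
    intro x₀ x₁
    have hO : IsOpen ((chartAt 𝔼 x₀).source ∩ (chartAt 𝔼 x₁).source) :=
      (chartAt 𝔼 x₀).open_source.inter (chartAt 𝔼 x₁).open_source
    refine Measure.eqOn_open_of_ae_eq (μ := (μHE[n] : Measure M)) ?_ hO
      ((hwc x₀).mono inter_subset_left) ((hwc x₁).mono inter_subset_right)
    rw [Filter.EventuallyEq, ae_restrict_iff' hO.measurableSet]
    filter_upwards [hwe x₀, hwe x₁] with z e1 e2 hz
    rw [e1 hz.1, e2 hz.2]
  set φ : M → ℝ := fun z => w z z with hφ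
  have hφw : ∀ x₀ z, z ∈ (chartAt 𝔼 x₀).source → φ z = w x₀ z := fun x₀ z hz =>
    hcmp z x₀ ⟨mem_chart_source 𝔼 z, hz⟩
  refine ⟨φ, contMDiff_of_charts fun x₀ => (hv x₀).congr fun b hb => ?_, ?_⟩
  · rw [hφw x₀ _ ((chartAt 𝔼 x₀).map_target hb), hw]
    simp only [(chartAt 𝔼 x₀).right_inv hb]
  · have h1 : ∀ᵐ z ∂(μHE[n] : Measure M), ∀ k : ℕ, z ∈ (chartAt 𝔼 (cen n M k)).source →
        w (cen n M k) z = f z := ae_all_iff.2 fun k => hwe _
    filter_upwards [h1] with z hz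
    have h2 : z ∈ (chartAt 𝔼 (cen n M (idx n z))).source := mem_sel z
    rw [hφw _ _ h2]
    exact hz _ h2

variable [CompactSpace M] [IsFiniteMeasureOnCompacts (μHE[n] : Measure M)] {κ : Type} [Fintype κ]

open Classical in
/-- **regularity of weak eigensections in a chart** -/
theorem chart_reg (D : Dat n M κ) {u : HH (μHE[n] : Measure M) κ} (hu : ∀ a, u a ∈ (gradS n M).V)
    {lam : ℝ} (h : ∀ v : HH (μHE[n] : Measure M) κ, (∀ a, v a ∈ (gradS n M).V) →
      ∫ x, D.toAD.en u v x ∂(μHE[n] : Measure M) = lam * ⟪u, v⟫) (x₀ : M) :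
    ∃ v : κ → EuclideanSpace ℝ (Fin n) → ℝ, (∀ a, ContDiffOn ℝ ∞ (v a) (chartAt 𝔼 x₀).target) ∧
      ∀ a, ∀ᵐ b : 𝔼, b ∈ (chartAt 𝔼 x₀).target → v a b = u a ((chartAt 𝔼 x₀).symm b) := by
  have hU := (chartAt 𝔼 x₀).open_target
  have hA := coefOn_Ac (n := n) x₀
  have hsymm : ∀ b ∈ (chartAt 𝔼 x₀).target, ∀ i j, Ac (n := n) x₀ i j b = Ac x₀ j i b := by
    intro b hb i j
    rw [Ac, Ac, inv_symm x₀ hb]
  obtain ⟨v, h1, h2, -⟩ := sys_reg_div (κ := κ) hU (A := Ac (n := n) x₀) hA.smooth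
    (fun b hb => by
      rw [Matrix.posDef_iff_dotProduct_mulVec]
      refine ⟨?_, fun ξ hξ => ?_⟩
      · ext i j
        simp only [Matrix.conjTranspose_apply, Matrix.of_apply, star_trivial]
        exact hsymm b hb j i
      · refine lt_of_lt_of_eq (hA.pos b hb ξ hξ) ?_
        simp only [star_trivial, dotProduct, Matrix.mulVec, Matrix.of_apply, Finset.mul_sum]
        refine Finset.sum_congr rfl fun i _ => Finset.sum_congr rfl fun j _ => ?_
        ring)
    (W := fun a b j => cf x₀ j (D.X a b)) (fun a b j => D.smX a b x₀ j)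
    (q := fun a b y => dens (n := n) x₀ y * (D.Q a b ((chartAt 𝔼 x₀).symm y) -
      lam * if a = b then 1 else 0))
    (fun a b => (contDiffOn_dens x₀).mul ((chart_smooth (D.smQ a b) x₀).sub contDiffOn_const))
    (u := fun a b => u a ((chartAt 𝔼 x₀).symm b))
    (u' := fun i a => cf x₀ i ((gradS n M).D (u a)))
    (fun a => l2on_of_L2On hU (L2On_chart fun K _ => (Lp.memLp (u a)).restrict K))
    (fun i a => l2on_of_L2On hU (L2On_cf x₀ i (Lp.memLp _)))
    (fun i a φ hφ1 hφ2 hφ3 => wdOn_cf (gradS n M) (fun f => rfl) x₀ i (hu a) φ ⟨hφ1, hφ2⟩ hφ3)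
    (fun a φ hφ1 hφ2 hφ3 => by
      have h3 := weak_eq_chart (n := n) (F := D.toAD.cvf u a) (f := D.toAD.low u lam a)
        (fun p hp => D.toAD.weak_div h a hp) x₀ ⟨hφ1, hφ2⟩ hφ3
      have hcf : ∀ c j b, cf x₀ j (D.toAD.cvf u c) b = cf x₀ j ((gradS n M).D (u c)) b +
          ∑ b', u b' ((chartAt 𝔼 x₀).symm b) * cf x₀ j (D.X c b') b := by
        intro c j b
        simp only [cf, AD.cvf, inner_add_right, inner_sum, real_inner_smul_right]
        rfl
      have e1 : ∫ b, ∑ i, ∑ j, Ac (n := n) x₀ i j b * (cf x₀ j ((gradS n M).D (u a)) b +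
          ∑ b', u b' ((chartAt 𝔼 x₀).symm b) * cf x₀ j (D.X a b') b) * pderiv i φ b =
          ∫ b, ∑ i, ∑ j, Ac x₀ i j b * cf x₀ j (D.toAD.cvf u a) b * pderiv i φ b := by
        simp only [hcf]
      rw [e1, h3]
      congr 1
      refine integral_congr_ae (Eventually.of_forall fun b => ?_)
      simp only
      by_cases hb : b ∈ (chartAt 𝔼 x₀).target
      · congr 1
        rw [AD.low]
        have e2 : ∀ c, dens (n := n) x₀ b * ⟪D.toAD.cvf u c ((chartAt 𝔼 x₀).symm b),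
            D.toAD.w c a ((chartAt 𝔼 x₀).symm b)⟫ = ∑ i, ∑ j, Ac x₀ i j b *
            (cf x₀ j ((gradS n M).D (u c)) b + ∑ b', u b' ((chartAt 𝔼 x₀).symm b) *
              cf x₀ j (D.X c b') b) * cf x₀ i (D.X c a) b := by
          intro c
          have h5 := inner_cf x₀ (D.toAD.cvf u c) (D.X c a) hb
          rw [show D.toAD.w c a = D.X c a from rfl, h5, Finset.mul_sum]
          refine Finset.sum_congr rfl fun i _ => ?_
          rw [Finset.mul_sum]
          refine Finset.sum_congr rfl fun j _ => ?_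
          rw [hcf, Ac]
          ring
        rw [mul_sub, mul_add, Finset.mul_sum, Finset.sum_congr rfl fun c _ => e2 c]
        have e3 : ∑ b', dens (n := n) x₀ b * (D.Q a b' ((chartAt 𝔼 x₀).symm b) -
            lam * if a = b' then 1 else 0) * u b' ((chartAt 𝔼 x₀).symm b) =
            dens (n := n) x₀ b * (∑ b', D.toAD.q a b' ((chartAt 𝔼 x₀).symm b) *
              u b' ((chartAt 𝔼 x₀).symm b)) - dens (n := n) x₀ b *
                (lam * u a ((chartAt 𝔼 x₀).symm b)) := by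
          have e4 : u a ((chartAt 𝔼 x₀).symm b) = ∑ b', (if a = b' then 1 else 0) *
              u b' ((chartAt 𝔼 x₀).symm b) := by simp
          rw [e4, Finset.mul_sum, Finset.mul_sum, Finset.mul_sum, ← Finset.sum_sub_distrib]
          refine Finset.sum_congr rfl fun b' _ => ?_
          rw [show D.toAD.q a b' = D.Q a b' from rfl]
          ring
        rw [e3]
        ring
      · have : φ b = 0 := image_eq_zero_of_notMem_tsupport fun h => hb (hφ3 h)
        rw [this, mul_zero, mul_zero])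
  exact ⟨v, h1, h2⟩

/-- **weak eigensections are smooth** -/
theorem smooth_rep (D : Dat n M κ) {u : HH (μHE[n] : Measure M) κ} (hu : ∀ a, u a ∈ (gradS n M).V)
    {lam : ℝ} (h : ∀ v : HH (μHE[n] : Measure M) κ, (∀ a, v a ∈ (gradS n M).V) →
      ∫ x, D.toAD.en u v x ∂(μHE[n] : Measure M) = lam * ⟪u, v⟫) :
    ∃ φ : κ → M → ℝ, (∀ a, ContMDiff (𝓡 n) 𝓘(ℝ, ℝ) ∞ (φ a)) ∧
      ∀ᵐ z ∂(μHE[n] : Measure M), ∀ a, (u a : M → ℝ) z = φ a z := by
  have h1 : ∀ a, ∃ φ : M → ℝ, ContMDiff (𝓡 n) 𝓘(ℝ, ℝ) ∞ φ ∧ φ =ᵐ[(μHE[n] : Measure M)] (u a : M → ℝ) := by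
    intro a
    refine glue fun x₀ => ?_
    obtain ⟨v, h1, h2⟩ := chart_reg D hu h x₀
    exact ⟨v a, h1 a, h2 a⟩
  choose φ h2 h3 using h1
  refine ⟨φ, h2, ae_all_iff.2 fun a => ?_⟩
  filter_upwards [h3 a] with z hz using hz.symm

end Crest.Agent.R249.Tv57
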