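import Crest.Agent.R249.Tv8_57
import Crest.Agent.R249.Tv2_57
import Crest.Agent.R247.Bgr3_546
import Crest.Agent.R247.Ray5_97

/-!
# R249 (C-TV), part 9: **the spectral theorem for `D* D + Q`** on a closed manifold.

`exists_spec : 1 ≤ n → 0 ≤ k → HasRicciLowerBound n M (-k) → D.p a a z ≠ 0 → Nonempty (Spec D)`
(helper57)
-/

set_option autoImplicit false
set_option linter.unusedSectionVars false
set_option maxSynthPendingDepth 3
open scoped ContDiff ENNReal NNReal Topology Manifold Bundle RealInnerProductSpace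
open MeasureTheory Set Filter Metric Bundle

noncomputable section
namespace Crest.Agent.R249.Tv57

open Crest.Agent.R247.Dir593 Crest.Agent.R247.Ms322 Crest.Agent.R247.Frd657
open Crest.Agent.R247.Mcp688
open Crest.GeometryTopology.CoordMetric Crest.GeometryTopology.ChartCurvature
open Crest.GeometryTopology.PointedLimit

lemma inner_HH {X : Type*} [MeasurableSpace X] {μ : Measure X} {κ : Type} [Fintype κ]
    (u v : HH μ κ) {f g : κ → X → ℝ} (hf : ∀ᵐ x ∂μ, ∀ a, (u a : X → ℝ) x = f a x)
    (hg : ∀ᵐ x ∂μ, ∀ a, (v a : X → ℝ) x = g a x) : ⟪u, v⟫ = ∫ x, ∑ a, f a x * g a x ∂μ := by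
  rw [PiLp.inner_apply]
  simp only [L2.inner_def]
  rw [← integral_finsetSum]
  · refine integral_congr_ae ?_
    filter_upwards [hf, hg] with x e1 e2
    refine Finset.sum_congr rfl fun a _ => ?_
    rw [e1 a, e2 a, rin]
  · intro a _
    exact L2.integrable_inner _ _

universe v
variable {n : ℕ} {M : Type v} [MetricSpace M] [CompactSpace M] [ConnectedSpace M]
    [ChartedSpace (EuclideanSpace ℝ (Fin n)) M]
    [IsManifold (𝓡 n) ∞ M]
    [RiemannianBundle (fun p : M => TangentSpace (𝓡 n) p)]
    [IsContMDiffRiemannianBundle (𝓡 n) ∞ (EuclideanSpace ℝ (Fin n))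
      (fun p : M => TangentSpace (𝓡 n) p)]
    [IsRiemannianManifold (𝓡 n) M]
    [MeasurableSpace M] [BorelSpace M] [SecondCountableTopology M] [Nonempty M]

local notation "𝔼" => EuclideanSpace ℝ (Fin n)

/-- the scalar Rellich theorem on `M` -/
theorem fried_M [IsFiniteMeasureOnCompacts (μHE[n] : Measure M)] (hn : 1 ≤ n) {k : ℝ} (hk : 0 ≤ k)
    (hRic : HasRicciLowerBound n M (-k)) : AD.Fried (gradS n M) := by
  have := Crest.Agent.R247.HR216.properSpace_of_riemannian n M
  have := isOpenPosMeasure n M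
  have hnt : Nontrivial M := by
    by_contra h
    have : Subsingleton M := not_nontrivial_iff_subsingleton.1 h
    obtain ⟨x⟩ := ‹Nonempty M›
    have h1 : (μHE[n] : Measure M) {x} = 0 := muHE_singleton n hn x
    have h2 : ({x} : Set M) = univ := eq_univ_of_forall fun y => Subsingleton.elim y x
    rw [h2] at h1
    exact (isOpen_univ.measure_pos (μHE[n] : Measure M) ⟨x, mem_univ x⟩).ne' h1
  obtain ⟨C⟩ := Crest.Agent.R247.Bgr546.rad_all n k hk M hRic
  have hR := Crest.Agent.R247.Ray97.rdg hk (Crest.Agent.R247.Bgr546.exM_of_riemannian n M) C (gradS n M) rfl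
  intro ε hε
  set K := KF n k with hK
  have hK0 : 0 ≤ K := Real.sqrt_nonneg _
  set r : ℝ := min 1 (ε / (K + 1)) with hr
  have hr0 : 0 < r := lt_min one_pos (by positivity)
  obtain ⟨T, hT, h⟩ := friedrichs (gradS n M) C hR hk hr0 (min_le_left _ _)
  refine ⟨T, hT, fun u hu => (h u hu).trans ?_⟩
  refine mul_le_mul_of_nonneg_right ?_ (norm_nonneg _)
  calc K * r ≤ (K + 1) * (ε / (K + 1)) :=
        mul_le_mul (by linarith) (min_le_right _ _) hr0.le (by linarith)
    _ = ε := by field_simp

theorem exists_spec (hn : 1 ≤ n) {k : ℝ} (hk : 0 ≤ k) (hRic : HasRicciLowerBound n M (-k))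
    {κ : Type} [Fintype κ] (D : Dat n M κ) {a : κ} {z : M} (hz : D.p a a z ≠ 0) :
    Nonempty (Spec D) := by
  have := Crest.Agent.R247.HR216.properSpace_of_riemannian n M
  have := isLocallyFinite_muHE n M
  have := isOpenPosMeasure n M
  have : IsFiniteMeasure (μHE[n] : Measure M) := ⟨isCompact_univ.measure_lt_top⟩
  obtain ⟨u, lam, hV, hP, hmono, hlim, hortho, hpars, heig⟩ := D.toAD.exists_weak
    (fried_M hn hk hRic) (gradS n M).dense_V
    (D.toAD.not_finiteDimensional (fun x => muHE_singleton n hn x) (a := a) (x0 := z) hz)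
  choose φ hφs hφe using fun k => smooth_rep D (hV k) (heig k)
  -- the gradient
  have hD : ∀ k, ∀ᵐ x ∂(μHE[n] : Measure M), ∀ a,
      ((gradS n M).D (u k a) : M → 𝔼) x = Gr (n := n) (φ k a) x := by
    intro k
    rw [ae_all_iff]
    intro a
    have h1 : u k a = GradS.tL (isT_smooth (hφs k a)) := by
      ext1
      filter_upwards [hφe k, GradS.coe_tL (μ := (μHE[n] : Measure M)) (isT_smooth (hφs k a))]
        with x e1 e2
      rw [e1 a, e2]
    rw [h1]
    exact (gradS n M).D_tL _
  refine ⟨⟨φ, lam, hφs, ?_, hmono, hlim, ?_, ?_, ?_⟩⟩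
  · -- sections
    intro k a
    have hc : Continuous fun z => ∑ b, D.p a b z * φ k b z :=
      continuous_finsetSum _ fun b _ => (D.smp a b).continuous.mul (hφs k b).continuous
    have h1 : (fun z => ∑ b, D.p a b z * φ k b z) =ᵐ[(μHE[n] : Measure M)] φ k a := by
      have h2 := D.toAD.coe_P (u k)
      rw [hP k] at h2
      filter_upwards [h2, hφe k] with z e1 e2
      rw [← e2 a, e1 a]
      refine Finset.sum_congr rfl fun b _ => ?_
      rw [e2 b]
      rfl
    intro z
    exact congrFun ((hc.ae_eq_iff_eq _ (hφs k a).continuous).1 h1) z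
  · intro k l
    rw [← inner_HH (u k) (u l) (hφe k) (hφe l)]
    exact hortho k l
  · intro k v hv
    set V : HH (μHE[n] : Measure M) κ := WithLp.toLp 2 (fun a => GradS.tL (isT_smooth (hv a))) with hVd
    have hVa : ∀ a, V a = GradS.tL (isT_smooth (hv a)) := fun a => rfl
    have hVe : ∀ᵐ x ∂(μHE[n] : Measure M), ∀ a, (V a : M → ℝ) x = v a x := by
      rw [ae_all_iff]
      intro a
      exact GradS.coe_tL (isT_smooth (hv a))
    have hVD : ∀ᵐ x ∂(μHE[n] : Measure M), ∀ a, ((gradS n M).D (V a) : M → 𝔼) x =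
        Gr (n := n) (v a) x := by
      rw [ae_all_iff]
      intro a
      exact (gradS n M).D_tL (isT_smooth (hv a))
    have h1 := heig k V (fun a => (gradS n M).tL_mem (isT_smooth (hv a)))
    rw [inner_HH (u k) V (hφe k) hVe] at h1
    rw [← h1]
    refine integral_congr_ae ?_
    filter_upwards [hφe k, hVe, hD k, hVD] with x e1 e2 e3 e4
    rw [AD.en, Dat.ed]
    congr 1
    · refine Finset.sum_congr rfl fun a _ => ?_
      have c1 : D.cv (φ k) a x = D.toAD.cvf (u k) a x := by
        rw [Dat.cv, AD.cvf, e3 a]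
        congr 1
        exact Finset.sum_congr rfl fun b _ => by rw [e1 b]; rfl
      have c2 : D.cv v a x = D.toAD.cvf V a x := by
        rw [Dat.cv, AD.cvf, e4 a]
        congr 1
        exact Finset.sum_congr rfl fun b _ => by rw [e2 b]; rfl
      rw [c1, c2]
    · refine Finset.sum_congr rfl fun a _ => Finset.sum_congr rfl fun b _ => ?_
      rw [e1 b, e2 a]
      rfl
  · intro f hf hpf
    set V : HH (μHE[n] : Measure M) κ := WithLp.toLp 2 (fun a => (hf a).toLp (f a)) with hVd
    have hVe : ∀ᵐ x ∂(μHE[n] : Measure M), ∀ a, (V a : M → ℝ) x = f a x := by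
      rw [ae_all_iff]
      intro a
      exact (hf a).coeFn_toLp
    have hPV : D.toAD.P V = V := by
      ext a
      filter_upwards [D.toAD.coe_P V, hVe, hpf] with x e1 e2 e3
      rw [e1 a, e2 a, ← e3 a]
      exact Finset.sum_congr rfl fun b _ => by rw [e2 b]; rfl
    have h1 := hpars V hPV
    have h2 : ‖V‖ ^ 2 = ∫ z, ∑ a, f a z ^ 2 ∂(μHE[n] : Measure M) := by
      rw [← real_inner_self_eq_norm_sq, inner_HH V V hVe hVe]
      refine integral_congr_ae (Eventually.of_forall fun x => ?_)
      exact Finset.sum_congr rfl fun a _ => by ring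
    rw [h2] at h1
    have h3 : (fun k => ⟪V, u k⟫ ^ 2) =
        fun k => (∫ z, ∑ a, f a z * φ k a z ∂(μHE[n] : Measure M)) ^ 2 := by
      funext k
      rw [inner_HH V (u k) hVe (hφe k)]
    rwa [h3] at h1

end Crest.Agent.R249.Tv57
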