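import Crest.Agent.R247.Mcp2_688

/-!
R249 (helper709), leaf D3-LIM-G2, file 1 (abstract): the two-point estimate over a `Rad` structure.

`exists_pair`: for two balls `A = ball z a`, `B = ball z' a` there is a good pair `(x, y) ∈ A × B`
with `D x + 2 d ∫₀¹ H (T x t y) dt ≤ (average of D over A) + C d (1/μA + 1/μB) ∫_W H`.
`two_point`: if `| ‖U y - U x‖ - dist x y | ≤ dist x y (D x + dist x y ∫₀¹ H)` for good pairs then
`| ‖U z' - U z‖ - d | ≤ (2Λ+2) a + 2 d (C (d/a)^n) (avg D + 2 d avg H)`.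
-/

set_option autoImplicit false
set_option linter.unusedSectionVars false

open Set Filter Topology Metric MeasureTheory
open scoped ENNReal NNReal
open Crest.Agent.R247.Mcp688

noncomputable section

namespace Crest.Agent.R249.Two709

variable {X : Type*} [MetricSpace X] [MeasurableSpace X] [BorelSpace X] {μ : Measure X} {n : ℕ}
  {κ : ℝ} (C : Rad n κ X μ)

include C

theorem measurable_G {D H : X → ℝ≥0∞} (hD : Measurable D) (hH : Measurable H) (c : ℝ≥0∞) :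
    Measurable (fun p : X × X => D p.1 + c * ∫⁻ t in Icc (0 : ℝ) 1, H (C.T p.1 t p.2)) := by
  refine (hD.comp measurable_fst).add (Measurable.const_mul ?_ c)
  have h : Measurable (fun q : (X × X) × ℝ => H (C.T q.1.1 q.2 q.1.2)) :=
    hH.comp (C.measT.comp ((measurable_fst.comp measurable_fst).prodMk
      (measurable_snd.prodMk (measurable_snd.comp measurable_fst))))
  exact h.lintegral_prod_right' (ν := volume.restrict (Icc (0 : ℝ) 1))

/-- the rays between the two balls stay in `ball z (4 d)` -/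
theorem T_mem {z z' : X} {a : ℝ} (ha4 : a ≤ dist z z' / 4) {x y : X}
    (hx : x ∈ ball z a) (hy : y ∈ ball z' a) (hU : (x, y) ∈ C.U) {t : ℝ} (ht : t ∈ Icc (0 : ℝ) 1) :
    C.T x t y ∈ ball z (4 * dist z z') := by
  rw [mem_ball] at *
  have ha : 0 < a := lt_of_le_of_lt dist_nonneg hx
  have h1 := dist_triangle x z y
  have h2 := dist_triangle z z' y
  rw [dist_comm z' y] at h2
  have h3 := C.dist_T x y hU 0 ⟨le_rfl, zero_le_one⟩ t ht
  rw [C.T_zero x y hU, zero_sub, abs_neg, abs_of_nonneg ht.1] at h3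
  have h4 := dist_triangle (C.T x t y) x z
  rw [dist_comm (C.T x t y) x, h3] at h4
  have h5 : t * dist x y ≤ 1 * dist x y := mul_le_mul_of_nonneg_right ht.2 dist_nonneg
  linarith

theorem exists_pair [SFinite μ] (hκ : 0 ≤ κ) (hfin : ∀ x r, μ (ball x r) ≠ ∞)
    (hpos : ∀ (x : X) (r : ℝ), 0 < r → μ (ball x r) ≠ 0) {z z' : X} {a Δ : ℝ} (ha : 0 < a)
    (hΔ : dist z z' + 2 * a ≤ Δ) {W : Set X} (hW : MeasurableSet W)
    (hTW : ∀ x ∈ ball z a, ∀ y ∈ ball z' a, (x, y) ∈ C.U → ∀ t ∈ Icc (0 : ℝ) 1, C.T x t y ∈ W)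
    {D H : X → ℝ≥0∞} (hD : Measurable D) (hH : Measurable H)
    {P : X → X → Prop} (hP : ∀ x, ∀ᵐ y ∂μ, P x y) :
    ∃ x ∈ ball z a, ∃ y ∈ ball z' a, P x y ∧ (x, y) ∈ C.U ∧
      D x + ENNReal.ofReal Δ * ∫⁻ t in Icc (0 : ℝ) 1, H (C.T x t y) ≤
        (μ (ball z a))⁻¹ * ∫⁻ x in ball z a, D x ∂μ +
        ENNReal.ofReal Δ *
          (ENNReal.ofReal (Real.exp (κ * Δ ^ 2 / 2) * 2 ^ n) *
            ((μ (ball z a))⁻¹ + (μ (ball z' a))⁻¹) * ∫⁻ y in W, H y ∂μ) := by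
  set d := dist z z' with hd
  set A := ball z a with hA
  set B := ball z' a with hB
  set K : ℝ≥0∞ := ENNReal.ofReal (Real.exp (κ * Δ ^ 2 / 2) * 2 ^ n) with hK
  set c : ℝ≥0∞ := ENNReal.ofReal Δ with hc
  set G : X → X → ℝ≥0∞ := fun x y => D x + c * ∫⁻ t in Icc (0 : ℝ) 1, H (C.T x t y) with hG
  have hGm : Measurable (fun p : X × X => G p.1 p.2) := measurable_G C hD hH c
  have hA0 : μ A ≠ 0 := hpos z a ha
  have hB0 : μ B ≠ 0 := hpos z' a ha
  have hAf : μ A ≠ ∞ := hfin z a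
  have hBf : μ B ≠ ∞ := hfin z' a
  have hrA : μ.restrict A ≠ 0 := by
    rw [Ne, Measure.restrict_eq_zero]; exact hA0
  have hrB : μ.restrict B ≠ 0 := by
    rw [Ne, Measure.restrict_eq_zero]; exact hB0
  have : IsFiniteMeasure (μ.restrict A) := ⟨by
    rw [Measure.restrict_apply_univ]; exact lt_top_iff_ne_top.2 hAf⟩
  have : IsFiniteMeasure (μ.restrict B) := ⟨by
    rw [Measure.restrict_apply_univ]; exact lt_top_iff_ne_top.2 hBf⟩
  -- `x`
  have hfm : AEMeasurable (fun x => ∫⁻ y in B, G x y ∂μ) (μ.restrict A) :=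
    (hGm.lintegral_prod_right' (ν := μ.restrict B)).aemeasurable
  have hNA : (μ.restrict A) Aᶜ = 0 := by
    rw [Measure.restrict_apply measurableSet_ball.compl, compl_inter_self, measure_empty]
  obtain ⟨x, hxA, hx⟩ := exists_notMem_null_le_laverage hrA hfm hNA
  have hxA' : x ∈ A := notMem_compl_iff.1 hxA
  rw [laverage_eq, Measure.restrict_apply_univ] at hx
  -- `y`
  have hGx : AEMeasurable (fun y => G x y) (μ.restrict B) :=
    (hGm.comp (measurable_const.prodMk measurable_id)).aemeasurable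
  have hNB : (μ.restrict B) (Bᶜ ∪ {y | ¬ (P x y ∧ (x, y) ∈ C.U)}) = 0 := by
    apply measure_union_null
    · rw [Measure.restrict_apply measurableSet_ball.compl, compl_inter_self, measure_empty]
    · have h : ∀ᵐ y ∂μ, P x y ∧ (x, y) ∈ C.U := (hP x).and (C.ae_U x)
      exact (ae_restrict_of_ae h)
  obtain ⟨y, hyB, hy⟩ := exists_notMem_null_le_laverage hrB hGx hNB
  have hyB1 : y ∈ B := by
    by_contra h
    exact hyB (Or.inl h)
  have hyB2 : P x y ∧ (x, y) ∈ C.U := by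
    by_contra h
    exact hyB (Or.inr h)
  rw [laverage_eq, Measure.restrict_apply_univ] at hy
  refine ⟨x, hxA', y, hyB1, hyB2.1, hyB2.2, ?_⟩
  refine hy.trans ?_
  -- the total integral
  have hseg := C.segment_le hκ (A := A) (B := B) (W := W)
    measurableSet_ball measurableSet_ball hW (D := Δ)
    (fun p hp q hq => by
      rw [hA, mem_ball] at hp
      rw [hB, mem_ball] at hq
      have h1 := dist_triangle p z q
      have h2 := dist_triangle z z' q
      rw [dist_comm z' q] at h2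
      linarith) hTW hH
  have htot : ∫⁻ x in A, ∫⁻ y in B, G x y ∂μ ∂μ ≤
      μ B * ∫⁻ x in A, D x ∂μ + c * (K * (μ A + μ B) * ∫⁻ y in W, H y ∂μ) := by
    have e1 : ∀ x, ∫⁻ y in B, G x y ∂μ = μ B * D x +
        c * ∫⁻ y in B, ∫⁻ t in Icc (0 : ℝ) 1, H (C.T x t y) ∂volume ∂μ := by
      intro x
      simp only [hG]
      rw [lintegral_add_left measurable_const, setLIntegral_const, mul_comm (D x),
        lintegral_const_mul' _ _ ENNReal.ofReal_ne_top]
    calc ∫⁻ x in A, ∫⁻ y in B, G x y ∂μ ∂μ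
        = ∫⁻ x in A, (μ B * D x +
            c * ∫⁻ y in B, ∫⁻ t in Icc (0 : ℝ) 1, H (C.T x t y) ∂volume ∂μ) ∂μ := by
          refine lintegral_congr fun x => e1 x
      _ = μ B * ∫⁻ x in A, D x ∂μ +
            c * ∫⁻ x in A, ∫⁻ y in B, ∫⁻ t in Icc (0 : ℝ) 1, H (C.T x t y) ∂volume ∂μ ∂μ := by
          rw [lintegral_add_left (hD.const_mul _), lintegral_const_mul' _ _ hBf,
            lintegral_const_mul' _ _ ENNReal.ofReal_ne_top]
      _ ≤ _ := by gcongr
  calc (∫⁻ y in B, G x y ∂μ) / μ B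
      ≤ ((∫⁻ x in A, ∫⁻ y in B, G x y ∂μ ∂μ) / μ A) / μ B := by gcongr
    _ ≤ ((μ B * ∫⁻ x in A, D x ∂μ + c * (K * (μ A + μ B) * ∫⁻ y in W, H y ∂μ)) / μ A) / μ B := by
        gcongr
    _ = _ := by
        rw [ENNReal.div_eq_inv_mul, ENNReal.div_eq_inv_mul, mul_add, mul_add]
        congr 1
        · calc (μ B)⁻¹ * ((μ A)⁻¹ * (μ B * ∫⁻ x in A, D x ∂μ))
              = ((μ B)⁻¹ * μ B) * ((μ A)⁻¹ * ∫⁻ x in A, D x ∂μ) := by ring
            _ = _ := by rw [ENNReal.inv_mul_cancel hB0 hBf, one_mul]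
        · calc (μ B)⁻¹ * ((μ A)⁻¹ * (c * (K * (μ A + μ B) * ∫⁻ y in W, H y ∂μ)))
              = c * (K * (((μ A)⁻¹ * μ A) * (μ B)⁻¹ + ((μ B)⁻¹ * μ B) * (μ A)⁻¹) *
                  ∫⁻ y in W, H y ∂μ) := by ring
            _ = _ := by
              rw [ENNReal.inv_mul_cancel hB0 hBf, ENNReal.inv_mul_cancel hA0 hAf, one_mul, one_mul,
                add_comm (μ B)⁻¹]

/-- **the abstract two-point estimate, general form** -/
theorem two_point_gen [SFinite μ] (hκ : 0 ≤ κ) (hfin : ∀ x r, μ (ball x r) ≠ ∞)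
    (hpos : ∀ (x : X) (r : ℝ), 0 < r → μ (ball x r) ≠ 0) {E : Type*} [NormedAddCommGroup E]
    {U : X → E} {z z' : X} {a Λ Δ : ℝ} (ha : 0 < a) (hΔ : dist z z' + 2 * a ≤ Δ)
    (hΛ : 0 ≤ Λ)
    (hL : ∀ x ∈ ball z a, ‖U x - U z‖ ≤ Λ * dist x z)
    (hL' : ∀ y ∈ ball z' a, ‖U y - U z'‖ ≤ Λ * dist y z') {W : Set X} (hW : MeasurableSet W)
    (hTW : ∀ x ∈ ball z a, ∀ y ∈ ball z' a, (x, y) ∈ C.U → ∀ t ∈ Icc (0 : ℝ) 1, C.T x t y ∈ W)
    {D H : X → ℝ≥0∞} (hD : Measurable D) (hH : Measurable H)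
    (hpt : ∀ x ∈ ball z a, ∀ᵐ y ∂μ, y ∈ ball z' a → (x, y) ∈ C.U →
      ENNReal.ofReal |‖U y - U x‖ - dist x y| ≤ ENNReal.ofReal (dist x y) *
        (D x + ENNReal.ofReal (dist x y) * ∫⁻ t in Icc (0 : ℝ) 1, H (C.T x t y))) :
    ENNReal.ofReal |‖U z' - U z‖ - dist z z'| ≤
      ENNReal.ofReal ((2 * Λ + 2) * a) +
      ENNReal.ofReal Δ * ((μ (ball z a))⁻¹ * ∫⁻ x in ball z a, D x ∂μ +
        ENNReal.ofReal Δ * (ENNReal.ofReal (Real.exp (κ * Δ ^ 2 / 2) * 2 ^ n) *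
            ((μ (ball z a))⁻¹ + (μ (ball z' a))⁻¹) * ∫⁻ y in W, H y ∂μ)) := by
  obtain ⟨x, hx, y, hy, hxy, hU, hle⟩ := exists_pair C hκ hfin hpos ha hΔ hW hTW hD hH
    (P := fun x y => x ∈ ball z a → y ∈ ball z' a → (x, y) ∈ C.U →
      ENNReal.ofReal |‖U y - U x‖ - dist x y| ≤ ENNReal.ofReal (dist x y) *
        (D x + ENNReal.ofReal (dist x y) * ∫⁻ t in Icc (0 : ℝ) 1, H (C.T x t y)))
    (fun x => by
      by_cases hx : x ∈ ball z a
      · filter_upwards [hpt x hx] with y hy _ using hy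
      · exact Eventually.of_forall fun y h => absurd h hx)
  have hxy := hxy hx hy hU
  set d := dist z z' with hd
  have hd0 : 0 ≤ d := dist_nonneg
  -- distances
  have hx1 : dist x z < a := mem_ball.1 hx
  have hy1 : dist y z' < a := mem_ball.1 hy
  have hδ : |dist x y - d| ≤ 2 * a := by
    have h1 := dist_triangle x z y
    have h2 := dist_triangle z z' y
    have h3 := dist_triangle z x z'
    have h4 := dist_triangle x y z'
    rw [dist_comm z' y] at h2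
    rw [dist_comm z x] at h3
    rw [abs_le]
    constructor <;> linarith
  have hδ2 : dist x y ≤ Δ := by
    have := (abs_le.1 hδ).2
    linarith
  have hU1 : |‖U z' - U z‖ - ‖U y - U x‖| ≤ 2 * Λ * a := by
    have h1 := hL x hx
    have h2 := hL' y hy
    have h3 : Λ * dist x z ≤ Λ * a := mul_le_mul_of_nonneg_left hx1.le hΛ
    have h4 : Λ * dist y z' ≤ Λ * a := mul_le_mul_of_nonneg_left hy1.le hΛ
    have h5 : |‖U z' - U z‖ - ‖U y - U x‖| ≤ ‖(U z' - U z) - (U y - U x)‖ :=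
      abs_norm_sub_norm_le _ _
    have h6 : (U z' - U z) - (U y - U x) = (U x - U z) - (U y - U z') := by abel
    rw [h6] at h5
    have h7 := norm_sub_le (U x - U z) (U y - U z')
    linarith
  have htri : |‖U z' - U z‖ - d| ≤ (2 * Λ + 2) * a + |‖U y - U x‖ - dist x y| := by
    have h1 : ‖U z' - U z‖ - d = (‖U z' - U z‖ - ‖U y - U x‖) + (‖U y - U x‖ - dist x y) +
      (dist x y - d) := by ring
    rw [h1]
    refine (abs_add_three _ _ _).trans ?_
    linarith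
  refine (ENNReal.ofReal_le_ofReal htri).trans ?_
  rw [ENNReal.ofReal_add (by positivity) (abs_nonneg _)]
  refine add_le_add le_rfl ?_
  calc ENNReal.ofReal |‖U y - U x‖ - dist x y|
      ≤ ENNReal.ofReal Δ * (D x + ENNReal.ofReal Δ *
          ∫⁻ t in Icc (0 : ℝ) 1, H (C.T x t y)) := by
        refine hxy.trans ?_
        gcongr
    _ ≤ _ := mul_le_mul_right hle _

omit C [BorelSpace X] in
theorem exp_le_three {t : ℝ} (h : t ≤ 1) : Real.exp t ≤ 3 :=
  (Real.exp_le_exp.2 h).trans (Real.exp_one_lt_d9.le.trans (by norm_num))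

/-- `μ(ball z (4d)) ≤ 3 (5d/a)ⁿ μ(ball w a)` for `w = z, z'`. -/
theorem ball_inv_le (hκ : 0 ≤ κ) (hfin : ∀ x r, μ (ball x r) ≠ ∞)
    (hpos : ∀ (x : X) (r : ℝ), 0 < r → μ (ball x r) ≠ 0) {z w : X} {d a : ℝ} (ha : 0 < a)
    (ha4 : a ≤ d / 4) (hw : dist z w ≤ d) (hκd : κ * (5 * d) ^ 2 ≤ 2) :
    (μ (ball w a))⁻¹ ≤ ENNReal.ofReal (3 * (5 * d / a) ^ n) * (μ (ball z (4 * d)))⁻¹ := by
  have hd : 0 < d := by linarith
  have h1 := C.mu_ball_le' hκ z w (r := a) (R := 4 * d) (S := 5 * d) ha (by linarith)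
    (by linarith)
  have h2 : Real.exp (κ * (5 * d) ^ 2 / 2) ≤ 3 := exp_le_three (by linarith)
  have h3 : μ (ball z (4 * d)) ≤ ENNReal.ofReal (3 * (5 * d / a) ^ n) * μ (ball w a) := by
    refine h1.trans ?_
    gcongr
  have hW0 := hpos z (4 * d) (by linarith)
  have hWf := hfin z (4 * d)
  have hw0 := hpos w a ha
  have hwf := hfin w a
  calc (μ (ball w a))⁻¹ = μ (ball z (4 * d)) * ((μ (ball w a))⁻¹ * (μ (ball z (4 * d)))⁻¹) := by
        rw [mul_comm (μ (ball w a))⁻¹, ← mul_assoc, ENNReal.mul_inv_cancel hW0 hWf, one_mul]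
    _ ≤ (ENNReal.ofReal (3 * (5 * d / a) ^ n) * μ (ball w a)) *
        ((μ (ball w a))⁻¹ * (μ (ball z (4 * d)))⁻¹) := by gcongr
    _ = ENNReal.ofReal (3 * (5 * d / a) ^ n) * ((μ (ball w a) * (μ (ball w a))⁻¹) *
        (μ (ball z (4 * d)))⁻¹) := by ring
    _ = _ := by rw [ENNReal.mul_inv_cancel hw0 hwf, one_mul]

/-- **the abstract two-point estimate** -/
theorem two_point [SFinite μ] (hκ : 0 ≤ κ) (hfin : ∀ x r, μ (ball x r) ≠ ∞)
    (hpos : ∀ (x : X) (r : ℝ), 0 < r → μ (ball x r) ≠ 0) {E : Type*} [NormedAddCommGroup E]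
    {U : X → E} {z z' : X} {a Λ : ℝ} (ha : 0 < a) (ha4 : a ≤ dist z z' / 4)
    (hκd : κ * (5 * dist z z') ^ 2 ≤ 2) (hΛ : 0 ≤ Λ)
    (hL : ∀ x ∈ ball z a, ‖U x - U z‖ ≤ Λ * dist x z)
    (hL' : ∀ y ∈ ball z' a, ‖U y - U z'‖ ≤ Λ * dist y z')
    {D H : X → ℝ≥0∞} (hD : Measurable D) (hH : Measurable H)
    (hpt : ∀ x ∈ ball z a, ∀ᵐ y ∂μ, y ∈ ball z' a → (x, y) ∈ C.U →
      ENNReal.ofReal |‖U y - U x‖ - dist x y| ≤ ENNReal.ofReal (dist x y) *
        (D x + ENNReal.ofReal (dist x y) * ∫⁻ t in Icc (0 : ℝ) 1, H (C.T x t y))) :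
    ENNReal.ofReal |‖U z' - U z‖ - dist z z'| ≤
      ENNReal.ofReal ((2 * Λ + 2) * a) +
      ENNReal.ofReal (72 * dist z z' * (10 * dist z z' / a) ^ n) *
        ((μ (ball z (4 * dist z z')))⁻¹ * ∫⁻ x in ball z (4 * dist z z'), D x ∂μ +
          ENNReal.ofReal (dist z z') *
            ((μ (ball z (4 * dist z z')))⁻¹ * ∫⁻ x in ball z (4 * dist z z'), H x ∂μ)) := by
  have key := two_point_gen C hκ hfin hpos ha (Δ := 2 * dist z z') (by linarith) hΛ hL hL'
    (W := ball z (4 * dist z z')) measurableSet_ball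
    (fun x hx y hy hU t ht => T_mem C ha4 hx hy hU ht) hD hH hpt
  refine key.trans (add_le_add le_rfl ?_)
  set d := dist z z' with hd
  have hd0 : 0 < d := by linarith
  have hκd2 : κ * d ^ 2 ≤ 2 / 25 := by nlinarith
  set W := ball z (4 * d) with hW
  set K : ℝ≥0∞ := ENNReal.ofReal (Real.exp (κ * (2 * d) ^ 2 / 2) * 2 ^ n) with hK
  set ID := ∫⁻ x in W, D x ∂μ with hID
  set IH := ∫⁻ x in W, H x ∂μ with hIH
  set Q : ℝ≥0∞ := ENNReal.ofReal (3 * (5 * d / a) ^ n) with hQ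
  have hz := ball_inv_le C hκ hfin hpos (z := z) (w := z) ha ha4 (by rw [dist_self]; exact hd0.le) hκd
  have hz' := ball_inv_le C hκ hfin hpos (z := z) (w := z') ha ha4 le_rfl hκd
  have hKle : K ≤ ENNReal.ofReal (3 * 2 ^ n) := by
    apply ENNReal.ofReal_le_ofReal
    have : Real.exp (κ * (2 * d) ^ 2 / 2) ≤ 3 := exp_le_three (by nlinarith)
    gcongr
  have hAD : ∫⁻ x in ball z a, D x ∂μ ≤ ID :=
    lintegral_mono_set (ball_subset_ball (by linarith))
  calc ENNReal.ofReal (2 * d) * ((μ (ball z a))⁻¹ * ∫⁻ x in ball z a, D x ∂μ +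
        ENNReal.ofReal (2 * d) * (K * ((μ (ball z a))⁻¹ + (μ (ball z' a))⁻¹) * IH))
      ≤ ENNReal.ofReal (2 * d) * ((Q * (μ W)⁻¹) * ID + ENNReal.ofReal (2 * d) *
          (ENNReal.ofReal (3 * 2 ^ n) * (Q * (μ W)⁻¹ + Q * (μ W)⁻¹) * IH)) := by
        gcongr
    _ = ENNReal.ofReal (2 * d) * (Q * ((μ W)⁻¹ * ID)) +
        ENNReal.ofReal (2 * d) * (2 * d |> ENNReal.ofReal) * (ENNReal.ofReal (3 * 2 ^ n) * 2 * Q) *
          ((μ W)⁻¹ * IH) := by ring
    _ ≤ ENNReal.ofReal (72 * d * (10 * d / a) ^ n) * ((μ W)⁻¹ * ID) +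
        ENNReal.ofReal (72 * d * (10 * d / a) ^ n) * (ENNReal.ofReal d * ((μ W)⁻¹ * IH)) := by
        have e10 : (10 * d / a) ^ n = 2 ^ n * (5 * d / a) ^ n := by
          rw [← mul_pow]; congr 1; ring
        have h2n : (1 : ℝ) ≤ 2 ^ n := one_le_pow₀ (by norm_num)
        have h5n : 0 ≤ (5 * d / a) ^ n := by positivity
        refine add_le_add ?_ ?_
        · rw [← mul_assoc]
          refine mul_le_mul_left (α := ℝ≥0∞) ?_ _
          rw [hQ, ← ENNReal.ofReal_mul (by positivity)]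
          apply ENNReal.ofReal_le_ofReal
          rw [e10]
          have : 2 * d * (3 * (5 * d / a) ^ n) * 1 ≤ 2 * d * (3 * (5 * d / a) ^ n) * (12 * 2 ^ n) := by
            apply mul_le_mul_of_nonneg_left _ (by positivity)
            linarith
          calc _ = 2 * d * (3 * (5 * d / a) ^ n) * 1 := by ring
            _ ≤ _ := this
            _ = _ := by ring
        · rw [← mul_assoc (ENNReal.ofReal (72 * d * (10 * d / a) ^ n)) (ENNReal.ofReal d)]
          refine mul_le_mul_left (α := ℝ≥0∞) ?_ _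
          have h2 : (2 : ℝ≥0∞) = ENNReal.ofReal 2 := by norm_num
          rw [hQ, h2, ← ENNReal.ofReal_mul (by positivity), ← ENNReal.ofReal_mul (by positivity),
            ← ENNReal.ofReal_mul (by positivity), ← ENNReal.ofReal_mul (by positivity),
            ← ENNReal.ofReal_mul (by positivity)]
          apply ENNReal.ofReal_le_ofReal
          rw [e10]
          apply le_of_eq
          ring
    _ = _ := by ring

end Crest.Agent.R249.Two709
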