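import Crest.Agent.R249.Two4_709

/-!
R249 (helper709), leaf D3-LIM / L-NI: near isometry from small Hessian and small Gram deviation.
-/

set_option autoImplicit false
set_option maxSynthPendingDepth 3
set_option linter.unusedSectionVars false
set_option linter.unusedVariables false

open Bundle Set Filter Topology Metric MeasureTheory
open scoped Manifold ContDiff NNReal ENNReal
open Crest.GeometryTopology.CoordMetric Crest.GeometryTopology.ChartCurvature
  Crest.GeometryTopology.PointedLimit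
open Crest.Agent.R247.Bo84 (mGam mHessSq)
open Crest.Agent.R247

noncomputable section

namespace Crest.Agent.R249.Two709

universe u

/-- the volume of the unit ball as a real number -/
def om (n : ℕ) : ℝ := (volume (ball (0 : EuclideanSpace ℝ (Fin n)) 1)).toReal

theorem om_pos (n : ℕ) : 0 < om n :=
  ENNReal.toReal_pos (measure_ball_pos _ _ one_pos).ne' measure_ball_lt_top.ne

theorem volume_ball_eq (n : ℕ) {s : ℝ} (hs : 0 < s) :
    volume (ball (0 : EuclideanSpace ℝ (Fin n)) s) = ENNReal.ofReal (s ^ n * om n) := by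
  rw [Measure.addHaar_ball_of_pos _ _ hs, finrank_euclideanSpace_fin, om,
    ENNReal.ofReal_mul (by positivity), ENNReal.ofReal_toReal measure_ball_lt_top.ne]

section final

variable {n : ℕ} {M : Type u} [MetricSpace M] [CompleteSpace M] [ConnectedSpace M]
  [ChartedSpace (EuclideanSpace ℝ (Fin n)) M]
  [IsManifold 𝓘(ℝ, EuclideanSpace ℝ (Fin n)) ∞ M]
  [RiemannianBundle (fun x : M => TangentSpace 𝓘(ℝ, EuclideanSpace ℝ (Fin n)) x)]
  [IsContMDiffRiemannianBundle 𝓘(ℝ, EuclideanSpace ℝ (Fin n)) ∞ (EuclideanSpace ℝ (Fin n))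
    (fun x : M => TangentSpace 𝓘(ℝ, EuclideanSpace ℝ (Fin n)) x)]
  [IsRiemannianManifold 𝓘(ℝ, EuclideanSpace ℝ (Fin n)) M]
  [MeasurableSpace M] [BorelSpace M]

/-- inverse volume bound of the small balls. -/
theorem inv_ball_le {κ : ℝ} (hκ : 0 ≤ κ) (hric : HasRicciLowerBound n M (-κ)) {x y : M}
    {s η c : ℝ} (hs : 0 < s) (hη : 0 < η) (hη1 : η ≤ 1 / 2) (hc : 0 < c)
    (hκs : κ * (4 * s) ^ 2 ≤ 2)
    (hvol : ENNReal.ofReal c * volume (ball (0 : EuclideanSpace ℝ (Fin n)) s) ≤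
      μHE[n] (ball x s)) (hy : y ∈ ball x s) :
    (μHE[n] (ball y (η * s)))⁻¹ ≤ ENNReal.ofReal (3 * (2 / η) ^ n / (c * om n) / s ^ n) := by
  have hηs : 0 < η * s := mul_pos hη hs
  have h1 := Bgr546.bgr_all n κ hκ M y (η * s) (2 * s) hric hηs (by nlinarith)
  have h2 : Real.exp (κ * (2 * s) ^ 2 / 2) ≤ 3 := exp_le_three (by nlinarith)
  have h3 : 2 * s / (η * s) = 2 / η := by
    field_simp
  have h4 : μHE[n] (ball x s) ≤ μHE[n] (ball y (2 * s)) := by
    apply measure_mono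
    intro z hz
    rw [mem_ball] at *
    have := dist_triangle z x y
    rw [dist_comm x y] at this
    linarith
  have hom := om_pos n
  have h5 : ENNReal.ofReal (c * (s ^ n * om n)) ≤
      ENNReal.ofReal (3 * (2 / η) ^ n) * μHE[n] (ball y (η * s)) := by
    calc ENNReal.ofReal (c * (s ^ n * om n))
        = ENNReal.ofReal c * volume (ball (0 : EuclideanSpace ℝ (Fin n)) s) := by
          rw [volume_ball_eq n hs, ENNReal.ofReal_mul hc.le]
      _ ≤ μHE[n] (ball x s) := hvol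
      _ ≤ μHE[n] (ball y (2 * s)) := h4
      _ ≤ _ := h1
      _ ≤ _ := by
          rw [h3]
          gcongr
  have h6 : 0 < 3 * (2 / η) ^ n := by positivity
  have h7 : ENNReal.ofReal (c * om n * s ^ n / (3 * (2 / η) ^ n)) ≤ μHE[n] (ball y (η * s)) := by
    rw [ENNReal.ofReal_div_of_pos h6]
    refine ENNReal.div_le_of_le_mul' ?_
    refine le_trans (le_of_eq ?_) h5
    congr 1
    ring
  calc (μHE[n] (ball y (η * s)))⁻¹ ≤ (ENNReal.ofReal (c * om n * s ^ n / (3 * (2 / η) ^ n)))⁻¹ :=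
        ENNReal.inv_le_inv.2 h7
    _ = ENNReal.ofReal ((c * om n * s ^ n / (3 * (2 / η) ^ n))⁻¹) := by
        rw [ENNReal.ofReal_inv_of_pos (by positivity)]
    _ = _ := by
        congr 1
        field_simp

/-- the constant of `ni_pair` -/
def Q5 (n : ℕ) (c η : ℝ) : ℝ := 3 * (2 / η) ^ n / (c * om n)

theorem Q5_pos {c η : ℝ} (hc : 0 < c) (hη : 0 < η) : 0 < Q5 n c η := by
  unfold Q5
  have := om_pos n
  positivity

/-- **L-NI, quantitative form**. -/
theorem ni_pair {κ : ℝ} (hκ : 0 ≤ κ) (hric : HasRicciLowerBound n M (-κ)) {x : M}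
    {s η c β Λ δ : ℝ} (hs : 0 < s) (hη : 0 < η) (hη1 : η ≤ 1 / 2) (hc : 0 < c)
    (hκs : κ * (4 * s) ^ 2 ≤ 2) (hβ : 0 ≤ β) (hΛ : 0 ≤ Λ) (hδ : 0 ≤ δ)
    (hvol : ENNReal.ofReal c * volume (ball (0 : EuclideanSpace ℝ (Fin n)) s) ≤
      μHE[n] (ball x s))
    {A B : Matrix (Fin n) (Fin n) ℝ} (hBA : B * A * B.transpose = 1) (hB : nB B ≤ β)
    {u : Fin n → M → ℝ}
    (hu : ∀ b, ∀ y ∈ ball x (6 * s), ContMDiffAt (𝓡 n) 𝓘(ℝ, ℝ) 2 (u b) y)
    (hg : ∀ b, ∀ y ∈ ball x (6 * s), mGam n (u b) (u b) y ≤ Λ ^ 2)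
    (hG : ∫⁻ y in ball x (6 * s), ENNReal.ofReal (gdev A u y) ∂μHE[n] ≤
      ENNReal.ofReal (δ * s ^ n))
    (hH : ENNReal.ofReal s * ∫⁻ y in ball x (6 * s), ENNReal.ofReal (hsum u y) ∂μHE[n] ≤
      ENNReal.ofReal (δ * s ^ n)) {y y' : M} (hy : y ∈ ball x s) (hy' : y' ∈ ball x s) :
    |‖bv B u y - bv B u y'‖ - dist y y'| ≤
      (2 * (β * n * Λ) + 2) * η * s +
        4 * s * (Q5 n c η * (β ^ 2 + 24 * 2 ^ n * β) * δ) := by
  have hQ := Q5_pos (n := n) hc hη
  have hsn : 0 < s ^ n := pow_pos hs n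
  have hnB := nB_nonneg B
  rcases eq_or_ne y' y with rfl | hne
  · rw [sub_self, norm_zero, dist_self, sub_self, abs_zero]
    positivity
  have hηs : 0 < η * s := mul_pos hη hs
  have hηs2 : η * s ≤ s / 2 := by nlinarith
  rw [mem_ball] at hy hy'
  have hd : dist y' y < 2 * s := by
    have := dist_triangle y' x y
    rw [dist_comm x y] at this
    linarith
  have key := two_M (n := n) (M := M) hκ hric (z := y') (z' := y) hne (a := η * s) (Δ := 4 * s)
    (Λ := Λ) hηs (by linarith) hΛ (W := ball x (6 * s)) isOpen_ball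
    (fun p hp => by
      rw [mem_ball] at *
      have := dist_triangle p y' x
      linarith)
    (fun p hp => by
      rw [mem_ball] at *
      have := dist_triangle p y x
      linarith)
    (fun p hp q hq m hm => by
      rw [mem_ball] at *
      have h1 := dist_triangle p y' x
      have h2 := dist_triangle q y x
      have h3 := dist_triangle p x q
      have h4 := dist_triangle m p x
      have h5 := dist_triangle m q x
      rw [dist_comm x q] at h3
      rw [dist_comm m p] at h4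
      linarith) hBA hu hg
  have hv := inv_ball_le (n := n) (M := M) hκ hric hs hη hη1 hc hκs hvol
    (y := y) (mem_ball.2 hy)
  have hv' := inv_ball_le (n := n) (M := M) hκ hric hs hη hη1 hc hκs hvol
    (y := y') (mem_ball.2 hy')
  change _ ≤ ENNReal.ofReal (Q5 n c η / s ^ n) at hv
  change _ ≤ ENNReal.ofReal (Q5 n c η / s ^ n) at hv'
  -- the first integral
  have hI1 : ∫⁻ z in ball y' (η * s), ENNReal.ofReal (nB B ^ 2 * gdev A u z) ∂μHE[n] ≤
      ENNReal.ofReal (β ^ 2 * (δ * s ^ n)) := by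
    calc ∫⁻ z in ball y' (η * s), ENNReal.ofReal (nB B ^ 2 * gdev A u z) ∂μHE[n]
        ≤ ∫⁻ z in ball x (6 * s), ENNReal.ofReal (nB B ^ 2 * gdev A u z) ∂μHE[n] := by
          refine lintegral_mono_set fun p hp => ?_
          rw [mem_ball] at *
          have := dist_triangle p y' x
          linarith
      _ ≤ ∫⁻ z in ball x (6 * s), ENNReal.ofReal (β ^ 2) * ENNReal.ofReal (gdev A u z) ∂μHE[n] := by
          refine lintegral_mono fun z => ?_
          rw [← ENNReal.ofReal_mul (by positivity)]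
          apply ENNReal.ofReal_le_ofReal
          have := gdev_nonneg A u z
          gcongr
      _ = ENNReal.ofReal (β ^ 2) * ∫⁻ z in ball x (6 * s), ENNReal.ofReal (gdev A u z) ∂μHE[n] := by
          rw [lintegral_const_mul' _ _ ENNReal.ofReal_ne_top]
      _ ≤ ENNReal.ofReal (β ^ 2) * ENNReal.ofReal (δ * s ^ n) := by gcongr
      _ = _ := by rw [← ENNReal.ofReal_mul (by positivity)]
  -- the second integral
  have hI2 : ENNReal.ofReal (4 * s) *
      ∫⁻ z in ball x (6 * s), ENNReal.ofReal (nB B * hsum u z) ∂μHE[n] ≤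
      ENNReal.ofReal (4 * β * (δ * s ^ n)) := by
    calc ENNReal.ofReal (4 * s) *
        ∫⁻ z in ball x (6 * s), ENNReal.ofReal (nB B * hsum u z) ∂μHE[n]
        ≤ ENNReal.ofReal (4 * s) *
        ∫⁻ z in ball x (6 * s), ENNReal.ofReal β * ENNReal.ofReal (hsum u z) ∂μHE[n] := by
          refine mul_le_mul_right (lintegral_mono fun z => ?_) _
          rw [← ENNReal.ofReal_mul hβ]
          apply ENNReal.ofReal_le_ofReal
          have := hsum_nonneg u z
          gcongr
      _ = ENNReal.ofReal (4 * β) * (ENNReal.ofReal s *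
            ∫⁻ z in ball x (6 * s), ENNReal.ofReal (hsum u z) ∂μHE[n]) := by
          rw [lintegral_const_mul' _ _ ENNReal.ofReal_ne_top, ← mul_assoc, ← mul_assoc,
            ← ENNReal.ofReal_mul (by positivity), ← ENNReal.ofReal_mul (by positivity)]
          congr 2
          ring
      _ ≤ ENNReal.ofReal (4 * β) * ENNReal.ofReal (δ * s ^ n) := by gcongr
      _ = _ := by rw [← ENNReal.ofReal_mul (by positivity)]
  have hexp : Real.exp (κ * (4 * s) ^ 2 / 2) ≤ 3 := exp_le_three (by linarith)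
  have hfin : ENNReal.ofReal |‖bv B u y - bv B u y'‖ - dist y' y| ≤
      ENNReal.ofReal ((2 * (β * n * Λ) + 2) * η * s +
        4 * s * (Q5 n c η * (β ^ 2 + 24 * 2 ^ n * β) * δ)) := by
    refine key.trans ?_
    rw [ENNReal.ofReal_add (by positivity) (by positivity)]
    refine add_le_add ?_ ?_
    · apply ENNReal.ofReal_le_ofReal
      have : nB B * n * Λ ≤ β * n * Λ := by gcongr
      calc (2 * (nB B * n * Λ) + 2) * (η * s) ≤ (2 * (β * n * Λ) + 2) * (η * s) := by gcongr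
        _ = _ := by ring
    · calc ENNReal.ofReal (4 * s) * ((μHE[n] (ball y' (η * s)))⁻¹ *
            ∫⁻ z in ball y' (η * s), ENNReal.ofReal (nB B ^ 2 * gdev A u z) ∂μHE[n] +
          ENNReal.ofReal (4 * s) * (ENNReal.ofReal (Real.exp (κ * (4 * s) ^ 2 / 2) * 2 ^ n) *
            ((μHE[n] (ball y' (η * s)))⁻¹ + (μHE[n] (ball y (η * s)))⁻¹) *
              ∫⁻ z in ball x (6 * s), ENNReal.ofReal (nB B * hsum u z) ∂μHE[n]))
          = ENNReal.ofReal (4 * s) * ((μHE[n] (ball y' (η * s)))⁻¹ *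
            ∫⁻ z in ball y' (η * s), ENNReal.ofReal (nB B ^ 2 * gdev A u z) ∂μHE[n] +
          ENNReal.ofReal (Real.exp (κ * (4 * s) ^ 2 / 2) * 2 ^ n) *
            ((μHE[n] (ball y' (η * s)))⁻¹ + (μHE[n] (ball y (η * s)))⁻¹) *
              (ENNReal.ofReal (4 * s) *
                ∫⁻ z in ball x (6 * s), ENNReal.ofReal (nB B * hsum u z) ∂μHE[n])) := by ring
        _ ≤ ENNReal.ofReal (4 * s) * (ENNReal.ofReal (Q5 n c η / s ^ n) *
            ENNReal.ofReal (β ^ 2 * (δ * s ^ n)) +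
          ENNReal.ofReal (3 * 2 ^ n) *
            (ENNReal.ofReal (Q5 n c η / s ^ n) + ENNReal.ofReal (Q5 n c η / s ^ n)) *
              ENNReal.ofReal (4 * β * (δ * s ^ n))) := by
            gcongr
        _ = _ := by
            have hq : 0 ≤ Q5 n c η / s ^ n := by positivity
            rw [← ENNReal.ofReal_add hq hq, ← ENNReal.ofReal_mul hq,
              ← ENNReal.ofReal_mul (by positivity), ← ENNReal.ofReal_mul (by positivity),
              ← ENNReal.ofReal_add (by positivity) (by positivity),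
              ← ENNReal.ofReal_mul (by positivity)]
            congr 1
            field_simp
            ring
  rw [dist_comm y' y] at hfin
  exact (ENNReal.ofReal_le_ofReal_iff (by positivity)).1 hfin

end final

/-- **L-NI** (leaf of post 1495), for a general normalising matrix `B`. -/
theorem ni_B (n : ℕ) {ε c β Λ : ℝ} (hε : 0 < ε) (hc : 0 < c) (hβ : 0 ≤ β) (hΛ : 0 ≤ Λ) :
    ∃ δ : ℝ, 0 < δ ∧ ∀ (M : Type u) [MetricSpace M] [CompleteSpace M] [ConnectedSpace M]
      [ChartedSpace (EuclideanSpace ℝ (Fin n)) M]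
      [IsManifold 𝓘(ℝ, EuclideanSpace ℝ (Fin n)) ∞ M]
      [RiemannianBundle (fun x : M => TangentSpace 𝓘(ℝ, EuclideanSpace ℝ (Fin n)) x)]
      [IsContMDiffRiemannianBundle 𝓘(ℝ, EuclideanSpace ℝ (Fin n)) ∞ (EuclideanSpace ℝ (Fin n))
        (fun x : M => TangentSpace 𝓘(ℝ, EuclideanSpace ℝ (Fin n)) x)]
      [IsRiemannianManifold 𝓘(ℝ, EuclideanSpace ℝ (Fin n)) M]
      [MeasurableSpace M] [BorelSpace M] (κ : ℝ) (_ : 0 ≤ κ)
      (_ : HasRicciLowerBound n M (-κ)) (x : M) (s : ℝ) (_ : 0 < s) (_ : κ * (4 * s) ^ 2 ≤ 2)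
      (_ : ENNReal.ofReal c * volume (ball (0 : EuclideanSpace ℝ (Fin n)) s) ≤
        μHE[n] (ball x s))
      (A B : Matrix (Fin n) (Fin n) ℝ) (_ : B * A * B.transpose = 1) (_ : nB B ≤ β)
      (u : Fin n → M → ℝ)
      (_ : ∀ b, ∀ y ∈ ball x (6 * s), ContMDiffAt (𝓡 n) 𝓘(ℝ, ℝ) 2 (u b) y)
      (_ : ∀ b, ∀ y ∈ ball x (6 * s), mGam n (u b) (u b) y ≤ Λ ^ 2)
      (_ : ∫⁻ y in ball x (6 * s), ENNReal.ofReal (gdev A u y) ∂μHE[n] ≤
        ENNReal.ofReal (δ * s ^ n))
      (_ : ENNReal.ofReal s * ∫⁻ y in ball x (6 * s), ENNReal.ofReal (hsum u y) ∂μHE[n] ≤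
        ENNReal.ofReal (δ * s ^ n)) (y y' : M) (_ : y ∈ ball x s) (_ : y' ∈ ball x s),
      |‖bv B u y - bv B u y'‖ - dist y y'| ≤ ε * s := by
  set K : ℝ := 2 * (β * n * Λ) + 2 with hK
  have hK0 : 0 < K := by positivity
  set η : ℝ := min (1 / 2) (ε / (2 * K)) with hη
  have hη0 : 0 < η := lt_min (by norm_num) (by positivity)
  have hη1 : η ≤ 1 / 2 := min_le_left _ _
  have hη2 : K * η ≤ ε / 2 := by
    have : η ≤ ε / (2 * K) := min_le_right _ _
    calc K * η ≤ K * (ε / (2 * K)) := by gcongr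
      _ = ε / 2 := by field_simp
  set R : ℝ := Q5 n c η * (β ^ 2 + 24 * 2 ^ n * β) with hR
  have hR0 : 0 ≤ R := by
    have := Q5_pos (n := n) hc hη0
    positivity
  refine ⟨ε / (8 * (R + 1)), by positivity, ?_⟩
  intro M _ _ _ _ _ _ _ _ _ _ κ hκ hric x s hs hκs hvol A B hBA hB u hu hg hG hH y y' hy hy'
  have h1 := ni_pair (n := n) (M := M) hκ hric hs hη0 hη1 hc hκs hβ hΛ
    (δ := ε / (8 * (R + 1))) (by positivity) hvol hBA hB hu hg hG hH hy hy'
  refine h1.trans ?_
  have h2 : R * (ε / (8 * (R + 1))) ≤ ε / 8 := by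
    rw [mul_div_assoc', div_le_div_iff₀ (by positivity) (by norm_num)]
    nlinarith
  calc K * η * s + 4 * s * (R * (ε / (8 * (R + 1)))) ≤ ε / 2 * s + 4 * s * (ε / 8) := by gcongr
    _ = ε * s := by ring

end Crest.Agent.R249.Two709
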