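import Mathlib

/-!
# R249, leaf D3-LIM/L-VE (helper222): a measure is determined by its density along ellipsoids

`restrict_eq_of_tendsto` (any finite dimensional normed space, any sets `S z r` between
`closedBall z (r/a)` and `closedBall z (a r)`): if `ν (S z r) / μ (S z r) → J z` as `r → 0+` for
EVERY `z ∈ Ω`, then `ν = J μ` on `Ω`.  (No local finiteness, no continuity, no uniformity needed.)

`ellipsoid` version: `S z r = {y | (y - z)ᵀ h(z)⁻¹ (y - z) ≤ r²}` in `EuclideanSpace ℝ (Fin n)`.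
-/

open MeasureTheory Set Filter Metric Topology Module
open scoped ENNReal NNReal

namespace Crest.Agent.R249.VE_222

section Abstract

variable {E : Type*} [NormedAddCommGroup E] [NormedSpace ℝ E] [FiniteDimensional ℝ E]
  [MeasurableSpace E] [BorelSpace E] (μ : Measure E) [μ.IsAddHaarMeasure]

theorem closedBall_mul_le (z : E) {c r : ℝ} (hc : 0 ≤ c) (hr : 0 ≤ r) :
    μ (closedBall z (c * r)) = ENNReal.ofReal (c ^ finrank ℝ E) * μ (closedBall z r) := by
  rw [Measure.addHaar_closedBall μ z (mul_nonneg hc hr), Measure.addHaar_closedBall μ z hr,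
    mul_pow, ENNReal.ofReal_mul (pow_nonneg hc _), mul_assoc]

variable {μ}

omit [BorelSpace E] in
/-- eventual finiteness and upper bound. -/
theorem eventually_le {ν : Measure E} {z : E} {S : ℝ → Set E} {a : ℝ}
    (hout : ∀ r, 0 < r → S r ⊆ closedBall z (a * r)) {j : ℝ≥0∞} (hj : j ≠ ∞)
    (hlim : Tendsto (fun r => ν (S r) / μ (S r)) (𝓝[>] 0) (𝓝 j)) :
    ∀ᶠ r in 𝓝[>] (0:ℝ), ν (S r) ≤ (j + 1) * μ (closedBall z (a * r)) := by
  have h1 : ∀ᶠ r in 𝓝[>] (0:ℝ), ν (S r) / μ (S r) < j + 1 :=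
    hlim.eventually (gt_mem_nhds (ENNReal.lt_add_right hj one_ne_zero))
  filter_upwards [h1, self_mem_nhdsWithin] with r hr hr0
  have hfin : μ (S r) ≠ ∞ :=
    ((measure_mono (hout r hr0)).trans_lt measure_closedBall_lt_top).ne
  by_cases h0 : μ (S r) = 0
  · have : ν (S r) = 0 := by
      by_contra hne
      rw [h0, ENNReal.div_zero hne] at hr
      exact not_top_lt hr
    rw [this]; exact zero_le
  · have := (ENNReal.div_le_iff h0 hfin).1 hr.le
    exact this.trans (mul_le_mul_right (measure_mono (hout r hr0)) _)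

/-- the local statement. -/
theorem local_eq {U : Set E} (hU : IsOpen U) {ν : Measure E} (hfinU : ν U ≠ ∞)
    {S : E → ℝ → Set E} {a : ℝ} (ha : 0 < a)
    (hclosed : ∀ z ∈ U, ∀ r, 0 < r → IsClosed (S z r))
    (hin : ∀ z ∈ U, ∀ r, 0 < r → closedBall z (r / a) ⊆ S z r)
    (hout : ∀ z ∈ U, ∀ r, 0 < r → S z r ⊆ closedBall z (a * r))
    {J : E → ℝ≥0∞} (hJ : ∀ z ∈ U, J z ≠ ∞)
    (hlim : ∀ z ∈ U, Tendsto (fun r => ν (S z r) / μ (S z r)) (𝓝[>] 0) (𝓝 (J z))) :
    ν.restrict U = (μ.restrict U).withDensity J := by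
  classical
  set ρ : Measure E := ν.restrict U with hρ
  have hρfin : IsFiniteMeasure ρ := ⟨by
    rw [hρ, Measure.restrict_apply_univ]; exact lt_top_iff_ne_top.2 hfinU⟩
  -- small balls are inside `U`
  have hsmall : ∀ z ∈ U, ∀ c : ℝ, 0 < c → ∀ᶠ r in 𝓝[>] (0:ℝ), closedBall z (c * r) ⊆ U := by
    intro z hz c hc
    obtain ⟨s, hs, hsU⟩ := Metric.isOpen_iff.1 hU z hz
    have : ∀ᶠ r in 𝓝[>] (0:ℝ), r < s / c :=
      mem_nhdsWithin_of_mem_nhds (gt_mem_nhds (div_pos hs hc))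
    filter_upwards [this] with r hr
    refine (closedBall_subset_ball ?_).trans hsU
    rw [lt_div_iff₀ hc] at hr
    linarith [mul_comm c r]
  have hSm : ∀ z ∈ U, ∀ r, 0 < r → MeasurableSet (S z r) := fun z hz r hr =>
    (hclosed z hz r hr).measurableSet
  -- the limit for `ρ`
  have hlimρ : ∀ z ∈ U, Tendsto (fun r => ρ (S z r) / μ (S z r)) (𝓝[>] 0) (𝓝 (J z)) := by
    intro z hz
    refine (hlim z hz).congr' ?_
    filter_upwards [hsmall z hz a ha, self_mem_nhdsWithin] with r hr hr0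
    rw [hρ, Measure.restrict_apply (hSm z hz r hr0),
      inter_eq_left.2 ((hout z hz r hr0).trans hr)]
  -- absolute continuity
  have hac : ρ ≪ μ := by
    refine Measure.AbsolutelyContinuous.mk fun A hAm hA => ?_
    let T : ℕ → Set E := fun m => {z | z ∈ U ∧
      ∃ᶠ r in 𝓝[>] (0:ℝ), ρ (closedBall z r) ≤ (m : ℝ≥0∞) * μ (closedBall z r)}
    have hcov : U ⊆ ⋃ m, T m := by
      intro z hz
      have h1 := eventually_le (hout z hz) (hJ z hz) (hlimρ z hz)
      set c : ℝ≥0∞ := (J z + 1) * ENNReal.ofReal ((a * a) ^ finrank ℝ E) with hc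
      have hcfin : c ≠ ∞ := ENNReal.mul_ne_top (by simp [hJ z hz]) ENNReal.ofReal_ne_top
      obtain ⟨m, hm⟩ := ENNReal.exists_nat_gt hcfin
      refine mem_iUnion.2 ⟨m, hz, Eventually.frequently ?_⟩
      have h2 : Tendsto (fun r : ℝ => a * r) (𝓝[>] 0) (𝓝[>] 0) := by
        refine tendsto_nhdsWithin_iff.2 ⟨?_, ?_⟩
        · have : Tendsto (fun r : ℝ => a * r) (𝓝 0) (𝓝 (a * 0)) :=
            tendsto_const_nhds.mul tendsto_id
          rw [mul_zero] at this
          exact this.mono_left nhdsWithin_le_nhds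
        · filter_upwards [self_mem_nhdsWithin] with r hr
          exact mul_pos ha hr
      filter_upwards [h2.eventually h1, self_mem_nhdsWithin] with r hr hr0
      have hr0' : (0:ℝ) < r := hr0
      have h3 : closedBall z r ⊆ S z (a * r) := by
        have := hin z hz (a * r) (mul_pos ha hr0')
        rwa [mul_div_cancel_left₀ _ ha.ne'] at this
      calc ρ (closedBall z r) ≤ ρ (S z (a * r)) := measure_mono h3
        _ ≤ (J z + 1) * μ (closedBall z (a * (a * r))) := hr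
        _ = c * μ (closedBall z r) := by
            rw [← mul_assoc a a r, closedBall_mul_le μ z (mul_pos ha ha).le hr0'.le, hc, mul_assoc]
        _ ≤ (m : ℝ≥0∞) * μ (closedBall z r) := by gcongr
    have hTm : ∀ m, ρ (A ∩ T m) = 0 := by
      intro m
      have h1 : ρ (A ∩ T m) ≤ ((m : ℝ≥0∞) • μ) (A ∩ T m) := by
        have : IsLocallyFiniteMeasure ((m : ℝ≥0∞) • μ) := by
          have : ((m : ℝ≥0∞) • μ) = ((m : ℝ≥0) • μ) := by
            ext s hs
            simp [Measure.smul_apply, ENNReal.smul_def]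
          rw [this]; infer_instance
        refine VitaliFamily.measure_le_of_frequently_le (Besicovitch.vitaliFamily ρ)
          ((m : ℝ≥0∞) • μ) (Measure.AbsolutelyContinuous.refl ρ) (A ∩ T m) ?_
        rintro x ⟨-, -, hx⟩
        have hx' : ∃ᶠ r in 𝓝[>] (0:ℝ), ρ (closedBall x r) ≤
            ((m : ℝ≥0∞) • μ) (closedBall x r) := by
          simpa [Measure.smul_apply] using hx
        exact (Besicovitch.tendsto_filterAt ρ x).frequently hx'
      refine le_antisymm (h1.trans ?_) zero_le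
      have : μ (A ∩ T m) = 0 := measure_mono_null inter_subset_left hA
      simp [Measure.smul_apply, this]
    have hAU : ρ A = ρ (A ∩ U) := by
      rw [hρ, Measure.restrict_apply hAm, Measure.restrict_apply (hAm.inter hU.measurableSet),
        inter_assoc, inter_self]
    rw [hAU]
    refine measure_mono_null ?_ (measure_iUnion_null hTm)
    rw [← inter_iUnion]
    exact inter_subset_inter_right _ hcov
  -- the Vitali family
  set C : ℝ≥0 := Real.toNNReal ((3 * a * a) ^ finrank ℝ E) +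
    Real.toNNReal ((3:ℝ) ^ finrank ℝ E) with hC
  have hCdoub : ∀ x : E, ∃ᶠ r in 𝓝[>] (0:ℝ),
      μ (closedBall x (3 * r)) ≤ C * μ (closedBall x r) := by
    intro x
    refine Eventually.frequently ?_
    filter_upwards [self_mem_nhdsWithin] with r hr
    rw [closedBall_mul_le μ x (by norm_num) (le_of_lt hr)]
    gcongr
    rw [hC, ENNReal.ofReal]
    push_cast
    exact le_add_self
  set v := Vitali.vitaliFamily μ C hCdoub with hv
  have hSv : ∀ z ∈ U, Tendsto (fun r => S z r) (𝓝[>] 0) (v.filterAt z) := by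
    intro z hz
    rw [VitaliFamily.tendsto_filterAt_iff]
    refine ⟨?_, ?_⟩
    · filter_upwards [self_mem_nhdsWithin] with r hr
      have hr0 : (0:ℝ) < r := hr
      refine ⟨hclosed z hz r hr0, ?_, a * r, hout z hz r hr0, ?_⟩
      · refine ⟨z, interior_mono (hin z hz r hr0) ?_⟩
        exact ball_subset_interior_closedBall (mem_ball_self (div_pos hr0 ha))
      · have e1 : 3 * (a * r) = (3 * a * a) * (r / a) := by
          field_simp
        rw [e1, closedBall_mul_le μ z (by positivity) (div_pos hr0 ha).le]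
        refine mul_le_mul' ?_ (measure_mono (hin z hz r hr0))
        rw [hC, ENNReal.ofReal]
        push_cast
        exact le_self_add
    · intro ε hε
      have : ∀ᶠ r in 𝓝[>] (0:ℝ), r < ε / a :=
        mem_nhdsWithin_of_mem_nhds (gt_mem_nhds (div_pos hε ha))
      filter_upwards [this, self_mem_nhdsWithin] with r hr hr0
      refine (hout z hz r hr0).trans (closedBall_subset_closedBall ?_)
      rw [lt_div_iff₀ ha] at hr
      linarith [mul_comm a r]
  have hae := v.ae_tendsto_rnDeriv ρ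
  have hrn : ∀ᵐ x ∂(μ.restrict U), ρ.rnDeriv μ x = J x := by
    rw [ae_restrict_iff' hU.measurableSet]
    filter_upwards [hae] with x hx hxU
    exact tendsto_nhds_unique (hx.comp (hSv x hxU)) (hlimρ x hxU)
  have h1 : μ.withDensity (ρ.rnDeriv μ) = ρ := Measure.withDensity_rnDeriv_eq ρ μ hac
  have h2 : ρ = ρ.restrict U := by
    rw [hρ, Measure.restrict_restrict hU.measurableSet, inter_self]
  calc ρ = ρ.restrict U := h2
    _ = (μ.withDensity (ρ.rnDeriv μ)).restrict U := by rw [h1]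
    _ = (μ.restrict U).withDensity (ρ.rnDeriv μ) := restrict_withDensity hU.measurableSet _
    _ = (μ.restrict U).withDensity J := withDensity_congr_ae hrn

/-- **L-VE, abstract form.**  Sets `S z r` comparable to balls; `ν (S z r) / μ (S z r) → J z` for
every `z ∈ Ω` implies `ν = J μ` on `Ω`. -/
theorem restrict_eq_of_tendsto {Ω : Set E} (hΩ : IsOpen Ω) {ν : Measure E}
    {S : E → ℝ → Set E} {a : ℝ} (ha : 0 < a)
    (hclosed : ∀ z ∈ Ω, ∀ r, 0 < r → IsClosed (S z r))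
    (hin : ∀ z ∈ Ω, ∀ r, 0 < r → closedBall z (r / a) ⊆ S z r)
    (hout : ∀ z ∈ Ω, ∀ r, 0 < r → S z r ⊆ closedBall z (a * r))
    {J : E → ℝ≥0∞} (hJ : ∀ z ∈ Ω, J z ≠ ∞)
    (hlim : ∀ z ∈ Ω, Tendsto (fun r => ν (S z r) / μ (S z r)) (𝓝[>] 0) (𝓝 (J z))) :
    ν.restrict Ω = (μ.restrict Ω).withDensity J := by
  classical
  have hloc : ∀ z ∈ Ω, ∃ s > 0, ball z s ⊆ Ω ∧ ν (ball z s) ≠ ∞ := by
    intro z hz
    have h1 := eventually_le (hout z hz) (hJ z hz) (hlim z hz)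
    obtain ⟨s, hs, hsΩ⟩ := Metric.isOpen_iff.1 hΩ z hz
    have h2 : ∀ᶠ r in 𝓝[>] (0:ℝ), r < s * a :=
      mem_nhdsWithin_of_mem_nhds (gt_mem_nhds (mul_pos hs ha))
    obtain ⟨r, hr1, hr2, hr0⟩ := (h1.and (h2.and self_mem_nhdsWithin)).exists
    have hr0' : (0:ℝ) < r := hr0
    refine ⟨r / a, div_pos hr0' ha, (ball_subset_ball ?_).trans hsΩ, ?_⟩
    · rw [div_le_iff₀ ha]; exact hr2.le
    · refine ((measure_mono (ball_subset_closedBall.trans (hin z hz r hr0'))).trans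
        hr1).trans_lt ?_ |>.ne
      exact ENNReal.mul_lt_top (by simp [lt_top_iff_ne_top, hJ z hz]) measure_closedBall_lt_top
  choose! s hs0 hsΩ hsfin using hloc
  obtain ⟨T, hTΩ, hTc, hTu⟩ := TopologicalSpace.countable_cover_nhdsWithin
    (s := Ω) (f := fun z => ball z (s z))
    (fun z hz => mem_nhdsWithin_of_mem_nhds (ball_mem_nhds z (hs0 z hz)))
  have hΩeq : Ω = ⋃ z ∈ T, ball z (s z) := by
    refine Subset.antisymm hTu ?_
    exact iUnion₂_subset fun z hz => hsΩ z (hTΩ hz)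
  have hΩm := hΩ.measurableSet
  rw [← restrict_withDensity hΩm, hΩeq, Measure.restrict_biUnion_congr hTc]
  intro z hz
  have hzΩ := hTΩ hz
  rw [restrict_withDensity measurableSet_ball]
  have hsub := hsΩ z hzΩ
  exact local_eq isOpen_ball (hsfin z hzΩ) ha (fun w hw => hclosed w (hsub hw))
    (fun w hw => hin w (hsub hw)) (fun w hw => hout w (hsub hw)) (fun w hw => hJ w (hsub hw))
    (fun w hw => hlim w (hsub hw))

end Abstract

section Ellipsoid

open Matrix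

variable {n : ℕ}

/-- The quadratic form of a matrix on `EuclideanSpace ℝ (Fin n)`. -/
def qf (A : Matrix (Fin n) (Fin n) ℝ) (v : EuclideanSpace ℝ (Fin n)) : ℝ :=
  v.ofLp ⬝ᵥ (A *ᵥ v.ofLp)

theorem qf_star_mul (B : Matrix (Fin n) (Fin n) ℝ) (v : EuclideanSpace ℝ (Fin n)) :
    qf (star B * B) v = ‖B.toEuclideanLin v‖ ^ 2 := by
  rw [qf, EuclideanSpace.real_norm_sq_eq, ← Matrix.mulVec_mulVec, Matrix.dotProduct_mulVec,
    Matrix.star_eq_conjTranspose, Matrix.conjTranspose_eq_transpose_of_trivial,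
    Matrix.vecMul_transpose]
  simp [dotProduct, sq]

theorem continuous_qf (A : Matrix (Fin n) (Fin n) ℝ) : Continuous (qf A) := by
  unfold qf
  simp only [dotProduct, mulVec]
  fun_prop

theorem posDef_of_bounds {h : Matrix (Fin n) (Fin n) ℝ} (hs : h.IsSymm) {c : ℝ} (hc : 0 < c)
    (hl : ∀ v, c * ‖v‖ ^ 2 ≤ qf h v) : h.PosDef := by
  refine Matrix.PosDef.of_dotProduct_mulVec_pos ?_ fun x hx => ?_
  · rw [Matrix.IsHermitian, Matrix.conjTranspose_eq_transpose_of_trivial]; exact hs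
  · have h1 := hl (WithLp.toLp 2 x)
    have h2 : 0 < ‖(WithLp.toLp 2 x : EuclideanSpace ℝ (Fin n))‖ := by
      rw [norm_pos_iff]
      intro h0
      exact hx (by simpa using congrArg WithLp.ofLp h0)
    have h3 : star x = x := by ext i; simp
    rw [h3]
    have h4 : 0 < c * ‖(WithLp.toLp 2 x : EuclideanSpace ℝ (Fin n))‖ ^ 2 := by positivity
    exact h4.trans_le h1

/-- Volume of an ellipsoid. -/
theorem volume_ellipsoid {G : Matrix (Fin n) (Fin n) ℝ} (hG : G.PosDef)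
    (z : EuclideanSpace ℝ (Fin n)) {r : ℝ} (hr : 0 ≤ r) :
    volume {y : EuclideanSpace ℝ (Fin n) | qf G (y - z) ≤ r ^ 2} =
      ENNReal.ofReal (√G.det)⁻¹ *
        (ENNReal.ofReal (r ^ n) * volume (ball (0 : EuclideanSpace ℝ (Fin n)) 1)) := by
  have hdet := hG.det_pos
  obtain ⟨B, hB⟩ : ∃ B : Matrix (Fin n) (Fin n) ℝ, G = star B * B := by
    open scoped MatrixOrder in
    exact CStarAlgebra.nonneg_iff_eq_star_mul_self.mp hG.posSemidef.nonneg
  have hdB : G.det = B.det ^ 2 := by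
    rw [hB, Matrix.det_mul, Matrix.star_eq_conjTranspose,
      Matrix.conjTranspose_eq_transpose_of_trivial, Matrix.det_transpose, sq]
  have hB0 : B.det ≠ 0 := by
    intro h0; rw [hdB, h0] at hdet; simp at hdet
  have hset : {y : EuclideanSpace ℝ (Fin n) | qf G (y - z) ≤ r ^ 2} =
      (fun y => y + (-z)) ⁻¹' (B.toEuclideanLin ⁻¹' (closedBall 0 r)) := by
    ext y
    simp only [mem_ofPred_eq, mem_preimage, mem_closedBall, dist_zero_right, ← sub_eq_add_neg]
    rw [hB, qf_star_mul, sq_le_sq₀ (norm_nonneg _) hr]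
  rw [hset, measure_preimage_add_right, Measure.addHaar_preimage_linearMap volume
    (by rw [LinearMap.det_toLpLin]; exact hB0), LinearMap.det_toLpLin,
    Measure.addHaar_closedBall _ _ hr, finrank_euclideanSpace_fin]
  congr 2
  rw [hdB, Real.sqrt_sq_eq_abs, abs_inv]

theorem qf_inv_bounds {h : Matrix (Fin n) (Fin n) ℝ} (hs : h.IsSymm) {L : ℝ} (hL : 0 < L)
    (hl : ∀ v, L⁻¹ * ‖v‖ ^ 2 ≤ qf h v) (hu : ∀ v, qf h v ≤ L * ‖v‖ ^ 2) :
    (∀ v, L⁻¹ * ‖v‖ ^ 2 ≤ qf h⁻¹ v) ∧ (∀ v, qf h⁻¹ v ≤ L * ‖v‖ ^ 2) := by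
  have hpd := posDef_of_bounds hs (inv_pos.2 hL) hl
  obtain ⟨B, hB⟩ : ∃ B : Matrix (Fin n) (Fin n) ℝ, h = star B * B := by
    open scoped MatrixOrder in
    exact CStarAlgebra.nonneg_iff_eq_star_mul_self.mp hpd.posSemidef.nonneg
  have hB0 : IsUnit B.det := by
    have hdet := hpd.det_pos
    rw [hB, Matrix.det_mul] at hdet
    exact isUnit_iff_ne_zero.2 (right_ne_zero_of_mul hdet.ne')
  -- `h⁻¹ = B⁻¹ (B⁻¹)ᵀ`
  set C : Matrix (Fin n) (Fin n) ℝ := star B⁻¹ with hC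
  have hinv : h⁻¹ = star C * C := by
    rw [hC, star_star, hB, Matrix.mul_inv_rev, Matrix.star_eq_conjTranspose,
      Matrix.star_eq_conjTranspose, Matrix.conjTranspose_nonsing_inv]
  have hqh : ∀ v, qf h v = ‖B.toEuclideanLin v‖ ^ 2 := fun v => by rw [hB, qf_star_mul]
  have hqi : ∀ v, qf h⁻¹ v = ‖C.toEuclideanLin v‖ ^ 2 := fun v => by rw [hinv, qf_star_mul]
  -- adjointness
  have hadj : ∀ v w, inner ℝ (C.toEuclideanLin v) w =
      inner ℝ v ((B⁻¹).toEuclideanLin w) := by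
    intro v w
    simp only [EuclideanSpace.inner_eq_star_dotProduct, star_trivial]
    rw [Matrix.ofLp_toLpLin, Matrix.ofLp_toLpLin, hC, Matrix.star_eq_conjTranspose,
      Matrix.conjTranspose_eq_transpose_of_trivial]
    simp only [Matrix.toLin'_apply]
    rw [dotProduct_comm, Matrix.mulVec_transpose, ← Matrix.dotProduct_mulVec,
      dotProduct_comm]
  have hBi : ∀ w, B.toEuclideanLin ((B⁻¹).toEuclideanLin w) = w := by
    intro w
    rw [← LinearMap.comp_apply, ← Matrix.toLpLin_mul_same, Matrix.mul_nonsing_inv _ hB0,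
      Matrix.toLpLin_one, LinearMap.id_apply]
  -- bounds for `B⁻¹`
  have hBi_up : ∀ w, ‖(B⁻¹).toEuclideanLin w‖ ^ 2 ≤ L * ‖w‖ ^ 2 := by
    intro w
    have h1 := hl ((B⁻¹).toEuclideanLin w)
    rw [hqh, hBi] at h1
    rwa [inv_mul_le_iff₀ hL] at h1
  have hBi_low : ∀ w, L⁻¹ * ‖w‖ ^ 2 ≤ ‖(B⁻¹).toEuclideanLin w‖ ^ 2 := by
    intro w
    have h1 := hu ((B⁻¹).toEuclideanLin w)
    rw [hqh, hBi] at h1
    rwa [inv_mul_le_iff₀ hL]
  constructor
  · intro v
    rw [hqi]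
    -- take `w = B v'`: use Cauchy-Schwarz with `w = B v`
    -- `⟪C v, B v⟫ = ⟪v, v⟫`
    have h1 : inner ℝ (C.toEuclideanLin v) (B.toEuclideanLin v) = ‖v‖ ^ 2 := by
      rw [hadj, ← real_inner_self_eq_norm_sq]
      congr 1
      rw [← LinearMap.comp_apply, ← Matrix.toLpLin_mul_same, Matrix.nonsing_inv_mul _ hB0,
        Matrix.toLpLin_one, LinearMap.id_apply]
    have h2 := real_inner_le_norm (C.toEuclideanLin v) (B.toEuclideanLin v)
    rw [h1] at h2
    have h3 := hu v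
    rw [hqh] at h3
    by_cases hv : ‖v‖ = 0
    · rw [hv]; simp
    have hv' : 0 < ‖v‖ := lt_of_le_of_ne (norm_nonneg _) (Ne.symm hv)
    rw [inv_mul_le_iff₀ hL]
    have h4 : (‖v‖ ^ 2) ^ 2 ≤ ‖C.toEuclideanLin v‖ ^ 2 * (L * ‖v‖ ^ 2) := by
      calc (‖v‖ ^ 2) ^ 2 ≤ (‖C.toEuclideanLin v‖ * ‖B.toEuclideanLin v‖) ^ 2 := by
            gcongr
        _ = ‖C.toEuclideanLin v‖ ^ 2 * ‖B.toEuclideanLin v‖ ^ 2 := by ring
        _ ≤ _ := by gcongr
    have h5 : 0 < ‖v‖ ^ 2 := by positivity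
    nlinarith
  · intro v
    rw [hqi]
    have h1 : ‖C.toEuclideanLin v‖ ^ 2 =
        inner ℝ v ((B⁻¹).toEuclideanLin (C.toEuclideanLin v)) := by
      rw [← hadj, real_inner_self_eq_norm_sq]
    have h2 := real_inner_le_norm v ((B⁻¹).toEuclideanLin (C.toEuclideanLin v))
    rw [← h1] at h2
    have h3 := hBi_up (C.toEuclideanLin v)
    by_cases hc : ‖C.toEuclideanLin v‖ = 0
    · rw [hc]; have h0 : 0 ≤ L * ‖v‖ ^ 2 := by positivity
      simpa using h0
    have hc' : 0 < ‖C.toEuclideanLin v‖ := lt_of_le_of_ne (norm_nonneg _) (Ne.symm hc)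
    have h4 : (‖C.toEuclideanLin v‖ ^ 2) ^ 2 ≤ ‖v‖ ^ 2 * (L * ‖C.toEuclideanLin v‖ ^ 2) := by
      calc (‖C.toEuclideanLin v‖ ^ 2) ^ 2
          ≤ (‖v‖ * ‖(B⁻¹).toEuclideanLin (C.toEuclideanLin v)‖) ^ 2 := by gcongr
        _ = ‖v‖ ^ 2 * ‖(B⁻¹).toEuclideanLin (C.toEuclideanLin v)‖ ^ 2 := by ring
        _ ≤ _ := by gcongr
    have h5 : 0 < ‖C.toEuclideanLin v‖ ^ 2 := by positivity
    nlinarith

/-- **L-VE, ellipsoid form** with the metric `G` (so `G = h⁻¹` in the conductivity notation). -/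
theorem restrict_eq_of_ellipsoid {Ω : Set (EuclideanSpace ℝ (Fin n))} (hΩ : IsOpen Ω)
    {ν : Measure (EuclideanSpace ℝ (Fin n))}
    {G : EuclideanSpace ℝ (Fin n) → Matrix (Fin n) (Fin n) ℝ} {L : ℝ} (hL : 1 ≤ L)
    (hsym : ∀ z ∈ Ω, (G z).IsSymm)
    (hlow : ∀ z ∈ Ω, ∀ v, L⁻¹ * ‖v‖ ^ 2 ≤ qf (G z) v)
    (hup : ∀ z ∈ Ω, ∀ v, qf (G z) v ≤ L * ‖v‖ ^ 2)
    (H : ∀ z ∈ Ω, ∀ ε : ℝ, 0 < ε → ∀ᶠ r in 𝓝[>] (0:ℝ),
      ENNReal.ofReal (1 - ε) * (ENNReal.ofReal (r ^ n) *
        volume (ball (0 : EuclideanSpace ℝ (Fin n)) 1)) ≤ ν {y | qf (G z) (y - z) ≤ r ^ 2} ∧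
      ν {y | qf (G z) (y - z) ≤ r ^ 2} ≤ ENNReal.ofReal (1 + ε) * (ENNReal.ofReal (r ^ n) *
        volume (ball (0 : EuclideanSpace ℝ (Fin n)) 1))) :
    ν.restrict Ω = (volume.restrict Ω).withDensity fun z => ENNReal.ofReal √(G z).det := by
  have hL0 : 0 < L := by linarith
  have hpd : ∀ z ∈ Ω, (G z).PosDef := fun z hz =>
    posDef_of_bounds (hsym z hz) (inv_pos.2 hL0) (hlow z hz)
  have hw0 : volume (ball (0 : EuclideanSpace ℝ (Fin n)) 1) ≠ 0 :=
    (measure_ball_pos volume _ one_pos).ne'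
  have hwt : volume (ball (0 : EuclideanSpace ℝ (Fin n)) 1) ≠ ∞ := measure_ball_lt_top.ne
  refine restrict_eq_of_tendsto (μ := volume) hΩ
    (S := fun z r => {y | qf (G z) (y - z) ≤ r ^ 2}) hL0 ?_ ?_ ?_ ?_ ?_
  · intro z _ r _
    exact isClosed_le ((continuous_qf _).comp (continuous_id.sub continuous_const))
      continuous_const
  · intro z hz r hr y hy
    have h1 := hup z hz (y - z)
    rw [mem_closedBall, dist_eq_norm] at hy
    show qf (G z) (y - z) ≤ r ^ 2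
    have h2 : ‖y - z‖ ^ 2 ≤ (r / L) ^ 2 := by gcongr
    have h3 : L * (r / L) ^ 2 = r ^ 2 / L := by field_simp
    have h4 : r ^ 2 / L ≤ r ^ 2 := div_le_self (by positivity) hL
    nlinarith
  · intro z hz r hr y hy
    have h1 := hlow z hz (y - z)
    have hy' : qf (G z) (y - z) ≤ r ^ 2 := hy
    rw [mem_closedBall, dist_eq_norm]
    have h2 : ‖y - z‖ ^ 2 ≤ (L * r) ^ 2 := by
      rw [inv_mul_le_iff₀ hL0] at h1
      nlinarith [mul_nonneg hL0.le (sq_nonneg r)]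
    exact (sq_le_sq₀ (norm_nonneg _) (by positivity)).1 h2
  · intro z _; exact ENNReal.ofReal_ne_top
  · intro z hz
    have hdet := (hpd z hz).det_pos
    set w := volume (ball (0 : EuclideanSpace ℝ (Fin n)) 1) with hw
    set D : ℝ := √(G z).det with hD
    have hD0 : 0 < D := Real.sqrt_pos.2 hdet
    -- quotient
    have hquot : ∀ (c : ℝ) (r : ℝ), 0 < r →
        ENNReal.ofReal c * (ENNReal.ofReal (r ^ n) * w) /
          volume {y | qf (G z) (y - z) ≤ r ^ 2} = ENNReal.ofReal (c * D) := by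
      intro c r hr
      rw [volume_ellipsoid (hpd z hz) z hr.le, ← hw, ← hD]
      have hm0 : ENNReal.ofReal (r ^ n) * w ≠ 0 :=
        mul_ne_zero (by simpa using pow_pos hr n) hw0
      have hmt : ENNReal.ofReal (r ^ n) * w ≠ ∞ := ENNReal.mul_ne_top ENNReal.ofReal_ne_top hwt
      rw [ENNReal.mul_div_mul_right _ _ hm0 hmt, ← ENNReal.ofReal_div_of_pos (inv_pos.2 hD0),
        div_inv_eq_mul]
    refine ENNReal.tendsto_nhds_of_Icc ?_
    intro η hη
    by_cases hηt : η = ∞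
    · subst hηt
      filter_upwards with r
      simp
    have hηr : 0 < η.toReal := ENNReal.toReal_pos hη.ne' hηt
    set ε : ℝ := η.toReal / D with hε
    have hε0 : 0 < ε := div_pos hηr hD0
    filter_upwards [H z hz ε hε0, self_mem_nhdsWithin] with r hr hr0
    have hr0' : (0:ℝ) < r := hr0
    constructor
    · rw [tsub_le_iff_right]
      have h1 : ENNReal.ofReal ((1 - ε) * D) ≤
          ν {y | qf (G z) (y - z) ≤ r ^ 2} / volume {y | qf (G z) (y - z) ≤ r ^ 2} := by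
        rw [← hquot (1 - ε) r hr0']
        exact ENNReal.div_le_div_right hr.1 _
      calc ENNReal.ofReal D = ENNReal.ofReal ((1 - ε) * D + η.toReal) := by
            congr 1; rw [hε]; field_simp; ring
        _ ≤ ENNReal.ofReal ((1 - ε) * D) + ENNReal.ofReal η.toReal := ENNReal.ofReal_add_le
        _ ≤ _ := by rw [ENNReal.ofReal_toReal hηt]; gcongr
    · have h1 : ν {y | qf (G z) (y - z) ≤ r ^ 2} / volume {y | qf (G z) (y - z) ≤ r ^ 2} ≤
          ENNReal.ofReal ((1 + ε) * D) := by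
        rw [← hquot (1 + ε) r hr0']
        exact ENNReal.div_le_div_right hr.2 _
      refine h1.trans ?_
      calc ENNReal.ofReal ((1 + ε) * D) = ENNReal.ofReal (D + η.toReal) := by
            congr 1; rw [hε]; field_simp
        _ ≤ ENNReal.ofReal D + ENNReal.ofReal η.toReal := ENNReal.ofReal_add_le
        _ = _ := by rw [ENNReal.ofReal_toReal hηt]

/-- **L-VE** as asked in post 1495 (conductivity notation: `h = F`-limit, metric `h⁻¹`),
pointwise hypotheses only. -/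
theorem measure_eq_of_inv {Ω : Set (EuclideanSpace ℝ (Fin n))} (hΩ : IsOpen Ω)
    {ν : Measure (EuclideanSpace ℝ (Fin n))}
    {h : EuclideanSpace ℝ (Fin n) → Matrix (Fin n) (Fin n) ℝ} {L : ℝ} (hL : 1 ≤ L)
    (hsym : ∀ z ∈ Ω, (h z).IsSymm)
    (hlow : ∀ z ∈ Ω, ∀ v, L⁻¹ * ‖v‖ ^ 2 ≤ qf (h z) v)
    (hup : ∀ z ∈ Ω, ∀ v, qf (h z) v ≤ L * ‖v‖ ^ 2)
    (H : ∀ z ∈ Ω, ∀ ε : ℝ, 0 < ε → ∀ᶠ r in 𝓝[>] (0:ℝ),
      ENNReal.ofReal (1 - ε) * (ENNReal.ofReal (r ^ n) *
        volume (ball (0 : EuclideanSpace ℝ (Fin n)) 1)) ≤ ν {y | qf (h z)⁻¹ (y - z) ≤ r ^ 2} ∧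
      ν {y | qf (h z)⁻¹ (y - z) ≤ r ^ 2} ≤ ENNReal.ofReal (1 + ε) * (ENNReal.ofReal (r ^ n) *
        volume (ball (0 : EuclideanSpace ℝ (Fin n)) 1))) :
    ν.restrict Ω =
      (volume.restrict Ω).withDensity fun z => ENNReal.ofReal (√(h z).det)⁻¹ := by
  have hL0 : 0 < L := by linarith
  have h1 := restrict_eq_of_ellipsoid hΩ (ν := ν) (G := fun z => (h z)⁻¹) hL
    (fun z hz => by
      rw [Matrix.IsSymm, Matrix.transpose_nonsing_inv, (hsym z hz).eq])
    (fun z hz => (qf_inv_bounds (hsym z hz) hL0 (hlow z hz) (hup z hz)).1)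
    (fun z hz => (qf_inv_bounds (hsym z hz) hL0 (hlow z hz) (hup z hz)).2) H
  rw [h1]
  congr 1
  funext z
  rw [Matrix.det_nonsing_inv, Ring.inverse_eq_inv', Real.sqrt_inv]

/-- The same with the local uniform hypothesis exactly as in post 1495. -/
theorem measure_eq_of_compact {Ω : Set (EuclideanSpace ℝ (Fin n))} (hΩ : IsOpen Ω)
    {ν : Measure (EuclideanSpace ℝ (Fin n))}
    {h : EuclideanSpace ℝ (Fin n) → Matrix (Fin n) (Fin n) ℝ} {L : ℝ} (hL : 1 ≤ L)
    (hsym : ∀ z ∈ Ω, (h z).IsSymm)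
    (hlow : ∀ z ∈ Ω, ∀ v, L⁻¹ * ‖v‖ ^ 2 ≤ qf (h z) v)
    (hup : ∀ z ∈ Ω, ∀ v, qf (h z) v ≤ L * ‖v‖ ^ 2)
    (H : ∀ K ⊆ Ω, IsCompact K → ∀ ε : ℝ, 0 < ε → ∃ r₀ : ℝ, 0 < r₀ ∧ ∀ z ∈ K, ∀ r : ℝ, 0 < r →
      r < r₀ → ENNReal.ofReal (1 - ε) * (ENNReal.ofReal (r ^ n) *
        volume (ball (0 : EuclideanSpace ℝ (Fin n)) 1)) ≤ ν {y | qf (h z)⁻¹ (y - z) ≤ r ^ 2} ∧
      ν {y | qf (h z)⁻¹ (y - z) ≤ r ^ 2} ≤ ENNReal.ofReal (1 + ε) * (ENNReal.ofReal (r ^ n) *
        volume (ball (0 : EuclideanSpace ℝ (Fin n)) 1))) :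
    ν.restrict Ω =
      (volume.restrict Ω).withDensity fun z => ENNReal.ofReal (√(h z).det)⁻¹ := by
  refine measure_eq_of_inv hΩ hL hsym hlow hup fun z hz ε hε => ?_
  obtain ⟨r₀, hr₀, hr⟩ := H {z} (singleton_subset_iff.2 hz) isCompact_singleton ε hε
  filter_upwards [Ioo_mem_nhdsGT hr₀] with r hr'
  exact hr z rfl r hr'.1 hr'.2

end Ellipsoid

end Crest.Agent.R249.VE_222
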