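import Crest.Agent.R249.Two5_709
import Crest.Agent.R249.VE_222

/-!
R249 (helper709), leaf D3-LIM / L-NI, final form with the norm of `A⁻¹`.
-/

set_option autoImplicit false
set_option maxSynthPendingDepth 3
set_option linter.unusedSectionVars false
set_option linter.unusedVariables false

open Bundle Set Filter Topology Metric MeasureTheory
open scoped Manifold ContDiff NNReal ENNReal Matrix
open Crest.GeometryTopology.CoordMetric Crest.GeometryTopology.ChartCurvature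
  Crest.GeometryTopology.PointedLimit
open Crest.Agent.R247.Bo84 (mGam mHessSq)
open Crest.Agent.R247
open Crest.Agent.R249.VE_222 (qf qf_star_mul posDef_of_bounds qf_inv_bounds)

noncomputable section

namespace Crest.Agent.R249.Two709

universe u

/-- a normalising matrix: `B A Bᵀ = 1`, `‖B v‖² = v A⁻¹ v`, entries bounded. -/
theorem exists_B {n : ℕ} {A : Matrix (Fin n) (Fin n) ℝ} (hs : A.IsSymm) {L : ℝ} (hL : 0 < L)
    (hl : ∀ v, L⁻¹ * ‖v‖ ^ 2 ≤ qf A v) (hu : ∀ v, qf A v ≤ L * ‖v‖ ^ 2) :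
    ∃ B : Matrix (Fin n) (Fin n) ℝ, B * A * B.transpose = 1 ∧
      (∀ v, qf A⁻¹ v = ‖(WithLp.toLp 2 fun a => ∑ b, B a b * v b : EuclideanSpace ℝ (Fin n))‖ ^ 2) ∧
      nB B ≤ n ^ 2 * Real.sqrt L := by
  have hpd := posDef_of_bounds hs (inv_pos.2 hL) hl
  obtain ⟨D, hD⟩ : ∃ D : Matrix (Fin n) (Fin n) ℝ, A = star D * D := by
    open scoped MatrixOrder in
    exact CStarAlgebra.nonneg_iff_eq_star_mul_self.mp hpd.posSemidef.nonneg
  have hD0 : IsUnit D.det := by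
    have hdet := hpd.det_pos
    rw [hD, Matrix.det_mul] at hdet
    exact isUnit_iff_ne_zero.2 (right_ne_zero_of_mul hdet.ne')
  set B : Matrix (Fin n) (Fin n) ℝ := star D⁻¹ with hB
  have hinv : A⁻¹ = star B * B := by
    rw [hB, star_star, hD, Matrix.mul_inv_rev, Matrix.star_eq_conjTranspose,
      Matrix.star_eq_conjTranspose, Matrix.conjTranspose_nonsing_inv]
  have hq : ∀ v, qf A⁻¹ v =
      ‖(WithLp.toLp 2 fun a => ∑ b, B a b * v b : EuclideanSpace ℝ (Fin n))‖ ^ 2 := by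
    intro v
    rw [hinv, qf_star_mul]
    rfl
  refine ⟨B, ?_, hq, ?_⟩
  · have h1 : B.transpose = D⁻¹ := by
      rw [hB, Matrix.star_eq_conjTranspose, Matrix.conjTranspose_eq_transpose_of_trivial,
        Matrix.transpose_transpose]
    have h2 : B * star D = 1 := by
      rw [hB, Matrix.star_eq_conjTranspose, Matrix.star_eq_conjTranspose,
        ← Matrix.conjTranspose_mul, Matrix.mul_nonsing_inv _ hD0, Matrix.conjTranspose_one]
    rw [h1, hD, ← Matrix.mul_assoc, h2, Matrix.one_mul, Matrix.mul_nonsing_inv _ hD0]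
  · have hent : ∀ a b, |B a b| ≤ Real.sqrt L := by
      intro a b
      have h1 := (qf_inv_bounds hs hL hl hu).2 (EuclideanSpace.single b (1:ℝ))
      rw [hq, EuclideanSpace.norm_single, norm_one, one_pow, mul_one] at h1
      apply Real.abs_le_sqrt
      refine le_trans ?_ h1
      rw [EuclideanSpace.norm_sq_eq]
      have h2 : ∀ i, (∑ j, B i j * (EuclideanSpace.single b (1:ℝ) : EuclideanSpace ℝ (Fin n)) j) =
          B i b := by
        intro i
        rw [Finset.sum_eq_single b]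
        · simp
        · intro j _ hj
          simp [hj]
        · intro h
          exact absurd (Finset.mem_univ b) h
      calc B a b ^ 2 = ‖∑ j, B a j * (EuclideanSpace.single b (1:ℝ) : EuclideanSpace ℝ (Fin n)) j‖ ^ 2 := by
            rw [h2, Real.norm_eq_abs, sq_abs]
        _ ≤ _ := Finset.single_le_sum (f := fun i =>
            ‖∑ j, B i j * (EuclideanSpace.single b (1:ℝ) : EuclideanSpace ℝ (Fin n)) j‖ ^ 2)
            (fun i _ => sq_nonneg _) (Finset.mem_univ a)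
    unfold nB
    calc ∑ a, ∑ b, |B a b| ≤ ∑ _a : Fin n, ∑ _b : Fin n, Real.sqrt L :=
          Finset.sum_le_sum fun a _ => Finset.sum_le_sum fun b _ => hent a b
      _ = _ := by
          simp only [Finset.sum_const, Finset.card_univ, Fintype.card_fin, nsmul_eq_mul]
          ring

theorem norm_bv_sub {n : ℕ} {X : Type*} {A B : Matrix (Fin n) (Fin n) ℝ}
    (hq : ∀ v, qf A⁻¹ v =
      ‖(WithLp.toLp 2 fun a => ∑ b, B a b * v b : EuclideanSpace ℝ (Fin n))‖ ^ 2)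
    (u : Fin n → X → ℝ) (y y' : X) :
    ‖bv B u y - bv B u y'‖ = Real.sqrt (qf A⁻¹ (uv u y - uv u y')) := by
  rw [hq, Real.sqrt_sq (norm_nonneg _)]
  congr 1
  ext a
  simp only [bv, uv, PiLp.sub_apply]
  rw [← Finset.sum_sub_distrib]
  refine Finset.sum_congr rfl fun b _ => ?_
  ring

/-- **L-NI**: near isometry with respect to the norm `|v|_{A⁻¹}`. -/
theorem ni (n : ℕ) {ε c L Λ : ℝ} (hε : 0 < ε) (hc : 0 < c) (hL : 0 < L) (hΛ : 0 ≤ Λ) :
    ∃ δ : ℝ, 0 < δ ∧ ∀ (M : Type u) [MetricSpace M] [CompleteSpace M] [ConnectedSpace M]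
      [ChartedSpace (EuclideanSpace ℝ (Fin n)) M]
      [IsManifold 𝓘(ℝ, EuclideanSpace ℝ (Fin n)) ∞ M]
      [RiemannianBundle (fun x : M => TangentSpace 𝓘(ℝ, EuclideanSpace ℝ (Fin n)) x)]
      [IsContMDiffRiemannianBundle 𝓘(ℝ, EuclideanSpace ℝ (Fin n)) ∞ (EuclideanSpace ℝ (Fin n))
        (fun x : M => TangentSpace 𝓘(ℝ, EuclideanSpace ℝ (Fin n)) x)]
      [IsRiemannianManifold 𝓘(ℝ, EuclideanSpace ℝ (Fin n)) M]
      [MeasurableSpace M] [BorelSpace M] (κ : ℝ) (_ : 0 ≤ κ)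
      (_ : HasRicciLowerBound n M (-κ)) (x : M) (s : ℝ) (_ : 0 < s) (_ : κ * (4 * s) ^ 2 ≤ 2)
      (_ : ENNReal.ofReal c * volume (ball (0 : EuclideanSpace ℝ (Fin n)) s) ≤
        μHE[n] (ball x s))
      (A : Matrix (Fin n) (Fin n) ℝ) (_ : A.IsSymm) (_ : ∀ v, L⁻¹ * ‖v‖ ^ 2 ≤ qf A v)
      (_ : ∀ v, qf A v ≤ L * ‖v‖ ^ 2) (u : Fin n → M → ℝ)
      (_ : ∀ b, ∀ y ∈ ball x (6 * s), ContMDiffAt (𝓡 n) 𝓘(ℝ, ℝ) 2 (u b) y)
      (_ : ∀ b, ∀ y ∈ ball x (6 * s), mGam n (u b) (u b) y ≤ Λ ^ 2)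
      (_ : ∫⁻ y in ball x (6 * s), ENNReal.ofReal (gdev A u y) ∂μHE[n] ≤
        ENNReal.ofReal (δ * s ^ n))
      (_ : ENNReal.ofReal s * ∫⁻ y in ball x (6 * s), ENNReal.ofReal (hsum u y) ∂μHE[n] ≤
        ENNReal.ofReal (δ * s ^ n)) (y y' : M) (_ : y ∈ ball x s) (_ : y' ∈ ball x s),
      |Real.sqrt (qf A⁻¹ (uv u y - uv u y')) - dist y y'| ≤ ε * s := by
  obtain ⟨δ, hδ, h⟩ := ni_B.{u} n (ε := ε) (c := c) (β := n ^ 2 * Real.sqrt L) (Λ := Λ) hε hc
    (by positivity) hΛ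
  refine ⟨δ, hδ, ?_⟩
  intro M _ _ _ _ _ _ _ _ _ _ κ hκ hric x s hs hκs hvol A hA hl hup u hu hg hG hH y y' hy hy'
  obtain ⟨B, hB1, hB2, hB3⟩ := exists_B hA hL hl hup
  have key := h M κ hκ hric x s hs hκs hvol A B hB1 hB3 u hu hg hG hH y y' hy hy'
  rwa [norm_bv_sub hB2] at key

end Crest.Agent.R249.Two709
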