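import Crest.Agent.R249.FrmB_285

/-!
Row 249, leaf T0 (helper805), part 1: Gram-Schmidt frames, smooth and positively oriented on the
whole domain of the metric.
-/

set_option autoImplicit false

open Filter Topology Set
open scoped ContDiff
open Crest.GeometryTopology.CoordMetric Crest.GeometryTopology.ChartCurvature
open Crest.Agent.R202.Tens Crest.Agent.R247.Bo84 Crest.Agent.R249.FrmB_285

noncomputable section

namespace Crest.Agent.R249.Tz1_805

variable {n : ℕ}

local notation "𝔼" => EuclideanSpace ℝ (Fin n)

variable {g : MetricField n} {U : Set (EuclideanSpace ℝ (Fin n))}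

lemma contDiffOn_bil (hg : IsRiemannianOn g U) {V W : 𝔼 → 𝔼}
    (hV : ContDiffOn ℝ ∞ V U) (hW : ContDiffOn ℝ ∞ W U) :
    ContDiffOn ℝ ∞ (fun y => bil (g y) (V y) (W y)) U := by
  intro x hx
  exact (contDiffAt_bil hg hx le_rfl (hV.contDiffAt (hg.isOpen.mem_nhds hx))
    (hW.contDiffAt (hg.isOpen.mem_nhds hx))).contDiffWithinAt

/-- Gram–Schmidt on the whole domain: upper triangular. -/
lemma exists_family_on (hg : IsRiemannianOn g U) (k : ℕ) (hk : k ≤ n) :
    ∃ e : ℕ → 𝔼 → 𝔼, (∀ i < k, ContDiffOn ℝ ∞ (e i) U) ∧
      (∀ y ∈ U, ∀ i < k, ∀ j < k, bil (g y) (e i y) (e j y) = if i = j then 1 else 0) ∧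
      (∀ y ∈ U, ∀ i < k, ∀ j : Fin n, i < j → e i y j = 0) ∧
      (∀ y ∈ U, ∀ i < k, ∀ j : Fin n, (j : ℕ) = i → 0 < e i y j) := by
  induction k with
  | zero =>
    exact ⟨fun _ _ => 0, fun i hi => absurd hi (Nat.not_lt_zero i),
      fun y _ i hi => absurd hi (Nat.not_lt_zero i), fun y _ i hi => absurd hi (Nat.not_lt_zero i),
      fun y _ i hi => absurd hi (Nat.not_lt_zero i)⟩
  | succ k ih =>
    obtain ⟨e, he, ho, ht, hp⟩ := ih (by omega)
    let v : 𝔼 := EuclideanSpace.single ⟨k, by omega⟩ 1
    let w : 𝔼 → 𝔼 := fun y => v - ∑ i ∈ Finset.range k, bil (g y) v (e i y) • e i y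
    have hw : ContDiffOn ℝ ∞ w U := by
      refine contDiffOn_const.sub (ContDiffOn.sum fun i hi => ?_)
      have hi' := he i (Finset.mem_range.1 hi)
      exact (contDiffOn_bil hg contDiffOn_const hi').smul hi'
    have hwk : ∀ y ∈ U, ∀ j : Fin n, (j : ℕ) = k → w y j = 1 := by
      intro y hy j hj
      have h1 : ∑ i ∈ Finset.range k, (bil (g y) v (e i y) • e i y) j = 0 := by
        refine Finset.sum_eq_zero fun i hi => ?_
        have := ht y hy i (Finset.mem_range.1 hi) j (by rw [hj]; exact Finset.mem_range.1 hi)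
        simp [this]
      have hv : v j = 1 := by
        have : j = ⟨k, by omega⟩ := Fin.ext hj
        simp [v, this]
      have h2 : (∑ i ∈ Finset.range k, bil (g y) v (e i y) • e i y) j = 0 := by
        rw [← h1]; simp
      change v j - (∑ i ∈ Finset.range k, bil (g y) v (e i y) • e i y) j = 1
      rw [h2, hv, sub_zero]
    have hwt : ∀ y ∈ U, ∀ j : Fin n, k < j → w y j = 0 := by
      intro y hy j hj
      have h1 : ∑ i ∈ Finset.range k, (bil (g y) v (e i y) • e i y) j = 0 := by
        refine Finset.sum_eq_zero fun i hi => ?_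
        have := ht y hy i (Finset.mem_range.1 hi) j (by have := Finset.mem_range.1 hi; omega)
        simp [this]
      have hv : v j = 0 := by
        have : j ≠ ⟨k, by omega⟩ := fun h => by rw [h] at hj; exact lt_irrefl _ hj
        simp [v, this]
      have h2 : (∑ i ∈ Finset.range k, bil (g y) v (e i y) • e i y) j = 0 := by
        rw [← h1]; simp
      change v j - (∑ i ∈ Finset.range k, bil (g y) v (e i y) • e i y) j = 0
      rw [h2, hv, sub_zero]
    have hN : ContDiffOn ℝ ∞ (fun y => bil (g y) (w y) (w y)) U := contDiffOn_bil hg hw hw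
    have hpos : ∀ y ∈ U, 0 < bil (g y) (w y) (w y) := by
      intro y hy
      refine bil_pos hg hy ?_
      intro h0
      have := hwk y hy ⟨k, by omega⟩ rfl
      rw [h0] at this
      simp at this
    let E : 𝔼 → 𝔼 := fun y => (Real.sqrt (bil (g y) (w y) (w y)))⁻¹ • w y
    have hE : ContDiffOn ℝ ∞ E U := by
      have hs : ContDiffOn ℝ ∞ (fun y => (Real.sqrt (bil (g y) (w y) (w y)))⁻¹) U :=
        (hN.sqrt fun y hy => (hpos y hy).ne').inv fun y hy => Real.sqrt_ne_zero'.2 (hpos y hy)
      exact hs.smul hw
    refine ⟨Function.update e k E, fun i hi => ?_, ?_, ?_, ?_⟩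
    · rcases Nat.lt_succ_iff_lt_or_eq.1 hi with h | h
      · rw [Function.update_of_ne h.ne]; exact he i h
      · rw [h, Function.update_self]; exact hE
    · intro y hyU
      have hy := ho y hyU
      have hp := hpos y hyU
      have hwe : ∀ j < k, bil (g y) (w y) (e j y) = 0 := by
        intro j hj
        simp only [w, map_sub, map_sum, map_smul, _root_.sub_apply, _root_.sum_apply,
          _root_.smul_apply, smul_eq_mul]
        rw [Finset.sum_eq_single j]
        · rw [hy j hj j hj, if_pos rfl]; ring
        · intro i hi hij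
          rw [hy i (Finset.mem_range.1 hi) j hj, if_neg hij, mul_zero]
        · intro h; exact absurd (Finset.mem_range.2 hj) h
      have hEe : ∀ j < k, bil (g y) (E y) (e j y) = 0 := by
        intro j hj
        simp only [E, map_smul, _root_.smul_apply, smul_eq_mul, hwe j hj, mul_zero]
      have hEE : bil (g y) (E y) (E y) = 1 := by
        simp only [E, map_smul, _root_.smul_apply, smul_eq_mul]
        have h1 := Real.mul_self_sqrt hp.le
        have h2 : Real.sqrt (bil (g y) (w y) (w y)) ≠ 0 := Real.sqrt_ne_zero'.2 hp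
        field_simp
        nlinarith [h1]
      intro i hi j hj
      rcases Nat.lt_succ_iff_lt_or_eq.1 hi with h | h <;>
        rcases Nat.lt_succ_iff_lt_or_eq.1 hj with h' | h'
      · rw [Function.update_of_ne h.ne, Function.update_of_ne h'.ne]; exact hy i h j h'
      · subst h'
        rw [Function.update_of_ne h.ne, Function.update_self, if_neg h.ne, bil_symm hg hyU]
        exact hEe i h
      · subst h
        rw [Function.update_of_ne h'.ne, Function.update_self, if_neg h'.ne']
        exact hEe j h'
      · subst h; subst h'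
        rw [Function.update_self, if_pos rfl]
        exact hEE
    · intro y hy i hi j hij
      rcases Nat.lt_succ_iff_lt_or_eq.1 hi with h | h
      · rw [Function.update_of_ne h.ne]; exact ht y hy i h j hij
      · subst h
        rw [Function.update_self]
        change (Real.sqrt (bil (g y) (w y) (w y)))⁻¹ * w y j = 0
        rw [hwt y hy j hij, mul_zero]
    · intro y hy i hi j hij
      rcases Nat.lt_succ_iff_lt_or_eq.1 hi with h | h
      · rw [Function.update_of_ne h.ne]; exact hp y hy i h j hij
      · subst h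
        rw [Function.update_self]
        change 0 < (Real.sqrt (bil (g y) (w y) (w y)))⁻¹ * w y j
        rw [hwk y hy j hij, mul_one]
        exact inv_pos.2 (Real.sqrt_pos.2 (hpos y hy))

/-- A smooth positively oriented orthonormal frame on the whole domain. -/
theorem exists_frame_on (hg : IsRiemannianOn g U) :
    ∃ e : Fin n → 𝔼 → 𝔼, (∀ i, ContDiffOn ℝ ∞ (e i) U) ∧
      ∀ y ∈ U, Orth (g y) (fun i => e i y) ∧ 0 < (mat fun i => e i y).det := by
  obtain ⟨e, he, ho, ht, hp⟩ := exists_family_on hg n le_rfl
  refine ⟨fun i => e i, fun i => he i i.2, fun y hy => ⟨?_, ?_⟩⟩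
  · intro a b
    rw [ho y hy a a.2 b b.2]
    simp [Fin.ext_iff]
  · have hT : (mat fun i : Fin n => e i y).BlockTriangular id := by
      intro i j hij
      exact ht y hy j j.2 i hij
    rw [Matrix.det_of_upperTriangular hT]
    exact Finset.prod_pos fun i _ => hp y hy i i.2 i rfl

end Crest.Agent.R249.Tz1_805
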