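import Crest.Agent.R249.Tz1_805
import Crest.Agent.R249.Vf2_281

/-!
Row 249, leaf T0 (helper805), part 2: global Parseval frames of vector fields on a closed
Riemannian manifold.
-/

set_option autoImplicit false
set_option maxSynthPendingDepth 3
set_option linter.unusedSectionVars false

open Filter Topology Set Bundle Manifold
open scoped ContDiff
open Crest.GeometryTopology.CoordMetric Crest.GeometryTopology.ChartCurvature
  Crest.GeometryTopology.PointedLimit
open Crest.Agent.R202.Tens Crest.Agent.R247.Bo84 Crest.Agent.R249.FrmB_285 Crest.Agent.R249.Vf281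
  Crest.Agent.R249.Tz1_805

noncomputable section

namespace Crest.Agent.R249.Tz2_805

variable {n : ℕ} {M : Type*} [TopologicalSpace M] [ChartedSpace (EuclideanSpace ℝ (Fin n)) M]
  [IsManifold 𝓘(ℝ, EuclideanSpace ℝ (Fin n)) ∞ M]
  [RiemannianBundle (fun x : M => TangentSpace 𝓘(ℝ, EuclideanSpace ℝ (Fin n)) x)]
  [IsContMDiffRiemannianBundle 𝓘(ℝ, EuclideanSpace ℝ (Fin n)) ∞ (EuclideanSpace ℝ (Fin n))
      (fun x : M => TangentSpace 𝓘(ℝ, EuclideanSpace ℝ (Fin n)) x)]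

local notation "𝔼" => EuclideanSpace ℝ (Fin n)
local notation "𝓘E" => 𝓘(ℝ, EuclideanSpace ℝ (Fin n))

/-- the vector field on `M` which reads `V` in the chart at `x₀`. -/
def fld (x₀ : M) (V : EuclideanSpace ℝ (Fin n) → EuclideanSpace ℝ (Fin n)) (z : M) :
    TangentSpace 𝓘(ℝ, EuclideanSpace ℝ (Fin n)) z :=
  (dSy x₀ (chartAt (EuclideanSpace ℝ (Fin n)) x₀ z) (V (chartAt (EuclideanSpace ℝ (Fin n)) x₀ z)) :
    EuclideanSpace ℝ (Fin n))

lemma dCh_fld (x₀ : M) (V : 𝔼 → 𝔼) {z : M} (hz : z ∈ (chartAt 𝔼 x₀).source) :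
    dCh x₀ z (fld x₀ V z) = V (chartAt 𝔼 x₀ z) := by
  have h := dCh_dSy x₀ ((chartAt 𝔼 x₀).map_source hz) (V (chartAt 𝔼 x₀ z))
  have e := (chartAt 𝔼 x₀).left_inv hz
  have key : ∀ (w : M) (_ : w = z),
      dCh x₀ w (dSy x₀ (chartAt 𝔼 x₀ z) (V (chartAt 𝔼 x₀ z)) : 𝔼) =
      dCh x₀ z (dSy x₀ (chartAt 𝔼 x₀ z) (V (chartAt 𝔼 x₀ z)) : 𝔼) := by
    intro w hw; subst hw; rfl
  rw [← h]
  exact (key _ e).symm

lemma vCh_fld (x₀ : M) (V : 𝔼 → 𝔼) {y : 𝔼} (hy : y ∈ (chartAt 𝔼 x₀).target) :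
    vCh n x₀ (fld x₀ V) y = V y := by
  rw [vCh, dCh_fld x₀ V ((chartAt 𝔼 x₀).map_target hy), (chartAt 𝔼 x₀).right_inv hy]

lemma inner_fld (x₀ : M) (V W : 𝔼 → 𝔼) {z : M} (hz : z ∈ (chartAt 𝔼 x₀).source) :
    inner ℝ (fld x₀ V z) (fld x₀ W z)
      = bil (chartMetric n M x₀ (chartAt 𝔼 x₀ z)) (V (chartAt 𝔼 x₀ z)) (W (chartAt 𝔼 x₀ z)) := by
  exact (inner_eq_bil x₀ hz _ _).trans (by rw [dCh_fld x₀ V hz, dCh_fld x₀ W hz])

lemma VSm_fld (x₀ : M) {V : 𝔼 → 𝔼} (hV : ContDiffOn ℝ ∞ V (chartAt 𝔼 x₀).target) {z : M}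
    (hz : z ∈ (chartAt 𝔼 x₀).source) : VSm n ∞ (fld x₀ V) z := by
  refine VSm.of_chart le_rfl hz ?_
  have hy := (chartAt 𝔼 x₀).map_source hz
  refine (hV.contDiffAt ((chartAt 𝔼 x₀).open_target.mem_nhds hy)).congr_of_eventuallyEq ?_
  filter_upwards [(chartAt 𝔼 x₀).open_target.mem_nhds hy] with w hw
  exact vCh_fld x₀ V hw

variable (n M) in
/-- A global Parseval frame of smooth vector fields. -/
structure PF (κ : Type) [Fintype κ] where
  s : κ → (p : M) → TangentSpace 𝓘(ℝ, EuclideanSpace ℝ (Fin n)) p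
  sm : ∀ A z, VSm n ∞ (s A) z
  pars : ∀ (z : M) (v : TangentSpace 𝓘(ℝ, EuclideanSpace ℝ (Fin n)) z),
    ∑ A, (inner ℝ (s A z) v : ℝ) • s A z = v

/-- an orthonormal family of `n` vectors resolves the identity -/
lemma sum_frame {z : M} {e : Fin n → TangentSpace 𝓘E z}
    (he : ∀ a b, inner ℝ (e a) (e b) = if a = b then (1:ℝ) else 0) (v : TangentSpace 𝓘E z) :
    ∑ i, (inner ℝ (e i) v : ℝ) • e i = v := by
  have : FiniteDimensional ℝ (TangentSpace 𝓘E z) := inferInstanceAs (FiniteDimensional ℝ 𝔼)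
  have hon : Orthonormal ℝ e := by
    rw [orthonormal_iff_ite]
    intro i j
    exact he i j
  have hfr : Module.finrank ℝ (TangentSpace 𝓘E z) = n := finrank_euclideanSpace_fin
  have hsp : ⊤ ≤ Submodule.span ℝ (Set.range e) := by
    have := hon.linearIndependent.span_eq_top_of_card_eq_finrank'
      (by rw [Fintype.card_fin]; exact hfr.symm)
    rw [this]
  have h := (OrthonormalBasis.mk hon hsp).sum_repr v
  conv_rhs => rw [← h]
  refine Finset.sum_congr rfl fun i _ => ?_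
  rw [OrthonormalBasis.repr_apply_apply, OrthonormalBasis.coe_mk]

lemma VSm_zero (z : M) : VSm n ∞ (fun q : M => (0 : TangentSpace 𝓘E q)) z := by
  have : vCh n z (fun q : M => (0 : TangentSpace 𝓘E q)) = fun _ => (0:𝔼) := by
    funext y
    exact map_zero _
  rw [VSm, this]
  exact contDiffAt_const

lemma VSm_congr {X Y : (p : M) → TangentSpace 𝓘E p} {z : M} (h : ∀ᶠ q in 𝓝 z, X q = Y q)
    (hY : VSm n ∞ Y z) : VSm n ∞ X z := by
  have hc : ContinuousAt (chartAt 𝔼 z).symm (chartCentre n M z) :=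
    (chartAt 𝔼 z).continuousAt_symm (centre_mem z)
  have h2 : (chartAt 𝔼 z).symm (chartCentre n M z) = z :=
    (chartAt 𝔼 z).left_inv (mem_chart_source 𝔼 z)
  refine ContDiffAt.congr_of_eventuallyEq hY ?_
  rw [ContinuousAt, h2] at hc
  filter_upwards [hc.eventually h] with y hy
  rw [vCh, vCh, hy]

/-- Existence of Parseval frames on closed manifolds. -/
theorem exists_PF [CompactSpace M] [T2Space M] :
    ∃ m : ℕ, Nonempty (PF n M (Fin m × Fin n)) := by
  classical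
  -- local frames
  choose e he hor using fun x : M => exists_frame_on (isRiemannianOn_chartMetric (n := n) x)
  -- bump functions
  have hb : ∀ x : M, ∃ f : SmoothBumpFunction 𝓘E x, True := fun x =>
    ⟨Classical.choice inferInstance, trivial⟩
  choose f _ using hb
  have hopen : ∀ x : M, IsOpen (Function.support (f x)) := fun x => (f x).isOpen_support
  obtain ⟨t, ht⟩ := isCompact_univ.elim_finite_subcover (fun x : M => Function.support (f x)) hopen
    (fun x _ => mem_iUnion.2 ⟨x, (f x).c_mem_support⟩)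
  let m := t.card
  let c : Fin m → M := fun i => (t.equivFin.symm i : M)
  have hcov : ∀ z : M, ∃ i : Fin m, f (c i) z ≠ 0 := by
    intro z
    obtain ⟨x, hx, hz⟩ := mem_iUnion₂.1 (ht (mem_univ z))
    refine ⟨t.equivFin ⟨x, hx⟩, ?_⟩
    have : c (t.equivFin ⟨x, hx⟩) = x := by simp [c]
    rw [this]; exact hz
  let F : M → ℝ := fun z => ∑ i, (f (c i) z) ^ 2
  have hFpos : ∀ z, 0 < F z := by
    intro z
    obtain ⟨i, hi⟩ := hcov z
    exact Finset.sum_pos' (fun j _ => sq_nonneg _) ⟨i, Finset.mem_univ _, by positivity⟩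
  have hfsm : ∀ i, ContMDiff 𝓘E 𝓘(ℝ, ℝ) ∞ (f (c i)) := fun i => (f (c i)).contMDiff
  have hFsm : ContMDiff 𝓘E 𝓘(ℝ, ℝ) ∞ F := by
    have : ∀ i, ContMDiff 𝓘E 𝓘(ℝ, ℝ) ∞ (fun z => (f (c i) z) ^ 2) := fun i => (hfsm i).pow 2
    exact contMDiff_finsetSum (t := Finset.univ) fun i _ => this i
  let h : Fin m → M → ℝ := fun i z => f (c i) z * (Real.sqrt (F z))⁻¹
  have hhsm : ∀ i, ContMDiff 𝓘E 𝓘(ℝ, ℝ) ∞ (h i) := by
    intro i
    have h1 : ContMDiff 𝓘E 𝓘(ℝ, ℝ) ∞ (fun z => (Real.sqrt (F z))⁻¹) := by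
      intro z
      have h2 : ContDiffAt ℝ ∞ (fun r : ℝ => (Real.sqrt r)⁻¹) (F z) :=
        (contDiffAt_id.sqrt (hFpos z).ne').inv (Real.sqrt_ne_zero'.2 (hFpos z))
      exact h2.contMDiffAt.comp z (hFsm z)
    exact (hfsm i).mul h1
  have hhsq : ∀ z, ∑ i, h i z ^ 2 = 1 := by
    intro z
    have h1 : ∀ i, h i z ^ 2 = (f (c i) z) ^ 2 / F z := by
      intro i
      simp only [h]
      rw [mul_pow, inv_pow, Real.sq_sqrt (hFpos z).le]; rfl
    simp only [h1]
    rw [← Finset.sum_div]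
    exact div_self (hFpos z).ne'
  have hsupp : ∀ i z, z ∉ (chartAt 𝔼 (c i)).source → h i z = 0 := by
    intro i z hz
    have : f (c i) z = 0 := by
      by_contra hne
      exact hz ((f (c i)).support_subset_source hne)
    simp only [h, this, zero_mul]
  refine ⟨m, ⟨⟨fun A z => h A.1 z • fld (c A.1) (e (c A.1) A.2) z, ?_, ?_⟩⟩⟩
  · rintro ⟨i, a⟩ z
    by_cases hz : z ∈ tsupport (f (c i))
    · have hzs := (f (c i)).tsupport_subset_chartAt_source hz
      exact VSm.smul le_rfl (hhsm i z) (VSm_fld (c i) (he (c i) a) hzs)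
    · refine VSm_congr ?_ (VSm_zero z)
      have hev : ∀ᶠ q in 𝓝 z, q ∉ tsupport (f (c i)) :=
        (isClosed_tsupport _).isOpen_compl.mem_nhds hz
      filter_upwards [hev] with q hq
      have : f (c i) q = 0 := image_eq_zero_of_notMem_tsupport hq
      simp only [h, this, zero_mul, zero_smul]
  · intro z v
    rw [Fintype.sum_prod_type]
    have h1 : ∀ i, ∑ a, (inner ℝ (h i z • fld (c i) (e (c i) a) z) v : ℝ)
        • (h i z • fld (c i) (e (c i) a) z) = (h i z ^ 2) • v := by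
      intro i
      by_cases hz : z ∈ (chartAt 𝔼 (c i)).source
      · have ho : ∀ a b, inner ℝ (fld (c i) (e (c i) a) z) (fld (c i) (e (c i) b) z)
            = if a = b then (1:ℝ) else 0 := by
          intro a b
          rw [inner_fld (c i) _ _ hz]
          exact (hor (c i) _ ((chartAt 𝔼 (c i)).map_source hz)).1 a b
        conv_rhs => rw [← sum_frame ho v, Finset.smul_sum]
        refine Finset.sum_congr rfl fun a _ => ?_
        rw [real_inner_smul_left, smul_smul, smul_smul]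
        congr 1; ring
      · simp [hsupp i z hz]
    simp only [h1]
    rw [← Finset.sum_smul, hhsq, one_smul]

end Crest.Agent.R249.Tz2_805
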