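import Crest.Agent.R249.Tz3_805

/-!
Row 249, leaf T0 (helper805), part 4: the bundle `Λ⁻` as a `Bun`, and its local frames.
-/

set_option autoImplicit false
set_option maxSynthPendingDepth 3
set_option linter.unusedSectionVars false
set_option linter.unusedSimpArgs false

open Filter Topology Set Bundle Manifold Matrix
open scoped ContDiff
open Crest.GeometryTopology.CoordMetric Crest.GeometryTopology.ChartCurvature
  Crest.GeometryTopology.PointedLimit
open Crest.Agent.R202.Tens Crest.Agent.R247.Bo84 Crest.Agent.R249.FrmB_285 Crest.Agent.R249.Vf281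
  Crest.Agent.R249.Tz1_805 Crest.Agent.R249.Tz2_805
open Crest.Agent.R249.Fr129 Crest.Agent.R249.C2_198
open Crest.Agent.R249.Sg129 hiding fg fg_add fg_sub fg_mul fg_const fg_sum ev_fg contMDiff_inner VSm_mCov
open Crest.Agent.R249.Dic805
open Crest.Agent.R249.Fr129.Frame (half two_half)

noncomputable section

namespace Crest.Agent.R249.Tz805

section ring

variable {S : Type*} [CommRing S]

/-- `∑_a (u K_a v)(w K_a x) = (u·w)(v·x) - (u·x)(v·w) - det(u,v,w,x)` -/
lemma sum_KK (u v w x : Fin 4 → S) :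
    ∑ a, (u ⬝ᵥ (C2_198.K S a *ᵥ v)) * (w ⬝ᵥ (C2_198.K S a *ᵥ x))
      = (u ⬝ᵥ w) * (v ⬝ᵥ x) - (u ⬝ᵥ x) * (v ⬝ᵥ w) - (Matrix.of ![u, v, w, x]).det := by
  simp only [Fin.sum_univ_three, Matrix.mulVec, dotProduct, Fin.sum_univ_four, C2_198.K,
    Matrix.det_succ_row_zero, Matrix.of_apply, Matrix.submatrix_apply]
  simp [Fin.succAbove, Fin.sum_univ_succ, Matrix.det_succ_row_zero, Matrix.submatrix_apply]
  ring

lemma K_tr (a b : Fin 3) : ((C2_198.K S a)ᵀ * C2_198.K S b).trace = if a = b then 4 else 0 := by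
  fin_cases a <;> fin_cases b <;>
    simp [C2_198.K, Matrix.trace, Matrix.mul_apply, Fin.sum_univ_four, Matrix.diag] <;> norm_num

variable [Algebra ℝ S] (F : Frame 4 S)

/-- the connection of `Λ⁻` -/
lemma tan_K (k : Fin 4) (a : Fin 3) :
    F.tan k * C2_198.K S a + C2_198.K S a * (F.tan k)ᵀ = ∑ b, asc F k b a • C2_198.K S b := by
  ext i j
  simp only [Matrix.add_apply, Matrix.mul_apply, Matrix.transpose_apply, Matrix.sum_apply,
    Matrix.smul_apply, Fin.sum_univ_four, Fin.sum_univ_three, Frame.tan, smul_eq_mul]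
  fin_cases a <;> fin_cases i <;> fin_cases j <;>
    simp [asc, eta, cr, C2_198.K,
        Frame.w_self, Frame.w10, Frame.w20, Frame.w30, Frame.w21, Frame.w31, Frame.w32] <;> ring

end ring

section gen

variable {n : ℕ} {M : Type*} [TopologicalSpace M] [ChartedSpace (EuclideanSpace ℝ (Fin n)) M]
  [IsManifold 𝓘(ℝ, EuclideanSpace ℝ (Fin n)) ∞ M]
  [RiemannianBundle (fun x : M => TangentSpace 𝓘(ℝ, EuclideanSpace ℝ (Fin n)) x)]
  [IsContMDiffRiemannianBundle 𝓘(ℝ, EuclideanSpace ℝ (Fin n)) ∞ (EuclideanSpace ℝ (Fin n))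
      (fun x : M => TangentSpace 𝓘(ℝ, EuclideanSpace ℝ (Fin n)) x)]

local notation "𝔼" => EuclideanSpace ℝ (Fin n)
local notation "𝓘E" => 𝓘(ℝ, EuclideanSpace ℝ (Fin n))

/-- local frame at `z` of the data `(W, p)` -/
structure PreLF {κ : Type} [Fintype κ]
    (W : κ → κ → (z : M) → TangentSpace 𝓘(ℝ, EuclideanSpace ℝ (Fin n)) z) (p : κ → κ → M → ℝ)
    {z : M} {e : Fin n → EuclideanSpace ℝ (Fin n) → EuclideanSpace ℝ (Fin n)}
    (h : ONF (chartMetric n M z) (chartAt (EuclideanSpace ℝ (Fin n)) z).target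
      (chartCentre n M z) e)
    {ι : Type} [Fintype ι] [DecidableEq ι]
    (a : Fin n → Matrix ι ι (SG (chartCentre n M z)))
    (j : Matrix κ ι (SG (chartCentre n M z))) : Prop where
  jtj : jᵀ * j = 1
  jjt : j * jᵀ = Matrix.of fun x y => fg z (p x y)
  dj : ∀ k, dM (h.frameOf.D k) j + (Matrix.of fun x y => vg z e (W x y) k) * j = j * a k

variable {κ : Type} [Fintype κ]
  {W : κ → κ → (z : M) → TangentSpace 𝓘(ℝ, EuclideanSpace ℝ (Fin n)) z} {p : κ → κ → M → ℝ}

lemma PreLF.symmp {z : M} {e : Fin n → EuclideanSpace ℝ (Fin n) → EuclideanSpace ℝ (Fin n)}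
    {h : ONF (chartMetric n M z) (chartAt (EuclideanSpace ℝ (Fin n)) z).target
      (chartCentre n M z) e}
    {ι : Type} [Fintype ι] [DecidableEq ι]
    {a : Fin n → Matrix ι ι (SG (chartCentre n M z))}
    {j : Matrix κ ι (SG (chartCentre n M z))} (L : PreLF W p h a j)
    (smp : ∀ a b, ContMDiff 𝓘E 𝓘(ℝ, ℝ) ∞ (p a b)) (x y : κ) : p x y z = p y x z := by
  have h1 : fg (n := n) z (p x y) = fg (n := n) z (p y x) := by
    have e1 := congrFun (congrFun L.jjt x) y
    have e2 := congrFun (congrFun L.jjt y) x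
    rw [Matrix.of_apply] at e1 e2
    rw [← e1, ← e2, Matrix.mul_apply, Matrix.mul_apply]
    exact Finset.sum_congr rfl fun _ _ => mul_comm _ _
  rw [← ev_fg (smp x y), ← ev_fg (smp y x), h1]

lemma PreLF.idem {z : M} {e : Fin n → EuclideanSpace ℝ (Fin n) → EuclideanSpace ℝ (Fin n)}
    {h : ONF (chartMetric n M z) (chartAt (EuclideanSpace ℝ (Fin n)) z).target
      (chartCentre n M z) e}
    {ι : Type} [Fintype ι] [DecidableEq ι]
    {a : Fin n → Matrix ι ι (SG (chartCentre n M z))}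
    {j : Matrix κ ι (SG (chartCentre n M z))} (L : PreLF W p h a j)
    (smp : ∀ a b, ContMDiff 𝓘E 𝓘(ℝ, ℝ) ∞ (p a b)) (x y : κ) :
    ∑ c, p x c z * p c y z = p x y z := by
  have h1 : (Matrix.of fun x y => fg (n := n) z (p x y)) * (Matrix.of fun x y => fg (n := n) z (p x y))
      = Matrix.of fun x y => fg (n := n) z (p x y) := by
    rw [← L.jjt, Matrix.mul_assoc, ← Matrix.mul_assoc jᵀ, L.jtj, Matrix.one_mul]
  have h2 := congrArg ev (congrFun (congrFun h1 x) y)
  rw [Matrix.mul_apply, map_sum] at h2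
  simp only [Matrix.of_apply, map_mul, ev_fg (smp _ _)] at h2
  exact h2

lemma PreLF.par {z : M} {e : Fin n → EuclideanSpace ℝ (Fin n) → EuclideanSpace ℝ (Fin n)}
    {h : ONF (chartMetric n M z) (chartAt (EuclideanSpace ℝ (Fin n)) z).target
      (chartCentre n M z) e}
    {ι : Type} [Fintype ι] [DecidableEq ι]
    {a : Fin n → Matrix ι ι (SG (chartCentre n M z))}
    {j : Matrix κ ι (SG (chartCentre n M z))} (L : PreLF W p h a j)
    (smW : ∀ a b z, VSm n ∞ (W a b) z)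
    (skew : ∀ a b z, W a b z = - W b a z)
    (smp : ∀ a b, ContMDiff 𝓘E 𝓘(ℝ, ℝ) ∞ (p a b)) (x y : κ) :
    mgrad n (p x y) z + ∑ c, (p c y z • W x c z - p x c z • W c y z) = 0 := by
  classical
  -- the field
  have smg : ∀ a b z, VSm n ∞ (fun q => mgrad n (p a b) q) z := fun a b z =>
    VSm_mgrad (smp a b z) (by simp) le_rfl
  have sm1 : ∀ c z, VSm n ∞ (fun q => p c y q • W x c q) z := fun c z =>
    VSm.smul le_rfl (smp c y).contMDiffAt (smW x c z)
  have sm2 : ∀ c z, VSm n ∞ (fun q => p x c q • W c y q) z := fun c z =>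
    VSm.smul le_rfl (smp x c).contMDiffAt (smW c y z)
  have sm12 : ∀ c z, VSm n ∞ (fun q => p c y q • W x c q - p x c q • W c y q) z := fun c z => by
    have := (sm1 c z).add (sm2 c z).neg
    have e1 : (fun q => p c y q • W x c q - p x c q • W c y q)
      = fun q => p c y q • W x c q + -(p x c q • W c y q) := funext fun q => sub_eq_add_neg _ _
    rw [e1]; exact this
  have sms : ∀ z, VSm n ∞ (fun q => ∑ c, (p c y q • W x c q - p x c q • W c y q)) z := fun z =>
    VSm.sum _ fun c _ => sm12 c z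
  have smF : ∀ z, VSm n ∞ (fun q => mgrad n (p x y) q
      + ∑ c, (p c y q • W x c q - p x c q • W c y q)) z := fun z => (smg x y z).add (sms z)
  -- the ring identity
  set P := (Matrix.of fun x y => fg z (p x y) : Matrix κ κ (SG (chartCentre n M z)))
  have hw : ∀ k, (Matrix.of fun x y => vg z e (W x y) k)ᵀ
      = - (Matrix.of fun x y => vg z e (W x y) k) := by
    intro k
    ext x y
    change vg z e (W y x) k = - vg z e (W x y) k
    have e1 : W y x = fun q => -(W x y q) := funext fun q => skew y x q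
    rw [e1]
    exact h.vg_neg (smW x y) k
  have key : ∀ k, dM (h.frameOf.D k) P + ((Matrix.of fun x y => vg z e (W x y) k) * P
      - P * (Matrix.of fun x y => vg z e (W x y) k)) = 0 := by
    intro k
    set w := (Matrix.of fun x y => vg z e (W x y) k : Matrix κ κ (SG (chartCentre n M z)))
    have d1 : dM (h.frameOf.D k) j = j * a k - w * j := eq_sub_of_add_eq (L.dj k)
    have d0 : dM (h.frameOf.D k) jᵀ * j + jᵀ * dM (h.frameOf.D k) j = 0 := by
      rw [← dM_mul, L.jtj, dM_one]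
    have d2 : dM (h.frameOf.D k) jᵀ = (a k)ᵀ * jᵀ + jᵀ * w := by
      rw [dM_transpose, d1, Matrix.transpose_sub, Matrix.transpose_mul, Matrix.transpose_mul, hw k,
        Matrix.mul_neg, sub_neg_eq_add]
    have ha : (a k)ᵀ + a k = 0 := by
      rw [d1, d2, Matrix.add_mul, Matrix.mul_sub, Matrix.mul_assoc, L.jtj, Matrix.mul_one,
        ← Matrix.mul_assoc jᵀ j, L.jtj, Matrix.one_mul, ← Matrix.mul_assoc jᵀ w j] at d0
      rw [← d0]; abel
    have ha' : (a k)ᵀ = - a k := eq_neg_of_add_eq_zero_left ha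
    have hP : P = j * jᵀ := L.jjt.symm
    rw [hP, dM_mul, d1, d2, ha']
    simp only [Matrix.sub_mul, Matrix.mul_add, Matrix.mul_assoc, Matrix.neg_mul, Matrix.mul_neg]
    abel
  have key2 : ∀ k, vg z e (fun q => mgrad n (p x y) q
      + ∑ c, (p c y q • W x c q - p x c q • W c y q)) k = 0 := by
    intro k
    have h1 := congrFun (congrFun (key k) x) y
    rw [vg_add h (smg x y) sms, vg_sum h _ sm12, ← D_fg h (smp x y)]
    rw [Matrix.add_apply, Matrix.sub_apply, Matrix.mul_apply, Matrix.mul_apply,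
      ← Finset.sum_sub_distrib, Matrix.zero_apply] at h1
    rw [← h1]
    congr 1
    refine Finset.sum_congr rfl fun c _ => ?_
    rw [vg_sub h (sm1 c) (sm2 c), vg_smul h (smp c y) (smW x c), vg_smul h (smp x c) (smW c y)]
    simp only [Matrix.of_apply, P]
    ring
  have h2 := h.eq_sum_ev_vg smF
  rw [h2]
  refine Finset.sum_eq_zero fun k _ => ?_
  have : h.vg (fun q => mgrad n (p x y) q
      + ∑ c, (p c y q • W x c q - p x c q • W c y q)) k = 0 := key2 k
  rw [this, map_zero, zero_smul]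

end gen

section detg

variable {x : EuclideanSpace ℝ (Fin 4)}

/-- determinants of germs -/
lemma det_germ (f : Fin 4 → Fin 4 → EuclideanSpace ℝ (Fin 4) → ℝ)
    (hf : ∀ i j, ContDiffAt ℝ ∞ (f i j) x) :
    ∃ hd : ContDiffAt ℝ ∞ (fun y => (Matrix.of fun i j => f i j y).det) x,
      germ _ hd = (Matrix.of fun i j => germ (f i j) (hf i j)).det := by
  let A : Matrix (Fin 4) (Fin 4) (CF x) := Matrix.of fun i j => ⟨f i j, hf i j⟩
  have e : ((A.det : CF x) : EuclideanSpace ℝ (Fin 4) → ℝ)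
      = fun y => (Matrix.of fun i j => f i j y).det := by
    funext y
    exact RingHom.map_det ((Pi.evalRingHom (fun _ : EuclideanSpace ℝ (Fin 4) => ℝ) y).comp
      (CF x).val.toRingHom) A
  have hd : ContDiffAt ℝ ∞ (fun y => (Matrix.of fun i j => f i j y).det) x := by
    rw [← e]; exact (A.det).2
  refine ⟨hd, ?_⟩
  have h1 : germ _ hd = gm A.det := by
    rw [germ]
    congr 1
  rw [h1]
  exact AlgHom.map_det gm A

end detg

section four

variable {M : Type*} [TopologicalSpace M] [ChartedSpace (EuclideanSpace ℝ (Fin 4)) M]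
  [IsManifold 𝓘(ℝ, EuclideanSpace ℝ (Fin 4)) ∞ M]
  [RiemannianBundle (fun x : M => TangentSpace 𝓘(ℝ, EuclideanSpace ℝ (Fin 4)) x)]
  [IsContMDiffRiemannianBundle 𝓘(ℝ, EuclideanSpace ℝ (Fin 4)) ∞ (EuclideanSpace ℝ (Fin 4))
      (fun x : M => TangentSpace 𝓘(ℝ, EuclideanSpace ℝ (Fin 4)) x)]

local notation "𝔼" => EuclideanSpace ℝ (Fin 4)
local notation "𝓘E" => 𝓘(ℝ, EuclideanSpace ℝ (Fin 4))

variable {vol : (z : M) → (Fin 4 → TangentSpace 𝓘(ℝ, EuclideanSpace ℝ (Fin 4)) z) → ℝ}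

lemma vol_near {z : M} {e : Fin 4 → EuclideanSpace ℝ (Fin 4) → EuclideanSpace ℝ (Fin 4)}
    (h : ONF (chartMetric 4 M z) (chartAt (EuclideanSpace ℝ (Fin 4)) z).target
      (chartCentre 4 M z) e) (hv : VolAt vol z e)
    (X : Fin 4 → (p : M) → TangentSpace 𝓘(ℝ, EuclideanSpace ℝ (Fin 4)) p)
    (hX : ∀ i z, VSm 4 ∞ (X i) z) :
    ∃ hd : ContDiffAt ℝ ∞ (inCh 4 z (fun q => vol q fun i => X i q)) (chartCentre 4 M z),
      germ _ hd = (Matrix.of fun i j => vg z e (X i) j).det := by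
  choose hf ef using fun i j => vg_germ h (hX i) j
  obtain ⟨hd, ed⟩ := det_germ (fun i j y => bil (chartMetric 4 M z y) (vCh 4 z (X i) y) (e j y)) hf
  have hev : inCh 4 z (fun q => vol q fun i => X i q) =ᶠ[𝓝 (chartCentre 4 M z)]
      (fun y => (Matrix.of fun i j =>
        bil (chartMetric 4 M z y) (vCh 4 z (X i) y) (e j y)).det) := by
    filter_upwards [hv] with y hy
    exact hy X
  refine ⟨hd.congr_of_eventuallyEq hev, ?_⟩
  rw [germ_eq (hg := hd) hev, ed]
  congr 1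
  ext i j
  rw [Matrix.of_apply, Matrix.of_apply, ef i j]

lemma contMDiff_vol (hv : IsVol vol)
    (X : Fin 4 → (p : M) → TangentSpace 𝓘(ℝ, EuclideanSpace ℝ (Fin 4)) p)
    (hX : ∀ i z, VSm 4 ∞ (X i) z) :
    ContMDiff 𝓘E 𝓘(ℝ, ℝ) ∞ (fun q => vol q fun i => X i q) := by
  intro z
  obtain ⟨e, h, hz⟩ := hv z
  obtain ⟨hd, -⟩ := vol_near h hz X hX
  exact contMDiffAt_of_inCh (x₀ := z) le_rfl (mem_chart_source 𝔼 z) hd

lemma fg_vol {z : M}
    {e : Fin 4 → EuclideanSpace ℝ (Fin 4) → EuclideanSpace ℝ (Fin 4)}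
    (h : ONF (chartMetric 4 M z) (chartAt (EuclideanSpace ℝ (Fin 4)) z).target
      (chartCentre 4 M z) e) (hz : VolAt vol z e)
    (X : Fin 4 → (p : M) → TangentSpace 𝓘(ℝ, EuclideanSpace ℝ (Fin 4)) p)
    (hX : ∀ i z, VSm 4 ∞ (X i) z) :
    fg (n := 4) z (fun q => vol q fun i => X i q) = (Matrix.of fun i j => vg z e (X i) j).det := by
  obtain ⟨hd, ed⟩ := vol_near h hz X hX
  rw [← ed]
  exact dif_pos hd

variable {κ : Type} [Fintype κ] (s : PF 4 M κ)

/-- the four fields -/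
def quad (x y : κ × κ) : Fin 4 → (p : M) → TangentSpace 𝓘(ℝ, EuclideanSpace ℝ (Fin 4)) p :=
  ![s.s x.1, s.s x.2, s.s y.1, s.s y.2]

lemma quad_sm (x y : κ × κ) (i : Fin 4) (z : M) : VSm 4 ∞ (quad s x y i) z := by
  fin_cases i
  · exact s.sm x.1 z
  · exact s.sm x.2 z
  · exact s.sm y.1 z
  · exact s.sm y.2 z

lemma lamP_eq (x y : κ × κ) : lamP s vol x y = fun z =>
    (1 / 4) * (tanP s x.1 y.1 z * tanP s x.2 y.2 z - tanP s x.1 y.2 z * tanP s x.2 y.1 z
      - vol z fun i => quad s x y i z) := by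
  funext z
  rw [lamP]
  congr 2
  congr 1
  funext i
  fin_cases i <;> rfl

lemma sm_lamP (hv : IsVol vol) (x y : κ × κ) : ContMDiff 𝓘E 𝓘(ℝ, ℝ) ∞ (lamP s vol x y) := by
  rw [lamP_eq]
  exact contMDiff_const.mul ((((smP s _ _).mul (smP s _ _)).sub ((smP s _ _).mul (smP s _ _))).sub
    (contMDiff_vol hv _ (quad_sm s x y)))

open Classical in
/-- connection form of `T ⊗ T` -/
def lamW (x y : κ × κ) (z : M) : TangentSpace 𝓘(ℝ, EuclideanSpace ℝ (Fin 4)) z :=
  (if x.2 = y.2 then (1:ℝ) else 0) • tanW s x.1 y.1 z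
    + (if x.1 = y.1 then (1:ℝ) else 0) • tanW s x.2 y.2 z

lemma sm_lamW (x y : κ × κ) (z : M) : VSm 4 ∞ (lamW s x y) z :=
  (VSm.smul le_rfl contMDiffAt_const ((tanB s).smW _ _ z)).add
    (VSm.smul le_rfl contMDiffAt_const ((tanB s).smW _ _ z))

lemma lamW_skew (x y : κ × κ) (z : M) : lamW s x y z = - lamW s y x z := by
  classical
  have h1 : tanW s x.1 y.1 z = - tanW s y.1 x.1 z := (tanB s).skew _ _ z
  have h2 : tanW s x.2 y.2 z = - tanW s y.2 x.2 z := (tanB s).skew _ _ z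
  rw [lamW, lamW, h1, h2, smul_neg, smul_neg, neg_add]
  exact congrArg₂ _ (congrArg _ (congrArg (fun c : ℝ => c • tanW s y.1 x.1 z)
    (if_congr eq_comm rfl rfl))) (congrArg _ (congrArg (fun c : ℝ => c • tanW s y.2 x.2 z)
    (if_congr eq_comm rfl rfl)))

/-! ### the local frame -/

section frame

variable {z : M} {e : Fin 4 → EuclideanSpace ℝ (Fin 4) → EuclideanSpace ℝ (Fin 4)}
  (h : ONF (chartMetric 4 M z) (chartAt (EuclideanSpace ℝ (Fin 4)) z).target
      (chartCentre 4 M z) e)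

/-- `J K_a Jᵀ` -/
def JKJ (z : M) (e : Fin 4 → EuclideanSpace ℝ (Fin 4) → EuclideanSpace ℝ (Fin 4)) (a : Fin 3) :
    Matrix κ κ (SG (chartCentre 4 M z)) :=
  (tanJ s z e * C2_198.K (SG (chartCentre 4 M z)) a : Matrix κ (Fin 4) (SG (chartCentre 4 M z)))
    * (tanJ s z e)ᵀ

/-- the local frame of `Λ⁻` -/
def lamJ (z : M) (e : Fin 4 → EuclideanSpace ℝ (Fin 4) → EuclideanSpace ℝ (Fin 4)) :
    Matrix (κ × κ) (Fin 3) (SG (chartCentre 4 M z)) :=
  Matrix.of fun x a => half * JKJ s z e a x.1 x.2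

include h in
lemma lamJ_jtj : (lamJ s z e)ᵀ * lamJ s z e = 1 := by
  ext a b
  have h1 : (tanJ s z e)ᵀ * tanJ s z e = 1 := tanJ_jtj s h
  have e1 : ((lamJ s z e)ᵀ * lamJ s z e) a b
      = half * half * ((JKJ s z e a)ᵀ * JKJ s z e b).trace := by
    rw [Matrix.mul_apply, Matrix.trace, Finset.mul_sum, Fintype.sum_prod_type, Finset.sum_comm]
    refine Finset.sum_congr rfl fun B _ => ?_
    rw [Matrix.diag_apply, Matrix.mul_apply, Finset.mul_sum]
    refine Finset.sum_congr rfl fun A _ => ?_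
    simp only [Matrix.transpose_apply, lamJ, Matrix.of_apply]
    ring
  have e2 : ((JKJ s z e a)ᵀ * JKJ s z e b).trace
      = ((C2_198.K (SG (chartCentre 4 M z)) a)ᵀ * C2_198.K _ b).trace := by
    rw [JKJ, JKJ]
    have e3 : ∀ (X : Matrix κ (Fin 4) (SG (chartCentre 4 M z)))
        (A B : Matrix (Fin 4) (Fin 4) (SG (chartCentre 4 M z))),
        (X * A * Xᵀ)ᵀ * (X * B * Xᵀ) = X * (Aᵀ * (Xᵀ * X) * B * Xᵀ) := by
      intro X A B
      simp only [Matrix.transpose_mul, Matrix.transpose_transpose, Matrix.mul_assoc]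
    rw [e3, h1, Matrix.mul_one, Matrix.trace_mul_comm, Matrix.mul_assoc, h1, Matrix.mul_one]
  rw [e1, e2, K_tr, Matrix.one_apply]
  have hh := two_half (S := SG (chartCentre 4 M z))
  split_ifs with hab
  · linear_combination (2 * half + 1) * hh
  · rw [mul_zero]

lemma JKJ_apply (a : Fin 3) (A B : κ) : JKJ s z e a A B
    = tanJ s z e A ⬝ᵥ (C2_198.K _ a *ᵥ tanJ s z e B) := by
  rw [JKJ, Matrix.mul_assoc, Matrix.mul_apply]
  rfl

include h in
lemma lamJ_jjt (hv : IsVol vol) (hz : VolAt vol z e) :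
    lamJ s z e * (lamJ s z e)ᵀ = Matrix.of fun x y => fg z (lamP s vol x y) := by
  ext x y
  have h2 : ∀ A B, fg (n := 4) z (tanP s A B) = tanJ s z e A ⬝ᵥ tanJ s z e B := by
    intro A B
    have := congrFun (congrFun (tanJ_jjt s h) A) B
    rw [Matrix.of_apply] at this
    rw [← this, Matrix.mul_apply]
    rfl
  have h3 : fg (n := 4) z (fun q => vol q fun i => quad s x y i q)
      = (Matrix.of ![tanJ s z e x.1, tanJ s z e x.2, tanJ s z e y.1, tanJ s z e y.2]).det := by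
    rw [fg_vol h hz _ (quad_sm s x y)]
    congr 1
    ext i j
    fin_cases i <;> rfl
  have h4 : fg (n := 4) z (lamP s vol x y) = half * half *
      (fg z (tanP s x.1 y.1) * fg z (tanP s x.2 y.2) - fg z (tanP s x.1 y.2) * fg z (tanP s x.2 y.1)
        - fg z (fun q => vol q fun i => quad s x y i q)) := by
    have s1 : ContMDiff 𝓘E 𝓘(ℝ, ℝ) ∞ (fun q => tanP s x.1 y.1 q * tanP s x.2 y.2 q) :=
      (smP s _ _).mul (smP s _ _)
    have s2 : ContMDiff 𝓘E 𝓘(ℝ, ℝ) ∞ (fun q => tanP s x.1 y.2 q * tanP s x.2 y.1 q) :=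
      (smP s _ _).mul (smP s _ _)
    have s3 : ContMDiff 𝓘E 𝓘(ℝ, ℝ) ∞ (fun q => tanP s x.1 y.1 q * tanP s x.2 y.2 q
        - tanP s x.1 y.2 q * tanP s x.2 y.1 q) := s1.sub s2
    have s4 : ContMDiff 𝓘E 𝓘(ℝ, ℝ) ∞ (fun q => tanP s x.1 y.1 q * tanP s x.2 y.2 q
        - tanP s x.1 y.2 q * tanP s x.2 y.1 q - vol q fun i => quad s x y i q) :=
      s3.sub (contMDiff_vol hv _ (quad_sm s x y))
    rw [lamP_eq, fg_mul (f := fun _ => 1 / 4) contMDiff_const s4, fg_const,
      fg_sub s3 (contMDiff_vol hv _ (quad_sm s x y)), fg_sub s1 s2,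
      fg_mul (smP s _ _) (smP s _ _), fg_mul (smP s _ _) (smP s _ _)]
    congr 1
    rw [Frame.half, ← map_mul]
    norm_num
  rw [Matrix.of_apply, h4, h3, h2, h2, h2, h2, ← sum_KK, Matrix.mul_apply, Finset.mul_sum]
  refine Finset.sum_congr rfl fun a _ => ?_
  simp only [Matrix.transpose_apply, lamJ, Matrix.of_apply, JKJ_apply]
  ring

end frame

end four

end Crest.Agent.R249.Tz805
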