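import Crest.Agent.R249.Tz4_805

/-!
Row 249, leaf T0 (helper805), part 5: the bundle `Λ⁻`, continued.
-/

set_option autoImplicit false
set_option maxSynthPendingDepth 3
set_option linter.unusedSectionVars false
set_option linter.unusedSimpArgs false

open Filter Topology Set Bundle Manifold Matrix
open scoped ContDiff
open Crest.GeometryTopology.CoordMetric Crest.GeometryTopology.ChartCurvature
  Crest.GeometryTopology.PointedLimit
open Crest.Agent.R202.Tens Crest.Agent.R247.Bo84 Crest.Agent.R249.FrmB_285 Crest.Agent.R249.Vf281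
  Crest.Agent.R249.Tz1_805 Crest.Agent.R249.Tz2_805
open Crest.Agent.R249.Fr129 Crest.Agent.R249.C2_198
open Crest.Agent.R249.Sg129 hiding fg fg_add fg_sub fg_mul fg_const fg_sum ev_fg contMDiff_inner VSm_mCov
open Crest.Agent.R249.Dic805
open Crest.Agent.R249.Fr129.Frame (half two_half)

noncomputable section

namespace Crest.Agent.R249.Tz805

variable {M : Type*} [TopologicalSpace M] [ChartedSpace (EuclideanSpace ℝ (Fin 4)) M]
  [IsManifold 𝓘(ℝ, EuclideanSpace ℝ (Fin 4)) ∞ M]
  [RiemannianBundle (fun x : M => TangentSpace 𝓘(ℝ, EuclideanSpace ℝ (Fin 4)) x)]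
  [IsContMDiffRiemannianBundle 𝓘(ℝ, EuclideanSpace ℝ (Fin 4)) ∞ (EuclideanSpace ℝ (Fin 4))
      (fun x : M => TangentSpace 𝓘(ℝ, EuclideanSpace ℝ (Fin 4)) x)]

local notation "𝔼" => EuclideanSpace ℝ (Fin 4)
local notation "𝓘E" => 𝓘(ℝ, EuclideanSpace ℝ (Fin 4))

variable {vol : (z : M) → (Fin 4 → TangentSpace 𝓘(ℝ, EuclideanSpace ℝ (Fin 4)) z) → ℝ}
variable {κ : Type} [Fintype κ] (s : PF 4 M κ)
variable {z : M} {e : Fin 4 → EuclideanSpace ℝ (Fin 4) → EuclideanSpace ℝ (Fin 4)}
  (h : ONF (chartMetric 4 M z) (chartAt (EuclideanSpace ℝ (Fin 4)) z).target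
      (chartCentre 4 M z) e)

include h in
/-- `vg` of the connection form of `T ⊗ T` -/
lemma vg_lamW (k : Fin 4) (x y : κ × κ) [DecidableEq κ] : vg z e (lamW s x y) k
    = (if x.2 = y.2 then 1 else 0) * vg z e (tanW s x.1 y.1) k
      + (if x.1 = y.1 then 1 else 0) * vg z e (tanW s x.2 y.2) k := by
  have e0 : lamW s x y = fun q => (if x.2 = y.2 then (1:ℝ) else 0) • tanW s x.1 y.1 q
      + (if x.1 = y.1 then (1:ℝ) else 0) • tanW s x.2 y.2 q := by
    funext q
    rw [lamW]
    congr!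
  have w1 : ∀ z, VSm 4 ∞ (tanW s x.1 y.1) z := (tanB s).smW x.1 y.1
  have w2 : ∀ z, VSm 4 ∞ (tanW s x.2 y.2) z := (tanB s).smW x.2 y.2
  have w3 : ∀ z, VSm 4 ∞ (fun q => (if x.2 = y.2 then (1:ℝ) else 0) • tanW s x.1 y.1 q) z :=
    fun z => VSm.smul le_rfl contMDiffAt_const (w1 z)
  have w4 : ∀ z, VSm 4 ∞ (fun q => (if x.1 = y.1 then (1:ℝ) else 0) • tanW s x.2 y.2 q) z :=
    fun z => VSm.smul le_rfl contMDiffAt_const (w2 z)
  rw [e0, vg_add h w3 w4, vg_smul h contMDiff_const w1, vg_smul h contMDiff_const w2,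
    fg_const, fg_const]
  congr 1
  · congr 1; split_ifs <;> simp
  · congr 1; split_ifs <;> simp

/-- derivative of `J K_a Jᵀ` -/
lemma JKJ_dj (k : Fin 4) (a : Fin 3) :
    dM (h.frameOf.D k) (JKJ s z e a)
      + (Matrix.of fun A B => vg z e (tanW s A B) k) * JKJ s z e a
      + JKJ s z e a * (Matrix.of fun A B => vg z e (tanW s A B) k)ᵀ
      = ∑ b, asc h.frameOf k b a • JKJ s z e b := by
  have L := (lf_tanB s h).dj k
  change dM (h.frameOf.D k) (tanJ s z e) + (Matrix.of fun A B => vg z e (tanW s A B) k)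
      * tanJ s z e = tanJ s z e * h.frameOf.tan k at L
  set w := (Matrix.of fun A B => vg z e (tanW s A B) k : Matrix κ κ (SG (chartCentre 4 M z)))
  set J := tanJ s z e with hJ
  have hK : dM (h.frameOf.D k) (C2_198.K (SG (chartCentre 4 M z)) a) = 0 := by
    ext i j
    change h.frameOf.D k (C2_198.K (SG (chartCentre 4 M z)) a i j) = 0
    fin_cases a <;> fin_cases i <;> fin_cases j <;> simp [C2_198.K]
  have e1 : ∀ (J' t : Matrix κ (Fin 4) (SG (chartCentre 4 M z)))
      (A : Matrix (Fin 4) (Fin 4) (SG (chartCentre 4 M z))),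
      J' + w * J = t → J' * A * Jᵀ + J * A * J'ᵀ + w * (J * A * Jᵀ) + J * A * Jᵀ * wᵀ
        = t * A * Jᵀ + J * A * tᵀ := by
    intro J' t A ht
    rw [← ht]
    simp only [Matrix.add_mul, Matrix.mul_add, Matrix.transpose_add, Matrix.transpose_mul,
      Matrix.mul_assoc]
    abel
  have e2 : dM (h.frameOf.D k) (JKJ s z e a)
      = dM (h.frameOf.D k) J * C2_198.K (SG (chartCentre 4 M z)) a * Jᵀ
        + J * C2_198.K (SG (chartCentre 4 M z)) a * (dM (h.frameOf.D k) J)ᵀ := by
    rw [JKJ, dM_mul, dM_mul, hK, Matrix.mul_zero, add_zero, dM_transpose]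
  rw [e2]
  have e3 := e1 _ _ (C2_198.K (SG (chartCentre 4 M z)) a) L
  have e4 : J * h.frameOf.tan k * C2_198.K (SG (chartCentre 4 M z)) a * Jᵀ
      + J * C2_198.K (SG (chartCentre 4 M z)) a * (J * h.frameOf.tan k)ᵀ
      = J * (h.frameOf.tan k * C2_198.K (SG (chartCentre 4 M z)) a
        + C2_198.K (SG (chartCentre 4 M z)) a * (h.frameOf.tan k)ᵀ) * Jᵀ := by
    simp only [Matrix.transpose_mul, Matrix.mul_add, Matrix.add_mul, Matrix.mul_assoc]
  rw [e4, tan_K] at e3
  have e5 : J * (∑ b, asc h.frameOf k b a • C2_198.K (SG (chartCentre 4 M z)) b) * Jᵀ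
      = ∑ b, asc h.frameOf k b a • JKJ s z e b := by
    rw [Matrix.mul_sum, Matrix.sum_mul]
    refine Finset.sum_congr rfl fun b _ => ?_
    rw [Matrix.mul_smul, Matrix.smul_mul, JKJ]
  rw [e5] at e3
  exact e3

lemma lam_dj (k : Fin 4) : dM (h.frameOf.D k) (lamJ s z e)
    + (Matrix.of fun x y => vg z e (lamW s x y) k) * lamJ s z e = lamJ s z e * asc h.frameOf k := by
  classical
  ext ⟨A, B⟩ a
  have h1 := congrFun (congrFun (JKJ_dj s h k a) A) B
  have hD : h.frameOf.D k (half : SG (chartCentre 4 M z)) = 0 := by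
    rw [Frame.half]; exact (h.frameOf.D k).map_algebraMap _
  rw [Matrix.add_apply, Matrix.mul_apply, Matrix.mul_apply, Fintype.sum_prod_type]
  rw [Matrix.add_apply, Matrix.add_apply, Matrix.mul_apply, Matrix.mul_apply,
    Matrix.sum_apply] at h1
  simp only [Matrix.smul_apply, smul_eq_mul, Matrix.transpose_apply, Matrix.of_apply] at h1
  have e1 : dM (h.frameOf.D k) (lamJ s z e) (A, B) a = half * dM (h.frameOf.D k) (JKJ s z e a) A B := by
    change h.frameOf.D k (half * JKJ s z e a A B) = half * h.frameOf.D k (JKJ s z e a A B)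
    rw [Frame.D_mul, hD, zero_mul, zero_add]
  have e2 : ∑ C, ∑ D, (Matrix.of fun x y => vg z e (lamW s x y) k) (A, B) (C, D)
      * lamJ s z e (C, D) a = half * (∑ C, vg z e (tanW s A C) k * JKJ s z e a C B
        + ∑ D, JKJ s z e a A D * vg z e (tanW s B D) k) := by
    have e3 : ∀ C D, (Matrix.of fun x y => vg z e (lamW s x y) k) (A, B) (C, D)
      * lamJ s z e (C, D) a = (if B = D then half * (vg z e (tanW s A C) k * JKJ s z e a C D) else 0)
        + (if A = C then half * (JKJ s z e a C D * vg z e (tanW s B D) k) else 0) := by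
      intro C D
      simp only [Matrix.of_apply, vg_lamW s h, lamJ]
      split_ifs <;> ring
    simp only [e3, Finset.sum_add_distrib, Finset.sum_ite_eq, Finset.mem_univ, if_true]
    rw [Finset.sum_comm (f := fun C D => if A = C then half *
      (JKJ s z e a C D * vg z e (tanW s B D) k) else 0)]
    simp only [Finset.sum_ite_eq, Finset.mem_univ, if_true, mul_add, Finset.mul_sum]
  rw [e1, e2]
  have e4 : ∑ b, lamJ s z e (A, B) b * asc h.frameOf k b a
      = half * ∑ b, asc h.frameOf k b a * JKJ s z e b A B := by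
    rw [Finset.mul_sum]
    refine Finset.sum_congr rfl fun b _ => ?_
    simp only [lamJ, Matrix.of_apply]; ring
  rw [e4, ← h1]
  ring

variable (hv : IsVol vol)

include hv in
lemma preLF_lam (hz : VolAt vol z e) :
    PreLF (lamW s) (lamP s vol) h (asc h.frameOf) (lamJ s z e) where
  jtj := lamJ_jtj s h
  jjt := lamJ_jjt s h hv hz
  dj := lam_dj s h

/-- **the bundle `Λ⁻`** -/
def lamB : Bun 4 M (κ × κ) where
  W := lamW s
  p := lamP s vol
  smW := sm_lamW s
  skew := lamW_skew s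
  smp := sm_lamP s hv
  symmp x y z := by
    obtain ⟨e, h, hz⟩ := hv z
    exact (preLF_lam s h hv hz).symmp (sm_lamP s hv) x y
  idem x y z := by
    obtain ⟨e, h, hz⟩ := hv z
    exact (preLF_lam s h hv hz).idem (sm_lamP s hv) x y
  par x y z := by
    obtain ⟨e, h, hz⟩ := hv z
    exact (preLF_lam s h hv hz).par (sm_lamW s) (lamW_skew s) (sm_lamP s hv) x y

/-- **local frame of `Λ⁻`** -/
theorem lf_lamB (hz : VolAt vol z e) : LF (lamB s hv) h (asc h.frameOf) (lamJ s z e) where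
  jtj := lamJ_jtj s h
  jjt := lamJ_jjt s h hv hz
  dj := lam_dj s h

end Crest.Agent.R249.Tz805
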