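import Crest.Agent.R249.Tz5_805
import Crest.Agent.R249.Tt1_286
import Crest.Agent.R249.DenS_714

/-!
Row 249, leaf T0 (helper805), part 6: the Clifford pairs for `G = ℝ` and `G = Λ⁻`.
-/

set_option autoImplicit false
set_option maxSynthPendingDepth 3
set_option linter.unusedSectionVars false
set_option linter.unusedSimpArgs false

open Filter Topology Set Bundle Manifold Matrix
open scoped ContDiff Kronecker
open Crest.GeometryTopology.CoordMetric Crest.GeometryTopology.ChartCurvature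
  Crest.GeometryTopology.PointedLimit
open Crest.Agent.R202.Tens Crest.Agent.R247.Bo84 Crest.Agent.R249.FrmB_285 Crest.Agent.R249.Vf281
  Crest.Agent.R249.Tz1_805 Crest.Agent.R249.Tz2_805
open Crest.Agent.R249.Fr129 Crest.Agent.R249.C2_198
open Crest.Agent.R249.Sg129 hiding fg fg_add fg_sub fg_mul fg_const fg_sum ev_fg contMDiff_inner VSm_mCov
open Crest.Agent.R249.Fr129.Frame (half two_half)
open Crest.Agent.R249.Tt286

noncomputable section

namespace Crest.Agent.R249.Tz805

variable {M : Type*} [TopologicalSpace M] [ChartedSpace (EuclideanSpace ℝ (Fin 4)) M]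
  [IsManifold 𝓘(ℝ, EuclideanSpace ℝ (Fin 4)) ∞ M]
  [RiemannianBundle (fun x : M => TangentSpace 𝓘(ℝ, EuclideanSpace ℝ (Fin 4)) x)]
  [IsContMDiffRiemannianBundle 𝓘(ℝ, EuclideanSpace ℝ (Fin 4)) ∞ (EuclideanSpace ℝ (Fin 4))
      (fun x : M => TangentSpace 𝓘(ℝ, EuclideanSpace ℝ (Fin 4)) x)]

local notation "𝔼" => EuclideanSpace ℝ (Fin 4)
local notation "𝓘E" => 𝓘(ℝ, EuclideanSpace ℝ (Fin 4))

variable {vol : (z : M) → (Fin 4 → TangentSpace 𝓘(ℝ, EuclideanSpace ℝ (Fin 4)) z) → ℝ}
variable {κ : Type} [Fintype κ] (s : PF 4 M κ) (hv : IsVol vol)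

lemma ccR_none (A : κ) : ccR s vol A none = s.s A := rfl

lemma ccR_some (A : κ) (y : κ × κ) :
    ccR s vol A (some y) = fun q => (2:ℝ) • ∑ B, lamP s vol (A, B) y q • s.s B q := by
  funext q
  change 2 • ∑ B, lamP s vol (A, B) y q • s.s B q = _
  rw [two_nsmul, two_smul]

include hv in
lemma sm_ccR_sum (A : κ) (y : κ × κ) (z : M) :
    VSm 4 ∞ (fun q => ∑ B, lamP s vol (A, B) y q • s.s B q) z :=
  VSm.sum _ fun B _ => VSm.smul le_rfl (sm_lamP s hv _ _).contMDiffAt (s.sm B z)

include hv in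
lemma smc_ccR (A : κ) (y : Option (κ × κ)) (z : M) : VSm 4 ∞ (ccR s vol A y) z := by
  cases y with
  | none => exact s.sm A z
  | some y =>
    rw [ccR_some]
    exact VSm.smul le_rfl contMDiffAt_const (sm_ccR_sum s hv A y z)

variable {z : M} {e : Fin 4 → EuclideanSpace ℝ (Fin 4) → EuclideanSpace ℝ (Fin 4)}
  (h : ONF (chartMetric 4 M z) (chartAt (EuclideanSpace ℝ (Fin 4)) z).target
      (chartCentre 4 M z) e)

include hv h in
/-- the symbol on `Λ⁻` -/
lemma vg_ccR_some (hz : VolAt vol z e) (A : κ) (y : κ × κ) (k : Fin 4) :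
    vg z e (ccR s vol A (some y)) k
      = ∑ l, ∑ b, tanJ s z e A l * C2_198.K (SG (chartCentre 4 M z)) b l k * lamJ s z e y b := by
  have h1 : (tanJ s z e)ᵀ * tanJ s z e = 1 := tanJ_jtj s h
  have hB : ∀ B z, VSm 4 ∞ (fun q => lamP s vol (A, B) y q • s.s B q) z := fun B z =>
    VSm.smul le_rfl (sm_lamP s hv _ _).contMDiffAt (s.sm B z)
  have hh := two_half (S := SG (chartCentre 4 M z))
  rw [ccR_some, Dic805.vg_smul h contMDiff_const (sm_ccR_sum s hv A y), Dic805.fg_const,
    Dic805.vg_sum h _ hB, map_ofNat]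
  have e1 : ∀ B, vg z e (fun q => lamP s vol (A, B) y q • s.s B q) k
      = ∑ a, lamJ s z e (A, B) a * lamJ s z e y a * tanJ s z e B k := by
    intro B
    rw [Dic805.vg_smul h (sm_lamP s hv _ _) (s.sm B)]
    have := congrFun (congrFun (lamJ_jjt s h hv hz) (A, B)) y
    rw [Matrix.of_apply] at this
    rw [← this, Matrix.mul_apply, Finset.sum_mul]
    rfl
  rw [Finset.sum_congr rfl fun B _ => e1 B, Finset.sum_comm, Finset.mul_sum]
  rw [Finset.sum_comm (f := fun l b => tanJ s z e A l * C2_198.K (SG (chartCentre 4 M z)) b l k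
    * lamJ s z e y b)]
  refine Finset.sum_congr rfl fun a _ => ?_
  have e2 : ∑ B, JKJ s z e a A B * tanJ s z e B k
      = ∑ l, tanJ s z e A l * C2_198.K (SG (chartCentre 4 M z)) a l k := by
    have e3 : JKJ s z e a * tanJ s z e = tanJ s z e * C2_198.K (SG (chartCentre 4 M z)) a := by
      rw [JKJ, Matrix.mul_assoc, h1, Matrix.mul_one]
    have := congrFun (congrFun e3 A) k
    rw [Matrix.mul_apply, Matrix.mul_apply] at this
    exact this
  have e4 : 2 * ∑ B, lamJ s z e (A, B) a * lamJ s z e y a * tanJ s z e B k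
      = lamJ s z e y a * ∑ B, JKJ s z e a A B * tanJ s z e B k := by
    rw [Finset.mul_sum, Finset.mul_sum]
    refine Finset.sum_congr rfl fun B _ => ?_
    have : lamJ s z e (A, B) a = half * JKJ s z e a A B := rfl
    rw [this]
    linear_combination (lamJ s z e y a * JKJ s z e a A B * tanJ s z e B k) * hh
  rw [e4, e2, Finset.mul_sum]
  exact Finset.sum_congr rfl fun l _ => by ring

/-- **the symbol of `D : ℝ ⊕ Λ⁻ → T` in local frames** -/
theorem cloc_R (hz : VolAt vol z e) :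
    CLoc (bopt (lamB s hv)) (tanB s) (ccR s vol) h (e0 h.frameOf) h.frameOf.tan
      (cK (SG (chartCentre 4 M z))) (jopt (lamJ s z e)) (tanJ s z e) where
  l0 := lf_opt (lf_lamB s h hv hz)
  l1 := lf_tanB s h
  par := par_cK h.frameOf
  cl0 := clif0 _
  cl1 := clif1 _
  sym := by
    intro A y k
    rw [Matrix.mul_apply]
    cases y with
    | none =>
      simp only [Matrix.transpose_apply, jopt_none]
      simp only [mul_ite, mul_one, mul_zero, Finset.sum_ite_eq', Finset.mem_univ, if_true]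
      rw [Matrix.mul_apply]
      have : ∀ l, cK (SG (chartCentre 4 M z)) k l 0 = if l = k then 1 else 0 := by
        intro l
        change KK (SG (chartCentre 4 M z)) 0 l k = _
        simp [KK, Matrix.one_apply]
      simp only [this, mul_ite, mul_one, mul_zero, Finset.sum_ite_eq', Finset.mem_univ, if_true]
      rfl
    | some y =>
      have e1 : ∑ j, (tanJ s z e * cK (SG (chartCentre 4 M z)) k) A j
            * (jopt (lamJ s z e))ᵀ j (some y)
          = ∑ b : Fin 3, (tanJ s z e * cK (SG (chartCentre 4 M z)) k) A b.succ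
            * lamJ s z e y b := by
        rw [Fin.sum_univ_succ]
        simp only [Matrix.transpose_apply, jopt_zero, mul_zero, zero_add, jopt_succ]
      rw [vg_ccR_some s hv h hz, e1, Finset.sum_comm]
      apply Finset.sum_congr rfl
      intro b _
      rw [Matrix.mul_apply, Finset.sum_mul]
      refine Finset.sum_congr rfl fun l _ => ?_
      congr 2

/-- **the twisted symbol in local frames** -/
theorem cloc_L (hz : VolAt vol z e) :
    CLoc (btens (bopt (lamB s hv)) (lamB s hv)) (btens (tanB s) (lamB s hv))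
      (ccT (ccR s vol) (lamP s vol)) h (Frame.tens (e0 h.frameOf) (asc h.frameOf))
      (Frame.tens h.frameOf.tan (asc h.frameOf)) (tw (cK (SG (chartCentre 4 M z))))
      (jopt (lamJ s z e) ⊗ₖ lamJ s z e) (tanJ s z e ⊗ₖ lamJ s z e) :=
  cloc_tw (smc_ccR s hv) (cloc_R s hv h hz) (lf_lamB s h hv hz)

include hv in
lemma smc_ccT (x : κ × (κ × κ)) (y : Option (κ × κ) × (κ × κ)) (z : M) :
    VSm 4 ∞ (ccT (ccR s vol) (lamP s vol) x y) z :=
  VSm.smul le_rfl (sm_lamP s hv _ _).contMDiffAt (smc_ccR s hv _ _ z)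

/-- **the Clifford pair for `G = ℝ`** -/
def pairR : CPair 4 M κ (Option (κ × κ)) κ where
  s := s
  D0 := bopt (lamB s hv)
  D1 := tanB s
  cc := ccR s vol
  smc := smc_ccR s hv
  loc z := by
    obtain ⟨e, h, hz⟩ := hv z
    exact ⟨e, h, _, _, _, _, _, _, _, _, _, _, _, cloc_R s hv h hz⟩
  sym0 y y' z := by
    obtain ⟨e, h, hz⟩ := hv z
    exact HK9_714.potQ_symm0 s (smc_ccR s hv) (cloc_R s hv h hz) y y'
  sym1 x x' z := by
    obtain ⟨e, h, hz⟩ := hv z
    exact HK9_714.potQ_symm1 s (smc_ccR s hv) (cloc_R s hv h hz) x x'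

/-- **the Clifford pair for `G = Λ⁻`** -/
def pairL : CPair 4 M κ (Option (κ × κ) × (κ × κ)) (κ × (κ × κ)) where
  s := s
  D0 := btens (bopt (lamB s hv)) (lamB s hv)
  D1 := btens (tanB s) (lamB s hv)
  cc := ccT (ccR s vol) (lamP s vol)
  smc := smc_ccT s hv
  loc z := by
    obtain ⟨e, h, hz⟩ := hv z
    exact ⟨e, h, _, _, _, _, _, _, _, _, _, _, _, cloc_L s hv h hz⟩
  sym0 y y' z := by
    obtain ⟨e, h, hz⟩ := hv z
    exact HK9_714.potQ_symm0 s (smc_ccT s hv) (cloc_L s hv h hz) y y'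
  sym1 x x' z := by
    obtain ⟨e, h, hz⟩ := hv z
    exact HK9_714.potQ_symm1 s (smc_ccT s hv) (cloc_L s hv h hz) x x'

/-- the frame `(1 ⊕ j) ⊗ j` on the part `f` of `u = (f, s)` -/
lemma frameL_none (y : κ × κ) (a : Fin 4) (b : Fin 3) :
    (jopt (lamJ s z e) ⊗ₖ lamJ s z e) (none, y) (a, b) = if a = 0 then lamJ s z e y b else 0 := by
  rw [Matrix.kroneckerMap_apply, jopt_none]
  split_ifs <;> simp

end Crest.Agent.R249.Tz805
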