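import Crest.Agent.R247.Opn_79

/-!
# R249, D3-LIM/L-UH (helper544), part 1: near isometries of metric spaces into `ℝⁿ`

* `NI G q R ε`   : `|dist (G x) (G z) - dist x z| ≤ ε * dist x z` for `x, z` in `ball q R`;
* `Full G q R ε` : the image of every ball `ball x s ⊆ ball q R` contains `ball (G x) ((1 - ε) s)`;
* `VolLow q R n ε` : every ball `ball z s ⊆ ball q R` has volume `≥ (1 - ε) ω_n s^n` (the hypothesis
  `hvol` of `Opn79.chart_of_near`); `VolUp` : the upper bound;
* `NI.full` : `NI` and `VolLow` imply `Full`; `Full.volLow`, `NI.volUp` : the converse;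
* `num` : the numerical lemma.
-/

set_option autoImplicit false
noncomputable section
open Set Filter Topology Metric MeasureTheory
open scoped ENNReal NNReal MeasureTheory

namespace Crest.Agent.R249.UH1_544

open Crest.Agent.R247.Opn79 (E vol_ball)

section defs

variable {n : ℕ} {X : Type*} [MetricSpace X]

/-- `G` is a near isometry on the ball of radius `R` about `q` -/
def NI (G : X → E n) (q : X) (R ε : ℝ) : Prop :=
  ∀ x z : X, dist q x < R → dist q z < R → |dist (G x) (G z) - dist x z| ≤ ε * dist x z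

/-- the images of balls contain the slightly smaller balls -/
def Full (G : X → E n) (q : X) (R ε : ℝ) : Prop :=
  ∀ (x : X) (s : ℝ), 0 < s → (∀ y, dist x y < s → dist q y < R) →
    ∀ y, dist (G x) y < (1 - ε) * s → ∃ z, dist x z < s ∧ G z = y

/-- lower volume bound for the balls contained in the ball of radius `R` about `q` -/
def VolLow [MeasurableSpace X] [BorelSpace X] (q : X) (R : ℝ) (n : ℕ) (ε : ℝ) : Prop :=
  ∀ (z : X) (s : ℝ), 0 < s → (∀ x, dist z x < s → dist q x < R) →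
    ENNReal.ofReal (1 - ε) * volume (ball (0 : E n) s) ≤ μHE[n] (ball z s)

/-- upper volume bound for the balls contained in the ball of radius `R` about `q` -/
def VolUp [MeasurableSpace X] [BorelSpace X] (q : X) (R : ℝ) (n : ℕ) (ε : ℝ) : Prop :=
  ∀ (z : X) (s : ℝ), 0 < s → (∀ x, dist z x < s → dist q x < R) →
    μHE[n] (ball z s) ≤ ENNReal.ofReal (1 + ε) * volume (ball (0 : E n) s)

theorem NI.mono {G : X → E n} {q : X} {R R' ε ε' : ℝ} (h : NI G q R ε) (hR : R' ≤ R)
    (hε : ε ≤ ε') : NI G q R' ε' := fun x z hx hz =>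
  (h x z (hx.trans_le hR) (hz.trans_le hR)).trans (mul_le_mul_of_nonneg_right hε dist_nonneg)

theorem NI.of_subset {G : X → E n} {q q' : X} {R R' ε : ℝ} (h : NI G q R ε)
    (hq : ∀ y, dist q' y < R' → dist q y < R) : NI G q' R' ε := fun x z hx hz =>
  h x z (hq x hx) (hq z hz)

theorem NI.le {G : X → E n} {q : X} {R ε : ℝ} (h : NI G q R ε) {x z : X} (hx : dist q x < R)
    (hz : dist q z < R) : dist (G x) (G z) ≤ (1 + ε) * dist x z := by
  have := (abs_le.1 (h x z hx hz)).2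
  linarith

theorem NI.ge {G : X → E n} {q : X} {R ε : ℝ} (h : NI G q R ε) {x z : X} (hx : dist q x < R)
    (hz : dist q z < R) : (1 - ε) * dist x z ≤ dist (G x) (G z) := by
  have := (abs_le.1 (h x z hx hz)).1
  linarith

theorem NI.injOn {G : X → E n} {q : X} {R ε : ℝ} (h : NI G q R ε) (hε : ε < 1) {x z : X}
    (hx : dist q x < R) (hz : dist q z < R) (hxz : G x = G z) : x = z := by
  have h1 := h.ge hx hz
  rw [hxz, dist_self] at h1
  have h2 : dist x z ≤ 0 := by
    by_contra hc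
    push Not at hc
    nlinarith
  exact dist_le_zero.1 h2

theorem Full.mono {G : X → E n} {q : X} {R R' ε ε' : ℝ} (h : Full G q R ε) (hR : R' ≤ R)
    (hε : ε ≤ ε') : Full G q R' ε' := fun x s hs hb y hy =>
  h x s hs (fun z hz => (hb z hz).trans_le hR) y (hy.trans_le (by nlinarith))

theorem VolLow.mono [MeasurableSpace X] [BorelSpace X] {q : X} {R R' ε ε' : ℝ}
    (h : VolLow q R n ε) (hR : R' ≤ R) (hε : ε ≤ ε') : VolLow q R' n ε' := fun z s hs hb => by
  refine le_trans ?_ (h z s hs fun x hx => (hb x hx).trans_le hR)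
  gcongr

theorem VolUp.mono [MeasurableSpace X] [BorelSpace X] {q : X} {R R' ε ε' : ℝ}
    (h : VolUp q R n ε) (hR : R' ≤ R) (hε : ε ≤ ε') : VolUp q R' n ε' := fun z s hs hb => by
  refine (h z s hs fun x hx => (hb x hx).trans_le hR).trans ?_
  gcongr

end defs

section full

variable {n : ℕ} {X : Type*} [MetricSpace X] [MeasurableSpace X] [BorelSpace X]

/-- **images of balls contain balls** -/
theorem NI.full [CompleteSpace X] {G : X → E n} {q : X} {R ε : ℝ} (hε : 0 ≤ ε) (hε1 : ε < 1)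
    (hnum : (1 + ε) ^ n < (1 - ε) * (1 - ε) ^ n + (1 / 4) ^ n)
    (hG : NI G q R ε) (hvol : VolLow q R n ε) : Full G q R ε := by
  intro x s hs hb y hy
  have h1ε : 0 < 1 - ε := by linarith
  set D := dist (G x) y with hD
  have hD0 : 0 ≤ D := dist_nonneg
  set s' := D / (1 - ε) with hs'
  have hs's : s' < s := by
    rw [hs', div_lt_iff₀ h1ε]
    linarith
  have hs'0 : 0 ≤ s' := by positivity
  set τ := (s - s') / 8 with hτ
  have hτ0 : 0 < τ := by
    rw [hτ]
    linarith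
  have hxx : dist x x < s := by rw [dist_self]; exact hs
  -- everything restricted to `ball x s`
  have hG' : NI G x s ε := hG.of_subset hb
  have hvol' : ∀ z r, 0 < r → (∀ w, dist z w < r → dist x w < s) →
      ENNReal.ofReal (1 - ε) * volume (ball (0 : E n) r) ≤ μHE[n] (ball z r) :=
    fun z r hr hz => hvol z r hr fun w hw => hb w (hz w hw)
  obtain ⟨N, hN⟩ := exists_nat_gt (D / τ)
  have hN0 : (0 : ℝ) < N := lt_of_le_of_lt (by positivity) hN
  have hDN : D / N ≤ τ := by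
    rw [div_lt_iff₀ hτ0] at hN
    rw [div_le_iff₀ hN0]
    linarith
  set γ : ℕ → E n := fun k => AffineMap.lineMap (G x) y ((k : ℝ) / N) with hγ
  have hγx : ∀ k : ℕ, dist (G x) (γ k) = (k : ℝ) / N * D := by
    intro k
    simp only [hγ]
    rw [dist_left_lineMap, Real.norm_of_nonneg (by positivity)]
  have hγγ : ∀ k : ℕ, dist (γ k) (γ (k + 1)) = D / N := by
    intro k
    simp only [hγ]
    rw [dist_lineMap_lineMap, Real.dist_eq]
    have : (k : ℝ) / N - ((k + 1 : ℕ) : ℝ) / N = -(1 / N) := by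
      push_cast
      ring
    rw [this, abs_neg, abs_of_pos (by positivity)]
    ring
  have key : ∀ k : ℕ, k ≤ N → ∃ z, dist x z ≤ s' ∧ G z = γ k := by
    intro k
    induction k with
    | zero =>
      intro _
      refine ⟨x, by rw [dist_self]; exact hs'0, ?_⟩
      simp [hγ]
    | succ k ih =>
      intro hk
      obtain ⟨z, hz1, hz2⟩ := ih (by omega)
      obtain ⟨z', hz3, hz4⟩ := Crest.Agent.R247.Opn79.surj (G := G) (q := x) (R := s) (ε := ε)
        hε hε1 hnum hG' hvol' (x := z) (y := γ (k + 1)) (t := τ) hτ0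
        (by rw [hτ]; linarith) (by rw [hz2, hγγ]; exact hDN)
      have h5 : dist x z' < s := by
        have := dist_triangle x z z'
        have h6 : 4 * τ < s - s' := by rw [hτ]; linarith
        linarith
      refine ⟨z', ?_, hz4⟩
      have h6 := hG'.ge hxx h5
      rw [hz4, hγx] at h6
      rw [hs', le_div_iff₀ h1ε]
      have h7 : ((k + 1 : ℕ) : ℝ) / N ≤ 1 := by
        rw [div_le_one hN0]
        exact_mod_cast hk
      nlinarith
  obtain ⟨z, hz1, hz2⟩ := key N le_rfl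
  refine ⟨z, hz1.trans_lt hs's, ?_⟩
  rw [hz2]
  simp [hγ, div_self hN0.ne']

/-- Lipschitz images -/
theorem vol_image_le (F : X → E n) (S : Set X) (K : ℝ≥0)
    (h : ∀ x ∈ S, ∀ z ∈ S, dist (F x) (F z) ≤ K * dist x z) :
    volume (F '' S) ≤ (K : ℝ≥0∞) ^ n * μHE[n] S := by
  have hL : LipschitzOnWith K F S := LipschitzOnWith.of_dist_le_mul h
  have h1 := hL.hausdorffMeasure_image_le (d := (n : ℝ)) (by positivity)
  rw [← EuclideanSpace.euclideanHausdorffMeasure_eq_volume n]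
  simp_rw [MeasureTheory.Measure.euclideanHausdorffMeasure_def, Measure.smul_apply,
    ENNReal.smul_def, smul_eq_mul]
  rw [mul_left_comm]
  gcongr
  simpa using h1

/-- lower volume bound -/
theorem NI.vol_ge {G : X → E n} {q : X} {R ε : ℝ} (hε : 0 ≤ ε) (hε1 : ε < 1)
    (hG : NI G q R ε) (hF : Full G q R ε) {z : X} {s : ℝ} (hs : 0 < s)
    (hb : ∀ x, dist z x < s → dist q x < R) :
    ENNReal.ofReal ((1 - ε) ^ n / (1 + ε) ^ n) * volume (ball (0 : E n) s) ≤ μHE[n] (ball z s) := by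
  have h1ε : 0 < 1 - ε := by linarith
  have h1ε' : 0 < 1 + ε := by linarith
  have h1 : ball (G z) ((1 - ε) * s) ⊆ G '' ball z s := by
    intro y hy
    rw [mem_ball, dist_comm] at hy
    obtain ⟨w, hw, rfl⟩ := hF z s hs hb y hy
    exact ⟨w, by rw [mem_ball, dist_comm]; exact hw, rfl⟩
  set K : ℝ≥0 := ⟨1 + ε, h1ε'.le⟩ with hK
  have h2 := vol_image_le G (ball z s) K (fun x hx y hy => by
    rw [mem_ball, dist_comm] at hx hy
    exact hG.le (hb x hx) (hb y hy))
  have h3 := (measure_mono (μ := volume) h1).trans h2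
  rw [vol_ball _ (by positivity)] at h3
  rw [vol_ball _ hs]
  have h4 : (K : ℝ≥0∞) = ENNReal.ofReal (1 + ε) :=
    (ENNReal.ofReal_eq_coe_nnreal h1ε'.le).symm
  rw [h4, ← ENNReal.ofReal_pow h1ε'.le] at h3
  have h5 : ENNReal.ofReal ((1 - ε) ^ n / (1 + ε) ^ n) =
      (ENNReal.ofReal ((1 + ε) ^ n))⁻¹ * ENNReal.ofReal ((1 - ε) ^ n) := by
    rw [div_eq_inv_mul, ENNReal.ofReal_mul (by positivity), ENNReal.ofReal_inv_of_pos (by positivity)]
  have h6 : ENNReal.ofReal ((1 + ε) ^ n) ≠ 0 := by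
    rw [Ne, ENNReal.ofReal_eq_zero, not_le]
    positivity
  rw [h5, mul_assoc, ENNReal.inv_mul_le_iff h6 ENNReal.ofReal_ne_top]
  refine le_trans (le_of_eq ?_) h3
  rw [mul_pow, ENNReal.ofReal_mul (by positivity)]
  ring

/-- upper volume bound -/
theorem NI.vol_le {G : X → E n} {q : X} {R ε : ℝ} (hε : 0 ≤ ε) (hε1 : ε < 1)
    (hG : NI G q R ε) {z : X} {s : ℝ} (hs : 0 < s)
    (hb : ∀ x, dist z x < s → dist q x < R) :
    μHE[n] (ball z s) ≤ ENNReal.ofReal ((1 + ε) ^ n / (1 - ε) ^ n) * volume (ball (0 : E n) s) := by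
  have h1ε : 0 < 1 - ε := by linarith
  have h1ε' : 0 < 1 + ε := by linarith
  have h1 : G '' ball z s ⊆ ball (G z) ((1 + ε) * s) := by
    rintro _ ⟨x, hx, rfl⟩
    rw [mem_ball] at hx ⊢
    have hx' : dist z x < s := by rw [dist_comm]; exact hx
    have := hG.le (hb x hx') (hb z (by rw [dist_self]; exact hs))
    refine this.trans_lt ?_
    gcongr
  have hKp : 0 ≤ (1 - ε)⁻¹ := by positivity
  set K : ℝ≥0 := ⟨(1 - ε)⁻¹, hKp⟩ with hK
  have h2 := Crest.Agent.R247.Opn79.vol_le G (ball z s) K (fun x hx y hy => by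
    rw [mem_ball, dist_comm] at hx hy
    have := hG.ge (hb x hx) (hb y hy)
    change dist x y ≤ (1 - ε)⁻¹ * dist (G x) (G y)
    rw [inv_mul_eq_div, le_div_iff₀ h1ε]
    linarith)
  refine h2.trans ?_
  have h3 := measure_mono (μ := volume) h1
  rw [vol_ball _ (by positivity)] at h3
  rw [vol_ball _ hs]
  have h4 : (K : ℝ≥0∞) = ENNReal.ofReal ((1 - ε)⁻¹) :=
    (ENNReal.ofReal_eq_coe_nnreal hKp).symm
  rw [h4, ← ENNReal.ofReal_pow (by positivity)]
  calc _ ≤ ENNReal.ofReal ((1 - ε)⁻¹ ^ n) * (ENNReal.ofReal (((1 + ε) * s) ^ n) *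
        volume (ball (0 : E n) 1)) := by gcongr
    _ = _ := by
      rw [← mul_assoc, ← mul_assoc, ← ENNReal.ofReal_mul (by positivity),
        ← ENNReal.ofReal_mul (by positivity)]
      congr 2
      rw [mul_pow, inv_pow]
      field_simp

/-- the numerical lemma -/
theorem num (n : ℕ) (η : ℝ) (hη : 0 < η) : ∃ ε₀ : ℝ, 0 < ε₀ ∧ ε₀ ≤ 1 / 2 ∧ ε₀ ≤ η ∧
    ∀ ε, 0 ≤ ε → ε ≤ ε₀ → (1 + ε) ^ n < (1 - ε) * (1 - ε) ^ n + (1 / 4) ^ n ∧
      1 - η ≤ (1 - ε) ^ n / (1 + ε) ^ n ∧ (1 + ε) ^ n / (1 - ε) ^ n ≤ 1 + η := by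
  obtain ⟨ε₁, h1, h2, h3⟩ := Crest.Agent.R247.Opn79.num n
  have hc1 : ContinuousAt (fun ε : ℝ => (1 - ε) ^ n / (1 + ε) ^ n) 0 := by
    refine ContinuousAt.div (by fun_prop) (by fun_prop) ?_
    simp
  have hc2 : ContinuousAt (fun ε : ℝ => (1 + ε) ^ n / (1 - ε) ^ n) 0 := by
    refine ContinuousAt.div (by fun_prop) (by fun_prop) ?_
    simp
  have e1 : ∀ᶠ ε : ℝ in 𝓝 0, 1 - η < (1 - ε) ^ n / (1 + ε) ^ n :=
    hc1.eventually_const_lt (by simpa using hη)
  have e2 : ∀ᶠ ε : ℝ in 𝓝 0, (1 + ε) ^ n / (1 - ε) ^ n < 1 + η :=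
    hc2.eventually_lt_const (by simpa using hη)
  obtain ⟨r, hr, h4⟩ := Metric.eventually_nhds_iff.1 (e1.and e2)
  refine ⟨min (min ε₁ (r / 2)) η, by positivity, ?_, min_le_right _ _, ?_⟩
  · exact (min_le_left _ _).trans ((min_le_left _ _).trans h2)
  · intro ε h5 h6
    have h7 : ε ≤ ε₁ := h6.trans ((min_le_left _ _).trans (min_le_left _ _))
    have h8 : ε ≤ r / 2 := h6.trans ((min_le_left _ _).trans (min_le_right _ _))
    have h9 : dist ε 0 < r := by
      rw [Real.dist_eq, sub_zero, abs_of_nonneg h5]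
      linarith
    exact ⟨h3 ε h5 h7, (h4 h9).1.le, (h4 h9).2.le⟩

end full

end Crest.Agent.R249.UH1_544
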