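import Crest.Agent.R249.Ul3_174
import Crest.Agent.R247.Bgr3_546
import Crest.Agent.R247.Ms10_322

/-!
# R249 (helper174): ultralimits (4): Gromov precompactness for `Ric ≥ -κ`

* `pack_of_ricci` : complete connected Riemannian `n`-manifolds with `Ric ≥ -κ` satisfy `Pack q`;
* `mid_of_riemannian` : they have intermediate points, so does `UL q`.
-/

set_option autoImplicit false
noncomputable section
open Set Filter Topology Metric MeasureTheory
open scoped ContDiff Manifold ENNReal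
open Bundle Crest.GeometryTopology.CoordMetric Crest.GeometryTopology.ChartCurvature
  Crest.GeometryTopology.PointedLimit

namespace Crest.Agent.R249.Ul174

universe u

open Crest.Agent.R247

/-- intermediate points in a complete connected Riemannian manifold -/
theorem mid_of_riemannian (n : ℕ) (M : Type*) [MetricSpace M] [CompleteSpace M]
    [ConnectedSpace M] [ChartedSpace (EuclideanSpace ℝ (Fin n)) M]
    [IsManifold 𝓘(ℝ, EuclideanSpace ℝ (Fin n)) ∞ M]
    [RiemannianBundle (fun x : M => TangentSpace 𝓘(ℝ, EuclideanSpace ℝ (Fin n)) x)]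
    [IsContMDiffRiemannianBundle 𝓘(ℝ, EuclideanSpace ℝ (Fin n)) ∞ (EuclideanSpace ℝ (Fin n))
      (fun x : M => TangentSpace 𝓘(ℝ, EuclideanSpace ℝ (Fin n)) x)]
    [IsRiemannianManifold 𝓘(ℝ, EuclideanSpace ℝ (Fin n)) M] : Mid M :=
  Bgr546.exMid_of_riemannian n M

/-- balls of a Riemannian manifold have positive volume -/
theorem ball_ne_zero (n : ℕ) (M : Type*) [MetricSpace M] [CompleteSpace M]
    [ConnectedSpace M] [ChartedSpace (EuclideanSpace ℝ (Fin n)) M]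
    [IsManifold 𝓘(ℝ, EuclideanSpace ℝ (Fin n)) ∞ M]
    [RiemannianBundle (fun x : M => TangentSpace 𝓘(ℝ, EuclideanSpace ℝ (Fin n)) x)]
    [IsContMDiffRiemannianBundle 𝓘(ℝ, EuclideanSpace ℝ (Fin n)) ∞ (EuclideanSpace ℝ (Fin n))
      (fun x : M => TangentSpace 𝓘(ℝ, EuclideanSpace ℝ (Fin n)) x)]
    [IsRiemannianManifold 𝓘(ℝ, EuclideanSpace ℝ (Fin n)) M] [MeasurableSpace M] [BorelSpace M]
    (x : M) {r : ℝ} (hr : 0 < r) : (μHE[n] : Measure M) (ball x r) ≠ 0 := by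
  have := Ms322.isOpenPosMeasure n M
  exact (measure_ball_pos _ x hr).ne'

/-- packing bound on one manifold -/
theorem card_le_of_ricci {n : ℕ} {κ : ℝ} (hκ : 0 ≤ κ) (M : Type u) [MetricSpace M]
    [CompleteSpace M] [ConnectedSpace M] [ChartedSpace (EuclideanSpace ℝ (Fin n)) M]
    [IsManifold 𝓘(ℝ, EuclideanSpace ℝ (Fin n)) ∞ M]
    [RiemannianBundle (fun x : M => TangentSpace 𝓘(ℝ, EuclideanSpace ℝ (Fin n)) x)]
    [IsContMDiffRiemannianBundle 𝓘(ℝ, EuclideanSpace ℝ (Fin n)) ∞ (EuclideanSpace ℝ (Fin n))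
      (fun x : M => TangentSpace 𝓘(ℝ, EuclideanSpace ℝ (Fin n)) x)]
    [IsRiemannianManifold 𝓘(ℝ, EuclideanSpace ℝ (Fin n)) M]
    (hRic : HasRicciLowerBound n M (-κ)) (x : M) {R ε : ℝ} (hε : 0 < ε) (hR : ε / 2 ≤ R)
    (s : Finset M) (hs : ∀ y ∈ s, dist x y < R) (hsep : Sep ε s) :
    (s.card : ℝ) ≤ Real.exp (κ * (3 * R) ^ 2 / 2) * (3 * R / (ε / 2)) ^ n := by
  let _ : MeasurableSpace M := borel M
  have : BorelSpace M := ⟨rfl⟩
  obtain ⟨C⟩ := Bgr546.rad_all n κ hκ M hRic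
  have hR0 : 0 < R := by linarith
  refine C.packing hκ x (by positivity) hR (ball_ne_zero n M x (by positivity))
    (GluM923.ball_lt_top n M x _).ne s hs ?_
  intro y hy z hz hyz
  have := hsep y hy z hz hyz
  linarith

/-- **Gromov precompactness**: uniform packing bounds for `Ric ≥ -κ`. -/
theorem pack_of_ricci {n : ℕ} {κ : ℝ} (hκ : 0 ≤ κ) {M : ℕ → Type u} [∀ k, MetricSpace (M k)]
    [∀ k, CompleteSpace (M k)] [∀ k, ConnectedSpace (M k)]
    [∀ k, ChartedSpace (EuclideanSpace ℝ (Fin n)) (M k)]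
    [∀ k, IsManifold 𝓘(ℝ, EuclideanSpace ℝ (Fin n)) ∞ (M k)]
    [∀ k, RiemannianBundle (fun x : M k => TangentSpace 𝓘(ℝ, EuclideanSpace ℝ (Fin n)) x)]
    [∀ k, IsContMDiffRiemannianBundle 𝓘(ℝ, EuclideanSpace ℝ (Fin n)) ∞ (EuclideanSpace ℝ (Fin n))
      (fun x : M k => TangentSpace 𝓘(ℝ, EuclideanSpace ℝ (Fin n)) x)]
    [∀ k, IsRiemannianManifold 𝓘(ℝ, EuclideanSpace ℝ (Fin n)) (M k)] (q : ∀ k, M k)
    (hRic : ∀ᶠ k in om, HasRicciLowerBound n (M k) (-κ)) : Pack q := by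
  intro R ε hε
  set R' : ℝ := max R 0 + ε with hR'
  have h0 : (0:ℝ) ≤ max R 0 := le_max_right _ _
  obtain ⟨N, hN⟩ := exists_nat_ge
    (Real.exp (κ * (3 * R') ^ 2 / 2) * (3 * R' / (ε / 2)) ^ n)
  refine ⟨N, ?_⟩
  filter_upwards [hRic] with k hk s hs1 hs2
  have h1 := card_le_of_ricci hκ (M k) hk (q k) hε (R := R') (by linarith) s
    (fun y hy => by
      have := hs1 y hy
      have h2 : R ≤ max R 0 := le_max_left _ _
      linarith) hs2
  exact_mod_cast h1.trans hN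

end Crest.Agent.R249.Ul174
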