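import Crest.Agent.R249.UH1_544
import Crest.Agent.R249.Near_274
import Crest.Agent.R249.Ul4_174
import Crest.Agent.R247.Asm3_951

/-!
# R249, D3-LIM/L-UH (helper544), part 2: one manifold

`chart_man` : volume pinching `≥ (1 - δ) ω_n r^n` for `x ∈ ball q a`, `r ≤ b` and `Ric ≥ -δ` give, on a
ball of radius `ρ(η, a, b, n)`, a map `G` to `ℝⁿ` which is an `η`-near isometry at all scales, the
images of balls contain balls, and the volumes of the balls are Euclidean up to the factors `1 ± η`.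
-/

set_option autoImplicit false
noncomputable section
open Set Filter Topology MeasureTheory Metric
open scoped ContDiff Manifold ENNReal NNReal
open Bundle Crest.GeometryTopology.CoordMetric Crest.GeometryTopology.ChartCurvature
  Crest.GeometryTopology.PointedLimit

namespace Crest.Agent.R249.UH2_544

universe u

open Crest.Agent.R247 Crest.Agent.R249.UH1_544
open Crest.Agent.R247.Scal386

/-- unit scale version -/
theorem chart_unit (n : ℕ) (ε₀ : ℝ) (hε₀ : 0 < ε₀) (hε₀1 : ε₀ ≤ 1 / 2)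
    (hnum : (1 + ε₀) ^ n < (1 - ε₀) * (1 - ε₀) ^ n + (1 / 4) ^ n) :
    ∃ ρ : ℝ, 0 < ρ ∧ ∃ R₀ : ℝ, 1 ≤ R₀ ∧ ∃ δ : ℝ, 0 < δ ∧
    ∀ (M : Type u) [MetricSpace M] [CompleteSpace M] [ConnectedSpace M]
      [ChartedSpace (EuclideanSpace ℝ (Fin n)) M]
      [IsManifold 𝓘(ℝ, EuclideanSpace ℝ (Fin n)) ∞ M]
      [RiemannianBundle (fun x : M => TangentSpace 𝓘(ℝ, EuclideanSpace ℝ (Fin n)) x)]
      [IsContMDiffRiemannianBundle 𝓘(ℝ, EuclideanSpace ℝ (Fin n)) ∞ (EuclideanSpace ℝ (Fin n))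
        (fun x : M => TangentSpace 𝓘(ℝ, EuclideanSpace ℝ (Fin n)) x)]
      [IsRiemannianManifold 𝓘(ℝ, EuclideanSpace ℝ (Fin n)) M]
      [MeasurableSpace M] [BorelSpace M] (q : M),
      HasRicciLowerBound n M (-δ) →
      (∀ x ∈ ball q R₀, ∀ r : ℝ, 0 < r → r ≤ 40 →
        ENNReal.ofReal (1 - δ) * volume (ball (0 : EuclideanSpace ℝ (Fin n)) r) ≤
          Measure.euclideanHausdorffMeasure n (ball x r)) →
      ∃ G : M → EuclideanSpace ℝ (Fin n), NI G q ρ ε₀ ∧ Full G q ρ ε₀ := by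
  obtain ⟨c, hc, H⟩ := Near_274.nearIso40.{u} n
  obtain ⟨ρ₀, hρ₀, hρ₀1, R₀, hR₀, δ, hδ, H⟩ := H ε₀ hε₀
  set δ' : ℝ := min (min δ (1 / 4)) ε₀ with hδ'
  have hδ'0 : 0 < δ' := by positivity
  have hδ'1 : δ' ≤ δ := (min_le_left _ _).trans (min_le_left _ _)
  have hδ'2 : δ' ≤ 1 / 4 := (min_le_left _ _).trans (min_le_right _ _)
  have hδ'3 : δ' ≤ ε₀ := min_le_right _ _
  set R' : ℝ := min (4 * ρ₀) (1 / 8) with hR'
  have hR'0 : 0 < R' := by positivity
  have hR'1 : R' ≤ 1 / 8 := min_le_right _ _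
  have hR'2 : R' ≤ 4 * ρ₀ := min_le_left _ _
  refine ⟨R', hR'0, R₀, hR₀, δ', hδ'0, ?_⟩
  intro M _ _ _ _ _ _ _ _ _ _ q hRic hvol
  have hRicδ := Asm951.ricci_mono (by linarith : -δ ≤ -δ') hRic
  have hvolδ : ∀ x ∈ ball q R₀, ∀ r : ℝ, 0 < r → r ≤ 40 →
      ENNReal.ofReal (1 - δ) * volume (ball (0 : EuclideanSpace ℝ (Fin n)) r) ≤
        Measure.euclideanHausdorffMeasure n (ball x r) := by
    intro x hx r hr hr1
    refine le_trans ?_ (hvol x hx r hr hr1)
    gcongr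
  obtain ⟨F, hF⟩ := H M q hRicδ hvolδ
  have hF' : ∀ x z, dist q x < R' → dist q z < R' →
      |c * dist (F x) (F z) - dist x z| ≤ ε₀ * dist x z := by
    intro x z hx hz
    refine hF x ?_ z ?_ <;> rw [mem_ball, dist_comm] <;> linarith
  have hlow : VolLow q R' n ε₀ := by
    intro z s hs hzs
    have hzq : dist q z < R' := hzs z (by simpa using hs)
    have hzR : z ∈ ball q R₀ := by
      rw [mem_ball, dist_comm]
      linarith
    have hle : ENNReal.ofReal (1 - ε₀) ≤ ENNReal.ofReal (1 - δ') :=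
      ENNReal.ofReal_le_ofReal (by linarith)
    rcases Nat.eq_zero_or_pos n with hn | hn
    · -- dimension 0
      rcases le_or_gt s 1 with h1 | h1
      · exact (mul_le_mul_left hle _).trans (hvol z hzR s hs (by linarith))
      · have h2 := hvol z hzR 1 one_pos (by norm_num)
        have h3 : volume (ball (0 : EuclideanSpace ℝ (Fin n)) s) =
            volume (ball (0 : EuclideanSpace ℝ (Fin n)) 1) := by
          rw [Opn79.vol_ball _ hs, hn]
          simp
        change ENNReal.ofReal (1 - ε₀) * volume (ball (0 : EuclideanSpace ℝ (Fin n)) s) ≤ _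
        rw [h3]
        exact (mul_le_mul_left hle _).trans (h2.trans (measure_mono (ball_subset_ball h1.le)))
    · have h1 : s < 1 := GluM923.radius_lt_one hn.ne' hc hε₀.le hε₀1 hδ'2 hR'0 hR'1 hF' hzs
        (hvol z hzR 1 one_pos (by norm_num))
      exact (mul_le_mul_left hle _).trans (hvol z hzR s hs (by linarith))
  have hNI : NI (fun x => c • F x) q R' ε₀ := by
    intro x z hx hz
    have h1 := hF' x z hx hz
    simp only [dist_smul₀, Real.norm_eq_abs, abs_of_pos hc]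
    exact h1
  exact ⟨fun x => c • F x, hNI, hNI.full hε₀.le (by linarith) hnum hlow⟩

/-- **one manifold**: near isometric charts at all scales from volume pinching -/
theorem chart_man (n : ℕ) (η a b : ℝ) (hη : 0 < η) (ha : 0 < a) (hb : 0 < b) :
    ∃ ρ : ℝ, 0 < ρ ∧ ∃ δ : ℝ, 0 < δ ∧
    ∀ (M : Type u) [MetricSpace M] [CompleteSpace M] [ConnectedSpace M]
      [ChartedSpace (EuclideanSpace ℝ (Fin n)) M]
      [IsManifold 𝓘(ℝ, EuclideanSpace ℝ (Fin n)) ∞ M]
      [RiemannianBundle (fun x : M => TangentSpace 𝓘(ℝ, EuclideanSpace ℝ (Fin n)) x)]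
      [IsContMDiffRiemannianBundle 𝓘(ℝ, EuclideanSpace ℝ (Fin n)) ∞ (EuclideanSpace ℝ (Fin n))
        (fun x : M => TangentSpace 𝓘(ℝ, EuclideanSpace ℝ (Fin n)) x)]
      [IsRiemannianManifold 𝓘(ℝ, EuclideanSpace ℝ (Fin n)) M]
      [MeasurableSpace M] [BorelSpace M] (q : M),
      HasRicciLowerBound n M (-δ) →
      (∀ x ∈ ball q a, ∀ r : ℝ, 0 < r → r ≤ b →
        ENNReal.ofReal (1 - δ) * volume (ball (0 : EuclideanSpace ℝ (Fin n)) r) ≤
          Measure.euclideanHausdorffMeasure n (ball x r)) →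
      ∃ G : M → EuclideanSpace ℝ (Fin n), G q = 0 ∧ NI G q ρ η ∧ Full G q ρ η ∧
        VolLow q ρ n η ∧ VolUp q ρ n η := by
  obtain ⟨ε₀, hε₀, hε₀1, hε₀η, hnum⟩ := num n η hη
  obtain ⟨ρ₀, hρ₀, R₀, hR₀, δ₀, hδ₀, H⟩ := chart_unit.{u} n ε₀ hε₀ hε₀1 (hnum ε₀ hε₀.le le_rfl).1
  have hR₀0 : 0 < R₀ := by linarith
  set r₀ : ℝ := min (a / R₀) (b / 40) with hr₀
  have hr₀0 : 0 < r₀ := by positivity
  have hr₀a : r₀ * R₀ ≤ a := by
    have : r₀ ≤ a / R₀ := min_le_left _ _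
    rwa [le_div_iff₀ hR₀0] at this
  have hr₀b : r₀ * 40 ≤ b := by
    have : r₀ ≤ b / 40 := min_le_right _ _
    rwa [le_div_iff₀ (by norm_num)] at this
  set r : {r : ℝ // 0 < r} := ⟨r₀, hr₀0⟩ with hr
  set δ : ℝ := min δ₀ (δ₀ / r₀ ^ 2) with hδ
  have hδ0 : 0 < δ := by positivity
  have hδ1 : δ ≤ δ₀ := min_le_left _ _
  have hδ2 : r₀ ^ 2 * δ ≤ δ₀ := by
    have : δ ≤ δ₀ / r₀ ^ 2 := min_le_right _ _
    rw [le_div_iff₀ (by positivity)] at this
    linarith
  refine ⟨r₀ * ρ₀, by positivity, δ, hδ0, ?_⟩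
  intro M _ _ _ _ _ _ _ _ _ _ q hRic hvol
  have hRic' : HasRicciLowerBound n (Sc r M) (-δ₀) := by
    have h1 := ricciLB_sc r hRic
    refine Asm951.ricci_mono ?_ h1
    change -δ₀ ≤ -δ * r₀ ^ 2
    linarith
  have hpin' := Asm951.pinch_sc (n := n) (q := q) (R₀ := R₀) (δ := δ₀) (s₁ := b) (A := 40) r
    hr₀b (fun x hx s hs hs1 => by
      refine le_trans ?_ (hvol x (ball_subset_ball hr₀a hx) s hs hs1)
      gcongr)
  obtain ⟨F, hF1, hF2⟩ := H (Sc r M) (toSc r q) hRic' hpin'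
  set G : M → EuclideanSpace ℝ (Fin n) := fun x => r₀ • F (toSc r x) - r₀ • F (toSc r q) with hG
  have hd : ∀ x y : M, dist x y = r₀ * dist (toSc r x) (toSc r y) := by
    intro x y
    rw [dist_toSc, ← mul_assoc]
    change _ = r₀ * r₀⁻¹ * _
    rw [mul_inv_cancel₀ hr₀0.ne', one_mul]
  have hdG : ∀ x y : M, dist (G x) (G y) = r₀ * dist (F (toSc r x)) (F (toSc r y)) := by
    intro x y
    simp only [hG, dist_sub_right, dist_smul₀, Real.norm_eq_abs, abs_of_pos hr₀0]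
  have hmem : ∀ {x y : M} {s : ℝ}, dist x y < r₀ * s → dist (toSc r x) (toSc r y) < s := by
    intro x y s h
    rw [hd] at h
    exact lt_of_mul_lt_mul_left h hr₀0.le
  have hmem' : ∀ {x y : M} {s : ℝ}, dist (toSc r x) (toSc r y) < s → dist x y < r₀ * s := by
    intro x y s h
    rw [hd]
    exact mul_lt_mul_of_pos_left h hr₀0
  have hNI : NI G q (r₀ * ρ₀) ε₀ := by
    intro x z hx hz
    have h1 := hF1 (toSc r x) (toSc r z) (hmem hx) (hmem hz)
    rw [hdG, hd x z]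
    have h2 : r₀ * dist (F (toSc r x)) (F (toSc r z)) - r₀ * dist (toSc r x) (toSc r z) =
        r₀ * (dist (F (toSc r x)) (F (toSc r z)) - dist (toSc r x) (toSc r z)) := by ring
    rw [h2, abs_mul, abs_of_pos hr₀0]
    calc _ ≤ r₀ * (ε₀ * dist (toSc r x) (toSc r z)) := mul_le_mul_of_nonneg_left h1 hr₀0.le
      _ = _ := by ring
  have hFull : Full G q (r₀ * ρ₀) ε₀ := by
    intro x s hs hb y hy
    have e1 : s = r₀ * (s / r₀) := by field_simp
    set y' : EuclideanSpace ℝ (Fin n) := r₀⁻¹ • y + F (toSc r q) with hy'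
    have e2 : y = r₀ • y' - r₀ • F (toSc r q) := by
      rw [hy', smul_add, smul_inv_smul₀ hr₀0.ne']
      abel
    have e3 : dist (G x) y = r₀ * dist (F (toSc r x)) y' := by
      rw [e2]
      simp only [hG, dist_sub_right, dist_smul₀, Real.norm_eq_abs, abs_of_pos hr₀0]
    have h1 : dist (F (toSc r x)) y' < (1 - ε₀) * (s / r₀) := by
      rw [e3] at hy
      refine lt_of_mul_lt_mul_left ?_ hr₀0.le
      calc _ < (1 - ε₀) * s := hy
        _ = _ := by field_simp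
    obtain ⟨z, hz1, hz2⟩ := hF2 (toSc r x) (s / r₀) (by positivity) (fun w hw => by
      have h2 : dist x (ofSc r w) < s := by
        rw [e1]
        exact hmem' (y := ofSc r w) hw
      exact hmem (hb _ h2)) y' h1
    refine ⟨ofSc r z, ?_, ?_⟩
    · rw [e1]
      exact hmem' (y := ofSc r z) hz1
    · rw [e2, ← hz2]
      rfl
  refine ⟨G, by simp [hG], hNI.mono le_rfl hε₀η, hFull.mono le_rfl hε₀η, ?_, ?_⟩
  · intro z s hs hb
    refine le_trans ?_ (hNI.vol_ge hε₀.le (by linarith) hFull hs hb)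
    gcongr
    exact (hnum ε₀ hε₀.le le_rfl).2.1
  · intro z s hs hb
    refine (hNI.vol_le hε₀.le (by linarith) hs hb).trans ?_
    gcongr
    exact (hnum ε₀ hε₀.le le_rfl).2.2

end Crest.Agent.R249.UH2_544
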