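import Crest.Agent.R249.UH2_544

/-!
# R249, D3-LIM/L-UH (helper544), part 3: the ultralimit

* `ev_ball` : a ball of the ultralimit contained in `ball base R` comes from such balls;
* `ni_flim`, `full_flim` : near isometries (with full images of balls) pass to the ultralimit;
* `homeo` : a near isometry with full images is a homeomorphism of `ball q R` onto an open set;
* `ul_chart` : **L-UH**.
-/

set_option autoImplicit false
noncomputable section
open Set Filter Topology MeasureTheory Metric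
open scoped ContDiff Manifold ENNReal NNReal
open Bundle Crest.GeometryTopology.CoordMetric Crest.GeometryTopology.ChartCurvature
  Crest.GeometryTopology.PointedLimit

namespace Crest.Agent.R249.UH3_544

universe u

open Crest.Agent.R247 Crest.Agent.R249.UH1_544 Crest.Agent.R249.Ul174
open Crest.Agent.R247.Opn79 (E)

section general

variable {n : ℕ} {X : Type*} [MetricSpace X]

/-- a near isometry with full images is open -/
theorem isOpen_image {G : X → E n} {q : X} {R ε : ℝ} (hε : ε < 1) (hF : Full G q R ε)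
    {U : Set X} (hU : IsOpen U) (hUR : U ⊆ ball q R) : IsOpen (G '' U) := by
  rw [Metric.isOpen_iff]
  rintro _ ⟨x, hx, rfl⟩
  obtain ⟨s, hs, hsU⟩ := Metric.isOpen_iff.1 hU x hx
  have h1ε : 0 < 1 - ε := by linarith
  refine ⟨(1 - ε) * s, by positivity, ?_⟩
  intro y hy
  rw [mem_ball, dist_comm] at hy
  obtain ⟨z, hz, rfl⟩ := hF x s hs (fun w hw => by
    have h1 : w ∈ ball x s := by rw [mem_ball, dist_comm]; exact hw
    have h2 := hUR (hsU h1)
    rwa [mem_ball, dist_comm] at h2) y hy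
  exact ⟨z, hsU (by rw [mem_ball, dist_comm]; exact hz), rfl⟩

theorem NI.continuousOn {G : X → E n} {q : X} {R ε : ℝ} (hε : 0 ≤ ε) (h : NI G q R ε) :
    ContinuousOn G (ball q R) := by
  have : LipschitzOnWith ⟨1 + ε, by linarith⟩ G (ball q R) :=
    LipschitzOnWith.of_dist_le_mul fun x hx y hy => by
      rw [mem_ball, dist_comm] at hx hy
      exact h.le hx hy
  exact this.continuousOn

/-- a near isometry with full images is a homeomorphism of the ball onto an open set -/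
theorem homeo {G : X → E n} {q : X} {R ε : ℝ} (hε : 0 ≤ ε) (hε1 : ε < 1) (h : NI G q R ε)
    (hF : Full G q R ε) : ∃ e : OpenPartialHomeomorph X (E n), e.source = ball q R ∧
      e.target = G '' ball q R ∧ ∀ x, e x = G x := by
  classical
  have hinj : InjOn G (ball q R) := by
    intro x hx z hz hxz
    rw [mem_ball, dist_comm] at hx hz
    exact h.injOn hε1 hx hz hxz
  by_cases hne : Nonempty X
  · let e₀ : PartialEquiv X (E n) := hinj.toPartialEquiv G (ball q R)
    have hopen : IsOpenMap (e₀.source.domRestrict e₀) := by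
      intro U hU
      have h1 : IsOpen (Subtype.val '' U : Set X) := isOpen_ball.isOpenMap_subtype_val U hU
      have h2 : (Subtype.val '' U : Set X) ⊆ ball q R := by
        rintro _ ⟨x, _, rfl⟩
        exact x.2
      have h3 := isOpen_image hε1 hF h1 h2
      have h4 : e₀.source.domRestrict e₀ '' U = G '' (Subtype.val '' U) := by
        rw [image_image]
        rfl
      rw [h4]
      exact h3
    exact ⟨OpenPartialHomeomorph.ofContinuousOpenRestrict e₀ (NI.continuousOn hε h) hopen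
      isOpen_ball, rfl, rfl, fun _ => rfl⟩
  · exact absurd ⟨q⟩ hne

end general

section UL

variable {M : ℕ → Type u} [∀ k, MetricSpace (M k)] {q : ∀ k, M k} {n : ℕ}

/-- balls of the ultralimit inside `ball base R` come from such balls -/
theorem ev_ball {x : ∀ k, M k} (hx : Bd q x) {s s' R : ℝ} (hs' : s' < s)
    (hb : ∀ y, dist (UL.mk x hx) y < s → dist (UL.base q) y < R) :
    ∀ᶠ k in om, ∀ y : M k, dist (x k) y < s' → dist (q k) y < R := by
  classical
  rcases ev_or_not (fun k => ∀ y : M k, dist (x k) y < s' → dist (q k) y < R) with h | h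
  · exact h
  exfalso
  have h1 : ∀ k, ∃ y : M k, (¬ ∀ y : M k, dist (x k) y < s' → dist (q k) y < R) →
      dist (x k) y < s' ∧ R ≤ dist (q k) y := by
    intro k
    by_cases hk : ∀ y : M k, dist (x k) y < s' → dist (q k) y < R
    · exact ⟨q k, fun h => absurd hk h⟩
    · have hk' := hk
      push Not at hk
      obtain ⟨y, hy1, hy2⟩ := hk
      exact ⟨y, fun _ => ⟨hy1, hy2⟩⟩
  choose y hy using h1
  have h2 : ∀ᶠ k in om, dist (x k) (y k) < s' ∧ R ≤ dist (q k) (y k) := by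
    filter_upwards [h] with k hk
    exact hy k hk
  have hyb : Bd q y := hx.trans (h2.mono fun _ hk => hk.1.le)
  have h3 : dist (UL.mk x hx) (UL.mk y hyb) < s :=
    (UL.dist_le hx hyb (h2.mono fun _ hk => hk.1.le)).trans_lt hs'
  have h4 : R ≤ dist (UL.base q) (UL.mk y hyb) :=
    UL.le_dist (Bd.refl q) hyb (h2.mono fun _ hk => hk.2)
  exact absurd (hb _ h3) (not_lt.2 h4)

theorem eqC_of_ni {G : ∀ k, M k → E n} {ρ ε : ℝ} (h0 : ∀ᶠ k in om, G k (q k) = 0)
    (h : ∀ᶠ k in om, NI (G k) (q k) ρ ε) : EqC q G ρ := by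
  refine EqC.of_lipschitz (L := 1 + ε) ?_ ⟨0, 0, ?_⟩
  · filter_upwards [h] with k hk x y hx hy
    exact hk.le hx hy
  · filter_upwards [h0] with k hk
    rw [hk, dist_self]

/-- near isometries pass to the ultralimit -/
theorem ni_flim {G : ∀ k, M k → E n} {ρ ε : ℝ} (h0 : ∀ᶠ k in om, G k (q k) = 0)
    (h : ∀ᶠ k in om, NI (G k) (q k) ρ ε) : NI (UL.flim G) (UL.base q) ρ ε := by
  have hE := eqC_of_ni h0 h
  intro x z hx hz
  rw [abs_le]
  constructor
  · have := hE.le_dist_flim (φ := fun d => d - ε * d) (by fun_prop) (h.mono fun k hk x y hx hy => by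
      have := hk.ge hx hy
      linarith) hx hz
    linarith
  · have := hE.dist_flim_le (φ := fun d => d + ε * d) (by fun_prop) (h.mono fun k hk x y hx hy => by
      have := hk.le hx hy
      linarith) hx hz
    linarith

theorem flim_base {G : ∀ k, M k → E n} {ρ ε : ℝ} (hρ : 0 < ρ) (h0 : ∀ᶠ k in om, G k (q k) = 0)
    (h : ∀ᶠ k in om, NI (G k) (q k) ρ ε) : UL.flim G (UL.base q) = 0 := by
  have hE := eqC_of_ni h0 h
  have h1 := hE.tendsto_flim (Bd.refl q) (by
    change dist (UL.base q) (UL.base q) < ρ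
    rwa [dist_self])
  exact tendsto_nhds_unique h1 (tendsto_const_nhds.congr' (h0.mono fun k hk => hk.symm))

/-- full images pass to the ultralimit -/
theorem full_flim {G : ∀ k, M k → E n} {ρ ε : ℝ} (hε1 : ε < 1)
    (h0 : ∀ᶠ k in om, G k (q k) = 0)
    (h : ∀ᶠ k in om, NI (G k) (q k) ρ ε) (hF : ∀ᶠ k in om, Full (G k) (q k) ρ ε) :
    Full (UL.flim G) (UL.base q) ρ ε := by
  classical
  have hE := eqC_of_ni h0 h
  have h1ε : 0 < 1 - ε := by linarith
  intro x s hs hb y hy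
  obtain ⟨x, hx, rfl⟩ := x.exists_rep
  -- a slightly smaller radius
  have h1 : dist (UL.flim G (UL.mk x hx)) y / (1 - ε) < s := by
    rw [div_lt_iff₀ h1ε]
    linarith
  obtain ⟨s', h2, h3⟩ := exists_between h1
  have hs' : 0 < s' := lt_of_le_of_lt (by positivity) h2
  have h4 : dist (UL.flim G (UL.mk x hx)) y < (1 - ε) * s' := by
    rw [div_lt_iff₀ h1ε] at h2
    linarith
  have hxR : dist (UL.base q) (UL.mk x hx) < ρ := hb _ (by rw [dist_self]; exact hs)
  have h5 : ∀ᶠ k in om, dist (G k (x k)) y < (1 - ε) * s' :=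
    ((hE.tendsto_flim hx hxR).dist tendsto_const_nhds).eventually_lt_const h4
  have h6 := ev_ball hx h3 hb
  have h7 : ∀ᶠ k in om, ∃ z : M k, dist (x k) z < s' ∧ G k z = y := by
    filter_upwards [h5, h6, hF] with k hk1 hk2 hk3
    exact hk3 (x k) s' hs' hk2 y hk1
  have h8 : ∀ k, ∃ z : M k, (∃ z : M k, dist (x k) z < s' ∧ G k z = y) →
      dist (x k) z < s' ∧ G k z = y := by
    intro k
    by_cases hk : ∃ z : M k, dist (x k) z < s' ∧ G k z = y
    · obtain ⟨z, hz⟩ := hk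
      exact ⟨z, fun _ => hz⟩
    · exact ⟨q k, fun h => absurd h hk⟩
  choose z hz using h8
  have h9 : ∀ᶠ k in om, dist (x k) (z k) < s' ∧ G k (z k) = y := by
    filter_upwards [h7] with k hk
    exact hz k hk
  have hzb : Bd q z := hx.trans (h9.mono fun _ hk => hk.1.le)
  have h10 : dist (UL.mk x hx) (UL.mk z hzb) < s :=
    (UL.dist_le hx hzb (h9.mono fun _ hk => hk.1.le)).trans_lt h3
  refine ⟨UL.mk z hzb, h10, ?_⟩
  have h11 := hE.tendsto_flim hzb (hb _ h10)
  exact tendsto_nhds_unique h11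
    (tendsto_const_nhds.congr' (h9.mono fun k hk => hk.2.symm))

end UL

/-- **L-UH**: near isometric charts of ultralimits at all scales, and the volumes of the balls of the
ultralimit, from volume pinching. -/
theorem ul_chart (n : ℕ) (η a b : ℝ) (hη : 0 < η) (ha : 0 < a) (hb : 0 < b) :
    ∃ ρ : ℝ, 0 < ρ ∧ ∃ δ : ℝ, 0 < δ ∧
    ∀ (M : ℕ → Type u) [∀ k, MetricSpace (M k)] [∀ k, CompleteSpace (M k)]
      [∀ k, ConnectedSpace (M k)] [∀ k, ChartedSpace (EuclideanSpace ℝ (Fin n)) (M k)]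
      [∀ k, IsManifold 𝓘(ℝ, EuclideanSpace ℝ (Fin n)) ∞ (M k)]
      [∀ k, RiemannianBundle (fun x : M k => TangentSpace 𝓘(ℝ, EuclideanSpace ℝ (Fin n)) x)]
      [∀ k, IsContMDiffRiemannianBundle 𝓘(ℝ, EuclideanSpace ℝ (Fin n)) ∞
        (EuclideanSpace ℝ (Fin n))
        (fun x : M k => TangentSpace 𝓘(ℝ, EuclideanSpace ℝ (Fin n)) x)]
      [∀ k, IsRiemannianManifold 𝓘(ℝ, EuclideanSpace ℝ (Fin n)) (M k)]
      [∀ k, MeasurableSpace (M k)] [∀ k, BorelSpace (M k)] (q : ∀ k, M k),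
      (∀ᶠ k in om, HasRicciLowerBound n (M k) (-δ)) →
      (∀ᶠ k in om, ∀ x ∈ ball (q k) a, ∀ r : ℝ, 0 < r → r ≤ b →
        ENNReal.ofReal (1 - δ) * volume (ball (0 : EuclideanSpace ℝ (Fin n)) r) ≤
          Measure.euclideanHausdorffMeasure n (ball x r)) →
      ∃ G : ∀ k, M k → EuclideanSpace ℝ (Fin n),
        (∀ᶠ k in om, G k (q k) = 0 ∧ NI (G k) (q k) ρ η ∧ Full (G k) (q k) ρ η ∧
          VolLow (q k) ρ n η ∧ VolUp (q k) ρ n η) ∧
        EqC q G ρ ∧ UL.flim G (UL.base q) = 0 ∧ NI (UL.flim G) (UL.base q) ρ η ∧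
        Full (UL.flim G) (UL.base q) ρ η ∧
        (∃ e : OpenPartialHomeomorph (UL q) (EuclideanSpace ℝ (Fin n)),
          e.source = ball (UL.base q) ρ ∧ e.target = UL.flim G '' ball (UL.base q) ρ ∧
          ∀ x, e x = UL.flim G x) ∧
        ∀ [MeasurableSpace (UL q)] [BorelSpace (UL q)],
          VolLow (UL.base q) ρ n η ∧ VolUp (UL.base q) ρ n η := by
  classical
  obtain ⟨ε₀, hε₀, hε₀1, hε₀η, hnum⟩ := num n η hη
  obtain ⟨ρ, hρ, δ, hδ, H⟩ := UH2_544.chart_man.{u} n ε₀ a b hε₀ ha hb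
  refine ⟨ρ, hρ, δ, hδ, ?_⟩
  intro M _ _ _ _ _ _ _ _ _ _ q hRic hvol
  have h1 : ∀ k, ∃ G : M k → EuclideanSpace ℝ (Fin n), (HasRicciLowerBound n (M k) (-δ) →
      (∀ x ∈ ball (q k) a, ∀ r : ℝ, 0 < r → r ≤ b →
        ENNReal.ofReal (1 - δ) * volume (ball (0 : EuclideanSpace ℝ (Fin n)) r) ≤
          Measure.euclideanHausdorffMeasure n (ball x r)) → G (q k) = 0 ∧ NI G (q k) ρ ε₀ ∧
          Full G (q k) ρ ε₀ ∧ VolLow (q k) ρ n ε₀ ∧ VolUp (q k) ρ n ε₀) := by
    intro k
    by_cases hk : HasRicciLowerBound n (M k) (-δ) ∧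
      (∀ x ∈ ball (q k) a, ∀ r : ℝ, 0 < r → r ≤ b →
        ENNReal.ofReal (1 - δ) * volume (ball (0 : EuclideanSpace ℝ (Fin n)) r) ≤
          Measure.euclideanHausdorffMeasure n (ball x r))
    · obtain ⟨G, hG⟩ := H (M k) (q k) hk.1 hk.2
      exact ⟨G, fun _ _ => hG⟩
    · exact ⟨fun _ => 0, fun h2 h3 => absurd ⟨h2, h3⟩ hk⟩
  choose G hG using h1
  have h2 : ∀ᶠ k in om, G k (q k) = 0 ∧ NI (G k) (q k) ρ ε₀ ∧ Full (G k) (q k) ρ ε₀ ∧
      VolLow (q k) ρ n ε₀ ∧ VolUp (q k) ρ n ε₀ := by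
    filter_upwards [hRic, hvol] with k hk1 hk2
    exact hG k hk1 hk2
  have e0 : ∀ᶠ k in om, G k (q k) = 0 := h2.mono fun k hk => hk.1
  have e1 : ∀ᶠ k in om, NI (G k) (q k) ρ ε₀ := h2.mono fun k hk => hk.2.1
  have e2 : ∀ᶠ k in om, Full (G k) (q k) ρ ε₀ := h2.mono fun k hk => hk.2.2.1
  have h3 : NI (UL.flim G) (UL.base q) ρ ε₀ := ni_flim e0 e1
  have h4 : Full (UL.flim G) (UL.base q) ρ ε₀ := full_flim (by linarith) e0 e1 e2
  refine ⟨G, ?_, eqC_of_ni e0 e1, flim_base hρ e0 e1, h3.mono le_rfl hε₀η,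
    h4.mono le_rfl hε₀η, homeo hε₀.le (by linarith) h3 h4, ?_⟩
  · filter_upwards [h2] with k hk
    exact ⟨hk.1, hk.2.1.mono le_rfl hε₀η, hk.2.2.1.mono le_rfl hε₀η,
      hk.2.2.2.1.mono le_rfl hε₀η, hk.2.2.2.2.mono le_rfl hε₀η⟩
  · intro _ _
    constructor
    · intro z s hs hb
      refine le_trans ?_ (h3.vol_ge hε₀.le (by linarith) h4 hs hb)
      gcongr
      exact (hnum ε₀ hε₀.le le_rfl).2.1
    · intro z s hs hb
      refine (h3.vol_le hε₀.le (by linarith) hs hb).trans ?_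
      gcongr
      exact (hnum ε₀ hε₀.le le_rfl).2.2

end Crest.Agent.R249.UH3_544
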