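import Crest.Agent.R249.Ul2_174

/-!
# R249 (helper174): ultralimits (3): representatives, base change, limits of functions

* `UL.rep`, `UL.mk_rep`;
* `UL.rebase hx : UL q ≃ᵢ UL x` for `Bd q x`, with `UL.rebase_mk`;
* `EqC q u R` (equicontinuity + boundedness on the balls of radius `R`), `EqC.of_lipschitz`,
  `UL.flim`, `EqC.tendsto_flim`, `EqC.continuousOn_flim`, `dist_flim_le`.
-/

set_option autoImplicit false
noncomputable section
open Set Filter Topology Metric
open Crest.GeometryTopology.PointedLimit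

namespace Crest.Agent.R249.Ul174

universe u

variable {M : ℕ → Type u} [∀ k, MetricSpace (M k)] {q : ∀ k, M k}

/-! ### representatives -/

/-- a chosen representative of a point of the ultralimit -/
def UL.rep (y : UL q) : ∀ k, M k := Classical.choose y.exists_rep

theorem UL.bd_rep (y : UL q) : Bd q y.rep := Classical.choose (Classical.choose_spec y.exists_rep)

@[simp] theorem UL.mk_rep (y : UL q) : UL.mk y.rep y.bd_rep = y :=
  Classical.choose_spec (Classical.choose_spec y.exists_rep)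

theorem UL.tendsto_dist_rep (y z : UL q) :
    Tendsto (fun k => dist (y.rep k) (z.rep k)) om (𝓝 (dist y z)) := by
  have := UL.tendsto_dist y.bd_rep z.bd_rep
  rwa [UL.mk_rep, UL.mk_rep] at this

theorem UL.tendsto_rep_mk {x : ∀ k, M k} (hx : Bd q x) :
    Tendsto (fun k => dist ((UL.mk x hx).rep k) (x k)) om (𝓝 0) := by
  have := UL.tendsto_dist (UL.mk x hx).bd_rep hx
  rwa [UL.mk_rep, dist_self] at this

/-- bounded sequences are those whose class is at finite distance: eventually in a ball -/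
theorem UL.ev_mem_ball {x : ∀ k, M k} (hx : Bd q x) {R : ℝ}
    (h : dist (UL.base q) (UL.mk x hx) < R) : ∀ᶠ k in om, dist (q k) (x k) < R :=
  UL.ev_lt (Bd.refl q) hx h

/-! ### base change -/

theorem Bd.symm {x y : ∀ k, M k} (h : Bd x y) : Bd y x := by
  obtain ⟨C, hC⟩ := h
  exact ⟨C, hC.mono fun k hk => by rwa [dist_comm]⟩

theorem Bd.bd_iff {x : ∀ k, M k} (hx : Bd q x) {y : ∀ k, M k} : Bd q y ↔ Bd x y := by
  constructor
  · intro hy
    obtain ⟨C, hC⟩ := hx.dist_bd hy
    exact ⟨C, hC.mono fun k hk => (le_abs_self _).trans hk⟩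
  · intro hy
    obtain ⟨C, hC⟩ := hy
    exact hx.trans hC

/-- the ultralimit does not depend on the base point -/
def UL.rebase {x : ∀ k, M k} (hx : Bd q x) : UL q ≃ᵢ UL x where
  toFun y := UL.mk y.rep (hx.bd_iff.1 y.bd_rep)
  invFun y := UL.mk y.rep (hx.bd_iff.2 y.bd_rep)
  left_inv y := by
    have h1 := UL.tendsto_rep_mk (q := x) (hx.bd_iff.1 y.bd_rep)
    calc _ = UL.mk y.rep y.bd_rep := (UL.mk_eq_mk _ _).2 h1
      _ = y := UL.mk_rep y
  right_inv y := by
    have h1 := UL.tendsto_rep_mk (q := q) (hx.bd_iff.2 y.bd_rep)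
    calc _ = UL.mk y.rep y.bd_rep := (UL.mk_eq_mk _ _).2 h1
      _ = y := UL.mk_rep y
  isometry_toFun := by
    refine Isometry.of_dist_eq fun y z => ?_
    exact UL.dist_eq _ _ (UL.tendsto_dist_rep y z)

theorem UL.rebase_mk {x y : ∀ k, M k} (hx : Bd q x) (hy : Bd q y) :
    UL.rebase hx (UL.mk y hy) = UL.mk y (hx.bd_iff.1 hy) :=
  (UL.mk_eq_mk _ _).2 (UL.tendsto_rep_mk hy)

theorem UL.rebase_symm_mk {x y : ∀ k, M k} (hx : Bd q x) (hy : Bd x y) :
    (UL.rebase hx).symm (UL.mk y hy) = UL.mk y (hx.bd_iff.2 hy) := by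
  rw [IsometryEquiv.symm_apply_eq]
  exact (UL.rebase_mk hx (hx.bd_iff.2 hy)).symm

theorem UL.rebase_base {x : ∀ k, M k} (hx : Bd q x) :
    UL.rebase hx (UL.mk x hx) = UL.base x := UL.rebase_mk hx hx

/-- packing bounds do not depend on the base point -/
theorem Pack.rebase (h : Pack q) {x : ∀ k, M k} (hx : Bd q x) : Pack x := by
  intro R ε hε
  obtain ⟨C, hC⟩ := hx
  obtain ⟨N, hN⟩ := h (C + R) ε hε
  refine ⟨N, ?_⟩
  filter_upwards [hN, hC] with k hk hk' s hs1 hs2
  refine hk s (fun y hy => ?_) hs2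
  have h1 := hs1 y hy
  have h2 := dist_triangle (q k) (x k) y
  linarith

/-! ### limits of functions -/

section flim

variable {F : Type*}

/-- the limit of a sequence of maps -/
def UL.flim [TopologicalSpace F] [Nonempty F] (u : ∀ k, M k → F) (y : UL q) : F :=
  limUnder om (fun k => u k (y.rep k))

variable [PseudoMetricSpace F]

/-- equicontinuous and bounded on the balls of radius `R` about `q k` -/
structure EqC (q : ∀ k, M k) (u : ∀ k, M k → F) (R : ℝ) : Prop where
  eqc : ∀ ε : ℝ, 0 < ε → ∃ δ : ℝ, 0 < δ ∧ ∀ᶠ k in om, ∀ x y : M k, dist (q k) x < R →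
    dist (q k) y < R → dist x y < δ → dist (u k x) (u k y) < ε
  bdd : ∃ (a : F) (C : ℝ), ∀ᶠ k in om, ∀ x : M k, dist (q k) x < R → dist (u k x) a ≤ C

theorem EqC.of_lipschitz {u : ∀ k, M k → F} {R L : ℝ}
    (hL : ∀ᶠ k in om, ∀ x y : M k, dist (q k) x < R → dist (q k) y < R →
      dist (u k x) (u k y) ≤ L * dist x y)
    (hb : ∃ (a : F) (C : ℝ), ∀ᶠ k in om, dist (u k (q k)) a ≤ C) : EqC q u R := by
  by_cases hR : 0 < R
  · constructor
    · intro ε hε
      refine ⟨ε / (|L| + 1), by positivity, ?_⟩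
      filter_upwards [hL] with k hk x y hx hy hxy
      have h1 := hk x y hx hy
      have h2 : L * dist x y ≤ |L| * dist x y := by
        gcongr
        exact le_abs_self L
      have h3 : 0 < |L| + 1 := by positivity
      rw [lt_div_iff₀ h3] at hxy
      have h4 : 0 ≤ dist x y := dist_nonneg
      by_cases h5 : dist x y = 0
      · rw [h5] at h1
        linarith
      · have : 0 < dist x y := lt_of_le_of_ne h4 (Ne.symm h5)
        nlinarith
    · obtain ⟨a, C, hC⟩ := hb
      refine ⟨a, |L| * R + C, ?_⟩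
      filter_upwards [hL, hC] with k hk hk' x hx
      have h0 : dist (q k) (q k) < R := by rw [dist_self]; exact hR
      have h1 := hk x (q k) hx h0
      have h2 : L * dist x (q k) ≤ |L| * R := by
        calc L * dist x (q k) ≤ |L| * dist x (q k) := by
              gcongr
              exact le_abs_self L
          _ ≤ |L| * R := by
              gcongr
              rw [dist_comm]
              exact hx.le
      have h3 := dist_triangle (u k x) (u k (q k)) a
      linarith
  · have h0 : ∀ k, ∀ x : M k, ¬ dist (q k) x < R := fun k x hx =>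
      hR (lt_of_le_of_lt dist_nonneg hx)
    refine ⟨fun ε _ => ⟨1, one_pos, Eventually.of_forall fun k x y hx => absurd hx (h0 k x)⟩, ?_⟩
    obtain ⟨a, C, -⟩ := hb
    exact ⟨a, C, Eventually.of_forall fun k x hx => absurd hx (h0 k x)⟩

variable [ProperSpace F] [Nonempty F]

/-- the values along any bounded sequence inside the ball converge to the value of the limit -/
theorem EqC.tendsto_flim {u : ∀ k, M k → F} {R : ℝ} (h : EqC q u R) {x : ∀ k, M k}
    (hx : Bd q x) (hxR : dist (UL.base q) (UL.mk x hx) < R) :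
    Tendsto (fun k => u k (x k)) om (𝓝 (UL.flim u (UL.mk x hx))) := by
  set y := UL.mk x hx with hy
  have hy1 : ∀ᶠ k in om, dist (q k) (y.rep k) < R := by
    refine UL.ev_mem_ball y.bd_rep ?_
    rw [UL.mk_rep]
    exact hxR
  have hx1 : ∀ᶠ k in om, dist (q k) (x k) < R := UL.ev_mem_ball hx hxR
  obtain ⟨a, C, hC⟩ := h.bdd
  have h1 : ∀ᶠ k in om, dist (u k (y.rep k)) a ≤ C := by
    filter_upwards [hC, hy1] with k hk hk'
    exact hk _ hk'
  obtain ⟨b, -, hb⟩ := exists_lim h1
  have h2 : Tendsto (fun k => u k (y.rep k)) om (𝓝 (UL.flim u y)) := tendsto_nhds_limUnder ⟨b, hb⟩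
  refine (tendsto_iff_of_dist ?_).1 h2
  rw [Metric.tendsto_nhds]
  intro ε hε
  obtain ⟨δ, hδ, hd⟩ := h.eqc ε hε
  have h3 : ∀ᶠ k in om, dist (y.rep k) (x k) < δ :=
    (UL.tendsto_rep_mk hx).eventually_lt_const hδ
  filter_upwards [hd, h3, hx1, hy1] with k hk1 hk2 hk3 hk4
  rw [Real.dist_eq, sub_zero, abs_of_nonneg dist_nonneg]
  exact hk1 _ _ hk4 hk3 hk2

theorem EqC.tendsto_flim_rep {u : ∀ k, M k → F} {R : ℝ} (h : EqC q u R) {y : UL q}
    (hy : dist (UL.base q) y < R) :
    Tendsto (fun k => u k (y.rep k)) om (𝓝 (UL.flim u y)) := by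
  have := h.tendsto_flim y.bd_rep (by rwa [UL.mk_rep])
  rwa [UL.mk_rep] at this

/-- a modulus of continuity passes to the limit -/
theorem EqC.dist_flim_le {u : ∀ k, M k → F} {R : ℝ} (h : EqC q u R) {φ : ℝ → ℝ}
    (hφ : Continuous φ)
    (hL : ∀ᶠ k in om, ∀ x y : M k, dist (q k) x < R → dist (q k) y < R →
      dist (u k x) (u k y) ≤ φ (dist x y))
    {y z : UL q} (hy : dist (UL.base q) y < R) (hz : dist (UL.base q) z < R) :
    dist (UL.flim u y) (UL.flim u z) ≤ φ (dist y z) := by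
  have h1 := (h.tendsto_flim_rep hy).dist (h.tendsto_flim_rep hz)
  have h2 := (hφ.tendsto _).comp (UL.tendsto_dist_rep y z)
  refine le_of_tendsto_of_tendsto h1 h2 ?_
  have hy1 : ∀ᶠ k in om, dist (q k) (y.rep k) < R := by
    refine UL.ev_mem_ball y.bd_rep ?_
    rwa [UL.mk_rep]
  have hz1 : ∀ᶠ k in om, dist (q k) (z.rep k) < R := by
    refine UL.ev_mem_ball z.bd_rep ?_
    rwa [UL.mk_rep]
  filter_upwards [hL, hy1, hz1] with k hk hk1 hk2
  exact hk _ _ hk1 hk2

/-- a lower modulus passes to the limit -/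
theorem EqC.le_dist_flim {u : ∀ k, M k → F} {R : ℝ} (h : EqC q u R) {φ : ℝ → ℝ}
    (hφ : Continuous φ)
    (hL : ∀ᶠ k in om, ∀ x y : M k, dist (q k) x < R → dist (q k) y < R →
      φ (dist x y) ≤ dist (u k x) (u k y))
    {y z : UL q} (hy : dist (UL.base q) y < R) (hz : dist (UL.base q) z < R) :
    φ (dist y z) ≤ dist (UL.flim u y) (UL.flim u z) := by
  have h1 := (h.tendsto_flim_rep hy).dist (h.tendsto_flim_rep hz)
  have h2 := (hφ.tendsto _).comp (UL.tendsto_dist_rep y z)
  refine le_of_tendsto_of_tendsto h2 h1 ?_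
  have hy1 : ∀ᶠ k in om, dist (q k) (y.rep k) < R := by
    refine UL.ev_mem_ball y.bd_rep ?_
    rwa [UL.mk_rep]
  have hz1 : ∀ᶠ k in om, dist (q k) (z.rep k) < R := by
    refine UL.ev_mem_ball z.bd_rep ?_
    rwa [UL.mk_rep]
  filter_upwards [hL, hy1, hz1] with k hk hk1 hk2
  exact hk _ _ hk1 hk2

/-- the limit is continuous on the ball -/
theorem EqC.continuousOn_flim {u : ∀ k, M k → F} {R : ℝ} (h : EqC q u R) :
    ContinuousOn (UL.flim u) {y : UL q | dist (UL.base q) y < R} := by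
  rw [Metric.continuousOn_iff]
  intro y hy ε hε
  obtain ⟨δ, hδ, hd⟩ := h.eqc (ε / 2) (by positivity)
  refine ⟨δ, hδ, fun z hz hzy => ?_⟩
  have h1 := (h.tendsto_flim_rep hz).dist (h.tendsto_flim_rep hy)
  have h2 := (UL.tendsto_dist_rep z y).eventually_lt_const hzy
  have hy1 : ∀ᶠ k in om, dist (q k) (y.rep k) < R := by
    refine UL.ev_mem_ball y.bd_rep ?_
    rwa [UL.mk_rep]
  have hz1 : ∀ᶠ k in om, dist (q k) (z.rep k) < R := by
    refine UL.ev_mem_ball z.bd_rep ?_
    rwa [UL.mk_rep]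
  have h3 : dist (UL.flim u z) (UL.flim u y) ≤ ε / 2 := by
    refine le_of_tendsto h1 ?_
    filter_upwards [hd, h2, hy1, hz1] with k hk hk1 hk2 hk3
    exact (hk _ _ hk3 hk2 hk1).le
  linarith

end flim

end Crest.Agent.R249.Ul174
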