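import Crest.Agent.R249.Vf4_281

/-!
Row 249 (helper281), D3-TST: test functions `φ(u)`, `u : M → ℝ^m` smooth on the open set `O`, and the
integral identities for `F^{ab} = ⟨du^a, du^b⟩`, `P^{ab,c} = ⟨dF^{ab}, du^c⟩`.
-/

set_option autoImplicit false
set_option maxSynthPendingDepth 3
set_option linter.unusedSectionVars false

open scoped ContDiff Topology Manifold
open Filter Set Bundle MeasureTheory
open Crest.GeometryTopology.CoordMetric Crest.GeometryTopology.ChartCurvature
  Crest.GeometryTopology.PointedLimit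
open Crest.Agent.R202.Tens
open Crest.Agent.R247.Bo84
open Crest.Agent.R247

noncomputable section

namespace Crest.Agent.R249.Vf281

variable (n : ℕ) {M : Type*} [MetricSpace M] [ChartedSpace (EuclideanSpace ℝ (Fin n)) M]
  [IsManifold (𝓡 n) ∞ M]
  [RiemannianBundle (fun p : M => TangentSpace (𝓡 n) p)]
  [IsContMDiffRiemannianBundle (𝓡 n) ∞ (EuclideanSpace ℝ (Fin n)) (fun p : M => TangentSpace (𝓡 n) p)]

local notation "𝔼" => EuclideanSpace ℝ (Fin n)

variable {m : ℕ}

/-- Test data: `u` smooth on the open set `O`, `φ` smooth, `φ ∘ u` vanishes on `O` off the compact set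
`K ⊆ O` (together with a neighbourhood). -/
structure Tst (O K : Set M) (u : M → EuclideanSpace ℝ (Fin m))
    (φ : EuclideanSpace ℝ (Fin m) → ℝ) : Prop where
  isOpen : IsOpen O
  isCompact : IsCompact K
  sub : K ⊆ O
  smooth_u : ∀ z ∈ O, ∀ c, ContMDiffAt (𝓡 n) 𝓘(ℝ, ℝ) ∞ (fun q => u q c) z
  smooth_φ : ContDiff ℝ ∞ φ
  mem : ∀ z ∈ O, u z ∈ tsupport φ → z ∈ K

/-- the test function `φ(u)` on `O`, extended by zero. -/
def tst (O : Set M) (u : M → EuclideanSpace ℝ (Fin m)) (φ : EuclideanSpace ℝ (Fin m) → ℝ) : M → ℝ :=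
  O.indicator fun z => φ (u z)

/-- the expression `∑ φ_c(u) Δu^c + ∑ φ_{cd}(u) ⟨du^c, du^d⟩`. -/
def lapU (u : M → EuclideanSpace ℝ (Fin m)) (φ : EuclideanSpace ℝ (Fin m) → ℝ) (z : M) : ℝ :=
  ∑ c, pderiv c φ (u z) * mLap n (fun q => u q c) z +
    ∑ c, ∑ d, pderiv d (pderiv c φ) (u z) * mGam n (fun q => u q c) (fun q => u q d) z

variable {n}
variable {O K : Set M} {u : M → EuclideanSpace ℝ (Fin m)} {φ : EuclideanSpace ℝ (Fin m) → ℝ}

omit [MetricSpace M] in
lemma tsupport_pderiv_subset (c : Fin m) (φ : EuclideanSpace ℝ (Fin m) → ℝ) :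
    tsupport (pderiv c φ) ⊆ tsupport φ := by
  refine closure_minimal ?_ (isClosed_tsupport φ)
  intro x hx
  by_contra h
  apply hx
  have hev : φ =ᶠ[𝓝 x] fun _ => 0 := by
    filter_upwards [(isClosed_tsupport φ).isOpen_compl.mem_nhds h] with y hy
    exact image_eq_zero_of_notMem_tsupport hy
  rw [pderiv, hev.fderiv_eq, fderiv_const_apply]
  rfl

lemma contDiff_pderiv (hφ : ContDiff ℝ ∞ φ) (c : Fin m) : ContDiff ℝ ∞ (pderiv c φ) :=
  contDiff_iff_contDiffAt.2 fun x => contDiffAt_pderiv hφ.contDiffAt (by simp) c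

namespace Tst

lemma pd (T : Tst n O K u φ) (c : Fin m) : Tst n O K u (pderiv c φ) :=
  { T with
    smooth_φ := contDiff_pderiv T.smooth_φ c
    mem := fun z hz h => T.mem z hz (tsupport_pderiv_subset c φ h) }

lemma zero (T : Tst n O K u φ) {z : M} (hz : z ∈ O) (hzK : z ∉ K) : φ (u z) = 0 :=
  image_eq_zero_of_notMem_tsupport fun h => hzK (T.mem z hz h)

lemma pderiv_zero (T : Tst n O K u φ) (c : Fin m) {z : M} (hz : z ∈ O) (hzK : z ∉ K) :
    pderiv c φ (u z) = 0 := (T.pd c).zero hz hzK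

lemma of_mem (u : M → EuclideanSpace ℝ (Fin m)) (φ : EuclideanSpace ℝ (Fin m) → ℝ) {z : M}
    (hz : z ∈ O) : tst O u φ z = φ (u z) := indicator_of_mem hz _

lemma tst_zero (T : Tst n O K u φ) {z : M} (hz : z ∉ K) : tst O u φ z = 0 := by
  by_cases h : z ∈ O
  · rw [of_mem u φ h, T.zero h hz]
  · exact indicator_of_notMem h _

lemma eventually (T : Tst n O K u φ) {z : M} (hz : z ∈ O) :
    tst O u φ =ᶠ[𝓝 z] fun q => φ (u q) := by
  filter_upwards [T.isOpen.mem_nhds hz] with q hq using of_mem u φ hq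

lemma eventually_zero (T : Tst n O K u φ) {z : M} (hz : z ∉ K) :
    tst O u φ =ᶠ[𝓝 z] fun _ => 0 := by
  filter_upwards [T.isCompact.isClosed.isOpen_compl.mem_nhds hz] with q hq using T.tst_zero hq

lemma contMDiffAt (T : Tst n O K u φ) (z : M) :
    ContMDiffAt (𝓡 n) 𝓘(ℝ, ℝ) ∞ (tst O u φ) z := by
  by_cases hz : z ∈ O
  · exact (contMDiffAt_compV le_rfl T.smooth_φ.contDiffAt
      (T.smooth_u z hz)).congr_of_eventuallyEq (T.eventually hz)
  · exact contMDiffAt_const.congr_of_eventuallyEq (T.eventually_zero fun h => hz (T.sub h))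

lemma tsupport_subset (T : Tst n O K u φ) : tsupport (tst O u φ) ⊆ K :=
  closure_minimal (fun z hz => by
    by_contra h
    exact hz (T.tst_zero h)) T.isCompact.isClosed

lemma hasCompactSupport (T : Tst n O K u φ) : HasCompactSupport (tst O u φ) :=
  T.isCompact.of_isClosed_subset (isClosed_tsupport _) T.tsupport_subset

lemma mGam_eq (T : Tst n O K u φ) {z : M} (hz : z ∈ O) (k : M → ℝ) :
    mGam n (tst O u φ) k z =
      ∑ c, pderiv c φ (u z) * mGam n (fun q => u q c) k z := by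
  rw [mGam_congr (T.eventually hz) (EventuallyEq.refl _ k)]
  exact mGam_compV (T.smooth_φ.contDiffAt.differentiableAt (by simp))
    (fun c => (T.smooth_u z hz c).mdifferentiableAt (by simp)) k

lemma mLap_eq (T : Tst n O K u φ) {z : M} (hz : z ∈ O) :
    mLap n (tst O u φ) z = lapU n u φ z := by
  rw [mLap_congr (T.eventually hz)]
  exact mLap_compV (T.smooth_φ.contDiffAt.of_le two_le_infty)
    (fun c => (T.smooth_u z hz c).of_le two_le_infty)

lemma mGam_zero (T : Tst n O K u φ) {z : M} (hz : z ∉ K) (k : M → ℝ) :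
    mGam n (tst O u φ) k z = 0 := by
  rw [mGam_congr (T.eventually_zero hz) (EventuallyEq.refl _ k), mGam_const_left]

lemma mLap_zero (T : Tst n O K u φ) {z : M} (hz : z ∉ K) : mLap n (tst O u φ) z = 0 := by
  rw [mLap_congr (T.eventually_zero hz), mLap_const]

lemma lapU_zero (T : Tst n O K u φ) {z : M} (hz : z ∈ O) (hzK : z ∉ K) : lapU n u φ z = 0 := by
  rw [← T.mLap_eq hz, T.mLap_zero hzK]

lemma continuous_mLap (T : Tst n O K u φ) : Continuous (mLap n (tst O u φ)) := by
  refine continuous_iff_continuousAt.2 fun z => ?_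
  exact (contMDiffAt_mLap (m := 0) ((T.contMDiffAt z).of_le two_le_infty) (by norm_num)
    two_le_infty).continuousAt

lemma hasCompactSupport_mLap (T : Tst n O K u φ) : HasCompactSupport (mLap n (tst O u φ)) := by
  refine HasCompactSupport.of_support_subset_isCompact T.isCompact ?_
  intro z hz
  by_contra h
  exact hz (T.mLap_zero h)

lemma tsupport_mLap (T : Tst n O K u φ) : tsupport (mLap n (tst O u φ)) ⊆ K :=
  closure_minimal (fun z hz => by
    by_contra h
    exact hz (T.mLap_zero h)) T.isCompact.isClosed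

variable [IsRiemannianManifold (𝓡 n) M]

lemma locallyLipschitz (T : Tst n O K u φ) : LocallyLipschitz (tst O u φ) := by
  refine Ms322.LLo.loc (Ms322.LLo.of_contMDiffAt (n := n) fun z _ => ?_)
  exact (T.contMDiffAt z).of_le one_le_infty

variable [SecondCountableTopology M] [Nonempty M] [MeasurableSpace M] [BorelSpace M]

/-- integrals over `O` of functions vanishing off `K`. -/
lemma setIntegral_eq (T : Tst n O K u φ) {g G : M → ℝ} (h1 : ∀ z ∈ O, G z = g z)
    (h2 : ∀ z, z ∉ K → G z = 0) :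
    ∫ z in O, g z ∂(μHE[n] : Measure M) = ∫ z, G z ∂(μHE[n] : Measure M) := by
  rw [← setIntegral_eq_integral_of_forall_compl_eq_zero (s := O)
    (fun z hz => h2 z fun h => hz (T.sub h))]
  exact setIntegral_congr_fun T.isOpen.measurableSet fun z hz => (h1 z hz).symm

lemma integrableOn_of (T : Tst n O K u φ) {g G : M → ℝ} (h1 : ∀ z ∈ O, G z = g z)
    (hG : Integrable G (μHE[n] : Measure M)) : IntegrableOn g O (μHE[n] : Measure M) :=
  (hG.integrableOn (s := O)).congr_fun (fun z hz => h1 z hz) T.isOpen.measurableSet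

/-- `φ(u) w` is integrable on `O` for `w` continuous on `O`. -/
lemma integrableOn_mul (T : Tst n O K u φ) {w : M → ℝ} (hw : ContinuousOn w O) :
    IntegrableOn (fun z => φ (u z) * w z) O (μHE[n] : Measure M) := by
  have h1 := Ms322.integrable_mul_of_continuousOn_M (n := n) hw
    (T.locallyLipschitz.continuous) T.hasCompactSupport (T.tsupport_subset.trans T.sub)
  exact T.integrableOn_of (fun z hz => by rw [of_mem u φ hz]) h1

/-- (T1) -/
theorem integral_lapU (T : Tst n O K u φ) :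
    IntegrableOn (lapU n u φ) O (μHE[n] : Measure M) ∧
      ∫ z in O, lapU n u φ z ∂(μHE[n] : Measure M) = 0 := by
  have hX : ∀ z ∈ (univ : Set M), VSm n 1 (mgrad n (tst O u φ)) z := fun z _ =>
    VSm_mgrad ((T.contMDiffAt z).of_le two_le_infty) (by norm_num) two_le_infty
  have h0 : ∀ z, z ∉ K → mgrad n (tst O u φ) z = 0 := by
    intro z hz
    rw [mgrad_congr (T.eventually_zero hz), mgrad_const]
  have h1 := integral_mDiv_eq_zero isOpen_univ hX T.isCompact (subset_univ K) h0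
  have e : mDiv n (mgrad n (tst O u φ)) = mLap n (tst O u φ) := funext fun z => mDiv_mgrad _ z
  rw [e] at h1
  refine ⟨T.integrableOn_of (fun z hz => T.mLap_eq hz) h1.1, ?_⟩
  rw [T.setIntegral_eq (fun z hz => T.mLap_eq hz) (fun z hz => T.mLap_zero hz)]
  exact h1.2

/-- (T2) `∫ f ⟨dφ(u), dh⟩ = - ∫ φ(u) (f Δh + ⟨df, dh⟩)`. -/
theorem integral_green (T : Tst n O K u φ) {f h : M → ℝ}
    (hf : ∀ z ∈ O, ContMDiffAt (𝓡 n) 𝓘(ℝ, ℝ) 1 f z)
    (hh : ∀ z ∈ O, ContMDiffAt (𝓡 n) 𝓘(ℝ, ℝ) 2 h z) :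
    IntegrableOn (fun z => f z * ∑ c, pderiv c φ (u z) *
      mGam n (fun q => u q c) h z) O (μHE[n] : Measure M) ∧
    IntegrableOn (fun z => φ (u z) * (f z * mLap n h z + mGam n f h z)) O
      (μHE[n] : Measure M) ∧
    ∫ z in O, f z * ∑ c, pderiv c φ (u z) * mGam n (fun q => u q c) h z
        ∂(μHE[n] : Measure M) =
      - ∫ z in O, φ (u z) * (f z * mLap n h z + mGam n f h z) ∂(μHE[n] : Measure M) := by
  obtain ⟨i1, i2, i3⟩ := green T.isOpen hf hh T.locallyLipschitz T.hasCompactSupport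
    (T.tsupport_subset.trans T.sub)
  have e1 : ∀ z ∈ O, f z * mGam n (tst O u φ) h z =
      f z * ∑ c, pderiv c φ (u z) * mGam n (fun q => u q c) h z :=
    fun z hz => by rw [T.mGam_eq hz]
  have e2 : ∀ z ∈ O, tst O u φ z * (f z * mLap n h z + mGam n f h z) =
      φ (u z) * (f z * mLap n h z + mGam n f h z) := fun z hz => by rw [of_mem u φ hz]
  refine ⟨T.integrableOn_of e1 i1, T.integrableOn_of e2 i2, ?_⟩
  rw [T.setIntegral_eq e1 (fun z hz => by rw [T.mGam_zero hz, mul_zero]),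
    T.setIntegral_eq e2 (fun z hz => by rw [T.tst_zero hz, zero_mul]), i3]

/-- (T3) `∫ ⟨dφ(u), dh⟩ = - ∫ φ(u) Δh`. -/
theorem integral_ibp (T : Tst n O K u φ) {h : M → ℝ}
    (hh : ∀ z ∈ O, ContMDiffAt (𝓡 n) 𝓘(ℝ, ℝ) 2 h z) :
    IntegrableOn (fun z => ∑ c, pderiv c φ (u z) *
      mGam n (fun q => u q c) h z) O (μHE[n] : Measure M) ∧
    IntegrableOn (fun z => φ (u z) * mLap n h z) O (μHE[n] : Measure M) ∧
    ∫ z in O, ∑ c, pderiv c φ (u z) * mGam n (fun q => u q c) h z
        ∂(μHE[n] : Measure M) =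
      - ∫ z in O, φ (u z) * mLap n h z ∂(μHE[n] : Measure M) := by
  have h1 := T.integral_green (f := fun _ => (1:ℝ)) (h := h) (fun z _ => contMDiffAt_const) hh
  simp only [one_mul, mGam_const_left, add_zero] at h1
  exact h1

/-- (T4) `∫ φ(u) |dh|² = - ∫ φ(u) h Δh + ½ ∫ h² Δφ(u)`. -/
theorem integral_energy (T : Tst n O K u φ) {h : M → ℝ}
    (hh : ∀ z ∈ O, ContMDiffAt (𝓡 n) 𝓘(ℝ, ℝ) 2 h z) :
    IntegrableOn (fun z => φ (u z) * mGam n h h z) O (μHE[n] : Measure M) ∧
    IntegrableOn (fun z => φ (u z) * (h z * mLap n h z)) O (μHE[n] : Measure M) ∧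
    IntegrableOn (fun z => h z ^ 2 * lapU n u φ z) O (μHE[n] : Measure M) ∧
    ∫ z in O, φ (u z) * mGam n h h z ∂(μHE[n] : Measure M) =
      - ∫ z in O, φ (u z) * (h z * mLap n h z) ∂(μHE[n] : Measure M) +
        (1 / 2) * ∫ z in O, h z ^ 2 * lapU n u φ z ∂(μHE[n] : Measure M) := by
  have hh1 : ∀ z ∈ O, ContMDiffAt (𝓡 n) 𝓘(ℝ, ℝ) 1 h z := fun z hz => (hh z hz).of_le (by norm_num)
  have hcg : ContinuousOn (mGam n h h) O := fun z hz =>
    (contMDiffAt_mGam (n := n) (m := 1) (hh z hz) (hh z hz) (by norm_num)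
      two_le_infty).continuousAt.continuousWithinAt
  have hch : ContinuousOn h O := fun z hz => (hh z hz).continuousAt.continuousWithinAt
  have hcl : ContinuousOn (fun z => h z * mLap n h z) O :=
    hch.mul (Ms322.continuousOn_mLap hh)
  have j1 := T.integrableOn_mul hcg
  have j2 := T.integrableOn_mul hcl
  have j3' : Integrable (fun z => mLap n (tst O u φ) z * h z ^ 2) (μHE[n] : Measure M) :=
    Ms322.integrable_mul_of_continuousOn_M (n := n) (hch.pow 2) T.continuous_mLap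
      T.hasCompactSupport_mLap (T.tsupport_mLap.trans T.sub)
  have j3 : IntegrableOn (fun z => h z ^ 2 * lapU n u φ z) O (μHE[n] : Measure M) :=
    T.integrableOn_of (fun z hz => by rw [T.mLap_eq hz]; ring) j3'
  refine ⟨j1, j2, j3, ?_⟩
  -- the field `h² ∇φ(u)`
  set w := tst O u φ with hw
  have hsq : ∀ z ∈ O, ContMDiffAt (𝓡 n) 𝓘(ℝ, ℝ) 1 (fun q => h q ^ 2) z := fun z hz =>
    (hh1 z hz).pow 2
  have hX : ∀ z ∈ O, VSm n 1 (fun q => h q ^ 2 • mgrad n w q) z := fun z hz =>
    VSm.smul one_le_infty (hsq z hz)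
      (VSm_mgrad ((T.contMDiffAt z).of_le two_le_infty) (by norm_num) two_le_infty)
  have h0 : ∀ z, z ∉ K → h z ^ 2 • mgrad n w z = 0 := by
    intro z hz
    rw [mgrad_congr (T.eventually_zero hz), mgrad_const, smul_zero]
  obtain ⟨i1, i2⟩ := integral_mDiv_eq_zero T.isOpen hX T.isCompact T.sub h0
  have hdiv : ∀ z ∈ O, mDiv n (fun q => h q ^ 2 • mgrad n w q) z =
      h z ^ 2 * lapU n u φ z + 2 * (h z * ∑ c, pderiv c φ (u z) *
        mGam n (fun q => u q c) h z) := by
    intro z hz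
    rw [mDiv_smul_mgrad ((hsq z hz).mdifferentiableAt (by norm_num))
      ((T.contMDiffAt z).of_le two_le_infty), T.mLap_eq hz, ← T.mGam_eq hz]
    have e : (fun q => h q ^ 2) = fun q => h q * h q := by funext q; ring
    rw [e, mGam_mul_left ((hh1 z hz).mdifferentiableAt (by norm_num))
      ((hh1 z hz).mdifferentiableAt (by norm_num)), mGam_comm h w]
    ring
  obtain ⟨g1, g2, g3⟩ := T.integral_green hh1 hh
  have i3 : ∫ z in O, (h z ^ 2 * lapU n u φ z + 2 * (h z * ∑ c, pderiv c φ (u z) *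
        mGam n (fun q => u q c) h z)) ∂(μHE[n] : Measure M) = 0 := by
    rw [T.setIntegral_eq (G := mDiv n (fun q => h q ^ 2 • mgrad n w q)) hdiv (fun z hz =>
      mDiv_zero_off (by
        filter_upwards [T.isCompact.isClosed.isOpen_compl.mem_nhds hz] with q hq using h0 q hq))]
    exact i2
  rw [integral_add j3 (g1.const_mul 2), integral_const_mul, g3] at i3
  have e4 : ∫ z in O, φ (u z) * (h z * mLap n h z + mGam n h h z) ∂(μHE[n] : Measure M) =
      ∫ z in O, φ (u z) * (h z * mLap n h z) ∂(μHE[n] : Measure M) +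
        ∫ z in O, φ (u z) * mGam n h h z ∂(μHE[n] : Measure M) := by
    rw [← integral_add j2 j1]
    exact integral_congr_ae (Eventually.of_forall fun z => by ring)
  rw [e4] at i3
  linarith

end Tst

end Crest.Agent.R249.Vf281
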