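import Crest.Agent.R249.Vf5_281

/-!
Row 249 (helper281), D3-TST part 2: harmonic `u : M → ℝ^m` on the open set `O`.
`FF u a b = ⟨du^a, du^b⟩`, `PP u a b c = ⟨dF^{ab}, du^c⟩`, `SS u a b = ⟨Hess u^a, Hess u^b⟩`,
`RR u a b = Ric(du^a, du^b)`; integral identities (c) and pointwise identities (d) of post 1053.
-/

set_option autoImplicit false
set_option maxSynthPendingDepth 3
set_option linter.unusedSectionVars false

open scoped ContDiff Topology Manifold
open Filter Set Bundle MeasureTheory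
open Crest.GeometryTopology.CoordMetric Crest.GeometryTopology.ChartCurvature
  Crest.GeometryTopology.PointedLimit
open Crest.Agent.R202.Tens
open Crest.Agent.R247.Bo84
open Crest.Agent.R247

noncomputable section

namespace Crest.Agent.R249.Vf281

section Calc

variable (n : ℕ) {M : Type*} [TopologicalSpace M] [ChartedSpace (EuclideanSpace ℝ (Fin n)) M]
  [IsManifold 𝓘(ℝ, EuclideanSpace ℝ (Fin n)) ∞ M]
  [RiemannianBundle (fun x : M => TangentSpace 𝓘(ℝ, EuclideanSpace ℝ (Fin n)) x)]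
  [IsContMDiffRiemannianBundle 𝓘(ℝ, EuclideanSpace ℝ (Fin n)) ∞ (EuclideanSpace ℝ (Fin n))
      (fun x : M => TangentSpace 𝓘(ℝ, EuclideanSpace ℝ (Fin n)) x)]

variable {m : ℕ}

/-- `F^{ab} = ⟨du^a, du^b⟩`. -/
def FF (u : M → EuclideanSpace ℝ (Fin m)) (a b : Fin m) (z : M) : ℝ :=
  mGam n (fun q => u q a) (fun q => u q b) z

/-- `P^{ab,c} = ⟨dF^{ab}, du^c⟩`. -/
def PP (u : M → EuclideanSpace ℝ (Fin m)) (a b c : Fin m) (z : M) : ℝ :=
  mGam n (FF n u a b) (fun q => u q c) z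

/-- `S^{ab} = ⟨Hess u^a, Hess u^b⟩`. -/
def SS (u : M → EuclideanSpace ℝ (Fin m)) (a b : Fin m) (z : M) : ℝ :=
  mHessIn n (fun q => u q a) (fun q => u q b) z

/-- `R^{ab} = Ric(du^a, du^b)`. -/
def RR (u : M → EuclideanSpace ℝ (Fin m)) (a b : Fin m) (z : M) : ℝ :=
  mRic n z (mgrad n (fun q => u q a) z) (mgrad n (fun q => u q b) z)

/-- the Christoffel-type combination. -/
def kosz (P : Fin m → Fin m → Fin m → ℝ) (a b c : Fin m) : ℝ :=
  (P a b c + P a c b - P b c a) / 2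

/-- `S` as a function of `F` and `P`. -/
def sFun (G : Matrix (Fin m) (Fin m) ℝ) (P : Fin m → Fin m → Fin m → ℝ) (a b : Fin m) : ℝ :=
  ∑ c, ∑ d, ∑ e, ∑ f, G⁻¹ c d * (G⁻¹ e f * (kosz P a c e * kosz P b d f))

/-- `|dF^{ab}|²` as a function of `F` and `P`. -/
def eFun (G : Matrix (Fin m) (Fin m) ℝ) (P : Fin m → Fin m → Fin m → ℝ) (a b : Fin m) : ℝ :=
  ∑ c, ∑ d, G⁻¹ c d * (P a b c * P a b d)

variable {n}
variable {u : M → EuclideanSpace ℝ (Fin m)} {z : M}

lemma FF_symm (u : M → EuclideanSpace ℝ (Fin m)) (a b : Fin m) (z : M) :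
    FF n u a b z = FF n u b a z := mGam_comm _ _ _

lemma PP_symm (u : M → EuclideanSpace ℝ (Fin m)) (a b c : Fin m) (z : M) :
    PP n u a b c z = PP n u b a c z := by
  have h : FF n u a b = FF n u b a := funext fun q => FF_symm u a b q
  rw [PP, PP, h]

/-- Koszul: `Hess u^a(∇u^b, ∇u^c)`. -/
theorem mHess_kosz (hu : ∀ c, ContMDiffAt (𝓡 n) 𝓘(ℝ, ℝ) 2 (fun q => u q c) z) (a b c : Fin m) :
    mHess n (fun q => u q a) z (mgrad n (fun q => u q b) z) (mgrad n (fun q => u q c) z) =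
      kosz (fun a b c => PP n u a b c z) a b c := by
  have h1 := mHess_mgrad (hu a) (hu b) (hu c)
  have h2 : kosz (fun a b c => PP n u a b c z) a b c =
      (mGam n (mGam n (fun q => u q a) (fun q => u q b)) (fun q => u q c) z +
        mGam n (mGam n (fun q => u q a) (fun q => u q c)) (fun q => u q b) z -
        mGam n (mGam n (fun q => u q b) (fun q => u q c)) (fun q => u q a) z) / 2 := rfl
  rw [h2]
  linarith

/-- `ΔF^{ab} = 2 S^{ab} + 2 R^{ab}` for harmonic `u`. -/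
theorem mLap_FF {O : Set M} (hO : IsOpen O)
    (hu : ∀ z ∈ O, ∀ c, ContMDiffAt (𝓡 n) 𝓘(ℝ, ℝ) 3 (fun q => u q c) z)
    (hH : ∀ z ∈ O, ∀ c, mLap n (fun q => u q c) z = 0) (hz : z ∈ O) (a b : Fin m) :
    mLap n (FF n u a b) z = 2 * SS n u a b z + 2 * RR n u a b z := by
  have h0 : ∀ c, mLap n (fun q => u q c) =ᶠ[𝓝 z] fun _ => 0 := by
    intro c
    filter_upwards [hO.mem_nhds hz] with q hq using hH q hq c
  have h1 := mBochner_polar (hu z hz a) (hu z hz b)
  rw [mGam_congr (h0 a) (EventuallyEq.refl _ _), mGam_const_left,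
    mGam_congr (EventuallyEq.refl _ _) (h0 b), mGam_const_right] at h1
  have h2 : mLap n (FF n u a b) z =
    mLap n (mGam n (fun q => u q a) (fun q => u q b)) z := rfl
  rw [h2, h1]
  simp only [SS, RR]
  ring

lemma abs_PP_le (a b c : Fin m) (z : M) :
    |PP n u a b c z| ≤ Real.sqrt (mGam n (FF n u a b) (FF n u a b) z) *
      Real.sqrt (FF n u c c z) := by
  rw [← Real.sqrt_mul (mGam_self_nonneg _ _)]
  exact Real.abs_le_sqrt (mGam_sq_le _ _ _)

lemma RR_symm (u : M → EuclideanSpace ℝ (Fin m)) (a b : Fin m) (z : M) :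
    RR n u a b z = RR n u b a z := mRic_symm _ _ _

lemma contMDiffAt_FF {k l : WithTop ℕ∞} (hu : ∀ c, ContMDiffAt (𝓡 n) 𝓘(ℝ, ℝ) l (fun q => u q c) z)
    (hkl : k + 1 ≤ l) (hl : l ≤ ∞) (a b : Fin m) :
    ContMDiffAt (𝓡 n) 𝓘(ℝ, ℝ) k (FF n u a b) z := contMDiffAt_mGam (hu a) (hu b) hkl hl

end Calc

section Gram

variable {n : ℕ} {M : Type*} [TopologicalSpace M] [ChartedSpace (EuclideanSpace ℝ (Fin n)) M]
  [IsManifold 𝓘(ℝ, EuclideanSpace ℝ (Fin n)) ∞ M]
  [RiemannianBundle (fun x : M => TangentSpace 𝓘(ℝ, EuclideanSpace ℝ (Fin n)) x)]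
  [IsContMDiffRiemannianBundle 𝓘(ℝ, EuclideanSpace ℝ (Fin n)) ∞ (EuclideanSpace ℝ (Fin n))
      (fun x : M => TangentSpace 𝓘(ℝ, EuclideanSpace ℝ (Fin n)) x)]
  {u : M → EuclideanSpace ℝ (Fin n)} {z : M}

/-- the matrix `F` at a point. -/
def Fm (u : M → EuclideanSpace ℝ (Fin n)) (z : M) : Matrix (Fin n) (Fin n) ℝ :=
  Matrix.of fun a b => FF n u a b z

lemma Fm_eq (u : M → EuclideanSpace ℝ (Fin n)) (z : M) :
    Fm u z = gramM (fun a q => u q a) z := rfl

/-- a matrix close to the identity is invertible. -/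
lemma det_ne_zero_of_near {k : ℕ} {G : Matrix (Fin k) (Fin k) ℝ} {ε : ℝ} (hε : (k : ℝ) * ε < 1)
    (h : ∀ a b, |G a b - if a = b then 1 else 0| ≤ ε) : G.det ≠ 0 := by
  refine det_ne_zero_of_sum_row_lt_diag fun a => ?_
  have hk : 0 < k := lt_of_le_of_lt (Nat.zero_le _) a.2
  have hε0 : 0 ≤ ε := (abs_nonneg _).trans (h a a)
  have h1 : ∀ b ∈ Finset.univ.erase a, ‖G a b‖ ≤ ε := by
    intro b hb
    have := h a b
    rw [if_neg (fun e => (Finset.mem_erase.1 hb).1 e.symm), sub_zero] at this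
    exact this
  have h2 : ∑ b ∈ Finset.univ.erase a, ‖G a b‖ ≤ ((k : ℝ) - 1) * ε := by
    refine (Finset.sum_le_card_nsmul _ _ ε h1).trans ?_
    rw [Finset.card_erase_of_mem (Finset.mem_univ a), Finset.card_univ, Fintype.card_fin,
      nsmul_eq_mul, Nat.cast_sub hk, Nat.cast_one]
  have h3 := h a a
  rw [if_pos rfl] at h3
  have h4 : 1 - ε ≤ ‖G a a‖ := by
    have h5 := abs_le.1 h3
    exact le_trans (by linarith [h5.1]) (le_abs_self (G a a))
  calc ∑ b ∈ Finset.univ.erase a, ‖G a b‖ ≤ ((k : ℝ) - 1) * ε := h2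
    _ < 1 - ε := by linarith
    _ ≤ ‖G a a‖ := h4

/-- `S^{ab} = s(F, P)` where `F` is invertible. -/
theorem SS_eq_sFun (hu : ∀ c, ContMDiffAt (𝓡 n) 𝓘(ℝ, ℝ) 2 (fun q => u q c) z)
    (hdet : (Fm u z).det ≠ 0) (a b : Fin n) :
    SS n u a b z = sFun (Fm u z) (fun a b c => PP n u a b c z) a b := by
  rw [SS, mHessIn_gram (hu a) (hu b) (u := fun a q => u q a) hdet, sFun]
  refine Finset.sum_congr rfl fun c _ => Finset.sum_congr rfl fun d _ =>
    Finset.sum_congr rfl fun e _ => Finset.sum_congr rfl fun f _ => ?_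
  rw [mHess_kosz hu, mHess_kosz hu]
  rfl

/-- `|dF^{ab}|² = e(F, P)` where `F` is invertible. -/
theorem mGam_FF_eq_eFun (hdet : (Fm u z).det ≠ 0) (a b : Fin n) :
    mGam n (FF n u a b) (FF n u a b) z = eFun (Fm u z) (fun a b c => PP n u a b c z) a b :=
  mGam_gram (u := fun a q => u q a) hdet _ _

end Gram

section Int

variable {n : ℕ} {M : Type*} [MetricSpace M] [ChartedSpace (EuclideanSpace ℝ (Fin n)) M]
  [IsManifold (𝓡 n) ∞ M]
  [RiemannianBundle (fun p : M => TangentSpace (𝓡 n) p)]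
  [IsContMDiffRiemannianBundle (𝓡 n) ∞ (EuclideanSpace ℝ (Fin n)) (fun p : M => TangentSpace (𝓡 n) p)]
  {m : ℕ} {O K : Set M} {u : M → EuclideanSpace ℝ (Fin m)} {φ : EuclideanSpace ℝ (Fin m) → ℝ}

namespace Tst

lemma smooth_FF (T : Tst n O K u φ) (a b : Fin m) {z : M} (hz : z ∈ O) :
    ContMDiffAt (𝓡 n) 𝓘(ℝ, ℝ) ∞ (FF n u a b) z :=
  contMDiffAt_FF (T.smooth_u z hz) (by simp) le_rfl a b

lemma lapU_eq (hH : ∀ z ∈ O, ∀ c, mLap n (fun q => u q c) z = 0) {z : M} (hz : z ∈ O) :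
    lapU n u φ z = ∑ c, ∑ d, pderiv d (pderiv c φ) (u z) * FF n u c d z := by
  rw [lapU]
  simp only [hH z hz, mul_zero, Finset.sum_const_zero, zero_add]
  rfl

variable [IsRiemannianManifold (𝓡 n) M]
  [SecondCountableTopology M] [Nonempty M] [MeasurableSpace M] [BorelSpace M]

/-- (c1) `∫ φ_{cd}(u) F^{cd} = 0`. -/
theorem c1 (T : Tst n O K u φ) (hH : ∀ z ∈ O, ∀ c, mLap n (fun q => u q c) z = 0) :
    IntegrableOn (fun z => ∑ c, ∑ d, pderiv d (pderiv c φ) (u z) * FF n u c d z) O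
      (μHE[n] : Measure M) ∧
    ∫ z in O, ∑ c, ∑ d, pderiv d (pderiv c φ) (u z) * FF n u c d z ∂(μHE[n] : Measure M) = 0 := by
  obtain ⟨h1, h2⟩ := T.integral_lapU
  refine ⟨h1.congr_fun (fun z hz => lapU_eq hH hz) T.isOpen.measurableSet, ?_⟩
  rw [← h2]
  exact setIntegral_congr_fun T.isOpen.measurableSet fun z hz => (lapU_eq hH hz).symm

/-- (c1') `∫ φ_c(u) F^{ce} = 0`. -/
theorem c1' (T : Tst n O K u φ) (hH : ∀ z ∈ O, ∀ c, mLap n (fun q => u q c) z = 0) (e : Fin m) :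
    IntegrableOn (fun z => ∑ c, pderiv c φ (u z) * FF n u c e z) O (μHE[n] : Measure M) ∧
    ∫ z in O, ∑ c, pderiv c φ (u z) * FF n u c e z ∂(μHE[n] : Measure M) = 0 := by
  obtain ⟨h1, h2, h3⟩ := T.integral_ibp (h := fun q => u q e)
    (fun z hz => (T.smooth_u z hz e).of_le two_le_infty)
  refine ⟨h1, ?_⟩
  have h4 : ∫ z in O, φ (u z) * mLap n (fun q => u q e) z ∂(μHE[n] : Measure M) = 0 := by
    rw [setIntegral_congr_fun (g := fun _ => (0:ℝ)) T.isOpen.measurableSet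
      fun z hz => by simp only [hH z hz e, mul_zero]]
    simp
  rw [h4, neg_zero] at h3
  exact h3

/-- (c2) `∫ φ(u) P^{ab,c} = - ∫ F^{ab} φ_d(u) F^{dc}`. -/
theorem c2 (T : Tst n O K u φ) (hH : ∀ z ∈ O, ∀ c, mLap n (fun q => u q c) z = 0)
    (a b c : Fin m) :
    IntegrableOn (fun z => φ (u z) * PP n u a b c z) O (μHE[n] : Measure M) ∧
    IntegrableOn (fun z => FF n u a b z * ∑ d, pderiv d φ (u z) * FF n u d c z) O
      (μHE[n] : Measure M) ∧
    ∫ z in O, φ (u z) * PP n u a b c z ∂(μHE[n] : Measure M) =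
      - ∫ z in O, FF n u a b z * ∑ d, pderiv d φ (u z) * FF n u d c z
        ∂(μHE[n] : Measure M) := by
  obtain ⟨h1, h2, h3⟩ := T.integral_green (f := FF n u a b) (h := fun q => u q c)
    (fun z hz => (T.smooth_FF a b hz).of_le one_le_infty)
    (fun z hz => (T.smooth_u z hz c).of_le two_le_infty)
  have e : ∀ z ∈ O, φ (u z) * (FF n u a b z * mLap n (fun q => u q c) z +
      mGam n (FF n u a b) (fun q => u q c) z) = φ (u z) * PP n u a b c z := by
    intro z hz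
    rw [hH z hz c, mul_zero, zero_add]
    rfl
  refine ⟨h2.congr_fun e T.isOpen.measurableSet, h1, ?_⟩
  rw [setIntegral_congr_fun T.isOpen.measurableSet e] at h3
  have h5 : ∫ z in O, FF n u a b z * ∑ d, pderiv d φ (u z) * FF n u d c z
        ∂(μHE[n] : Measure M) = - ∫ z in O, φ (u z) * PP n u a b c z ∂(μHE[n] : Measure M) := h3
  rw [h5, neg_neg]

/-- (c3) `∫ φ_c(u) P^{ab,c} = - ∫ φ(u) (2 S^{ab} + 2 R^{ab})`. -/
theorem c3 (T : Tst n O K u φ) (hH : ∀ z ∈ O, ∀ c, mLap n (fun q => u q c) z = 0)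
    (a b : Fin m) :
    IntegrableOn (fun z => ∑ c, pderiv c φ (u z) * PP n u a b c z) O (μHE[n] : Measure M) ∧
    IntegrableOn (fun z => φ (u z) * (2 * SS n u a b z + 2 * RR n u a b z)) O
      (μHE[n] : Measure M) ∧
    ∫ z in O, ∑ c, pderiv c φ (u z) * PP n u a b c z ∂(μHE[n] : Measure M) =
      - ∫ z in O, φ (u z) * (2 * SS n u a b z + 2 * RR n u a b z) ∂(μHE[n] : Measure M) := by
  obtain ⟨h1, h2, h3⟩ := T.integral_ibp (h := FF n u a b)
    (fun z hz => (T.smooth_FF a b hz).of_le two_le_infty)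
  have e1 : ∀ z ∈ O, ∑ c, pderiv c φ (u z) * mGam n (fun q => u q c) (FF n u a b) z =
      ∑ c, pderiv c φ (u z) * PP n u a b c z := fun z _ =>
    Finset.sum_congr rfl fun c _ => by rw [mGam_comm]; rfl
  have e2 : ∀ z ∈ O, φ (u z) * mLap n (FF n u a b) z =
      φ (u z) * (2 * SS n u a b z + 2 * RR n u a b z) := fun z hz => by
    rw [mLap_FF T.isOpen (fun w hw c => (T.smooth_u w hw c).of_le three_le_infty) hH hz]
  refine ⟨h1.congr_fun e1 T.isOpen.measurableSet, h2.congr_fun e2 T.isOpen.measurableSet, ?_⟩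
  rw [setIntegral_congr_fun T.isOpen.measurableSet e1,
    setIntegral_congr_fun T.isOpen.measurableSet e2] at h3
  exact h3

/-- (c4) `∫ φ(u) |dF^{ab}|² = - ∫ φ(u) F^{ab} (2 S^{ab} + 2 R^{ab}) + ½ ∫ (F^{ab})² φ_{cd}(u) F^{cd}`. -/
theorem c4 (T : Tst n O K u φ) (hH : ∀ z ∈ O, ∀ c, mLap n (fun q => u q c) z = 0)
    (a b : Fin m) :
    IntegrableOn (fun z => φ (u z) * mGam n (FF n u a b) (FF n u a b) z) O
      (μHE[n] : Measure M) ∧
    IntegrableOn (fun z => φ (u z) * (FF n u a b z * (2 * SS n u a b z + 2 * RR n u a b z))) O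
      (μHE[n] : Measure M) ∧
    IntegrableOn (fun z => FF n u a b z ^ 2 *
      ∑ c, ∑ d, pderiv d (pderiv c φ) (u z) * FF n u c d z) O (μHE[n] : Measure M) ∧
    ∫ z in O, φ (u z) * mGam n (FF n u a b) (FF n u a b) z ∂(μHE[n] : Measure M) =
      - ∫ z in O, φ (u z) * (FF n u a b z * (2 * SS n u a b z + 2 * RR n u a b z))
          ∂(μHE[n] : Measure M) +
        (1 / 2) * ∫ z in O, FF n u a b z ^ 2 *
          ∑ c, ∑ d, pderiv d (pderiv c φ) (u z) * FF n u c d z ∂(μHE[n] : Measure M) := by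
  obtain ⟨h1, h2, h3, h4⟩ := T.integral_energy (h := FF n u a b)
    (fun z hz => (T.smooth_FF a b hz).of_le two_le_infty)
  have e2 : ∀ z ∈ O, φ (u z) * (FF n u a b z * mLap n (FF n u a b) z) =
      φ (u z) * (FF n u a b z * (2 * SS n u a b z + 2 * RR n u a b z)) := fun z hz => by
    rw [mLap_FF T.isOpen (fun w hw c => (T.smooth_u w hw c).of_le three_le_infty) hH hz]
  have e3 : ∀ z ∈ O, FF n u a b z ^ 2 * lapU n u φ z = FF n u a b z ^ 2 *
      ∑ c, ∑ d, pderiv d (pderiv c φ) (u z) * FF n u c d z := fun z hz => by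
    rw [lapU_eq hH hz]
  refine ⟨h1, h2.congr_fun e2 T.isOpen.measurableSet, h3.congr_fun e3 T.isOpen.measurableSet, ?_⟩
  rw [setIntegral_congr_fun T.isOpen.measurableSet e2,
    setIntegral_congr_fun T.isOpen.measurableSet e3] at h4
  exact h4

end Tst

end Int

end Crest.Agent.R249.Vf281
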