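import Crest.Agent.R249.Vf4_281
import Crest.Agent.R247.HR_216
import Crest.Agent.R247.Ms1_322
import Crest.Agent.R247.Bs2_84

/-!
# R249, D3-LIM/WH (1) (helper509): weak harmonicity tested with functions of harmonic maps

One manifold:
* `lip_of_grad` : `C¹` function with `|∇f| ≤ Λ` on `ball x r` is `Λ`-Lipschitz on `ball x (r/2)`;
* `harm_test`   : `∫ w Δτ = 0`, `w` harmonic on `U`, `τ` a test function in `U`;
* `wh_one`      : `∫_{ball x R} w Σᵢⱼ φᵢⱼ(u) ⟨duⁱ, duʲ⟩ = 0`, `w`, `uⁱ` harmonic on `ball x R`;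
* `coord_one`   : `∫_{ball x R} Σᵢ φᵢ(u) ⟨duⁱ, duʲ⟩ = 0`.
-/

set_option autoImplicit false
set_option maxSynthPendingDepth 3
set_option linter.unusedSectionVars false

open Bundle Set MeasureTheory Manifold Filter Metric Topology
open scoped ENNReal ContDiff Topology NNReal RealInnerProductSpace
open Crest.GeometryTopology.CoordMetric Crest.GeometryTopology.ChartCurvature
open Crest.GeometryTopology.PointedLimit
open Crest.Agent.R247 Crest.Agent.R247.Ms322 Crest.Agent.R247.Bo84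
open Crest.Agent.R249.Vf281 Crest.Agent.R247.Bs84

noncomputable section
namespace Crest.Agent.R249.WH_509

/-! ### Lipschitz bounds from gradient bounds -/

/-- local Lipschitz bounds on `[0,1]` add up. -/
theorem abs_sub_le_of_local {f : ℝ → ℝ} {C : ℝ}
    (hC : ∀ t ∈ Icc (0 : ℝ) 1, ∃ δ : ℝ, 0 < δ ∧ ∀ a ∈ Icc (0 : ℝ) 1, ∀ b ∈ Icc (0 : ℝ) 1,
      |a - t| < δ → |b - t| < δ → |f a - f b| ≤ C * |a - b|) :
    |f 1 - f 0| ≤ C := by
  have hcont : ContinuousOn f (Icc 0 1) := by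
    intro t ht
    obtain ⟨δ, hδ, h⟩ := hC t ht
    rw [ContinuousWithinAt, Metric.tendsto_nhdsWithin_nhds]
    intro ε hε
    refine ⟨min δ (ε / (|C| + 1)), lt_min hδ (by positivity), fun s hs hst => ?_⟩
    rw [Real.dist_eq] at hst ⊢
    have h1 := h s hs t ht (hst.trans_le (min_le_left _ _)) (by simpa using hδ)
    have h2 : |s - t| < ε / (|C| + 1) := hst.trans_le (min_le_right _ _)
    rw [lt_div_iff₀ (by positivity)] at h2
    have h3 : C * |s - t| ≤ |C| * |s - t| := by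
      gcongr
      exact le_abs_self C
    have h4 : 0 ≤ |s - t| := abs_nonneg _
    by_cases h5 : |s - t| = 0
    · rw [h5] at h1
      linarith
    · have : 0 < |s - t| := lt_of_le_of_ne h4 (Ne.symm h5)
      nlinarith
  have hS : Icc (0 : ℝ) 1 ⊆ {t | |f t - f 0| ≤ C * t} := by
    refine IsClosed.Icc_subset_of_forall_exists_gt ?_ (by simp) ?_
    · have h1 : ContinuousOn (fun t => |f t - f 0| - C * t) (Icc 0 1) :=
        ((hcont.sub continuousOn_const).abs).sub (continuousOn_const.mul continuousOn_id)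
      have h2 := h1.preimage_isClosed_of_isClosed isClosed_Icc (isClosed_Iic (a := (0:ℝ)))
      convert h2 using 1
      ext t
      simp only [mem_inter_iff, mem_ofPred_eq, mem_preimage, mem_Iic, sub_nonpos]
      tauto
    · intro t ht y hy
      obtain ⟨δ, hδ, h⟩ := hC t ⟨ht.2.1, ht.2.2.le⟩
      have ht1 : t < 1 := ht.2.2
      have hty : t < y := hy
      set s := min (t + δ / 2) (min y 1) with hs
      have hts : t < s := lt_min (by linarith) (lt_min hty ht1)
      have hs1 : s ≤ 1 := (min_le_right _ _).trans (min_le_right _ _)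
      have hsδ : s ≤ t + δ / 2 := min_le_left _ _
      refine ⟨s, ?_, hts, (min_le_right _ _).trans (min_le_left _ _)⟩
      have h1 := h s ⟨ht.2.1.trans hts.le, hs1⟩ t ⟨ht.2.1, ht1.le⟩
        (by rw [abs_of_pos (by linarith)]; linarith) (by simpa using hδ)
      have h2 : |f t - f 0| ≤ C * t := ht.1
      rw [abs_of_pos (show 0 < s - t by linarith)] at h1
      rw [mem_ofPred_eq]
      have h3 := abs_sub_le (f s) (f t) (f 0)
      nlinarith
  have := hS (right_mem_Icc.2 zero_le_one)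
  simpa using this

section One

variable {n : ℕ} {M : Type*} [MetricSpace M] [ChartedSpace (EuclideanSpace ℝ (Fin n)) M]
  [IsManifold 𝓘(ℝ, EuclideanSpace ℝ (Fin n)) ∞ M]
  [RiemannianBundle (fun x : M => TangentSpace 𝓘(ℝ, EuclideanSpace ℝ (Fin n)) x)]
  [IsContMDiffRiemannianBundle 𝓘(ℝ, EuclideanSpace ℝ (Fin n)) ∞ (EuclideanSpace ℝ (Fin n))
    (fun x : M => TangentSpace 𝓘(ℝ, EuclideanSpace ℝ (Fin n)) x)]
  [IsRiemannianManifold 𝓘(ℝ, EuclideanSpace ℝ (Fin n)) M]

local notation "𝔼" => EuclideanSpace ℝ (Fin n)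
local notation "𝓘E" => 𝓘(ℝ, EuclideanSpace ℝ (Fin n))

theorem lip_local {f : M → ℝ} {U : Set M} {Λ : ℝ} (hΛ : 0 < Λ) (hU : IsOpen U)
    (hf : ∀ z ∈ U, ContMDiffAt 𝓘E 𝓘(ℝ, ℝ) 1 f z) (hg : ∀ z ∈ U, mGam n f f z ≤ Λ ^ 2)
    {x : M} (hx : x ∈ U) :
    ∃ V ∈ 𝓝 x, V ⊆ U ∧ LipschitzOnWith (Real.toNNReal Λ) f V := by
  refine exists_lipschitzOnWith_of_bound' (I := 𝓘E) (Real.toNNReal_pos.2 hΛ) hU
    (fun z hz => (hf z hz).contMDiffWithinAt) ?_ hx
  intro y hy v w hw
  have h1 : inner ℝ (mgrad n f y) v = w := by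
    rw [← hw]
    exact inner_mgrad f y v
  have h2 : ‖w‖ ≤ Λ * ‖v‖ := by
    rw [← h1]
    refine (abs_real_inner_le_norm _ _).trans ?_
    have h3 := hg y hy
    rw [mGam_self] at h3
    have h4 : ‖mgrad n f y‖ ≤ Λ := abs_le_of_sq_le_sq' h3 hΛ.le |>.2
    gcongr
  have h6 : (Real.toNNReal Λ : ℝ≥0∞) * ‖v‖ₑ = ENNReal.ofReal (Λ * ‖v‖) := by
    rw [ENNReal.ofReal_mul hΛ.le, ← ofReal_norm]
    rfl
  rw [h6, ← ofReal_norm]
  exact ENNReal.ofReal_le_ofReal h2

variable [CompleteSpace M] [ConnectedSpace M]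

/-- `|∇f| ≤ Λ` on `ball x r` gives a Lipschitz bound on `ball x (r/2)`. -/
theorem lip_of_grad {f : M → ℝ} {Λ r : ℝ} {x : M} (hΛ : 0 < Λ)
    (hf : ∀ z ∈ ball x r, ContMDiffAt 𝓘E 𝓘(ℝ, ℝ) 1 f z)
    (hg : ∀ z ∈ ball x r, mGam n f f z ≤ Λ ^ 2) {y z : M} (hy : y ∈ ball x (r / 2))
    (hz : z ∈ ball x (r / 2)) : |f y - f z| ≤ Λ * dist y z := by
  have hyz : dist y z < r := by
    rw [mem_ball] at hy hz
    have := dist_triangle_right y z x
    linarith
  obtain ⟨γ, h0, h1, hγ⟩ := HR216.exists_geodesic_of_riemannian n y z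
  have hmem : ∀ t ∈ Icc (0 : ℝ) 1, γ t ∈ ball x r := by
    intro t ht
    have e1 : dist y (γ t) = t * dist y z := by
      rw [← h0, hγ 0 ⟨le_rfl, zero_le_one⟩ t ht, h0, zero_sub, abs_neg, abs_of_nonneg ht.1]
    have e2 : dist (γ t) z = (1 - t) * dist y z := by
      have e3 := hγ t ht 1 ⟨zero_le_one, le_rfl⟩
      rw [h1, abs_sub_comm, abs_of_nonneg (by linarith [ht.2])] at e3
      exact e3
    rw [mem_ball] at hy hz ⊢
    have hd : 0 ≤ dist y z := dist_nonneg
    rcases le_total t (1 / 2) with h | h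
    · have h3 := dist_triangle_left (γ t) x y
      have h4 : t * dist y z ≤ 1 / 2 * dist y z := by gcongr
      linarith
    · have h3 := dist_triangle (γ t) z x
      have h4 : (1 - t) * dist y z ≤ 1 / 2 * dist y z := by
        apply mul_le_mul_of_nonneg_right _ hd
        linarith
      linarith
  have key := abs_sub_le_of_local (f := fun t => f (γ t)) (C := Λ * dist y z) (fun t ht => by
    obtain ⟨V, hV, -, hVL⟩ := lip_local (n := n) hΛ isOpen_ball hf hg (hmem t ht)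
    obtain ⟨ε, hε, hεV⟩ := Metric.mem_nhds_iff.1 hV
    refine ⟨ε / (dist y z + 1), by positivity, fun a ha b hb hat hbt => ?_⟩
    have hin : ∀ s ∈ Icc (0 : ℝ) 1, |s - t| < ε / (dist y z + 1) → γ s ∈ V := by
      intro s hs hst
      apply hεV
      rw [mem_ball, hγ s hs t ht]
      rw [lt_div_iff₀ (by positivity)] at hst
      have := abs_nonneg (s - t)
      nlinarith
    have h3 := hVL.dist_le_mul _ (hin a ha hat) _ (hin b hb hbt)
    rw [Real.dist_eq, hγ a ha b hb, Real.coe_toNNReal _ hΛ.le] at h3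
    calc |f (γ a) - f (γ b)| ≤ Λ * (|a - b| * dist y z) := h3
      _ = Λ * dist y z * |a - b| := by ring)
  simp only [h0, h1] at key
  rwa [abs_sub_comm] at key

/-! ### test functions -/

variable [MeasurableSpace M] [BorelSpace M] [SecondCountableTopology M] [Nonempty M]

local notation "μM" => (μHE[n] : Measure M)

theorem harm_test {U : Set M} (hU : IsOpen U) {w τ : M → ℝ}
    (hw : ∀ z ∈ U, ContMDiffAt 𝓘E 𝓘(ℝ, ℝ) 2 w z) (hL : ∀ z ∈ U, mLap n w z = 0)
    (hτ : ∀ z, ContMDiffAt 𝓘E 𝓘(ℝ, ℝ) 2 τ z) (hc : HasCompactSupport τ)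
    (hs : tsupport τ ⊆ U) :
    ∫ z, w z * mLap n τ z ∂μM = 0 := by
  have := HR216.properSpace_of_riemannian n M
  obtain ⟨χ, ⟨L, hL1⟩, hχc, hχU, ⟨V, hVo, hKV, hV1⟩, -⟩ :=
    exists_lip_cutoff hc.isCompact hU hs
  have hτL : LocallyLipschitz τ := fun z => exists_lipschitzOnWith_of_contMDiffAt (n := n)
    ((hτ z).of_le (by norm_num))
  have hoff : ∀ z, z ∉ tsupport τ → τ =ᶠ[𝓝 z] fun _ => (0:ℝ) := fun z hz =>
    notMem_tsupport_iff_eventuallyEq.1 hz
  have hone : ∀ z ∈ tsupport τ, χ =ᶠ[𝓝 z] fun _ => (1:ℝ) := fun z hz => by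
    filter_upwards [hVo.mem_nhds (hKV hz)] with y hy using hV1 y hy
  obtain ⟨iA1, iA2, eA⟩ := green (n := n) hU (f := fun _ => (1:ℝ)) (h := w) (φ := τ)
    (fun z _ => contMDiffAt_const) hw hτL hc hs
  obtain ⟨iB1, iB2, eB⟩ := green (n := n) hU (f := w) (h := τ) (φ := χ)
    (fun z hz => (hw z hz).of_le (by norm_num)) (fun z _ => hτ z) hL1.locallyLipschitz hχc hχU
  have a1 : (fun z => τ z * (1 * mLap n w z + mGam n (fun _ => (1:ℝ)) w z)) =
      fun _ => (0:ℝ) := by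
    funext z
    by_cases hz : z ∈ tsupport τ
    · rw [hL z (hs hz), mGam_const_left]
      ring
    · rw [image_eq_zero_of_notMem_tsupport hz, zero_mul]
  have a2 : ∫ z, mGam n τ w z ∂μM = 0 := by
    rw [a1] at eA
    simpa using eA
  have iA3 : Integrable (fun z => mGam n τ w z) μM := by simpa using iA1
  have b1 : (fun z => w z * mGam n χ τ z) = fun _ => (0:ℝ) := by
    funext z
    by_cases hz : z ∈ tsupport τ
    · rw [mGam_congr (n := n) (hone z hz) (EventuallyEq.refl _ τ), mGam_const_left, mul_zero]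
    · rw [mGam_congr (n := n) (EventuallyEq.refl _ χ) (hoff z hz), mGam_const_right, mul_zero]
  have b2 : (fun z => χ z * (w z * mLap n τ z + mGam n w τ z)) =
      fun z => w z * mLap n τ z + mGam n w τ z := by
    funext z
    by_cases hz : z ∈ tsupport τ
    · rw [hV1 z (hKV hz), one_mul]
    · rw [mGam_congr (n := n) (EventuallyEq.refl _ w) (hoff z hz), mGam_const_right,
        mLap_congr (n := n) (hoff z hz), mLap_const, mul_zero, add_zero, mul_zero]
  rw [b1, b2, integral_zero] at eB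
  rw [b2] at iB2
  have b3 : ∫ z, (w z * mLap n τ z + mGam n w τ z) ∂μM = 0 := by linarith
  have b4 : Integrable (fun z => mGam n w τ z) μM := by
    refine iA3.congr (Eventually.of_forall fun z => ?_)
    exact mGam_comm τ w z
  have b5 : ∫ z, mGam n w τ z ∂μM = 0 := by
    rw [← a2]
    refine integral_congr_ae (Eventually.of_forall fun z => ?_)
    exact mGam_comm w τ z
  have b6 : (fun z => w z * mLap n τ z) =
      fun z => (w z * mLap n τ z + mGam n w τ z) - mGam n w τ z := by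
    funext z; ring
  rw [b6, integral_sub iB2 b4, b3, b5, sub_zero]

/-- the extension by zero of `φ ∘ u`. -/
theorem ind_smooth {U K : Set M} (hU : IsOpen U) (hK : IsClosed K) (hKU : K ⊆ U)
    {u : M → 𝔼} (hu : ∀ a, ∀ z ∈ U, ContMDiffAt 𝓘E 𝓘(ℝ, ℝ) 2 (fun y => u y a) z)
    {φ : 𝔼 → ℝ} (hφ : ContDiff ℝ 2 φ) (hsup : ∀ z ∈ U, u z ∈ tsupport φ → z ∈ K) :
    (∀ z, ContMDiffAt 𝓘E 𝓘(ℝ, ℝ) 2 (U.indicator fun y => φ (u y)) z) ∧
      tsupport (U.indicator fun y => φ (u y)) ⊆ K ∧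
      (∀ z ∈ U, (U.indicator fun y => φ (u y)) =ᶠ[𝓝 z] fun y => φ (u y)) ∧
      (∀ z, z ∉ U → (U.indicator fun y => φ (u y)) =ᶠ[𝓝 z] fun _ => (0:ℝ)) := by
  have h0 : ∀ z, z ∉ K → (U.indicator fun y => φ (u y)) z = 0 := by
    intro z hz
    by_cases hzU : z ∈ U
    · rw [indicator_of_mem hzU]
      exact image_eq_zero_of_notMem_tsupport fun h => hz (hsup z hzU h)
    · exact indicator_of_notMem hzU _
  have h1 : ∀ z ∈ U, (U.indicator fun y => φ (u y)) =ᶠ[𝓝 z] fun y => φ (u y) := fun z hz => by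
    filter_upwards [hU.mem_nhds hz] with y hy using indicator_of_mem hy _
  have h2 : ∀ z, z ∉ K → (U.indicator fun y => φ (u y)) =ᶠ[𝓝 z] fun _ => (0:ℝ) := fun z hz => by
    filter_upwards [hK.isOpen_compl.mem_nhds hz] with y hy using h0 y hy
  refine ⟨fun z => ?_, ?_, h1, fun z hz => h2 z fun h => hz (hKU h)⟩
  · by_cases hz : z ∈ U
    · refine ContMDiffAt.congr_of_eventuallyEq ?_ (h1 z hz)
      exact contMDiffAt_compV two_le_infty hφ.contDiffAt fun a => hu a z hz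
    · refine ContMDiffAt.congr_of_eventuallyEq contMDiffAt_const (h2 z fun h => hz (hKU h))
  · exact closure_minimal (fun z hz => by
      by_contra h
      exact hz (h0 z h)) hK

lemma pderiv_eq_zero {φ : 𝔼 → ℝ} {y : 𝔼} (hy : y ∉ tsupport φ) (i : Fin n) :
    pderiv i φ y = 0 := by
  have h1 : φ =ᶠ[𝓝 y] fun _ => (0:ℝ) := notMem_tsupport_iff_eventuallyEq.1 hy
  have h2 : pderiv i φ y = pderiv i (fun _ : 𝔼 => (0:ℝ)) y := by
    unfold pderiv
    rw [h1.fderiv_eq]
  rw [h2]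
  unfold pderiv
  simp

lemma pderiv2_eq_zero {φ : 𝔼 → ℝ} {y : 𝔼} (hy : y ∉ tsupport φ) (i j : Fin n) :
    pderiv i (pderiv j φ) y = 0 := by
  have h1 : ∀ᶠ z in 𝓝 y, z ∉ tsupport φ := (isClosed_tsupport φ).isOpen_compl.mem_nhds hy
  have h2 : pderiv j φ =ᶠ[𝓝 y] fun _ => (0:ℝ) := by
    filter_upwards [h1] with z hz using pderiv_eq_zero hz j
  have h3 : pderiv i (pderiv j φ) y = pderiv i (fun _ : 𝔼 => (0:ℝ)) y := by
    unfold pderiv at h2 ⊢
    rw [h2.fderiv_eq]
  rw [h3]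
  unfold pderiv
  simp

/-- **weak harmonicity on one manifold.** -/
theorem wh_one {U W K : Set M} (hU : IsOpen U) (hW : IsOpen W) (hK : IsCompact K) (hKU : K ⊆ U)
    (hKW : K ⊆ W) {u : M → 𝔼} {w : M → ℝ}
    (hu : ∀ a, ∀ z ∈ U, ContMDiffAt 𝓘E 𝓘(ℝ, ℝ) 2 (fun y => u y a) z)
    (huL : ∀ a, ∀ z ∈ U, mLap n (fun y => u y a) z = 0)
    (hw : ∀ z ∈ W, ContMDiffAt 𝓘E 𝓘(ℝ, ℝ) 2 w z)
    (hL : ∀ z ∈ W, mLap n w z = 0)
    {φ : 𝔼 → ℝ} (hφ : ContDiff ℝ 2 φ) (hsup : ∀ z ∈ U, u z ∈ tsupport φ → z ∈ K) :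
    ∫ z in U, w z * ∑ i, ∑ j, pderiv i (pderiv j φ) (u z) *
      mGam n (fun y => u y i) (fun y => u y j) z ∂μM = 0 := by
  obtain ⟨h1, h2, h3, h4⟩ := ind_smooth hU hK.isClosed hKU hu hφ hsup
  have h5 : HasCompactSupport (U.indicator fun y => φ (u y)) :=
    hK.of_isClosed_subset (isClosed_tsupport _) h2
  have key := harm_test hW hw hL h1 h5 (h2.trans hKW)
  rw [← key, ← setIntegral_eq_integral_of_forall_compl_eq_zero (s := U)
    (f := fun z => w z * mLap n (U.indicator fun y => φ (u y)) z)]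
  · refine setIntegral_congr_fun hU.measurableSet fun z hz => ?_
    simp only
    rw [mLap_congr (h3 z hz), mLap_compV hφ.contDiffAt fun a => hu a z hz]
    have e0 : ∑ c, pderiv c φ (u z) * mLap n (fun q => u q c) z = 0 :=
      Finset.sum_eq_zero fun c _ => by rw [huL c z hz, mul_zero]
    rw [e0, zero_add]
    congr 1
    rw [Finset.sum_comm]
    refine Finset.sum_congr rfl fun i _ => Finset.sum_congr rfl fun j _ => ?_
    rw [mGam_comm]
  · intro z hz
    rw [mLap_congr (h4 z hz), mLap_const, mul_zero]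

/-- **the coordinates are weakly harmonic, one manifold.** -/
theorem coord_one {U K : Set M} (hU : IsOpen U) (hK : IsCompact K) (hKU : K ⊆ U)
    {u : M → 𝔼}
    (hu : ∀ a, ∀ z ∈ U, ContMDiffAt 𝓘E 𝓘(ℝ, ℝ) 2 (fun y => u y a) z)
    (huL : ∀ a, ∀ z ∈ U, mLap n (fun y => u y a) z = 0)
    {φ : 𝔼 → ℝ} (hφ : ContDiff ℝ 2 φ) (hsup : ∀ z ∈ U, u z ∈ tsupport φ → z ∈ K) (j : Fin n) :
    ∫ z in U, ∑ i, pderiv i φ (u z) * mGam n (fun y => u y i) (fun y => u y j) z ∂μM = 0 := by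
  obtain ⟨h1, h2, h3, h4⟩ := ind_smooth hU hK.isClosed hKU hu hφ hsup
  have h5 : HasCompactSupport (U.indicator fun y => φ (u y)) :=
    hK.of_isClosed_subset (isClosed_tsupport _) h2
  have hτL : LocallyLipschitz (U.indicator fun y => φ (u y)) := fun z =>
    exists_lipschitzOnWith_of_contMDiffAt (n := n) ((h1 z).of_le (by norm_num))
  obtain ⟨-, -, eA⟩ := green (n := n) hU (f := fun _ => (1:ℝ)) (h := fun y => u y j)
    (φ := U.indicator fun y => φ (u y)) (fun z _ => contMDiffAt_const) (hu j) hτL h5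
    (h2.trans hKU)
  have a1 : (fun z => (U.indicator fun y => φ (u y)) z *
      (1 * mLap n (fun y => u y j) z + mGam n (fun _ => (1:ℝ)) (fun y => u y j) z)) =
      fun _ => (0:ℝ) := by
    funext z
    by_cases hz : z ∈ U
    · rw [huL j z hz, mGam_const_left]
      ring
    · rw [indicator_of_notMem hz, zero_mul]
  rw [a1, integral_zero, neg_zero] at eA
  rw [← eA, ← setIntegral_eq_integral_of_forall_compl_eq_zero (s := U)
    (f := fun z => 1 * mGam n (U.indicator fun y => φ (u y)) (fun y => u y j) z)]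
  · refine setIntegral_congr_fun hU.measurableSet fun z hz => ?_
    simp only
    rw [mGam_congr (h3 z hz) (EventuallyEq.refl _ _), one_mul,
      mGam_compV (hφ.contDiffAt.differentiableAt (by norm_num))
        (fun a => (hu a z hz).mdifferentiableAt (by norm_num))]
  · intro z hz
    rw [mGam_congr (h4 z hz) (EventuallyEq.refl _ _), mGam_const_left, mul_zero]

end One

end Crest.Agent.R249.WH_509
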