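import Crest.Agent.R249.C2a_198

/-!
Row 249, leaf WEAK (helper198), ring level: the polarised Weitzenboeck identity with its divergence
term.
-/

set_option autoImplicit false
set_option linter.unusedSectionVars false

namespace Crest.Agent.R249.Wk198

open Finset Matrix
open Crest.Agent.R249.Fr129 Crest.Agent.R249.C2_198

variable {n : ℕ} {S : Type*} [CommRing S] [Algebra ℝ S] {F : Frame n S}
variable {κ0 κ1 : Type*} [Fintype κ0] [Fintype κ1] [DecidableEq κ0] [DecidableEq κ1]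
variable {a0 : Fin n → Matrix κ0 κ0 S} {a1 : Fin n → Matrix κ1 κ1 S}
  {c : Fin n → Matrix κ1 κ0 S}

lemma dvg_sub (X Y : Fin n → S) : dvg F (fun k => X k - Y k) = dvg F X - dvg F Y := by
  have : (fun k => X k - Y k) = X + -Y := by funext k; simp [sub_eq_add_neg]
  rw [this, dvg, dvg, dvg, ← sum_sub_distrib]
  refine sum_congr rfl fun i _ => ?_
  rw [Frame.cov_add, Frame.cov_neg, Pi.add_apply, Pi.neg_apply, sub_eq_add_neg]

/-- `div ⟨∇u, v⟩ = ⟨Δu, v⟩ + ⟨∇u, ∇v⟩`. -/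
theorem dvg_cov (h0 : Frame.Skew a0) (u v : κ0 → S) :
    dvg F (fun k => F.cov a0 k u ⬝ᵥ v)
      = F.lap a0 u ⬝ᵥ v + ∑ k, F.cov a0 k u ⬝ᵥ F.cov a0 k v := by
  have hl : F.lap a0 u = ∑ i, F.hess a0 i i u := by
    funext x; simp [Frame.lap, Finset.sum_apply]
  have hc : dvg F (fun k => F.cov a0 k u ⬝ᵥ v)
      = ∑ i, (F.D i (F.cov a0 i u ⬝ᵥ v) + ∑ p, F.w i p i * (F.cov a0 p u ⬝ᵥ v)) := by
    simp only [dvg, Frame.cov, Frame.tan]
  rw [hc, hl, sum_dotProduct, ← sum_add_distrib]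
  refine sum_congr rfl fun i _ => ?_
  have hh : F.hess a0 i i u = F.cov a0 i (F.cov a0 i u) - ∑ p, F.w i i p • F.cov a0 p u := by
    funext x; simp [Frame.hess, Finset.sum_apply]
  have hd : F.D i (F.cov a0 i u ⬝ᵥ v)
      = F.cov a0 i (F.cov a0 i u) ⬝ᵥ v + F.cov a0 i u ⬝ᵥ F.cov a0 i v := by
    have := F.D_dot h0 i (F.cov a0 i u) v
    simp only [dotProduct] at this ⊢
    rw [this]
  rw [hd, hh, sub_dotProduct, sum_dotProduct]
  have : ∑ p, F.w i p i * (F.cov a0 p u ⬝ᵥ v) = - ∑ p, (F.w i i p • F.cov a0 p u) ⬝ᵥ v := by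
    rw [← sum_neg_distrib]
    exact sum_congr rfl fun p _ => by rw [F.anti i p i, smul_dotProduct, smul_eq_mul]; ring
  rw [this]; ring

/-- **Polarised Weitzenboeck identity**:
`⟨Du, Dv⟩ = ⟨∇u, ∇v⟩ + ⟨Q u, v⟩ + div (⟨c v, Du⟩ - ⟨∇u, v⟩)`. -/
theorem weitz_dot (h0 : Frame.Skew a0) (h1 : Frame.Skew a1) (h : Par F a0 a1 c)
    (hcl : ∀ i j, (c i)ᵀ * c j + (c j)ᵀ * c i = if i = j then 2 else 0) (u v : κ0 → S) :
    dir F a0 c u ⬝ᵥ dir F a0 c v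
      = ∑ k, F.cov a0 k u ⬝ᵥ F.cov a0 k v + (Q F a0 c *ᵥ u) ⬝ᵥ v
        + dvg F (fun k => (c k *ᵥ v) ⬝ᵥ dir F a0 c u - F.cov a0 k u ⬝ᵥ v) := by
  rw [dvg_sub, dvg_cov h0, ← dir_adj h1 h v (dir F a0 c u), weitz h hcl u, dotProduct_add,
    dotProduct_neg, dotProduct_comm (dir F a0 c v), dotProduct_comm v (F.lap a0 u),
    dotProduct_comm v (Q F a0 c *ᵥ u)]
  ring

end Crest.Agent.R249.Wk198
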