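import Crest.Agent.R249.Wk2_198
import Crest.Agent.R249.DenQ_714

/-!
Row 249, leaf WEAK (helper198): pointwise global identities for a Clifford pair:
`W1` (formal adjointness) and `W2` (polarised Weitzenboeck identity) with explicit divergence terms,
for both operators; sections are preserved; the potential commutes with the projection.
-/

set_option autoImplicit false
set_option maxSynthPendingDepth 3
set_option linter.unusedSectionVars false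

open Filter Topology Set Bundle Manifold Matrix
open scoped ContDiff
open Crest.GeometryTopology.CoordMetric Crest.GeometryTopology.ChartCurvature
  Crest.GeometryTopology.PointedLimit
open Crest.Agent.R202.Tens Crest.Agent.R247.Bo84 Crest.Agent.R249.FrmB_285 Crest.Agent.R249.Vf281
  Crest.Agent.R249.Tz1_805 Crest.Agent.R249.Tz2_805
open Crest.Agent.R249.Fr129 Crest.Agent.R249.C2_198
open Crest.Agent.R249.Sg129 hiding fg fg_add fg_sub fg_mul fg_const fg_sum ev_fg contMDiff_inner VSm_mCov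
open Crest.Agent.R249.Tz805 Crest.Agent.R249.Dic805

noncomputable section

namespace Crest.Agent.R249.Wk198

section ring

variable {S : Type*} [CommRing S] {κ ι : Type*} [Fintype κ] [Fintype ι]

lemma mv_dot (A : Matrix κ ι S) (v : ι → S) (w : κ → S) : (A *ᵥ v) ⬝ᵥ w = v ⬝ᵥ (Aᵀ *ᵥ w) := by
  rw [Matrix.dotProduct_mulVec, Matrix.vecMul_transpose]

lemma iso_dot [DecidableEq ι] {j : Matrix κ ι S} (hj : jᵀ * j = 1) (v w : ι → S) :
    (j *ᵥ v) ⬝ᵥ (j *ᵥ w) = v ⬝ᵥ w := by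
  rw [mv_dot, Matrix.mulVec_mulVec, hj, Matrix.one_mulVec]

end ring

variable {n : ℕ} {M : Type*} [TopologicalSpace M] [ChartedSpace (EuclideanSpace ℝ (Fin n)) M]
  [IsManifold 𝓘(ℝ, EuclideanSpace ℝ (Fin n)) ∞ M]
  [RiemannianBundle (fun x : M => TangentSpace 𝓘(ℝ, EuclideanSpace ℝ (Fin n)) x)]
  [IsContMDiffRiemannianBundle 𝓘(ℝ, EuclideanSpace ℝ (Fin n)) ∞ (EuclideanSpace ℝ (Fin n))
      (fun x : M => TangentSpace 𝓘(ℝ, EuclideanSpace ℝ (Fin n)) x)]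

local notation "𝔼" => EuclideanSpace ℝ (Fin n)
local notation "𝓘E" => 𝓘(ℝ, EuclideanSpace ℝ (Fin n))

section fields

variable {κ κ0 κ1 : Type} [Fintype κ] [Fintype κ0] [Fintype κ1]

/-- the field `∑_xy w_x u_y cc_xy` -/
def fldY (cc : κ1 → κ0 → (p : M) → TangentSpace 𝓘(ℝ, EuclideanSpace ℝ (Fin n)) p)
    (u : κ0 → M → ℝ) (w : κ1 → M → ℝ) (z : M) : TangentSpace 𝓘(ℝ, EuclideanSpace ℝ (Fin n)) z :=
  ∑ x, ∑ y, (w x z * u y z) • cc x y z

/-- the field `∑_xy (A u)_x v_y cc_xy - ∑_y v_y ∇u_y` -/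
def fldZ (D0 : Bun n M κ0)
    (cc : κ1 → κ0 → (p : M) → TangentSpace 𝓘(ℝ, EuclideanSpace ℝ (Fin n)) p)
    (u v : κ0 → M → ℝ) (z : M) : TangentSpace 𝓘(ℝ, EuclideanSpace ℝ (Fin n)) z :=
  fldY cc v (opA D0 cc u) z - ∑ y, v y z • D0.cv u y z

lemma VSm_fldY {cc : κ1 → κ0 → (p : M) → TangentSpace 𝓘E p} (hc : ∀ x y z, VSm n ∞ (cc x y) z)
    {u : κ0 → M → ℝ} {w : κ1 → M → ℝ} (hu : SmU (n := n) u) (hw : SmU (n := n) w) (z : M) :
    VSm n ∞ (fldY cc u w) z :=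
  VSm.sum _ fun x _ => VSm.sum _ fun y _ =>
    VSm.smul le_rfl ((hw x).mul (hu y)).contMDiffAt (hc x y z)

lemma VSm_vcv (D0 : Bun n M κ0) {u v : κ0 → M → ℝ} (hu : SmU (n := n) u) (hv : SmU (n := n) v)
    (z : M) : VSm n ∞ (fun q => ∑ y, v y q • D0.cv u y q) z :=
  VSm.sum _ fun y _ => VSm.smul le_rfl (hv y).contMDiffAt (VSm_cv D0 hu y z)

lemma VSm_fldZ (D0 : Bun n M κ0) {cc : κ1 → κ0 → (p : M) → TangentSpace 𝓘E p}
    (hc : ∀ x y z, VSm n ∞ (cc x y) z)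
    {u v : κ0 → M → ℝ} (hu : SmU (n := n) u) (hv : SmU (n := n) v) (z : M) :
    VSm n ∞ (fldZ D0 cc u v) z := by
  have h1 := (VSm_fldY hc hv (sm_opA D0 hc hu) z).add (VSm_vcv D0 hu hv z).neg
  have e : (fun q => fldY cc v (opA D0 cc u) q + -(∑ y, v y q • D0.cv u y q)) = fldZ D0 cc u v := by
    funext q; rw [fldZ, sub_eq_add_neg]
  rw [e] at h1
  exact h1

end fields

section loc

variable {z : M} {e : Fin n → EuclideanSpace ℝ (Fin n) → EuclideanSpace ℝ (Fin n)}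
variable {h : ONF (chartMetric n M z) (chartAt (EuclideanSpace ℝ (Fin n)) z).target
      (chartCentre n M z) e}

lemma fv_dot {κ : Type} [Fintype κ] {f g : κ → M → ℝ} (hf : SmU (n := n) f)
    (hg : SmU (n := n) g) :
    fg (n := n) z (fun q => ∑ x, f x q * g x q) = fv z f ⬝ᵥ fv z g := by
  rw [fg_sum (n := n) (z := z) Finset.univ (f := fun x q => f x q * g x q)
    (fun x => (hf x).mul (hg x))]
  exact Finset.sum_congr rfl fun x _ => fg_mul (hf x) (hg x)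

lemma fg_mDiv' (h : ONF (chartMetric n M z) (chartAt (EuclideanSpace ℝ (Fin n)) z).target
      (chartCentre n M z) e)
    {X : (p : M) → TangentSpace 𝓘(ℝ, EuclideanSpace ℝ (Fin n)) p} (hX : ∀ q, VSm n ∞ X q) :
    fg (n := n) z (mDiv n X) = dvg h.frameOf (fun k => vg z e X k) := h.fg_mDiv hX

variable {κ0 κ1 : Type} [Fintype κ0] [Fintype κ1] {D0 : Bun n M κ0} {D1 : Bun n M κ1}
  {cc : κ1 → κ0 → (p : M) → TangentSpace 𝓘(ℝ, EuclideanSpace ℝ (Fin n)) p}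
  {ι0 ι1 : Type} [Fintype ι0] [DecidableEq ι0] [Fintype ι1] [DecidableEq ι1]
  {a0 : Fin n → Matrix ι0 ι0 (SG (chartCentre n M z))}
  {a1 : Fin n → Matrix ι1 ι1 (SG (chartCentre n M z))}
  {c : Fin n → Matrix ι1 ι0 (SG (chartCentre n M z))}
  {j0 : Matrix κ0 ι0 (SG (chartCentre n M z))}
  {j1 : Matrix κ1 ι1 (SG (chartCentre n M z))}

lemma vg_fldY (C : CLoc D0 D1 cc h a0 a1 c j0 j1) (hc : ∀ x y z, VSm n ∞ (cc x y) z)
    {u : κ0 → M → ℝ} {w : κ1 → M → ℝ} (hu : SmU (n := n) u) (hw : SmU (n := n) w) (k : Fin n) :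
    vg z e (fldY cc u w) k = (c k *ᵥ (j0ᵀ *ᵥ fv z u)) ⬝ᵥ (j1ᵀ *ᵥ fv z w) := by
  have e1 : fldY cc u w = fun q => ∑ x, ∑ y, (w x q * u y q) • cc x y q := rfl
  have hwu : ∀ x y, ContMDiff 𝓘E 𝓘(ℝ, ℝ) ∞ (fun q => w x q * u y q) :=
    fun x y => (hw x).mul (hu y)
  have e2 : vg z e (fldY cc u w) k
      = ∑ x, ∑ y, fv z w x * fv z u y * (j1 * c k * j0ᵀ) x y := by
    rw [e1, vg_sum h Finset.univ (X := fun x q => ∑ y, (w x q * u y q) • cc x y q)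
      (fun x q => VSm.sum _ fun y _ => VSm.smul le_rfl (hwu x y).contMDiffAt (hc x y q))]
    refine Finset.sum_congr rfl fun x _ => ?_
    rw [vg_sum h Finset.univ (X := fun y q => (w x q * u y q) • cc x y q)
      (fun y q => VSm.smul le_rfl (hwu x y).contMDiffAt (hc x y q))]
    refine Finset.sum_congr rfl fun y _ => ?_
    rw [vg_smul h (hwu x y) (hc x y), fg_mul (hw x) (hu y), C.sym]
    rfl
  rw [e2]
  have e3 : (c k *ᵥ (j0ᵀ *ᵥ fv z u)) ⬝ᵥ (j1ᵀ *ᵥ fv z w)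
      = ((j1 * c k * j0ᵀ) *ᵥ fv z u) ⬝ᵥ fv z w := by
    rw [← mv_dot, Matrix.mulVec_mulVec, Matrix.mulVec_mulVec, Matrix.mul_assoc]
  rw [e3]
  simp only [dotProduct, Matrix.mulVec, Finset.sum_mul]
  refine Finset.sum_congr rfl fun x _ => Finset.sum_congr rfl fun y _ => ?_
  ring

lemma vg_vcv (L : LF D0 h a0 j0) {u v : κ0 → M → ℝ} (hu : SmU (n := n) u) (hv : SmU (n := n) v)
    (hs : D0.Sec u) (k : Fin n) :
    vg z e (fun q => ∑ y, v y q • D0.cv u y q) k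
      = h.frameOf.cov a0 k (j0ᵀ *ᵥ fv z u) ⬝ᵥ (j0ᵀ *ᵥ fv z v) := by
  rw [vg_sum h _ (fun y q => VSm.smul le_rfl (hv y).contMDiffAt (VSm_cv D0 hu y q)), ← mv_dot,
    dotProduct]
  refine Finset.sum_congr rfl fun y _ => ?_
  rw [vg_smul h (hv y) (VSm_cv D0 hu y), lf_cv L hu hs, mul_comm]
  rfl

lemma vg_fldZ (C : CLoc D0 D1 cc h a0 a1 c j0 j1) (hc : ∀ x y z, VSm n ∞ (cc x y) z)
    {u v : κ0 → M → ℝ} (hu : SmU (n := n) u) (hv : SmU (n := n) v) (hs : D0.Sec u) (k : Fin n) :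
    vg z e (fldZ D0 cc u v) k
      = (c k *ᵥ (j0ᵀ *ᵥ fv z v)) ⬝ᵥ dir h.frameOf a0 c (j0ᵀ *ᵥ fv z u)
        - h.frameOf.cov a0 k (j0ᵀ *ᵥ fv z u) ⬝ᵥ (j0ᵀ *ᵥ fv z v) := by
  have e1 : fldZ D0 cc u v
      = fun q => fldY cc v (opA D0 cc u) q - (fun q => ∑ y, v y q • D0.cv u y q) q := rfl
  rw [e1, vg_sub h (VSm_fldY hc hv (sm_opA D0 hc hu)) (VSm_vcv D0 hu hv),
    vg_fldY C hc hv (sm_opA D0 hc hu), vg_vcv C.l0 hu hv hs, cl_opA C hc hu hs,
    Matrix.mulVec_mulVec (M := j1ᵀ), C.l1.jtj, Matrix.one_mulVec]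

/-- germ form of W1 -/
theorem W1_germ (C : CLoc D0 D1 cc h a0 a1 c j0 j1) (hc : ∀ x y z, VSm n ∞ (cc x y) z)
    {u : κ0 → M → ℝ} {w : κ1 → M → ℝ} (hu : SmU (n := n) u) (hw : SmU (n := n) w)
    (hsu : D0.Sec u) (hsw : D1.Sec w) :
    fg (n := n) z (fun q => ∑ x, opA D0 cc u x q * w x q)
      - fg (n := n) z (fun q => ∑ y, u y q * opB D1 cc w y q)
      = fg (n := n) z (mDiv n (fldY cc u w)) := by
  rw [fv_dot (sm_opA D0 hc hu) hw, fv_dot hu (sm_opB D1 hc hw), fg_mDiv' h (VSm_fldY hc hu hw)]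
  simp only [vg_fldY C hc hu hw]
  rw [← dir_adj (lf_skew C.l1) C.par, cl_opA C hc hu hsu, cl_opB C hc hw hsw, mv_dot,
    dotProduct_comm (fv z u), mv_dot, dotProduct_comm (dirs _ _ _ _)]

/-- germ form of W2 -/
theorem W2_germ {κ : Type} [Fintype κ] (s : PF n M κ) (C : CLoc D0 D1 cc h a0 a1 c j0 j1)
    (hc : ∀ x y z, VSm n ∞ (cc x y) z)
    {u v : κ0 → M → ℝ} (hu : SmU (n := n) u) (hv : SmU (n := n) v)
    (hsu : D0.Sec u) (hsv : D0.Sec v) :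
    fg (n := n) z (fun q => ∑ x, opA D0 cc u x q * opA D0 cc v x q)
      = fg (n := n) z (fun q => ∑ y, (inner ℝ (D0.cv u y q) (D0.cv v y q) : ℝ))
        + fg (n := n) z (fun q => ∑ y, (∑ y', potQ s D0 cc y y' q * u y' q) * v y q)
        + fg (n := n) z (mDiv n (fldZ D0 cc u v)) := by
  have hQ := HK9_714.potQ_germ0 s hc C
  have smQ := fun y y' => HK9_714.smooth_potQ s D0 hc y y'
  rw [fv_dot (sm_opA D0 hc hu) (sm_opA D0 hc hv), fg_mDiv' h (VSm_fldZ D0 hc hu hv)]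
  simp only [vg_fldZ C hc hu hv hsu]
  rw [cl_opA C hc hu hsu, cl_opA C hc hv hsv, iso_dot C.l1.jtj,
    weitz_dot (lf_skew C.l0) (lf_skew C.l1) C.par C.cl0]
  congr 1
  congr 1
  · rw [fg_sum (n := n) (z := z) Finset.univ
      (f := fun y q => (inner ℝ (D0.cv u y q) (D0.cv v y q) : ℝ))
      (fun y => contMDiff_inner (VSm_cv D0 hu y) (VSm_cv D0 hv y))]
    have e1 : ∀ k, h.frameOf.cov a0 k (j0ᵀ *ᵥ fv z u) ⬝ᵥ h.frameOf.cov a0 k (j0ᵀ *ᵥ fv z v)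
        = ∑ y, vg z e (D0.cv u y) k * vg z e (D0.cv v y) k := by
      intro k
      rw [← iso_dot C.l0.jtj, dotProduct]
      refine Finset.sum_congr rfl fun y _ => ?_
      rw [lf_cv C.l0 hu hsu, lf_cv C.l0 hv hsv]
    rw [Finset.sum_congr rfl fun k _ => e1 k, Finset.sum_comm]
    exact Finset.sum_congr rfl fun y _ => (fg_inner h (VSm_cv D0 hu y) (VSm_cv D0 hv y)).symm
  · have e2 : fg (n := n) z (fun q => ∑ y, (∑ y', potQ s D0 cc y y' q * u y' q) * v y q)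
        = ((Matrix.of fun y y' => fg (n := n) z (potQ s D0 cc y y')) *ᵥ fv z u) ⬝ᵥ fv z v := by
      rw [fv_dot (f := fun y q => ∑ y', potQ s D0 cc y y' q * u y' q)
        (fun y => ContMDiff.sum fun y' _ => (smQ y y').mul (hu y')) hv]
      congr 1
      funext y
      rw [fv, fg_sum (n := n) (z := z) Finset.univ (f := fun y' q => potQ s D0 cc y y' q * u y' q)
        (fun y' => (smQ y y').mul (hu y'))]
      exact Finset.sum_congr rfl fun y' _ => fg_mul (smQ y y') (hu y')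
    rw [e2, hQ, ← Matrix.mulVec_mulVec, ← Matrix.mulVec_mulVec]
    exact (mv_dot j0 _ _).symm

end loc

section glob

variable {κ κ0 κ1 : Type} [Fintype κ] [Fintype κ0] [Fintype κ1]

/-- equality of smooth functions at `z` from equality of germs at `z` -/
lemma eq_of_fg {f g : M → ℝ} {z : M} (hf : ContMDiff 𝓘E 𝓘(ℝ, ℝ) ∞ f)
    (hg : ContMDiff 𝓘E 𝓘(ℝ, ℝ) ∞ g) (hfg : fg (n := n) z f = fg (n := n) z g) : f z = g z := by
  rw [← ev_fg (n := n) hf, ← ev_fg (n := n) hg, hfg]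

/-- the swapped Clifford pair -/
def CPair.swap (P : CPair n M κ κ0 κ1) : CPair n M κ κ1 κ0 where
  s := P.s
  D0 := P.D1
  D1 := P.D0
  cc y x := P.cc x y
  smc y x z := P.smc x y z
  loc z := by
    obtain ⟨e, h, ι0, ι1, i1, i2, i3, i4, a0, a1, c, j0, j1, C⟩ := P.loc z
    exact ⟨e, h, ι1, ι0, i3, i4, i1, i2, a1, a0, fun i => (c i)ᵀ, j1, j0, cl_swap C⟩
  sym0 := P.sym1
  sym1 := P.sym0

variable (P : CPair n M κ κ0 κ1)

/-- `A` maps sections to sections -/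
theorem sec_opA {u : κ0 → M → ℝ} (hu : SmU (n := n) u) (hs : P.D0.Sec u) :
    P.D1.Sec (opA P.D0 P.cc u) := by
  intro x z
  obtain ⟨e, h, ι0, ι1, i1, i2, i3, i4, a0, a1, c, j0, j1, C⟩ := P.loc z
  have hA := sm_opA P.D0 P.smc hu
  refine eq_of_fg (f := fun q => ∑ b, P.D1.p x b q * opA P.D0 P.cc u b q)
    (g := opA P.D0 P.cc u x) (ContMDiff.sum fun b _ => (P.D1.smp x b).mul (hA b)) (hA x) ?_
  rw [fg_sum (n := n) (z := z) Finset.univ (f := fun b q => P.D1.p x b q * opA P.D0 P.cc u b q)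
    (fun b => (P.D1.smp x b).mul (hA b))]
  have e1 : ∀ b, fg (n := n) z (fun q => P.D1.p x b q * opA P.D0 P.cc u b q)
      = (j1 * j1ᵀ) x b * fv z (opA P.D0 P.cc u) b := by
    intro b
    rw [fg_mul (P.D1.smp x b) (hA b), C.l1.jjt]; rfl
  rw [Finset.sum_congr rfl fun b _ => e1 b]
  change ((j1 * j1ᵀ) *ᵥ fv z (opA P.D0 P.cc u)) x = fv z (opA P.D0 P.cc u) x
  rw [cl_opA C P.smc hu hs, Matrix.mulVec_mulVec, Matrix.mul_assoc, C.l1.jtj, Matrix.mul_one]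

/-- `B` maps sections to sections -/
theorem sec_opB {w : κ1 → M → ℝ} (hw : SmU (n := n) w) (hs : P.D1.Sec w) :
    P.D0.Sec (opB P.D1 P.cc w) := by
  intro y z
  have h1 := sec_opA (CPair.swap P) hw hs y z
  have e1 : ∀ b, opB P.D1 P.cc w b z = - opA P.D1 (fun y x => P.cc x y) w b z := fun _ => rfl
  simp only [e1, mul_neg, Finset.sum_neg_distrib]
  exact congrArg Neg.neg h1

/-- the potential commutes with the projection -/
theorem potQ_comm (a b : κ0) (z : M) :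
    ∑ c, potQ P.s P.D0 P.cc a c z * P.D0.p c b z = ∑ c, P.D0.p a c z * potQ P.s P.D0 P.cc c b z := by
  obtain ⟨e, h, ι0, ι1, i1, i2, i3, i4, a0, a1, c, j0, j1, C⟩ := P.loc z
  have hQ := HK9_714.potQ_germ0 P.s P.smc C
  have smQ := fun y y' => HK9_714.smooth_potQ P.s P.D0 P.smc y y'
  refine eq_of_fg (f := fun q => ∑ c, potQ P.s P.D0 P.cc a c q * P.D0.p c b q)
    (g := fun q => ∑ c, P.D0.p a c q * potQ P.s P.D0 P.cc c b q)
    (ContMDiff.sum fun c _ => (smQ a c).mul (P.D0.smp c b))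
    (ContMDiff.sum fun c _ => (P.D0.smp a c).mul (smQ c b)) ?_
  rw [fg_sum (n := n) (z := z) Finset.univ (f := fun c q => potQ P.s P.D0 P.cc a c q * P.D0.p c b q)
      (fun c => (smQ a c).mul (P.D0.smp c b)),
    fg_sum (n := n) (z := z) Finset.univ (f := fun c q => P.D0.p a c q * potQ P.s P.D0 P.cc c b q)
      (fun c => (P.D0.smp a c).mul (smQ c b))]
  have e1 : ∀ c, fg (n := n) z (fun q => potQ P.s P.D0 P.cc a c q * P.D0.p c b q)
      = (Matrix.of fun y y' => fg (n := n) z (potQ P.s P.D0 P.cc y y')) a c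
        * (Matrix.of fun x y => fg (n := n) z (P.D0.p x y)) c b :=
    fun c => fg_mul (smQ a c) (P.D0.smp c b)
  have e2 : ∀ c, fg (n := n) z (fun q => P.D0.p a c q * potQ P.s P.D0 P.cc c b q)
      = (Matrix.of fun x y => fg (n := n) z (P.D0.p x y)) a c
        * (Matrix.of fun y y' => fg (n := n) z (potQ P.s P.D0 P.cc y y')) c b :=
    fun c => fg_mul (P.D0.smp a c) (smQ c b)
  rw [Finset.sum_congr rfl fun c _ => e1 c, Finset.sum_congr rfl fun c _ => e2 c,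
    ← Matrix.mul_apply, ← Matrix.mul_apply, hQ, ← C.l0.jjt]
  have e3 : j0 * Q h.frameOf a0 c * j0ᵀ * (j0 * j0ᵀ) = j0 * Q h.frameOf a0 c * j0ᵀ := by
    rw [Matrix.mul_assoc, ← Matrix.mul_assoc j0ᵀ, C.l0.jtj, Matrix.one_mul]
  have e4 : j0 * j0ᵀ * (j0 * Q h.frameOf a0 c * j0ᵀ) = j0 * Q h.frameOf a0 c * j0ᵀ := by
    rw [Matrix.mul_assoc, Matrix.mul_assoc j0, ← Matrix.mul_assoc j0ᵀ, C.l0.jtj, Matrix.one_mul]
  rw [e3, e4]

/-- **W1: formal adjointness, with divergence term** -/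
theorem W1 {u : κ0 → M → ℝ} {w : κ1 → M → ℝ} (hu : SmU (n := n) u) (hw : SmU (n := n) w)
    (hsu : P.D0.Sec u) (hsw : P.D1.Sec w) (z : M) :
    ∑ x, opA P.D0 P.cc u x z * w x z
      = ∑ y, u y z * opB P.D1 P.cc w y z + mDiv n (fldY P.cc u w) z := by
  obtain ⟨e, h, ι0, ι1, i1, i2, i3, i4, a0, a1, c, j0, j1, C⟩ := P.loc z
  have hA := sm_opA P.D0 P.smc hu
  have hB := sm_opB P.D1 P.smc hw
  have hf1 : ContMDiff 𝓘E 𝓘(ℝ, ℝ) ∞ (fun q => ∑ x, opA P.D0 P.cc u x q * w x q) :=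
    ContMDiff.sum fun x _ => (hA x).mul (hw x)
  have hf2 : ContMDiff 𝓘E 𝓘(ℝ, ℝ) ∞ (fun q => ∑ y, u y q * opB P.D1 P.cc w y q) :=
    ContMDiff.sum fun y _ => (hu y).mul (hB y)
  have hf3 : ContMDiff 𝓘E 𝓘(ℝ, ℝ) ∞ (mDiv n (fldY P.cc u w)) :=
    Sg129.contMDiff_mDiv (VSm_fldY P.smc hu hw)
  refine eq_of_fg hf1 (hf2.add hf3) ?_
  have h1 := W1_germ C P.smc hu hw hsu hsw
  exact (sub_eq_iff_eq_add'.mp h1).trans (fg_add hf2 hf3).symm

/-- **W2: polarised Weitzenboeck identity, with divergence term** -/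
theorem W2 {u v : κ0 → M → ℝ} (hu : SmU (n := n) u) (hv : SmU (n := n) v)
    (hsu : P.D0.Sec u) (hsv : P.D0.Sec v) (z : M) :
    ∑ x, opA P.D0 P.cc u x z * opA P.D0 P.cc v x z
      = ∑ y, (inner ℝ (P.D0.cv u y z) (P.D0.cv v y z) : ℝ)
        + ∑ y, ∑ y', potQ P.s P.D0 P.cc y y' z * u y' z * v y z
        + mDiv n (fldZ P.D0 P.cc u v) z := by
  obtain ⟨e, h, ι0, ι1, i1, i2, i3, i4, a0, a1, c, j0, j1, C⟩ := P.loc z
  have smQ := fun y y' => HK9_714.smooth_potQ P.s P.D0 P.smc y y'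
  have hA := sm_opA P.D0 P.smc hu
  have hA' := sm_opA P.D0 P.smc hv
  have hf1 : ContMDiff 𝓘E 𝓘(ℝ, ℝ) ∞
      (fun q => ∑ x, opA P.D0 P.cc u x q * opA P.D0 P.cc v x q) :=
    ContMDiff.sum fun x _ => (hA x).mul (hA' x)
  have hf2 : ContMDiff 𝓘E 𝓘(ℝ, ℝ) ∞
      (fun q => ∑ y, (inner ℝ (P.D0.cv u y q) (P.D0.cv v y q) : ℝ)) :=
    ContMDiff.sum fun y _ => contMDiff_inner (VSm_cv P.D0 hu y) (VSm_cv P.D0 hv y)
  have hf3 : ContMDiff 𝓘E 𝓘(ℝ, ℝ) ∞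
      (fun q => ∑ y, (∑ y', potQ P.s P.D0 P.cc y y' q * u y' q) * v y q) :=
    ContMDiff.sum fun y _ =>
      (ContMDiff.sum fun y' _ => (smQ y y').mul (hu y')).mul (hv y)
  have hf4 : ContMDiff 𝓘E 𝓘(ℝ, ℝ) ∞ (mDiv n (fldZ P.D0 P.cc u v)) :=
    Sg129.contMDiff_mDiv (VSm_fldZ P.D0 P.smc hu hv)
  have h1 := W2_germ P.s C P.smc hu hv hsu hsv
  have h2 := eq_of_fg hf1 ((hf2.add hf3).add hf4) (h1.trans (by
    rw [← fg_add hf2 hf3]
    exact (fg_add (hf2.add hf3) hf4).symm))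
  have e1 : ∀ y, (∑ y', potQ P.s P.D0 P.cc y y' z * u y' z) * v y z
      = ∑ y', potQ P.s P.D0 P.cc y y' z * u y' z * v y z := fun y => Finset.sum_mul _ _ _
  simp only [← e1]
  exact h2

end glob

end Crest.Agent.R249.Wk198
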