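import Crest.Agent.R249.Wk3_198
import Crest.Agent.R249.TzM_805

/-!
Row 249, leaf WEAK (helper198): `WeakStmt` for closed manifolds.
-/

set_option autoImplicit false
set_option maxSynthPendingDepth 3
set_option linter.unusedSectionVars false

open Filter Topology Set Bundle Manifold Matrix MeasureTheory
open scoped ContDiff ENNReal NNReal
open Crest.GeometryTopology.CoordMetric Crest.GeometryTopology.ChartCurvature
  Crest.GeometryTopology.PointedLimit
open Crest.Agent.R202.Tens Crest.Agent.R247.Bo84 Crest.Agent.R249.FrmB_285 Crest.Agent.R249.Vf281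
  Crest.Agent.R249.Tz1_805 Crest.Agent.R249.Tz2_805
open Crest.Agent.R249.Fr129 Crest.Agent.R249.C2_198
open Crest.Agent.R247.Ms322 Crest.Agent.R247.Dir593 Crest.Agent.R247.Frd657
open Crest.Agent.R249.Tv57
open Crest.Agent.R249.Tz805

noncomputable section

namespace Crest.Agent.R249.Wk198

variable {n : ℕ} {M : Type*} [MetricSpace M] [ChartedSpace (EuclideanSpace ℝ (Fin n)) M]
  [IsManifold (𝓡 n) ∞ M]
  [RiemannianBundle (fun p : M => TangentSpace (𝓡 n) p)]
  [IsContMDiffRiemannianBundle (𝓡 n) ∞ (EuclideanSpace ℝ (Fin n)) (fun p : M => TangentSpace (𝓡 n) p)]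
  [IsRiemannianManifold (𝓡 n) M] [MeasurableSpace M] [BorelSpace M]
  [SecondCountableTopology M] [Nonempty M]

local notation "𝔼" => EuclideanSpace ℝ (Fin n)

section clo

variable [CompactSpace M]

lemma int_smooth {f : M → ℝ} (hf : ContMDiff (𝓡 n) 𝓘(ℝ, ℝ) ∞ f) :
    Integrable f (μHE[n] : Measure M) := by
  have := isLocallyFiniteMeasure n M
  exact hf.continuous.integrable_of_hasCompactSupport (HasCompactSupport.of_compactSpace f)

lemma int_mDiv {X : (p : M) → TangentSpace (𝓡 n) p} (hX : ∀ z, VSm n ∞ X z) :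
    Integrable (mDiv n X) (μHE[n] : Measure M) ∧ ∫ z, mDiv n X z ∂(μHE[n] : Measure M) = 0 :=
  integral_mDiv_eq_zero (U := Set.univ) (K := Set.univ) isOpen_univ
    (fun z _ => (hX z).of_le (by exact_mod_cast le_top)) isCompact_univ (Set.subset_univ _)
    (fun z hz => absurd (Set.mem_univ z) hz)

variable {κ κ0 κ1 : Type} [Fintype κ] [Fintype κ0] [Fintype κ1] (P : CPair n M κ κ0 κ1)

theorem adj_int {u : κ0 → M → ℝ} {w : κ1 → M → ℝ} (hu : SmU (n := n) u) (hw : SmU (n := n) w)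
    (hsu : P.D0.Sec u) (hsw : P.D1.Sec w) :
    ∫ z, ∑ x, opA P.D0 P.cc u x z * w x z ∂(μHE[n] : Measure M)
      = ∫ z, ∑ y, u y z * opB P.D1 P.cc w y z ∂(μHE[n] : Measure M) := by
  have hB := sm_opB P.D1 P.smc hw
  have h1 := int_mDiv (VSm_fldY P.smc hu hw)
  have h2 : Integrable (fun z => ∑ y, u y z * opB P.D1 P.cc w y z) (μHE[n] : Measure M) :=
    int_smooth (ContMDiff.sum fun y _ => (hu y).mul (hB y))
  rw [integral_congr_ae (Filter.Eventually.of_forall fun z => W1 P hu hw hsu hsw z),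
    integral_add h2 h1.1, h1.2, add_zero]

theorem w_int {u v : κ0 → M → ℝ} (hu : SmU (n := n) u) (hv : SmU (n := n) v)
    (hsu : P.D0.Sec u) (hsv : P.D0.Sec v) :
    ∫ z, ∑ x, opA P.D0 P.cc u x z * opA P.D0 P.cc v x z ∂(μHE[n] : Measure M)
      = ∫ z, (∑ y, (inner ℝ (P.D0.cv u y z) (P.D0.cv v y z) : ℝ)
        + ∑ y, ∑ y', potQ P.s P.D0 P.cc y y' z * u y' z * v y z) ∂(μHE[n] : Measure M) := by
  have smQ := fun y y' => HK9_714.smooth_potQ P.s P.D0 P.smc y y'
  have h1 := int_mDiv (VSm_fldZ P.D0 P.smc hu hv)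
  have h2 : Integrable (fun z => ∑ y, (inner ℝ (P.D0.cv u y z) (P.D0.cv v y z) : ℝ)
      + ∑ y, ∑ y', potQ P.s P.D0 P.cc y y' z * u y' z * v y z) (μHE[n] : Measure M) :=
    int_smooth ((ContMDiff.sum fun y _ =>
      Dic805.contMDiff_inner (VSm_cv P.D0 hu y) (VSm_cv P.D0 hv y)).add
      (ContMDiff.sum fun y _ => ContMDiff.sum fun y' _ => ((smQ y y').mul (hu y')).mul (hv y)))
  rw [integral_congr_ae (Filter.Eventually.of_forall fun z => W2 P hu hv hsu hsv z),
    integral_add h2 h1.1, h1.2, add_zero]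

/-- the `Dat` of `D0` with its potential -/
def dat0 (T : ToF n M) : Dat n M κ0 :=
  P.D0.dat T (potQ P.s P.D0 P.cc) (fun y y' => HK9_714.smooth_potQ P.s P.D0 P.smc y y') P.sym0
    (potQ_comm P)

lemma ed_dat0 (T : ToF n M) {u v : κ0 → M → ℝ} (hu : SmU (n := n) u) (hv : SmU (n := n) v)
    (z : M) : (dat0 P T).ed u v z = ∑ y, (inner ℝ (P.D0.cv u y z) (P.D0.cv v y z) : ℝ)
        + ∑ y, ∑ y', potQ P.s P.D0 P.cc y y' z * u y' z * v y z := by
  rw [Dat.ed]
  congr 1
  refine Finset.sum_congr rfl fun y _ => ?_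
  rw [dat0, Bun.cv_dat T P.D0 _ _ _ _ hu, Bun.cv_dat T P.D0 _ _ _ _ hv, T.inner_toF]

lemma lin_opA (a b : ℝ) {u v : κ0 → M → ℝ} (hu : SmU (n := n) u) (hv : SmU (n := n) v) :
    opA P.D0 P.cc (fun x z => a * u x z + b * v x z)
      = fun x z => a * opA P.D0 P.cc u x z + b * opA P.D0 P.cc v x z := by
  funext x z
  have h1 : ∀ y, P.D0.cv (fun x z => a * u x z + b * v x z) y z
      = a • P.D0.cv u y z + b • P.D0.cv v y z := by
    intro y
    have hg : mgrad n (fun z => a * u y z + b * v y z) z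
        = a • mgrad n (u y) z + b • mgrad n (v y) z := by
      have d1 : MDifferentiableAt (𝓡 n) 𝓘(ℝ, ℝ) (u y) z := (hu y).mdifferentiable (by simp) z
      have d2 : MDifferentiableAt (𝓡 n) 𝓘(ℝ, ℝ) (v y) z := (hv y).mdifferentiable (by simp) z
      have d3 : MDifferentiableAt (𝓡 n) 𝓘(ℝ, ℝ) (fun z => a * u y z) z :=
        (contMDiff_const.mul (hu y) : ContMDiff (𝓡 n) 𝓘(ℝ, ℝ) ∞ _).mdifferentiable (by simp) z
      have d4 : MDifferentiableAt (𝓡 n) 𝓘(ℝ, ℝ) (fun z => b * v y z) z :=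
        (contMDiff_const.mul (hv y) : ContMDiff (𝓡 n) 𝓘(ℝ, ℝ) ∞ _).mdifferentiable (by simp) z
      rw [mgrad_add d3 d4, mgrad_const_mul a d1, mgrad_const_mul b d2]
    simp only [Bun.cv, hg, smul_add, Finset.smul_sum, add_smul, Finset.sum_add_distrib, smul_smul]
    abel
  simp only [opA, h1, inner_add_left, inner_smul_left, Finset.sum_add_distrib, Finset.mul_sum,
    RCLike.conj_to_real]

lemma lin_opB (a b : ℝ) {u v : κ1 → M → ℝ} (hu : SmU (n := n) u) (hv : SmU (n := n) v) :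
    opB P.D1 P.cc (fun x z => a * u x z + b * v x z)
      = fun x z => a * opB P.D1 P.cc u x z + b * opB P.D1 P.cc v x z := by
  funext y z
  have h1 := congrFun (congrFun (lin_opA (CPair.swap P) a b hu hv) y) z
  have e : ∀ w : κ1 → M → ℝ, opB P.D1 P.cc w y z = - opA (CPair.swap P).D0 (CPair.swap P).cc w y z :=
    fun _ => rfl
  rw [e, e, e, h1]
  ring

/-- the pair of operators of a Clifford pair -/
def dpair (T : ToF n M) : DPair (dat0 P T) (dat0 (CPair.swap P) T) where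
  A := opA P.D0 P.cc
  B := opB P.D1 P.cc
  smA _ hu := sm_opA P.D0 P.smc hu
  smB _ hw := sm_opB P.D1 P.smc hw
  secA _ hu hs := sec_opA P hu hs
  secB _ hw hs := sec_opB P hw hs
  linA a b _ _ hu hv := lin_opA P a b hu hv
  linB a b _ _ hu hv := lin_opB P a b hu hv
  adj _ _ hu hw hsu hsw := adj_int P hu hw hsu hsw
  w0 u v hu hv hsu hsv := by
    simp only [ed_dat0 P T hu hv]
    exact w_int P hu hv hsu hsv
  w1 u v hu hv hsu hsv := by
    simp only [ed_dat0 (CPair.swap P) T hu hv]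
    have h1 := w_int (CPair.swap P) hu hv hsu hsv
    rw [← h1]
    refine integral_congr_ae (Filter.Eventually.of_forall fun z => ?_)
    refine Finset.sum_congr rfl fun y _ => ?_
    change (- opA (CPair.swap P).D0 (CPair.swap P).cc u y z)
      * (- opA (CPair.swap P).D0 (CPair.swap P).cc v y z) = _
    ring

end clo

/-- **`WeakStmt` holds on closed manifolds.** -/
theorem weakStmt [CompactSpace M] : WeakStmt n M := by
  intro T κ κ0 κ1 _ _ _ P
  exact ⟨dat0 P T, dat0 (CPair.swap P) T, dpair P T, fun _ _ _ => rfl, rfl, rfl,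
    fun _ _ _ => rfl, rfl, rfl, rfl, rfl⟩

end Crest.Agent.R249.Wk198
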