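import Crest.Agent.R249.DicB_129
import Crest.Agent.R249.DenR_714
import Crest.Agent.R249.Tz0_805
import Crest.Agent.R249.Vf4_281

/-!
Row 249, part C, leaf WEAK (helper352), part 1: the germ formulas in a `CLoc` (Tz0_805).

Ring level: `cov_j` (`∇(j v) = j ∇v`), `skew_lf`, `dvg_dot` (`div ⟨u, ∇v⟩ = ⟨∇u, ∇v⟩ + ⟨u, Δv⟩`).

Germ level, for `h : ONF (chartMetric n M z) .. (chartCentre n M z) e`, `U := fun y => fg z (u y)`,
`û := jᵀ *ᵥ U`:
* `vg_cv`      : `vg z e (D.cv u x) k = (h.frameOf.cov (om D z e) k U) x`;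
* `sec_fg`     : `U = j *ᵥ û` for sections;
* `vg_cv_sec`  : `vg z e (D.cv u x) k = (j *ᵥ h.frameOf.cov a k û) x` for sections;
* `fg_opA`     : `fg z (opA D0 cc u x) = (j1 *ᵥ dir h.frameOf a0 c û) x`;
* `fg_opB`     : `fg z (opB D1 cc w y) = (j0 *ᵥ dirs h.frameOf a1 c ŵ) y`;
* `fg_Om`      : `fg z (D.Om X Y a b) = ∑_kl X_k Y_l (h.frameOf.curv (om D z e) k l a b)`;
* `fg_potQ`    : `(Matrix.of fun y y' => fg z (potQ s D0 cc y y')) = j0 * Q h.frameOf a0 c * j0ᵀ`;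
* `CLoc.swap`  : the transposed pair.
-/

set_option autoImplicit false
set_option maxSynthPendingDepth 3
set_option linter.unusedSectionVars false

open Filter Topology Set Bundle Manifold Matrix
open scoped ContDiff
open Crest.GeometryTopology.CoordMetric Crest.GeometryTopology.ChartCurvature
  Crest.GeometryTopology.PointedLimit
open Crest.Agent.R202.Tens Crest.Agent.R249.Vf281
  Crest.Agent.R249.Tz1_805 Crest.Agent.R249.Tz2_805
open Crest.Agent.R247.Bo84 hiding dM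
open Crest.Agent.R249.Fr129 Crest.Agent.R249.C2_198
open Crest.Agent.R249.Sg129 (SG germ ev ONF dM dM_mul dM_sub dM_add dM_one dM_transpose sf sv)
open Crest.Agent.R249.Tz805

noncomputable section

namespace Crest.Agent.R249.Wk352

/-! ### ring level -/

section ring

variable {n : ℕ} {S : Type*} [CommRing S] [Algebra ℝ S] (F : Frame n S)
  {κ ι : Type*} [Fintype κ] [Fintype ι]

lemma cov_eq (om : Fin n → Matrix κ κ S) (k : Fin n) (u : κ → S) :
    F.cov om k u = (fun x => F.D k (u x)) + om k *ᵥ u := by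
  funext x
  simp only [Frame.cov, Pi.add_apply, Matrix.mulVec, dotProduct]

lemma D_mulVec (k : Fin n) (j : Matrix κ ι S) (v : ι → S) :
    (fun x => F.D k ((j *ᵥ v) x)) = dM (F.D k) j *ᵥ v + j *ᵥ (fun x => F.D k (v x)) := by
  funext x
  simp only [Matrix.mulVec, dotProduct, Pi.add_apply, dM]
  rw [Frame.D_sum, ← Finset.sum_add_distrib]
  exact Finset.sum_congr rfl fun y _ => F.D_mul k _ _

variable {F}

/-- `∇ (j v) = j ∇ v` -/
lemma cov_j {om : Fin n → Matrix κ κ S} {a : Fin n → Matrix ι ι S} {j : Matrix κ ι S}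
    (hdj : ∀ k, dM (F.D k) j + om k * j = j * a k) (k : Fin n) (v : ι → S) :
    F.cov om k (j *ᵥ v) = j *ᵥ F.cov a k v := by
  rw [cov_eq, cov_eq, D_mulVec, Matrix.mulVec_add, Matrix.mulVec_mulVec, Matrix.mulVec_mulVec,
    ← hdj k, Matrix.add_mulVec]
  abel

lemma skew_lf [DecidableEq ι] {om : Fin n → Matrix κ κ S} {a : Fin n → Matrix ι ι S}
    {j : Matrix κ ι S} (hom : ∀ k, (om k)ᵀ = - om k) (hj : jᵀ * j = 1)
    (hdj : ∀ k, dM (F.D k) j + om k * j = j * a k) : Frame.Skew a := by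
  intro k x y
  have h1 : a k = jᵀ * dM (F.D k) j + jᵀ * (om k * j) := by
    rw [← Matrix.mul_add, hdj k, ← Matrix.mul_assoc, hj, Matrix.one_mul]
  have h2 : (a k)ᵀ = dM (F.D k) jᵀ * j - jᵀ * (om k * j) := by
    rw [h1, Matrix.transpose_add, Matrix.transpose_mul, Matrix.transpose_mul, Matrix.transpose_mul,
      Matrix.transpose_transpose, hom k, dM_transpose, Matrix.mul_neg, Matrix.neg_mul,
      Matrix.mul_assoc, sub_eq_add_neg]
  have h3 : dM (F.D k) jᵀ * j + jᵀ * dM (F.D k) j = 0 := by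
    rw [← dM_mul, hj, dM_one]
  have h4 : a k + (a k)ᵀ = 0 := by
    rw [h2]
    nth_rewrite 1 [h1]
    rw [← h3]
    abel
  have h5 := congrFun (congrFun h4 x) y
  simp only [Matrix.add_apply, Matrix.transpose_apply, Matrix.zero_apply] at h5
  exact eq_neg_of_add_eq_zero_left h5

/-- `div ⟨u, ∇ v⟩ = ⟨∇u, ∇v⟩ + ⟨u, Δv⟩` -/
lemma dvg_dot {a : Fin n → Matrix ι ι S} (ha : Frame.Skew a) (u v : ι → S) :
    dvg F (fun k => u ⬝ᵥ F.cov a k v)
      = (∑ k, F.cov a k u ⬝ᵥ F.cov a k v) + u ⬝ᵥ F.lap a v := by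
  have hc : dvg F (fun k => u ⬝ᵥ F.cov a k v)
      = ∑ i, (F.D i (u ⬝ᵥ F.cov a i v) + ∑ p, F.w i p i * (u ⬝ᵥ F.cov a p v)) := by
    simp only [dvg, Frame.cov, Frame.tan]
  rw [hc]
  have hl : u ⬝ᵥ F.lap a v = ∑ i, u ⬝ᵥ F.hess a i i v := by
    have : F.lap a v = ∑ i, F.hess a i i v := by funext x; simp [Frame.lap, Finset.sum_apply]
    rw [this, dotProduct_sum]
  rw [hl, ← Finset.sum_add_distrib]
  refine Finset.sum_congr rfl fun i _ => ?_
  have h1 : F.D i (u ⬝ᵥ F.cov a i v) = F.cov a i u ⬝ᵥ F.cov a i v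
      + u ⬝ᵥ F.cov a i (F.cov a i v) := by
    have := F.D_dot ha i u (F.cov a i v)
    simp only [dotProduct] at this ⊢
    rw [this]
  have h2 : F.hess a i i v = F.cov a i (F.cov a i v) - ∑ p, F.w i i p • F.cov a p v := by
    funext x; simp [Frame.hess, Finset.sum_apply]
  have h3 : ∑ p, F.w i p i * (u ⬝ᵥ F.cov a p v) = - ∑ p, F.w i i p * (u ⬝ᵥ F.cov a p v) := by
    rw [← Finset.sum_neg_distrib]
    exact Finset.sum_congr rfl fun p _ => by rw [F.anti i p i]; ring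
  rw [h1, h2, h3, dotProduct_sub, dotProduct_sum]
  simp only [dotProduct_smul, smul_eq_mul]
  ring

/-- `⟨j u, j v⟩ = ⟨u, v⟩` -/
lemma dot_j [DecidableEq ι] {j : Matrix κ ι S} (hj : jᵀ * j = 1) (u v : ι → S) :
    (j *ᵥ u) ⬝ᵥ (j *ᵥ v) = u ⬝ᵥ v := by
  rw [Matrix.dotProduct_mulVec, Matrix.vecMul_mulVec, hj, Matrix.vecMul_one]

lemma jt_j [DecidableEq ι] {j : Matrix κ ι S} (hj : jᵀ * j = 1) (u : ι → S) :
    jᵀ *ᵥ (j *ᵥ u) = u := by
  rw [Matrix.mulVec_mulVec, hj, Matrix.one_mulVec]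

lemma om_alg {S' : Type*} [CommRing S'] {κ' : Type*} [Fintype κ'] (X Y : Fin n → S')
    (C : Fin n → Fin n → S') (A B : κ' → Fin n → S') :
    (∑ l, (∑ k, X k * C k l) * Y l) - (∑ l, (∑ k, Y k * C k l) * X l)
        + ∑ c, ((∑ k, A c k * X k) * (∑ l, B c l * Y l)
          - (∑ k, A c k * Y k) * (∑ l, B c l * X l))
      = ∑ k, ∑ l, X k * Y l * ((C k l - C l k) + ∑ p, (A p k * B p l - A p l * B p k)) := by
  have s1 : ∑ k, ∑ l, X k * Y l * ((C k l - C l k) + ∑ p, (A p k * B p l - A p l * B p k))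
      = ∑ k, ∑ l, X k * Y l * C k l - ∑ k, ∑ l, X k * Y l * C l k
        + ∑ k, ∑ l, ∑ p, (X k * Y l * (A p k * B p l) - X k * Y l * (A p l * B p k)) := by
    simp only [mul_add, mul_sub, Finset.sum_add_distrib, Finset.sum_sub_distrib, Finset.mul_sum]
  rw [s1]
  congr 1
  · congr 1
    · rw [Finset.sum_comm]
      refine Finset.sum_congr rfl fun l _ => ?_
      rw [Finset.sum_mul]
      exact Finset.sum_congr rfl fun k _ => by ring
    · refine Finset.sum_congr rfl fun l _ => ?_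
      rw [Finset.sum_mul]
      exact Finset.sum_congr rfl fun k _ => by ring
  · have s2 : ∑ k, ∑ l, ∑ p, (X k * Y l * (A p k * B p l) - X k * Y l * (A p l * B p k))
        = ∑ p, ∑ k, ∑ l, (X k * Y l * (A p k * B p l) - X k * Y l * (A p l * B p k)) := by
      calc _ = ∑ k, ∑ p, ∑ l, (X k * Y l * (A p k * B p l) - X k * Y l * (A p l * B p k)) :=
            Finset.sum_congr rfl fun k _ => Finset.sum_comm
        _ = _ := Finset.sum_comm
    rw [s2]
    refine Finset.sum_congr rfl fun p _ => ?_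
    rw [Finset.sum_mul_sum, Finset.sum_mul_sum]
    simp only [Finset.sum_sub_distrib]
    congr 1
    · exact Finset.sum_congr rfl fun k _ => Finset.sum_congr rfl fun l _ => by ring
    · rw [Finset.sum_comm]
      exact Finset.sum_congr rfl fun k _ => Finset.sum_congr rfl fun l _ => by ring

end ring

/-! ### germ level -/

variable {n : ℕ} {M : Type*} [TopologicalSpace M] [ChartedSpace (EuclideanSpace ℝ (Fin n)) M]
  [IsManifold 𝓘(ℝ, EuclideanSpace ℝ (Fin n)) ∞ M]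
  [RiemannianBundle (fun x : M => TangentSpace 𝓘(ℝ, EuclideanSpace ℝ (Fin n)) x)]
  [IsContMDiffRiemannianBundle 𝓘(ℝ, EuclideanSpace ℝ (Fin n)) ∞ (EuclideanSpace ℝ (Fin n))
      (fun x : M => TangentSpace 𝓘(ℝ, EuclideanSpace ℝ (Fin n)) x)]

local notation "𝔼" => EuclideanSpace ℝ (Fin n)
local notation "𝓘E" => 𝓘(ℝ, EuclideanSpace ℝ (Fin n))

variable {z : M} {e : Fin n → EuclideanSpace ℝ (Fin n) → EuclideanSpace ℝ (Fin n)}

lemma sm_mul {f g : M → ℝ} (hf : ContMDiff 𝓘E 𝓘(ℝ, ℝ) ∞ f) (hg : ContMDiff 𝓘E 𝓘(ℝ, ℝ) ∞ g) :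
    ContMDiff 𝓘E 𝓘(ℝ, ℝ) ∞ (fun q => f q * g q) := hf.mul hg

lemma sm_sub {f g : M → ℝ} (hf : ContMDiff 𝓘E 𝓘(ℝ, ℝ) ∞ f) (hg : ContMDiff 𝓘E 𝓘(ℝ, ℝ) ∞ g) :
    ContMDiff 𝓘E 𝓘(ℝ, ℝ) ∞ (fun q => f q - g q) := hf.sub hg

lemma sm_add {f g : M → ℝ} (hf : ContMDiff 𝓘E 𝓘(ℝ, ℝ) ∞ f) (hg : ContMDiff 𝓘E 𝓘(ℝ, ℝ) ∞ g) :
    ContMDiff 𝓘E 𝓘(ℝ, ℝ) ∞ (fun q => f q + g q) := hf.add hg

lemma sm_sum {ι : Type*} (s : Finset ι) {f : ι → M → ℝ}
    (hf : ∀ i, ContMDiff 𝓘E 𝓘(ℝ, ℝ) ∞ (f i)) :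
    ContMDiff 𝓘E 𝓘(ℝ, ℝ) ∞ (fun q => ∑ i ∈ s, f i q) := ContMDiff.sum fun i _ => hf i

/-- connection matrices of a `Bun` -/
def om {κ : Type} [Fintype κ] (D : Bun n M κ) (z : M)
    (e : Fin n → EuclideanSpace ℝ (Fin n) → EuclideanSpace ℝ (Fin n)) (k : Fin n) :
    Matrix κ κ (SG (chartCentre n M z)) := Matrix.of fun x y => vg z e (D.W x y) k

/-- the germ of a vector valued function -/
def fU {κ : Type} (z : M) (u : κ → M → ℝ) (y : κ) : SG (chartCentre n M z) := fg z (u y)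

lemma fg_eq (f : M → ℝ) : (fg z f : SG (chartCentre n M z)) = Sg129.fg z f := rfl

variable (h : ONF (chartMetric n M z) (chartAt (EuclideanSpace ℝ (Fin n)) z).target
      (chartCentre n M z) e)
include h

lemma vg_eq (X : (p : M) → TangentSpace 𝓘E p) (k : Fin n) : vg z e X k = h.vg X k := rfl

section bun

variable {κ : Type} [Fintype κ] {D : Bun n M κ}

lemma om_skew (k : Fin n) : (om D z e k)ᵀ = - om D z e k := by
  ext x y
  simp only [om, Matrix.transpose_apply, Matrix.of_apply, Matrix.neg_apply]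
  rw [vg_eq h, vg_eq h, ← h.vg_neg (D.smW x y)]
  congr 1
  funext q
  exact D.skew y x q

omit h in
lemma VSm_cv {u : κ → M → ℝ} (hu : SmU (n := n) u) (x : κ) (q : M) : VSm n ∞ (D.cv u x) q := by
  refine VSm.add (Sg129.VSm_mgrad_top (hu x) q) (VSm.sum Finset.univ fun b _ => ?_)
  exact VSm.smul le_rfl (hu b q) (D.smW x b q)

lemma vg_cv {u : κ → M → ℝ} (hu : SmU (n := n) u) (x : κ) (k : Fin n) :
    vg z e (D.cv u x) k = h.frameOf.cov (om D z e) k (fU z u) x := by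
  have hs : ∀ b, ∀ q, VSm n ∞ (fun q => u b q • D.W x b q) q := fun b q =>
    VSm.smul le_rfl (hu b q) (D.smW x b q)
  have h1 : D.cv u x = fun q => mgrad n (u x) q + ∑ b, u b q • D.W x b q := rfl
  rw [vg_eq h, h1, h.vg_add (Sg129.VSm_mgrad_top (hu x)) (fun q => VSm.sum Finset.univ fun b _ => hs b q),
    h.vg_mgrad (hu x), h.vg_sum Finset.univ hs]
  simp only [Frame.cov, h.vg_smul (hu _) (D.smW x _)]
  congr 1
  exact Finset.sum_congr rfl fun b _ => mul_comm _ _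

variable {ι : Type} [Fintype ι] [DecidableEq ι] {a : Fin n → Matrix ι ι (SG (chartCentre n M z))}
  {j : Matrix κ ι (SG (chartCentre n M z))}

lemma lf_skew (hL : LF D h a j) : Frame.Skew a := skew_lf (om_skew h) hL.jtj hL.dj

lemma sec_fg (hL : LF D h a j) {u : κ → M → ℝ} (hu : SmU (n := n) u) (hs : D.Sec u) :
    (fU z u : κ → SG (chartCentre n M z)) = j *ᵥ (jᵀ *ᵥ fU z u) := by
  rw [Matrix.mulVec_mulVec, hL.jjt]
  funext y
  simp only [fU, Matrix.mulVec, dotProduct, Matrix.of_apply, fg_eq]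
  have h1 : ∀ b, Sg129.fg z (D.p y b) * Sg129.fg z (u b)
      = (Sg129.fg z (fun q => D.p y b q * u b q) : SG (chartCentre n M z)) := fun b =>
    (Sg129.fg_mul h.mem (D.smp y b) (hu b)).symm
  simp only [h1]
  rw [← Sg129.fg_sum h.mem Finset.univ (F := fun b q => D.p y b q * u b q)
    (fun b => (D.smp y b).mul (hu b))]
  congr 1
  funext q
  exact (hs y q).symm

lemma vg_cv_sec (hL : LF D h a j) {u : κ → M → ℝ} (hu : SmU (n := n) u) (hs : D.Sec u) (x : κ)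
    (k : Fin n) : vg z e (D.cv u x) k = (j *ᵥ h.frameOf.cov a k (jᵀ *ᵥ fU z u)) x := by
  rw [vg_cv h hu, ← cov_j (om := om D z e) hL.dj, ← sec_fg h hL hu hs]

omit h in
/-- smoothness of the curvature -/
lemma smOm {X Y : (p : M) → TangentSpace 𝓘E p} (hX : ∀ q, VSm n ∞ X q) (hY : ∀ q, VSm n ∞ Y q)
    (x y : κ) : ContMDiff 𝓘E 𝓘(ℝ, ℝ) ∞ (D.Om X Y x y) := by
  have h1 := Sg129.contMDiff_inner (fun q => Sg129.VSm_mCov (D.smW x y q) (hX q)) hY
  have h2 := Sg129.contMDiff_inner (fun q => Sg129.VSm_mCov (D.smW x y q) (hY q)) hX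
  refine (h1.sub h2).add (ContMDiff.sum fun c _ => ?_)
  exact ((Sg129.contMDiff_inner (D.smW x c) hX).mul (Sg129.contMDiff_inner (D.smW c y) hY)).sub
    ((Sg129.contMDiff_inner (D.smW x c) hY).mul (Sg129.contMDiff_inner (D.smW c y) hX))

/-- the curvature of the trivial bundle, in the frame -/
lemma fg_Om {X Y : (p : M) → TangentSpace 𝓘E p} (hX : ∀ q, VSm n ∞ X q) (hY : ∀ q, VSm n ∞ Y q)
    (x y : κ) : (fg z (D.Om X Y x y) : SG (chartCentre n M z))
      = ∑ k, ∑ l, vg z e X k * vg z e Y l * h.frameOf.curv (om D z e) k l x y := by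
  have m1 := fun q => Sg129.VSm_mCov (D.smW x y q) (hX q)
  have m2 := fun q => Sg129.VSm_mCov (D.smW x y q) (hY q)
  have h1 := Sg129.contMDiff_inner m1 hY
  have h2 := Sg129.contMDiff_inner m2 hX
  have h3 := fun c => Sg129.contMDiff_inner (D.smW x c) hX
  have h4 := fun c => Sg129.contMDiff_inner (D.smW c y) hY
  have h5 := fun c => Sg129.contMDiff_inner (D.smW x c) hY
  have h6 := fun c => Sg129.contMDiff_inner (D.smW c y) hX
  have h7 := fun c => sm_sub (sm_mul (h3 c) (h4 c)) (sm_mul (h5 c) (h6 c))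
  have e1 : (fg z (D.Om X Y x y) : SG (chartCentre n M z))
      = (∑ l, (∑ k, h.vg X k * h.frameOf.cov h.frameOf.tan k (h.vg (D.W x y)) l) * h.vg Y l)
        - (∑ l, (∑ k, h.vg Y k * h.frameOf.cov h.frameOf.tan k (h.vg (D.W x y)) l) * h.vg X l)
        + ∑ c, ((∑ k, h.vg (D.W x c) k * h.vg X k) * (∑ l, h.vg (D.W c y) l * h.vg Y l)
          - (∑ k, h.vg (D.W x c) k * h.vg Y k) * (∑ l, h.vg (D.W c y) l * h.vg X l)) := by
    simp only [← h.vg_mCov (D.smW x y) hX, ← h.vg_mCov (D.smW x y) hY, ← h.fg_inner m1 hY,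
      ← h.fg_inner m2 hX, ← h.fg_inner (D.smW x _) hX, ← h.fg_inner (D.smW x _) hY,
      ← h.fg_inner (D.smW _ y) hX, ← h.fg_inner (D.smW _ y) hY]
    rw [← Sg129.fg_sub h.mem h1 h2]
    have e2 : ∀ c, (Sg129.fg z (fun q => (inner ℝ (D.W x c q) (X q) : ℝ)) : SG (chartCentre n M z))
        * Sg129.fg z (fun q => (inner ℝ (D.W c y q) (Y q) : ℝ))
        - Sg129.fg z (fun q => (inner ℝ (D.W x c q) (Y q) : ℝ))
        * Sg129.fg z (fun q => (inner ℝ (D.W c y q) (X q) : ℝ))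
        = Sg129.fg z (fun q => (inner ℝ (D.W x c q) (X q) : ℝ) * inner ℝ (D.W c y q) (Y q)
          - inner ℝ (D.W x c q) (Y q) * inner ℝ (D.W c y q) (X q)) := by
      intro c
      rw [← Sg129.fg_mul h.mem (h3 c) (h4 c), ← Sg129.fg_mul h.mem (h5 c) (h6 c),
        ← Sg129.fg_sub h.mem (sm_mul (h3 c) (h4 c)) (sm_mul (h5 c) (h6 c))]
    simp only [e2]
    rw [← Sg129.fg_sum h.mem Finset.univ
      (F := fun c q => (inner ℝ (D.W x c q) (X q) : ℝ) * inner ℝ (D.W c y q) (Y q)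
          - inner ℝ (D.W x c q) (Y q) * inner ℝ (D.W c y q) (X q)) h7,
      ← Sg129.fg_add h.mem (sm_sub h1 h2) (sm_sum Finset.univ h7)]
    rfl
  have key : ∀ k l, h.frameOf.curv (om D z e) k l x y
      = (h.frameOf.cov h.frameOf.tan k (h.vg (D.W x y)) l
        - h.frameOf.cov h.frameOf.tan l (h.vg (D.W x y)) k)
        + ∑ p, (h.vg (D.W x p) k * h.vg (D.W p y) l - h.vg (D.W x p) l * h.vg (D.W p y) k) := by
    intro k l
    simp only [Frame.curv, Frame.cov, Frame.tan, om, Matrix.of_apply, vg_eq h, Frame.T]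
    have e3 : ∑ m, (h.frameOf.w k l m - h.frameOf.w l k m) * h.vg (D.W x y) m
        = - (∑ m, h.frameOf.w k m l * h.vg (D.W x y) m
          - ∑ m, h.frameOf.w l m k * h.vg (D.W x y) m) := by
      rw [← Finset.sum_sub_distrib, ← Finset.sum_neg_distrib]
      refine Finset.sum_congr rfl fun m _ => ?_
      rw [h.frameOf.anti k l m, h.frameOf.anti l k m]
      ring
    rw [e3]
    ring
  rw [e1]
  simp only [key]
  exact om_alg (h.vg X) (h.vg Y) (fun k => h.frameOf.cov h.frameOf.tan k (h.vg (D.W x y)))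
    (fun c => h.vg (D.W x c)) (fun c => h.vg (D.W c y))

end bun

/-! ### the symbol -/

section symb

variable {κ κ0 κ1 : Type} [Fintype κ] [Fintype κ0] [Fintype κ1] {D0 : Bun n M κ0} {D1 : Bun n M κ1}
  {cc : κ1 → κ0 → (p : M) → TangentSpace 𝓘(ℝ, EuclideanSpace ℝ (Fin n)) p}
  {ι0 ι1 : Type} [Fintype ι0] [DecidableEq ι0] [Fintype ι1] [DecidableEq ι1]
  {a0 : Fin n → Matrix ι0 ι0 (SG (chartCentre n M z))}
  {a1 : Fin n → Matrix ι1 ι1 (SG (chartCentre n M z))}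
  {c : Fin n → Matrix ι1 ι0 (SG (chartCentre n M z))}
  {j0 : Matrix κ0 ι0 (SG (chartCentre n M z))} {j1 : Matrix κ1 ι1 (SG (chartCentre n M z))}

/-- the transposed pair -/
theorem _root_.Crest.Agent.R249.Tz805.CLoc.swap (hC : CLoc D0 D1 cc h a0 a1 c j0 j1) :
    CLoc D1 D0 (fun y x => cc x y) h a1 a0 (fun i => (c i)ᵀ) j1 j0 where
  l0 := hC.l1
  l1 := hC.l0
  par := hC.par.transpose (lf_skew h hC.l0) (lf_skew h hC.l1)
  cl0 := by simpa using hC.cl1
  cl1 := by simpa using hC.cl0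
  sym x y k := by
    rw [hC.sym y x k]
    have h1 : j0 * (c k)ᵀ * j1ᵀ = (j1 * c k * j0ᵀ)ᵀ := by
      simp only [Matrix.transpose_mul, Matrix.transpose_transpose, Matrix.mul_assoc]
    rw [h1, Matrix.transpose_apply]

omit h in
lemma sm_opA (hc : ∀ x y q, VSm n ∞ (cc x y) q) {u : κ0 → M → ℝ} (hu : SmU (n := n) u) :
    SmU (n := n) (opA D0 cc u) := fun x =>
  sm_sum Finset.univ fun y => Sg129.contMDiff_inner (VSm_cv hu y) (hc x y)

omit h in
lemma opB_eq (w : κ1 → M → ℝ) : opB D1 cc w = fun y z => - opA D1 (fun y x => cc x y) w y z := rfl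

omit h in
lemma sm_opB (hc : ∀ x y q, VSm n ∞ (cc x y) q) {w : κ1 → M → ℝ} (hw : SmU (n := n) w) :
    SmU (n := n) (opB D1 cc w) := fun y => (sm_opA (fun y x => hc x y) hw y).neg

/-- `A` in the frames -/
theorem fg_opA (hC : CLoc D0 D1 cc h a0 a1 c j0 j1) (hc : ∀ x y q, VSm n ∞ (cc x y) q)
    {u : κ0 → M → ℝ} (hu : SmU (n := n) u) (hs : D0.Sec u) :
    (fU z (opA D0 cc u) : κ1 → SG (chartCentre n M z))
      = j1 *ᵥ dir h.frameOf a0 c (j0ᵀ *ᵥ fU z u) := by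
  have h1 : ∀ x, (fU z (opA D0 cc u) x : SG (chartCentre n M z))
      = ∑ y, ∑ k, h.vg (D0.cv u y) k * h.vg (cc x y) k := by
    intro x
    simp only [← h.fg_inner (VSm_cv hu _) (hc x _)]
    rw [← Sg129.fg_sum h.mem Finset.univ (F := fun y q => (inner ℝ (D0.cv u y q) (cc x y q) : ℝ))
      (fun y => Sg129.contMDiff_inner (VSm_cv hu y) (hc x y))]
    rfl
  have h2 : ∀ k, j1 *ᵥ (c k *ᵥ h.frameOf.cov a0 k (j0ᵀ *ᵥ fU z u))
      = (j1 * c k * j0ᵀ) *ᵥ (j0 *ᵥ h.frameOf.cov a0 k (j0ᵀ *ᵥ fU z u)) := by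
    intro k
    rw [← Matrix.mulVec_mulVec, jt_j hC.l0.jtj, Matrix.mulVec_mulVec]
  funext x
  rw [h1 x, dir, Matrix.mulVec_sum, Finset.sum_apply, Finset.sum_comm]
  refine Finset.sum_congr rfl fun k _ => ?_
  rw [h2 k, Matrix.mulVec, dotProduct]
  refine Finset.sum_congr rfl fun y _ => ?_
  rw [← hC.sym x y k, ← vg_cv_sec h hC.l0 hu hs y k, mul_comm, vg_eq h, vg_eq h]

/-- `B` in the frames -/
theorem fg_opB (hC : CLoc D0 D1 cc h a0 a1 c j0 j1) (hc : ∀ x y q, VSm n ∞ (cc x y) q)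
    {w : κ1 → M → ℝ} (hw : SmU (n := n) w) (hs : D1.Sec w) :
    (fU z (opB D1 cc w) : κ0 → SG (chartCentre n M z))
      = j0 *ᵥ dirs h.frameOf a1 c (j1ᵀ *ᵥ fU z w) := by
  have h1 := fg_opA h (CLoc.swap h hC) (fun y x => hc x y) hw hs
  have h2 : (fU z (opB D1 cc w) : κ0 → SG (chartCentre n M z))
      = - fU z (opA D1 (fun y x => cc x y) w) := by
    funext y
    simp only [fU, Pi.neg_apply, fg_eq]
    rw [← Sg129.fg_neg h.mem (sm_opA (fun y x => hc x y) hw y)]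
    rfl
  rw [h2, h1, dirs_eq, Matrix.mulVec_neg]

end symb

end Crest.Agent.R249.Wk352
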