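import Crest.Agent.R249.WkA_352

/-!
Row 249, part C, leaf WEAK (helper352), part 2: the potential `potQ` of Tz0_805.

* `Omv`, `Omv_pars`, `potQ_eq` : `potQ y y' = -(1/2) ∑ Om (cc x y) (cc x y'') y'' y'`;
* `sm_potQ`  : smoothness;
* `fg_potQ`  : `(Matrix.of fun y y' => fg z (potQ s D0 cc y y')) = j0 * Q h.frameOf a0 c * j0ᵀ`.
-/

set_option autoImplicit false
set_option maxSynthPendingDepth 3
set_option linter.unusedSectionVars false

open Filter Topology Set Bundle Manifold Matrix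
open scoped ContDiff
open Crest.GeometryTopology.CoordMetric Crest.GeometryTopology.ChartCurvature
  Crest.GeometryTopology.PointedLimit
open Crest.Agent.R202.Tens Crest.Agent.R249.Vf281
  Crest.Agent.R249.Tz1_805 Crest.Agent.R249.Tz2_805
open Crest.Agent.R247.Bo84 hiding dM
open Crest.Agent.R249.Fr129 Crest.Agent.R249.C2_198
open Crest.Agent.R249.Sg129 (SG germ ev ONF dM dM_mul dM_sub dM_add dM_one dM_transpose sf sv)
open Crest.Agent.R249.Tz805

noncomputable section

namespace Crest.Agent.R249.Wk352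

variable {n : ℕ} {M : Type*} [TopologicalSpace M] [ChartedSpace (EuclideanSpace ℝ (Fin n)) M]
  [IsManifold 𝓘(ℝ, EuclideanSpace ℝ (Fin n)) ∞ M]
  [RiemannianBundle (fun x : M => TangentSpace 𝓘(ℝ, EuclideanSpace ℝ (Fin n)) x)]
  [IsContMDiffRiemannianBundle 𝓘(ℝ, EuclideanSpace ℝ (Fin n)) ∞ (EuclideanSpace ℝ (Fin n))
      (fun x : M => TangentSpace 𝓘(ℝ, EuclideanSpace ℝ (Fin n)) x)]

local notation "𝔼" => EuclideanSpace ℝ (Fin n)
local notation "𝓘E" => 𝓘(ℝ, EuclideanSpace ℝ (Fin n))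

/-- the covariant derivative as a linear map -/
def mCovL (X : (p : M) → TangentSpace 𝓘(ℝ, EuclideanSpace ℝ (Fin n)) p) (p : M) :
    TangentSpace 𝓘(ℝ, EuclideanSpace ℝ (Fin n)) p →ₗ[ℝ]
      TangentSpace 𝓘(ℝ, EuclideanSpace ℝ (Fin n)) p :=
  ((dSy p (chartCentre n M p)).comp
    ((cov (chartMetric n M p) (vCh n p X) (chartCentre n M p)).comp (dCh p p))).toLinearMap

lemma mCovL_apply (X : (p : M) → TangentSpace 𝓘E p) (p : M) (v : TangentSpace 𝓘E p) :
    mCovL X p v = mCov n X p v := rfl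

variable {κ κ0 κ1 : Type} [Fintype κ] [Fintype κ0] [Fintype κ1]

/-- the curvature at a point as a bilinear form -/
def Omv (D : Bun n M κ0) (x y : κ0) (z : M) :
    TangentSpace 𝓘(ℝ, EuclideanSpace ℝ (Fin n)) z →ₗ[ℝ]
      TangentSpace 𝓘(ℝ, EuclideanSpace ℝ (Fin n)) z →ₗ[ℝ] ℝ :=
  LinearMap.mk₂ ℝ (fun v w => inner ℝ (mCovL (D.W x y) z v) w - inner ℝ (mCovL (D.W x y) z w) v
    + ∑ c, (inner ℝ (D.W x c z) v * inner ℝ (D.W c y z) w
      - inner ℝ (D.W x c z) w * inner ℝ (D.W c y z) v))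
    (fun v v' w => by
      simp only [map_add, inner_add_left, inner_add_right]
      rw [show ∑ c, ((inner ℝ (D.W x c z) v + inner ℝ (D.W x c z) v') * inner ℝ (D.W c y z) w
          - inner ℝ (D.W x c z) w * (inner ℝ (D.W c y z) v + inner ℝ (D.W c y z) v'))
        = ∑ c, (inner ℝ (D.W x c z) v * inner ℝ (D.W c y z) w
            - inner ℝ (D.W x c z) w * inner ℝ (D.W c y z) v)
          + ∑ c, (inner ℝ (D.W x c z) v' * inner ℝ (D.W c y z) w
            - inner ℝ (D.W x c z) w * inner ℝ (D.W c y z) v') from by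
          rw [← Finset.sum_add_distrib]; exact Finset.sum_congr rfl fun c _ => by ring]
      ring)
    (fun r v w => by
      simp only [map_smul, inner_smul_left, inner_smul_right, RCLike.conj_to_real, smul_eq_mul,
        mul_add, mul_sub, Finset.mul_sum]
      congr 1
      exact Finset.sum_congr rfl fun c _ => by ring)
    (fun v w w' => by
      simp only [map_add, inner_add_left, inner_add_right]
      rw [show ∑ c, (inner ℝ (D.W x c z) v * (inner ℝ (D.W c y z) w + inner ℝ (D.W c y z) w')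
          - (inner ℝ (D.W x c z) w + inner ℝ (D.W x c z) w') * inner ℝ (D.W c y z) v)
        = ∑ c, (inner ℝ (D.W x c z) v * inner ℝ (D.W c y z) w
            - inner ℝ (D.W x c z) w * inner ℝ (D.W c y z) v)
          + ∑ c, (inner ℝ (D.W x c z) v * inner ℝ (D.W c y z) w'
            - inner ℝ (D.W x c z) w' * inner ℝ (D.W c y z) v) from by
          rw [← Finset.sum_add_distrib]; exact Finset.sum_congr rfl fun c _ => by ring]
      ring)
    (fun r v w => by
      simp only [map_smul, inner_smul_left, inner_smul_right, RCLike.conj_to_real, smul_eq_mul,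
        mul_add, mul_sub, Finset.mul_sum]
      congr 1
      exact Finset.sum_congr rfl fun c _ => by ring)

lemma Om_eq (D : Bun n M κ0) (X Y : (p : M) → TangentSpace 𝓘E p) (x y : κ0) (z : M) :
    D.Om X Y x y z = Omv D x y z (X z) (Y z) := rfl

/-- summation over a Parseval frame -/
lemma Omv_pars (s : PF n M κ) (D : Bun n M κ0) (x y : κ0) (z : M) (v w : TangentSpace 𝓘E z) :
    ∑ C, ∑ C', (inner ℝ v (s.s C z) : ℝ) * inner ℝ w (s.s C' z) * Omv D x y z (s.s C z) (s.s C' z)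
      = Omv D x y z v w := by
  have hv := s.pars z v
  have hw := s.pars z w
  have h1 : Omv D x y z v w = Omv D x y z (∑ A, (inner ℝ (s.s A z) v : ℝ) • s.s A z)
      (∑ A, (inner ℝ (s.s A z) w : ℝ) • s.s A z) := by rw [hv, hw]
  rw [h1, map_sum (Omv D x y z), LinearMap.sum_apply]
  refine Finset.sum_congr rfl fun C _ => ?_
  rw [map_sum]
  refine Finset.sum_congr rfl fun C' _ => ?_
  rw [map_smul, map_smul, LinearMap.smul_apply, smul_eq_mul, smul_eq_mul,
    real_inner_comm v (s.s C z), real_inner_comm w (s.s C' z)]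
  ring

/-- the potential without the Parseval frame -/
theorem potQ_eq (s : PF n M κ) (D0 : Bun n M κ0)
    (cc : κ1 → κ0 → (p : M) → TangentSpace 𝓘(ℝ, EuclideanSpace ℝ (Fin n)) p) (y y' : κ0) (z : M) :
    potQ s D0 cc y y' z = - (1 / 2) * ∑ y'', ∑ x, D0.Om (cc x y) (cc x y'') y'' y' z := by
  unfold potQ
  congr 1
  refine Finset.sum_congr rfl fun y'' _ => Finset.sum_congr rfl fun x _ => ?_
  simp only [Om_eq]
  exact Omv_pars s D0 y'' y' z (cc x y z) (cc x y'' z)

variable {D0 : Bun n M κ0} {D1 : Bun n M κ1}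
  {cc : κ1 → κ0 → (p : M) → TangentSpace 𝓘(ℝ, EuclideanSpace ℝ (Fin n)) p}

theorem sm_potQ (s : PF n M κ) (hc : ∀ x y q, VSm n ∞ (cc x y) q) (y y' : κ0) :
    ContMDiff 𝓘E 𝓘(ℝ, ℝ) ∞ (potQ s D0 cc y y') := by
  have h1 : potQ s D0 cc y y'
      = fun z => - (1 / 2) * ∑ y'', ∑ x, D0.Om (cc x y) (cc x y'') y'' y' z :=
    funext fun z => potQ_eq s D0 cc y y' z
  rw [h1]
  exact sm_mul contMDiff_const (sm_sum Finset.univ fun y'' => sm_sum Finset.univ fun x =>
    smOm (hc x y) (hc x y'') y'' y')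

section germs

variable {z : M} {e : Fin n → EuclideanSpace ℝ (Fin n) → EuclideanSpace ℝ (Fin n)}
  (h : ONF (chartMetric n M z) (chartAt (EuclideanSpace ℝ (Fin n)) z).target
      (chartCentre n M z) e)
  {ι0 ι1 : Type} [Fintype ι0] [DecidableEq ι0] [Fintype ι1] [DecidableEq ι1]
  {a0 : Fin n → Matrix ι0 ι0 (SG (chartCentre n M z))}
  {a1 : Fin n → Matrix ι1 ι1 (SG (chartCentre n M z))}
  {c : Fin n → Matrix ι1 ι0 (SG (chartCentre n M z))}
  {j0 : Matrix κ0 ι0 (SG (chartCentre n M z))} {j1 : Matrix κ1 ι1 (SG (chartCentre n M z))}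
include h

/-- the curvature of the trivial bundle and of the frame -/
theorem curv_lf (hL : LF D0 h a0 j0) (k l : Fin n) :
    j0ᵀ * h.frameOf.curv (om D0 z e) k l = h.frameOf.curv a0 k l * j0ᵀ := by
  have h1 := HK9_714.curv_embed h.frameOf (om := om D0 z e) hL.dj k l
  have h2 := congrArg Matrix.transpose h1
  rw [Matrix.transpose_mul, Matrix.transpose_mul] at h2
  have h3 : (h.frameOf.curv a0 k l)ᵀ = - h.frameOf.curv a0 k l := by
    ext x y
    exact h.frameOf.curv_skew (lf_skew h hL) k l y x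
  have h4 : (h.frameOf.curv (om D0 z e) k l)ᵀ = - h.frameOf.curv (om D0 z e) k l := by
    classical
    ext x y
    refine h.frameOf.curv_skew (fun k x y => ?_) k l y x
    have := congrFun (congrFun (om_skew h (D := D0) k) y) x
    exact this
  rw [h3, h4, Matrix.neg_mul, Matrix.mul_neg] at h2
  exact (neg_injective h2).symm

/-- **the potential in the frames** -/
theorem fg_potQ (s : PF n M κ) (hC : CLoc D0 D1 cc h a0 a1 c j0 j1)
    (hc : ∀ x y q, VSm n ∞ (cc x y) q) :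
    (Matrix.of fun y y' => fg z (potQ s D0 cc y y')) = j0 * Q h.frameOf a0 c * j0ᵀ := by
  have e1 : ∀ y y', (fg z (potQ s D0 cc y y') : SG (chartCentre n M z))
      = - Frame.half * ∑ y'', ∑ x, ∑ k, ∑ l, (j1 * c k * j0ᵀ) x y * (j1 * c l * j0ᵀ) x y''
        * h.frameOf.curv (om D0 z e) k l y'' y' := by
    intro y y'
    have h1 : potQ s D0 cc y y'
        = fun z => - (1 / 2) * ∑ y'', ∑ x, D0.Om (cc x y) (cc x y'') y'' y' z :=
      funext fun z => potQ_eq s D0 cc y y' z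
    rw [h1, fg_eq, Sg129.fg_mul h.mem contMDiff_const (sm_sum Finset.univ fun y'' =>
      sm_sum Finset.univ fun x => smOm (hc x y) (hc x y'') y'' y'),
      Sg129.fg_const, Sg129.fg_sum h.mem Finset.univ
        (F := fun y'' q => ∑ x, D0.Om (cc x y) (cc x y'') y'' y' q)
        (fun y'' => sm_sum Finset.univ fun x => smOm (hc x y) (hc x y'') y'' y')]
    have e0 : algebraMap ℝ (SG (chartCentre n M z)) (- (1 / 2)) = - Frame.half := by
      rw [map_neg]; rfl
    rw [e0]
    congr 1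
    refine Finset.sum_congr rfl fun y'' _ => ?_
    rw [Sg129.fg_sum h.mem Finset.univ (F := fun x => D0.Om (cc x y) (cc x y'') y'' y')
        (fun x => smOm (hc x y) (hc x y'') y'' y')]
    refine Finset.sum_congr rfl fun x _ => ?_
    rw [← fg_eq, fg_Om h (hc x y) (hc x y'')]
    simp only [hC.sym]
  have e2 : ∀ k l, j0 * (((c k)ᵀ * c l) * h.frameOf.curv a0 k l) * j0ᵀ
      = (j1 * c k * j0ᵀ)ᵀ * (j1 * c l * j0ᵀ) * h.frameOf.curv (om D0 z e) k l := by
    intro k l
    have h2 : (j1 * c k * j0ᵀ)ᵀ * (j1 * c l * j0ᵀ) * h.frameOf.curv (om D0 z e) k l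
        = j0 * ((c k)ᵀ * ((j1ᵀ * j1) * (c l * (j0ᵀ * h.frameOf.curv (om D0 z e) k l)))) := by
      simp only [Matrix.transpose_mul, Matrix.transpose_transpose, Matrix.mul_assoc]
    rw [h2, hC.l1.jtj, curv_lf h hC.l0, Matrix.one_mul]
    simp only [Matrix.mul_assoc]
  ext y y'
  rw [Matrix.of_apply, e1 y y', Q]
  have e3 : j0 * (-Frame.half (S := SG (chartCentre n M z)) • ∑ i, ∑ j, ((c i)ᵀ * c j)
        * h.frameOf.curv a0 i j) * j0ᵀ
      = - Frame.half (S := SG (chartCentre n M z)) • ∑ i, ∑ j,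
        ((j1 * c i * j0ᵀ)ᵀ * (j1 * c j * j0ᵀ) * h.frameOf.curv (om D0 z e) i j) := by
    simp only [← e2, Matrix.mul_smul, Matrix.smul_mul, Matrix.mul_sum, Matrix.sum_mul]
  have e4 : ∀ i j, ((j1 * c i * j0ᵀ)ᵀ * (j1 * c j * j0ᵀ) * h.frameOf.curv (om D0 z e) i j) y y'
      = ∑ y'', ∑ x, (j1 * c i * j0ᵀ) x y * (j1 * c j * j0ᵀ) x y''
        * h.frameOf.curv (om D0 z e) i j y'' y' := by
    intro i j
    rw [Matrix.mul_apply]
    refine Finset.sum_congr rfl fun y'' _ => ?_
    rw [Matrix.mul_apply, Finset.sum_mul]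
    rfl
  rw [e3, Matrix.smul_apply, smul_eq_mul, Matrix.sum_apply]
  simp only [Matrix.sum_apply, e4]
  congr 1
  calc _ = ∑ y'', ∑ k, ∑ x, ∑ l, (j1 * c k * j0ᵀ) x y * (j1 * c l * j0ᵀ) x y''
        * h.frameOf.curv (om D0 z e) k l y'' y' := Finset.sum_congr rfl fun y'' _ => Finset.sum_comm
    _ = ∑ k, ∑ y'', ∑ x, ∑ l, (j1 * c k * j0ᵀ) x y * (j1 * c l * j0ᵀ) x y''
        * h.frameOf.curv (om D0 z e) k l y'' y' := Finset.sum_comm
    _ = ∑ k, ∑ y'', ∑ l, ∑ x, (j1 * c k * j0ᵀ) x y * (j1 * c l * j0ᵀ) x y''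
        * h.frameOf.curv (om D0 z e) k l y'' y' := Finset.sum_congr rfl fun k _ =>
          Finset.sum_congr rfl fun y'' _ => Finset.sum_comm
    _ = _ := Finset.sum_congr rfl fun k _ => Finset.sum_comm

end germs

end Crest.Agent.R249.Wk352
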