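import Crest.Agent.R249.WkB_352

/-!
Row 249, part C, leaf WEAK (helper352), part 3: the pointwise identities.

* `fg_dot`   : `fg z (∑ u_a v_a) = ⟨fU u, fU v⟩`;
* `sec_opA`, `sec_opB` : `A`, `B` map to sections;
* `comm_potQ` : `[Q, p] = 0`;
* `adj_pt`   : `⟨A u, w⟩ - ⟨u, B w⟩ = div (∑ u_y w_x cc_xy)`;
* `weak_pt`  : `⟨u, B A v⟩ = ⟨∇u, ∇v⟩ + ⟨u, Q v⟩ - div (∑ u_a ∇v_a)`.
-/

set_option autoImplicit false
set_option maxSynthPendingDepth 3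
set_option linter.unusedSectionVars false

open Filter Topology Set Bundle Manifold Matrix
open scoped ContDiff
open Crest.GeometryTopology.CoordMetric Crest.GeometryTopology.ChartCurvature
  Crest.GeometryTopology.PointedLimit
open Crest.Agent.R202.Tens Crest.Agent.R249.Vf281
  Crest.Agent.R249.Tz1_805 Crest.Agent.R249.Tz2_805
open Crest.Agent.R247.Bo84 hiding dM
open Crest.Agent.R249.Fr129 Crest.Agent.R249.C2_198
open Crest.Agent.R249.Sg129 (SG germ ev ONF dM dM_mul dM_sub dM_add dM_one dM_transpose sf sv)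
open Crest.Agent.R249.Tz805

noncomputable section

namespace Crest.Agent.R249.Wk352

variable {n : ℕ} {M : Type*} [TopologicalSpace M] [ChartedSpace (EuclideanSpace ℝ (Fin n)) M]
  [IsManifold 𝓘(ℝ, EuclideanSpace ℝ (Fin n)) ∞ M]
  [RiemannianBundle (fun x : M => TangentSpace 𝓘(ℝ, EuclideanSpace ℝ (Fin n)) x)]
  [IsContMDiffRiemannianBundle 𝓘(ℝ, EuclideanSpace ℝ (Fin n)) ∞ (EuclideanSpace ℝ (Fin n))
      (fun x : M => TangentSpace 𝓘(ℝ, EuclideanSpace ℝ (Fin n)) x)]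

local notation "𝔼" => EuclideanSpace ℝ (Fin n)
local notation "𝓘E" => 𝓘(ℝ, EuclideanSpace ℝ (Fin n))

variable {κ κ0 κ1 : Type} [Fintype κ] [Fintype κ0] [Fintype κ1]

/-- the value at the centre of the germ of a smooth function -/
lemma ev_fg' {f : M → ℝ} (hf : ContMDiff 𝓘E 𝓘(ℝ, ℝ) ∞ f) (z : M) :
    ev (fg z f : SG (chartCentre n M z)) = f z := Sg129.ev_fg hf

/-- equality of values from equality of germs -/
lemma eq_of_fg {f g : M → ℝ} {z : M} (hf : ContMDiff 𝓘E 𝓘(ℝ, ℝ) ∞ f)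
    (hg : ContMDiff 𝓘E 𝓘(ℝ, ℝ) ∞ g) (hfg : (fg z f : SG (chartCentre n M z)) = fg z g) :
    f z = g z := by
  rw [← ev_fg' hf z, ← ev_fg' hg z, hfg]

lemma sm_dot {u v : κ → M → ℝ} (hu : SmU (n := n) u) (hv : SmU (n := n) v) :
    ContMDiff 𝓘E 𝓘(ℝ, ℝ) ∞ (fun q => ∑ a, u a q * v a q) :=
  sm_sum Finset.univ fun a => sm_mul (hu a) (hv a)

lemma fg_dot (z : M) {u v : κ → M → ℝ} (hu : SmU (n := n) u) (hv : SmU (n := n) v) :
    (fg z (fun q => ∑ a, u a q * v a q) : SG (chartCentre n M z)) = fU z u ⬝ᵥ fU z v := by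
  rw [fg_eq, Sg129.fg_sum (centre_mem z) Finset.univ (F := fun a q => u a q * v a q)
    (fun a => sm_mul (hu a) (hv a)), dotProduct]
  exact Finset.sum_congr rfl fun a _ => Sg129.fg_mul (centre_mem z) (hu a) (hv a)

lemma fg_mat (z : M) {Q : κ0 → κ1 → M → ℝ} (hQ : ∀ a b, ContMDiff 𝓘E 𝓘(ℝ, ℝ) ∞ (Q a b))
    {u : κ1 → M → ℝ} (hu : SmU (n := n) u) (a : κ0) :
    (fg z (fun q => ∑ b, Q a b q * u b q) : SG (chartCentre n M z))
      = ((Matrix.of fun a b => fg z (Q a b)) *ᵥ fU z u) a := by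
  rw [fg_dot z (hQ a) hu]
  rfl

variable {D0 : Bun n M κ0} {D1 : Bun n M κ1}
  {cc : κ1 → κ0 → (p : M) → TangentSpace 𝓘(ℝ, EuclideanSpace ℝ (Fin n)) p}

section germs

variable {z : M} {e : Fin n → EuclideanSpace ℝ (Fin n) → EuclideanSpace ℝ (Fin n)}
  (h : ONF (chartMetric n M z) (chartAt (EuclideanSpace ℝ (Fin n)) z).target
      (chartCentre n M z) e)
  {ι0 ι1 : Type} [Fintype ι0] [DecidableEq ι0] [Fintype ι1] [DecidableEq ι1]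
  {a0 : Fin n → Matrix ι0 ι0 (SG (chartCentre n M z))}
  {a1 : Fin n → Matrix ι1 ι1 (SG (chartCentre n M z))}
  {c : Fin n → Matrix ι1 ι0 (SG (chartCentre n M z))}
  {j0 : Matrix κ0 ι0 (SG (chartCentre n M z))} {j1 : Matrix κ1 ι1 (SG (chartCentre n M z))}
include h

theorem sec_opA_pt (hC : CLoc D0 D1 cc h a0 a1 c j0 j1) (hc : ∀ x y q, VSm n ∞ (cc x y) q)
    {u : κ0 → M → ℝ} (hu : SmU (n := n) u) (hs : D0.Sec u) (x : κ1) :
    ∑ b, D1.p x b z * opA D0 cc u b z = opA D0 cc u x z := by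
  refine eq_of_fg (sm_dot (D1.smp x) (sm_opA hc hu)) (sm_opA hc hu x) ?_
  rw [fg_mat z D1.smp (sm_opA hc hu), ← hC.l1.jjt, fg_opA h hC hc hu hs, Matrix.mulVec_mulVec,
    Matrix.mul_assoc, hC.l1.jtj, Matrix.mul_one, ← fg_opA h hC hc hu hs]
  rfl

theorem comm_potQ_pt (s : PF n M κ) (hC : CLoc D0 D1 cc h a0 a1 c j0 j1)
    (hc : ∀ x y q, VSm n ∞ (cc x y) q) (a b : κ0) :
    ∑ r, potQ s D0 cc a r z * D0.p r b z = ∑ r, D0.p a r z * potQ s D0 cc r b z := by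
  refine eq_of_fg (sm_dot (sm_potQ s hc a) (fun r => D0.smp r b))
    (sm_dot (D0.smp a) (fun r => sm_potQ s hc r b)) ?_
  have h1 := fg_potQ h s hC hc
  have h2 := hC.l0.jjt
  have h3 : j0 * Q h.frameOf a0 c * j0ᵀ * (j0 * j0ᵀ) = j0 * j0ᵀ * (j0 * Q h.frameOf a0 c * j0ᵀ) := by
    have h4 : j0 * Q h.frameOf a0 c * j0ᵀ * (j0 * j0ᵀ)
        = j0 * (Q h.frameOf a0 c * ((j0ᵀ * j0) * j0ᵀ)) := by simp only [Matrix.mul_assoc]
    have h5 : j0 * j0ᵀ * (j0 * Q h.frameOf a0 c * j0ᵀ)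
        = j0 * ((j0ᵀ * j0) * (Q h.frameOf a0 c * j0ᵀ)) := by simp only [Matrix.mul_assoc]
    rw [h4, h5, hC.l0.jtj, Matrix.one_mul, Matrix.one_mul]
  rw [← h1, h2] at h3
  have h6 := congrFun (congrFun h3 a) b
  rw [Matrix.mul_apply, Matrix.mul_apply] at h6
  rw [fg_dot z (sm_potQ s hc a) (fun r => D0.smp r b),
    fg_dot z (D0.smp a) (fun r => sm_potQ s hc r b)]
  exact h6

/-- `⟨A u, w⟩ - ⟨u, B w⟩ = div X`, `X = ∑ u_y w_x cc_xy` -/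
theorem adj_pt (hC : CLoc D0 D1 cc h a0 a1 c j0 j1) (hc : ∀ x y q, VSm n ∞ (cc x y) q)
    {u : κ0 → M → ℝ} (hu : SmU (n := n) u) (hsu : D0.Sec u)
    {w : κ1 → M → ℝ} (hw : SmU (n := n) w) (hsw : D1.Sec w) :
    ∑ x, opA D0 cc u x z * w x z - ∑ y, u y z * opB D1 cc w y z
      = mDiv n (fun q => ∑ x, ∑ y, (w x q * u y q) • cc x y q) z := by
  have sX1 : ∀ x y q, VSm n ∞ (fun q => (w x q * u y q) • cc x y q) q := fun x y q =>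
    VSm.smul le_rfl ((sm_mul (hw x) (hu y)) q) (hc x y q)
  have sX2 : ∀ x q, VSm n ∞ (fun q => ∑ y, (w x q * u y q) • cc x y q) q := fun x q =>
    VSm.sum Finset.univ fun y _ => sX1 x y q
  have sX : ∀ q, VSm n ∞ (fun q => ∑ x, ∑ y, (w x q * u y q) • cc x y q) q := fun q =>
    VSm.sum Finset.univ fun x _ => sX2 x q
  have sA := sm_opA (D0 := D0) hc hu
  have sB := sm_opB (D1 := D1) hc hw
  refine eq_of_fg (sm_sub (sm_dot sA hw) (sm_dot hu sB)) (Sg129.contMDiff_mDiv sX) ?_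
  have hvX : ∀ k, h.vg (fun q => ∑ x, ∑ y, (w x q * u y q) • cc x y q) k
      = (c k *ᵥ (j0ᵀ *ᵥ fU z u)) ⬝ᵥ (j1ᵀ *ᵥ fU z w) := by
    intro k
    rw [h.vg_sum Finset.univ sX2]
    have e1 : ∀ x, h.vg (fun q => ∑ y, (w x q * u y q) • cc x y q) k
        = fU z w x * ((j1 * c k * j0ᵀ) *ᵥ fU z u) x := by
      intro x
      rw [h.vg_sum Finset.univ (sX1 x), Matrix.mulVec, dotProduct, Finset.mul_sum]
      refine Finset.sum_congr rfl fun y _ => ?_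
      rw [h.vg_smul (sm_mul (hw x) (hu y)) (hc x y), Sg129.fg_mul h.mem (hw x) (hu y),
        ← hC.sym x y k]
      change fg z (w x) * fg z (u y) * vg z e (cc x y) k = fg z (w x) * (vg z e (cc x y) k * fg z (u y))
      ring
    simp only [e1]
    have e2 : ∑ x, fU z w x * ((j1 * c k * j0ᵀ) *ᵥ fU z u) x
        = fU z w ⬝ᵥ ((j1 * c k * j0ᵀ) *ᵥ fU z u) := rfl
    rw [e2, dotProduct_comm, ← Matrix.mulVec_mulVec, ← Matrix.mulVec_mulVec,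
      ← Matrix.vecMul_transpose, ← Matrix.dotProduct_mulVec]
  rw [fg_eq, fg_eq, h.fg_mDiv sX, Sg129.fg_sub h.mem (sm_dot sA hw) (sm_dot hu sB), ← fg_eq, ← fg_eq,
    fg_dot z sA hw, fg_dot z hu sB, fg_opA h hC hc hu hsu, fg_opB h hC hc hw hsw]
  have e3 : (j1 *ᵥ dir h.frameOf a0 c (j0ᵀ *ᵥ fU z u)) ⬝ᵥ fU z w
      = dir h.frameOf a0 c (j0ᵀ *ᵥ fU z u) ⬝ᵥ (j1ᵀ *ᵥ fU z w) := by
    rw [← Matrix.vecMul_transpose, ← Matrix.dotProduct_mulVec]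
  have e4 : fU z u ⬝ᵥ (j0 *ᵥ dirs h.frameOf a1 c (j1ᵀ *ᵥ fU z w))
      = (j0ᵀ *ᵥ fU z u) ⬝ᵥ dirs h.frameOf a1 c (j1ᵀ *ᵥ fU z w) := by
    rw [Matrix.dotProduct_mulVec, ← Matrix.mulVec_transpose]
  rw [e3, e4, dir_adj (lf_skew h hC.l1) hC.par]
  have e5 : (h.vg fun q => ∑ x, ∑ y, (w x q * u y q) • cc x y q)
      = fun k => (c k *ᵥ (j0ᵀ *ᵥ fU z u)) ⬝ᵥ (j1ᵀ *ᵥ fU z w) := funext hvX
  rw [e5]
  rfl

/-- `⟨u, B A v⟩ = ⟨∇u, ∇v⟩ + ⟨u, Q v⟩ - div X`, `X = ∑ u_a ∇v_a` -/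
theorem weak_pt (s : PF n M κ) (hC : CLoc D0 D1 cc h a0 a1 c j0 j1)
    (hA : ∀ v : κ0 → M → ℝ, SmU (n := n) v → D0.Sec v → D1.Sec (opA D0 cc v))
    (hc : ∀ x y q, VSm n ∞ (cc x y) q)
    {u v : κ0 → M → ℝ} (hu : SmU (n := n) u) (hsu : D0.Sec u) (hv : SmU (n := n) v)
    (hsv : D0.Sec v) :
    ((∑ a, (inner ℝ (D0.cv u a z) (D0.cv v a z) : ℝ))
        + ∑ a, u a z * ∑ b, potQ s D0 cc a b z * v b z)
      - ∑ y, u y z * opB D1 cc (opA D0 cc v) y z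
      = mDiv n (fun q => ∑ a, u a q • D0.cv v a q) z := by
  have sX1 : ∀ a q, VSm n ∞ (fun q => u a q • D0.cv v a q) q := fun a q =>
    VSm.smul le_rfl (hu a q) (VSm_cv hv a q)
  have sX : ∀ q, VSm n ∞ (fun q => ∑ a, u a q • D0.cv v a q) q := fun q =>
    VSm.sum Finset.univ fun a _ => sX1 a q
  have sA := sm_opA (D0 := D0) hc hv
  have sB := sm_opB (D1 := D1) hc sA
  have sI : ∀ a, ContMDiff 𝓘E 𝓘(ℝ, ℝ) ∞ (fun q => (inner ℝ (D0.cv u a q) (D0.cv v a q) : ℝ)) :=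
    fun a => Sg129.contMDiff_inner (VSm_cv hu a) (VSm_cv hv a)
  have sQ : SmU (n := n) (fun a q => ∑ b, potQ s D0 cc a b q * v b q) := fun a =>
    sm_dot (sm_potQ s hc a) hv
  refine eq_of_fg (sm_sub (sm_add (sm_sum Finset.univ sI) (sm_dot hu sQ)) (sm_dot hu sB))
    (Sg129.contMDiff_mDiv sX) ?_
  have hvX : ∀ k, h.vg (fun q => ∑ a, u a q • D0.cv v a q) k
      = (j0ᵀ *ᵥ fU z u) ⬝ᵥ h.frameOf.cov a0 k (j0ᵀ *ᵥ fU z v) := by
    intro k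
    rw [h.vg_sum Finset.univ sX1]
    have e1 : ∀ a, h.vg (fun q => u a q • D0.cv v a q) k
        = fU z u a * (j0 *ᵥ h.frameOf.cov a0 k (j0ᵀ *ᵥ fU z v)) a := by
      intro a
      rw [h.vg_smul (hu a) (VSm_cv hv a), ← vg_eq h, vg_cv_sec h hC.l0 hv hsv]
      rfl
    simp only [e1]
    have e2 : ∑ a, fU z u a * (j0 *ᵥ h.frameOf.cov a0 k (j0ᵀ *ᵥ fU z v)) a
        = fU z u ⬝ᵥ (j0 *ᵥ h.frameOf.cov a0 k (j0ᵀ *ᵥ fU z v)) := rfl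
    rw [e2, Matrix.dotProduct_mulVec, ← Matrix.mulVec_transpose]
  have hI : (fg z (fun q => ∑ a, (inner ℝ (D0.cv u a q) (D0.cv v a q) : ℝ)) : SG (chartCentre n M z))
      = ∑ k, h.frameOf.cov a0 k (j0ᵀ *ᵥ fU z u) ⬝ᵥ h.frameOf.cov a0 k (j0ᵀ *ᵥ fU z v) := by
    rw [fg_eq, Sg129.fg_sum h.mem Finset.univ
      (F := fun a q => (inner ℝ (D0.cv u a q) (D0.cv v a q) : ℝ)) sI]
    have e1 : ∀ a, (Sg129.fg z (fun q => (inner ℝ (D0.cv u a q) (D0.cv v a q) : ℝ)) :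
        SG (chartCentre n M z)) = ∑ k, (j0 *ᵥ h.frameOf.cov a0 k (j0ᵀ *ᵥ fU z u)) a
          * (j0 *ᵥ h.frameOf.cov a0 k (j0ᵀ *ᵥ fU z v)) a := by
      intro a
      rw [h.fg_inner (VSm_cv hu a) (VSm_cv hv a)]
      refine Finset.sum_congr rfl fun k _ => ?_
      rw [← vg_eq h, ← vg_eq h, vg_cv_sec h hC.l0 hv hsv, vg_cv_sec h hC.l0 hu hsu]
    simp only [e1]
    rw [Finset.sum_comm]
    exact Finset.sum_congr rfl fun k _ => dot_j hC.l0.jtj _ _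
  have hQ : fU z (fun a q => ∑ b, potQ s D0 cc a b q * v b q)
      = (j0 * Q h.frameOf a0 c * j0ᵀ) *ᵥ fU z v := by
    funext a
    rw [← fg_potQ h s hC hc]
    exact fg_mat z (sm_potQ s hc) hv a
  rw [fg_eq, fg_eq, h.fg_mDiv sX, Sg129.fg_sub h.mem (sm_add (sm_sum Finset.univ sI) (sm_dot hu sQ))
    (sm_dot hu sB), Sg129.fg_add h.mem (sm_sum Finset.univ sI) (sm_dot hu sQ), ← fg_eq, ← fg_eq,
    ← fg_eq, fg_dot z hu sB, fg_dot z hu sQ, hI, hQ, fg_opB h hC hc sA (hA v hv hsv),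
    fg_opA h hC hc hv hsv, jt_j hC.l1.jtj, weitz hC.par hC.cl0]
  have e4 : ∀ x : ι0 → SG (chartCentre n M z), fU z u ⬝ᵥ (j0 *ᵥ x) = (j0ᵀ *ᵥ fU z u) ⬝ᵥ x := by
    intro x
    rw [Matrix.dotProduct_mulVec, ← Matrix.mulVec_transpose]
  have e5 : (h.vg fun q => ∑ a, u a q • D0.cv v a q)
      = fun k => (j0ᵀ *ᵥ fU z u) ⬝ᵥ h.frameOf.cov a0 k (j0ᵀ *ᵥ fU z v) := funext hvX
  have e6 : ∑ k, h.frameOf.cov h.frameOf.tan k (h.vg fun q => ∑ a, u a q • D0.cv v a q) k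
      = dvg h.frameOf (fun k => (j0ᵀ *ᵥ fU z u) ⬝ᵥ h.frameOf.cov a0 k (j0ᵀ *ᵥ fU z v)) := by
    rw [e5]; rfl
  rw [e6, dvg_dot (lf_skew h hC.l0), ← Matrix.mulVec_mulVec, ← Matrix.mulVec_mulVec, e4, e4,
    dotProduct_add, dotProduct_neg]
  ring

end germs

end Crest.Agent.R249.Wk352
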