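import Crest.Agent.R249.WkC_352
import Crest.Agent.R249.TzM_805

/-!
Row 249, part C, leaf WEAK (helper352), part 4: `weakStmt : WeakStmt n M` for closed `M`
(interface of TzM_805).
-/

set_option autoImplicit false
set_option maxSynthPendingDepth 3
set_option linter.unusedSectionVars false

open Filter Topology Set Bundle Manifold Matrix MeasureTheory
open scoped ContDiff ENNReal NNReal
open Crest.GeometryTopology.CoordMetric Crest.GeometryTopology.ChartCurvature
  Crest.GeometryTopology.PointedLimit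
open Crest.Agent.R202.Tens Crest.Agent.R249.Vf281
  Crest.Agent.R249.Tz1_805 Crest.Agent.R249.Tz2_805
open Crest.Agent.R247.Bo84 hiding dM
open Crest.Agent.R249.Fr129 Crest.Agent.R249.C2_198
open Crest.Agent.R249.Sg129 (SG germ ev ONF)
open Crest.Agent.R249.Tv57
open Crest.Agent.R249.Tz805

noncomputable section

namespace Crest.Agent.R249.Wk352

variable {n : ℕ} {M : Type*} [MetricSpace M] [ChartedSpace (EuclideanSpace ℝ (Fin n)) M]
  [IsManifold (𝓡 n) ∞ M]
  [RiemannianBundle (fun p : M => TangentSpace (𝓡 n) p)]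
  [IsContMDiffRiemannianBundle (𝓡 n) ∞ (EuclideanSpace ℝ (Fin n)) (fun p : M => TangentSpace (𝓡 n) p)]
  [IsRiemannianManifold (𝓡 n) M] [MeasurableSpace M] [BorelSpace M]
  [SecondCountableTopology M] [Nonempty M]

local notation "𝔼" => EuclideanSpace ℝ (Fin n)

/-- functions which differ by a divergence have the same integral -/
theorem integral_eq_of_mDiv [CompactSpace M] {f g : M → ℝ} {X : (p : M) → TangentSpace (𝓡 n) p}
    (hX : ∀ z, VSm n ∞ X z) (hfg : ∀ z, f z - g z = mDiv n X z) :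
    ∫ z, f z ∂(μHE[n] : Measure M) = ∫ z, g z ∂(μHE[n] : Measure M) := by
  obtain ⟨hi, h0⟩ := integral_mDiv_eq_zero (n := n) (X := X) isOpen_univ
    (fun z _ => (hX z).of_le (by simp)) isCompact_univ (subset_univ _)
    (fun z hz => absurd (mem_univ z) hz)
  by_cases hf : Integrable f (μHE[n] : Measure M)
  · have hg : Integrable g (μHE[n] : Measure M) := by
      have : g = fun z => f z - mDiv n X z := by
        funext z; rw [← hfg z]; ring
      rw [this]
      exact hf.sub hi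
    have h1 := integral_sub hf hg
    have h2 : ∫ z, (f z - g z) ∂(μHE[n] : Measure M) = 0 := by
      simp only [hfg]
      exact h0
    rw [h2] at h1
    linarith
  · have hg : ¬ Integrable g (μHE[n] : Measure M) := by
      intro hg
      apply hf
      have : f = fun z => g z + mDiv n X z := by
        funext z; rw [← hfg z]; ring
      rw [this]
      exact hg.add hi
    rw [integral_undef hf, integral_undef hg]

variable {κ κ0 κ1 : Type} [Fintype κ] [Fintype κ0] [Fintype κ1]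

/-- the swapped pair -/
def swapP (P : CPair n M κ κ0 κ1) : CPair n M κ κ1 κ0 where
  s := P.s
  D0 := P.D1
  D1 := P.D0
  cc := fun y x => P.cc x y
  smc y x := P.smc x y
  loc z := by
    obtain ⟨e, h, ι0, ι1, i1, i2, i3, i4, a0, a1, c, j0, j1, hC⟩ := P.loc z
    exact ⟨e, h, ι1, ι0, i3, i4, i1, i2, a1, a0, fun i => (c i)ᵀ, j1, j0, hC.swap h⟩
  sym0 := P.sym1
  sym1 := P.sym0

lemma sec_opA (P : CPair n M κ κ0 κ1) {u : κ0 → M → ℝ} (hu : SmU (n := n) u) (hs : P.D0.Sec u) :
    P.D1.Sec (opA P.D0 P.cc u) := by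
  intro x z
  obtain ⟨e, h, ι0, ι1, i1, i2, i3, i4, a0, a1, c, j0, j1, hC⟩ := P.loc z
  exact sec_opA_pt h hC P.smc hu hs x

lemma sec_opB (P : CPair n M κ κ0 κ1) {w : κ1 → M → ℝ} (hw : SmU (n := n) w) (hs : P.D1.Sec w) :
    P.D0.Sec (opB P.D1 P.cc w) := by
  intro y z
  have h1 := sec_opA (swapP P) hw hs y z
  have h2 : ∀ b, opB P.D1 P.cc w b z = - opA P.D1 (fun y x => P.cc x y) w b z := fun b => rfl
  simp only [h2, mul_neg, Finset.sum_neg_distrib]
  exact congrArg Neg.neg h1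

lemma comm_potQ (P : CPair n M κ κ0 κ1) (a b : κ0) (z : M) :
    ∑ r, potQ P.s P.D0 P.cc a r z * P.D0.p r b z = ∑ r, P.D0.p a r z * potQ P.s P.D0 P.cc r b z := by
  obtain ⟨e, h, ι0, ι1, i1, i2, i3, i4, a0, a1, c, j0, j1, hC⟩ := P.loc z
  exact comm_potQ_pt h P.s hC P.smc a b

theorem adj_int [CompactSpace M] (P : CPair n M κ κ0 κ1) {u : κ0 → M → ℝ} {w : κ1 → M → ℝ}
    (hu : SmU (n := n) u) (hw : SmU (n := n) w) (hsu : P.D0.Sec u) (hsw : P.D1.Sec w) :
    ∫ z, ∑ x, opA P.D0 P.cc u x z * w x z ∂(μHE[n] : Measure M)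
      = ∫ z, ∑ y, u y z * opB P.D1 P.cc w y z ∂(μHE[n] : Measure M) := by
  refine integral_eq_of_mDiv (X := fun q => ∑ x, ∑ y, (w x q * u y q) • P.cc x y q) (fun q => ?_)
    fun z => ?_
  · exact VSm.sum Finset.univ fun x _ => VSm.sum Finset.univ fun y _ =>
      VSm.smul le_rfl ((sm_mul (hw x) (hu y)) q) (P.smc x y q)
  · obtain ⟨e, h, ι0, ι1, i1, i2, i3, i4, a0, a1, c, j0, j1, hC⟩ := P.loc z
    exact adj_pt h hC P.smc hu hsu hw hsw

theorem weak_int [CompactSpace M] (P : CPair n M κ κ0 κ1) {u v : κ0 → M → ℝ}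
    (hu : SmU (n := n) u) (hv : SmU (n := n) v) (hsu : P.D0.Sec u) (hsv : P.D0.Sec v) :
    ∫ z, ∑ x, opA P.D0 P.cc u x z * opA P.D0 P.cc v x z ∂(μHE[n] : Measure M)
      = ∫ z, ((∑ a, (inner ℝ (P.D0.cv u a z) (P.D0.cv v a z) : ℝ))
        + ∑ a, u a z * ∑ b, potQ P.s P.D0 P.cc a b z * v b z) ∂(μHE[n] : Measure M) := by
  rw [adj_int P hu (sm_opA P.smc hv) hsu (sec_opA P hv hsv)]
  symm
  refine integral_eq_of_mDiv (X := fun q => ∑ a, u a q • P.D0.cv v a q) (fun q => ?_) fun z => ?_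
  · exact VSm.sum Finset.univ fun a _ => VSm.smul le_rfl (hu a q) (VSm_cv hv a q)
  · obtain ⟨e, h, ι0, ι1, i1, i2, i3, i4, a0, a1, c, j0, j1, hC⟩ := P.loc z
    exact weak_pt h P.s hC (fun v hv hsv => sec_opA P hv hsv) P.smc hu hsu hv hsv

/-- the `Dat` of the first bundle -/
def dat0 (T : ToF n M) (P : CPair n M κ κ0 κ1) : Dat n M κ0 :=
  P.D0.dat T (potQ P.s P.D0 P.cc) (sm_potQ P.s P.smc) P.sym0 (comm_potQ P)

lemma ed_dat0 (T : ToF n M) (P : CPair n M κ κ0 κ1) {u v : κ0 → M → ℝ}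
    (hu : SmU (n := n) u) (hv : SmU (n := n) v) (z : M) :
    (dat0 T P).ed u v z = (∑ a, (inner ℝ (P.D0.cv u a z) (P.D0.cv v a z) : ℝ))
        + ∑ a, u a z * ∑ b, potQ P.s P.D0 P.cc a b z * v b z := by
  unfold Dat.ed
  congr 1
  · refine Finset.sum_congr rfl fun a _ => ?_
    rw [dat0, Bun.cv_dat T P.D0 _ _ _ _ hu, Bun.cv_dat T P.D0 _ _ _ _ hv, T.inner_toF]
  · simp only [Finset.mul_sum]
    rw [Finset.sum_comm]
    refine Finset.sum_congr rfl fun b _ => Finset.sum_congr rfl fun a _ => ?_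
    change potQ P.s P.D0 P.cc a b z * u b z * v a z = _
    rw [P.sym0 a b z]
    ring

lemma opA_lin (D0 : Bun n M κ0) (cc : κ1 → κ0 → (p : M) → TangentSpace (𝓡 n) p) (a b : ℝ)
    (u v : κ0 → M → ℝ) (hu : SmU (n := n) u) (hv : SmU (n := n) v) :
    opA D0 cc (fun x z => a * u x z + b * v x z)
      = fun x z => a * opA D0 cc u x z + b * opA D0 cc v x z := by
  have h1 : ∀ y z, D0.cv (fun x z => a * u x z + b * v x z) y z
      = a • D0.cv u y z + b • D0.cv v y z := by
    intro y z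
    have h2 : mgrad n (fun z => a * u y z + b * v y z) z
        = a • mgrad n (u y) z + b • mgrad n (v y) z := by
      have hu' : MDifferentiableAt (𝓡 n) 𝓘(ℝ, ℝ) (u y) z := (hu y).mdifferentiableAt (by simp)
      have hv' : MDifferentiableAt (𝓡 n) 𝓘(ℝ, ℝ) (v y) z := (hv y).mdifferentiableAt (by simp)
      have h3 : MDifferentiableAt (𝓡 n) 𝓘(ℝ, ℝ) (fun z => a * u y z) z :=
        mdifferentiableAt_const.mul hu'
      have h4 : MDifferentiableAt (𝓡 n) 𝓘(ℝ, ℝ) (fun z => b * v y z) z :=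
        mdifferentiableAt_const.mul hv'
      have h5 := mgrad_add h3 h4
      rw [mgrad_const_mul a hu', mgrad_const_mul b hv'] at h5
      exact h5
    unfold Bun.cv
    rw [h2]
    simp only [smul_add, Finset.smul_sum, add_smul, mul_smul, Finset.sum_add_distrib]
    abel
  funext x z
  simp only [opA, h1, inner_add_left, inner_smul_left, RCLike.conj_to_real, Finset.sum_add_distrib,
    Finset.mul_sum]

lemma opB_lin (D1 : Bun n M κ1) (cc : κ1 → κ0 → (p : M) → TangentSpace (𝓡 n) p) (a b : ℝ)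
    (u v : κ1 → M → ℝ) (hu : SmU (n := n) u) (hv : SmU (n := n) v) :
    opB D1 cc (fun x z => a * u x z + b * v x z)
      = fun x z => a * opB D1 cc u x z + b * opB D1 cc v x z := by
  funext y z
  have h1 := congrFun (congrFun (opA_lin D1 (fun y x => cc x y) a b u v hu hv) y) z
  have h2 : ∀ w, opB D1 cc w y z = - opA D1 (fun y x => cc x y) w y z := fun w => rfl
  rw [h2, h2, h2, h1]
  ring

/-- the pair of adjoint operators -/
def dpair [CompactSpace M] (T : ToF n M) (P : CPair n M κ κ0 κ1) :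
    DPair (dat0 T P) (dat0 T (swapP P)) where
  A := opA P.D0 P.cc
  B := opB P.D1 P.cc
  smA _ hu := sm_opA P.smc hu
  smB _ hw := sm_opB P.smc hw
  secA _ hu hs := sec_opA P hu hs
  secB _ hw hs := sec_opB P hw hs
  linA a b u v hu hv := opA_lin P.D0 P.cc a b u v hu hv
  linB a b u v hu hv := opB_lin P.D1 P.cc a b u v hu hv
  adj _ _ hu hw hsu hsw := adj_int P hu hw hsu hsw
  w0 u v hu hv hsu hsv := by
    rw [weak_int P hu hv hsu hsv]
    exact integral_congr_ae (Eventually.of_forall fun z => (ed_dat0 T P hu hv z).symm)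
  w1 u v hu hv hsu hsv := by
    have h1 := weak_int (swapP P) hu hv hsu hsv
    have h2 : ∀ z, ∑ x, opB P.D1 P.cc u x z * opB P.D1 P.cc v x z
        = ∑ x, opA (swapP P).D0 (swapP P).cc u x z * opA (swapP P).D0 (swapP P).cc v x z := by
      intro z
      refine Finset.sum_congr rfl fun x _ => ?_
      change (- opA P.D1 (fun y x => P.cc x y) u x z) * (- opA P.D1 (fun y x => P.cc x y) v x z) = _
      rw [neg_mul_neg]
      rfl
    simp only [h2]
    rw [h1]
    exact integral_congr_ae (Eventually.of_forall fun z => (ed_dat0 T (swapP P) hu hv z).symm)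

/-- **leaf WEAK** -/
theorem weakStmt [CompactSpace M] : WeakStmt n M := by
  intro T κ κ0 κ1 _ _ _ P
  exact ⟨dat0 T P, dat0 T (swapP P), dpair T P, fun _ _ _ => rfl, rfl, rfl, fun _ _ _ => rfl, rfl,
    rfl, rfl, rfl⟩

end Crest.Agent.R249.Wk352
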